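import Crest.Agent.R231.A1Span_901

/-!
# Row 231, leaf T-A1, second file (helper901): from the strong form to the counting form `A1'` (`IfA_978` v2)

* `Binf_le_of` : `Binf A ⊤ j ≤ Bd A ⊤ j` for `j ≡ σ` from `A1Spanx901.A1_of`'s hypothesis
* `A1_field` : strong form + field `A2` give the counting form of the field `A1`
-/

set_option autoImplicit false

namespace Crest.Agent.R231.A1Fldx901

open Crest.Agent.R231.IfAx978 Crest.Agent.R231.A1Spanx901

variable {X : Mix}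

theorem Binf_le_top {A B : GS X} (j : ℕ) : Binf A B j ≤ Binf A ⊤ j := by
  rintro x ⟨c, -, h2, h3⟩
  exact ⟨c, fun _ => Submodule.mem_top, h2, h3⟩

theorem Binf_le_self {A B : GS X} (hB : Stab B) (hAB : ∀ j, A j ≤ B j) (j : ℕ) :
    Binf A B j ≤ B j := by
  rintro x ⟨c, h1, -, h3⟩
  refine add_mem_cancel (hAB j h3) ?_
  rcases j with _ | j
  · rw [DD_zero']
    exact hB.d _ _ (h1 _)
  · rw [DD_succ']
    exact (B _).add_mem (hB.d _ _ (h1 _)) (hB.De _ _ (h1 _))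

/-- strong form: nothing of parity `σ` is hit by Tate boundaries of `(⊤, A)` -/
theorem Binf_le_of {A : GS X} (hA : Stab A) (σ : ℕ)
    (hP : ∀ i, i % 2 = (σ + 1) % 2 → Zc A ⊤ i ≤ Perm A i) {j : ℕ} (hj : j % 2 = σ % 2) :
    Binf A ⊤ j ≤ Bd A ⊤ j := by
  rintro x ⟨c, -, h2, h3⟩
  exact add_mem_cancel (Submodule.mem_sup_right h3) (A1_of hA σ hP j hj c h2)

theorem rd_mono {V : Type*} [AddCommGroup V] [Module (ZMod 2) V] {P Q Q' : Submodule (ZMod 2) V}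
    (h : Q ≤ Q') : rd P Q ≤ rd P Q' := by
  unfold rd
  refine Module.length_le_of_injective
    (Submodule.mapQ (P.submoduleOf Q) (P.submoduleOf Q') (Submodule.inclusion h) ?_) ?_
  · rintro ⟨x, hx⟩ hx'
    simpa [Submodule.submoduleOf] using hx'
  · rw [← LinearMap.ker_eq_bot, Submodule.ker_mapQ, Submodule.eq_bot_iff]
    rintro _ ⟨⟨x, hx⟩, hx', rfl⟩
    rw [Submodule.mkQ_apply, Submodule.Quotient.mk_eq_zero]
    simpa [Submodule.submoduleOf] using hx'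

/-- **the field `A1` (counting form) from the strong form and the field `A2`** -/
theorem A1_field {F : ℝ → GS X} (F_mono : ∀ s t, s ≤ t → ∀ j, F s j ≤ F t j)
    (F_stab : ∀ t, Stab (F t)) {Crit : Set ℝ} (σ : ℕ)
    (hP : ∀ i, i % 2 = (σ + 1) % 2 → Zc (F 0) ⊤ i ≤ Perm (F 0) i)
    (A2 : ∃ C0 : ℕ, ∀ t : ℝ, 0 ≤ t → t ∉ Crit → ∀ M : ℕ,
      ∑ j ∈ Finset.range M, rd (Bd (F 0) (F t) j) (F t j ⊓ Bd (F 0) ⊤ j) ≤ C0) :
    ∃ C2 : ℕ, ∀ t : ℝ, 0 ≤ t → t ∉ Crit → ∀ M : ℕ,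
      ∑ j ∈ Finset.range M, (if j % 2 = σ % 2 then
        rd (Bd (F 0) (F t) j) (Binf (F 0) (F t) j) else 0) ≤ C2 := by
  obtain ⟨C0, h0⟩ := A2
  refine ⟨C0, fun t ht htc M => (Finset.sum_le_sum fun j _ => ?_).trans (h0 t ht htc M)⟩
  split_ifs with hj
  · refine rd_mono (le_inf (Binf_le_self (F_stab t) (F_mono 0 t ht) j) ?_)
    exact (Binf_le_top j).trans (Binf_le_of (F_stab 0) σ hP hj)
  · exact zero_le

end Crest.Agent.R231.A1Fldx901
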