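import Crest.Agent.R231.IfA_978

/-!
# Row 231, leaf T-A1 (helper901): permanent cycles and the field `A1`

Everything for a mixed complex `X` (`IfA_978.Mix`) and a graded submodule `A` (= `F 0`) stable under
`d` and `Δ`.

* `Perm A i` : the submodule of all `x : X.C i` which, modulo `Bd A ⊤ i`, are the leading coefficient of a
  family `w` with `(d + Δ) w = 0` modulo `A`
* `Bd_le_Perm`, `De_mem_Perm` (classes `Δ y`), `mem_Perm_of_De` (cycles with `Δ x ∈ A`)
* `Half X` : half turn operators `g`, `h` with `Δ = (1 + g) h`; `Δ` kills strictly `g`-invariant chains, so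
  `g`-invariant relative cycles are permanent (for `m` even: `z` and `E z`)
* `A1_of` : `Zc A ⊤ i ≤ Perm A i` for all `i ≡ σ + 1` implies the field `A1` of `Core`
-/

set_option autoImplicit false

namespace Crest.Agent.R231.A1Spanx901

open Crest.Agent.R231.IfAx978

variable {X : Mix}

theorem self_add {M : Type*} [AddCommGroup M] [Module (ZMod 2) M] (x : M) : x + x = 0 := by
  rw [← two_smul (ZMod 2) x, show (2 : ZMod 2) = 0 from rfl, zero_smul]

theorem add_mem_cancel {M : Type*} [AddCommGroup M] [Module (ZMod 2) M]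
    {S : Submodule (ZMod 2) M} {a b : M} (h : a + b ∈ S) (hb : b ∈ S) : a ∈ S := by
  have h1 := S.add_mem h hb
  rwa [add_assoc, self_add, add_zero] at h1

/-! ### `(d + Δ)² = 0` and single components -/

theorem DD_DD (c : ∀ j, X.C j) (j : ℕ) : DD (DD c) j = 0 := by
  rcases j with _ | _ | j
  · rw [DD_zero', DD_succ', map_add, X.dd, X.dDe0, add_zero]
  · have h := X.dDe 0 (c 1)
    rw [DD_succ', DD_succ', DD_zero', map_add, X.dd]
    refine (congrArg (· + (X.De 0) ((X.d 0) (c 1))) ((zero_add _).trans h)).trans (self_add _)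
  · have h := X.dDe (j + 1) (c (j + 2))
    rw [DD_succ', DD_succ', DD_succ', map_add, map_add, X.dd, zero_add, X.DeDe, add_zero]
    refine (congrArg (· + (X.De (j + 1)) ((X.d (j + 1)) (c (j + 2)))) h).trans (self_add _)

/-- family concentrated in degree `i` -/
def sg (i : ℕ) (x : X.C i) : ∀ j, X.C j := Pi.single i x

@[simp] theorem sg_self (i : ℕ) (x : X.C i) : sg i x i = x := Pi.single_eq_same i x

theorem sg_ne {i j : ℕ} (h : j ≠ i) (x : X.C i) : sg i x j = 0 := Pi.single_eq_of_ne h x

theorem DD_add (a b : ∀ j, X.C j) (j : ℕ) : DD (a + b) j = DD a j + DD b j := by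
  rw [map_add]; rfl

/-- `(d + Δ)` of a family concentrated in degree `i` lies in `A` as soon as `d x` and `Δ x` do -/
theorem DD_sg_mem {A : GS X} {i : ℕ} {x : X.C i} (h1 : ∀ k (hk : i = k + 1), X.d k (hk ▸ x) ∈ A k)
    (h2 : X.De i x ∈ A (i + 1)) (j : ℕ) : DD (sg i x) j ∈ A j := by
  rcases j with _ | j
  · rw [DD_zero']
    by_cases h : 1 = i
    · subst h
      rw [sg_self]
      exact h1 0 rfl
    · rw [sg_ne h, map_zero]; exact (A 0).zero_mem
  · rw [DD_succ']
    refine (A (j + 1)).add_mem ?_ ?_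
    · by_cases h : j + 2 = i
      · subst h
        rw [sg_self]
        exact h1 (j + 1) rfl
      · rw [sg_ne h, map_zero]; exact (A (j + 1)).zero_mem
    · by_cases h : j = i
      · subst h
        rw [sg_self]; exact h2
      · rw [sg_ne h, map_zero]; exact (A (j + 1)).zero_mem

/-! ### permanent cycles -/

/-- **permanent classes** in degree `i`, relative to `A` -/
def Perm (A : GS X) (i : ℕ) : Submodule (ZMod 2) (X.C i) where
  carrier := {x | ∃ w : (∀ j, X.C j), (∀ k, k < i → w k ∈ A k) ∧ x + w i ∈ Bd A ⊤ i ∧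
    ∀ k, DD w k ∈ A k}
  zero_mem' := ⟨0, fun k _ => (A k).zero_mem, by
    rw [zero_add]; exact Submodule.zero_mem _, fun k => by rw [map_zero]; exact (A k).zero_mem⟩
  add_mem' := by
    rintro x y ⟨w, h1, h2, h3⟩ ⟨w', h1', h2', h3'⟩
    refine ⟨w + w', fun k hk => (A k).add_mem (h1 k hk) (h1' k hk), ?_, fun k => ?_⟩
    · have := Submodule.add_mem _ h2 h2'
      have e : x + y + (w + w') i = x + w i + (y + w' i) := by
        rw [Pi.add_apply]; abel
      rwa [e]
    · rw [DD_add]; exact (A k).add_mem (h3 k) (h3' k)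
  smul_mem' := by
    rintro r x ⟨w, h1, h2, h3⟩
    refine ⟨r • w, fun k hk => (A k).smul_mem r (h1 k hk), ?_, fun k => ?_⟩
    · have := Submodule.smul_mem _ r h2
      rwa [smul_add] at this
    · rw [map_smul]; exact (A k).smul_mem r (h3 k)

theorem mem_Perm {A : GS X} {i : ℕ} {x : X.C i} : x ∈ Perm A i ↔
    ∃ w : (∀ j, X.C j), (∀ k, k < i → w k ∈ A k) ∧ x + w i ∈ Bd A ⊤ i ∧ ∀ k, DD w k ∈ A k := Iff.rfl

/-- boundaries are permanent (extension `0`) -/
theorem Bd_le_Perm (A : GS X) (i : ℕ) : Bd A ⊤ i ≤ Perm A i := fun x hx =>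
  ⟨0, fun k _ => (A k).zero_mem, by
    change x + 0 ∈ _
    rwa [add_zero], fun k => by rw [map_zero]; exact (A k).zero_mem⟩

/-- an element with `d x ∈ A` and `Δ x ∈ A` is permanent -/
theorem mem_Perm_of_De {A : GS X} {i : ℕ} {x : X.C i}
    (h1 : ∀ k (hk : i = k + 1), X.d k (hk ▸ x) ∈ A k) (h2 : X.De i x ∈ A (i + 1)) :
    x ∈ Perm A i := by
  refine ⟨sg i x, fun k hk => ?_, ?_, DD_sg_mem h1 h2⟩
  · rw [sg_ne hk.ne]; exact (A k).zero_mem
  · rw [sg_self, self_add]; exact Submodule.zero_mem _

/-- the classes `Δ y`, `y` a relative cycle -/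
theorem De_mem_Perm {A : GS X} (hA : Stab A) {i : ℕ} {y : X.C i} (hy : y ∈ Zc A ⊤ i) :
    X.De i y ∈ Perm A (i + 1) := by
  refine mem_Perm_of_De ?_ ?_
  · intro k hk
    obtain rfl : i = k := by omega
    change X.d i (X.De i y) ∈ A i
    rcases i with _ | i
    · rw [X.dDe0]; exact (A 0).zero_mem
    · rw [X.dDe]
      exact hA.De _ _ hy.2
  · rw [X.DeDe]; exact (A _).zero_mem

/-! ### half turn operators: strictly invariant elements -/

/-- half turn operators with `Δ = (1 + g) h` -/
structure Half (X : Mix) where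
  /-- rotation by a half turn -/
  g : ∀ n, X.C n →ₗ[ZMod 2] X.C n
  /-- half turn chain operator -/
  h : ∀ n, X.C n →ₗ[ZMod 2] X.C (n + 1)
  hg : ∀ n x, h n (g n x) = g (n + 1) (h n x)
  De_eq : ∀ n x, X.De n x = h n x + g (n + 1) (h n x)

/-- `Δ` kills strictly `g`-invariant chains -/
theorem Half.De_eq_zero (H : Half X) {n : ℕ} {x : X.C n} (hx : H.g n x = x) : X.De n x = 0 := by
  rw [H.De_eq, ← H.hg, hx, self_add]

/-- strictly `g`-invariant relative cycles are permanent.  (For `m` even and a cycle `z` invariant under the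
rotation by `1/m`, both `z` and `E z`, `E` = chain operator of the path of rotations from `0` to `1/m`, are
`g`-invariant.) -/
theorem Half.mem_Perm (H : Half X) {A : GS X} {i : ℕ} {x : X.C i} (hx : H.g i x = x)
    (h1 : ∀ k (hk : i = k + 1), X.d k (hk ▸ x) ∈ A k) : x ∈ Perm A i :=
  mem_Perm_of_De h1 (by rw [H.De_eq_zero hx]; exact (A _).zero_mem)

/-- `E z` is `g`-invariant if `ρ z = z`, `ρ E = E ρ`, `ρ^l = g` -/
theorem Half.inv_of_iter (H : Half X) {n l : ℕ} {ρ : X.C n →ₗ[ZMod 2] X.C n}
    (hl : ∀ x, ρ^[l] x = H.g n x) {x : X.C n} (hx : ρ x = x) : H.g n x = x := by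
  rw [← hl]
  clear hl
  induction l with
  | zero => rfl
  | succ l ih => rw [Function.iterate_succ_apply, hx, ih]

/-! ### the field `A1` -/

/-- changing the leading coefficient by a boundary -/
theorem Perm.exists_eq {A : GS X} {i : ℕ} {x : X.C i} (hx : x ∈ Perm A i) :
    ∃ w : (∀ j, X.C j), (∀ k, k < i → w k ∈ A k) ∧ x + w i ∈ A i ∧ ∀ k, DD w k ∈ A k := by
  obtain ⟨w, h1, h2, h3⟩ := hx
  obtain ⟨a, ⟨b, -, rfl⟩, f, hf, hab⟩ := Submodule.mem_sup.1 h2
  refine ⟨w + DD (sg (i + 1) b), fun k hk => ?_, ?_, fun k => ?_⟩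
  · rw [Pi.add_apply]
    refine (A k).add_mem (h1 k hk) ?_
    rcases k with _ | k
    · rw [DD_zero', sg_ne (by omega), map_zero]; exact (A 0).zero_mem
    · rw [DD_succ', sg_ne (by omega), sg_ne (by omega), map_zero, map_zero, add_zero]
      exact (A _).zero_mem
  · have h4 : DD (sg (i + 1) b) i = X.d i b := by
      rcases i with _ | i
      · rw [DD_zero', sg_self]
      · rw [DD_succ', sg_self, sg_ne (by omega), map_zero, add_zero]
    rw [Pi.add_apply, h4, ← add_assoc, ← hab]
    have : X.d i b + f + X.d i b = f + (X.d i b + X.d i b) := by abel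
    rw [this, self_add, add_zero]
    exact hf
  · rw [DD_add, DD_DD, add_zero]; exact h3 k

/-- **the field `A1`**: if all relative cycles of parity `σ + 1` are permanent, then nothing of parity `σ`
is hit -/
theorem A1_of {A : GS X} (hA : Stab A) (σ : ℕ)
    (hP : ∀ i, i % 2 = (σ + 1) % 2 → Zc A ⊤ i ≤ Perm A i) :
    ∀ j : ℕ, j % 2 = σ % 2 → ∀ c : (∀ i, X.C i), (∀ i, i < j → DD c i ∈ A i) →
      DD c j ∈ Bd A ⊤ j := by
  intro j hj
  -- downward induction on the first index `i` (of the parity of `j + 1`) with `c i ∉ A i`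
  have key : ∀ m i : ℕ, i % 2 = (j + 1) % 2 → j + 1 ≤ i + m → ∀ c : (∀ i, X.C i),
      (∀ k, k < j → DD c k ∈ A k) → (∀ k, k < i → k % 2 = i % 2 → c k ∈ A k) →
      DD c j ∈ Bd A ⊤ j := by
    intro m
    induction m using Nat.strong_induction_on with
    | _ m ih =>
      intro i hi him c hc hlow
      by_cases hij : j + 1 ≤ i
      · -- `c (j - 1) ∈ A`
        rcases j with _ | j
        · rw [DD_zero']
          exact Submodule.mem_sup_left ⟨c 1, Submodule.mem_top, rfl⟩
        · rw [DD_succ']
          refine Submodule.add_mem _ (Submodule.mem_sup_left ⟨c (j + 2), Submodule.mem_top, rfl⟩)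
            (Submodule.mem_sup_right (hA.De _ _ (hlow j (by omega) (by omega))))
      · -- `c i` is a relative cycle
        have hcyc : c i ∈ Zc A ⊤ i := by
          rcases i with _ | _ | i
          · exact Submodule.mem_top
          · refine ⟨Submodule.mem_top, ?_⟩
            have := hc 0 (by omega)
            rwa [DD_zero'] at this
          · refine ⟨Submodule.mem_top, ?_⟩
            have h1 := hc (i + 1) (by omega)
            rw [DD_succ'] at h1
            exact add_mem_cancel (S := A (i + 1)) h1 (hA.De _ _ (hlow i (by omega) (by omega)))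
        obtain ⟨w, hw1, hw2, hw3⟩ := Perm.exists_eq (hP i (by omega) hcyc)
        have h2 := ih (m - 2) (by omega) (i + 2) (by omega) (by omega) (c + w)
          (fun k hk => by
            rw [DD_add]; exact (A k).add_mem (hc k hk) (hw3 k))
          (fun k hk hpar => by
            rw [Pi.add_apply]
            rcases Nat.lt_or_ge k i with h | h
            · exact (A k).add_mem (hlow k h (by omega)) (hw1 k h)
            · obtain rfl : k = i := by omega
              exact hw2)
        rw [DD_add] at h2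
        exact add_mem_cancel h2 (Submodule.mem_sup_right (hw3 j))
  intro c hc
  exact key (j + 1) ((j + 1) % 2) (by omega) (by omega) c hc (fun k hk hpar => by omega)

end Crest.Agent.R231.A1Spanx901
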