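import Crest.Agent.R231.IfA_978

/-!
# Row 231 (S0357), A2 assembly (helper599)

Pure algebra over `IfAx978.Base`: bounded bars (block P) + uniformly bounded local homology (block GM)
+ bounded number of critical levels in intervals of fixed length ⇒ the field `A2` of `Core`.

* `rd` calculus : `rd_le_of_surj`, `rd_le_of_inj`, `rd_le_add`
* `rd_triple`   : `dim H(C, A) ≤ dim H(B, A) + dim H(C, B)`
* `rd_K`        : `dim ker (H_j(F t) → H_j(F t')) ≤ dim H_{j+1}(F t', F t)`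
* `A2_of`       : the field `A2`
-/

set_option autoImplicit false

namespace Crest.Agent.R231.A2x599

open Crest.Agent.R231.IfAx978

section rdc

variable {V W : Type*} [AddCommGroup V] [Module (ZMod 2) V] [AddCommGroup W] [Module (ZMod 2) W]

/-- a linear map inducing a surjection `Q/P → Q'/P'` -/
theorem rd_le_of_surj (f : V →ₗ[ZMod 2] W) {P Q : Submodule (ZMod 2) V}
    {P' Q' : Submodule (ZMod 2) W} (hQ : ∀ x ∈ Q, f x ∈ Q') (hP : ∀ x ∈ Q, x ∈ P → f x ∈ P')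
    (hs : ∀ y ∈ Q', ∃ x ∈ Q, f x - y ∈ P') : rd P' Q' ≤ rd P Q := by
  unfold rd
  let g : Q →ₗ[ZMod 2] Q' := f.restrict hQ
  have hg : P.submoduleOf Q ≤ (P'.submoduleOf Q').comap g := by
    intro x hx
    rw [Submodule.mem_comap]
    exact hP x.1 x.2 hx
  refine Module.length_le_of_surjective (Submodule.mapQ _ _ g hg) ?_
  intro y
  obtain ⟨⟨y, hy⟩, rfl⟩ := Submodule.Quotient.mk_surjective _ y
  obtain ⟨x, hx, hxy⟩ := hs y hy
  refine ⟨Submodule.Quotient.mk ⟨x, hx⟩, ?_⟩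
  rw [Submodule.mapQ_apply, Submodule.Quotient.eq]
  exact hxy

/-- a linear map inducing an injection `Q/P → Q'/P'` -/
theorem rd_le_of_inj (f : V →ₗ[ZMod 2] W) {P Q : Submodule (ZMod 2) V}
    {P' Q' : Submodule (ZMod 2) W} (hQ : ∀ x ∈ Q, f x ∈ Q') (hP : ∀ x ∈ Q, x ∈ P ↔ f x ∈ P') :
    rd P Q ≤ rd P' Q' := by
  unfold rd
  let g : Q →ₗ[ZMod 2] Q' := f.restrict hQ
  have hg : P.submoduleOf Q ≤ (P'.submoduleOf Q').comap g := by
    intro x hx
    rw [Submodule.mem_comap]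
    exact (hP x.1 x.2).1 hx
  refine Module.length_le_of_injective (Submodule.mapQ _ _ g hg) ?_
  rw [← LinearMap.ker_eq_bot, LinearMap.ker_eq_bot']
  intro x hx
  obtain ⟨⟨x, hxQ⟩, rfl⟩ := Submodule.Quotient.mk_surjective _ x
  rw [Submodule.mapQ_apply, Submodule.Quotient.mk_eq_zero] at hx
  rw [Submodule.Quotient.mk_eq_zero]
  exact (hP x hxQ).2 hx

theorem rd_mono {P Q Q' : Submodule (ZMod 2) V} (h : Q ≤ Q') : rd P Q ≤ rd P Q' :=
  rd_le_of_inj LinearMap.id (fun _ hx => h hx) fun _ _ => Iff.rfl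

theorem rd_anti {P P' Q : Submodule (ZMod 2) V} (h : P ≤ P') : rd P' Q ≤ rd P Q :=
  rd_le_of_surj LinearMap.id (fun _ hx => hx) (fun _ _ hx => h hx)
    fun y hy => ⟨y, hy, by simp⟩

theorem rd_eq_zero {P Q : Submodule (ZMod 2) V} (h : Q ≤ P) : rd P Q = 0 := by
  unfold rd
  rw [Module.length_eq_zero_iff]
  refine ⟨fun x y => ?_⟩
  obtain ⟨⟨x, hx⟩, rfl⟩ := Submodule.Quotient.mk_surjective _ x
  obtain ⟨⟨y, hy⟩, rfl⟩ := Submodule.Quotient.mk_surjective _ y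
  rw [Submodule.Quotient.eq]
  exact h (Submodule.sub_mem _ hx hy)

/-- `Q/P` is filtered by `R` -/
theorem rd_le_add (P R Q : Submodule (ZMod 2) V) : rd P Q ≤ rd P (R ⊓ Q) + rd R Q := by
  set N : Submodule (ZMod 2) (Q ⧸ P.submoduleOf Q) :=
    (R.submoduleOf Q).map (P.submoduleOf Q).mkQ with hN
  have h1 : rd P Q = Module.length (ZMod 2) N + Module.length (ZMod 2) ((Q ⧸ P.submoduleOf Q) ⧸ N) :=
    Module.length_eq_add_of_exact N.subtype N.mkQ (Submodule.subtype_injective _)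
      (Submodule.mkQ_surjective _) (LinearMap.exact_subtype_mkQ N)
  rw [h1]
  refine add_le_add ?_ ?_
  · -- `N` is a quotient of `(R ⊓ Q) / P`
    let φ : ↥(R ⊓ Q) →ₗ[ZMod 2] N :=
      LinearMap.codRestrict N
        ((P.submoduleOf Q).mkQ ∘ₗ Submodule.inclusion (inf_le_right : R ⊓ Q ≤ Q)) (by
          rintro ⟨x, hxR, hxQ⟩
          exact Submodule.mem_map_of_mem (f := (P.submoduleOf Q).mkQ)
            (show (⟨x, hxQ⟩ : Q) ∈ R.submoduleOf Q from hxR))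
    have hφ : P.submoduleOf (R ⊓ Q) ≤ LinearMap.ker φ := by
      rintro ⟨x, hxR, hxQ⟩ hx
      rw [LinearMap.mem_ker]
      apply Subtype.ext
      show (P.submoduleOf Q).mkQ ⟨x, hxQ⟩ = 0
      rw [Submodule.mkQ_apply, Submodule.Quotient.mk_eq_zero]
      exact hx
    refine Module.length_le_of_surjective (Submodule.liftQ _ φ hφ) ?_
    rintro ⟨y, hy⟩
    obtain ⟨⟨x, hxQ⟩, hxR, rfl⟩ := hy
    exact ⟨Submodule.Quotient.mk ⟨x, hxR, hxQ⟩, rfl⟩
  · let ψ : Q →ₗ[ZMod 2] ((Q ⧸ P.submoduleOf Q) ⧸ N) := N.mkQ ∘ₗ (P.submoduleOf Q).mkQ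
    have hψ : R.submoduleOf Q ≤ LinearMap.ker ψ := by
      intro x hx
      rw [LinearMap.mem_ker]
      show N.mkQ ((P.submoduleOf Q).mkQ x) = 0
      rw [Submodule.mkQ_apply, Submodule.Quotient.mk_eq_zero]
      exact Submodule.mem_map_of_mem hx
    refine Module.length_le_of_surjective (Submodule.liftQ _ ψ hψ) ?_
    intro y
    obtain ⟨y, rfl⟩ := Submodule.mkQ_surjective _ y
    obtain ⟨x, rfl⟩ := Submodule.mkQ_surjective _ y
    exact ⟨Submodule.Quotient.mk x, rfl⟩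

end rdc

/-! ### pairs -/

section pairs

variable {X : Mix}

theorem Zc_succ (A B : GS X) (j : ℕ) (x : X.C (j + 1)) :
    x ∈ Zc A B (j + 1) ↔ x ∈ B (j + 1) ∧ X.d j x ∈ A j := Iff.rfl

theorem mem_Bd (A B : GS X) (j : ℕ) (x : X.C j) :
    x ∈ Bd A B j ↔ ∃ y ∈ B (j + 1), ∃ a ∈ A j, X.d j y + a = x := by
  unfold Bd
  rw [Submodule.mem_sup]
  constructor
  · rintro ⟨_, ⟨y, hy, rfl⟩, a, ha, h⟩
    exact ⟨y, hy, a, ha, h⟩
  · rintro ⟨y, hy, a, ha, h⟩
    exact ⟨_, ⟨y, hy, rfl⟩, a, ha, h⟩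

/-- relative homology of a triple `A ≤ B ≤ C` -/
theorem rd_triple (A B C : GS X) (hAB : ∀ j, A j ≤ B j) (hBC : ∀ j, B j ≤ C j) (j : ℕ) :
    rd (Bd A C j) (Zc A C j) ≤ rd (Bd A B j) (Zc A B j) + rd (Bd B C j) (Zc B C j) := by
  refine (rd_le_add (Bd A C j) (Bd B C j) (Zc A C j)).trans (add_le_add ?_ ?_)
  · refine rd_le_of_surj LinearMap.id (P := Bd A B j) (Q := Zc A B j)
      (P' := Bd A C j) (Q' := Bd B C j ⊓ Zc A C j) ?_ ?_ ?_
    · intro x hx
      have h1 : x ∈ B j := by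
        cases j with
        | zero => exact hx
        | succ j => exact hx.1
      refine ⟨(mem_Bd ..).2 ⟨0, Submodule.zero_mem _, x, h1, by simp⟩, ?_⟩
      cases j with
      | zero => exact hBC 0 hx
      | succ j => exact ⟨hBC _ hx.1, hx.2⟩
    · intro x _ hx
      obtain ⟨y, hy, a, ha, rfl⟩ := (mem_Bd ..).1 hx
      exact (mem_Bd ..).2 ⟨y, hBC _ hy, a, ha, rfl⟩
    · rintro x ⟨hx, hxZ⟩
      obtain ⟨y, hy, b, hb, rfl⟩ := (mem_Bd ..).1 hx
      refine ⟨b, ?_, ?_⟩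
      · cases j with
        | zero => exact hb
        | succ j =>
          refine ⟨hb, ?_⟩
          have h2 : X.d j (X.d (j + 1) y + b) ∈ A j := hxZ.2
          rw [map_add, X.dd, zero_add] at h2
          exact h2
      · refine (mem_Bd ..).2 ⟨-y, Submodule.neg_mem _ hy, 0, Submodule.zero_mem _, ?_⟩
        rw [map_neg, add_zero, LinearMap.id_apply]
        abel
  · refine rd_mono ?_
    intro x hx
    cases j with
    | zero => exact hx
    | succ j => exact ⟨hx.1, hAB _ hx.2⟩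

/-- the kernel of `H_j(B, A) → H_j(C, A)` is a quotient of `H_{j+1}(C, B)` -/
theorem rd_K (A B C : GS X) (hAB : ∀ j, A j ≤ B j) (j : ℕ) : rd (Bd A B j) (B j ⊓ Bd A C j) ≤ rd (Bd B C (j + 1)) (Zc B C (j + 1)) := by
  refine rd_le_of_surj (X.d j) ?_ ?_ ?_
  · rintro x ⟨hx, hxB⟩
    exact ⟨hxB, (mem_Bd ..).2 ⟨x, hx, 0, Submodule.zero_mem _, by simp⟩⟩
  · intro x _ hx
    obtain ⟨y, hy, b, hb, rfl⟩ := (mem_Bd ..).1 hx
    refine (mem_Bd ..).2 ⟨b, hb, 0, Submodule.zero_mem _, ?_⟩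
    rw [map_add, X.dd, zero_add, add_zero]
  · rintro x ⟨hxB, hx⟩
    obtain ⟨y, hy, a, ha, rfl⟩ := (mem_Bd ..).1 hx
    refine ⟨y, ⟨hy, ?_⟩, (mem_Bd ..).2 ⟨0, Submodule.zero_mem _, -a, Submodule.neg_mem _ ha, ?_⟩⟩
    · have h1 := Submodule.sub_mem _ hxB (hAB j ha)
      rwa [add_sub_cancel_right] at h1
    · rw [map_zero]; abel

end pairs

/-! ### critical levels -/

section levels

variable (b : Base)

/-- total relative homology in degrees `< M` -/
noncomputable def hT (s t : ℝ) (M : ℕ) : ℕ∞ :=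
  ∑ j ∈ Finset.range M, rd (Bd (b.F s) (b.F t) j) (Zc (b.F s) (b.F t) j)

theorem hT_add {s t u : ℝ} (h1 : s ≤ t) (h2 : t ≤ u) (M : ℕ) :
    hT b s u M ≤ hT b s t M + hT b t u M := by
  unfold hT
  rw [← Finset.sum_add_distrib]
  exact Finset.sum_le_sum fun j _ => rd_triple _ _ _ (b.F_mono _ _ h1) (b.F_mono _ _ h2) j

theorem hT_zero {s t : ℝ} (h0 : 0 ≤ s) (hst : s ≤ t) (h : ∀ u ∈ b.Crit, ¬ (s ≤ u ∧ u ≤ t)) (M : ℕ) :
    hT b s t M = 0 := by
  unfold hT
  exact Finset.sum_eq_zero fun j _ => rd_eq_zero (b.noncrit s t h0 hst h j)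

/-- (GM) uniformly bounded local homology -/
def GMF (B : ℕ) : Prop := ∀ s ∈ b.Crit, ∃ e : ℝ, 0 < e ∧ ∀ u v : ℝ, 0 ≤ u → u < s → s < v →
  v - u < e → u ∉ b.Crit → v ∉ b.Crit → (∀ s' ∈ b.Crit, u ≤ s' → s' ≤ v → s' = s) →
  ∀ M : ℕ, hT b u v M ≤ B

theorem crit_fin_Icc (s t : ℝ) : (b.Crit ∩ Set.Icc s t).Finite :=
  (b.Crit_fin t).subset fun _ hx => ⟨hx.1, hx.2.2⟩

/-- the homology between two non-critical levels is bounded by the number of critical levels -/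
theorem hT_le {B : ℕ} (hG : GMF b B) (n : ℕ) : ∀ s t : ℝ, 0 ≤ s → s ≤ t → s ∉ b.Crit → t ∉ b.Crit →
    (b.Crit ∩ Set.Icc s t).ncard ≤ n → ∀ M : ℕ, hT b s t M ≤ ((n * B : ℕ) : ℕ∞) := by
  induction n with
  | zero =>
    intro s t h0 hst hs ht hn M
    have h1 : b.Crit ∩ Set.Icc s t = ∅ := by
      rwa [Nat.le_zero, Set.ncard_eq_zero (crit_fin_Icc b s t)] at hn
    rw [hT_zero b h0 hst (fun u hu h => by
      have : u ∈ b.Crit ∩ Set.Icc s t := ⟨hu, h⟩
      rw [h1] at this; exact this) M]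
    exact zero_le
  | succ n ih =>
    intro s t h0 hst hs ht hn M
    by_cases hemp : (b.Crit ∩ Set.Icc s t).Nonempty
    · -- the first critical level
      have hfin := crit_fin_Icc b s t
      obtain ⟨c, hc⟩ := hfin.exists_minimal hemp
      have hmin : ∀ x ∈ b.Crit ∩ Set.Icc s t, c ≤ x := fun x hx => by
        rcases le_total c x with h | h
        · exact h
        · exact hc.2 hx h
      obtain ⟨hcC, hcs, hct⟩ := hc.1
      have hsc : s < c := lt_of_le_of_ne hcs fun h => hs (h ▸ hcC)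
      have hct' : c < t := lt_of_le_of_ne hct fun h => ht (h ▸ hcC)
      obtain ⟨e, he, hG⟩ := hG c hcC
      -- a non-critical level just above `c`
      obtain ⟨v, hv1, hv2, hv3⟩ : ∃ v, c < v ∧ v < min t (c + e / 2) ∧
          ∀ x ∈ b.Crit ∩ Set.Icc s t, x ≠ c → v < x := by
        have hfin' := hfin.subset (Set.sdiff_subset (s := b.Crit ∩ Set.Icc s t) (t := {c}))
        have h1 : c < min t (c + e / 2) := lt_min hct' (by linarith)
        by_cases hne : ((b.Crit ∩ Set.Icc s t) \ {c}).Nonempty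
        · obtain ⟨c', hc'⟩ := hfin'.exists_minimal hne
          have h2 : c < c' := lt_of_le_of_ne (hmin c' hc'.1.1) (Ne.symm hc'.1.2)
          obtain ⟨v, hv1, hv2⟩ := exists_between (lt_min h1 h2)
          refine ⟨v, hv1, hv2.trans_le (min_le_left _ _), fun x hx hxc => ?_⟩
          have h3 : c' ≤ x := by
            rcases le_total c' x with h | h
            · exact h
            · exact hc'.2 ⟨hx, hxc⟩ h
          exact (hv2.trans_le (min_le_right _ _)).trans_le h3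
        · obtain ⟨v, hv1, hv2⟩ := exists_between h1
          exact ⟨v, hv1, hv2, fun x hx hxc => absurd ⟨x, hx, hxc⟩ hne⟩
      rw [lt_min_iff] at hv2
      -- a non-critical level just below `c`
      obtain ⟨u, hu1, hu2⟩ : ∃ u, max s (c - e / 2) < u ∧ u < c :=
        exists_between (max_lt hsc (by linarith))
      rw [max_lt_iff] at hu1
      have huC : u ∉ b.Crit := fun h => absurd (hmin u ⟨h, hu1.1.le, (hu2.trans hct').le⟩)
        (not_le.2 hu2)
      have hvC : v ∉ b.Crit := fun h =>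
        (lt_irrefl v) (hv3 v ⟨h, (hsc.trans hv1).le, hv2.1.le⟩ hv1.ne')
      have h1 : hT b s u M = 0 := hT_zero b h0 hu1.1.le (fun x hx h =>
        absurd (hmin x ⟨hx, h.1, (h.2.trans hu2.le).trans hct⟩) (not_le.2 (h.2.trans_lt hu2))) M
      have h2 : hT b u v M ≤ B := by
        refine hG u v (h0.trans hu1.1.le) hu2 hv1 (by linarith) huC hvC (fun x hx hx1 hx2 => ?_) M
        by_contra hne
        exact absurd (hv3 x ⟨hx, hu1.1.le.trans hx1, hx2.trans hv2.1.le⟩ hne) (not_lt.2 hx2)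
      have h3 : hT b v t M ≤ ((n * B : ℕ) : ℕ∞) := by
        refine ih v t (h0.trans (hsc.trans hv1).le) hv2.1.le hvC ht ?_ M
        have h4 : b.Crit ∩ Set.Icc v t ⊆ (b.Crit ∩ Set.Icc s t) \ {c} := by
          rintro x ⟨hx, hx1, hx2⟩
          refine ⟨⟨hx, (hsc.trans hv1).le.trans hx1, hx2⟩, fun h => ?_⟩
          rw [Set.mem_singleton_iff] at h
          rw [h] at hx1
          exact absurd hv1 (not_lt.2 hx1)
        have h5 := Set.ncard_le_ncard h4 (hfin.subset Set.sdiff_subset)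
        have h6 : c ∈ b.Crit ∩ Set.Icc s t := ⟨hcC, hcs, hct⟩
        rw [Set.ncard_sdiff_singleton_of_mem h6] at h5
        omega
      calc hT b s t M ≤ hT b s u M + hT b u t M := hT_add b hu1.1.le (hu2.trans hct').le M
        _ ≤ hT b s u M + (hT b u v M + hT b v t M) :=
          add_le_add le_rfl (hT_add b (hu2.trans hv1).le hv2.1.le M)
        _ ≤ 0 + (B + ((n * B : ℕ) : ℕ∞)) := add_le_add h1.le (add_le_add h2 h3)
        _ = (((n + 1) * B : ℕ) : ℕ∞) := by push_cast; ring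
    · rw [hT_zero b h0 hst (fun u hu h => hemp ⟨u, hu, h⟩) M]
      exact zero_le

/-- (BD) bounded bars -/
def BD (C : ℝ) : Prop := ∀ t : ℝ, 0 ≤ t → t ∉ b.Crit → ∀ j : ℕ,
  b.F t j ⊓ Bd (b.F 0) ⊤ j ≤ Bd (b.F 0) (b.F (t + C)) j

/-- (CNT) boundedly many critical levels in intervals of fixed length -/
def CNT : Prop := ∀ C : ℝ, ∃ Nc : ℕ, ∀ t : ℝ, 0 ≤ t → (b.Crit ∩ Set.Icc t (t + C)).ncard ≤ Nc

/-- **the field `A2`** -/
theorem A2_of {C : ℝ} {B : ℕ} (hBD : BD b C) (hG : GMF b B) (hC : CNT b) :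
    ∃ C0 : ℕ, ∀ t : ℝ, 0 ≤ t → t ∉ b.Crit → ∀ M : ℕ,
      ∑ j ∈ Finset.range M, rd (Bd (b.F 0) (b.F t) j) (b.F t j ⊓ Bd (b.F 0) ⊤ j) ≤ C0 := by
  obtain ⟨Nc, hN⟩ := hC (|C| + 1)
  refine ⟨Nc * B, fun t h0 ht M => ?_⟩
  -- a non-critical level above `t + C`
  obtain ⟨v, hv1, hv2⟩ : ∃ v, v ∉ b.Crit ∧ t + |C| ≤ v ∧ v ≤ t + (|C| + 1) := by
    by_contra hcon
    push Not at hcon
    have hinf : (Set.Icc (t + |C|) (t + (|C| + 1))).Infinite := Set.Icc_infinite (by linarith)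
    refine hinf ((crit_fin_Icc b (t + |C|) (t + (|C| + 1))).subset fun x hx => ⟨?_, hx⟩)
    by_contra hx'
    exact absurd hx.2 (not_le.2 (hcon x hx' hx.1))
  have hCa := neg_abs_le C
  have habs := le_abs_self C
  have htv : t ≤ v := by linarith [abs_nonneg C]
  calc ∑ j ∈ Finset.range M, rd (Bd (b.F 0) (b.F t) j) (b.F t j ⊓ Bd (b.F 0) ⊤ j)
      ≤ ∑ j ∈ Finset.range M, rd (Bd (b.F t) (b.F v) (j + 1)) (Zc (b.F t) (b.F v) (j + 1)) := by
        refine Finset.sum_le_sum fun j _ => ?_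
        refine le_trans (rd_mono (Q' := b.F t j ⊓ Bd (b.F 0) (b.F v) j) ?_)
          (rd_K (b.F 0) (b.F t) (b.F v) (b.F_mono _ _ h0) j)
        rintro x ⟨hx1, hx2⟩
        refine ⟨hx1, ?_⟩
        obtain ⟨y, hy, a, ha, rfl⟩ := (mem_Bd ..).1 (hBD t h0 ht j ⟨hx1, hx2⟩)
        exact (mem_Bd ..).2 ⟨y, b.F_mono _ _ (by linarith) _ hy, a, ha, rfl⟩
    _ ≤ hT b t v (M + 1) := by
        unfold hT
        rw [Finset.sum_range_succ' (fun j => rd (Bd (b.F t) (b.F v) j) (Zc (b.F t) (b.F v) j)) M]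
        exact le_self_add
    _ ≤ ((Nc * B : ℕ) : ℕ∞) := by
        refine hT_le b hG Nc t v h0 htv ht hv1 ?_ (M + 1)
        refine (Set.ncard_le_ncard ?_ (crit_fin_Icc b t (t + (|C| + 1)))).trans (hN t h0)
        rintro x ⟨hx, hx1, hx2⟩
        exact ⟨hx, hx1, hx2.trans hv2.2⟩

end levels

end Crest.Agent.R231.A2x599
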