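import Mathlib

/-!
# Row 231, block P (bounded bars), ALGEBRAIC END  (helper969)

* `LC` : levelled complex over `F_2` (chains of `Ω_t`, `t : ℝ`, empty for `t < 0`).
* `POut D τ C Y` : THE OUTPUT OF THE CHAIN LEVEL PART of block P (cut + centrality), as one Prop.
* `FinRk Y` : finite rank of `H_j(Ω_s) → H_j(Ω_{s'})`, `s < s'`.
* `BD_of_POut` : `POut` + `FinRk` ⟹ bounded bars `BD Y`.
* `WangOut`, `BDLam_of` : coarse Wang sequence + `BD(Ω)` ⟹ `BD(Λ, Λ⁰)`.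
-/

set_option autoImplicit false

namespace Crest.Agent.R231.BDAx969

/-- levelled complex over `F_2`. -/
structure LC where
  C : ℕ → Type
  [ac : ∀ j, AddCommGroup (C j)]
  [mo : ∀ j, Module (ZMod 2) (C j)]
  d : ∀ j, C (j + 1) →ₗ[ZMod 2] C j
  dd : ∀ j x, d j (d (j + 1) x) = 0
  F : ℝ → ∀ j, Submodule (ZMod 2) (C j)
  F_mono : ∀ s t, s ≤ t → ∀ j, F s j ≤ F t j
  F_exh : ∀ j x, ∃ t, x ∈ F t j
  F_stab : ∀ t j x, x ∈ F t (j + 1) → d j x ∈ F t j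

attribute [instance] LC.ac LC.mo

variable {Y : LC}

/-- `x` is a cycle -/
def LC.Cyc (Y : LC) : ∀ j, Y.C j → Prop
  | 0, _ => True
  | (j + 1), x => Y.d j x = 0

/-- `x` is a boundary at level `t` -/
def LC.Bnd (Y : LC) (t : ℝ) (j : ℕ) (x : Y.C j) : Prop :=
  ∃ w ∈ Y.F t (j + 1), Y.d j w = x

/-- `x` is a boundary at some level -/
def LC.Fin (Y : LC) (j : ℕ) (x : Y.C j) : Prop := ∃ w : Y.C (j + 1), Y.d j w = x

/-- bounded bars -/
def LC.BD (Y : LC) : Prop :=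
  ∃ Cb : ℝ, 0 ≤ Cb ∧ ∀ (j : ℕ) (t : ℝ) (x : Y.C j), 0 ≤ t → x ∈ Y.F t j → Y.Fin j x →
    Y.Bnd (t + Cb) j x

/-- finite rank of `H_j(Ω_s) → H_j(Ω_{s'})` (only used on finite classes) -/
def LC.FinRk (Y : LC) : Prop :=
  ∀ (j : ℕ) (s s' : ℝ), 0 ≤ s → s < s' → ∃ S : Finset (Y.C j),
    (∀ z ∈ S, z ∈ Y.F s j) ∧ (∀ z ∈ S, Y.Fin j z) ∧
    ∀ x ∈ Y.F s j, Y.Fin j x → ∃ T ⊆ S, Y.Bnd s' j (x + ∑ z ∈ T, z)

/-- OUTPUT of the geometric part of block P.  `D = n - 1`, `τ m = ` level of `x^m`.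
For `k ≥ 1`: every cycle `x` of degree `j` and level `t` satisfies, up to a shift `C` of the level,
`x = w · Z_k + y`  with `w = Φ_k x` of degree `j - 2kD` and level `t - τ_{2k-1} + C`,
`y` of level `τ_{2k-1} + C`, `y = 0` if `j > (2k-1)D`. -/
def POut (Y : LC) (D : ℕ) (τ : ℕ → ℝ) : Prop :=
  ∃ C : ℝ, 0 ≤ C ∧ ∀ (k : ℕ), 1 ≤ k → ∀ (j : ℕ) (t : ℝ) (x : Y.C j), 0 ≤ t → x ∈ Y.F t j →
    Y.Cyc j x →
    ∃ y ∈ Y.F (τ (2 * k - 1) + C) j, Y.Cyc j y ∧ ((2 * k - 1) * D < j → y = 0) ∧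
      (j < 2 * k * D → Y.Bnd (t + C) j (x + y)) ∧
      (∀ i : ℕ, j = i + 2 * k * D →
        -- the interval `[s0, t]` is empty: `Φ_k x = 0`
        ((t - τ (2 * k - 1) + C < 0 ∧ Y.Bnd (t + C) j (x + y)) ∨
        (0 ≤ t - τ (2 * k - 1) + C ∧
        ∃ w ∈ Y.F (t - τ (2 * k - 1) + C) i, Y.Cyc i w ∧ (Y.Fin j x → Y.Fin i w) ∧
          ∀ v : ℝ, 0 ≤ v → Y.Bnd v i w → Y.Bnd (max v 0 + τ (2 * k - 1) + C) j (x + y))))

theorem LC.Bnd.mono {s t : ℝ} (h : s ≤ t) {j : ℕ} {x : Y.C j} (hx : Y.Bnd s j x) : Y.Bnd t j x := by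
  obtain ⟨w, hw, rfl⟩ := hx
  exact ⟨w, Y.F_mono s t h _ hw, rfl⟩

theorem LC.Bnd.fin {s : ℝ} {j : ℕ} {x : Y.C j} (hx : Y.Bnd s j x) : Y.Fin j x := by
  obtain ⟨w, _, rfl⟩ := hx
  exact ⟨w, rfl⟩

theorem LC.Fin.add {j : ℕ} {x y : Y.C j} (hx : Y.Fin j x) (hy : Y.Fin j y) : Y.Fin j (x + y) := by
  obtain ⟨w, rfl⟩ := hx
  obtain ⟨v, rfl⟩ := hy
  exact ⟨w + v, by simp⟩

theorem LC.Bnd.add {s : ℝ} {j : ℕ} {x y : Y.C j} (hx : Y.Bnd s j x) (hy : Y.Bnd s j y) :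
    Y.Bnd s j (x + y) := by
  obtain ⟨w, hw, rfl⟩ := hx
  obtain ⟨v, hv, rfl⟩ := hy
  exact ⟨w + v, Submodule.add_mem _ hw hv, by simp⟩

theorem LC.Bnd.zero (s : ℝ) (j : ℕ) : Y.Bnd s j (0 : Y.C j) := ⟨0, Submodule.zero_mem _, by simp⟩

theorem LC.Bnd.sum {s : ℝ} {j : ℕ} (T : Finset (Y.C j)) (h : ∀ z ∈ T, Y.Bnd s j z) :
    Y.Bnd s j (∑ z ∈ T, z) := by
  classical
  induction T using Finset.induction_on with
  | empty => simpa using LC.Bnd.zero s j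
  | insert a T ha ih =>
    rw [Finset.sum_insert ha]
    exact (h a (Finset.mem_insert_self _ _)).add
      (ih fun z hz => h z (Finset.mem_insert_of_mem hz))

theorem two_add {M : Type*} [AddCommGroup M] [Module (ZMod 2) M] (x : M) : x + x = 0 := by
  have : (2 : ZMod 2) • x = 0 := by
    rw [show (2 : ZMod 2) = 0 from rfl, zero_smul]
  rwa [two_smul] at this

theorem add_add_self {M : Type*} [AddCommGroup M] [Module (ZMod 2) M] (x y : M) :
    x + y + y = x := by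
  rw [add_assoc, two_add, add_zero]

/-- every finite element of `Y` is finite at some level -/
theorem LC.Fin.exists_bnd {j : ℕ} {x : Y.C j} (hx : Y.Fin j x) : ∃ t, 0 ≤ t ∧ Y.Bnd t j x := by
  obtain ⟨w, rfl⟩ := hx
  obtain ⟨t, ht⟩ := Y.F_exh _ w
  exact ⟨max t 0, le_max_right _ _, w, Y.F_mono _ _ (le_max_left _ _) _ ht, rfl⟩

/-- finite classes of a fixed level die at a fixed level -/
theorem LC.FinRk.uniform (h : Y.FinRk) (j : ℕ) (s : ℝ) (hs : 0 ≤ s) :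
    ∃ T : ℝ, 0 ≤ T ∧ ∀ x ∈ Y.F s j, Y.Fin j x → Y.Bnd T j x := by
  classical
  obtain ⟨S, _, hS2, hS3⟩ := h j s (s + 1) hs (by linarith)
  have hch : ∀ z : {z // z ∈ S}, ∃ t, 0 ≤ t ∧ Y.Bnd t j z.1 := fun z => (hS2 z.1 z.2).exists_bnd
  choose f hf0 hf using hch
  refine ⟨(s + 1) + ∑ z : {z // z ∈ S}, f z, by
    have : 0 ≤ ∑ z : {z // z ∈ S}, f z := Finset.sum_nonneg fun z _ => hf0 z
    linarith, ?_⟩
  intro x hx hfin
  obtain ⟨T, hT, hb⟩ := hS3 x hx hfin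
  have hsum : Y.Bnd ((s + 1) + ∑ z : {z // z ∈ S}, f z) j (∑ z ∈ T, z) := by
    refine LC.Bnd.sum T fun z hz => ?_
    refine (hf ⟨z, hT hz⟩).mono ?_
    have := Finset.single_le_sum (f := f) (fun z _ => hf0 z) (Finset.mem_univ (⟨z, hT hz⟩ : {z // z ∈ S}))
    linarith
  have h1 : Y.Bnd ((s + 1) + ∑ z : {z // z ∈ S}, f z) j (x + ∑ z ∈ T, z) := hb.mono (by
    have : 0 ≤ ∑ z : {z // z ∈ S}, f z := Finset.sum_nonneg fun z _ => hf0 z
    linarith)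
  have := h1.add hsum
  rwa [add_add_self] at this

/-- **`BD` for the based loops from the output of the cut/centrality part.** -/
theorem BD_of_POut (D : ℕ) (hD : 1 ≤ D) (τ : ℕ → ℝ) (hτ : ∀ m, 0 ≤ τ m)
    (hP : POut Y D τ) (hF : Y.FinRk) (hcyc : ∀ j (x : Y.C j), Y.Fin j x → Y.Cyc j x) : Y.BD := by
  classical
  obtain ⟨C, hC, hP⟩ := hP
  -- low degrees
  have huni : ∀ j : ℕ, ∃ T : ℝ, 0 ≤ T ∧ ∀ x ∈ Y.F (τ 1 + C) j, Y.Fin j x → Y.Bnd T j x :=
    fun j => hF.uniform j _ (by have := hτ 1; linarith)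
  choose T hT0 hT using huni
  set T1 : ℝ := ∑ j ∈ Finset.range (D + 1), T j with hT1
  have hT1n : 0 ≤ T1 := Finset.sum_nonneg fun j _ => hT0 j
  have low : ∀ (j : ℕ) (t : ℝ) (x : Y.C j), j ≤ D → 0 ≤ t → x ∈ Y.F t j → Y.Fin j x →
      Y.Bnd (t + (C + T1)) j x := by
    intro j t x hj ht hx hfin
    obtain ⟨y, hy, _, _, hy2, _⟩ := hP 1 le_rfl j t x ht hx (hcyc j x hfin)
    have h1 : Y.Bnd (t + C) j (x + y) := hy2 (by omega)
    have h2 : Y.Fin j y := by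
      have := hfin.add h1.fin
      rwa [← add_assoc, two_add, zero_add] at this
    have hy' : y ∈ Y.F (τ 1 + C) j := by simpa using hy
    have h3 : Y.Bnd (t + (C + T1)) j y := by
      refine (hT j y hy' h2).mono ?_
      have : T j ≤ T1 := Finset.single_le_sum (f := T) (fun i _ => hT0 i)
        (Finset.mem_range.2 (by omega : j < D + 1))
      linarith
    have h4 := (h1.mono (by linarith : t + C ≤ t + (C + T1))).add h3
    rwa [add_add_self] at h4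
  refine ⟨C + C + (C + T1) + C, by linarith, ?_⟩
  intro j t x ht hx hfin
  by_cases hj : j ≤ D
  · exact (low j t x hj ht hx hfin).mono (by linarith)
  push Not at hj
  -- `k` maximal with `(2k-1)D < j`
  obtain ⟨k, hk1, hk2, hk3⟩ : ∃ k : ℕ, 1 ≤ k ∧ (2 * k - 1) * D < j ∧ j ≤ (2 * k + 1) * D := by
    have hex : ∃ k : ℕ, j ≤ (2 * k + 1) * D := ⟨j, by nlinarith⟩
    refine ⟨Nat.find hex, ?_, ?_, Nat.find_spec hex⟩
    · by_contra h0
      have h0' : Nat.find hex = 0 := by omega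
      have := Nat.find_spec hex
      rw [h0'] at this
      simp at this
      omega
    · have h0 : 1 ≤ Nat.find hex := by
        by_contra h0
        have h0' : Nat.find hex = 0 := by omega
        have := Nat.find_spec hex
        rw [h0'] at this
        simp at this
        omega
      have := Nat.find_min hex (show Nat.find hex - 1 < Nat.find hex by omega)
      push Not at this
      have he : 2 * (Nat.find hex - 1) + 1 = 2 * Nat.find hex - 1 := by omega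
      rwa [he] at this
  obtain ⟨y, _, _, hy1, hy2, hy3⟩ := hP k hk1 j t x ht hx (hcyc j x hfin)
  have hy0 : y = 0 := hy1 hk2
  subst hy0
  rw [add_zero] at hy2 hy3
  by_cases hj2 : j < 2 * k * D
  · exact (hy2 hj2).mono (by linarith)
  push Not at hj2
  obtain ⟨i, hi⟩ : ∃ i, j = i + 2 * k * D := ⟨j - 2 * k * D, by omega⟩
  have hiD : i ≤ D := by
    have : (2 * k + 1) * D = 2 * k * D + D := by ring
    omega
  rcases hy3 i hi with ⟨_, hb⟩ | ⟨hlev, w, hw, _, hwf, hR⟩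
  · exact hb.mono (by linarith)
  · have hb := low i _ w hiD hlev hw (hwf hfin)
    have := hR _ (by linarith) hb
    refine this.mono ?_
    rw [max_eq_left (by linarith)]
    linarith

end Crest.Agent.R231.BDAx969
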