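import Mathlib

/-!
# Row 231, block A (algebraic core): LITERAL INTERFACE, version 2  (helper978)

All chain groups are vector spaces over `ZMod 2`, indexed by `j : ℕ`.
* `C j`   = singular (normalised) `j`-chains of the whole loop space `Λ` (ABSOLUTE chains),
* `d`     = boundary, `De` = `Δ = (1+g)h` (fundamental class of the circle), degree `+1`,
* `tau`   = reversal of loops, `psi` = doubling `γ ↦ γ(2·)`,
* `F t j` = chains of `X_t` (`t : ℝ`); the constant loops are `F 0` (the "base").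
Everything "relative" is written with PAIRS `(A, B)` of graded submodules (chains of a pair of spaces),
no quotient type occurs:
* `Zc A B j` = relative cycles   = `{x ∈ B j | d x ∈ A (j-1)}`  (`= B 0` for `j = 0`),
* `Bd A B j` = relative boundaries = `d (B (j+1)) + A j`.
* `DD c = (d + Δ) c` on the product of all `C j` (the Tate complex with `u = 1`).
-/

set_option autoImplicit false

namespace Crest.Agent.R231.IfAx978

/-- mixed complex over `F_2` (in degrees `≥ 0`): `d² = 0`, `Δ² = 0`, `dΔ = Δd`. -/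
structure Mix where
  C : ℕ → Type
  [ac : ∀ j, AddCommGroup (C j)]
  [mo : ∀ j, Module (ZMod 2) (C j)]
  /-- boundary -/
  d : ∀ j, C (j + 1) →ₗ[ZMod 2] C j
  /-- `Δ` -/
  De : ∀ j, C j →ₗ[ZMod 2] C (j + 1)
  dd : ∀ j x, d j (d (j + 1) x) = 0
  DeDe : ∀ j x, De (j + 1) (De j x) = 0
  dDe0 : ∀ x, d 0 (De 0 x) = 0
  dDe : ∀ j x, d (j + 1) (De (j + 1) x) = De j (d j x)

attribute [instance] Mix.ac Mix.mo

/-- graded submodule -/
abbrev GS (X : Mix) : Type := ∀ j, Submodule (ZMod 2) (X.C j)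

variable {X : Mix}

/-- relative cycles of the pair `(B, A)` -/
def Zc (A B : GS X) : GS X
  | 0 => B 0
  | (j + 1) => B (j + 1) ⊓ (A j).comap (X.d j)

/-- relative boundaries of the pair `(B, A)` -/
def Bd (A B : GS X) : GS X := fun j => (B (j + 1)).map (X.d j) ⊔ A j

/-- the differential `d + Δ` on the product of all chain groups -/
def DD : (∀ j, X.C j) →ₗ[ZMod 2] (∀ j, X.C j) where
  toFun c := fun j => Nat.casesOn (motive := fun j => X.C j) j (X.d 0 (c 1))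
    (fun i => X.d (i + 1) (c (i + 2)) + X.De i (c i))
  map_add' a b := by
    funext j
    cases j with
    | zero => simp
    | succ i => simp; abel
  map_smul' r a := by
    funext j
    cases j with
    | zero => simp
    | succ i => simp

@[simp] theorem DD_zero' (c : ∀ j, X.C j) : DD c 0 = X.d 0 (c 1) := rfl
@[simp] theorem DD_succ' (c : ∀ j, X.C j) (i : ℕ) :
    DD c (i + 1) = X.d (i + 1) (c (i + 2)) + X.De i (c i) := rfl

/-- graded submodule stable under `d` and `Δ` (chains of a `T`-invariant subspace) -/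
structure Stab (A : GS X) : Prop where
  d : ∀ j x, x ∈ A (j + 1) → X.d j x ∈ A j
  De : ∀ j x, x ∈ A j → X.De j x ∈ A (j + 1)

/-- dimension of `Q/(P ∩ Q)` (in `ℕ∞`) -/
noncomputable def rd {V : Type*} [AddCommGroup V] [Module (ZMod 2) V]
    (P Q : Submodule (ZMod 2) V) : ℕ∞ :=
  Module.length (ZMod 2) (Q ⧸ P.submoduleOf Q)

/-- SMITH isomorphism for the pair `(B, A)`, with half level pair `(B', A')`:
the map `psi` induces a bijection  `∏_j H_j(B', A') → H(∏_j B_j / A_j, d + Δ)`. -/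
structure Smith (psi : ∀ j, X.C j →ₗ[ZMod 2] X.C j) (A B A' B' : GS X) : Prop where
  surj : ∀ v : (∀ j, X.C j), (∀ j, v j ∈ B j) → (∀ j, DD v j ∈ A j) →
    ∃ y c : (∀ j, X.C j), (∀ j, y j ∈ Zc A' B' j) ∧ (∀ j, c j ∈ B j) ∧
      ∀ j, v j + psi j (y j) + DD c j ∈ A j
  inj : ∀ y c : (∀ j, X.C j), (∀ j, y j ∈ Zc A' B' j) → (∀ j, c j ∈ B j) →
    (∀ j, psi j (y j) + DD c j ∈ A j) → ∀ j, y j ∈ Bd A' B' j

/-- `B^∞`: leading terms of Tate boundaries of the pair `(B, A)` (`= ker(H_j(B,A) → E_j(B,A))`). -/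
def Binf (A B : GS X) : GS X := fun j =>
  { carrier := {x | ∃ c : (∀ i, X.C i), (∀ i, c i ∈ B i) ∧ (∀ i, i < j → DD c i ∈ A i) ∧
      x + DD c j ∈ A j}
    zero_mem' := ⟨0, fun i => (B i).zero_mem, fun i _ => by simp, by simp⟩
    add_mem' := by
      rintro x x' ⟨c, h1, h2, h3⟩ ⟨c', h1', h2', h3'⟩
      refine ⟨c + c', fun i => (B i).add_mem (h1 i) (h1' i), fun i hi => ?_, ?_⟩
      · rw [map_add]; exact (A i).add_mem (h2 i hi) (h2' i hi)
      · have e : x + x' + DD (c + c') j = x + DD c j + (x' + DD c' j) := by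
          rw [map_add, Pi.add_apply]; abel
        rw [e]; exact (A j).add_mem h3 h3'
    smul_mem' := by
      rintro r x ⟨c, h1, h2, h3⟩
      refine ⟨r • c, fun i => (B i).smul_mem r (h1 i), fun i hi => ?_, ?_⟩
      · rw [map_smul]; exact (A i).smul_mem r (h2 i hi)
      · have := (A j).smul_mem r h3
        rw [smul_add] at this
        rw [map_smul]; exact this }

/-- The Tate class `[psi y]` of the pair `(B, A)` has a representative starting in degree `j`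
with leading term `x`. -/
def Lead (psi : ∀ j, X.C j →ₗ[ZMod 2] X.C j) (A B : GS X) (y : ∀ i, X.C i) (j : ℕ) (x : X.C j) :
    Prop :=
  ∃ c : (∀ i, X.C i), (∀ i, c i ∈ B i) ∧ (∀ i, i < j → psi i (y i) + DD c i ∈ A i) ∧
    psi j (y j) + DD c j + x ∈ Bd A B j

/-- DATA AND GENERAL PROPERTIES (blocks H and G). -/
structure Base where
  X : Mix
  tau : ∀ j, X.C j →ₗ[ZMod 2] X.C j
  psi : ∀ j, X.C j →ₗ[ZMod 2] X.C j
  tau_tau : ∀ j x, tau j (tau j x) = x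
  d_tau : ∀ j x, X.d j (tau (j + 1) x) = tau j (X.d j x)
  d_psi : ∀ j x, X.d j (psi (j + 1) x) = psi j (X.d j x)
  De_psi : ∀ j x, X.De j (psi j x) = 0
  /-- chains of `X_t` -/
  F : ℝ → GS X
  F_mono : ∀ s t, s ≤ t → ∀ j, F s j ≤ F t j
  F_exh : ∀ j x, ∃ t, x ∈ F t j
  F_stab : ∀ t, Stab (F t)
  F_tau : ∀ t j x, x ∈ F t j → tau j x ∈ F t j
  F_psi : ∀ t j x, x ∈ F t j → psi j x ∈ F (2 * t) j
  /-- the set of critical levels = lengths of closed geodesics (with all multiples) -/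
  Crit : Set ℝ
  Crit_pos : ∀ s ∈ Crit, 0 < s
  Crit_fin : ∀ T : ℝ, (Crit ∩ Set.Iic T).Finite
  Crit_two : ∀ s ∈ Crit, 2 * s ∈ Crit
  /-- (H1) nothing changes between non-critical levels -/
  noncrit : ∀ a b : ℝ, 0 ≤ a → a ≤ b → (∀ s ∈ Crit, ¬ (a ≤ s ∧ s ≤ b)) →
    ∀ j, Zc (F a) (F b) j ≤ Bd (F a) (F b) j
  /-- (H2) finiteness at non-critical levels -/
  fin : ∀ t : ℝ, 0 ≤ t → t ∉ Crit → ∀ j, rd (Bd (F 0) (F t) j) (Zc (F 0) (F t) j) ≠ ⊤
  bdd : ∀ t : ℝ, 0 ≤ t → t ∉ Crit → ∃ M : ℕ, ∀ j, M ≤ j → Zc (F 0) (F t) j ≤ Bd (F 0) (F t) j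
  /-- (S) Smith isomorphism at non-critical levels -/
  smith : ∀ t : ℝ, 0 ≤ t → t ∉ Crit → Smith psi (F 0) (F t) (F 0) (F (t / 2))

/-- The data and hypotheses from which block A derives `False`. -/
structure Core extends Base where
  /-- parity of `n - 1` -/
  σ : ℕ
  /-- (A1'): `dim B^∞_σ(t)` is bounded (all degrees `j ≡ σ` together) -/
  A1 : ∃ C2 : ℕ, ∀ t : ℝ, 0 ≤ t → t ∉ Crit → ∀ M : ℕ,
    ∑ j ∈ Finset.range M, (if j % 2 = σ % 2 then
      rd (Bd (F 0) (F t) j) (Binf (F 0) (F t) j) else 0) ≤ C2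
  /-- (A2): bounded number of finite classes, `K_j(t) = (F_t ∩ boundaries of Λ)/(boundaries of X_t)` -/
  A2 : ∃ C0 : ℕ, ∀ t : ℝ, 0 ≤ t → t ∉ Crit → ∀ M : ℕ,
    ∑ j ∈ Finset.range M, rd (Bd (F 0) (F t) j) (F t j ⊓ Bd (F 0) ⊤ j) ≤ C0
  /-- (A3): the degrees `d ∈ D` are `e i + 1`, `i = 0, 1, 2, …` (`= (2i+1)(n-1)`), first levels `lv i` -/
  e : ℕ → ℕ
  e_mono : StrictMono e
  e_par : ∀ i, (e i + 1) % 2 = σ % 2
  lv : ℕ → ℝ
  lv_below : ∀ i t, 0 ≤ t → t ∉ Crit → t < lv i →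
    Zc (F 0) (F t) (e i + 1) ≤ Bd (F 0) ⊤ (e i + 1)
  lv_above : ∀ i t, 0 ≤ t → t ∉ Crit → lv i < t →
    ¬ Zc (F 0) (F t) (e i + 1) ≤ Bd (F 0) ⊤ (e i + 1)
  lv_tendsto : ∀ T : ℝ, ∃ i0 : ℕ, ∀ i, i0 ≤ i → T < lv i
  lv_step : ∃ C1 : ℝ, ∀ i, lv (i + 1) ≤ lv i + C1
  /-- the transfer of a two term `tau`-Borel cycle is a boundary in degree `d ∈ D`
  (for `n ≥ 4`: trivial since `H_{d-1}(Λ,Λ⁰) = 0` and `dim H_d = 1`; in general this is
  `tr : M_d → N_d` is zero). -/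
  A3op : ∀ i, ∀ m0 : X.C (e i + 1), ∀ m1 : X.C (e i), m1 ∈ Zc (F 0) ⊤ (e i) →
    X.d (e i) m0 + (m1 + tau _ m1) ∈ F 0 (e i) → m0 + tau _ m0 ∈ Bd (F 0) ⊤ (e i + 1)
  /-- `tau` is trivial on `H_{d-1}(Λ,Λ⁰)` -/
  A3tau : ∀ i, ∀ m1 : X.C (e i), m1 ∈ Zc (F 0) ⊤ (e i) → m1 + tau _ m1 ∈ Bd (F 0) ⊤ (e i)
  /-- (A4) splitting of `L = H(X_b, X_a)`, `a < s < b` close to the critical level `s` (helper125's
  form): `P true s a b`, `P false s a b` = cycles whose class is in `L_+`, `L_-`.  Nothing is asked about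
  `P ε (s/2) (a/2) (b/2)` if `s/2` is not critical (block A then uses only `yp = ym = 0`). -/
  A4 : ∀ T : ℝ, ∃ P : Bool → ℝ → ℝ → ℝ → GS X, ∃ ε0 : ℝ, 0 < ε0 ∧
    ∀ s ∈ Crit, s ≤ T → ∀ a b : ℝ, 0 ≤ a → a < s → s < b → b - a < ε0 → a ∉ Crit → b ∉ Crit →
      (∀ s' ∈ Crit, a ≤ s' → s' ≤ b → s' = s) →
      (∀ ε j, Bd (F a) (F b) j ≤ P ε s a b j ∧ P ε s a b j ≤ Zc (F a) (F b) j) ∧
      (∀ j, Zc (F a) (F b) j ≤ P true s a b j ⊔ P false s a b j) ∧
      (∀ j, P true s a b j ⊓ P false s a b j ≤ Bd (F a) (F b) j) ∧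
      (∀ ε j x, x ∈ P ε s a b j → tau j x ∈ P (!ε) s a b j) ∧
      (∀ yp ym : (∀ i, X.C i), (∀ i, yp i ∈ P true (s / 2) (a / 2) (b / 2) i) →
        (∀ i, ym i ∈ P false (s / 2) (a / 2) (b / 2) i) →
        ∀ j, ∀ xp ∈ P true s a b j, ∀ xm ∈ P false s a b j,
        Lead psi (F a) (F b) (yp + ym) j (xp + xm) → Lead psi (F a) (F b) yp j xp)

end Crest.Agent.R231.IfAx978
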