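import Mathlib
import Crest.Agent.R231.IfA_978
import Crest.Agent.R231.BDAlg_969

/-!
# Row 231, block P, algebraic end, part 2 (helper969)

* `WangOut Y X F n i` : the output of the COARSE WANG SEQUENCE `Ω_t → X_t → Ω_t[n]`, as one Prop.
* `BDLam` : bounded bars for `(X_t, X_0)`; `BDLam_of : Y.BD → WangOut → BDLam`.
* `A2_of` : `BDLam` + bounded number of critical levels in windows + Gromoll–Meyer bound ⟹ the field
  `Core.A2` of `IfA_978`, literally.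
-/

set_option autoImplicit false

namespace Crest.Agent.R231.BDAx969

open Crest.Agent.R231.IfAx978

/-- OUTPUT of the coarse Wang sequence.  `Y` = chains of the based loops, `F` = chains of `X_t` in `Λ`,
`i t` = the chain map of `Ω_t → X_t` (`γ ↦ γ(t·)`). -/
structure WangOut (Y : LC) (X : Mix) (F : ℝ → GS X) (n : ℕ)
    (i : ℝ → ∀ j, Y.C j →ₗ[ZMod 2] X.C j) : Prop where
  lev : ∀ t j y, 0 ≤ t → y ∈ Y.F t j → i t j y ∈ F t j
  d_i : ∀ t j y, 0 ≤ t → y ∈ Y.F t (j + 1) → X.d j (i t (j + 1) y) = i t j (Y.d j y)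
  /-- compatibility of the levels -/
  compat : ∀ s t j y, 0 ≤ s → s ≤ t → y ∈ Y.F s j → Y.Cyc j y →
    i s j y + i t j y ∈ Bd (F 0) (F t) j
  /-- total injectivity `H(Ω) → H(Λ, Λ⁰)` (up to constant loops) -/
  inj : ∀ t j y, 0 ≤ t → y ∈ Y.F t j → Y.Cyc j y → i t j y ∈ Bd (F 0) ⊤ j →
    ∃ y0 ∈ Y.F 0 j, Y.Cyc j y0 ∧ Y.Fin j (y + y0) ∧ i t j y0 ∈ Bd (F 0) (F t) j
  /-- coarse exactness; `r = j_! x` -/
  exact : ∃ c : ℝ, 0 ≤ c ∧ ∀ t j x, 0 ≤ t → x ∈ Zc (F 0) (F t) j →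
    (j < n → ∃ y ∈ Y.F (t + c) j, Y.Cyc j y ∧ x + i (t + c) j y ∈ Bd (F 0) (F (t + c)) j) ∧
    (∀ l, j = l + n → ∃ r ∈ Y.F (t + c) l, Y.Cyc l r ∧ (x ∈ Bd (F 0) ⊤ j → Y.Fin l r) ∧
      ∀ v, t + c ≤ v → Y.Bnd v l r →
        ∃ y ∈ Y.F (v + c) j, Y.Cyc j y ∧ x + i (v + c) j y ∈ Bd (F 0) (F (v + c)) j)

/-- bounded bars for the pairs `(X_t, X_0)` -/
def BDLam (X : Mix) (F : ℝ → GS X) : Prop :=
  ∃ C : ℝ, 0 ≤ C ∧ ∀ t : ℝ, 0 ≤ t → ∀ j, F t j ⊓ Bd (F 0) ⊤ j ≤ Bd (F 0) (F (t + C)) j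

variable {X : Mix}

theorem Bd_mono {A B B' : GS X} (h : ∀ j, B j ≤ B' j) (j : ℕ) : Bd A B j ≤ Bd A B' j :=
  sup_le_sup_right (Submodule.map_mono (h (j + 1))) _

theorem Bd_mono' {A A' B B' : GS X} (hA : ∀ j, A j ≤ A' j) (h : ∀ j, B j ≤ B' j) (j : ℕ) :
    Bd A B j ≤ Bd A' B' j :=
  sup_le_sup (Submodule.map_mono (h (j + 1))) (hA j)

theorem LC.Cyc.add {Y : LC} : ∀ {j : ℕ} {x y : Y.C j}, Y.Cyc j x → Y.Cyc j y → Y.Cyc j (x + y)
  | 0, _, _, _, _ => trivial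
  | (j + 1), x, y, hx, hy => by
    show Y.d j (x + y) = 0
    rw [map_add, show Y.d j x = 0 from hx, show Y.d j y = 0 from hy, add_zero]

/-- an element of `F_t` which is zero relative to the base in `Λ` is a relative cycle -/
theorem mem_Zc_of_Bd {F : ℝ → GS X} (hst : ∀ j x, x ∈ F 0 (j + 1) → X.d j x ∈ F 0 j)
    {t : ℝ} {j : ℕ} {x : X.C j} (hx : x ∈ F t j) (hb : x ∈ Bd (F 0) ⊤ j) : x ∈ Zc (F 0) (F t) j := by
  cases j with
  | zero => exact hx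
  | succ j =>
    refine ⟨hx, ?_⟩
    obtain ⟨u, hu, v, hv, rfl⟩ := Submodule.mem_sup.1 hb
    obtain ⟨w, _, rfl⟩ := hu
    show X.d j _ ∈ F 0 j
    rw [map_add, X.dd, zero_add]
    exact hst _ _ hv

/-- **`BD(Λ, Λ⁰)` from `BD(Ω)` and the coarse Wang sequence.** -/
theorem BDLam_of {Y : LC} {F : ℝ → GS X} {n : ℕ} {i : ℝ → ∀ j, Y.C j →ₗ[ZMod 2] X.C j}
    (hmono : ∀ s t, s ≤ t → ∀ j, F s j ≤ F t j)
    (hst : ∀ j x, x ∈ F 0 (j + 1) → X.d j x ∈ F 0 j)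
    (hY : Y.BD) (W : WangOut Y X F n i) : BDLam X F := by
  obtain ⟨Cb, hCb, hBD⟩ := hY
  obtain ⟨c, hc, hex⟩ := W.exact
  -- final step: `x ~ i y` at level `u0 ≥ 0`, `y` of level `u0`, `x` finite
  have fin : ∀ (u0 : ℝ) (j : ℕ) (x : X.C j) (y : Y.C j), 0 ≤ u0 → y ∈ Y.F u0 j → Y.Cyc j y →
      x ∈ Bd (F 0) ⊤ j → x + i u0 j y ∈ Bd (F 0) (F u0) j → x ∈ Bd (F 0) (F (u0 + Cb)) j := by
    intro u0 j x y hu0 hy hcy hx hxy
    have hiy : i u0 j y ∈ Bd (F 0) ⊤ j := by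
      have := Submodule.add_mem _ hx (Bd_mono (B' := ⊤) (fun j => le_top) j hxy)
      rwa [← add_assoc, two_add, zero_add] at this
    obtain ⟨y0, hy0, hcy0, hfin, hb0⟩ := W.inj u0 j y hu0 hy hcy hiy
    have hy0' : y0 ∈ Y.F u0 j := Y.F_mono 0 u0 hu0 j hy0
    have hyy : y + y0 ∈ Y.F u0 j := Submodule.add_mem _ hy hy0'
    obtain ⟨w, hw, hdw⟩ := hBD j u0 _ hu0 hyy hfin
    have hu1 : (0 : ℝ) ≤ u0 + Cb := by linarith
    have hle : u0 ≤ u0 + Cb := by linarith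
    -- `i_u (y + y0)` is a boundary at level `u = u0 + Cb`
    have h1 : i (u0 + Cb) j (y + y0) ∈ Bd (F 0) (F (u0 + Cb)) j := by
      rw [← hdw, ← W.d_i _ _ _ hu1 hw]
      exact Submodule.mem_sup_left ⟨_, W.lev _ _ _ hu1 hw, rfl⟩
    have h2 := W.compat u0 (u0 + Cb) j (y + y0) hu0 hle hyy (hcy.add hcy0)
    have h3 : i u0 j (y + y0) ∈ Bd (F 0) (F (u0 + Cb)) j := by
      have := Submodule.add_mem _ h2 h1
      rwa [add_add_self] at this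
    rw [map_add] at h3
    have h4 : i u0 j y0 ∈ Bd (F 0) (F (u0 + Cb)) j := Bd_mono (hmono _ _ hle) j hb0
    have h5 : i u0 j y ∈ Bd (F 0) (F (u0 + Cb)) j := by
      have := Submodule.add_mem _ h3 h4
      rwa [add_add_self] at this
    have h6 := Submodule.add_mem _ (Bd_mono (hmono _ _ hle) j hxy) h5
    rwa [add_add_self] at h6
  refine ⟨c + Cb + c + Cb, by linarith, ?_⟩
  rintro t ht j x ⟨hx1, hx2⟩
  have hz := mem_Zc_of_Bd hst hx1 hx2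
  obtain ⟨hlow, hhigh⟩ := hex t j x ht hz
  by_cases hj : j < n
  · obtain ⟨y, hy, hcy, hxy⟩ := hlow hj
    have := fin (t + c) j x y (by linarith) hy hcy hx2 hxy
    exact Bd_mono (hmono _ _ (by linarith)) j this
  · push Not at hj
    obtain ⟨r, hr, hcr, hrf, hR⟩ := hhigh (j - n) (by omega)
    have hb := hBD _ _ r (by linarith) hr (hrf hx2)
    obtain ⟨y, hy, hcy, hxy⟩ := hR (t + c + Cb) (by linarith) hb
    have := fin _ j x y (by linarith) hy hcy hx2 hxy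
    exact Bd_mono (hmono _ _ (by linarith)) j this

end Crest.Agent.R231.BDAx969
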