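import Mathlib
import Crest.Agent.R231.IfA_978
import Crest.Agent.R231.BDLam_969

/-!
# Row 231, block P, algebraic end, part 3 (helper969): the field `Core.A2`

`A2_of` : `BDLam` + bounded number of critical levels in windows + Gromoll–Meyer bound `dim L(s) ≤ B`
⟹ `Core.A2` (literally).  `window_of_multiples` : the window hypothesis for `Crit ⊆ {m l_i}`.
-/

set_option autoImplicit false

namespace Crest.Agent.R231.BDAx969

open Crest.Agent.R231.IfAx978

section modules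
variable {V : Type*} [AddCommGroup V] [Module (ZMod 2) V]

/-- `length M ≤ length N + length P` if `ker g ≤ range f` -/
theorem length_le_add {N M P : Type*} [AddCommGroup N] [Module (ZMod 2) N] [AddCommGroup M]
    [Module (ZMod 2) M] [AddCommGroup P] [Module (ZMod 2) P] (f : N →ₗ[ZMod 2] M)
    (g : M →ₗ[ZMod 2] P) (h : LinearMap.ker g ≤ LinearMap.range f) :
    Module.length (ZMod 2) M ≤ Module.length (ZMod 2) N + Module.length (ZMod 2) P := by
  have h1 : Module.length (ZMod 2) M = Module.length (ZMod 2) (LinearMap.ker g) +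
      Module.length (ZMod 2) (M ⧸ LinearMap.ker g) :=
    Module.length_eq_add_of_exact (LinearMap.ker g).subtype (LinearMap.ker g).mkQ
      (Submodule.injective_subtype _) (Submodule.mkQ_surjective _)
      (LinearMap.exact_subtype_mkQ _)
  rw [h1]
  refine add_le_add ?_ ?_
  · calc Module.length (ZMod 2) (LinearMap.ker g)
        ≤ Module.length (ZMod 2) (LinearMap.range f) :=
          Module.length_le_of_injective (Submodule.inclusion h) (Submodule.inclusion_injective h)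
      _ ≤ Module.length (ZMod 2) N :=
          Module.length_le_of_surjective f.rangeRestrict (LinearMap.surjective_rangeRestrict f)
  · exact Module.length_le_of_injective _
      (LinearMap.ker_eq_bot.1 (Submodule.ker_liftQ_eq_bot _ g le_rfl le_rfl))

/-- the comparison map `Q/P → Q'/P'` -/
noncomputable def cmp (P Q P' Q' : Submodule (ZMod 2) V) (hQ : Q ≤ Q') (hP : P ≤ P') :
    (Q ⧸ P.submoduleOf Q) →ₗ[ZMod 2] (Q' ⧸ P'.submoduleOf Q') :=
  Submodule.mapQ (P.submoduleOf Q) (P'.submoduleOf Q') (Submodule.inclusion hQ)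
    (fun _ hx => Submodule.mem_comap.2 (hP hx))

theorem cmp_mk (P Q P' Q' : Submodule (ZMod 2) V) (hQ : Q ≤ Q') (hP : P ≤ P') (x : Q) :
    cmp P Q P' Q' hQ hP (Submodule.Quotient.mk x) = Submodule.Quotient.mk ⟨x.1, hQ x.2⟩ := rfl

theorem rd_exact (P Q P1 Q1 P2 Q2 : Submodule (ZMod 2) V) (h1 : Q1 ≤ Q) (h2 : P1 ≤ P) (h3 : Q ≤ Q2)
    (h4 : P ≤ P2) (h5 : Q ⊓ P2 ≤ Q1 ⊔ P) : rd P Q ≤ rd P1 Q1 + rd P2 Q2 := by
  refine length_le_add (cmp P1 Q1 P Q h1 h2) (cmp P Q P2 Q2 h3 h4) ?_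
  intro x hx
  induction x using Submodule.Quotient.induction_on with
  | H x =>
    have hx2 : (x : V) ∈ P2 := by
      have := (LinearMap.mem_ker.1 hx)
      rw [cmp_mk, Submodule.Quotient.mk_eq_zero] at this
      exact this
    obtain ⟨a, ha, b, hb, hab⟩ := Submodule.mem_sup.1 (h5 ⟨x.2, hx2⟩)
    refine ⟨Submodule.Quotient.mk ⟨a, ha⟩, ?_⟩
    rw [cmp_mk, Submodule.Quotient.eq]
    show (a : V) - (x : V) ∈ P
    rw [← hab]
    have : a - (a + b) = -b := by abel
    rw [this]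
    exact P.neg_mem hb

theorem rd_eq_zero {P Q : Submodule (ZMod 2) V} (h : Q ≤ P) : rd P Q = 0 := by
  unfold rd
  rw [Module.length_eq_zero_iff]
  have : P.submoduleOf Q = ⊤ := by
    rw [eq_top_iff]
    rintro x -
    exact h x.2
  rw [this]
  exact Submodule.Quotient.subsingleton_iff.2 rfl

theorem rd_mono_left {P P' Q : Submodule (ZMod 2) V} (h : P ≤ P') : rd P' Q ≤ rd P Q := by
  refine Module.length_le_of_surjective (cmp P Q P' Q le_rfl h) ?_
  intro x
  induction x using Submodule.Quotient.induction_on with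
  | H x => exact ⟨Submodule.Quotient.mk x, cmp_mk _ _ _ _ _ _ x⟩

end modules

variable {X : Mix}

theorem Zc_mono {A B A' B' : GS X} (hA : ∀ j, A j ≤ A' j) (hB : ∀ j, B j ≤ B' j) (j : ℕ) :
    Zc A B j ≤ Zc A' B' j := by
  cases j with
  | zero => exact hB 0
  | succ j => exact inf_le_inf (hB _) (Submodule.comap_mono (hA j))

/-- triple inequality -/
theorem rd_triple {A B C : GS X} (hAB : ∀ j, A j ≤ B j) (hBC : ∀ j, B j ≤ C j) (j : ℕ) :
    rd (Bd A C j) (Zc A C j) ≤ rd (Bd A B j) (Zc A B j) + rd (Bd B C j) (Zc B C j) := by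
  refine rd_exact _ _ _ _ _ _ (Zc_mono (fun _ => le_rfl) hBC j) (Bd_mono hBC j)
    (Zc_mono hAB (fun _ => le_rfl) j) (Bd_mono' hAB (fun _ => le_rfl) j) ?_
  rintro x ⟨hx1, hx2⟩
  obtain ⟨u, hu, b, hb, rfl⟩ := Submodule.mem_sup.1 hx2
  rw [add_comm]
  refine Submodule.add_mem_sup ?_ (Submodule.mem_sup_left hu)
  cases j with
  | zero => exact hb
  | succ j =>
    refine ⟨hb, ?_⟩
    obtain ⟨w, _, rfl⟩ := hu
    have := hx1.2
    show X.d j b ∈ A j
    have h2 : X.d j (X.d (j + 1) w + b) ∈ A j := this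
    rwa [map_add, X.dd, zero_add] at h2

/-- the kernel of `N_j(t) → N_j(u)` is a quotient of `H_{j+1}(X_u, X_t)` -/
theorem rd_ker_le {O A B : GS X} (hOA : ∀ j, O j ≤ A j) (j : ℕ) :
    rd (Bd O A j) (A j ⊓ Bd O B j) ≤ rd (Bd A B (j + 1)) (Zc A B (j + 1)) := by
  have hmem : ∀ z : Zc A B (j + 1), X.d j (z : X.C (j + 1)) ∈ A j ⊓ Bd O B j := by
    intro z
    exact ⟨z.2.2, Submodule.mem_sup_left ⟨z, z.2.1, rfl⟩⟩
  let f : Zc A B (j + 1) →ₗ[ZMod 2] (A j ⊓ Bd O B j : Submodule (ZMod 2) (X.C j)) :=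
    ((X.d j).comp (Zc A B (j + 1)).subtype).codRestrict _ hmem
  let g : (Zc A B (j + 1) ⧸ (Bd A B (j + 1)).submoduleOf (Zc A B (j + 1))) →ₗ[ZMod 2]
      ((A j ⊓ Bd O B j : Submodule (ZMod 2) (X.C j)) ⧸ (Bd O A j).submoduleOf (A j ⊓ Bd O B j)) :=
    Submodule.mapQ _ _ f (by
      rintro ⟨z, hz⟩ hz2
      show X.d j z ∈ Bd O A j
      obtain ⟨u, hu, b, hb, hzub⟩ := Submodule.mem_sup.1 (show z ∈ Bd A B (j + 1) from hz2)
      obtain ⟨w, _, rfl⟩ := hu
      rw [← hzub, map_add, X.dd, zero_add]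
      exact Submodule.mem_sup_left ⟨b, hb, rfl⟩)
  refine Module.length_le_of_surjective g ?_
  intro x
  induction x using Submodule.Quotient.induction_on with
  | H x =>
    obtain ⟨u, hu, b, hb, hub⟩ := Submodule.mem_sup.1 x.2.2
    obtain ⟨w, hw, rfl⟩ := hu
    have hwz : w ∈ Zc A B (j + 1) := by
      refine ⟨hw, ?_⟩
      show X.d j w ∈ A j
      have : X.d j w = (x : X.C j) - b := by rw [← hub]; abel
      rw [this]
      exact Submodule.sub_mem _ x.2.1 (hOA j hb)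
    refine ⟨Submodule.Quotient.mk ⟨w, hwz⟩, ?_⟩
    rw [Submodule.mapQ_apply, Submodule.Quotient.eq]
    show X.d j w - (x : X.C j) ∈ Bd O A j
    have : X.d j w - (x : X.C j) = -b := by rw [← hub]; abel
    rw [this]
    exact Submodule.neg_mem _ (Submodule.mem_sup_right hb)

/-- Gromoll–Meyer bound, in the form delivered by block GM. -/
def GMBound (F : ℝ → GS X) (Crit : Set ℝ) : Prop :=
  ∃ B : ℕ, ∀ s ∈ Crit, ∃ δ : ℝ, 0 < δ ∧ ∀ a b : ℝ, 0 ≤ a → s - δ < a → a < s → s < b → b < s + δ →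
    (∀ s' ∈ Crit, a ≤ s' → s' ≤ b → s' = s) →
    ∀ M : ℕ, ∑ j ∈ Finset.range M, rd (Bd (F a) (F b) j) (Zc (F a) (F b) j) ≤ B

/-- bounded number of critical levels in windows of bounded length -/
def Window (Crit : Set ℝ) : Prop :=
  ∀ L : ℝ, ∃ n : ℕ, ∀ t : ℝ, 0 ≤ t → (Crit ∩ Set.Icc t (t + L)).ncard ≤ n

theorem count_le {F : ℝ → GS X} {Crit : Set ℝ} (hmono : ∀ s t, s ≤ t → ∀ j, F s j ≤ F t j)
    (hfin : ∀ T : ℝ, (Crit ∩ Set.Iic T).Finite)
    (hnon : ∀ a b : ℝ, 0 ≤ a → a ≤ b → (∀ s ∈ Crit, ¬ (a ≤ s ∧ s ≤ b)) →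
      ∀ j, Zc (F a) (F b) j ≤ Bd (F a) (F b) j)
    {B : ℕ} (hB : ∀ s ∈ Crit, ∃ δ : ℝ, 0 < δ ∧ ∀ a b : ℝ, 0 ≤ a → s - δ < a → a < s → s < b →
      b < s + δ → (∀ s' ∈ Crit, a ≤ s' → s' ≤ b → s' = s) →
      ∀ M : ℕ, ∑ j ∈ Finset.range M, rd (Bd (F a) (F b) j) (Zc (F a) (F b) j) ≤ B) :
    ∀ N : ℕ, ∀ a b : ℝ, 0 ≤ a → a ≤ b → a ∉ Crit → b ∉ Crit →
      (Crit ∩ Set.Icc a b).ncard ≤ N → ∀ M : ℕ,
      ∑ j ∈ Finset.range M, rd (Bd (F a) (F b) j) (Zc (F a) (F b) j) ≤ ((N * B : ℕ) : ℕ∞) := by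
  have hfin2 : ∀ a b : ℝ, (Crit ∩ Set.Icc a b).Finite := fun a b =>
    (hfin b).subset fun x hx => ⟨hx.1, hx.2.2⟩
  intro N
  induction N with
  | zero =>
    intro a b ha hab _ _ hN M
    have he : Crit ∩ Set.Icc a b = ∅ := by
      rw [← Set.ncard_eq_zero (hfin2 a b)]
      omega
    have hz := hnon a b ha hab (fun s hs h => by
      have : s ∈ Crit ∩ Set.Icc a b := ⟨hs, h⟩
      rw [he] at this
      exact this)
    simp only [Nat.zero_mul, Nat.cast_zero]
    refine le_of_eq (Finset.sum_eq_zero fun j _ => rd_eq_zero (hz j))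
  | succ N ih =>
    intro a b ha hab haC hbC hN M
    by_cases he : Crit ∩ Set.Icc a b = ∅
    · have hz := hnon a b ha hab (fun s hs h => by
        have : s ∈ Crit ∩ Set.Icc a b := ⟨hs, h⟩
        rw [he] at this
        exact this)
      refine le_trans (le_of_eq (Finset.sum_eq_zero fun j _ => rd_eq_zero (hz j))) bot_le
    · -- the largest critical value
      have hne : (Crit ∩ Set.Icc a b).Nonempty := Set.nonempty_iff_ne_empty.2 he
      obtain ⟨s, ⟨hsC, hsa, hsb⟩, hmax⟩ := (hfin2 a b).exists_maximal hne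
      have hmax' : ∀ s' ∈ Crit, a ≤ s' → s' ≤ b → s' ≤ s := by
        intro s' h1 h2 h3
        by_contra hlt
        push Not at hlt
        exact absurd (hmax (y := s') ⟨h1, h2, h3⟩ hlt.le) (not_le.2 hlt)
      have hsa' : a < s := lt_of_le_of_ne hsa (fun h => haC (h ▸ hsC))
      have hsb' : s < b := lt_of_le_of_ne hsb (fun h => hbC (h ▸ hsC))
      obtain ⟨δ, hδ, hGM⟩ := hB s hsC
      -- largest critical value below `s` (or `a`)
      obtain ⟨p, hp1, hp2, hp3⟩ : ∃ p : ℝ, a ≤ p ∧ p < s ∧ ∀ s' ∈ Crit, p < s' → s' ≤ b → s' = s := by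
        by_cases he2 : (Crit ∩ Set.Icc a b) \ {s} = ∅
        · refine ⟨a, le_rfl, hsa', fun s' h1 h2 h3 => ?_⟩
          by_contra hne'
          have : s' ∈ (Crit ∩ Set.Icc a b) \ {s} := ⟨⟨h1, h2.le, h3⟩, hne'⟩
          rw [he2] at this
          exact this
        · have hne2 : ((Crit ∩ Set.Icc a b) \ {s}).Nonempty := Set.nonempty_iff_ne_empty.2 he2
          obtain ⟨p, ⟨⟨hpC, hpa, hpb⟩, hps⟩, hpmax⟩ :=
            ((hfin2 a b).subset Set.sdiff_subset).exists_maximal hne2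
          refine ⟨p, hpa, lt_of_le_of_ne (hmax' p hpC hpa hpb) hps, fun s' h1 h2 h3 => ?_⟩
          by_contra hne'
          have hm : s' ∈ (Crit ∩ Set.Icc a b) \ {s} := ⟨⟨h1, hpa.trans h2.le, h3⟩, hne'⟩
          exact absurd (hpmax hm h2.le) (not_le.2 h2)
      set a' : ℝ := (max p (s - δ) + s) / 2 with ha'
      set b' : ℝ := (s + min b (s + δ)) / 2 with hb'
      have hm1 : max p (s - δ) < s := max_lt hp2 (by linarith)
      have hm2 : s < min b (s + δ) := lt_min hsb' (by linarith)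
      have e1 : max p (s - δ) < a' := by rw [ha']; linarith
      have e2 : a' < s := by rw [ha']; linarith
      have e3 : s < b' := by rw [hb']; linarith
      have e4 : b' < min b (s + δ) := by rw [hb']; linarith
      have e5 : p < a' := lt_of_le_of_lt (le_max_left _ _) e1
      have e6 : s - δ < a' := lt_of_le_of_lt (le_max_right _ _) e1
      have e7 : b' < b := lt_of_lt_of_le e4 (min_le_left _ _)
      have e8 : b' < s + δ := lt_of_lt_of_le e4 (min_le_right _ _)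
      have ha'0 : 0 ≤ a' := by linarith
      have ha'C : a' ∉ Crit := fun h => by
        have := hp3 a' h e5 (by linarith)
        linarith
      -- the middle piece
      have hmid := hGM a' b' ha'0 e6 e2 e3 e8 (fun s' h1 h2 h3 => hp3 s' h1 (by linarith) (by linarith)) M
      -- the upper piece
      have hup := hnon b' b (by linarith) e7.le (fun s' h1 h2 => by
        have := hp3 s' h1 (by linarith [h2.1]) h2.2
        linarith [h2.1])
      -- the lower piece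
      have hlowcard : (Crit ∩ Set.Icc a a').ncard ≤ N := by
        have hsub : Crit ∩ Set.Icc a a' ⊆ (Crit ∩ Set.Icc a b) \ {s} := by
          rintro y ⟨hy1, hy2, hy3⟩
          refine ⟨⟨hy1, hy2, by linarith⟩, fun h => ?_⟩
          have : y = s := h
          linarith
        have h1 := Set.ncard_le_ncard hsub ((hfin2 a b).subset Set.sdiff_subset)
        have h2 : ((Crit ∩ Set.Icc a b) \ {s}).ncard + 1 = (Crit ∩ Set.Icc a b).ncard :=
          Set.ncard_sdiff_singleton_add_one ⟨hsC, hsa, hsb⟩ (hfin2 a b)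
        omega
      have hlow := ih a a' ha (by linarith) haC ha'C hlowcard M
      have hle1 : ∀ j, rd (Bd (F a) (F b) j) (Zc (F a) (F b) j) ≤
          rd (Bd (F a) (F a') j) (Zc (F a) (F a') j) + rd (Bd (F a') (F b') j) (Zc (F a') (F b') j) := by
        intro j
        have t1 := rd_triple (X := X) (hmono a a' (by linarith)) (hmono a' b (by linarith)) j
        have t2 := rd_triple (X := X) (hmono a' b' (by linarith)) (hmono b' b (by linarith)) j
        rw [rd_eq_zero (hup j), add_zero] at t2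
        exact t1.trans (add_le_add le_rfl t2)
      calc ∑ j ∈ Finset.range M, rd (Bd (F a) (F b) j) (Zc (F a) (F b) j)
          ≤ ∑ j ∈ Finset.range M, (rd (Bd (F a) (F a') j) (Zc (F a) (F a') j) +
              rd (Bd (F a') (F b') j) (Zc (F a') (F b') j)) := Finset.sum_le_sum fun j _ => hle1 j
        _ = ∑ j ∈ Finset.range M, rd (Bd (F a) (F a') j) (Zc (F a) (F a') j) +
              ∑ j ∈ Finset.range M, rd (Bd (F a') (F b') j) (Zc (F a') (F b') j) :=
            Finset.sum_add_distrib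
        _ ≤ ((N * B : ℕ) : ℕ∞) + (B : ℕ∞) := add_le_add hlow hmid
        _ = (((N + 1) * B : ℕ) : ℕ∞) := by
            rw [← Nat.cast_add]
            congr 1
            ring

/-- **the field `A2` of `Core`** -/
theorem A2_of {F : ℝ → GS X} {Crit : Set ℝ} (hmono : ∀ s t, s ≤ t → ∀ j, F s j ≤ F t j)
    (hfin : ∀ T : ℝ, (Crit ∩ Set.Iic T).Finite)
    (hnon : ∀ a b : ℝ, 0 ≤ a → a ≤ b → (∀ s ∈ Crit, ¬ (a ≤ s ∧ s ≤ b)) →
      ∀ j, Zc (F a) (F b) j ≤ Bd (F a) (F b) j)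
    (hW : Window Crit) (hGM : GMBound F Crit) (hBD : BDLam X F) :
    ∃ C0 : ℕ, ∀ t : ℝ, 0 ≤ t → t ∉ Crit → ∀ M : ℕ,
      ∑ j ∈ Finset.range M, rd (Bd (F 0) (F t) j) (F t j ⊓ Bd (F 0) ⊤ j) ≤ C0 := by
  obtain ⟨C, hC, hBD⟩ := hBD
  obtain ⟨B, hB⟩ := hGM
  obtain ⟨n, hn⟩ := hW (C + 1)
  refine ⟨n * B, fun t ht htC M => ?_⟩
  -- a non-critical level in `[t + C, t + C + 1]`
  obtain ⟨u, hu1, hu2, huC⟩ : ∃ u, t + C ≤ u ∧ u ≤ t + (C + 1) ∧ u ∉ Crit := by
    by_contra hcon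
    push Not at hcon
    have hsub : Set.Icc (t + C) (t + (C + 1)) ⊆ Crit ∩ Set.Iic (t + (C + 1)) :=
      fun u hu => ⟨hcon u hu.1 hu.2, hu.2⟩
    have hfin' := (hfin (t + (C + 1))).subset hsub
    exact absurd hfin' (Set.Icc_infinite (by linarith))
  have hcard : (Crit ∩ Set.Icc t u).ncard ≤ n := by
    refine le_trans (Set.ncard_le_ncard ?_ ?_) (hn t ht)
    · exact fun x hx => ⟨hx.1, hx.2.1, hx.2.2.trans hu2⟩
    · exact (hfin (t + (C + 1))).subset fun x hx => ⟨hx.1, hx.2.2⟩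
  have hcnt := count_le hmono hfin hnon hB n t u ht (by linarith) htC huC hcard (M + 1)
  have hj : ∀ j, rd (Bd (F 0) (F t) j) (F t j ⊓ Bd (F 0) ⊤ j) ≤
      rd (Bd (F t) (F u) (j + 1)) (Zc (F t) (F u) (j + 1)) := by
    intro j
    have heq : F t j ⊓ Bd (F 0) ⊤ j = F t j ⊓ Bd (F 0) (F u) j := by
      apply le_antisymm
      · exact le_inf inf_le_left ((hBD t ht j).trans (Bd_mono (hmono _ _ hu1) j))
      · exact inf_le_inf le_rfl (Bd_mono (fun _ => le_top) j)
    rw [heq]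
    exact rd_ker_le (hmono 0 t ht) j
  calc ∑ j ∈ Finset.range M, rd (Bd (F 0) (F t) j) (F t j ⊓ Bd (F 0) ⊤ j)
      ≤ ∑ j ∈ Finset.range M, rd (Bd (F t) (F u) (j + 1)) (Zc (F t) (F u) (j + 1)) :=
        Finset.sum_le_sum fun j _ => hj j
    _ ≤ ∑ j ∈ Finset.range (M + 1), rd (Bd (F t) (F u) j) (Zc (F t) (F u) j) := by
        rw [Finset.sum_range_succ']
        exact le_self_add
    _ ≤ _ := hcnt

/-- the window hypothesis when all critical values are multiples of finitely many lengths -/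
theorem window_of_multiples {ι : Type} [Finite ι] (l : ι → ℝ) (hl : ∀ i, 0 < l i) (Crit : Set ℝ)
    (h : ∀ s ∈ Crit, ∃ i, ∃ m : ℕ, s = m * l i) : Window Crit := by
  classical
  have := Fintype.ofFinite ι
  intro L
  refine ⟨∑ i : ι, (⌊L / l i⌋₊ + 1), fun t ht => ?_⟩
  -- for each `i`, the multiples of `l i` in `[t, t+L]`
  have hsub : Crit ∩ Set.Icc t (t + L) ⊆ ⋃ i : ι,
      ((fun m : ℕ => (m : ℝ) * l i) '' (Set.Icc ⌈t / l i⌉₊ (⌈t / l i⌉₊ + ⌊L / l i⌋₊))) := by
    rintro s ⟨hs, hs1, hs2⟩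
    obtain ⟨i, m, rfl⟩ := h s hs
    refine Set.mem_iUnion.2 ⟨i, m, ⟨?_, ?_⟩, rfl⟩
    · exact Nat.ceil_le.2 (by rw [div_le_iff₀ (hl i)]; exact hs1)
    · -- `m ≤ (t+L)/l`, `m - ceil (t/l) ≤ L/l`
      have hm : ⌈t / l i⌉₊ ≤ m := Nat.ceil_le.2 (by rw [div_le_iff₀ (hl i)]; exact hs1)
      have h1 : ((m - ⌈t / l i⌉₊ : ℕ) : ℝ) ≤ L / l i := by
        rw [Nat.cast_sub hm]
        have h2 : t / l i ≤ ⌈t / l i⌉₊ := Nat.le_ceil _
        have h3 : (m : ℝ) ≤ (t + L) / l i := by rw [le_div_iff₀ (hl i)]; exact hs2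
        have h4 : (t + L) / l i = t / l i + L / l i := by ring
        linarith
      have h5 : m - ⌈t / l i⌉₊ ≤ ⌊L / l i⌋₊ := Nat.le_floor h1
      omega
  refine le_trans (Set.ncard_le_ncard hsub (Set.finite_iUnion fun i => (Set.finite_Icc _ _).image _)) ?_
  refine le_trans (Set.ncard_iUnion_le_of_fintype _) ?_
  refine Finset.sum_le_sum fun i _ => ?_
  refine le_trans (Set.ncard_image_le (Set.finite_Icc _ _)) ?_
  rw [← Nat.card_coe_set_eq, Nat.card_eq_fintype_card, Fintype.card_ofFinset]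
  simp
  omega

end Crest.Agent.R231.BDAx969
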