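import Crest.Agent.R231.IfA_978

/-!
# Row 231, block A3 (helper617): `(A3)` from `Δ` and `τ` only (note DESIGN 617)

`RMix` = mixed complex with reversal `tau`, base `B` (chains of constant loops) and the degree 2
operator `kap` with `τΔ + Δτ = d kap + kap d`, `τ kap z + kap τ z ~ 0`.
Output: `A3op`, `A3tau` of `IfA_978.Core` in one degree, for `n ≥ 3` (`a3_high`) and `n = 2` (`a3_two`).
-/

set_option autoImplicit false

noncomputable section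

namespace Crest.Agent.R231.A3Algx617

open Crest.Agent.R231.IfAx978

theorem dbl {M : Type*} [AddCommGroup M] [Module (ZMod 2) M] (x : M) : x + x = 0 := by
  rw [← two_smul (ZMod 2) x, show (2 : ZMod 2) = 0 from rfl, zero_smul]

/-- mixed complex with reversal and the homotopy `kap` -/
structure RMix where
  X : Mix
  tau : ∀ j, X.C j →ₗ[ZMod 2] X.C j
  kap : ∀ j, X.C j →ₗ[ZMod 2] X.C (j + 2)
  B : GS X
  tau_tau : ∀ j x, tau j (tau j x) = x
  d_tau : ∀ j x, X.d j (tau (j + 1) x) = tau j (X.d j x)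
  B_d : ∀ j x, x ∈ B (j + 1) → X.d j x ∈ B j
  B_tau : ∀ j x, x ∈ B j → tau j x ∈ B j
  B_De : ∀ j x, x ∈ B j → X.De j x ∈ B (j + 1)
  B_kap : ∀ j x, x ∈ B j → kap j x ∈ B (j + 2)
  tauDe : ∀ j x, tau (j + 2) (X.De (j + 1) x) + X.De (j + 1) (tau (j + 1) x) =
    X.d (j + 2) (kap (j + 1) x) + kap j (X.d j x)
  kap_cyc : ∀ j, ∀ z ∈ Zc B ⊤ (j + 1),
    tau (j + 3) (kap (j + 1) z) + kap (j + 1) (tau (j + 1) z) ∈ Bd B ⊤ (j + 3)

namespace RMix

variable (R : RMix)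

/-- relative cycles of degree `j + 1` -/
def Cy (j : ℕ) (z : R.X.C (j + 1)) : Prop := R.X.d j z ∈ R.B j

/-- relative boundaries -/
def Bo (j : ℕ) : Submodule (ZMod 2) (R.X.C j) := Bd R.B ⊤ j

theorem cy_iff {j : ℕ} {z : R.X.C (j + 1)} : z ∈ Zc R.B ⊤ (j + 1) ↔ R.Cy j z := by
  simp [Zc, Cy]

theorem mem_Bo {j : ℕ} {x : R.X.C j} : x ∈ R.Bo j ↔ ∃ w, x + R.X.d j w ∈ R.B j := by
  constructor
  · intro h
    obtain ⟨y, hy, b, hb, e⟩ := Submodule.mem_sup.1 h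
    obtain ⟨w, -, rfl⟩ := Submodule.mem_map.1 hy
    refine ⟨w, ?_⟩
    rw [← e, add_comm (R.X.d j w) b, add_assoc, dbl, add_zero]
    exact hb
  · rintro ⟨w, hw⟩
    have e : x = R.X.d j w + (x + R.X.d j w) := by
      rw [add_comm x, ← add_assoc, dbl, zero_add]
    rw [e]
    exact Submodule.add_mem_sup (Submodule.mem_map_of_mem (by simp)) hw

theorem B_le {j : ℕ} {x : R.X.C j} (h : x ∈ R.B j) : x ∈ R.Bo j :=
  R.mem_Bo.2 ⟨0, by simpa using h⟩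

theorem d_mem (j : ℕ) (w : R.X.C (j + 1)) : R.X.d j w ∈ R.Bo j :=
  R.mem_Bo.2 ⟨w, by rw [dbl]; exact Submodule.zero_mem _⟩

theorem cy_add {j : ℕ} {x y : R.X.C (j + 1)} (hx : R.Cy j x) (hy : R.Cy j y) : R.Cy j (x + y) := by
  unfold Cy at *; rw [map_add]; exact Submodule.add_mem _ hx hy

theorem cy_tau {j : ℕ} {x : R.X.C (j + 1)} (hx : R.Cy j x) : R.Cy j (R.tau _ x) := by
  unfold Cy at *; rw [R.d_tau]; exact R.B_tau _ _ hx

theorem cy_De {j : ℕ} {x : R.X.C (j + 1)} (hx : R.Cy j x) : R.Cy (j + 1) (R.X.De _ x) := by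
  unfold Cy at *; rw [R.X.dDe]; exact R.B_De _ _ hx

theorem Bo_tau {j : ℕ} {x : R.X.C j} (hx : x ∈ R.Bo j) : R.tau j x ∈ R.Bo j := by
  obtain ⟨w, hw⟩ := R.mem_Bo.1 hx
  refine R.mem_Bo.2 ⟨R.tau _ w, ?_⟩
  rw [R.d_tau, ← map_add]
  exact R.B_tau _ _ hw

theorem Bo_De {j : ℕ} {x : R.X.C (j + 1)} (hx : x ∈ R.Bo (j + 1)) : R.X.De _ x ∈ R.Bo (j + 2) := by
  obtain ⟨w, hw⟩ := R.mem_Bo.1 hx
  refine R.mem_Bo.2 ⟨R.X.De _ w, ?_⟩
  rw [R.X.dDe, ← map_add]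
  exact R.B_De _ _ hw

/-- `x ∈ Bo` from `x + y ∈ Bo`, `y ∈ Bo` -/
theorem of_add {j : ℕ} {x y : R.X.C j} (h : x + y ∈ R.Bo j) (hy : y ∈ R.Bo j) : x ∈ R.Bo j := by
  have e : x = (x + y) + y := by rw [add_assoc, dbl, add_zero]
  rw [e]; exact Submodule.add_mem _ h hy

/-- homology of degree `j+1` has dimension `≤ 1` -/
def Dim1 (j : ℕ) : Prop := ∀ z z' : R.X.C (j + 1), R.Cy j z → R.Cy j z' →
  z ∈ R.Bo (j + 1) ∨ z' ∈ R.Bo (j + 1) ∨ z + z' ∈ R.Bo (j + 1)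

/-- `tau` is trivial on the homology of degree `j+1` -/
def Triv (j : ℕ) : Prop := ∀ z : R.X.C (j + 1), R.Cy j z → z + R.tau _ z ∈ R.Bo (j + 1)

theorem Dim1.triv {j : ℕ} (h : R.Dim1 j) : R.Triv j := by
  intro z hz
  rcases h z (R.tau _ z) hz (R.cy_tau hz) with h1 | h1 | h1
  · exact Submodule.add_mem _ h1 (R.Bo_tau h1)
  · have h2 := R.Bo_tau h1
    rw [R.tau_tau] at h2
    exact Submodule.add_mem _ h2 h1
  · exact h1

/-- on homology `Δ` and `τ` commute -/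
theorem De_tau {j : ℕ} {z : R.X.C (j + 1)} (hz : R.Cy j z) :
    R.tau _ (R.X.De _ z) + R.X.De _ (R.tau _ z) ∈ R.Bo (j + 2) := by
  rw [R.tauDe]
  exact Submodule.add_mem _ (R.d_mem _ _) (R.B_le (R.B_kap _ _ hz))

/-- **Lemma A** -/
theorem lemA {j : ℕ} {m1 : R.X.C (j + 1)} {m0 : R.X.C (j + 2)} (h1 : R.Cy j m1)
    (h0 : R.X.d (j + 1) m0 + (m1 + R.tau _ m1) ∈ R.B (j + 1))
    (hv : R.X.De _ m1 ∈ R.Bo (j + 2)) (ht : R.Triv (j + 2)) :
    R.X.De _ (m0 + R.tau _ m0) ∈ R.Bo (j + 3) := by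
  obtain ⟨v, hv⟩ := R.mem_Bo.1 hv
  set b0 := R.X.d (j + 1) m0 + (m1 + R.tau _ m1) with hb0
  have e0 : R.X.d (j + 1) m0 = m1 + R.tau _ m1 + b0 := by
    rw [hb0]
    linear_combination (norm := abel) - dbl m1 - dbl (R.tau _ m1)
  have E1 := R.tauDe (j + 1) m0
  rw [e0] at E1
  have E2 := R.tauDe j m1
  have E3 := R.X.dDe (j + 1) m0
  rw [e0] at E3
  set c := R.X.De _ m0 + (v + R.tau _ v) + R.kap _ m1 with hc
  have hcy : R.Cy (j + 2) c := by
    unfold Cy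
    have e : R.X.d (j + 2) c = (R.X.De _ m1 + R.X.d _ v) + R.tau _ (R.X.De _ m1 + R.X.d _ v) +
        R.kap _ (R.X.d _ m1) + R.X.De _ b0 := by
      rw [hc]
      simp only [map_add, R.d_tau] at E3 ⊢
      rw [E3]
      linear_combination (norm := abel) E2 - dbl (R.tau (j + 2) (R.X.De (j + 1) m1)) +
        dbl (R.X.d (j + 2) (R.kap (j + 1) m1))
    rw [e]
    exact Submodule.add_mem _ (Submodule.add_mem _ (Submodule.add_mem _ hv (R.B_tau _ _ hv))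
      (R.B_kap _ _ h1)) (R.B_De _ _ h0)
  have key : R.X.De _ (m0 + R.tau _ m0) = (c + R.tau _ c) +
      (R.tau _ (R.kap _ m1) + R.kap _ (R.tau _ m1)) + R.X.d _ (R.kap _ m0) + R.kap _ b0 := by
    rw [hc]
    simp only [map_add, R.tau_tau] at E1 ⊢
    linear_combination (norm := abel) E1 - dbl (R.tau (j + 3) (R.X.De (j + 2) m0)) - dbl v
      - dbl (R.tau _ v) - dbl (R.tau _ (R.kap _ m1))
  rw [key]
  refine Submodule.add_mem _ (Submodule.add_mem _ (Submodule.add_mem _ (ht c hcy) ?_)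
    (R.d_mem _ _)) (R.B_le (R.B_kap _ _ h0))
  exact R.kap_cyc j m1 (R.cy_iff.2 h1)

/-- the class `a` spans the homology of degree `j + 1` -/
def Span1 (j : ℕ) (a : R.X.C (j + 1)) : Prop :=
  ∀ z : R.X.C (j + 1), R.Cy j z → z ∈ R.Bo (j + 1) ∨ z + a ∈ R.Bo (j + 1)

theorem Span1.dim1 {j : ℕ} {a : R.X.C (j + 1)} (h : R.Span1 j a) : R.Dim1 j := by
  intro z z' hz hz'
  rcases h z hz with h1 | h1
  · exact Or.inl h1
  rcases h z' hz' with h2 | h2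
  · exact Or.inr (Or.inl h2)
  refine Or.inr (Or.inr ?_)
  have e : z + z' = (z + a) + (z' + a) := by linear_combination (norm := abel) - dbl a
  rw [e]; exact Submodule.add_mem _ h1 h2

/-- output: the transfer of a two term cycle is a boundary, in degree `j + 2` -/
def A3op (j : ℕ) : Prop := ∀ (m0 : R.X.C (j + 2)) (m1 : R.X.C (j + 1)), R.Cy j m1 →
  R.X.d (j + 1) m0 + (m1 + R.tau _ m1) ∈ R.B (j + 1) → m0 + R.tau _ m0 ∈ R.Bo (j + 2)

theorem cy_transfer {j : ℕ} {m0 : R.X.C (j + 2)} {m1 : R.X.C (j + 1)}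
    (h0 : R.X.d (j + 1) m0 + (m1 + R.tau _ m1) ∈ R.B (j + 1)) : R.Cy (j + 1) (m0 + R.tau _ m0) := by
  unfold Cy
  have h := R.B_tau _ _ h0
  have e : R.X.d (j + 1) (m0 + R.tau _ m0) = (R.X.d (j + 1) m0 + (m1 + R.tau _ m1)) +
      R.tau _ (R.X.d (j + 1) m0 + (m1 + R.tau _ m1)) := by
    simp only [map_add, R.tau_tau, R.d_tau]
    linear_combination (norm := abel) - dbl m1 - dbl (R.tau _ m1)
  rw [e]; exact Submodule.add_mem _ h0 h

/-- if `P = [a]` or `0` and `ΔP = 0` and `Δa ≠ 0` then `P = 0` -/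
theorem kill {j : ℕ} {a x : R.X.C (j + 1)} (ha : R.X.De _ a ∉ R.Bo (j + 2))
    (hx : x ∈ R.Bo (j + 1) ∨ x + a ∈ R.Bo (j + 1)) (hD : R.X.De _ x ∈ R.Bo (j + 2)) :
    x ∈ R.Bo (j + 1) := by
  rcases hx with h | h
  · exact h
  · exfalso
    refine ha ?_
    have h2 := R.Bo_De h
    have e : R.X.De _ a = R.X.De _ (x + a) + R.X.De _ x := by
      rw [map_add]; linear_combination (norm := abel) - dbl (R.X.De _ x)
    rw [e]
    exact Submodule.add_mem _ h2 hD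

/-- **`n ≥ 3`**: `N_d = ⟨a⟩`, `Δ a ≠ 0`, `dim N_{d-1} ≤ 1`, `dim N_{d+1} ≤ 1` (`d = j + 2`) -/
theorem a3_high {j : ℕ} (a : R.X.C (j + 2)) (hs : R.Span1 (j + 1) a)
    (ha : R.X.De _ a ∉ R.Bo (j + 3)) (h2 : R.Dim1 (j + 2)) : R.A3op j := by
  intro m0 m1 h1 h0
  have hD : R.X.De _ m1 ∈ R.Bo (j + 2) := by
    refine R.kill ha (hs _ (R.cy_De h1)) ?_
    rw [R.X.DeDe]; exact Submodule.zero_mem _
  exact R.kill ha (hs _ (R.cy_transfer h0)) (R.lemA h1 h0 hD (Dim1.triv R h2))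

/-! ## `n = 2` -/

/-- data on the based loops: `O` = chains of based loops, `a i` generates `H_i(Ω, pt)` -/
structure Two (f : ℕ) where
  O : GS R.X
  O_d : ∀ j x, x ∈ O (j + 1) → R.X.d j x ∈ O j
  O_tau : ∀ j x, x ∈ O j → R.tau j x ∈ O j
  a : ∀ j, R.X.C j
  aO : ∀ j, a j ∈ O j
  a_cy : ∀ j, R.Cy j (a (j + 1))
  /-- `H_i(Ω,pt) = ⟨a_i⟩`, `i ≥ 1` -/
  Ospan : ∀ j, ∀ x ∈ O (j + 1), R.Cy j x →
    (∃ w ∈ O (j + 2), x + R.X.d _ w ∈ R.B (j + 1)) ∨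
    (∃ w ∈ O (j + 2), x + a (j + 1) + R.X.d _ w ∈ R.B (j + 1))
  /-- `N_{f+2}` is spanned by `a_{f+2}`, `Δ a_{f+1}` -/
  span1 : ∀ z : R.X.C (f + 2), R.Cy (f + 1) z → ∃ α β : ZMod 2,
    z + α • a (f + 2) + β • R.X.De _ (a (f + 1)) ∈ R.Bo (f + 2)
  span3 : ∀ z : R.X.C (f + 4), R.Cy (f + 3) z → ∃ α β : ZMod 2,
    z + α • a (f + 4) + β • R.X.De _ (a (f + 3)) ∈ R.Bo (f + 4)
  /-- `N_{f+3}/⟨a⟩` has dimension `≤ 1` -/
  quot : ∀ v v' : R.X.C (f + 3), R.Cy (f + 2) v → R.Cy (f + 2) v' →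
    (v ∈ R.Bo (f + 3) ∨ v + a (f + 3) ∈ R.Bo (f + 3)) ∨
    (v' ∈ R.Bo (f + 3) ∨ v' + a (f + 3) ∈ R.Bo (f + 3)) ∨
    (v + v' ∈ R.Bo (f + 3) ∨ v + v' + a (f + 3) ∈ R.Bo (f + 3))
  /-- `Δ a_{f+2} ∈ ⟨a_{f+3}⟩` -/
  Dev : R.X.De _ (a (f + 2)) ∈ R.Bo (f + 3) ∨ R.X.De _ (a (f + 2)) + a (f + 3) ∈ R.Bo (f + 3)
  /-- `Δ a_{f+3} ≠ 0` -/
  Dne : R.X.De _ (a (f + 3)) ∉ R.Bo (f + 4)

variable {R} {f : ℕ} (S : R.Two f)

namespace Two

include S

theorem tauO {j : ℕ} {x : R.X.C (j + 1)} (hx : x ∈ S.O (j + 1)) (hc : R.Cy j x) :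
    ∃ w ∈ S.O (j + 2), x + R.tau _ x + R.X.d _ w ∈ R.B (j + 1) := by
  rcases S.Ospan j x hx hc with ⟨w, hw, h⟩ | ⟨w, hw, h⟩
  · refine ⟨w + R.tau _ w, Submodule.add_mem _ hw (S.O_tau _ _ hw), ?_⟩
    have h2 := R.B_tau _ _ h
    have e : x + R.tau _ x + R.X.d _ (w + R.tau _ w) = (x + R.X.d _ w) + R.tau _ (x + R.X.d _ w) := by
      simp only [map_add, R.d_tau]; abel
    rw [e]; exact Submodule.add_mem _ h h2
  · rcases S.Ospan j (R.tau _ x) (S.O_tau _ _ hx) (R.cy_tau hc) with ⟨w', hw', h'⟩ | ⟨w', hw', h'⟩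
    · refine ⟨R.tau _ w' + w', Submodule.add_mem _ (S.O_tau _ _ hw') hw', ?_⟩
      have h2 := R.B_tau _ _ h'
      have e : x + R.tau _ x + R.X.d _ (R.tau _ w' + w') = (R.tau _ x + R.X.d _ w') +
          R.tau _ (R.tau _ x + R.X.d _ w') := by
        simp only [map_add, R.d_tau, R.tau_tau]; abel
      rw [e]; exact Submodule.add_mem _ h' h2
    · refine ⟨w + w', Submodule.add_mem _ hw hw', ?_⟩
      have e : x + R.tau _ x + R.X.d _ (w + w') = (x + S.a (j + 1) + R.X.d _ w) +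
          (R.tau _ x + S.a (j + 1) + R.X.d _ w') := by
        simp only [map_add]
        linear_combination (norm := abel) - dbl (S.a (j + 1))
      rw [e]; exact Submodule.add_mem _ h h'

theorem tau_a (j : ℕ) : S.a (j + 1) + R.tau _ (S.a (j + 1)) ∈ R.Bo (j + 1) := by
  obtain ⟨w, -, h⟩ := S.tauO (S.aO (j + 1)) (S.a_cy j)
  exact R.mem_Bo.2 ⟨w, h⟩

theorem tau_Da (j : ℕ) : R.X.De _ (S.a (j + 1)) + R.tau _ (R.X.De _ (S.a (j + 1))) ∈ R.Bo (j + 2) := by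
  have h1 := R.De_tau (S.a_cy j)
  have h2 := R.Bo_De (S.tau_a j)
  have e : R.X.De _ (S.a (j + 1)) + R.tau _ (R.X.De _ (S.a (j + 1))) =
      R.X.De _ (S.a (j + 1) + R.tau _ (S.a (j + 1))) +
      (R.tau _ (R.X.De _ (S.a (j + 1))) + R.X.De _ (R.tau _ (S.a (j + 1)))) := by
    simp only [map_add]
    linear_combination (norm := abel) - dbl (R.X.De _ (R.tau _ (S.a (j + 1))))
  rw [e]; exact Submodule.add_mem _ h2 h1

omit S in
theorem triv_of_span {j : ℕ} {x y : R.X.C (j + 1)} (hx : x + R.tau _ x ∈ R.Bo (j + 1))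
    (hy : y + R.tau _ y ∈ R.Bo (j + 1))
    (h : ∀ z : R.X.C (j + 1), R.Cy j z → ∃ α β : ZMod 2, z + α • x + β • y ∈ R.Bo (j + 1)) :
    R.Triv j := by
  intro z hz
  obtain ⟨α, β, h⟩ := h z hz
  have h2 := R.Bo_tau h
  have h3 := Submodule.smul_mem _ α hx
  have h4 := Submodule.smul_mem _ β hy
  have e : z + R.tau _ z = ((z + α • x + β • y) + R.tau _ (z + α • x + β • y)) +
      α • (x + R.tau _ x) + β • (y + R.tau _ y) := by
    simp only [map_add, map_smul, smul_add]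
    linear_combination (norm := abel) - dbl (α • x) - dbl (α • R.tau _ x) - dbl (β • y)
      - dbl (β • R.tau _ y)
  rw [e]
  exact Submodule.add_mem _ (Submodule.add_mem _ (Submodule.add_mem _ h h2) h3) h4

/-- (t1) -/
theorem t1 : R.Triv (f + 1) := triv_of_span (S.tau_a _) (S.tau_Da _) S.span1
theorem t1' : R.Triv (f + 3) := triv_of_span (S.tau_a _) (S.tau_Da _) S.span3

/-- (t2) -/
theorem t2 : R.Triv (f + 2) := by
  intro v hv
  have hA : v + R.tau _ v ∈ R.Bo (f + 3) ∨ v + R.tau _ v + S.a (f + 3) ∈ R.Bo (f + 3) := by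
    have aux : ∀ v : R.X.C (f + 3), (v ∈ R.Bo (f + 3) ∨ v + S.a (f + 3) ∈ R.Bo (f + 3)) →
        v + R.tau _ v ∈ R.Bo (f + 3) := by
      rintro v (h | h)
      · exact Submodule.add_mem _ h (R.Bo_tau h)
      · have h2 := R.Bo_tau h
        have e : v + R.tau _ v = (v + S.a (f + 3)) + R.tau _ (v + S.a (f + 3)) +
            (S.a (f + 3) + R.tau _ (S.a (f + 3))) := by
          simp only [map_add]
          linear_combination (norm := abel) - dbl (S.a (f + 3)) - dbl (R.tau _ (S.a (f + 3)))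
        rw [e]
        exact Submodule.add_mem _ (Submodule.add_mem _ h h2) (S.tau_a _)
    rcases S.quot v (R.tau _ v) hv (R.cy_tau hv) with h | h | h
    · exact Or.inl (aux v h)
    · have h2 := aux _ h
      rw [R.tau_tau] at h2
      have e : v + R.tau _ v = R.tau _ v + v := by abel
      rw [e]
      exact Or.inl h2
    · exact h
  refine R.kill S.Dne hA ?_
  have h1 := S.t1' _ (R.cy_De hv)
  have h2 := R.De_tau hv
  have e : R.X.De _ (v + R.tau _ v) = (R.X.De _ v + R.tau _ (R.X.De _ v)) +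
      (R.tau _ (R.X.De _ v) + R.X.De _ (R.tau _ v)) := by
    simp only [map_add]
    linear_combination (norm := abel) - dbl (R.tau _ (R.X.De _ v))
  rw [e]
  exact Submodule.add_mem _ h1 h2

/-- (t3) -/
theorem t3 : R.X.De _ (S.a (f + 2)) ∈ R.Bo (f + 3) := by
  refine R.kill S.Dne S.Dev ?_
  rw [R.X.DeDe]; exact Submodule.zero_mem _

/-- based classes in degree `f+2` have `Δ = 0` -/
theorem t3' {x : R.X.C (f + 2)} (hx : x ∈ S.O (f + 2)) (hc : R.Cy (f + 1) x) :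
    R.X.De _ x ∈ R.Bo (f + 3) := by
  rcases S.Ospan _ x hx hc with ⟨w, -, h⟩ | ⟨w, -, h⟩
  · exact R.Bo_De (R.mem_Bo.2 ⟨w, h⟩)
  · have h2 := R.Bo_De (R.mem_Bo.2 ⟨w, h⟩)
    rw [map_add] at h2
    exact R.of_add h2 S.t3

/-- the two term cycle over `a_{f+2}` -/
theorem t4 : ∃ m : R.X.C (f + 3), R.X.d _ m + (S.a (f + 2) + R.tau _ (S.a (f + 2))) ∈ R.B (f + 2) ∧
    m + R.tau _ m ∈ R.Bo (f + 3) := by
  obtain ⟨w, hw, h⟩ := S.tauO (S.aO (f + 2)) (S.a_cy _)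
  replace h : R.X.d _ w + (S.a (f + 2) + R.tau _ (S.a (f + 2))) ∈ R.B (f + 2) := by
    have e : R.X.d _ w + (S.a (f + 2) + R.tau _ (S.a (f + 2))) =
      S.a (f + 2) + R.tau _ (S.a (f + 2)) + R.X.d _ w := by abel
    rw [e]; exact h
  refine ⟨w, h, ?_⟩
  have hO : w + R.tau _ w ∈ S.O (f + 3) := Submodule.add_mem _ hw (S.O_tau _ _ hw)
  have hc : R.Cy (f + 2) (w + R.tau _ w) := R.cy_transfer h
  refine R.kill S.Dne ?_ (R.lemA (S.a_cy _) h S.t3 S.t1')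
  rcases S.Ospan _ _ hO hc with ⟨w', -, h'⟩ | ⟨w', -, h'⟩
  · exact Or.inl (R.mem_Bo.2 ⟨w', h'⟩)
  · exact Or.inr (R.mem_Bo.2 ⟨w', h'⟩)

/-- the two term cycle over `Δ a_{f+1}` -/
theorem t5 : ∃ m : R.X.C (f + 3), R.X.d _ m + (R.X.De _ (S.a (f + 1)) +
    R.tau _ (R.X.De _ (S.a (f + 1)))) ∈ R.B (f + 2) ∧ m + R.tau _ m ∈ R.Bo (f + 3) := by
  obtain ⟨w, hw, h⟩ := S.tauO (S.aO (f + 1)) (S.a_cy _)
  set a := S.a (f + 1) with ha
  set b := a + R.tau _ a + R.X.d _ w with hb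
  have ew : R.X.d _ w = a + R.tau _ a + b := by
    rw [hb]; linear_combination (norm := abel) - dbl a - dbl (R.tau _ a)
  have E1 := R.tauDe f a
  have E2 := R.X.dDe _ w
  rw [ew] at E2
  have E3 := R.tauDe _ w
  rw [ew] at E3
  refine ⟨R.X.De _ w + R.kap _ a, ?_, ?_⟩
  · have e : R.X.d _ (R.X.De _ w + R.kap _ a) + (R.X.De _ a + R.tau _ (R.X.De _ a)) =
        R.kap _ (R.X.d _ a) + R.X.De _ b := by
      simp only [map_add] at E2 ⊢
      rw [E2]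
      linear_combination (norm := abel) - E1 + dbl (R.X.De _ a) + dbl (R.tau _ (R.X.De _ a)) +
        dbl (R.X.De _ (R.tau _ a)) - dbl (R.kap _ (R.X.d _ a))
    rw [e]
    exact Submodule.add_mem _ (R.B_kap _ _ (S.a_cy _)) (R.B_De _ _ h)
  · have hO : w + R.tau _ w ∈ S.O (f + 2) := Submodule.add_mem _ hw (S.O_tau _ _ hw)
    have hc : R.Cy (f + 1) (w + R.tau _ w) := by
      unfold Cy
      have h2 := R.B_tau _ _ h
      have e : R.X.d _ (w + R.tau _ w) = b + R.tau _ b := by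
        rw [map_add, R.d_tau, ew]
        simp only [map_add, R.tau_tau]
        linear_combination (norm := abel) dbl a + dbl (R.tau _ a)
      rw [e]; exact Submodule.add_mem _ h h2
    have h3 := S.t3' hO hc
    have h4 := R.kap_cyc f a (R.cy_iff.2 (S.a_cy _))
    have e : R.X.De _ w + R.kap _ a + R.tau _ (R.X.De _ w + R.kap _ a) =
        R.X.De _ (w + R.tau _ w) + R.X.d _ (R.kap _ w) +
        (R.tau _ (R.kap _ a) + R.kap _ (R.tau _ a)) + R.kap _ b := by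
      simp only [map_add] at E3 ⊢
      linear_combination (norm := abel) E3 - dbl (R.X.De _ (R.tau _ w)) + dbl (R.kap _ a)
    rw [e]
    exact Submodule.add_mem _ (Submodule.add_mem _ (Submodule.add_mem _ h3 (R.d_mem _ _)) h4)
      (R.B_le (R.B_kap _ _ h))

/-- **`n = 2`** -/
theorem a3_two : R.A3op (f + 1) := by
  intro m0 m1 h1 h0
  obtain ⟨α, β, h⟩ := S.span1 m1 h1
  obtain ⟨w, hw⟩ := R.mem_Bo.1 h
  obtain ⟨p, hp, hP⟩ := S.t4
  obtain ⟨q, hq, hQ⟩ := S.t5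
  set c := m0 + α • p + β • q + (w + R.tau _ w) with hc
  set x := S.a (f + 2) with hx
  set y := R.X.De _ (S.a (f + 1)) with hy
  have hcy : R.Cy (f + 2) c := by
    unfold Cy
    have h5 := R.B_tau _ _ hw
    have e : R.X.d _ c = (R.X.d _ m0 + (m1 + R.tau _ m1)) + α • (R.X.d _ p + (x + R.tau _ x)) +
        β • (R.X.d _ q + (y + R.tau _ y)) + (m1 + α • x + β • y + R.X.d _ w) +
        R.tau _ (m1 + α • x + β • y + R.X.d _ w) := by
      rw [hc]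
      simp only [map_add, map_smul, R.d_tau, smul_add]
      linear_combination (norm := abel) - dbl m1 - dbl (R.tau _ m1) - dbl (α • x) -
        dbl (α • R.tau _ x) - dbl (β • y) - dbl (β • R.tau _ y)
    rw [e]
    exact Submodule.add_mem _ (Submodule.add_mem _ (Submodule.add_mem _ (Submodule.add_mem _ h0
      (Submodule.smul_mem _ _ hp)) (Submodule.smul_mem _ _ hq)) hw) h5
  have e : m0 + R.tau _ m0 = (c + R.tau _ c) + α • (p + R.tau _ p) + β • (q + R.tau _ q) := by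
    rw [hc]
    simp only [map_add, map_smul, R.tau_tau, smul_add]
    linear_combination (norm := abel) - dbl (α • p) - dbl (α • R.tau _ p) - dbl (β • q) -
      dbl (β • R.tau _ q) - dbl w - dbl (R.tau _ w)
  rw [e]
  exact Submodule.add_mem _ (Submodule.add_mem _ (S.t2 c hcy) (Submodule.smul_mem _ _ hP))
    (Submodule.smul_mem _ _ hQ)

/-- `tau` is trivial on `H_{d-1}`, `d = f + 3`, `n = 2` -/
theorem a3tau_two : R.Triv (f + 1) := S.t1

end Two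

end RMix

end Crest.Agent.R231.A3Algx617
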