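import Crest.Agent.R231.IfA_978

/-!
# Row 231, leaf T-A3 (helper657): the two term `tau`-Borel transfer vanishes

Pure chain algebra.  `RevOps` = operators `ka` (degree `+2`), `la` (degree `+3`) with
`d ka + ka d = De + tau De tau`, `d la + la d = ka + tau ka tau` (a 2-chain between the circle and the
reversed circle, and a 3-chain between this 2-chain and its mirror image).
`Qex A m1` : there is `m0` with `d m0 = (1 + tau) m1` and `(1 + tau) m0 ∈ Bd` (everything modulo `A`).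
* `Qex_De`  : `Qex (De y)` if `(1+tau) y` is a boundary and `De` vanishes on `H_{j+1}`;
* `A3op_of`, `A3tau_of` : the fields `A3op`, `A3tau` of `IfAx978.Core`.
-/

set_option autoImplicit false
set_option linter.unusedSimpArgs false

namespace Crest.Agent.R231.A3Qx657

open Crest.Agent.R231.IfAx978

variable {X : Mix}

theorem two {j : ℕ} (x : X.C j) : x + x = 0 := by
  rw [← two_smul (ZMod 2) x, show (2 : ZMod 2) = 0 from rfl, zero_smul]

theorem two' {j : ℕ} (x y : X.C j) : x + (x + y) = y := by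
  rw [← add_assoc, two, zero_add]

section gen
variable {V : Type*} [AddCommGroup V] [Module (ZMod 2) V]

theorem vtwo (x : V) : x + x = 0 := by
  rw [← two_smul (ZMod 2) x, show (2 : ZMod 2) = 0 from rfl, zero_smul]

theorem vtwo' (x y : V) : x + (x + y) = y := by
  rw [← add_assoc, vtwo, zero_add]

theorem v1 (a u v : V) : a + u + v + (u + v) = a := by
  rw [add_assoc a u v, add_assoc, vtwo, add_zero]

theorem v2 {a b : V} (h : a + b = 0) : a = b := by
  have := congrArg (· + b) h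
  simpa only [add_assoc, vtwo, add_zero, zero_add] using this

theorem v3 (a b : V) : a + b + b + a = 0 := by
  simp only [add_comm, add_left_comm, vtwo, vtwo', add_zero]

theorem v4 (p q r s t : V) : p + q + r + s + (p + t) = r + (s + (q + t)) := by
  simp only [add_comm, add_left_comm, vtwo, vtwo', add_zero]

theorem v5 (p q r : V) (h : p = q + r) : r = p + q := by
  subst h; simp only [add_comm, add_left_comm, vtwo, vtwo', add_zero]

theorem v6 {a b c t u v w : V} :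
    a + b + ((t + (b + c + u) + v) + w) = (a + v) + (t + ((c + w) + u)) := by
  simp only [add_comm, add_left_comm, vtwo, vtwo', add_zero]

end gen

theorem mem_Bd {A B : GS X} {j : ℕ} {x : X.C j} :
    x ∈ Bd A B j ↔ ∃ c ∈ B (j + 1), ∃ a ∈ A j, X.d j c + a = x := by
  unfold Bd
  rw [Submodule.mem_sup]
  constructor
  · rintro ⟨y, hy, z, hz, h⟩
    obtain ⟨c, hc, rfl⟩ := Submodule.mem_map.1 hy
    exact ⟨c, hc, z, hz, h⟩
  · rintro ⟨c, hc, a, ha, h⟩
    exact ⟨_, Submodule.mem_map.2 ⟨c, hc, rfl⟩, a, ha, h⟩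

theorem d_mem_Bd (A : GS X) {j : ℕ} (c : X.C (j + 1)) : X.d j c ∈ Bd A ⊤ j :=
  mem_Bd.2 ⟨c, Submodule.mem_top, 0, (A j).zero_mem, add_zero _⟩

theorem A_le_Bd (A B : GS X) (j : ℕ) : A j ≤ Bd A B j := le_sup_right

/-- operators comparing the circle with the reversed circle -/
structure RevOps (X : Mix) (tau : ∀ j, X.C j →ₗ[ZMod 2] X.C j) where
  ka : ∀ j, X.C j →ₗ[ZMod 2] X.C (j + 2)
  la : ∀ j, X.C j →ₗ[ZMod 2] X.C (j + 3)
  dka0 : ∀ x, X.d 1 (ka 0 x) = X.De 0 x + tau _ (X.De 0 (tau _ x))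
  dka : ∀ j x, X.d (j + 2) (ka (j + 1) x) =
    ka j (X.d j x) + X.De (j + 1) x + tau _ (X.De (j + 1) (tau _ x))
  dla0 : ∀ x, X.d 2 (la 0 x) = ka 0 x + tau _ (ka 0 (tau _ x))
  dla : ∀ j x, X.d (j + 3) (la (j + 1) x) =
    la j (X.d j x) + ka (j + 1) x + tau _ (ka (j + 1) (tau _ x))

/-- graded submodule stable under everything -/
structure StabR {X : Mix} {tau : ∀ j, X.C j →ₗ[ZMod 2] X.C j} (R : RevOps X tau) (A : GS X) : Prop where
  st : Stab A
  tau : ∀ j x, x ∈ A j → tau j x ∈ A j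
  ka : ∀ j x, x ∈ A j → R.ka j x ∈ A (j + 2)
  la : ∀ j x, x ∈ A j → R.la j x ∈ A (j + 3)

variable (tau : ∀ j, X.C j →ₗ[ZMod 2] X.C j)

/-- the two term transfer of `m1` vanishes -/
def Qex (A : GS X) (j : ℕ) (m1 : X.C j) : Prop :=
  ∃ m0 : X.C (j + 1), X.d j m0 + (m1 + tau j m1) ∈ A j ∧ m0 + tau (j + 1) m0 ∈ Bd A ⊤ (j + 1)

variable {tau}

theorem Qex_add {A : GS X} {j : ℕ} {x y : X.C j} (hx : Qex tau A j x) (hy : Qex tau A j y) :
    Qex tau A j (x + y) := by
  obtain ⟨m, h1, h2⟩ := hx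
  obtain ⟨m', h1', h2'⟩ := hy
  refine ⟨m + m', ?_, ?_⟩
  · have := (A j).add_mem h1 h1'
    simp only [map_add] at this ⊢
    convert this using 1; abel
  · have := (Bd A ⊤ (j + 1)).add_mem h2 h2'
    simp only [map_add] at this ⊢
    convert this using 1; abel

theorem Qex_zero {A : GS X} {j : ℕ} : Qex tau A j 0 := by
  refine ⟨0, ?_, ?_⟩
  · simp
  · simp

/-- the submodule of all `m1` with vanishing transfer -/
def QS (tau : ∀ j, X.C j →ₗ[ZMod 2] X.C j) (A : GS X) (j : ℕ) : Submodule (ZMod 2) (X.C j) where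
  carrier := {x | Qex tau A j x}
  zero_mem' := Qex_zero
  add_mem' := Qex_add
  smul_mem' := by
    intro r x hx
    have : r = 0 ∨ r = 1 := by
      fin_cases r
      · exact Or.inl rfl
      · exact Or.inr rfl
    rcases this with rfl | rfl
    · rw [zero_smul]; exact Qex_zero
    · rw [one_smul]; exact hx

theorem mem_QS {A : GS X} {j : ℕ} {x : X.C j} : x ∈ QS tau A j ↔ Qex tau A j x := Iff.rfl

/-- boundaries have vanishing transfer -/
theorem Bd_le_QS {A : GS X} (hA : ∀ j x, x ∈ A j → tau j x ∈ A j)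
    (htt : ∀ j x, tau j (tau j x) = x) (hdt : ∀ j x, X.d j (tau (j + 1) x) = tau j (X.d j x)) (j : ℕ) :
    Bd A ⊤ j ≤ QS tau A j := by
  intro x hx
  obtain ⟨c, -, a, ha, rfl⟩ := mem_Bd.1 hx
  refine Qex_add ⟨c + tau _ c, ?_, ?_⟩ ⟨0, ?_, ?_⟩
  · simp only [map_add, hdt]
    rw [two]; exact (A j).zero_mem
  · simp only [map_add, htt]
    have : c + tau (j + 1) c + (tau (j + 1) c + c) = 0 := by
      rw [add_comm (tau (j + 1) c) c, vtwo]
    rw [this]; exact Submodule.zero_mem _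
  · simp only [map_zero, zero_add]; exact (A j).add_mem ha (hA _ _ ha)
  · simp

/-- strictly invariant chains have vanishing transfer -/
theorem Qex_inv {A : GS X} {j : ℕ} {x : X.C j} (hx : tau j x = x) : Qex tau A j x := by
  refine ⟨0, ?_, ?_⟩
  · rw [map_zero, zero_add, hx, two]; exact (A j).zero_mem
  · simp

section ops

variable (R : RevOps X tau) {A : GS X} (hA : StabR R A)
include hA

/-- `De y + tau De tau y` is a boundary for a relative cycle `y` -/
theorem ka_cycle {j : ℕ} {y : X.C j} (hy : y ∈ Zc A ⊤ j) :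
    X.d (j + 1) (R.ka j y) + (X.De j y + tau _ (X.De j (tau _ y))) ∈ A (j + 1) := by
  cases j with
  | zero =>
    rw [R.dka0, two]; exact (A _).zero_mem
  | succ j =>
    have h : X.d j y ∈ A j := hy.2
    rw [R.dka, v1]
    exact hA.ka _ _ h

theorem la_cycle {j : ℕ} {y : X.C j} (hy : y ∈ Zc A ⊤ j) :
    X.d (j + 2) (R.la j y) + (R.ka j y + tau _ (R.ka j (tau _ y))) ∈ A (j + 2) := by
  cases j with
  | zero =>
    rw [R.dla0, two]; exact (A _).zero_mem
  | succ j =>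
    have h : X.d j y ∈ A j := hy.2
    rw [R.dla, v1]
    exact hA.la _ _ h

theorem tau_Zc (hdt : ∀ j x, X.d j (tau (j + 1) x) = tau j (X.d j x)) {j : ℕ} {y : X.C j} (hy : y ∈ Zc A ⊤ j) : tau j y ∈ Zc A ⊤ j := by
  cases j with
  | zero => exact Submodule.mem_top
  | succ j => exact ⟨Submodule.mem_top, by
      change X.d j (tau _ y) ∈ A j
      rw [hdt]; exact hA.tau _ _ hy.2⟩

/-- `De y + tau De tau y ∈ Bd` -/
theorem De_rev {j : ℕ} {y : X.C j} (hy : y ∈ Zc A ⊤ j) :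
    X.De j y + tau _ (X.De j (tau _ y)) ∈ Bd A ⊤ (j + 1) := by
  have h := ka_cycle R hA hy
  refine mem_Bd.2 ⟨R.ka j y, Submodule.mem_top, _, h, ?_⟩
  rw [vtwo']

theorem De_Bd {j : ℕ} {y : X.C j} (hy : y ∈ Bd A ⊤ j) : X.De j y ∈ Bd A ⊤ (j + 1) := by
  obtain ⟨c, -, a, ha, rfl⟩ := mem_Bd.1 hy
  rw [map_add, ← X.dDe]
  exact Submodule.add_mem _ (d_mem_Bd _ _) (A_le_Bd _ _ _ (hA.st.De _ _ ha))

theorem De_Zc {j : ℕ} {y : X.C j} (hy : y ∈ Zc A ⊤ j) : X.De j y ∈ Zc A ⊤ (j + 1) := by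
  refine ⟨Submodule.mem_top, ?_⟩
  change X.d j (X.De j y) ∈ A j
  cases j with
  | zero => rw [X.dDe0]; exact Submodule.zero_mem _
  | succ j => rw [X.dDe]; exact hA.st.De _ _ hy.2

/-- `tau` acts trivially on the class of `De y` if it does so on the class of `y` -/
theorem tau_De (htt : ∀ j x, tau j (tau j x) = x)
    (hdt : ∀ j x, X.d j (tau (j + 1) x) = tau j (X.d j x)) {j : ℕ} {y : X.C j} (hy : y ∈ Zc A ⊤ j) (h : y + tau j y ∈ Bd A ⊤ j) :
    X.De j y + tau _ (X.De j y) ∈ Bd A ⊤ (j + 1) := by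
  have h1 := De_rev R hA (tau_Zc R hA hdt hy)
  have h2 := De_Bd R hA h
  rw [htt] at h1
  have h3 := Submodule.add_mem _ h1 h2
  rw [map_add] at h3
  have e : X.De j (tau j y) + tau (j + 1) (X.De j y) + (X.De j y + X.De j (tau j y)) =
      X.De j y + tau (j + 1) (X.De j y) + (X.De j (tau j y) + X.De j (tau j y)) := by abel
  rwa [e, vtwo, add_zero] at h3

/-- **`Q(De y) = De Q(y)`**, hence `0` if `De` vanishes on `H_{j+1}` -/
theorem Qex_De (htt : ∀ j x, tau j (tau j x) = x)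
    (hdt : ∀ j x, X.d j (tau (j + 1) x) = tau j (X.d j x)) {j : ℕ} {y : X.C j} (hy : y ∈ Zc A ⊤ j) (h : y + tau j y ∈ Bd A ⊤ j)
    (hDe : ∀ z ∈ Zc A ⊤ (j + 1), X.De (j + 1) z ∈ Bd A ⊤ (j + 2)) :
    Qex tau A (j + 1) (X.De j y) := by
  obtain ⟨m, -, a, ha, hm⟩ := mem_Bd.1 h
  have hty := tau_Zc R hA hdt hy
  have hdm : X.d j m = y + tau j y + a := by
    rw [← hm, add_assoc, vtwo, add_zero]
  refine ⟨X.De (j + 1) m + R.ka j (tau j y), ?_, ?_⟩
  · have h1 := ka_cycle R hA hty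
    rw [htt] at h1
    rw [map_add, X.dDe, hdm, map_add, map_add, v4]
    exact Submodule.add_mem _ (hA.st.De _ _ ha) h1
  · have h1 := la_cycle R hA hy
    have h2 := R.dka j (tau _ m)
    rw [htt, hdt, hdm] at h2
    have h3 : tau (j + 2) (X.De (j + 1) m) = X.d (j + 2) (R.ka (j + 1) (tau (j + 1) m)) +
      (R.ka j (tau j (y + tau j y + a)) + X.De (j + 1) (tau (j + 1) m)) := v5 _ _ _ h2
    have h4 : m + tau _ m ∈ Zc A ⊤ (j + 1) := by
      refine ⟨Submodule.mem_top, ?_⟩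
      change X.d j (m + tau _ m) ∈ A j
      rw [map_add, hdt, hdm]
      simp only [map_add, htt]
      have e : y + tau j y + a + (tau j y + y + tau j a) = a + tau j a := by
        rw [show y + tau j y + a + (tau j y + y + tau j a) =
          (y + y) + (tau j y + tau j y) + (a + tau j a) by abel, vtwo, vtwo, zero_add, zero_add]
      rw [e]
      exact Submodule.add_mem _ ha (hA.tau _ _ ha)
    have h5 := hDe _ h4
    have e2 : X.De (j + 1) m + R.ka j (tau j y) +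
        tau (j + 1 + 1) (X.De (j + 1) m + R.ka j (tau j y)) =
        X.De (j + 1) (m + tau _ m) + (X.d (j + 2) (R.ka (j + 1) (tau (j + 1) m)) +
          ((R.ka j y + tau (j + 2) (R.ka j (tau j y))) + R.ka j (tau j a))) := by
      rw [map_add (tau (j + 1 + 1)), h3, map_add (X.De (j + 1)), map_add, map_add, map_add, map_add, htt]
      generalize X.De (j + 1) m = t1
      generalize R.ka j (tau j y) = t2
      generalize X.d (j + 2) (R.ka (j + 1) (tau (j + 1) m)) = t3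
      generalize R.ka j y = t4
      generalize R.ka j (tau j a) = t5
      generalize X.De (j + 1) (tau (j + 1) m) = t6
      generalize tau (j + 2) t2 = t7
      simp only [add_comm, add_left_comm, vtwo, vtwo', add_zero]
    rw [e2]
    refine Submodule.add_mem _ h5 (Submodule.add_mem _ (d_mem_Bd _ _)
      (Submodule.add_mem _ ?_ (A_le_Bd _ _ _ (hA.ka _ _ (hA.tau _ _ ha)))))
    exact mem_Bd.2 ⟨R.la j y, Submodule.mem_top, _, h1, by rw [vtwo']⟩

end ops

/-! ## the two fields of `Core` -/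

section final

variable (R : RevOps X tau) {A : GS X} (hA : StabR R A) (htt : ∀ j x, tau j (tau j x) = x)
  (hdt : ∀ j x, X.d j (tau (j + 1) x) = tau j (X.d j x))
include hA htt hdt

omit R hA htt hdt in
/-- if the transfer of `m1` vanishes for one choice of `m0`, it vanishes for all (`tau = 1` on `H_d`) -/
theorem Qex_all {e : ℕ} (hT : ∀ z ∈ Zc A ⊤ (e + 1), z + tau _ z ∈ Bd A ⊤ (e + 1)) {m1 : X.C e}
    (hQ : Qex tau A e m1) (m0 : X.C (e + 1)) (h0 : X.d e m0 + (m1 + tau _ m1) ∈ A e) :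
    m0 + tau _ m0 ∈ Bd A ⊤ (e + 1) := by
  obtain ⟨m, h1, h2⟩ := hQ
  have h3 : m0 + m ∈ Zc A ⊤ (e + 1) := by
    refine ⟨Submodule.mem_top, ?_⟩
    change X.d e (m0 + m) ∈ A e
    have := Submodule.add_mem _ h0 h1
    have e' : X.d e m0 + (m1 + tau _ m1) + (X.d e m + (m1 + tau _ m1)) = X.d e (m0 + m) := by
      rw [map_add, show X.d e m0 + (m1 + tau _ m1) + (X.d e m + (m1 + tau _ m1)) =
        X.d e m0 + X.d e m + ((m1 + tau _ m1) + (m1 + tau _ m1)) by abel, vtwo, add_zero]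
    rwa [e'] at this
  have h4 := Submodule.add_mem _ (hT _ h3) h2
  have e' : m0 + m + tau (e + 1) (m0 + m) + (m + tau _ m) = m0 + tau _ m0 := by
    rw [map_add, show m0 + m + (tau (e + 1) m0 + tau (e + 1) m) + (m + tau _ m) =
      m0 + tau _ m0 + ((m + tau _ m) + (m + tau _ m)) by abel, vtwo, add_zero]
  rwa [e'] at h4

/-- **`A3op`, degree `e ≥ 1`** : `H_e` is spanned by a set `S` of cycles with vanishing transfer
(e.g. strictly `tau`-invariant ones) and by the classes `De y`. -/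
theorem A3op_succ {j : ℕ} (S : Set (X.C (j + 1))) (hS : ∀ x ∈ S, Qex tau A (j + 1) x)
    (Y : Set (X.C j)) (hY : ∀ y ∈ Y, y ∈ Zc A ⊤ j) (hY' : ∀ y ∈ Y, y + tau j y ∈ Bd A ⊤ j)
    (hspan : Zc A ⊤ (j + 1) ≤
      Bd A ⊤ (j + 1) ⊔ (Submodule.span (ZMod 2) S ⊔ Submodule.span (ZMod 2) (X.De j '' Y)))
    (hDe : ∀ z ∈ Zc A ⊤ (j + 1), X.De (j + 1) z ∈ Bd A ⊤ (j + 2))
    (hT : ∀ z ∈ Zc A ⊤ (j + 2), z + tau _ z ∈ Bd A ⊤ (j + 2))
    (m0 : X.C (j + 2)) (m1 : X.C (j + 1)) (hm1 : m1 ∈ Zc A ⊤ (j + 1))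
    (h0 : X.d (j + 1) m0 + (m1 + tau _ m1) ∈ A (j + 1)) : m0 + tau _ m0 ∈ Bd A ⊤ (j + 2) := by
  refine Qex_all hT (m1 := m1) ?_ m0 h0
  have h1 : Bd A ⊤ (j + 1) ⊔ (Submodule.span (ZMod 2) S ⊔ Submodule.span (ZMod 2) (X.De j '' Y)) ≤
      QS tau A (j + 1) := by
    refine sup_le (Bd_le_QS hA.tau htt hdt _) (sup_le (Submodule.span_le.2 hS) (Submodule.span_le.2 ?_))
    rintro _ ⟨y, hy, rfl⟩
    exact Qex_De R hA htt hdt (hY y hy) (hY' y hy) hDe
  exact h1 (hspan hm1)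

omit R hA htt hdt in
/-- `A3op` in degree `e` if `H_e = 0` -/
theorem A3op_zero (hAt : ∀ j x, x ∈ A j → tau j x ∈ A j) (htt : ∀ j x, tau j (tau j x) = x)
    (hdt : ∀ j x, X.d j (tau (j + 1) x) = tau j (X.d j x)) {e : ℕ}
    (h : Zc A ⊤ e ≤ Bd A ⊤ e) (hT : ∀ z ∈ Zc A ⊤ (e + 1), z + tau _ z ∈ Bd A ⊤ (e + 1))
    (m0 : X.C (e + 1)) (m1 : X.C e) (hm1 : m1 ∈ Zc A ⊤ e)
    (h0 : X.d e m0 + (m1 + tau _ m1) ∈ A e) : m0 + tau _ m0 ∈ Bd A ⊤ (e + 1) :=
  Qex_all hT (Bd_le_QS hAt htt hdt _ (h hm1)) m0 h0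

/-- **`A3tau`, degree `e = j + 1`** -/
theorem A3tau_succ {j : ℕ} (S : Set (X.C (j + 1))) (hS : ∀ x ∈ S, x + tau _ x ∈ Bd A ⊤ (j + 1))
    (Y : Set (X.C j)) (hY : ∀ y ∈ Y, y ∈ Zc A ⊤ j) (hY' : ∀ y ∈ Y, y + tau j y ∈ Bd A ⊤ j)
    (hspan : Zc A ⊤ (j + 1) ≤
      Bd A ⊤ (j + 1) ⊔ (Submodule.span (ZMod 2) S ⊔ Submodule.span (ZMod 2) (X.De j '' Y)))
    (m1 : X.C (j + 1)) (hm1 : m1 ∈ Zc A ⊤ (j + 1)) : m1 + tau _ m1 ∈ Bd A ⊤ (j + 1) := by
  have h1 : Bd A ⊤ (j + 1) ⊔ (Submodule.span (ZMod 2) S ⊔ Submodule.span (ZMod 2) (X.De j '' Y)) ≤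
      (Bd A ⊤ (j + 1)).comap (LinearMap.id + tau (j + 1)) := by
    refine sup_le ?_ (sup_le (Submodule.span_le.2 hS) (Submodule.span_le.2 ?_))
    · intro x hx
      change x + tau _ x ∈ Bd A ⊤ _
      refine Submodule.add_mem _ hx ?_
      obtain ⟨c, -, a, ha, rfl⟩ := mem_Bd.1 hx
      rw [map_add, ← hdt]
      exact Submodule.add_mem _ (d_mem_Bd _ _) (A_le_Bd _ _ _ (hA.tau _ _ ha))
    · rintro _ ⟨y, hy, rfl⟩
      exact tau_De R hA htt hdt (hY y hy) (hY' y hy)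
  exact h1 (hspan hm1)

/-- **`tau = 1` on `H_{j}`** if it is spanned by `a`, `u` with `a ~ tau a`, `De u ~ 0`, `De a ≁ 0`. -/
theorem tau_triv_two {j : ℕ} (a u : X.C j) (ha : a ∈ Zc A ⊤ j) (hu : u ∈ Zc A ⊤ j)
    (hta : a + tau j a ∈ Bd A ⊤ j) (hDu : X.De j u ∈ Bd A ⊤ (j + 1))
    (hDa : X.De j a ∉ Bd A ⊤ (j + 1))
    (hspan : Zc A ⊤ j ≤ Bd A ⊤ j ⊔ Submodule.span (ZMod 2) {a, u}) :
    ∀ z ∈ Zc A ⊤ j, z + tau j z ∈ Bd A ⊤ j := by
  have key : u + tau j u ∈ Bd A ⊤ j := by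
    obtain ⟨b, hb, w, hw, hbw⟩ := Submodule.mem_sup.1 (hspan (tau_Zc R hA hdt hu))
    obtain ⟨α, β, hab⟩ := Submodule.mem_span_pair.1 hw
    have htb : ∀ x ∈ Bd A ⊤ j, tau j x ∈ Bd A ⊤ j := by
      intro x hx
      obtain ⟨c, -, a, ha, rfl⟩ := mem_Bd.1 hx
      rw [map_add, ← hdt]
      exact Submodule.add_mem _ (d_mem_Bd _ _) (A_le_Bd _ _ _ (hA.tau _ _ ha))
    have htb' : ∀ x ∈ Bd A ⊤ (j + 1), tau (j + 1) x ∈ Bd A ⊤ (j + 1) := by
      intro x hx
      obtain ⟨c, -, a, ha, rfl⟩ := mem_Bd.1 hx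
      rw [map_add, ← hdt]
      exact Submodule.add_mem _ (d_mem_Bd _ _) (A_le_Bd _ _ _ (hA.tau _ _ ha))
    have hF : ∀ r : ZMod 2, r = 0 ∨ r = 1 := by decide
    rcases hF β with rfl | rfl
    · -- `tau u ≡ α a`
      rw [zero_smul, add_zero] at hab
      subst hab
      have h1 : u = tau j b + α • tau j a := by
        have := congrArg (tau j) hbw
        rw [htt, map_add, map_smul] at this
        exact this.symm
      have h2 : u + tau j u = (tau j b + b) + α • (a + tau j a) := by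
        rw [← hbw, smul_add]
        nth_rewrite 1 [h1]
        abel
      rw [h2]
      exact Submodule.add_mem _ (Submodule.add_mem _ (htb _ hb) hb) (Submodule.smul_mem _ _ hta)
    · rw [one_smul] at hab
      rcases hF α with rfl | rfl
      · rw [zero_smul, zero_add] at hab
        subst hab
        rw [← hbw, show u + (b + u) = (u + u) + b by abel, vtwo, zero_add]
        exact hb
      · exfalso
        rw [one_smul] at hab
        subst hab
        apply hDa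
        have h1 : a = b + (u + tau j u) := by
          rw [← hbw, show b + (u + (b + (a + u))) = (b + b) + (u + u) + a by abel, vtwo, vtwo,
            zero_add, zero_add]
        have h2 := De_rev R hA (tau_Zc R hA hdt hu)
        rw [htt] at h2
        have h3 := Submodule.add_mem _ h2 (htb' _ hDu)
        rw [show X.De j (tau j u) + tau (j + 1) (X.De j u) + tau (j + 1) (X.De j u) =
          X.De j (tau j u) + (tau (j + 1) (X.De j u) + tau (j + 1) (X.De j u)) by abel, vtwo,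
          add_zero] at h3
        rw [h1, map_add, map_add]
        exact Submodule.add_mem _ (De_Bd R hA hb) (Submodule.add_mem _ hDu h3)
  have h1 : Bd A ⊤ j ⊔ Submodule.span (ZMod 2) {a, u} ≤
      (Bd A ⊤ j).comap (LinearMap.id + tau j) := by
    refine sup_le ?_ (Submodule.span_le.2 ?_)
    · intro x hx
      change x + tau _ x ∈ Bd A ⊤ _
      refine Submodule.add_mem _ hx ?_
      obtain ⟨c, -, a, ha, rfl⟩ := mem_Bd.1 hx
      rw [map_add, ← hdt]
      exact Submodule.add_mem _ (d_mem_Bd _ _) (A_le_Bd _ _ _ (hA.tau _ _ ha))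
    · rintro x (rfl | rfl)
      · exact hta
      · exact key
  exact fun z hz => h1 (hspan hz)

end final

end Crest.Agent.R231.A3Qx657
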