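import Crest.Agent.R231.GLug_576

/-!
# Row 231 (S0357), block G: Lipschitz loops (helper576)

* `X M t` : loops with Lipschitz constant `≤ t`; closed, compact, monotone in `t`, `X 0` = constants
* `cont_to_loop`, `contOn_to_loop` : continuity of a family of loops from the joint continuity on
  `[0,1]`
* rotation, reversal, iteration; `fix_half` : fixed points of the half rotation
-/

set_option autoImplicit false
set_option linter.unusedSectionVars false

open Set Filter Topology

namespace Crest.Agent.R231.GLugx576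

section basic

variable {M : Type*} [MetricSpace M]

theorem coe_int_circle (n : ℤ) : ((n : ℝ) : UnitAddCircle) = 0 :=
  (AddCircle.coe_eq_zero_iff (1 : ℝ)).2 ⟨n, by simp⟩

theorem coe_add_int (x : ℝ) (n : ℤ) : ((x + n : ℝ) : UnitAddCircle) = x := by
  rw [AddCircle.coe_add, coe_int_circle, add_zero]

theorem coe_one_circle : ((1 : ℝ) : UnitAddCircle) = 0 := by
  have := coe_int_circle 1
  rwa [Int.cast_one] at this

theorem mem_X {t : ℝ} {γ : Lp M} :
    γ ∈ X M t ↔ ∀ x y : ℝ, dist (γ x) (γ y) ≤ t * |x - y| := Iff.rfl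

theorem norm_coe_le (x : ℝ) : ‖(x : UnitAddCircle)‖ ≤ |x| := by
  rw [UnitAddCircle.norm_eq]
  have := round_le x 0
  simpa using this

/-- the circle version -/
theorem mem_X_iff {t : ℝ} {γ : Lp M} :
    γ ∈ X M t ↔ ∀ x y : UnitAddCircle, dist (γ x) (γ y) ≤ t * dist x y := by
  constructor
  · intro h x y
    induction x using QuotientAddGroup.induction_on with | _ x => ?_
    induction y using QuotientAddGroup.induction_on with | _ y => ?_
    have h1 := h x (y + round (x - y))
    have e1 : ((y + round (x - y) : ℝ) : UnitAddCircle) = y := coe_add_int y _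
    rw [e1] at h1
    have e2 : dist (x : UnitAddCircle) (y : UnitAddCircle) = |x - (y + round (x - y))| := by
      rw [dist_eq_norm, ← AddCircle.coe_sub, UnitAddCircle.norm_eq]
      congr 1; ring
    show dist (γ (x : UnitAddCircle)) (γ (y : UnitAddCircle)) ≤ t * dist (x : UnitAddCircle) y
    rw [e2]; exact h1
  · intro h x y
    rcases le_or_gt 0 t with ht | ht
    · refine (h x y).trans (mul_le_mul_of_nonneg_left ?_ ht)
      rw [dist_eq_norm, ← AddCircle.coe_sub]
      exact norm_coe_le _
    · have h1 := h ((0 : ℝ) : UnitAddCircle) ((1 / 2 : ℝ) : UnitAddCircle)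
      have h2 : 0 < dist ((0 : ℝ) : UnitAddCircle) ((1 / 2 : ℝ) : UnitAddCircle) := by
        rw [dist_eq_norm, ← AddCircle.coe_sub]
        have h3 : ‖((0 - 1 / 2 : ℝ) : UnitAddCircle)‖ = |(0 - 1 / 2 : ℝ)| := by
          rw [AddCircle.norm_coe_eq_abs_iff _ one_ne_zero]
          norm_num [abs_of_neg]
        rw [h3]; norm_num
      have h4 : t * dist ((0 : ℝ) : UnitAddCircle) ((1 / 2 : ℝ) : UnitAddCircle) < 0 :=
        mul_neg_of_neg_of_pos ht h2
      exact absurd (dist_nonneg.trans h1) (not_le.2 h4)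

theorem X_mono {s t : ℝ} (h : s ≤ t) : X M s ⊆ X M t := fun _ hγ x y =>
  (hγ x y).trans (mul_le_mul_of_nonneg_right h (abs_nonneg _))

theorem X_neg {t : ℝ} (h : t < 0) : X M t = ∅ := by
  ext γ
  refine ⟨fun hγ => ?_, fun h => h.elim⟩
  have h1 := hγ 0 1
  have h2 := dist_nonneg.trans h1
  norm_num at h2
  exact absurd h2 (not_le.2 h)

theorem nonneg_of_mem {t : ℝ} {γ : Lp M} (h : γ ∈ X M t) : 0 ≤ t := by
  by_contra h1
  rw [X_neg (not_le.1 h1)] at h
  exact h

theorem mem_X_zero {γ : Lp M} : γ ∈ X M 0 ↔ ∀ x, γ x = γ 0 := by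
  rw [mem_X_iff]
  constructor
  · intro h x
    have := h x 0
    rw [zero_mul] at this
    exact dist_le_zero.1 this
  · intro h x y
    rw [h x, h y, dist_self, zero_mul]

theorem const_mem {t : ℝ} (ht : 0 ≤ t) (p : M) : (ContinuousMap.const _ p : Lp M) ∈ X M t := by
  intro x y
  simpa using mul_nonneg ht (abs_nonneg (x - y))

theorem isClosed_X (t : ℝ) : IsClosed (X M t) := by
  have e : X M t = ⋂ (x : ℝ) (y : ℝ), {γ : Lp M | dist (γ x) (γ y) ≤ t * |x - y|} := by
    ext γ; simp [mem_X]
  rw [e]
  refine isClosed_iInter fun x => isClosed_iInter fun y => ?_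
  exact isClosed_le ((continuous_eval_const _).dist
    (continuous_eval_const _)) continuous_const

/-- **compactness** (Arzelà–Ascoli) -/
theorem isCompact_X [CompactSpace M] (t : ℝ) : IsCompact (X M t) := by
  refine ArzelaAscoli.isCompact_of_equicontinuous _ ?_ ?_
  · have e : (ContinuousMap.toFun '' X M t : Set (UnitAddCircle → M)) =
        {f | ∀ x y : UnitAddCircle, dist (f x) (f y) ≤ t * dist x y} := by
      ext f
      constructor
      · rintro ⟨γ, hγ, rfl⟩
        exact mem_X_iff.1 hγ
      · intro hf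
        have hc : Continuous f := by
          have hL : LipschitzWith t.toNNReal f := LipschitzWith.of_dist_le_mul fun x y => by
            refine (hf x y).trans (mul_le_mul_of_nonneg_right ?_ dist_nonneg)
            exact Real.le_coe_toNNReal t
          exact hL.continuous
        exact ⟨⟨f, hc⟩, mem_X_iff.2 hf, rfl⟩
    rw [e]
    refine IsClosed.isCompact ?_
    have e2 : {f : UnitAddCircle → M | ∀ x y : UnitAddCircle, dist (f x) (f y) ≤ t * dist x y} =
        ⋂ (x : UnitAddCircle) (y : UnitAddCircle), {f | dist (f x) (f y) ≤ t * dist x y} := by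
      ext f; simp
    rw [e2]
    exact isClosed_iInter fun x => isClosed_iInter fun y =>
      isClosed_le ((continuous_apply x).dist (continuous_apply y)) continuous_const
  · refine Metric.equicontinuous_of_continuity_modulus (fun r => t * r) ?_ _ ?_
    · have : Tendsto (fun r : ℝ => t * r) (𝓝 0) (𝓝 (t * 0)) := tendsto_const_nhds.mul tendsto_id
      rwa [mul_zero] at this
    · intro x y γ
      exact mem_X_iff.1 γ.2 x y

/-- a Lipschitz bound on `[0,1]` is enough -/
theorem mem_X_of_Icc {t : ℝ} {γ : Lp M}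
    (h : ∀ x y : ℝ, 0 ≤ x → x ≤ y → y ≤ 1 → dist (γ x) (γ y) ≤ t * (y - x)) : γ ∈ X M t := by
  have ht : 0 ≤ t := by
    have := dist_nonneg.trans (h 0 1 le_rfl zero_le_one le_rfl)
    simpa using this
  have key : ∀ x y : ℝ, x ≤ y → dist (γ x) (γ y) ≤ t * (y - x) := by
    intro x y hxy
    have ex : (x : UnitAddCircle) = ((Int.fract x : ℝ) : UnitAddCircle) := by
      rw [AddCircle.coe_fract]
    have ey : (y : UnitAddCircle) = ((Int.fract y : ℝ) : UnitAddCircle) := by
      rw [AddCircle.coe_fract]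
    have fx := Int.fract_nonneg x
    have fx1 := (Int.fract_lt_one x).le
    have fy := Int.fract_nonneg y
    have fy1 := (Int.fract_lt_one y).le
    have e1 := Int.floor_add_fract x
    have e2 := Int.floor_add_fract y
    rcases (Int.floor_le_floor hxy).eq_or_lt with hf | hf
    · have hf' : ((⌊x⌋ : ℤ) : ℝ) = ⌊y⌋ := by rw [hf]
      rw [ex, ey]
      refine (h _ _ fx (by linarith) fy1).trans (le_of_eq ?_)
      congr 1; linarith
    · have hf' : ((⌊x⌋ : ℤ) : ℝ) + 1 ≤ ⌊y⌋ := by exact_mod_cast hf
      have h1 := h _ 1 fx fx1 le_rfl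
      have h2 := h 0 _ le_rfl fy fy1
      rw [coe_one_circle] at h1
      have h3 : dist (γ x) (γ y) ≤ dist (γ x) (γ 0) + dist (γ 0) (γ y) := dist_triangle _ _ _
      rw [ex, ey] at h3 ⊢
      have e0 : ((0 : ℝ) : UnitAddCircle) = 0 := rfl
      rw [e0] at h2
      refine h3.trans ((add_le_add h1 h2).trans ?_)
      rw [← mul_add]
      exact mul_le_mul_of_nonneg_left (by linarith) ht
  intro x y
  rcases le_total x y with hxy | hxy
  · rw [abs_sub_comm, abs_of_nonneg (by linarith)]
    exact key x y hxy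
  · rw [dist_comm, abs_of_nonneg (by linarith)]
    exact key y x hxy

/-! ### continuity of families of loops -/

theorem exists_Icc (x : UnitAddCircle) : ∃ u : ℝ, u ∈ Icc (0 : ℝ) 1 ∧ (u : UnitAddCircle) = x := by
  induction x using QuotientAddGroup.induction_on with | _ x => ?_
  exact ⟨Int.fract x, ⟨Int.fract_nonneg x, (Int.fract_lt_one x).le⟩, AddCircle.coe_fract x⟩

/-- the quotient map `[0,1] → circle` -/
def qI : C(Icc (0 : ℝ) 1, UnitAddCircle) :=
  ⟨fun u => ((u : ℝ) : UnitAddCircle), (AddCircle.continuous_mk' 1).comp continuous_subtype_val⟩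

theorem isometry_qI : Isometry (fun γ : Lp M => (γ.comp qI : C(Icc (0 : ℝ) 1, M))) := by
  refine Isometry.of_dist_eq fun f g => le_antisymm ?_ ?_
  · refine (ContinuousMap.dist_le dist_nonneg).2 fun u => ?_
    exact ContinuousMap.dist_apply_le_dist (f := f) (g := g) (qI u)
  · refine (ContinuousMap.dist_le dist_nonneg).2 fun x => ?_
    obtain ⟨u, hu, rfl⟩ := exists_Icc x
    exact ContinuousMap.dist_apply_le_dist (f := (f.comp qI : C(Icc (0 : ℝ) 1, M)))
      (g := (g.comp qI : C(Icc (0 : ℝ) 1, M))) ⟨u, hu⟩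

/-- **continuity of a family of loops** from the joint continuity on `[0,1]` -/
theorem cont_to_loop {α : Type*} [TopologicalSpace α] {f : α → Lp M}
    (h : Continuous (fun p : α × Icc (0 : ℝ) 1 => f p.1 ((p.2 : ℝ) : UnitAddCircle))) :
    Continuous f := by
  rw [isometry_qI.isEmbedding.continuous_iff]
  exact ContinuousMap.continuous_of_continuous_uncurry _ h

theorem contOn_to_loop {α : Type*} [TopologicalSpace α] {f : α → Lp M} {S : Set α}
    (h : ContinuousOn (fun p : α × ℝ => f p.1 (p.2 : UnitAddCircle)) (S ×ˢ Icc (0 : ℝ) 1)) :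
    ContinuousOn f S := by
  rw [continuousOn_iff_continuous_domRestrict]
  refine cont_to_loop ?_
  have h1 : Continuous (fun p : S × Icc (0 : ℝ) 1 => (((p.1 : α), (p.2 : ℝ)) : α × ℝ)) := by
    fun_prop
  exact h.comp_continuous h1 fun p => ⟨p.1.2, p.2.2⟩

/-- joint continuity of the evaluation at real parameters -/
theorem continuous_evalR : Continuous (fun p : Lp M × ℝ => p.1 (p.2 : UnitAddCircle)) := by
  have h : Continuous (fun p : Lp M × ℝ => (p.1, (p.2 : UnitAddCircle))) := by
    exact continuous_fst.prodMk ((AddCircle.continuous_mk' 1).comp continuous_snd)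
  exact continuous_eval.comp h

/-! ### rotation, reversal, iteration -/

theorem rot_zero (γ : Lp M) : rot 0 γ = γ := by ext x; simp

theorem rot_rot (a b : UnitAddCircle) (γ : Lp M) : rot a (rot b γ) = rot (a + b) γ := by
  ext x; simp [add_assoc]

theorem rot_mem {t : ℝ} {γ : Lp M} (h : γ ∈ X M t) (a : UnitAddCircle) : rot a γ ∈ X M t := by
  rw [mem_X_iff] at h ⊢
  intro x y
  refine (h (x + a) (y + a)).trans (le_of_eq ?_)
  rw [dist_add_right]

theorem rot_mem_iff {t : ℝ} {γ : Lp M} {a : UnitAddCircle} : rot a γ ∈ X M t ↔ γ ∈ X M t := by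
  refine ⟨fun h => ?_, fun h => rot_mem h a⟩
  have := rot_mem h (-a)
  rwa [rot_rot, neg_add_cancel, rot_zero] at this

/-- the action is continuous -/
theorem continuous_rot : Continuous (fun p : UnitAddCircle × Lp M => rot p.1 p.2) := by
  refine ContinuousMap.continuous_of_continuous_uncurry _ ?_
  show Continuous (fun q : (UnitAddCircle × Lp M) × UnitAddCircle => q.1.2 (q.2 + q.1.1))
  have h : Continuous (fun q : (UnitAddCircle × Lp M) × UnitAddCircle =>
      (q.1.2, q.2 + q.1.1)) := by fun_prop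
  exact continuous_eval.comp h

theorem rev_rev (γ : Lp M) : rev (rev γ) = γ := by ext x; simp

theorem rev_rot (a : UnitAddCircle) (γ : Lp M) : rev (rot a γ) = rot (-a) (rev γ) := by
  ext x; simp only [rev_apply, rot_apply]; congr 1; abel

theorem rev_mem {t : ℝ} {γ : Lp M} (h : γ ∈ X M t) : rev γ ∈ X M t := by
  rw [mem_X_iff] at h ⊢
  intro x y
  refine (h (-x) (-y)).trans (le_of_eq ?_)
  rw [dist_neg_neg]

theorem continuous_rev : Continuous (rev : Lp M → Lp M) :=
  ContinuousMap.continuous_precomp _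

theorem itr_coe (m : ℕ) (γ : Lp M) (x : ℝ) : itr m γ x = γ ((m * x : ℝ) : UnitAddCircle) := by
  rw [itr_apply, ← AddCircle.coe_nsmul, nsmul_eq_mul]

theorem itr_mem {t : ℝ} {γ : Lp M} (h : γ ∈ X M t) (m : ℕ) : itr m γ ∈ X M (m * t) := by
  intro x y
  rw [itr_coe, itr_coe]
  refine (h _ _).trans (le_of_eq ?_)
  rw [← mul_sub, abs_mul, abs_of_nonneg (by positivity : (0 : ℝ) ≤ m)]
  ring

theorem continuous_itr (m : ℕ) : Continuous (itr m : Lp M → Lp M) :=
  ContinuousMap.continuous_precomp _

end basic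

end Crest.Agent.R231.GLugx576
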