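import Crest.Agent.R204.ExcE_406
import Crest.Agent.R204.HtpInv_334
import Crest.Agent.R204.SingAct_265
import Crest.Agent.R204.Gr_334

/-!
# Row 231 (S0357): homology of pairs of subsets (helper877)

Algebra (`d : M →ₗ[R] M`, submodules `X A : Submodule R M`):
* `Zr d X A = {x ∈ X | d x ∈ A}`, `Hr d X A` : relative homology, `Hr.mk`, `Hr.mk_eq_zero`
* `Hr.map` for a linear map which commutes with `d` on `X`
* exact sequence of a triple `Hr.delta`, `exact_inc_proj`, `exact_proj_delta`, `exact_delta_inc`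

Topology (`E` a space, `X A : Set E`, chains `CE E = N F2 (Sing E)`):
* `CS X` : chains with support in `X`; `mem_CS`, `CS_mono`, `bd_mem_CS`, `CS_inf`, `CS_eq_range`
* `HP X A := Hr bd (CS X) (CS A)`; `HP.map f` for `f` continuous on `X`; `HP.inc`;
  `HP.map_eq_of_homotopy`
-/

set_option autoImplicit false

noncomputable section

open Function Finsupp Topology
open Crest.Agent.R204

namespace Crest.Agent.R231.Pairx877

/-! ## algebra -/

section alg

variable {R M M' M'' : Type*} [CommRing R] [AddCommGroup M] [Module R M]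
  [AddCommGroup M'] [Module R M'] [AddCommGroup M''] [Module R M'']

/-- relative cycles -/
def Zr (d : M →ₗ[R] M) (X A : Submodule R M) : Submodule R M := X ⊓ A.comap d

/-- relative homology of a pair of submodules -/
abbrev Hr (d : M →ₗ[R] M) (X A : Submodule R M) : Type _ :=
  Zr d X A ⧸ (A ⊔ X.map d).comap (Zr d X A).subtype

namespace Hr

variable {d : M →ₗ[R] M} {d' : M' →ₗ[R] M'} {d'' : M'' →ₗ[R] M''} {X A B Y : Submodule R M}
  {X' A' : Submodule R M'} {X'' A'' : Submodule R M''}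

/-- class of a relative cycle -/
def mk (d : M →ₗ[R] M) (X A : Submodule R M) (c : M) (hX : c ∈ X) (hA : d c ∈ A) : Hr d X A :=
  Submodule.Quotient.mk ⟨c, hX, hA⟩

theorem mk_surj (x : Hr d X A) : ∃ c hX hA, x = mk d X A c hX hA := by
  obtain ⟨⟨c, hX, hA⟩, rfl⟩ := Submodule.Quotient.mk_surjective _ x
  exact ⟨c, hX, hA, rfl⟩

theorem mk_eq_zero {c : M} {hX : c ∈ X} {hA : d c ∈ A} :
    mk d X A c hX hA = 0 ↔ ∃ w ∈ X, c - d w ∈ A := by
  unfold mk
  rw [Submodule.Quotient.mk_eq_zero, Submodule.mem_comap, Submodule.mem_sup]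
  constructor
  · rintro ⟨a, ha, b, ⟨w, hw, rfl⟩, h⟩
    exact ⟨w, hw, by rw [← show a + d w = c from h, add_sub_cancel_right]; exact ha⟩
  · rintro ⟨w, hw, h⟩
    exact ⟨c - d w, h, d w, ⟨w, hw, rfl⟩, sub_add_cancel _ _⟩

theorem mk_eq_mk {c c' : M} {hX : c ∈ X} {hA : d c ∈ A} {hX' : c' ∈ X} {hA' : d c' ∈ A} :
    mk d X A c hX hA = mk d X A c' hX' hA' ↔ ∃ w ∈ X, c - c' - d w ∈ A := by
  unfold mk
  rw [Submodule.Quotient.eq, Submodule.mem_comap, Submodule.mem_sup]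
  constructor
  · rintro ⟨a, ha, b, ⟨w, hw, rfl⟩, h⟩
    exact ⟨w, hw, by rw [← show a + d w = c - c' from h, add_sub_cancel_right]; exact ha⟩
  · rintro ⟨w, hw, h⟩
    exact ⟨c - c' - d w, h, d w, ⟨w, hw, rfl⟩, sub_add_cancel _ _⟩

theorem mk_add {c c' : M} (hX : c ∈ X) (hA : d c ∈ A) (hX' : c' ∈ X) (hA' : d c' ∈ A) :
    mk d X A (c + c') (X.add_mem hX hX') (by rw [map_add]; exact A.add_mem hA hA') =
      mk d X A c hX hA + mk d X A c' hX' hA' := rfl

theorem mk_smul {c : M} (r : R) (hX : c ∈ X) (hA : d c ∈ A) :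
    mk d X A (r • c) (X.smul_mem r hX) (by rw [map_smul]; exact A.smul_mem r hA) =
      r • mk d X A c hX hA := rfl

/-- the map induced by a linear map which commutes with the differentials on `X` -/
def map (f : M →ₗ[R] M') (hX : ∀ x ∈ X, f x ∈ X') (hA : ∀ x ∈ A, f x ∈ A')
    (hd : ∀ x ∈ X, d' (f x) = f (d x)) : Hr d X A →ₗ[R] Hr d' X' A' :=
  Submodule.mapQ _ _
    (f.restrict (p := Zr d X A) (q := Zr d' X' A') fun x hx =>
      ⟨hX x hx.1, by
        show d' (f x) ∈ A'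
        rw [hd x hx.1]; exact hA _ hx.2⟩)
    (by
      rintro ⟨c, hc⟩ h
      rw [Submodule.mem_comap, Submodule.mem_sup] at h
      obtain ⟨a, ha, b, ⟨w, hw, rfl⟩, h⟩ := h
      rw [Submodule.mem_comap, Submodule.mem_comap, Submodule.mem_sup]
      refine ⟨f a, hA a ha, d' (f w), ⟨f w, hX w hw, rfl⟩, ?_⟩
      rw [hd w hw, ← map_add]
      exact congrArg f h)

@[simp] theorem map_mk (f : M →ₗ[R] M') (hX : ∀ x ∈ X, f x ∈ X') (hA : ∀ x ∈ A, f x ∈ A')
    (hd : ∀ x ∈ X, d' (f x) = f (d x)) {c : M} (h1 : c ∈ X) (h2 : d c ∈ A) :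
    map f hX hA hd (mk d X A c h1 h2) =
      mk d' X' A' (f c) (hX c h1) (by rw [hd c h1]; exact hA _ h2) := rfl

/-- two maps which agree on `X` agree in homology -/
theorem map_congr {f g : M →ₗ[R] M'} {hX : ∀ x ∈ X, f x ∈ X'} {hA : ∀ x ∈ A, f x ∈ A'}
    {hd : ∀ x ∈ X, d' (f x) = f (d x)} {hX' : ∀ x ∈ X, g x ∈ X'} {hA' : ∀ x ∈ A, g x ∈ A'}
    {hd' : ∀ x ∈ X, d' (g x) = g (d x)} (h : ∀ x ∈ X, f x = g x) :
    map f hX hA hd = map g hX' hA' hd' := by
  refine LinearMap.ext fun x => ?_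
  obtain ⟨c, h1, h2, rfl⟩ := mk_surj x
  rw [map_mk, map_mk]
  congr 1
  exact h c h1

/-- composition -/
theorem map_map {f : M →ₗ[R] M'} {g : M' →ₗ[R] M''} {k : M →ₗ[R] M''}
    {hX : ∀ x ∈ X, f x ∈ X'} {hA : ∀ x ∈ A, f x ∈ A'} {hd : ∀ x ∈ X, d' (f x) = f (d x)}
    {hX' : ∀ x ∈ X', g x ∈ X''} {hA' : ∀ x ∈ A', g x ∈ A''}
    {hd' : ∀ x ∈ X', d'' (g x) = g (d' x)}
    {kX : ∀ x ∈ X, k x ∈ X''} {kA : ∀ x ∈ A, k x ∈ A''} {kd : ∀ x ∈ X, d'' (k x) = k (d x)}
    (h : ∀ x ∈ X, g (f x) = k x) (x : Hr d X A) :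
    map g hX' hA' hd' (map f hX hA hd x) = map k kX kA kd x := by
  obtain ⟨c, h1, h2, rfl⟩ := mk_surj x
  rw [map_mk, map_mk, map_mk]
  congr 1
  exact h c h1

theorem map_id_apply {f : M →ₗ[R] M} {hX : ∀ x ∈ X, f x ∈ X} {hA : ∀ x ∈ A, f x ∈ A}
    {hd : ∀ x ∈ X, d (f x) = f (d x)} (h : ∀ x ∈ X, f x = x) (x : Hr d X A) :
    map f hX hA hd x = x := by
  obtain ⟨c, h1, h2, rfl⟩ := mk_surj x
  rw [map_mk]
  congr 1
  exact h c h1

/-- chain homotopic maps agree -/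
theorem map_eq_of_homotopy {f g : M →ₗ[R] M'} {hX : ∀ x ∈ X, f x ∈ X'} {hA : ∀ x ∈ A, f x ∈ A'}
    {hd : ∀ x ∈ X, d' (f x) = f (d x)} {hX' : ∀ x ∈ X, g x ∈ X'} {hA' : ∀ x ∈ A, g x ∈ A'}
    {hd' : ∀ x ∈ X, d' (g x) = g (d x)} (P : M →ₗ[R] M') (PX : ∀ x ∈ X, P x ∈ X')
    (PA : ∀ x ∈ A, P x ∈ A') (h : ∀ x ∈ X, f x - g x = d' (P x) + P (d x)) :
    map f hX hA hd = map g hX' hA' hd' := by
  refine LinearMap.ext fun x => ?_
  obtain ⟨c, h1, h2, rfl⟩ := mk_surj x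
  rw [map_mk, map_mk, mk_eq_mk]
  refine ⟨P c, PX c h1, ?_⟩
  rw [h c h1, add_sub_cancel_left]
  exact PA _ h2

/-- inclusion of pairs -/
def inc (hX : X ≤ Y) (hA : A ≤ B) : Hr d X A →ₗ[R] Hr d Y B :=
  map LinearMap.id (fun _ h => hX h) (fun _ h => hA h) fun _ _ => rfl

@[simp] theorem inc_mk (hX : X ≤ Y) (hA : A ≤ B) {c : M} (h1 : c ∈ X) (h2 : d c ∈ A) :
    inc hX hA (mk d X A c h1 h2) = mk d Y B c (hX h1) (hA h2) := rfl

theorem inc_refl (x : Hr d X A) : inc le_rfl le_rfl x = x := by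
  obtain ⟨c, h1, h2, rfl⟩ := mk_surj x
  rfl

theorem inc_inc {Z C : Submodule R M} (hX : X ≤ Y) (hA : A ≤ B) (hY : Y ≤ Z) (hB : B ≤ C)
    (x : Hr d X A) : inc hY hB (inc hX hA x) = inc (hX.trans hY) (hA.trans hB) x := by
  obtain ⟨c, h1, h2, rfl⟩ := mk_surj x
  rfl

/-! ### the exact sequence of a triple `A ≤ B ≤ X` -/

/-- connecting map of the triple -/
def delta (dd : ∀ x, d (d x) = 0) : Hr d X B →ₗ[R] Hr d B A :=
  Submodule.mapQ _ _
    (d.restrict (p := Zr d X B) (q := Zr d B A) fun x hx =>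
      ⟨hx.2, by show d (d x) ∈ A; rw [dd]; exact A.zero_mem⟩)
    (by
      rintro ⟨c, hc⟩ h
      rw [Submodule.mem_comap, Submodule.mem_sup] at h
      obtain ⟨a, ha, b, ⟨w, hw, rfl⟩, h⟩ := h
      rw [Submodule.mem_comap, Submodule.mem_comap, Submodule.mem_sup]
      refine ⟨0, A.zero_mem, d a, ⟨a, ha, rfl⟩, ?_⟩
      have h' : c = a + d w := h.symm
      show 0 + d a = d c
      rw [h', map_add, dd, add_zero, zero_add])

variable (dd : ∀ x, d (d x) = 0)

include dd in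
theorem exact_inc_proj (hBX : B ≤ X) (hAB : A ≤ B) :
    Exact (inc (d := d) hBX (le_refl A)) (inc (d := d) (le_refl X) hAB) := by
  intro x
  obtain ⟨c, h1, h2, rfl⟩ := mk_surj x
  rw [inc_mk, mk_eq_zero]
  constructor
  · rintro ⟨w, hw, h⟩
    refine ⟨mk d B A (c - d w) h (by rw [map_sub, dd, sub_zero]; exact h2), ?_⟩
    rw [inc_mk, mk_eq_mk]
    refine ⟨-w, X.neg_mem hw, ?_⟩
    rw [map_neg]
    have : c - d w - c - -d w = 0 := by abel
    rw [this]; exact A.zero_mem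
  · rintro ⟨y, hy⟩
    obtain ⟨b, h3, h4, rfl⟩ := mk_surj y
    rw [inc_mk, mk_eq_mk] at hy
    obtain ⟨w, hw, h⟩ := hy
    refine ⟨-w, X.neg_mem hw, ?_⟩
    rw [map_neg]
    have : c - -d w = b - (b - c - d w) := by abel
    rw [this]
    exact B.sub_mem h3 (hAB h)

@[simp] theorem delta_mk {c : M} (h1 : c ∈ X) (h2 : d c ∈ B) :
    delta (A := A) dd (mk d X B c h1 h2) = mk d B A (d c) h2 (by rw [dd]; exact A.zero_mem) :=
  rfl

theorem exact_proj_delta (hBX : B ≤ X) (hAB : A ≤ B) :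
    Exact (inc (d := d) (le_refl X) hAB) (delta (X := X) (A := A) dd) := by
  intro x
  obtain ⟨c, h1, h2, rfl⟩ := mk_surj x
  rw [delta_mk, mk_eq_zero]
  constructor
  · rintro ⟨w, hw, h⟩
    refine ⟨mk d X A (c - w) (X.sub_mem h1 (hBX hw)) (by rw [map_sub]; exact h), ?_⟩
    rw [inc_mk, mk_eq_mk]
    refine ⟨0, X.zero_mem, ?_⟩
    have : c - w - c - d 0 = -w := by rw [map_zero]; abel
    rw [this]; exact B.neg_mem hw
  · rintro ⟨y, hy⟩
    obtain ⟨b, h3, h4, rfl⟩ := mk_surj y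
    rw [inc_mk, mk_eq_mk] at hy
    obtain ⟨w, hw, h⟩ := hy
    refine ⟨-(b - c - d w), B.neg_mem h, ?_⟩
    have : d c - d (-(b - c - d w)) = d b := by
      rw [map_neg, map_sub, map_sub, dd]; abel
    rw [this]; exact h4

theorem exact_delta_inc (hBX : B ≤ X) (hAB : A ≤ B) :
    Exact (delta (X := X) (A := A) dd) (inc (d := d) hBX (le_refl A)) := by
  intro x
  obtain ⟨c, h1, h2, rfl⟩ := mk_surj x
  rw [inc_mk, mk_eq_zero]
  constructor
  · rintro ⟨w, hw, h⟩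
    have hdw : d w ∈ B := by
      have : d w = c - (c - d w) := by abel
      rw [this]; exact B.sub_mem h1 (hAB h)
    refine ⟨mk d X B w hw hdw, ?_⟩
    rw [delta_mk, mk_eq_mk]
    refine ⟨0, B.zero_mem, ?_⟩
    have : d w - c - d 0 = -(c - d w) := by rw [map_zero]; abel
    rw [this]; exact A.neg_mem h
  · rintro ⟨y, hy⟩
    obtain ⟨b, h3, h4, rfl⟩ := mk_surj y
    rw [delta_mk, mk_eq_mk] at hy
    obtain ⟨w, hw, h⟩ := hy
    refine ⟨b - w, X.sub_mem h3 (hBX hw), ?_⟩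
    have : c - d (b - w) = -(d b - c - d w) := by rw [map_sub]; abel
    rw [this]; exact A.neg_mem h

end Hr

end alg

/-! ## topology -/

section top

open SingAct265 EZ271

variable {E E' E'' : Type} [TopologicalSpace E] [TopologicalSpace E'] [TopologicalSpace E'']

/-- mod 2 singular chains of the ambient space -/
abbrev CE (E : Type) [TopologicalSpace E] : Type := N F2 (SS.Sing E)

/-- the differential -/
abbrev bdE (E : Type) [TopologicalSpace E] : CE E →ₗ[F2] CE E := N.bd F2 (SS.Sing E)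

/-- chains with support in `X` -/
def CS (X : Set E) : Submodule F2 (CE E) :=
  Submodule.span F2 {c | ∃ (n : ℕ) (σ : (SS.Sing E).S n), (∀ t, ev σ t ∈ X) ∧ c = N.sx F2 σ}

variable {X A B X' A' : Set E}

theorem sx_mem_CS {n : ℕ} {σ : (SS.Sing E).S n} (h : ∀ t, ev σ t ∈ X) : N.sx F2 σ ∈ CS X :=
  Submodule.subset_span ⟨n, σ, h, rfl⟩

theorem CS_le {P : Submodule F2 (CE E)}
    (h : ∀ (n : ℕ) (σ : (SS.Sing E).S n), (∀ t, ev σ t ∈ X) → N.sx F2 σ ∈ P) : CS X ≤ P := by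
  refine Submodule.span_le.2 ?_
  rintro _ ⟨n, σ, hσ, rfl⟩
  exact h n σ hσ

theorem CS_mono (h : X ⊆ X') : CS X ≤ CS X' := CS_le fun _ _ hσ => sx_mem_CS fun t => h (hσ t)

/-- two linear maps which agree on the simplices of `X` agree on `CS X` -/
theorem eq_on_CS {M : Type*} [AddCommGroup M] [Module F2 M] {f g : CE E →ₗ[F2] M}
    (h : ∀ (n : ℕ) (σ : (SS.Sing E).S n), (∀ t, ev σ t ∈ X) → f (N.sx F2 σ) = g (N.sx F2 σ)) :
    ∀ c ∈ CS X, f c = g c := by
  have h1 : CS X ≤ LinearMap.ker (f - g) := CS_le fun n σ hσ => by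
    rw [LinearMap.mem_ker, LinearMap.sub_apply, h n σ hσ, sub_self]
  intro c hc
  have h2 := h1 hc
  rw [LinearMap.mem_ker, LinearMap.sub_apply] at h2
  exact sub_eq_zero.1 h2

theorem map_mem_of_CS {M : Type*} [AddCommGroup M] [Module F2 M] {f : CE E →ₗ[F2] M}
    {P : Submodule F2 M}
    (h : ∀ (n : ℕ) (σ : (SS.Sing E).S n), (∀ t, ev σ t ∈ X) → f (N.sx F2 σ) ∈ P) :
    ∀ c ∈ CS X, f c ∈ P := by
  have h1 : CS X ≤ P.comap f := CS_le fun n σ hσ => h n σ hσ
  exact fun c hc => h1 hc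

theorem bd_mem_CS : ∀ c ∈ CS X, bdE E c ∈ CS X := by
  refine map_mem_of_CS fun n σ hσ => ?_
  rcases n with _ | n
  · rw [bd_sx_zero]; exact Submodule.zero_mem _
  · rw [bd_sx_succ]
    refine Submodule.sum_mem _ fun i _ => Submodule.smul_mem _ _ (sx_mem_CS fun t => ?_)
    rw [ev_act]
    exact hσ _

theorem bd_bdE (c : CE E) : bdE E (bdE E c) = 0 := N.bd_bd c

theorem CS_univ : CS (Set.univ : Set E) = ⊤ := by
  rw [eq_top_iff, span_sx]
  refine Submodule.span_le.2 ?_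
  rintro _ ⟨n, σ, rfl⟩
  exact sx_mem_CS fun _ => trivial

instance stdNonempty (n : ℕ) : Nonempty (stdSimplex ℝ (Fin (n + 1))) := inferInstance

theorem CS_empty : CS (∅ : Set E) = ⊥ := by
  rw [eq_bot_iff]
  exact CS_le fun n σ h => (h (Classical.choice (stdNonempty n))).elim

/-- images of simplicial maps with values in `X` -/
theorem map_mem_CS {K : SS} (k : SS.Hom K (SS.Sing E)) (h : ∀ n (x : K.S n) t, ev (k.app n x) t ∈ X)
    (c : N F2 K) : N.map F2 k c ∈ CS X := by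
  refine N_induction (p := fun c => N.map F2 k c ∈ CS X) c ?_ ?_ ?_ ?_
  · rw [map_zero]; exact Submodule.zero_mem _
  · intro a b ha hb; rw [map_add]; exact Submodule.add_mem _ ha hb
  · intro r a ha; rw [map_smul]; exact Submodule.smul_mem _ _ ha
  · intro n x; rw [N.map_sx]; exact sx_mem_CS (h n x)

/-! ### restriction to a subspace -/

/-- a simplex of `E` with values in `X` as a simplex of `X` -/
def rs (X : Set E) {n : ℕ} (σ : (SS.Sing E).S n) (h : ∀ t, ev σ t ∈ X) : (SS.Sing X).S n :=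
  mkS (fun t => (⟨ev σ t, h t⟩ : X)) (Continuous.subtype_mk (continuous_ev σ) _)

theorem map_rs {n : ℕ} (σ : (SS.Sing E).S n) (h : ∀ t, ev σ t ∈ X) :
    (SS.SingMap (SpecA.inc X)).app n (rs X σ h) = σ := rfl

theorem rs_map {n : ℕ} (σ : (SS.Sing X).S n)
    (h : ∀ t, ev ((SS.SingMap (SpecA.inc X)).app n σ) t ∈ X) :
    rs X ((SS.SingMap (SpecA.inc X)).app n σ) h = σ := rfl

theorem val_of_dgn {n : ℕ} (j : Fin (n + 1)) (y : (SS.Sing E).S n)
    (h : ∀ t, ev ((SS.Sing E).act (Op.dgn j) y) t ∈ X) : ∀ t, ev y t ∈ X := by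
  intro t
  have h1 : (SS.Sing E).act (Op.face j.castSucc) ((SS.Sing E).act (Op.dgn j) y) = y := by
    rw [← (SS.Sing E).act_comp, Ch.face_dgn_eq _ _ (Or.inl rfl), (SS.Sing E).act_id]
  rw [← h1, ev_act]
  exact h _

open Classical in
/-- restriction of chains to the simplices contained in `X` -/
def res (X : Set E) : CE E →ₗ[F2] CE X :=
  liftN (fun _ σ => if h : ∀ t, ev σ t ∈ X then N.sx F2 (rs X σ h) else 0) (by
    intro n j y
    split_ifs with h
    · exact N.sx_dgn (K := SS.Sing X) j (rs X y (val_of_dgn j y h))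
    · rfl)

theorem res_sx {n : ℕ} {σ : (SS.Sing E).S n} (h : ∀ t, ev σ t ∈ X) :
    res X (N.sx F2 σ) = N.sx F2 (rs X σ h) := by
  rw [res, liftN_sx, dif_pos h]

theorem res_sx_neg {n : ℕ} {σ : (SS.Sing E).S n} (h : ¬ ∀ t, ev σ t ∈ X) :
    res X (N.sx F2 σ) = 0 := by
  rw [res, liftN_sx, dif_neg h]

theorem map_inc_res : ∀ c ∈ CS X, N.map F2 (SS.SingMap (SpecA.inc X)) (res X c) = c := by
  refine eq_on_CS (f := N.map F2 (SS.SingMap (SpecA.inc X)) ∘ₗ res X) (g := LinearMap.id)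
    fun n σ h => ?_
  rw [LinearMap.comp_apply, res_sx h, N.map_sx, map_rs]
  rfl

theorem res_map_inc (c : CE X) : res X (N.map F2 (SS.SingMap (SpecA.inc X)) c) = c := by
  have h : res X ∘ₗ N.map F2 (SS.SingMap (SpecA.inc X)) = LinearMap.id := by
    refine hom_ext fun n σ => ?_
    rw [LinearMap.comp_apply, N.map_sx, res_sx (fun t => (ev σ t).2)]
    rfl
  exact LinearMap.congr_fun h c

theorem CS_eq_range : CS X = LinearMap.range (N.map F2 (SS.SingMap (SpecA.inc X))) := by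
  refine le_antisymm (fun c hc => ⟨res X c, map_inc_res c hc⟩) ?_
  rintro _ ⟨c, rfl⟩
  exact map_mem_CS _ (fun n x t => (ev x t).2) c

theorem bd_res : ∀ c ∈ CS X, bdE X (res X c) = res X (bdE E c) := by
  intro c hc
  obtain ⟨c, rfl⟩ := CS_eq_range (X := X) ▸ hc
  have h := LinearMap.congr_fun (N.map_bd (R := F2) (SS.SingMap (SpecA.inc X))) c
  simp only [LinearMap.comp_apply] at h
  rw [res_map_inc, ← h, res_map_inc]

/-! ### maps which are continuous on `X` -/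

/-- composition of a simplex with a map continuous on `X` -/
def cmp (f : E → E') (hf : ContinuousOn f X) {n : ℕ} (σ : (SS.Sing E).S n)
    (h : ∀ t, ev σ t ∈ X) : (SS.Sing E').S n :=
  mkS (fun t => f (ev σ t)) (hf.comp_continuous (continuous_ev σ) h)

/-- the chain map of a map continuous on `X` (zero on the other simplices) -/
def push (X : Set E) (f : E → E') (hf : ContinuousOn f X) : CE E →ₗ[F2] CE E' :=
  N.map F2 (SS.SingMap ⟨X.domRestrict f, hf.domRestrict⟩) ∘ₗ res X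

variable {f g : E → E'} {hf : ContinuousOn f X} {hg : ContinuousOn g X}

theorem push_sx {n : ℕ} {σ : (SS.Sing E).S n} (h : ∀ t, ev σ t ∈ X) :
    push X f hf (N.sx F2 σ) = N.sx F2 (cmp f hf σ h) := by
  rw [push, LinearMap.comp_apply, res_sx h, N.map_sx]
  rfl

theorem push_sx_neg {n : ℕ} {σ : (SS.Sing E).S n} (h : ¬ ∀ t, ev σ t ∈ X) :
    push X f hf (N.sx F2 σ) = 0 := by
  rw [push, LinearMap.comp_apply, res_sx_neg h, map_zero]

theorem push_mem {Y' : Set E'} (h : Set.MapsTo f A Y') :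
    ∀ c ∈ CS A, push X f hf c ∈ CS Y' := by
  refine map_mem_of_CS fun n σ hσ => ?_
  by_cases hx : ∀ t, ev σ t ∈ X
  · rw [push_sx hx]
    exact sx_mem_CS fun t => h (hσ t)
  · rw [push_sx_neg hx]; exact Submodule.zero_mem _

theorem bd_push : ∀ c ∈ CS X, bdE E' (push X f hf c) = push X f hf (bdE E c) := by
  intro c hc
  have h := LinearMap.congr_fun
    (N.map_bd (R := F2) (SS.SingMap ⟨X.domRestrict f, hf.domRestrict⟩)) (res X c)
  simp only [LinearMap.comp_apply] at h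
  rw [push, LinearMap.comp_apply, LinearMap.comp_apply, ← h, bd_res c hc]

theorem push_congr (h : Set.EqOn f g X) : push X f hf = push X g hg := by
  have : (⟨X.domRestrict f, hf.domRestrict⟩ : C(X, E')) = ⟨X.domRestrict g, hg.domRestrict⟩ :=
    ContinuousMap.ext fun x => h x.2
  rw [push, push, this]

theorem push_id {hi : ContinuousOn (fun x : E => x) X} : ∀ c ∈ CS X, push X (fun x => x) hi c = c :=
  map_inc_res

theorem push_subset (hA : A ⊆ X) {hfA : ContinuousOn f A} :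
    ∀ c ∈ CS A, push X f hf c = push A f hfA c :=
  eq_on_CS fun n σ h => by
    rw [push_sx (fun t => hA (h t)), push_sx h]
    rfl

theorem push_push {Y' : Set E'} {k : E' → E''} {hk : ContinuousOn k Y'} {l : E → E''}
    {hl : ContinuousOn l X} (h : Set.MapsTo f X Y') (hkl : ∀ x ∈ X, k (f x) = l x) :
    ∀ c ∈ CS X, push Y' k hk (push X f hf c) = push X l hl c := by
  refine eq_on_CS (f := push Y' k hk ∘ₗ push X f hf) fun n σ hσ => ?_
  rw [LinearMap.comp_apply, push_sx hσ, push_sx (σ := cmp f hf σ hσ) (fun t => h (hσ t)),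
    push_sx hσ]
  congr 1
  exact sing_ext fun t => hkl _ (hσ t)

/-! ### relative cycles, relative boundaries, homology of a pair of subsets -/

/-- relative cycles of the pair `(X, A)` -/
def Zp (X A : Set E) : Submodule F2 (CE E) := CS X ⊓ (CS A).comap (bdE E)

/-- relative boundaries of the pair `(X, A)` -/
def Bp (X A : Set E) : Submodule F2 (CE E) := CS A ⊔ (CS X).map (bdE E)

/-- homology of the pair `(X, A)` (total) -/
abbrev HP (X A : Set E) : Type := Hr (bdE E) (CS X) (CS A)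

theorem mem_Zp {c : CE E} : c ∈ Zp X A ↔ c ∈ CS X ∧ bdE E c ∈ CS A := Iff.rfl

theorem mem_Bp {c : CE E} : c ∈ Bp X A ↔ ∃ w ∈ CS X, c - bdE E w ∈ CS A := by
  rw [Bp, Submodule.mem_sup]
  constructor
  · rintro ⟨a, ha, b, ⟨w, hw, rfl⟩, rfl⟩
    exact ⟨w, hw, by rwa [add_sub_cancel_right]⟩
  · rintro ⟨w, hw, h⟩
    exact ⟨_, h, _, ⟨w, hw, rfl⟩, sub_add_cancel _ _⟩

theorem Zp_mono (hX : X ⊆ X') (hA : A ⊆ A') : Zp X A ≤ Zp X' A' :=
  fun _ hc => ⟨CS_mono hX hc.1, CS_mono hA hc.2⟩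

theorem Bp_mono (hX : X ⊆ X') (hA : A ⊆ A') : Bp X A ≤ Bp X' A' :=
  sup_le_sup (CS_mono hA) (Submodule.map_mono (CS_mono hX))

theorem Bp_le_Zp (h : A ⊆ X) : Bp X A ≤ Zp X A := by
  refine sup_le (fun c hc => ⟨CS_mono h hc, bd_mem_CS c hc⟩) ?_
  rintro _ ⟨w, hw, rfl⟩
  exact ⟨bd_mem_CS w hw, by
    show bdE E (bdE E w) ∈ CS A
    rw [bd_bdE]; exact Submodule.zero_mem _⟩

theorem HP_mk_eq_zero {c : CE E} {h1 : c ∈ CS X} {h2 : bdE E c ∈ CS A} :
    Hr.mk (bdE E) (CS X) (CS A) c h1 h2 = 0 ↔ c ∈ Bp X A := by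
  rw [Hr.mk_eq_zero, mem_Bp]

end top

end Crest.Agent.R231.Pairx877
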