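import Crest.Agent.R231.TAct_569
import Crest.Agent.R231.Pair_877
import Crest.Agent.R231.GLoop_576
import Crest.Agent.R231.IfA_978

/-!
# Row 231, leaf H1b (helper569): T-complexes of spaces with circle action, sub-complexes, loops

* `TAct.sing ρ h0 ha : TAct (SS.Sing E)` for a continuous action `ρ : C(UnitAddCircle × E, E)`;
  `op_mem_CS` : chains of an invariant set are stable under all `op c`
* `A.Stb W` (stable submodules of `N F2 K`), `A.sub W hW : TC` with `C j = ↥(N.gr F2 K j ⊓ W)`,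
  `sval`, `smk`, graded submodules `A.gs hW V j = comap sval V`
* `TC.toMix : Mix` (`De = (1+g)h`), `DD_toMix : DD = DT`
* loops: `LA M : TAct (SS.Sing (Lp M))`, `WL M = ⨆ t, CS (X M t)`, `TL M : TC`, `FL M t`.
-/

set_option autoImplicit false

noncomputable section

open Crest.Agent.R204 Crest.Agent.R204.EZ271 Crest.Agent.R204.EZ847 Crest.Agent.R204.SingAct265
open Crest.Agent.R231.TCx569 Crest.Agent.R231.Pairx877

namespace Crest.Agent.R231.TActx569

/-! ## spaces with an action of the circle -/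

section sing

variable {E : Type} [TopologicalSpace E]

/-- a continuous action of the circle as a simplicial action -/
def TAct.sing (ρ : C(UnitAddCircle × E, E)) (h0 : ∀ x, ρ (0, x) = x)
    (ha : ∀ s t x, ρ (s + t, x) = ρ (s, ρ (t, x))) : TAct (SS.Sing E) where
  a := famAct (SS.Hom.id ST) ρ
  assoc n s t x := sing_ext fun u => ha _ _ _
  zero n x := sing_ext fun u => h0 _

variable {ρ : C(UnitAddCircle × E, E)} {h0 : ∀ x, ρ (0, x) = x}
  {ha : ∀ s t x, ρ (s + t, x) = ρ (s, ρ (t, x))}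

@[simp] theorem TAct.ev_sing {n : ℕ} (s : ST.S n) (x : (SS.Sing E).S n) (u : stdSimplex ℝ (Fin (n + 1))) :
    ev ((TAct.sing ρ h0 ha).a.app n (s, x)) u = ρ (ev s u, ev x u) := rfl

@[simp] theorem TAct.ev_rot {n : ℕ} (v : UnitAddCircle) (x : (SS.Sing E).S n)
    (u : stdSimplex ℝ (Fin (n + 1))) :
    ev (((TAct.sing ρ h0 ha).rot v).app n x) u = ρ (v, ev x u) := rfl

/-- rotation on the space -/
def rotC (ρ : C(UnitAddCircle × E, E)) (v : UnitAddCircle) : C(E, E) :=
  ⟨fun x => ρ (v, x), ρ.continuous.comp (by fun_prop)⟩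

theorem TAct.rot_sing (v : UnitAddCircle) :
    (TAct.sing ρ h0 ha).rot v = SS.SingMap (rotC ρ v) := by
  refine SS.Hom.ext (funext fun n => funext fun x => ?_)
  exact sing_ext fun u => rfl

/-- chains of an invariant set are stable under the operators of chains of the circle -/
theorem TAct.op_mem_CS {X : Set E} (hX : ∀ (v : UnitAddCircle), ∀ x ∈ X, ρ (v, x) ∈ X) (c : N F2 ST) :
    ∀ z ∈ CS X, (TAct.sing ρ h0 ha).op c z ∈ CS X := by
  refine map_mem_of_CS fun n σ hσ => ?_
  rw [TAct.op_apply]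
  have e1 : N.sx F2 σ = N.map F2 ((SS.Sing E).yo σ) (N.sx F2 (iota n)) := sx_eq_map_iota F2 σ
  have e2 := map_cross F2 (SS.Hom.id ST) ((SS.Sing E).yo σ) c (N.sx F2 (iota n))
  rw [map_idHom, ← e1] at e2
  rw [← e2, map_map]
  refine map_mem_CS _ (fun m x t => ?_) _
  exact hX _ _ (hσ _)

end sing

/-! ## stable submodules -/

namespace TAct

variable {K : SS} (A : TAct K)

/-- submodules of the chains which are stable under boundary, `g`, `h` -/
structure Stb (W : Submodule F2 (N F2 K)) : Prop where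
  bd : ∀ z ∈ W, N.bd F2 K z ∈ W
  g : ∀ z ∈ W, A.gN z ∈ W
  h : ∀ z ∈ W, A.hN z ∈ W

variable {A}

theorem Stb.iSup {ι : Sort*} {W : ι → Submodule F2 (N F2 K)} (hW : ∀ i, A.Stb (W i)) :
    A.Stb (⨆ i, W i) := by
  have key : ∀ f : N F2 K →ₗ[F2] N F2 K, (∀ i, ∀ z ∈ W i, f z ∈ W i) → ∀ z ∈ ⨆ i, W i, f z ∈ ⨆ i, W i := by
    intro f hf
    have h1 : (⨆ i, W i) ≤ (⨆ i, W i).comap f :=
      iSup_le fun i z hz => (le_iSup W i) (hf i z hz)
    exact fun z hz => h1 hz
  exact ⟨key _ fun i => (hW i).bd, key _ fun i => (hW i).g, key _ fun i => (hW i).h⟩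

variable (A)

/-- the T-complex of a stable submodule -/
def sub (W : Submodule F2 (N F2 K)) (hW : A.Stb W) : TC where
  C n := ↥(N.gr F2 K n ⊓ W)
  d n := (N.bd F2 K).restrict (fun _ hx => ⟨Exc406.bd_mem_gr n hx.1, hW.bd _ hx.2⟩)
  g n := A.gN.restrict (fun _ hx => ⟨A.gN_mem_gr hx.1, hW.g _ hx.2⟩)
  h n := A.hN.restrict (fun _ hx => ⟨A.hN_mem_gr hx.1, hW.h _ hx.2⟩)
  dd n x := Subtype.ext (N.bd_bd _)
  gg n x := Subtype.ext (A.gN_gN _)
  hh n x := Subtype.ext (A.hN_hN _)
  hg n x := Subtype.ext (A.hN_gN _)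
  dg n x := Subtype.ext (A.bd_gN _)
  dh_zero x := Subtype.ext (by
    have h := A.bd_hN x.1
    rw [Exc406.bd_gr_zero x.2.1, map_zero, add_zero] at h
    exact h)
  dh_succ n x := Subtype.ext (A.bd_hN _)

variable {W : Submodule F2 (N F2 K)} (hW : A.Stb W)

/-- underlying chain -/
def sval (n : ℕ) : (A.sub W hW).C n →ₗ[F2] N F2 K := (N.gr F2 K n ⊓ W).subtype

theorem sval_inj (n : ℕ) : Function.Injective (A.sval hW n) := Subtype.val_injective
theorem sval_mem {n : ℕ} (x : (A.sub W hW).C n) : A.sval hW n x ∈ N.gr F2 K n := x.2.1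
theorem sval_mem' {n : ℕ} (x : (A.sub W hW).C n) : A.sval hW n x ∈ W := x.2.2
/-- a chain in degree `n` as an element of the complex -/
def smk {n : ℕ} (z : N F2 K) (hz : z ∈ N.gr F2 K n) (hz' : z ∈ W) : (A.sub W hW).C n := ⟨z, hz, hz'⟩
@[simp] theorem sval_smk {n : ℕ} (z : N F2 K) (hz : z ∈ N.gr F2 K n) (hz' : z ∈ W) :
    A.sval hW n (A.smk hW z hz hz') = z := rfl
theorem smk_sval {n : ℕ} (x : (A.sub W hW).C n) :
    A.smk hW (A.sval hW n x) (A.sval_mem hW x) (A.sval_mem' hW x) = x := rfl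

@[simp] theorem sval_d (n : ℕ) (x : (A.sub W hW).C (n + 1)) :
    A.sval hW n ((A.sub W hW).d n x) = N.bd F2 K (A.sval hW (n + 1) x) := rfl
@[simp] theorem sval_g (n : ℕ) (x : (A.sub W hW).C n) :
    A.sval hW n ((A.sub W hW).g n x) = A.gN (A.sval hW n x) := rfl
@[simp] theorem sval_h (n : ℕ) (x : (A.sub W hW).C n) :
    A.sval hW (n + 1) ((A.sub W hW).h n x) = A.hN (A.sval hW n x) := rfl

/-- graded submodule of the chains in `V` -/
def gs (V : Submodule F2 (N F2 K)) : ∀ j, Submodule F2 ((A.sub W hW).C j) := fun j => V.comap (A.sval hW j)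

theorem mem_gs {V : Submodule F2 (N F2 K)} {j : ℕ} {x : (A.sub W hW).C j} :
    x ∈ A.gs hW V j ↔ A.sval hW j x ∈ V := Iff.rfl

theorem gs_mono {V V' : Submodule F2 (N F2 K)} (h : V ≤ V') (j : ℕ) : A.gs hW V j ≤ A.gs hW V' j :=
  fun _ hx => h hx

theorem gs_inf {V V' : Submodule F2 (N F2 K)} (j : ℕ) : A.gs hW (V ⊓ V') j = A.gs hW V j ⊓ A.gs hW V' j :=
  rfl

end TAct

end Crest.Agent.R231.TActx569

/-! ## the mixed complex of block A -/

namespace Crest.Agent.R231.TCx569

open Crest.Agent.R231.IfAx978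

/-- forget to a mixed complex -/
def TC.toMix (X : TC) : Mix where
  C := X.C
  d := X.d
  De n := (LinearMap.id + X.g (n + 1)) ∘ₗ X.h n
  dd := X.dd
  DeDe n x := by
    simp only [LinearMap.comp_apply, LinearMap.add_apply, LinearMap.id_apply, map_add]
    rw [X.hg, X.hh, map_zero]; simp
  dDe0 x := by
    simp only [LinearMap.comp_apply, LinearMap.add_apply, LinearMap.id_apply, map_add]
    rw [X.dg, X.dh_zero, map_add, X.gg]
    have h1 : x + X.g 0 x + (X.g 0 x + x) = (x + x) + (X.g 0 x + X.g 0 x) := by abel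
    rw [h1, TC.add_self, TC.add_self, add_zero]
  dDe n x := by
    simp only [LinearMap.comp_apply, LinearMap.add_apply, LinearMap.id_apply, map_add]
    have h0 : X.d (n + 1) (X.h (n + 1) x) = x + X.g (n + 1) x + X.h n (X.d n x) := by
      have h2 := congrArg (· + X.h n (X.d n x)) (X.dh_succ n x)
      simp only [add_assoc, TC.add_self, add_zero] at h2
      rw [h2]; abel
    rw [X.dg, h0, map_add, map_add, X.gg]
    have h1 : x + X.g (n + 1) x + X.h n (X.d n x) +
        (X.g (n + 1) x + x + X.g (n + 1) (X.h n (X.d n x))) =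
        (x + x) + (X.g (n + 1) x + X.g (n + 1) x) + (X.h n (X.d n x) + X.g (n + 1) (X.h n (X.d n x))) := by
      abel
    rw [h1, TC.add_self, TC.add_self, zero_add, zero_add]

theorem TC.DD_toMix (X : TC) (c : X.P) : DD (X := X.toMix) c = X.DT c := by
  funext n
  rcases n with _ | n
  · change X.d 0 (c 1) = X.d 0 (c 1) + ((0 : X.C 0) + X.g 0 (0 : X.C 0))
    rw [map_zero, add_zero, add_zero]
  · rfl

end Crest.Agent.R231.TCx569

/-! ## loops -/

namespace Crest.Agent.R231.TActx569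

open Crest.Agent.R231.GLugx576 Crest.Agent.R231.IfAx978

section loops

variable (M : Type) [MetricSpace M]

/-- joint rotation -/
def rho : C(UnitAddCircle × Lp M, Lp M) := ⟨fun p => rot p.1 p.2, continuous_rot⟩

/-- the action of the circle on loops -/
def LA : TAct (SS.Sing (Lp M)) :=
  TAct.sing (rho M) (fun γ => rot_zero γ) (fun s t γ => (rot_rot s t γ).symm)

/-- chains of the union of the Lipschitz loops: `⨆ t, CS (X M t)` -/
def WL : Submodule F2 (CE (Lp M)) := ⨆ t : ℝ, CS (X M t)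

theorem stb_X (t : ℝ) : (LA M).Stb (CS (X M t)) where
  bd := bd_mem_CS
  g z hz := by
    rw [TAct.gN_eq]
    exact TAct.op_mem_CS (fun v x hx => rot_mem hx v) _ z hz
  h z hz := TAct.op_mem_CS (fun v x hx => rot_mem hx v) _ z hz

theorem stb_WL : (LA M).Stb (WL M) := TAct.Stb.iSup (stb_X M)

/-- **the T-complex of the free loop space** (chains of `⋃ X_t`) -/
def TL : TC := (LA M).sub (WL M) (stb_WL M)

/-- graded submodule of a submodule of chains -/
abbrev GSL (V : Submodule F2 (CE (Lp M))) : ∀ j, Submodule F2 ((TL M).C j) := (LA M).gs (stb_WL M) V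

/-- chains of `X M t` -/
abbrev FL (t : ℝ) : ∀ j, Submodule F2 ((TL M).C j) := GSL M (CS (X M t))

theorem mem_WL {c : CE (Lp M)} : c ∈ WL M ↔ ∃ t, c ∈ CS (X M t) := by
  unfold WL
  rw [Submodule.mem_iSup_of_directed]
  intro s t
  exact ⟨max s t, CS_mono (X_mono (le_max_left _ _)), CS_mono (X_mono (le_max_right _ _))⟩

theorem FL_mono {s t : ℝ} (h : s ≤ t) (j : ℕ) : FL M s j ≤ FL M t j :=
  TAct.gs_mono _ _ (CS_mono (X_mono h)) j

theorem FL_exh (j : ℕ) (x : (TL M).C j) : ∃ t, x ∈ FL M t j :=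
  (mem_WL M).1 ((LA M).sval_mem' (stb_WL M) x)

end loops

end Crest.Agent.R231.TActx569
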