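import Crest.Agent.R231.SplitRK_125
import Crest.Agent.R231.TSub_569

/-!
# Row 231, block R (helper125): the clauses of the field `A4` of `IfA_978` (v2) from the data `SD`

For a `T`-complex `X`, over the mixed complex `X.toMix`.
-/

set_option autoImplicit false

noncomputable section

namespace Crest.Agent.R231.SplitAlgx125

open Crest.Agent.R204 Crest.Agent.R231.TCx569 Crest.Agent.R231.IfAx978 Crest.Agent.R231.TActx569

variable {X : TC}

theorem Zt_eq' (A B : GT X) : (Zc (X := X.toMix) A B : GT X) = Zt A B := by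
  funext j
  cases j <;> rfl

theorem Bt_eq' (A B : GT X) : (Bd (X := X.toMix) A B : GT X) = Bt A B := rfl

/-- `DD` with values in `X.P` -/
def dd (c : X.P) : X.P := DD (X := X.toMix) c

theorem dd_eq (c : X.P) : dd c = X.DT c := X.DD_toMix c

section clauses

variable {A B S1 S2 Sp1 Sm1 Sp2 Sm2 : GT X} {r : ∀ j, X.C j →ₗ[F2] X.C j}
  {K : ∀ j, X.C j →ₗ[F2] X.C (j + 1)}

theorem SD.c1 (D : SD A B S1 S2 Sp1 Sm1 Sp2 Sm2 r K) (S : GT X) (j : ℕ) :
    Bd (X := X.toMix) A B j ≤ PP A B S j ∧ PP A B S j ≤ Zc (X := X.toMix) A B j := by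
  rw [show (Zc (X := X.toMix) A B j : Submodule F2 (X.C j)) = Zt A B j from congrFun (Zt_eq' A B) j]
  exact ⟨Bt_le_PP A B S j, D.PP_le_Zt S j⟩

theorem SD.c2 (D : SD A B S1 S2 Sp1 Sm1 Sp2 Sm2 r K) (j : ℕ) :
    (Zc (X := X.toMix) A B j : Submodule F2 (X.C j)) ≤ PP A B Sp2 j ⊔ PP A B Sm2 j := by
  rw [show (Zc (X := X.toMix) A B j : Submodule F2 (X.C j)) = Zt A B j from congrFun (Zt_eq' A B) j]
  exact D.Zt_le_PP j

theorem SD.c3 (D : SD A B S1 S2 Sp1 Sm1 Sp2 Sm2 r K) (j : ℕ) :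
    PP A B Sp2 j ⊓ PP A B Sm2 j ≤ (Bd (X := X.toMix) A B j : Submodule F2 (X.C j)) :=
  D.PP_inf j

/-- an operator preserving `A`, `B` and mapping `S` to `S'` maps `PP A B S` to `PP A B S'` -/
theorem PP_map {A B S S' : GT X} (tau : ∀ j, X.C j →ₗ[F2] X.C j)
    (d_tau : ∀ j x, X.d j (tau (j + 1) x) = tau j (X.d j x)) (tA : ∀ j x, x ∈ A j → tau j x ∈ A j)
    (tB : ∀ j x, x ∈ B j → tau j x ∈ B j) (tS : ∀ j x, x ∈ S j → tau j x ∈ S' j) {j : ℕ} {x : X.C j}
    (h : x ∈ PP A B S j) : tau j x ∈ PP A B S' j := by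
  obtain ⟨w, h1, h2, h3⟩ := mem_PP.1 h
  obtain ⟨y, hy, hy'⟩ := mem_Bt.1 h3
  refine mem_PP.2 ⟨tau j w, tS j w h1, ?_, mem_Bt.2 ⟨tau _ y, tB _ y hy, ?_⟩⟩
  · cases j with
    | zero => exact tB 0 w h2
    | succ j => exact ⟨tB _ w h2.1, by
        change X.d j (tau (j + 1) w) ∈ A j
        rw [d_tau]; exact tA _ _ h2.2⟩
  · rw [d_tau, ← map_add, ← map_add]
    exact tA _ _ hy'

/-- (5) in the form `Lead` -/
theorem SD.c5 (D : SD A B S1 S2 Sp1 Sm1 Sp2 Sm2 r K) {A' B' Sp' Sm' : GT X}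
    (psi : ∀ j, X.C j →ₗ[F2] X.C j)
    (psi_d : ∀ j x, X.d j (psi (j + 1) x) = psi j (X.d j x))
    (psi_De : ∀ j x, X.h j (psi j x) + X.g (j + 1) (X.h j (psi j x)) = 0)
    (psiA : ∀ j x, x ∈ A' j → psi j x ∈ A j) (psiB : ∀ j x, x ∈ B' j → psi j x ∈ B j)
    (psip : ∀ j x, x ∈ Sp' j → psi j x ∈ Sp2 j) (psim : ∀ j x, x ∈ Sm' j → psi j x ∈ Sm2 j)
    (hB' : ∀ j, PP A' B' Sp' j ≤ B' j) (hB'm : ∀ j, PP A' B' Sm' j ≤ B' j)
    {yp ym : X.P} (hyp : ∀ j, yp j ∈ PP A' B' Sp' j) (hym : ∀ j, ym j ∈ PP A' B' Sm' j) (j : ℕ)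
    {xp xm : X.C j} (hxp : xp ∈ PP A B Sp2 j) (hxm : xm ∈ PP A B Sm2 j)
    (h : Lead (X := X.toMix) psi A B (yp + ym) j (xp + xm)) :
    Lead (X := X.toMix) psi A B yp j xp := by
  obtain ⟨c, hc, h1, h2⟩ : ∃ c : X.P, (∀ i, c i ∈ B i) ∧
      (∀ i < j, psi i ((yp + ym) i) + dd c i ∈ A i) ∧
      psi j ((yp + ym) j) + dd c j + (xp + xm) ∈ Bt A B j := h
  have hAB := D.AB
  -- the Tate cycle
  let v : X.P := zrP psi (yp + ym) + X.DT c
  have hvj : ∀ i, v i = psi i ((yp + ym) i) + dd c i := by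
    intro i
    rw [dd_eq]
    rfl
  have hDTc : X.DT c ∈ PS B := D.stB.DT (mem_PS.2 hc)
  have hvB : ∀ i, v i ∈ B i := by
    intro i
    refine (B i).add_mem (psiB i _ ((B' i).add_mem (hB' i (hyp i)) (hB'm i (hym i)))) ?_
    exact mem_PS.1 hDTc i
  have hvA : ∀ i, i < j → v i ∈ A i := by
    intro i hi
    rw [hvj]
    exact h1 i hi
  have hv0 : ∀ i, v i + psi i (yp i + ym i) + X.DT c i ∈ A i := by
    intro i
    have e : v i + psi i (yp i + ym i) + X.DT c i = 0 := by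
      change (psi i (yp i + ym i) + X.DT c i) + psi i (yp i + ym i) + X.DT c i = 0
      have e1 : (psi i (yp i + ym i) + X.DT c i) + psi i (yp i + ym i) + X.DT c i =
        (psi i (yp i + ym i) + psi i (yp i + ym i)) + (X.DT c i + X.DT c i) := by abel
      rw [e1, TC.add_self, TC.add_self, add_zero]
    rw [e]; exact (A i).zero_mem
  obtain ⟨vp, vm, cp, cm, hvpB, -, hvpA, -, hcp, -, h3, -, h4, h5, h6⟩ :=
    D.lead psi psi_d psi_De psiA psiB psip psim hvB hvA hyp hym hc hv0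
  -- comparison of the leading terms
  have h7 : v j + (xp + xm) ∈ Bt A B j := by
    have h8 : psi j ((yp + ym) j) + dd c j + (xp + xm) ∈ Bt A B j := h2
    rw [← hvj] at h8
    exact h8
  have h8 : (vp j + xp) + (vm j + xm) ∈ Bt A B j := by
    have e : (vp j + xp) + (vm j + xm) = (v j + (xp + xm)) + (v j + vp j + vm j) := by
      have e1 : (v j + (xp + xm)) + (v j + vp j + vm j) =
        (vp j + xp) + (vm j + xm) + (v j + v j) := by abel
      rw [e1, TC.add_self, add_zero]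
    rw [e]
    exact Submodule.add_mem _ h7 h6
  have h9 : vp j + xp ∈ PP A B Sp2 j := Submodule.add_mem _ h4 hxp
  have h10 : vm j + xm ∈ PP A B Sm2 j := Submodule.add_mem _ h5 hxm
  have h11 : vp j + xp ∈ Bt A B j := by
    refine D.PP_inf j ⟨h9, ?_⟩
    have e : vp j + xp = (vp j + xp) + (vm j + xm) + (vm j + xm) := by
      rw [add_assoc, TC.add_self, add_zero]
    rw [e]
    exact Submodule.add_mem _ (Bt_le_PP A B Sm2 j h8) h10
  suffices hh : ∃ c : X.P, (∀ i, c i ∈ B i) ∧ (∀ i < j, psi i (yp i) + dd c i ∈ A i) ∧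
      psi j (yp j) + dd c j + xp ∈ Bt A B j from hh
  refine ⟨cp, hcp, ?_, ?_⟩
  · intro i hi
    have h12 := (A i).add_mem (hvpA i hi) (h3 i)
    have e : vp i + (vp i + psi i (yp i) + X.DT cp i) = psi i (yp i) + X.DT cp i := by
      rw [← add_assoc, ← add_assoc, TC.add_self, zero_add]
    rw [e] at h12
    rw [dd_eq]
    exact h12
  · have h12 : vp j + psi j (yp j) + X.DT cp j ∈ Bt A B j := A_le_Bt (h3 j)
    have h13 := Submodule.add_mem _ h11 h12
    have e : vp j + xp + (vp j + psi j (yp j) + X.DT cp j) = psi j (yp j) + X.DT cp j + xp := by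
      have e1 : vp j + xp + (vp j + psi j (yp j) + X.DT cp j) =
        psi j (yp j) + X.DT cp j + xp + (vp j + vp j) := by abel
      rw [e1, TC.add_self, add_zero]
    rw [e] at h13
    have h14 : psi j (yp j) + dd cp j + xp ∈ Bt A B j := by
      rw [dd_eq]
      exact h13
    exact h14

end clauses

end Crest.Agent.R231.SplitAlgx125
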