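import Crest.Agent.R231.InstB_895

/-!
# Row 231 (S0357): the concrete instance of `Core`, part C (helper895)

One literal `Prop` for every remaining field of `IfAx978.Core`, about the concrete objects
(`mix M`, `FF M t`, `tauC M`, `psiC M`, `CritS M`), and
`coreL : CoreHyp M σ e lv → IfAx978.Core`.

Also the forms in the language of Pair_877 (chains `CE (Lp M)`, `CS (X M t)`, `Zp`, `Bp`):
`BDP M` (bounded bars), `GMB M` (Gromoll–Meyer bound), `lv_below_of`, `A3tau_of`, `A3op_of`, …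
-/

set_option autoImplicit false
set_option linter.unusedSectionVars false

noncomputable section

open Function Topology
open Crest.Agent.R204

namespace Crest.Agent.R231.Instx895

open SingAct265 EZ271 EZ847 Pairx877 GLugx576 TActx569 TCx569 IfAx978 Gr334

variable (M : Type) [MetricSpace M]

/-- (A1) -/
def A1P (σ : ℕ) : Prop := ∃ C2 : ℕ, ∀ t : ℝ, 0 ≤ t → t ∉ CritS M → ∀ m : ℕ,
    ∑ j ∈ Finset.range m, (if j % 2 = σ % 2 then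
      rd (Bd (FF M 0) (FF M t) j) (Binf (FF M 0) (FF M t) j) else 0) ≤ C2

/-- (A2) -/
def A2P : Prop := ∃ C0 : ℕ, ∀ t : ℝ, 0 ≤ t → t ∉ CritS M → ∀ m : ℕ,
    ∑ j ∈ Finset.range m, rd (Bd (FF M 0) (FF M t) j) (FF M t j ⊓ Bd (FF M 0) ⊤ j) ≤ C0

/-- (A3op) in the degree `i + 1` -/
def A3opP (i : ℕ) : Prop := ∀ m0 : (mix M).C (i + 1), ∀ m1 : (mix M).C i, m1 ∈ Zc (FF M 0) ⊤ i →
    (mix M).d i m0 + (m1 + tauC M _ m1) ∈ FF M 0 i → m0 + tauC M _ m0 ∈ Bd (FF M 0) ⊤ (i + 1)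

/-- (A3tau) in the degree `i` -/
def A3tauP (i : ℕ) : Prop := ∀ m1 : (mix M).C i, m1 ∈ Zc (FF M 0) ⊤ i →
    m1 + tauC M _ m1 ∈ Bd (FF M 0) ⊤ i

/-- `N_i(t) → N_i` is zero -/
def LowP (i : ℕ) (t : ℝ) : Prop := Zc (FF M 0) (FF M t) i ≤ Bd (FF M 0) ⊤ i

/-- (A4) -/
def A4P : Prop := ∀ T : ℝ, ∃ P : Bool → ℝ → ℝ → ℝ → GS (mix M), ∃ ε0 : ℝ, 0 < ε0 ∧
    ∀ s ∈ CritS M, s ≤ T → ∀ a b : ℝ, 0 ≤ a → a < s → s < b → b - a < ε0 →
      a ∉ CritS M → b ∉ CritS M → (∀ s' ∈ CritS M, a ≤ s' → s' ≤ b → s' = s) →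
      (∀ ε j, Bd (FF M a) (FF M b) j ≤ P ε s a b j ∧ P ε s a b j ≤ Zc (FF M a) (FF M b) j) ∧
      (∀ j, Zc (FF M a) (FF M b) j ≤ P true s a b j ⊔ P false s a b j) ∧
      (∀ j, P true s a b j ⊓ P false s a b j ≤ Bd (FF M a) (FF M b) j) ∧
      (∀ ε j x, x ∈ P ε s a b j → tauC M j x ∈ P (!ε) s a b j) ∧
      (∀ yp ym : (∀ i, (mix M).C i), (∀ i, yp i ∈ P true (s / 2) (a / 2) (b / 2) i) →
        (∀ i, ym i ∈ P false (s / 2) (a / 2) (b / 2) i) →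
        ∀ j, ∀ xp ∈ P true s a b j, ∀ xm ∈ P false s a b j,
        Lead (psiC M) (FF M a) (FF M b) (yp + ym) j (xp + xm) →
        Lead (psiC M) (FF M a) (FF M b) yp j xp)

/-- **all leaves** (`σ` = parity, degrees `e i + 1`, first levels `lv i`) -/
structure CoreHyp (σ : ℕ) (e : ℕ → ℕ) (lv : ℕ → ℝ) : Prop where
  base : BaseHyp M
  A1 : A1P M σ
  A2 : A2P M
  e_mono : StrictMono e
  e_par : ∀ i, (e i + 1) % 2 = σ % 2
  lv_below : ∀ i t, 0 ≤ t → t ∉ CritS M → t < lv i → LowP M (e i + 1) t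
  lv_above : ∀ i t, 0 ≤ t → t ∉ CritS M → lv i < t → ¬ LowP M (e i + 1) t
  lv_tendsto : ∀ T : ℝ, ∃ i0 : ℕ, ∀ i, i0 ≤ i → T < lv i
  lv_step : ∃ C1 : ℝ, ∀ i, lv (i + 1) ≤ lv i + C1
  A3op : ∀ i, A3opP M (e i)
  A3tau : ∀ i, A3tauP M (e i)
  A4 : A4P M

variable {M}

/-- **the concrete `Core`** -/
def coreL {σ : ℕ} {e : ℕ → ℕ} {lv : ℕ → ℝ} (h : CoreHyp M σ e lv) : Core where
  toBase := Instx895.base h.base
  σ := σ
  A1 := h.A1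
  A2 := h.A2
  e := e
  e_mono := h.e_mono
  e_par := h.e_par
  lv := lv
  lv_below := h.lv_below
  lv_above := h.lv_above
  lv_tendsto := h.lv_tendsto
  lv_step := h.lv_step
  A3op := h.A3op
  A3tau := h.A3tau
  A4 := h.A4

/-! ## forms in the language of Pair_877 -/

/-- relative boundaries of the whole loop space (union of all levels) modulo constants -/
def Binf0 (M : Type) [MetricSpace M] : Submodule F2 (CE (Lp M)) :=
  CS (X M 0) ⊔ (WL M).map (bdE (Lp M))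

theorem mem_Bd_top' {j : ℕ} {x : (mix M).C j} :
    x ∈ Bd (FF M 0) ⊤ j ↔ vl j x ∈ Binf0 M := by
  rw [gs_top_eq]
  exact mem_Bd_gs (homog_CS _) homog_CL le_rfl

theorem mem_Binf0 {z : CE (Lp M)} : z ∈ Binf0 M ↔ ∃ t : ℝ, z ∈ Bp (X M t) (X M 0) := by
  constructor
  · intro h
    obtain ⟨a', ha, b, ⟨w, hw, rfl⟩, h⟩ := Submodule.mem_sup.1 h
    obtain ⟨t, ht⟩ := mem_CL.1 hw
    refine ⟨t, ?_⟩
    rw [← h]
    exact Submodule.add_mem _ (Submodule.mem_sup_left ha) (Submodule.mem_sup_right ⟨w, ht, rfl⟩)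
  · rintro ⟨t, h⟩
    exact (sup_le_sup_left (Submodule.map_mono (CS_le_CL t)) _ :
      Bp (X M t) (X M 0) ≤ Binf0 M) h

theorem Bp_le_Binf0 (t : ℝ) : Bp (X M t) (X M 0) ≤ Binf0 M :=
  fun _ h => mem_Binf0.2 ⟨t, h⟩

/-- (A3tau) from chains: it is enough to prove it for homogeneous Lipschitz chains -/
theorem A3tau_of {i : ℕ} (h : ∀ z ∈ N.gr F2 (SS.Sing (Lp M)) i, z ∈ WL M →
    bdE (Lp M) z ∈ CS (X M 0) → z + tauN M z ∈ Binf0 M) : A3tauP M i := by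
  intro m1 hm
  rw [mem_Bd_top', map_add, vl_tau]
  exact h _ (vl_mem_gr m1) (vl_mem_CL m1) (mem_Zc_top.1 hm)

/-- (A3op) from chains -/
theorem A3op_of {i : ℕ} (h : ∀ z0 ∈ N.gr F2 (SS.Sing (Lp M)) (i + 1), z0 ∈ WL M →
    ∀ z1 ∈ N.gr F2 (SS.Sing (Lp M)) i, z1 ∈ WL M → bdE (Lp M) z1 ∈ CS (X M 0) →
    bdE (Lp M) z0 + (z1 + tauN M z1) ∈ CS (X M 0) → z0 + tauN M z0 ∈ Binf0 M) : A3opP M i := by
  intro m0 m1 hm h01
  rw [mem_Bd_top', map_add, vl_tau]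
  exact h _ (vl_mem_gr m0) (vl_mem_CL m0) _ (vl_mem_gr m1) (vl_mem_CL m1) (mem_Zc_top.1 hm) h01

theorem lowP_iff {i : ℕ} {t : ℝ} : LowP M i t ↔
    ∀ z ∈ N.gr F2 (SS.Sing (Lp M)) i, z ∈ Zp (X M t) (X M 0) → z ∈ Binf0 M := by
  constructor
  · intro h z h1 h2
    have h3 : mk z h1 (CS_le_CL t h2.1) ∈ Zc (FF M 0) (FF M t) i := mem_Zc_FF.2 h2
    exact mem_Bd_top'.1 (h h3)
  · intro h x hx
    exact mem_Bd_top'.2 (h _ (vl_mem_gr x) (mem_Zc_FF.1 hx))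

variable (M) in
/-- **(P) bounded bars**: a chain of `X_t` which bounds in some `X_t'` bounds in `X_{t+C}` -/
def BDP : Prop := ∃ C : ℝ, 0 ≤ C ∧ ∀ t : ℝ, 0 ≤ t → ∀ z ∈ CS (X M t), z ∈ Binf0 M →
  z ∈ Bp (X M (t + C)) (X M 0)

variable (M) in
/-- (P) in the form of `Core` -/
def BDC : Prop := ∃ C : ℝ, 0 ≤ C ∧ ∀ t : ℝ, 0 ≤ t → ∀ j,
  FF M t j ⊓ Bd (FF M 0) ⊤ j ≤ Bd (FF M 0) (FF M (t + C)) j

theorem bdc_of (h : BDP M) : BDC M := by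
  obtain ⟨C, hC, h⟩ := h
  refine ⟨C, hC, fun t ht j x hx => mem_Bd_FF.2 (h t ht _ hx.1 (mem_Bd_top'.1 hx.2))⟩

variable (M) in
/-- **(GM)** uniform bound for the critical groups -/
def GMB : Prop := ∃ B : ℕ, ∀ s ∈ CritS M, ∃ ε : ℝ, 0 < ε ∧ ∀ a b : ℝ, 0 ≤ a → s - ε < a → a < s →
  s < b → b < s + ε → Module.length F2 (HP (X M b) (X M a)) ≤ B

variable (M) in
/-- (GM) in the form of `Core` -/
def GMC : Prop := ∃ B : ℕ, ∀ s ∈ CritS M, ∃ ε : ℝ, 0 < ε ∧ ∀ a b : ℝ, 0 ≤ a → s - ε < a → a < s →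
  s < b → b < s + ε → ∀ m : ℕ,
  ∑ j ∈ Finset.range m, rd (Bd (FF M a) (FF M b) j) (Zc (FF M a) (FF M b) j) ≤ B

theorem gmc_of (h : GMB M) : GMC M := by
  obtain ⟨B, h⟩ := h
  refine ⟨B, fun s hs => ?_⟩
  obtain ⟨ε, hε, h⟩ := h s hs
  exact ⟨ε, hε, fun a b ha h1 h2 h3 h4 m =>
    (sum_rd_le_length_FF a b m).trans (h a b ha h1 h2 h3 h4)⟩

variable (M) in
/-- (W) bounded number of critical levels in intervals of length `C` -/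
def CritCount : Prop := ∀ C : ℝ, ∃ N : ℕ, ∀ t : ℝ, ∃ S : Finset ℝ, S.card ≤ N ∧
  ∀ s ∈ CritS M, t ≤ s → s ≤ t + C → s ∈ S

end Crest.Agent.R231.Instx895
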