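import Crest.Agent.R231.A4Abs_125
import Crest.Agent.R231.InstC_895

/-!
# Row 231, block R (helper125): the field `A4` (`Instx895.A4P M`) from a family of splitting data

`SDFam M` : for every `T` neighbourhoods `V s e` (`e = true/false`) of the two halves of the critical set
at the levels `s ≤ T`, exchanged by reversal, with `dbl (V (s/2) e) ⊆ V s e`, and splitting data `SD` for
all short windows `[a, b]` around `s`.   `A4P_of : SDFam M → A4P M`.
-/

set_option autoImplicit false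

noncomputable section

open Function Topology
open Crest.Agent.R204

namespace Crest.Agent.R231.A4Ofx125

open SingAct265 EZ271 EZ847 Pairx877 GLugx576 TActx569 TCx569 IfAx978 Gr334 Instx895 SplitAlgx125

variable {M : Type} [MetricSpace M]

/-- `X_a ∪ (V ∩ X_b)` -/
def YY (a b : ℝ) (V : Set (Lp M)) : Set (Lp M) := X M a ∪ (V ∩ X M b)

/-- the chains of `X_a ∪ (V ∩ X_b)` -/
abbrev GG (a b : ℝ) (V : Set (Lp M)) : GS (mix M) := gs (CS (YY a b V))

theorem GG_tau {a b : ℝ} {V V' : Set (Lp M)} (h : ∀ γ ∈ V, rev γ ∈ V') (j : ℕ) (x : (mix M).C j)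
    (hx : x ∈ GG a b V j) : tauC M j x ∈ GG a b V' j := by
  refine tauN_mem_CS (Y := YY a b V) (Y' := YY a b V') ?_ _ hx
  rintro γ (hγ | ⟨h1, h2⟩)
  · exact Or.inl (rev_mem hγ)
  · exact Or.inr ⟨h _ h1, rev_mem h2⟩

theorem X_dbl {a : ℝ} {γ : Lp M} (hγ : γ ∈ X M (a / 2)) : dbl γ ∈ X M a := by
  have h := itr_mem hγ 2
  have e : ((2 : ℕ) : ℝ) * (a / 2) = a := by push_cast; ring
  rwa [e] at h

theorem GG_psi {a b : ℝ} {V V' : Set (Lp M)} (h : ∀ γ ∈ V', dbl γ ∈ V) (j : ℕ) (x : (mix M).C j)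
    (hx : x ∈ GG (a / 2) (b / 2) V' j) : psiC M j x ∈ GG a b V j := by
  refine psiN_mem_CS (Y := YY (a / 2) (b / 2) V') (Y' := YY a b V) ?_ _ hx
  rintro γ (hγ | ⟨h1, h2⟩)
  · exact Or.inl (X_dbl hγ)
  · exact Or.inr ⟨h _ h1, X_dbl h2⟩

theorem FF_psi' {a : ℝ} (j : ℕ) (x : (mix M).C j) (hx : x ∈ FF M (a / 2) j) :
    psiC M j x ∈ FF M a j :=
  psiN_mem_CS (Y := X M (a / 2)) (Y' := X M a) (fun _ h => X_dbl h) _ hx

variable (M) in
/-- the output of R5 (a), (b) : splitting data at all critical levels `≤ T` -/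
def SDFam : Prop := ∀ T : ℝ, ∃ V : ℝ → Bool → Set (Lp M), ∃ ε0 : ℝ, 0 < ε0 ∧
    (∀ s ∈ CritS M, s ≤ T → ∀ e, ∀ γ ∈ V s e, rev γ ∈ V s (!e)) ∧
    (∀ s ∈ CritS M, s ≤ T → ∀ e, ∀ γ ∈ V (s / 2) e, dbl γ ∈ V s e) ∧
    ∀ s ∈ CritS M, s ≤ T → ∀ a b : ℝ, 0 ≤ a → a < s → s < b → b - a < ε0 →
      a ∉ CritS M → b ∉ CritS M → (∀ s' ∈ CritS M, a ≤ s' → s' ≤ b → s' = s) →
      ∃ (S1 S2 Sp1 Sm1 : GT (TL M)) (r : ∀ j, (TL M).C j →ₗ[F2] (TL M).C j)
        (K : ∀ j, (TL M).C j →ₗ[F2] (TL M).C (j + 1)),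
        SD (X := TL M) (FF M a) (FF M b) S1 S2 Sp1 Sm1 (GG a b (V s true)) (GG a b (V s false)) r K

theorem PP_le_B {X : TC} {A B S : GT X} (hAB : A ≤ B) (hB : St B) (j : ℕ) : PP A B S j ≤ B j := by
  refine sup_le (inf_le_right.trans fun _ hx => Zt_le hx) ?_
  intro x hx
  obtain ⟨y, hy, hy'⟩ := mem_Bt.1 hx
  have e : x = (x + X.d j y) + X.d j y := by rw [add_assoc, TC.add_self, add_zero]
  rw [e]
  exact (B j).add_mem (hAB j hy') (hB.d j y hy)

theorem stFF (t : ℝ) : St (X := TL M) (FF M t) where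
  d _ _ hx := (stb_X M t).bd _ hx
  g _ _ hx := (stb_X M t).g _ hx
  h _ _ hx := (stb_X M t).h _ hx

theorem psi_De' (j : ℕ) (x : (TL M).C j) :
    (TL M).h j (psiC M j x) + (TL M).g (j + 1) ((TL M).h j (psiC M j x)) = 0 := De_psiC j x

/-- **A4 from the family of splitting data** -/
theorem A4P_of (H : SDFam M) : A4P M := by
  intro T
  obtain ⟨V, ε0, hε0, hrev, hdbl, hSD⟩ := H T
  refine ⟨fun e s a b => PP (X := TL M) (FF M a) (FF M b) (GG a b (V s e)), ε0, hε0, ?_⟩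
  intro s hs hsT a b ha has hsb hab haC hbC huniq
  obtain ⟨S1, S2, Sp1, Sm1, r, K, D⟩ := hSD s hs hsT a b ha has hsb hab haC hbC huniq
  refine ⟨fun e j => D.c1 _ j, fun j => D.c2 j, fun j => D.c3 j, ?_, ?_⟩
  · intro e j x hx
    exact PP_map (X := TL M) (tauC M) (fun j x => d_tauC j x) (fun j x h => FF_tau a j x h)
      (fun j x h => FF_tau b j x h) (fun j x h => GG_tau (hrev s hs hsT e) j x h) hx
  · intro yp ym hyp hym j xp hxp xm hxm hL
    have hle : FL M (a / 2) ≤ FL M (b / 2) := fun j => FL_mono M (by linarith) j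
    exact D.c5 (psiC M) (fun j x => d_psiC j x) psi_De' (fun j x h => FF_psi' j x h)
      (fun j x h => FF_psi' j x h) (fun j x h => GG_psi (hdbl s hs hsT true) j x h)
      (fun j x h => GG_psi (hdbl s hs hsT false) j x h) (fun j => PP_le_B hle (stFF _) j)
      (fun j => PP_le_B hle (stFF _) j) hyp hym j hxp hxm hL

end Crest.Agent.R231.A4Ofx125
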