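import Crest.Agent.R231.AlgTate_978

/-!
# Row 231, block A: counting of leading terms, Euler relation  (helper978)
-/

set_option autoImplicit false

namespace Crest.Agent.R231.AlgCountx978

open Crest.Agent.R231.IfAx978 Crest.Agent.R231.AlgRdx978 Crest.Agent.R231.AlgDefx978
open Crest.Agent.R231.AlgTatex978

variable {X : Mix}

/-! ## parity projection -/

/-- keep the components of parity `p` -/
def pr (p : ℕ) : (∀ j, X.C j) →ₗ[ZMod 2] (∀ j, X.C j) where
  toFun c := fun i => if i % 2 = p % 2 then c i else 0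
  map_add' a b := by
    funext i
    by_cases h : i % 2 = p % 2 <;> simp [h]
  map_smul' r a := by
    funext i
    by_cases h : i % 2 = p % 2 <;> simp [h]

theorem pr_pos {p i : ℕ} (c : ∀ j, X.C j) (h : i % 2 = p % 2) : pr p c i = c i := by
  show (if i % 2 = p % 2 then c i else 0) = c i
  rw [if_pos h]

theorem pr_neg {p i : ℕ} (c : ∀ j, X.C j) (h : i % 2 ≠ p % 2) : pr p c i = 0 := by
  show (if i % 2 = p % 2 then c i else 0) = 0
  rw [if_neg h]

theorem pr_mem {B : GS X} {p : ℕ} {c : ∀ j, X.C j} (hc : ∀ j, c j ∈ B j) (i : ℕ) :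
    pr p c i ∈ B i := by
  by_cases h : i % 2 = p % 2
  · rw [pr_pos c h]; exact hc i
  · rw [pr_neg c h]; exact (B i).zero_mem

theorem DD_pr_pos {p i : ℕ} (c : ∀ j, X.C j) (h : i % 2 = (p + 1) % 2) :
    DD (pr p c) i = DD c i := by
  rcases i with _ | i
  · rw [DD_zero', DD_zero', pr_pos c (by omega)]
  · rw [DD_succ', DD_succ', pr_pos c (by omega), pr_pos c (by omega)]

theorem DD_pr_neg {p i : ℕ} (c : ∀ j, X.C j) (h : i % 2 ≠ (p + 1) % 2) :
    DD (pr p c) i = 0 := by
  rcases i with _ | i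
  · rw [DD_zero', pr_neg c (by omega), map_zero]
  · rw [DD_succ', pr_neg c (by omega), pr_neg c (by omega), map_zero, map_zero, add_zero]

section PH
variable {psi : ∀ j, X.C j →ₗ[ZMod 2] X.C j} {A B A' B' : GS X} (H : PH psi A B A' B')

theorem Binf_le_LT {S : GS X} (hA : ∀ j, A j ≤ B j) (hB : Stab B) (m : ℕ) :
    Binf A B m ≤ LT psi A B S m := by
  rintro x ⟨c, h1, h2, h3⟩
  refine ⟨?_, 0, c, fun j => (S j).zero_mem, h1, fun j hj => ?_, ?_⟩
  · have e : x = (x + DD c m) + DD c m := by f2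
    rw [e]; exact (B m).add_mem (hA m h3) (DD_mem hB h1 m)
  · simpa using h2 j hj
  · rw [Pi.zero_apply, map_zero, zero_add, add_comm]; exact h3

include H

/-- counting of leading terms: `Σ_m dim LT_m(S)/B^∞_m = dim S/Bd'` -/
theorem LTcount {M : ℕ} (hM : ∀ j, M ≤ j → Zc A B j ≤ Bd A B j) {S : GS X}
    (hS1 : ∀ j, Bd A' B' j ≤ S j) (hS2 : ∀ j, S j ≤ Zc A' B' j) :
    rd (Pi (Bd A' B')) (Pi S) = ∑ m ∈ Finset.range M, rd (Binf A B m) (LT psi A B S m) := by
  -- the filtration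
  let W : ℕ → Submodule (ZMod 2) (∀ j, X.C j) := fun m =>
    { carrier := {y | (∀ j, y j ∈ S j) ∧ ∃ c : (∀ j, X.C j), (∀ j, c j ∈ B j) ∧
        ∀ i, i < m → psi i (y i) + DD c i ∈ A i}
      zero_mem' := ⟨fun j => (S j).zero_mem, 0, fun j => (B j).zero_mem, fun i _ => by simp⟩
      add_mem' := by
        rintro y y' ⟨h1, c, h2, h3⟩ ⟨h1', c', h2', h3'⟩
        refine ⟨fun j => (S j).add_mem (h1 j) (h1' j), c + c', fun j => (B j).add_mem (h2 j) (h2' j),
          fun i hi => ?_⟩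
        have e : psi i ((y + y') i) + DD (c + c') i
            = psi i (y i) + DD c i + (psi i (y' i) + DD c' i) := by
          simp only [Pi.add_apply, map_add]; abel
        rw [e]; exact (A i).add_mem (h3 i hi) (h3' i hi)
      smul_mem' := by
        rintro r y ⟨h1, c, h2, h3⟩
        refine ⟨fun j => (S j).smul_mem r (h1 j), r • c, fun j => (B j).smul_mem r (h2 j),
          fun i hi => ?_⟩
        have := (A i).smul_mem r (h3 i hi)
        simpa only [smul_add, Pi.smul_apply, map_smul] using this }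
  have hWmem : ∀ m y, y ∈ W m ↔ (∀ j, y j ∈ S j) ∧ ∃ c : (∀ j, X.C j), (∀ j, c j ∈ B j) ∧
        ∀ i, i < m → psi i (y i) + DD c i ∈ A i := fun m y => Iff.rfl
  have hWd : ∀ m, W (m + 1) ≤ W m := by
    rintro m y ⟨h1, c, h2, h3⟩
    exact ⟨h1, c, h2, fun i hi => h3 i (by omega)⟩
  have hW0 : W 0 = Pi S := by
    ext y
    rw [hWmem, mem_Pi]
    constructor
    · exact fun h => h.1
    · intro h
      exact ⟨h, 0, fun j => (B j).zero_mem, fun i hi => absurd hi (by omega)⟩
  have hWM : W M = Pi (Bd A' B') := by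
    ext y
    rw [hWmem, mem_Pi]
    constructor
    · rintro ⟨h1, c, h2, h3⟩
      exact H.inj' hM (fun j => hS2 j (h1 j)) h2 h3
    · intro h
      refine ⟨fun j => hS1 j (h j), ?_⟩
      obtain ⟨c, hc1, hc2⟩ := H.psi_bd h
      exact ⟨c, hc1, fun i _ => hc2 i⟩
  rw [← hW0, ← hWM, rd_tele W hWd M]
  refine Finset.sum_congr rfl fun m _ => ?_
  -- comparison through pairs `(y, c)`
  let Q : Submodule (ZMod 2) ((∀ j, X.C j) × (∀ j, X.C j)) :=
    { carrier := {q | (∀ j, q.1 j ∈ S j) ∧ (∀ j, q.2 j ∈ B j) ∧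
        ∀ i, i < m → psi i (q.1 i) + DD q.2 i ∈ A i}
      zero_mem' := ⟨fun j => (S j).zero_mem, fun j => (B j).zero_mem, fun i _ => by simp⟩
      add_mem' := by
        rintro ⟨y, c⟩ ⟨y', c'⟩ ⟨h1, h2, h3⟩ ⟨h1', h2', h3'⟩
        refine ⟨fun j => (S j).add_mem (h1 j) (h1' j), fun j => (B j).add_mem (h2 j) (h2' j),
          fun i hi => ?_⟩
        have e : psi i (((y, c) + (y', c')).1 i) + DD ((y, c) + (y', c')).2 i
            = psi i (y i) + DD c i + (psi i (y' i) + DD c' i) := by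
          simp only [Prod.mk_add_mk, Pi.add_apply, map_add]; abel
        rw [e]; exact (A i).add_mem (h3 i hi) (h3' i hi)
      smul_mem' := by
        rintro r ⟨y, c⟩ ⟨h1, h2, h3⟩
        refine ⟨fun j => (S j).smul_mem r (h1 j), fun j => (B j).smul_mem r (h2 j),
          fun i hi => ?_⟩
        have e : psi i ((r • (y, c)).1 i) + DD (r • (y, c)).2 i = r • (psi i (y i) + DD c i) := by
          simp only [Prod.smul_mk, Pi.smul_apply, map_smul, smul_add]
        rw [e]; exact (A i).smul_mem r (h3 i hi) }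
  let f1 : ((∀ j, X.C j) × (∀ j, X.C j)) →ₗ[ZMod 2] (∀ j, X.C j) := LinearMap.fst _ _ _
  let f2' : ((∀ j, X.C j) × (∀ j, X.C j)) →ₗ[ZMod 2] X.C m :=
    (LinearMap.proj m) ∘ₗ ((psiP psi) ∘ₗ (LinearMap.fst _ _ _) + DD ∘ₗ (LinearMap.snd _ _ _))
  have hf2 : ∀ q, f2' q = psi m (q.1 m) + DD q.2 m := fun q => rfl
  have e1 : rd ((W (m + 1)).comap f1) Q = rd (W (m + 1)) (W m) := by
    refine rd_map f1 ?_ ?_ ?_
    · rintro ⟨y, c⟩ ⟨h1, h2, h3⟩
      exact ⟨h1, c, h2, h3⟩
    · rintro y ⟨h1, c, h2, h3⟩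
      refine ⟨(y, c), ⟨h1, h2, h3⟩, ?_⟩
      show y + y ∈ W (m + 1)
      rw [add_self2]; exact Submodule.zero_mem _
    · intro q _
      rfl
  have e2 : rd ((W (m + 1)).comap f1) Q = rd (Binf A B m) (LT psi A B S m) := by
    refine rd_map f2' ?_ ?_ ?_
    · rintro ⟨y, c⟩ ⟨h1, h2, h3⟩
      rw [hf2]
      refine ⟨(B m).add_mem (H.psi_mem y (fun j => hS2 j (h1 j)) m) (DD_mem H.sB h2 m),
        y, c, h1, h2, h3, ?_⟩
      rw [add_self2]; exact (A m).zero_mem
    · rintro x ⟨hx, y, c, h1, h2, h3, h4⟩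
      refine ⟨(y, c), ⟨h1, h2, h3⟩, ?_⟩
      rw [hf2, add_comm]
      exact Bd_le_Binf m (Bd_base m h4)
    · rintro ⟨y, c⟩ ⟨h1, h2, h3⟩
      rw [hf2, Submodule.mem_comap]
      show _ ↔ y ∈ W (m + 1)
      constructor
      · rintro ⟨c', h4, h5, h6⟩
        refine ⟨h1, c + c', fun j => (B j).add_mem (h2 j) (h4 j), fun i hi => ?_⟩
        rw [map_add, Pi.add_apply, ← add_assoc]
        rcases Nat.lt_succ_iff_lt_or_eq.1 hi with h | h
        · exact (A i).add_mem (h3 i h) (h5 i h)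
        · subst h; exact h6
      · rintro ⟨_, c', h4, h5⟩
        refine ⟨c + c', fun j => (B j).add_mem (h2 j) (h4 j), fun i hi => ?_, ?_⟩
        · have e : DD (c + c') i = (psi i (y i) + DD c i) + (psi i (y i) + DD c' i) := by
            rw [map_add, Pi.add_apply]; f2
          rw [e]; exact (A i).add_mem (h3 i hi) (h5 i (by omega))
        · have e : psi m (y m) + DD c m + DD (c + c') m = psi m (y m) + DD c' m := by
            rw [map_add, Pi.add_apply]; f2
          show psi m (y m) + DD c m + DD (c + c') m ∈ A m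
          rw [e]; exact h5 m (by omega)
  rw [← e1, e2]

/-- in the wrong parity there are only boundaries -/
theorem LT_par {S : GS X} {p : ℕ} (hS : ∀ j, j % 2 ≠ p % 2 → S j ≤ Bd A' B' j)
    {m : ℕ} (hm : m % 2 ≠ p % 2) : LT psi A B S m ≤ Binf A B m := by
  rintro x ⟨hx, y, c, h1, h2, h3, h4⟩
  have hy : ∀ j, pr m y j ∈ Bd A' B' j := by
    intro j
    by_cases h : j % 2 = m % 2
    · rw [pr_pos y h]; exact hS j (by omega) (h1 j)
    · rw [pr_neg y h]; exact Submodule.zero_mem _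
  obtain ⟨c0, hc1, hc2⟩ := H.psi_bd hy
  refine ⟨pr (m + 1) (c + c0), pr_mem (fun j => (B j).add_mem (h2 j) (hc1 j)), ?_, ?_⟩
  · intro i hi
    by_cases h : i % 2 = m % 2
    · rw [DD_pr_pos _ (by omega), map_add, Pi.add_apply]
      have a1 := h3 i hi
      have a2 := hc2 i
      rw [pr_pos y h] at a2
      have e : DD c i + DD c0 i = (psi i (y i) + DD c i) + (psi i (y i) + DD c0 i) := by f2
      rw [e]; exact (A i).add_mem a1 a2
    · rw [DD_pr_neg _ (by omega)]; exact (A i).zero_mem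
  · rw [DD_pr_pos _ (by omega), map_add, Pi.add_apply]
    have a2 := hc2 m
    rw [pr_pos y rfl] at a2
    have e : x + (DD c m + DD c0 m) = (psi m (y m) + DD c m + x) + (psi m (y m) + DD c0 m) := by f2
    rw [e]; exact (A m).add_mem h4 a2

end PH

end Crest.Agent.R231.AlgCountx978
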