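import Crest.Agent.R231.IfA_978

/-!
# Row 231, block A: definitions shared by the two halves (helper978 / helper796), version 2
-/

set_option autoImplicit false

namespace Crest.Agent.R231.AlgDefx978

open Crest.Agent.R231.IfAx978

variable {X : Mix}

/-- leading terms (degree `m`) of the Tate classes `[psi y]`, `y` in the graded submodule `S`
(usually `Bd A' B' ≤ S ≤ Zc A' B'`), for the pair `(B, A)`. -/
def LT (psi : ∀ j, X.C j →ₗ[ZMod 2] X.C j) (A B S : GS X) : GS X := fun m =>
  { carrier := {x | x ∈ B m ∧ ∃ y c : (∀ j, X.C j), (∀ j, y j ∈ S j) ∧ (∀ j, c j ∈ B j) ∧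
      (∀ j, j < m → psi j (y j) + DD c j ∈ A j) ∧ psi m (y m) + DD c m + x ∈ A m}
    zero_mem' := by
      refine ⟨(B m).zero_mem, 0, 0, ?_, ?_, ?_, ?_⟩ <;> intros <;> simp
    add_mem' := by
      rintro x x' ⟨hx, y, c, h1, h2, h3, h4⟩ ⟨hx', y', c', h1', h2', h3', h4'⟩
      refine ⟨(B m).add_mem hx hx', y + y', c + c', fun j => (S j).add_mem (h1 j) (h1' j),
        fun j => (B j).add_mem (h2 j) (h2' j), fun j hj => ?_, ?_⟩
      · have := (A j).add_mem (h3 j hj) (h3' j hj)
        have e : psi j ((y + y') j) + DD (c + c') j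
            = psi j (y j) + DD c j + (psi j (y' j) + DD c' j) := by
          simp only [Pi.add_apply, map_add]; abel
        rw [e]; exact this
      · have := (A m).add_mem h4 h4'
        have e : psi m ((y + y') m) + DD (c + c') m + (x + x')
            = psi m (y m) + DD c m + x + (psi m (y' m) + DD c' m + x') := by
          simp only [Pi.add_apply, map_add]; abel
        rw [e]; exact this
    smul_mem' := by
      rintro r x ⟨hx, y, c, h1, h2, h3, h4⟩
      refine ⟨(B m).smul_mem r hx, r • y, r • c, fun j => (S j).smul_mem r (h1 j),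
        fun j => (B j).smul_mem r (h2 j), fun j hj => ?_, ?_⟩
      · have := (A j).smul_mem r (h3 j hj)
        simpa only [smul_add, Pi.smul_apply, map_smul] using this
      · have := (A m).smul_mem r h4
        simpa only [smul_add, Pi.smul_apply, map_smul] using this }

theorem mem_LT {psi : ∀ j, X.C j →ₗ[ZMod 2] X.C j} {A B S : GS X} {m : ℕ} {x : X.C m} :
    x ∈ LT psi A B S m ↔ x ∈ B m ∧ ∃ y c : (∀ j, X.C j), (∀ j, y j ∈ S j) ∧ (∀ j, c j ∈ B j) ∧
      (∀ j, j < m → psi j (y j) + DD c j ∈ A j) ∧ psi m (y m) + DD c m + x ∈ A m := Iff.rfl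

/-- `S` is split with respect to `Pp, Pm` in degree `j`. -/
def Spl (Pp Pm S : GS X) (j : ℕ) : Prop :=
  ∀ y ∈ S j, ∃ yp ym : X.C j, yp ∈ Pp j ∧ yp ∈ S j ∧ ym ∈ Pm j ∧ ym ∈ S j ∧ y = yp + ym

namespace Core

variable (K : Core)

/-- chains of `X_t` that are boundaries in `Λ` (modulo base): cycles of the finite classes -/
def P (t : ℝ) : GS K.X := fun j => K.F t j ⊓ Bd (K.F 0) ⊤ j

/-- the finite classes of parity `σ` (other parity: only boundaries) -/
def KS (t : ℝ) : GS K.X := fun j => if j % 2 = K.σ % 2 then P K t j else Bd (K.F 0) (K.F t) j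

/-- all births of the pair `(F_b, F_a)` -/
def Rr (a b : ℝ) : GS K.X := fun j => Zc (K.F 0) (K.F b) j ⊔ K.F a j

/-- finite births of the pair `(F_b, F_a)` -/
def R0 (a b : ℝ) : GS K.X := fun j => P K b j ⊔ K.F a j

/-- `Rr` in parity `σ + 1` (other parity: only boundaries) -/
def SR (a b : ℝ) : GS K.X := fun j =>
  if j % 2 = K.σ % 2 then Bd (K.F a) (K.F b) j else Rr K a b j

/-- `R0` in parity `σ` (other parity: only boundaries) -/
def S0 (a b : ℝ) : GS K.X := fun j =>
  if j % 2 = K.σ % 2 then R0 K a b j else Bd (K.F a) (K.F b) j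

/-- THE RESULT OF THE FIRST HALF (helper978).  There are `0 < α < β` and `r0` such that for all `r ≥ r0`:
for non-critical `a < b` in the region `[2^r α, 2^r β]` the births are exactly the leading terms of the
births of the half level pair; for `r = r0` the region `[2^r0 α, 2^r0 β]` … see `Forcing`. -/
def Forcing (α β : ℝ) : Prop :=
  0 < α ∧ α < β ∧ (∀ s ∈ K.Crit, ¬ (α ≤ s ∧ s ≤ β)) ∧
  ∀ r : ℕ, ∀ a b : ℝ, a ∉ K.Crit → b ∉ K.Crit → 2 ^ (r + 1) * α ≤ a → a < b → b ≤ 2 ^ (r + 1) * β →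
    (∀ j, j % 2 ≠ K.σ % 2 →
      Rr K a b j = LT K.psi (K.F a) (K.F b) (SR K (a / 2) (b / 2)) j) ∧
    (∀ j, j % 2 = K.σ % 2 →
      R0 K a b j = LT K.psi (K.F a) (K.F b) (S0 K (a / 2) (b / 2)) j)

end Core

end Crest.Agent.R231.AlgDefx978
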