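import Crest.Agent.R231.AlgSplitDef_796

/-!
# Row 231, block A, last part (helper807): section 4 of the proof (contradiction from the splitting)

`SplitAt K Pp Pm a b` : the splitting data of the pair `(F_b, F_a)` (one critical level in between)
together with the splitting of the births `Rr` (parity `σ + 1`) and of the finite births `R0`
(parity `σ`).

`false_of_split` : if the splitting is available on the regions `[2^r α, 2^r β]` then `False`.
-/

set_option autoImplicit false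

namespace Crest.Agent.R231.AlgEndx807

open Crest.Agent.R231.IfAx978 Crest.Agent.R231.AlgDefx978
open Crest.Agent.R231.AlgDefx978.Core (P Rr R0)

section basic

variable {X : Mix}

theorem add_self' {V : Type*} [AddCommGroup V] [Module (ZMod 2) V] (x : V) : x + x = 0 := by
  have h : ((2 : ZMod 2)) • x = 0 := by
    have : (2 : ZMod 2) = 0 := rfl
    rw [this, zero_smul]
  rwa [two_smul] at h

theorem eq_of_add_eq_zero {V : Type*} [AddCommGroup V] [Module (ZMod 2) V] {x y : V}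
    (h : x + y = 0) : x = y := by
  have h1 : x + y + y = y := by rw [h, zero_add]
  rwa [add_assoc, add_self', add_zero] at h1

theorem mem_Zc_iff {A B : GS X} {j : ℕ} {x : X.C j} :
    x ∈ Zc A B j ↔ x ∈ B j ∧ x ∈ Zc A ⊤ j := by
  cases j with
  | zero => exact ⟨fun h => ⟨h, trivial⟩, fun h => h.1⟩
  | succ i => exact ⟨fun h => ⟨h.1, trivial, h.2⟩, fun h => ⟨h.1, h.2.2⟩⟩

theorem mem_Zc_succ {A B : GS X} {j : ℕ} {x : X.C (j + 1)} :
    x ∈ Zc A B (j + 1) ↔ x ∈ B (j + 1) ∧ X.d j x ∈ A j := Iff.rfl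

theorem mem_Bd {A B : GS X} {j : ℕ} {x : X.C j} :
    x ∈ Bd A B j ↔ ∃ w ∈ B (j + 1), ∃ a ∈ A j, X.d j w + a = x := by
  unfold Bd
  rw [Submodule.mem_sup]
  constructor
  · rintro ⟨y, ⟨w, hw, rfl⟩, z, hz, rfl⟩
    exact ⟨w, hw, z, hz, rfl⟩
  · rintro ⟨w, hw, a, ha, rfl⟩
    exact ⟨_, ⟨w, hw, rfl⟩, a, ha, rfl⟩

theorem d_mem_Bd {A B : GS X} {j : ℕ} {w : X.C (j + 1)} (hw : w ∈ B (j + 1)) :
    X.d j w ∈ Bd A B j := mem_Bd.2 ⟨w, hw, 0, (A j).zero_mem, add_zero _⟩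

theorem base_le_Bd (A B : GS X) (j : ℕ) : A j ≤ Bd A B j := le_sup_right

theorem Bd_mono {A B A' B' : GS X} (hA : ∀ j, A j ≤ A' j) (hB : ∀ j, B j ≤ B' j) (j : ℕ) :
    Bd A B j ≤ Bd A' B' j :=
  sup_le_sup (Submodule.map_mono (hB _)) (hA _)

theorem Zc_mono {A B A' B' : GS X} (hA : ∀ j, A j ≤ A' j) (hB : ∀ j, B j ≤ B' j) (j : ℕ) :
    Zc A B j ≤ Zc A' B' j := by
  cases j with
  | zero => exact hB 0
  | succ i => exact inf_le_inf (hB _) (Submodule.comap_mono (hA _))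

/-- boundaries are relative cycles -/
theorem d_mem_Zc_top (A : GS X) {j : ℕ} (w : X.C (j + 1)) : X.d j w ∈ Zc A ⊤ j := by
  cases j with
  | zero => trivial
  | succ i => exact ⟨trivial, by
      show X.d i (X.d (i + 1) w) ∈ A i
      rw [X.dd]; exact (A i).zero_mem⟩

theorem base_le_Zc_top {A : GS X} (hA : Stab A) (j : ℕ) : A j ≤ Zc A ⊤ j := by
  cases j with
  | zero => exact le_top
  | succ i => exact fun x hx => ⟨trivial, hA.d i x hx⟩

theorem Bd_le_Zc_top {A : GS X} (hA : Stab A) (B : GS X) (j : ℕ) : Bd A B j ≤ Zc A ⊤ j := by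
  intro x hx
  obtain ⟨w, -, a, ha, rfl⟩ := mem_Bd.1 hx
  exact Submodule.add_mem _ (d_mem_Zc_top A w) (base_le_Zc_top hA j ha)

theorem Bd_le {A B : GS X} (hB : Stab B) (hAB : ∀ j, A j ≤ B j) (j : ℕ) : Bd A B j ≤ B j := by
  intro x hx
  obtain ⟨w, hw, a, ha, rfl⟩ := mem_Bd.1 hx
  exact Submodule.add_mem _ (hB.d _ _ hw) (hAB _ ha)

theorem Bd_le_Zc {A B : GS X} (hA : Stab A) (hB : Stab B) (hAB : ∀ j, A j ≤ B j) (j : ℕ) :
    Bd A B j ≤ Zc A B j := fun _ hx =>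
  mem_Zc_iff.2 ⟨Bd_le hB hAB j hx, Bd_le_Zc_top hA B j hx⟩

end basic

variable (K : Core)

theorem F_le {s t : ℝ} (h : s ≤ t) (j : ℕ) : K.F s j ≤ K.F t j := K.F_mono s t h j

theorem tau_Zc {a b : ℝ} {j : ℕ} {x : K.X.C j} (hx : x ∈ Zc (K.F a) (K.F b) j) :
    K.tau j x ∈ Zc (K.F a) (K.F b) j := by
  cases j with
  | zero => exact K.F_tau b 0 x hx
  | succ i => exact ⟨K.F_tau b _ x hx.1, by
      show K.X.d i (K.tau (i + 1) x) ∈ K.F a i
      rw [K.d_tau]; exact K.F_tau a i _ hx.2⟩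

theorem tau_Zc_top {a : ℝ} {j : ℕ} {x : K.X.C j} (hx : x ∈ Zc (K.F a) ⊤ j) :
    K.tau j x ∈ Zc (K.F a) ⊤ j := by
  cases j with
  | zero => trivial
  | succ i => exact ⟨trivial, by
      show K.X.d i (K.tau (i + 1) x) ∈ K.F a i
      rw [K.d_tau]; exact K.F_tau a i _ hx.2⟩

theorem tau_Bd {a b : ℝ} {j : ℕ} {x : K.X.C j} (hx : x ∈ Bd (K.F a) (K.F b) j) :
    K.tau j x ∈ Bd (K.F a) (K.F b) j := by
  obtain ⟨w, hw, f, hf, rfl⟩ := mem_Bd.1 hx
  exact mem_Bd.2 ⟨K.tau _ w, K.F_tau b _ w hw, K.tau _ f, K.F_tau a _ f hf, by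
    rw [K.d_tau, map_add]⟩

theorem tau_Bd_top {a : ℝ} {j : ℕ} {x : K.X.C j} (hx : x ∈ Bd (K.F a) ⊤ j) :
    K.tau j x ∈ Bd (K.F a) ⊤ j := by
  obtain ⟨w, hw, f, hf, rfl⟩ := mem_Bd.1 hx
  exact mem_Bd.2 ⟨K.tau _ w, trivial, K.tau _ f, K.F_tau a _ f hf, by
    rw [K.d_tau, map_add]⟩

/-- the splitting data of the pair `(F_b, F_a)` -/
structure SplitAt (Pp Pm : GS K.X) (a b : ℝ) : Prop where
  bd_le_p : ∀ j, Bd (K.F a) (K.F b) j ≤ Pp j
  bd_le_m : ∀ j, Bd (K.F a) (K.F b) j ≤ Pm j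
  p_le : ∀ j, Pp j ≤ Zc (K.F a) (K.F b) j
  m_le : ∀ j, Pm j ≤ Zc (K.F a) (K.F b) j
  sup : ∀ j, Zc (K.F a) (K.F b) j ≤ Pp j ⊔ Pm j
  inf : ∀ j, Pp j ⊓ Pm j ≤ Bd (K.F a) (K.F b) j
  tau_p : ∀ j x, x ∈ Pp j → K.tau j x ∈ Pm j
  tau_m : ∀ j x, x ∈ Pm j → K.tau j x ∈ Pp j
  /-- the births (parity `σ + 1`) are split -/
  splR : ∀ j, j % 2 ≠ K.σ % 2 → Spl Pp Pm (Rr K a b) j
  /-- the finite births (parity `σ`) are split -/
  splR0 : ∀ j, j % 2 = K.σ % 2 → Spl Pp Pm (R0 K a b) j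

variable {K}

/-- a split submodule `S ≥ Bd`; if `y = yp + ym` and `y + τ y ∈ S` then `ym + τ yp ∈ S`. -/
theorem SplitAt.norm {Pp Pm : GS K.X} {a b : ℝ} (H : SplitAt K Pp Pm a b) {S : GS K.X} {j : ℕ}
    (hS : Spl Pp Pm S j) (hBS : Bd (K.F a) (K.F b) j ≤ S j) {yp ym : K.X.C j}
    (hp : yp ∈ Pp j) (hm : ym ∈ Pm j) (hy : yp + ym + K.tau j (yp + ym) ∈ S j) :
    ym + K.tau j yp ∈ S j := by
  obtain ⟨sp, sm, hsp, hspS, hsm, hsmS, e⟩ := hS _ hy
  have h1 : yp + K.tau j ym + sp = ym + K.tau j yp + sm := by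
    apply eq_of_add_eq_zero
    have e1 : yp + K.tau j ym + sp + (ym + K.tau j yp + sm)
        = (yp + ym + K.tau j (yp + ym)) + (sp + sm) := by rw [map_add]; abel
    rw [e1, ← e, add_self']
  have h2 : ym + K.tau j yp + sm ∈ Bd (K.F a) (K.F b) j := by
    refine H.inf j ⟨?_, ?_⟩
    · rw [← h1]
      exact Submodule.add_mem _ (Submodule.add_mem _ hp (H.tau_m j _ hm)) hsp
    · exact Submodule.add_mem _ (Submodule.add_mem _ hm (H.tau_p j _ hp)) hsm
  have h3 := Submodule.add_mem _ (hBS h2) hsmS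
  rwa [add_assoc, add_self', add_zero] at h3

/-- quotient by a split submodule is free: a fixed class is a norm. -/
theorem SplitAt.norm' {Pp Pm : GS K.X} {a b : ℝ} (H : SplitAt K Pp Pm a b) {S : GS K.X} {j : ℕ}
    (hS : Spl Pp Pm S j) (hBS : Bd (K.F a) (K.F b) j ≤ S j) {y : K.X.C j}
    (hyZ : y ∈ Zc (K.F a) (K.F b) j) (hy : y + K.tau j y ∈ S j) :
    ∃ yp ∈ Pp j, ∃ s ∈ S j, y = yp + K.tau j yp + s := by
  obtain ⟨yp, hp, ym, hm, rfl⟩ := Submodule.mem_sup.1 (H.sup j hyZ)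
  refine ⟨yp, hp, ym + K.tau j yp, H.norm hS hBS hp hm hy, ?_⟩
  have : yp + K.tau j yp + (ym + K.tau j yp) = yp + ym + (K.tau j yp + K.tau j yp) := by abel
  rw [this, add_self', add_zero]

theorem splBd {Pp Pm : GS K.X} {a b : ℝ} (H : SplitAt K Pp Pm a b) (j : ℕ) :
    Spl Pp Pm (Bd (K.F a) (K.F b)) j := fun y hy =>
  ⟨y, 0, H.bd_le_p j hy, hy, Submodule.zero_mem _, Submodule.zero_mem _, (add_zero y).symm⟩

theorem tau_P {t : ℝ} {j : ℕ} {x : K.X.C j} (hx : x ∈ P K t j) : K.tau j x ∈ P K t j :=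
  ⟨K.F_tau t j x hx.1, tau_Bd_top K hx.2⟩

theorem P_le_Zc {t : ℝ} {j : ℕ} : P K t j ≤ Zc (K.F 0) (K.F t) j := fun _ hx =>
  mem_Zc_iff.2 ⟨hx.1, Bd_le_Zc_top (K.F_stab 0) _ _ hx.2⟩

theorem Bd_le_P {t : ℝ} (ht : 0 ≤ t) {j : ℕ} : Bd (K.F 0) (K.F t) j ≤ P K t j := fun _ hx =>
  ⟨Bd_le (K.F_stab t) (F_le K ht) j hx, Bd_mono (fun _ => le_rfl) (fun _ => le_top) j hx⟩

theorem Bd_le_R0 {a b : ℝ} (hb : 0 ≤ b) {j : ℕ} : Bd (K.F a) (K.F b) j ≤ R0 K a b j := by
  intro x hx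
  obtain ⟨w, hw, f, hf, rfl⟩ := mem_Bd.1 hx
  exact Submodule.add_mem_sup (Bd_le_P hb (d_mem_Bd hw)) hf

theorem Bd_le_Rr {a b : ℝ} (hb : 0 ≤ b) {j : ℕ} : Bd (K.F a) (K.F b) j ≤ Rr K a b j := by
  intro x hx
  obtain ⟨w, hw, f, hf, rfl⟩ := mem_Bd.1 hx
  exact Submodule.add_mem_sup (P_le_Zc (Bd_le_P hb (d_mem_Bd hw))) hf

/-- statement `(**)` of the proof at the level `t` in degree `e`: a finite class which is fixed
by `τ` is a norm. -/
def NormF (K : Core) (e : ℕ) (t : ℝ) : Prop :=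
  ∀ y ∈ P K t e, y + K.tau e y ∈ Bd (K.F 0) (K.F t) e →
    ∃ v ∈ Zc (K.F 0) (K.F t) e, y + (v + K.tau e v) ∈ Bd (K.F 0) (K.F t) e

/-- transport over a non-critical interval -/
theorem NormF.noncrit {e : ℕ} {t t' : ℝ} (h : NormF K e t) (h0 : 0 ≤ t) (ht : t ≤ t')
    (hc : ∀ s ∈ K.Crit, ¬ (t ≤ s ∧ s ≤ t')) : NormF K e t' := by
  have hN := K.noncrit t t' h0 ht hc
  intro y hy hyt
  have hyZ : y ∈ Zc (K.F t) (K.F t') e :=
    Zc_mono (F_le K h0) (fun _ => le_rfl) e (P_le_Zc hy)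
  obtain ⟨u, hu, y1, hy1, rfl⟩ := mem_Bd.1 (hN e hyZ)
  have hduB : K.X.d e u ∈ Bd (K.F 0) (K.F t') e := d_mem_Bd hu
  have hy1P : y1 ∈ P K t e := by
    refine ⟨hy1, ?_⟩
    have h1 := Submodule.add_mem _ hy.2
      (Bd_mono (fun _ => le_rfl) (fun _ => le_top) e hduB : K.X.d e u ∈ Bd (K.F 0) ⊤ e)
    have e1 : K.X.d e u + y1 + K.X.d e u = y1 + (K.X.d e u + K.X.d e u) := by abel
    rwa [e1, add_self', add_zero] at h1
  have hfix : y1 + K.tau e y1 ∈ Bd (K.F 0) (K.F t) e := by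
    have h1 : y1 + K.tau e y1 ∈ Bd (K.F 0) (K.F t') e := by
      have h2 := Submodule.add_mem _ hyt (Submodule.add_mem _ hduB (tau_Bd K hduB))
      have e1 : K.X.d e u + y1 + K.tau e (K.X.d e u + y1) + (K.X.d e u + K.tau e (K.X.d e u))
          = y1 + K.tau e y1 + ((K.X.d e u + K.tau e (K.X.d e u))
            + (K.X.d e u + K.tau e (K.X.d e u))) := by rw [map_add]; abel
      rwa [e1, add_self', add_zero] at h2
    obtain ⟨q, hq, f0, hf0, hqe⟩ := mem_Bd.1 h1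
    have hdq : K.X.d e q ∈ K.F t e := by
      have e1 : K.X.d e q = y1 + K.tau e y1 + f0 := by
        rw [← hqe, add_assoc, add_self', add_zero]
      rw [e1]
      exact Submodule.add_mem _ (Submodule.add_mem _ hy1 (K.F_tau t e _ hy1)) (F_le K h0 e hf0)
    obtain ⟨q', hq', q1, hq1, hqq⟩ := mem_Bd.1 (hN (e + 1) ⟨hq, hdq⟩)
    have e2 : K.X.d e q = K.X.d e q1 := by
      rw [← hqq, map_add, K.X.dd, zero_add]
    exact mem_Bd.2 ⟨q1, hq1, f0, hf0, by rw [← e2]; exact hqe⟩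
  obtain ⟨v, hv, hvB⟩ := h y1 hy1P hfix
  refine ⟨v, Zc_mono (fun _ => le_rfl) (F_le K ht) e hv, ?_⟩
  have h3 := Submodule.add_mem _ hduB (Bd_mono (fun _ => le_rfl) (F_le K ht) e hvB)
  rwa [← add_assoc] at h3

/-- **passing a critical level** -/
theorem NormF.crit {e : ℕ} {a b : ℝ} (h : NormF K e a) (h0 : 0 ≤ a) (hab : a ≤ b)
    {Pp Pm : GS K.X} (H : SplitAt K Pp Pm a b)
    (he : e % 2 ≠ K.σ % 2) (hd : (e + 1) % 2 = K.σ % 2)
    (hfin : Zc (K.F 0) (K.F b) (e + 1) ≤ Bd (K.F 0) ⊤ (e + 1))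
    (htau : ∀ m1 : K.X.C e, m1 ∈ Zc (K.F 0) ⊤ e → m1 + K.tau e m1 ∈ Bd (K.F 0) ⊤ e) :
    NormF K e b := by
  have hb : 0 ≤ b := h0.trans hab
  intro y hyP hyt
  have hyZ0 := P_le_Zc hyP
  -- step 1: `y = y1 + (1 + τ) z + d w`
  have hyR : y ∈ Rr K a b e := Submodule.mem_sup_left hyZ0
  obtain ⟨yp, ym, hp, hpR, hm, hmR, rfl⟩ := H.splR e he y hyR
  have hyB : yp + ym + K.tau e (yp + ym) ∈ Bd (K.F a) (K.F b) e :=
    Bd_mono (F_le K h0) (fun _ => le_rfl) e hyt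
  have h1 := H.norm (splBd H e) le_rfl hp hm hyB
  obtain ⟨z, hz, f, hf, hzf⟩ := Submodule.mem_sup.1 hpR
  obtain ⟨w, hw, f', hf', hwf⟩ := mem_Bd.1 h1
  -- `y1 := y + z + τ z + d w`
  obtain ⟨y1, hy1def⟩ : ∃ y1, y1 = yp + ym + (z + K.tau e z) + K.X.d e w := ⟨_, rfl⟩
  have hy1F : y1 ∈ K.F a e := by
    have e1 : y1 = f + K.tau e f + f' := by
      rw [hy1def, ← hzf]
      have e2 : ym = K.tau e (z + f) + (K.X.d e w + f') := by
        rw [hwf, ← hzf]
        have : K.tau e (z + f) + (ym + K.tau e (z + f))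
          = ym + (K.tau e (z + f) + K.tau e (z + f)) := by abel
        rw [this, add_self', add_zero]
      rw [e2, map_add]
      have : z + f + (K.tau e z + K.tau e f + (K.X.d e w + f')) + (z + K.tau e z) + K.X.d e w
        = f + K.tau e f + f' + ((z + z) + (K.tau e z + K.tau e z)
          + (K.X.d e w + K.X.d e w)) := by abel
      rw [this]; simp only [add_self', add_zero]
    rw [e1]
    exact Submodule.add_mem _ (Submodule.add_mem _ hf (K.F_tau a e _ hf)) hf'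
  have hy1Z : y1 ∈ Zc (K.F 0) (K.F a) e := by
    refine mem_Zc_iff.2 ⟨hy1F, ?_⟩
    rw [hy1def]
    exact Submodule.add_mem _ (Submodule.add_mem _ (mem_Zc_iff.1 hyZ0).2
      (Submodule.add_mem _ (mem_Zc_iff.1 hz).2 (tau_Zc_top K (mem_Zc_iff.1 hz).2)))
      (d_mem_Zc_top _ w)
  have hdwB : K.X.d e w ∈ Bd (K.F 0) (K.F b) e := d_mem_Bd hw
  have hy1B : y1 + K.tau e y1 ∈ Bd (K.F 0) (K.F b) e := by
    have e1 : y1 + K.tau e y1 = (yp + ym + K.tau e (yp + ym))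
        + (K.X.d e w + K.tau e (K.X.d e w)) := by
      rw [hy1def]
      simp only [map_add, K.tau_tau]
      have : yp + ym + (z + K.tau e z) + K.X.d e w + (K.tau e yp + K.tau e ym
          + (K.tau e z + z) + K.tau e (K.X.d e w))
        = yp + ym + (K.tau e yp + K.tau e ym) + (K.X.d e w + K.tau e (K.X.d e w))
          + ((z + z) + (K.tau e z + K.tau e z)) := by abel
      rw [this, add_self', add_self', add_zero, add_zero]
    rw [e1]
    exact Submodule.add_mem _ hyt (Submodule.add_mem _ hdwB (tau_Bd K hdwB))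
  -- step 2
  obtain ⟨w2, hw2, f0, hf0, hw2e⟩ := mem_Bd.1 hy1B
  have hdw2 : K.X.d e w2 = y1 + K.tau e y1 + f0 := by
    rw [← hw2e, add_assoc, add_self', add_zero]
  have hw2Z : w2 ∈ Zc (K.F a) (K.F b) (e + 1) := by
    refine ⟨hw2, ?_⟩
    show K.X.d e w2 ∈ K.F a e
    rw [hdw2]
    exact Submodule.add_mem _ (Submodule.add_mem _ hy1F (K.F_tau a e _ hy1F)) (F_le K h0 e hf0)
  have hw2t : w2 + K.tau (e + 1) w2 ∈ Zc (K.F 0) (K.F b) (e + 1) := by
    refine ⟨Submodule.add_mem _ hw2 (K.F_tau b _ _ hw2), ?_⟩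
    show K.X.d e (w2 + K.tau (e + 1) w2) ∈ K.F 0 e
    rw [map_add, K.d_tau, hdw2]
    have : y1 + K.tau e y1 + f0 + K.tau e (y1 + K.tau e y1 + f0)
      = f0 + K.tau e f0 + ((y1 + y1) + (K.tau e y1 + K.tau e y1)) := by
      simp only [map_add, K.tau_tau]; abel
    rw [this, add_self', add_self', add_zero, add_zero]
    exact Submodule.add_mem _ hf0 (K.F_tau 0 e _ hf0)
  have hw2R0 : w2 + K.tau (e + 1) w2 ∈ R0 K a b (e + 1) :=
    Submodule.mem_sup_left ⟨(mem_Zc_iff.1 hw2t).1, hfin hw2t⟩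
  obtain ⟨wp, hwp, r, hr, hwr⟩ := H.norm' (H.splR0 (e + 1) hd) (Bd_le_R0 hb) hw2Z hw2R0
  obtain ⟨p, hpP, g, hg, hpg⟩ := Submodule.mem_sup.1 hr
  have hwpZ := H.p_le _ hwp
  -- `n := d wp`
  have hnF : K.X.d e wp ∈ K.F a e := hwpZ.2
  have hnZ : K.X.d e wp ∈ Zc (K.F 0) (K.F a) e := mem_Zc_iff.2 ⟨hnF, d_mem_Zc_top _ _⟩
  have hdp : K.X.d e p ∈ K.F 0 e := (P_le_Zc hpP).2
  have hfix : (y1 + K.X.d e wp) + K.tau e (y1 + K.X.d e wp) ∈ Bd (K.F 0) (K.F a) e := by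
    refine mem_Bd.2 ⟨g, hg, K.X.d e p + f0, Submodule.add_mem _ hdp hf0, ?_⟩
    have e1 : K.X.d e w2 = K.X.d e wp + K.tau e (K.X.d e wp) + (K.X.d e p + K.X.d e g) := by
      rw [hwr, ← hpg]
      simp only [map_add, K.d_tau]
    have e2 : y1 + K.tau e y1 = K.X.d e w2 + f0 := hw2e.symm
    have e3 : y1 + K.X.d e wp + K.tau e (y1 + K.X.d e wp)
        = (y1 + K.tau e y1) + (K.X.d e wp + K.tau e (K.X.d e wp)) := by
      rw [map_add]; abel
    rw [e3, e2, e1]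
    have : K.X.d e wp + K.tau e (K.X.d e wp) + (K.X.d e p + K.X.d e g) + f0
        + (K.X.d e wp + K.tau e (K.X.d e wp))
      = K.X.d e g + (K.X.d e p + f0) + ((K.X.d e wp + K.tau e (K.X.d e wp))
        + (K.X.d e wp + K.tau e (K.X.d e wp))) := by abel
    rw [this, add_self', add_zero]
  -- `y' := y1 + n` is finite at the level `a`
  have hy'P : y1 + K.X.d e wp ∈ P K a e := by
    refine ⟨Submodule.add_mem _ hy1F hnF, ?_⟩
    have h2 : y1 ∈ Bd (K.F 0) ⊤ e := by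
      rw [hy1def]
      exact Submodule.add_mem _ (Submodule.add_mem _ hyP.2 (htau z (mem_Zc_iff.1 hz).2))
        (d_mem_Bd trivial)
    exact Submodule.add_mem _ h2 (d_mem_Bd trivial)
  obtain ⟨v, hv, hvB⟩ := h _ hy'P hfix
  refine ⟨z + v, Submodule.add_mem _ hz (Zc_mono (fun _ => le_rfl) (F_le K hab) e hv), ?_⟩
  have hvB' : y1 + K.X.d e wp + (v + K.tau e v) ∈ Bd (K.F 0) (K.F b) e :=
    Bd_mono (fun _ => le_rfl) (F_le K hab) e hvB
  have hnB : K.X.d e wp ∈ Bd (K.F 0) (K.F b) e := d_mem_Bd hwpZ.1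
  have h4 := Submodule.add_mem _ (Submodule.add_mem _ hvB' hnB) hdwB
  have e5 : y1 + K.X.d e wp + (v + K.tau e v) + K.X.d e wp + K.X.d e w
      = yp + ym + (z + v + K.tau e (z + v)) := by
    rw [hy1def, map_add]
    have : yp + ym + (z + K.tau e z) + K.X.d e w + K.X.d e wp + (v + K.tau e v) + K.X.d e wp
        + K.X.d e w
      = yp + ym + (z + v + (K.tau e z + K.tau e v)) + ((K.X.d e w + K.X.d e w)
        + (K.X.d e wp + K.X.d e wp)) := by abel
    rw [this, add_self', add_self', add_zero, add_zero]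
  rwa [e5] at h4

/-- **the contradiction at the level `s_d`** -/
theorem final {e : ℕ} {a b : ℝ} (h : NormF K e a) (h0 : 0 ≤ a) (hab : a ≤ b)
    {Pp Pm : GS K.X} (H : SplitAt K Pp Pm a b) (hd : (e + 1) % 2 = K.σ % 2)
    (hbelow : Zc (K.F 0) (K.F a) (e + 1) ≤ Bd (K.F 0) ⊤ (e + 1))
    (habove : ¬ Zc (K.F 0) (K.F b) (e + 1) ≤ Bd (K.F 0) ⊤ (e + 1))
    (hop : ∀ m0 : K.X.C (e + 1), ∀ m1 : K.X.C e, m1 ∈ Zc (K.F 0) ⊤ e →
      K.X.d e m0 + (m1 + K.tau _ m1) ∈ K.F 0 e → m0 + K.tau _ m0 ∈ Bd (K.F 0) ⊤ (e + 1)) :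
    False := by
  have hb : 0 ≤ b := h0.trans hab
  obtain ⟨x, hx, hxn⟩ := Set.not_subset.1 habove
  have hxt : x + K.tau _ x ∈ Bd (K.F 0) ⊤ (e + 1) := by
    refine hop x 0 (Submodule.zero_mem _) ?_
    rw [map_zero, add_zero, add_zero]
    exact hx.2
  have hxR0 : x + K.tau _ x ∈ R0 K a b (e + 1) :=
    Submodule.mem_sup_left ⟨Submodule.add_mem _ hx.1 (K.F_tau b _ _ hx.1), hxt⟩
  have hxZ : x ∈ Zc (K.F a) (K.F b) (e + 1) :=
    Zc_mono (F_le K h0) (fun _ => le_rfl) _ hx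
  obtain ⟨ep, hep, r, hr, hxr⟩ := H.norm' (H.splR0 (e + 1) hd) (Bd_le_R0 hb) hxZ hxR0
  obtain ⟨p, hpP, f, hf, hpf⟩ := Submodule.mem_sup.1 hr
  have hepZ := H.p_le _ hep
  have hnF : K.X.d e ep ∈ K.F a e := hepZ.2
  have hdp : K.X.d e p ∈ K.F 0 e := (P_le_Zc hpP).2
  have hdx : K.X.d e x ∈ K.F 0 e := hx.2
  have hdxe : K.X.d e x = K.X.d e ep + K.tau e (K.X.d e ep) + (K.X.d e p + K.X.d e f) := by
    rw [hxr, ← hpf]
    simp only [map_add, K.d_tau]
  have hfix : K.X.d e ep + K.tau e (K.X.d e ep) ∈ Bd (K.F 0) (K.F a) e := by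
    refine mem_Bd.2 ⟨f, hf, K.X.d e x + K.X.d e p, Submodule.add_mem _ hdx hdp, ?_⟩
    rw [hdxe]
    have : K.X.d e f + (K.X.d e ep + K.tau e (K.X.d e ep) + (K.X.d e p + K.X.d e f)
        + K.X.d e p)
      = K.X.d e ep + K.tau e (K.X.d e ep) + ((K.X.d e f + K.X.d e f)
        + (K.X.d e p + K.X.d e p)) := by abel
    rw [this, add_self', add_self', add_zero, add_zero]
  obtain ⟨v, hv, hvB⟩ := h _ ⟨hnF, d_mem_Bd trivial⟩ hfix
  obtain ⟨k, hk, f0, hf0, hkf⟩ := mem_Bd.1 hvB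
  have hm : (ep + k) + K.tau _ (ep + k) ∈ Bd (K.F 0) ⊤ (e + 1) := by
    refine hop (ep + k) v (mem_Zc_iff.1 hv).2 ?_
    have e1 : K.X.d e (ep + k) + (v + K.tau e v) = f0 := by
      rw [map_add]
      have : K.X.d e ep + K.X.d e k + (v + K.tau e v)
        = K.X.d e k + (K.X.d e ep + (v + K.tau e v)) := by abel
      rw [this, ← hkf, ← add_assoc, add_self', zero_add]
    rw [e1]; exact hf0
  -- the remaining part is a relative cycle of the level `a`
  have hrest : f + (k + K.tau _ k) ∈ Zc (K.F 0) (K.F a) (e + 1) := by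
    refine ⟨Submodule.add_mem _ hf (Submodule.add_mem _ hk (K.F_tau a _ _ hk)), ?_⟩
    show K.X.d e (f + (k + K.tau (e + 1) k)) ∈ K.F 0 e
    have e1 : K.X.d e k = K.X.d e ep + (v + K.tau e v) + f0 := by
      rw [← hkf, add_assoc, add_self', add_zero]
    have e2 : K.X.d e (f + (k + K.tau (e + 1) k))
        = K.X.d e x + K.X.d e p + (f0 + K.tau e f0) := by
      simp only [map_add, K.d_tau]
      rw [hdxe, e1]
      simp only [map_add, K.tau_tau]
      have : K.X.d e f + (K.X.d e ep + (v + K.tau e v) + f0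
          + (K.tau e (K.X.d e ep) + (K.tau e v + v) + K.tau e f0))
        = K.X.d e f + (K.X.d e ep + K.tau e (K.X.d e ep)) + (f0 + K.tau e f0)
          + ((v + v) + (K.tau e v + K.tau e v)) := by abel
      rw [this, add_self', add_self', add_zero, add_zero]
      have : K.X.d e ep + K.tau e (K.X.d e ep) + (K.X.d e p + K.X.d e f) + K.X.d e p
          + (f0 + K.tau e f0)
        = K.X.d e f + (K.X.d e ep + K.tau e (K.X.d e ep)) + (f0 + K.tau e f0)
          + (K.X.d e p + K.X.d e p) := by abel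
      rw [this, add_self', add_zero]
    rw [e2]
    exact Submodule.add_mem _ (Submodule.add_mem _ hdx hdp)
      (Submodule.add_mem _ hf0 (K.F_tau 0 e _ hf0))
  refine hxn ?_
  have h5 := Submodule.add_mem _ (Submodule.add_mem _ hm (hbelow hrest)) hpP.2
  have e6 : ep + k + K.tau (e + 1) (ep + k) + (f + (k + K.tau (e + 1) k)) + p = x := by
    rw [hxr, ← hpf, map_add]
    have : ep + k + (K.tau (e + 1) ep + K.tau (e + 1) k) + (f + (k + K.tau (e + 1) k)) + p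
      = ep + K.tau (e + 1) ep + (p + f) + ((k + k)
        + (K.tau (e + 1) k + K.tau (e + 1) k)) := by abel
    rw [this, add_self', add_self', add_zero, add_zero]
  rwa [e6] at h5

/-! ### choice of the levels -/

theorem exists_gap (K : Core) (s : ℝ) : ∃ δ > 0, ∀ s' ∈ K.Crit, |s' - s| < δ → s' = s := by
  have hfin : ((K.Crit ∩ Set.Iic (s + 1)) \ {s}).Finite := (K.Crit_fin (s + 1)).sdiff
  have hopen : IsOpen (((K.Crit ∩ Set.Iic (s + 1)) \ {s})ᶜ) := hfin.isClosed.isOpen_compl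
  have hs : s ∈ ((K.Crit ∩ Set.Iic (s + 1)) \ {s})ᶜ := fun h => h.2 rfl
  obtain ⟨δ, hδ, hball⟩ := Metric.isOpen_iff.1 hopen s hs
  refine ⟨min δ 1, lt_min hδ one_pos, fun s' hs' h => ?_⟩
  by_contra hne
  have h1 : s' ∈ Metric.ball s δ := by
    rw [Metric.mem_ball, Real.dist_eq]; exact h.trans_le (min_le_left _ _)
  refine hball h1 ⟨⟨hs', ?_⟩, hne⟩
  have h2 := (abs_lt.1 (h.trans_le (min_le_right _ _))).2
  show s' ≤ s + 1
  linarith

theorem exists_noncrit (K : Core) {x y : ℝ} (h : x < y) : ∃ t, x < t ∧ t < y ∧ t ∉ K.Crit := by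
  have h1 : (Set.Ioo x y).Infinite := Set.Ioo_infinite h
  have h2 : (Set.Ioo x y \ (K.Crit ∩ Set.Iic y)).Infinite := h1.sdiff (K.Crit_fin y)
  obtain ⟨t, ht⟩ := h2.nonempty
  exact ⟨t, ht.1.1, ht.1.2, fun hc => ht.2 ⟨hc, ht.1.2.le⟩⟩

/-- `(**)` on the whole interval `[t1, L)` -/
theorem normF_all (K : Core) {e : ℕ} {t1 L : ℝ} (h0 : 0 ≤ t1) (hn1 : t1 ∉ K.Crit)
    (h1 : NormF K e t1) (he : e % 2 ≠ K.σ % 2) (hd : (e + 1) % 2 = K.σ % 2)
    (hfin : ∀ t, 0 ≤ t → t ∉ K.Crit → t < L → Zc (K.F 0) (K.F t) (e + 1) ≤ Bd (K.F 0) ⊤ (e + 1))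
    (htau : ∀ m1 : K.X.C e, m1 ∈ Zc (K.F 0) ⊤ e → m1 + K.tau e m1 ∈ Bd (K.F 0) ⊤ e)
    {ε0 : ℝ} (hε : 0 < ε0)
    (hS : ∀ s ∈ K.Crit, s < L → ∀ a b, t1 ≤ a → a < s → s < b → b < L → b - a < ε0 →
      a ∉ K.Crit → b ∉ K.Crit → (∀ s' ∈ K.Crit, a ≤ s' → s' ≤ b → s' = s) →
      ∃ Pp Pm, SplitAt K Pp Pm a b) :
    ∀ n : ℕ, ∀ t, t1 ≤ t → t < L → t ∉ K.Crit → (K.Crit ∩ Set.Icc t1 t).ncard ≤ n →
      NormF K e t := by
  intro n
  induction n with
  | zero =>
    intro t ht htL htn hc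
    have hf : (K.Crit ∩ Set.Icc t1 t).Finite :=
      (K.Crit_fin t).subset fun x hx => ⟨hx.1, hx.2.2⟩
    have hemp : K.Crit ∩ Set.Icc t1 t = ∅ := by
      rw [← Set.ncard_eq_zero hf]; omega
    refine h1.noncrit h0 ht fun s hs hst => ?_
    have : s ∈ K.Crit ∩ Set.Icc t1 t := ⟨hs, hst⟩
    rw [hemp] at this; exact this
  | succ n ih =>
    intro t ht htL htn hc
    have hf : (K.Crit ∩ Set.Icc t1 t).Finite :=
      (K.Crit_fin t).subset fun x hx => ⟨hx.1, hx.2.2⟩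
    rcases (K.Crit ∩ Set.Icc t1 t).eq_empty_or_nonempty with hemp | hne
    · exact ih t ht htL htn (by rw [hemp, Set.ncard_empty]; omega)
    obtain ⟨s, ⟨hsC, hs1, hst⟩, hmax⟩ := Set.exists_max_image _ id hf hne
    have hs1' : t1 < s := lt_of_le_of_ne hs1 fun h => hn1 (h ▸ hsC)
    have hst' : s < t := lt_of_le_of_ne hst fun h => htn (h ▸ hsC)
    obtain ⟨δ, hδ, hgap⟩ := exists_gap K s
    obtain ⟨η, hη, e1, e2, e3, e4⟩ : ∃ η : ℝ, 0 < η ∧ η < δ ∧ η < ε0 / 2 ∧ η < s - t1 ∧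
        η < t - s := by
      refine ⟨min (min δ (ε0 / 2)) (min (s - t1) (t - s)) / 2, ?_, ?_, ?_, ?_, ?_⟩
      · have : 0 < min (min δ (ε0 / 2)) (min (s - t1) (t - s)) :=
          lt_min (lt_min hδ (by linarith)) (lt_min (by linarith) (by linarith))
        linarith
      all_goals
        have h5 : 0 < min (min δ (ε0 / 2)) (min (s - t1) (t - s)) :=
          lt_min (lt_min hδ (by linarith)) (lt_min (by linarith) (by linarith))
        have h6 := min_le_left (min δ (ε0 / 2)) (min (s - t1) (t - s))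
        have h7 := min_le_right (min δ (ε0 / 2)) (min (s - t1) (t - s))
        have h8 := min_le_left δ (ε0 / 2)
        have h9 := min_le_right δ (ε0 / 2)
        have h10 := min_le_left (s - t1) (t - s)
        have h11 := min_le_right (s - t1) (t - s)
        linarith
    have hab : ∀ s' ∈ K.Crit, s - η ≤ s' → s' ≤ s + η → s' = s := fun s' hs' ha hb =>
      hgap s' hs' (by rw [abs_lt]; constructor <;> linarith)
    have han : s - η ∉ K.Crit := fun h => by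
      have := hab _ h le_rfl (by linarith); linarith
    have hbn : s + η ∉ K.Crit := fun h => by
      have := hab _ h (by linarith) le_rfl; linarith
    obtain ⟨Pp, Pm, H⟩ := hS s hsC (by linarith) (s - η) (s + η) (by linarith) (by linarith)
      (by linarith) (by linarith) (by linarith) han hbn hab
    have hcard : (K.Crit ∩ Set.Icc t1 (s - η)).ncard ≤ n := by
      have hss : K.Crit ∩ Set.Icc t1 (s - η) ⊂ K.Crit ∩ Set.Icc t1 t := by
        refine ⟨fun x hx => ⟨hx.1, hx.2.1, by linarith [hx.2.2]⟩, fun hsub => ?_⟩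
        have := (hsub ⟨hsC, hs1, hst⟩).2.2
        linarith
      have := Set.ncard_lt_ncard hss hf
      omega
    have hA := ih (s - η) (by linarith) (by linarith) han hcard
    have hB := hA.crit (by linarith) (by linarith) H he hd
      (hfin (s + η) (by linarith) hbn (by linarith)) htau
    refine hB.noncrit (by linarith) (by linarith) fun s' hs' hst => ?_
    have := hmax s' ⟨hs', by linarith [hst.1], hst.2⟩
    simp only [id] at this
    linarith [hst.1]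

theorem le_of_rd_eq_zero {V : Type*} [AddCommGroup V] [Module (ZMod 2) V]
    {P Q : Submodule (ZMod 2) V} (h : rd P Q = 0) : Q ≤ P := by
  unfold rd at h
  rw [Module.length_eq_zero_iff] at h
  intro x hx
  have h1 : (Submodule.Quotient.mk (⟨x, hx⟩ : Q) : Q ⧸ P.submoduleOf Q) = 0 := h.elim _ _
  rw [Submodule.Quotient.mk_eq_zero] at h1
  exact h1

open Crest.Agent.R231.AlgSplitDefx796 in
/-- **the contradiction** -/
theorem false_of_split (K : Core) (al be : ℝ) (h0 : 0 < al) (h1 : al < be)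
    (h : SplitOut K al be) : False := by
  obtain ⟨C0, hA2⟩ := K.A2
  obtain ⟨C1, hstep⟩ := K.lv_step
  -- a non-negative step
  obtain ⟨D, hD0, hD⟩ : ∃ D : ℝ, 0 ≤ D ∧ ∀ i, K.lv (i + 1) ≤ K.lv i + D :=
    ⟨max C1 0, le_max_right _ _, fun i => (hstep i).trans (by linarith [le_max_left C1 0])⟩
  -- the scale
  obtain ⟨r, hr⟩ : ∃ r : ℕ, max (K.lv 0 / al) ((1 + (C0 + 1) * D) / (be - al)) < 2 ^ (r + 1) := by
    obtain ⟨r, hr⟩ := pow_unbounded_of_one_lt
      (max (K.lv 0 / al) ((1 + (C0 + 1) * D) / (be - al))) (one_lt_two (α := ℝ))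
    exact ⟨r, hr.trans (pow_lt_pow_right₀ one_lt_two (Nat.lt_succ_self r))⟩
  obtain ⟨q, hq⟩ : ∃ q : ℝ, q = 2 ^ (r + 1) := ⟨_, rfl⟩
  have hqpos : 0 < q := by rw [hq]; positivity
  have hr1 : K.lv 0 < q * al := by
    have := (le_max_left _ _).trans_lt hr
    rw [← hq, div_lt_iff₀ h0] at this
    exact this
  have hr2 : 1 + (C0 + 1) * D < q * (be - al) := by
    have := (le_max_right _ _).trans_lt hr
    rw [← hq, div_lt_iff₀ (by linarith)] at this
    exact this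
  obtain ⟨t1, ht1, ht1', hn1⟩ := exists_noncrit K (show q * al < q * al + 1 by linarith)
  have hqal : 0 < q * al := mul_pos hqpos h0
  have ht10 : 0 ≤ t1 := by linarith
  -- the first index
  classical
  have hex : ∃ i0 : ℕ, ∀ i, i0 ≤ i → t1 < K.lv i := K.lv_tendsto t1
  obtain ⟨i1, hi1, hmin⟩ : ∃ i1 : ℕ, (∀ i, i1 ≤ i → t1 < K.lv i) ∧
      ∀ m < i1, ¬ ∀ i, m ≤ i → t1 < K.lv i := ⟨Nat.find hex, Nat.find_spec hex,
        fun m hm => Nat.find_min hex hm⟩
  have hi1pos : i1 ≠ 0 := fun hz => by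
    have := hi1 0 (by omega)
    linarith
  obtain ⟨i2, rfl⟩ : ∃ i2, i1 = i2 + 1 := ⟨i1 - 1, by omega⟩
  have hi2 : K.lv i2 ≤ t1 := by
    by_contra hlt
    push Not at hlt
    refine hmin i2 (Nat.lt_succ_self _) fun i hi => ?_
    rcases hi.eq_or_lt with rfl | hi
    · exact hlt
    · exact hi1 i hi
  have hup : ∀ k : ℕ, K.lv (i2 + k) ≤ t1 + k * D := by
    intro k
    induction k with
    | zero => simpa using hi2
    | succ k ih =>
      have := hD (i2 + k)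
      have e : i2 + (k + 1) = i2 + k + 1 := rfl
      rw [e]; push_cast; linarith
  -- a degree without finite classes at the level `t1`
  obtain ⟨k, hk, hrd⟩ : ∃ k : ℕ, k ≤ C0 ∧
      rd (Bd (K.F 0) (K.F t1) (K.e (i2 + 1 + k))) (P K t1 (K.e (i2 + 1 + k))) = 0 := by
    by_contra hno
    push Not at hno
    have hA := hA2 t1 ht10 hn1 (K.e (i2 + 1 + C0) + 1)
    have hinj : Function.Injective fun k : ℕ => K.e (i2 + 1 + k) := fun x y hxy => by
      have := K.e_mono.injective hxy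
      omega
    have hsub : (Finset.range (C0 + 1)).image (fun k => K.e (i2 + 1 + k)) ⊆
        Finset.range (K.e (i2 + 1 + C0) + 1) := by
      intro j hj
      obtain ⟨k, hk, rfl⟩ := Finset.mem_image.1 hj
      rw [Finset.mem_range] at hk ⊢
      exact Nat.lt_succ_of_le (K.e_mono.monotone (by omega))
    have h2 : ((C0 + 1 : ℕ) : ℕ∞) ≤ ∑ j ∈ (Finset.range (C0 + 1)).image (fun k => K.e (i2 + 1 + k)),
        rd (Bd (K.F 0) (K.F t1) j) (K.F t1 j ⊓ Bd (K.F 0) ⊤ j) := by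
      rw [Finset.sum_image fun x _ y _ hxy => hinj hxy]
      have h3 : ∑ _k ∈ Finset.range (C0 + 1), (1 : ℕ∞) ≤ ∑ k ∈ Finset.range (C0 + 1),
          rd (Bd (K.F 0) (K.F t1) (K.e (i2 + 1 + k)))
            (K.F t1 (K.e (i2 + 1 + k)) ⊓ Bd (K.F 0) ⊤ (K.e (i2 + 1 + k))) := by
        refine Finset.sum_le_sum fun k hk => ?_
        rw [Finset.mem_range] at hk
        exact Order.one_le_iff_ne_zero.2 (hno k (by omega))
      refine le_trans ?_ h3
      simp
    have h4 := (h2.trans (Finset.sum_le_sum_of_subset hsub)).trans hA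
    have h5 : C0 + 1 ≤ C0 := by exact_mod_cast h4
    omega
  have hN1 : NormF K (K.e (i2 + 1 + k)) t1 := by
    intro y hy _
    refine ⟨0, Submodule.zero_mem _, ?_⟩
    rw [map_zero, add_zero, add_zero]
    exact le_of_rd_eq_zero hrd hy
  set i := i2 + 1 + k with hi
  set L := K.lv i with hL
  have hLt1 : t1 < L := hi1 i (by omega)
  have hLbe : L < q * be := by
    have h2 := hup (k + 1)
    have e : i2 + (k + 1) = i := by omega
    rw [e] at h2
    have h3 : ((k + 1 : ℕ) : ℝ) * D ≤ (C0 + 1) * D := by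
      refine mul_le_mul_of_nonneg_right ?_ hD0
      push_cast
      have : (k : ℝ) ≤ C0 := by exact_mod_cast hk
      linarith
    have h4 : q * (be - al) = q * be - q * al := by ring
    rw [h4] at hr2
    linarith
  have hpar := K.e_par i
  have hpar' : K.e i % 2 ≠ K.σ % 2 := by omega
  -- `L` is critical
  have hLC : L ∈ K.Crit := by
    by_contra hLn
    obtain ⟨δ, hδ, hgap⟩ := exists_gap K L
    obtain ⟨η, hη, e1, e2⟩ : ∃ η : ℝ, 0 < η ∧ η < δ ∧ η < L - t1 :=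
      ⟨min δ (L - t1) / 2, by
        have : 0 < min δ (L - t1) := lt_min hδ (by linarith)
        linarith, by
        have := min_le_left δ (L - t1)
        linarith, by
        have h7 : 0 < min δ (L - t1) := lt_min hδ (by linarith)
        have := min_le_right δ (L - t1)
        linarith⟩
    have hno : ∀ s' ∈ K.Crit, ¬ (L - η ≤ s' ∧ s' ≤ L + η) := fun s' hs' hh => by
      have := hgap s' hs' (by rw [abs_lt]; constructor <;> linarith [hh.1, hh.2])
      exact hLn (this ▸ hs')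
    have han : L - η ∉ K.Crit := fun hc => hno _ hc ⟨le_rfl, by linarith⟩
    have hbn : L + η ∉ K.Crit := fun hc => hno _ hc ⟨by linarith, le_rfl⟩
    refine K.lv_above i (L + η) (by linarith) hbn (by linarith) fun x hx => ?_
    have hx' : x ∈ Zc (K.F (L - η)) (K.F (L + η)) (K.e i + 1) :=
      Zc_mono (F_le K (by linarith)) (fun _ => le_rfl) _ hx
    obtain ⟨w, hw, x1, hx1, rfl⟩ := mem_Bd.1 (K.noncrit (L - η) (L + η) (by linarith)
      (by linarith) hno _ hx')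
    have hdw : K.X.d (K.e i + 1) w ∈ Bd (K.F 0) ⊤ (K.e i + 1) := d_mem_Bd trivial
    refine Submodule.add_mem _ hdw (K.lv_below i (L - η) (by linarith) han (by linarith) ?_)
    refine mem_Zc_iff.2 ⟨hx1, ?_⟩
    have h2 := Submodule.add_mem _ (mem_Zc_iff.1 hx).2
      (d_mem_Zc_top (K.F 0) w)
    have e3 : K.X.d (K.e i + 1) w + x1 + K.X.d (K.e i + 1) w
      = x1 + (K.X.d (K.e i + 1) w + K.X.d (K.e i + 1) w) := by abel
    rwa [e3, add_self', add_zero] at h2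
  obtain ⟨P', ε0, hε0, hP⟩ := h (q * be)
  have hS : ∀ s ∈ K.Crit, s < q * be → ∀ a b, t1 ≤ a → a < s → s < b → b ≤ q * be →
      b - a < ε0 → a ∉ K.Crit → b ∉ K.Crit → (∀ s' ∈ K.Crit, a ≤ s' → s' ≤ b → s' = s) →
      ∃ Pp Pm, SplitAt K Pp Pm a b := by
    intro s hs hsL a b ha has hsb hbL hab han hbn honly
    obtain ⟨h4, h5, h6⟩ := hP r s a b ⟨hs, hsL.le, by linarith, has, hsb, hab, han, hbn, honly⟩
      (by rw [← hq]; linarith) (by rw [← hq]; linarith)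
    exact ⟨P' true s a b, P' false s a b,
      { bd_le_p := h4.bd_le true, bd_le_m := h4.bd_le false, p_le := h4.le_zc true,
        m_le := h4.le_zc false, sup := h4.cover, inf := h4.disj,
        tau_p := fun j x hx => h4.tau true j x hx, tau_m := fun j x hx => h4.tau false j x hx,
        splR := h5, splR0 := h6 }⟩
  -- the window around `L`
  obtain ⟨δ, hδ, hgap⟩ := exists_gap K L
  obtain ⟨η, hη, e1, e2, e3, e4⟩ : ∃ η : ℝ, 0 < η ∧ η < δ ∧ η < ε0 / 2 ∧ η < L - t1 ∧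
      η < q * be - L := by
    refine ⟨min (min δ (ε0 / 2)) (min (L - t1) (q * be - L)) / 2, ?_, ?_, ?_, ?_, ?_⟩
    · have : 0 < min (min δ (ε0 / 2)) (min (L - t1) (q * be - L)) :=
        lt_min (lt_min hδ (by linarith)) (lt_min (by linarith) (by linarith))
      linarith
    all_goals
      have h5 : 0 < min (min δ (ε0 / 2)) (min (L - t1) (q * be - L)) :=
        lt_min (lt_min hδ (by linarith)) (lt_min (by linarith) (by linarith))
      have h6 := min_le_left (min δ (ε0 / 2)) (min (L - t1) (q * be - L))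
      have h7 := min_le_right (min δ (ε0 / 2)) (min (L - t1) (q * be - L))
      have h8 := min_le_left δ (ε0 / 2)
      have h9 := min_le_right δ (ε0 / 2)
      have h10 := min_le_left (L - t1) (q * be - L)
      have h11 := min_le_right (L - t1) (q * be - L)
      linarith
  have hab : ∀ s' ∈ K.Crit, L - η ≤ s' → s' ≤ L + η → s' = L := fun s' hs' ha hb =>
    hgap s' hs' (by rw [abs_lt]; constructor <;> linarith)
  have han : L - η ∉ K.Crit := fun hc => by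
    have := hab _ hc le_rfl (by linarith); linarith
  have hbn : L + η ∉ K.Crit := fun hc => by
    have := hab _ hc (by linarith) le_rfl; linarith
  have hA : NormF K (K.e i) (L - η) :=
    normF_all K ht10 hn1 hN1 hpar' hpar
      (fun t h0 hn hlt => K.lv_below i t h0 hn hlt) (K.A3tau i) hε0
      (fun s hs hsL a b h1 h2 h3 h4 h5 h6 h7 h8 =>
        hS s hs (by linarith) a b h1 h2 h3 (by linarith) h5 h6 h7 h8)
      _ (L - η) (by linarith) (by linarith) han le_rfl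
  obtain ⟨Pp, Pm, H⟩ := hS L hLC hLbe (L - η) (L + η) (by linarith) (by linarith) (by linarith)
    (by linarith) (by linarith) han hbn hab
  exact final hA (by linarith) (by linarith) H hpar
    (K.lv_below i (L - η) (by linarith) han (by linarith))
    (K.lv_above i (L + η) (by linarith) hbn (by linarith)) (K.A3op i)

end Crest.Agent.R231.AlgEndx807
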