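import Crest.Agent.R231.AlgCount_978

/-!
# Row 231, block A: the Euler relation `dim N_p = dim N'_p + dim B^∞_p + dim B^∞_{p+1}`  (helper978)
-/

set_option autoImplicit false

namespace Crest.Agent.R231.AlgEulerx978

open Crest.Agent.R231.IfAx978 Crest.Agent.R231.AlgRdx978 Crest.Agent.R231.AlgDefx978
open Crest.Agent.R231.AlgTatex978 Crest.Agent.R231.AlgCountx978

variable {X : Mix}

/-- Borel cycles of parity `p`, truncated at `q` -/
def Pq (p : ℕ) (A B : GS X) (q : ℕ) : Submodule (ZMod 2) (∀ j, X.C j) where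
  carrier := {c | (∀ i, c i ∈ B i) ∧ (∀ i, i % 2 ≠ p % 2 → c i = 0) ∧ ∀ i, i + 1 < q → DD c i ∈ A i}
  zero_mem' := ⟨fun i => (B i).zero_mem, fun _ _ => rfl, fun i _ => by simp⟩
  add_mem' := by
    rintro c c' ⟨h1, h2, h3⟩ ⟨h1', h2', h3'⟩
    refine ⟨fun i => (B i).add_mem (h1 i) (h1' i), fun i hi => ?_, fun i hi => ?_⟩
    · rw [Pi.add_apply, h2 i hi, h2' i hi, add_zero]
    · rw [map_add]; exact (A i).add_mem (h3 i hi) (h3' i hi)
  smul_mem' := by
    rintro r c ⟨h1, h2, h3⟩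
    refine ⟨fun i => (B i).smul_mem r (h1 i), fun i hi => ?_, fun i hi => ?_⟩
    · rw [Pi.smul_apply, h2 i hi, smul_zero]
    · rw [map_smul]; exact (A i).smul_mem r (h3 i hi)

/-- Borel boundaries of parity `p`, truncated at `q` -/
def Qq (p : ℕ) (A B : GS X) (q : ℕ) : Submodule (ZMod 2) (∀ j, X.C j) where
  carrier := {c | (∀ i, c i ∈ B i) ∧ (∀ i, i % 2 ≠ p % 2 → c i = 0) ∧
    ∃ b : (∀ j, X.C j), (∀ i, b i ∈ B i) ∧ ∀ i, i < q → c i + DD b i ∈ A i}
  zero_mem' := ⟨fun i => (B i).zero_mem, fun _ _ => rfl, 0, fun i => (B i).zero_mem,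
    fun i _ => by simp⟩
  add_mem' := by
    rintro c c' ⟨h1, h2, b, h3, h4⟩ ⟨h1', h2', b', h3', h4'⟩
    refine ⟨fun i => (B i).add_mem (h1 i) (h1' i), fun i hi => ?_, b + b',
      fun i => (B i).add_mem (h3 i) (h3' i), fun i hi => ?_⟩
    · rw [Pi.add_apply, h2 i hi, h2' i hi, add_zero]
    · have e : (c + c') i + DD (b + b') i = (c i + DD b i) + (c' i + DD b' i) := by
        simp only [Pi.add_apply, map_add]; abel
      rw [e]; exact (A i).add_mem (h4 i hi) (h4' i hi)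
  smul_mem' := by
    rintro r c ⟨h1, h2, b, h3, h4⟩
    refine ⟨fun i => (B i).smul_mem r (h1 i), fun i hi => ?_, r • b,
      fun i => (B i).smul_mem r (h3 i), fun i hi => ?_⟩
    · rw [Pi.smul_apply, h2 i hi, smul_zero]
    · have := (A i).smul_mem r (h4 i hi)
      simpa only [smul_add, Pi.smul_apply, map_smul] using this

theorem mem_Pq {p : ℕ} {A B : GS X} {q : ℕ} {c : ∀ j, X.C j} : c ∈ Pq p A B q ↔
    (∀ i, c i ∈ B i) ∧ (∀ i, i % 2 ≠ p % 2 → c i = 0) ∧ ∀ i, i + 1 < q → DD c i ∈ A i := Iff.rfl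

theorem mem_Qq {p : ℕ} {A B : GS X} {q : ℕ} {c : ∀ j, X.C j} : c ∈ Qq p A B q ↔
    (∀ i, c i ∈ B i) ∧ (∀ i, i % 2 ≠ p % 2 → c i = 0) ∧
    ∃ b : (∀ j, X.C j), (∀ i, b i ∈ B i) ∧ ∀ i, i < q → c i + DD b i ∈ A i := Iff.rfl

variable {p : ℕ} {A B : GS X}

theorem Qq_le_Pq (hA : Stab A) (q : ℕ) : Qq p A B q ≤ Pq p A B q := by
  rintro c ⟨h1, h2, b, h3, h4⟩
  refine ⟨h1, h2, fun i hi => ?_⟩
  have h : DD c i + DD (DD b) i ∈ A i := DD_mem_of hA (fun k hk => h4 k (by omega))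
  rwa [DD_DD, add_zero] at h

theorem Pq_anti (q : ℕ) : Pq p A B (q + 1) ≤ Pq p A B q := by
  rintro c ⟨h1, h2, h3⟩
  exact ⟨h1, h2, fun i hi => h3 i (by omega)⟩

theorem Qq_anti (q : ℕ) : Qq p A B (q + 1) ≤ Qq p A B q := by
  rintro c ⟨h1, h2, b, h3, h4⟩
  exact ⟨h1, h2, b, h3, fun i hi => h4 i (by omega)⟩

theorem Pq_zero_le : Pq p A B 0 ≤ Qq p A B 0 := by
  rintro c ⟨h1, h2, _⟩
  exact ⟨h1, h2, 0, fun i => (B i).zero_mem, fun i hi => absurd hi (by omega)⟩

/-- the vanishing of `DD c` in the wrong parity -/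
theorem DD_wrong {c : ∀ j, X.C j} (hc : ∀ i, i % 2 ≠ p % 2 → c i = 0) {i : ℕ}
    (hi : i % 2 = p % 2) : DD c i = 0 := by
  rcases i with _ | i
  · rw [DD_zero', hc 1 (by omega), map_zero]
  · rw [DD_succ', hc (i + 2) (by omega), hc i (by omega), map_zero, map_zero, add_zero]

theorem Pq_wrong {q : ℕ} (hq : q % 2 ≠ p % 2) : Pq p A B (q + 1) = Pq p A B q := by
  refine le_antisymm (Pq_anti q) ?_
  rintro c ⟨h1, h2, h3⟩
  refine ⟨h1, h2, fun i hi => ?_⟩
  by_cases h : i + 1 < q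
  · exact h3 i h
  · have : i + 1 = q := by omega
    rw [DD_wrong h2 (by omega)]; exact (A i).zero_mem

theorem Qq_wrong {q : ℕ} (hq : q % 2 ≠ p % 2) : Qq p A B (q + 1) = Qq p A B q := by
  refine le_antisymm (Qq_anti q) ?_
  rintro c ⟨h1, h2, b, h3, h4⟩
  refine ⟨h1, h2, pr (p + 1) b, pr_mem h3, fun i hi => ?_⟩
  by_cases h : i % 2 = p % 2
  · rw [DD_pr_pos b (by omega)]
    exact h4 i (by omega)
  · rw [h2 i h, DD_pr_neg b (by omega), add_zero]; exact (A i).zero_mem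

theorem step_a (hA : Stab A) (hB : Stab B) {q : ℕ} (hq : q % 2 = p % 2) :
    rd (Qq p A B (q + 1)) (Qq p A B q ⊓ Pq p A B (q + 1)) = rd (Binf A B q) (Zc A B q) := by
  let R : Submodule (ZMod 2) ((∀ j, X.C j) × (∀ j, X.C j)) :=
    { carrier := {z | z.1 ∈ Pq p A B (q + 1) ∧ (∀ i, z.2 i ∈ B i) ∧
        ∀ i, i < q → z.1 i + DD z.2 i ∈ A i}
      zero_mem' := ⟨Submodule.zero_mem _, fun j => (B j).zero_mem, fun i _ => by simp⟩
      add_mem' := by
        rintro ⟨c, b⟩ ⟨c', b'⟩ ⟨h1, h2, h3⟩ ⟨h1', h2', h3'⟩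
        refine ⟨Submodule.add_mem _ h1 h1', fun j => (B j).add_mem (h2 j) (h2' j),
          fun i hi => ?_⟩
        have e : ((c, b) + (c', b')).1 i + DD ((c, b) + (c', b')).2 i
            = c i + DD b i + (c' i + DD b' i) := by
          simp only [Prod.mk_add_mk, Pi.add_apply, map_add]; abel
        rw [e]; exact (A i).add_mem (h3 i hi) (h3' i hi)
      smul_mem' := by
        rintro r ⟨c, b⟩ ⟨h1, h2, h3⟩
        refine ⟨Submodule.smul_mem _ r h1, fun j => (B j).smul_mem r (h2 j),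
          fun i hi => ?_⟩
        have e : (r • (c, b)).1 i + DD (r • (c, b)).2 i = r • (c i + DD b i) := by
          simp only [Prod.smul_mk, Pi.smul_apply, map_smul, smul_add]
        rw [e]; exact (A i).smul_mem r (h3 i hi) }
  let f1 : ((∀ j, X.C j) × (∀ j, X.C j)) →ₗ[ZMod 2] (∀ j, X.C j) := LinearMap.fst _ _ _
  let g1 : ((∀ j, X.C j) × (∀ j, X.C j)) →ₗ[ZMod 2] X.C q :=
    (LinearMap.proj q) ∘ₗ ((LinearMap.fst _ _ _) + DD ∘ₗ (LinearMap.snd _ _ _))
  have hg : ∀ z, g1 z = z.1 q + DD z.2 q := fun z => rfl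
  have e1 : rd ((Qq p A B (q + 1)).comap f1) R = rd (Qq p A B (q + 1)) (Qq p A B q ⊓ Pq p A B (q + 1)) := by
    refine rd_map f1 ?_ ?_ ?_
    · rintro ⟨c, b⟩ ⟨h1, h2, h3⟩
      exact ⟨⟨h1.1, h1.2.1, b, h2, h3⟩, h1⟩
    · rintro c ⟨⟨h1, h2, b, h3, h4⟩, h5⟩
      refine ⟨(c, b), ⟨h5, h3, h4⟩, ?_⟩
      show c + c ∈ Qq p A B (q + 1)
      rw [add_self2]; exact Submodule.zero_mem _
    · intro z _; rfl
  have e2 : rd ((Qq p A B (q + 1)).comap f1) R = rd (Binf A B q) (Zc A B q) := by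
    refine rd_map g1 ?_ ?_ ?_
    · rintro ⟨c, b⟩ ⟨h1, h2, h3⟩
      rw [hg]
      have := zc_lead (A := A) (B := B) (w := c + DD b) hA (q := q)
        ((B q).add_mem (h1.1 q) (DD_mem hB h2 q)) h3 (fun i hi => by
          rw [map_add, Pi.add_apply, DD_DD, add_zero]; exact h1.2.2 i (by omega))
      exact this
    · intro x hx
      refine ⟨(sg q x, 0), ⟨⟨sg_mem (Zc_le q hx), fun i hi => ?_, fun i hi => ?_⟩,
        fun j => (B j).zero_mem, fun i hi => ?_⟩, ?_⟩
      · exact sg_ne x (by omega)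
      · by_cases h : i + 1 < q
        · rw [DD_sg_lt x h]; exact (A i).zero_mem
        · obtain rfl : q = i + 1 := by omega
          rw [DD_sg_pred]; exact hx.2
      · show sg q x i + DD (0 : ∀ j, X.C j) i ∈ A i
        rw [sg_ne x (by omega), map_zero, zero_add]; exact (A i).zero_mem
      · rw [hg]
        show x + (sg q x q + DD (0 : ∀ j, X.C j) q) ∈ Binf A B q
        rw [sg_same, map_zero, Pi.zero_apply, add_zero, add_self2]; exact Submodule.zero_mem _
    · rintro ⟨c, b⟩ ⟨h1, h2, h3⟩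
      rw [hg, Submodule.mem_comap]
      show c q + DD b q ∈ Binf A B q ↔ c ∈ Qq p A B (q + 1)
      have h3' : ∀ i, i < q → c i + DD b i ∈ A i := h3
      constructor
      · rintro ⟨b', h4, h5, h6⟩
        refine ⟨h1.1, h1.2.1, b + b', fun j => (B j).add_mem (h2 j) (h4 j), fun i hi => ?_⟩
        rw [map_add, Pi.add_apply, ← add_assoc]
        rcases Nat.lt_succ_iff_lt_or_eq.1 hi with h | h
        · exact (A i).add_mem (h3' i h) (h5 i h)
        · subst h; exact h6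
      · rintro ⟨_, _, b', h4, h5⟩
        refine ⟨b + b', fun j => (B j).add_mem (h2 j) (h4 j), fun i hi => ?_, ?_⟩
        · have e : DD (b + b') i = (c i + DD b i) + (c i + DD b' i) := by
            rw [map_add, Pi.add_apply]; f2
          rw [e]; exact (A i).add_mem (h3' i hi) (h5 i (by omega))
        · have e : c q + DD b q + DD (b + b') q = c q + DD b' q := by
            rw [map_add, Pi.add_apply]; f2
          rw [e]; exact h5 q (by omega)
  rw [← e1, e2]

theorem step_b (hA : Stab A) (hB : Stab B) (hAB : ∀ j, A j ≤ B j) {k : ℕ} (hq : (k + 1) % 2 = p % 2) :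
    rd (Qq p A B (k + 1) ⊔ Pq p A B (k + 2)) (Pq p A B (k + 1)) = rd (Bd A B k) (Binf A B k) := by
  let g1 : (∀ j, X.C j) →ₗ[ZMod 2] X.C k := (LinearMap.proj k) ∘ₗ DD
  have hg : ∀ z, g1 z = DD z k := fun z => rfl
  refine rd_map g1 ?_ ?_ ?_
  · rintro c ⟨h1, h2, h3⟩
    rw [hg]
    exact ⟨c, h1, fun i hi => h3 i (by omega), by rw [add_self2]; exact (A k).zero_mem⟩
  · rintro x ⟨c, h1, h2, h3⟩
    refine ⟨pr p c, ⟨pr_mem h1, fun i hi => pr_neg c hi, fun i hi => ?_⟩, ?_⟩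
    · by_cases h : i % 2 = (p + 1) % 2
      · rw [DD_pr_pos c h]; exact h2 i (by omega)
      · rw [DD_pr_neg c h]; exact (A i).zero_mem
    · rw [hg, DD_pr_pos c (by omega)]
      exact Bd_base k h3
  · rintro c ⟨h1, h2, h3⟩
    rw [hg]
    constructor
    · intro h
      obtain ⟨z, hz1, hz2⟩ := mem_Bd.1 h
      refine Submodule.mem_sup.2 ⟨sg (k + 1) z, ⟨sg_mem hz1, fun i hi => sg_ne z (by omega), 0,
        fun i => (B i).zero_mem, fun i hi => ?_⟩, c + sg (k + 1) z,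
        ⟨fun i => (B i).add_mem (h1 i) (sg_mem hz1 i), fun i hi => ?_, fun i hi => ?_⟩, ?_⟩
      · rw [sg_ne z (by omega), map_zero, zero_add]; exact (A i).zero_mem
      · rw [Pi.add_apply, h2 i hi, sg_ne z (by omega), add_zero]
      · rw [map_add, Pi.add_apply]
        by_cases h : i + 1 < k + 1
        · rw [DD_sg_lt z (by omega), add_zero]; exact h3 i h
        · obtain rfl : i = k := by omega
          rw [DD_sg_pred]; exact hz2
      · f2
    · intro h
      obtain ⟨c1, ⟨h4, h5, b, h6, h7⟩, c2, ⟨h8, h9, h10⟩, rfl⟩ := Submodule.mem_sup.1 h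
      rw [map_add, Pi.add_apply]
      refine (Bd A B k).add_mem ?_ (Bd_base k (h10 k (by omega)))
      -- `DD c1 k = DD (c1 + DD b) k`, and `c1 + DD b ∈ A` below `k + 1`
      have e : DD c1 k = DD (c1 + DD b) k := by
        rw [map_add, Pi.add_apply, DD_DD, add_zero]
      rw [e]
      have hw : ∀ i, (c1 + DD b) i ∈ B i := fun i => (B i).add_mem (h4 i) (DD_mem hB h6 i)
      refine mem_Bd.2 ⟨(c1 + DD b) (k + 1), hw _, ?_⟩
      rcases k with _ | k
      · rw [DD_zero', add_self2]; exact Submodule.zero_mem _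
      · rw [DD_succ']
        have e' : X.d (k + 1) ((c1 + DD b) (k + 2)) + X.De k ((c1 + DD b) k) +
            X.d (k + 1) ((c1 + DD b) (k + 2)) = X.De k ((c1 + DD b) k) := by f2
        rw [e']
        exact hA.De _ _ (h7 k (by omega))

/-- `β 0 = 0`, `β (k+1) = dim B^∞_k` -/
noncomputable def beta (A B : GS X) : ℕ → ℕ∞
  | 0 => 0
  | (k + 1) => rd (Bd A B k) (Binf A B k)

theorem step (hA : Stab A) (hB : Stab B) (hAB : ∀ j, A j ≤ B j) {q : ℕ} (hq : q % 2 = p % 2) :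
    rd (Qq p A B (q + 1)) (Pq p A B (q + 1)) + beta A B q =
      rd (Qq p A B q) (Pq p A B q) + rd (Binf A B q) (Zc A B q) := by
  have h1 : rd (Qq p A B (q + 1)) (Pq p A B (q + 1)) =
      rd (Binf A B q) (Zc A B q) + rd (Qq p A B q) (Pq p A B (q + 1)) := by
    rw [rd_trans (Q := Qq p A B q ⊓ Pq p A B (q + 1)) (le_inf (Qq_anti q) (Qq_le_Pq hA (q + 1)))
      inf_le_right, step_a hA hB hq, rd_inf]
  have h2 : rd (Qq p A B q) (Pq p A B q) =
      rd (Qq p A B q) (Pq p A B (q + 1)) + beta A B q := by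
    rw [rd_trans (Q := Qq p A B q ⊔ Pq p A B (q + 1)) le_sup_left
      (sup_le (Qq_le_Pq hA q) (Pq_anti q)), rd_sup]
    congr 1
    rcases q with _ | k
    · rw [beta]
      refine rd_of_le ?_
      exact Pq_zero_le.trans le_sup_left
    · rw [beta]; exact step_b hA hB hAB hq
  rw [h1, h2, add_assoc, add_comm]

theorem sum_step (hA : Stab A) (hB : Stab B) (hAB : ∀ j, A j ≤ B j) (n : ℕ) :
    rd (Qq p A B n) (Pq p A B n) +
      ∑ q ∈ Finset.range n, (if q % 2 = p % 2 then beta A B q else 0) =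
      ∑ q ∈ Finset.range n, (if q % 2 = p % 2 then rd (Binf A B q) (Zc A B q) else 0) := by
  induction n with
  | zero =>
    simp only [Finset.range_zero, Finset.sum_empty, add_zero]
    exact rd_of_le Pq_zero_le
  | succ n ih =>
    rw [Finset.sum_range_succ, Finset.sum_range_succ, ← ih]
    by_cases h : n % 2 = p % 2
    · rw [if_pos h, if_pos h]
      have := step (p := p) hA hB hAB h
      calc rd (Qq p A B (n + 1)) (Pq p A B (n + 1)) +
            (∑ q ∈ Finset.range n, (if q % 2 = p % 2 then beta A B q else 0) + beta A B n)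
          = (rd (Qq p A B (n + 1)) (Pq p A B (n + 1)) + beta A B n) +
            ∑ q ∈ Finset.range n, (if q % 2 = p % 2 then beta A B q else 0) := by
              rw [add_comm (∑ q ∈ Finset.range n, _) (beta A B n), add_assoc]
        _ = _ := by rw [this]; rw [add_right_comm]
    · rw [if_neg h, if_neg h, add_zero, add_zero, Pq_wrong h, Qq_wrong h]

section PH
variable {psi : ∀ j, X.C j →ₗ[ZMod 2] X.C j} {A' B' : GS X} (H : PH psi A B A' B')
include H

/-- the family `Zc'` in parity `p`, `Bd'` otherwise -/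
def Zp (p : ℕ) (A' B' : GS X) : GS X := fun j => if j % 2 = p % 2 then Zc A' B' j else Bd A' B' j

omit H in
theorem Zp_pos {p j : ℕ} {A' B' : GS X} (h : j % 2 = p % 2) : Zp p A' B' j = Zc A' B' j := if_pos h
omit H in
theorem Zp_neg {p j : ℕ} {A' B' : GS X} (h : j % 2 ≠ p % 2) : Zp p A' B' j = Bd A' B' j := if_neg h

theorem Zp_le_Zc (p j : ℕ) : Zp p A' B' j ≤ Zc A' B' j := by
  by_cases h : j % 2 = p % 2
  · rw [Zp_pos h]
  · rw [Zp_neg h]; exact Bd_le_Zc H.sA' H.sB' H.le' j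

theorem Bd_le_Zp (p j : ℕ) : Bd A' B' j ≤ Zp p A' B' j := by
  by_cases h : j % 2 = p % 2
  · rw [Zp_pos h]; exact Bd_le_Zc H.sA' H.sB' H.le' j
  · rw [Zp_neg h]

theorem last {M n : ℕ} (hM : ∀ j, M ≤ j → Zc A B j ≤ Bd A B j) (hn : M < n) :
    rd (Pi (Bd A' B')) (Pi (Zp p A' B')) = rd (Qq p A B n) (Pq p A B n) := by
  have hZ : ∀ {y : ∀ j, X.C j}, y ∈ Pi (Zp p A' B') → ∀ j, pr p y j ∈ Zc A' B' j := by
    intro y hy j
    exact pr_mem (fun j => Zp_le_Zc H p j (mem_Pi.1 hy j)) j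
  refine rd_map (psiP psi ∘ₗ pr p) ?_ ?_ ?_
  · intro y hy
    refine ⟨fun j => H.psi_mem _ (hZ hy) j, fun i hi => ?_, fun i _ => H.DD_psi _ (hZ hy) i⟩
    show psi i (pr p y i) = 0
    rw [pr_neg y hi, map_zero]
  · rintro c ⟨h1, h2, h3⟩
    obtain ⟨c', hc1, hc2, hc3⟩ := extend (M := n - 1) H.sA H.sB H.le
      (fun j hj => (Binf_le_Zc H.sA H.sB H.le j).trans (hM j (by omega))) h1
      (fun j hj => h3 j (by omega))
    obtain ⟨y, b, hy, hb, hyb⟩ := H.smith.surj (c + c')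
      (fun j => (B j).add_mem (h1 j) (hc2 j)) hc3
    have hy' : pr p y ∈ Pi (Zp p A' B') := by
      rw [mem_Pi]
      intro j
      by_cases h : j % 2 = p % 2
      · rw [pr_pos y h, Zp_pos h]; exact hy j
      · rw [pr_neg y h]; exact Submodule.zero_mem _
    refine ⟨pr p y, hy', ⟨fun i => (B i).add_mem (h1 i) (H.psi_mem _ (hZ hy') i), fun i hi => ?_,
      pr (p + 1) b, pr_mem hb, fun i hi => ?_⟩⟩
    · show c i + psi i (pr p (pr p y) i) = 0
      rw [h2 i hi, pr_neg _ hi, map_zero, add_zero]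
    · show c i + psi i (pr p (pr p y) i) + DD (pr (p + 1) b) i ∈ A i
      by_cases h : i % 2 = p % 2
      · rw [pr_pos _ h, pr_pos _ h, DD_pr_pos b (by omega)]
        have := hyb i
        rw [Pi.add_apply, hc1 i (by omega), add_zero] at this
        exact this
      · rw [pr_neg _ h, map_zero, add_zero, DD_pr_neg b (by omega), add_zero, h2 i h]
        exact (A i).zero_mem
  · intro y hy
    constructor
    · rintro ⟨_, _, b, h4, h5⟩
      have hinj := H.inj' hM (hZ hy) h4 (fun j hj => h5 j (by omega))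
      rw [mem_Pi]
      intro j
      by_cases h : j % 2 = p % 2
      · have := hinj j
        rwa [pr_pos y h] at this
      · have := mem_Pi.1 hy j
        rwa [Zp_neg h] at this
    · intro hy'
      have hb : ∀ j, pr p y j ∈ Bd A' B' j := fun j => pr_mem (mem_Pi.1 hy') j
      obtain ⟨b, hb1, hb2⟩ := H.psi_bd hb
      refine ⟨fun j => H.psi_mem _ (hZ hy) j, fun i hi => ?_, b, hb1, fun i _ => hb2 i⟩
      show psi i (pr p y i) = 0
      rw [pr_neg y hi, map_zero]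

/-- EULER RELATION for the parity `p` -/
theorem euler {M n : ℕ} (hM : ∀ j, M ≤ j → Zc A B j ≤ Bd A B j) (hn : M < n) (p : ℕ) :
    ∑ q ∈ Finset.range n, (if q % 2 = p % 2 then rd (Bd A B q) (Zc A B q) else 0) =
      rd (Pi (Bd A' B')) (Pi (Zp p A' B')) +
      ∑ q ∈ Finset.range n, (if q % 2 = p % 2 then rd (Bd A B q) (Binf A B q) else 0) +
      ∑ q ∈ Finset.range n, (if q % 2 ≠ p % 2 then rd (Bd A B q) (Binf A B q) else 0) := by
  have h1 : ∑ q ∈ Finset.range n, (if q % 2 = p % 2 then rd (Bd A B q) (Zc A B q) else 0) =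
      ∑ q ∈ Finset.range n, (if q % 2 = p % 2 then rd (Bd A B q) (Binf A B q) else 0) +
      ∑ q ∈ Finset.range n, (if q % 2 = p % 2 then rd (Binf A B q) (Zc A B q) else 0) := by
    rw [← Finset.sum_add_distrib]
    refine Finset.sum_congr rfl fun q _ => ?_
    by_cases h : q % 2 = p % 2
    · rw [if_pos h, if_pos h, if_pos h]
      exact rd_trans (Bd_le_Binf q) (Binf_le_Zc H.sA H.sB H.le q)
    · rw [if_neg h, if_neg h, if_neg h, add_zero]
  have h2 : ∑ q ∈ Finset.range n, (if q % 2 = p % 2 then beta A B q else 0) =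
      ∑ q ∈ Finset.range n, (if q % 2 ≠ p % 2 then rd (Bd A B q) (Binf A B q) else 0) := by
    obtain ⟨m, rfl⟩ : ∃ m, n = m + 1 := ⟨n - 1, by omega⟩
    rw [Finset.sum_range_succ', Finset.sum_range_succ]
    have hlast : (if m % 2 ≠ p % 2 then rd (Bd A B m) (Binf A B m) else 0) = 0 := by
      by_cases h : m % 2 ≠ p % 2
      · rw [if_pos h]
        exact rd_of_le ((Binf_le_Zc H.sA H.sB H.le m).trans (hM m (by omega)))
      · rw [if_neg h]
    have hfirst : (if 0 % 2 = p % 2 then beta A B 0 else 0) = 0 := by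
      by_cases h : 0 % 2 = p % 2
      · rw [if_pos h]; rfl
      · rw [if_neg h]
    rw [hlast, hfirst, add_zero, add_zero]
    refine Finset.sum_congr rfl fun q _ => ?_
    by_cases h : (q + 1) % 2 = p % 2
    · rw [if_pos h, if_pos (by omega)]; rfl
    · rw [if_neg h, if_neg (by omega)]
  rw [h1, ← sum_step (p := p) H.sA H.sB H.le n, h2, ← last (p := p) H hM hn]
  rw [add_comm, add_assoc, add_assoc, add_comm (∑ q ∈ Finset.range n, _)]

end PH

end Crest.Agent.R231.AlgEulerx978
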