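import Crest.Agent.R231.AlgMono_978

/-!
# Row 231, block A: the region, local count, forcing  (helper978)
-/

set_option autoImplicit false

namespace Crest.Agent.R231.AlgForcex978

open Crest.Agent.R231.IfAx978 Crest.Agent.R231.AlgRdx978
open Crest.Agent.R231.AlgTatex978 Crest.Agent.R231.AlgCountx978 Crest.Agent.R231.AlgEulerx978
open Crest.Agent.R231.AlgPairx978 Crest.Agent.R231.AlgPairx978.Base Crest.Agent.R231.AlgLevx978
open Crest.Agent.R231.AlgMonox978
open Crest.Agent.R231.AlgDefx978 (LT mem_LT)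
open Crest.Agent.R231.AlgDefx978.Core

variable (K : Core)

theorem SR_pos {a b : ℝ} {j : ℕ} (h : j % 2 = K.σ % 2) : SR K a b j = Bd (K.F a) (K.F b) j :=
  if_pos h
theorem SR_neg {a b : ℝ} {j : ℕ} (h : j % 2 ≠ K.σ % 2) : SR K a b j = Rr K a b j := if_neg h
theorem S0_pos {a b : ℝ} {j : ℕ} (h : j % 2 = K.σ % 2) : S0 K a b j = R0 K a b j := if_pos h
theorem S0_neg {a b : ℝ} {j : ℕ} (h : j % 2 ≠ K.σ % 2) : S0 K a b j = Bd (K.F a) (K.F b) j :=
  if_neg h

theorem Bd_le_SR {a b : ℝ} (h0 : 0 ≤ a) (hab : a ≤ b) (j : ℕ) :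
    Bd (K.F a) (K.F b) j ≤ SR K a b j := by
  by_cases h : j % 2 = K.σ % 2
  · rw [SR_pos K h]
  · rw [SR_neg K h]; exact Bd_le_Rr K h0 hab j

theorem SR_le_Zc {a b : ℝ} (h0 : 0 ≤ a) (hab : a ≤ b) (j : ℕ) :
    SR K a b j ≤ Zc (K.F a) (K.F b) j := by
  by_cases h : j % 2 = K.σ % 2
  · rw [SR_pos K h]
    exact Bd_le_Zc (K.F_stab a) (K.F_stab b) (K.F_mono a b hab) j
  · rw [SR_neg K h]; exact Rr_le_Zc K h0 hab j

theorem Bd_le_S0 {a b : ℝ} (h0 : 0 ≤ a) (hab : a ≤ b) (j : ℕ) :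
    Bd (K.F a) (K.F b) j ≤ S0 K a b j := by
  by_cases h : j % 2 = K.σ % 2
  · rw [S0_pos K h]; exact Bd_le_R0 K h0 hab j
  · rw [S0_neg K h]

theorem S0_le_Zc {a b : ℝ} (h0 : 0 ≤ a) (hab : a ≤ b) (j : ℕ) :
    S0 K a b j ≤ Zc (K.F a) (K.F b) j := by
  by_cases h : j % 2 = K.σ % 2
  · rw [S0_pos K h]; exact R0_le_Zc K h0 hab j
  · rw [S0_neg K h]
    exact Bd_le_Zc (K.F_stab a) (K.F_stab b) (K.F_mono a b hab) j

theorem Fa_le_LT {a b : ℝ} (hab : a ≤ b) (S : GS K.X) (j : ℕ) :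
    K.F a j ≤ LT K.psi (K.F a) (K.F b) S j :=
  ((Bd_base j).trans (Bd_le_Binf j)).trans (Binf_le_LT (K.F_mono a b hab) (K.F_stab b) j)

/-- hypotheses on a level `t` used below: equality case of the monotonicity -/
structure Eq1 (t : ℝ) : Prop where
  inj : ∀ j, j % 2 = K.σ % 2 → Binf (K.F 0) (K.F t) j ⊓ P K t j ≤ Bd (K.F 0) (K.F t) j
  lt : ∀ j, j % 2 = K.σ % 2 →
    P K t j ⊔ Binf (K.F 0) (K.F t) j ≤ LT K.psi (K.F 0) (K.F t) (KS K (t / 2)) j

/-- finite births are leading terms -/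
theorem R0_le_LT {a b : ℝ} (h0 : 0 ≤ a) (hab : a ≤ b) (hE : Eq1 K b) {j : ℕ}
    (hj : j % 2 = K.σ % 2) :
    R0 K a b j ≤ LT K.psi (K.F a) (K.F b) (S0 K (a / 2) (b / 2)) j := by
  refine sup_le ?_ (Fa_le_LT K hab _ j)
  intro x hx
  obtain ⟨hxB, y, c, h1, h2, h3, h4⟩ := hE.lt j hj (Submodule.mem_sup_left hx)
  refine ⟨hxB, y, c, fun i => ?_, h2, fun i hi => K.F_mono 0 a h0 i (h3 i hi),
    K.F_mono 0 a h0 j h4⟩
  by_cases h : i % 2 = K.σ % 2
  · rw [S0_pos K h]
    have := h1 i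
    rw [KS_pos K h] at this
    exact Submodule.mem_sup_left this
  · rw [S0_neg K h]
    have := h1 i
    rw [KS_neg K h] at this
    exact Bd_mono (K.F_mono 0 _ (by linarith)) (fun _ => le_rfl) i this

/-- the successive correction: a relative cycle of degree `m ≡ σ + 1` at level `b` becomes a Tate cycle
after adding things of level `a` -/
theorem correct {t0 a b : ℝ} (ht0 : ∀ t, t0 ≤ t → t ∉ K.Crit → ∀ j, V K t j ≤ V K t0 j)
    (hta : t0 ≤ a) (h0 : 0 ≤ a) (hab : a ≤ b) (hb : b ∉ K.Crit) (hE : Eq1 K b)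
    {m : ℕ} (hm : m % 2 ≠ K.σ % 2) {x : K.X.C m} (hx : x ∈ Zc (K.F 0) (K.F b) m) (n : ℕ) :
    ∃ w : (∀ j, K.X.C j), (∀ j, w j ∈ K.F b j) ∧ (∀ j, j < m → w j ∈ K.F a j) ∧
      w m + x ∈ K.F a m ∧ (∀ j, j % 2 ≠ m % 2 → w j = 0) ∧ ∀ j, j < m + n → DD w j ∈ K.F 0 j := by
  induction n with
  | zero =>
    refine ⟨sg m x, sg_mem (Zc_le m hx), fun j hj => ?_, ?_,
      fun j hj => sg_ne x (by rintro rfl; exact hj rfl), fun j hj => ?_⟩
    · rw [sg_ne x (by omega)]; exact Submodule.zero_mem _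
    · rw [sg_same, add_self2]; exact Submodule.zero_mem _
    · by_cases h : j + 1 < m
      · rw [DD_sg_lt x h]; exact Submodule.zero_mem _
      · obtain rfl : m = j + 1 := by omega
        rw [DD_sg_pred]; exact hx.2
  | succ n ih =>
    obtain ⟨w, h1, h2, h3, h4, h5⟩ := ih
    obtain ⟨q, hq⟩ : ∃ q, q = m + n := ⟨_, rfl⟩
    rw [← hq] at h5
    rw [show m + (n + 1) = q + 1 by omega]
    by_cases hqm : q % 2 = m % 2
    · -- wrong parity: nothing to do
      refine ⟨w, h1, h2, h3, h4, fun j hj => ?_⟩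
      rcases Nat.lt_succ_iff_lt_or_eq.1 hj with h | h
      · exact h5 j h
      · rw [h, DD_wrong (p := m) h4 hqm]; exact Submodule.zero_mem _
    · have hqσ : q % 2 = K.σ % 2 := by omega
      have hqm' : m < q := by
        rcases Nat.lt_or_ge m q with h | h
        · exact h
        · exact absurd (by rw [show q = m by omega]) hqm
      have hB : DD w q ∈ Binf (K.F 0) (K.F b) q :=
        ⟨w, h1, h5, by rw [add_self2]; exact Submodule.zero_mem _⟩
      -- `V b ≤ V a`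
      have hV : V K b q ≤ Binf (K.F 0) (K.F a) q ⊔ Bd (K.F 0) ⊤ q := by
        refine (ht0 b (hta.trans hab) hb q).trans ?_
        refine (V_mono K hta q).trans ?_
        rw [V_pos K hqσ]
      obtain ⟨x1, hx1, β, hβ, hsum⟩ := Submodule.mem_sup.1
        (hV (by rw [V_pos K hqσ]; exact Submodule.mem_sup_left hB))
      obtain ⟨ca, hca1, hca2, hca3⟩ := hx1
      have hx1' : x1 ∈ Binf (K.F 0) (K.F a) q := ⟨ca, hca1, hca2, hca3⟩
      have hβB : β ∈ Binf (K.F 0) (K.F b) q := by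
        have e : β = (x1 + β) + x1 := by f2
        rw [e, hsum]
        exact (Binf (K.F 0) (K.F b) q).add_mem hB
          (Binf_mono (fun _ => le_rfl) (K.F_mono a b hab) q hx1')
      have hβF : β ∈ K.F b q :=
        Zc_le q (Binf_le_Zc (K.F_stab 0) (K.F_stab b) (K.F_mono 0 b (h0.trans hab)) q hβB)
      obtain ⟨u, hu1, hu2⟩ := mem_Bd.1 (hE.inj q hqσ ⟨hβB, hβF, hβ⟩)
      -- the corrected element
      refine ⟨w + pr m ca + sg (q + 1) u, fun j => ?_, fun j hj => ?_, ?_, fun j hj => ?_,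
        fun j hj => ?_⟩
      · exact (K.F b j).add_mem ((K.F b j).add_mem (h1 j) (K.F_mono a b hab j (pr_mem hca1 j)))
          (sg_mem hu1 j)
      · show w j + pr m ca j + sg (q + 1) u j ∈ K.F a j
        rw [sg_ne u (by omega), add_zero]
        exact (K.F a j).add_mem (h2 j hj) (pr_mem hca1 j)
      · show w m + pr m ca m + sg (q + 1) u m + x ∈ K.F a m
        rw [sg_ne u (by omega), add_zero]
        have e : w m + pr m ca m + x = (w m + x) + pr m ca m := by f2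
        rw [e]
        exact (K.F a m).add_mem h3 (pr_mem hca1 m)
      · show w j + pr m ca j + sg (q + 1) u j = 0
        rw [h4 j hj, pr_neg ca hj, sg_ne u (by omega), add_zero, add_zero]
      · have e : DD (w + pr m ca + sg (q + 1) u) j =
            DD w j + DD (pr m ca) j + DD (sg (q + 1) u) j := by
          rw [map_add, map_add]; rfl
        rw [e]
        rcases Nat.lt_succ_iff_lt_or_eq.1 hj with h | h
        · rw [DD_sg_lt u (by omega), add_zero]
          refine (K.F 0 j).add_mem (h5 j h) ?_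
          by_cases hjm : j % 2 = (m + 1) % 2
          · rw [DD_pr_pos ca hjm]; exact hca2 j h
          · rw [DD_pr_neg ca hjm]; exact Submodule.zero_mem _
        · subst h
          rw [DD_sg_pred, DD_pr_pos ca (by omega)]
          have e2 : DD w j + DD ca j + K.X.d j u = (x1 + DD ca j) + (β + K.X.d j u) := by
            rw [← hsum]; f2
          rw [e2]
          exact (K.F 0 j).add_mem hca3 hu2

/-- all births of parity `σ + 1` are leading terms -/
theorem Rr_le_LT {t0 a b : ℝ} (ht0 : ∀ t, t0 ≤ t → t ∉ K.Crit → ∀ j, V K t j ≤ V K t0 j)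
    (hta : t0 ≤ a) (h0 : 0 ≤ a) (hab : a ≤ b) (hb : b ∉ K.Crit) (hE : Eq1 K b)
    {m : ℕ} (hm : m % 2 ≠ K.σ % 2) :
    Rr K a b m ≤ LT K.psi (K.F a) (K.F b) (SR K (a / 2) (b / 2)) m := by
  refine sup_le ?_ (Fa_le_LT K hab _ m)
  intro x hx
  have hb0 := h0.trans hab
  obtain ⟨M, hM⟩ := K.bdd b hb0 hb
  obtain ⟨w, h1, h2, h3, h4, h5⟩ := correct K ht0 hta h0 hab hb hE hm hx (M + 1)
  obtain ⟨c', hc1, hc2, hc3⟩ := extend (M := m + (M + 1)) (K.F_stab 0) (K.F_stab b)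
    (K.F_mono 0 b hb0) (fun j hj => (Binf_le_Zc (K.F_stab 0) (K.F_stab b)
      (K.F_mono 0 b hb0) j).trans (hM j (by omega))) h1 h5
  obtain ⟨y, c, hy, hc, hyc⟩ := (K.smith b hb0 hb).surj (w + c')
    (fun j => (K.F b j).add_mem (h1 j) (hc2 j)) hc3
  have H := ph_abs K.toBase hb0 hb
  refine ⟨Zc_le m hx, pr m y, pr (m + 1) c, fun j => ?_, pr_mem hc, fun i hi => ?_, ?_⟩
  · by_cases h : j % 2 = m % 2
    · rw [pr_pos y h, SR_neg K (by omega)]
      exact Submodule.mem_sup_left (hy j)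
    · rw [pr_neg y h]; exact Submodule.zero_mem _
  · by_cases h : i % 2 = m % 2
    · rw [pr_pos y h, DD_pr_pos c (by omega)]
      have e1 := hyc i
      rw [Pi.add_apply, hc1 i (by omega), add_zero] at e1
      have e2 : K.psi i (y i) + DD c i = (w i + K.psi i (y i) + DD c i) + w i := by f2
      rw [e2]
      exact (K.F a i).add_mem (K.F_mono 0 a h0 i e1) (h2 i hi)
    · rw [pr_neg y h, map_zero, DD_pr_neg c (by omega), add_zero]; exact Submodule.zero_mem _
  · rw [pr_pos y rfl, DD_pr_pos c (by omega)]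
    have e1 := hyc m
    rw [Pi.add_apply, hc1 m (by omega), add_zero] at e1
    have e2 : K.psi m (y m) + DD c m + x = (w m + K.psi m (y m) + DD c m) + (w m + x) := by f2
    rw [e2]
    exact (K.F a m).add_mem (K.F_mono 0 a h0 m e1) h3

/-- leading terms are relative cycles -/
theorem LT_le_Zc {X : Mix} {psi : ∀ j, X.C j →ₗ[ZMod 2] X.C j} {A B A' B' : GS X}
    (H : PH psi A B A' B') {S : GS X} (hS : ∀ j, S j ≤ Zc A' B' j) (m : ℕ) :
    LT psi A B S m ≤ Zc A B m := by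
  rintro x ⟨hx, y, c, h1, h2, h3, h4⟩
  have hw : (psiP psi y + DD c) m ∈ Zc A B m := by
    refine zc_lead H.sA ?_ h3 (fun i _ => ?_)
    · exact (B m).add_mem (H.psi_mem y (fun j => hS j (h1 j)) m) (DD_mem H.sB h2 m)
    · rw [map_add, Pi.add_apply, DD_DD, add_zero]
      exact H.DD_psi y (fun j => hS j (h1 j)) i
  have e : x = (psi m (y m) + DD c m + x) + (psiP psi y + DD c) m := by
    rw [Pi.add_apply, psiP_apply]; f2
  rw [e]
  exact (Zc A B m).add_mem (Bd_le_Zc H.sA H.sB H.le m (Bd_base m h4)) hw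

/-- LT count in one parity -/
theorem LTcount_par {X : Mix} {psi : ∀ j, X.C j →ₗ[ZMod 2] X.C j} {A B A' B' : GS X}
    (H : PH psi A B A' B') {N : ℕ} (hM : ∀ j, N ≤ j → Zc A B j ≤ Bd A B j)
    (hM' : ∀ j, N ≤ j → Zc A' B' j ≤ Bd A' B' j) {S : GS X}
    (hS1 : ∀ j, Bd A' B' j ≤ S j) (hS2 : ∀ j, S j ≤ Zc A' B' j) {p : ℕ}
    (hS3 : ∀ j, j % 2 ≠ p % 2 → S j ≤ Bd A' B' j) :
    ∑ j ∈ Finset.range N, (if j % 2 = p % 2 then rd (Bd A B j) (LT psi A B S j) else 0) =
      ∑ j ∈ Finset.range N, (if j % 2 = p % 2 then rd (Bd A B j) (Binf A B j) else 0) +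
      ∑ j ∈ Finset.range N, (if j % 2 = p % 2 then rd (Bd A' B' j) (S j) else 0) := by
  have h1 := LTcount H hM hS1 hS2
  rw [rd_Pi hS1 N (fun j hj => (hS2 j).trans (hM' j hj))] at h1
  have h2 : ∑ j ∈ Finset.range N, rd (Bd A' B' j) (S j) =
      ∑ j ∈ Finset.range N, (if j % 2 = p % 2 then rd (Bd A' B' j) (S j) else 0) := by
    refine Finset.sum_congr rfl fun j _ => ?_
    by_cases h : j % 2 = p % 2
    · rw [if_pos h]
    · rw [if_neg h]; exact rd_of_le (hS3 j h)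
  have h3 : ∑ m ∈ Finset.range N, rd (Binf A B m) (LT psi A B S m) =
      ∑ m ∈ Finset.range N, (if m % 2 = p % 2 then rd (Binf A B m) (LT psi A B S m) else 0) := by
    refine Finset.sum_congr rfl fun j _ => ?_
    by_cases h : j % 2 = p % 2
    · rw [if_pos h]
    · rw [if_neg h]; exact rd_of_le (LT_par H hS3 h)
  rw [← h2, h1, h3, ← Finset.sum_add_distrib]
  refine Finset.sum_congr rfl fun j _ => ?_
  by_cases h : j % 2 = p % 2
  · rw [if_pos h, if_pos h, if_pos h]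
    exact rd_trans (Bd_le_Binf j) (Binf_le_LT H.le H.sB j)
  · rw [if_neg h, if_neg h, if_neg h, add_zero]

/-- `l_{σ+1} = r_{σ+1} + r0_σ` -/
theorem star' {a b : ℝ} (h0 : 0 ≤ a) (hab : a ≤ b) (ha : a ∉ K.Crit) (hb : b ∉ K.Crit)
    (hf : f K a = f K b) {M N : ℕ}
    (hMa : ∀ j, M ≤ j → Zc (K.F 0) (K.F a) j ≤ Bd (K.F 0) (K.F a) j)
    (hMb : ∀ j, M ≤ j → Zc (K.F 0) (K.F b) j ≤ Bd (K.F 0) (K.F b) j) (hn : M + 2 ≤ N) :
    ∑ j ∈ Finset.range N, (if j % 2 ≠ K.σ % 2 then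
      rd (Bd (K.F a) (K.F b) j) (Zc (K.F a) (K.F b) j) else 0) =
    ∑ j ∈ Finset.range N, (if j % 2 ≠ K.σ % 2 then
      rd (Bd (K.F a) (K.F b) j) (Rr K a b j) else 0) +
    ∑ j ∈ Finset.range N, (if j % 2 = K.σ % 2 then
      rd (Bd (K.F a) (K.F b) j) (R0 K a b j) else 0) := by
  obtain ⟨n, rfl⟩ : ∃ n, N = n + 1 := ⟨N - 1, by omega⟩
  rw [← star K h0 hab ha hb hf hMa hMb (by omega), ← Finset.sum_add_distrib]
  refine Finset.sum_congr rfl fun j _ => ?_
  by_cases h : j % 2 ≠ K.σ % 2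
  · rw [if_pos h, if_pos h, if_pos h]
    exact rd_trans (Bd_le_Rr K h0 hab j) (Rr_le_Zc K h0 hab j)
  · rw [if_neg h, if_neg h, if_neg h, add_zero]

/-- LOCAL COUNT and equality: for `a < b` with `f(a) = f(b)`, `f(a/2) = f(b/2)` and `Eq1` at `b` -/
theorem local_eq {t0 a b : ℝ} (ht0 : ∀ t, t0 ≤ t → t ∉ K.Crit → ∀ j, V K t j ≤ V K t0 j)
    (hta : t0 ≤ a) (h0 : 0 ≤ a) (hab : a ≤ b) (ha : a ∉ K.Crit) (hb : b ∉ K.Crit) (hE : Eq1 K b)
    (hf : f K a = f K b) (hf' : f K (a / 2) = f K (b / 2)) :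
    (∀ j, j % 2 ≠ K.σ % 2 →
      Rr K a b j = LT K.psi (K.F a) (K.F b) (SR K (a / 2) (b / 2)) j) ∧
    (∀ j, j % 2 = K.σ % 2 →
      R0 K a b j = LT K.psi (K.F a) (K.F b) (S0 K (a / 2) (b / 2)) j) := by
  have hb0 := h0.trans hab
  have ha' := half_not_crit K.toBase ha
  have hb' := half_not_crit K.toBase hb
  have h0' : (0 : ℝ) ≤ a / 2 := by linarith
  have hab' : a / 2 ≤ b / 2 := by linarith
  -- a common bound for the degrees
  obtain ⟨M1, hM1⟩ := K.bdd a h0 ha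
  obtain ⟨M2, hM2⟩ := K.bdd b hb0 hb
  obtain ⟨M3, hM3⟩ := K.bdd (a / 2) h0' ha'
  obtain ⟨M4, hM4⟩ := K.bdd (b / 2) (h0'.trans hab') hb'
  obtain ⟨M, hMdef⟩ : ∃ M, M = M1 + M2 + M3 + M4 := ⟨_, rfl⟩
  have gM1 : ∀ j, M ≤ j → Zc (K.F 0) (K.F a) j ≤ Bd (K.F 0) (K.F a) j := fun j hj => hM1 j (by omega)
  have gM2 : ∀ j, M ≤ j → Zc (K.F 0) (K.F b) j ≤ Bd (K.F 0) (K.F b) j := fun j hj => hM2 j (by omega)
  have gM3 : ∀ j, M ≤ j → Zc (K.F 0) (K.F (a / 2)) j ≤ Bd (K.F 0) (K.F (a / 2)) j :=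
    fun j hj => hM3 j (by omega)
  have gM4 : ∀ j, M ≤ j → Zc (K.F 0) (K.F (b / 2)) j ≤ Bd (K.F 0) (K.F (b / 2)) j :=
    fun j hj => hM4 j (by omega)
  have H := ph_pair K.toBase h0 hab ha hb
  have hMp : ∀ j, M + 1 ≤ j → Zc (K.F a) (K.F b) j ≤ Bd (K.F a) (K.F b) j :=
    fun j hj => bdd_pair K h0 hab gM1 gM2 hj
  have hMp' : ∀ j, M + 1 ≤ j → Zc (K.F (a / 2)) (K.F (b / 2)) j ≤ Bd (K.F (a / 2)) (K.F (b / 2)) j :=
    fun j hj => bdd_pair K h0' hab' gM3 gM4 hj
  -- everything is about the two following families of inequalities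
  have key : ∀ N, M + 2 ≤ N → (∀ j, j < N → j % 2 ≠ K.σ % 2 →
      LT K.psi (K.F a) (K.F b) (SR K (a / 2) (b / 2)) j ≤ Rr K a b j) ∧
      (∀ j, j < N → j % 2 = K.σ % 2 →
      LT K.psi (K.F a) (K.F b) (S0 K (a / 2) (b / 2)) j ≤ R0 K a b j) := by
    intro N hN
    -- the Euler relation for the parity `σ + 1`
    have E1 := euler H (M := M + 1) (n := N) hMp (by omega) (K.σ + 1)
    rw [rd_Pi (fun j => Bd_le_Zp H (K.σ + 1) j) N
      (fun j hj => (Zp_le_Zc H (K.σ + 1) j).trans (hMp' j (by omega)))] at E1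
    have E1a : ∑ j ∈ Finset.range N, rd (Bd (K.F (a / 2)) (K.F (b / 2)) j)
        (Zp (K.σ + 1) (K.F (a / 2)) (K.F (b / 2)) j) =
        ∑ j ∈ Finset.range N, (if j % 2 ≠ K.σ % 2 then
          rd (Bd (K.F (a / 2)) (K.F (b / 2)) j) (Zc (K.F (a / 2)) (K.F (b / 2)) j) else 0) := by
      refine Finset.sum_congr rfl fun j _ => ?_
      by_cases h : j % 2 ≠ K.σ % 2
      · rw [if_pos h, Zp_pos (by omega)]
      · rw [if_neg h, Zp_neg (by omega), rd_self]
    rw [E1a, star' K h0' hab' ha' hb' hf' gM3 gM4 hN] at E1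
    have cA : ∀ g : ℕ → ℕ∞, ∑ j ∈ Finset.range N, (if j % 2 = (K.σ + 1) % 2 then g j else 0) =
        ∑ j ∈ Finset.range N, (if j % 2 ≠ K.σ % 2 then g j else 0) := by
      intro g
      refine Finset.sum_congr rfl fun j _ => ?_
      by_cases h : j % 2 ≠ K.σ % 2
      · rw [if_pos h, if_pos (by omega)]
      · rw [if_neg h, if_neg (by omega)]
    have cB : ∀ g : ℕ → ℕ∞, ∑ j ∈ Finset.range N, (if j % 2 ≠ (K.σ + 1) % 2 then g j else 0) =
        ∑ j ∈ Finset.range N, (if j % 2 = K.σ % 2 then g j else 0) := by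
      intro g
      refine Finset.sum_congr rfl fun j _ => ?_
      by_cases h : j % 2 = K.σ % 2
      · rw [if_pos h, if_pos (by omega)]
      · rw [if_neg h, if_neg (by omega)]
    rw [cA, cA, cB, star' K h0 hab ha hb hf gM1 gM2 hN] at E1
    -- leading term counts
    have E2 := LTcount_par H (N := N) (fun j hj => hMp j (by omega)) (fun j hj => hMp' j (by omega))
      (S := SR K (a / 2) (b / 2)) (fun j => Bd_le_SR K h0' hab' j) (fun j => SR_le_Zc K h0' hab' j)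
      (p := K.σ + 1) (fun j hj => by rw [SR_pos K (by omega)])
    have E3 := LTcount_par H (N := N) (fun j hj => hMp j (by omega)) (fun j hj => hMp' j (by omega))
      (S := S0 K (a / 2) (b / 2)) (fun j => Bd_le_S0 K h0' hab' j) (fun j => S0_le_Zc K h0' hab' j)
      (p := K.σ) (fun j hj => by rw [S0_neg K hj])
    rw [cA, cA, cA] at E2
    have E2a : ∑ j ∈ Finset.range N, (if j % 2 ≠ K.σ % 2 then
          rd (Bd (K.F (a / 2)) (K.F (b / 2)) j) (SR K (a / 2) (b / 2) j) else 0) =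
        ∑ j ∈ Finset.range N, (if j % 2 ≠ K.σ % 2 then
          rd (Bd (K.F (a / 2)) (K.F (b / 2)) j) (Rr K (a / 2) (b / 2) j) else 0) := by
      refine Finset.sum_congr rfl fun j _ => ?_
      by_cases h : j % 2 ≠ K.σ % 2
      · rw [if_pos h, if_pos h, SR_neg K h]
      · rw [if_neg h, if_neg h]
    have E3a : ∑ j ∈ Finset.range N, (if j % 2 = K.σ % 2 then
          rd (Bd (K.F (a / 2)) (K.F (b / 2)) j) (S0 K (a / 2) (b / 2) j) else 0) =
        ∑ j ∈ Finset.range N, (if j % 2 = K.σ % 2 then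
          rd (Bd (K.F (a / 2)) (K.F (b / 2)) j) (R0 K (a / 2) (b / 2) j) else 0) := by
      refine Finset.sum_congr rfl fun j _ => ?_
      by_cases h : j % 2 = K.σ % 2
      · rw [if_pos h, if_pos h, S0_pos K h]
      · rw [if_neg h, if_neg h]
    rw [E2a] at E2
    rw [E3a] at E3
    -- the two total families
    have hsum : ∑ j ∈ Finset.range N, (if j % 2 ≠ K.σ % 2 then
          rd (Bd (K.F a) (K.F b) j) (LT K.psi (K.F a) (K.F b) (SR K (a / 2) (b / 2)) j) else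
          rd (Bd (K.F a) (K.F b) j) (LT K.psi (K.F a) (K.F b) (S0 K (a / 2) (b / 2)) j)) =
        ∑ j ∈ Finset.range N, (if j % 2 ≠ K.σ % 2 then
          rd (Bd (K.F a) (K.F b) j) (Rr K a b j) else
          rd (Bd (K.F a) (K.F b) j) (R0 K a b j)) := by
      have split : ∀ g g' : ℕ → ℕ∞, ∑ j ∈ Finset.range N, (if j % 2 ≠ K.σ % 2 then g j else g' j) =
          ∑ j ∈ Finset.range N, (if j % 2 ≠ K.σ % 2 then g j else 0) +
          ∑ j ∈ Finset.range N, (if j % 2 = K.σ % 2 then g' j else 0) := by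
        intro g g'
        rw [← Finset.sum_add_distrib]
        refine Finset.sum_congr rfl fun j _ => ?_
        by_cases h : j % 2 = K.σ % 2
        · rw [if_neg (by omega), if_neg (by omega), if_pos h, zero_add]
        · rw [if_pos h, if_pos h, if_neg h, add_zero]
      refine (split _ _).trans (Eq.trans ?_ (split _ _).symm)
      rw [E2, E3, E1]
      abel
    have hR1 : ∀ j, j % 2 ≠ K.σ % 2 → Rr K a b j ≤
        LT K.psi (K.F a) (K.F b) (SR K (a / 2) (b / 2)) j :=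
      fun j hj => Rr_le_LT K ht0 hta h0 hab hb hE hj
    have hR2 : ∀ j, j % 2 = K.σ % 2 → R0 K a b j ≤
        LT K.psi (K.F a) (K.F b) (S0 K (a / 2) (b / 2)) j :=
      fun j hj => R0_le_LT K h0 hab hE hj
    have hterm := sum_eq_term (fun i _ => ?_) (fun i _ => ?_) hsum.le
    · constructor
      · intro j hj hjσ
        have h1 := hterm j hj
        rw [if_pos hjσ, if_pos hjσ] at h1
        have h2 := rd_trans (Bd_le_Rr K h0 hab j) (hR1 j hjσ)
        rw [← h1] at h2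
        have hfin : rd (Bd (K.F a) (K.F b) j) (Rr K a b j) ≠ ⊤ :=
          ne_top_of_le_ne_top (fin_pair K h0 hab ha hb j) (rd_mono (Rr_le_Zc K h0 hab j))
        have h3 : rd (Rr K a b j) (LT K.psi (K.F a) (K.F b) (SR K (a / 2) (b / 2)) j) = 0 := by
          have h4 : rd (Bd (K.F a) (K.F b) j) (Rr K a b j) +
              rd (Rr K a b j) (LT K.psi (K.F a) (K.F b) (SR K (a / 2) (b / 2)) j) ≤
              rd (Bd (K.F a) (K.F b) j) (Rr K a b j) + 0 := by rw [add_zero]; exact h2.ge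
          exact le_antisymm ((ENat.addLECancellable_of_ne_top hfin) h4) bot_le
        exact rd_eq_zero.1 h3
      · intro j hj hjσ
        have h1 := hterm j hj
        rw [if_neg (by omega), if_neg (by omega)] at h1
        have h2 := rd_trans (Bd_le_R0 K h0 hab j) (hR2 j hjσ)
        rw [← h1] at h2
        have hfin : rd (Bd (K.F a) (K.F b) j) (R0 K a b j) ≠ ⊤ :=
          ne_top_of_le_ne_top (fin_pair K h0 hab ha hb j) (rd_mono (R0_le_Zc K h0 hab j))
        have h3 : rd (R0 K a b j) (LT K.psi (K.F a) (K.F b) (S0 K (a / 2) (b / 2)) j) = 0 := by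
          have h4 : rd (Bd (K.F a) (K.F b) j) (R0 K a b j) +
              rd (R0 K a b j) (LT K.psi (K.F a) (K.F b) (S0 K (a / 2) (b / 2)) j) ≤
              rd (Bd (K.F a) (K.F b) j) (R0 K a b j) + 0 := by rw [add_zero]; exact h2.ge
          exact le_antisymm ((ENat.addLECancellable_of_ne_top hfin) h4) bot_le
        exact rd_eq_zero.1 h3
    · by_cases h : i % 2 ≠ K.σ % 2
      · simp only [if_pos h]; exact rd_mono (hR1 i h)
      · simp only [if_neg h]; exact rd_mono (hR2 i (by omega))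
    · by_cases h : i % 2 ≠ K.σ % 2
      · simp only [if_pos h]
        exact ne_top_of_le_ne_top (fin_pair K h0 hab ha hb i)
          (rd_mono (LT_le_Zc H (fun j => SR_le_Zc K h0' hab' j) i))
      · simp only [if_neg h]
        exact ne_top_of_le_ne_top (fin_pair K h0 hab ha hb i)
          (rd_mono (LT_le_Zc H (fun j => S0_le_Zc K h0' hab' j) i))
  constructor
  · intro j hj
    exact le_antisymm (Rr_le_LT K ht0 hta h0 hab hb hE hj)
      ((key (M + 2 + j + 1) (by omega)).1 j (by omega) hj)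
  · intro j hj
    exact le_antisymm (R0_le_LT K h0 hab hE hj)
      ((key (M + 2 + j + 1) (by omega)).2 j (by omega) hj)

/-- THE FIRST HALF OF BLOCK A -/
theorem forcing : ∃ α β : ℝ, Forcing K α β := by
  obtain ⟨t0, ht0p, ht0c, ht0⟩ := exists_t0 K
  obtain ⟨C0, hC0⟩ := f_le K
  obtain ⟨b0, ⟨hb0, hb0c⟩, hmax⟩ := exists_max (S := {t | t0 ≤ t ∧ t ∉ K.Crit}) ⟨t0, le_rfl, ht0c⟩
    (f K) (fun t ht => hC0 t (ht0p.le.trans ht.1) ht.2)
  have hb0p : 0 < b0 := ht0p.trans_le hb0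
  -- a non-critical interval to the right of `b0`
  obtain ⟨β, hβ, hβc⟩ : ∃ β, b0 < β ∧ ∀ s ∈ K.Crit, ¬ (b0 ≤ s ∧ s ≤ β) := by
    have hfin := K.Crit_fin (b0 + 1)
    have hclosed : IsClosed (K.Crit ∩ Set.Iic (b0 + 1)) := hfin.isClosed
    have hmem : b0 ∈ (K.Crit ∩ Set.Iic (b0 + 1))ᶜ := fun h => hb0c h.1
    obtain ⟨ε, hε, hball⟩ := Metric.isOpen_iff.1 hclosed.isOpen_compl b0 hmem
    refine ⟨b0 + min (ε / 2) 1, by linarith [lt_min (half_pos hε) one_pos], fun s hs h => ?_⟩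
    have h1 : min (ε / 2) 1 ≤ ε / 2 := min_le_left _ _
    have h2 : min (ε / 2) 1 ≤ 1 := min_le_right _ _
    have : s ∈ Metric.ball b0 ε := by
      rw [Metric.mem_ball, Real.dist_eq, abs_of_nonneg (by linarith [h.1])]
      linarith [h.2]
    exact hball this ⟨hs, by show s ≤ b0 + 1; linarith [h.2]⟩
  refine ⟨b0, β, hb0p, hβ, hβc, ?_⟩
  -- `f` is maximal on the region
  have hreg : ∀ r : ℕ, ∀ t, t ∉ K.Crit → 2 ^ r * b0 ≤ t → t ≤ 2 ^ r * β → f K t = f K b0 := by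
    intro r
    induction r with
    | zero =>
      intro t htc h1 h2
      rw [pow_zero, one_mul] at h1 h2
      exact (f_const K hb0p.le h1 (fun s hs h => hβc s hs ⟨h.1, h.2.trans h2⟩)).symm
    | succ r ih =>
      intro t htc h1 h2
      have h3 : f K (t / 2) = f K b0 := ih (t / 2) (half_not_crit K.toBase htc)
        (by rw [pow_succ] at h1; linarith) (by rw [pow_succ] at h2; linarith)
      have h4 : b0 ≤ t := by
        have : (1 : ℝ) ≤ 2 ^ (r + 1) := one_le_pow₀ (by norm_num)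
        nlinarith
      apply le_antisymm (hmax t ⟨hb0.trans h4, htc⟩)
      rw [← h3]
      exact f_half_le K ht0 (hb0p.le.trans h4) (hb0.trans h4) htc
  intro r a b ha hb h1 h2 h3
  have hpow : (1 : ℝ) ≤ 2 ^ (r + 1) := one_le_pow₀ (by norm_num)
  have hab0 : b0 ≤ a := by nlinarith
  have h0a : 0 ≤ a := hb0p.le.trans hab0
  have hfa := hreg (r + 1) a ha h1 (h2.le.trans h3)
  have hfb := hreg (r + 1) b hb (h1.trans h2.le) h3
  have hfa' := hreg r (a / 2) (half_not_crit K.toBase ha)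
    (by rw [pow_succ] at h1; linarith) (by have := h2.le.trans h3; rw [pow_succ] at this; linarith)
  have hfb' := hreg r (b / 2) (half_not_crit K.toBase hb)
    (by have := h1.trans h2.le; rw [pow_succ] at this; linarith) (by rw [pow_succ] at h3; linarith)
  have hE : Eq1 K b := by
    have hb0b : b0 ≤ b := hab0.trans h2.le
    have := fun j hj => f_half_eq K ht0 (t := b) (h0a.trans h2.le) (hb0.trans hb0b) hb
      (hfb'.trans hfb.symm) (j := j) hj
    exact ⟨fun j hj => (this j hj).1, fun j hj => (this j hj).2⟩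
  exact local_eq K ht0 (hb0.trans hab0) h0a h2.le ha hb hE (hfa.trans hfb.symm)
    (hfa'.trans hfb'.symm)

end Crest.Agent.R231.AlgForcex978
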