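import Crest.Agent.R231.AlgPair_978

/-!
# Row 231, block A: births and deaths between two levels, the integer `f(t)`  (helper978)
-/

set_option autoImplicit false

namespace Crest.Agent.R231.AlgLevx978

open Crest.Agent.R231.IfAx978 Crest.Agent.R231.AlgRdx978
open Crest.Agent.R231.AlgTatex978 Crest.Agent.R231.AlgCountx978 Crest.Agent.R231.AlgEulerx978
open Crest.Agent.R231.AlgPairx978
open Crest.Agent.R231.AlgDefx978 (LT mem_LT)
open Crest.Agent.R231.AlgDefx978.Core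

variable (K : Core)

theorem P_le_F (t : ℝ) (j : ℕ) : P K t j ≤ K.F t j := inf_le_left
theorem P_le_Bd (t : ℝ) (j : ℕ) : P K t j ≤ Bd (K.F 0) ⊤ j := inf_le_right

theorem stab_top (X : Mix) : Stab (⊤ : GS X) := ⟨fun _ _ _ => trivial, fun _ _ _ => trivial⟩

theorem BdT_le_ZcT (j : ℕ) : Bd (K.F 0) ⊤ j ≤ Zc (K.F 0) ⊤ j :=
  Bd_le_Zc (K.F_stab 0) (stab_top _) (fun _ => le_top) j

theorem P_le_Zc {t : ℝ} (j : ℕ) : P K t j ≤ Zc (K.F 0) (K.F t) j := by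
  intro x hx
  have h := BdT_le_ZcT K j hx.2
  cases j with
  | zero => exact hx.1
  | succ i => exact ⟨hx.1, h.2⟩

theorem Bd_le_P {t : ℝ} (h0 : 0 ≤ t) (j : ℕ) : Bd (K.F 0) (K.F t) j ≤ P K t j := by
  refine le_inf ?_ (Bd_mono (fun _ => le_rfl) (fun _ => le_top) j)
  exact (Bd_le_Zc (K.F_stab 0) (K.F_stab t) (K.F_mono 0 t h0) j).trans (Zc_le j)

theorem P_mono {a b : ℝ} (h : a ≤ b) (j : ℕ) : P K a j ≤ P K b j :=
  inf_le_inf_right _ (K.F_mono a b h j)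

theorem P_inf {a b : ℝ} (h : a ≤ b) (j : ℕ) : P K b j ⊓ K.F a j = P K a j := by
  apply le_antisymm
  · rintro x ⟨⟨_, h2⟩, h3⟩; exact ⟨h3, h2⟩
  · rintro x ⟨h1, h2⟩; exact ⟨⟨K.F_mono a b h j h1, h2⟩, h1⟩

theorem Bd_sup {a b : ℝ} (h0 : 0 ≤ a) (j : ℕ) :
    Bd (K.F 0) (K.F b) j ⊔ K.F a j = Bd (K.F a) (K.F b) j := by
  unfold Bd
  rw [sup_assoc, sup_eq_right.2 (K.F_mono 0 a h0 j)]

theorem Rr_le_Zc {a b : ℝ} (h0 : 0 ≤ a) (hab : a ≤ b) (j : ℕ) :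
    Rr K a b j ≤ Zc (K.F a) (K.F b) j := by
  refine sup_le (Zc_mono (K.F_mono 0 a h0) (fun _ => le_rfl) j) ?_
  exact (Bd_base j).trans (Bd_le_Zc (K.F_stab a) (K.F_stab b) (K.F_mono a b hab) j)

theorem Bd_le_Rr {a b : ℝ} (h0 : 0 ≤ a) (hab : a ≤ b) (j : ℕ) :
    Bd (K.F a) (K.F b) j ≤ Rr K a b j := by
  rw [← Bd_sup K h0]
  exact sup_le_sup_right (Bd_le_Zc (K.F_stab 0) (K.F_stab b)
    (K.F_mono 0 b (h0.trans hab)) j) _

theorem R0_le_Zc {a b : ℝ} (h0 : 0 ≤ a) (hab : a ≤ b) (j : ℕ) :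
    R0 K a b j ≤ Zc (K.F a) (K.F b) j :=
  (sup_le_sup_right (P_le_Zc K j) _).trans (Rr_le_Zc K h0 hab j)

theorem Bd_le_R0 {a b : ℝ} (h0 : 0 ≤ a) (hab : a ≤ b) (j : ℕ) :
    Bd (K.F a) (K.F b) j ≤ R0 K a b j := by
  rw [← Bd_sup K h0]
  exact sup_le_sup_right (Bd_le_P K (h0.trans hab) j) _

/-- the boundary: `L_{j+1}/R_{j+1} = ker(N_j(a) → N_j(b))` -/
theorem deaths {a b : ℝ} (h0 : 0 ≤ a) (hab : a ≤ b) (j : ℕ) :
    rd (Rr K a b (j + 1)) (Zc (K.F a) (K.F b) (j + 1)) =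
      rd (Bd (K.F 0) (K.F a) j) (Bd (K.F 0) (K.F b) j ⊓ P K a j) := by
  refine rd_map (K.X.d j) ?_ ?_ ?_
  · rintro x ⟨h1, h2⟩
    have hb : K.X.d j x ∈ Bd (K.F 0) (K.F b) j :=
      Submodule.mem_sup_left ⟨x, h1, rfl⟩
    exact ⟨hb, h2, Bd_mono (fun _ => le_rfl) (fun _ => le_top) j hb⟩
  · rintro y ⟨h1, h2⟩
    obtain ⟨z, hz1, hz2⟩ := mem_Bd.1 h1
    refine ⟨z, ⟨hz1, ?_⟩, Bd_base j hz2⟩
    have e : K.X.d j z = (y + K.X.d j z) + y := by f2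
    show K.X.d j z ∈ K.F a j
    rw [e]; exact (K.F a j).add_mem (K.F_mono 0 a h0 j hz2) h2.1
  · rintro x ⟨h1, h2⟩
    constructor
    · intro h
      obtain ⟨u, hu1, hu2⟩ := mem_Bd.1 h
      refine Submodule.mem_sup.2 ⟨x + u, ⟨(K.F b _).add_mem h1 (K.F_mono a b hab _ hu1), ?_⟩,
        u, hu1, by f2⟩
      show K.X.d j (x + u) ∈ K.F 0 j
      rw [map_add]; exact hu2
    · intro h
      obtain ⟨x1, hx1, u, hu, rfl⟩ := Submodule.mem_sup.1 h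
      rw [map_add]
      exact (Bd (K.F 0) (K.F a) j).add_mem (Bd_base j hx1.2)
        (Submodule.mem_sup_left ⟨u, hu, rfl⟩)

/-- `L_0 / R_0 = 0` -/
theorem deaths_zero {a b : ℝ} :
    rd (Rr K a b 0) (Zc (K.F a) (K.F b) 0) = 0 := by
  refine rd_of_le ?_
  intro x hx
  exact Submodule.mem_sup_left hx

/-- finite births and deaths, degree by degree -/
theorem births {a b : ℝ} (h0 : 0 ≤ a) (hab : a ≤ b) (j : ℕ) :
    rd (Bd (K.F 0) (K.F b) j) (P K b j) + rd (Rr K a b (j + 1)) (Zc (K.F a) (K.F b) (j + 1)) =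
      rd (Bd (K.F 0) (K.F a) j) (P K a j) + rd (Bd (K.F a) (K.F b) j) (R0 K a b j) := by
  have hb0 := h0.trans hab
  have hBb := Bd_le_P K hb0 j
  have hPa : P K a j ≤ P K b j := P_mono K hab j
  have e1 : rd (Bd (K.F 0) (K.F b) j) (P K b j) =
      rd (Bd (K.F 0) (K.F b) j ⊓ P K a j) (P K a j) +
        rd (Bd (K.F 0) (K.F b) j ⊔ P K a j) (P K b j) := by
    rw [rd_trans (Q := Bd (K.F 0) (K.F b) j ⊔ P K a j) le_sup_left (sup_le hBb hPa), rd_sup, rd_inf]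
  have e2 : rd (Bd (K.F 0) (K.F a) j) (P K a j) =
      rd (Bd (K.F 0) (K.F a) j) (Bd (K.F 0) (K.F b) j ⊓ P K a j) +
        rd (Bd (K.F 0) (K.F b) j ⊓ P K a j) (P K a j) := by
    refine rd_trans (le_inf ?_ (Bd_le_P K h0 j)) inf_le_right
    exact Bd_mono (fun _ => le_rfl) (K.F_mono a b hab) j
  have e3 : rd (Bd (K.F a) (K.F b) j) (R0 K a b j) =
      rd (Bd (K.F 0) (K.F b) j ⊔ P K a j) (P K b j) := by
    rw [← Bd_sup K h0]
    show rd (Bd (K.F 0) (K.F b) j ⊔ K.F a j) (P K b j ⊔ K.F a j) = _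
    rw [rd_sup' hBb, P_inf K hab]
  rw [e1, e2, e3, deaths K h0 hab]
  rw [add_comm (rd (Bd (K.F 0) (K.F b) j ⊓ P K a j) (P K a j)), add_assoc, add_comm]
  congr 1
  rw [add_comm]

/-- bound of the degrees for a pair -/
theorem bdd_pair {a b : ℝ} (h0 : 0 ≤ a) (hab : a ≤ b) {M : ℕ}
    (hMa : ∀ j, M ≤ j → Zc (K.F 0) (K.F a) j ≤ Bd (K.F 0) (K.F a) j)
    (hMb : ∀ j, M ≤ j → Zc (K.F 0) (K.F b) j ≤ Bd (K.F 0) (K.F b) j)
    {j : ℕ} (hj : M + 1 ≤ j) : Zc (K.F a) (K.F b) j ≤ Bd (K.F a) (K.F b) j := by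
  obtain ⟨i, rfl⟩ : ∃ i, j = i + 1 := ⟨j - 1, by omega⟩
  rintro x ⟨h1, h2⟩
  have h3 : K.X.d i x ∈ Zc (K.F 0) (K.F a) i := by
    cases i with
    | zero => exact h2
    | succ k => exact ⟨h2, by
        show K.X.d k (K.X.d (k + 1) x) ∈ K.F 0 k
        rw [K.X.dd]; exact Submodule.zero_mem _⟩
  obtain ⟨u, hu1, hu2⟩ := mem_Bd.1 (hMa i (by omega) h3)
  have h4 : x + u ∈ Zc (K.F 0) (K.F b) (i + 1) := by
    refine ⟨(K.F b _).add_mem h1 (K.F_mono a b hab _ hu1), ?_⟩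
    show K.X.d i (x + u) ∈ K.F 0 i
    rw [map_add]; exact hu2
  have h5 := Bd_mono (K.F_mono 0 a h0) (fun _ => le_rfl) (i + 1) (hMb (i + 1) (by omega) h4)
  have e : x = (x + u) + u := by f2
  rw [e]; exact (Bd (K.F a) (K.F b) (i + 1)).add_mem h5 (Bd_base (i + 1) hu1)

/-- finiteness for a pair -/
theorem fin_pair {a b : ℝ} (h0 : 0 ≤ a) (hab : a ≤ b) (ha : a ∉ K.Crit) (hb : b ∉ K.Crit) (j : ℕ) :
    rd (Bd (K.F a) (K.F b) j) (Zc (K.F a) (K.F b) j) ≠ ⊤ := by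
  rw [rd_trans (Bd_le_Rr K h0 hab j) (Rr_le_Zc K h0 hab j)]
  have h1 : rd (Bd (K.F a) (K.F b) j) (Rr K a b j) ≠ ⊤ := by
    have : rd (Bd (K.F a) (K.F b) j) (Rr K a b j) ≤ rd (Bd (K.F 0) (K.F b) j) (Zc (K.F 0) (K.F b) j) := by
      rw [← Bd_sup K h0]
      show rd (Bd (K.F 0) (K.F b) j ⊔ K.F a j) (Zc (K.F 0) (K.F b) j ⊔ K.F a j) ≤ _
      rw [rd_sup' (Bd_le_Zc (K.F_stab 0) (K.F_stab b) (K.F_mono 0 b (h0.trans hab)) j)]
      exact rd_anti le_sup_left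
    exact ne_top_of_le_ne_top (K.fin b (h0.trans hab) hb j) this
  have h2 : rd (Rr K a b j) (Zc (K.F a) (K.F b) j) ≠ ⊤ := by
    cases j with
    | zero => rw [deaths_zero]; exact ENat.zero_ne_top
    | succ i =>
      rw [deaths K h0 hab]
      refine ne_top_of_le_ne_top (K.fin a h0 ha i) ?_
      exact rd_mono (inf_le_right.trans (P_le_Zc K i))
  exact WithTop.add_ne_top.2 ⟨h1, h2⟩

/-! ## the function `f(t) = dim K_σ(t)` -/

theorem KS_pos {t : ℝ} {j : ℕ} (h : j % 2 = K.σ % 2) : KS K t j = P K t j := if_pos h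
theorem KS_neg {t : ℝ} {j : ℕ} (h : j % 2 ≠ K.σ % 2) : KS K t j = Bd (K.F 0) (K.F t) j := if_neg h

theorem Bd_le_KS {t : ℝ} (h0 : 0 ≤ t) (j : ℕ) : Bd (K.F 0) (K.F t) j ≤ KS K t j := by
  by_cases h : j % 2 = K.σ % 2
  · rw [KS_pos K h]; exact Bd_le_P K h0 j
  · rw [KS_neg K h]

theorem KS_le_Zc {t : ℝ} (h0 : 0 ≤ t) (j : ℕ) : KS K t j ≤ Zc (K.F 0) (K.F t) j := by
  by_cases h : j % 2 = K.σ % 2
  · rw [KS_pos K h]; exact P_le_Zc K j
  · rw [KS_neg K h]; exact Bd_le_Zc (K.F_stab 0) (K.F_stab t) (K.F_mono 0 t h0) j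

theorem KS_le_P {t : ℝ} (h0 : 0 ≤ t) (j : ℕ) : KS K t j ≤ P K t j := by
  by_cases h : j % 2 = K.σ % 2
  · rw [KS_pos K h]
  · rw [KS_neg K h]; exact Bd_le_P K h0 j

/-- `f(t) = dim K_σ(t)` -/
noncomputable def f (t : ℝ) : ℕ∞ := rd (Pi (Bd (K.F 0) (K.F t))) (Pi (KS K t))

theorem f_sum {t : ℝ} (h0 : 0 ≤ t) {M : ℕ}
    (hM : ∀ j, M ≤ j → Zc (K.F 0) (K.F t) j ≤ Bd (K.F 0) (K.F t) j) :
    f K t = ∑ j ∈ Finset.range M,
      (if j % 2 = K.σ % 2 then rd (Bd (K.F 0) (K.F t) j) (P K t j) else 0) := by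
  unfold f
  rw [rd_Pi (Bd_le_KS K h0) M (fun j hj => (KS_le_Zc K h0 j).trans (hM j hj))]
  refine Finset.sum_congr rfl fun j _ => ?_
  by_cases h : j % 2 = K.σ % 2
  · rw [if_pos h, KS_pos K h]
  · rw [if_neg h, KS_neg K h, rd_self]

theorem f_le : ∃ C0 : ℕ, ∀ t : ℝ, 0 ≤ t → t ∉ K.Crit → f K t ≤ C0 := by
  obtain ⟨C0, hC⟩ := K.A2
  refine ⟨C0, fun t h0 h => ?_⟩
  obtain ⟨M, hM⟩ := K.bdd t h0 h
  rw [f_sum K h0 hM]
  refine le_trans (Finset.sum_le_sum fun j _ => ?_) (hC t h0 h M)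
  by_cases h : j % 2 = K.σ % 2
  · rw [if_pos h]; exact le_rfl
  · rw [if_neg h]; exact bot_le

theorem P_fin {t : ℝ} (h0 : 0 ≤ t) (h : t ∉ K.Crit) (j : ℕ) :
    rd (Bd (K.F 0) (K.F t) j) (P K t j) ≠ ⊤ :=
  ne_top_of_le_ne_top (K.fin t h0 h j) (rd_mono (P_le_Zc K j))

/-- (*) summed over the parity `σ`: `l_{σ+1} - r_{σ+1} = r0_σ` if `f(a) = f(b)` -/
theorem star {a b : ℝ} (h0 : 0 ≤ a) (hab : a ≤ b) (ha : a ∉ K.Crit) (hb : b ∉ K.Crit)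
    (hf : f K a = f K b) {M n : ℕ}
    (hMa : ∀ j, M ≤ j → Zc (K.F 0) (K.F a) j ≤ Bd (K.F 0) (K.F a) j)
    (hMb : ∀ j, M ≤ j → Zc (K.F 0) (K.F b) j ≤ Bd (K.F 0) (K.F b) j) (hn : M < n) :
    ∑ j ∈ Finset.range (n + 1), (if j % 2 ≠ K.σ % 2 then
      rd (Rr K a b j) (Zc (K.F a) (K.F b) j) else 0) =
    ∑ j ∈ Finset.range (n + 1), (if j % 2 = K.σ % 2 then
      rd (Bd (K.F a) (K.F b) j) (R0 K a b j) else 0) := by
  have hb0 := h0.trans hab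
  -- shift the first sum
  have e1 : ∑ j ∈ Finset.range (n + 1), (if j % 2 ≠ K.σ % 2 then
      rd (Rr K a b j) (Zc (K.F a) (K.F b) j) else 0) =
      ∑ j ∈ Finset.range n, (if j % 2 = K.σ % 2 then
        rd (Rr K a b (j + 1)) (Zc (K.F a) (K.F b) (j + 1)) else 0) := by
    rw [Finset.sum_range_succ']
    have : (if 0 % 2 ≠ K.σ % 2 then rd (Rr K a b 0) (Zc (K.F a) (K.F b) 0) else 0) = 0 := by
      by_cases h : 0 % 2 ≠ K.σ % 2
      · rw [if_pos h, deaths_zero]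
      · rw [if_neg h]
    rw [this, add_zero]
    refine Finset.sum_congr rfl fun j _ => ?_
    by_cases h : j % 2 = K.σ % 2
    · rw [if_pos (by omega), if_pos h]
    · rw [if_neg (by omega), if_neg h]
  have e2 : ∑ j ∈ Finset.range (n + 1), (if j % 2 = K.σ % 2 then
      rd (Bd (K.F a) (K.F b) j) (R0 K a b j) else 0) =
      ∑ j ∈ Finset.range n, (if j % 2 = K.σ % 2 then
      rd (Bd (K.F a) (K.F b) j) (R0 K a b j) else 0) := by
    rw [Finset.sum_range_succ]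
    have : (if n % 2 = K.σ % 2 then rd (Bd (K.F a) (K.F b) n) (R0 K a b n) else 0) = 0 := by
      by_cases h : n % 2 = K.σ % 2
      · rw [if_pos h]
        refine rd_of_le ((R0_le_Zc K h0 hab n).trans ?_)
        exact bdd_pair K h0 hab hMa hMb (by omega)
      · rw [if_neg h]
    rw [this, add_zero]
  rw [e1, e2]
  -- sum of `births`
  have e3 : ∑ j ∈ Finset.range n, (if j % 2 = K.σ % 2 then
        rd (Bd (K.F 0) (K.F b) j) (P K b j) else 0) +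
      ∑ j ∈ Finset.range n, (if j % 2 = K.σ % 2 then
        rd (Rr K a b (j + 1)) (Zc (K.F a) (K.F b) (j + 1)) else 0) =
      ∑ j ∈ Finset.range n, (if j % 2 = K.σ % 2 then
        rd (Bd (K.F 0) (K.F a) j) (P K a j) else 0) +
      ∑ j ∈ Finset.range n, (if j % 2 = K.σ % 2 then
        rd (Bd (K.F a) (K.F b) j) (R0 K a b j) else 0) := by
    rw [← Finset.sum_add_distrib, ← Finset.sum_add_distrib]
    refine Finset.sum_congr rfl fun j _ => ?_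
    by_cases h : j % 2 = K.σ % 2
    · rw [if_pos h, if_pos h, if_pos h, if_pos h]; exact births K h0 hab j
    · rw [if_neg h, if_neg h, if_neg h, if_neg h]
  rw [← f_sum K hb0 (fun j hj => hMb j (by omega)),
    ← f_sum K h0 (fun j hj => hMa j (by omega)), hf] at e3
  obtain ⟨C0, hC⟩ := f_le K
  have hfin : f K b ≠ ⊤ := ne_top_of_le_ne_top (ENat.natCast_ne_top C0) (hC b hb0 hb)
  exact ENat.add_right_injective_of_ne_top hfin e3

/-- `f` is constant on non-critical intervals -/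
theorem f_const {a b : ℝ} (h0 : 0 ≤ a) (hab : a ≤ b)
    (h : ∀ s ∈ K.Crit, ¬ (a ≤ s ∧ s ≤ b)) : f K a = f K b := by
  have ha : a ∉ K.Crit := fun ha => h a ha ⟨le_rfl, hab⟩
  have hb : b ∉ K.Crit := fun hb => h b hb ⟨hab, le_rfl⟩
  have hac := K.noncrit a b h0 hab h
  have hb0 := h0.trans hab
  obtain ⟨M1, hM1⟩ := K.bdd a h0 ha
  obtain ⟨M2, hM2⟩ := K.bdd b hb0 hb
  rw [f_sum K h0 (M := max M1 M2) (fun j hj => hM1 j (le_trans (le_max_left _ _) hj)),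
    f_sum K hb0 (M := max M1 M2) (fun j hj => hM2 j (le_trans (le_max_right _ _) hj))]
  refine Finset.sum_congr rfl fun j _ => ?_
  by_cases h : j % 2 = K.σ % 2
  · rw [if_pos h, if_pos h]
    have := births K h0 hab j
    rw [rd_of_le ((hac (j + 1)).trans (Bd_le_Rr K h0 hab (j + 1))),
      rd_of_le ((R0_le_Zc K h0 hab j).trans (hac j)), add_zero, add_zero] at this
    exact this.symm
  · rw [if_neg h, if_neg h]

end Crest.Agent.R231.AlgLevx978
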