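import Crest.Agent.R231.AlgLev_978

/-!
# Row 231, block A: `t₀`, Smith monotonicity and its equality case  (helper978)
-/

set_option autoImplicit false

namespace Crest.Agent.R231.AlgMonox978

open Crest.Agent.R231.IfAx978 Crest.Agent.R231.AlgRdx978
open Crest.Agent.R231.AlgTatex978 Crest.Agent.R231.AlgCountx978 Crest.Agent.R231.AlgEulerx978
open Crest.Agent.R231.AlgPairx978 Crest.Agent.R231.AlgPairx978.Base Crest.Agent.R231.AlgLevx978
open Crest.Agent.R231.AlgDefx978 (LT mem_LT)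
open Crest.Agent.R231.AlgDefx978.Core

variable (K : Core)

/-- non-critical levels above any given level -/
theorem exists_noncrit (T : ℝ) : ∃ t, T < t ∧ t ∉ K.Crit := by
  by_contra h
  push Not at h
  have hsub : Set.Ioo T (T + 1) ⊆ K.Crit ∩ Set.Iic (T + 1) := fun t ht => ⟨h t ht.1, ht.2.le⟩
  exact (Set.Ioo_infinite (by linarith : T < T + 1)) ((K.Crit_fin (T + 1)).subset hsub)

/-! ## bounded `ℕ∞`-valued functions have a maximum -/

theorem exists_max {S : Set ℝ} (hS : S.Nonempty) (h : ℝ → ℕ∞) {C : ℕ} (hC : ∀ t ∈ S, h t ≤ C) :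
    ∃ t ∈ S, ∀ t' ∈ S, h t' ≤ h t := by
  -- induction on the bound
  induction C with
  | zero =>
    obtain ⟨t, ht⟩ := hS
    exact ⟨t, ht, fun t' ht' => (hC t' ht').trans (by simp)⟩
  | succ C ih =>
    by_cases hh : ∀ t ∈ S, h t ≤ C
    · exact ih hh
    · push Not at hh
      obtain ⟨t, ht, htC⟩ := hh
      refine ⟨t, ht, fun t' ht' => (hC t' ht').trans ?_⟩
      have := Order.add_one_le_of_lt htC
      exact_mod_cast this

/-! ## the level `t₀` -/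

/-- `Bd (F 0) ⊤` enlarged by `B^∞(t)` in parity `σ` -/
noncomputable def V (t : ℝ) : GS K.X := fun j =>
  if j % 2 = K.σ % 2 then Binf (K.F 0) (K.F t) j ⊔ Bd (K.F 0) ⊤ j else Bd (K.F 0) ⊤ j

theorem V_pos {t : ℝ} {j : ℕ} (h : j % 2 = K.σ % 2) :
    V K t j = Binf (K.F 0) (K.F t) j ⊔ Bd (K.F 0) ⊤ j := if_pos h
theorem V_neg {t : ℝ} {j : ℕ} (h : j % 2 ≠ K.σ % 2) : V K t j = Bd (K.F 0) ⊤ j := if_neg h

theorem V_mono {s t : ℝ} (h : s ≤ t) (j : ℕ) : V K s j ≤ V K t j := by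
  by_cases hj : j % 2 = K.σ % 2
  · rw [V_pos K hj, V_pos K hj]
    exact sup_le_sup_right (Binf_mono (fun _ => le_rfl) (K.F_mono s t h) j) _
  · rw [V_neg K hj, V_neg K hj]

theorem Bd_le_V (t : ℝ) (j : ℕ) : Bd (K.F 0) ⊤ j ≤ V K t j := by
  by_cases hj : j % 2 = K.σ % 2
  · rw [V_pos K hj]; exact le_sup_right
  · rw [V_neg K hj]

theorem V_bdd {t : ℝ} (h0 : 0 ≤ t) {j : ℕ} (hj : Zc (K.F 0) (K.F t) j ≤ Bd (K.F 0) (K.F t) j) :
    V K t j ≤ Bd (K.F 0) ⊤ j := by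
  by_cases h : j % 2 = K.σ % 2
  · rw [V_pos K h]
    refine sup_le ?_ le_rfl
    exact ((Binf_le_Zc (K.F_stab 0) (K.F_stab t) (K.F_mono 0 t h0) j).trans hj).trans
      (Bd_mono (fun _ => le_rfl) (fun _ => le_top) j)
  · rw [V_neg K h]

/-- `h(t)` = dimension of the image of `B^∞_σ(t)` in `N_σ(∞)` -/
noncomputable def hh (t : ℝ) : ℕ∞ := rd (Pi (Bd (K.F 0) ⊤)) (Pi (V K t))

theorem hh_le : ∃ C2 : ℕ, ∀ t : ℝ, 0 ≤ t → t ∉ K.Crit → hh K t ≤ C2 := by
  obtain ⟨C2, hC⟩ := K.A1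
  refine ⟨C2, fun t h0 h => ?_⟩
  obtain ⟨M, hM⟩ := K.bdd t h0 h
  unfold hh
  rw [rd_Pi (Bd_le_V K t) M (fun j hj => V_bdd K h0 (hM j hj))]
  refine le_trans (Finset.sum_le_sum fun j _ => ?_) (hC t h0 h M)
  by_cases h : j % 2 = K.σ % 2
  · rw [if_pos h, V_pos K h, sup_comm, rd_sup]
    exact rd_anti (Bd_mono (fun _ => le_rfl) (fun _ => le_top) j)
  · rw [if_neg h, V_neg K h, rd_self]

theorem exists_t0 : ∃ t0 : ℝ, 0 < t0 ∧ t0 ∉ K.Crit ∧
    ∀ t, t0 ≤ t → t ∉ K.Crit → ∀ j, V K t j ≤ V K t0 j := by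
  obtain ⟨C2, hC⟩ := hh_le K
  obtain ⟨t1, ht1, ht1c⟩ := exists_noncrit K 0
  obtain ⟨t0, ⟨h0, h0c⟩, hmax⟩ := exists_max (S := {t | 0 < t ∧ t ∉ K.Crit}) ⟨t1, ht1, ht1c⟩ (hh K)
    (fun t ht => hC t ht.1.le ht.2)
  refine ⟨t0, h0, h0c, fun t ht htc j => ?_⟩
  have hpos : 0 < t := h0.trans_le ht
  have h1 : hh K t ≤ hh K t0 := hmax t ⟨hpos, htc⟩
  have hle : Pi (V K t0) ≤ Pi (V K t) := fun v hv => mem_Pi.2 fun j => V_mono K ht j (mem_Pi.1 hv j)
  have hb : Pi (Bd (K.F 0) ⊤) ≤ Pi (V K t0) :=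
    fun v hv => mem_Pi.2 fun j => Bd_le_V K t0 j (mem_Pi.1 hv j)
  have h2 : hh K t = hh K t0 + rd (Pi (V K t0)) (Pi (V K t)) := rd_trans hb hle
  have hfin : hh K t0 ≠ ⊤ := ne_top_of_le_ne_top (ENat.natCast_ne_top C2) (hC t0 h0.le h0c)
  have h3 : rd (Pi (V K t0)) (Pi (V K t)) = 0 := by
    rw [h2] at h1
    have h4 : hh K t0 + rd (Pi (V K t0)) (Pi (V K t)) ≤ hh K t0 + 0 := by rw [add_zero]; exact h1
    exact le_antisymm ((ENat.addLECancellable_of_ne_top hfin) h4) bot_le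
  have h5 := rd_eq_zero.1 h3
  intro x hx
  have h6 : sg j x ∈ Pi (V K t) := mem_Pi.2 (fun i => sg_mem hx i)
  have h7 := mem_Pi.1 (h5 h6) j
  rwa [sg_same] at h7

/-- `B^∞_σ(∞)` is reached at the level `t₀` -/
theorem Binf_top {t0 : ℝ} (ht0 : ∀ t, t0 ≤ t → t ∉ K.Crit → ∀ j, V K t j ≤ V K t0 j)
    {j : ℕ} (hj : j % 2 = K.σ % 2) :
    Binf (K.F 0) ⊤ j ≤ Binf (K.F 0) (K.F t0) j ⊔ Bd (K.F 0) ⊤ j := by
  rintro x ⟨c, _, h2, h3⟩
  -- the relevant components live at a finite level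
  choose T hT using fun i => K.F_exh i (c i)
  have hsum : ∀ i, i < j + 2 → T i ≤ ∑ i ∈ Finset.range (j + 2), |T i| := by
    intro i hi
    refine (le_abs_self _).trans ?_
    exact Finset.single_le_sum (f := fun i => |T i|) (fun _ _ => abs_nonneg _)
      (Finset.mem_range.2 hi)
  have key : x ∈ Binf (K.F 0) (K.F (∑ i ∈ Finset.range (j + 2), |T i|)) j := by
    refine ⟨fun i => if i < j + 2 then c i else 0, fun i => ?_, fun i hi => ?_, ?_⟩
    · by_cases h : i < j + 2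
      · simp only [if_pos h]
        exact K.F_mono (T i) _ (hsum i h) i (hT i)
      · simp only [if_neg h]; exact Submodule.zero_mem _
    · have e : DD (fun i => if i < j + 2 then c i else 0) i = DD c i :=
        DD_congr (fun k hk => if_pos (by omega))
      rw [e]; exact h2 i hi
    · have e : DD (fun i => if i < j + 2 then c i else 0) j = DD c j :=
        DD_congr (fun k hk => if_pos (by omega))
      rw [e]; exact h3
  obtain ⟨t2, ht2, ht2c⟩ := exists_noncrit K (max t0 (∑ i ∈ Finset.range (j + 2), |T i|))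
  have h5 : x ∈ V K t2 j := by
    rw [V_pos K hj]
    exact Submodule.mem_sup_left (Binf_mono (fun _ => le_rfl)
      (K.F_mono _ _ ((le_max_right _ _).trans ht2.le)) j key)
  have h6 := ht0 t2 ((le_max_left _ _).trans ht2.le) ht2c j h5
  rwa [V_pos K hj] at h6

/-- leading terms of the half level finite classes -/
theorem LT_KS {t0 : ℝ} (ht0 : ∀ t, t0 ≤ t → t ∉ K.Crit → ∀ j, V K t j ≤ V K t0 j)
    {t : ℝ} (h0 : 0 ≤ t) (ht : t0 ≤ t) {j : ℕ} (hj : j % 2 = K.σ % 2) :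
    LT K.psi (K.F 0) (K.F t) (KS K (t / 2)) j ≤ P K t j ⊔ Binf (K.F 0) (K.F t) j := by
  rintro x ⟨hx, y, c, h1, h2, h3, h4⟩
  -- `psi y` is a Tate boundary in the whole space
  have hy : ∀ i, y i ∈ Bd (K.F 0) ⊤ i := fun i =>
    P_le_Bd K _ i (KS_le_P K (by linarith) i (h1 i))
  have hy' : ∀ i, ∃ z ∈ (⊤ : GS K.X) (i + 1), y i + K.X.d i z ∈ K.F 0 i := fun i => mem_Bd.1 (hy i)
  choose z _ hz using hy'
  have hDZ : ∀ i, K.psi i (y i) + DD (psiP K.psi (shf z)) i ∈ K.F 0 i := by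
    intro i
    rw [DD_psi_shf K.d_psi K.De_psi, shf_succ, ← map_add]
    exact psi_zero K.toBase _ _ (hz i)
  have hb : x ∈ Binf (K.F 0) ⊤ j := by
    refine ⟨c + psiP K.psi (shf z), fun _ => trivial, fun i hi => ?_, ?_⟩
    · have e : DD (c + psiP K.psi (shf z)) i =
          (K.psi i (y i) + DD c i) + (K.psi i (y i) + DD (psiP K.psi (shf z)) i) := by
        rw [map_add, Pi.add_apply]; f2
      rw [e]; exact (K.F 0 i).add_mem (h3 i hi) (hDZ i)
    · have e : x + DD (c + psiP K.psi (shf z)) j =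
          (K.psi j (y j) + DD c j + x) + (K.psi j (y j) + DD (psiP K.psi (shf z)) j) := by
        rw [map_add, Pi.add_apply]; f2
      rw [e]; exact (K.F 0 j).add_mem h4 (hDZ j)
  obtain ⟨b, hb1, u, hu, hbu⟩ := Submodule.mem_sup.1 (Binf_top K ht0 hj hb)
  have hb2 : b ∈ Binf (K.F 0) (K.F t) j := Binf_mono (fun _ => le_rfl) (K.F_mono _ _ ht) j hb1
  have hb3 : b ∈ K.F t j := by
    exact Zc_le j (Binf_le_Zc (K.F_stab 0) (K.F_stab t) (K.F_mono 0 t h0) j hb2)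
  have hu2 : u ∈ K.F t j := by
    have e : u = (b + u) + b := by f2
    rw [e, hbu]; exact (K.F t j).add_mem hx hb3
  rw [← hbu, sup_comm]
  exact Submodule.mem_sup.2 ⟨b, hb2, u, ⟨hu2, hu⟩, rfl⟩

/-- termwise comparison behind `f(t/2) ≤ f(t)` -/
theorem term_le {t0 : ℝ} (ht0 : ∀ t, t0 ≤ t → t ∉ K.Crit → ∀ j, V K t j ≤ V K t0 j)
    {t : ℝ} (h0 : 0 ≤ t) (ht : t0 ≤ t) {j : ℕ} (hj : j % 2 = K.σ % 2) :
    rd (Binf (K.F 0) (K.F t) j) (LT K.psi (K.F 0) (K.F t) (KS K (t / 2)) j) ≤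
      rd (Bd (K.F 0) (K.F t) j) (P K t j) := by
  refine (rd_mono (LT_KS K ht0 h0 ht hj)).trans ?_
  rw [sup_comm, rd_sup]
  exact rd_anti (Bd_le_Binf j)

theorem f_half_sum {t : ℝ} (h0 : 0 ≤ t) (hc : t ∉ K.Crit) {M : ℕ}
    (hM : ∀ j, M ≤ j → Zc (K.F 0) (K.F t) j ≤ Bd (K.F 0) (K.F t) j) :
    f K (t / 2) = ∑ m ∈ Finset.range M, (if m % 2 = K.σ % 2 then
      rd (Binf (K.F 0) (K.F t) m) (LT K.psi (K.F 0) (K.F t) (KS K (t / 2)) m) else 0) := by
  have h2 : (0 : ℝ) ≤ t / 2 := by linarith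
  unfold f
  rw [LTcount (ph_abs K.toBase h0 hc) hM (fun j => Bd_le_KS K h2 j) (fun j => KS_le_Zc K h2 j)]
  refine Finset.sum_congr rfl fun m _ => ?_
  by_cases h : m % 2 = K.σ % 2
  · rw [if_pos h]
  · rw [if_neg h]
    refine rd_of_le (LT_par (ph_abs K.toBase h0 hc) (p := K.σ) (fun j hj => ?_) h)
    rw [KS_neg K hj]

/-- Smith monotonicity -/
theorem f_half_le {t0 : ℝ} (ht0 : ∀ t, t0 ≤ t → t ∉ K.Crit → ∀ j, V K t j ≤ V K t0 j)
    {t : ℝ} (h0 : 0 ≤ t) (ht : t0 ≤ t) (hc : t ∉ K.Crit) : f K (t / 2) ≤ f K t := by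
  obtain ⟨M, hM⟩ := K.bdd t h0 hc
  rw [f_half_sum K h0 hc hM, f_sum K h0 hM]
  refine Finset.sum_le_sum fun j _ => ?_
  by_cases h : j % 2 = K.σ % 2
  · rw [if_pos h, if_pos h]; exact term_le K ht0 h0 ht h
  · rw [if_neg h, if_neg h]

/-- equality of finite sums with termwise `≤` -/
theorem sum_eq_term {M : ℕ} {u v : ℕ → ℕ∞} (hle : ∀ i, i < M → u i ≤ v i)
    (hv : ∀ i, i < M → v i ≠ ⊤)
    (h : ∑ i ∈ Finset.range M, v i ≤ ∑ i ∈ Finset.range M, u i) : ∀ i, i < M → u i = v i := by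
  induction M with
  | zero => intro i hi; exact absurd hi (by omega)
  | succ M ih =>
    rw [Finset.sum_range_succ, Finset.sum_range_succ] at h
    have h1 : ∑ i ∈ Finset.range M, u i ≤ ∑ i ∈ Finset.range M, v i :=
      Finset.sum_le_sum fun i hi => hle i (by have := Finset.mem_range.1 hi; omega)
    have hvM := hv M (by omega)
    have hS : ∑ i ∈ Finset.range M, v i ≠ ⊤ := by
      have : ∀ N, N ≤ M → ∑ i ∈ Finset.range N, v i ≠ ⊤ := by
        intro N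
        induction N with
        | zero => intro _; simp
        | succ N ihN =>
          intro hN
          rw [Finset.sum_range_succ]
          exact WithTop.add_ne_top.2 ⟨ihN (by omega), hv N (by omega)⟩
      exact this M le_rfl
    have hM1 : v M ≤ u M := by
      have h2 : ∑ i ∈ Finset.range M, v i + v M ≤ ∑ i ∈ Finset.range M, v i + u M :=
        h.trans (by gcongr)
      exact (ENat.addLECancellable_of_ne_top hS) h2
    have hM2 : ∑ i ∈ Finset.range M, v i ≤ ∑ i ∈ Finset.range M, u i := by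
      have h2 : v M + ∑ i ∈ Finset.range M, v i ≤ v M + ∑ i ∈ Finset.range M, u i := by
        rw [add_comm, add_comm (v M)]
        exact h.trans (by gcongr; exact hle M (by omega))
      exact (ENat.addLECancellable_of_ne_top hvM) h2
    intro i hi
    rcases Nat.lt_succ_iff_lt_or_eq.1 hi with h3 | h3
    · exact ih (fun i hi => hle i (by omega)) (fun i hi => hv i (by omega)) hM2 i h3
    · subst h3; exact le_antisymm (hle i (by omega)) hM1

/-- the equality case `f(t/2) = f(t)`: (R1') and (R4') -/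
theorem f_half_eq {t0 : ℝ} (ht0 : ∀ t, t0 ≤ t → t ∉ K.Crit → ∀ j, V K t j ≤ V K t0 j)
    {t : ℝ} (h0 : 0 ≤ t) (ht : t0 ≤ t) (hc : t ∉ K.Crit) (heq : f K (t / 2) = f K t)
    {j : ℕ} (hj : j % 2 = K.σ % 2) :
    Binf (K.F 0) (K.F t) j ⊓ P K t j ≤ Bd (K.F 0) (K.F t) j ∧
    P K t j ⊔ Binf (K.F 0) (K.F t) j ≤ LT K.psi (K.F 0) (K.F t) (KS K (t / 2)) j := by
  obtain ⟨M', hM'⟩ := K.bdd t h0 hc
  have hM : ∀ i, max M' (j + 1) ≤ i → Zc (K.F 0) (K.F t) i ≤ Bd (K.F 0) (K.F t) i :=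
    fun i hi => hM' i (le_trans (le_max_left _ _) hi)
  have hsum : f K t ≤ f K (t / 2) := heq.ge
  rw [f_half_sum K h0 hc hM, f_sum K h0 hM] at hsum
  have hterm := sum_eq_term (fun i _ => ?_) (fun i _ => ?_) hsum j (by omega)
  · rw [if_pos hj, if_pos hj] at hterm
    have hPfin := P_fin K h0 hc j
    -- chain of inequalities
    have c1 : rd (Binf (K.F 0) (K.F t) j) (LT K.psi (K.F 0) (K.F t) (KS K (t / 2)) j) ≤
        rd (Binf (K.F 0) (K.F t) j) (P K t j ⊔ Binf (K.F 0) (K.F t) j) :=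
      rd_mono (LT_KS K ht0 h0 ht hj)
    have c2 : rd (Binf (K.F 0) (K.F t) j) (P K t j ⊔ Binf (K.F 0) (K.F t) j) =
        rd (Binf (K.F 0) (K.F t) j) (P K t j) := by rw [sup_comm, rd_sup]
    have c3 : rd (Binf (K.F 0) (K.F t) j) (P K t j) ≤ rd (Bd (K.F 0) (K.F t) j) (P K t j) :=
      rd_anti (Bd_le_Binf j)
    have c4 : rd (Bd (K.F 0) (K.F t) j) (P K t j) =
        rd (Bd (K.F 0) (K.F t) j) (Binf (K.F 0) (K.F t) j ⊓ P K t j) +
          rd (Binf (K.F 0) (K.F t) j ⊓ P K t j) (P K t j) :=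
      rd_trans (le_inf (Bd_le_Binf j) (Bd_le_P K h0 j)) inf_le_right
    have c5 : rd (Binf (K.F 0) (K.F t) j) (P K t j) = rd (Bd (K.F 0) (K.F t) j) (P K t j) := by
      apply le_antisymm c3
      rw [← hterm, ← c2]; exact c1
    constructor
    · rw [rd_inf, c5] at c4
      have : rd (Bd (K.F 0) (K.F t) j) (Binf (K.F 0) (K.F t) j ⊓ P K t j) = 0 := by
        have h5 : rd (Bd (K.F 0) (K.F t) j) (P K t j) +
            rd (Bd (K.F 0) (K.F t) j) (Binf (K.F 0) (K.F t) j ⊓ P K t j) ≤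
            rd (Bd (K.F 0) (K.F t) j) (P K t j) + 0 := by
          rw [add_zero, add_comm]; exact c4.ge
        exact le_antisymm ((ENat.addLECancellable_of_ne_top hPfin) h5) bot_le
      exact rd_eq_zero.1 this
    · have c6 : rd (Binf (K.F 0) (K.F t) j) (P K t j ⊔ Binf (K.F 0) (K.F t) j) =
          rd (Binf (K.F 0) (K.F t) j) (LT K.psi (K.F 0) (K.F t) (KS K (t / 2)) j) +
          rd (LT K.psi (K.F 0) (K.F t) (KS K (t / 2)) j) (P K t j ⊔ Binf (K.F 0) (K.F t) j) :=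
        rd_trans (Binf_le_LT (K.F_mono 0 t h0) (K.F_stab t) j) (LT_KS K ht0 h0 ht hj)
      rw [c2, c5, hterm] at c6
      have : rd (LT K.psi (K.F 0) (K.F t) (KS K (t / 2)) j)
          (P K t j ⊔ Binf (K.F 0) (K.F t) j) = 0 := by
        have h5 : rd (Bd (K.F 0) (K.F t) j) (P K t j) +
            rd (LT K.psi (K.F 0) (K.F t) (KS K (t / 2)) j) (P K t j ⊔ Binf (K.F 0) (K.F t) j) ≤
            rd (Bd (K.F 0) (K.F t) j) (P K t j) + 0 := by
          rw [add_zero]; exact c6.ge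
        exact le_antisymm ((ENat.addLECancellable_of_ne_top hPfin) h5) bot_le
      exact rd_eq_zero.1 this
  · by_cases h : i % 2 = K.σ % 2
    · simp only [if_pos h]; exact term_le K ht0 h0 ht h
    · simp only [if_neg h]; exact le_rfl
  · by_cases h : i % 2 = K.σ % 2
    · simp only [if_pos h]; exact P_fin K h0 hc i
    · simp only [if_neg h]; exact ENat.zero_ne_top

end Crest.Agent.R231.AlgMonox978
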