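import Crest.Agent.R231.AlgEuler_978

/-!
# Row 231, block A: Smith isomorphism for pairs of levels; births and deaths  (helper978)
-/

set_option autoImplicit false

namespace Crest.Agent.R231.AlgPairx978

open Crest.Agent.R231.IfAx978 Crest.Agent.R231.AlgRdx978 Crest.Agent.R231.AlgDefx978
open Crest.Agent.R231.AlgTatex978 Crest.Agent.R231.AlgCountx978 Crest.Agent.R231.AlgEulerx978

variable {X : Mix}

/-- shift a family of `(j+1)`-chains into a family indexed by the degree -/
def shf (z : ∀ j, X.C (j + 1)) : ∀ j, X.C j := fun j =>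
  Nat.casesOn (motive := fun j => X.C j) j 0 z

theorem shf_zero (z : ∀ j, X.C (j + 1)) : shf z 0 = 0 := rfl
theorem shf_succ (z : ∀ j, X.C (j + 1)) (j : ℕ) : shf z (j + 1) = z j := rfl

theorem shf_mem {B : GS X} {z : ∀ j, X.C (j + 1)} (h : ∀ j, z j ∈ B (j + 1)) (j : ℕ) :
    shf z j ∈ B j := by
  cases j with
  | zero => exact (B 0).zero_mem
  | succ i => exact h i

theorem DD_psi_shf {psi : ∀ j, X.C j →ₗ[ZMod 2] X.C j}
    (hd : ∀ j x, X.d j (psi (j + 1) x) = psi j (X.d j x)) (hDe : ∀ j x, X.De j (psi j x) = 0)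
    (y : ∀ j, X.C j) (j : ℕ) : DD (psiP psi y) j = psi j (X.d j (y (j + 1))) := by
  cases j with
  | zero => rw [DD_zero', psiP_apply, hd]
  | succ i => rw [DD_succ', psiP_apply, psiP_apply, hd, hDe, add_zero]

theorem Bd_mono {A A₁ B B₁ : GS X} (hA : ∀ j, A j ≤ A₁ j) (hB : ∀ j, B j ≤ B₁ j) (j : ℕ) :
    Bd A B j ≤ Bd A₁ B₁ j :=
  sup_le_sup (Submodule.map_mono (hB _)) (hA j)

theorem Zc_mono {A A₁ B B₁ : GS X} (hA : ∀ j, A j ≤ A₁ j) (hB : ∀ j, B j ≤ B₁ j) (j : ℕ) :
    Zc A B j ≤ Zc A₁ B₁ j := by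
  cases j with
  | zero => exact hB 0
  | succ i => exact fun x hx => ⟨hB _ hx.1, hA _ hx.2⟩

theorem Binf_mono {A A₁ B B₁ : GS X} (hA : ∀ j, A j ≤ A₁ j) (hB : ∀ j, B j ≤ B₁ j) (j : ℕ) :
    Binf A B j ≤ Binf A₁ B₁ j := by
  rintro x ⟨c, h1, h2, h3⟩
  exact ⟨c, fun i => hB i (h1 i), fun i hi => hA i (h2 i hi), hA j h3⟩

/-- Smith isomorphism for a pair from the absolute ones -/
theorem smith_pair_gen {psi : ∀ j, X.C j →ₗ[ZMod 2] X.C j} {O A B O' A' B' : GS X}
    (hd : ∀ j x, X.d j (psi (j + 1) x) = psi j (X.d j x)) (hDe : ∀ j x, X.De j (psi j x) = 0)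
    (hOA : ∀ j, O j ≤ A j) (hAB : ∀ j, A j ≤ B j) (hOA' : ∀ j, O' j ≤ A' j)
    (hAB' : ∀ j, A' j ≤ B' j) (hpO : ∀ j x, x ∈ O' j → psi j x ∈ O j)
    (hpA : ∀ j x, x ∈ A' j → psi j x ∈ A j) (hpB : ∀ j x, x ∈ B' j → psi j x ∈ B j)
    (sA : Stab A) (sA' : Stab A') (sB : Stab B)
    (SA : Smith psi O A O' A') (SB : Smith psi O B O' B') : Smith psi A B A' B' := by
  constructor
  · intro v hv hDv
    obtain ⟨y, c, hy, hc, h1⟩ := SA.surj (DD v) hDv (fun j => by
      rw [DD_DD]; exact (O j).zero_mem)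
    -- `psi y + DD (v + c) ∈ O`
    have h2 : ∀ j, y j ∈ Bd O' B' j := by
      refine SB.inj y (v + c) (fun j => Zc_mono (fun j => le_rfl) hAB' j (hy j))
        (fun j => (B j).add_mem (hv j) (hAB j (hc j))) (fun j => ?_)
      have e : psi j (y j) + DD (v + c) j = DD v j + psi j (y j) + DD c j := by
        rw [map_add, Pi.add_apply]; abel
      rw [e]; exact h1 j
    have h3 : ∀ j, ∃ z ∈ B' (j + 1), y j + X.d j z ∈ O' j := fun j => mem_Bd.1 (h2 j)
    choose z hz1 hz2 using h3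
    have hDZ : ∀ j, psi j (y j) + DD (psiP psi (shf z)) j ∈ O j := by
      intro j
      rw [DD_psi_shf hd hDe, shf_succ, ← map_add]
      exact hpO _ _ (hz2 j)
    obtain ⟨y', c', hy', hc', h4⟩ := SB.surj (v + c + psiP psi (shf z))
      (fun j => (B j).add_mem ((B j).add_mem (hv j) (hAB j (hc j))) (hpB _ _ (shf_mem hz1 j)))
      (fun j => by
        have e : DD (v + c + psiP psi (shf z)) j =
            (DD v j + psi j (y j) + DD c j) + (psi j (y j) + DD (psiP psi (shf z)) j) := by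
          rw [map_add, map_add, Pi.add_apply, Pi.add_apply]; f2
        rw [e]; exact (O j).add_mem (h1 j) (hDZ j))
    refine ⟨shf z + y', c', fun j => ?_, hc', fun j => ?_⟩
    · refine (Zc A' B' j).add_mem ?_ (Zc_mono hOA' (fun j => le_rfl) j (hy' j))
      cases j with
      | zero => exact (B' 0).zero_mem
      | succ i =>
        refine ⟨hz1 i, ?_⟩
        show X.d i (z i) ∈ A' i
        have e : X.d i (z i) = (y i + X.d i (z i)) + y i := by f2
        rw [e]
        exact (A' i).add_mem (hOA' i (hz2 i)) (Zc_le i (hy i))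
    · have e : v j + psi j ((shf z + y') j) + DD c' j =
          ((v + c + psiP psi (shf z)) j + psi j (y' j) + DD c' j) + c j := by
        simp only [Pi.add_apply, psiP_apply, map_add]; f2
      rw [e]; exact (A j).add_mem (hOA j (h4 j)) (hc j)
  · intro y c hy hc h
    let e : ∀ j, X.C j := fun j => psi j (y j) + DD c j
    have he : ∀ j, e j ∈ A j := h
    have heq : e = psiP psi y + DD c := rfl
    let w : ∀ j, X.C j := fun j => X.d j (y (j + 1))
    have hw : ∀ j, w j ∈ Zc O' A' j := by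
      intro j
      cases j with
      | zero => exact (hy 1).2
      | succ i => exact ⟨(hy (i + 2)).2, by
          show X.d i (X.d (i + 1) (y (i + 2))) ∈ O' i
          rw [X.dd]; exact (O' i).zero_mem⟩
    have hDe' : ∀ j, DD e j = psi j (w j) := by
      intro j
      rw [heq, map_add, Pi.add_apply, DD_DD, add_zero, DD_psi_shf hd hDe]
    have h2 : ∀ j, w j ∈ Bd O' A' j := by
      refine SA.inj w e hw he (fun j => ?_)
      rw [hDe', add_self2]; exact (O j).zero_mem
    have h3 : ∀ j, ∃ z ∈ A' (j + 1), w j + X.d j z ∈ O' j := fun j => mem_Bd.1 (h2 j)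
    choose z hz1 hz2 using h3
    obtain ⟨y', c', hy', hc', h4⟩ := SA.surj (e + psiP psi (shf z))
      (fun j => (A j).add_mem (he j) (hpA _ _ (shf_mem hz1 j)))
      (fun j => by
        rw [map_add, Pi.add_apply, hDe', DD_psi_shf hd hDe, shf_succ, ← map_add]
        exact hpO _ _ (hz2 j))
    have h5 : ∀ j, (y + shf z + y') j ∈ Bd O' B' j := by
      refine SB.inj _ (c + c') (fun j => ?_) (fun j => (B j).add_mem (hc j) (hAB j (hc' j)))
        (fun j => ?_)
      · refine (Zc O' B' j).add_mem ?_ (Zc_mono (fun j => le_rfl) hAB' j (hy' j))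
        cases j with
        | zero => exact (B' 0).add_mem (hy 0) ((B' 0).zero_mem)
        | succ i =>
          refine ⟨(B' _).add_mem (hy (i + 1)).1 (hAB' _ (hz1 i)), ?_⟩
          show X.d i (y (i + 1) + z i) ∈ O' i
          rw [map_add]; exact hz2 i
      · have e1 : psi j ((y + shf z + y') j) + DD (c + c') j =
            (e + psiP psi (shf z)) j + psi j (y' j) + DD c' j := by
          simp only [Pi.add_apply, psiP_apply, map_add, e]; f2
        rw [e1]; exact h4 j
    intro j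
    have e2 : y j = (y + shf z + y') j + (shf z j + y' j) := by
      simp only [Pi.add_apply]; f2
    rw [e2]
    refine (Bd A' B' j).add_mem (Bd_mono hOA' (fun j => le_rfl) j (h5 j)) (Bd_base j ?_)
    exact (A' j).add_mem (shf_mem hz1 j) (Zc_le j (hy' j))

namespace Base
variable (K : Base)

theorem half_not_crit {t : ℝ} (h : t ∉ K.Crit) : t / 2 ∉ K.Crit := by
  intro h'
  apply h
  have := K.Crit_two _ h'
  rwa [mul_div_cancel₀ t (two_ne_zero)] at this

theorem psi_half {t : ℝ} (j : ℕ) (x : K.X.C j) (hx : x ∈ K.F (t / 2) j) : K.psi j x ∈ K.F t j := by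
  have := K.F_psi (t / 2) j x hx
  rwa [mul_div_cancel₀ t (two_ne_zero)] at this

theorem psi_zero (j : ℕ) (x : K.X.C j) (hx : x ∈ K.F 0 j) : K.psi j x ∈ K.F 0 j := by
  have := K.F_psi 0 j x hx
  rwa [mul_zero] at this

/-- absolute Smith package at a non-critical level -/
theorem ph_abs {t : ℝ} (h0 : 0 ≤ t) (h : t ∉ K.Crit) :
    PH K.psi (K.F 0) (K.F t) (K.F 0) (K.F (t / 2)) where
  le := K.F_mono 0 t h0
  sA := K.F_stab 0
  sB := K.F_stab t
  le' := K.F_mono 0 _ (by linarith)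
  sA' := K.F_stab 0
  sB' := K.F_stab _
  pA := psi_zero K
  pB := psi_half K
  dpsi := K.d_psi
  Depsi := K.De_psi
  smith := K.smith t h0 h

theorem smith_pair {a b : ℝ} (h0 : 0 ≤ a) (hab : a ≤ b) (ha : a ∉ K.Crit) (hb : b ∉ K.Crit) :
    Smith K.psi (K.F a) (K.F b) (K.F (a / 2)) (K.F (b / 2)) :=
  smith_pair_gen K.d_psi K.De_psi (K.F_mono 0 a h0) (K.F_mono a b hab)
    (K.F_mono 0 _ (by linarith)) (K.F_mono _ _ (by linarith)) (psi_zero K) (psi_half K)
    (psi_half K) (K.F_stab a) (K.F_stab _) (K.F_stab b) (K.smith a h0 ha)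
    (K.smith b (h0.trans hab) hb)

/-- Smith package for a pair of non-critical levels -/
theorem ph_pair {a b : ℝ} (h0 : 0 ≤ a) (hab : a ≤ b) (ha : a ∉ K.Crit) (hb : b ∉ K.Crit) :
    PH K.psi (K.F a) (K.F b) (K.F (a / 2)) (K.F (b / 2)) where
  le := K.F_mono a b hab
  sA := K.F_stab a
  sB := K.F_stab b
  le' := K.F_mono _ _ (by linarith)
  sA' := K.F_stab _
  sB' := K.F_stab _
  pA := psi_half K
  pB := psi_half K
  dpsi := K.d_psi
  Depsi := K.De_psi
  smith := smith_pair K h0 hab ha hb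

end Base

end Crest.Agent.R231.AlgPairx978
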