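import Crest.Agent.R231.IfA_978

/-!
# Row 231, block A: calculus of relative dimensions over `F_2`  (helper978)
-/

set_option autoImplicit false

namespace Crest.Agent.R231.AlgRdx978

open Crest.Agent.R231.IfAx978

section f2
variable {V : Type*} [AddCommGroup V] [Module (ZMod 2) V]

theorem add_self2 (x : V) : x + x = 0 := by
  have h : (2 : ZMod 2) • x = 0 := by
    have : (2 : ZMod 2) = 0 := rfl
    rw [this, zero_smul]
  rwa [two_smul] at h

theorem neg2 (x : V) : -x = x := by
  rw [neg_eq_iff_add_eq_zero]; exact add_self2 x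

theorem sub2 (x y : V) : x - y = x + y := by rw [sub_eq_add_neg, neg2]

theorem n2 (x : V) : (2 : ℕ) • x = 0 := by rw [two_nsmul, add_self2]
theorem z2 (x : V) : (2 : ℤ) • x = 0 := by rw [two_zsmul, add_self2]
theorem n4 (x : V) : (4 : ℕ) • x = 0 := by
  rw [show (4 : ℕ) = 2 * 2 from rfl, mul_smul, n2]
theorem z4 (x : V) : (4 : ℤ) • x = 0 := by
  rw [show (4 : ℤ) = 2 * 2 from rfl, mul_smul, z2]
theorem n6 (x : V) : (6 : ℕ) • x = 0 := by
  rw [show (6 : ℕ) = 2 * 3 from rfl, mul_smul, n2]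
theorem z6 (x : V) : (6 : ℤ) • x = 0 := by
  rw [show (6 : ℤ) = 2 * 3 from rfl, mul_smul, z2]

theorem eq2 {x y : V} (h : x + y = 0) : x = y := by
  rw [← sub_eq_zero, sub2]; exact h

end f2

/-- prove additive identities in `F_2`-modules -/
macro "f2" : tactic =>
  `(tactic| (apply eq2; abel_nf; try simp only [n2, z2, n4, z4, n6, z6, add_zero, zero_add]))

example {V : Type*} [AddCommGroup V] [Module (ZMod 2) V] (x y z w : V) :
    x + z + w = (x + y) + (w + (y + z)) := by f2

example {V : Type*} [AddCommGroup V] [Module (ZMod 2) V] (x y z : V) (A : Submodule (ZMod 2) V)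
    (h1 : x + y ∈ A) (h2 : y + z ∈ A) : x + z ∈ A := by
  have e : x + z = (x + y) + (y + z) := by f2
  rw [e]; exact A.add_mem h1 h2

/-- membership in `F_2`-modules: `x ∈ A`, `x + y ∈ A` ⇒ `y ∈ A` -/
theorem mem2 {V : Type*} [AddCommGroup V] [Module (ZMod 2) V] {A : Submodule (ZMod 2) V} {x y : V}
    (h : x + y ∈ A) : x ∈ A ↔ y ∈ A := by
  constructor
  · intro hx
    have e : y = (x + y) + x := by f2
    rw [e]; exact A.add_mem h hx
  · intro hx
    have e : x = (x + y) + y := by f2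
    rw [e]; exact A.add_mem h hx

section rd
variable {V W : Type*} [AddCommGroup V] [Module (ZMod 2) V] [AddCommGroup W] [Module (ZMod 2) W]

theorem mem_so {P Q : Submodule (ZMod 2) V} {x : Q} : x ∈ P.submoduleOf Q ↔ (x : V) ∈ P := Iff.rfl

theorem rd_eq_zero {P Q : Submodule (ZMod 2) V} : rd P Q = 0 ↔ Q ≤ P := by
  unfold rd
  rw [Module.length_eq_zero_iff, Submodule.Quotient.subsingleton_iff,
    Submodule.submoduleOf_eq_top]

theorem rd_of_le {P Q : Submodule (ZMod 2) V} (h : Q ≤ P) : rd P Q = 0 := rd_eq_zero.2 h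

/-- the basic comparison lemma -/
theorem rd_map (f : V →ₗ[ZMod 2] W) {P Q : Submodule (ZMod 2) V} {P' Q' : Submodule (ZMod 2) W}
    (h1 : ∀ x ∈ Q, f x ∈ Q') (h2 : ∀ y ∈ Q', ∃ x ∈ Q, y + f x ∈ P')
    (h3 : ∀ x ∈ Q, f x ∈ P' ↔ x ∈ P) : rd P Q = rd P' Q' := by
  unfold rd
  let g : Q →ₗ[ZMod 2] (Q' ⧸ P'.submoduleOf Q') :=
    (P'.submoduleOf Q').mkQ ∘ₗ (f.restrict h1)
  have hg : Function.Surjective g := by
    intro z
    obtain ⟨⟨y, hy⟩, rfl⟩ := Submodule.mkQ_surjective _ z
    obtain ⟨x, hx, hxy⟩ := h2 y hy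
    refine ⟨⟨x, hx⟩, ?_⟩
    simp only [g, LinearMap.comp_apply, Submodule.mkQ_apply]
    rw [Submodule.Quotient.eq]
    rw [mem_so]
    show f x - y ∈ P'
    rw [sub2, add_comm]; exact hxy
  have hk : LinearMap.ker g = P.submoduleOf Q := by
    ext ⟨x, hx⟩
    rw [LinearMap.mem_ker]
    simp only [g, LinearMap.comp_apply, Submodule.mkQ_apply, Submodule.Quotient.mk_eq_zero]
    rw [mem_so, mem_so]
    exact h3 x hx
  have e := (g.quotKerEquivOfSurjective hg).length_eq
  rw [← e]
  exact (Submodule.quotEquivOfEq _ _ hk).symm.length_eq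

theorem rd_trans {P Q R : Submodule (ZMod 2) V} (h1 : P ≤ Q) (h2 : Q ≤ R) :
    rd P R = rd P Q + rd Q R := by
  unfold rd
  let i : (Q ⧸ P.submoduleOf Q) →ₗ[ZMod 2] (R ⧸ P.submoduleOf R) :=
    Submodule.mapQ _ _ (Submodule.inclusion h2) (by
      rintro ⟨x, hx⟩ hx'
      exact hx')
  let j : (R ⧸ P.submoduleOf R) →ₗ[ZMod 2] (R ⧸ Q.submoduleOf R) :=
    Submodule.mapQ _ _ LinearMap.id (by
      rintro ⟨x, hx⟩ hx'
      exact h1 hx')
  refine Module.length_eq_add_of_exact i j ?_ ?_ ?_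
  · rw [← LinearMap.ker_eq_bot, LinearMap.ker_eq_bot']
    intro z hz
    obtain ⟨⟨y, hy⟩, rfl⟩ := Submodule.mkQ_surjective _ z
    simp only [i, Submodule.mkQ_apply, Submodule.mapQ_apply, Submodule.Quotient.mk_eq_zero,
      mem_so] at hz ⊢
    exact hz
  · intro z
    obtain ⟨y, rfl⟩ := Submodule.mkQ_surjective _ z
    exact ⟨Submodule.Quotient.mk y, rfl⟩
  · intro z
    obtain ⟨⟨y, hy⟩, rfl⟩ := Submodule.mkQ_surjective _ z
    constructor
    · intro h
      simp only [j, Submodule.mkQ_apply, Submodule.mapQ_apply, Submodule.Quotient.mk_eq_zero,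
        mem_so] at h
      exact ⟨Submodule.Quotient.mk ⟨y, h⟩, rfl⟩
    · rintro ⟨w, hw⟩
      obtain ⟨⟨w, hw'⟩, rfl⟩ := Submodule.mkQ_surjective _ w
      rw [← hw]
      simp only [i, j, Submodule.mkQ_apply, Submodule.mapQ_apply, Submodule.Quotient.mk_eq_zero,
        mem_so]
      exact hw'

/-- only the intersection with `Q` matters -/
theorem rd_inf (P Q : Submodule (ZMod 2) V) : rd (P ⊓ Q) Q = rd P Q :=
  rd_map (LinearMap.id : V →ₗ[ZMod 2] V) (fun x hx => hx) (fun y hy => ⟨y, hy, by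
      rw [LinearMap.id_apply, add_self2]; exact Submodule.zero_mem _⟩)
    (fun x hx => by
      rw [LinearMap.id_apply]; exact ⟨fun h => ⟨h, hx⟩, fun h => h.1⟩)

/-- second isomorphism theorem -/
theorem rd_sup (P Q : Submodule (ZMod 2) V) : rd P (P ⊔ Q) = rd P Q := by
  symm
  refine rd_map (LinearMap.id : V →ₗ[ZMod 2] V) (fun x hx => Submodule.mem_sup_right hx) ?_
    (fun x hx => Iff.rfl)
  intro y hy
  obtain ⟨p, hp, q, hq, rfl⟩ := Submodule.mem_sup.1 hy
  refine ⟨q, hq, ?_⟩
  have e : p + q + q = p := by f2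
  show p + q + q ∈ P
  rw [e]; exact hp

theorem rd_sup' {P P' Q : Submodule (ZMod 2) V} (h : P ≤ Q) :
    rd (P ⊔ P') (Q ⊔ P') = rd (P ⊔ (Q ⊓ P')) Q := by
  symm
  refine rd_map (LinearMap.id : V →ₗ[ZMod 2] V) (fun x hx => Submodule.mem_sup_left hx) ?_ ?_
  · intro y hy
    obtain ⟨q, hq, p, hp, rfl⟩ := Submodule.mem_sup.1 hy
    refine ⟨q, hq, ?_⟩
    have e : q + p + q = p := by f2
    show q + p + q ∈ P ⊔ P'
    rw [e]; exact Submodule.mem_sup_right hp
  · intro x hx
    simp only [LinearMap.id_apply]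
    constructor
    · intro hx'
      obtain ⟨p, hp, p', hp', rfl⟩ := Submodule.mem_sup.1 hx'
      refine Submodule.mem_sup.2 ⟨p, hp, p', ⟨?_, hp'⟩, rfl⟩
      have e : p' = (p + p') + p := by f2
      rw [e]; exact Q.add_mem hx (h hp)
    · intro hx'
      exact (sup_le_sup (le_refl P) (inf_le_right : Q ⊓ P' ≤ P')) hx'

theorem rd_mono {P Q R : Submodule (ZMod 2) V} (h : Q ≤ R) : rd P Q ≤ rd P R := by
  unfold rd
  refine Module.length_le_of_injective (Submodule.mapQ _ _ (Submodule.inclusion h) ?_) ?_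
  · rintro ⟨x, hx⟩ hx'
    exact hx'
  · rw [← LinearMap.ker_eq_bot, LinearMap.ker_eq_bot']
    intro z hz
    obtain ⟨⟨y, hy⟩, rfl⟩ := Submodule.mkQ_surjective _ z
    simp only [Submodule.mkQ_apply, Submodule.mapQ_apply, Submodule.Quotient.mk_eq_zero,
      mem_so] at hz ⊢
    exact hz

theorem rd_anti {P P' Q : Submodule (ZMod 2) V} (h : P ≤ P') : rd P' Q ≤ rd P Q := by
  unfold rd
  refine Module.length_le_of_surjective (Submodule.mapQ _ _ LinearMap.id ?_) ?_
  · rintro ⟨x, hx⟩ hx'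
    exact h hx'
  · intro z
    obtain ⟨y, rfl⟩ := Submodule.mkQ_surjective _ z
    exact ⟨Submodule.Quotient.mk y, rfl⟩

theorem rd_self (P : Submodule (ZMod 2) V) : rd P P = 0 := rd_of_le le_rfl

/-- telescoping along a decreasing sequence -/
theorem rd_tele (W : ℕ → Submodule (ZMod 2) V) (hW : ∀ m, W (m + 1) ≤ W m) (M : ℕ) :
    rd (W M) (W 0) = ∑ m ∈ Finset.range M, rd (W (m + 1)) (W m) := by
  induction M with
  | zero => simp [rd_self]
  | succ M ih =>
    have h0 : ∀ k, W k ≤ W 0 := by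
      intro k
      induction k with
      | zero => exact le_rfl
      | succ k ih => exact (hW k).trans ih
    rw [Finset.sum_range_succ, ← ih, rd_trans (hW M) (h0 M), add_comm]

end rd

section pi
variable {C : ℕ → Type*} [∀ j, AddCommGroup (C j)] [∀ j, Module (ZMod 2) (C j)]

/-- the product of a family of submodules -/
def Pi (P : ∀ j, Submodule (ZMod 2) (C j)) : Submodule (ZMod 2) (∀ j, C j) :=
  Submodule.pi Set.univ P

theorem mem_Pi {P : ∀ j, Submodule (ZMod 2) (C j)} {v : ∀ j, C j} : v ∈ Pi P ↔ ∀ j, v j ∈ P j := by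
  simp [Pi, Submodule.mem_pi]

theorem rd_Pi {P Q : ∀ j, Submodule (ZMod 2) (C j)} (h : ∀ j, P j ≤ Q j) (M : ℕ)
    (hM : ∀ j, M ≤ j → Q j ≤ P j) : rd (Pi P) (Pi Q) = ∑ j ∈ Finset.range M, rd (P j) (Q j) := by
  let W : ℕ → Submodule (ZMod 2) (∀ j, C j) := fun k => Pi (fun j => if j < k then P j else Q j)
  have hW : ∀ m, W (m + 1) ≤ W m := by
    intro m v hv
    rw [mem_Pi] at hv ⊢
    intro j
    have := hv j
    by_cases h1 : j < m
    · rw [if_pos (by omega)] at this; rw [if_pos h1]; exact this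
    · rw [if_neg h1]
      by_cases h2 : j < m + 1
      · rw [if_pos h2] at this; exact h j this
      · rw [if_neg h2] at this; exact this
  have h0 : W 0 = Pi Q := by
    ext v
    rw [mem_Pi, mem_Pi]
    simp
  have hMM : W M = Pi P := by
    ext v
    rw [mem_Pi, mem_Pi]
    constructor
    · intro hv j
      have := hv j
      by_cases h1 : j < M
      · rwa [if_pos h1] at this
      · rw [if_neg h1] at this
        exact hM j (by omega) this
    · intro hv j
      by_cases h1 : j < M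
      · rw [if_pos h1]; exact hv j
      · rw [if_neg h1]; exact h j (hv j)
  rw [← h0, ← hMM, rd_tele W hW M]
  refine Finset.sum_congr rfl fun m _ => ?_
  refine rd_map (LinearMap.proj m) ?_ ?_ ?_
  · intro v hv
    have := mem_Pi.1 hv m
    rw [if_neg (lt_irrefl m)] at this
    exact this
  · intro y hy
    refine ⟨Pi.single m y, ?_, ?_⟩
    · rw [mem_Pi]
      intro j
      by_cases hj : j = m
      · subst hj
        rw [if_neg (lt_irrefl j), Pi.single_eq_same]; exact hy
      · rw [Pi.single_eq_of_ne hj]; exact Submodule.zero_mem _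
    · simp only [LinearMap.proj_apply, Pi.single_eq_same, add_self2]
      exact Submodule.zero_mem _
  · intro v hv
    constructor
    · intro hv'
      rw [mem_Pi] at hv ⊢
      intro j
      have := hv j
      by_cases hj : j = m
      · subst hj
        rw [if_pos (Nat.lt_succ_self j)]; exact hv'
      · by_cases h1 : j < m
        · rw [if_pos h1] at this; rw [if_pos (by omega)]; exact this
        · rw [if_neg h1] at this; rw [if_neg (by omega)]; exact this
    · intro hv'
      have := mem_Pi.1 hv' m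
      rw [if_pos (Nat.lt_succ_self m)] at this
      exact this

end pi

end Crest.Agent.R231.AlgRdx978
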