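import Crest.Agent.R231.AlgDef_978

/-!
# Row 231, block A: literal output of the induction (4) (helper796)
-/

set_option autoImplicit false

namespace Crest.Agent.R231.AlgSplitDefx796

open Crest.Agent.R231.IfAx978 Crest.Agent.R231.AlgDefx978

/-- the situation around one critical value `s`: `a < s < b`, `s` the only critical value of `[a,b]` -/
structure Around (K : Core) (T ε0 s a b : ℝ) : Prop where
  crit : s ∈ K.Crit
  le_T : s ≤ T
  a0 : 0 ≤ a
  as : a < s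
  sb : s < b
  small : b - a < ε0
  na : a ∉ K.Crit
  nb : b ∉ K.Crit
  only : ∀ s' ∈ K.Crit, a ≤ s' → s' ≤ b → s' = s

/-- the elementary part of (A4) for one pair -/
structure Four (K : Core) (P : Bool → ℝ → ℝ → ℝ → GS K.X) (s a b : ℝ) : Prop where
  bd_le : ∀ ε j, Bd (K.F a) (K.F b) j ≤ P ε s a b j
  le_zc : ∀ ε j, P ε s a b j ≤ Zc (K.F a) (K.F b) j
  cover : ∀ j, Zc (K.F a) (K.F b) j ≤ P true s a b j ⊔ P false s a b j
  disj : ∀ j, P true s a b j ⊓ P false s a b j ≤ Bd (K.F a) (K.F b) j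
  tau : ∀ ε j x, x ∈ P ε s a b j → K.tau j x ∈ P (!ε) s a b j

/-- LITERAL OUTPUT OF (4): splitting of the births in the region. -/
def SplitOut (K : Core) (α β : ℝ) : Prop :=
  ∀ T : ℝ, ∃ P : Bool → ℝ → ℝ → ℝ → GS K.X, ∃ ε0 : ℝ, 0 < ε0 ∧
    ∀ (r : ℕ) (s a b : ℝ), Around K T ε0 s a b → 2 ^ (r + 1) * α ≤ a → b ≤ 2 ^ (r + 1) * β →
      Four K P s a b ∧
      (∀ j, j % 2 ≠ K.σ % 2 → Spl (P true s a b) (P false s a b) (Core.Rr K a b) j) ∧
      (∀ j, j % 2 = K.σ % 2 → Spl (P true s a b) (P false s a b) (Core.R0 K a b) j)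

end Crest.Agent.R231.AlgSplitDefx796
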