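import Crest.Agent.R231.AlgSplitDef_796

/-!
# Row 231, block A: leading terms of split families are split; induction on the valuation (helper796)
-/

set_option autoImplicit false

namespace Crest.Agent.R231.AlgSplitx796

open Crest.Agent.R231.IfAx978 Crest.Agent.R231.AlgDefx978 Crest.Agent.R231.AlgSplitDefx796

variable {X : Mix}

/-! ### char 2 and `DD` -/

theorem add_self' {V : Type*} [AddCommGroup V] [Module (ZMod 2) V] (x : V) : x + x = 0 := by
  have h : (2 : ZMod 2) • x = x + x := two_smul _ x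
  rw [← h, show (2 : ZMod 2) = 0 from rfl, zero_smul]

theorem DD_DD (c : ∀ j, X.C j) (j : ℕ) : DD (DD c) j = 0 := by
  rcases j with _ | _ | j
  · rw [DD_zero', DD_succ', map_add, X.dd, X.dDe0, add_zero]
  · rw [DD_succ', DD_succ', DD_zero', map_add, X.dd]
    have h2 : X.d (0 + 1) (X.De 1 (c 1)) = X.De 0 (X.d 0 (c 1)) := X.dDe 0 (c 1)
    rw [h2]
    exact (congrArg (· + X.De 0 (X.d 0 (c 1))) (zero_add _)).trans (add_self' _)
  · rw [DD_succ', DD_succ', DD_succ', map_add, map_add, X.dd, zero_add, X.DeDe, add_zero, X.dDe]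
    exact add_self' _

/-- the family with the only entry `w` in degree `m` -/
def single (m : ℕ) (w : X.C m) : ∀ j, X.C j := fun j => if h : m = j then h ▸ w else 0

@[simp] theorem single_same (m : ℕ) (w : X.C m) : single m w m = w := by simp [single]

theorem single_ne {m j : ℕ} (w : X.C m) (h : m ≠ j) : single m w j = 0 := by simp [single, h]

theorem single_mem {B : GS X} {m : ℕ} {w : X.C m} (hw : w ∈ B m) (j : ℕ) : single m w j ∈ B j := by
  by_cases h : m = j
  · subst h; simpa using hw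
  · rw [single_ne w h]; exact (B j).zero_mem

theorem DD_single_same (m : ℕ) (w : X.C (m + 1)) : DD (single (m + 1) w) m = X.d m w := by
  cases m with
  | zero => rw [DD_zero', single_same]
  | succ i => rw [DD_succ', single_same, single_ne w (by omega), map_zero, add_zero]

theorem DD_single_lt (m : ℕ) (w : X.C (m + 1)) (i : ℕ) (h : i < m) :
    DD (single (m + 1) w) i = 0 := by
  cases i with
  | zero => rw [DD_zero', single_ne w (by omega), map_zero]
  | succ i => rw [DD_succ', single_ne w (by omega), single_ne w (by omega), map_zero, map_zero,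
      add_zero]

/-! ### relative cycles and boundaries -/

theorem mem_Zc_succ {A B : GS X} {j : ℕ} {x : X.C (j + 1)} :
    x ∈ Zc A B (j + 1) ↔ x ∈ B (j + 1) ∧ X.d j x ∈ A j := Iff.rfl

theorem Zc_le {A B : GS X} (j : ℕ) : Zc A B j ≤ B j := by
  cases j with
  | zero => exact le_refl _
  | succ j => exact inf_le_left

theorem A_le_Bd {A B : GS X} (j : ℕ) : A j ≤ Bd A B j := le_sup_right

theorem mem_Bd {A B : GS X} {j : ℕ} {x : X.C j} :
    x ∈ Bd A B j ↔ ∃ w ∈ B (j + 1), ∃ a ∈ A j, X.d j w + a = x := by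
  unfold Bd
  rw [Submodule.mem_sup]
  constructor
  · rintro ⟨y, hy, a, ha, rfl⟩
    obtain ⟨w, hw, rfl⟩ := Submodule.mem_map.1 hy
    exact ⟨w, hw, a, ha, rfl⟩
  · rintro ⟨w, hw, a, ha, rfl⟩
    exact ⟨_, Submodule.mem_map_of_mem hw, a, ha, rfl⟩

/-- leading terms are relative cycles -/
theorem LT_le_Zc {psi : ∀ j, X.C j →ₗ[ZMod 2] X.C j}
    (hdpsi : ∀ j x, X.d j (psi (j + 1) x) = psi j (X.d j x))
    (hDepsi : ∀ j x, X.De j (psi j x) = 0)
    {A B A' B' S : GS X} (hA : Stab A) (hA' : ∀ j x, x ∈ A' j → psi j x ∈ A j)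
    (hS : ∀ j, S j ≤ Zc A' B' j) (m : ℕ) : LT psi A B S m ≤ Zc A B m := by
  intro x hx
  obtain ⟨hxB, y, c, hy, hc, h3, h4⟩ := mem_LT.1 hx
  cases m with
  | zero => exact hxB
  | succ m =>
    refine mem_Zc_succ.2 ⟨hxB, ?_⟩
    have h5 := hA.d m _ h4
    rw [map_add, map_add, hdpsi] at h5
    have h6 : psi m (X.d m (y (m + 1))) ∈ A m := hA' m _ (mem_Zc_succ.1 (hS _ (hy (m + 1)))).2
    have h7 : X.d m (DD c (m + 1)) ∈ A m := by
      have h8 := DD_DD c m
      cases m with
      | zero =>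
        rw [DD_zero'] at h8; rw [h8]; exact (A 0).zero_mem
      | succ i =>
        rw [DD_succ'] at h8
        have h9 := hA.De i _ (h3 i (by omega))
        rw [map_add, hDepsi, zero_add] at h9
        have h10 : X.d (i + 1) (DD c (i + 1 + 1)) = - X.De i (DD c i) := by
          exact eq_neg_of_add_eq_zero_left h8
        rw [h10]
        exact (A _).neg_mem h9
    have h8 : X.d m x = (psi m (X.d m (y (m + 1))) + X.d m (DD c (m + 1)) + X.d m x)
        - (psi m (X.d m (y (m + 1))) + X.d m (DD c (m + 1))) := by abel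
    rw [h8]
    exact (A m).sub_mem h5 ((A m).add_mem h6 h7)

/-- from a `Lead` relation to membership in `LT` -/
theorem mem_LT_of_Lead {psi : ∀ j, X.C j →ₗ[ZMod 2] X.C j} {A B S : GS X}
    {m : ℕ} {x : X.C m} {y : ∀ j, X.C j} (hx : x ∈ B m) (hy : ∀ j, y j ∈ S j)
    (h : Lead psi A B y m x) : x ∈ LT psi A B S m := by
  obtain ⟨c, hc, h3, h4⟩ := h
  obtain ⟨w, hw, a, ha, e⟩ := mem_Bd.1 h4
  refine mem_LT.2 ⟨hx, y, c + single (m + 1) w, hy,
    fun j => (B j).add_mem (hc j) (single_mem hw j), fun j hj => ?_, ?_⟩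
  · rw [map_add, Pi.add_apply, DD_single_lt m w j hj, add_zero]; exact h3 j hj
  · rw [map_add, Pi.add_apply, DD_single_same]
    have e2 : psi m (y m) + (DD c m + X.d m w) + x = psi m (y m) + DD c m + x + X.d m w := by abel
    rw [e2, ← e]
    have e3 : X.d m w + a + X.d m w = a := by
      have := add_self' (X.d m w)
      calc X.d m w + a + X.d m w = (X.d m w + X.d m w) + a := by abel
        _ = a := by rw [this, zero_add]
    rw [e3]; exact ha

/-- LEADING TERMS OF A SPLIT FAMILY ARE SPLIT. -/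
theorem LT_split {psi : ∀ j, X.C j →ₗ[ZMod 2] X.C j}
    (hdpsi : ∀ j x, X.d j (psi (j + 1) x) = psi j (X.d j x))
    (hDepsi : ∀ j x, X.De j (psi j x) = 0)
    {A B A' B' S Pp Pm Pp' Pm' : GS X} (hA : Stab A) (hA' : ∀ j x, x ∈ A' j → psi j x ∈ A j)
    (hS : ∀ j, S j ≤ Zc A' B' j)
    (hPp : ∀ j, Pp j ≤ Zc A B j)
    (hcover : ∀ j, Zc A B j ≤ Pp j ⊔ Pm j)
    (hlead : ∀ yp ym : (∀ i, X.C i), (∀ i, yp i ∈ Pp' i) → (∀ i, ym i ∈ Pm' i) →
      ∀ j, ∀ xp ∈ Pp j, ∀ xm ∈ Pm j,
        Lead psi A B (yp + ym) j (xp + xm) → Lead psi A B yp j xp)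
    (hSs : ∀ j, Spl Pp' Pm' S j) (m : ℕ) : Spl Pp Pm (LT psi A B S) m := by
  intro x hx
  have hxZ := LT_le_Zc hdpsi hDepsi hA hA' hS m hx
  obtain ⟨xp, hxp, xm, hxm, rfl⟩ := Submodule.mem_sup.1 (hcover m hxZ)
  obtain ⟨hxB, y, c, hy, hc, h3, h4⟩ := mem_LT.1 hx
  have hsp : ∀ j, ∃ yp ym : X.C j, yp ∈ Pp' j ∧ yp ∈ S j ∧ ym ∈ Pm' j ∧ ym ∈ S j ∧
    y j = yp + ym := fun j => hSs j _ (hy j)
  choose yp ym h5 h6 h7 h8 h9 using hsp
  have hy' : y = yp + ym := funext h9
  have hL : Lead psi A B (yp + ym) m (xp + xm) := by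
    rw [← hy']
    exact ⟨c, hc, h3, A_le_Bd m h4⟩
  have hLp := hlead yp ym h5 h7 m xp hxp xm hxm hL
  have hxp' : xp ∈ LT psi A B S m := mem_LT_of_Lead (Zc_le m (hPp m hxp)) h6 hLp
  refine ⟨xp, xm, hxp, hxp', hxm, ?_, rfl⟩
  have e : xm = (xp + xm) - xp := by abel
  rw [e]
  exact (LT psi A B S m).sub_mem hx hxp'

/-- if the half level pair is acyclic, every Tate class coming from it is trivial -/
theorem LT_of_acyclic {psi : ∀ j, X.C j →ₗ[ZMod 2] X.C j}
    (hdpsi : ∀ j x, X.d j (psi (j + 1) x) = psi j (X.d j x))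
    (hDepsi : ∀ j x, X.De j (psi j x) = 0)
    {A B A' B' S : GS X} (hA' : ∀ j x, x ∈ A' j → psi j x ∈ A j)
    (hB' : ∀ j x, x ∈ B' j → psi j x ∈ B j)
    (hS : ∀ j, S j ≤ Bd A' B' j) (m : ℕ) :
    LT psi A B S m ≤ LT psi A B (fun _ => ⊥) m := by
  intro x hx
  obtain ⟨hxB, y, c, hy, hc, h3, h4⟩ := mem_LT.1 hx
  have h5 : ∀ j, ∃ w ∈ B' (j + 1), ∃ a ∈ A' j, X.d j w + a = y j := fun j => mem_Bd.1 (hS j (hy j))
  choose w hw a ha e using h5
  -- the family `psi w`, shifted by one degree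
  let z : ∀ j, X.C j := fun j => Nat.casesOn (motive := fun j => X.C j) j 0
    (fun i => psi (i + 1) (w i))
  have hz : ∀ j, z j ∈ B j := by
    intro j
    cases j with
    | zero => exact (B 0).zero_mem
    | succ j => exact hB' _ _ (hw j)
  have hDDz : ∀ j, DD z j = psi j (X.d j (w j)) := by
    intro j
    cases j with
    | zero => rw [DD_zero']; exact hdpsi 0 (w 0)
    | succ j =>
      rw [DD_succ']
      have e1 : X.De j (z j) = 0 := by
        cases j with
        | zero => exact map_zero _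
        | succ j => exact hDepsi _ _
      rw [e1, add_zero]
      exact hdpsi (j + 1) (w (j + 1))
  have key : ∀ j, psi j (y j) = DD z j + psi j (a j) := by
    intro j; rw [hDDz, ← map_add, e]
  refine mem_LT.2 ⟨hxB, 0, z + c, fun j => by simp, fun j => (B j).add_mem (hz j) (hc j),
    fun j hj => ?_, ?_⟩
  · have h6 := h3 j hj
    rw [key] at h6
    have e1 : psi j ((0 : ∀ j, X.C j) j) + DD (z + c) j
        = DD z j + psi j (a j) + DD c j - psi j (a j) := by
      rw [map_add, Pi.add_apply, Pi.zero_apply, map_zero]; abel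
    rw [e1]
    exact (A j).sub_mem h6 (hA' j _ (ha j))
  · have h6 := h4
    rw [key] at h6
    have e1 : psi m ((0 : ∀ j, X.C j) m) + DD (z + c) m + x
        = DD z m + psi m (a m) + DD c m + x - psi m (a m) := by
      rw [map_add, Pi.add_apply, Pi.zero_apply, map_zero]; abel
    rw [e1]
    exact (A m).sub_mem h6 (hA' m _ (ha m))

theorem LT_mono {psi : ∀ j, X.C j →ₗ[ZMod 2] X.C j} {A B S S' : GS X}
    (h : ∀ j, S j ≤ S' j) (m : ℕ) : LT psi A B S m ≤ LT psi A B S' m := by
  intro x hx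
  obtain ⟨hxB, y, c, hy, hc, h3, h4⟩ := mem_LT.1 hx
  exact mem_LT.2 ⟨hxB, y, c, fun j => h j (hy j), hc, h3, h4⟩

/-! ### births -/

section births

variable (K : Core)

theorem Rr_le_Zc {a b : ℝ} (h0 : 0 ≤ a) (hab : a ≤ b) (j : ℕ) :
    Core.Rr K a b j ≤ Zc (K.F a) (K.F b) j := by
  refine sup_le ?_ ?_
  · intro x hx
    cases j with
    | zero => exact hx
    | succ j => exact mem_Zc_succ.2 ⟨hx.1, K.F_mono 0 a h0 j hx.2⟩
  · intro x hx
    cases j with
    | zero => exact K.F_mono a b hab 0 hx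
    | succ j => exact mem_Zc_succ.2 ⟨K.F_mono a b hab _ hx, (K.F_stab a).d _ _ hx⟩

theorem R0_le_Zc {a b : ℝ} (h0 : 0 ≤ a) (hab : a ≤ b) (j : ℕ) :
    Core.R0 K a b j ≤ Zc (K.F a) (K.F b) j := by
  refine sup_le ?_ ?_
  · rintro x ⟨hxb, hx⟩
    cases j with
    | zero => exact hxb
    | succ j =>
      refine mem_Zc_succ.2 ⟨hxb, ?_⟩
      obtain ⟨w, -, f, hf, rfl⟩ := mem_Bd.1 hx
      rw [map_add, K.X.dd, zero_add]
      exact K.F_mono 0 a h0 j ((K.F_stab 0).d _ _ hf)
  · intro x hx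
    cases j with
    | zero => exact K.F_mono a b hab 0 hx
    | succ j => exact mem_Zc_succ.2 ⟨K.F_mono a b hab _ hx, (K.F_stab a).d _ _ hx⟩

theorem Bd_le_Zc {A B : GS X} (hA : Stab A) (hB : Stab B) (hAB : ∀ j, A j ≤ B j) (j : ℕ) :
    Bd A B j ≤ Zc A B j := by
  intro x hx
  obtain ⟨w, hw, f, hf, rfl⟩ := mem_Bd.1 hx
  cases j with
  | zero => exact (B 0).add_mem (hB.d _ _ hw) (hAB 0 hf)
  | succ j =>
    refine mem_Zc_succ.2 ⟨(B _).add_mem (hB.d _ _ hw) (hAB _ hf), ?_⟩
    rw [map_add, X.dd, zero_add]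
    exact hA.d _ _ hf

theorem SR_le_Zc {a b : ℝ} (h0 : 0 ≤ a) (hab : a ≤ b) (j : ℕ) :
    Core.SR K a b j ≤ Zc (K.F a) (K.F b) j := by
  unfold Core.SR
  split_ifs
  · exact Bd_le_Zc (K.F_stab a) (K.F_stab b) (K.F_mono a b hab) j
  · exact Rr_le_Zc K h0 hab j

theorem S0_le_Zc {a b : ℝ} (h0 : 0 ≤ a) (hab : a ≤ b) (j : ℕ) :
    Core.S0 K a b j ≤ Zc (K.F a) (K.F b) j := by
  unfold Core.S0
  split_ifs
  · exact R0_le_Zc K h0 hab j
  · exact Bd_le_Zc (K.F_stab a) (K.F_stab b) (K.F_mono a b hab) j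

end births

theorem Spl_congr {Pp Pm S S' : GS X} {j : ℕ} (h : S j = S' j) (hs : Spl Pp Pm S' j) :
    Spl Pp Pm S j := by
  intro y hy
  rw [h] at hy
  obtain ⟨yp, ym, h1, h2, h3, h4, h5⟩ := hs y hy
  exact ⟨yp, ym, h1, h ▸ h2, h3, h ▸ h4, h5⟩

/-- a family which consists of boundaries is split -/
theorem Spl_of_le {Pp Pm S : GS X} {j : ℕ} (h : S j ≤ Pp j) : Spl Pp Pm S j := by
  intro y hy
  exact ⟨y, 0, h hy, hy, (Pm j).zero_mem, (S j).zero_mem, (add_zero y).symm⟩

/-- THE INDUCTION (4). -/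
theorem splitOut (K : Core) {α β : ℝ} (hF : Core.Forcing K α β) : SplitOut K α β := by
  obtain ⟨hα, hαβ, hJ, hforce⟩ := hF
  intro T
  obtain ⟨P, ε0, hε0, hA4⟩ := K.A4 T
  refine ⟨P, ε0, hε0, ?_⟩
  -- the data of (A4) for one pair
  have data : ∀ s a b, Around K T ε0 s a b →
      Four K P s a b ∧
      (∀ yp ym : (∀ i, K.X.C i), (∀ i, yp i ∈ P true (s / 2) (a / 2) (b / 2) i) →
        (∀ i, ym i ∈ P false (s / 2) (a / 2) (b / 2) i) →
        ∀ j, ∀ xp ∈ P true s a b j, ∀ xm ∈ P false s a b j,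
        Lead K.psi (K.F a) (K.F b) (yp + ym) j (xp + xm) → Lead K.psi (K.F a) (K.F b) yp j xp) := by
    intro s a b h
    obtain ⟨h1, h2, h3, h4, h5⟩ := hA4 s h.crit h.le_T a b h.a0 h.as h.sb h.small h.na h.nb h.only
    exact ⟨⟨fun ε j => (h1 ε j).1, fun ε j => (h1 ε j).2, h2, h3, h4⟩, h5⟩
  -- splitting of the leading terms from a split family at half level, both cases
  have main : ∀ s a b, Around K T ε0 s a b → ∀ S : GS K.X,
      (∀ j, S j ≤ Zc (K.F (a / 2)) (K.F (b / 2)) j) →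
      (s / 2 ∈ K.Crit → ∀ j, Spl (P true (s / 2) (a / 2) (b / 2)) (P false (s / 2) (a / 2) (b / 2)) S j) →
      ∀ m, Spl (P true s a b) (P false s a b) (LT K.psi (K.F a) (K.F b) S) m := by
    intro s a b h S hS hsp m
    obtain ⟨h4, h5⟩ := data s a b h
    have hA' : ∀ j x, x ∈ K.F (a / 2) j → K.psi j x ∈ K.F a j := by
      intro j x hx
      have := K.F_psi (a / 2) j x hx
      rwa [show 2 * (a / 2) = a by ring] at this
    have hB' : ∀ j x, x ∈ K.F (b / 2) j → K.psi j x ∈ K.F b j := by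
      intro j x hx
      have := K.F_psi (b / 2) j x hx
      rwa [show 2 * (b / 2) = b by ring] at this
    by_cases hs : s / 2 ∈ K.Crit
    · exact LT_split K.d_psi K.De_psi (K.F_stab a) hA' hS (h4.le_zc true) h4.cover h5 (hsp hs) m
    · -- the half level pair is acyclic
      have hnc : ∀ s' ∈ K.Crit, ¬ (a / 2 ≤ s' ∧ s' ≤ b / 2) := by
        rintro s' hs' ⟨h6, h7⟩
        have h8 := h.only _ (K.Crit_two s' hs') (by linarith) (by linarith)
        apply hs
        rw [← h8, show 2 * s' / 2 = s' by ring]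
        exact hs'
      have hab : a ≤ b := (h.as.trans h.sb).le
      have hac := K.noncrit (a / 2) (b / 2) (by have := h.a0; linarith) (by linarith) hnc
      have hle : ∀ j, S j ≤ Bd (K.F (a / 2)) (K.F (b / 2)) j := fun j => (hS j).trans (hac j)
      have h6 : ∀ m, LT K.psi (K.F a) (K.F b) S m
          = LT K.psi (K.F a) (K.F b) (fun _ => ⊥) m := fun m => le_antisymm
        (LT_of_acyclic K.d_psi K.De_psi hA' hB' hle m) (LT_mono (fun _ => bot_le) m)
      refine Spl_congr (h6 m) ?_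
      have hlead0 : ∀ yp ym : (∀ i, K.X.C i), (∀ i, yp i ∈ (⊥ : Submodule (ZMod 2) (K.X.C i))) →
          (∀ i, ym i ∈ (⊥ : Submodule (ZMod 2) (K.X.C i))) →
          ∀ j, ∀ xp ∈ P true s a b j, ∀ xm ∈ P false s a b j,
          Lead K.psi (K.F a) (K.F b) (yp + ym) j (xp + xm) →
          Lead K.psi (K.F a) (K.F b) yp j xp := by
        intro yp ym hyp hym
        apply h5 yp ym
        · intro i; rw [(Submodule.mem_bot _).1 (hyp i)]; exact Submodule.zero_mem _
        · intro i; rw [(Submodule.mem_bot _).1 (hym i)]; exact Submodule.zero_mem _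
      exact LT_split (B' := K.F (b / 2)) (Pp' := fun _ => ⊥) (Pm' := fun _ => ⊥) K.d_psi K.De_psi (K.F_stab a) hA'
        (S := fun _ => ⊥) (fun _ => bot_le) (h4.le_zc true) h4.cover hlead0
        (fun j => Spl_of_le (le_refl _)) m
  -- the induction on `r`
  intro r
  induction r with
  | zero =>
    intro s a b h ha hb
    refine ⟨(data s a b h).1, ?_⟩
    have hs2 : s / 2 ∉ K.Crit := by
      intro hs
      have h1 := h.as; have h2 := h.sb
      refine hJ _ hs ⟨?_, ?_⟩
      · norm_num at ha; linarith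
      · norm_num at hb; linarith
    have hab : a < b := h.as.trans h.sb
    have h0 : 0 ≤ a / 2 := by have := h.a0; linarith
    have hf := hforce 0 a b h.na h.nb ha hab hb
    refine ⟨fun j hj => ?_, fun j hj => ?_⟩
    · refine Spl_congr (hf.1 j hj) (main s a b h _ (SR_le_Zc K h0 (by linarith)) ?_ j)
      intro hs; exact absurd hs hs2
    · refine Spl_congr (hf.2 j hj) (main s a b h _ (S0_le_Zc K h0 (by linarith)) ?_ j)
      intro hs; exact absurd hs hs2
  | succ r ih =>
    intro s a b h ha hb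
    refine ⟨(data s a b h).1, ?_⟩
    have hab : a < b := h.as.trans h.sb
    have h0 : 0 ≤ a / 2 := by have := h.a0; linarith
    have hf := hforce (r + 1) a b h.na h.nb ha hab hb
    -- the half level situation
    have half : s / 2 ∈ K.Crit → Around K T ε0 (s / 2) (a / 2) (b / 2) := by
      intro hs
      have hs0 := K.Crit_pos _ h.crit
      refine ⟨hs, by have := h.le_T; linarith, h0, by have := h.as; linarith,
        by have := h.sb; linarith, by have := h.small; linarith, ?_, ?_, ?_⟩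
      · intro hc
        have := K.Crit_two _ hc
        rw [show 2 * (a / 2) = a by ring] at this
        exact h.na this
      · intro hc
        have := K.Crit_two _ hc
        rw [show 2 * (b / 2) = b by ring] at this
        exact h.nb this
      · intro s' hs' h6 h7
        have h8 := h.only _ (K.Crit_two s' hs') (by linarith) (by linarith)
        linarith
    have hal : 2 ^ (r + 1) * α ≤ a / 2 := by
      have : (2 : ℝ) ^ (r + 1 + 1) * α = 2 * (2 ^ (r + 1) * α) := by ring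
      rw [this] at ha; linarith
    have hbl : b / 2 ≤ 2 ^ (r + 1) * β := by
      have : (2 : ℝ) ^ (r + 1 + 1) * β = 2 * (2 ^ (r + 1) * β) := by ring
      rw [this] at hb; linarith
    refine ⟨fun j hj => ?_, fun j hj => ?_⟩
    · refine Spl_congr (hf.1 j hj) (main s a b h _ (SR_le_Zc K h0 (by linarith)) ?_ j)
      intro hs i
      obtain ⟨g4, g1, g2⟩ := ih (s / 2) (a / 2) (b / 2) (half hs) hal hbl
      by_cases hi : i % 2 = K.σ % 2
      · have e : Core.SR K (a / 2) (b / 2) i = Bd (K.F (a / 2)) (K.F (b / 2)) i := by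
          unfold Core.SR; rw [if_pos hi]
        exact Spl_of_le (e.le.trans (g4.bd_le true i))
      · have e : Core.SR K (a / 2) (b / 2) i = Core.Rr K (a / 2) (b / 2) i := by
          unfold Core.SR; rw [if_neg hi]
        exact Spl_congr e (g1 i hi)
    · refine Spl_congr (hf.2 j hj) (main s a b h _ (S0_le_Zc K h0 (by linarith)) ?_ j)
      intro hs i
      obtain ⟨g4, g1, g2⟩ := ih (s / 2) (a / 2) (b / 2) (half hs) hal hbl
      by_cases hi : i % 2 = K.σ % 2
      · have e : Core.S0 K (a / 2) (b / 2) i = Core.R0 K (a / 2) (b / 2) i := by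
          unfold Core.S0; rw [if_pos hi]
        exact Spl_congr e (g2 i hi)
      · have e : Core.S0 K (a / 2) (b / 2) i = Bd (K.F (a / 2)) (K.F (b / 2)) i := by
          unfold Core.S0; rw [if_neg hi]
        exact Spl_of_le (e.le.trans (g4.bd_le true i))

end Crest.Agent.R231.AlgSplitx796
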