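import Crest.Agent.R231.AlgRd_978
import Crest.Agent.R231.AlgDef_978

/-!
# Row 231, block A: completeness of the Tate complex, counting of leading terms  (helper978)
-/

set_option autoImplicit false

namespace Crest.Agent.R231.AlgTatex978

open Crest.Agent.R231.IfAx978 Crest.Agent.R231.AlgRdx978 Crest.Agent.R231.AlgDefx978

variable {X : Mix}

theorem DD_DD (c : ∀ j, X.C j) (j : ℕ) : DD (DD c) j = 0 := by
  rcases j with _ | _ | i
  · simp [X.dd, X.dDe0]
  · simp only [DD_succ', DD_zero', map_add, X.dd, X.dDe, zero_add, add_self2]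
  · simp only [DD_succ', map_add, X.dd, X.dDe, X.DeDe, zero_add, add_zero, add_self2]

theorem DD_mem {B : GS X} (hB : Stab B) {c : ∀ j, X.C j} (hc : ∀ j, c j ∈ B j) (j : ℕ) :
    DD c j ∈ B j := by
  cases j with
  | zero => exact hB.d 0 _ (hc 1)
  | succ i => exact (B _).add_mem (hB.d _ _ (hc _)) (hB.De _ _ (hc _))

/-- `DD c j` only depends on `c i`, `i ≤ j + 1` -/
theorem DD_congr {c c' : ∀ j, X.C j} {j : ℕ} (h : ∀ i, i ≤ j + 1 → c i = c' i) : DD c j = DD c' j := by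
  cases j with
  | zero => simp only [DD_zero']; rw [h 1 (by omega)]
  | succ i => simp only [DD_succ']; rw [h (i + 2) (by omega), h i (by omega)]

theorem DD_mem_of {A : GS X} (hA : Stab A) {c c' : ∀ j, X.C j} {j : ℕ}
    (h : ∀ i, i ≤ j + 1 → c i + c' i ∈ A i) : DD c j + DD c' j ∈ A j := by
  have e : DD c j + DD c' j = DD (c + c') j := by rw [map_add]; rfl
  rw [e]
  cases j with
  | zero => exact hA.d 0 _ (h 1 (by omega))
  | succ i => exact (A _).add_mem (hA.d _ _ (h (i + 2) (by omega))) (hA.De _ _ (h i (by omega)))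

theorem mem_Zc_zero {A B : GS X} {x : X.C 0} : x ∈ Zc A B 0 ↔ x ∈ B 0 := Iff.rfl
theorem mem_Zc_succ {A B : GS X} {j : ℕ} {x : X.C (j + 1)} :
    x ∈ Zc A B (j + 1) ↔ x ∈ B (j + 1) ∧ X.d j x ∈ A j := Iff.rfl

theorem Zc_le {A B : GS X} (j : ℕ) : Zc A B j ≤ B j := by
  cases j with
  | zero => exact le_rfl
  | succ i => exact inf_le_left

theorem mem_Bd {A B : GS X} {j : ℕ} {x : X.C j} :
    x ∈ Bd A B j ↔ ∃ z ∈ B (j + 1), x + X.d j z ∈ A j := by
  unfold Bd
  rw [Submodule.mem_sup]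
  constructor
  · rintro ⟨y, ⟨z, hz, rfl⟩, a, ha, rfl⟩
    refine ⟨z, hz, ?_⟩
    have e : X.d j z + a + X.d j z = a := by f2
    rw [e]; exact ha
  · rintro ⟨z, hz, h⟩
    exact ⟨X.d j z, ⟨z, hz, rfl⟩, _, h, by f2⟩

theorem Bd_base {A B : GS X} (j : ℕ) : A j ≤ Bd A B j := le_sup_right

/-- the leading component of something closed (mod `A`) is a relative cycle -/
theorem zc_lead {A B : GS X} (hA : Stab A) {w : ∀ j, X.C j} {q : ℕ} (hw : w q ∈ B q)
    (h1 : ∀ i, i < q → w i ∈ A i) (h2 : ∀ i, i < q → DD w i ∈ A i) : w q ∈ Zc A B q := by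
  rcases q with _ | _ | i
  · exact hw
  · exact ⟨hw, h2 0 (by omega)⟩
  · refine ⟨hw, ?_⟩
    have h := h2 (i + 1) (by omega)
    rw [DD_succ'] at h
    exact (mem2 h).2 (hA.De _ _ (h1 i (by omega)))

theorem Bd_le_Zc {A B : GS X} (hA : Stab A) (hB : Stab B) (hAB : ∀ j, A j ≤ B j) (j : ℕ) :
    Bd A B j ≤ Zc A B j := by
  intro x hx
  obtain ⟨z, hz, h⟩ := mem_Bd.1 hx
  have hx' : x = (x + X.d j z) + X.d j z := by f2
  cases j with
  | zero => rw [hx']; exact (B 0).add_mem (hAB 0 h) (hB.d _ _ hz)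
  | succ i =>
    refine ⟨?_, ?_⟩
    · rw [hx']; exact (B _).add_mem (hAB _ h) (hB.d _ _ hz)
    · have := hA.d _ _ h
      rw [map_add, X.dd, add_zero] at this
      exact this

theorem mem_Binf {A B : GS X} {j : ℕ} {x : X.C j} :
    x ∈ Binf A B j ↔ ∃ c : (∀ i, X.C i), (∀ i, c i ∈ B i) ∧ (∀ i, i < j → DD c i ∈ A i) ∧
      x + DD c j ∈ A j := Iff.rfl

/-- single component -/
noncomputable def sg (q : ℕ) (x : X.C q) : ∀ j, X.C j := Pi.single q x

theorem sg_same (q : ℕ) (x : X.C q) : sg q x q = x := Pi.single_eq_same _ _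
theorem sg_ne {q i : ℕ} (x : X.C q) (h : i ≠ q) : sg q x i = 0 := Pi.single_eq_of_ne h _

theorem sg_mem {B : GS X} {q : ℕ} {x : X.C q} (hx : x ∈ B q) (i : ℕ) : sg q x i ∈ B i := by
  by_cases h : i = q
  · subst h; rw [sg_same]; exact hx
  · rw [sg_ne x h]; exact (B i).zero_mem

theorem DD_sg_lt {q i : ℕ} (x : X.C q) (h : i + 1 < q) : DD (sg q x) i = 0 := by
  have : DD (sg q x) i = DD (0 : ∀ j, X.C j) i := DD_congr (fun k hk => by
    rw [sg_ne x (by omega)]; rfl)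
  rw [this, map_zero]; rfl

theorem DD_sg_pred {q : ℕ} (x : X.C (q + 1)) : DD (sg (q + 1) x) q = X.d q x := by
  cases q with
  | zero => rw [DD_zero', sg_same]
  | succ i =>
    rw [DD_succ']
    rw [sg_same, sg_ne x (by omega), map_zero, add_zero]

/-- COMPLETENESS of the product: infinitely many corrections, the `m`-th one supported in degrees
`> m`, can be summed.  `T` is `id` or `DD`. -/
theorem complete (T : (∀ j, X.C j) →ₗ[ZMod 2] (∀ j, X.C j))
    (hT : ∀ (c : ∀ j, X.C j) (m : ℕ), (∀ i, i ≤ m → c i = 0) → ∀ i, i < m → T c i = 0)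
    (B : GS X) (S : ℕ → (∀ j, X.C j) → Prop) (M : ℕ)
    (step : ∀ m, M ≤ m → ∀ w, S m w → ∃ c : (∀ j, X.C j), (∀ i, i ≤ m → c i = 0) ∧
      (∀ i, c i ∈ B i) ∧ S (m + 1) (w + T c))
    (v : ∀ j, X.C j) (hv : S M v) :
    ∃ c : (∀ j, X.C j), (∀ i, i ≤ M → c i = 0) ∧ (∀ i, c i ∈ B i) ∧
      ∀ m, M ≤ m → ∃ w, S m w ∧ ∀ j, j < m → (v + T c) j = w j := by
  classical
  -- sequence of corrections
  have step' : ∀ k (w : {w : (∀ j, X.C j) // S (M + k) w}),
      ∃ c : (∀ j, X.C j), (∀ i, i ≤ M + k → c i = 0) ∧ (∀ i, c i ∈ B i) ∧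
        S (M + (k + 1)) (w.1 + T c) := by
    intro k w
    exact step (M + k) (by omega) w.1 w.2
  choose G hG1 hG2 hG3 using step'
  let W : ∀ k : ℕ, {w : (∀ j, X.C j) // S (M + k) w} := fun k =>
    Nat.rec ⟨v, hv⟩ (fun k w => ⟨w.1 + T (G k w), hG3 k w⟩) k
  let cc : ℕ → (∀ j, X.C j) := fun k => G k (W k)
  have hW0 : (W 0).1 = v := rfl
  have hWs : ∀ k, (W (k + 1)).1 = (W k).1 + T (cc k) := fun k => rfl
  have hcc0 : ∀ k i, i ≤ M + k → cc k i = 0 := fun k i hi => hG1 k _ i hi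
  have hccB : ∀ k i, cc k i ∈ B i := fun k i => hG2 k _ i
  have hWsum : ∀ k, (W k).1 = v + T (∑ l ∈ Finset.range k, cc l) := by
    intro k
    induction k with
    | zero => simp [hW0]
    | succ k ih => rw [hWs, ih, Finset.sum_range_succ, map_add, add_assoc]
  let c : ∀ j, X.C j := fun j => (∑ l ∈ Finset.range j, cc l) j
  have hc : ∀ j N, j ≤ M + N → c j = (∑ l ∈ Finset.range N, cc l) j := by
    intro j N hjN
    -- both equal the sum up to the max
    have key : ∀ N', j ≤ M + N' → ∀ N'', N' ≤ N'' →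
        (∑ l ∈ Finset.range N'', cc l) j = (∑ l ∈ Finset.range N', cc l) j := by
      intro N' hN' N'' hle
      induction N'', hle using Nat.le_induction with
      | base => rfl
      | succ n hn ih =>
        rw [Finset.sum_range_succ, Pi.add_apply, ih, hcc0 n j (by omega), add_zero]
    have h1 := key N hjN (max N j) (le_max_left _ _)
    have h2 := key j (by omega) (max N j) (le_max_right _ _)
    show (∑ l ∈ Finset.range j, cc l) j = _
    rw [← h2, h1]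
  refine ⟨c, ?_, ?_, ?_⟩
  · intro i hi
    rw [hc i 0 (by omega)]; simp
  · intro i
    show (∑ l ∈ Finset.range i, cc l) i ∈ B i
    rw [Finset.sum_apply]
    exact Submodule.sum_mem _ (fun l _ => hccB l i)
  · intro m hm
    obtain ⟨k, rfl⟩ := Nat.exists_eq_add_of_le hm
    refine ⟨(W k).1, (W k).2, ?_⟩
    intro j hj
    rw [hWsum k]
    have hdiff : T (c + ∑ l ∈ Finset.range k, cc l) j = 0 := by
      refine hT _ (M + k) (fun i hi => ?_) j hj
      rw [Pi.add_apply, hc i k hi, add_self2]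
    rw [map_add, Pi.add_apply] at hdiff
    rw [Pi.add_apply, Pi.add_apply, eq2 hdiff]

theorem hT_id (c : ∀ j, X.C j) (m : ℕ) (h : ∀ i, i ≤ m → c i = 0) (i : ℕ) (hi : i < m) :
    (LinearMap.id : (∀ j, X.C j) →ₗ[ZMod 2] (∀ j, X.C j)) c i = 0 := h i hi.le

theorem hT_DD (c : ∀ j, X.C j) (m : ℕ) (h : ∀ i, i ≤ m → c i = 0) (i : ℕ) (hi : i < m) :
    DD c i = 0 := by
  have : DD c i = DD (0 : ∀ j, X.C j) i := DD_congr (fun k hk => by rw [h k (by omega)]; rfl)
  rw [this, map_zero]; rfl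

/-- a Tate cycle in degrees above all homology is a Tate boundary -/
theorem bdry {A B : GS X} (hA : Stab A) (hB : Stab B) (hAB : ∀ j, A j ≤ B j) {M : ℕ}
    (hM : ∀ j, M ≤ j → Zc A B j ≤ Bd A B j) {v : ∀ j, X.C j} (hv : ∀ j, v j ∈ B j)
    (hDv : ∀ j, DD v j ∈ A j) (hv0 : ∀ j, j < M → v j ∈ A j) :
    ∃ c : (∀ j, X.C j), (∀ i, i ≤ M → c i = 0) ∧ (∀ i, c i ∈ B i) ∧ ∀ j, v j + DD c j ∈ A j := by
  obtain ⟨c, hc1, hc2, hc3⟩ := complete (X := X) DD hT_DD B
    (fun m w => (∀ j, w j ∈ B j) ∧ (∀ j, DD w j ∈ A j) ∧ ∀ j, j < m → w j ∈ A j) M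
    (by
      rintro m hm w ⟨hw1, hw2, hw3⟩
      have hz : w m ∈ Zc A B m := zc_lead hA (hw1 m) hw3 (fun i _ => hw2 i)
      obtain ⟨z, hz1, hz2⟩ := mem_Bd.1 (hM m hm hz)
      refine ⟨sg (m + 1) z, fun i hi => sg_ne z (by omega), sg_mem hz1, ?_, ?_, ?_⟩
      · intro j
        exact (B j).add_mem (hw1 j) (DD_mem hB (sg_mem hz1) j)
      · intro j
        have e : DD (w + DD (sg (m + 1) z)) j = DD w j := by
          rw [map_add, Pi.add_apply, DD_DD, add_zero]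
        rw [e]; exact hw2 j
      · intro j hj
        rw [Pi.add_apply]
        rcases Nat.lt_succ_iff_lt_or_eq.1 hj with h | h
        · rw [DD_sg_lt z (by omega), add_zero]; exact hw3 j h
        · subst h
          rw [DD_sg_pred]; exact hz2)
    v ⟨hv, hDv, hv0⟩
  refine ⟨c, hc1, hc2, fun j => ?_⟩
  obtain ⟨w, hw, hwj⟩ := hc3 (max M (j + 1)) (le_max_left _ _)
  have := hwj j (by omega)
  rw [Pi.add_apply] at this
  rw [this]
  exact hw.2.2 j (by omega)

/-- extension of a partial Tate cycle, if all `B^∞` above vanish -/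
theorem extend {A B : GS X} (hA : Stab A) (hB : Stab B) (hAB : ∀ j, A j ≤ B j) {M : ℕ}
    (hM : ∀ j, M ≤ j → Binf A B j ≤ Bd A B j) {v : ∀ j, X.C j} (hv : ∀ j, v j ∈ B j)
    (hDv : ∀ j, j < M → DD v j ∈ A j) :
    ∃ c : (∀ j, X.C j), (∀ i, i ≤ M → c i = 0) ∧ (∀ i, c i ∈ B i) ∧ ∀ j, DD (v + c) j ∈ A j := by
  obtain ⟨c, hc1, hc2, hc3⟩ := complete (X := X) LinearMap.id hT_id B
    (fun m w => (∀ j, w j ∈ B j) ∧ ∀ j, j < m → DD w j ∈ A j) M
    (by
      rintro m hm w ⟨hw1, hw2⟩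
      have hb : DD w m ∈ Binf A B m := ⟨w, hw1, hw2, by rw [add_self2]; exact (A m).zero_mem⟩
      obtain ⟨z, hz1, hz2⟩ := mem_Bd.1 (hM m hm hb)
      refine ⟨sg (m + 1) z, fun i hi => sg_ne z (by omega), sg_mem hz1, ?_, ?_⟩
      · intro j
        exact (B j).add_mem (hw1 j) (sg_mem hz1 j)
      · intro j hj
        rw [LinearMap.id_apply, map_add, Pi.add_apply]
        rcases Nat.lt_succ_iff_lt_or_eq.1 hj with h | h
        · rw [DD_sg_lt z (by omega), add_zero]; exact hw2 j h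
        · subst h
          rw [DD_sg_pred]; exact hz2)
    v ⟨hv, hDv⟩
  refine ⟨c, hc1, hc2, fun j => ?_⟩
  obtain ⟨w, hw, hwj⟩ := hc3 (max M (j + 2)) (le_max_left _ _)
  have h2 := hw.2 j (by omega)
  have e : DD (v + c) j = DD w j := DD_congr (fun i hi => hwj i (by omega))
  rw [e]; exact h2

theorem Binf_le_Zc {A B : GS X} (hA : Stab A) (hB : Stab B) (hAB : ∀ j, A j ≤ B j) (j : ℕ) :
    Binf A B j ≤ Zc A B j := by
  rintro x ⟨c, h1, h2, h3⟩
  have hz : DD c j ∈ Zc A B j := zc_lead hA (DD_mem hB h1 j) h2 (fun i _ => by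
    rw [DD_DD]; exact (A i).zero_mem)
  have e : x = (x + DD c j) + DD c j := by f2
  rw [e]
  exact (Zc A B j).add_mem (Bd_le_Zc hA hB hAB j (Bd_base j h3)) hz

theorem Bd_le_Binf {A B : GS X} (j : ℕ) : Bd A B j ≤ Binf A B j := by
  intro x hx
  obtain ⟨z, hz, h⟩ := mem_Bd.1 hx
  refine ⟨sg (j + 1) z, sg_mem hz, fun i hi => ?_, ?_⟩
  · rw [DD_sg_lt z (by omega)]; exact (A i).zero_mem
  · rw [DD_sg_pred]; exact h

/-- packaged hypotheses: a pair `(B, A)`, its half level pair `(B', A')`, Smith isomorphism -/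
structure PH (psi : ∀ j, X.C j →ₗ[ZMod 2] X.C j) (A B A' B' : GS X) : Prop where
  le : ∀ j, A j ≤ B j
  sA : Stab A
  sB : Stab B
  le' : ∀ j, A' j ≤ B' j
  sA' : Stab A'
  sB' : Stab B'
  pA : ∀ j x, x ∈ A' j → psi j x ∈ A j
  pB : ∀ j x, x ∈ B' j → psi j x ∈ B j
  dpsi : ∀ j x, X.d j (psi (j + 1) x) = psi j (X.d j x)
  Depsi : ∀ j x, X.De j (psi j x) = 0
  smith : Smith psi A B A' B'

/-- apply `psi` componentwise -/
def psiP (psi : ∀ j, X.C j →ₗ[ZMod 2] X.C j) : (∀ j, X.C j) →ₗ[ZMod 2] (∀ j, X.C j) where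
  toFun y := fun j => psi j (y j)
  map_add' a b := by funext j; simp
  map_smul' r a := by funext j; simp

@[simp] theorem psiP_apply (psi : ∀ j, X.C j →ₗ[ZMod 2] X.C j) (y : ∀ j, X.C j) (j : ℕ) :
    psiP psi y j = psi j (y j) := rfl

section PH
variable {psi : ∀ j, X.C j →ₗ[ZMod 2] X.C j} {A B A' B' : GS X} (H : PH psi A B A' B')
include H

theorem PH.DD_psi (y : ∀ j, X.C j) (hy : ∀ j, y j ∈ Zc A' B' j) (j : ℕ) :
    DD (psiP psi y) j ∈ A j := by
  rcases j with _ | i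
  · rw [DD_zero', psiP_apply, H.dpsi]
    exact H.pA _ _ (hy 1).2
  · rw [DD_succ', psiP_apply, psiP_apply, H.dpsi, H.Depsi, add_zero]
    exact H.pA _ _ (hy (i + 2)).2

theorem PH.psi_mem (y : ∀ j, X.C j) (hy : ∀ j, y j ∈ Zc A' B' j) (j : ℕ) :
    psiP psi y j ∈ B j := H.pB _ _ (Zc_le j (hy j))

/-- `psi` of a boundary family is a Tate boundary -/
theorem PH.psi_bd {y : ∀ j, X.C j} (hy : ∀ j, y j ∈ Bd A' B' j) :
    ∃ c : (∀ j, X.C j), (∀ j, c j ∈ B j) ∧ ∀ j, psi j (y j) + DD c j ∈ A j := by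
  have h : ∀ j, ∃ z ∈ B' (j + 1), y j + X.d j z ∈ A' j := fun j => mem_Bd.1 (hy j)
  choose z hz1 hz2 using h
  let c : ∀ j, X.C j := fun j => Nat.casesOn (motive := fun j => X.C j) j 0 (fun i => psi (i + 1) (z i))
  refine ⟨c, ?_, ?_⟩
  · intro j
    cases j with
    | zero => exact (B 0).zero_mem
    | succ i => exact H.pB _ _ (hz1 i)
  · intro j
    have h1 : psi j (y j) + psi j (X.d j (z j)) ∈ A j := by
      rw [← map_add]; exact H.pA _ _ (hz2 j)
    rcases j with _ | _ | i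
    · rw [DD_zero']
      show psi 0 (y 0) + X.d 0 (psi 1 (z 0)) ∈ A 0
      rw [H.dpsi]; exact h1
    · rw [DD_succ']
      show psi 1 (y 1) + (X.d 1 (psi 2 (z 1)) + X.De 0 0) ∈ A 1
      rw [map_zero, add_zero, H.dpsi]; exact h1
    · rw [DD_succ']
      show psi (i + 2) (y (i + 2)) + (X.d (i + 2) (psi (i + 3) (z (i + 2))) +
        X.De (i + 1) (psi (i + 1) (z i))) ∈ A (i + 2)
      rw [H.Depsi, add_zero, H.dpsi]; exact h1

/-- if `psi y` is a Tate boundary below the degree `M` (no homology from `M` on) then `y` is a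
boundary -/
theorem PH.inj' {M : ℕ} (hM : ∀ j, M ≤ j → Zc A B j ≤ Bd A B j) {y c : ∀ j, X.C j}
    (hy : ∀ j, y j ∈ Zc A' B' j) (hc : ∀ j, c j ∈ B j)
    (h : ∀ j, j < M → psi j (y j) + DD c j ∈ A j) (j : ℕ) : y j ∈ Bd A' B' j := by
  obtain ⟨c', _, hc'2, hc'3⟩ := bdry H.sA H.sB H.le hM
    (v := psiP psi y + DD c)
    (fun j => (B j).add_mem (H.psi_mem y hy j) (DD_mem H.sB hc j))
    (fun j => by
      rw [map_add, Pi.add_apply, DD_DD, add_zero]; exact H.DD_psi y hy j)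
    (fun j hj => h j hj)
  refine H.smith.inj y (c + c') hy (fun j => (B j).add_mem (hc j) (hc'2 j)) (fun j => ?_) j
  have := hc'3 j
  rw [map_add, Pi.add_apply, ← add_assoc]
  exact this

end PH

end Crest.Agent.R231.AlgTatex978
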