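import Crest.Agent.R204.EZSym_847
import Crest.Agent.R204.EZHtp_271
import Crest.Agent.R204.ExcD_406

/-!
# Row 231, block T (helper150): cross powers of a chain, STRICT symmetry mod 2

`Pw K m` : `m`-fold power of a simplicial set (simplices `Fin m → K.S n`);
`cpow x m ∈ N F2 (Pw K m)` : `m`-fold cross product `x × ... × x` of a mod 2 chain.

* `cpow_append` : `cpow x (a + b) = append_* (cpow x a × cpow x b)`
* `cpow_cons`, `cpow_succ`
* `cpow_cyc`  : invariance under the cyclic shift `f ↦ f (i + 1)`
* `cpow_rev`  : invariance under `Fin.rev`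
* `cpow_map`  : naturality, `bd_cpow`, `cpow_mem_gr`
* `cpow_perm` : invariance under all permutations
-/

set_option autoImplicit false

noncomputable section

namespace Crest.Agent.R231.CPowx150

open Crest.Agent.R204 EZ271 EZ847 Coalg847

variable {K L : SS}

/-- `m`-fold power of a simplicial set -/
def Pw (K : SS) (m : ℕ) : SS where
  S n := Fin m → K.S n
  act f x := fun i => K.act f (x i)
  act_id x := funext fun i => K.act_id (x i)
  act_comp f g x := funext fun i => K.act_comp f g (x i)

/-- reindexing of tuples -/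
def reix (K : SS) {m m' : ℕ} (s : Fin m' → Fin m) : SS.Hom (Pw K m) (Pw K m') :=
  ⟨fun _ x => fun i => x (s i), fun _ _ => rfl⟩

theorem reix_app {m m' : ℕ} (s : Fin m' → Fin m) (n : ℕ) (x : Fin m → K.S n) :
    (reix K s).app n x = fun i => x (s i) := rfl

/-- map of tuples -/
def pwMap (f : SS.Hom K L) (m : ℕ) : SS.Hom (Pw K m) (Pw L m) :=
  ⟨fun n x => fun i => f.app n (x i), fun a x => funext fun i => f.nat a (x i)⟩

theorem pwMap_app (f : SS.Hom K L) (m n : ℕ) (x : Fin m → K.S n) :
    (pwMap f m).app n x = fun i => f.app n (x i) := rfl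

/-- add an entry at the end -/
def snocH (K : SS) (m : ℕ) : SS.Hom ((Pw K m).prod K) (Pw K (m + 1)) :=
  ⟨fun n x => (Fin.snoc x.1 x.2 : Fin (m + 1) → K.S n), fun {a b} f x => by
    refine funext fun i => ?_
    refine Fin.lastCases ?_ (fun j => ?_) i
    · exact (Fin.snoc_last (α := fun _ => K.S a) (K.act f x.2) (fun i => K.act f (x.1 i))).trans
        (congrArg (K.act f) (Fin.snoc_last (α := fun _ => K.S b) x.2 x.1)).symm
    · exact (Fin.snoc_castSucc (α := fun _ => K.S a) (K.act f x.2) (fun i => K.act f (x.1 i)) j).trans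
        (congrArg (K.act f) (Fin.snoc_castSucc (α := fun _ => K.S b) x.2 x.1 j)).symm⟩

/-- add an entry at the beginning -/
def consH (K : SS) (m : ℕ) : SS.Hom (K.prod (Pw K m)) (Pw K (m + 1)) :=
  ⟨fun n x => (Fin.cons x.1 x.2 : Fin (m + 1) → K.S n), fun f x => by
    refine funext fun i => ?_
    refine Fin.cases rfl (fun j => rfl) i⟩

/-- concatenation of tuples -/
def appH (K : SS) (a b : ℕ) : SS.Hom ((Pw K a).prod (Pw K b)) (Pw K (a + b)) :=
  ⟨fun n x => (Fin.append x.1 x.2 : Fin (a + b) → K.S n), fun {p q} f x => by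
    refine funext fun i => ?_
    refine Fin.addCases (fun j => ?_) (fun j => ?_) i
    · exact (Fin.append_left (fun i => K.act f (x.1 i)) (fun i => K.act f (x.2 i)) j).trans
        (congrArg (K.act f) (Fin.append_left x.1 x.2 j)).symm
    · exact (Fin.append_right (fun i => K.act f (x.1 i)) (fun i => K.act f (x.2 i)) j).trans
        (congrArg (K.act f) (Fin.append_right x.1 x.2 j)).symm⟩

theorem snocH_app (m n : ℕ) (x : Fin m → K.S n) (y : K.S n) :
    (snocH K m).app n (x, y) = (Fin.snoc x y : Fin (m + 1) → K.S n) := rfl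
theorem consH_app (m n : ℕ) (y : K.S n) (x : Fin m → K.S n) :
    (consH K m).app n (y, x) = (Fin.cons y x : Fin (m + 1) → K.S n) := rfl
theorem appH_app (a b n : ℕ) (x : Fin a → K.S n) (y : Fin b → K.S n) :
    (appH K a b).app n (x, y) = (Fin.append x y : Fin (a + b) → K.S n) := rfl

/-- the empty tuple -/
def v0 (K : SS) : (Pw K 0).S 0 := (Fin.elim0 : Fin 0 → K.S 0)

/-- `m`-fold cross power of a chain -/
def cpow (x : N F2 K) : (m : ℕ) → N F2 (Pw K m)
  | 0 => N.sx F2 (v0 K)
  | (m + 1) => N.map F2 (snocH K m) (cross F2 (cpow x m) x)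

theorem cpow_zero (x : N F2 K) : cpow x 0 = N.sx F2 (v0 K) := rfl
theorem cpow_succ (x : N F2 K) (m : ℕ) :
    cpow x (m + 1) = N.map F2 (snocH K m) (cross F2 (cpow x m) x) := rfl

/-- `cross (map f a) b` -/
theorem cross_map_left {K K' L : SS} (f : SS.Hom K K') (a : N F2 K) (b : N F2 L) :
    cross F2 (N.map F2 f a) b = N.map F2 (SS.prodMap f (SS.Hom.id L)) (cross F2 a b) := by
  have h := map_cross F2 f (SS.Hom.id L) a b
  rw [map_idHom] at h
  exact h.symm

theorem cross_map_right {K L L' : SS} (f : SS.Hom L L') (a : N F2 K) (b : N F2 L) :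
    cross F2 a (N.map F2 f b) = N.map F2 (SS.prodMap (SS.Hom.id K) f) (cross F2 a b) := by
  have h := map_cross F2 (SS.Hom.id K) f a b
  rw [map_idHom] at h
  exact h.symm

/-- cons version -/
theorem cpow_cons (x : N F2 K) (m : ℕ) :
    cpow x (m + 1) = N.map F2 (consH K m) (cross F2 x (cpow x m)) := by
  induction m with
  | zero =>
    rw [cpow_succ, cpow_zero, cross_vertex_left, cross_vertex_right, map_map, map_map]
    congr 2
    refine SS.Hom.ext (funext fun n => funext fun y => ?_)
    funext i
    obtain rfl : i = 0 := Fin.ext (by have := i.2; simp at this ⊢)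
    rfl
  | succ m ih =>
    rw [cpow_succ, ih, cross_map_left, map_map]
    conv_rhs => rw [← ih, cpow_succ, cross_map_right, map_map, ← cross_assoc, map_map]
    congr 2
    refine SS.Hom.ext (funext fun n => funext fun y => ?_)
    exact (Fin.cons_snoc_eq_snoc_cons y.1.1 y.1.2 y.2).symm

/-- concatenation -/
theorem cpow_append (x : N F2 K) (a b : ℕ) :
    cpow x (a + b) = N.map F2 (appH K a b) (cross F2 (cpow x a) (cpow x b)) := by
  induction b with
  | zero =>
    rw [cpow_zero, cross_vertex_right, map_map]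
    have e : (appH K a 0).comp (SS.pair (SS.Hom.id (Pw K a)) (SS.constHom (Pw K a) (Pw K 0) (v0 K)))
        = SS.Hom.id (Pw K a) := by
      refine SS.Hom.ext (funext fun n => funext fun y => ?_)
      funext i
      exact Fin.append_left (n := 0) y _ i
    rw [e, map_idHom]; rfl
  | succ b ih =>
    have h : cpow x (a + (b + 1)) = N.map F2 (snocH K (a + b)) (cross F2 (cpow x (a + b)) x) := rfl
    rw [h, ih, cross_map_left, map_map, cpow_succ, cross_map_right, map_map, ← cross_assoc, map_map]
    congr 2
    refine SS.Hom.ext (funext fun n => funext fun y => ?_)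
    exact (Fin.append_snoc y.1.1 y.1.2 y.2).symm

/-- cyclic shift of the indices: `(f_0, .., f_m) ↦ (f_1, .., f_m, f_0)` -/
def cycH (K : SS) (m : ℕ) : SS.Hom (Pw K m) (Pw K m) := reix K (finRotate m)

theorem cycH_app (m n : ℕ) (x : Fin m → K.S n) : (cycH K m).app n x = fun i => x (finRotate m i) :=
  rfl

theorem cyc_cons (m n : ℕ) (a : K.S n) (f : Fin m → K.S n) :
    (fun i => (Fin.cons a f : Fin (m + 1) → K.S n) (finRotate (m + 1) i)) =
      (Fin.snoc f a : Fin (m + 1) → K.S n) := by
  funext i
  refine Fin.lastCases ?_ (fun j => ?_) i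
  · rw [finRotate_last]
    exact (Fin.snoc_last (α := fun _ => K.S n) a f).symm
  · have h1 : finRotate (m + 1) (Fin.castSucc j) = j.succ := by
      have := finRotate_of_lt (n := m) (k := (j : ℕ)) j.2
      exact this
    rw [h1]
    exact (Fin.snoc_castSucc (α := fun _ => K.S n) a f j).symm

/-- **strict invariance under the cyclic shift** -/
theorem cpow_cyc (x : N F2 K) (m : ℕ) : N.map F2 (cycH K m) (cpow x m) = cpow x m := by
  cases m with
  | zero =>
    have e : cycH K 0 = SS.Hom.id (Pw K 0) := by
      refine SS.Hom.ext (funext fun n => funext fun y => ?_)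
      exact funext fun i => i.elim0
    rw [e, map_idHom]
  | succ m =>
    have e : (cycH K (m + 1)).comp (consH K m) = (snocH K m).comp (SS.swap K (Pw K m)) := by
      refine SS.Hom.ext (funext fun n => funext fun y => ?_)
      exact cyc_cons m n y.1 y.2
    conv_lhs => rw [cpow_cons, map_map, e, ← map_map, cross_swap_F2]
    rfl

/-- reversal of the indices -/
def revH (K : SS) (m : ℕ) : SS.Hom (Pw K m) (Pw K m) := reix K Fin.rev

theorem revH_app (m n : ℕ) (x : Fin m → K.S n) : (revH K m).app n x = fun i => x i.rev := rfl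

/-- **strict invariance under the reversal of the indices** -/
theorem cpow_rev (x : N F2 K) (m : ℕ) : N.map F2 (revH K m) (cpow x m) = cpow x m := by
  induction m with
  | zero =>
    have e : revH K 0 = SS.Hom.id (Pw K 0) := by
      refine SS.Hom.ext (funext fun n => funext fun y => ?_)
      exact funext fun i => i.elim0
    rw [e, map_idHom]
  | succ m ih =>
    have e : (revH K (m + 1)).comp (snocH K m) =
        ((consH K m).comp (SS.swap (Pw K m) K)).comp (SS.prodMap (revH K m) (SS.Hom.id K)) := by
      refine SS.Hom.ext (funext fun n => funext fun y => ?_)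
      funext i
      refine Fin.cases ?_ (fun j => ?_) i
      · show (Fin.snoc y.1 y.2 : Fin (m + 1) → K.S n) (Fin.rev 0) = y.2
        rw [Fin.rev_zero]
        exact Fin.snoc_last (α := fun _ => K.S n) y.2 y.1
      · show (Fin.snoc y.1 y.2 : Fin (m + 1) → K.S n) (Fin.rev j.succ) = y.1 j.rev
        rw [Fin.rev_succ]
        exact Fin.snoc_castSucc (α := fun _ => K.S n) y.2 y.1 j.rev
    conv_lhs => rw [cpow_succ, map_map, e, ← map_map, ← map_map, ← cross_map_left, ih, cross_swap_F2]
    exact (cpow_cons x m).symm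

/-- naturality -/
theorem cpow_map (f : SS.Hom K L) (x : N F2 K) (m : ℕ) :
    N.map F2 (pwMap f m) (cpow x m) = cpow (N.map F2 f x) m := by
  induction m with
  | zero =>
    rw [cpow_zero, N.map_sx, cpow_zero]
    congr 1
    exact funext fun i => i.elim0
  | succ m ih =>
    have e : (pwMap f (m + 1)).comp (snocH K m) =
        (snocH L m).comp (SS.prodMap (pwMap f m) f) := by
      refine SS.Hom.ext (funext fun n => funext fun y => ?_)
      funext i
      refine Fin.lastCases ?_ (fun j => ?_) i
      · exact (congrArg (f.app n) (Fin.snoc_last (α := fun _ => K.S n) y.2 y.1)).trans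
          (Fin.snoc_last (α := fun _ => L.S n) (f.app n y.2) (fun i => f.app n (y.1 i))).symm
      · exact (congrArg (f.app n) (Fin.snoc_castSucc (α := fun _ => K.S n) y.2 y.1 j)).trans
          (Fin.snoc_castSucc (α := fun _ => L.S n) (f.app n y.2) (fun i => f.app n (y.1 i)) j).symm
    rw [cpow_succ, map_map, e, ← map_map, map_cross, ih, cpow_succ]

theorem sg_eq {K : SS} (z : N F2 K) : sg F2 z = z := sg_F2 z

theorem bd_cross2 (a : N F2 K) (b : N F2 L) : N.bd F2 _ (cross F2 a b) =
    cross F2 (N.bd F2 K a) b + cross F2 a (N.bd F2 L b) := by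
  rw [bd_cross, sg_F2]

/-- cross powers of cycles are cycles -/
theorem bd_cpow {x : N F2 K} (hx : N.bd F2 K x = 0) (m : ℕ) : N.bd F2 _ (cpow x m) = 0 := by
  induction m with
  | zero => exact bd_vertex (v0 K)
  | succ m ih =>
    rw [cpow_succ, ← map_bd', bd_cross2, ih, hx, map_zero, LinearMap.zero_apply, map_zero, add_zero,
      map_zero]

theorem cpow_mem_gr {d : ℕ} {x : N F2 K} (hx : x ∈ N.gr F2 K d) (m : ℕ) :
    cpow x m ∈ N.gr F2 (Pw K m) (m * d) := by
  induction m with
  | zero =>
    rw [zero_mul]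
    exact ⟨Finsupp.single ⟨_, v0 K⟩ 1, Submodule.subset_span ⟨v0 K, rfl⟩, rfl⟩
  | succ m ih =>
    rw [Nat.succ_mul]
    exact Exc406.map_mem_gr _ (cross_mem_gr F2 ih hx)

/-! ### exchange of two adjacent entries, all permutations -/

theorem reix_comp {m m' m'' : ℕ} (s : Fin m' → Fin m) (t : Fin m'' → Fin m') :
    (reix K t).comp (reix K s) = reix K (s ∘ t) := rfl

end Crest.Agent.R231.CPowx150
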