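import Crest.Agent.R231.Conc_150
import Crest.Agent.R231.CPow_150
import Crest.Agent.R231.Pair_877

/-!
# Row 231, block T (helper150): the chains `A_m(x)`, `B_k(x)` on the free loop space (leaf T4)

`x ∈ N F2 (Sing (Om p))` a chain of based loops, `tO x` its reversal.
* `Am x m` = push forward of `x × ... × x` by the concatenation `conc m`:
  `rot_Am : rot(1/m) (Am x m) = Am x m` STRICTLY, `rev_Am : rev (Am x m) = Am (tO x) m` STRICTLY,
  `bd_Am`, `Am_mem_gr`, `Am_mem_CS` (levels), `Am_one` (`= ι x`), `Am_eq_AmO` (through based loops);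
* `Bm x k` = push forward of `x^k × x^k` by `(f, g) ↦ f_1 ... f_k ḡ_k ... ḡ_1`:
  `rev_Bm : rev (Bm x k) = Bm x k` STRICTLY, `bd_Bm`, `Bm_mem_gr`, `Bm_mem_CS`.
-/

set_option autoImplicit false
set_option linter.unusedSectionVars false

noncomputable section

namespace Crest.Agent.R231.AmChx150

open Crest.Agent.R204 EZ271 EZ847 Coalg847 SingAct265
open GLugx576 Concx150 CPowx150 Pairx877

/-- tuples of simplices are simplices of the product -/
def piH (Y : Type) [TopologicalSpace Y] (m : ℕ) : SS.Hom (Pw (SS.Sing Y) m) (SS.Sing (Fin m → Y)) :=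
  ⟨fun _ x => mkS (fun t i => ev (x i) t) (continuous_pi fun i => continuous_ev (x i)),
    fun _ _ => rfl⟩

theorem ev_piH {Y : Type} [TopologicalSpace Y] {m n : ℕ} (x : Fin m → (SS.Sing Y).S n)
    (t : stdSimplex ℝ (Fin (n + 1))) :
    ev ((piH Y m).app n x) t = fun i => ev (x i) t := rfl

section

variable {M : Type} [MetricSpace M] {p : M}

/-- chains of based loops -/
abbrev CO (p : M) : Type := N F2 (SS.Sing (Om p))

/-- inclusion of chains of based loops -/
def jN (p : M) : CO p →ₗ[F2] CE (Lp M) := N.map F2 (SS.SingMap (ιO p))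

/-- reversal of chains of based loops -/
def tO (p : M) : CO p →ₗ[F2] CO p := N.map F2 (SS.SingMap (revO p))

/-- rotation, reversal on chains of loops -/
def rotN (M : Type) [MetricSpace M] (a : UnitAddCircle) : CE (Lp M) →ₗ[F2] CE (Lp M) :=
  N.map F2 (SS.SingMap (rot a))
def tN (M : Type) [MetricSpace M] : CE (Lp M) →ₗ[F2] CE (Lp M) := N.map F2 (SS.SingMap rev)

theorem revO_revO (γ : Om p) : revO p (revO p γ) = γ := by
  refine Subtype.ext ?_
  rw [revO_coe, revO_coe]
  ext x
  rw [rev_apply, rev_apply, neg_neg]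

theorem tO_tO (x : CO p) : tO p (tO p x) = x := by
  unfold tO
  rw [map_map]
  have e : (SS.SingMap (revO p)).comp (SS.SingMap (revO p)) = SS.Hom.id (SS.Sing (Om p)) := by
    refine SS.Hom.ext (funext fun n => funext fun σ => ?_)
    exact sing_ext fun t => revO_revO (ev σ t)
  rw [e, map_idHom]

theorem tN_jN (x : CO p) : tN M (jN p x) = jN p (tO p x) := by
  unfold tN jN tO
  rw [map_map, map_map]
  rfl

variable (m : ℕ) [NeZero m]

/-- concatenation of simplices of based loops -/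
def concH (p : M) : SS.Hom (Pw (SS.Sing (Om p)) m) (SS.Sing (Lp M)) :=
  (SS.SingMap (conc m)).comp (piH (Om p) m)

def concOH (p : M) : SS.Hom (Pw (SS.Sing (Om p)) m) (SS.Sing (Om p)) :=
  (SS.SingMap (concO m)).comp (piH (Om p) m)

theorem ev_concH {n : ℕ} (x : Fin m → (SS.Sing (Om p)).S n) (t : stdSimplex ℝ (Fin (n + 1))) :
    ev ((concH m p).app n x) t = conc m (fun i => ev (x i) t) := rfl

theorem ev_concOH {n : ℕ} (x : Fin m → (SS.Sing (Om p)).S n) (t : stdSimplex ℝ (Fin (n + 1))) :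
    ev ((concOH m p).app n x) t = concO m (fun i => ev (x i) t) := rfl

/-- **`A_m(x)`** -/
def Am (x : CO p) : CE (Lp M) := N.map F2 (concH m p) (cpow x m)

/-- the same in based loops -/
def AmO (x : CO p) : CO p := N.map F2 (concOH m p) (cpow x m)

theorem Am_eq_AmO (x : CO p) : Am m x = jN p (AmO m x) := by
  unfold Am AmO jN
  rw [map_map]; rfl

theorem rot_concH : (SS.SingMap (rot ((1 / m : ℝ) : UnitAddCircle))).comp (concH m p) =
    (concH m p).comp (cycH (SS.Sing (Om p)) m) := by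
  refine SS.Hom.ext (funext fun n => funext fun x => ?_)
  exact sing_ext fun t => rot_conc m fun i => ev (x i) t

theorem rev_concH : (SS.SingMap (rev : C(Lp M, Lp M))).comp (concH m p) =
    (concH m p).comp ((pwMap (SS.SingMap (revO p)) m).comp (revH (SS.Sing (Om p)) m)) := by
  refine SS.Hom.ext (funext fun n => funext fun x => ?_)
  exact sing_ext fun t => rev_conc m fun i => ev (x i) t

/-- **strict rotation invariance** -/
theorem rot_Am (x : CO p) : rotN M ((1 / m : ℝ) : UnitAddCircle) (Am m x) = Am m x := by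
  unfold rotN Am
  rw [map_map, rot_concH, ← map_map, cpow_cyc]

/-- **strict reversal identity** -/
theorem rev_Am (x : CO p) : tN M (Am m x) = Am m (tO p x) := by
  unfold tN Am tO
  rw [map_map, rev_concH, ← map_map, ← map_map, cpow_rev, cpow_map]

theorem bd_Am {x : CO p} (hx : N.bd F2 _ x = 0) : bdE _ (Am m x) = 0 := by
  unfold Am
  rw [← map_bd', bd_cpow hx, map_zero]

theorem bd_AmO {x : CO p} (hx : N.bd F2 _ x = 0) : N.bd F2 _ (AmO m x) = 0 := by
  unfold AmO
  rw [← map_bd', bd_cpow hx, map_zero]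

theorem Am_mem_gr {d : ℕ} {x : CO p} (hx : x ∈ N.gr F2 _ d) : Am m x ∈ N.gr F2 _ (m * d) :=
  Exc406.map_mem_gr _ (cpow_mem_gr hx m)

theorem AmO_mem_gr {d : ℕ} {x : CO p} (hx : x ∈ N.gr F2 _ d) : AmO m x ∈ N.gr F2 _ (m * d) :=
  Exc406.map_mem_gr _ (cpow_mem_gr hx m)

/-- based loops of level `t` -/
def OmX (p : M) (t : ℝ) : Set (Om p) := {γ | γ.1 ∈ X M t}

/-- cross powers of chains of a subset come from the subset -/
theorem cpow_res {Y : Type} [TopologicalSpace Y] {S : Set Y} {x : CE Y} (hx : x ∈ CS S) (m : ℕ) :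
    cpow x m = N.map F2 (pwMap (SS.SingMap (SpecA.inc S)) m) (cpow (res S x) m) := by
  rw [cpow_map, map_inc_res x hx]

/-- **levels** -/
theorem Am_mem_CS {t : ℝ} {x : CO p} (hx : x ∈ CS (OmX p t)) : Am m x ∈ CS (X M (m * t)) := by
  unfold Am
  rw [cpow_res hx, map_map]
  refine map_mem_CS _ (fun n y s => ?_) _
  exact conc_mem m fun i => (ev (y i) s).2

theorem AmO_mem_CS {t : ℝ} {x : CO p} (hx : x ∈ CS (OmX p t)) : AmO m x ∈ CS (OmX p (m * t)) := by
  unfold AmO
  rw [cpow_res hx, map_map]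
  refine map_mem_CS _ (fun n y s => ?_) _
  exact conc_mem m fun i => (ev (y i) s).2

/-- `A_1(x) = x` -/
theorem conc_one_eq (f : Fin 1 → Om p) : conc 1 f = (f 0).1 := by
  refine lp_ext fun x => ?_
  have h1 := Int.floor_le ((1 : ℕ) * x : ℝ)
  have h2 := (Int.lt_floor_add_one ((1 : ℕ) * x : ℝ)).le
  rw [conc_coe 1 f h1 h2]
  have e : ix 1 ⌊((1 : ℕ) : ℝ) * x⌋ = 0 := Subsingleton.elim _ _
  rw [e, Nat.cast_one, one_mul]

theorem Am_one (x : CO p) : Am 1 x = jN p x := by
  unfold Am jN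
  rw [cpow_succ, cpow_zero, cross_vertex_left, map_map, map_map]
  congr 2
  refine SS.Hom.ext (funext fun n => funext fun σ => ?_)
  exact sing_ext fun t => conc_one_eq _

/-! ### the strictly reversal invariant chains `B_k(x)` -/

/-- `(f, g) ↦ (f_1, .., f_k, ḡ_k, .., ḡ_1)` -/
def foldH (k : ℕ) (p : M) : SS.Hom ((Pw (SS.Sing (Om p)) k).prod (Pw (SS.Sing (Om p)) k))
    (Pw (SS.Sing (Om p)) (k + k)) :=
  (appH (SS.Sing (Om p)) k k).comp (SS.prodMap (SS.Hom.id _)
    ((pwMap (SS.SingMap (revO p)) k).comp (revH (SS.Sing (Om p)) k)))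

instance neZero_add_self (k : ℕ) [NeZero k] : NeZero (k + k) :=
  ⟨by have := NeZero.pos k; omega⟩

/-- **`B_k(x)`** -/
def Bm (k : ℕ) [NeZero k] (x : CO p) : CE (Lp M) :=
  N.map F2 ((concH (k + k) p).comp (foldH k p)) (cross F2 (cpow x k) (cpow x k))

theorem rev_fold (k n : ℕ) (f g : Fin k → (SS.Sing (Om p)).S n) :
    (pwMap (SS.SingMap (revO p)) (k + k)).app n
      ((revH (SS.Sing (Om p)) (k + k)).app n ((foldH k p).app n (f, g))) = (foldH k p).app n (g, f) := by
  have hrr : ∀ σ : (SS.Sing (Om p)).S n,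
      (SS.SingMap (revO p)).app n ((SS.SingMap (revO p)).app n σ) = σ := fun σ =>
    sing_ext fun t => revO_revO (ev σ t)
  funext i
  show (SS.SingMap (revO p)).app n
      ((Fin.append f (fun j => (SS.SingMap (revO p)).app n (g j.rev)) :
        Fin (k + k) → (SS.Sing (Om p)).S n) i.rev) =
    (Fin.append g (fun j => (SS.SingMap (revO p)).app n (f j.rev)) :
        Fin (k + k) → (SS.Sing (Om p)).S n) i
  refine Fin.addCases (fun j => ?_) (fun j => ?_) i
  · have e : (Fin.castAdd k j).rev = Fin.natAdd k j.rev := by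
      refine Fin.ext ?_
      simp only [Fin.val_rev, Fin.val_castAdd, Fin.val_natAdd]
      have := j.2
      omega
    rw [e, Fin.append_right, Fin.append_left, Fin.rev_rev, hrr]
  · have e : (Fin.natAdd k j).rev = Fin.castAdd k j.rev := by
      refine Fin.ext ?_
      simp only [Fin.val_rev, Fin.val_castAdd, Fin.val_natAdd]
      have := j.2
      omega
    rw [e, Fin.append_left, Fin.append_right]

theorem rev_foldH (k : ℕ) [NeZero k] :
    (SS.SingMap (rev : C(Lp M, Lp M))).comp ((concH (k + k) p).comp (foldH k p)) =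
      ((concH (k + k) p).comp (foldH k p)).comp (SS.swap _ _) := by
  have h1 := rev_concH (p := p) (k + k)
  refine SS.Hom.ext (funext fun n => funext fun x => ?_)
  have h2 := congrArg (fun F : SS.Hom _ _ => F.app n ((foldH k p).app n x)) h1
  refine h2.trans ?_
  exact congrArg ((concH (k + k) p).app n) (rev_fold k n x.1 x.2)

/-- **strict reversal invariance** -/
theorem rev_Bm (k : ℕ) [NeZero k] (x : CO p) : tN M (Bm k x) = Bm k x := by
  unfold tN Bm
  rw [map_map, rev_foldH, ← map_map, cross_swap_F2]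

theorem bd_Bm (k : ℕ) [NeZero k] {x : CO p} (hx : N.bd F2 _ x = 0) : bdE _ (Bm k x) = 0 := by
  unfold Bm
  rw [← map_bd', bd_cross2, bd_cpow hx, map_zero, LinearMap.zero_apply, map_zero, add_zero, map_zero]

theorem Bm_mem_gr (k : ℕ) [NeZero k] {d : ℕ} {x : CO p} (hx : x ∈ N.gr F2 _ d) :
    Bm k x ∈ N.gr F2 _ (k * d + k * d) :=
  Exc406.map_mem_gr _ (cross_mem_gr F2 (cpow_mem_gr hx k) (cpow_mem_gr hx k))

theorem Bm_mem_CS (k : ℕ) [NeZero k] {t : ℝ} {x : CO p} (hx : x ∈ CS (OmX p t)) :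
    Bm k x ∈ CS (X M ((k + k : ℕ) * t)) := by
  unfold Bm
  rw [cpow_res hx, ← map_cross, map_map]
  refine map_mem_CS _ (fun n y s => ?_) _
  refine conc_mem (k + k) fun i => ?_
  have key : ∀ (a b : Fin k → (SS.Sing (Om p)).S n), (∀ j, (ev (a j) s).1 ∈ X M t) →
      (∀ j, (ev (b j) s).1 ∈ X M t) →
      (ev ((Fin.append a b : Fin (k + k) → (SS.Sing (Om p)).S n) i) s).1 ∈ X M t := by
    intro a b ha hb
    refine Fin.addCases (fun j => ?_) (fun j => ?_) i
    · rw [Fin.append_left]; exact ha j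
    · rw [Fin.append_right]; exact hb j
  refine key _ _ (fun j => ?_) (fun j => ?_)
  · exact (ev (y.1 j) s).2
  · exact rev_mem (ev (y.2 j.rev) s).2

end

end Crest.Agent.R231.AmChx150
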