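import Mathlib.Analysis.InnerProductSpace.Basic
import Mathlib.Analysis.InnerProductSpace.Continuous
import Mathlib.Analysis.InnerProductSpace.PiL2
import Mathlib.Analysis.SpecialFunctions.Trigonometric.Bounds
import Mathlib.Analysis.SpecialFunctions.Trigonometric.Inverse

/-!
# Row 231 (S0357), leaf GEO (helper694): great circle arcs

`slp p b u = cos (u θ) p + sin (u θ) e`, `θ = arccos ⟪p, b⟫`, `e` the direction of `b - ⟪p, b⟫ p`:
unit vectors, `slp p b 0 = p`, `slp p b 1 = b`, `π`-Lipschitz in `u`, jointly continuous on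
`{b ≠ -p} × ℝ`.
-/

set_option autoImplicit false

open Set Filter Topology Real
open scoped InnerProductSpace

noncomputable section

namespace Crest.Agent.R231.Slerpx694

variable {E : Type*} [NormedAddCommGroup E] [InnerProductSpace ℝ E]

/-- `cos x p + sin x e` -/
def crc (p e : E) (x : ℝ) : E := cos x • p + sin x • e

theorem crc_zero (p e : E) : crc p e 0 = p := by simp [crc]

theorem crc_pi (p e : E) : crc p e π = -p := by simp [crc]

theorem norm_crc {p e : E} (hp : ‖p‖ = 1) (he : ‖e‖ = 1) (hpe : ⟪p, e⟫_ℝ = 0) (x : ℝ) :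
    ‖crc p e x‖ = 1 := by
  have h : ‖crc p e x‖ ^ 2 = 1 := by
    rw [crc, norm_add_sq_real, norm_smul, norm_smul, inner_smul_left, inner_smul_right, hp, he, hpe]
    simp only [mul_one, mul_zero, add_zero, norm_eq_abs, sq_abs]
    exact cos_sq_add_sin_sq x
  have h0 : 0 ≤ ‖crc p e x‖ := norm_nonneg _
  nlinarith

theorem norm_crc_sub {p e : E} (hp : ‖p‖ = 1) (he : ‖e‖ ≤ 1) (hpe : ⟪p, e⟫_ℝ = 0) (x y : ℝ) :
    ‖crc p e x - crc p e y‖ ≤ |x - y| := by
  have e1 : crc p e x - crc p e y = (cos x - cos y) • p + (sin x - sin y) • e := by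
    unfold crc; module
  have h : ‖crc p e x - crc p e y‖ ^ 2 ≤ |x - y| ^ 2 := by
    rw [e1, norm_add_sq_real, norm_smul, norm_smul, inner_smul_left, inner_smul_right, hp, hpe]
    simp only [mul_one, mul_zero, add_zero, norm_eq_abs, mul_pow, sq_abs]
    have h1 : (sin x - sin y) ^ 2 * ‖e‖ ^ 2 ≤ (sin x - sin y) ^ 2 := by
      refine mul_le_of_le_one_right (sq_nonneg _) ?_
      nlinarith [norm_nonneg e]
    have h2 : 1 - (x - y) ^ 2 / 2 ≤ cos (x - y) := one_sub_sq_div_two_le_cos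
    rw [cos_sub] at h2
    nlinarith [cos_sq_add_sin_sq x, cos_sq_add_sin_sq y]
  exact abs_le_of_sq_le_sq' h (abs_nonneg _) |>.2

/-- the angle -/
def ang (p b : E) : ℝ := arccos ⟪p, b⟫_ℝ

/-- the component of `b` orthogonal to `p` -/
def prp (p b : E) : E := b - ⟪p, b⟫_ℝ • p

/-- the direction of `b` from `p` -/
def dir (p b : E) : E := ‖prp p b‖⁻¹ • prp p b

/-- the great circle arc from `p` to `b` -/
def slp (p b : E) (u : ℝ) : E := crc p (dir p b) (u * ang p b)

variable {p b : E}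

theorem ang_nonneg : 0 ≤ ang p b := arccos_nonneg _

theorem ang_le_pi : ang p b ≤ π := arccos_le_pi _

theorem inner_prp (hp : ‖p‖ = 1) : ⟪p, prp p b⟫_ℝ = 0 := by
  rw [prp, inner_sub_right, inner_smul_right, real_inner_self_eq_norm_sq, hp]
  ring

theorem inner_dir (hp : ‖p‖ = 1) : ⟪p, dir p b⟫_ℝ = 0 := by
  rw [dir, inner_smul_right, inner_prp hp, mul_zero]

theorem norm_prp_sq (hp : ‖p‖ = 1) (hb : ‖b‖ = 1) : ‖prp p b‖ ^ 2 = 1 - ⟪p, b⟫_ℝ ^ 2 := by
  rw [prp, norm_sub_sq_real, norm_smul, inner_smul_right, hp, hb, real_inner_comm p b, norm_eq_abs,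
    mul_one, sq_abs]
  ring

theorem norm_prp (hp : ‖p‖ = 1) (hb : ‖b‖ = 1) : ‖prp p b‖ = √(1 - ⟪p, b⟫_ℝ ^ 2) := by
  rw [← norm_prp_sq hp hb, sqrt_sq (norm_nonneg _)]

theorem norm_dir_le : ‖dir p b‖ ≤ 1 := by
  rw [dir, norm_smul, norm_inv, norm_norm]
  by_cases h : ‖prp p b‖ = 0
  · rw [h]; simp
  · rw [inv_mul_cancel₀ h]

theorem norm_dir (h : prp p b ≠ 0) : ‖dir p b‖ = 1 := by
  rw [dir, norm_smul, norm_inv, norm_norm, inv_mul_cancel₀ (norm_ne_zero_iff.2 h)]

theorem smul_dir : ‖prp p b‖ • dir p b = prp p b := by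
  by_cases h : prp p b = 0
  · rw [h, norm_zero, zero_smul]
  · rw [dir, smul_smul, mul_inv_cancel₀ (norm_ne_zero_iff.2 h), one_smul]

/-- only `± p` have no direction -/
theorem eq_or_of_prp (hp : ‖p‖ = 1) (hb : ‖b‖ = 1) (h : prp p b = 0) : b = p ∨ b = -p := by
  have h1 : b = ⟪p, b⟫_ℝ • p := by rwa [prp, sub_eq_zero] at h
  have h2 : |⟪p, b⟫_ℝ| = 1 := by
    have := congrArg norm h1
    rw [norm_smul, hp, hb, mul_one, norm_eq_abs] at this
    exact this.symm
  rcases (abs_eq zero_le_one).1 h2 with h3 | h3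
  · left; rw [h1, h3, one_smul]
  · right; rw [h1, h3, neg_one_smul]

theorem slp_zero : slp p b 0 = p := by rw [slp, zero_mul, crc_zero]

theorem slp_one (hp : ‖p‖ = 1) (hb : ‖b‖ = 1) : slp p b 1 = b := by
  have h1 : |⟪p, b⟫_ℝ| ≤ 1 := by
    have := abs_real_inner_le_norm p b
    rwa [hp, hb, one_mul] at this
  rw [abs_le] at h1
  rw [slp, one_mul, crc, ang, cos_arccos h1.1 h1.2, sin_arccos, ← norm_prp hp hb, smul_dir, prp]
  module

theorem ang_self (hp : ‖p‖ = 1) : ang p p = 0 := by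
  rw [ang, real_inner_self_eq_norm_sq, hp, one_pow, arccos_one]

theorem slp_self (hp : ‖p‖ = 1) (u : ℝ) : slp p p u = p := by
  rw [slp, ang_self hp, mul_zero, crc_zero]

theorem norm_slp (hp : ‖p‖ = 1) (hb : ‖b‖ = 1) (h : b ≠ -p) (u : ℝ) : ‖slp p b u‖ = 1 := by
  by_cases h0 : prp p b = 0
  · rcases eq_or_of_prp hp hb h0 with rfl | h1
    · rw [slp_self hp, hp]
    · exact absurd h1 h
  · exact norm_crc hp (norm_dir h0) (inner_dir hp) _

theorem norm_slp_sub' (hp : ‖p‖ = 1) (u v : ℝ) :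
    ‖slp p b u - slp p b v‖ ≤ ang p b * |u - v| := by
  refine (norm_crc_sub hp norm_dir_le (inner_dir hp) _ _).trans (le_of_eq ?_)
  rw [← sub_mul, abs_mul, abs_of_nonneg ang_nonneg, mul_comm]

theorem norm_slp_sub (hp : ‖p‖ = 1) (u v : ℝ) : ‖slp p b u - slp p b v‖ ≤ π * |u - v| :=
  (norm_slp_sub' hp u v).trans (mul_le_mul_of_nonneg_right ang_le_pi (abs_nonneg _))

/-- the arc does not reach the antipode -/
theorem slp_ne_neg (hp : ‖p‖ = 1) (hb : ‖b‖ = 1) (h : b ≠ -p) {u : ℝ} (h0 : 0 ≤ u) (h1 : u ≤ 1) :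
    slp p b u ≠ -p := by
  intro h2
  have h3 : ⟪p, slp p b u⟫_ℝ = -1 := by
    rw [h2, inner_neg_right, real_inner_self_eq_norm_sq, hp, one_pow]
  have h4 : ⟪p, slp p b u⟫_ℝ = cos (u * ang p b) := by
    rw [slp, crc, inner_add_right, inner_smul_right, inner_smul_right, inner_dir hp,
      real_inner_self_eq_norm_sq, hp]
    ring
  have h5 : u * ang p b ≤ ang p b := mul_le_of_le_one_left ang_nonneg h1
  have h6 : 0 ≤ u * ang p b := mul_nonneg h0 ang_nonneg
  have h7 : cos (ang p b) ≤ cos (u * ang p b) := cos_le_cos_of_nonneg_of_le_pi h6 ang_le_pi h5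
  have h8 : |⟪p, b⟫_ℝ| ≤ 1 := by
    have := abs_real_inner_le_norm p b
    rwa [hp, hb, one_mul] at this
  rw [abs_le] at h8
  rw [← h4, h3, ang, cos_arccos h8.1 h8.2] at h7
  have h9 : ⟪p, b⟫_ℝ = -1 := le_antisymm h7 h8.1
  apply h
  have h10 : ‖prp p b‖ ^ 2 = 0 := by rw [norm_prp_sq hp hb, h9]; norm_num
  have h11 : prp p b = 0 := norm_eq_zero.1 (by simpa using h10)
  rw [prp, h9, sub_eq_zero] at h11
  rw [h11, neg_one_smul]

theorem continuous_ang (p : E) : Continuous (ang p : E → ℝ) := by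
  unfold ang; exact continuous_arccos.comp (continuous_const.inner continuous_id)

theorem continuous_prp (p : E) : Continuous (prp p : E → E) := by
  unfold prp
  exact continuous_id.sub ((continuous_const.inner continuous_id).smul continuous_const)

theorem continuousOn_slp (hp : ‖p‖ = 1) :
    ContinuousOn (fun q : E × ℝ => slp p q.1 q.2) ({b | ‖b‖ = 1 ∧ b ≠ -p} ×ˢ univ) := by
  rintro ⟨b, u⟩ ⟨⟨hb, hbp⟩, -⟩
  dsimp only at hb hbp
  by_cases h0 : prp p b = 0
  · rcases eq_or_of_prp hp hb h0 with rfl | h1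
    · refine ContinuousAt.continuousWithinAt ?_
      show Tendsto _ _ (𝓝 (slp b b u))
      rw [slp_self hp, tendsto_iff_norm_sub_tendsto_zero]
      have h2 : Tendsto (fun q : E × ℝ => ang b q.1 * |q.2|) (𝓝 (b, u)) (𝓝 0) := by
        have h3 : Continuous (fun q : E × ℝ => ang b q.1 * |q.2|) :=
          ((continuous_ang b).comp continuous_fst).mul continuous_snd.abs
        have h4 := h3.tendsto (b, u)
        dsimp only at h4
        rwa [ang_self hp, zero_mul] at h4
      refine squeeze_zero (fun _ => norm_nonneg _) (fun q => ?_) h2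
      have h5 := norm_slp_sub' (b := q.1) hp q.2 0
      rwa [slp_zero, sub_zero] at h5
    · exact absurd h1 hbp
  · refine ContinuousAt.continuousWithinAt ?_
    have hn : ‖prp p b‖ ≠ 0 := norm_ne_zero_iff.2 h0
    have c1 : ContinuousAt (fun q : E × ℝ => prp p q.1) (b, u) :=
      ((continuous_prp p).comp continuous_fst).continuousAt
    have c2 : ContinuousAt (fun q : E × ℝ => dir p q.1) (b, u) := by
      unfold dir
      exact (c1.norm.inv₀ hn).smul c1
    have c3 : ContinuousAt (fun q : E × ℝ => q.2 * ang p q.1) (b, u) :=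
      (continuous_snd.mul ((continuous_ang p).comp continuous_fst)).continuousAt
    unfold slp crc
    exact ((continuous_cos.continuousAt.comp c3).smul continuousAt_const).add
      ((continuous_sin.continuousAt.comp c3).smul c2)

end Crest.Agent.R231.Slerpx694
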