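import Crest.Agent.R231.ArcSys_694
import Crest.Agent.R231.Slerp_694
import Crest.Agent.R231.BiLip_218

/-!
# Row 231 (S0357), leaf GEO (helper694): arcs on `(S^n, g)`

* `neg : SG g → SG g` : the antipode
* `slerp p : ArcSys (SG g) {neg p}ᶜ p`, with `arc p` constant
* `slerpN p : ArcSys (SG g) {p}ᶜ p`
-/

set_option autoImplicit false

open Set Filter Topology Real
open scoped InnerProductSpace

noncomputable section

namespace Crest.Agent.R231.ArcInstx694

open Crest.Agent.R231.GeoBasex724 Crest.Agent.R231.BiLipx218 Crest.Agent.R231.ArcSysx694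
  Crest.Agent.R231.Slerpx694

/-- restriction of the arcs to a smaller set of end points -/
def _root_.Crest.Agent.R231.ArcSysx694.ArcSys.restrict {M : Type*} [MetricSpace M] {D D' : Set M}
    {p : M} (A : ArcSys M D p) (h : D' ⊆ D) : ArcSys M D' p where
  c := A.c
  arc := A.arc
  c_pos := A.c_pos
  zero m hm := A.zero m (h hm)
  one m hm := A.one m (h hm)
  lip m hm := A.lip m (h hm)
  cont := A.cont.mono (prod_mono_left h)

variable {n : ℕ} [NeZero n] {g : Met n}

/-- the antipode -/
def neg (p : SG g) : SG g := toSG g (-((toSG g).symm p))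

theorem vec_neg (p : SG g) : vec (neg p) = -vec p := rfl

theorem neg_neg' (p : SG g) : neg (neg p) = p := by
  apply vec_injective
  rw [vec_neg, vec_neg, neg_neg]

theorem vec_ne_zero (p : SG g) : vec p ≠ 0 := by
  intro h
  have := norm_vec p
  rw [h, norm_zero] at this
  exact zero_ne_one this

theorem neg_ne (p : SG g) : neg p ≠ p := by
  intro h
  have h1 := congrArg vec h
  rw [vec_neg, neg_eq_iff_add_eq_zero, ← two_smul ℝ, smul_eq_zero] at h1
  rcases h1 with h1 | h1
  · norm_num at h1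
  · exact vec_ne_zero p h1

theorem neg_eq_iff (p q : SG g) : neg p = q ↔ neg q = p := by
  constructor
  · intro h; rw [← h, neg_neg']
  · intro h; rw [← h, neg_neg']

theorem continuous_neg' : Continuous (neg : SG g → SG g) :=
  (toSG g).continuous.comp ((continuous_neg (G := Sph n)).comp (toSG g).symm.continuous)

/-- a point of the sphere from a unit vector (`p` otherwise) -/
def mkp (p : SG g) (x : Amb n) : SG g :=
  if h : ‖x‖ = 1 then toSG g ⟨x, by rw [mem_sphere_zero_iff_norm]; exact h⟩ else p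

theorem vec_mkp {p : SG g} {x : Amb n} (h : ‖x‖ = 1) : vec (mkp p x) = x := by
  unfold mkp
  rw [dif_pos h]
  rfl

theorem isEmbedding_vec : IsEmbedding (vec : SG g → Amb n) :=
  IsEmbedding.subtypeVal.comp (toSG g).symm.isEmbedding

theorem continuousOn_mkp {α : Type*} [TopologicalSpace α] {S : Set α} {f : α → Amb n} {p : SG g}
    (hf : ContinuousOn f S) (h : ∀ a ∈ S, ‖f a‖ = 1) : ContinuousOn (fun a => mkp p (f a)) S := by
  rw [isEmbedding_vec.continuousOn_iff]
  exact hf.congr fun a ha => vec_mkp (h a ha)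

/-- **great circle arcs from `p`** -/
def slerp (p : SG g) : ArcSys (SG g) {neg p}ᶜ p where
  c := CL g * π
  arc b u := mkp p (slp (vec p) (vec b) u)
  c_pos := mul_pos (CL_pos g) pi_pos
  zero b _ := by
    apply vec_injective
    rw [slp_zero, vec_mkp (norm_vec p)]
  one b _ := by
    apply vec_injective
    rw [slp_one (norm_vec p) (norm_vec b), vec_mkp (norm_vec b)]
  lip b hb u _ v _ := by
    have h1 : vec b ≠ -vec p := fun h => hb (vec_injective (h.trans (vec_neg p).symm))
    rw [mul_assoc]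
    refine dist_le_of_norm g ?_
    rw [vec_mkp (norm_slp (norm_vec p) (norm_vec b) h1 u),
      vec_mkp (norm_slp (norm_vec p) (norm_vec b) h1 v)]
    exact norm_slp_sub (norm_vec p) u v
  cont := by
    have h1 : ∀ b : SG g, b ∈ ({neg p}ᶜ : Set (SG g)) → vec b ≠ -vec p :=
      fun b hb h => hb (vec_injective (h.trans (vec_neg p).symm))
    refine continuousOn_mkp (f := fun q : SG g × ℝ => slp (vec p) (vec q.1) q.2) ?_ ?_
    · refine (continuousOn_slp (norm_vec p)).comp (f := fun q : SG g × ℝ => (vec q.1, q.2)) ?_ ?_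
      · exact ((continuous_vec.comp continuous_fst).prodMk continuous_snd).continuousOn
      · exact fun q hq => ⟨⟨norm_vec q.1, h1 q.1 hq.1⟩, trivial⟩
    · exact fun q hq => norm_slp (norm_vec p) (norm_vec q.1) (h1 q.1 hq.1) q.2

theorem slerp_self (p : SG g) (u : ℝ) : (slerp p).arc p u = p := by
  apply vec_injective
  show vec (mkp p (slp (vec p) (vec p) u)) = vec p
  rw [slp_self (norm_vec p), vec_mkp (norm_vec p)]

/-- the arcs of `slerp p` stay in `{neg p}ᶜ` -/
theorem slerp_star (p : SG g) {b : SG g} (hb : b ∈ ({neg p}ᶜ : Set (SG g))) {u : ℝ}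
    (hu : u ∈ Icc (0 : ℝ) 1) : (slerp p).arc b u ∈ ({neg p}ᶜ : Set (SG g)) := by
  have h1 : vec b ≠ -vec p := fun h => hb (vec_injective (h.trans (vec_neg p).symm))
  intro h2
  have h3 : vec (mkp p (slp (vec p) (vec b) u)) = vec (neg p) := congrArg vec h2
  rw [vec_mkp (norm_slp (norm_vec p) (norm_vec b) h1 u), vec_neg] at h3
  exact slp_ne_neg (norm_vec p) (norm_vec b) h1 hu.1 hu.2 h3

theorem exists_orth (p : SG g) : ∃ e : Amb n, ‖e‖ = 1 ∧ ⟪vec p, e⟫_ℝ = 0 := by
  have h1 : Module.finrank ℝ (ℝ ∙ vec p)ᗮ = n :=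
    Submodule.finrank_orthogonal_span_singleton (vec_ne_zero p)
  have h2 : 0 < Module.finrank ℝ (ℝ ∙ vec p)ᗮ := by rw [h1]; exact Nat.pos_of_ne_zero (NeZero.ne n)
  have h3 : Nontrivial (ℝ ∙ vec p)ᗮ := Module.finrank_pos_iff.1 h2
  obtain ⟨⟨x, hx⟩, hx0⟩ := exists_ne (0 : (ℝ ∙ vec p)ᗮ)
  have hx1 : x ≠ 0 := fun h => hx0 (Subtype.ext h)
  refine ⟨‖x‖⁻¹ • x, ?_, ?_⟩
  · rw [norm_smul, norm_inv, norm_norm, inv_mul_cancel₀ (norm_ne_zero_iff.2 hx1)]
  · rw [inner_smul_right, Submodule.mem_orthogonal_singleton_iff_inner_right.1 hx, mul_zero]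

/-- a unit vector orthogonal to `p` -/
def ort (p : SG g) : Amb n := Classical.choose (exists_orth p)

theorem norm_ort (p : SG g) : ‖ort p‖ = 1 := (Classical.choose_spec (exists_orth p)).1

theorem inner_ort (p : SG g) : ⟪vec p, ort p⟫_ℝ = 0 := (Classical.choose_spec (exists_orth p)).2

/-- a half great circle from `p` to `-p` -/
def half (p : SG g) (u : ℝ) : SG g := mkp p (crc (vec p) (ort p) (u * π))

theorem vec_half (p : SG g) (u : ℝ) : vec (half p u) = crc (vec p) (ort p) (u * π) :=
  vec_mkp (norm_crc (norm_vec p) (norm_ort p) (inner_ort p) _)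

theorem half_zero (p : SG g) : half p 0 = p := by
  apply vec_injective
  rw [vec_half, zero_mul, crc_zero]

theorem half_one (p : SG g) : half p 1 = neg p := by
  apply vec_injective
  rw [vec_half, one_mul, crc_pi, vec_neg]

theorem half_lip (p : SG g) (u v : ℝ) : dist (half p u) (half p v) ≤ CL g * π * |u - v| := by
  rw [mul_assoc]
  refine dist_le_of_norm g ?_
  rw [vec_half, vec_half]
  refine (norm_crc_sub (norm_vec p) (norm_ort p).le (inner_ort p) _ _).trans (le_of_eq ?_)
  rw [← sub_mul, abs_mul, abs_of_pos pi_pos, mul_comm]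

/-- arcs from `p` to the points `b ≠ p`, through `-p` -/
def slerpN (p : SG g) : ArcSys (SG g) {p}ᶜ p :=
  ((slerp (neg p)).pre (half p) (CL g * π) (half_zero p) (half_one p)
    (fun u _ v _ => half_lip p u v)).restrict (by rw [neg_neg'])

end Crest.Agent.R231.ArcInstx694
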