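import Crest.Agent.R231.TimePoly_644

/-!
# Row 231 (S0357), leaf GEO: conjugation of loops with arcs (helper694)

`Ext c t β γ : ℝ → M` : the loop `γ` run on `[0,t]`, with the tail `β` run backwards on `[-c,0]`
and forwards on `[t,t+c]`; it is `1`-Lipschitz (`Ext_lip`).
* `W c t s β γ` : the loop `x ↦ Ext ((t+2sc)x - sc)` (based at `β s`, in `X (t+2sc)`)
* `Z c t s β γ` : the loop `x ↦ Ext (zig ((t+4sc)x))`: from `γ 0` along `β` to `β s`, back, `γ`, along
  `β` to `β s` and back (based at `γ 0`, in `X (t+4sc)`)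
* `ArcSys M D p` : arcs from `p` to the points of `D`, of length at most `c`
* `tr t γ = arc . γ . arc⁻¹ ∈ Om p (t+2c)`, `un t (m, γ) = arc⁻¹ . γ . arc ∈ X (t+2c)`, and the
  homotopies `h1 .. h6` inside the levels
-/

set_option autoImplicit false
set_option linter.unusedSectionVars false

open Set Filter Topology

noncomputable section

namespace Crest.Agent.R231.ArcSysx694

open Crest.Agent.R231.GLugx576 Crest.Agent.R231.TimePolyx644

/-! ### the time functions -/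

/-- down to `-(s c)`, up to `t + s c`, down to `t` -/
def zig (c t s z : ℝ) : ℝ := min (max (-z) (z - 2 * (s * c))) (2 * t + 4 * (s * c) - z)

theorem abs_zig_sub_le (c t s z z' : ℝ) : |zig c t s z - zig c t s z'| ≤ |z - z'| := by
  unfold zig
  refine (abs_min_sub_min_le_max _ _ _ _).trans (max_le ?_ ?_)
  · refine (abs_max_sub_max_le_max _ _ _ _).trans (max_le ?_ ?_)
    · rw [show -z - -z' = -(z - z') by ring, abs_neg]
    · rw [show z - 2 * (s * c) - (z' - 2 * (s * c)) = z - z' by ring]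
  · rw [show 2 * t + 4 * (s * c) - z - (2 * t + 4 * (s * c) - z') = -(z - z') by ring, abs_neg]

theorem zig_left {c t s z : ℝ} (ht : 0 ≤ t) (hs : 0 ≤ s * c) (hz : z ≤ s * c) :
    zig c t s z = -z := by
  unfold zig
  rw [max_eq_left (by linarith), min_eq_left (by linarith)]

theorem zig_mid {c t s z : ℝ} (hz : s * c ≤ z) (hz' : z ≤ t + 3 * (s * c)) :
    zig c t s z = z - 2 * (s * c) := by
  unfold zig
  rw [max_eq_right (by linarith), min_eq_left (by linarith)]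

theorem zig_right {c t s z : ℝ} (ht : 0 ≤ t) (hs : 0 ≤ s * c) (hz : t + 3 * (s * c) ≤ z) :
    zig c t s z = 2 * t + 4 * (s * c) - z := by
  unfold zig
  rw [max_eq_right (by linarith), min_eq_right (by linarith)]

/-! ### the extended path -/

section ext

variable {M : Type*} [MetricSpace M]

/-- the loop `γ`, run on `[0,t]`, with the tail `β` -/
def Ext (c t : ℝ) (β : ℝ → M) (γ : Lp M) (y : ℝ) : M :=
  if y ≤ 0 then β (cl (-y / c)) else
    if y ≤ t then γ ((y / t : ℝ) : UnitAddCircle) else β (cl ((y - t) / c))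

/-- the data are admissible -/
structure Ok (c t : ℝ) (β : ℝ → M) (γ : Lp M) : Prop where
  c_pos : 0 < c
  t_pos : 0 < t
  mem : γ ∈ X M t
  base : β 0 = γ 0
  lip : ∀ u ∈ Icc (0 : ℝ) 1, ∀ v ∈ Icc (0 : ℝ) 1, dist (β u) (β v) ≤ c * |u - v|

theorem one_coe (γ : Lp M) : γ ((1 : ℝ) : UnitAddCircle) = γ 0 := by
  rw [coe_one_circle]

theorem zero_coe (γ : Lp M) : γ ((0 : ℝ) : UnitAddCircle) = γ 0 := rfl

variable {c t s : ℝ} {β : ℝ → M} {γ : Lp M}

theorem Ext_left {y : ℝ} (hy : y ≤ 0) : Ext c t β γ y = β (cl (-y / c)) := if_pos hy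

theorem Ext_mid (h : Ok c t β γ) {y : ℝ} (hy : 0 ≤ y) (hy' : y ≤ t) :
    Ext c t β γ y = γ ((y / t : ℝ) : UnitAddCircle) := by
  unfold Ext
  rcases hy.eq_or_lt with rfl | h0
  · rw [if_pos le_rfl, neg_zero, zero_div, zero_div, cl_of_le le_rfl, h.base, zero_coe]
  · rw [if_neg (not_le.2 h0), if_pos hy']

theorem Ext_right (h : Ok c t β γ) {y : ℝ} (hy : t ≤ y) :
    Ext c t β γ y = β (cl ((y - t) / c)) := by
  rcases hy.eq_or_lt with rfl | h0
  · rw [Ext_mid h h.t_pos.le le_rfl, div_self h.t_pos.ne', one_coe, sub_self, zero_div,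
      cl_of_le le_rfl, h.base]
  · unfold Ext
    rw [if_neg (not_le.2 (h.t_pos.trans h0)), if_neg (not_le.2 h0)]

theorem Ext_zero (h : Ok c t β γ) : Ext c t β γ 0 = γ 0 := by
  rw [Ext_mid h le_rfl h.t_pos.le, zero_div, zero_coe]

theorem Ext_t (h : Ok c t β γ) : Ext c t β γ t = γ 0 := by
  rw [Ext_mid h h.t_pos.le le_rfl, div_self h.t_pos.ne', one_coe]

/-- gluing of two `1`-Lipschitz pieces -/
theorem lip_glue {f : ℝ → M} {b : ℝ}
    (h1 : ∀ y y', y ≤ y' → y' ≤ b → dist (f y) (f y') ≤ y' - y)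
    (h2 : ∀ y y', y ≤ y' → b ≤ y → dist (f y) (f y') ≤ y' - y) :
    ∀ y y', y ≤ y' → dist (f y) (f y') ≤ y' - y := by
  intro y y' hy
  rcases le_total y' b with h | h
  · exact h1 y y' hy h
  · rcases le_total b y with h' | h'
    · exact h2 y y' hy h'
    · have a1 := h1 y b h' le_rfl
      have a2 := h2 b y' h le_rfl
      have a3 := dist_triangle (f y) (f b) (f y')
      linarith

theorem Ext_lip' (h : Ok c t β γ) : ∀ y y', y ≤ y' →
    dist (Ext c t β γ y) (Ext c t β γ y') ≤ y' - y := by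
  have hc := h.c_pos
  have ht := h.t_pos
  have hβ : ∀ u v : ℝ, dist (β (cl (u / c))) (β (cl (v / c))) ≤ |u - v| := by
    intro u v
    refine (h.lip _ (cl_mem _) _ (cl_mem _)).trans ?_
    have h1 := abs_cl_sub_le (u / c) (v / c)
    rw [← sub_div, abs_div, abs_of_pos hc] at h1
    calc c * |cl (u / c) - cl (v / c)| ≤ c * (|u - v| / c) :=
          mul_le_mul_of_nonneg_left h1 hc.le
      _ = |u - v| := by field_simp
  refine lip_glue (b := 0) (fun y y' hy hb => ?_) fun y y' hy hb => ?_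
  · rw [Ext_left (hy.trans hb), Ext_left hb]
    refine (hβ _ _).trans (le_of_eq ?_)
    rw [show -y - -y' = y' - y by ring, abs_of_nonneg (by linarith)]
  · revert hb
    revert hy
    have key : ∀ y y', y ≤ y' → (0 ≤ y → dist (Ext c t β γ y) (Ext c t β γ y') ≤ y' - y) := by
      intro y y' hy h0
      rcases le_total y' t with h1 | h1
      · rw [Ext_mid h h0 (hy.trans h1), Ext_mid h (h0.trans hy) h1]
        refine (h.mem _ _).trans (le_of_eq ?_)
        rw [← sub_div, abs_div, abs_of_pos ht, abs_sub_comm, abs_of_nonneg (by linarith)]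
        field_simp
      · rcases le_total t y with h2 | h2
        · rw [Ext_right h h2, Ext_right h h1]
          refine (hβ _ _).trans (le_of_eq ?_)
          rw [show y - t - (y' - t) = -(y' - y) by ring, abs_neg, abs_of_nonneg (by linarith)]
        · have a1 : dist (Ext c t β γ y) (Ext c t β γ t) ≤ t - y := by
            rw [Ext_mid h h0 h2, Ext_mid h ht.le le_rfl]
            refine (h.mem _ _).trans (le_of_eq ?_)
            rw [← sub_div, abs_div, abs_of_pos ht, abs_sub_comm, abs_of_nonneg (by linarith)]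
            field_simp
          have a2 : dist (Ext c t β γ t) (Ext c t β γ y') ≤ y' - t := by
            rw [Ext_right h le_rfl, Ext_right h h1]
            refine (hβ _ _).trans (le_of_eq ?_)
            rw [show t - t - (y' - t) = -(y' - t) by ring, abs_neg, abs_of_nonneg (by linarith)]
          have a3 := dist_triangle (Ext c t β γ y) (Ext c t β γ t) (Ext c t β γ y')
          linarith
    exact key y y'

theorem Ext_lip (h : Ok c t β γ) (y y' : ℝ) :
    dist (Ext c t β γ y) (Ext c t β γ y') ≤ |y - y'| := by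
  rcases le_total y y' with h1 | h1
  · rw [abs_sub_comm, abs_of_nonneg (by linarith)]
    exact Ext_lip' h y y' h1
  · rw [dist_comm, abs_of_nonneg (by linarith)]
    exact Ext_lip' h y' y h1

theorem Ext_cont (h : Ok c t β γ) : Continuous (Ext c t β γ) := by
  have : LipschitzWith 1 (Ext c t β γ) := LipschitzWith.of_dist_le_mul fun x y => by
    simpa [Real.dist_eq] using Ext_lip h x y
  exact this.continuous

/-! ### the two loops -/

/-- the time function of `W` -/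
def wt (c t s x : ℝ) : ℝ := (t + 2 * (s * c)) * x - s * c

/-- the time function of `Z` -/
def zt (c t s x : ℝ) : ℝ := zig c t s ((t + 4 * (s * c)) * x)

/-- `β(s) . γ . β(s)⁻¹` -/
def W (c t s : ℝ) (β : ℝ → M) (γ : Lp M) : Lp M := toLp fun x => Ext c t β γ (wt c t s x)

/-- `[β(0) → β(s) → β(0)] . γ . [β(0) → β(s) → β(0)]` -/
def Z (c t s : ℝ) (β : ℝ → M) (γ : Lp M) : Lp M := toLp fun x => Ext c t β γ (zt c t s x)

theorem wt_ends (h : Ok c t β γ) (hs : s ∈ Icc (0 : ℝ) 1) :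
    Ext c t β γ (wt c t s 0) = β s ∧ Ext c t β γ (wt c t s 1) = β s := by
  have h0 : 0 ≤ s * c := mul_nonneg hs.1 h.c_pos.le
  have e : s * c / c = s := by have := h.c_pos.ne'; field_simp
  constructor
  · rw [Ext_left (by unfold wt; linarith)]
    have : -wt c t s 0 / c = s := by
      rw [show -wt c t s 0 = s * c by unfold wt; ring, e]
    rw [this, cl_of_mem hs]
  · rw [Ext_right h (by unfold wt; linarith)]
    have : (wt c t s 1 - t) / c = s := by
      rw [show wt c t s 1 - t = s * c by unfold wt; ring, e]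
    rw [this, cl_of_mem hs]

theorem zt_ends (h : Ok c t β γ) (hs : s ∈ Icc (0 : ℝ) 1) :
    Ext c t β γ (zt c t s 0) = γ 0 ∧ Ext c t β γ (zt c t s 1) = γ 0 := by
  have h0 : 0 ≤ s * c := mul_nonneg hs.1 h.c_pos.le
  constructor
  · unfold zt
    rw [mul_zero, zig_left h.t_pos.le h0 h0, neg_zero, Ext_zero h]
  · unfold zt
    rw [mul_one, zig_right h.t_pos.le h0 (by linarith)]
    rw [show 2 * t + 4 * (s * c) - (t + 4 * (s * c)) = t by ring, Ext_t h]

theorem W_apply (h : Ok c t β γ) (hs : s ∈ Icc (0 : ℝ) 1) {x : ℝ} (hx : x ∈ Icc (0 : ℝ) 1) :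
    W c t s β γ (x : UnitAddCircle) = Ext c t β γ (wt c t s x) := by
  refine toLp_apply (f := fun x => Ext c t β γ (wt c t s x)) ?_ ?_ hx
  · refine Continuous.continuousOn ((Ext_cont h).comp ?_)
    unfold wt; fun_prop
  · show Ext c t β γ (wt c t s 0) = Ext c t β γ (wt c t s 1)
    rw [(wt_ends h hs).1, (wt_ends h hs).2]

theorem Z_apply (h : Ok c t β γ) (hs : s ∈ Icc (0 : ℝ) 1) {x : ℝ} (hx : x ∈ Icc (0 : ℝ) 1) :
    Z c t s β γ (x : UnitAddCircle) = Ext c t β γ (zt c t s x) := by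
  refine toLp_apply (f := fun x => Ext c t β γ (zt c t s x)) ?_ ?_ hx
  · refine Continuous.continuousOn ((Ext_cont h).comp ?_)
    unfold zt zig; fun_prop
  · show Ext c t β γ (zt c t s 0) = Ext c t β γ (zt c t s 1)
    rw [(zt_ends h hs).1, (zt_ends h hs).2]

theorem W_base (h : Ok c t β γ) (hs : s ∈ Icc (0 : ℝ) 1) : W c t s β γ 0 = β s := by
  have h1 := W_apply h hs (x := 0) ⟨le_rfl, zero_le_one⟩
  rw [(wt_ends h hs).1] at h1
  exact h1

theorem Z_base (h : Ok c t β γ) (hs : s ∈ Icc (0 : ℝ) 1) : Z c t s β γ 0 = γ 0 := by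
  have h1 := Z_apply h hs (x := 0) ⟨le_rfl, zero_le_one⟩
  rw [(zt_ends h hs).1] at h1
  exact h1

theorem W_mem (h : Ok c t β γ) (hs : s ∈ Icc (0 : ℝ) 1) :
    W c t s β γ ∈ X M (t + 2 * (s * c)) := by
  have h0 : 0 ≤ s * c := mul_nonneg hs.1 h.c_pos.le
  refine mem_X_of_Icc fun x y hx hxy hy => ?_
  rw [W_apply h hs ⟨hx, hxy.trans hy⟩, W_apply h hs ⟨hx.trans hxy, hy⟩]
  refine (Ext_lip h _ _).trans (le_of_eq ?_)
  rw [show wt c t s x - wt c t s y = -((t + 2 * (s * c)) * (y - x)) by unfold wt; ring, abs_neg,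
    abs_of_nonneg (mul_nonneg (by linarith [h.t_pos]) (by linarith))]

theorem Z_mem (h : Ok c t β γ) (hs : s ∈ Icc (0 : ℝ) 1) :
    Z c t s β γ ∈ X M (t + 4 * (s * c)) := by
  have h0 : 0 ≤ s * c := mul_nonneg hs.1 h.c_pos.le
  refine mem_X_of_Icc fun x y hx hxy hy => ?_
  rw [Z_apply h hs ⟨hx, hxy.trans hy⟩, Z_apply h hs ⟨hx.trans hxy, hy⟩]
  refine (Ext_lip h _ _).trans ((abs_zig_sub_le _ _ _ _ _).trans (le_of_eq ?_))
  rw [show (t + 4 * (s * c)) * x - (t + 4 * (s * c)) * y = -((t + 4 * (s * c)) * (y - x)) by ring,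
    abs_neg, abs_of_nonneg (mul_nonneg (by linarith [h.t_pos]) (by linarith))]

theorem loop_ext {γ γ' : Lp M} (h : ∀ x ∈ Icc (0 : ℝ) 1, γ (x : UnitAddCircle) = γ' x) : γ = γ' := by
  ext x
  obtain ⟨u, hu, rfl⟩ := exists_Icc x
  exact h u hu

theorem W_zero (h : Ok c t β γ) : W c t 0 β γ = γ := by
  refine loop_ext fun x hx => ?_
  have ht := h.t_pos
  rw [W_apply h ⟨le_rfl, zero_le_one⟩ hx]
  have e : wt c t 0 x = t * x := by unfold wt; ring
  rw [e, Ext_mid h (mul_nonneg ht.le hx.1) (mul_le_of_le_one_right ht.le hx.2)]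
  congr 2
  field_simp

theorem Z_zero (h : Ok c t β γ) : Z c t 0 β γ = γ := by
  refine loop_ext fun x hx => ?_
  have ht := h.t_pos
  rw [Z_apply h ⟨le_rfl, zero_le_one⟩ hx]
  have h1 : 0 ≤ t * x := mul_nonneg ht.le hx.1
  have h2 : t * x ≤ t := mul_le_of_le_one_right ht.le hx.2
  have e : zt c t 0 x = t * x := by
    unfold zt
    rw [show (t + 4 * (0 * c)) * x = t * x by ring, zig_mid (by linarith) (by linarith)]
    ring
  rw [e, Ext_mid h h1 h2]
  congr 2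
  field_simp

/-- conjugation back and forth -/
theorem Z_one (h : Ok c t β γ) :
    Z c t 1 β γ = W c (t + 2 * c) 1 (fun u => β (1 - u)) (W c t 1 β γ) := by
  have hc := h.c_pos
  have ht := h.t_pos
  have h1 : (1 : ℝ) ∈ Icc (0 : ℝ) 1 := ⟨zero_le_one, le_rfl⟩
  have hm : W c t 1 β γ ∈ X M (t + 2 * c) := by
    have := W_mem h h1
    rwa [one_mul] at this
  have h' : Ok c (t + 2 * c) (fun u => β (1 - u)) (W c t 1 β γ) := by
    refine ⟨hc, by linarith, hm, ?_, fun u hu v hv => ?_⟩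
    · show β (1 - 0) = _
      rw [W_base h h1, sub_zero]
    · refine (h.lip _ ⟨by linarith [hu.2], by linarith [hu.1]⟩ _
        ⟨by linarith [hv.2], by linarith [hv.1]⟩).trans (le_of_eq ?_)
      rw [show 1 - u - (1 - v) = -(u - v) by ring, abs_neg]
  refine loop_ext fun x hx => ?_
  rw [Z_apply h h1 hx, W_apply h' h1 hx]
  set y : ℝ := wt c (t + 2 * c) 1 x with hy
  have ez : (t + 4 * (1 * c)) * x = y + c := by rw [hy]; unfold wt; ring
  have hy0 : -c ≤ y := by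
    rw [hy]; unfold wt
    have : 0 ≤ (t + 2 * c + 2 * (1 * c)) * x := mul_nonneg (by linarith) hx.1
    linarith
  have hy1 : y ≤ t + 3 * c := by
    rw [hy]; unfold wt
    have : (t + 2 * c + 2 * (1 * c)) * x ≤ t + 2 * c + 2 * (1 * c) :=
      mul_le_of_le_one_right (by linarith) hx.2
    linarith
  have ezt : zt c t 1 x = zig c t 1 (y + c) := by unfold zt; rw [ez]
  rw [ezt]
  rcases le_total y 0 with h2 | h2
  · rw [zig_left ht.le (by linarith) (by linarith), Ext_left (by linarith), Ext_left h2]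
    show β (cl (-(-(y + c)) / c)) = β (1 - cl (-y / c))
    have a1 : -y / c ∈ Icc (0 : ℝ) 1 := by
      constructor
      · exact div_nonneg (by linarith) hc.le
      · rw [div_le_one hc]; linarith
    have a2 : -(-(y + c)) / c = 1 - -y / c := by field_simp; ring
    rw [a2, cl_of_mem a1, cl_of_mem ⟨by linarith [a1.2], by linarith [a1.1]⟩]
  · rcases le_total y (t + 2 * c) with h3 | h3
    · rw [zig_mid (by linarith) (by linarith), Ext_mid h' h2 h3]
      have a1 : y / (t + 2 * c) ∈ Icc (0 : ℝ) 1 := by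
        constructor
        · exact div_nonneg h2 (by linarith)
        · rw [div_le_one (by linarith)]; exact h3
      rw [W_apply h h1 a1]
      congr 1
      unfold wt
      have : t + 2 * c ≠ 0 := by linarith
      field_simp
      ring
    · rw [zig_right ht.le (by linarith) (by linarith), Ext_right h (by linarith),
        Ext_right h' h3]
      show β (cl ((2 * t + 4 * (1 * c) - (y + c) - t) / c)) = β (1 - cl ((y - (t + 2 * c)) / c))
      have a1 : (y - (t + 2 * c)) / c ∈ Icc (0 : ℝ) 1 := by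
        constructor
        · exact div_nonneg (by linarith) hc.le
        · rw [div_le_one hc]; linarith
      have a2 : (2 * t + 4 * (1 * c) - (y + c) - t) / c = 1 - (y - (t + 2 * c)) / c := by
        field_simp; ring
      rw [a2, cl_of_mem a1, cl_of_mem ⟨by linarith [a1.2], by linarith [a1.1]⟩]

/-! ### joint continuity -/

section cont

variable {α : Type*} [TopologicalSpace α] {S : Set α} {c : ℝ} {t s : α → ℝ} {γ : α → Lp M}
  {β : α → ℝ → M}

theorem cont_Ext {t : α → ℝ} {γ : α → Lp M} {β : α → ℝ → M} (ht : Continuous t)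
    (hγ : Continuous γ)
    (hβ : ContinuousOn (fun q : α × ℝ => β q.1 q.2) (univ ×ˢ Icc (0 : ℝ) 1))
    (h : ∀ a, Ok c (t a) (β a) (γ a)) :
    Continuous (fun q : α × ℝ => Ext c (t q.1) (β q.1) (γ q.1) q.2) := by
  have key : ∀ f : α × ℝ → ℝ, Continuous f → Continuous fun q : α × ℝ => β q.1 (cl (f q)) :=
    fun f hf => hβ.comp_continuous (continuous_fst.prodMk (continuous_cl.comp hf))
      fun q => ⟨trivial, cl_mem _⟩
  have k1 : Continuous fun q : α × ℝ => β q.1 (cl (-q.2 / c)) :=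
    key _ (continuous_snd.neg.div_const c)
  have k2 : Continuous fun q : α × ℝ => β q.1 (cl ((q.2 - t q.1) / c)) :=
    key _ ((continuous_snd.sub (ht.comp continuous_fst)).div_const c)
  have k3 : Continuous fun q : α × ℝ => (γ q.1) ((q.2 / t q.1 : ℝ) : UnitAddCircle) := by
    refine continuous_evalR.comp ((hγ.comp continuous_fst).prodMk ?_)
    exact continuous_snd.div (ht.comp continuous_fst) fun q => (h q.1).t_pos.ne'
  unfold Ext
  refine Continuous.if_le k1 (Continuous.if_le k3 k2 continuous_snd (ht.comp continuous_fst) ?_)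
    continuous_snd continuous_const ?_
  · intro q hq
    have hq' : q.2 = t q.1 := hq
    rw [hq', div_self (h q.1).t_pos.ne', one_coe, sub_self, zero_div, cl_of_le le_rfl, (h q.1).base]
  · intro q hq
    have hq' : q.2 = 0 := hq
    rw [hq', if_pos (h q.1).t_pos.le, neg_zero, zero_div, zero_div, cl_of_le le_rfl, (h q.1).base,
      zero_coe]

theorem contOn_Ext (ht : ContinuousOn t S) (hγ : ContinuousOn γ S)
    (hβ : ContinuousOn (fun q : α × ℝ => β q.1 q.2) (S ×ˢ Icc (0 : ℝ) 1))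
    (h : ∀ a ∈ S, Ok c (t a) (β a) (γ a)) :
    ContinuousOn (fun q : α × ℝ => Ext c (t q.1) (β q.1) (γ q.1) q.2) (S ×ˢ univ) := by
  have h1 := cont_Ext (c := c) (α := S) (t := fun a => t a) (γ := fun a => γ a)
    (β := fun a => β a) ht.domRestrict hγ.domRestrict
    (by
      have h2 : Continuous (fun q : S × ℝ => ((q.1 : α), q.2)) := by fun_prop
      exact hβ.comp h2.continuousOn fun q hq => ⟨q.1.2, hq.2⟩)
    (fun a => h a a.2)
  rw [continuousOn_iff_continuous_domRestrict]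
  have h2 : Continuous (fun q : (S ×ˢ (univ : Set ℝ) : Set (α × ℝ)) =>
      ((⟨q.1.1, q.2.1⟩ : S), q.1.2)) := by fun_prop
  exact h1.comp h2

theorem contOn_W (ht : ContinuousOn t S) (hs : ContinuousOn s S) (hγ : ContinuousOn γ S)
    (hβ : ContinuousOn (fun q : α × ℝ => β q.1 q.2) (S ×ˢ Icc (0 : ℝ) 1))
    (h : ∀ a ∈ S, Ok c (t a) (β a) (γ a)) (hs1 : ∀ a ∈ S, s a ∈ Icc (0 : ℝ) 1) :
    ContinuousOn (fun a => W c (t a) (s a) (β a) (γ a)) S := by
  refine contOn_to_loop ?_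
  have h1 := contOn_Ext ht hγ hβ h
  have h2 : ContinuousOn (fun q : α × ℝ => (q.1, wt c (t q.1) (s q.1) q.2)) (S ×ˢ Icc (0 : ℝ) 1) := by
    unfold wt
    have a1 : ContinuousOn (fun q : α × ℝ => t q.1) (S ×ˢ Icc (0 : ℝ) 1) :=
      ht.comp continuousOn_fst fun q hq => hq.1
    have a2 : ContinuousOn (fun q : α × ℝ => s q.1) (S ×ˢ Icc (0 : ℝ) 1) :=
      hs.comp continuousOn_fst fun q hq => hq.1
    exact continuousOn_fst.prodMk (((a1.add (continuousOn_const.mul (a2.mul continuousOn_const))).mul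
      continuousOn_snd).sub (a2.mul continuousOn_const))
  refine (h1.comp h2 fun q hq => ⟨hq.1, trivial⟩).congr ?_
  intro q hq
  exact W_apply (h q.1 hq.1) (hs1 q.1 hq.1) hq.2

theorem contOn_Z (ht : ContinuousOn t S) (hs : ContinuousOn s S) (hγ : ContinuousOn γ S)
    (hβ : ContinuousOn (fun q : α × ℝ => β q.1 q.2) (S ×ˢ Icc (0 : ℝ) 1))
    (h : ∀ a ∈ S, Ok c (t a) (β a) (γ a)) (hs1 : ∀ a ∈ S, s a ∈ Icc (0 : ℝ) 1) :
    ContinuousOn (fun a => Z c (t a) (s a) (β a) (γ a)) S := by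
  refine contOn_to_loop ?_
  have h1 := contOn_Ext ht hγ hβ h
  have h2 : ContinuousOn (fun q : α × ℝ => (q.1, zt c (t q.1) (s q.1) q.2)) (S ×ˢ Icc (0 : ℝ) 1) := by
    unfold zt zig
    have a1 : ContinuousOn (fun q : α × ℝ => t q.1) (S ×ˢ Icc (0 : ℝ) 1) :=
      ht.comp continuousOn_fst fun q hq => hq.1
    have a2 : ContinuousOn (fun q : α × ℝ => s q.1) (S ×ˢ Icc (0 : ℝ) 1) :=
      hs.comp continuousOn_fst fun q hq => hq.1
    have a3 : ContinuousOn (fun q : α × ℝ => (t q.1 + 4 * (s q.1 * c)) * q.2)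
        (S ×ˢ Icc (0 : ℝ) 1) :=
      (a1.add (continuousOn_const.mul (a2.mul continuousOn_const))).mul continuousOn_snd
    refine continuousOn_fst.prodMk ?_
    refine ContinuousOn.inf (ContinuousOn.sup a3.neg (a3.sub (continuousOn_const.mul
      (a2.mul continuousOn_const)))) (((continuousOn_const.mul a1).add (continuousOn_const.mul
      (a2.mul continuousOn_const))).sub a3)
  refine (h1.comp h2 fun q hq => ⟨hq.1, trivial⟩).congr ?_
  intro q hq
  exact Z_apply (h q.1 hq.1) (hs1 q.1 hq.1) hq.2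

end cont

end ext

/-! ### systems of arcs -/

/-- based loops of level `t` -/
def Om {M : Type*} [MetricSpace M] (p : M) (t : ℝ) : Set (Lp M) := {γ | γ ∈ X M t ∧ γ 0 = p}

/-- loops of level `t` with base point in `D` -/
def XD {M : Type*} [MetricSpace M] (D : Set M) (t : ℝ) : Set (Lp M) := {γ | γ ∈ X M t ∧ γ 0 ∈ D}

/-- **arcs from `p` to the points of `D`** of Lipschitz constant `c` -/
structure ArcSys (M : Type*) [MetricSpace M] (D : Set M) (p : M) where
  /-- the Lipschitz constant -/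
  c : ℝ
  /-- the arcs -/
  arc : M → ℝ → M
  c_pos : 0 < c
  zero : ∀ m ∈ D, arc m 0 = p
  one : ∀ m ∈ D, arc m 1 = m
  lip : ∀ m ∈ D, ∀ u ∈ Icc (0 : ℝ) 1, ∀ v ∈ Icc (0 : ℝ) 1, dist (arc m u) (arc m v) ≤ c * |u - v|
  cont : ContinuousOn (fun q : M × ℝ => arc q.1 q.2) (D ×ˢ Icc (0 : ℝ) 1)

section arcs

variable {M : Type*} [MetricSpace M] {D : Set M} {p : M}

theorem mem_Om {t : ℝ} {γ : Lp M} : γ ∈ Om p t ↔ γ ∈ X M t ∧ γ 0 = p := Iff.rfl

theorem mem_XD {t : ℝ} {γ : Lp M} : γ ∈ XD D t ↔ γ ∈ X M t ∧ γ 0 ∈ D := Iff.rfl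

theorem Om_mono {s t : ℝ} (h : s ≤ t) : Om p s ⊆ Om p t := fun _ hγ => ⟨X_mono h hγ.1, hγ.2⟩

theorem XD_mono {s t : ℝ} (h : s ≤ t) : XD D s ⊆ XD D t := fun _ hγ => ⟨X_mono h hγ.1, hγ.2⟩

theorem Om_sub_X (t : ℝ) : Om p t ⊆ X M t := fun _ h => h.1

theorem XD_sub_X (t : ℝ) : XD D t ⊆ X M t := fun _ h => h.1

theorem Om_sub_XD (hp : p ∈ D) (t : ℝ) : Om p t ⊆ XD D t := fun _ h => ⟨h.1, by rw [h.2]; exact hp⟩

theorem one_Icc : (1 : ℝ) ∈ Icc (0 : ℝ) 1 := ⟨zero_le_one, le_rfl⟩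

theorem zero_Icc : (0 : ℝ) ∈ Icc (0 : ℝ) 1 := ⟨le_rfl, zero_le_one⟩

namespace ArcSys

variable (A : ArcSys M D p)

/-- the reversed arc -/
def rarc (m : M) (u : ℝ) : M := A.arc m (1 - u)

theorem rarc_zero {m : M} (hm : m ∈ D) : A.rarc m 0 = m := by
  unfold rarc; rw [sub_zero]; exact A.one m hm

theorem rarc_one {m : M} (hm : m ∈ D) : A.rarc m 1 = p := by
  unfold rarc; rw [sub_self]; exact A.zero m hm

theorem rarc_cont : ContinuousOn (fun q : M × ℝ => A.rarc q.1 q.2) (D ×ˢ Icc (0 : ℝ) 1) := by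
  refine A.cont.comp (f := fun q : M × ℝ => (q.1, 1 - q.2)) (by fun_prop) fun q hq => ?_
  exact ⟨hq.1, by show 0 ≤ 1 - q.2; linarith [hq.2.2], by show 1 - q.2 ≤ 1; linarith [hq.2.1]⟩

/-- admissibility of the reversed arc -/
theorem ok_r {t : ℝ} (ht : 0 < t) {γ : Lp M} (hγ : γ ∈ XD D t) : Ok A.c t (A.rarc (γ 0)) γ :=
  ⟨A.c_pos, ht, hγ.1, A.rarc_zero hγ.2, fun u hu v hv => by
    refine (A.lip _ hγ.2 _ ⟨by linarith [hu.2], by linarith [hu.1]⟩ _
      ⟨by linarith [hv.2], by linarith [hv.1]⟩).trans (le_of_eq ?_)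
    rw [show 1 - u - (1 - v) = -(u - v) by ring, abs_neg]⟩

/-- admissibility of the arc -/
theorem ok_a {t : ℝ} (ht : 0 < t) {m : M} (hm : m ∈ D) {γ : Lp M} (hγ : γ ∈ Om p t) :
    Ok A.c t (A.arc m) γ :=
  ⟨A.c_pos, ht, hγ.1, by rw [A.zero m hm, hγ.2], A.lip m hm⟩

/-- `arc(γ 0) . γ . arc(γ 0)⁻¹`, based at `p` -/
def tr (t : ℝ) (γ : Lp M) : Lp M := W A.c t 1 (A.rarc (γ 0)) γ

/-- `arc(m)⁻¹ . γ . arc(m)`, based at `m` -/
def un (t : ℝ) (m : M) (γ : Lp M) : Lp M := W A.c t 1 (A.arc m) γ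

/-- `id ~ un (γ 0) (tr γ)`, rel base -/
def h1 (t : ℝ) (γ : Lp M) (s : ℝ) : Lp M := Z A.c t s (A.rarc (γ 0)) γ

/-- `id ~ tr (un m γ)`, rel base -/
def h2 (t : ℝ) (m : M) (γ : Lp M) (s : ℝ) : Lp M := Z A.c t s (A.arc m) γ

/-- `id ~ tr`, free -/
def h3 (t : ℝ) (γ : Lp M) (s : ℝ) : Lp M := W A.c t s (A.rarc (γ 0)) γ

/-- `id ~ un m`, free -/
def h4 (t : ℝ) (m : M) (γ : Lp M) (s : ℝ) : Lp M := W A.c t s (A.arc m) γ

variable {A} {t s : ℝ} {γ : Lp M} {m : M}

theorem tr_base (ht : 0 < t) (hγ : γ ∈ XD D t) : A.tr t γ 0 = p := by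
  rw [tr, W_base (A.ok_r ht hγ) one_Icc, A.rarc_one hγ.2]

theorem tr_mem (ht : 0 < t) (hγ : γ ∈ XD D t) : A.tr t γ ∈ Om p (t + 2 * A.c) := by
  refine ⟨?_, tr_base ht hγ⟩
  have := W_mem (A.ok_r ht hγ) one_Icc
  rwa [one_mul] at this

theorem un_base (ht : 0 < t) (hm : m ∈ D) (hγ : γ ∈ Om p t) : A.un t m γ 0 = m := by
  rw [un, W_base (A.ok_a ht hm hγ) one_Icc, A.one m hm]

theorem un_mem (ht : 0 < t) (hm : m ∈ D) (hγ : γ ∈ Om p t) :
    A.un t m γ ∈ XD D (t + 2 * A.c) := by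
  refine ⟨?_, by rw [un_base ht hm hγ]; exact hm⟩
  have := W_mem (A.ok_a ht hm hγ) one_Icc
  rwa [one_mul] at this

theorem h1_zero (ht : 0 < t) (hγ : γ ∈ XD D t) : A.h1 t γ 0 = γ := Z_zero (A.ok_r ht hγ)

theorem h1_base (ht : 0 < t) (hγ : γ ∈ XD D t) (hs : s ∈ Icc (0 : ℝ) 1) :
    A.h1 t γ s 0 = γ 0 := Z_base (A.ok_r ht hγ) hs

theorem le_c4 (hs : s ∈ Icc (0 : ℝ) 1) : t + 4 * (s * A.c) ≤ t + 4 * A.c := by
  have := mul_le_of_le_one_left A.c_pos.le hs.2
  linarith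

theorem le_c2 (hs : s ∈ Icc (0 : ℝ) 1) : t + 2 * (s * A.c) ≤ t + 2 * A.c := by
  have := mul_le_of_le_one_left A.c_pos.le hs.2
  linarith

theorem h1_mem (ht : 0 < t) (hγ : γ ∈ XD D t) (hs : s ∈ Icc (0 : ℝ) 1) :
    A.h1 t γ s ∈ XD D (t + 4 * A.c) :=
  ⟨X_mono (le_c4 hs) (Z_mem (A.ok_r ht hγ) hs), by rw [h1_base ht hγ hs]; exact hγ.2⟩

theorem h1_one (ht : 0 < t) (hγ : γ ∈ XD D t) :
    A.h1 t γ 1 = A.un (t + 2 * A.c) (γ 0) (A.tr t γ) := by
  rw [h1, Z_one (A.ok_r ht hγ)]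
  have : (fun u => A.rarc (γ 0) (1 - u)) = A.arc (γ 0) := by
    funext u; unfold rarc; rw [sub_sub_cancel]
  rw [this]
  rfl

theorem h2_zero (ht : 0 < t) (hm : m ∈ D) (hγ : γ ∈ Om p t) : A.h2 t m γ 0 = γ :=
  Z_zero (A.ok_a ht hm hγ)

theorem h2_mem (ht : 0 < t) (hm : m ∈ D) (hγ : γ ∈ Om p t) (hs : s ∈ Icc (0 : ℝ) 1) :
    A.h2 t m γ s ∈ Om p (t + 4 * A.c) :=
  ⟨X_mono (le_c4 hs) (Z_mem (A.ok_a ht hm hγ) hs), by rw [h2, Z_base (A.ok_a ht hm hγ) hs, hγ.2]⟩

theorem h2_one (ht : 0 < t) (hm : m ∈ D) (hγ : γ ∈ Om p t) :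
    A.h2 t m γ 1 = A.tr (t + 2 * A.c) (A.un t m γ) := by
  rw [h2, Z_one (A.ok_a ht hm hγ), tr, un_base ht hm hγ]
  rfl

theorem h3_zero (ht : 0 < t) (hγ : γ ∈ XD D t) : A.h3 t γ 0 = γ := W_zero (A.ok_r ht hγ)

theorem h3_one : A.h3 t γ 1 = A.tr t γ := rfl

theorem h3_base (ht : 0 < t) (hγ : γ ∈ XD D t) (hs : s ∈ Icc (0 : ℝ) 1) :
    A.h3 t γ s 0 = A.arc (γ 0) (1 - s) := W_base (A.ok_r ht hγ) hs

theorem h3_mem (ht : 0 < t) (hγ : γ ∈ XD D t) (hs : s ∈ Icc (0 : ℝ) 1) :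
    A.h3 t γ s ∈ X M (t + 2 * A.c) := X_mono (le_c2 hs) (W_mem (A.ok_r ht hγ) hs)

/-- if the arc of `p` is constant: `tr ~ id` on `Om p` -/
theorem h3_mem_Om (hp : p ∈ D) (hc : ∀ u ∈ Icc (0 : ℝ) 1, A.arc p u = p) (ht : 0 < t)
    (hγ : γ ∈ Om p t) (hs : s ∈ Icc (0 : ℝ) 1) : A.h3 t γ s ∈ Om p (t + 2 * A.c) := by
  have hγ' := Om_sub_XD hp t hγ
  refine ⟨h3_mem ht hγ' hs, ?_⟩
  rw [h3_base ht hγ' hs, hγ.2]
  exact hc _ ⟨by linarith [hs.2], by linarith [hs.1]⟩

theorem h4_zero (ht : 0 < t) (hm : m ∈ D) (hγ : γ ∈ Om p t) : A.h4 t m γ 0 = γ :=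
  W_zero (A.ok_a ht hm hγ)

theorem h4_one : A.h4 t m γ 1 = A.un t m γ := rfl

theorem h4_base (ht : 0 < t) (hm : m ∈ D) (hγ : γ ∈ Om p t) (hs : s ∈ Icc (0 : ℝ) 1) :
    A.h4 t m γ s 0 = A.arc m s := W_base (A.ok_a ht hm hγ) hs

theorem h4_mem (ht : 0 < t) (hm : m ∈ D) (hγ : γ ∈ Om p t) (hs : s ∈ Icc (0 : ℝ) 1) :
    A.h4 t m γ s ∈ X M (t + 2 * A.c) := X_mono (le_c2 hs) (W_mem (A.ok_a ht hm hγ) hs)

/-- if the arc of `p` is constant: `un p ~ id` on `Om p` -/
theorem h4_mem_Om (hp : p ∈ D) (hc : ∀ u ∈ Icc (0 : ℝ) 1, A.arc p u = p) (ht : 0 < t)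
    (hγ : γ ∈ Om p t) (hs : s ∈ Icc (0 : ℝ) 1) : A.h4 t p γ s ∈ Om p (t + 2 * A.c) := by
  refine ⟨h4_mem ht hp hγ hs, ?_⟩
  rw [h4_base ht hp hγ hs]
  exact hc _ hs

/-! #### continuity -/

section cont

variable {α : Type*} [TopologicalSpace α] {S : Set α} {t' s' : α → ℝ} {γ' : α → Lp M} {m' : α → M}

theorem contOn_base (hγ : ContinuousOn γ' S) : ContinuousOn (fun a => γ' a 0) S :=
  (continuous_eval_const (0 : UnitAddCircle)).comp_continuousOn hγ

theorem contOn_rarc (hγ : ContinuousOn γ' S) (h : ∀ a ∈ S, γ' a 0 ∈ D) :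
    ContinuousOn (fun q : α × ℝ => A.rarc (γ' q.1 0) q.2) (S ×ˢ Icc (0 : ℝ) 1) :=
  A.rarc_cont.comp (f := fun q : α × ℝ => (γ' q.1 0, q.2))
    (((contOn_base hγ).comp continuousOn_fst fun _ hq => hq.1).prodMk continuousOn_snd)
    fun q hq => ⟨h q.1 hq.1, hq.2⟩

theorem contOn_arc (hm : ContinuousOn m' S) (h : ∀ a ∈ S, m' a ∈ D) :
    ContinuousOn (fun q : α × ℝ => A.arc (m' q.1) q.2) (S ×ˢ Icc (0 : ℝ) 1) :=
  A.cont.comp (f := fun q : α × ℝ => (m' q.1, q.2))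
    ((hm.comp continuousOn_fst fun _ hq => hq.1).prodMk continuousOn_snd)
    fun q hq => ⟨h q.1 hq.1, hq.2⟩

theorem contOn_h3 (ht : ContinuousOn t' S) (hs : ContinuousOn s' S) (hγ : ContinuousOn γ' S)
    (h0 : ∀ a ∈ S, 0 < t' a) (h : ∀ a ∈ S, γ' a ∈ XD D (t' a))
    (hs1 : ∀ a ∈ S, s' a ∈ Icc (0 : ℝ) 1) :
    ContinuousOn (fun a => A.h3 (t' a) (γ' a) (s' a)) S :=
  contOn_W ht hs hγ (β := fun a => A.rarc (γ' a 0)) (contOn_rarc hγ fun a ha => (h a ha).2)
    (fun a ha => A.ok_r (h0 a ha) (h a ha)) hs1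

theorem contOn_h1 (ht : ContinuousOn t' S) (hs : ContinuousOn s' S) (hγ : ContinuousOn γ' S)
    (h0 : ∀ a ∈ S, 0 < t' a) (h : ∀ a ∈ S, γ' a ∈ XD D (t' a))
    (hs1 : ∀ a ∈ S, s' a ∈ Icc (0 : ℝ) 1) :
    ContinuousOn (fun a => A.h1 (t' a) (γ' a) (s' a)) S :=
  contOn_Z ht hs hγ (β := fun a => A.rarc (γ' a 0)) (contOn_rarc hγ fun a ha => (h a ha).2)
    (fun a ha => A.ok_r (h0 a ha) (h a ha)) hs1

theorem contOn_h4 (ht : ContinuousOn t' S) (hs : ContinuousOn s' S) (hm : ContinuousOn m' S)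
    (hγ : ContinuousOn γ' S) (h0 : ∀ a ∈ S, 0 < t' a) (hmD : ∀ a ∈ S, m' a ∈ D)
    (h : ∀ a ∈ S, γ' a ∈ Om p (t' a)) (hs1 : ∀ a ∈ S, s' a ∈ Icc (0 : ℝ) 1) :
    ContinuousOn (fun a => A.h4 (t' a) (m' a) (γ' a) (s' a)) S :=
  contOn_W ht hs hγ (β := fun a => A.arc (m' a)) (contOn_arc hm hmD)
    (fun a ha => A.ok_a (h0 a ha) (hmD a ha) (h a ha)) hs1

theorem contOn_h2 (ht : ContinuousOn t' S) (hs : ContinuousOn s' S) (hm : ContinuousOn m' S)
    (hγ : ContinuousOn γ' S) (h0 : ∀ a ∈ S, 0 < t' a) (hmD : ∀ a ∈ S, m' a ∈ D)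
    (h : ∀ a ∈ S, γ' a ∈ Om p (t' a)) (hs1 : ∀ a ∈ S, s' a ∈ Icc (0 : ℝ) 1) :
    ContinuousOn (fun a => A.h2 (t' a) (m' a) (γ' a) (s' a)) S :=
  contOn_Z ht hs hγ (β := fun a => A.arc (m' a)) (contOn_arc hm hmD)
    (fun a ha => A.ok_a (h0 a ha) (hmD a ha) (h a ha)) hs1

theorem contOn_tr (ht : ContinuousOn t' S) (hγ : ContinuousOn γ' S)
    (h0 : ∀ a ∈ S, 0 < t' a) (h : ∀ a ∈ S, γ' a ∈ XD D (t' a)) :
    ContinuousOn (fun a => A.tr (t' a) (γ' a)) S :=
  contOn_h3 ht (s' := fun _ => 1) continuousOn_const hγ h0 h fun _ _ => one_Icc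

theorem contOn_un (ht : ContinuousOn t' S) (hm : ContinuousOn m' S)
    (hγ : ContinuousOn γ' S) (h0 : ∀ a ∈ S, 0 < t' a) (hmD : ∀ a ∈ S, m' a ∈ D)
    (h : ∀ a ∈ S, γ' a ∈ Om p (t' a)) :
    ContinuousOn (fun a => A.un (t' a) (m' a) (γ' a)) S :=
  contOn_h4 ht (s' := fun _ => 1) continuousOn_const hm hγ h0 hmD h fun _ _ => one_Icc

end cont

/-! #### the forms used for chains -/

theorem continuousOn_tr (ht : 0 < t) : ContinuousOn (A.tr t) (XD D t) :=
  contOn_tr (t' := fun _ => t) (γ' := id) continuousOn_const continuousOn_id (fun _ _ => ht)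
    fun _ h => h

theorem continuousOn_un (ht : 0 < t) :
    ContinuousOn (fun q : M × Lp M => A.un t q.1 q.2) (D ×ˢ Om p t) :=
  contOn_un (t' := fun _ => t) continuousOn_const continuousOn_fst continuousOn_snd
    (fun _ _ => ht) (fun _ h => h.1) fun _ h => h.2

theorem continuousOn_h1 (ht : 0 < t) :
    ContinuousOn (fun q : Lp M × ℝ => A.h1 t q.1 q.2) (XD D t ×ˢ Icc (0 : ℝ) 1) :=
  contOn_h1 (t' := fun _ => t) continuousOn_const continuousOn_snd continuousOn_fst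
    (fun _ _ => ht) (fun _ h => h.1) fun _ h => h.2

theorem continuousOn_h3 (ht : 0 < t) :
    ContinuousOn (fun q : Lp M × ℝ => A.h3 t q.1 q.2) (XD D t ×ˢ Icc (0 : ℝ) 1) :=
  contOn_h3 (t' := fun _ => t) continuousOn_const continuousOn_snd continuousOn_fst
    (fun _ _ => ht) (fun _ h => h.1) fun _ h => h.2

theorem continuousOn_h2 (ht : 0 < t) :
    ContinuousOn (fun q : (M × Lp M) × ℝ => A.h2 t q.1.1 q.1.2 q.2)
      ((D ×ˢ Om p t) ×ˢ Icc (0 : ℝ) 1) :=
  contOn_h2 (t' := fun _ => t) (m' := fun q : (M × Lp M) × ℝ => q.1.1) continuousOn_const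
    continuousOn_snd (by fun_prop) (by fun_prop)
    (fun _ _ => ht) (fun _ h => h.1.1) (fun _ h => h.1.2) fun _ h => h.2

theorem continuousOn_h4 (ht : 0 < t) :
    ContinuousOn (fun q : (M × Lp M) × ℝ => A.h4 t q.1.1 q.1.2 q.2)
      ((D ×ˢ Om p t) ×ˢ Icc (0 : ℝ) 1) :=
  contOn_h4 (t' := fun _ => t) (m' := fun q : (M × Lp M) × ℝ => q.1.1) continuousOn_const
    continuousOn_snd (by fun_prop) (by fun_prop)
    (fun _ _ => ht) (fun _ h => h.1.1) (fun _ h => h.1.2) fun _ h => h.2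

/-- the homotopies `h1`, `h3` are maps over the base / arcs: `h1` keeps the base point -/
theorem h1_mem_sub {B : Set M} (hB : B ⊆ D) (ht : 0 < t) (hγ : γ ∈ XD B t)
    (hs : s ∈ Icc (0 : ℝ) 1) : A.h1 t γ s ∈ XD B (t + 4 * A.c) := by
  have hγ' : γ ∈ XD D t := ⟨hγ.1, hB hγ.2⟩
  exact ⟨(h1_mem ht hγ' hs).1, by rw [h1_base ht hγ' hs]; exact hγ.2⟩

/-! #### change of the level -/

/-- the level `(1-s) t + s t'` -/
def lev (t t' s : ℝ) : ℝ := (1 - s) * t + s * t'

theorem lev_zero (t t' : ℝ) : lev t t' 0 = t := by unfold lev; ring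

theorem lev_one (t t' : ℝ) : lev t t' 1 = t' := by unfold lev; ring

theorem le_lev {t t' s : ℝ} (h : t ≤ t') (hs : s ∈ Icc (0 : ℝ) 1) : t ≤ lev t t' s := by
  unfold lev; nlinarith [hs.1, mul_nonneg hs.1 (sub_nonneg.2 h)]

theorem lev_le {t t' s : ℝ} (h : t ≤ t') (hs : s ∈ Icc (0 : ℝ) 1) : lev t t' s ≤ t' := by
  unfold lev; nlinarith [hs.2, mul_nonneg (sub_nonneg.2 hs.2) (sub_nonneg.2 h)]

theorem continuous_lev (t t' : ℝ) : Continuous (lev t t') := by unfold lev; fun_prop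

theorem tr_lev_mem {t t' : ℝ} (ht : 0 < t) (h : t ≤ t') (hγ : γ ∈ XD D t)
    (hs : s ∈ Icc (0 : ℝ) 1) : A.tr (lev t t' s) γ ∈ Om p (t' + 2 * A.c) :=
  Om_mono (by linarith [lev_le h hs]) (tr_mem (ht.trans_le (le_lev h hs))
    (XD_mono (le_lev h hs) hγ))

theorem continuousOn_tr_lev {t t' : ℝ} (ht : 0 < t) (h : t ≤ t') :
    ContinuousOn (fun q : Lp M × ℝ => A.tr (lev t t' q.2) q.1) (XD D t ×ˢ Icc (0 : ℝ) 1) :=
  contOn_tr (t' := fun q : Lp M × ℝ => lev t t' q.2) (by have := continuous_lev t t'; fun_prop)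
    continuousOn_fst (fun q hq => ht.trans_le (le_lev h hq.2))
    fun q hq => XD_mono (le_lev h hq.2) hq.1

theorem un_lev_mem {t t' : ℝ} (ht : 0 < t) (h : t ≤ t') (hm : m ∈ D) (hγ : γ ∈ Om p t)
    (hs : s ∈ Icc (0 : ℝ) 1) : A.un (lev t t' s) m γ ∈ XD D (t' + 2 * A.c) :=
  XD_mono (by linarith [lev_le h hs]) (un_mem (ht.trans_le (le_lev h hs)) hm
    (Om_mono (le_lev h hs) hγ))

theorem un_lev_base {t t' : ℝ} (ht : 0 < t) (h : t ≤ t') (hm : m ∈ D) (hγ : γ ∈ Om p t)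
    (hs : s ∈ Icc (0 : ℝ) 1) : A.un (lev t t' s) m γ 0 = m :=
  un_base (ht.trans_le (le_lev h hs)) hm (Om_mono (le_lev h hs) hγ)

theorem continuousOn_un_lev {t t' : ℝ} (ht : 0 < t) (h : t ≤ t') :
    ContinuousOn (fun q : (M × Lp M) × ℝ => A.un (lev t t' q.2) q.1.1 q.1.2)
      ((D ×ˢ Om p t) ×ˢ Icc (0 : ℝ) 1) :=
  contOn_un (t' := fun q : (M × Lp M) × ℝ => lev t t' q.2) (m' := fun q : (M × Lp M) × ℝ => q.1.1)
    (by have := continuous_lev t t'; fun_prop) (by fun_prop) (by fun_prop)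
    (fun q hq => ht.trans_le (le_lev h hq.2)) (fun q hq => hq.1.1)
    fun q hq => Om_mono (le_lev h hq.2) hq.1.2

end ArcSys

/-! ### a path in front -/

/-- concatenation of a path `δ : p → q` and the arcs from `q` -/
def ArcSys.pre {q : M} (A : ArcSys M D q) (δ : ℝ → M) (k : ℝ) (h0 : δ 0 = p) (h1 : δ 1 = q)
    (hδ : ∀ u ∈ Icc (0 : ℝ) 1, ∀ v ∈ Icc (0 : ℝ) 1, dist (δ u) (δ v) ≤ k * |u - v|) :
    ArcSys M D p where
  c := 2 * max A.c k
  arc m u := if u ≤ 1 / 2 then δ (cl (2 * u)) else A.arc m (cl (2 * u - 1))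
  c_pos := mul_pos two_pos (A.c_pos.trans_le (le_max_left _ _))
  zero m _ := by
    rw [if_pos (by norm_num), mul_zero, cl_of_le le_rfl, h0]
  one m hm := by
    rw [if_neg (by norm_num), cl_of_ge (by norm_num), A.one m hm]
  lip m hm := by
    have hk : ∀ u v : ℝ, dist (δ (cl (2 * u))) (δ (cl (2 * v))) ≤ 2 * max A.c k * |u - v| := by
      intro u v
      have h3 := abs_cl_sub_le (2 * u) (2 * v)
      rw [← mul_sub, abs_mul, abs_two] at h3
      have h4 := hδ _ (cl_mem (2 * u)) _ (cl_mem (2 * v))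
      calc _ ≤ k * |cl (2 * u) - cl (2 * v)| := h4
        _ ≤ max A.c k * |cl (2 * u) - cl (2 * v)| :=
          mul_le_mul_of_nonneg_right (le_max_right _ _) (abs_nonneg _)
        _ ≤ max A.c k * (2 * |u - v|) :=
          mul_le_mul_of_nonneg_left h3 (A.c_pos.le.trans (le_max_left _ _))
        _ = _ := by ring
    have hA : ∀ u v : ℝ, dist (A.arc m (cl (2 * u - 1))) (A.arc m (cl (2 * v - 1))) ≤
        2 * max A.c k * |u - v| := by
      intro u v
      have h3 := abs_cl_sub_le (2 * u - 1) (2 * v - 1)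
      rw [show 2 * u - 1 - (2 * v - 1) = 2 * (u - v) by ring, abs_mul, abs_two] at h3
      have h4 := A.lip m hm _ (cl_mem (2 * u - 1)) _ (cl_mem (2 * v - 1))
      calc _ ≤ A.c * |cl (2 * u - 1) - cl (2 * v - 1)| := h4
        _ ≤ max A.c k * |cl (2 * u - 1) - cl (2 * v - 1)| :=
          mul_le_mul_of_nonneg_right (le_max_left _ _) (abs_nonneg _)
        _ ≤ max A.c k * (2 * |u - v|) :=
          mul_le_mul_of_nonneg_left h3 (A.c_pos.le.trans (le_max_left _ _))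
        _ = _ := by ring
    have e1 : δ (cl (2 * (1 / 2))) = q := by rw [cl_of_ge (by norm_num), h1]
    have e2 : A.arc m (cl (2 * (1 / 2) - 1)) = q := by rw [cl_of_le (by norm_num), A.zero m hm]
    have key : ∀ u v : ℝ, u ≤ v →
        dist (if u ≤ 1 / 2 then δ (cl (2 * u)) else A.arc m (cl (2 * u - 1)))
          (if v ≤ 1 / 2 then δ (cl (2 * v)) else A.arc m (cl (2 * v - 1))) ≤
          2 * max A.c k * |u - v| := by
      intro u v huv
      by_cases hv : v ≤ 1 / 2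
      · rw [if_pos (huv.trans hv), if_pos hv]; exact hk u v
      · by_cases hu : u ≤ 1 / 2
        · rw [if_pos hu, if_neg hv]
          have a1 := hk u (1 / 2)
          have a2 := hA (1 / 2) v
          rw [e1] at a1
          rw [e2] at a2
          refine (dist_triangle _ q _).trans ((add_le_add a1 a2).trans (le_of_eq ?_))
          rw [not_le] at hv
          rw [abs_of_nonpos (by linarith : u - 1 / 2 ≤ 0), abs_of_nonpos (by linarith : 1 / 2 - v ≤ 0),
            abs_of_nonpos (by linarith : u - v ≤ 0)]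
          ring
        · rw [if_neg hu, if_neg hv]; exact hA u v
    intro u _ v _
    rcases le_total u v with h | h
    · exact key u v h
    · rw [dist_comm, abs_sub_comm]; exact key v u h
  cont := by
    have hc : Continuous fun u : ℝ => δ (cl (2 * u)) := by
      have : LipschitzWith (Real.toNNReal (2 * max A.c k)) (fun u : ℝ => δ (cl (2 * u))) :=
        LipschitzWith.of_dist_le_mul fun u v => by
          have h3 := abs_cl_sub_le (2 * u) (2 * v)
          rw [← mul_sub, abs_mul, abs_two] at h3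
          have h4 := hδ _ (cl_mem (2 * u)) _ (cl_mem (2 * v))
          have hpos : 0 ≤ max A.c k := A.c_pos.le.trans (le_max_left _ _)
          rw [Real.coe_toNNReal _ (mul_nonneg zero_le_two hpos)]
          calc _ ≤ k * |cl (2 * u) - cl (2 * v)| := h4
            _ ≤ max A.c k * |cl (2 * u) - cl (2 * v)| :=
              mul_le_mul_of_nonneg_right (le_max_right _ _) (abs_nonneg _)
            _ ≤ max A.c k * (2 * |u - v|) := mul_le_mul_of_nonneg_left h3 hpos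
            _ = _ := by rw [Real.dist_eq]; ring
      exact this.continuous
    have hS : Continuous fun r : D × ℝ =>
        if r.2 ≤ 1 / 2 then δ (cl (2 * r.2)) else A.arc r.1 (cl (2 * r.2 - 1)) := by
      refine Continuous.if_le (hc.comp continuous_snd) ?_ continuous_snd continuous_const ?_
      · refine A.cont.comp_continuous (f := fun r : D × ℝ => ((r.1 : M), cl (2 * r.2 - 1))) ?_
          fun r => ⟨r.1.2, cl_mem _⟩
        exact (continuous_subtype_val.comp continuous_fst).prodMk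
          (continuous_cl.comp ((continuous_const.mul continuous_snd).sub continuous_const))
      · intro r hr
        have hr' : r.2 = 1 / 2 := hr
        rw [hr', cl_of_ge (by norm_num), cl_of_le (by norm_num), h1, A.zero _ r.1.2]
    rw [continuousOn_iff_continuous_domRestrict]
    have h2 : Continuous (fun r : (D ×ˢ Icc (0 : ℝ) 1 : Set (M × ℝ)) =>
        ((⟨r.1.1, r.2.1⟩ : D), r.1.2)) := by fun_prop
    exact hS.comp h2

end arcs

end Crest.Agent.R231.ArcSysx694
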