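import Crest.Agent.R231.BiLip_218

/-!
# Row 231 (S0357), leaf BILIP, part 2 (helper218): normalised chords, isometries, in `(S^n, g)`

* `nrm g z : SG g` : the point `z / ‖z‖` (`z ≠ 0`), `vec_nrm`, `nrm_vec`, `dist_nrm_le`
* `arc x y s` : normalised chord `((1-s) x + s y)/‖·‖`; `arc_zero`, `arc_one`, `arc_self`, `arc_symm`,
  `continuousOn_arc`, `dist_arc_le` (speed), `dist_arc_arc_le` (two arcs), `dist_arc_of_near`
* `neg`, `act R` (linear isometries) with Lipschitz bounds, `rotTo p q` (the rotation taking `p` to `q`)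
-/

set_option autoImplicit false
set_option linter.unusedSectionVars false
set_option linter.unusedVariables false

noncomputable section

open Bundle Set Metric Filter
open scoped Manifold ContDiff Bundle ENNReal NNReal Topology InnerProductSpace

namespace Crest.Agent.R231.Arcx218

open Crest.Agent.R231.GeoBasex724 Crest.Agent.R231.BiLipx218

variable {n : ℕ} [NeZero n] {g : Met n}

/-- a unit vector as a point of `(S^n, g)` -/
def ofUnit (g : Met n) (z : Amb n) (hz : ‖z‖ = 1) : SG g := toSG g ⟨z, by simpa using hz⟩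

@[simp] theorem vec_ofUnit (z : Amb n) (hz : ‖z‖ = 1) : vec (ofUnit g z hz) = z := rfl

theorem isEmbedding_vec : Topology.IsEmbedding (vec : SG g → Amb n) :=
  Topology.IsEmbedding.subtypeVal.comp (toSG g).symm.isEmbedding

theorem continuous_iff_vec {X : Type*} [TopologicalSpace X] {f : X → SG g} :
    Continuous f ↔ Continuous fun x => vec (f x) :=
  isEmbedding_vec.continuous_iff

theorem continuousOn_iff_vec {X : Type*} [TopologicalSpace X] {f : X → SG g} {s : Set X} :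
    ContinuousOn f s ↔ ContinuousOn (fun x => vec (f x)) s :=
  isEmbedding_vec.isInducing.continuousOn_iff

theorem continuousAt_iff_vec {X : Type*} [TopologicalSpace X] {f : X → SG g} {x : X} :
    ContinuousAt f x ↔ ContinuousAt (fun x => vec (f x)) x :=
  isEmbedding_vec.isInducing.continuousAt_iff

/-- normalisation: the point `z / ‖z‖` -/
def nrm (g : Met n) (z : Amb n) : SG g :=
  if h : z = 0 then ofUnit g (EuclideanSpace.single 0 1) (by simp)
  else ofUnit g (‖z‖⁻¹ • z) (by rw [norm_smul, norm_inv, norm_norm, inv_mul_cancel₀ (norm_ne_zero_iff.2 h)])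

theorem vec_nrm {z : Amb n} (h : z ≠ 0) : vec (nrm g z) = ‖z‖⁻¹ • z := by
  unfold nrm
  rw [dif_neg h, vec_ofUnit]

theorem vec_ne_zero (x : SG g) : vec x ≠ 0 := by
  intro h
  have := norm_vec x
  rw [h, norm_zero] at this
  exact zero_ne_one this

theorem nrm_vec (x : SG g) : nrm g (vec x) = x := by
  apply vec_injective
  rw [vec_nrm (vec_ne_zero x), norm_vec, inv_one, one_smul]

theorem nrm_smul {c : ℝ} (hc : 0 < c) (z : Amb n) : nrm g (c • z) = nrm g z := by
  by_cases h : z = 0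
  · rw [h, smul_zero]
  · apply vec_injective
    rw [vec_nrm h, vec_nrm (smul_ne_zero hc.ne' h), norm_smul, Real.norm_of_nonneg hc.le, mul_inv,
      smul_smul]
    congr 1
    field_simp

theorem continuousOn_nrm : ContinuousOn (nrm g) {z | z ≠ 0} := by
  rw [continuousOn_iff_vec]
  have h1 : ContinuousOn (fun z : Amb n => ‖z‖⁻¹ • z) {z | z ≠ 0} :=
    (continuous_norm.continuousOn.inv₀ fun z hz => norm_ne_zero_iff.2 hz).smul continuousOn_id
  exact h1.congr fun z hz => vec_nrm hz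

theorem norm_nrm_sub_le {z w : Amb n} (hz : z ≠ 0) (hw : w ≠ 0) :
    ‖vec (nrm g z) - vec (nrm g w)‖ ≤ 2 * ‖z - w‖ / ‖z‖ := by
  have hz' : 0 < ‖z‖ := norm_pos_iff.2 hz
  have hw' : 0 < ‖w‖ := norm_pos_iff.2 hw
  rw [vec_nrm hz, vec_nrm hw]
  have e : ‖z‖⁻¹ • z - ‖w‖⁻¹ • w = ‖z‖⁻¹ • (z - w) + (‖z‖⁻¹ - ‖w‖⁻¹) • w := by
    rw [smul_sub, sub_smul]; abel
  rw [e]
  refine (norm_add_le _ _).trans ?_
  rw [norm_smul, norm_smul, norm_inv, norm_norm, Real.norm_eq_abs]
  have h1 : |‖z‖⁻¹ - ‖w‖⁻¹| * ‖w‖ = |‖w‖ - ‖z‖| / ‖z‖ := by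
    have : ‖z‖⁻¹ - ‖w‖⁻¹ = (‖w‖ - ‖z‖) / (‖z‖ * ‖w‖) := by field_simp
    rw [this, abs_div, abs_of_pos (mul_pos hz' hw')]
    field_simp
  have h2 : |‖w‖ - ‖z‖| ≤ ‖z - w‖ := by
    rw [abs_sub_comm]; exact abs_norm_sub_norm_le z w
  rw [h1]
  have h3 : |‖w‖ - ‖z‖| / ‖z‖ ≤ ‖z - w‖ / ‖z‖ := div_le_div_of_nonneg_right h2 hz'.le
  calc ‖z‖⁻¹ * ‖z - w‖ + |‖w‖ - ‖z‖| / ‖z‖ ≤ ‖z - w‖ / ‖z‖ + ‖z - w‖ / ‖z‖ := by
        rw [inv_mul_eq_div]; linarith
    _ = 2 * ‖z - w‖ / ‖z‖ := by ring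

/-- normalisation is `g`-Lipschitz away from the origin -/
theorem dist_nrm_le {z w : Amb n} {r : ℝ} (hr : 0 < r) (hz : r ≤ ‖z‖) (hw : w ≠ 0) :
    dist (nrm g z) (nrm g w) ≤ CL g * (2 / r * ‖z - w‖) := by
  have hz0 : z ≠ 0 := norm_pos_iff.1 (hr.trans_le hz)
  refine dist_le_of_norm g ((norm_nrm_sub_le hz0 hw).trans ?_)
  have h1 : 2 * ‖z - w‖ / ‖z‖ ≤ 2 * ‖z - w‖ / r :=
    div_le_div_of_nonneg_left (by positivity) hr hz
  refine h1.trans (le_of_eq ?_)
  ring

/-! ### normalised chords -/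

/-- the chord -/
def comb (x y : SG g) (s : ℝ) : Amb n := (1 - s) • vec x + s • vec y

theorem norm_comb_sq (x y : SG g) (s : ℝ) :
    ‖comb x y s‖ ^ 2 = 1 - 2 * s * (1 - s) * (1 - ⟪vec x, vec y⟫_ℝ) := by
  unfold comb
  rw [norm_add_sq_real, norm_smul, norm_smul, norm_vec, norm_vec, mul_one, mul_one,
    real_inner_smul_left, real_inner_smul_right, Real.norm_eq_abs, Real.norm_eq_abs, sq_abs, sq_abs]
  ring

theorem norm_add_sq (x y : SG g) : ‖vec x + vec y‖ ^ 2 = 2 + 2 * ⟪vec x, vec y⟫_ℝ := by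
  rw [norm_add_sq_real, norm_vec, norm_vec]; ring

theorem norm_sub_sq (x y : SG g) : ‖vec x - vec y‖ ^ 2 = 2 - 2 * ⟪vec x, vec y⟫_ℝ := by
  rw [norm_sub_sq_real, norm_vec, norm_vec]; ring

theorem inner_le_one (x y : SG g) : ⟪vec x, vec y⟫_ℝ ≤ 1 := by
  have h := norm_sub_sq x y
  have h1 : 0 ≤ ‖vec x - vec y‖ ^ 2 := sq_nonneg _
  linarith

theorem neg_one_le_inner (x y : SG g) : -1 ≤ ⟪vec x, vec y⟫_ℝ := by
  have h := norm_add_sq x y
  have h1 : 0 ≤ ‖vec x + vec y‖ ^ 2 := sq_nonneg _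
  linarith

theorem norm_comb_ge (x y : SG g) {s : ℝ} (hs : s ∈ Icc (0 : ℝ) 1) :
    ‖vec x + vec y‖ / 2 ≤ ‖comb x y s‖ := by
  apply le_of_sq_le_sq _ (norm_nonneg _)
  rw [norm_comb_sq, div_pow, norm_add_sq]
  have h1 := inner_le_one x y
  have h2 : 2 * s * (1 - s) ≤ 1 / 2 := by nlinarith [sq_nonneg (s - 1 / 2)]
  nlinarith

theorem norm_comb_le (x y : SG g) {s : ℝ} (hs : s ∈ Icc (0 : ℝ) 1) : ‖comb x y s‖ ≤ 1 := by
  unfold comb
  refine (norm_add_le _ _).trans ?_
  rw [norm_smul, norm_smul, norm_vec, norm_vec, Real.norm_of_nonneg hs.1,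
    Real.norm_of_nonneg (by linarith [hs.2])]
  linarith

theorem comb_ne_zero {x y : SG g} (h : vec x + vec y ≠ 0) {s : ℝ} (hs : s ∈ Icc (0 : ℝ) 1) :
    comb x y s ≠ 0 := by
  have h1 := norm_comb_ge x y hs
  have h2 : 0 < ‖vec x + vec y‖ := norm_pos_iff.2 h
  exact norm_pos_iff.1 (by linarith)

/-- the normalised chord from `x` to `y` -/
def arc (x y : SG g) (s : ℝ) : SG g := nrm g (comb x y s)

theorem vec_arc {x y : SG g} (h : vec x + vec y ≠ 0) {s : ℝ} (hs : s ∈ Icc (0 : ℝ) 1) :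
    vec (arc x y s) = ‖comb x y s‖⁻¹ • comb x y s := vec_nrm (comb_ne_zero h hs)

@[simp] theorem arc_zero (x y : SG g) : arc x y 0 = x := by
  simp only [arc, comb, sub_zero, one_smul, zero_smul, add_zero, nrm_vec]

@[simp] theorem arc_one (x y : SG g) : arc x y 1 = y := by
  simp only [arc, comb, sub_self, zero_smul, one_smul, zero_add, nrm_vec]

@[simp] theorem arc_self (x : SG g) (s : ℝ) : arc x x s = x := by
  simp only [arc, comb, ← add_smul, sub_add_cancel, one_smul, nrm_vec]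

theorem arc_symm (x y : SG g) (s : ℝ) : arc y x s = arc x y (1 - s) := by
  simp only [arc, comb, sub_sub_cancel]
  rw [add_comm]

theorem comb_sub_comb (x y : SG g) (s t : ℝ) :
    comb x y s - comb x y t = (t - s) • (vec x - vec y) := by
  unfold comb
  module

/-- speed of a normalised chord -/
theorem dist_arc_le {x y : SG g} {δ : ℝ} (hδ : 0 < δ) (h : δ ≤ ‖vec x + vec y‖) {s t : ℝ}
    (hs : s ∈ Icc (0 : ℝ) 1) (ht : t ∈ Icc (0 : ℝ) 1) :
    dist (arc x y s) (arc x y t) ≤ CL g * (4 / δ * ‖vec x - vec y‖) * |s - t| := by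
  have h0 : vec x + vec y ≠ 0 := norm_pos_iff.1 (hδ.trans_le h)
  have h1 : δ / 2 ≤ ‖comb x y s‖ := (by linarith : δ / 2 ≤ ‖vec x + vec y‖ / 2).trans (norm_comb_ge x y hs)
  have h2 := dist_nrm_le (g := g) (half_pos hδ) h1 (comb_ne_zero h0 ht)
  refine h2.trans (le_of_eq ?_)
  rw [comb_sub_comb, norm_smul, Real.norm_eq_abs, abs_sub_comm t s]
  field_simp
  ring

/-- comparison of two normalised chords -/
theorem dist_arc_arc_le {x y x' y' : SG g} {δ : ℝ} (hδ : 0 < δ) (h : δ ≤ ‖vec x + vec y‖)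
    (h' : vec x' + vec y' ≠ 0) {s : ℝ} (hs : s ∈ Icc (0 : ℝ) 1) :
    dist (arc x y s) (arc x' y' s) ≤
      CL g * (4 / δ * ((1 - s) * ‖vec x - vec x'‖ + s * ‖vec y - vec y'‖)) := by
  have h1 : δ / 2 ≤ ‖comb x y s‖ := (by linarith : δ / 2 ≤ ‖vec x + vec y‖ / 2).trans (norm_comb_ge x y hs)
  have h2 := dist_nrm_le (g := g) (half_pos hδ) h1 (comb_ne_zero h' hs)
  refine h2.trans ?_
  have h3 : comb x y s - comb x' y' s = (1 - s) • (vec x - vec x') + s • (vec y - vec y') := by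
    unfold comb; module
  have h4 : ‖comb x y s - comb x' y' s‖ ≤ (1 - s) * ‖vec x - vec x'‖ + s * ‖vec y - vec y'‖ := by
    rw [h3]
    refine (norm_add_le _ _).trans (le_of_eq ?_)
    rw [norm_smul, norm_smul, Real.norm_of_nonneg hs.1, Real.norm_of_nonneg (by linarith [hs.2])]
  refine mul_le_mul_of_nonneg_left ?_ (CL_pos g).le
  calc 2 / (δ / 2) * ‖comb x y s - comb x' y' s‖
      ≤ 2 / (δ / 2) * ((1 - s) * ‖vec x - vec x'‖ + s * ‖vec y - vec y'‖) :=
        mul_le_mul_of_nonneg_left h4 (by positivity)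
    _ = 4 / δ * ((1 - s) * ‖vec x - vec x'‖ + s * ‖vec y - vec y'‖) := by
        congr 1
        field_simp
        ring

theorem continuousOn_arc : ContinuousOn (fun p : SG g × SG g × ℝ => arc p.1 p.2.1 p.2.2)
    {p | vec p.1 + vec p.2.1 ≠ 0 ∧ p.2.2 ∈ Icc (0 : ℝ) 1} := by
  have h1 : Continuous fun p : SG g × SG g × ℝ => comb p.1 p.2.1 p.2.2 := by
    unfold comb
    have ha : Continuous fun p : SG g × SG g × ℝ => vec p.1 := continuous_vec.comp continuous_fst
    have hb : Continuous fun p : SG g × SG g × ℝ => vec p.2.1 :=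
      continuous_vec.comp (continuous_fst.comp continuous_snd)
    have hc : Continuous fun p : SG g × SG g × ℝ => p.2.2 := continuous_snd.comp continuous_snd
    exact ((continuous_const.sub hc).smul ha).add (hc.smul hb)
  exact continuousOn_nrm.comp h1.continuousOn fun p hp => comb_ne_zero hp.1 hp.2

/-- near points: `ρ` such that `dist x y ≤ ρ` forces `1 ≤ ‖x + y‖` -/
theorem one_le_norm_add {x y : SG g} (h : dist x y ≤ (CL g)⁻¹) : 1 ≤ ‖vec x + vec y‖ := by
  have h1 : ‖vec x - vec y‖ ≤ 1 := by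
    refine (norm_le_CL g x y).trans ?_
    calc CL g * dist x y ≤ CL g * (CL g)⁻¹ := mul_le_mul_of_nonneg_left h (CL_pos g).le
      _ = 1 := mul_inv_cancel₀ (CL_pos g).ne'
  have h2 : ‖(2 : ℝ) • vec x‖ = 2 := by rw [norm_smul, norm_vec]; norm_num
  have h3 : (2 : ℝ) • vec x = (vec x + vec y) + (vec x - vec y) := by module
  have h4 : ‖(2 : ℝ) • vec x‖ ≤ ‖vec x + vec y‖ + ‖vec x - vec y‖ := by
    rw [h3]; exact norm_add_le _ _
  linarith

/-- short arcs have length at most a constant times the distance -/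
theorem dist_arc_of_near {x y : SG g} (h : dist x y ≤ (CL g)⁻¹) {s t : ℝ}
    (hs : s ∈ Icc (0 : ℝ) 1) (ht : t ∈ Icc (0 : ℝ) 1) :
    dist (arc x y s) (arc x y t) ≤ 4 * CL g ^ 2 * dist x y * |s - t| := by
  have h1 := dist_arc_le one_pos (one_le_norm_add h) hs ht
  refine h1.trans (mul_le_mul_of_nonneg_right ?_ (abs_nonneg _))
  have h2 := norm_le_CL g x y
  have h3 := CL_pos g
  calc CL g * (4 / 1 * ‖vec x - vec y‖) = 4 * CL g * ‖vec x - vec y‖ := by ring
    _ ≤ 4 * CL g * (CL g * dist x y) := mul_le_mul_of_nonneg_left h2 (by positivity)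
    _ = 4 * CL g ^ 2 * dist x y := by ring

/-- any arc between non-antipodal points, uniform bound -/
theorem dist_arc_le' {x y : SG g} {δ : ℝ} (hδ : 0 < δ) (h : δ ≤ ‖vec x + vec y‖) {s t : ℝ}
    (hs : s ∈ Icc (0 : ℝ) 1) (ht : t ∈ Icc (0 : ℝ) 1) :
    dist (arc x y s) (arc x y t) ≤ CL g * (8 / δ) * |s - t| := by
  refine (dist_arc_le hδ h hs ht).trans (mul_le_mul_of_nonneg_right ?_ (abs_nonneg _))
  refine mul_le_mul_of_nonneg_left ?_ (CL_pos g).le
  have h1 : ‖vec x - vec y‖ ≤ 2 := by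
    refine (norm_sub_le _ _).trans ?_
    rw [norm_vec, norm_vec]; norm_num
  calc 4 / δ * ‖vec x - vec y‖ ≤ 4 / δ * 2 := mul_le_mul_of_nonneg_left h1 (by positivity)
    _ = 8 / δ := by ring

/-- open half spaces are convex for normalised chords -/
theorem inner_arc_pos {x y : SG g} {q : Amb n} (hx : 0 < ⟪q, vec x⟫_ℝ) (hy : 0 < ⟪q, vec y⟫_ℝ)
    {s : ℝ} (hs : s ∈ Icc (0 : ℝ) 1) : 0 < ⟪q, vec (arc x y s)⟫_ℝ := by
  have h1 : 0 < ⟪q, comb x y s⟫_ℝ := by
    unfold comb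
    rw [inner_add_right, real_inner_smul_right, real_inner_smul_right]
    rcases eq_or_lt_of_le hs.1 with h | h
    · rw [← h]; simpa using hx
    · have := mul_pos h hy
      have := mul_nonneg (by linarith [hs.2] : 0 ≤ 1 - s) hx.le
      linarith
  have h2 : comb x y s ≠ 0 := by
    intro h; rw [h, inner_zero_right] at h1; exact lt_irrefl _ h1
  unfold arc
  rw [vec_nrm h2, real_inner_smul_right]
  exact mul_pos (inv_pos.2 (norm_pos_iff.2 h2)) h1

/-! ### the antipodal map and linear isometries -/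

/-- antipodal map -/
def neg (x : SG g) : SG g := ofUnit g (-vec x) (by rw [norm_neg, norm_vec])

@[simp] theorem vec_neg (x : SG g) : vec (neg x) = -vec x := rfl

@[simp] theorem neg_neg' (x : SG g) : neg (neg x) = x :=
  vec_injective (by rw [vec_neg, vec_neg, neg_neg])

theorem continuous_neg' : Continuous (neg : SG g → SG g) :=
  continuous_iff_vec.2 continuous_vec.neg

theorem add_ne_zero_iff {x y : SG g} : vec x + vec y ≠ 0 ↔ y ≠ neg x := by
  rw [not_iff_not]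
  constructor
  · intro h
    apply vec_injective
    rw [vec_neg]
    exact (neg_eq_of_add_eq_zero_right h).symm
  · intro h
    rw [h, vec_neg, add_neg_cancel]

/-- linear isometries act on `(S^n, g)` -/
def act (R : Amb n →ₗᵢ[ℝ] Amb n) (x : SG g) : SG g :=
  ofUnit g (R (vec x)) (by rw [R.norm_map, norm_vec])

@[simp] theorem vec_act (R : Amb n →ₗᵢ[ℝ] Amb n) (x : SG g) : vec (act R x) = R (vec x) := rfl

theorem continuous_act (R : Amb n →ₗᵢ[ℝ] Amb n) : Continuous (act R : SG g → SG g) :=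
  continuous_iff_vec.2 (R.continuous.comp continuous_vec)

theorem dist_act_le (R : Amb n →ₗᵢ[ℝ] Amb n) (x y : SG g) :
    dist (act R x) (act R y) ≤ CL g * (CL g * dist x y) := by
  refine dist_le_of_norm g ?_
  rw [vec_act, vec_act, ← map_sub, R.norm_map]
  exact norm_le_CL g x y

theorem dist_neg_le (x y : SG g) : dist (neg x) (neg y) ≤ CL g * (CL g * dist x y) := by
  refine dist_le_of_norm g ?_
  rw [vec_neg, vec_neg, ← norm_neg]
  have : -(-vec x - -vec y) = vec x - vec y := by abel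
  rw [this]
  exact norm_le_CL g x y

/-! ### the rotation taking `p` to `q` -/

/-- `v ↦ v - ⟨p+q,v⟩/(1+⟨p,q⟩) (p+q) + 2⟨p,v⟩ q`, a continuous family of isometries for `q ≠ -p` -/
def rotVec (p q v : Amb n) : Amb n :=
  v - (⟪p + q, v⟫_ℝ / (1 + ⟪p, q⟫_ℝ)) • (p + q) + (2 * ⟪p, v⟫_ℝ) • q

theorem rotVec_left {p q : Amb n} (hp : ‖p‖ = 1) (h : 1 + ⟪p, q⟫_ℝ ≠ 0) : rotVec p q p = q := by
  unfold rotVec
  have h1 : ⟪p, p⟫_ℝ = 1 := by rw [real_inner_self_eq_norm_sq, hp]; norm_num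
  rw [inner_add_left, h1, real_inner_comm p q, div_self h]
  module

theorem rotVec_self {p : Amb n} (hp : ‖p‖ = 1) (v : Amb n) : rotVec p p v = v := by
  unfold rotVec
  have h1 : ⟪p, p⟫_ℝ = 1 := by rw [real_inner_self_eq_norm_sq, hp]; norm_num
  rw [inner_add_left, h1]
  have : (⟪p, v⟫_ℝ + ⟪p, v⟫_ℝ) / (1 + 1) = ⟪p, v⟫_ℝ := by ring
  rw [this]
  module

theorem norm_rotVec {p q : Amb n} (hp : ‖p‖ = 1) (hq : ‖q‖ = 1) (h : 1 + ⟪p, q⟫_ℝ ≠ 0) (v : Amb n) :
    ‖rotVec p q v‖ = ‖v‖ := by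
  have h1 : ⟪p, p⟫_ℝ = 1 := by rw [real_inner_self_eq_norm_sq, hp]; norm_num
  have h2 : ⟪q, q⟫_ℝ = 1 := by rw [real_inner_self_eq_norm_sq, hq]; norm_num
  have key : ‖rotVec p q v‖ ^ 2 = ‖v‖ ^ 2 := by
    rw [← real_inner_self_eq_norm_sq, ← real_inner_self_eq_norm_sq]
    unfold rotVec
    simp only [inner_add_left, inner_add_right, inner_sub_left, inner_sub_right,
      real_inner_smul_left, real_inner_smul_right, h1, h2, real_inner_comm p q, real_inner_comm v p,
      real_inner_comm v q]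
    rw [real_inner_comm p v, real_inner_comm q v]
    field_simp
    ring
  exact (sq_eq_sq₀ (norm_nonneg _) (norm_nonneg _)).1 key

theorem rotVec_add (p q v w : Amb n) : rotVec p q (v + w) = rotVec p q v + rotVec p q w := by
  unfold rotVec
  rw [inner_add_right, inner_add_right, add_div]
  module

theorem rotVec_smul (p q : Amb n) (c : ℝ) (v : Amb n) : rotVec p q (c • v) = c • rotVec p q v := by
  unfold rotVec
  rw [real_inner_smul_right, real_inner_smul_right, mul_div_assoc]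
  module

/-- the rotation taking `p` to `q` as a linear isometry -/
def rotTo (p q : SG g) (h : vec p + vec q ≠ 0) : Amb n →ₗᵢ[ℝ] Amb n where
  toFun := rotVec (vec p) (vec q)
  map_add' := rotVec_add _ _
  map_smul' := rotVec_smul _ _
  norm_map' v := norm_rotVec (norm_vec p) (norm_vec q) (by
    intro h0
    have h1 := norm_add_sq p q
    have h2 : ‖vec p + vec q‖ ^ 2 = 0 := by rw [h1]; linarith
    exact h (norm_eq_zero.1 (pow_eq_zero_iff two_ne_zero |>.1 h2))) v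

end Crest.Agent.R231.Arcx218
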