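import Mathlib

/-!
# R231, leaf G2 (helper893): closed geodesics as a set

Purely metric theory of unit speed local geodesics `c : ℝ → M`, `dist (c s) (c t) = |s - t|` for
`|s - t| < r`, under the non-branching hypothesis `NonBr M r` (two such curves which agree on an
open interval are equal).

* prime periods, iterates;
* two closed geodesics with the same image differ by `t ↦ ± t + a`;
* a closed geodesic is never a rotation of its reverse;
* classification when the set of images is finite.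
-/

set_option autoImplicit false
set_option linter.unusedSectionVars false

open Set Filter Topology

namespace Crest.Agent.R231.PrimeGeox893

variable {M : Type*} [MetricSpace M] {r : ℝ}

/-- unit speed curves which are isometric on every interval of length `< r`. -/
def IsLG (r : ℝ) (c : ℝ → M) : Prop :=
  ∀ s t, |s - t| < r → dist (c s) (c t) = |s - t|

variable (M) in
/-- non-branching: two local geodesics which agree on an open interval are equal. -/
def NonBr (r : ℝ) : Prop :=
  ∀ c c' : ℝ → M, IsLG r c → IsLG r c' → ∀ a b, a < b → (∀ t ∈ Ioo a b, c t = c' t) → c = c'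

theorem IsLG.continuous {c : ℝ → M} (hr : 0 < r) (h : IsLG r c) : Continuous c := by
  rw [Metric.continuous_iff]
  intro t ε hε
  refine ⟨min ε r, lt_min hε hr, fun s hs => ?_⟩
  rw [Real.dist_eq] at hs
  rw [h s t (hs.trans_le (min_le_right _ _))]
  exact hs.trans_le (min_le_left _ _)

theorem IsLG.affine {c : ℝ → M} (h : IsLG r c) {ε : ℝ} (hε : |ε| = 1) (a : ℝ) :
    IsLG r (fun t => c (ε * t + a)) := by
  intro s t hst
  have e : ε * s + a - (ε * t + a) = ε * (s - t) := by ring
  have h1 : |ε * s + a - (ε * t + a)| = |s - t| := by rw [e, abs_mul, hε, one_mul]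
  rw [h _ _ (by rw [h1]; exact hst), h1]

theorem IsLG.shift {c : ℝ → M} (h : IsLG r c) (a : ℝ) : IsLG r (fun t => c (t + a)) := by
  have := h.affine (ε := 1) (by simp) a
  simpa using this

/-- injectivity on short intervals -/
theorem IsLG.inj {c : ℝ → M} (h : IsLG r c) {s t : ℝ} (hst : |s - t| < r) (he : c s = c t) :
    s = t := by
  have h1 := h s t hst
  rw [he, dist_self] at h1
  exact sub_eq_zero.1 (abs_eq_zero.1 h1.symm)

/-- periods are at least `r` -/
theorem IsLG.le_period {c : ℝ → M} (h : IsLG r c) {p : ℝ} (hp : 0 < p)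
    (hper : Function.Periodic c p) : r ≤ p := by
  by_contra hlt
  push Not at hlt
  have h1 : c p = c 0 := by simpa using hper 0
  have := h.inj (s := p) (t := 0) (by rw [sub_zero, abs_of_pos hp]; exact hlt) h1
  exact hp.ne' this

/-- the group of periods -/
def periods (c : ℝ → M) : AddSubgroup ℝ where
  carrier := {p | Function.Periodic c p}
  zero_mem' := by intro x; simp
  add_mem' := by
    intro a b ha hb
    exact ha.add_period hb
  neg_mem' := by
    intro a ha
    exact ha.neg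

theorem mem_periods {c : ℝ → M} {p : ℝ} : p ∈ periods c ↔ Function.Periodic c p := Iff.rfl

/-- the prime period of a periodic local geodesic -/
theorem IsLG.exists_prime {c : ℝ → M} (hr : 0 < r) (h : IsLG r c) {p : ℝ} (hp : 0 < p)
    (hper : Function.Periodic c p) :
    ∃ l : ℝ, 0 < l ∧ r ≤ l ∧ ∀ q, Function.Periodic c q ↔ ∃ k : ℤ, q = k * l := by
  have hbot : periods c ≠ ⊥ := by
    intro hb
    have : p ∈ (⊥ : AddSubgroup ℝ) := by rw [← hb]; exact hper
    rw [AddSubgroup.mem_bot] at this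
    exact hp.ne' this
  have hdis : Disjoint (periods c : Set ℝ) (Ioo 0 r) := by
    rw [Set.disjoint_left]
    intro q hq hq2
    exact absurd (h.le_period hq2.1 hq) (not_le.2 hq2.2)
  obtain ⟨l, hl⟩ := AddSubgroup.exists_isLeast_pos hbot hr hdis
  have hlpos : 0 < l := hl.1.2
  have hcl : periods c = AddSubgroup.closure {l} := AddSubgroup.cyclic_of_min hl
  refine ⟨l, hlpos, h.le_period hlpos hl.1.1, fun q => ?_⟩
  rw [← mem_periods, hcl, AddSubgroup.mem_closure_singleton]
  constructor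
  · rintro ⟨k, hk⟩
    exact ⟨k, by rw [← hk, zsmul_eq_mul]⟩
  · rintro ⟨k, hk⟩
    exact ⟨k, by rw [hk, zsmul_eq_mul]⟩

/-- an isometric map of an open interval into `ℝ` is affine with slope `±1`. -/
theorem affine_of_isometry {θ : ℝ → ℝ} {a b : ℝ} (hab : a < b)
    (h : ∀ s ∈ Ioo a b, ∀ t ∈ Ioo a b, |θ s - θ t| = |s - t|) :
    ∃ ε : ℝ, (ε = 1 ∨ ε = -1) ∧ ∃ k, ∀ s ∈ Ioo a b, θ s = ε * s + k := by
  -- two reference points
  set m := (a + b) / 2 with hm
  set q := (m + b) / 2 with hq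
  have hmI : m ∈ Ioo a b := ⟨by rw [hm]; linarith, by rw [hm]; linarith⟩
  have hqI : q ∈ Ioo a b := ⟨by rw [hq]; linarith [hmI.1], by rw [hq]; linarith [hmI.2]⟩
  have hmq : m < q := by rw [hq]; linarith [hmI.2]
  have h1 := h q hqI m hmI
  rw [abs_of_pos (sub_pos.2 hmq)] at h1
  rcases abs_eq (sub_pos.2 hmq).le |>.1 h1 with e | e
  · refine ⟨1, Or.inl rfl, θ m - m, fun s hs => ?_⟩
    have h2 := h s hs m hmI
    have h3 := h s hs q hqI
    -- θ s = s + (θ m - m) or reflected
    rcases abs_eq_abs.1 h2 with e2 | e2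
    · linarith
    · rcases abs_eq_abs.1 h3 with e3 | e3
      · linarith
      · linarith
  · refine ⟨-1, Or.inr rfl, θ m + m, fun s hs => ?_⟩
    have h2 := h s hs m hmI
    have h3 := h s hs q hqI
    rcases abs_eq_abs.1 h2 with e2 | e2
    · rcases abs_eq_abs.1 h3 with e3 | e3
      · linarith
      · linarith
    · linarith

/-- **Same image**: if the local geodesic `c'` runs inside the image of the periodic local geodesic
`c`, then `c' s = c (± s + a)`. -/
theorem IsLG.same_image {c c' : ℝ → M} (hr : 0 < r) (nb : NonBr M r) (h : IsLG r c)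
    (h' : IsLG r c') {p : ℝ} (hp : 0 < p) (hper : Function.Periodic c p)
    (hsub : range c' ⊆ range c) :
    ∃ ε : ℝ, (ε = 1 ∨ ε = -1) ∧ ∃ a, ∀ s, c' s = c (ε * s + a) := by
  have hc := h.continuous hr
  have hc' := h'.continuous hr
  -- finitely many short arcs
  set δ : ℝ := r / 2 with hδ
  have hδ0 : 0 < δ := by rw [hδ]; linarith
  obtain ⟨N, hN⟩ := exists_nat_gt (p / δ)
  set A : ℕ → Set M := fun k => c '' Icc (k * δ) ((k + 1) * δ) with hA
  have hAc : ∀ k, IsClosed (A k) := fun k => (isCompact_Icc.image hc).isClosed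
  have hcov : ∀ s : ℝ, ∃ k < N, c' s ∈ A k := by
    intro s
    obtain ⟨t, ht⟩ := hsub (mem_range_self s)
    -- reduce t mod p
    obtain ⟨u, hu, htu⟩ := hper.exists_mem_Ico₀ hp t
    have hu0 : 0 ≤ u / δ := div_nonneg hu.1 hδ0.le
    refine ⟨⌊u / δ⌋₊, ?_, ?_⟩
    · rw [Nat.floor_lt hu0]
      exact lt_trans ((div_lt_div_iff_of_pos_right hδ0).2 hu.2) hN
    · refine ⟨u, ⟨?_, ?_⟩, ?_⟩
      · have := Nat.floor_le hu0
        calc (⌊u / δ⌋₊ : ℝ) * δ ≤ u / δ * δ := by gcongr
          _ = u := by field_simp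
      · have := (Nat.lt_floor_add_one (u / δ)).le
        calc u = u / δ * δ := by field_simp
          _ ≤ ((⌊u / δ⌋₊ : ℝ) + 1) * δ := by gcongr
      · rw [← ht, htu]
  -- Baire
  have hne : ∃ k : Fin N, (interior {s : ℝ | c' s ∈ A k}).Nonempty := by
    apply nonempty_interior_of_iUnion_of_closed (f := fun k : Fin N => {s : ℝ | c' s ∈ A k})
    · intro k
      exact (hAc k).preimage hc'
    · rw [eq_univ_iff_forall]
      intro s
      obtain ⟨k, hk, hs⟩ := hcov s
      exact mem_iUnion.2 ⟨⟨k, hk⟩, hs⟩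
  obtain ⟨k, x, hx⟩ := hne
  rw [mem_interior_iff_mem_nhds, Metric.mem_nhds_iff] at hx
  obtain ⟨η, hη, hball⟩ := hx
  set η' := min η (r / 2) with hη'
  have hη'0 : 0 < η' := lt_min hη (by linarith)
  have hIoo : ∀ s ∈ Ioo (x - η') (x + η'), c' s ∈ A k := by
    intro s hs
    apply hball
    rw [Metric.mem_ball, Real.dist_eq, abs_lt]
    have := min_le_left η (r / 2)
    exact ⟨by linarith [hs.1], by linarith [hs.2]⟩
  -- parameter
  choose! θ hθ using hIoo
  have hiso : ∀ s ∈ Ioo (x - η') (x + η'), ∀ t ∈ Ioo (x - η') (x + η'),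
      |θ s - θ t| = |s - t| := by
    intro s hs t ht
    have h1 : dist (c (θ s)) (c (θ t)) = |θ s - θ t| := by
      apply h
      have a1 := (hθ s hs).1
      have a2 := (hθ t ht).1
      rw [abs_lt]
      constructor
      · have : (k : ℝ) * δ - (k + 1) * δ = -δ := by ring
        have hd : δ < r := by rw [hδ]; linarith
        linarith [a1.1, a2.2]
      · have hd : δ < r := by rw [hδ]; linarith
        have : ((k : ℝ) + 1) * δ - k * δ = δ := by ring
        linarith [a1.2, a2.1]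
    have h2 : dist (c' s) (c' t) = |s - t| := by
      apply h'
      have := min_le_right η (r / 2)
      rw [abs_lt]
      exact ⟨by linarith [hs.1, ht.2], by linarith [hs.2, ht.1]⟩
    rw [← h1, (hθ s hs).2, (hθ t ht).2, h2]
  obtain ⟨ε, hε, a, ha⟩ := affine_of_isometry (by linarith) hiso
  refine ⟨ε, hε, a, ?_⟩
  have hε1 : |ε| = 1 := by rcases hε with e | e <;> simp [e]
  have := nb c' (fun t => c (ε * t + a)) h' (h.affine hε1 a) (x - η') (x + η') (by linarith)
    (fun t ht => by rw [← ha t ht, (hθ t ht).2])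
  intro s
  exact congrFun this s

/-- a local geodesic is never a rotation of its reverse -/
theorem IsLG.not_reverse {c : ℝ → M} (hr : 0 < r) (h : IsLG r c) (a : ℝ) :
    ¬ ∀ s, c (-s) = c (s + a) := by
  intro hh
  have h1 := hh (r / 4 - a / 2)
  have e1 : -(r / 4 - a / 2) = a / 2 - r / 4 := by ring
  have e2 : r / 4 - a / 2 + a = a / 2 + r / 4 := by ring
  rw [e1, e2] at h1
  have := h.inj (s := a / 2 - r / 4) (t := a / 2 + r / 4)
    (by
      have : a / 2 - r / 4 - (a / 2 + r / 4) = -(r / 2) := by ring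
      rw [this, abs_neg, abs_of_pos (by linarith)]
      linarith) h1
  linarith

/-! ### closed geodesics with period one -/

/-- a closed local geodesic of speed `L`, parametrised with period one. -/
structure IsLoopG (r L : ℝ) (γ : ℝ → M) : Prop where
  per : Function.Periodic γ 1
  iso : ∀ s t, L * |s - t| < r → dist (γ s) (γ t) = L * |s - t|

/-- unit speed reparametrisation -/
theorem IsLoopG.unit {L : ℝ} {γ : ℝ → M} (hL : 0 < L) (h : IsLoopG r L γ) :
    IsLG r (fun s => γ (s / L)) ∧ Function.Periodic (fun s => γ (s / L)) L := by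
  constructor
  · intro s t hst
    have e : L * |s / L - t / L| = |s - t| := by
      rw [← sub_div, abs_div, abs_of_pos hL]
      field_simp
    have := h.iso (s / L) (t / L) (by rw [e]; exact hst)
    simp only
    rw [this, e]
  · intro s
    have e : (s + L) / L = s / L + 1 := by field_simp
    simp only
    rw [e, h.per]

theorem IsLoopG.unit_mul {L : ℝ} {γ : ℝ → M} (hL : 0 < L) (t : ℝ) :
    (fun s => γ (s / L)) (L * t) = γ t := by
  simp only
  congr 1
  field_simp

theorem IsLoopG.range_unit {L : ℝ} {γ : ℝ → M} (hL : 0 < L) :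
    range (fun s => γ (s / L)) = range γ := by
  apply Subset.antisymm
  · rintro _ ⟨s, rfl⟩
    exact mem_range_self _
  · rintro _ ⟨t, rfl⟩
    exact ⟨L * t, IsLoopG.unit_mul (γ := γ) hL t⟩

/-- a unit speed local geodesic with period `L` gives a loop of speed `L` -/
theorem IsLG.loop {c : ℝ → M} (h : IsLG r c) {L : ℝ} (hL : 0 < L) (hper : Function.Periodic c L)
    {ε : ℝ} (hε : ε = 1 ∨ ε = -1) (a : ℝ) : IsLoopG r L (fun t => c (ε * L * t + a)) := by
  constructor
  · intro t
    rcases hε with e | e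
    · have : ε * L * (t + 1) + a = ε * L * t + a + L := by rw [e]; ring
      show c (ε * L * (t + 1) + a) = c (ε * L * t + a)
      rw [this, hper]
    · have : ε * L * (t + 1) + a = ε * L * t + a - L := by rw [e]; ring
      show c (ε * L * (t + 1) + a) = c (ε * L * t + a)
      rw [this, hper.sub_eq]
  · intro s t hst
    have hε1 : |ε| = 1 := by rcases hε with e | e <;> simp [e]
    have e : |ε * L * s + a - (ε * L * t + a)| = L * |s - t| := by
      have : ε * L * s + a - (ε * L * t + a) = ε * (L * (s - t)) := by ring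
      rw [this, abs_mul, hε1, one_mul, abs_mul, abs_of_pos hL]
    show dist (c (ε * L * s + a)) (c (ε * L * t + a)) = _
    rw [h _ _ (by rw [e]; exact hst), e]

theorem IsLoopG.continuous {L : ℝ} {γ : ℝ → M} (hr : 0 < r) (hL : 0 < L) (h : IsLoopG r L γ) :
    Continuous γ := by
  have h1 := (h.unit hL).1.continuous hr
  have h2 : γ = (fun s => γ (s / L)) ∘ (fun t => L * t) := by
    funext t
    exact (IsLoopG.unit_mul (γ := γ) hL t).symm
  rw [h2]
  exact h1.comp (continuous_const.mul continuous_id)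

variable (M) in
/-- A complete finite list of prime closed geodesics, up to rotation and reversal. -/
structure PrimeSys (r : ℝ) (ι : Type) where
  c : ι → ℝ → M
  l : ι → ℝ
  lg : ∀ i, IsLG r (c i)
  l_pos : ∀ i, 0 < l i
  per : ∀ i q, Function.Periodic (c i) q ↔ ∃ k : ℤ, q = k * l i
  inj : ∀ i j, range (c i) = range (c j) → i = j
  all : ∀ γ : ℝ → M, ∀ L : ℝ, 0 < L → IsLoopG r L γ → ∃ i, range γ = range (c i)

/-- finitely many images gives a finite prime system -/
theorem exists_primeSys (hr : 0 < r)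
    (hfin : {S : Set M | ∃ γ : ℝ → M, ∃ L : ℝ, 0 < L ∧ IsLoopG r L γ ∧ range γ = S}.Finite) :
    ∃ N : ℕ, Nonempty (PrimeSys M r (Fin N)) := by
  obtain ⟨N, f, hf⟩ := hfin.fin_embedding
  have h1 : ∀ i : Fin N, ∃ c : ℝ → M, ∃ l : ℝ, IsLG r c ∧ 0 < l ∧
      (∀ q, Function.Periodic c q ↔ ∃ k : ℤ, q = k * l) ∧ range c = f i := by
    intro i
    have hi : f i ∈ {S : Set M | ∃ γ : ℝ → M, ∃ L : ℝ, 0 < L ∧ IsLoopG r L γ ∧ range γ = S} := by
      rw [← hf]
      exact mem_range_self i
    obtain ⟨γ, L, hL, hγ, hS⟩ := hi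
    obtain ⟨l, hl, -, hq⟩ := (hγ.unit hL).1.exists_prime hr hL (hγ.unit hL).2
    exact ⟨_, l, (hγ.unit hL).1, hl, hq, by rw [IsLoopG.range_unit hL, hS]⟩
  choose c l hlg hl hper hrange using h1
  refine ⟨N, ⟨⟨c, l, hlg, hl, hper, ?_, ?_⟩⟩⟩
  · intro i j hij
    rw [hrange, hrange] at hij
    exact f.injective hij
  · intro γ L hL hγ
    have : range γ ∈ range f := by
      rw [hf]
      exact ⟨γ, L, hL, hγ, rfl⟩
    obtain ⟨i, hi⟩ := this
    exact ⟨i, by rw [hrange, hi]⟩

namespace PrimeSys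

variable {ι : Type} (P : PrimeSys M r ι)

theorem per_l (i : ι) : Function.Periodic (P.c i) (P.l i) := (P.per i _).2 ⟨1, by simp⟩

theorem per_nat (i : ι) (m : ℕ) : Function.Periodic (P.c i) (m * P.l i) :=
  (P.per i _).2 ⟨m, by simp⟩

theorem le_l (i : ι) : r ≤ P.l i := (P.lg i).le_period (P.l_pos i) (P.per_l i)

/-- every closed geodesic is an iterate of a prime one or of its reverse. -/
theorem classify (hr : 0 < r) (nb : NonBr M r) {γ : ℝ → M} {L : ℝ} (hL : 0 < L)
    (h : IsLoopG r L γ) :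
    ∃ i, ∃ m : ℕ, 0 < m ∧ L = m * P.l i ∧ ∃ ε : ℝ, (ε = 1 ∨ ε = -1) ∧
      ∃ a, ∀ t, γ t = P.c i (ε * L * t + a) := by
  obtain ⟨i, hi⟩ := P.all γ L hL h
  obtain ⟨hu, hup⟩ := h.unit hL
  obtain ⟨ε, hε, a, ha⟩ := (P.lg i).same_image hr nb hu (P.l_pos i) (P.per_l i)
    (by rw [IsLoopG.range_unit hL, hi])
  have hεε : ε * ε = 1 := by rcases hε with e | e <;> simp [e]
  have hp : Function.Periodic (P.c i) L := by
    set w : ℝ → M := fun s => γ (s / L) with hw
    have ha' : ∀ s, w s = P.c i (ε * s + a) := ha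
    have key : ∀ s, P.c i s = w (ε * (s - a)) := by
      intro s
      rw [ha']
      congr 1
      linear_combination -(s - a) * hεε
    rcases hε with e | e
    · intro s
      rw [key, key]
      have : ε * (s + L - a) = ε * (s - a) + L := by rw [e]; ring
      rw [this, hup]
    · intro s
      rw [key, key]
      have : ε * (s + L - a) = ε * (s - a) - L := by rw [e]; ring
      rw [this, hup.sub_eq]
  obtain ⟨k, hk⟩ := (P.per i L).1 hp
  have hkpos : 0 < k := by
    have : (0 : ℝ) < k := by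
      by_contra hcon
      push Not at hcon
      have := mul_nonpos_of_nonpos_of_nonneg hcon (P.l_pos i).le
      linarith
    exact_mod_cast this
  refine ⟨i, k.toNat, by omega, ?_, ε, hε, a, fun t => ?_⟩
  · rw [hk]
    congr 1
    have : ((k.toNat : ℤ) : ℝ) = k := by rw [Int.toNat_of_nonneg hkpos.le]
    exact_mod_cast this.symm
  · have h1 : γ (L * t / L) = P.c i (ε * (L * t) + a) := ha (L * t)
    rw [mul_div_cancel_left₀ _ hL.ne'] at h1
    rw [h1]
    congr 1
    ring

/-- uniqueness of the description -/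
theorem unique (hr : 0 < r) {i j : ι} {L : ℝ} (hL : 0 < L) {ε ε' : ℝ}
    (hε : ε = 1 ∨ ε = -1) (hε' : ε' = 1 ∨ ε' = -1) {a a' : ℝ}
    (h : ∀ t, P.c i (ε * L * t + a) = P.c j (ε' * L * t + a')) :
    i = j ∧ ε = ε' ∧ ∃ k : ℤ, a - a' = k * P.l i := by
  have hεε : ε * ε = 1 := by rcases hε with e | e <;> simp [e]
  have hεε' : ε' * ε' = 1 := by rcases hε' with e | e <;> simp [e]
  have hne : ε ≠ 0 := by rcases hε with e | e <;> simp [e]
  have hne' : ε' ≠ 0 := by rcases hε' with e | e <;> simp [e]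
  have hij : i = j := by
    apply P.inj
    apply Subset.antisymm
    · rintro _ ⟨s, rfl⟩
      have := h ((s - a) / (ε * L))
      have e1 : ε * L * ((s - a) / (ε * L)) + a = s := by field_simp; ring
      rw [e1] at this
      rw [this]
      exact mem_range_self _
    · rintro _ ⟨s, rfl⟩
      have := h ((s - a') / (ε' * L))
      have e1 : ε' * L * ((s - a') / (ε' * L)) + a' = s := by field_simp; ring
      rw [e1] at this
      rw [← this]
      exact mem_range_self _
  subst hij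
  have hs : ∀ s, P.c i (ε * s + a) = P.c i (ε' * s + a') := by
    intro s
    have := h (s / L)
    have e1 : ε * L * (s / L) + a = ε * s + a := by field_simp
    have e2 : ε' * L * (s / L) + a' = ε' * s + a' := by field_simp
    rwa [e1, e2] at this
  by_cases hee : ε = ε'
  · refine ⟨rfl, hee, ?_⟩
    have hper : Function.Periodic (P.c i) (a - a') := by
      intro s
      have := hs (ε * (s - a'))
      rw [hee] at this
      have e1 : ε' * (ε' * (s - a')) + a = s + (a - a') := by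
        linear_combination (s - a') * hεε'
      have e2 : ε' * (ε' * (s - a')) + a' = s := by
        linear_combination (s - a') * hεε'
      rw [e1, e2] at this
      exact this
    exact (P.per i _).1 hper
  · exfalso
    have hopp : ε' = -ε := by
      rcases hε with e | e <;> rcases hε' with e' | e' <;> rw [e, e'] at hee ⊢ <;> simp_all
    refine (P.lg i).not_reverse hr (a + a') fun s => ?_
    -- c (-s) = c (s + (a+a'))
    have := hs (-(ε * (s + a)))
    rw [hopp] at this
    have e1 : ε * -(ε * (s + a)) + a = -s := by linear_combination -(s + a) * hεε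
    have e2 : -ε * -(ε * (s + a)) + a' = s + (a + a') := by linear_combination (s + a) * hεε
    rw [e1, e2] at this
    exact this

/-- the critical speeds -/
def levels : Set ℝ := {L | ∃ i, ∃ m : ℕ, 0 < m ∧ L = m * P.l i}

theorem mem_levels_iff (hr : 0 < r) (nb : NonBr M r) {L : ℝ} :
    L ∈ P.levels ↔ 0 < L ∧ ∃ γ : ℝ → M, IsLoopG r L γ := by
  constructor
  · rintro ⟨i, m, hm, rfl⟩
    have hL : 0 < (m : ℝ) * P.l i := mul_pos (by exact_mod_cast hm) (P.l_pos i)
    exact ⟨hL, _, (P.lg i).loop hL (P.per_nat i m) (Or.inl rfl) 0⟩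
  · rintro ⟨hL, γ, hγ⟩
    obtain ⟨i, m, hm, he, -⟩ := P.classify hr nb hL hγ
    exact ⟨i, m, hm, he⟩

theorem levels_finite [Finite ι] (hr : 0 < r) (C : ℝ) : (P.levels ∩ Iic C).Finite := by
  have hsub : P.levels ∩ Iic C ⊆
      ⋃ i : ι, (fun m : ℕ => (m : ℝ) * P.l i) '' {m : ℕ | m ≤ ⌈C / r⌉₊} := by
    rintro L ⟨⟨i, m, hm, rfl⟩, hC⟩
    refine mem_iUnion.2 ⟨i, m, ?_, rfl⟩
    have h1 : (m : ℝ) * r ≤ C := (mul_le_mul_of_nonneg_left (P.le_l i) (Nat.cast_nonneg m)).trans hC
    have h2 : (m : ℝ) ≤ C / r := by rwa [le_div_iff₀ hr]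
    exact_mod_cast h2.trans (Nat.le_ceil _)
  refine Set.Finite.subset (finite_iUnion fun i => ?_) hsub
  exact (finite_le_nat _).image _

theorem le_of_mem_levels {L : ℝ} (hL : L ∈ P.levels) : r ≤ L := by
  obtain ⟨i, m, hm, rfl⟩ := hL
  have h1 : (1 : ℝ) ≤ m := by exact_mod_cast hm
  calc r ≤ P.l i := P.le_l i
    _ = 1 * P.l i := (one_mul _).symm
    _ ≤ m * P.l i := mul_le_mul_of_nonneg_right h1 (P.l_pos i).le

/-- the critical circle `(i, ε)` at speed `L` -/
def orbit (i : ι) (ε L : ℝ) : Set (ℝ → M) := {γ | ∃ a, γ = fun t => P.c i (ε * L * t + a)}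

theorem mem_orbit {i : ι} {ε L : ℝ} {γ : ℝ → M} :
    γ ∈ P.orbit i ε L ↔ ∃ a, γ = fun t => P.c i (ε * L * t + a) := Iff.rfl

/-- rotation acts transitively -/
theorem orbit_rot {i : ι} {ε L : ℝ} {γ : ℝ → M} (hγ : γ ∈ P.orbit i ε L) (b : ℝ) :
    (fun t => γ (t + b)) ∈ P.orbit i ε L := by
  obtain ⟨a, rfl⟩ := hγ
  refine ⟨ε * L * b + a, ?_⟩
  funext t
  simp only
  congr 1
  ring

theorem orbit_trans {i : ι} {ε L : ℝ} (hε : ε = 1 ∨ ε = -1) (hL : 0 < L) {γ γ' : ℝ → M}
    (hγ : γ ∈ P.orbit i ε L) (hγ' : γ' ∈ P.orbit i ε L) : ∃ b, γ' = fun t => γ (t + b) := by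
  obtain ⟨a, rfl⟩ := hγ
  obtain ⟨a', rfl⟩ := hγ'
  have hne : ε ≠ 0 := by rcases hε with e | e <;> simp [e]
  refine ⟨(a' - a) / (ε * L), ?_⟩
  funext t
  simp only
  congr 1
  field_simp
  ring

theorem orbit_rev {i : ι} {ε L : ℝ} {γ : ℝ → M} (hγ : γ ∈ P.orbit i ε L) :
    (fun t => γ (-t)) ∈ P.orbit i (-ε) L := by
  obtain ⟨a, rfl⟩ := hγ
  refine ⟨a, ?_⟩
  funext t
  simp only
  congr 1
  ring

/-- the critical set of speed `L` is the union of the critical circles -/
theorem crit_eq (hr : 0 < r) (nb : NonBr M r) {L : ℝ} (hL : 0 < L) :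
    {γ : ℝ → M | IsLoopG r L γ} =
      ⋃ (i : ι) (_ : ∃ m : ℕ, 0 < m ∧ L = m * P.l i), (P.orbit i 1 L ∪ P.orbit i (-1) L) := by
  ext γ
  simp only [mem_ofPred_eq, mem_iUnion, mem_union, exists_prop]
  constructor
  · intro h
    obtain ⟨i, m, hm, he, ε, hε, a, ha⟩ := P.classify hr nb hL h
    refine ⟨i, ⟨m, hm, he⟩, ?_⟩
    rcases hε with e | e
    · exact Or.inl ⟨a, by funext t; rw [ha, e]⟩
    · exact Or.inr ⟨a, by funext t; rw [ha, e]⟩
  · rintro ⟨i, ⟨m, hm, he⟩, h | h⟩
    · obtain ⟨a, rfl⟩ := h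
      exact (P.lg i).loop hL (he ▸ P.per_nat i m) (Or.inl rfl) a
    · obtain ⟨a, rfl⟩ := h
      exact (P.lg i).loop hL (he ▸ P.per_nat i m) (Or.inr rfl) a

/-- different critical circles of the same speed are uniformly separated -/
theorem orbit_sep (hr : 0 < r) (nb : NonBr M r) {i j : ι} {L : ℝ} (hL : 0 < L) {ε ε' : ℝ}
    (hε : ε = 1 ∨ ε = -1) (hε' : ε' = 1 ∨ ε' = -1) (hne : (i, ε) ≠ (j, ε')) :
    ∃ δ > 0, ∀ γ ∈ P.orbit i ε L, ∀ γ' ∈ P.orbit j ε' L, ∃ t ∈ Icc (0 : ℝ) 1,
      δ ≤ dist (γ t) (γ' t) := by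
  -- the sup distance on the two-parameter compact family
  have hci := (P.lg i).continuous hr
  have hcj := (P.lg j).continuous hr
  by_contra hcon
  push Not at hcon
  -- sequences
  have hseq : ∀ n : ℕ, ∃ a ∈ Icc 0 (P.l i), ∃ a' ∈ Icc 0 (P.l j), ∀ t ∈ Icc (0 : ℝ) 1,
      dist (P.c i (ε * L * t + a)) (P.c j (ε' * L * t + a')) < 1 / ((n : ℝ) + 1) := by
    intro n
    obtain ⟨γ, ⟨a, rfl⟩, γ', ⟨a', rfl⟩, hd⟩ := hcon (1 / ((n : ℝ) + 1)) (by positivity)
    obtain ⟨b, hb, hab⟩ : ∃ b ∈ Ico 0 (P.l i), ∃ k : ℤ, a = b + k * P.l i := by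
      obtain ⟨y, hy⟩ := existsUnique_sub_zsmul_mem_Ico (P.l_pos i) a 0
      refine ⟨a - y • P.l i, by simpa using hy.1, y, by rw [zsmul_eq_mul]; ring⟩
    obtain ⟨b', hb', hab'⟩ : ∃ b ∈ Ico 0 (P.l j), ∃ k : ℤ, a' = b + k * P.l j := by
      obtain ⟨y, hy⟩ := existsUnique_sub_zsmul_mem_Ico (P.l_pos j) a' 0
      refine ⟨a' - y • P.l j, by simpa using hy.1, y, by rw [zsmul_eq_mul]; ring⟩
    obtain ⟨k, hk⟩ := hab
    obtain ⟨k', hk'⟩ := hab'
    refine ⟨b, ⟨hb.1, hb.2.le⟩, b', ⟨hb'.1, hb'.2.le⟩, fun t ht => ?_⟩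
    have h1 : P.c i (ε * L * t + a) = P.c i (ε * L * t + b) := by
      have := ((P.per i (k * P.l i)).2 ⟨k, rfl⟩) (ε * L * t + b)
      rw [← this]
      congr 1
      rw [hk]
      ring
    have h2 : P.c j (ε' * L * t + a') = P.c j (ε' * L * t + b') := by
      have := ((P.per j (k' * P.l j)).2 ⟨k', rfl⟩) (ε' * L * t + b')
      rw [← this]
      congr 1
      rw [hk']
      ring
    have h3 : dist (P.c i (ε * L * t + a)) (P.c j (ε' * L * t + a')) < 1 / ((n : ℝ) + 1) :=
      hd t ht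
    rwa [h1, h2] at h3
  choose a ha a' ha' hd using hseq
  have hcomp : IsCompact (Icc (0 : ℝ) (P.l i) ×ˢ Icc (0 : ℝ) (P.l j)) :=
    isCompact_Icc.prod isCompact_Icc
  obtain ⟨⟨b, b'⟩, -, φ, hφ, hlim⟩ := hcomp.tendsto_subseq (x := fun n => (a n, a' n))
    (fun n => ⟨ha n, ha' n⟩)
  have hlim1 : Tendsto (fun n => a (φ n)) atTop (𝓝 b) := (continuous_fst.tendsto _).comp hlim
  have hlim2 : Tendsto (fun n => a' (φ n)) atTop (𝓝 b') := (continuous_snd.tendsto _).comp hlim
  have heq : ∀ t ∈ Icc (0 : ℝ) 1, P.c i (ε * L * t + b) = P.c j (ε' * L * t + b') := by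
    intro t ht
    have t1 : Tendsto (fun n => dist (P.c i (ε * L * t + a (φ n))) (P.c j (ε' * L * t + a' (φ n))))
        atTop (𝓝 (dist (P.c i (ε * L * t + b)) (P.c j (ε' * L * t + b')))) := by
      apply Tendsto.dist
      · exact (hci.tendsto _).comp (tendsto_const_nhds.add hlim1)
      · exact (hcj.tendsto _).comp (tendsto_const_nhds.add hlim2)
    have t2 : Tendsto (fun n : ℕ => 1 / (((φ n : ℕ) : ℝ) + 1)) atTop (𝓝 0) :=
      tendsto_one_div_add_atTop_nhds_zero_nat.comp hφ.tendsto_atTop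
    have : dist (P.c i (ε * L * t + b)) (P.c j (ε' * L * t + b')) ≤ 0 :=
      le_of_tendsto_of_tendsto' t1 t2 fun n => (hd (φ n) t ht).le
    exact dist_le_zero.1 this
  have hall : (fun s => P.c i (ε * s + b)) = (fun s => P.c j (ε' * s + b')) := by
    refine nb _ _ ((P.lg i).affine (by rcases hε with e | e <;> simp [e]) b)
      ((P.lg j).affine (by rcases hε' with e | e <;> simp [e]) b') 0 L hL fun s hs => ?_
    have := heq (s / L) ⟨div_nonneg hs.1.le hL.le, (div_le_one hL).2 hs.2.le⟩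
    have e1 : ε * L * (s / L) + b = ε * s + b := by field_simp
    have e2 : ε' * L * (s / L) + b' = ε' * s + b' := by field_simp
    rwa [e1, e2] at this
  obtain ⟨h1, h2, -⟩ := P.unique hr hL hε hε' (a := b) (a' := b') fun t => by
    have h3 : P.c i (ε * (L * t) + b) = P.c j (ε' * (L * t) + b') := congrFun hall (L * t)
    rw [mul_assoc, h3, mul_assoc]
  exact hne (by rw [h1, h2])

end PrimeSys

end Crest.Agent.R231.PrimeGeox893
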