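import Crest.Agent.R231.GLoop_576
import Crest.Agent.R231.PrimeGeo_893

/-!
# Row 231 (S0357): the critical sets inside `Lp M` and their splitting (helper893)

`critP S e s` : the closed geodesics of length `s` that are iterates of a prime geodesic of the
system `S`, run forwards (`e = true`) or backwards (`e = false`).
-/

set_option autoImplicit false
set_option linter.unusedSectionVars false

open Set Filter Topology

namespace Crest.Agent.R231.CritPMx893

open GLugx576 PrimeGeox893

variable {M : Type*} [MetricSpace M]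

/-! ### loops as periodic functions -/

/-- a loop as a periodic function on `ℝ` -/
def up (γ : Lp M) : ℝ → M := fun t => γ (t : UnitAddCircle)

@[simp] theorem up_apply (γ : Lp M) (t : ℝ) : up γ t = γ (t : UnitAddCircle) := rfl

theorem up_periodic (γ : Lp M) : Function.Periodic (up γ) 1 := fun t => by
  rw [up_apply, up_apply]
  have := coe_add_int t 1
  rw [Int.cast_one] at this
  rw [this]

theorem up_injective : Function.Injective (up : Lp M → ℝ → M) := fun γ γ' h => by
  ext x
  obtain ⟨u, -, rfl⟩ := exists_Icc x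
  exact congrFun h u

theorem up_rot (b : ℝ) (γ : Lp M) : up (rot (b : UnitAddCircle) γ) = fun t => up γ (t + b) := by
  funext t
  simp only [up_apply, rot_apply, AddCircle.coe_add]

theorem up_rev (γ : Lp M) : up (rev γ) = fun t => up γ (-t) := by
  funext t
  simp only [up_apply, rev_apply, AddCircle.coe_neg]

theorem up_itr (m : ℕ) (γ : Lp M) : up (itr m γ) = fun t => up γ (m * t) := by
  funext t
  rw [up_apply, itr_coe, up_apply]

/-- a continuous function of period `1` is a loop -/
theorem exists_up {g : ℝ → M} (hc : Continuous g) (hp : Function.Periodic g 1) :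
    ∃ γ : Lp M, up γ = g := by
  have hq : Continuous (hp.lift : UnitAddCircle → M) :=
    (QuotientAddGroup.isQuotientMap_mk (AddSubgroup.zmultiples (1 : ℝ))).continuous_iff.2 hc
  exact ⟨⟨hp.lift, hq⟩, by funext t; exact hp.lift_coe t⟩

/-! ### metric closed geodesics -/

theorem isLoopG_of_isGeo (L : LUG M) (hL : L.LocMin) {s : ℝ} {γ : Lp M} (h : IsGeo s γ) :
    IsLoopG L.r0 s (up γ) := by
  obtain ⟨hs, δ, hδ, hd⟩ := h
  refine ⟨up_periodic γ, ?_⟩
  have key : ∀ x y : ℝ, x ≤ y → s * (y - x) < L.r0 → dist (up γ x) (up γ y) = s * (y - x) := by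
    intro x y hxy hlt
    exact hL (up γ) x y s δ hxy hδ hs.le hlt fun u _ v _ huv => hd u v huv
  intro x y hxy
  rcases le_total x y with h1 | h1
  · rw [abs_sub_comm, abs_of_nonneg (sub_nonneg.2 h1)] at hxy ⊢
    exact key x y h1 hxy
  · rw [abs_of_nonneg (sub_nonneg.2 h1)] at hxy ⊢
    rw [dist_comm]
    exact key y x h1 hxy

theorem isGeo_of_isLoopG {r s : ℝ} (hr : 0 < r) (hs : 0 < s) {γ : Lp M}
    (h : IsLoopG r s (up γ)) : IsGeo s γ := by
  refine ⟨hs, r / (2 * s), by positivity, fun x y hxy => h.iso x y ?_⟩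
  calc s * |x - y| ≤ s * (r / (2 * s)) := mul_le_mul_of_nonneg_left hxy hs.le
    _ = r / 2 := by field_simp
    _ < r := by linarith

theorem isGeo_iff (L : LUG M) (hL : L.LocMin) {s : ℝ} {γ : Lp M} :
    IsGeo s γ ↔ 0 < s ∧ IsLoopG L.r0 s (up γ) :=
  ⟨fun h => ⟨h.1, isLoopG_of_isGeo L hL h⟩, fun h => isGeo_of_isLoopG L.r0_pos h.1 h.2⟩

theorem isGeo_rot {s : ℝ} {γ : Lp M} (h : IsGeo s γ) (a : UnitAddCircle) : IsGeo s (rot a γ) := by
  obtain ⟨b, -, rfl⟩ := exists_Icc a
  obtain ⟨hs, δ, hδ, hd⟩ := h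
  refine ⟨hs, δ, hδ, fun x y hxy => ?_⟩
  have := hd (x + b) (y + b) (by rwa [add_sub_add_right_eq_sub])
  rw [add_sub_add_right_eq_sub] at this
  simpa only [rot_apply, ← AddCircle.coe_add] using this

theorem isGeo_rev {s : ℝ} {γ : Lp M} (h : IsGeo s γ) : IsGeo s (rev γ) := by
  obtain ⟨hs, δ, hδ, hd⟩ := h
  refine ⟨hs, δ, hδ, fun x y hxy => ?_⟩
  have e : |-x - -y| = |x - y| := by rw [← abs_neg]; congr 1; ring
  have := hd (-x) (-y) (by rwa [e])
  rw [e] at this
  simpa only [rev_apply, ← AddCircle.coe_neg] using this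

/-! ### the two parts of the critical set -/

/-- the sign of an orientation -/
def sgn (e : Bool) : ℝ := if e then 1 else -1

@[simp] theorem sgn_true : sgn true = 1 := rfl
@[simp] theorem sgn_false : sgn false = -1 := rfl

theorem sgn_cases (e : Bool) : sgn e = 1 ∨ sgn e = -1 := by cases e <;> simp

theorem sgn_not (e : Bool) : sgn (!e) = - sgn e := by cases e <;> simp

theorem sgn_mul_self (e : Bool) : sgn e * sgn e = 1 := by cases e <;> simp

theorem sgn_injective : Function.Injective sgn := by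
  intro e e' h
  cases e <;> cases e' <;> simp [sgn] at h ⊢ <;> norm_num at h

variable {r : ℝ} {ι : Type} (S : PrimeSys M r ι)

/-- closed geodesics of length `s` and orientation `e` -/
def critP (e : Bool) (s : ℝ) : Set (Lp M) :=
  {γ | ∃ i, ∃ m : ℕ, 0 < m ∧ s = m * S.l i ∧ up γ ∈ S.orbit i (sgn e) s}

variable {S}

theorem pos_of_mem_critP {e : Bool} {s : ℝ} {γ : Lp M} (h : γ ∈ critP S e s) : 0 < s := by
  obtain ⟨i, m, hm, he, -⟩ := h
  rw [he]
  exact mul_pos (by exact_mod_cast hm) (S.l_pos i)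

theorem isLoopG_of_mem_critP {e : Bool} {s : ℝ} {γ : Lp M} (h : γ ∈ critP S e s) :
    IsLoopG r s (up γ) := by
  have hs := pos_of_mem_critP h
  obtain ⟨i, m, hm, he, a, ha⟩ := h
  rw [ha]
  exact (S.lg i).loop hs (he ▸ S.per_nat i m) (sgn_cases e) a

theorem isGeo_of_mem_critP (hr : 0 < r) {e : Bool} {s : ℝ} {γ : Lp M} (h : γ ∈ critP S e s) :
    IsGeo s γ :=
  isGeo_of_isLoopG hr (pos_of_mem_critP h) (isLoopG_of_mem_critP h)

theorem rot_mem_critP {e : Bool} {s : ℝ} {γ : Lp M} (h : γ ∈ critP S e s) (a : UnitAddCircle) :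
    rot a γ ∈ critP S e s := by
  obtain ⟨b, -, rfl⟩ := exists_Icc a
  obtain ⟨i, m, hm, he, ho⟩ := h
  refine ⟨i, m, hm, he, ?_⟩
  rw [up_rot]
  exact S.orbit_rot ho b

theorem rot_mem_critP_iff {e : Bool} {s : ℝ} {γ : Lp M} {a : UnitAddCircle} :
    rot a γ ∈ critP S e s ↔ γ ∈ critP S e s := by
  refine ⟨fun h => ?_, fun h => rot_mem_critP h a⟩
  have := rot_mem_critP h (-a)
  rwa [rot_rot, neg_add_cancel, rot_zero] at this

theorem rev_mem_critP {e : Bool} {s : ℝ} {γ : Lp M} (h : γ ∈ critP S e s) :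
    rev γ ∈ critP S (!e) s := by
  obtain ⟨i, m, hm, he, ho⟩ := h
  refine ⟨i, m, hm, he, ?_⟩
  rw [up_rev, sgn_not]
  exact S.orbit_rev ho

theorem rev_mem_critP_iff {e : Bool} {s : ℝ} {γ : Lp M} :
    rev γ ∈ critP S (!e) s ↔ γ ∈ critP S e s := by
  refine ⟨fun h => ?_, rev_mem_critP⟩
  have := rev_mem_critP h
  rwa [rev_rev, Bool.not_not] at this

theorem rot_image_critP (e : Bool) (s : ℝ) (a : UnitAddCircle) :
    rot a '' critP S e s = critP S e s := by
  refine Subset.antisymm ?_ fun γ h => ?_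
  · rintro _ ⟨γ, h, rfl⟩
    exact rot_mem_critP h a
  · refine ⟨rot (-a) γ, rot_mem_critP h _, ?_⟩
    rw [rot_rot, add_neg_cancel, rot_zero]

theorem rev_image_critP (e : Bool) (s : ℝ) : rev '' critP S e s = critP S (!e) s := by
  refine Subset.antisymm ?_ fun γ h => ?_
  · rintro _ ⟨γ, h, rfl⟩
    exact rev_mem_critP h
  · refine ⟨rev γ, ?_, rev_rev γ⟩
    have := rev_mem_critP h
    rwa [Bool.not_not] at this

/-- **the critical set is the union of the two parts** -/
theorem setOf_isLoopG (hr : 0 < r) (nb : NonBr M r) {s : ℝ} (hs : 0 < s) {γ : Lp M} :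
    IsLoopG r s (up γ) ↔ γ ∈ critP S true s ∪ critP S false s := by
  constructor
  · intro h
    obtain ⟨i, m, hm, he, ε, hε, a, ha⟩ := S.classify hr nb hs h
    rcases hε with e | e
    · exact Or.inl ⟨i, m, hm, he, a, by funext t; rw [ha, e, sgn_true]⟩
    · exact Or.inr ⟨i, m, hm, he, a, by funext t; rw [ha, e, sgn_false]⟩
  · rintro (h | h) <;> exact isLoopG_of_mem_critP h

theorem setOf_isGeo (L : LUG M) (hL : L.LocMin) (nb : NonBr M L.r0) {S : PrimeSys M L.r0 ι}
    (s : ℝ) : {γ : Lp M | IsGeo s γ} = critP S true s ∪ critP S false s := by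
  ext γ
  constructor
  · intro h
    exact (setOf_isLoopG L.r0_pos nb h.1).1 (isLoopG_of_isGeo L hL h)
  · rintro (h | h) <;> exact isGeo_of_mem_critP L.r0_pos h

theorem disjoint_critP (hr : 0 < r) (s : ℝ) : Disjoint (critP S true s) (critP S false s) := by
  rw [Set.disjoint_left]
  intro γ h h'
  have hs := pos_of_mem_critP h
  obtain ⟨i, m, hm, he, a, ha⟩ := h
  obtain ⟨j, m', hm', he', a', ha'⟩ := h'
  obtain ⟨-, h2, -⟩ := S.unique hr hs (sgn_cases true) (sgn_cases false) (a := a) (a' := a')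
    fun t => by rw [← congrFun ha t, ← congrFun ha' t]
  exact absurd (sgn_injective h2) (by decide)

/-- levels -/
theorem critP_nonempty_iff (hr : 0 < r) {e : Bool} {s : ℝ} :
    (critP S e s).Nonempty ↔ s ∈ S.levels := by
  constructor
  · rintro ⟨γ, i, m, hm, he, -⟩
    exact ⟨i, m, hm, he⟩
  · rintro ⟨i, m, hm, he⟩
    have hs : 0 < s := by
      rw [he]; exact mul_pos (by exact_mod_cast hm) (S.l_pos i)
    have h1 := (S.lg i).loop hs (he ▸ S.per_nat i m) (sgn_cases e) 0
    obtain ⟨γ, hγ⟩ := exists_up (h1.continuous hr hs) h1.per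
    exact ⟨γ, i, m, hm, he, 0, hγ⟩

theorem isCrit_iff (L : LUG M) (hL : L.LocMin) (nb : NonBr M L.r0) (S : PrimeSys M L.r0 ι)
    {s : ℝ} : IsCrit M s ↔ s ∈ S.levels := by
  constructor
  · rintro ⟨γ, hγ⟩
    exact (S.mem_levels_iff L.r0_pos nb).2 ⟨hγ.1, _, isLoopG_of_isGeo L hL hγ⟩
  · intro h
    obtain ⟨γ, hγ⟩ := (critP_nonempty_iff L.r0_pos (e := true)).2 h
    exact ⟨γ, isGeo_of_mem_critP L.r0_pos hγ⟩

/-- the critical levels are locally finite -/
theorem isCrit_finite [Finite ι] (L : LUG M) (hL : L.LocMin) (nb : NonBr M L.r0)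
    (S : PrimeSys M L.r0 ι) (C : ℝ) : ({s | IsCrit M s} ∩ Iic C).Finite := by
  refine (S.levels_finite L.r0_pos C).subset fun s hs => ?_
  exact ⟨(isCrit_iff L hL nb S).1 hs.1, hs.2⟩

theorem le_of_isCrit (L : LUG M) (hL : L.LocMin) (nb : NonBr M L.r0)
    (S : PrimeSys M L.r0 ι) {s : ℝ} (h : IsCrit M s) : L.r0 ≤ s :=
  S.le_of_mem_levels ((isCrit_iff L hL nb S).1 h)

/-- one critical circle -/
theorem exists_circle (hr : 0 < r) {s : ℝ} (hs : 0 < s) (i : ι) (e : Bool)
    (h : ∃ m : ℕ, 0 < m ∧ s = m * S.l i) :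
    ∃ γ₀ : Lp M, γ₀ ∈ critP S e s ∧
      {γ : Lp M | up γ ∈ S.orbit i (sgn e) s} = range fun a : UnitAddCircle => rot a γ₀ := by
  obtain ⟨m, hm, he⟩ := h
  have h1 := (S.lg i).loop hs (he ▸ S.per_nat i m) (sgn_cases e) 0
  obtain ⟨γ₀, hγ₀⟩ := exists_up (h1.continuous hr hs) h1.per
  have ho : up γ₀ ∈ S.orbit i (sgn e) s := ⟨0, hγ₀⟩
  refine ⟨γ₀, ⟨i, m, hm, he, ho⟩, ?_⟩
  ext γ
  simp only [mem_ofPred_eq, mem_range]
  constructor
  · intro h
    obtain ⟨b, hb⟩ := S.orbit_trans (sgn_cases e) hs ho h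
    refine ⟨(b : UnitAddCircle), up_injective ?_⟩
    rw [up_rot, hb]
  · rintro ⟨a, rfl⟩
    obtain ⟨b, -, rfl⟩ := exists_Icc a
    rw [up_rot]
    exact S.orbit_rot ho b

theorem isCompact_critP [Finite ι] (hr : 0 < r) (e : Bool) (s : ℝ) :
    IsCompact (critP S e s) := by
  rcases le_or_gt s 0 with hs | hs
  · have : critP S e s = ∅ := by
      ext γ
      exact ⟨fun h => absurd (pos_of_mem_critP h) (not_lt.2 hs), fun h => h.elim⟩
    rw [this]
    exact isCompact_empty
  · have e1 : critP S e s = ⋃ i : {i : ι // ∃ m : ℕ, 0 < m ∧ s = m * S.l i},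
        {γ : Lp M | up γ ∈ S.orbit i.1 (sgn e) s} := by
      ext γ
      simp only [mem_iUnion, mem_ofPred_eq]
      constructor
      · rintro ⟨i, m, hm, he, ho⟩
        exact ⟨⟨i, m, hm, he⟩, ho⟩
      · rintro ⟨⟨i, m, hm, he⟩, ho⟩
        exact ⟨i, m, hm, he, ho⟩
    rw [e1]
    refine isCompact_iUnion fun i => ?_
    obtain ⟨γ₀, -, h⟩ := exists_circle hr hs i.1 e i.2
    rw [h]
    exact isCompact_range (continuous_rot.comp (continuous_id.prodMk continuous_const))

/-- iteration and the critical sets -/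
theorem itr_mem_critP_iff {m : ℕ} (hm : 0 < m) {e : Bool} {s : ℝ} {γ : Lp M} :
    itr m γ ∈ critP S e (m * s) ↔ γ ∈ critP S e s := by
  have hm' : (0 : ℝ) < m := by exact_mod_cast hm
  constructor
  · intro h
    have hms := pos_of_mem_critP h
    have hs : 0 < s := (mul_pos_iff_of_pos_left hm').1 hms
    obtain ⟨i, m', -, -, a, ha⟩ := h
    have hg : ∀ t, up γ t = S.c i (sgn e * s * t + a) := by
      intro t
      have := congrFun ha (t / m)
      rw [up_itr] at this
      simp only at this
      rw [mul_div_cancel₀ _ hm'.ne'] at this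
      rw [this]
      congr 1
      field_simp
    have hper : Function.Periodic (S.c i) (sgn e * s) := by
      intro x
      have h1 := up_periodic γ ((x - a) / (sgn e * s))
      have hne : sgn e * s ≠ 0 := by
        rcases sgn_cases e with h | h <;> rw [h] <;> simp [hs.ne']
      rw [hg, hg] at h1
      have e1 : sgn e * s * ((x - a) / (sgn e * s) + 1) + a = x + sgn e * s := by
        rw [mul_add, mul_div_cancel₀ _ hne]; ring
      have e2 : sgn e * s * ((x - a) / (sgn e * s)) + a = x := by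
        rw [mul_div_cancel₀ _ hne]; ring
      rwa [e1, e2] at h1
    have hper' : Function.Periodic (S.c i) s := by
      cases e with
      | true => simpa using hper
      | false =>
        have : sgn false * s = -s := by simp
        rw [this] at hper
        simpa using hper.neg
    obtain ⟨k, hk⟩ := (S.per i _).1 hper'
    have hkpos : 0 < k := by
      have : (0 : ℝ) < k := by
        by_contra hcon
        push Not at hcon
        have := mul_nonpos_of_nonpos_of_nonneg hcon (S.l_pos i).le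
        linarith
      exact_mod_cast this
    refine ⟨i, k.toNat, by omega, ?_, a, funext hg⟩
    rw [hk]
    congr 1
    have : ((k.toNat : ℤ) : ℝ) = k := by rw [Int.toNat_of_nonneg hkpos.le]
    exact_mod_cast this.symm
  · rintro ⟨i, k, hk, he, a, ha⟩
    refine ⟨i, m * k, Nat.mul_pos hm hk, by rw [he]; push_cast; ring, a, ?_⟩
    rw [up_itr, ha]
    funext t
    simp only
    congr 1
    ring

theorem dbl_mem_critP_iff {e : Bool} {s : ℝ} {γ : Lp M} :
    dbl γ ∈ critP S e (2 * s) ↔ γ ∈ critP S e s := by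
  have := itr_mem_critP_iff (S := S) (m := 2) (by norm_num) (e := e) (s := s) (γ := γ)
  simpa using this

/-! ### invariant neighbourhoods -/

theorem isometry_rot (a : UnitAddCircle) : Isometry (rot a : Lp M → Lp M) := by
  have key : ∀ (a : UnitAddCircle) (f g : Lp M), dist (rot a f) (rot a g) ≤ dist f g := by
    intro a f g
    refine (ContinuousMap.dist_le dist_nonneg).2 fun x => ?_
    exact ContinuousMap.dist_apply_le_dist (f := f) (g := g) (x + a)
  refine Isometry.of_dist_eq fun f g => le_antisymm (key a f g) ?_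
  have := key (-a) (rot a f) (rot a g)
  rwa [rot_rot, rot_rot, neg_add_cancel, rot_zero, rot_zero] at this

theorem isometry_rev : Isometry (rev : Lp M → Lp M) := by
  have key : ∀ (f g : Lp M), dist (rev f) (rev g) ≤ dist f g := by
    intro f g
    refine (ContinuousMap.dist_le dist_nonneg).2 fun x => ?_
    exact ContinuousMap.dist_apply_le_dist (f := f) (g := g) (-x)
  refine Isometry.of_dist_eq fun f g => le_antisymm (key f g) ?_
  have := key (rev f) (rev g)
  rwa [rev_rev, rev_rev] at this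

/-- the `T`-invariant core of a set -/
def rotCore (O : Set (Lp M)) : Set (Lp M) := {γ | ∀ a, rot a γ ∈ O}

theorem isOpen_rotCore {O : Set (Lp M)} (hO : IsOpen O) : IsOpen (rotCore O) := by
  rw [isOpen_iff_mem_nhds]
  intro γ hγ
  have h := isCompact_univ.eventually_forall_of_forall_eventually (x₀ := γ)
    (P := fun (γ : Lp M) (a : UnitAddCircle) => rot a γ ∈ O) fun a _ => by
      have h1 : Tendsto (fun p : Lp M × UnitAddCircle => rot p.2 p.1) (𝓝 (γ, a))
          (𝓝 (rot a γ)) :=
        (continuous_rot.comp (continuous_snd.prodMk continuous_fst)).tendsto (γ, a)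
      exact h1 (hO.mem_nhds (hγ a))
  filter_upwards [h] with γ' h' a
  exact h' a (mem_univ a)

theorem rotCore_subset (O : Set (Lp M)) : rotCore O ⊆ O := fun γ h => by
  have := h 0
  rwa [rot_zero] at this

theorem rot_mem_rotCore {O : Set (Lp M)} {γ : Lp M} (h : γ ∈ rotCore O) (a : UnitAddCircle) :
    rot a γ ∈ rotCore O := fun b => by
  rw [rot_rot]
  exact h _

theorem subset_rotCore {O K : Set (Lp M)} (hK : ∀ γ ∈ K, ∀ a, rot a γ ∈ K) (h : K ⊆ O) :
    K ⊆ rotCore O := fun γ hγ a => h (hK γ hγ a)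

/-- **invariant separated neighbourhoods of the two parts of the critical set** -/
theorem exists_nbhd [Finite ι] (hr : 0 < r) (s : ℝ) {O : Set (Lp M)} (hO : IsOpen O)
    (hsub : ∀ e, critP S e s ⊆ O) :
    ∃ U : Bool → Set (Lp M), (∀ e, IsOpen (U e)) ∧ (∀ e, critP S e s ⊆ U e) ∧ (∀ e, U e ⊆ O) ∧
      Disjoint (closure (U true)) (closure (U false)) ∧
      (∀ e γ, γ ∈ U e → ∀ a, rot a γ ∈ U e) ∧ (∀ e γ, γ ∈ U e → rev γ ∈ U (!e)) := by
  have hrev : Continuous (rev : Lp M → Lp M) := continuous_rev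
  set C : Set (Lp M) := rotCore O ∩ rev ⁻¹' rotCore O with hC
  have hCo : IsOpen C := (isOpen_rotCore hO).inter ((isOpen_rotCore hO).preimage hrev)
  have hcr : ∀ e, ∀ γ ∈ critP S e s, γ ∈ C := by
    intro e γ hγ
    refine ⟨fun a => hsub e (rot_mem_critP hγ a), fun a => hsub (!e) (rot_mem_critP ?_ a)⟩
    exact rev_mem_critP hγ
  have hCrot : ∀ γ ∈ C, ∀ a, rot a γ ∈ C := by
    intro γ hγ a
    refine ⟨rot_mem_rotCore hγ.1 a, ?_⟩
    show rev (rot a γ) ∈ rotCore O
    rw [rev_rot]
    exact rot_mem_rotCore hγ.2 _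
  have hCrev : ∀ γ ∈ C, rev γ ∈ C := by
    intro γ hγ
    refine ⟨hγ.2, ?_⟩
    show rev (rev γ) ∈ rotCore O
    rw [rev_rev]
    exact hγ.1
  have hd1 : ∀ e γ a, Metric.infDist (rot a γ) (critP S e s) = Metric.infDist γ (critP S e s) := by
    intro e γ a
    conv_lhs => rw [← rot_image_critP e s a]
    exact Metric.infDist_image (isometry_rot a)
  have hd2 : ∀ e γ, Metric.infDist (rev γ) (critP S (!e) s) =
      Metric.infDist γ (critP S e s) := by
    intro e γ
    rw [← rev_image_critP e s]
    exact Metric.infDist_image isometry_rev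
  refine ⟨fun e => {γ | 2 * Metric.infDist γ (critP S e s) <
    Metric.infDist γ (critP S (!e) s)} ∩ C,
    fun e => ?_, fun e γ hγ => ⟨?_, hcr e γ hγ⟩, fun e γ hγ => rotCore_subset O hγ.2.1, ?_, ?_, ?_⟩
  · exact (isOpen_lt (continuous_const.mul (Metric.continuous_infDist_pt _))
      (Metric.continuous_infDist_pt _)).inter hCo
  · have hcl : IsClosed (critP S (!e) s) := (isCompact_critP hr (!e) s).isClosed
    have hne : (critP S (!e) s).Nonempty := ⟨_, rev_mem_critP hγ⟩
    show 2 * Metric.infDist γ (critP S e s) < Metric.infDist γ (critP S (!e) s)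
    rw [Metric.infDist_zero_of_mem hγ, mul_zero, ← hcl.notMem_iff_infDist_pos hne]
    intro h'
    have hdis := Set.disjoint_left.1 (disjoint_critP (S := S) hr s)
    cases e with
    | true => exact hdis hγ h'
    | false => exact hdis h' hγ
  · have hcl : ∀ e, closure ({γ | 2 * Metric.infDist γ (critP S e s) <
        Metric.infDist γ (critP S (!e) s)} ∩ C) ⊆
        {γ | 2 * Metric.infDist γ (critP S e s) ≤ Metric.infDist γ (critP S (!e) s)} := by
      intro e
      refine closure_minimal (fun γ hγ => le_of_lt (show 2 * Metric.infDist γ (critP S e s) <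
        Metric.infDist γ (critP S (!e) s) from hγ.1)) ?_
      exact isClosed_le (continuous_const.mul (Metric.continuous_infDist_pt _))
        (Metric.continuous_infDist_pt _)
    by_cases hne : (critP S true s).Nonempty
    · have hne' : (critP S false s).Nonempty := by
        rw [critP_nonempty_iff hr] at hne ⊢
        exact hne
      rw [Set.disjoint_left]
      intro γ h1 h2
      have h1' := hcl true h1
      have h2' := hcl false h2
      simp only [mem_ofPred_eq, Bool.not_true, Bool.not_false] at h1' h2'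
      have n1 := Metric.infDist_nonneg (x := γ) (s := critP S true s)
      have n2 := Metric.infDist_nonneg (x := γ) (s := critP S false s)
      have z1 : Metric.infDist γ (critP S true s) = 0 := by linarith
      have z2 : Metric.infDist γ (critP S false s) = 0 := by linarith
      have m1 := ((isCompact_critP hr true s).isClosed.mem_iff_infDist_zero hne).2 z1
      have m2 := ((isCompact_critP hr false s).isClosed.mem_iff_infDist_zero hne').2 z2
      exact Set.disjoint_left.1 (disjoint_critP (S := S) hr s) m1 m2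
    · have hem : critP S true s = ∅ := Set.not_nonempty_iff_eq_empty.1 hne
      have hem' : critP S false s = ∅ := by
        rw [← Set.not_nonempty_iff_eq_empty]
        intro hne'
        rw [critP_nonempty_iff hr] at hne hne'
        exact hne hne'
      rw [Set.disjoint_left]
      intro γ h1 _
      have hz : ({γ | 2 * Metric.infDist γ (critP S true s) <
          Metric.infDist γ (critP S (!true) s)} ∩ C) = ∅ := by
        ext γ'
        simp [hem, hem', Metric.infDist_empty]
      simp only [hz, closure_empty] at h1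
      exact h1
  · rintro e γ ⟨h1, h2⟩ a
    refine ⟨?_, hCrot γ h2 a⟩
    show 2 * Metric.infDist (rot a γ) _ < Metric.infDist (rot a γ) _
    rw [hd1, hd1]
    exact h1
  · rintro e γ ⟨h1, h2⟩
    refine ⟨?_, hCrev γ h2⟩
    show 2 * Metric.infDist (rev γ) (critP S (!e) s) < Metric.infDist (rev γ) (critP S (!!e) s)
    rw [hd2, hd2 (!e)]
    exact h1

end Crest.Agent.R231.CritPMx893
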