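import Crest.Prelude.Def_ClosedGeodesic
import Crest.Agent.R226.GeoThm_542
import Crest.Agent.R226.NearDiagFinal_996

/-!
# Row 231 (S0357), block G, part G0 (helper724): the Riemannian manifold `(S^n, g)`

`SG g` is the unit sphere as a type, with the Riemannian bundle structure of
`g : ContMDiffRiemannianMetric` and the Riemannian distance (Mathlib's `riemannianEDist`), the same
topology and charts.  For `n ≠ 0` it is a compact connected `IsRiemannianManifold`, so the
geodesic package of row 226 (`GeoCore`, `GeoData`) is available: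
`nonempty_geoCore`, `nonempty_geoData`.
-/

set_option autoImplicit false
set_option linter.style.haveILetI false

noncomputable section

open Bundle Set Metric
open scoped Manifold ContDiff Bundle ENNReal Topology

namespace Crest.Agent.R231.GeoBasex724

/-- the unit sphere -/
abbrev Sph (n : ℕ) : Type := Metric.sphere (0 : EuclideanSpace ℝ (Fin (n + 1))) 1

/-- smooth Riemannian metrics on the unit sphere -/
abbrev Met (n : ℕ) : Type :=
  Bundle.ContMDiffRiemannianMetric (𝓡 n) ∞ (EuclideanSpace ℝ (Fin n))
    (TangentSpace (𝓡 n) : Metric.sphere (0 : EuclideanSpace ℝ (Fin (n + 1))) 1 → Type)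

/-- the unit sphere with the Riemannian distance of `g` -/
def SG {n : ℕ} (_g : Met n) : Type := Sph n

section topo

variable {n : ℕ} (g : Met n)

/-- the topology (of the ambient space) -/
@[reducible] def top : TopologicalSpace (SG g) := inferInstanceAs (TopologicalSpace (Sph n))

/-- the charts -/
@[reducible] def chs : letI := top g; ChartedSpace (EuclideanSpace ℝ (Fin n)) (SG g) :=
  inferInstanceAs (ChartedSpace (EuclideanSpace ℝ (Fin n)) (Sph n))

theorem mfd : letI := top g; letI := chs g; IsManifold (𝓡 n) ∞ (SG g) :=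
  inferInstanceAs (IsManifold (𝓡 n) ∞ (Sph n))

theorem cpt : letI := top g; CompactSpace (SG g) := inferInstanceAs (CompactSpace (Sph n))

theorem t3 : letI := top g; T3Space (SG g) := inferInstanceAs (T3Space (Sph n))

theorem conn (hn : n ≠ 0) : letI := top g; ConnectedSpace (SG g) := by
  have h1 : 1 < Module.rank ℝ (EuclideanSpace ℝ (Fin (n + 1))) := by
    rw [← Module.finrank_eq_rank, finrank_euclideanSpace_fin]
    exact_mod_cast Nat.succ_lt_succ (Nat.pos_of_ne_zero hn)
  have h2 := isConnected_sphere h1 (0 : EuclideanSpace ℝ (Fin (n + 1))) zero_le_one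
  exact isConnected_iff_connectedSpace.mp h2

/-- the inner products of `g` -/
@[reducible] def rb : letI := top g; letI := chs g;
    RiemannianBundle (fun p : SG g => TangentSpace (𝓡 n) p) :=
  letI := top g; letI := chs g; ⟨g.toRiemannianMetric⟩

theorem crb : letI := top g; letI := chs g; letI := mfd g; letI := rb g;
    IsContMDiffRiemannianBundle (𝓡 n) ∞ (EuclideanSpace ℝ (Fin n))
    (fun p : SG g => TangentSpace (𝓡 n) p) :=
  letI := top g; letI := chs g; letI := mfd g; letI := rb g;
  ⟨g.inner, g.contMDiff, fun _ _ _ => rfl⟩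

theorem cob : letI := top g; letI := chs g; letI := mfd g; letI := rb g;
    IsContinuousRiemannianBundle (EuclideanSpace ℝ (Fin n))
    (fun p : SG g => TangentSpace (𝓡 n) p) :=
  letI := top g; letI := chs g; letI := mfd g; letI := rb g;
  ⟨g.inner, g.contMDiff.continuous, fun _ _ _ => rfl⟩

/-- the Riemannian distance, extended version, with the given topology -/
@[reducible] def ems : EMetricSpace (SG g) :=
  letI := top g; letI := chs g; letI := mfd g; letI := rb g; letI := crb g; letI := t3 g
  letI := cob g
  EMetricSpace.ofRiemannianMetric (𝓡 n) (SG g)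

/-- the Riemannian distance is finite -/
theorem edist_ne_top (hn : n ≠ 0) (x y : SG g) : (ems g).edist x y ≠ ⊤ := by
  letI := ems g
  letI := conn g hn
  have h1 : IsOpen {z : SG g | edist x z < ⊤} := by
    rw [isOpen_iff_mem_nhds]
    intro z hz
    refine Filter.mem_of_superset (Metric.eball_mem_nhds z (ε := 1) one_pos) ?_
    intro w hw
    have hw' : edist w z < 1 := hw
    have h2 : edist x w ≤ edist x z + edist z w := edist_triangle _ _ _
    refine lt_of_le_of_lt h2 (ENNReal.add_lt_top.2 ⟨hz, ?_⟩)
    rw [edist_comm]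
    exact hw'.trans ENNReal.one_lt_top
  have h2 : IsClosed {z : SG g | edist x z < ⊤} := by
    rw [← isOpen_compl_iff, isOpen_iff_mem_nhds]
    intro z hz
    refine Filter.mem_of_superset (Metric.eball_mem_nhds z (ε := 1) one_pos) ?_
    intro w hw hw2
    have hw' : edist w z < 1 := hw
    have hw3 : edist x w < ⊤ := hw2
    have h3 : edist x z ≤ edist x w + edist w z := edist_triangle _ _ _
    exact hz (lt_of_le_of_lt h3 (ENNReal.add_lt_top.2 ⟨hw3, hw'.trans ENNReal.one_lt_top⟩))
  have h3 : {z : SG g | edist x z < ⊤} = univ :=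
    IsClopen.eq_univ ⟨h2, h1⟩ ⟨x, by simp⟩
  have h4 : y ∈ {z : SG g | edist x z < ⊤} := h3 ▸ mem_univ y
  exact ne_of_lt h4

/-- the Riemannian distance -/
@[reducible] def ms (hn : n ≠ 0) : MetricSpace (SG g) :=
  letI := ems g
  EMetricSpace.toMetricSpace (edist_ne_top g hn)

end topo

/-! ### the instances -/

section inst

variable {n : ℕ} [hn : NeZero n] (g : Met n)

instance instMS : MetricSpace (SG g) := ms g hn.out

instance instCh : ChartedSpace (EuclideanSpace ℝ (Fin n)) (SG g) := chs g

instance instMfd : IsManifold (𝓡 n) ∞ (SG g) := mfd g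

instance instCpt : CompactSpace (SG g) := cpt g

instance instConn : ConnectedSpace (SG g) := conn g hn.out

instance instRB : RiemannianBundle (fun p : SG g => TangentSpace (𝓡 n) p) := rb g

instance instCRB : IsContMDiffRiemannianBundle (𝓡 n) ∞ (EuclideanSpace ℝ (Fin n))
    (fun p : SG g => TangentSpace (𝓡 n) p) := crb g

instance instRM : IsRiemannianManifold (𝓡 n) (SG g) := ⟨fun _ _ => rfl⟩

theorem inner_eq (p : SG g) (v w : TangentSpace (𝓡 n) p) : inner ℝ v w = g.inner p v w := rfl

theorem nonempty_geoCore : Nonempty (R226.GeoCore n (SG g)) := by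
  obtain ⟨N⟩ := R226.NearDiagFinal996.nonempty_nearDiag (n := n) (M := SG g)
  exact R226.GlobalEx415.nonempty_geoCore (R226.SmallFlow90.smallFlow N)

theorem nonempty_geoData : Nonempty (R226.GeoData n (SG g)) := by
  obtain ⟨N⟩ := R226.NearDiagFinal996.nonempty_nearDiag (n := n) (M := SG g)
  exact R226.GeoThm542.nonempty_geoData N

/-- the identity, from the unit sphere to `(S^n, g)` -/
def toSG : Sph n ≃ₜ SG g := Homeomorph.refl (Sph n)

end inst

end Crest.Agent.R231.GeoBasex724
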