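import Crest.Agent.R231.VarB_67
import Crest.Agent.R231.GeoBase_724

/-!
# Row 231 (S0357): closed orbits of the geodesic flow of `g` are closed geodesics (helper67)

* `isClosedGeodesic_of_flow` : `G.Flow 1 p = p ⟹ IsClosedGeodesic (𝓡 n) g (t ↦ G.ex p.1 (t • p.2))`
* `nonconstant_of_flow` : nonconstant if `p.2 ≠ 0`
* `mem_S0357` : the image belongs to the set of S0357
-/

set_option autoImplicit false
set_option linter.unusedSectionVars false

open MeasureTheory Set Filter Topology Bundle
open scoped Manifold ContDiff Bundle ENNReal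
open Manifold
open Crest.GeometryTopology.MTW Crest.GeometryTopology.Geodesic

noncomputable section

namespace Crest.Agent.R231

open Crest.Agent.R226 Crest.Agent.R231.GeoBasex724

section generic

variable {n : ℕ} {M : Type*} [MetricSpace M] [ChartedSpace (EuclideanSpace ℝ (Fin n)) M]
  [IsManifold (𝓡 n) ∞ M]
  [RiemannianBundle (fun p : M => TangentSpace (𝓡 n) p)]

/-- closed orbits are periodic curves -/
theorem periodic_of_flow (G : GeoData n M) {p : TangentBundle (𝓡 n) M} (hp : G.Flow 1 p = p) :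
    Function.Periodic (fun t : ℝ => G.ex p.1 (t • p.2)) 1 := by
  intro t
  have h1 := GeoBasic616.Flow_add G t 1 p
  have h2 : G.Flow (t + 1) p = G.Flow t p := by rw [add_comm, ← h1, hp]
  exact congrArg TotalSpace.proj h2

/-- nonzero velocity: nonconstant -/
theorem nonconstant_of_ne (G : GeoData n M) {x : M} {v : TangentSpace (𝓡 n) x} (hv : v ≠ 0) :
    ∃ s t : ℝ, G.ex x (s • v) ≠ G.ex x (t • v) := by
  have hv' : 0 < ‖v‖ := norm_pos_iff.2 hv
  have hr := G.r₀_pos
  refine ⟨0, G.r₀ / (2 * ‖v‖), fun h => ?_⟩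
  have h1 : |(0 : ℝ) - G.r₀ / (2 * ‖v‖)| * ‖v‖ = G.r₀ / 2 := by
    rw [zero_sub, abs_neg, abs_of_pos (by positivity)]
    field_simp
  have h2 := G.dist_eq x v 0 (G.r₀ / (2 * ‖v‖)) (by rw [h1]; linarith)
  rw [h, dist_self, h1] at h2
  linarith

end generic

section sphere

variable {n : ℕ} [NeZero n] (g : Met n)

/-- squared speed -/
def sp2 (c : ℝ → SG g) (t : ℝ) : ℝ := ‖curveVel n c t‖ ^ 2

theorem loopEnergy_eq (c : ℝ → SG g) :
    loopEnergy (𝓡 n) g (M := Sph n) c = ∫ t in (0 : ℝ)..1, sp2 g c t := by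
  unfold loopEnergy
  refine intervalIntegral.integral_congr fun t _ => ?_
  exact real_inner_self_eq_norm_sq (curveVel n c t)

/-- **closed orbits of the geodesic flow are closed geodesics** (definition of the Prelude) -/
theorem isClosedGeodesic_of_flow (G : GeoData n (SG g)) {p : TangentBundle (𝓡 n) (SG g)}
    (hp : G.Flow 1 p = p) :
    IsClosedGeodesic (𝓡 n) g (M := Sph n) (fun t : ℝ => (G.ex p.1 (t • p.2) : Sph n)) where
  contMDiff := GeoBasic616.contMDiff_ray G p.1 p.2
  periodic := periodic_of_flow G hp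
  isCritical Γ hΓ h0 hper := by
    have h := hasDerivAt_energy G hp (Γ := Γ) hΓ h0 hper
    have e : (fun s => loopEnergy (𝓡 n) g fun t => Γ (s, t)) = fun s => ∫ t in (0 : ℝ)..1,
        sp2 g (fun t => Γ (s, t)) t := funext fun s => loopEnergy_eq g fun t => Γ (s, t)
    rw [e]
    exact h

/-- the image of a nonconstant closed orbit belongs to the set of S0357 -/
theorem mem_S0357 (G : GeoData n (SG g)) {p : TangentBundle (𝓡 n) (SG g)}
    (hp : G.Flow 1 p = p) (hv : p.2 ≠ 0) :
    Set.range (fun t : ℝ => (G.ex p.1 (t • p.2) : Sph n)) ∈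
      {S : Set (Sph n) | ∃ γ : ℝ → Sph n, IsClosedGeodesic (𝓡 n) g γ ∧ (∃ s t, γ s ≠ γ t) ∧
        Set.range γ = S} :=
  ⟨_, isClosedGeodesic_of_flow g G hp, nonconstant_of_ne G hv, rfl⟩

end sphere

end Crest.Agent.R231
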