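import Crest.Agent.R231.GeoLug_724
import Crest.Agent.R231.VarC_67
import Crest.Agent.R231.CritPM_893

/-!
# Row 231 (S0357), block W (helper893): the front end

* `nonBr` : `NonBr M G.r₀` for a geodesic package `G : GeoData n M`
* `isGeo_of_isLoopG`, `isLoopG_iff` : metric closed geodesics versus `IsLoopG`
* `mem_set` : a metric closed geodesic of `(S^n, g)` has its image in the set of S0357
* `exists_primeSys_of_finite` : if the set of S0357 is finite, there is a finite complete system of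
  prime closed geodesics
* `infinite_of` : S0357 for `g` follows if no finite prime system exists
* `exists_count` : at most `B` critical levels in every interval of length `C`
-/

set_option autoImplicit false
set_option linter.unusedSectionVars false

noncomputable section

open Bundle Set Filter
open scoped Manifold ContDiff Bundle ENNReal Topology
open Crest.GeometryTopology.MTW Crest.GeometryTopology.Geodesic
open Crest.Agent.R226 Crest.Agent.R226.GeoBasic616 Crest.Agent.R226.TB616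

namespace Crest.Agent.R231.Frontx893

open GLugx576 GeoLugx724 PrimeGeox893 CritPMx893 GeoBasex724

section generic

variable {n : ℕ} {M : Type*} [MetricSpace M] [ChartedSpace (EuclideanSpace ℝ (Fin n)) M]
  [IsManifold (𝓡 n) ∞ M]
  [RiemannianBundle (fun p : M => TangentSpace (𝓡 n) p)]

variable (G : GeoData n M)

/-- two unit local geodesics that agree on `[m, m+η]` agree on `[m, ∞)` -/
theorem agree_fwd {c c' : ℝ → M} (h : IsLG G.r₀ c) (h' : IsLG G.r₀ c') {m η : ℝ} (hη : 0 < η)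
    (hag : ∀ s ∈ Icc m (m + η), c s = c' s) {t : ℝ} (ht : m ≤ t) : c t = c' t := by
  have hr := G.r₀_pos
  have loc : ∀ {c : ℝ → M}, IsLG G.r₀ c → ∀ x ∈ Icc m (t + 1), ∀ y ∈ Icc m (t + 1),
      |x - y| ≤ G.r₀ / 2 → dist (c x) (c y) = 1 * |x - y| := by
    intro c h x _ y _ hxy
    rw [one_mul]
    exact h x y (by linarith)
  have hmt : m < t + 1 := by linarith
  have hcm : c' m = c m := (hag m ⟨le_rfl, by linarith⟩).symm
  obtain ⟨w, hw1, hw⟩ := exline_Icc G hmt (half_pos hr) zero_le_one (loc h) rfl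
  obtain ⟨w', hw1', hw'⟩ := exline_Icc G hmt (half_pos hr) zero_le_one (loc h') hcm
  set ε : ℝ := min η (min (G.r₀ / 2) (t + 1 - m)) with hε
  have hε0 : 0 < ε := lt_min hη (lt_min (half_pos hr) (by linarith))
  have hε1 : ε ≤ η := min_le_left _ _
  have hε2 : ε ≤ G.r₀ / 2 := (min_le_right _ _).trans (min_le_left _ _)
  have hε3 : ε ≤ t + 1 - m := (min_le_right _ _).trans (min_le_right _ _)
  have hww : w = w' := by
    have e1 : G.ex (c m) (ε • w) = G.ex (c m) (ε • w') := by
      rw [← hw ε ⟨hε0.le, hε3⟩, ← hw' ε ⟨hε0.le, hε3⟩]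
      exact hag _ ⟨by linarith, by linarith⟩
    have e2 : ε • w = ε • w' := by
      refine G.inj (c m) _ _ ?_ ?_ e1
      · rw [norm_smul, hw1, Real.norm_of_nonneg hε0.le]; linarith
      · rw [norm_smul, hw1', Real.norm_of_nonneg hε0.le]; linarith
    exact smul_right_injective _ hε0.ne' e2
  have h1 := hw (t - m) ⟨by linarith, by linarith⟩
  have h2 := hw' (t - m) ⟨by linarith, by linarith⟩
  rw [show m + (t - m) = t by ring] at h1 h2
  rw [h1, h2, hww]

/-- **non-branching** -/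
theorem nonBr : NonBr M G.r₀ := by
  intro c c' h h' a b hab hag
  set m : ℝ := (a + b) / 2 with hm
  set η : ℝ := (b - a) / 4 with hη
  have hη0 : 0 < η := by rw [hη]; linarith
  funext t
  rcases le_total m t with ht | ht
  · refine agree_fwd G h h' hη0 (fun s hs => hag s ⟨?_, ?_⟩) ht
    · rw [hm] at hs; linarith [hs.1]
    · rw [hm, hη] at hs; linarith [hs.2]
  · have hc := h.affine (ε := -1) (by simp) (2 * m)
    have hc' := h'.affine (ε := -1) (by simp) (2 * m)
    have h1 := agree_fwd G hc hc' (m := m) hη0 (fun s hs => ?_) (t := 2 * m - t) (by linarith)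
    · have e : -1 * (2 * m - t) + 2 * m = t := by ring
      simp only [e] at h1
      exact h1
    · refine hag _ ⟨?_, ?_⟩
      · rw [hm, hη] at hs; rw [hm]; linarith [hs.2]
      · rw [hm] at hs; rw [hm]; linarith [hs.1]

theorem isGeo_iff' {s : ℝ} {γ : Lp M} : IsGeo s γ ↔ 0 < s ∧ IsLoopG G.r₀ s (up γ) :=
  CritPMx893.isGeo_iff (lug G) (locMin G)

end generic

section sphere

variable {n : ℕ} [NeZero n] (g : Met n)

/-- the set of images of S0357 -/
def imgs : Set (Set (Sph n)) :=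
  {S : Set (Sph n) | ∃ γ : ℝ → Sph n, IsClosedGeodesic (𝓡 n) g γ ∧ (∃ s t, γ s ≠ γ t) ∧
    Set.range γ = S}

variable (G : GeoData n (SG g))

/-- the image of a metric closed geodesic belongs to the set of S0357 -/
theorem mem_imgs {γ : ℝ → SG g} {L : ℝ} (hL : 0 < L) (h : IsLoopG G.r₀ L γ) :
    (range γ : Set (SG g)) ∈ (imgs g : Set (Set (SG g))) := by
  obtain ⟨γ', hγ'⟩ := exists_up (h.continuous G.r₀_pos hL) h.per
  have hg : IsGeo L γ' := (isGeo_iff' G).2 ⟨hL, by rw [hγ']; exact h⟩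
  obtain ⟨p, -, hp2, hp3, hp4⟩ := exists_line G hg
  have hne : p.2 ≠ 0 := by
    intro h0
    rw [h0, norm_zero] at hp2
    exact hL.ne hp2
  have h1 := mem_S0357 g G hp3 hne
  have e : γ = fun t : ℝ => G.ex p.1 (t • p.2) := by
    funext t
    rw [← hp4 t, ← hγ']
    rfl
  rw [e]
  exact h1

/-- **finitely many images give a finite prime system** -/
theorem exists_primeSys_of_finite (hfin : (imgs g).Finite) :
    ∃ N : ℕ, Nonempty (PrimeSys (SG g) G.r₀ (Fin N)) := by
  refine exists_primeSys G.r₀_pos (Set.Finite.subset (s := (imgs g : Set (Set (SG g)))) hfin ?_)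
  rintro S ⟨γ, L, hL, hγ, rfl⟩
  exact mem_imgs g G hL hγ

end sphere

/-- **the front end of S0357**: it is enough to refute finite prime systems -/
theorem infinite_of (n : ℕ) (hn : 2 ≤ n)
    (H : ∀ [NeZero n] (g : Met n) (G : GeoData n (SG g)) (N : ℕ)
      (_ : PrimeSys (SG g) G.r₀ (Fin N)), False) (g : Met n) :
    {S : Set (Metric.sphere (0 : EuclideanSpace ℝ (Fin (n + 1))) 1) |
      ∃ γ : ℝ → Metric.sphere (0 : EuclideanSpace ℝ (Fin (n + 1))) 1,
      IsClosedGeodesic (𝓡 n) g γ ∧ (∃ s t, γ s ≠ γ t) ∧ Set.range γ = S}.Infinite := by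
  have : NeZero n := ⟨by omega⟩
  intro hfin
  obtain ⟨G⟩ := nonempty_geoData g
  obtain ⟨N, ⟨S⟩⟩ := exists_primeSys_of_finite g G hfin
  exact H g G N S

/-! ### counting critical levels -/

section count

variable {M : Type*} [MetricSpace M] {r : ℝ} {ι : Type}

/-- at most `B` critical levels in every interval `(t, t + C]` -/
theorem exists_count [Finite ι] (S : PrimeSys M r ι) (C : ℝ) :
    ∃ B : ℕ, ∀ t : ℝ, (S.levels ∩ Ioc t (t + C)).Finite ∧ (S.levels ∩ Ioc t (t + C)).ncard ≤ B := by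
  classical
  have := Fintype.ofFinite ι
  -- multiples of `l i` in `(t, t+C]` : at most `⌊C / l i⌋ + 1`
  have key : ∀ i, ∀ t : ℝ, ∃ F : Finset ℝ, (∀ m : ℕ, (m : ℝ) * S.l i ∈ Ioc t (t + C) →
      (m : ℝ) * S.l i ∈ F) ∧ F.card ≤ ⌈|C| / S.l i⌉₊ + 2 := by
    intro i t
    have hl := S.l_pos i
    refine ⟨(Finset.Icc (⌊t / S.l i⌋) (⌊t / S.l i⌋ + (⌈|C| / S.l i⌉₊ + 1))).image
      fun k : ℤ => (k : ℝ) * S.l i, fun m hm => ?_, ?_⟩
    · refine Finset.mem_image.2 ⟨(m : ℤ), Finset.mem_Icc.2 ⟨?_, ?_⟩, by push_cast; rfl⟩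
      · have h1 : t / S.l i < (m : ℝ) := by rw [div_lt_iff₀ hl]; exact hm.1
        have h2 : ((⌊t / S.l i⌋ : ℤ) : ℝ) ≤ t / S.l i := Int.floor_le _
        have h3 : ((⌊t / S.l i⌋ : ℤ) : ℝ) < ((m : ℤ) : ℝ) := by push_cast; linarith
        exact_mod_cast h3.le
      · have h1 : (m : ℝ) ≤ t / S.l i + |C| / S.l i := by
          rw [← add_div, le_div_iff₀ hl]
          exact hm.2.trans (by linarith [le_abs_self C])
        have h2 : t / S.l i < (⌊t / S.l i⌋ : ℤ) + 1 := Int.lt_floor_add_one _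
        have h3 : |C| / S.l i ≤ (⌈|C| / S.l i⌉₊ : ℝ) := Nat.le_ceil _
        have h4 : ((m : ℤ) : ℝ) ≤ ((⌊t / S.l i⌋ + (⌈|C| / S.l i⌉₊ + 1) : ℤ) : ℝ) := by
          push_cast
          linarith
        exact_mod_cast h4
    · refine Finset.card_image_le.trans ?_
      rw [Int.card_Icc]
      have : (⌊t / S.l i⌋ + (⌈|C| / S.l i⌉₊ + 1) + 1 - ⌊t / S.l i⌋ : ℤ) =
          ((⌈|C| / S.l i⌉₊ + 2 : ℕ) : ℤ) := by push_cast; ring
      rw [this]
      simp
  refine ⟨∑ i, (⌈|C| / S.l i⌉₊ + 2), fun t => ?_⟩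
  choose F hF hc using fun i => key i t
  have hsub : S.levels ∩ Ioc t (t + C) ⊆ (Finset.univ.biUnion F : Finset ℝ) := by
    rintro s ⟨⟨i, m, hm, rfl⟩, hs⟩
    rw [Finset.mem_coe, Finset.mem_biUnion]
    exact ⟨i, Finset.mem_univ i, hF i m hs⟩
  refine ⟨(Finset.finite_toSet _).subset hsub, ?_⟩
  refine (Set.ncard_le_ncard hsub (Finset.finite_toSet _)).trans ?_
  rw [Set.ncard_coe_finset]
  exact Finset.card_biUnion_le.trans (Finset.sum_le_sum fun i _ => hc i)

end count

end Crest.Agent.R231.Frontx893
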