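import Crest.Agent.R231.InstA_895

/-!
# Row 231 (S0357): LITERAL OUTPUT of blocks T and P (helper200, chief architect)

`M` a metric space (`M = SG g`, the sphere of dimension `n ≥ 2` with a Riemannian metric),
`mix M`, `FF M t`, `tauC M` of `InstA_895` (mod 2 singular chains of Lipschitz loops).

* `KK n i` : the `i`-th iteration number `K` used: odd if `n` is even, even if `n` is odd;
  `ee n i + 1 = K (n - 1)` : the degrees `d ∈ D`.
* `TOut n M` : what block T delivers (topology of `Λ`).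
* `POut n M` : what block P delivers (bounded depth, bounded steps).
* `Fin2 M Crit`, … : what is taken from the other blocks: `LocBd`.
* `A1_of`, `A2_of`, `lv_…` : the fields of `IfAx978.Core` from these outputs.
-/

set_option autoImplicit false

noncomputable section

namespace Crest.Agent.R231.IfPTx200

open IfAx978 Instx895 GLugx576

/-- the iteration numbers: `n` even: `1, 3, 5, …`; `n` odd: `2, 4, 6, …` -/
def KK (n i : ℕ) : ℕ := if n % 2 = 0 then 2 * i + 1 else 2 * i + 2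

/-- `ee n i + 1 = KK n i * (n - 1)` -/
def ee (n i : ℕ) : ℕ := KK n i * (n - 1) - 1

theorem KK_pos (n i : ℕ) : 0 < KK n i := by unfold KK; split_ifs <;> omega

theorem KK_succ (n i : ℕ) : KK n (i + 1) = KK n i + 2 := by unfold KK; split_ifs <;> omega

theorem ee_add_one {n : ℕ} (hn : 2 ≤ n) (i : ℕ) : ee n i + 1 = KK n i * (n - 1) := by
  have h1 : 0 < KK n i * (n - 1) := Nat.mul_pos (KK_pos n i) (by omega)
  unfold ee; omega

theorem ee_mono {n : ℕ} (hn : 2 ≤ n) : StrictMono (ee n) := by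
  refine strictMono_nat_of_lt_succ fun i => ?_
  have h1 := ee_add_one hn i
  have h2 := ee_add_one hn (i + 1)
  rw [KK_succ, Nat.add_mul] at h2
  have h3 : 0 < n - 1 := by omega
  omega

theorem ee_par {n : ℕ} (hn : 2 ≤ n) (i : ℕ) : (ee n i + 1) % 2 = (n - 1) % 2 := by
  rw [ee_add_one hn i, KK]
  rcases Nat.even_or_odd' n with ⟨m, rfl | rfl⟩
  · have : (2 * m) % 2 = 0 := by omega
    rw [if_pos this, Nat.mul_mod]
    have h1 : (2 * i + 1) % 2 = 1 := by omega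
    have h2 : (2 * m - 1) % 2 = 1 := by omega
    rw [h1, h2]
  · have : ¬ (2 * m + 1) % 2 = 0 := by omega
    rw [if_neg this, Nat.mul_mod]
    have h1 : (2 * i + 2) % 2 = 0 := by omega
    have h2 : (2 * m + 1 - 1) % 2 = 0 := by omega
    rw [h1, h2]

/-- **OUTPUT OF BLOCK T** -/
structure TOut (n : ℕ) (M : Type) [MetricSpace M] : Prop where
  /-- (A1), strong form: a `(d + Δ)`-boundary (mod base, with entries below `j` in the base) of
  parity `n - 1` has a leading term which is a relative boundary of `Λ`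
  (= conclusion of `TopTx482.perm_A1`, `A1Spanx901.A1_of`) -/
  A1 : ∀ j : ℕ, j % 2 = (n - 1) % 2 → ∀ c : (∀ i, (mix M).C i),
    (∀ i, i < j → DD c i ∈ FF M 0 i) → DD c j ∈ Bd (FF M 0) ⊤ j
  /-- `H_d(Λ, Λ⁰) ≠ 0` for `d = K (n - 1)` -/
  ne : ∀ i, ¬ Zc (FF M 0) ⊤ (ee n i + 1) ≤ Bd (FF M 0) ⊤ (ee n i + 1)
  A3op : ∀ i, ∀ m0 : (mix M).C (ee n i + 1), ∀ m1 : (mix M).C (ee n i),
    m1 ∈ Zc (FF M 0) ⊤ (ee n i) → (mix M).d (ee n i) m0 + (m1 + tauC M _ m1) ∈ FF M 0 (ee n i) →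
    m0 + tauC M _ m0 ∈ Bd (FF M 0) ⊤ (ee n i + 1)
  A3tau : ∀ i, ∀ m1 : (mix M).C (ee n i), m1 ∈ Zc (FF M 0) ⊤ (ee n i) →
    m1 + tauC M _ m1 ∈ Bd (FF M 0) ⊤ (ee n i)

/-- **OUTPUT OF BLOCK P** -/
structure POut (n : ℕ) (M : Type) [MetricSpace M] : Prop where
  /-- bounded depth `BD(Λ)`: a relative cycle of `X_t` which bounds in `Λ` bounds in `X_{t+C}` -/
  BD : ∃ C : ℝ, 0 ≤ C ∧ ∀ t : ℝ, 0 ≤ t → ∀ j : ℕ,
    FF M t j ⊓ Bd (FF M 0) ⊤ j ≤ Bd (FF M 0) (FF M (t + C)) j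
  /-- if a non-zero class of degree `d = K (n - 1)` has a representative in `X_t`, then a non-zero
  class of degree `(K + 2) (n - 1)` has a representative in `X_{t+C}` -/
  step : ∃ C : ℝ, 0 ≤ C ∧ ∀ t : ℝ, 0 ≤ t → ∀ i : ℕ,
    ¬ Zc (FF M 0) (FF M t) (ee n i + 1) ≤ Bd (FF M 0) ⊤ (ee n i + 1) →
    ¬ Zc (FF M 0) (FF M (t + C)) (ee n (i + 1) + 1) ≤ Bd (FF M 0) ⊤ (ee n (i + 1) + 1)

/-- **OUTPUT OF BLOCKS GM + W** used for (A2): uniform bound `B` for the total dimension of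
`H(X_b, X_a)`, for every pair of non-critical levels `a < b`, `b - a ≤ 1`... stated for windows of
any fixed length `C`. -/
def WinBd (M : Type) [MetricSpace M] (Crit : Set ℝ) : Prop :=
  ∀ C : ℝ, 0 ≤ C → ∃ B : ℕ, ∀ a b : ℝ, 0 ≤ a → a ≤ b → b ≤ a + C → a ∉ Crit → b ∉ Crit → ∀ N : ℕ,
    ∑ j ∈ Finset.range N, rd (Bd (FF M a) (FF M b) j) (Zc (FF M a) (FF M b) j) ≤ B

end Crest.Agent.R231.IfPTx200
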