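import Mathlib
import Crest.Agent.R231.IfA_978
import Crest.Agent.R231.BDLam_969

/-!
# Row 231, leaf P8 (helper969): the fields `lv`, `lv_below`, `lv_above`, `lv_tendsto`, `lv_step` of `Core`

Input: `Y.BD` (bounded bars of the based loops), `WangOut`, the additive structure of `H(Ω)`
(`PwData`: classes of `x^m`) and the subadditivity of their levels `τ`.
-/

set_option autoImplicit false

namespace Crest.Agent.R231.BDAx969

open Crest.Agent.R231.IfAx978

/-- `H_*(Ω) = F[x]`, `|x| = D`, with the levels `τ m` of `x^m`.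
`Pw m j z` : `z` is a `j`-cycle of class `x^m`. -/
structure PwData (Y : LC) (D : ℕ) (Pw : ℕ → ∀ j, Y.C j → Prop) (τ : ℕ → ℝ) : Prop where
  deg : ∀ m j z, Pw m j z → j = m * D
  cyc : ∀ m j z, Pw m j z → Y.Cyc j z
  ne : ∀ m j z, Pw m j z → ¬ Y.Fin j z
  /-- every class of positive degree is `0` or a power of `x` -/
  basis : ∀ j z, 1 ≤ j → Y.Cyc j z → Y.Fin j z ∨ ∃ m, Pw m j z
  τ_nonneg : ∀ m, 0 ≤ τ m
  /-- `x^m` has a representative at every level `> τ m` -/
  above : ∀ m t, τ m < t → ∃ z ∈ Y.F t (m * D), Pw m (m * D) z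
  /-- and none at a level `< τ m` -/
  below : ∀ m t j, t < τ m → ∀ z ∈ Y.F t j, ¬ Pw m j z
  sub : ∀ m l, τ (m + l) ≤ τ m + τ l
  /-- chains of the constant loop of positive degree -/
  base : ∀ j y, y ∈ Y.F 0 (j + 1) → Y.Fin (j + 1) y

variable {X : Mix}

theorem Zc_mono' {F : ℝ → GS X} (hmono : ∀ s t, s ≤ t → ∀ j, F s j ≤ F t j) {s t : ℝ} (hst : s ≤ t)
    (j : ℕ) : Zc (F 0) (F s) j ≤ Zc (F 0) (F t) j := by
  cases j with
  | zero => exact hmono s t hst 0
  | succ j => exact inf_le_inf (hmono s t hst _) le_rfl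

/-- **P8.** -/
theorem levels_of {Y : LC} {F : ℝ → GS X} {n D : ℕ} {i : ℝ → ∀ j, Y.C j →ₗ[ZMod 2] X.C j}
    {Pw : ℕ → ∀ j, Y.C j → Prop} {τ : ℕ → ℝ} {Crit : Set ℝ}
    (hD : 1 ≤ D) (hn : n = D + 1)
    (hmono : ∀ s t, s ≤ t → ∀ j, F s j ≤ F t j)
    (hfin : ∀ T : ℝ, (Crit ∩ Set.Iic T).Finite)
    (hbdd : ∀ t : ℝ, 0 ≤ t → t ∉ Crit → ∃ M : ℕ, ∀ j, M ≤ j →
      Zc (F 0) (F t) j ≤ Bd (F 0) (F t) j)
    (hY : Y.BD) (W : WangOut Y X F n i) (hP : PwData Y D Pw τ)
    (e : ℕ → ℕ) (κ : ℕ) (hκ : 1 ≤ κ) (hκ2 : D = 1 → κ = 1) (he : ∀ a, e a + 1 = (2 * a + κ) * D) :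
    ∃ lv : ℕ → ℝ,
      (∀ a t, 0 ≤ t → t ∉ Crit → t < lv a → Zc (F 0) (F t) (e a + 1) ≤ Bd (F 0) ⊤ (e a + 1)) ∧
      (∀ a t, 0 ≤ t → t ∉ Crit → lv a < t → ¬ Zc (F 0) (F t) (e a + 1) ≤ Bd (F 0) ⊤ (e a + 1)) ∧
      (∀ T : ℝ, ∃ i0 : ℕ, ∀ a, i0 ≤ a → T < lv a) ∧
      (∃ C1 : ℝ, ∀ a, lv (a + 1) ≤ lv a + C1) := by
  classical
  obtain ⟨Cb, hCb, hBD⟩ := hY
  obtain ⟨c, hc, hex⟩ := W.exact
  -- `i_t y` is zero in `N(Λ)` if `y` is a boundary in `Ω`
  have hfinz : ∀ (t : ℝ) (j : ℕ) (y : Y.C j), 0 ≤ t → y ∈ Y.F t j → Y.Cyc j y → Y.Fin j y →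
      i t j y ∈ Bd (F 0) ⊤ j := by
    intro t j y ht hy hcy hfy
    obtain ⟨w, hw⟩ := hfy
    obtain ⟨s0, hs0⟩ := Y.F_exh _ w
    set s := max t s0 with hs
    have hs0' : 0 ≤ s := ht.trans (le_max_left _ _)
    have hw' : w ∈ Y.F s (j + 1) := Y.F_mono _ _ (le_max_right _ _) _ hs0
    have h1 := W.compat t s j y ht (le_max_left _ _) hy hcy
    have h2 : i s j y ∈ Bd (F 0) ⊤ j := by
      rw [← hw, ← W.d_i _ _ _ hs0' hw']
      exact Submodule.mem_sup_left ⟨_, trivial, rfl⟩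
    have h3 := Submodule.add_mem _ (Bd_mono (B' := ⊤) (fun j => le_top) j h1) h2
    rwa [add_add_self] at h3
  -- Claim B
  have claimB : ∀ (K : ℕ) (t : ℝ), 1 ≤ K → τ K < t →
      ¬ Zc (F 0) (F t) (K * D) ≤ Bd (F 0) ⊤ (K * D) := by
    intro K t hK ht hle
    have ht0 : 0 ≤ t := (hP.τ_nonneg K).trans ht.le
    obtain ⟨y, hy, hPy⟩ := hP.above K t ht
    have hcy := hP.cyc _ _ _ hPy
    obtain ⟨j, hj⟩ : ∃ j, K * D = j + 1 := ⟨K * D - 1, by
      have : 1 ≤ K * D := Nat.one_le_iff_ne_zero.2 (by positivity)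
      omega⟩
    have hne := hP.ne _ _ _ hPy
    revert hle hy hcy hne
    generalize K * D = j' at y hj hPy ⊢
    subst hj
    intro hle hy hcy hne
    have hz : i t (j + 1) y ∈ Zc (F 0) (F t) (j + 1) := by
      refine ⟨W.lev _ _ _ ht0 hy, ?_⟩
      show X.d j (i t (j + 1) y) ∈ F 0 j
      rw [W.d_i _ _ _ ht0 hy, show Y.d j y = 0 from hcy, map_zero]
      exact Submodule.zero_mem _
    obtain ⟨y0, hy0, _, hf, _⟩ := W.inj t _ y ht0 hy hcy (hle hz)
    have := hf.add (hP.base _ _ hy0)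
    rw [add_add_self] at this
    exact hne this
  -- Claim A
  obtain ⟨CA, hCA, claimA⟩ : ∃ CA : ℝ, 0 ≤ CA ∧ ∀ (K : ℕ) (t : ℝ), 1 ≤ K → (D = 1 → K % 2 = 1) →
      0 ≤ t → ¬ Zc (F 0) (F t) (K * D) ≤ Bd (F 0) ⊤ (K * D) → τ (K + 2) ≤ t + CA := by
    refine ⟨c + Cb + c + 4 * τ 1, by
      have := hP.τ_nonneg 1
      linarith, ?_⟩
    intro K t hK hK2 ht hnle
    have hτ1 := hP.τ_nonneg 1
    have hτ2 : τ 2 ≤ τ 1 + τ 1 := hP.sub 1 1
    have hKD : 1 ≤ K * D := Nat.one_le_iff_ne_zero.2 (by positivity)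
    obtain ⟨z, hz, hzn⟩ := Set.not_subset.1 hnle
    have hlev : ∀ (u : ℝ) (y : Y.C (K * D)), 0 ≤ u → y ∈ Y.F u (K * D) → Y.Cyc _ y →
        z + i u (K * D) y ∈ Bd (F 0) (F u) (K * D) → τ K ≤ u := by
      intro u y hu hy hcy hzy
      rcases hP.basis _ y hKD hcy with hf | ⟨m, hm⟩
      · exfalso
        apply hzn
        have h1 := hfinz u _ y hu hy hcy hf
        have h2 := Submodule.add_mem _ (Bd_mono (B' := ⊤) (fun j => le_top) _ hzy) h1
        rwa [add_add_self] at h2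
      · have hmK : m = K := by
          have := hP.deg _ _ _ hm
          exact (Nat.eq_of_mul_eq_mul_right (by omega) this).symm
        subst hmK
        by_contra hlt
        push Not at hlt
        exact hP.below _ _ _ hlt y hy hm
    have hstep : ∀ u : ℝ, τ K ≤ u → τ (K + 2) ≤ u + 2 * τ 1 := by
      intro u hu
      have := hP.sub K 2
      linarith
    obtain ⟨hlow, hhigh⟩ := hex t _ z ht hz
    by_cases hj : K * D < n
    · obtain ⟨y, hy, hcy, hzy⟩ := hlow hj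
      have := hstep _ (hlev _ y (by linarith) hy hcy hzy)
      linarith
    · push Not at hj
      obtain ⟨r, hr, hcr, _, hR⟩ := hhigh (K * D - n) (by omega)
      by_cases hfr : Y.Fin _ r
      · have hb := hBD _ _ r (by linarith) hr hfr
        obtain ⟨y, hy, hcy, hzy⟩ := hR (t + c + Cb) (by linarith) hb
        have := hstep _ (hlev _ y (by linarith) hy hcy hzy)
        linarith
      · -- `n = 2`
        have hkey : ∀ m : ℕ, K * D - n = m * D → D = 1 ∧ K = m + 2 := by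
          intro m hm
          have h1 : K * D = m * D + D + 1 := by omega
          have h2 : m + 1 < K := by
            by_contra hcon
            push Not at hcon
            have : K * D ≤ (m + 1) * D := Nat.mul_le_mul_right _ hcon
            nlinarith
          obtain ⟨q, rfl⟩ : ∃ q, K = m + 2 + q := ⟨K - (m + 2), by omega⟩
          have h3 : (m + 2 + q) * D = m * D + D + D + q * D := by ring
          have h4 : D + q * D = 1 := by omega
          have h5 : D = 1 := by nlinarith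
          refine ⟨h5, ?_⟩
          subst h5
          omega
        by_cases hl0 : K * D - n = 0
        · obtain ⟨h1, h2⟩ := hkey 0 (by simpa using hl0)
          have := hK2 h1
          omega
        · rcases hP.basis _ r (by omega) hcr with hf | ⟨m, hm⟩
          · exact absurd hf hfr
          · obtain ⟨h1, h2⟩ := hkey m (hP.deg _ _ _ hm)
            have hτm : τ m ≤ t + c := by
              by_contra hlt
              push Not at hlt
              exact hP.below _ _ _ hlt r hr hm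
            have h3 : τ (K + 2) ≤ τ m + τ 4 := by
              have := hP.sub m 4
              rwa [show m + 4 = K + 2 by omega] at this
            have h4 : τ 4 ≤ τ 2 + τ 2 := hP.sub 2 2
            linarith
  -- the levels
  set S : ℕ → Set ℝ := fun a => {t | 0 ≤ t ∧ ¬ Zc (F 0) (F t) (e a + 1) ≤ Bd (F 0) ⊤ (e a + 1)}
    with hS
  have hSup : ∀ a s t, s ∈ S a → s ≤ t → t ∈ S a := by
    rintro a s t ⟨h1, h2⟩ hst
    refine ⟨h1.trans hst, fun h => h2 (le_trans (Zc_mono' hmono hst _) h)⟩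
  have hSne : ∀ a, (S a).Nonempty := by
    intro a
    refine ⟨τ (2 * a + κ) + 1, ?_, ?_⟩
    · have := hP.τ_nonneg (2 * a + κ)
      linarith
    · rw [he a]
      exact claimB _ _ (by omega) (by linarith)
  have hSbd : ∀ a, BddBelow (S a) := fun a => ⟨0, fun t ht => ht.1⟩
  refine ⟨fun a => sInf (S a), ?_, ?_, ?_, ?_⟩
  · intro a t ht _ hlt
    by_contra hcon
    have : sInf (S a) ≤ t := csInf_le (hSbd a) ⟨ht, hcon⟩
    linarith
  · intro a t ht _ hlt
    obtain ⟨s, hs, hst⟩ := exists_lt_of_csInf_lt (hSne a) hlt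
    exact (hSup a s t hs hst.le).2
  · intro T
    obtain ⟨T', hT1, hT0, hTC⟩ : ∃ T' : ℝ, T < T' ∧ 0 ≤ T' ∧ T' ∉ Crit := by
      by_contra hcon
      push Not at hcon
      have hsub : Set.Ioo (max T 0) (max T 0 + 1) ⊆ Crit ∩ Set.Iic (max T 0 + 1) := fun u hu =>
        ⟨hcon u (lt_of_le_of_lt (le_max_left _ _) hu.1) ((le_max_right _ _).trans hu.1.le), hu.2.le⟩
      exact absurd ((hfin _).subset hsub) (Set.Ioo_infinite (by linarith))
    obtain ⟨M, hM⟩ := hbdd T' hT0 hTC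
    refine ⟨M, fun a ha => lt_of_lt_of_le hT1 ?_⟩
    refine le_csInf (hSne a) fun s hs => ?_
    by_contra hlt
    push Not at hlt
    have h1 := (hSup a s T' hs hlt.le).2
    apply h1
    have h2 : M ≤ e a + 1 := by
      rw [he a]
      nlinarith
    exact (hM _ h2).trans (Bd_mono (fun _ => le_top) _)
  · refine ⟨CA, fun a => ?_⟩
    -- every `t ∈ S a` gives `sInf (S (a+1)) ≤ t + CA`
    have h1 : ∀ t ∈ S a, sInf (S (a + 1)) - CA ≤ t := by
      rintro t ⟨ht0, ht⟩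
      rw [he a] at ht
      have h2 := claimA (2 * a + κ) t (by omega) (fun h => by
        have := hκ2 h
        omega) ht0 ht
      have h3 : ∀ ε > 0, sInf (S (a + 1)) ≤ τ (2 * a + κ + 2) + ε := by
        intro ε hε
        refine csInf_le (hSbd _) ⟨?_, ?_⟩
        · have := hP.τ_nonneg (2 * a + κ + 2)
          linarith
        · rw [he (a + 1), show 2 * (a + 1) + κ = 2 * a + κ + 2 by ring]
          exact claimB _ _ (by omega) (by linarith)
      have h4 : sInf (S (a + 1)) ≤ τ (2 * a + κ + 2) := le_of_forall_pos_le_add h3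
      linarith
    have := le_csInf (hSne a) h1
    show sInf (S (a + 1)) ≤ sInf (S a) + CA
    linarith

/-- `κ = 1` for `n` even, `κ = 2` for `n` odd -/
def kap (D : ℕ) : ℕ := if D % 2 = 1 then 1 else 2

/-- the degrees `e a + 1 = (2a + κ)(n - 1)` -/
def eDeg (D a : ℕ) : ℕ := (2 * a + kap D) * D - 1

theorem kap_pos (D : ℕ) : 1 ≤ kap D := by
  unfold kap
  split_ifs <;> omega

theorem kap_one {D : ℕ} (h : D = 1) : kap D = 1 := by
  subst h
  rfl

theorem eDeg_succ {D : ℕ} (hD : 1 ≤ D) (a : ℕ) : eDeg D a + 1 = (2 * a + kap D) * D := by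
  unfold eDeg
  have h : 1 ≤ (2 * a + kap D) * D := by
    have := kap_pos D
    exact Nat.one_le_iff_ne_zero.2 (Nat.mul_ne_zero (by omega) (by omega))
  omega

theorem eDeg_mono {D : ℕ} (hD : 1 ≤ D) : StrictMono (eDeg D) := by
  refine strictMono_nat_of_lt_succ fun a => ?_
  have h1 := eDeg_succ hD a
  have h2 := eDeg_succ hD (a + 1)
  have h3 : (2 * (a + 1) + kap D) * D = (2 * a + kap D) * D + 2 * D := by ring
  omega

theorem eDeg_par {D : ℕ} (hD : 1 ≤ D) (a : ℕ) : (eDeg D a + 1) % 2 = D % 2 := by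
  rw [eDeg_succ hD, Nat.mul_mod]
  unfold kap
  split_ifs with h
  · rw [h, show (2 * a + 1) % 2 = 1 by omega]
  · have h0 : D % 2 = 0 := by omega
    rw [h0]
    simp

end Crest.Agent.R231.BDAx969
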