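import Crest.Agent.R231.InstC_895
import Crest.Agent.R231.LvAlg_969
import Crest.Agent.R231.A2_969
import Crest.Agent.R231.A1Fld_901
import Crest.Agent.R231.Front_893
import Crest.Agent.R231.IfPT_200

/-!
# Row 231 (S0357): assembly of the outputs of all blocks (helper895)

* `Outs M D` : the outputs of the blocks G, H, R, GM, W, P, T for a metric space `M` (`D = n - 1`);
* `coreHyp_of : Outs M D → ∃ e lv, CoreHyp M D e lv`
* adapters into `Outs`: `bd_of_pouts`, `lv_of_pouts` (969), `lv_of_step`, `outs_of_PT` (200's IfPT),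
  `A1s_of_perm` (901)
* `infinite_of_outs` : the literal conclusion of S0357 from `Core → False` and `Outs (SG g) (n-1)` for
  all finite prime systems.
-/

set_option autoImplicit false
set_option linter.unusedSectionVars false

noncomputable section

open Bundle Set Filter Function
open scoped Manifold ContDiff Bundle ENNReal Topology
open Crest.GeometryTopology.MTW Crest.GeometryTopology.Geodesic
open Crest.Agent.R226 Crest.Agent.R226.GeoBasic616 Crest.Agent.R226.TB616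
open Crest.Agent.R204

namespace Crest.Agent.R231.Asmx895

open SingAct265 EZ271 EZ847 Pairx877 GLugx576 TActx569 TCx569 IfAx978 Gr334 Instx895
open BDAx969 A1Spanx901 A1Fldx901 PrimeGeox893 CritPMx893 GeoLugx724 GeoBasex724 Frontx893

section generic

variable {M : Type} [MetricSpace M]

variable (M) in
/-- **(GM)**, weakest form: the level `s` is the only critical one in `[a, b]` -/
def GMW : Prop := ∃ B : ℕ, ∀ s ∈ CritS M, ∃ δ : ℝ, 0 < δ ∧ ∀ a b : ℝ, 0 ≤ a → s - δ < a → a < s →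
  s < b → b < s + δ → (∀ s' ∈ CritS M, a ≤ s' → s' ≤ b → s' = s) →
  Module.length F2 (HP (X M b) (X M a)) ≤ B

theorem gmBound_of (h : GMW M) : GMBound (FF M) (CritS M) := by
  obtain ⟨B, h⟩ := h
  refine ⟨B, fun s hs => ?_⟩
  obtain ⟨δ, hδ, h⟩ := h s hs
  exact ⟨δ, hδ, fun a b ha h1 h2 h3 h4 h5 m =>
    (sum_rd_le_length_FF a b m).trans (h a b ha h1 h2 h3 h4 h5)⟩

theorem gmw_of (h : GMB M) : GMW M := by
  obtain ⟨B, h⟩ := h
  refine ⟨B, fun s hs => ?_⟩
  obtain ⟨δ, hδ, h⟩ := h s hs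
  exact ⟨δ, hδ, fun a b ha h1 h2 h3 h4 _ => h a b ha h1 h2 h3 h4⟩

variable (M) in
/-- output of the blocks P and T about the based loops and the Wang sequence -/
structure POuts (D : ℕ) where
  /-- chains of the based loops -/
  Y : LC
  BD : Y.BD
  i : ℝ → ∀ j, Y.C j →ₗ[ZMod 2] (mix M).C j
  wang : WangOut Y (mix M) (FF M) (D + 1) i
  Pw : ℕ → ∀ j, Y.C j → Prop
  τ : ℕ → ℝ
  pw : PwData Y D Pw τ

variable (M) in
/-- (P8) first levels of the degrees `e a + 1` -/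
def LvP (e : ℕ → ℕ) : Prop := ∃ lv : ℕ → ℝ,
  (∀ a t, 0 ≤ t → t ∉ CritS M → t < lv a → LowP M (e a + 1) t) ∧
  (∀ a t, 0 ≤ t → t ∉ CritS M → lv a < t → ¬ LowP M (e a + 1) t) ∧
  (∀ T : ℝ, ∃ i0 : ℕ, ∀ a, i0 ≤ a → T < lv a) ∧
  (∃ C1 : ℝ, ∀ a, lv (a + 1) ≤ lv a + C1)

variable (M) in
/-- (T-A1), strong form -/
def A1sP (D : ℕ) : Prop := ∀ j : ℕ, j % 2 = D % 2 → ∀ c : (∀ i, (mix M).C i),
  (∀ i, i < j → DD c i ∈ FF M 0 i) → DD c j ∈ Bd (FF M 0) ⊤ j

variable (M) in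
/-- (T-A3) + (P8): the degrees `e a + 1` of parity `D` -/
structure DegP (D : ℕ) (e : ℕ → ℕ) : Prop where
  mono : StrictMono e
  par : ∀ a, (e a + 1) % 2 = D % 2
  lv : LvP M e
  A3op : ∀ a, A3opP M (e a)
  A3tau : ∀ a, A3tauP M (e a)

variable (M) in
/-- **outputs of all blocks** -/
structure Outs (D : ℕ) : Prop where
  /-- (W), (G), (H) -/
  base : BaseHyp M
  /-- (W) -/
  window : Window (CritS M)
  /-- (GM) -/
  gm : GMW M
  /-- (P) bounded bars of `(X_t, X_0)` -/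
  bd : BDLam (mix M) (FF M)
  /-- (T-A1) -/
  A1s : A1sP M D
  /-- (P8), (T-A3) -/
  deg : ∃ e, DegP M D e
  /-- (R) -/
  A4 : A4P M

theorem FF_mono' (s t : ℝ) (h : s ≤ t) (j : ℕ) : FF M s j ≤ FF M t j := FL_mono M h j

/-! ### adapters -/

/-- `bd` from the outputs of the blocks P and T -/
theorem bd_of_pouts {D : ℕ} (P : POuts M D) : BDLam (mix M) (FF M) :=
  BDLam_of FF_mono' (stab_FF 0).d P.BD P.wang

/-- `lv` from the outputs of the blocks P and T -/
theorem lv_of_pouts {D : ℕ} (hD : 1 ≤ D) (hb : BaseHyp M) (P : POuts M D) : LvP M (eDeg D) :=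
  levels_of hD rfl FF_mono' hb.crit_fin (Instx895.base hb).bdd P.BD P.wang P.pw (eDeg D) (kap D)
    (kap_pos D) kap_one (eDeg_succ hD)

/-- the same for the degrees `(2a + κ) D` (`κ` odd if `D = 1`) -/
theorem lv_of_pouts' {D : ℕ} (hD : 1 ≤ D) (hb : BaseHyp M) (P : POuts M D) (e : ℕ → ℕ) (κ : ℕ)
    (hκ : 1 ≤ κ) (hκ2 : D = 1 → κ % 2 = 1) (he : ∀ a, e a + 1 = (2 * a + κ) * D) : LvP M e := by
  by_cases h1 : D = 1
  · obtain ⟨c, hc⟩ : ∃ c, κ = 2 * c + 1 := ⟨κ / 2, by have := hκ2 h1; omega⟩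
    have he0 : ∀ a, (fun a => (2 * a + 1) * D - 1) a + 1 = (2 * a + 1) * D := by
      intro a
      have : 1 ≤ (2 * a + 1) * D := Nat.one_le_iff_ne_zero.2 (Nat.mul_ne_zero (by omega) (by omega))
      show (2 * a + 1) * D - 1 + 1 = _
      omega
    obtain ⟨lv, g1, g2, g3, C1, g4⟩ := levels_of hD rfl FF_mono' hb.crit_fin
      (Instx895.base hb).bdd P.BD P.wang P.pw (fun a => (2 * a + 1) * D - 1) 1 le_rfl
      (fun _ => rfl) he0
    have hE : ∀ a, (fun a => (2 * a + 1) * D - 1) (a + c) + 1 = e a + 1 := by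
      intro a
      rw [he0, he, hc]
      ring_nf
    refine ⟨fun a => lv (a + c), fun a t h0 h2 h3 => ?_, fun a t h0 h2 h3 => ?_, fun T => ?_,
      C1, fun a => ?_⟩
    · have := g1 (a + c) t h0 h2 h3
      rw [hE] at this
      exact this
    · have := g2 (a + c) t h0 h2 h3
      rw [hE] at this
      exact this
    · obtain ⟨i0, hi⟩ := g3 T
      exact ⟨i0, fun a ha => hi _ (by omega)⟩
    · have := g4 (a + c)
      rwa [show a + c + 1 = a + 1 + c by ring] at this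
  · exact levels_of hD rfl FF_mono' hb.crit_fin (Instx895.base hb).bdd P.BD P.wang P.pw e κ hκ
      (fun h => absurd h h1) he

theorem LowP.anti {i : ℕ} {s t : ℝ} (hst : s ≤ t) (h : LowP M i t) : LowP M i s :=
  (Zc_mono' FF_mono' hst i).trans h

/-- `lv` from non-vanishing and the step property -/
theorem lv_of_step (hb : BaseHyp M) {e : ℕ → ℕ} (hmono : StrictMono e)
    (hne : ∀ a, ¬ Zc (FF M 0) ⊤ (e a + 1) ≤ Bd (FF M 0) ⊤ (e a + 1))
    (hstep : ∃ C : ℝ, 0 ≤ C ∧ ∀ t : ℝ, 0 ≤ t → ∀ a, ¬ LowP M (e a + 1) t →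
      ¬ LowP M (e (a + 1) + 1) (t + C)) : LvP M e := by
  obtain ⟨C, hC, hstep⟩ := hstep
  set S : ℕ → Set ℝ := fun a => {t | 0 ≤ t ∧ ¬ LowP M (e a + 1) t} with hS
  have hSup : ∀ a s t, s ∈ S a → s ≤ t → t ∈ S a := fun a s t hs hst =>
    ⟨hs.1.trans hst, fun h => hs.2 (LowP.anti hst h)⟩
  have hSne : ∀ a, (S a).Nonempty := by
    intro a
    obtain ⟨x, hx, hxb⟩ := Set.not_subset.1 (hne a)
    obtain ⟨t, ht⟩ := FL_exh M _ x
    refine ⟨max t 0, le_max_right _ _, fun h => hxb (h ?_)⟩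
    exact ⟨FF_mono' _ _ (le_max_left _ _) _ ht, hx.2⟩
  have hSbd : ∀ a, BddBelow (S a) := fun a => ⟨0, fun t ht => ht.1⟩
  refine ⟨fun a => sInf (S a), ?_, ?_, ?_, C, fun a => ?_⟩
  · intro a t ht _ hlt
    by_contra hcon
    have : sInf (S a) ≤ t := csInf_le (hSbd a) ⟨ht, hcon⟩
    linarith
  · intro a t ht _ hlt
    obtain ⟨s, hs, hst⟩ := exists_lt_of_csInf_lt (hSne a) hlt
    exact (hSup a s t hs hst.le).2
  · intro T
    obtain ⟨T', hT1, hT0, hTC⟩ : ∃ T' : ℝ, T < T' ∧ 0 ≤ T' ∧ T' ∉ CritS M := by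
      by_contra hcon
      push Not at hcon
      have hsub : Set.Ioo (max T 0) (max T 0 + 1) ⊆ CritS M ∩ Set.Iic (max T 0 + 1) := fun u hu =>
        ⟨hcon u (lt_of_le_of_lt (le_max_left _ _) hu.1) ((le_max_right _ _).trans hu.1.le), hu.2.le⟩
      exact absurd ((hb.crit_fin _).subset hsub) (Set.Ioo_infinite (by linarith))
    obtain ⟨m, hm⟩ := (Instx895.base hb).bdd T' hT0 hTC
    refine ⟨m, fun a ha => lt_of_lt_of_le hT1 ?_⟩
    refine le_csInf (hSne a) fun s hs => ?_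
    by_contra hlt
    push Not at hlt
    have h1 := (hSup a s T' hs hlt.le).2
    apply h1
    have h2 : m ≤ e a + 1 := ha.trans ((hmono.id_le a).trans (Nat.le_succ _))
    exact (hm _ h2).trans (BDAx969.Bd_mono (fun _ => le_top) _)
  · have h1 : ∀ t ∈ S a, sInf (S (a + 1)) - C ≤ t := by
      rintro t ⟨ht0, ht⟩
      have : sInf (S (a + 1)) ≤ t + C := csInf_le (hSbd _) ⟨by linarith, hstep t ht0 a ht⟩
      linarith
    have := le_csInf (hSne a) h1
    show sInf (S (a + 1)) ≤ sInf (S a) + C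
    linarith

/-- the strong form of (A1) from permanence (901) -/
theorem A1s_of_perm {D : ℕ} (h : ∀ i, i % 2 = (D + 1) % 2 → Zc (FF M 0) ⊤ i ≤ Perm (FF M 0) i) :
    A1sP M D := fun j hj c hc => A1_of (stab_FF 0) D h j hj c hc

/-- the field `A1` from the strong form and `A2` -/
theorem A1_of_A1s {D : ℕ} (h : A1sP M D) (A2 : A2P M) : A1P M D := by
  obtain ⟨C0, h0⟩ := A2
  refine ⟨C0, fun t ht htc m => (Finset.sum_le_sum fun j _ => ?_).trans (h0 t ht htc m)⟩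
  split_ifs with hj
  · refine A1Fldx901.rd_mono (le_inf (Binf_le_self (stab_FF t) (FF_mono' 0 t ht) j) ?_)
    rintro x ⟨c, -, h2, h3⟩
    exact add_mem_cancel (Submodule.mem_sup_right h3) (h j hj c h2)
  · exact zero_le

theorem coreHyp_of {D : ℕ} (h : Outs M D) :
    ∃ (e : ℕ → ℕ) (lv : ℕ → ℝ), CoreHyp M D e lv := by
  have hnon := (Instx895.base h.base).noncrit
  have A2 : A2P M := A2_of FF_mono' h.base.crit_fin hnon h.window (gmBound_of h.gm) h.bd
  have A1 : A1P M D := A1_of_A1s h.A1s A2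
  obtain ⟨e, he⟩ := h.deg
  obtain ⟨lv, h1, h2, h3, h4⟩ := he.lv
  exact ⟨e, lv, h.base, A1, A2, he.mono, he.par, h1, h2, h3, h4, he.A3op, he.A3tau, h.A4⟩

theorem false_of_outs (core : Core → False) {D : ℕ} (h : Outs M D) : False := by
  obtain ⟨e, lv, h⟩ := coreHyp_of h
  exact core (coreL h)

/-- `Outs` from 200's literal outputs `TOut`, `POut` (`IfPT_200`) -/
theorem outs_of_PT {n : ℕ} (hn : 2 ≤ n) (hb : BaseHyp M) (hw : Window (CritS M)) (gm : GMW M)
    (T : IfPTx200.TOut n M) (P : IfPTx200.POut n M) (A4 : A4P M) : Outs M (n - 1) where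
  base := hb
  window := hw
  gm := gm
  bd := P.BD
  A1s := T.A1
  deg := ⟨IfPTx200.ee n, IfPTx200.ee_mono hn, IfPTx200.ee_par hn,
    lv_of_step hb (IfPTx200.ee_mono hn) T.ne (by
      obtain ⟨C, hC, h⟩ := P.step
      exact ⟨C, hC, fun t ht a => h t ht a⟩), T.A3op, T.A3tau⟩
  A4 := A4

/-! ### all odd `K ≥ 3` (200's decision κ = 3; 617, 482, 89) -/

/-- `e3 D a + 1 = (2 a + 3) D` -/
def e3 (D a : ℕ) : ℕ := (2 * a + 3) * D - 1

theorem e3_succ {D : ℕ} (hD : 1 ≤ D) (a : ℕ) : e3 D a + 1 = (2 * a + 3) * D := by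
  have h : 1 ≤ (2 * a + 3) * D := Nat.one_le_iff_ne_zero.2 (Nat.mul_ne_zero (by omega) (by omega))
  unfold e3
  omega

theorem e3_mono {D : ℕ} (hD : 1 ≤ D) : StrictMono (e3 D) := by
  refine strictMono_nat_of_lt_succ fun a => ?_
  have h1 := e3_succ hD a
  have h2 := e3_succ hD (a + 1)
  have h3 : (2 * (a + 1) + 3) * D = (2 * a + 3) * D + 2 * D := by ring
  omega

theorem e3_par {D : ℕ} (hD : 1 ≤ D) (a : ℕ) : (e3 D a + 1) % 2 = D % 2 := by
  rw [e3_succ hD, Nat.mul_mod, show (2 * a + 3) % 2 = 1 by omega, one_mul, Nat.mod_mod]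

variable (M) in
/-- (P8) step property for odd `K ≥ 3` -/
def StepOdd (D : ℕ) : Prop := ∃ C : ℝ, 0 ≤ C ∧ ∀ t : ℝ, 0 ≤ t → ∀ K : ℕ, K % 2 = 1 → 3 ≤ K →
  ¬ LowP M (K * D) t → ¬ LowP M ((K + 2) * D) (t + C)

variable (M) in
/-- (T) non-vanishing for odd `K ≥ 3` -/
def NeOdd (D : ℕ) : Prop := ∀ K : ℕ, K % 2 = 1 → 3 ≤ K →
  ¬ Zc (FF M 0) ⊤ (K * D) ≤ Bd (FF M 0) ⊤ (K * D)

theorem lv_of_odd {D : ℕ} (hD : 1 ≤ D) (hb : BaseHyp M) (hne : NeOdd M D) (hst : StepOdd M D) :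
    LvP M (e3 D) := by
  obtain ⟨C, hC, hst⟩ := hst
  refine lv_of_step hb (e3_mono hD) (fun a => ?_) ⟨C, hC, fun t ht a h => ?_⟩
  · rw [e3_succ hD]
    exact hne _ (by omega) (by omega)
  · rw [e3_succ hD] at h ⊢
    have := hst t ht _ (by omega) (by omega) h
    rwa [show 2 * a + 3 + 2 = 2 * (a + 1) + 3 by ring] at this

/-- `Outs` with the degrees `(2a+3) D` -/
theorem outs_of_odd {D : ℕ} (hD : 1 ≤ D) (hb : BaseHyp M) (hw : Window (CritS M)) (gm : GMW M)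
    (bd : BDLam (mix M) (FF M)) (hst : StepOdd M D) (hne : NeOdd M D) (A1s : A1sP M D)
    (A3op : ∀ a, A3opP M (e3 D a)) (A3tau : ∀ a, A3tauP M (e3 D a)) (A4 : A4P M) : Outs M D where
  base := hb
  window := hw
  gm := gm
  bd := bd
  A1s := A1s
  deg := ⟨e3 D, e3_mono hD, e3_par hD, lv_of_odd hD hb hne hst, A3op, A3tau⟩
  A4 := A4

/-- the critical levels of a finite prime system are discrete -/
theorem crit_fin_of {ι : Type} [Finite ι] (L : LUG M) (hL : L.LocMin) (nb : NonBr M L.r0)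
    (S : PrimeSys M L.r0 ι) (T : ℝ) : (CritS M ∩ Set.Iic T).Finite := isCrit_finite L hL nb S T

theorem window_of {ι : Type} [Finite ι] (L : LUG M) (hL : L.LocMin) (nb : NonBr M L.r0)
    (S : PrimeSys M L.r0 ι) : Window (CritS M) := by
  refine window_of_multiples S.l S.l_pos _ fun s hs => ?_
  obtain ⟨i, m, -, h⟩ := (isCrit_iff L hL nb S).1 hs
  exact ⟨i, m, h⟩

end generic

/-- **S0357** from `Core → False` and the outputs of the blocks for all finite prime systems -/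
theorem infinite_of_outs (core : Core → False) (n : ℕ) (hn : 2 ≤ n)
    (H : ∀ [NeZero n] (g : Met n) (G : GeoData n (SG g)) (N : ℕ)
      (_ : PrimeSys (SG g) G.r₀ (Fin N)), Outs (SG g) (n - 1)) (g : Met n) :
    {S : Set (Metric.sphere (0 : EuclideanSpace ℝ (Fin (n + 1))) 1) |
      ∃ γ : ℝ → Metric.sphere (0 : EuclideanSpace ℝ (Fin (n + 1))) 1,
      IsClosedGeodesic (𝓡 n) g γ ∧ (∃ s t, γ s ≠ γ t) ∧ Set.range γ = S}.Infinite :=
  infinite_of n hn (fun g G N S => false_of_outs core (H g G N S)) g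

end Crest.Agent.R231.Asmx895
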