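import Crest.Agent.R231.FinDim_315
import Crest.Agent.R204.EZInst_847
import Crest.Agent.R204.SingAct_265

/-!
# Row 231, block P, leaf Q2b (helper780): cross products and slant products of homology of spaces

`HS X = H F2 (SS.Sing X)`, `Hm f` as in `FinDim_315`.
* `cx : HS X →ₗ HS Y →ₗ HS (X × Y)`, `kun : HS X ⊗ HS Y ≃ₗ HS (X × Y)` (Künneth);
* naturality `Hm_cx`, `cx_assoc`, `cx_swap`, `cx_mid`, points `ptc x`, `ep` (augmentation), projections,
  degrees;
* `sl φ : HS (X × Y) →ₗ HS X` for a functional `φ : HS Y →ₗ F2` (slant product), naturality in both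
  variables, `sl φ (w × z) = w × sl φ z`, degrees; `sl ep = Hm fst`;
* `Fac`: spaces `S` with `H(S) = F·pt ⊕ F·σ` : `cx_decomp`, `eq_cx_of_fst_eq_zero`, uniqueness.
-/

set_option autoImplicit false

noncomputable section

namespace Crest.Agent.R231.CXx780

open Crest.Agent.R204 Crest.Agent.R204.SpecA SingAct265 TensorProduct FinDim315

variable {W X Y Z X' Y' Z' : Type} [TopologicalSpace W] [TopologicalSpace X] [TopologicalSpace Y]
  [TopologicalSpace Z] [TopologicalSpace X'] [TopologicalSpace Y'] [TopologicalSpace Z']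

/-! ## homology of products of spaces -/

/-- `Sing X × Sing Y → Sing (X × Y)` is an isomorphism in homology -/
def spE (X Y : Type) [TopologicalSpace X] [TopologicalSpace Y] :
    H F2 ((SS.Sing X).prod (SS.Sing Y)) ≃ₗ[F2] HS (X × Y) :=
  LinearEquiv.ofLinearMap (H.map F2 (singPair X Y)) (H.map F2 (singUnpair X Y))
    (by
      refine LinearMap.ext fun z => ?_
      rw [LinearMap.comp_apply, ← HZ76.H_map_comp]
      exact HZ76.H_map_id F2 z)
    (by
      refine LinearMap.ext fun z => ?_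
      rw [LinearMap.comp_apply, ← HZ76.H_map_comp]
      exact HZ76.H_map_id F2 z)

theorem spE_apply (z : H F2 ((SS.Sing X).prod (SS.Sing Y))) : spE X Y z = H.map F2 (singPair X Y) z :=
  rfl

/-- **Künneth isomorphism** -/
def kun (X Y : Type) [TopologicalSpace X] [TopologicalSpace Y] :
    (HS X ⊗[F2] HS Y) ≃ₗ[F2] HS (X × Y) := (EZ847.crH (SS.Sing X) (SS.Sing Y)).trans (spE X Y)

/-- cross product of homology classes of spaces -/
def cx : HS X →ₗ[F2] HS Y →ₗ[F2] HS (X × Y) := TensorProduct.curry (kun X Y).toLinearMap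

theorem kun_tmul (a : HS X) (b : HS Y) : kun X Y (a ⊗ₜ b) = cx a b := rfl

theorem cx_def (a : HS X) (b : HS Y) :
    cx a b = H.map F2 (singPair X Y) (EZ847.ezd.cr _ _ (a ⊗ₜ b)) := rfl

/-- chain level form -/
theorem cx_mk (a : N F2 (SS.Sing X)) (ha : N.bd F2 _ a = 0) (b : N F2 (SS.Sing Y))
    (hb : N.bd F2 _ b = 0) (h : N.bd F2 _ (N.map F2 (singPair X Y) (EZ271.cross F2 a b)) = 0) :
    cx (Hd.mk _ a ha) (Hd.mk _ b hb) =
      Hd.mk _ (N.map F2 (singPair X Y) (EZ271.cross F2 a b)) h := by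
  rw [cx_def, Coalg847.EZData.cr_mk]; rfl

theorem Hm_eq (f : C(X, Y)) : Hm f = H.map F2 (SS.SingMap f) := rfl

/-- naturality of the cross product -/
theorem Hm_cx (f : C(X, X')) (g : C(Y, Y')) (a : HS X) (b : HS Y) :
    Hm (f.prodMap g) (cx a b) = cx (Hm f a) (Hm g b) := by
  rw [cx_def, cx_def, Hm_eq, Hm_eq, Hm_eq, ← Coalg847.EZData.cr_nat, ← Coalg847.hMap_comp,
    ← Coalg847.hMap_comp]
  rfl

theorem Hm_cx_left (f : C(X, X')) (a : HS X) (b : HS Y) :
    Hm (f.prodMap (ContinuousMap.id Y)) (cx a b) = cx (Hm f a) b := by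
  rw [Hm_cx, Hm_id]

theorem Hm_cx_right (g : C(Y, Y')) (a : HS X) (b : HS Y) :
    Hm ((ContinuousMap.id X).prodMap g) (cx a b) = cx a (Hm g b) := by
  rw [Hm_cx, Hm_id]

/-- reassociation `(X × Y) × Z → X × (Y × Z)` -/
def assC (X Y Z : Type) [TopologicalSpace X] [TopologicalSpace Y] [TopologicalSpace Z] :
    C((X × Y) × Z, X × (Y × Z)) := ⟨fun p => (p.1.1, (p.1.2, p.2)), by fun_prop⟩

/-- reassociation `X × (Y × Z) → (X × Y) × Z` -/
def casC (X Y Z : Type) [TopologicalSpace X] [TopologicalSpace Y] [TopologicalSpace Z] :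
    C(X × (Y × Z), (X × Y) × Z) := ⟨fun p => ((p.1, p.2.1), p.2.2), by fun_prop⟩

/-- swap -/
def swC (X Y : Type) [TopologicalSpace X] [TopologicalSpace Y] : C(X × Y, Y × X) :=
  ⟨Prod.swap, continuous_swap⟩

/-- middle exchange -/
def midC (X Y X' Y' : Type) [TopologicalSpace X] [TopologicalSpace Y] [TopologicalSpace X']
    [TopologicalSpace Y'] : C((X × Y) × (X' × Y'), (X × X') × (Y × Y')) :=
  ⟨fun p => ((p.1.1, p.2.1), (p.1.2, p.2.2)), by fun_prop⟩

theorem cx_assoc (a : HS X) (b : HS Y) (c : HS Z) :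
    Hm (assC X Y Z) (cx (cx a b) c) = cx a (cx b c) := by
  have h := EZ847.ezd.cr_assoc a b c
  have e1 : cx (cx a b) c = H.map F2 ((singPair (X × Y) Z).comp
      (SS.prodMap (singPair X Y) (SS.Hom.id _)))
        (EZ847.ezd.cr _ _ (EZ847.ezd.cr _ _ (a ⊗ₜ b) ⊗ₜ c)) := by
    rw [Coalg847.hMap_comp, Coalg847.EZData.cr_nat, Coalg847.hMap_id]; rfl
  have e2 : cx a (cx b c) = H.map F2 ((singPair X (Y × Z)).comp
      (SS.prodMap (SS.Hom.id _) (singPair Y Z)))
        (EZ847.ezd.cr _ _ (a ⊗ₜ EZ847.ezd.cr _ _ (b ⊗ₜ c))) := by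
    rw [Coalg847.hMap_comp, Coalg847.EZData.cr_nat, Coalg847.hMap_id]; rfl
  rw [e1, e2, ← h, Hm_eq, ← Coalg847.hMap_comp, ← Coalg847.hMap_comp]
  rfl

theorem Hm_casC_assC (z : HS ((X × Y) × Z)) : Hm (casC X Y Z) (Hm (assC X Y Z) z) = z := by
  rw [← Hm_comp_apply]
  exact Hm_id z

theorem Hm_assC_casC (z : HS (X × (Y × Z))) : Hm (assC X Y Z) (Hm (casC X Y Z) z) = z := by
  rw [← Hm_comp_apply]
  exact Hm_id z

theorem cx_assoc' (a : HS X) (b : HS Y) (c : HS Z) :
    Hm (casC X Y Z) (cx a (cx b c)) = cx (cx a b) c := by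
  rw [← cx_assoc, Hm_casC_assC]

theorem cx_swap (a : HS X) (b : HS Y) : Hm (swC X Y) (cx a b) = cx b a := by
  have h := EZ847.ezd.cr_swap a b
  rw [cx_def, cx_def, ← h, Hm_eq, ← Coalg847.hMap_comp, ← Coalg847.hMap_comp]
  rfl

theorem cx_mid (a : HS X) (b : HS Y) (a' : HS X') (b' : HS Y') :
    Hm (midC X Y X' Y') (cx (cx a b) (cx a' b')) = cx (cx a a') (cx b b') := by
  have h := EZ847.ezd.cr_mid a b a' b'
  have e : ∀ {A B C D : Type} [TopologicalSpace A] [TopologicalSpace B] [TopologicalSpace C]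
      [TopologicalSpace D] (a : HS A) (b : HS B) (c : HS C) (d : HS D), cx (cx a b) (cx c d) =
      H.map F2 ((singPair (A × B) (C × D)).comp (SS.prodMap (singPair A B) (singPair C D)))
        (EZ847.ezd.cr _ _ (EZ847.ezd.cr _ _ (a ⊗ₜ b) ⊗ₜ EZ847.ezd.cr _ _ (c ⊗ₜ d))) := by
    intro A B C D _ _ _ _ a b c d
    rw [Coalg847.hMap_comp, Coalg847.EZData.cr_nat]; rfl
  rw [e, e, ← h, Hm_eq, ← Coalg847.hMap_comp, ← Coalg847.hMap_comp]
  rfl

/-! ## points, augmentation, projections -/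

/-- the vertex -/
def vx (x : X) : (SS.Sing X).S 0 := mkS (fun _ : stdSimplex ℝ (Fin (0 + 1)) => x) continuous_const

/-- the class of a point -/
def ptc (x : X) : HS X := Coalg847.vtx (vx x)

/-- augmentation -/
def ep : HS X →ₗ[F2] F2 := Coalg847.eps (SS.Sing X)

theorem Hm_ptc (f : C(X, Y)) (x : X) : Hm f (ptc x) = ptc (f x) := Coalg847.hMap_vtx _ _

@[simp] theorem ep_ptc (x : X) : ep (ptc x) = 1 := Coalg847.eps_vtx _

@[simp] theorem ep_Hm (f : C(X, Y)) (a : HS X) : ep (Hm f a) = ep a := Coalg847.eps_map _ _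

/-- first projection -/
def fstC (X Y : Type) [TopologicalSpace X] [TopologicalSpace Y] : C(X × Y, X) :=
  ⟨Prod.fst, continuous_fst⟩

/-- second projection -/
def sndC (X Y : Type) [TopologicalSpace X] [TopologicalSpace Y] : C(X × Y, Y) :=
  ⟨Prod.snd, continuous_snd⟩

theorem Hm_fst_cx (a : HS X) (b : HS Y) : Hm (fstC X Y) (cx a b) = ep b • a := by
  rw [cx_def, Hm_eq, ← Coalg847.hMap_comp]
  exact EZ847.ezd.fst_cr a b

theorem Hm_snd_cx (a : HS X) (b : HS Y) : Hm (sndC X Y) (cx a b) = ep a • b := by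
  rw [cx_def, Hm_eq, ← Coalg847.hMap_comp]
  exact EZ847.ezd.snd_cr a b

theorem ep_cx (a : HS X) (b : HS Y) : ep (cx a b) = ep a * ep b := by
  rw [cx_def]
  exact (Coalg847.eps_map _ _).trans (EZ847.ezd.eps_cr a b)

/-- `x ↦ (x, y)` -/
def atR (X : Type) [TopologicalSpace X] (y : Y) : C(X, X × Y) := ⟨fun x => (x, y), by fun_prop⟩

/-- `y ↦ (x, y)` -/
def atL (Y : Type) [TopologicalSpace Y] (x : X) : C(Y, X × Y) := ⟨fun y => (x, y), by fun_prop⟩

theorem cx_ptc (a : HS X) (y : Y) : cx a (ptc y) = Hm (atR X y) a := by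
  rw [cx_def, ptc, EZ847.ezd.cr_vtx_right, ← Coalg847.hMap_comp]
  rfl

theorem ptc_cx (x : X) (b : HS Y) : cx (ptc x) b = Hm (atL Y x) b := by
  rw [cx_def, ptc, EZ847.ezd.cr_vtx_left, ← Coalg847.hMap_comp]
  rfl

theorem cx_ptc_ptc (x : X) (y : Y) : cx (ptc x) (ptc y) = ptc (x, y) := by
  rw [cx_ptc, Hm_ptc]; rfl

/-- points in the same path component have the same class -/
theorem ptc_eq_of_joined {x y : X} (h : Joined x y) : ptc x = ptc y := by
  obtain ⟨γ⟩ := h
  have h2 : (ContinuousMap.const PUnit x).Homotopic (ContinuousMap.const PUnit y) :=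
    ⟨{ toFun := fun p => γ p.1
       continuous_toFun := by fun_prop
       map_zero_left := fun _ => γ.source
       map_one_left := fun _ => γ.target }⟩
  have h3 := LinearMap.congr_fun (Hm_homotopic h2) (ptc PUnit.unit)
  rwa [Hm_ptc, Hm_ptc] at h3

/-! ## degrees -/

/-- degree `n` part -/
abbrev hg (X : Type) [TopologicalSpace X] (n : ℕ) : Submodule F2 (HS X) := H.gr F2 (SS.Sing X) n

theorem isInternal_hg : DirectSum.IsInternal (hg X) := Gr334.isInternal_H F2 _

theorem Hm_mem_hg (f : C(X, Y)) {n : ℕ} {a : HS X} (ha : a ∈ hg X n) : Hm f a ∈ hg Y n :=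
  Coalg847.hMap_mem_gr _ ha

theorem ptc_mem (x : X) : ptc x ∈ hg X 0 := Coalg847.vtx_mem_gr _

theorem cx_mem {m n : ℕ} {a : HS X} {b : HS Y} (ha : a ∈ hg X m) (hb : b ∈ hg Y n) :
    cx a b ∈ hg (X × Y) (m + n) :=
  Coalg847.hMap_mem_gr _ (EZ847.ezd.cr_mem_gr ha hb)

theorem ep_eq_zero {n : ℕ} (hn : n ≠ 0) {a : HS X} (ha : a ∈ hg X n) : ep a = 0 :=
  Coalg847.eps_gr hn ha

/-- a property which is additive and holds for homogeneous classes holds for all classes -/
theorem hg_induction {p : HS X → Prop} (a : HS X) (hadd : ∀ a b, p a → p b → p (a + b))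
    (hh : ∀ n, ∀ a ∈ hg X n, p a) : p a := by
  have h : a ∈ ⨆ n, hg X n := by rw [(isInternal_hg (X := X)).submodule_iSup_eq_top]; trivial
  exact Submodule.iSup_induction _ (motive := p) h hh (hh 0 0 (Submodule.zero_mem _)) hadd

/-- two linear maps which agree on homogeneous classes are equal -/
theorem ext_hg {M : Type*} [AddCommGroup M] [Module F2 M] {f g : HS X →ₗ[F2] M}
    (h : ∀ n, ∀ a ∈ hg X n, f a = g a) : f = g :=
  LinearMap.ext fun a => hg_induction (p := fun a => f a = g a) a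
    (fun a b ha hb => by rw [map_add, map_add, ha, hb]) h

theorem cx_induction {p : HS (X × Y) → Prop} (z : HS (X × Y)) (h0 : p 0)
    (hadd : ∀ a b, p a → p b → p (a + b)) (hc : ∀ a b, p (cx a b)) : p z := by
  obtain ⟨t, rfl⟩ := (kun X Y).surjective z
  induction t using TensorProduct.induction_on with
  | zero => rw [map_zero]; exact h0
  | add x y hx hy => rw [map_add]; exact hadd _ _ hx hy
  | tmul a b => exact hc a b

theorem ext_cx {M : Type*} [AddCommGroup M] [Module F2 M] {f g : HS (X × Y) →ₗ[F2] M}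
    (h : ∀ a b, f (cx a b) = g (cx a b)) : f = g :=
  LinearMap.ext fun z => cx_induction (p := fun z => f z = g z) z (by rw [map_zero, map_zero])
    (fun a b ha hb => by rw [map_add, map_add, ha, hb]) h

/-! ## slant products -/

/-- slant product with a functional on the homology of the second factor -/
def sl (φ : HS Y →ₗ[F2] F2) : HS (X × Y) →ₗ[F2] HS X :=
  (TensorProduct.rid F2 (HS X)).toLinearMap ∘ₗ TensorProduct.map LinearMap.id φ ∘ₗ
    (kun X Y).symm.toLinearMap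

@[simp] theorem sl_cx (φ : HS Y →ₗ[F2] F2) (a : HS X) (b : HS Y) : sl φ (cx a b) = φ b • a := by
  rw [← kun_tmul]
  simp [sl]

theorem sl_add (φ ψ : HS Y →ₗ[F2] F2) (z : HS (X × Y)) : sl (φ + ψ) z = sl φ z + sl ψ z := by
  have : sl (X := X) (φ + ψ) = sl φ + sl ψ := ext_cx fun a b => by
    rw [LinearMap.add_apply, sl_cx, sl_cx, sl_cx, LinearMap.add_apply, add_smul]
  rw [this]; rfl

theorem sl_ep (z : HS (X × Y)) : sl ep z = Hm (fstC X Y) z := by
  have : sl (X := X) (ep (X := Y)) = Hm (fstC X Y) := ext_cx fun a b => by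
    rw [sl_cx, Hm_fst_cx]
  rw [this]

theorem sl_Hm_left (φ : HS Y →ₗ[F2] F2) (f : C(X, X')) (z : HS (X × Y)) :
    sl φ (Hm (f.prodMap (ContinuousMap.id Y)) z) = Hm f (sl φ z) := by
  have : sl φ ∘ₗ Hm (f.prodMap (ContinuousMap.id Y)) = Hm f ∘ₗ sl φ := ext_cx fun a b => by
    rw [LinearMap.comp_apply, LinearMap.comp_apply, Hm_cx_left, sl_cx, sl_cx, map_smul]
  exact LinearMap.congr_fun this z

theorem sl_Hm_right (φ : HS Y' →ₗ[F2] F2) (g : C(Y, Y')) (z : HS (X × Y)) :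
    sl φ (Hm ((ContinuousMap.id X).prodMap g) z) = sl (φ ∘ₗ Hm g) z := by
  have : sl φ ∘ₗ Hm ((ContinuousMap.id X).prodMap g) = sl (φ ∘ₗ Hm g) := ext_cx fun a b => by
    rw [LinearMap.comp_apply, Hm_cx_right, sl_cx, sl_cx, LinearMap.comp_apply]
  exact LinearMap.congr_fun this z

theorem sl_Hm (φ : HS Y' →ₗ[F2] F2) (f : C(X, X')) (g : C(Y, Y')) (z : HS (X × Y)) :
    sl φ (Hm (f.prodMap g) z) = Hm f (sl (φ ∘ₗ Hm g) z) := by
  have : sl φ ∘ₗ Hm (f.prodMap g) = Hm f ∘ₗ sl (φ ∘ₗ Hm g) := ext_cx fun a b => by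
    rw [LinearMap.comp_apply, LinearMap.comp_apply, Hm_cx, sl_cx, sl_cx, map_smul,
      LinearMap.comp_apply]
  exact LinearMap.congr_fun this z

/-- slant products and exterior products on the left: `(w × z) / φ = w × (z / φ)` -/
theorem sl_casC (φ : HS Z →ₗ[F2] F2) (w : HS X) (z : HS (Y × Z)) :
    sl φ (Hm (casC X Y Z) (cx w z)) = cx w (sl φ z) := by
  have : sl φ ∘ₗ Hm (casC X Y Z) ∘ₗ cx w = cx w ∘ₗ sl φ := ext_cx fun a b => by
    simp only [LinearMap.comp_apply]
    rw [cx_assoc', sl_cx, sl_cx, map_smul]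
  exact LinearMap.congr_fun this z

/-- slant product on the other side -/
def sl' (φ : HS X →ₗ[F2] F2) : HS (X × Y) →ₗ[F2] HS Y := sl φ ∘ₗ Hm (swC X Y)

@[simp] theorem sl'_cx (φ : HS X →ₗ[F2] F2) (a : HS X) (b : HS Y) : sl' φ (cx a b) = φ a • b := by
  rw [sl', LinearMap.comp_apply, cx_swap, sl_cx]

theorem sl'_ep (z : HS (X × Y)) : sl' ep z = Hm (sndC X Y) z := by
  have : sl' (Y := Y) (ep (X := X)) = Hm (sndC X Y) := ext_cx fun a b => by
    rw [sl'_cx, Hm_snd_cx]
  rw [this]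

theorem sl'_Hm_right (φ : HS X →ₗ[F2] F2) (g : C(Y, Y')) (z : HS (X × Y)) :
    sl' φ (Hm ((ContinuousMap.id X).prodMap g) z) = Hm g (sl' φ z) := by
  have : sl' φ ∘ₗ Hm ((ContinuousMap.id X).prodMap g) = Hm g ∘ₗ sl' φ := ext_cx fun a b => by
    rw [LinearMap.comp_apply, LinearMap.comp_apply, Hm_cx_right, sl'_cx, sl'_cx, map_smul]
  exact LinearMap.congr_fun this z

theorem sl'_assC (φ : HS X →ₗ[F2] F2) (z : HS (X × Y)) (w : HS Z) :
    sl' φ (Hm (assC X Y Z) (cx z w)) = cx (sl' φ z) w := by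
  have : sl' φ ∘ₗ Hm (assC X Y Z) ∘ₗ cx.flip w = cx.flip w ∘ₗ sl' φ := ext_cx fun a b => by
    simp only [LinearMap.comp_apply, LinearMap.flip_apply]
    rw [cx_assoc, sl'_cx, sl'_cx, map_smul, LinearMap.smul_apply]
  exact LinearMap.congr_fun this z

/-- right factor: `sl φ` of `(z × w)` when the `Y` factor of `z` is integrated -/
theorem sl_right (φ : HS Y →ₗ[F2] F2) (z : HS (X × Y)) (w : HS Z) :
    sl φ (Hm (⟨fun p : (X × Y) × Z => ((p.1.1, p.2), p.1.2), by fun_prop⟩ :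
      C((X × Y) × Z, (X × Z) × Y)) (cx z w)) = cx (sl φ z) w := by
  let F : C((X × Y) × Z, (X × Z) × Y) := ⟨fun p => ((p.1.1, p.2), p.1.2), by fun_prop⟩
  have hF : ∀ (a : HS X) (b : HS Y) (c : HS Z), Hm F (cx (cx a b) c) = cx (cx a c) b := by
    intro a b c
    have e : F = (casC X Z Y).comp (((ContinuousMap.id X).prodMap (swC Y Z)).comp (assC X Y Z)) := rfl
    rw [e, Hm_comp_apply, Hm_comp_apply, cx_assoc, Hm_cx_right, cx_swap, cx_assoc']
  have : sl φ ∘ₗ Hm F ∘ₗ cx.flip w = cx.flip w ∘ₗ sl φ := ext_cx fun a b => by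
    simp only [LinearMap.comp_apply, LinearMap.flip_apply]
    rw [hF, sl_cx, sl_cx, map_smul, LinearMap.smul_apply]
  exact LinearMap.congr_fun this z

/-- functional of degree `q` -/
def DegF (q : ℕ) (φ : HS Y →ₗ[F2] F2) : Prop := ∀ n, n ≠ q → ∀ b ∈ hg Y n, φ b = 0

theorem ep_degF : DegF 0 (ep (X := Y)) := fun _ hn _ hb => ep_eq_zero hn hb

/-- homogeneous classes of a product are sums of products of homogeneous classes -/
theorem mem_hg_prod {n : ℕ} {z : HS (X × Y)} (hz : z ∈ hg (X × Y) n) {P : Submodule F2 (HS (X × Y))}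
    (h : ∀ i j, i + j = n → ∀ a ∈ hg X i, ∀ b ∈ hg Y j, cx a b ∈ P) : z ∈ P := by
  have h1 : (kun X Y).symm z ∈ Coalg847.tgr (hg X) (hg Y) n := by
    have hz' : (spE X Y).symm z ∈ H.gr F2 ((SS.Sing X).prod (SS.Sing Y)) n :=
      Coalg847.hMap_mem_gr (singUnpair X Y) hz
    have := EZ847.ezd.mem_tgr_of_cr (fun K => Gr334.isInternal_H F2 K) (n := n)
      (t := (kun X Y).symm z) (by
        show EZ847.crH _ _ ((kun X Y).symm z) ∈ _
        have e : EZ847.crH (SS.Sing X) (SS.Sing Y) ((kun X Y).symm z) = (spE X Y).symm z := by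
          rw [kun, LinearEquiv.trans_symm, LinearEquiv.trans_apply, LinearEquiv.apply_symm_apply]
        rw [e]; exact hz')
    exact this
  have h2 : z = kun X Y ((kun X Y).symm z) := ((kun X Y).apply_symm_apply z).symm
  rw [h2]
  exact Coalg847.mem_tgr_induction (S := P.comap (kun X Y).toLinearMap)
    (fun i j hij a ha b hb => h i j hij a ha b hb) h1

theorem sl_mem {q : ℕ} {φ : HS Y →ₗ[F2] F2} (hφ : DegF q φ) {n : ℕ} {z : HS (X × Y)}
    (hz : z ∈ hg (X × Y) (n + q)) : sl φ z ∈ hg X n := by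
  refine mem_hg_prod (P := (hg X n).comap (sl φ)) hz ?_
  intro i j hij a ha b hb
  rw [Submodule.mem_comap, sl_cx]
  by_cases e : j = q
  · obtain rfl : i = n := by omega
    exact Submodule.smul_mem _ _ ha
  · rw [hφ j e b hb, zero_smul]; exact Submodule.zero_mem _

theorem sl_eq_zero {q : ℕ} {φ : HS Y →ₗ[F2] F2} (hφ : DegF q φ) {n : ℕ} (hn : n < q)
    {z : HS (X × Y)} (hz : z ∈ hg (X × Y) n) : sl φ z = 0 := by
  refine (Submodule.mem_bot F2).1 (mem_hg_prod (P := (⊥ : Submodule F2 (HS X)).comap (sl φ)) hz ?_)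
  intro i j hij a ha b hb
  rw [Submodule.mem_comap, sl_cx, hφ j (by omega) b hb, zero_smul]
  exact Submodule.zero_mem _

/-! ## contractible factors -/

/-- projection from a product with a contractible space -/
theorem Hm_fst_bijective [ContractibleSpace Y] : Function.Bijective (Hm (fstC X Y)) := by
  have hc : (ContinuousMap.id Y).Nullhomotopic := (contractible_iff_id_nullhomotopic Y).1 inferInstance
  obtain ⟨y, hy⟩ := hc
  refine Hm_bijective_of_inv (g := atR X y) ?_ ?_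
  · have e : (atR X y).comp (fstC X Y) =
        (ContinuousMap.id X).prodMap (ContinuousMap.const Y y) := rfl
    have e2 : ContinuousMap.id (X × Y) = (ContinuousMap.id X).prodMap (ContinuousMap.id Y) := rfl
    rw [e, e2]
    exact (ContinuousMap.Homotopic.refl _).prodMap hy.symm
  · have e : (fstC X Y).comp (atR X y) = ContinuousMap.id X := rfl
    rw [e]

theorem eq_cx_ptc [ContractibleSpace Y] (z : HS (X × Y)) (y : Y) :
    z = cx (Hm (fstC X Y) z) (ptc y) := by
  refine Hm_fst_bijective.1 ?_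
  rw [Hm_fst_cx, ep_ptc, one_smul]

theorem ptc_eq_ptc [ContractibleSpace Y] (y y' : Y) : ptc y = ptc y' :=
  ptc_eq_of_joined (PathConnectedSpace.joined y y')

/-- homology of a contractible space -/
theorem eq_ep_ptc [ContractibleSpace Y] (a : HS Y) (y : Y) : a = ep a • ptc y := by
  have h := eq_cx_ptc (cx (ptc PUnit.unit) a) y
  have h2 := congrArg (Hm (sndC PUnit Y)) h
  rwa [Hm_snd_cx, Hm_snd_cx, ep_ptc, one_smul, Hm_fst_cx, map_smul, ep_ptc, smul_eq_mul,
    mul_one] at h2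

/-! ## a factor with two dimensional homology (spheres) -/

/-- `H(S) = F·[s₀] ⊕ F·σ`, with the coordinate functional `φ` -/
structure SphLike (S : Type) [TopologicalSpace S] (m : ℕ) where
  s₀ : S
  σ : HS S
  φ : HS S →ₗ[F2] F2
  σ_mem : σ ∈ hg S m
  pos : 0 < m
  φ_deg : DegF m φ
  φ_σ : φ σ = 1
  decomp : ∀ a : HS S, a = ep a • ptc s₀ + φ a • σ

namespace SphLike

variable {S : Type} [TopologicalSpace S] {m : ℕ} (D : SphLike S m)

theorem ep_σ : ep D.σ = 0 := ep_eq_zero (by have := D.pos; omega) D.σ_mem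

theorem φ_ptc (s : S) : D.φ (ptc s) = 0 := D.φ_deg 0 (by have := D.pos; omega) _ (ptc_mem s)

include D in
theorem ptc_eq (s t : S) : ptc s = ptc t := by
  rw [D.decomp (ptc s), D.decomp (ptc t), ep_ptc, ep_ptc, D.φ_ptc, D.φ_ptc]

/-- Künneth decomposition -/
theorem cx_decomp (z : HS (X × S)) :
    z = cx (Hm (fstC X S) z) (ptc D.s₀) + cx (sl D.φ z) D.σ := by
  refine cx_induction (p := fun z => z = cx (Hm (fstC X S) z) (ptc D.s₀) + cx (sl D.φ z) D.σ) z
    ?_ ?_ ?_
  · simp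
  · intro a b ha hb
    conv_lhs => rw [ha, hb]
    simp only [map_add, LinearMap.add_apply]
    abel
  · intro a b
    conv_lhs => rw [D.decomp b]
    rw [map_add, map_smul, map_smul, Hm_fst_cx, sl_cx, map_smul, map_smul, LinearMap.smul_apply,
      LinearMap.smul_apply]

theorem eq_cx_of_fst {z : HS (X × S)} (h : Hm (fstC X S) z = 0) : z = cx (sl D.φ z) D.σ := by
  conv_lhs => rw [D.cx_decomp z, h, map_zero, LinearMap.zero_apply, zero_add]

/-- if `z` dies after enlarging the second factor, then `z = (z / φ) × σ` -/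
theorem eq_cx_of_dies {V : Type} [TopologicalSpace V] (i : C(S, V)) {z : HS (X × S)}
    (h : Hm ((ContinuousMap.id X).prodMap i) z = 0) : z = cx (sl D.φ z) D.σ := by
  refine D.eq_cx_of_fst ?_
  have e : fstC X S = (fstC X V).comp ((ContinuousMap.id X).prodMap i) := rfl
  rw [e, Hm_comp_apply, h, map_zero]

theorem sl_cx_σ (a : HS X) : sl D.φ (cx a D.σ) = a := by rw [sl_cx, D.φ_σ, one_smul]

theorem cx_σ_inj {a b : HS X} (h : cx a D.σ = cx b D.σ) : a = b := by
  have := congrArg (sl D.φ) h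
  rwa [D.sl_cx_σ, D.sl_cx_σ] at this

end SphLike

end Crest.Agent.R231.CXx780
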