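import Crest.Agent.R231.OmHt_725

/-!
# Two tethers: the loops `v`, and the comparison of the two cut maps (relation (R))

`W` (arcs `b`) and `Z` (arcs `c`) are two tethers at `p`.
* `vv W Z : C(S, OmT p (ℓW + ℓZ))`, `z ↦ b_z⁻¹ . c_z` on any subset `S` of `W.V ∩ Z.V`;
* `GG_htp` : `GG Z ~ midd (GG W, (v, v⁻¹) ∘ ev)` on any subset of `QW (W.V ∩ Z.V)`;
* `cat_GG` : `F.S ~ γ`.
-/

namespace Crest.Agent.R231.OmSpx725

open Set Topology NNReal Crest.Agent.R231.Moorex725 Crest.Agent.R231.CutMx725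
  Crest.Agent.R231.SlideMx725

set_option linter.unusedSectionVars false
set_option linter.unusedVariables false

variable {M : Type*} [PseudoMetricSpace M] {p : M}

/-- the loop `b_z⁻¹ . c_z` -/
noncomputable def vv (W Z : Tether p) {S : Set M} (hW : S ⊆ W.V) (hZ : S ⊆ Z.V) :
    C(S, OmT p (ell W + ell Z)) where
  toFun z := ⟨cc W.L (rev W.L (W.T z)) (Z.T z), by
    have h := cc_mem (rev_mem (W.mem _ (hW z.2))) (Z.mem _ (hZ z.2)) W.L_nonneg Z.L_nonneg
    rw [NNReal.coe_add, coe_ell, coe_ell]; exact h⟩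
  continuous_toFun := by
    have cW : Continuous fun z : S => W.T z :=
      W.cont.comp_continuous continuous_subtype_val fun z => hW z.2
    have cZ : Continuous fun z : S => Z.T z :=
      Z.cont.comp_continuous continuous_subtype_val fun z => hZ z.2
    refine Continuous.subtype_mk (continuous_cc (c := fun _ => W.L)
      (continuous_rev (s := fun _ => W.L) cW (fun z => (W.mem _ (hW z.2)).1) continuous_const)
      cZ continuous_const (fun z => (Z.mem _ (hZ z.2)).1) fun z => ?_) _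
    rw [rev_apply, sub_self, (W.mem _ (hW z.2)).2.1 _ le_rfl, (Z.mem _ (hZ z.2)).2.1 _ le_rfl]

@[simp] theorem vv_val (W Z : Tether p) {S : Set M} (hW : S ⊆ W.V) (hZ : S ⊆ Z.V) (z : S) :
    (vv W Z hW hZ z).1 = cc W.L (rev W.L (W.T z)) (Z.T z) := rfl

/-- the inverse of `v` is the loop with the roles exchanged -/
theorem inv_vv (W Z : Tether p) {S : Set M} (hW : S ⊆ W.V) (hZ : S ⊆ Z.V) (z : S)
    {T : ℝ≥0} (h : ell W + ell Z ≤ T) (h' : ell Z + ell W ≤ T) :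
    inc h (inv p (ell W + ell Z) (vv W Z hW hZ z)) = inc h' (vv Z W hZ hW z) :=
  OmT_ext (by
    change rev ((ell W + ell Z : ℝ≥0) : ℝ) (cc W.L (rev W.L (W.T z)) (Z.T z)) =
      cc Z.L (rev Z.L (Z.T z)) (W.T z)
    rw [NNReal.coe_add, coe_ell, coe_ell,
      rev_cc (rev_mem (W.mem _ (hW z.2))) (Z.mem _ (hZ z.2)), rev_rev])

/-- evaluation on a subset -/
noncomputable def evR (p : M) (t : ℝ≥0) {R : Set (Qt p t)} {S : Set M} (hR : R ⊆ QW S p t) :
    C(R, S) where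
  toFun x := ⟨x.1.1.1 x.1.2, hR x.2⟩
  continuous_toFun := Continuous.subtype_mk ((evQ p t).continuous.comp continuous_subtype_val) _

@[simp] theorem evR_val (t : ℝ≥0) {R : Set (Qt p t)} {S : Set M} (hR : R ⊆ QW S p t) (x : R) :
    (evR p t hR x : M) = x.1.1.1 x.1.2 := rfl

/-- **the comparison of two cut maps**: `GG Z ~ midd (GG W, (v, v⁻¹) ∘ ev)` -/
theorem GG_htp (W Z : Tether p) (t : ℝ≥0) {S : Set M} (hW : S ⊆ W.V) (hZ : S ⊆ Z.V)
    {R : Set (Qt p t)} (hR : R ⊆ QW S p t) {U : ℝ≥0} (h1 : t + 2 * ell Z ≤ U)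
    (h2 : t + 2 * ell W + (ell W + ell Z) + (ell W + ell Z) ≤ U) :
    ((inc2 h1).comp (GG Z t (fun x hx => hZ (hR hx)))).Homotopic
      ((inc2 h2).comp ((midd p (t + 2 * ell W) (ell W + ell Z) (ell W + ell Z)).comp
        ((GG W t (fun x hx => hW (hR hx))).prodMk
          (((vv W Z hW hZ).prodMk ((inv p (ell W + ell Z)).comp (vv W Z hW hZ))).comp
            (evR p t hR))))) := by
  have k2 : (t : ℝ) + 2 * W.L + (W.L + Z.L) + (W.L + Z.L) ≤ U := by
    have := NNReal.coe_le_coe.2 h2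
    push_cast at this
    exact this
  have hWL := W.L_nonneg
  have hZL := Z.L_nonneg
  -- basic membership facts
  have mW : ∀ x : R, W.T (x.1.1.1 x.1.2) ∈ MP (x.1.1.1 x.1.2) p W.L := fun x =>
    W.mem _ (hW (hR x.2))
  have mZ : ∀ x : R, Z.T (x.1.1.1 x.1.2) ∈ MP (x.1.1.1 x.1.2) p Z.L := fun x =>
    Z.mem _ (hZ (hR x.2))
  -- the parameter
  let ρ : unitInterval → ℝ := fun u => mix u 0 W.L
  have r0 : ∀ u, 0 ≤ ρ u := fun u => le_mix le_rfl hWL
  have r1 : ∀ u, ρ u ≤ W.L := fun u => mix_le hWL le_rfl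
  -- the pieces
  let B : unitInterval → R → ℝ → M := fun u x => head (ρ u) (W.T (x.1.1.1 x.1.2))
  let B' : unitInterval → R → ℝ → M := fun u x => rev (ρ u) (B u x)
  have mB : ∀ u (x : R), B u x ∈ MP (x.1.1.1 x.1.2) (W.T (x.1.1.1 x.1.2) (ρ u)) (ρ u) :=
    fun u x => head_mem (mW x)
  have mB' : ∀ u (x : R), B' u x ∈ MP (W.T (x.1.1.1 x.1.2) (ρ u)) (x.1.1.1 x.1.2) (ρ u) :=
    fun u x => rev_mem (mB u x)
  let F : unitInterval → R → ℝ → M := fun u x =>
    cc (x.1.2 : ℝ) (head x.1.2 x.1.1.1) (cc (ρ u) (B u x) (cc (ρ u) (B' u x) (Z.T (x.1.1.1 x.1.2))))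
  let G : unitInterval → R → ℝ → M := fun u x =>
    cc Z.L (rev Z.L (Z.T (x.1.1.1 x.1.2))) (cc (ρ u) (B u x) (cc (ρ u) (B' u x)
      (tail x.1.2 x.1.1.1)))
  have hF : ∀ u (x : R), F u x ∈ MP p p ((x.1.2 : ℝ) + (ρ u + (ρ u + Z.L))) := fun u x =>
    cc_mem (head_mem x.1.1.2) (cc_mem (mB u x) (cc_mem (mB' u x) (mZ x) (r0 u) hZL) (r0 u)
      (add_nonneg (r0 u) hZL)) x.1.2.2.1 (add_nonneg (r0 u) (add_nonneg (r0 u) hZL))
  have hG : ∀ u (x : R), G u x ∈ MP p p (Z.L + (ρ u + (ρ u + ((t : ℝ) - x.1.2)))) := fun u x => by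
    have h5 : (0 : ℝ) ≤ (t : ℝ) - x.1.2 := by linarith [x.1.2.2.2]
    exact cc_mem (rev_mem (mZ x)) (cc_mem (mB u x) (cc_mem (mB' u x)
      (tail_mem x.1.1.2 x.1.2.2.2) (r0 u) h5) (r0 u)
      (add_nonneg (r0 u) h5)) hZL (add_nonneg (r0 u) (add_nonneg (r0 u) h5))
  -- continuity of the ingredients
  have cg : Continuous fun x : unitInterval × R => x.2.1.1.1 :=
    continuous_subtype_val.comp (continuous_fst.comp (continuous_subtype_val.comp continuous_snd))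
  have cs : Continuous fun x : unitInterval × R => (x.2.1.2 : ℝ) :=
    continuous_subtype_val.comp (continuous_snd.comp (continuous_subtype_val.comp continuous_snd))
  have gL : ∀ x : unitInterval × R, x.2.1.1.1 ∈ LL M := fun x => x.2.1.1.2.1
  have cρ : Continuous fun x : unitInterval × R => ρ x.1 := continuous_mixc _ _
  have cW : Continuous fun x : unitInterval × R => W.T (x.2.1.1.1 x.2.1.2) :=
    continuous_T cg gL cs fun x => hW (hR x.2.2)
  have cZ : Continuous fun x : unitInterval × R => Z.T (x.2.1.1.1 x.2.1.2) :=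
    continuous_T cg gL cs fun x => hZ (hR x.2.2)
  have cB : Continuous fun x : unitInterval × R => B x.1 x.2 :=
    continuous_head cW (fun x => (mW x.2).1) cρ
  have cB' : Continuous fun x : unitInterval × R => B' x.1 x.2 :=
    continuous_rev cB (fun x => (mB x.1 x.2).1) cρ
  have e1 : ∀ u (x : R), B' u x (ρ u) = Z.T (x.1.1.1 x.1.2) 0 := fun u x => by
    rw [(mB' u x).2.2 _ le_rfl, (mZ x).2.1 _ le_rfl]
  have c1 : Continuous fun x : unitInterval × R =>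
      cc (ρ x.1) (B' x.1 x.2) (Z.T (x.2.1.1.1 x.2.1.2)) :=
    continuous_cc cB' cZ cρ (fun x => (mZ x.2).1) fun x => e1 x.1 x.2
  have m1 : ∀ u (x : R), cc (ρ u) (B' u x) (Z.T (x.1.1.1 x.1.2)) ∈
      MP (W.T (x.1.1.1 x.1.2) (ρ u)) p (ρ u + Z.L) := fun u x =>
    cc_mem (mB' u x) (mZ x) (r0 u) hZL
  have c2 : Continuous fun x : unitInterval × R =>
      cc (ρ x.1) (B x.1 x.2) (cc (ρ x.1) (B' x.1 x.2) (Z.T (x.2.1.1.1 x.2.1.2))) :=
    continuous_cc cB c1 cρ (fun x => (m1 x.1 x.2).1) fun x => by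
      rw [(mB x.1 x.2).2.2 _ le_rfl, (m1 x.1 x.2).2.1 _ le_rfl]
  have m2 : ∀ u (x : R), cc (ρ u) (B u x) (cc (ρ u) (B' u x) (Z.T (x.1.1.1 x.1.2))) ∈
      MP (x.1.1.1 x.1.2) p (ρ u + (ρ u + Z.L)) := fun u x =>
    cc_mem (mB u x) (m1 u x) (r0 u) (add_nonneg (r0 u) hZL)
  have cF : Continuous fun x : unitInterval × R => F x.1 x.2 :=
    continuous_cc (continuous_head cg gL cs) c2 cs (fun x => (m2 x.1 x.2).1) fun x => by
      rw [(m2 x.1 x.2).2.1 _ le_rfl, head, min_self]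
  have mt : ∀ x : R, tail x.1.2 x.1.1.1 ∈ MP (x.1.1.1 x.1.2) p ((t : ℝ) - x.1.2) := fun x =>
    tail_mem x.1.1.2 x.1.2.2.2
  have t0 : ∀ x : R, (0 : ℝ) ≤ (t : ℝ) - x.1.2 := fun x => by linarith [x.1.2.2.2]
  have c3 : Continuous fun x : unitInterval × R =>
      cc (ρ x.1) (B' x.1 x.2) (tail x.2.1.2 x.2.1.1.1) :=
    continuous_cc cB' (continuous_tail cg gL cs) cρ (fun x => (mt x.2).1) fun x => by
      rw [(mB' x.1 x.2).2.2 _ le_rfl, (mt x.2).2.1 _ le_rfl]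
  have m3 : ∀ u (x : R), cc (ρ u) (B' u x) (tail x.1.2 x.1.1.1) ∈
      MP (W.T (x.1.1.1 x.1.2) (ρ u)) p (ρ u + ((t : ℝ) - x.1.2)) := fun u x =>
    cc_mem (mB' u x) (mt x) (r0 u) (t0 x)
  have c4 : Continuous fun x : unitInterval × R =>
      cc (ρ x.1) (B x.1 x.2) (cc (ρ x.1) (B' x.1 x.2) (tail x.2.1.2 x.2.1.1.1)) :=
    continuous_cc cB c3 cρ (fun x => (m3 x.1 x.2).1) fun x => by
      rw [(mB x.1 x.2).2.2 _ le_rfl, (m3 x.1 x.2).2.1 _ le_rfl]
  have m4 : ∀ u (x : R), cc (ρ u) (B u x) (cc (ρ u) (B' u x) (tail x.1.2 x.1.1.1)) ∈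
      MP (x.1.1.1 x.1.2) p (ρ u + (ρ u + ((t : ℝ) - x.1.2))) := fun u x =>
    cc_mem (mB u x) (m3 u x) (r0 u) (add_nonneg (r0 u) (t0 x))
  have cG : Continuous fun x : unitInterval × R => G x.1 x.2 :=
    continuous_cc (c := fun _ => Z.L) (continuous_rev (s := fun _ => Z.L) cZ
      (fun x => (mZ x.2).1) continuous_const) c4 continuous_const
      (fun x => (m4 x.1 x.2).1) fun x => by
      rw [(m4 x.1 x.2).2.1 _ le_rfl, (rev_mem (mZ x.2)).2.2 _ le_rfl]
  refine htpO2 F G (fun u x => (x.1.2 : ℝ) + (2 * ρ u + Z.L)) (fun u x => ?_) (fun u x => ?_)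
    (fun u x => ?_) (fun u x => ?_) cF cG
    (cs.add ((continuous_const.mul cρ).add continuous_const))
    (fun x => ?_) (fun x => ?_) (fun x => ?_) (fun x => ?_) (fun x => ?_) (fun x => ?_)
  · have e : (x.1.2 : ℝ) + (ρ u + (ρ u + Z.L)) = (x.1.2 : ℝ) + (2 * ρ u + Z.L) := by ring
    rw [← e]; exact hF u x
  · refine Om_mono p ?_ (hG u x)
    have := r1 u
    linarith
  · exact add_nonneg x.1.2.2.1 (add_nonneg (mul_nonneg zero_le_two (r0 u)) hZL)
  · have := r1 u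
    have := x.1.2.2.2
    linarith
  -- value at 0
  · have e : ρ 0 = 0 := mix_zero _ _
    have b0 : B 0 x = fun _ => x.1.1.1 x.1.2 := by
      change head (ρ 0) _ = _
      rw [e]; exact head_of_le (mW x) le_rfl
    have b0' : B' 0 x = fun _ => x.1.1.1 x.1.2 := by
      change rev (ρ 0) (B 0 x) = _
      rw [b0]; rfl
    change cc (x.1.2 : ℝ) (head x.1.2 x.1.1.1) (cc (ρ 0) (B 0 x) (cc (ρ 0) (B' 0 x)
      (Z.T (x.1.1.1 x.1.2)))) = cc (x.1.2 : ℝ) (head x.1.2 x.1.1.1) (Z.T (x.1.1.1 x.1.2))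
    rw [b0, b0', e, cc_const_left (mZ x), cc_const_left (mZ x)]
  · have e : ρ 0 = 0 := mix_zero _ _
    have b0 : B 0 x = fun _ => x.1.1.1 x.1.2 := by
      change head (ρ 0) _ = _
      rw [e]; exact head_of_le (mW x) le_rfl
    have b0' : B' 0 x = fun _ => x.1.1.1 x.1.2 := by
      change rev (ρ 0) (B 0 x) = _
      rw [b0]; rfl
    change cc Z.L (rev Z.L (Z.T (x.1.1.1 x.1.2))) (cc (ρ 0) (B 0 x) (cc (ρ 0) (B' 0 x)
      (tail x.1.2 x.1.1.1))) = cc Z.L (rev Z.L (Z.T (x.1.1.1 x.1.2))) (tail x.1.2 x.1.1.1)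
    rw [b0, b0', e, cc_const_left (mt x), cc_const_left (mt x)]
  · have e : ρ 0 = 0 := mix_zero _ _
    change (x.1.2 : ℝ) + (2 * ρ 0 + Z.L) = (x.1.2 : ℝ) + Z.L
    rw [e]; ring
  -- value at 1
  · have e : ρ 1 = W.L := mix_one _ _
    have b1 : B 1 x = W.T (x.1.1.1 x.1.2) := by
      change head (ρ 1) _ = _
      rw [e]; exact head_of_ge (mW x) le_rfl
    have b1' : B' 1 x = rev W.L (W.T (x.1.1.1 x.1.2)) := by
      change rev (ρ 1) (B 1 x) = _
      rw [b1, e]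
    change cc (x.1.2 : ℝ) (head x.1.2 x.1.1.1) (cc (ρ 1) (B 1 x) (cc (ρ 1) (B' 1 x)
      (Z.T (x.1.1.1 x.1.2)))) = cc ((x.1.2 : ℝ) + W.L) (cc (x.1.2 : ℝ) (head x.1.2 x.1.1.1)
        (W.T (x.1.1.1 x.1.2))) (cc W.L (rev W.L (W.T (x.1.1.1 x.1.2))) (Z.T (x.1.1.1 x.1.2)))
    rw [b1, b1', e, cc_assoc _ _ _ hWL]
  · have e : ρ 1 = W.L := mix_one _ _
    have b1 : B 1 x = W.T (x.1.1.1 x.1.2) := by
      change head (ρ 1) _ = _
      rw [e]; exact head_of_ge (mW x) le_rfl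
    have b1' : B' 1 x = rev W.L (W.T (x.1.1.1 x.1.2)) := by
      change rev (ρ 1) (B 1 x) = _
      rw [b1, e]
    change cc Z.L (rev Z.L (Z.T (x.1.1.1 x.1.2))) (cc (ρ 1) (B 1 x) (cc (ρ 1) (B' 1 x)
      (tail x.1.2 x.1.1.1))) = cc ((ell W + ell Z : ℝ≥0) : ℝ)
        (rev ((ell W + ell Z : ℝ≥0) : ℝ) (cc W.L (rev W.L (W.T (x.1.1.1 x.1.2)))
          (Z.T (x.1.1.1 x.1.2))))
        (cc W.L (rev W.L (W.T (x.1.1.1 x.1.2))) (tail x.1.2 x.1.1.1))
    rw [b1, b1', e, NNReal.coe_add, coe_ell, coe_ell, rev_cc (rev_mem (mW x)) (mZ x), rev_rev,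
      add_comm W.L Z.L, cc_assoc _ _ _ hWL]
  · have e : ρ 1 = W.L := mix_one _ _
    change (x.1.2 : ℝ) + (2 * ρ 1 + Z.L) = (x.1.2 : ℝ) + W.L + ((ell W + ell Z : ℝ≥0) : ℝ)
    rw [e, NNReal.coe_add, coe_ell, coe_ell]; ring

/-- the loop on a subset of `Qt` -/
def prQ (p : M) (t : ℝ≥0) (R : Set (Qt p t)) : C(R, OmT p t) where
  toFun x := x.1.1
  continuous_toFun := continuous_fst.comp continuous_subtype_val

/-- `F.S ~ γ` -/
theorem cat_GG (W : Tether p) (t : ℝ≥0) {R : Set (Qt p t)} (hR : R ⊆ QW W.V p t) {U : ℝ≥0}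
    (h1 : t + 2 * ell W ≤ U) (h2 : t ≤ U) :
    ((inc h1).comp ((cat p (t + 2 * ell W)).comp (GG W t hR))).Homotopic
      ((inc h2).comp (prQ p t R)) := by
  have k1 : (t : ℝ) + 2 * W.L ≤ U := by
    have := NNReal.coe_le_coe.2 h1
    push_cast at this
    exact this
  have hWL := W.L_nonneg
  have mW : ∀ x : R, W.T (x.1.1.1 x.1.2) ∈ MP (x.1.1.1 x.1.2) p W.L := fun x =>
    W.mem _ (hR x.2)
  let ρ : unitInterval → ℝ := fun u => mix u W.L 0
  have r0 : ∀ u, 0 ≤ ρ u := fun u => le_mix hWL le_rfl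
  have r1 : ∀ u, ρ u ≤ W.L := fun u => mix_le le_rfl hWL
  have cg : Continuous fun x : unitInterval × R => x.2.1.1.1 :=
    continuous_subtype_val.comp (continuous_fst.comp (continuous_subtype_val.comp continuous_snd))
  have cs : Continuous fun x : unitInterval × R => (x.2.1.2 : ℝ) :=
    continuous_subtype_val.comp (continuous_snd.comp (continuous_subtype_val.comp continuous_snd))
  have gL : ∀ x : unitInterval × R, x.2.1.1.1 ∈ LL M := fun x => x.2.1.1.2.1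
  have cρ : Continuous fun x : unitInterval × R => ρ x.1 := continuous_mixc _ _
  have cW : Continuous fun x : unitInterval × R => W.T (x.2.1.1.1 x.2.1.2) :=
    continuous_T cg gL cs fun x => hR x.2.2
  refine htpO (fun u x => dt (ρ u) x.1.2 (W.T (x.1.1.1 x.1.2)) x.1.1.1) (fun u x => ?_)
    (continuous_dt cg gL cs cρ (fun x => r0 x.1) cW (fun x => (mW x.2).1)
      fun x => (mW x.2).2.1 _ le_rfl) (fun x => ?_) (fun x => ?_)
  · refine Om_mono p ?_ (dt_mem x.1.1.2 x.1.2.2.1 x.1.2.2.2 (mW x) (r0 u))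
    have := r1 u
    linarith
  · change dt (ρ 0) x.1.2 (W.T (x.1.1.1 x.1.2)) x.1.1.1 =
      cc ((x.1.2 : ℝ) + W.L) (Fc W x.1.2 x.1.1.1) (Sc W x.1.2 x.1.1.1)
    have e : ρ 0 = W.L := mix_zero _ _
    rw [e, dt_tether x.1.1.2 (hR x.2)]
  · change dt (ρ 1) x.1.2 (W.T (x.1.1.1 x.1.2)) x.1.1.1 = x.1.1.1
    have e : ρ 1 = 0 := mix_one _ _
    rw [e, dt_zero x.1.1.2 x.1.2.2.2 (mW x)]

/-- At a passage through `p` where the tether is constant, the cut map is the plain cut. -/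
theorem GG_at_p (W : Tether p) (hp : W.T p = fun _ => p) (t : ℝ≥0) {R : Set (Qt p t)}
    (hR : R ⊆ QW W.V p t) (x : R) (hx : x.1.1.1 x.1.2 = p) :
    (GG W t hR x).1 = (head x.1.2 x.1.1.1, cc W.L (fun _ => p) (tail x.1.2 x.1.1.1),
      (x.1.2 : ℝ) + W.L) := by
  have e1 : Fc W x.1.2 x.1.1.1 = head x.1.2 x.1.1.1 := by
    have h := head_mem x.1.1.2 (s := x.1.2)
    rw [hx] at h
    rw [Fc, hx, hp]; exact cc_const_right h
  have e2 : Sc W x.1.2 x.1.1.1 = cc W.L (fun _ => p) (tail x.1.2 x.1.1.1) := by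
    rw [Sc, hx, hp]; rfl
  rw [GG_val, e1, e2]

/-- inclusion of the end `s = t` in `Qt` -/
def endQ (p : M) (t : ℝ≥0) : C(OmT p t, Qt p t) where
  toFun g := (g, ⟨(t : ℝ), t.2, le_rfl⟩)
  continuous_toFun := continuous_id.prodMk continuous_const

/-- inclusion of the end `s = 0` in `Qt` -/
def startQ (p : M) (t : ℝ≥0) : C(OmT p t, Qt p t) where
  toFun g := (g, ⟨0, le_rfl, t.2⟩)
  continuous_toFun := continuous_id.prodMk continuous_const

theorem evQ_endQ (t : ℝ≥0) (g : OmT p t) : evQ p t (endQ p t g) = p := g.2.2.2 _ le_rfl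

theorem evQ_startQ (t : ℝ≥0) (g : OmT p t) : evQ p t (startQ p t g) = p := g.2.2.1 _ le_rfl

theorem endQ_mem {V : Set M} (hp : p ∈ V) (t : ℝ≥0) (g : OmT p t) : endQ p t g ∈ QW V p t := by
  change g.1 (t : ℝ) ∈ V
  rw [g.2.2.2 _ le_rfl]; exact hp

theorem startQ_mem {V : Set M} (hp : p ∈ V) (t : ℝ≥0) (g : OmT p t) :
    startQ p t g ∈ QW V p t := by
  change g.1 0 ∈ V
  rw [g.2.2.1 _ le_rfl]; exact hp

/-- `endQ` with values in a subset -/
def endR (p : M) (t : ℝ≥0) {R : Set (Qt p t)} (h : ∀ g, endQ p t g ∈ R) : C(OmT p t, R) :=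
  ⟨fun g => ⟨endQ p t g, h g⟩, Continuous.subtype_mk (endQ p t).continuous _⟩

/-- `startQ` with values in a subset -/
def startR (p : M) (t : ℝ≥0) {R : Set (Qt p t)} (h : ∀ g, startQ p t g ∈ R) : C(OmT p t, R) :=
  ⟨fun g => ⟨startQ p t g, h g⟩, Continuous.subtype_mk (startQ p t).continuous _⟩

/-- the cut at the end is `(γ, 1)` -/
theorem GG_endR (W : Tether p) (hp : W.T p = fun _ => p) (t : ℝ≥0) {R : Set (Qt p t)}
    (hR : R ⊆ QW W.V p t) (h : ∀ g, endQ p t g ∈ R) {U : ℝ≥0} (h1 : t + 2 * ell W ≤ U)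
    (h2 : t ≤ U) :
    ((inc2 h1).comp ((GG W t hR).comp (endR p t h))).Homotopic ((inc2 h2).comp (i1 p t)) := by
  have k1 : (t : ℝ) + 2 * W.L ≤ U := by
    have := NNReal.coe_le_coe.2 h1
    push_cast at this
    exact this
  have hWL := W.L_nonneg
  have key : ∀ g : OmT p t, (GG W t hR (endR p t h g)).1 = (g.1, fun _ => p, (t : ℝ) + W.L) := by
    intro g
    rw [GG_at_p W hp t hR _ (g.2.2.2 _ le_rfl)]
    change (head (t : ℝ) g.1, cc W.L (fun _ => p) (tail (t : ℝ) g.1), (t : ℝ) + W.L) = _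
    rw [head_of_ge g.2 le_rfl, tail_of_ge g.2 le_rfl, cc_const_right (const_mem_MP p W.L)]
  refine htpO2 (fun u g => g.1) (fun u g _ => p) (fun u g => (t : ℝ) + mix u W.L 0)
    (fun u g => Om_mono p (le_add_of_nonneg_right (le_mix hWL le_rfl)) g.2)
    (fun u g => const_mem_Om p _) (fun u g => add_nonneg t.2 (le_mix hWL le_rfl))
    (fun u g => by have := mix_le (u := u) (le_refl W.L) hWL; linarith)
    (continuous_subtype_val.comp continuous_snd) continuous_const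
    (continuous_const.add (continuous_mixc _ _)) (fun g => ?_) (fun g => ?_) (fun g => ?_)
    (fun g => rfl) (fun g => rfl) (fun g => ?_)
  · change _ = (GG W t hR (endR p t h g)).1.1
    rw [key]
  · change _ = (GG W t hR (endR p t h g)).1.2.1
    rw [key]
  · change _ = (GG W t hR (endR p t h g)).1.2.2
    rw [key, mix_zero]
  · rw [mix_one, add_zero]; rfl

/-- the cut at the start is `(1, γ)` -/
theorem GG_startR (W : Tether p) (hp : W.T p = fun _ => p) (t : ℝ≥0) {R : Set (Qt p t)}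
    (hR : R ⊆ QW W.V p t) (h : ∀ g, startQ p t g ∈ R) {U : ℝ≥0} (h1 : t + 2 * ell W ≤ U)
    (h2 : t ≤ U) :
    ((inc2 h1).comp ((GG W t hR).comp (startR p t h))).Homotopic ((inc2 h2).comp (i2 p t)) := by
  have k1 : (t : ℝ) + 2 * W.L ≤ U := by
    have := NNReal.coe_le_coe.2 h1
    push_cast at this
    exact this
  have hWL := W.L_nonneg
  have key : ∀ g : OmT p t, (GG W t hR (startR p t h g)).1 =
      (fun _ => p, cc W.L (fun _ => p) g.1, W.L) := by
    intro g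
    rw [GG_at_p W hp t hR _ (g.2.2.1 _ le_rfl)]
    change (head 0 g.1, cc W.L (fun _ => p) (tail 0 g.1), (0 : ℝ) + W.L) = _
    rw [head_of_le g.2 le_rfl, tail_zero g.2, zero_add]
  refine htpO2 (fun u g _ => p) (fun u g => cc (mix u W.L 0) (fun _ => p) g.1)
    (fun u g => mix u W.L 0)
    (fun u g => const_mem_Om p _) (fun u g => cc_mem_of_le (const_mem_Om p 0) g.2
      (le_mix hWL le_rfl) (le_mix hWL le_rfl) t.2 ?_) (fun u g => le_mix hWL le_rfl)
    (fun u g => ?_) continuous_const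
    (continuous_cc continuous_const (continuous_subtype_val.comp continuous_snd)
      (continuous_mixc _ _) (fun x => x.2.2.1) fun x => (x.2.2.2.1 _ le_rfl).symm)
    (continuous_mixc _ _) (fun g => ?_) (fun g => ?_) (fun g => ?_)
    (fun g => rfl) (fun g => ?_) (fun g => ?_)
  · have := mix_le (u := u) (le_refl W.L) hWL
    change _ + (t : ℝ) ≤ _
    linarith
  · have := mix_le (u := u) (le_refl W.L) hWL
    have : (0 : ℝ) ≤ t := t.2
    linarith
  · change _ = (GG W t hR (startR p t h g)).1.1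
    rw [key]
  · change _ = (GG W t hR (startR p t h g)).1.2.1
    rw [key, mix_zero]
  · change _ = (GG W t hR (startR p t h g)).1.2.2
    rw [key, mix_zero]
  · rw [mix_one]; exact cc_const_left g.2
  · rw [mix_one]; rfl

end Crest.Agent.R231.OmSpx725
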