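import Crest.Agent.R231.CapCS_780
import Crest.Agent.R204.EZHtp_271

/-!
# Row 231, block P (helper780): cross products of chains of spaces, in the language of `Pair_877`

* `crE a b : CE (E × E')` : Eilenberg-Zilber product followed by `Sing E × Sing E' → Sing (E × E')`;
  supports, boundary, degrees, maps (`crE_map`, `push_crE`), projections, swap, associativity, points;
* cap rules: `cap_crE_fst`, `cap_crE_snd`, `snd_cap_crE`, `fst_cap_crE`;
* affine simplices of `ℝ`: `seg a b`, `tri a b c`, additivity and reparametrisation;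
* cylinders `cyl a b z = crE z (seg a b)` and the homotopy formula.
-/

set_option autoImplicit false

noncomputable section

namespace Crest.Agent.R231.CrossCSx780

open Crest.Agent.R204 Capx226 EZ271 Pairx877 SingAct265 CapCSx780

variable {E E' E'' F F' : Type} [TopologicalSpace E] [TopologicalSpace E'] [TopologicalSpace E'']
  [TopologicalSpace F] [TopologicalSpace F'] {X A V : Set E} {Y B W : Set E'}

/-! ## the cross product -/

/-- cross product of chains of spaces -/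
def crE : CE E →ₗ[F2] CE E' →ₗ[F2] CE (E × E') := (cross F2).compr₂ (N.map F2 (singPair E E'))

theorem crE_apply (a : CE E) (b : CE E') : crE a b = N.map F2 (singPair E E') (cross F2 a b) := rfl

/-- chains of products are products of simplicial sets -/
theorem map_singPair_inj {z w : N F2 ((SS.Sing E).prod (SS.Sing E'))}
    (h : N.map F2 (singPair E E') z = N.map F2 (singPair E E') w) : z = w := by
  have h2 := congrArg (N.map F2 (singUnpair E E')) h
  have e : ∀ z : N F2 ((SS.Sing E).prod (SS.Sing E')),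
      N.map F2 (singUnpair E E') (N.map F2 (singPair E E') z) = z := by
    intro z
    rw [map_map]
    have : (singUnpair E E').comp (singPair E E') = SS.Hom.id _ := rfl
    rw [this, map_idHom]
  rwa [e, e] at h2

theorem crE_map (f : C(E, F)) (g : C(E', F')) (a : CE E) (b : CE E') :
    N.map F2 (SS.SingMap (f.prodMap g)) (crE a b) =
      crE (N.map F2 (SS.SingMap f) a) (N.map F2 (SS.SingMap g) b) := by
  rw [crE_apply, crE_apply, ← map_cross, map_map, map_map]
  rfl

theorem crE_mem {a : CE E} {b : CE E'} (ha : a ∈ CS A) (hb : b ∈ CS B) : crE a b ∈ CS (A ×ˢ B) := by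
  rw [CS_eq_range] at ha hb
  obtain ⟨a, rfl⟩ := ha
  obtain ⟨b, rfl⟩ := hb
  rw [crE_apply, ← map_cross, map_map]
  refine map_mem_CS _ (fun n x t => ?_) _
  have h1 : ((ev (Y := A) x.1 t : A) : E) ∈ A := (ev (Y := A) x.1 t).2
  have h2 : ((ev (Y := B) x.2 t : B) : E') ∈ B := (ev (Y := B) x.2 t).2
  exact Set.mk_mem_prod h1 h2

theorem bd_crE (a : CE E) (b : CE E') :
    bdE (E × E') (crE a b) = crE (bdE E a) b + crE a (bdE E' b) := by
  rw [crE_apply, ← map_bd', bd_cross, EZCop766.sg_F2, map_add]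
  rfl

theorem crE_mem_gr {m n : ℕ} {a : CE E} {b : CE E'} (ha : a ∈ N.gr F2 (SS.Sing E) m)
    (hb : b ∈ N.gr F2 (SS.Sing E') n) : crE a b ∈ N.gr F2 (SS.Sing (E × E')) (m + n) :=
  Gr334.map_mem_gr _ (EZ847.cross_mem_gr F2 ha hb)

/-- product of two maps which are continuous on subsets -/
theorem push_crE {f : E → F} {g : E' → F'} {hf : ContinuousOn f X} {hg : ContinuousOn g Y}
    {hfg : ContinuousOn (fun p : E × E' => (f p.1, g p.2)) (X ×ˢ Y)} {a : CE E} {b : CE E'}
    (ha : a ∈ CS X) (hb : b ∈ CS Y) :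
    push (X ×ˢ Y) (fun p : E × E' => (f p.1, g p.2)) hfg (crE a b) =
      crE (push X f hf a) (push Y g hg b) := by
  rw [CS_eq_range] at ha hb
  obtain ⟨a, rfl⟩ := ha
  obtain ⟨b, rfl⟩ := hb
  have ea : push X f hf (N.map F2 (SS.SingMap (SpecA.inc X)) a) =
      N.map F2 (SS.SingMap ⟨X.domRestrict f, hf.domRestrict⟩) a := by
    rw [push, LinearMap.comp_apply, res_map_inc]
  have eb : push Y g hg (N.map F2 (SS.SingMap (SpecA.inc Y)) b) =
      N.map F2 (SS.SingMap ⟨Y.domRestrict g, hg.domRestrict⟩) b := by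
    rw [push, LinearMap.comp_apply, res_map_inc]
  rw [ea, eb, crE_apply, crE_apply, ← map_cross, ← map_cross, map_map, map_map]
  let I : C(X × Y, (X ×ˢ Y : Set (E × E'))) :=
    ⟨fun p => ⟨(p.1.1, p.2.1), p.1.2, p.2.2⟩, by fun_prop⟩
  have e1 : (singPair E E').comp (SS.prodMap (SS.SingMap (SpecA.inc X)) (SS.SingMap (SpecA.inc Y))) =
      (SS.SingMap (SpecA.inc (X ×ˢ Y))).comp ((SS.SingMap I).comp (singPair X Y)) := rfl
  rw [e1, ← map_map, push, LinearMap.comp_apply, res_map_inc, map_map]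
  rfl

theorem fst_crE (a : CE E) (b : CE E') :
    N.map F2 (SS.SingMap ⟨Prod.fst, continuous_fst⟩) (crE a b) = aug F2 b • a := by
  rw [crE_apply, map_map, ← fst_cross]
  rfl

theorem snd_crE (a : CE E) (b : CE E') :
    N.map F2 (SS.SingMap ⟨Prod.snd, continuous_snd⟩) (crE a b) = aug F2 a • b := by
  rw [crE_apply, map_map, ← snd_cross]
  rfl

theorem swap_crE (a : CE E) (b : CE E') :
    N.map F2 (SS.SingMap ⟨Prod.swap, continuous_swap⟩) (crE a b) = crE b a := by
  rw [crE_apply, crE_apply, map_map, ← EZ847.cross_swap_F2, map_map]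
  rfl

/-- associativity, `(a × b) × c ↦ a × (b × c)` -/
theorem assoc_crE (a : CE E) (b : CE E') (c : CE E'') :
    N.map F2 (SS.SingMap ⟨fun p : (E × E') × E'' => (p.1.1, (p.1.2, p.2)), by fun_prop⟩)
      (crE (crE a b) c) = crE a (crE b c) := by
  have h := EZ847.cross_assoc F2 a b c
  have e1 : crE (crE a b) c = N.map F2 ((singPair (E × E') E'').comp
      (SS.prodMap (singPair E E') (SS.Hom.id _))) (cross F2 (cross F2 a b) c) := by
    rw [← map_map, map_cross, map_idHom]; rfl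
  have e2 : crE a (crE b c) = N.map F2 ((singPair E (E' × E'')).comp
      (SS.prodMap (SS.Hom.id _) (singPair E' E''))) (cross F2 a (cross F2 b c)) := by
    rw [← map_map, map_cross, map_idHom]; rfl
  rw [e1, e2, ← h, map_map, map_map]
  rfl

/-! ## points and constant simplices -/

/-- the vertex at `x` -/
def vE (x : E) : CE E := N.sx F2 (mkS (fun _ : stdSimplex ℝ (Fin (0 + 1)) => x) continuous_const)

theorem vE_mem {x : E} (h : x ∈ X) : vE x ∈ CS X := sx_mem_CS fun _ => h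

theorem vE_mem_gr (x : E) : vE x ∈ N.gr F2 (SS.Sing E) 0 := Gr334.sx_mem_gr _

theorem bd_vE (x : E) : bdE E (vE x) = 0 := bd_sx_zero _ _

theorem aug_vE (x : E) : aug F2 (vE x) = 1 := aug_sx_zero _ _

theorem map_vE (f : C(E, F)) (x : E) : N.map F2 (SS.SingMap f) (vE x) = vE (f x) := by
  rw [vE, N.map_sx]; rfl

theorem push_vE {f : E → F} {hf : ContinuousOn f X} {x : E} (hx : x ∈ X) :
    push X f hf (vE x) = vE (f x) := by
  rw [vE, push_sx (fun _ => hx)]; rfl

/-- a `0`-simplex is a point -/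
theorem eq_vE (σ : (SS.Sing E).S 0) : N.sx F2 σ = vE (ev σ default) := by
  rw [vE]
  congr 1
  refine sing_ext fun t => ?_
  rw [ev_mkS, Subsingleton.elim t default]

/-- constant simplices of positive dimension vanish -/
theorem sx_const {n : ℕ} (σ : (SS.Sing E).S (n + 1)) (x : E) (h : ∀ t, ev σ t = x) :
    N.sx F2 σ = 0 := by
  have : σ = (SS.Sing E).act (Op.dgn 0) (mkS (fun _ => x) continuous_const) :=
    sing_ext fun t => h t
  rw [this, N.sx_dgn]

theorem const_mem_CS {n : ℕ} {c : CE E} {x : E} (hc : c ∈ CS ({x} : Set E))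
    (hg : c ∈ N.gr F2 (SS.Sing E) (n + 1)) : c = 0 := by
  have h1 : ∀ c ∈ CS ({x} : Set E), Gr334.prN F2 (SS.Sing E) (n + 1) c = 0 := by
    refine eq_on_CS (g := 0) fun m σ hσ => ?_
    rw [Gr334.prN_sx, LinearMap.zero_apply]
    split_ifs with e
    · subst e
      exact sx_const σ x hσ
    · rfl
  rw [← Gr334.prN_of_mem hg, h1 c hc]

theorem crE_vE_right (a : CE E) (y : E') :
    crE a (vE y) = N.map F2 (SS.SingMap ⟨fun x : E => (x, y), by fun_prop⟩) a := by
  rw [crE_apply, vE, cross_vertex_right, map_map]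
  rfl

theorem crE_vE_left (x : E) (b : CE E') :
    crE (vE x) b = N.map F2 (SS.SingMap ⟨fun y : E' => (x, y), by fun_prop⟩) b := by
  rw [crE_apply, vE, cross_vertex_left, map_map]
  rfl

/-! ## cap rules -/

theorem cap_crE_fst (u : Co (SS.Sing E)) (a : CE E) (b : CE E') :
    cap (pull (SS.SingMap ⟨Prod.fst, continuous_fst⟩) u) (crE a b) = crE (cap u a) b := by
  rw [crE_apply, ← map_cap]
  have : pull (singPair E E') (pull (SS.SingMap ⟨Prod.fst, continuous_fst⟩) u) =
      pull (SS.fst _ _) u := by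
    refine LinearMap.ext fun z => ?_
    rw [pull_apply, pull_apply, pull_apply, map_map]; rfl
  rw [this, cap_pull_fst]; rfl

theorem cap_crE_snd (v : Co (SS.Sing E')) (a : CE E) (b : CE E') :
    cap (pull (SS.SingMap ⟨Prod.snd, continuous_snd⟩) v) (crE a b) = crE a (cap v b) := by
  rw [crE_apply, ← map_cap]
  have : pull (singPair E E') (pull (SS.SingMap ⟨Prod.snd, continuous_snd⟩) v) =
      pull (SS.snd _ _) v := by
    refine LinearMap.ext fun z => ?_
    rw [pull_apply, pull_apply, pull_apply, map_map]; rfl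
  rw [this, cap_pull_snd]; rfl

/-- slant product `c / a`, `a` in the first factor -/
def slE (c : Co (SS.Sing (E × E'))) (a : CE E) : Co (SS.Sing E') := c ∘ₗ crE a

/-- slant product, `b` in the second factor -/
def slE' (c : Co (SS.Sing (E × E'))) (b : CE E') : Co (SS.Sing E) := c ∘ₗ crE.flip b

theorem slE_apply (c : Co (SS.Sing (E × E'))) (a : CE E) (b : CE E') : slE c a b = c (crE a b) := rfl

theorem slE'_apply (c : Co (SS.Sing (E × E'))) (a : CE E) (b : CE E') : slE' c b a = c (crE a b) :=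
  rfl

theorem snd_cap_crE (c : Co (SS.Sing (E × E'))) (a : CE E) (b : CE E') :
    N.map F2 (SS.SingMap ⟨Prod.snd, continuous_snd⟩) (cap c (crE a b)) = cap (slE c a) b := by
  rw [crE_apply, ← map_cap, map_map]
  exact snd_cap_cross _ _ _

theorem fst_cap_crE (c : Co (SS.Sing (E × E'))) (a : CE E) (b : CE E') :
    N.map F2 (SS.SingMap ⟨Prod.fst, continuous_fst⟩) (cap c (crE a b)) = cap (slE' c b) a := by
  rw [crE_apply, ← map_cap, map_map]
  exact fst_cap_cross _ _ _

theorem slE_eq_zero {p q : ℕ} (hpq : q < p) {c : Co (SS.Sing (E × E'))} (h : Deg q c) {a : CE E}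
    (ha : a ∈ N.gr F2 (SS.Sing E) p) : slE c a = 0 := by
  refine hom_ext fun n x => ?_
  exact h (p + n) (by omega) _ (crE_mem_gr ha (Gr334.sx_mem_gr x))

theorem slE'_eq_zero {p q : ℕ} (hpq : q < p) {c : Co (SS.Sing (E × E'))} (h : Deg q c) {b : CE E'}
    (hb : b ∈ N.gr F2 (SS.Sing E') p) : slE' c b = 0 := by
  refine hom_ext fun n x => ?_
  exact h (n + p) (by omega) _ (crE_mem_gr (Gr334.sx_mem_gr x) hb)

/-- **the `B = 0` lemma** for spaces -/
theorem snd_cap_crE_eq_zero {p q : ℕ} (hpq : q < p) {c : Co (SS.Sing (E × E'))} (h : Deg q c)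
    {a : CE E} (ha : a ∈ N.gr F2 (SS.Sing E) p) (b : CE E') :
    N.map F2 (SS.SingMap ⟨Prod.snd, continuous_snd⟩) (cap c (crE a b)) = 0 := by
  rw [snd_cap_crE, slE_eq_zero hpq h ha, cap_zero_left]

theorem fst_cap_crE_eq_zero {p q : ℕ} (hpq : q < p) {c : Co (SS.Sing (E × E'))} (h : Deg q c)
    (a : CE E) {b : CE E'} (hb : b ∈ N.gr F2 (SS.Sing E') p) :
    N.map F2 (SS.SingMap ⟨Prod.fst, continuous_fst⟩) (cap c (crE a b)) = 0 := by
  rw [fst_cap_crE, slE'_eq_zero hpq h hb, cap_zero_left]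

/-- a push which only sees the second factor -/
theorem push_snd {f : E' → F} {hf : ContinuousOn f W}
    {h : ContinuousOn (fun p : E × E' => f p.2) (Set.univ ×ˢ W)} {z : CE (E × E')}
    (hz : z ∈ CS (Set.univ ×ˢ W : Set (E × E'))) :
    push (Set.univ ×ˢ W) (fun p : E × E' => f p.2) h z =
      push W f hf (N.map F2 (SS.SingMap ⟨Prod.snd, continuous_snd⟩) z) := by
  refine eq_on_CS (g := push W f hf ∘ₗ N.map F2 (SS.SingMap ⟨Prod.snd, continuous_snd⟩))
    (fun n σ hσ => ?_) z hz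
  rw [LinearMap.comp_apply, N.map_sx, push_sx hσ, push_sx (fun t => (hσ t).2)]
  rfl

theorem push_fst {f : E → F} {hf : ContinuousOn f V}
    {h : ContinuousOn (fun p : E × E' => f p.1) (V ×ˢ Set.univ)} {z : CE (E × E')}
    (hz : z ∈ CS (V ×ˢ Set.univ : Set (E × E'))) :
    push (V ×ˢ Set.univ) (fun p : E × E' => f p.1) h z =
      push V f hf (N.map F2 (SS.SingMap ⟨Prod.fst, continuous_fst⟩) z) := by
  refine eq_on_CS (g := push V f hf ∘ₗ N.map F2 (SS.SingMap ⟨Prod.fst, continuous_fst⟩))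
    (fun n σ hσ => ?_) z hz
  rw [LinearMap.comp_apply, N.map_sx, push_sx hσ, push_sx (fun t => (hσ t).1)]
  rfl

/-! ## affine simplices of the line -/

/-- affine simplex of `ℝ` with the given vertices -/
def aff {n : ℕ} (v : Fin (n + 1) → ℝ) : (SS.Sing ℝ).S n :=
  mkS (fun t => ∑ i, t i * v i) (by
    refine continuous_finsetSum _ fun i _ => ?_
    exact ((continuous_apply i).comp continuous_subtype_val).mul continuous_const)

theorem ev_aff {n : ℕ} (v : Fin (n + 1) → ℝ) (t : stdSimplex ℝ (Fin (n + 1))) :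
    ev (aff v) t = ∑ i, t i * v i := rfl

theorem act_aff {m n : ℕ} (f : Op m n) (v : Fin (n + 1) → ℝ) :
    (SS.Sing ℝ).act f (aff v) = aff (v ∘ f) := by
  refine sing_ext fun t => ?_
  rw [ev_act, ev_aff, ev_aff]
  have : ∀ j, (stdSimplex.map f t : Fin (n + 1) → ℝ) j = ∑ i, if f i = j then t i else 0 := by
    intro j
    rw [stdSimplex.map_coe, FunOnFinite.linearMap_apply_apply]
    rw [Finset.sum_filter]
  simp only [this, Finset.sum_mul]
  rw [Finset.sum_comm]
  refine Finset.sum_congr rfl fun i _ => ?_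
  simp [ite_mul]

theorem map_aff (f : C(ℝ, ℝ)) (α β : ℝ) (hf : ∀ x, f x = α * x + β) {n : ℕ} (v : Fin (n + 1) → ℝ) :
    (SS.SingMap f).app n (aff v) = aff (fun i => f (v i)) := by
  refine sing_ext fun t => ?_
  rw [ev_map, ev_aff, ev_aff, hf]
  have h1 : ∑ i, t i = 1 := t.2.2
  simp only [hf, mul_add, Finset.sum_add_distrib, ← Finset.sum_mul, h1, one_mul, Finset.mul_sum]
  congr 1
  refine Finset.sum_congr rfl fun i _ => ?_
  ring

/-- the segment from `a` to `b` as a `1`-chain -/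
def seg (a b : ℝ) : CE ℝ := N.sx F2 (aff ![a, b])

/-- the affine triangle -/
def tri (a b c : ℝ) : CE ℝ := N.sx F2 (aff ![a, b, c])

theorem seg_mem_gr (a b : ℝ) : seg a b ∈ N.gr F2 (SS.Sing ℝ) 1 := Gr334.sx_mem_gr _

theorem tri_mem_gr (a b c : ℝ) : tri a b c ∈ N.gr F2 (SS.Sing ℝ) 2 := Gr334.sx_mem_gr _

theorem aff_mem {n : ℕ} {v : Fin (n + 1) → ℝ} {S : Set ℝ} (hS : Convex ℝ S) (h : ∀ i, v i ∈ S) :
    N.sx F2 (aff v) ∈ CS S := by
  refine sx_mem_CS fun t => ?_
  rw [ev_aff]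
  exact hS.sum_mem (fun i _ => t.2.1 i) t.2.2 fun i _ => h i

theorem seg_mem {a b : ℝ} {S : Set ℝ} (hS : Convex ℝ S) (ha : a ∈ S) (hb : b ∈ S) :
    seg a b ∈ CS S := aff_mem hS fun i => by fin_cases i <;> assumption

theorem tri_mem {a b c : ℝ} {S : Set ℝ} (hS : Convex ℝ S) (ha : a ∈ S) (hb : b ∈ S) (hc : c ∈ S) :
    tri a b c ∈ CS S := aff_mem hS fun i => by fin_cases i <;> assumption

theorem sx_aff_zero (v : Fin (0 + 1) → ℝ) : N.sx F2 (aff v) = vE (v 0) := by
  rw [vE]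
  refine congrArg _ (sing_ext fun t => ?_)
  rw [ev_aff, ev_mkS]
  have h1 : ∑ i, t i = 1 := t.2.2
  rw [Fin.sum_univ_one] at h1 ⊢
  rw [h1, one_mul]

theorem bd_seg (a b : ℝ) : bdE ℝ (seg a b) = vE b + vE a := by
  rw [seg, bd_sx_succ]
  simp only [act_aff]
  rw [Fin.sum_univ_two, sx_aff_zero, sx_aff_zero]
  have h : (-1 : F2) = 1 := by decide
  simp only [h, one_pow, one_smul]
  rfl

theorem bd_tri (a b c : ℝ) : bdE ℝ (tri a b c) = seg b c + seg a c + seg a b := by
  rw [tri, bd_sx_succ]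
  simp only [act_aff]
  rw [Fin.sum_univ_three]
  have h : (-1 : F2) = 1 := by decide
  simp only [h, one_pow, one_smul]
  have e0 : (![a, b, c] : Fin (2 + 1) → ℝ) ∘ (Op.face (0 : Fin 3)) = ![b, c] := by
    funext i; fin_cases i <;> rfl
  have e1 : (![a, b, c] : Fin (2 + 1) → ℝ) ∘ (Op.face (1 : Fin 3)) = ![a, c] := by
    funext i; fin_cases i <;> rfl
  have e2 : (![a, b, c] : Fin (2 + 1) → ℝ) ∘ (Op.face (2 : Fin 3)) = ![a, b] := by
    funext i; fin_cases i <;> rfl
  rw [e0, e1, e2]; rfl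

theorem seg_self (a : ℝ) : seg a a = 0 := by
  refine sx_const (n := 0) (aff ![a, a]) a fun t => ?_
  rw [ev_aff]
  have h1 : ∑ i, t i = 1 := t.2.2
  rw [Fin.sum_univ_two] at h1 ⊢
  show t 0 * a + t 1 * a = a
  rw [← add_mul, h1, one_mul]

theorem map_seg (f : C(ℝ, ℝ)) (α β : ℝ) (hf : ∀ x, f x = α * x + β) (a b : ℝ) :
    N.map F2 (SS.SingMap f) (seg a b) = seg (f a) (f b) := by
  rw [seg, N.map_sx, map_aff f α β hf, seg]
  congr 2
  funext i; fin_cases i <;> rfl

/-! ## cylinders -/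

/-- the cylinder `z × [a, b]` -/
def cyl (a b : ℝ) (z : CE E) : CE (E × ℝ) := crE z (seg a b)

/-- the map `x ↦ (x, s)` -/
def atC (E : Type) [TopologicalSpace E] (s : ℝ) : C(E, E × ℝ) := ⟨fun x => (x, s), by fun_prop⟩

theorem bd_cyl (a b : ℝ) (z : CE E) : bdE (E × ℝ) (cyl a b z) = cyl a b (bdE E z) +
    (N.map F2 (SS.SingMap (atC E b)) z + N.map F2 (SS.SingMap (atC E a)) z) := by
  rw [cyl, bd_crE, bd_seg, map_add, crE_vE_right, crE_vE_right]
  rfl

theorem cyl_mem {a b : ℝ} (hab : a ≤ b) {z : CE E} (hz : z ∈ CS X) :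
    cyl a b z ∈ CS (X ×ˢ Set.Icc a b) :=
  crE_mem hz (seg_mem (convex_Icc a b) ⟨le_rfl, hab⟩ ⟨hab, le_rfl⟩)

theorem cyl_mem_gr {n : ℕ} (a b : ℝ) {z : CE E} (hz : z ∈ N.gr F2 (SS.Sing E) n) :
    cyl a b z ∈ N.gr F2 (SS.Sing (E × ℝ)) (n + 1) := crE_mem_gr hz (seg_mem_gr a b)

theorem cyl_self (a : ℝ) (z : CE E) : cyl a a z = 0 := by rw [cyl, seg_self, map_zero]

/-- additivity of cylinders, with an explicit bounding chain -/
theorem cyl_add (a b c : ℝ) (z : CE E) :
    cyl a b z + cyl b c z + cyl a c z = bdE (E × ℝ) (crE z (tri a b c)) + crE (bdE E z) (tri a b c) := by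
  rw [bd_crE, bd_tri, add_comm (crE (bdE E z) _), add_assoc _ (crE (bdE E z) _), add_self, add_zero,
    map_add, map_add]
  unfold cyl
  abel

theorem crE_tri_mem {a b c : ℝ} (hab : a ≤ b) (hbc : b ≤ c) {z : CE E} (hz : z ∈ CS X) :
    crE z (tri a b c) ∈ CS (X ×ˢ Set.Icc a c) :=
  crE_mem hz (tri_mem (convex_Icc a c) ⟨le_rfl, hab.trans hbc⟩ ⟨hab, hbc⟩ ⟨hab.trans hbc, le_rfl⟩)

/-- reparametrisation of the interval by an affine map -/
theorem map_cyl (f : C(ℝ, ℝ)) (α β : ℝ) (hf : ∀ x, f x = α * x + β) (a b : ℝ) (z : CE E) :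
    N.map F2 (SS.SingMap ((ContinuousMap.id E).prodMap f)) (cyl a b z) = cyl (f a) (f b) z := by
  rw [cyl, crE_map, map_seg f α β hf]
  have : SS.SingMap (ContinuousMap.id E) = SS.Hom.id _ := rfl
  rw [this, map_idHom]; rfl

/-- the homotopy formula: `H` continuous on `X × [0,1]` -/
theorem bd_push_cyl {H : E × ℝ → F} {hH : ContinuousOn H (X ×ˢ Set.Icc 0 1)} {f g : E → F}
    {hf : ContinuousOn f X} {hg : ContinuousOn g X} (h0 : ∀ x ∈ X, H (x, 0) = f x)
    (h1 : ∀ x ∈ X, H (x, 1) = g x) {z : CE E} (hz : z ∈ CS X) :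
    bdE F (push (X ×ˢ Set.Icc 0 1) H hH (cyl 0 1 z)) =
      push (X ×ˢ Set.Icc 0 1) H hH (cyl 0 1 (bdE E z)) + (push X g hg z + push X f hf z) := by
  rw [bd_push _ (cyl_mem zero_le_one hz), bd_cyl, map_add, map_add]
  congr 2
  · refine eq_on_CS (f := push (X ×ˢ Set.Icc 0 1) H hH ∘ₗ N.map F2 (SS.SingMap (atC E 1)))
      (fun n σ hσ => ?_) z hz
    have hm : ∀ t, ev ((SS.SingMap (atC E 1)).app n σ) t ∈ X ×ˢ Set.Icc (0 : ℝ) 1 :=
      fun t => ⟨hσ t, zero_le_one, le_rfl⟩
    rw [LinearMap.comp_apply, N.map_sx, push_sx hσ, push_sx hm]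
    congr 1
    exact sing_ext fun t => h1 _ (hσ t)
  · refine eq_on_CS (f := push (X ×ˢ Set.Icc 0 1) H hH ∘ₗ N.map F2 (SS.SingMap (atC E 0)))
      (fun n σ hσ => ?_) z hz
    have hm : ∀ t, ev ((SS.SingMap (atC E 0)).app n σ) t ∈ X ×ˢ Set.Icc (0 : ℝ) 1 :=
      fun t => ⟨hσ t, le_rfl, zero_le_one⟩
    rw [LinearMap.comp_apply, N.map_sx, push_sx hσ, push_sx hm]
    congr 1
    exact sing_ext fun t => h0 _ (hσ t)

end Crest.Agent.R231.CrossCSx780
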