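import Crest.Agent.R231.CX_780
import Crest.Agent.R231.CrossCS_780
import Crest.Agent.R204.Cartan_888

/-!
# Row 231, block P (helper780): bridge between the two homology level cross products

`cx_crE` : `cx [a] [b] = [crE a b]`;  `cx_eq_hd2` : `cx = Q888.hd2 crE` (the definition used by helper226).
-/

set_option autoImplicit false

noncomputable section

namespace Crest.Agent.R231.CXx780

open Crest.Agent.R204 Crest.Agent.R204.SpecA SingAct265 FinDim315 CrossCSx780 Pairx877

variable {X Y : Type} [TopologicalSpace X] [TopologicalSpace Y]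

theorem crE_cyc {a : CE X} {b : CE Y} (ha : bdE X a = 0) (hb : bdE Y b = 0) :
    bdE (X × Y) (crE a b) = 0 := by
  rw [bd_crE, ha, hb, map_zero, LinearMap.zero_apply, map_zero, add_zero]

theorem cx_crE (a : CE X) (ha : bdE X a = 0) (b : CE Y) (hb : bdE Y b = 0) :
    cx (Hd.mk _ a ha) (Hd.mk _ b hb) = Hd.mk _ (crE a b) (crE_cyc ha hb) :=
  cx_mk a ha b hb (crE_cyc ha hb)

theorem cx_eq_hd2 : (cx : HS X →ₗ[F2] HS Y →ₗ[F2] HS (X × Y)) = Q888.hd2 crE bd_crE := by
  refine LinearMap.ext fun a => LinearMap.ext fun b => ?_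
  obtain ⟨a, ha, rfl⟩ := Hd.mk_surj _ a
  obtain ⟨b, hb, rfl⟩ := Hd.mk_surj _ b
  rw [cx_crE, Q888.hd2_mk]

end Crest.Agent.R231.CXx780
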