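import Crest.Agent.R204.ExcE_406
import Crest.Agent.R204.HZ_76
import Crest.Agent.R204.Rel_683

/-!
# Row 231 (S0357): finite dimension of mod 2 homology (helper315)

* `SingMap_comp`, `Hm_comp`, `Hm_id`, `Hm_homotopic`, `Hm_bijective_of_homeo`
* `finite_of_exact`, `mv_union` : Mayer-Vietoris for two sets whose interiors cover their union
* `finite_un` : a finite union of open convex sets of a normed space has finite dimensional homology
* `FinRk` : linear maps of finite rank; `finRk_compact` : a map into an open subset of a normed space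
  whose image lies in a compact subset has finite rank in homology; `finRk_of_factor`
* `finite_of_factor` : if moreover the map is injective in homology, `H(X)` is finite dimensional
* `finRk_rel` : relative version
-/

set_option autoImplicit false

noncomputable section

open Function Topology

namespace Crest.Agent.R231.FinDim315

open Crest.Agent.R204 Crest.Agent.R204.SpecA Crest.Agent.R204.HA683

/-- mod 2 homology of a space, all degrees together -/
abbrev HS (Y : Type) [TopologicalSpace Y] : Type := H F2 (SS.Sing Y)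

section functor

variable {X Y Z : Type} [TopologicalSpace X] [TopologicalSpace Y] [TopologicalSpace Z]

theorem SingMap_comp (g : C(Y, Z)) (f : C(X, Y)) :
    SS.SingMap (g.comp f) = (SS.SingMap g).comp (SS.SingMap f) := by
  ext n σ; rfl

theorem Hm_comp (g : C(Y, Z)) (f : C(X, Y)) : Hm (g.comp f) = Hm g ∘ₗ Hm f := by
  refine LinearMap.ext fun x => ?_
  rw [LinearMap.comp_apply]
  unfold Hm
  rw [SingMap_comp]
  exact HZ76.H_map_comp F2 _ _ x

theorem Hm_id (x : HS X) : Hm (ContinuousMap.id X) x = x := by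
  have hid : SS.SingMap (ContinuousMap.id X) = SS.Hom.id (SS.Sing X) := by
    ext n σ; rfl
  unfold Hm
  rw [hid]
  exact HZ76.H_map_id F2 x

theorem Hm_homotopic {f g : C(X, Y)} (h : f.Homotopic g) : Hm f = Hm g :=
  HZ76.topHomotopyInv F2 X Y f g h

theorem Hm_comp_apply (g : C(Y, Z)) (f : C(X, Y)) (x : HS X) : Hm (g.comp f) x = Hm g (Hm f x) := by
  rw [Hm_comp]; rfl

theorem Hm_bijective_of_inv {f : C(X, Y)} {g : C(Y, X)} (h1 : (g.comp f).Homotopic (ContinuousMap.id X))
    (h2 : (f.comp g).Homotopic (ContinuousMap.id Y)) : Bijective (Hm f) := by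
  have e1 : ∀ x, Hm g (Hm f x) = x := fun x => by
    rw [← Hm_comp_apply, Hm_homotopic h1, Hm_id]
  have e2 : ∀ x, Hm f (Hm g x) = x := fun x => by
    rw [← Hm_comp_apply, Hm_homotopic h2, Hm_id]
  exact ⟨LeftInverse.injective e1, RightInverse.surjective e2⟩

theorem Hm_bijective_of_homeo (e : X ≃ₜ Y) : Bijective (Hm (e : C(X, Y))) := by
  refine Hm_bijective_of_inv (g := (e.symm : C(Y, X))) ?_ ?_
  · have : (e.symm : C(Y, X)).comp (e : C(X, Y)) = ContinuousMap.id X := by
      ext x; simp
    rw [this]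
  · have : (e : C(X, Y)).comp (e.symm : C(Y, X)) = ContinuousMap.id Y := by
      ext x; simp
    rw [this]

theorem finite_of_homeo (e : X ≃ₜ Y) (h : Module.Finite F2 (HS X)) : Module.Finite F2 (HS Y) :=
  Module.Finite.of_surjective _ (Hm_bijective_of_homeo e).2

end functor

section linear

variable {A B C : Type*} [AddCommGroup A] [AddCommGroup B] [AddCommGroup C] [Module F2 A]
  [Module F2 B] [Module F2 C]

theorem finite_of_exact {f : A →ₗ[F2] B} {g : B →ₗ[F2] C} (h : Exact f g)
    (hA : Module.Finite F2 A) (hC : Module.Finite F2 C) : Module.Finite F2 B := by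
  refine ⟨Submodule.fg_of_fg_map_of_fg_inf_ker g ?_ ?_⟩
  · exact IsNoetherian.noetherian _
  · have e : (⊤ ⊓ LinearMap.ker g : Submodule F2 B) = LinearMap.range f := by
      rw [top_inf_eq]
      exact (LinearMap.exact_iff.1 h)
    rw [e]
    exact (Submodule.fg_top _).1 (Module.Finite.range f).1

/-- linear maps of finite rank -/
def FinRk (f : A →ₗ[F2] B) : Prop := Module.Finite F2 (LinearMap.range f)

theorem FinRk.of_finite_left (f : A →ₗ[F2] B) (h : Module.Finite F2 A) : FinRk f :=
  Module.Finite.range f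

theorem finRk_of_le {f : A →ₗ[F2] B} {p : Submodule F2 B} (hp : Module.Finite F2 p)
    (h : ∀ x, f x ∈ p) : FinRk f := by
  unfold FinRk
  have h1 : LinearMap.range f ≤ p := by rintro _ ⟨x, rfl⟩; exact h x
  exact Module.Finite.of_injective (Submodule.inclusion h1) (Submodule.inclusion_injective h1)

theorem FinRk.comp_left {f : A →ₗ[F2] B} (h : FinRk f) (g : B →ₗ[F2] C) : FinRk (g ∘ₗ f) := by
  have h1 : Module.Finite F2 ((LinearMap.range f).map g) := by
    have : Module.Finite F2 (LinearMap.range f) := h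
    infer_instance
  exact finRk_of_le h1 fun x => ⟨f x, ⟨x, rfl⟩, rfl⟩

theorem FinRk.comp_right {g : B →ₗ[F2] C} (h : FinRk g) (f : A →ₗ[F2] B) : FinRk (g ∘ₗ f) :=
  finRk_of_le (p := LinearMap.range g) h fun x => ⟨f x, rfl⟩

theorem FinRk.finite_of_injective {f : A →ₗ[F2] B} (h : FinRk f) (hi : Injective f) :
    Module.Finite F2 A := by
  have : Module.Finite F2 (LinearMap.range f) := h
  exact Module.Finite.of_injective f.rangeRestrict fun x y hxy => hi (congrArg Subtype.val hxy)

theorem FinRk.finite_of_surjective {f : A →ₗ[F2] B} (h : FinRk f) (hi : Surjective f) :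
    Module.Finite F2 B := by
  have h1 : Module.Finite F2 (LinearMap.range f) := h
  rw [LinearMap.range_eq_top.2 hi] at h1
  exact Module.Finite.of_surjective (⊤ : Submodule F2 B).subtype fun x => ⟨⟨x, trivial⟩, rfl⟩

end linear

/-! ### Mayer-Vietoris -/

section mv

variable {Y : Type} [TopologicalSpace Y]

/-- nested subspaces -/
def nest {A C : Set Y} (h : A ⊆ C) : (Subtype.val ⁻¹' A : Set C) ≃ₜ A where
  toFun x := ⟨x.1.1, x.2⟩
  invFun a := ⟨⟨a.1, h a.2⟩, a.2⟩
  left_inv _ := rfl
  right_inv _ := rfl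
  continuous_toFun := by fun_prop
  continuous_invFun := by fun_prop

theorem mv_space (U V : Set Y) (hUV : ∀ y, U ∈ 𝓝 y ∨ V ∈ 𝓝 y) (hU : Module.Finite F2 (HS U))
    (hV : Module.Finite F2 (HS V)) (hI : Module.Finite F2 (HS (U ∩ V : Set Y))) :
    Module.Finite F2 (HS Y) := by
  obtain ⟨δ, -, h2, -⟩ := Exc406.mayerVietoris U V F2 hUV
  exact finite_of_exact h2 inferInstance hI

theorem mv_union (A B : Set Y) (h : ∀ y ∈ A ∪ B, A ∈ 𝓝 y ∨ B ∈ 𝓝 y)
    (hA : Module.Finite F2 (HS A)) (hB : Module.Finite F2 (HS B))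
    (hI : Module.Finite F2 (HS (A ∩ B : Set Y))) : Module.Finite F2 (HS (A ∪ B : Set Y)) := by
  refine mv_space (Y := (A ∪ B : Set Y)) (Subtype.val ⁻¹' A) (Subtype.val ⁻¹' B) ?_
    (finite_of_homeo (nest Set.subset_union_left).symm hA)
    (finite_of_homeo (nest Set.subset_union_right).symm hB)
    (finite_of_homeo (nest (A := A ∩ B) (C := A ∪ B) fun x hx => Or.inl hx.1).symm hI)
  rintro ⟨y, hy⟩
  rcases h y hy with h | h
  · exact Or.inl (continuous_subtype_val.continuousAt.preimage_mem_nhds h)
  · exact Or.inr (continuous_subtype_val.continuousAt.preimage_mem_nhds h)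

end mv

/-! ### finite unions of convex open sets -/

theorem finite_pt : Module.Finite F2 (H F2 SS.pt) := by
  have h1 : Module.Finite F2 (N F2 SS.pt) := by
    refine ⟨⟨{N.sx F2 (K := SS.pt) (n := 0) ()}, ?_⟩⟩
    rw [eq_top_iff]
    rintro x -
    obtain ⟨c, rfl⟩ := Submodule.Quotient.mk_surjective _ x
    induction c using Finsupp.induction_linear with
    | zero => exact zero_mem _
    | add a b ha hb =>
      rw [Submodule.Quotient.mk_add]
      exact add_mem ha hb
    | single t r =>
      obtain ⟨n, y⟩ := t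
      have e : (Submodule.Quotient.mk (Finsupp.single (⟨n, y⟩ : SS.pt.T) r) : N F2 SS.pt) =
          r • N.sx F2 (K := SS.pt) (n := n) y := by
        unfold N.sx
        rw [← Submodule.Quotient.mk_smul]
        congr 1
        rw [Finsupp.smul_single, smul_eq_mul, mul_one]
      rw [e]
      refine Submodule.smul_mem _ _ ?_
      rcases n with _ | n
      · exact Submodule.subset_span (by rcases y with ⟨⟩; simp)
      · have h2 : N.sx F2 (K := SS.pt) (n := n + 1) y = 0 :=
          N.sx_dgn (R := F2) (K := SS.pt) (0 : Fin (n + 1)) ()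
        rw [h2]
        exact zero_mem _
  infer_instance

theorem finite_of_contractible (Y : Type) [TopologicalSpace Y] [ContractibleSpace Y] :
    Module.Finite F2 (HS Y) := by
  have h := finite_pt
  exact Module.Finite.of_injective _ (HZ76.contr F2 Y).1

theorem finite_of_empty (Y : Type) [TopologicalSpace Y] [IsEmpty Y] : Module.Finite F2 (HS Y) := by
  have h0 : ∀ x : N F2 (SS.Sing Y), x = 0 := by
    intro x
    obtain ⟨c, rfl⟩ := Submodule.Quotient.mk_surjective _ x
    induction c using Finsupp.induction_linear with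
    | zero => rfl
    | add a b ha hb => rw [Submodule.Quotient.mk_add, ha, hb, add_zero]
    | single t r =>
      obtain ⟨n, y⟩ := t
      exact isEmptyElim ((show C(stdSimplex ℝ (Fin (n + 1)), Y) from y) (stdSimplex.vertex 0))
  have h1 : Module.Finite F2 (N F2 (SS.Sing Y)) := by
    have : Subsingleton (N F2 (SS.Sing Y)) := ⟨fun a b => (h0 a).trans (h0 b).symm⟩
    infer_instance
  infer_instance

section convex

variable {E : Type} [NormedAddCommGroup E] [NormedSpace ℝ E]

theorem finite_convex {U : Set E} (hc : Convex ℝ U) : Module.Finite F2 (HS U) := by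
  rcases U.eq_empty_or_nonempty with rfl | hne
  · have : IsEmpty (∅ : Set E) := Set.isEmpty_coe_sort.2 rfl
    exact finite_of_empty _
  · have := hc.contractibleSpace hne
    exact finite_of_contractible _

/-- union of a list of sets -/
def un : List (Set E) → Set E
  | [] => ∅
  | U :: L => U ∪ un L

theorem mem_un {L : List (Set E)} {x : E} : x ∈ un L ↔ ∃ U ∈ L, x ∈ U := by
  induction L with
  | nil => simp [un]
  | cons U L ih => simp [un, ih]

theorem isOpen_un {L : List (Set E)} (h : ∀ U ∈ L, IsOpen U) : IsOpen (un L) := by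
  induction L with
  | nil => exact isOpen_empty
  | cons U L ih =>
    exact (h U (by simp)).union (ih fun V hV => h V (by simp [hV]))

theorem inter_un (U : Set E) (L : List (Set E)) : U ∩ un L = un (L.map fun V => U ∩ V) := by
  induction L with
  | nil => simp [un]
  | cons V L ih =>
    show U ∩ (V ∪ un L) = (U ∩ V) ∪ un (L.map fun V => U ∩ V)
    rw [← ih, Set.inter_union_distrib_left]

/-- **finite unions of open convex sets** -/
theorem finite_un (n : ℕ) : ∀ L : List (Set E), L.length = n → (∀ U ∈ L, IsOpen U) →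
    (∀ U ∈ L, Convex ℝ U) → Module.Finite F2 (HS (un L)) := by
  induction n with
  | zero =>
    intro L hL _ _
    obtain rfl := List.length_eq_zero_iff.1 hL
    have : IsEmpty (un ([] : List (Set E))) := Set.isEmpty_coe_sort.2 rfl
    exact finite_of_empty _
  | succ n ih =>
    intro L hL hO hC
    rcases L with _ | ⟨U, L⟩
    · simp at hL
    have hL' : L.length = n := by simpa using hL
    have hO' : ∀ V ∈ L, IsOpen V := fun V hV => hO V (by simp [hV])
    have hC' : ∀ V ∈ L, Convex ℝ V := fun V hV => hC V (by simp [hV])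
    have hU : IsOpen U := hO U (by simp)
    have hUc : Convex ℝ U := hC U (by simp)
    refine mv_union U (un L) ?_ (finite_convex hUc) (ih L hL' hO' hC') ?_
    · rintro y (h | h)
      · exact Or.inl (hU.mem_nhds h)
      · exact Or.inr ((isOpen_un hO').mem_nhds h)
    · have e : (U ∩ un L : Set E) = un (L.map fun V => U ∩ V) := inter_un U L
      rw [e]
      refine ih _ (by simpa using hL') ?_ ?_
      · intro V hV
        obtain ⟨W, hW, rfl⟩ := List.mem_map.1 hV
        exact hU.inter (hO' W hW)
      · intro V hV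
        obtain ⟨W, hW, rfl⟩ := List.mem_map.1 hV
        exact hUc.inter (hC' W hW)

/-- between a compact and an open set there is a finite union of balls -/
theorem exists_un {K O : Set E} (hK : IsCompact K) (hO : IsOpen O) (h : K ⊆ O) :
    ∃ L : List (Set E), (∀ U ∈ L, IsOpen U) ∧ (∀ U ∈ L, Convex ℝ U) ∧ K ⊆ un L ∧ un L ⊆ O := by
  have h1 : ∀ x ∈ K, ∃ r > 0, Metric.ball x r ⊆ O := fun x hx => Metric.isOpen_iff.1 hO x (h hx)
  choose! r hr hrO using h1
  obtain ⟨t, ht, hcov⟩ := hK.elim_nhds_subcover (fun x => Metric.ball x (r x))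
    fun x hx => Metric.ball_mem_nhds x (hr x hx)
  refine ⟨t.toList.map fun x => Metric.ball x (r x), ?_, ?_, ?_, ?_⟩
  · intro U hU
    obtain ⟨x, hx, rfl⟩ := List.mem_map.1 hU
    exact Metric.isOpen_ball
  · intro U hU
    obtain ⟨x, hx, rfl⟩ := List.mem_map.1 hU
    exact convex_ball _ _
  · intro y hy
    obtain ⟨x, hx, hxy⟩ := Set.mem_iUnion₂.1 (hcov hy)
    exact mem_un.2 ⟨_, List.mem_map.2 ⟨x, Finset.mem_toList.2 hx, rfl⟩, hxy⟩
  · intro y hy
    obtain ⟨U, hU, hyU⟩ := mem_un.1 hy
    obtain ⟨x, hx, rfl⟩ := List.mem_map.1 hU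
    exact hrO x (ht x (Finset.mem_toList.1 hx)) hyU

/-- **a map into an open set with image in a compact subset has finite rank** -/
theorem finRk_compact {X : Type} [TopologicalSpace X] {K O : Set E} (hK : IsCompact K)
    (hO : IsOpen O) (h : K ⊆ O) (f : C(X, O)) (hf : ∀ x, (f x : E) ∈ K) : FinRk (Hm f) := by
  obtain ⟨L, h1, h2, h3, h4⟩ := exists_un hK hO h
  have hfin : Module.Finite F2 (HS (un L)) := finite_un _ L rfl h1 h2
  let g : C(X, un L) := ⟨fun x => ⟨(f x : E), h3 (hf x)⟩, by fun_prop⟩
  have e : f = (inc₂ h4).comp g := by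
    ext x; rfl
  rw [e, Hm_comp]
  exact (FinRk.of_finite_left (Hm (inc₂ h4)) hfin).comp_right _

/-- **finite rank of maps which factor**, up to homotopy, through such a map -/
theorem finRk_of_factor {X Y : Type} [TopologicalSpace X] [TopologicalSpace Y] {K O : Set E}
    (hK : IsCompact K) (hO : IsOpen O) (h : K ⊆ O) (f : C(X, O)) (hf : ∀ x, (f x : E) ∈ K)
    (g : C(O, Y)) (φ : C(X, Y)) (hφ : φ.Homotopic (g.comp f)) : FinRk (Hm φ) := by
  rw [Hm_homotopic hφ, Hm_comp]
  exact (finRk_compact hK hO h f hf).comp_left _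

theorem finite_of_factor {X Y : Type} [TopologicalSpace X] [TopologicalSpace Y] {K O : Set E}
    (hK : IsCompact K) (hO : IsOpen O) (h : K ⊆ O) (f : C(X, O)) (hf : ∀ x, (f x : E) ∈ K)
    (g : C(O, Y)) (φ : C(X, Y)) (hφ : φ.Homotopic (g.comp f)) (hi : Injective (Hm φ)) :
    Module.Finite F2 (HS X) :=
  (finRk_of_factor hK hO h f hf g φ hφ).finite_of_injective hi

end convex

/-! ### relative version -/

section rel

variable {A1 K1 A2 K2 A3 K3 : SS} {i1 : SS.Hom A1 K1} {i2 : SS.Hom A2 K2} {i3 : SS.Hom A3 K3}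
  {g : SS.Hom A1 A2} {f : SS.Hom K1 K2} {g' : SS.Hom A2 A3} {f' : SS.Hom K2 K3}

/-- the composite of two maps of pairs has finite rank if the first one has finite rank on the
subspaces and the second one on the total spaces -/
theorem finRk_rel (h : Sq i1 i2 g f) (h' : Sq i2 i3 g' f') (s1 : SInj i1) (s2 : SInj i2)
    (hg : FinRk (H.map F2 g)) (hf : FinRk (H.map F2 f')) :
    FinRk ((HRel.map (R := F2) h') ∘ₗ (HRel.map (R := F2) h)) := by
  -- the kernel of `HRel 1 → H A2`
  set θ : HRel F2 i1 →ₗ[F2] H F2 A2 := H.map F2 g ∘ₗ HRel.delta F2 s1 with hθ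
  have hθf : FinRk θ := hg.comp_right _
  set Φ : HRel F2 i1 →ₗ[F2] HRel F2 i3 := (HRel.map (R := F2) h') ∘ₗ (HRel.map (R := F2) h) with hΦ
  have h1 : Module.Finite F2 ((LinearMap.range (H.map F2 f')).map (HRel.pi F2 i3)) := by
    have : Module.Finite F2 (LinearMap.range (H.map F2 f')) := hf
    infer_instance
  have h2 : ∀ x, θ x = 0 → Φ x ∈ (LinearMap.range (H.map F2 f')).map (HRel.pi F2 i3) := by
    intro x hx
    have h3 : HRel.delta F2 s2 (HRel.map h x) = 0 := by
      rw [delta_map h s1 s2]
      exact hx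
    obtain ⟨y, hy⟩ := ((exact_pi_delta F2 s2) _).1 h3
    refine ⟨H.map F2 f' y, ⟨y, rfl⟩, ?_⟩
    rw [← HRel.map_pi h', hy]
    rfl
  -- `Φ` induces a map of finite dimensional spaces
  unfold FinRk
  have h4 : (LinearMap.range Φ).FG := by
    have h5 : LinearMap.range Φ = (⊤ : Submodule F2 (HRel F2 i1)).map Φ := (LinearMap.range_eq_map Φ)
    -- choose a finitely generated complement of the kernel of `θ`
    obtain ⟨q, hq⟩ := (LinearMap.ker θ).exists_isCompl
    have h6 : Module.Finite F2 q := by
      have h7 : Module.Finite F2 (LinearMap.range θ) := hθf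
      refine Module.Finite.of_injective (θ.rangeRestrict ∘ₗ q.subtype) ?_
      rw [← LinearMap.ker_eq_bot, LinearMap.ker_eq_bot']
      rintro ⟨m, hm⟩ hm0
      have h8 : θ m = 0 := congrArg Subtype.val hm0
      have h9 : m ∈ LinearMap.ker θ ⊓ q := ⟨h8, hm⟩
      rw [hq.inf_eq_bot] at h9
      exact Subtype.ext ((Submodule.mem_bot F2).1 h9)
    have h7 : LinearMap.range Φ = (LinearMap.ker θ).map Φ ⊔ q.map Φ := by
      rw [← Submodule.map_sup, hq.sup_eq_top, h5]
    rw [h7]
    refine Submodule.FG.sup ?_ (Submodule.FG.map _ ((Submodule.fg_top q).1 h6.1))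
    have h8 : (LinearMap.ker θ).map Φ ≤
        (LinearMap.range (H.map F2 f')).map (HRel.pi F2 i3) := by
      rintro _ ⟨x, hx, rfl⟩
      exact h2 x hx
    have h9 : Module.Finite F2 ((LinearMap.ker θ).map Φ) :=
      Module.Finite.of_injective (Submodule.inclusion h8) (Submodule.inclusion_injective h8)
    exact (Submodule.fg_top _).1 h9.1
  exact ⟨(Submodule.fg_top _).2 h4⟩

end rel

end Crest.Agent.R231.FinDim315
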