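import Mathlib
import Crest.Agent.R231.FinDim_315
import Crest.Agent.R204.Sph_94d
import Crest.Agent.R204.CopH_847

/-!
# Row 231, block P, leaf Q7, part H (helper543): spaces with the mod 2 homology of a sphere

* `ptc z` : class of a point; `ptc_eq`, `gr_zero_of_pc` (path connected spaces)
* `HSph S m` : `S` has the mod 2 homology of `S^m`, `m ≠ 0` (base point `z0`, fundamental class `fs`)
* `HSph.tr` : transport along a homotopy equivalence;  `hSph_sphere` : the unit spheres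
* `Bd m ⊆ Sp (m+1)` : the band `-1/2 < x 0 < 1/2`; `rB, iB, rB_iB, iB_rB` : it is homotopy equivalent
  to `Sp m`;  `hSph_band` : `HSph (Bd (m+1)) (m+1)`
-/

set_option autoImplicit false

open Topology Set unitInterval

noncomputable section

namespace Crest.Agent.R231.SphQx543

open Crest.Agent.R204 Crest.Agent.R204.SpecA Crest.Agent.R204.EZ847 Crest.Agent.R204.Coalg847
open TensorProduct

/-- the class of a point -/
def ptc {S : Type} [TopologicalSpace S] (z : S) : H F2 (SS.Sing S) := Coalg847.vtx (HZ76.vtx z)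

/-- a space with the mod 2 homology of the sphere `S^m`, `m ≥ 1` -/
structure HSph (S : Type) [TopologicalSpace S] (m : ℕ) where
  /-- base point -/
  z0 : S
  /-- the fundamental class -/
  fs : H F2 (SS.Sing S)
  m_ne : m ≠ 0
  fs_mem : fs ∈ H.gr F2 (SS.Sing S) m
  fs_ne : fs ≠ 0
  gr_zero : ∀ x ∈ H.gr F2 (SS.Sing S) 0, ∃ r : F2, x = r • ptc z0
  gr_m : ∀ x ∈ H.gr F2 (SS.Sing S) m, ∃ r : F2, x = r • fs
  gr_other : ∀ k, k ≠ 0 → k ≠ m → H.gr F2 (SS.Sing S) k = ⊥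

section functor

variable {S T : Type} [TopologicalSpace S] [TopologicalSpace T]

theorem Hm_ptc (f : C(S, T)) (z : S) : Hm f (ptc z) = ptc (f z) := by
  unfold ptc
  rw [show Hm f = H.map F2 (SS.SingMap f) from rfl, hMap_vtx]
  rfl

theorem Hm_mem_gr (f : C(S, T)) {k : ℕ} {x : H F2 (SS.Sing S)} (hx : x ∈ H.gr F2 (SS.Sing S) k) :
    Hm f x ∈ H.gr F2 (SS.Sing T) k := hMap_mem_gr _ hx

theorem ptc_mem_gr (z : S) : ptc z ∈ H.gr F2 (SS.Sing S) 0 := vtx_mem_gr _

/-- transport along a homotopy equivalence -/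
def HSph.tr {m : ℕ} (h : HSph S m) (i : C(S, T)) (r : C(T, S))
    (h1 : (r.comp i).Homotopic (ContinuousMap.id S)) (h2 : (i.comp r).Homotopic (ContinuousMap.id T)) :
    HSph T m where
  z0 := i h.z0
  fs := Hm i h.fs
  m_ne := h.m_ne
  fs_mem := Hm_mem_gr i h.fs_mem
  fs_ne := fun h0 => h.fs_ne ((FinDim315.Hm_bijective_of_inv h1 h2).1 (h0.trans (map_zero _).symm))
  gr_zero := fun x hx => by
    obtain ⟨r', hr'⟩ := h.gr_zero _ (Hm_mem_gr r hx)
    refine ⟨r', ?_⟩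
    have e : Hm i (Hm r x) = x := by
      rw [← FinDim315.Hm_comp_apply, FinDim315.Hm_homotopic h2, FinDim315.Hm_id]
    rw [← e, hr', map_smul, Hm_ptc]
  gr_m := fun x hx => by
    obtain ⟨r', hr'⟩ := h.gr_m _ (Hm_mem_gr r hx)
    refine ⟨r', ?_⟩
    have e : Hm i (Hm r x) = x := by
      rw [← FinDim315.Hm_comp_apply, FinDim315.Hm_homotopic h2, FinDim315.Hm_id]
    rw [← e, hr', map_smul]
  gr_other := fun k hk hk' => by
    rw [eq_bot_iff]
    intro x hx
    have e : Hm i (Hm r x) = x := by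
      rw [← FinDim315.Hm_comp_apply, FinDim315.Hm_homotopic h2, FinDim315.Hm_id]
    have h3 := Hm_mem_gr r hx
    rw [h.gr_other k hk hk', Submodule.mem_bot] at h3
    rw [Submodule.mem_bot, ← e, h3, map_zero]

end functor

theorem add_self_F2 {M : Type*} [AddCommGroup M] [Module F2 M] (x : M) : x + x = 0 := by
  have h : (2 : F2) • x = 0 := by
    have : (2 : F2) = 0 := by decide
    rw [this, zero_smul]
  rwa [two_smul] at h

theorem bd_sx_F2 {K : SS} {n : ℕ} (x : K.S (n + 1)) :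
    N.bd F2 K (N.sx F2 x) = ∑ i : Fin (n + 2), N.sx F2 (K.act (Op.face i) x) := by
  rw [EZ271.bd_sx_succ]
  refine Finset.sum_congr rfl fun i _ => ?_
  have : (-1 : F2) = 1 := by decide
  rw [this, one_pow, one_smul]

theorem pc_sphere (n : ℕ) : PathConnectedSpace (Sph (n + 1)) := by
  refine isPathConnected_iff_pathConnectedSpace.1 (isPathConnected_sphere ?_ _ zero_le_one)
  rw [← Module.finrank_eq_rank, finrank_euclideanSpace_fin]
  exact_mod_cast (by omega : 1 < n + 1 + 1)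

/-- the class of a point generates `H_0` of a path connected space -/
theorem gr_zero_of_pc {Y : Type} [TopologicalSpace Y] [PathConnectedSpace Y] (y : Y)
    {x : H F2 (SS.Sing Y)} (hx : x ∈ H.gr F2 (SS.Sing Y) 0) : x = eps _ x • ptc y := by
  have h1 : x - eps _ x • ptc y = 0 := by
    refine HZ76.hZero Y _ (Submodule.sub_mem _ hx (Submodule.smul_mem _ _ (ptc_mem_gr y))) ?_
    rw [map_toPt, map_sub, map_smul]
    have : eps (SS.Sing Y) (ptc y) = 1 := eps_vtx _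
    rw [this, smul_eq_mul, mul_one, sub_self, zero_smul]
  exact sub_eq_zero.1 h1

theorem ptc_eq {Y : Type} [TopologicalSpace Y] [PathConnectedSpace Y] (y z : Y) :
    ptc y = ptc z := by
  have h := gr_zero_of_pc z (ptc_mem_gr y)
  have : eps (SS.Sing Y) (ptc y) = 1 := eps_vtx _
  rwa [this, one_smul] at h

/-- the standard sphere -/
theorem hSph_sphere (n : ℕ) (y : Sph (n + 1)) : ∃ h : HSph (Sph (n + 1)) (n + 1), h.z0 = y := by
  obtain ⟨x, hx, hf, hk⟩ := Sph94.spheres n y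
  have hz : N.bd F2 (SS.Sing (Sph (n + 1))) (N.sx F2 x) = 0 := by
    rw [bd_sx_F2, Finset.sum_congr rfl fun i _ => by rw [hx i]]
    rcases n with _ | n
    · rw [Fin.sum_univ_two, add_self_F2]
    · refine Finset.sum_eq_zero fun i _ => ?_
      exact N.sx_dgn (K := SS.Sing (Sph (n + 1 + 1))) (R := F2) 0 (SpecA.cst y n)
  obtain ⟨h1, h2⟩ := hf hz
  have := pc_sphere n
  refine ⟨{ z0 := y, fs := Hd.mk (N.bd F2 _) (N.sx F2 x) hz, m_ne := Nat.succ_ne_zero n,
            fs_mem := ?_, fs_ne := h1, gr_zero := fun a ha => ⟨_, gr_zero_of_pc y ha⟩,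
            gr_m := fun a ha => ?_, gr_other := hk }, rfl⟩
  · rw [h2]; exact Submodule.mem_span_singleton_self _
  · rw [h2] at ha
    obtain ⟨r, hr⟩ := Submodule.mem_span_singleton.1 ha
    exact ⟨r, hr.symm⟩


/-! ## the band -/

/-- Euclidean space -/
abbrev Eu (d : ℕ) : Type := EuclideanSpace ℝ (Fin d)

/-- unit spheres (reducibly equal to `SpecA.Sph` and to 724's `Sph`) -/
abbrev Sp (d : ℕ) : Type := Metric.sphere (0 : Eu (d + 1)) 1

variable {m : ℕ}

/-- the last coordinates -/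
def tl (x : Eu (m + 1)) : Eu m := WithLp.toLp 2 fun i => x i.succ

/-- add a first coordinate -/
def cn (a : ℝ) (y : Eu m) : Eu (m + 1) := WithLp.toLp 2 (Fin.cons a y)

@[simp] theorem tl_apply (x : Eu (m + 1)) (i : Fin m) : tl x i = x i.succ := rfl

@[simp] theorem cn_zero (a : ℝ) (y : Eu m) : cn a y 0 = a := rfl

@[simp] theorem cn_succ (a : ℝ) (y : Eu m) (i : Fin m) : cn a y i.succ = y i := rfl

@[simp] theorem tl_cn (a : ℝ) (y : Eu m) : tl (cn a y) = y := by ext i; simp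

@[simp] theorem cn_tl (x : Eu (m + 1)) : cn (x 0) (tl x) = x := by
  ext i
  refine Fin.cases ?_ (fun j => ?_) i <;> simp

theorem sq_norm_split (x : Eu (m + 1)) : ‖x‖ ^ 2 = (x 0) ^ 2 + ‖tl x‖ ^ 2 := by
  rw [EuclideanSpace.real_norm_sq_eq, EuclideanSpace.real_norm_sq_eq, Fin.sum_univ_succ]
  simp

theorem continuous_tl : Continuous (tl : Eu (m + 1) → Eu m) := by
  unfold tl
  fun_prop

theorem continuous_cn : Continuous fun q : ℝ × Eu m => cn q.1 q.2 := by
  refine (PiLp.continuous_toLp 2 _).comp ?_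
  rw [continuous_pi_iff]
  intro i
  refine Fin.cases ?_ (fun j => ?_) i
  · simpa using continuous_fst
  · simp only [Fin.cons_succ]
    fun_prop


/-! ### normalisation -/

theorem norm_nz {d : ℕ} {x : Eu d} (hx : x ≠ 0) : ‖(‖x‖⁻¹ • x : Eu d)‖ = 1 := by
  rw [norm_smul, norm_inv, norm_norm, inv_mul_cancel₀ (norm_ne_zero_iff.2 hx)]

theorem continuous_nz {d : ℕ} {X : Type*} [TopologicalSpace X] {f : X → Eu d} (hf : Continuous f)
    (h : ∀ x, f x ≠ 0) : Continuous fun x => (‖f x‖⁻¹ • f x : Eu d) :=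
  (hf.norm.inv₀ fun x => norm_ne_zero_iff.2 (h x)).smul hf

/-! ### the band -/

/-- the band around the equator -/
def Bd (m : ℕ) : Set (Sp (m + 1)) := {x | -(1 / 2) < x.1 0 ∧ x.1 0 < 1 / 2}

theorem sq_band {x : Sp (m + 1)} (hx : x ∈ Bd m) : (x.1 0) ^ 2 < 1 / 4 := by
  have h1 := hx.1
  have h2 := hx.2
  nlinarith

theorem sq_add (x : Sp (m + 1)) : (x.1 0) ^ 2 + ‖tl x.1‖ ^ 2 = 1 := by
  rw [← sq_norm_split, norm_eq_of_mem_sphere x, one_pow]

theorem tl_ne {x : Sp (m + 1)} (hx : x ∈ Bd m) : tl x.1 ≠ 0 := by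
  intro h
  have h1 := sq_add x
  have h2 := sq_band hx
  rw [h, norm_zero] at h1
  nlinarith

theorem cn_ne {x : Sp (m + 1)} (hx : x ∈ Bd m) (t : ℝ) : cn (t * x.1 0) (tl x.1) ≠ 0 := by
  intro h
  have h1 : tl (cn (t * x.1 0) (tl x.1)) = tl (0 : Eu (m + 2)) := congrArg tl h
  rw [tl_cn] at h1
  refine tl_ne hx (h1.trans ?_)
  ext i; rfl

theorem sq_norm_cn (a : ℝ) (y : Eu m) : ‖cn a y‖ ^ 2 = a ^ 2 + ‖y‖ ^ 2 := by
  rw [sq_norm_split]; simp


/-- normalisation -/
def nz {d : ℕ} (x : Eu (d + 1)) (hx : x ≠ 0) : Sp d :=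
  ⟨‖x‖⁻¹ • x, mem_sphere_zero_iff_norm.2 (norm_nz hx)⟩

theorem nz_of_norm {d : ℕ} {x : Eu (d + 1)} (hx : x ≠ 0) (h : ‖x‖ = 1) : (nz x hx).1 = x := by
  show ‖x‖⁻¹ • x = x
  rw [h, inv_one, one_smul]

/-- retraction of the band to the equator -/
def rB : C(Bd m, Sp m) where
  toFun x := nz (tl x.1.1) (tl_ne x.2)
  continuous_toFun := Continuous.subtype_mk
    (continuous_nz (continuous_tl.comp (continuous_subtype_val.comp continuous_subtype_val))
      fun x => tl_ne x.2) _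

theorem norm_cn_zero (y : Eu m) : ‖cn 0 y‖ = ‖y‖ := by
  have h := sq_norm_cn 0 y
  have h1 := norm_nonneg (cn 0 y)
  have h2 := norm_nonneg y
  have h3 : ‖cn 0 y‖ ^ 2 = ‖y‖ ^ 2 := by rw [h]; ring
  exact (sq_eq_sq₀ h1 h2).1 h3

/-- the equator in the sphere -/
def eq0 (y : Sp m) : Sp (m + 1) :=
  ⟨cn 0 y.1, mem_sphere_zero_iff_norm.2 ((norm_cn_zero y.1).trans (norm_eq_of_mem_sphere y))⟩

theorem eq0_mem (y : Sp m) : eq0 y ∈ Bd m := by
  constructor
  · show -(1 / 2) < (cn 0 y.1) 0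
    rw [cn_zero]; norm_num
  · show (cn 0 y.1) 0 < 1 / 2
    rw [cn_zero]; norm_num

theorem continuous_eq0 : Continuous (eq0 : Sp m → Sp (m + 1)) :=
  Continuous.subtype_mk (continuous_cn.comp (continuous_const.prodMk continuous_subtype_val)) _

/-- inclusion of the equator -/
def iB : C(Sp m, Bd m) where
  toFun y := ⟨eq0 y, eq0_mem y⟩
  continuous_toFun := Continuous.subtype_mk continuous_eq0 _

theorem rB_iB : (rB (m := m)).comp iB = ContinuousMap.id _ := by
  refine ContinuousMap.ext fun y => ?_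
  apply Subtype.ext
  show ‖tl (cn 0 y.1)‖⁻¹ • tl (cn 0 y.1) = y.1
  rw [tl_cn, norm_eq_of_mem_sphere y, inv_one, one_smul]

/-- the homotopy as a map -/
def hB0 (t : ℝ) (x : Bd m) : Sp (m + 1) := nz (cn (t * x.1.1 0) (tl x.1.1)) (cn_ne x.2 t)

theorem hB0_mem {t : ℝ} (ht0 : 0 ≤ t) (ht1 : t ≤ 1) (x : Bd m) : hB0 t x ∈ Bd m := by
  have hx := sq_band x.2
  have hs := sq_add x.1
  have key : ∀ (a ν : ℝ), a ^ 2 < 1 / 4 → 0 < ν → ν ^ 2 = (t * a) ^ 2 + (1 - a ^ 2) →
      -(1 / 2) < ν⁻¹ * (t * a) ∧ ν⁻¹ * (t * a) < 1 / 2 := by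
    intro a ν ha hν h
    have ht2 : (t * a) ^ 2 ≤ a ^ 2 := by
      have : t ^ 2 ≤ 1 := by nlinarith
      rw [mul_pow]; nlinarith [sq_nonneg a]
    have h4 : (2 * (t * a)) ^ 2 < ν ^ 2 := by nlinarith
    have h5 := abs_lt_of_sq_lt_sq h4 hν.le
    rw [abs_lt] at h5
    constructor
    · rw [lt_inv_mul_iff₀ hν]; linarith [h5.1]
    · rw [inv_mul_lt_iff₀ hν]; linarith [h5.2]
  have e : (hB0 t x).1 0 = ‖cn (t * x.1.1 0) (tl x.1.1)‖⁻¹ * (t * x.1.1 0) := by
    show (‖cn (t * x.1.1 0) (tl x.1.1)‖⁻¹ • cn (t * x.1.1 0) (tl x.1.1) : Eu (m + 2)) 0 = _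
    simp
  have k := key (x.1.1 0) ‖cn (t * x.1.1 0) (tl x.1.1)‖ hx (norm_pos_iff.2 (cn_ne x.2 t))
    (by rw [sq_norm_cn]; linarith)
  rw [← e] at k
  exact k

theorem continuous_coord0 : Continuous fun x : Eu (m + 1) => x 0 := by fun_prop

theorem continuous_pre : Continuous fun q : unitInterval × Bd m =>
    cn ((q.1 : ℝ) * q.2.1.1 0) (tl q.2.1.1) := by
  have h1 : Continuous fun q : unitInterval × Bd m => q.2.1.1 :=
    continuous_subtype_val.comp (continuous_subtype_val.comp continuous_snd)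
  have h2 : Continuous fun q : unitInterval × Bd m => q.2.1.1 0 := continuous_coord0.comp h1
  have h3 : Continuous fun q : unitInterval × Bd m => (q.1 : ℝ) * q.2.1.1 0 :=
    (continuous_subtype_val.comp continuous_fst).mul h2
  exact continuous_cn.comp (h3.prodMk (continuous_tl.comp h1))

theorem continuous_hB0 : Continuous fun q : unitInterval × Bd m => hB0 (q.1 : ℝ) q.2 := by
  rw [continuous_induced_rng]
  exact continuous_nz continuous_pre fun q => cn_ne q.2.2 q.1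

/-- the homotopy -/
def hB : C(unitInterval × Bd m, Bd m) where
  toFun q := ⟨hB0 (q.1 : ℝ) q.2, hB0_mem q.1.2.1 q.1.2.2 q.2⟩
  continuous_toFun := Continuous.subtype_mk continuous_hB0 _

theorem iB_rB : ((iB (m := m)).comp rB).Homotopic (ContinuousMap.id _) := by
  refine ⟨⟨hB, fun x => ?_, fun x => ?_⟩⟩
  · apply Subtype.ext; apply Subtype.ext
    show ‖cn ((0 : ℝ) * x.1.1 0) (tl x.1.1)‖⁻¹ •
      cn ((0 : ℝ) * x.1.1 0) (tl x.1.1) = cn 0 (‖tl x.1.1‖⁻¹ • tl x.1.1)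
    rw [zero_mul, norm_cn_zero]
    ext i
    refine Fin.cases ?_ (fun j => ?_) i <;> simp
  · apply Subtype.ext; apply Subtype.ext
    show ‖cn ((1 : ℝ) * x.1.1 0) (tl x.1.1)‖⁻¹ •
      cn ((1 : ℝ) * x.1.1 0) (tl x.1.1) = x.1.1
    rw [one_mul, cn_tl, norm_eq_of_mem_sphere x.1, inv_one, one_smul]


/-- the band has the homology of the sphere; any point of the equator can be the base point -/
theorem hSph_band (m : ℕ) (y : Sp (m + 1)) : ∃ h : HSph (Bd (m + 1)) (m + 1), h.z0 = iB y := by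
  obtain ⟨h, hh⟩ := hSph_sphere m y
  refine ⟨h.tr iB rB ?_ iB_rB, congrArg iB hh⟩
  rw [rB_iB]

end Crest.Agent.R231.SphQx543
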