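import Mathlib
import Crest.Agent.R231.SphH_543
import Crest.Agent.R231.CX_780
import Crest.Agent.R231.CXb_780

/-!
# Row 231, block P, leaf Q7 (helper780): bridge `HSph` (543) -> `SphLike` (780)

* `toSph : HSph S m → SphLike S m` (`s₀ = z0`, `σ = fs`), `ph` = the dual class of `fs`
* `diag_σ`, `diag_fs` : `(v, w)_* fs = v_* fs × pt + pt × w_* fs`
* `kun_unique`, `kun_deg`, `kun_chain` : Künneth for `X × S` (existence with degrees, uniqueness, chains)
-/

set_option autoImplicit false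

open Topology Set

noncomputable section

namespace Crest.Agent.R231.SphBrx780

open Crest.Agent.R204 Crest.Agent.R204.SpecA FinDim315 CXx780
open SphQx543 (HSph)

variable {S T X Y Z : Type} [TopologicalSpace S] [TopologicalSpace T] [TopologicalSpace X]
  [TopologicalSpace Y] [TopologicalSpace Z] {m : ℕ}

theorem ptc543 (z : S) : SphQx543.ptc z = ptc z := rfl

theorem ep_smul_ptc (r : F2) (z : S) : ep (r • ptc z) = r := by
  rw [map_smul, ep_ptc, smul_eq_mul, mul_one]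

/-! ## `HSph` -> `SphLike` -/

section br

variable (h : HSph S m)

theorem ep_fs : ep h.fs = 0 := ep_eq_zero h.m_ne h.fs_mem

theorem li : LinearIndependent F2 ![ptc h.z0, h.fs] := by
  rw [LinearIndependent.pair_iff]
  intro s t hst
  have h1 := congrArg ep hst
  rw [map_add, ep_smul_ptc, map_smul, ep_fs, smul_zero, add_zero, map_zero] at h1
  rw [h1, zero_smul, zero_add] at hst
  refine ⟨h1, ?_⟩
  rcases smul_eq_zero.1 hst with h2 | h2
  · exact h2
  · exact absurd h2 h.fs_ne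

theorem gr_all {n : ℕ} {a : HS S} (ha : a ∈ hg S n) :
    ∃ r s : F2, a = r • ptc h.z0 + s • h.fs ∧ (n ≠ m → s = 0) := by
  by_cases h0 : n = 0
  · subst h0
    obtain ⟨r, hr⟩ := h.gr_zero a ha
    exact ⟨r, 0, by rw [zero_smul, add_zero]; exact hr, fun _ => rfl⟩
  · by_cases h1 : n = m
    · subst h1
      obtain ⟨r, hr⟩ := h.gr_m a ha
      exact ⟨0, r, by rw [zero_smul, zero_add]; exact hr, fun h2 => absurd rfl h2⟩
    · have h2 : a ∈ (⊥ : Submodule F2 _) := by rw [← h.gr_other n h0 h1]; exact ha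
      rw [Submodule.mem_bot] at h2
      exact ⟨0, 0, by rw [h2]; simp, fun _ => rfl⟩

theorem all (a : HS S) : ∃ r s : F2, a = r • ptc h.z0 + s • h.fs := by
  refine hg_induction (p := fun a => ∃ r s : F2, a = r • ptc h.z0 + s • h.fs) a ?_ ?_
  · rintro a b ⟨r, s, rfl⟩ ⟨r', s', rfl⟩
    exact ⟨r + r', s + s', by rw [add_smul, add_smul]; abel⟩
  · intro n a ha
    obtain ⟨r, s, hrs, -⟩ := gr_all h ha
    exact ⟨r, s, hrs⟩

theorem sp : ⊤ ≤ Submodule.span F2 (Set.range ![ptc h.z0, h.fs]) := by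
  intro a _
  obtain ⟨r, s, rfl⟩ := all h a
  refine Submodule.add_mem _ (Submodule.smul_mem _ _ (Submodule.subset_span ⟨0, rfl⟩))
    (Submodule.smul_mem _ _ (Submodule.subset_span ⟨1, rfl⟩))

/-- the basis `pt, fs` -/
def bs : Module.Basis (Fin 2) F2 (HS S) := Module.Basis.mk (li h) (sp h)

theorem bs_zero : bs h 0 = ptc h.z0 := Module.Basis.mk_apply (li h) (sp h) 0
theorem bs_one : bs h 1 = h.fs := Module.Basis.mk_apply (li h) (sp h) 1

/-- the dual class of `fs` -/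
def ph : HS S →ₗ[F2] F2 := (bs h).coord 1

theorem ph_pt : ph h (ptc h.z0) = 0 := by
  rw [← bs_zero h, ph, Module.Basis.coord_apply, Module.Basis.repr_self, Finsupp.single_eq_of_ne (by decide)]

theorem ph_fs : ph h h.fs = 1 := by
  nth_rw 1 [← bs_one h]
  rw [ph, Module.Basis.coord_apply, Module.Basis.repr_self, Finsupp.single_eq_same]

/-- `HSph` gives `SphLike` with `s₀ = z0`, `σ = fs` -/
def toSph : SphLike S m where
  s₀ := h.z0
  σ := h.fs
  φ := ph h
  σ_mem := h.fs_mem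
  pos := Nat.pos_of_ne_zero h.m_ne
  φ_deg := fun n hn b hb => by
    obtain ⟨r, s, rfl, hs⟩ := gr_all h hb
    rw [hs hn, zero_smul, add_zero, map_smul, ph_pt, smul_zero]
  φ_σ := ph_fs h
  decomp := fun a => by
    obtain ⟨r, s, rfl⟩ := all h a
    rw [map_add, map_add, map_smul, map_smul, map_smul, map_smul, ep_ptc, ep_fs, ph_pt, ph_fs]
    simp

@[simp] theorem toSph_s₀ : (toSph h).s₀ = h.z0 := rfl
@[simp] theorem toSph_σ : (toSph h).σ = h.fs := rfl

end br

/-! ## the diagonal -/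

section diag

variable (D : SphLike S m)

theorem F2_eq_one {r : F2} (h : r ≠ 0) : r = 1 := by revert h r; decide

/-- the class `fs` is primitive -/
theorem diag_σ (v : C(S, X)) (w : C(S, Y)) (s t : S) :
    Hm (v.prodMk w) D.σ = cx (Hm v D.σ) (ptc (w s)) + cx (ptc (v t)) (Hm w D.σ) := by
  have key : Hm ((ContinuousMap.id S).prodMk (ContinuousMap.id S)) D.σ
      = cx D.σ (ptc s) + cx (ptc t) D.σ := by
    set z := Hm ((ContinuousMap.id S).prodMk (ContinuousMap.id S)) D.σ with hz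
    have h1 := D.cx_decomp z
    have e1 : Hm (fstC S S) z = D.σ := by
      rw [hz, ← Hm_comp_apply]
      exact Hm_id _
    have e2 : Hm (sndC S S) z = D.σ := by
      rw [hz, ← Hm_comp_apply]
      exact Hm_id _
    have h2 : sl D.φ z ∈ hg S 0 := by
      refine sl_mem D.φ_deg (n := 0) ?_
      rw [zero_add]
      exact Hm_mem_hg _ D.σ_mem
    have h3 : sl D.φ z = ep (sl D.φ z) • ptc t := by
      conv_lhs => rw [D.decomp (sl D.φ z)]
      rw [D.φ_deg 0 (by have := D.pos; omega) _ h2, zero_smul, add_zero, D.ptc_eq D.s₀ t]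
    have h4 := congrArg (Hm (sndC S S)) h1
    rw [e2, map_add, Hm_snd_cx, Hm_snd_cx, e1, D.ep_σ, zero_smul, zero_add] at h4
    have h5 : ep (sl D.φ z) = 1 := by
      have h6 := congrArg D.φ h4
      rw [map_smul, D.φ_σ, smul_eq_mul, mul_one] at h6
      exact h6.symm
    rw [e1, h3, h5, one_smul, D.ptc_eq D.s₀ s] at h1
    exact h1
  have e : v.prodMk w = (v.prodMap w).comp ((ContinuousMap.id S).prodMk (ContinuousMap.id S)) := rfl
  rw [e, Hm_comp_apply, key, map_add, Hm_cx, Hm_cx, Hm_ptc, Hm_ptc]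

end diag

/-! ## Künneth for homogeneous classes and for chains -/

section kunneth

variable (D : SphLike S m)

/-- uniqueness of the Künneth decomposition -/
theorem kun_unique {a b a' b' : HS X} {s s' : S}
    (h : cx a (ptc s) + cx b D.σ = cx a' (ptc s') + cx b' D.σ) : a = a' ∧ b = b' := by
  constructor
  · have := congrArg (Hm (fstC X S)) h
    rwa [map_add, map_add, Hm_fst_cx, Hm_fst_cx, Hm_fst_cx, Hm_fst_cx, D.ep_σ, ep_ptc, ep_ptc,
      one_smul, one_smul, zero_smul, zero_smul, add_zero, add_zero] at this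
  · have := congrArg (sl D.φ) h
    rwa [map_add, map_add, sl_cx, sl_cx, sl_cx, sl_cx, D.φ_ptc, D.φ_ptc, D.φ_σ, one_smul, one_smul,
      zero_smul, zero_smul, zero_add, zero_add] at this

/-- existence, with degrees -/
theorem kun_deg {n : ℕ} {z : HS (X × S)} (hz : z ∈ hg (X × S) n) (s : S) :
    ∃ a ∈ hg X n, ∃ b : HS X, (∀ k, k + m = n → b ∈ hg X k) ∧ (n < m → b = 0) ∧
      z = cx a (ptc s) + cx b D.σ := by
  refine ⟨Hm (fstC X S) z, Hm_mem_hg _ hz, sl D.φ z, ?_, fun h => sl_eq_zero D.φ_deg h hz, ?_⟩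
  · rintro k rfl
    exact sl_mem D.φ_deg hz
  · have := D.cx_decomp z
    rwa [D.ptc_eq D.s₀ s] at this

open SingAct265 CrossCSx780 Pairx877

theorem mk_add {M : Type} [AddCommGroup M] [Module F2 M] {d : M →ₗ[F2] M} {z z' : M} (hz : d z = 0)
    (hz' : d z' = 0) : Hd.mk d z hz + Hd.mk d z' hz' =
      Hd.mk d (z + z') (by rw [map_add, hz, hz', add_zero]) := rfl

/-- **chain form of the Künneth decomposition** of a cycle of `X × S` (`f` a cycle representing `σ`) -/
theorem kun_chain {f : CE S} (hf : bdE S f = 0) (hσ : Hd.mk _ f hf = D.σ) {n : ℕ} {c : CE (X × S)}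
    (hc : c ∈ N.gr F2 (SS.Sing (X × S)) n) (hc0 : bdE (X × S) c = 0) (s : S) :
    ∃ a ∈ N.gr F2 (SS.Sing X) n, ∃ b : CE X, bdE X a = 0 ∧ bdE X b = 0 ∧
      (∀ k, k + m = n → b ∈ N.gr F2 (SS.Sing X) k) ∧ (n < m → b = 0) ∧
      ∃ e : CE (X × S), c = crE a (vE s) + crE b f + bdE (X × S) e := by
  have hz : Hd.mk (N.bd F2 (SS.Sing (X × S))) c hc0 ∈ hg (X × S) n := Gr334.mk_mem_gr hc _
  obtain ⟨a, ha, b, hb, hb0, h⟩ := kun_deg D hz s
  obtain ⟨a', ha', ha0, rfl⟩ := Gr334.mem_H_gr.1 ha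
  obtain ⟨b', hb', hbb0, hbb1, hbd⟩ : ∃ b' : CE X, ∃ hb' : bdE X b' = 0, Hd.mk _ b' hb' = b ∧
      (∀ k, k + m = n → b' ∈ N.gr F2 (SS.Sing X) k) ∧ (n < m → b' = 0) := by
    by_cases h1 : n < m
    · exact ⟨0, map_zero _, by rw [hb0 h1]; rfl, fun k hk => Submodule.zero_mem _, fun _ => rfl⟩
    · obtain ⟨b', hb1, hb2, hb3⟩ := Gr334.mem_H_gr.1 (hb (n - m) (by omega))
      refine ⟨b', hb2, hb3.symm, fun k hk => ?_, fun h2 => absurd h2 h1⟩
      obtain rfl : n - m = k := by omega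
      exact hb1
  have e1 : ptc s = Hd.mk (N.bd F2 (SS.Sing S)) (vE s) (bd_vE s) := rfl
  rw [← hbb0, ← hσ, e1, cx_crE _ ha0, cx_crE _ hb' _ hf] at h
  have h2 := h.trans (mk_add (crE_cyc ha0 (bd_vE s)) (crE_cyc hb' hf))
  obtain ⟨e, he⟩ := Hd.mk_eq_mk.1 h2
  refine ⟨a', ha', b', ha0, hb', hbb1, hbd, e, ?_⟩
  rw [show bdE (X × S) e = _ from he]
  abel

end kunneth

/-- `diag_σ` for `HSph` -/
theorem diag_fs (h : HSph S m) (v : C(S, X)) (w : C(S, Y)) (s t : S) :
    Hm (v.prodMk w) h.fs = cx (Hm v h.fs) (ptc (w s)) + cx (ptc (v t)) (Hm w h.fs) :=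
  diag_σ (toSph h) v w s t

end Crest.Agent.R231.SphBrx780
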