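import Crest.Agent.R231.LaSp_826
import Crest.Agent.R231.CX_780
import Crest.Agent.R231.SphBr_780
import Crest.Agent.R231.OmTet_725

/-!
# Row 231 (S0357), block P, leaf Q6: the coarse Wang sequence of the free loops (helper826)

`FD p m` : two tethers `B` (on `V`), `C` (on `U`, constant at `p`), `U ∪ V = M`, `H(U ∩ V)` as a sphere
of dimension `m`.  For `0 ≤ t`, `t + 2 L ≤ u`:

* `F.jr : HS (La M t) → HS (OmT p u)` (`= j_!`, degree `-(m+1)`), `jr_inc`, `jr_mem`, `jr_low`;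
* `F.w1` : `j_! z = 0 → z = j_* y` (bounded loss), with degrees;
* `F.w2` : `j_* y = 0` (in the limit) `→ y = Ψ_*(E × σ)`; `F.w2'` : `= x E + E x`.
-/

set_option autoImplicit false

noncomputable section

open Set Topology NNReal
open Crest.Agent.R204 Crest.Agent.R204.SpecA Crest.Agent.R231.Moorex725
open Crest.Agent.R231.CutMx725 Crest.Agent.R231.FinDim315 Crest.Agent.R231.LaDefx733
open Crest.Agent.R231.OmSpx725 Crest.Agent.R231.MVnx637 Crest.Agent.R231.LaSpx826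
open Crest.Agent.R231.CXx780

namespace Crest.Agent.R231.CWx826

variable {M : Type} [PseudoMetricSpace M] {p : M}

/-- data for the free loops -/
structure FD (p : M) (m : ℕ) where
  B : Tether p
  C : Tether p
  cover : C.V ∪ B.V = univ
  hp : p ∈ C.V
  hT : C.T p = fun _ => p
  D : SphLike ↥(C.V ∩ B.V) m

namespace FD

variable {m : ℕ} (F : FD p m)

/-- the open cover -/
theorem cov (t : ℝ) : Cov (LaS F.C.V t) (LaS F.B.V t) :=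
  cov_LaS F.C.isOpen F.B.isOpen F.cover t

/-- `U ∩ V` part of the free loops -/
abbrev R (t : ℝ) : Set (La M t) := LaS F.C.V t ∩ LaS F.B.V t

theorem R_B (t : ℝ) : F.R t ⊆ LaS F.B.V t := inter_subset_right
theorem R_C (t : ℝ) : F.R t ⊆ LaS F.C.V t := inter_subset_left
theorem R_S (t : ℝ) : F.R t ⊆ LaS (F.C.V ∩ F.B.V) t := fun _ h => h
theorem S_R (t : ℝ) : LaS (F.C.V ∩ F.B.V) t ⊆ F.R t := fun _ h => h
theorem mR {s t : ℝ} (h : s ≤ t) : MapsTo (incL h) (F.R s) (F.R t) := fun _ h => h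

/-- the trivialisation over `U ∩ V` -/
abbrev kap {t : ℝ} {u : ℝ≥0} (ht : 0 ≤ t) (hu : t + 2 * F.B.L ≤ u) :
    C(F.R t, OmT p u × ↥(F.C.V ∩ F.B.V)) := ka F.B ht hu (F.R_B t) (F.R_S t)

/-- `j_!` -/
def jr {t : ℝ} {u : ℝ≥0} (ht : 0 ≤ t) (hu : t + 2 * F.B.L ≤ u) : HS (La M t) →ₗ[F2] HS (OmT p u) :=
  sl F.D.φ ∘ₗ Hm (F.kap ht hu) ∘ₗ dMV (F.cov t)

theorem jr_apply {t : ℝ} {u : ℝ≥0} (ht : 0 ≤ t) (hu : t + 2 * F.B.L ≤ u) (z : HS (La M t)) :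
    F.jr ht hu z = sl F.D.φ (Hm (F.kap ht hu) (dMV (F.cov t) z)) := rfl

/-- a class over `U ∩ V` which dies over `V` is `E × σ` in the trivialisation -/
theorem kap_eq {t : ℝ} {u : ℝ≥0} (ht : 0 ≤ t) (hu : t + 2 * F.B.L ≤ u) {w : HS (F.R t)}
    (hw : iV (LaS F.C.V t) (LaS F.B.V t) w = 0) :
    Hm (F.kap ht hu) w = cx (sl F.D.φ (Hm (F.kap ht hu) w)) F.D.σ := by
  refine F.D.eq_cx_of_fst ?_
  have e : (fstC (OmT p u) ↥(F.C.V ∩ F.B.V)).comp (F.kap ht hu) =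
      (cj F.B ht hu (le_refl (LaS F.B.V t))).comp (cV (LaS F.C.V t) (LaS F.B.V t)) := rfl
  rw [← Hm_comp_apply, e, Hm_comp_apply, hw, map_zero]

theorem kap_jr {t : ℝ} {u : ℝ≥0} (ht : 0 ≤ t) (hu : t + 2 * F.B.L ≤ u) (z : HS (La M t)) :
    Hm (F.kap ht hu) (dMV (F.cov t) z) = cx (F.jr ht hu z) F.D.σ :=
  F.kap_eq ht hu (iV_dMV (F.cov t) z)

/-- naturality of `j_!` -/
theorem jr_inc {t s : ℝ} {u v : ℝ≥0} (ht : 0 ≤ t) (hs : 0 ≤ s) (hts : t ≤ s)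
    (hu : t + 2 * F.B.L ≤ u) (hv : s + 2 * F.B.L ≤ v) (huv : u ≤ v) (z : HS (La M t)) :
    Hm (OmSpx725.inc huv) (F.jr ht hu z) = F.jr hs hv (Hm (incL hts) z) := by
  have h1 := dMV_nat (F.cov t) (F.cov s) (incL hts) (mapsTo_LaS _ hts) (mapsTo_LaS _ hts) z
  have h2 := hom_ka F.B ht hts hu hv huv (F.R_B t) (F.R_B s) (F.R_S t) (F.R_S s) (F.mR hts)
  rw [jr_apply, jr_apply, h1, ← Hm_comp_apply]
  have h3 := LinearMap.congr_fun (Hm_homotopic h2) (dMV (F.cov t) z)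
  rw [Hm_comp_apply] at h3
  refine Eq.trans ?_ (congrArg (sl F.D.φ) h3)
  rw [sl_Hm_left]

theorem jr_inc' {t : ℝ} {u v : ℝ≥0} (ht : 0 ≤ t) (hu : t + 2 * F.B.L ≤ u)
    (hv : t + 2 * F.B.L ≤ v) (huv : u ≤ v) (z : HS (La M t)) :
    Hm (OmSpx725.inc huv) (F.jr ht hu z) = F.jr ht hv z := by
  have h := F.jr_inc ht ht le_rfl hu hv huv z
  rw [incL_id, Hm_id] at h
  exact h

/-- degrees -/
theorem jr_mem {t : ℝ} {u : ℝ≥0} (ht : 0 ≤ t) (hu : t + 2 * F.B.L ≤ u) {j : ℕ} {z : HS (La M t)}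
    (hz : z ∈ hg (La M t) (j + m + 1)) : F.jr ht hu z ∈ hg (OmT p u) j := by
  have h1 := dMV_gr (F.cov t) hz
  have h2 := Hm_mem_hg (F.kap ht hu) h1
  rw [jr_apply]
  exact sl_mem F.D.φ_deg h2

theorem jr_low {t : ℝ} {u : ℝ≥0} (ht : 0 ≤ t) (hu : t + 2 * F.B.L ≤ u) {j : ℕ} {z : HS (La M t)}
    (hj : j < m + 1) (hz : z ∈ hg (La M t) j) : F.jr ht hu z = 0 := by
  rcases j with _ | j
  · rw [jr_apply, dMV_gr_zero (F.cov t) hz, map_zero, map_zero]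
  · have h1 := dMV_gr (F.cov t) hz
    have h2 := Hm_mem_hg (F.kap ht hu) h1
    rw [jr_apply]
    exact sl_eq_zero F.D.φ_deg (by omega) h2

/-- `H(Om u) → H(La s)` -/
abbrev jst (p : M) {u : ℝ≥0} {s : ℝ} (h : (u : ℝ) ≤ s) : HS (OmT p u) →ₗ[F2] HS (La M s) :=
  Hm (js p h)

theorem jst_inc {u v : ℝ≥0} {s : ℝ} (huv : u ≤ v) (hu : (u : ℝ) ≤ s) (hv : (v : ℝ) ≤ s)
    (y : HS (OmT p u)) : jst p hv (Hm (OmSpx725.inc huv) y) = jst p hu y := by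
  rw [← Hm_comp_apply]; rfl

theorem incL_jst {u : ℝ≥0} {s t : ℝ} (hu : (u : ℝ) ≤ s) (hst : s ≤ t) (hu' : (u : ℝ) ≤ t)
    (y : HS (OmT p u)) : Hm (incL hst) (jst p hu y) = jst p hu' y := by
  rw [← Hm_comp_apply]; rfl

theorem incL_incL {a b c : ℝ} (h : a ≤ b) (h' : b ≤ c) (h'' : a ≤ c) (z : HS (La M a)) :
    Hm (incL h') (Hm (incL h) z) = Hm (incL h'') z := by
  rw [← Hm_comp_apply]; rfl

/-- **(W1)** coarse exactness -/
theorem w1 {t : ℝ} {u w : ℝ≥0} {s : ℝ} (ht : 0 ≤ t) (hu : t + 2 * F.B.L ≤ u)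
    (hwB : (u : ℝ) + 2 * F.B.L + 2 * F.B.L ≤ w) (hwC : (u : ℝ) + 2 * F.B.L + 2 * F.C.L ≤ w)
    (hws : (w : ℝ) ≤ s) (hts : t ≤ s) {z : HS (La M t)} (hz : F.jr ht hu z = 0) :
    ∃ y : HS (OmT p w), jst p hws y = Hm (incL hts) z := by
  have hB := F.B.L_nonneg
  have hC := F.C.L_nonneg
  set s1 : ℝ := (u : ℝ) + 2 * F.B.L with hs1
  have hts1 : t ≤ s1 := by linarith
  have h01 : 0 ≤ s1 := ht.trans hts1
  have hs1s : s1 ≤ s := by linarith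
  -- the boundary dies at level `s1`
  have h1 := LinearMap.congr_fun (Hm_homotopic (hom_back F.B ht hu (le_refl s1) hts1 (F.R_B t)
    (inter_subset_right : F.C.V ∩ F.B.V ⊆ F.B.V) (F.R_S t) (F.S_R s1) (F.mR hts1)))
    (dMV (F.cov t) z)
  rw [Hm_comp_apply] at h1
  have h2 : Hm (ka F.B ht hu (F.R_B t) (F.R_S t)) (dMV (F.cov t) z) = 0 := by
    have := F.kap_jr ht hu z
    rw [hz, map_zero, LinearMap.zero_apply] at this
    exact this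
  rw [h2, map_zero] at h1
  have h3 : dMV (F.cov s1) (Hm (incL hts1) z) = 0 := by
    rw [dMV_nat (F.cov t) (F.cov s1) (incL hts1) (mapsTo_LaS _ hts1) (mapsTo_LaS _ hts1) z]
    exact h1.symm
  obtain ⟨a, b, hab⟩ := (dMV_eq_zero_iff (F.cov s1) _).1 h3
  refine ⟨Hm (cj F.C h01 hwC (le_refl (LaS F.C.V s1))) a +
    Hm (cj F.B h01 hwB (le_refl (LaS F.B.V s1))) b, ?_⟩
  have e1 := LinearMap.congr_fun (Hm_homotopic (hom_slide F.C h01 hwC hws hs1s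
    (le_refl (LaS F.C.V s1)))) a
  have e2 := LinearMap.congr_fun (Hm_homotopic (hom_slide F.B h01 hwB hws hs1s
    (le_refl (LaS F.B.V s1)))) b
  rw [Hm_comp_apply, Hm_comp_apply] at e1 e2
  rw [map_add, jst]
  refine (congrArg₂ (· + ·) e1 e2).trans ?_
  have e3 : Hm (incL hs1s) (jU (LaS F.C.V s1) a) + Hm (incL hs1s) (jU (LaS F.B.V s1) b) =
      Hm (incL hts) z := by
    rw [← map_add, ← hab, incL_incL]
  exact e3

/-- (W1) with degrees -/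
theorem w1_gr {t : ℝ} {u w : ℝ≥0} {s : ℝ} (ht : 0 ≤ t) (hu : t + 2 * F.B.L ≤ u)
    (hwB : (u : ℝ) + 2 * F.B.L + 2 * F.B.L ≤ w) (hwC : (u : ℝ) + 2 * F.B.L + 2 * F.C.L ≤ w)
    (hws : (w : ℝ) ≤ s) (hts : t ≤ s) {j : ℕ} {z : HS (La M t)} (hj : z ∈ hg (La M t) j)
    (hz : F.jr ht hu z = 0) :
    ∃ y ∈ hg (OmT p w) j, jst p hws y = Hm (incL hts) z := by
  obtain ⟨y, hy⟩ := F.w1 ht hu hwB hwC hws hts hz
  refine ⟨Gr334.prH F2 _ j y, Gr334.prH_mem j y, ?_⟩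
  have h1 : Gr334.prH F2 _ j (Hm (incL hts) z) = Hm (incL hts) z :=
    Gr334.prH_of_mem (Hm_mem_hg _ hj)
  rw [← h1, ← hy]
  exact (Gr334.prH_map (SS.SingMap (js p hws)) j y).symm

/-- `Ψ (w, z) = c_z⁻¹ b_z w b_z⁻¹ c_z` -/
def Psi {u v : ℝ≥0} (hv : (u : ℝ) + 2 * F.B.L + 2 * F.C.L ≤ v) :
    C(OmT p u × ↥(F.C.V ∩ F.B.V), OmT p v) :=
  (cj F.C (t := (u : ℝ) + 2 * F.B.L) (add_nonneg u.2 (mul_nonneg zero_le_two F.B.L_nonneg)) hv
    (F.R_C _)).comp (up F.B le_rfl inter_subset_right (F.S_R _))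

/-- **(W2)** the kernel of `j_*` -/
theorem w2 {t0 u v : ℝ≥0} {s : ℝ} (h0 : (t0 : ℝ) ≤ s) (hu : s + 2 * F.B.L ≤ u)
    (hv : (u : ℝ) + 2 * F.B.L + 2 * F.C.L ≤ v) (h0v : t0 ≤ v) (y : HS (OmT p t0))
    (hy : jst p h0 y = 0) :
    ∃ E : HS (OmT p u), Hm (OmSpx725.inc h0v) y = Hm (F.Psi hv) (cx E F.D.σ) := by
  have hB := F.B.L_nonneg
  have hC := F.C.L_nonneg
  have hs0 : 0 ≤ s := t0.2.trans h0
  set s1 : ℝ := (u : ℝ) + 2 * F.B.L with hs1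
  have hss1 : s ≤ s1 := by linarith
  have h01 : 0 ≤ s1 := hs0.trans hss1
  have hsv : s + 2 * F.C.L ≤ v := by linarith
  have hpU : LaS {p} s ⊆ LaS F.C.V s := fun g hg => by
    change g.1 0 ∈ F.C.V
    rw [show g.1 0 = p from hg]; exact F.hp
  -- the class over `U`
  have e0 : jU (LaS F.C.V s) (Hm (jsR p h0 hpU) y) = jU (LaS F.B.V s) 0 := by
    rw [map_zero, ← hy, ← Hm_comp_apply]; rfl
  obtain ⟨w, hw1, hw2⟩ := exists_inter (F.cov s) e0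
  refine ⟨sl F.D.φ (Hm (F.kap hs0 hu) w), ?_⟩
  rw [← F.kap_eq hs0 hu hw2]
  -- compute `Ψ κ w`
  have h1 := LinearMap.congr_fun (Hm_homotopic (hom_back F.B hs0 hu (le_refl s1) hss1 (F.R_B s)
    (inter_subset_right : F.C.V ∩ F.B.V ⊆ F.B.V) (F.R_S s) (F.S_R s1) (F.mR hss1))) w
  rw [Hm_comp_apply] at h1
  have h2 : Hm (F.Psi hv) (Hm (F.kap hs0 hu) w) =
      Hm (cj F.C h01 hv (F.R_C s1)) (Hm (rmap (incL hss1) (F.mR hss1)) w) := by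
    rw [Psi, Hm_comp_apply]
    exact congrArg _ h1
  have h3 := LinearMap.congr_fun (Hm_homotopic (hom_cj F.C hs0 hss1 hsv hv (le_refl v) (F.R_C s)
    (F.R_C s1) (F.mR hss1))) w
  rw [Hm_comp_apply, Hm_comp_apply, inc_id, Hm_id] at h3
  rw [h2, ← h3]
  have h4 : Hm (cj F.C hs0 hsv (F.R_C s)) w =
      Hm (cj F.C hs0 hsv (le_refl (LaS F.C.V s))) (iU (LaS F.C.V s) (LaS F.B.V s) w) := by
    rw [← Hm_comp_apply]; rfl
  rw [h4, hw1]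
  have h5 := LinearMap.congr_fun (Hm_homotopic (hom_const F.C F.hT h0 hs0 hsv h0v
    (le_refl (LaS F.C.V s)) hpU)) y
  rw [Hm_comp_apply] at h5
  exact h5.symm

end FD

end Crest.Agent.R231.CWx826
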