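import Crest.Agent.R231.Cap_226
import Crest.Agent.R231.Pair_877
import Crest.Agent.R204.Gr_334

/-!
# Row 231, block P (helper780): degrees and supports of the cap product (`Cap_226` + `Pair_877`)

* `Deg q c` : homogeneous cochains; degrees of `cap`, `cup`, `crs`, `cobd`, `pull`, slant products;
* `snd_cap_cross_eq_zero` : **the `B = 0` lemma**;
* `cap_mem_CS`, `cap_eq_zero_CS`, `cap_congr_CS`, `cap_small` : supports;
* `push_cap` : projection formula for maps which are continuous on `X` only;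
* `bd_cap_CS`, `bd_cap_small` : cap with a cochain which is a cocycle on `X` only.
-/

set_option autoImplicit false

noncomputable section

namespace Crest.Agent.R231.CapCSx780

open Crest.Agent.R204 Capx226 EZ271

section alg

variable {K L J : SS}

/-! ## degrees -/

/-- homogeneous cochains of degree `q` -/
def Deg (q : ℕ) (c : Co K) : Prop := ∀ n, n ≠ q → ∀ z ∈ N.gr F2 K n, c z = 0

theorem deg_iff {q : ℕ} {c : Co K} :
    Deg q c ↔ ∀ n, n ≠ q → ∀ x : K.S n, c (N.sx F2 x) = 0 := by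
  constructor
  · intro h n hn x
    exact h n hn _ (Gr334.sx_mem_gr x)
  · intro h n hn z hz
    rw [Gr334.N_gr_eq_span] at hz
    refine Submodule.span_induction (p := fun z _ => c z = 0) ?_ ?_ ?_ ?_ hz
    · rintro _ ⟨x, rfl⟩; exact h n hn x
    · exact map_zero c
    · intro a b _ _ ha hb; rw [map_add, ha, hb, add_zero]
    · intro r a _ ha; rw [map_smul, ha, smul_zero]

theorem Deg.add {q : ℕ} {c c' : Co K} (h : Deg q c) (h' : Deg q c') : Deg q (c + c') := by
  intro n hn z hz
  rw [LinearMap.add_apply, h n hn z hz, h' n hn z hz, add_zero]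

theorem Deg.zero {q : ℕ} : Deg q (0 : Co K) := fun _ _ _ _ => rfl

theorem Deg.pull {q : ℕ} {c : Co L} (h : Deg q c) (f : SS.Hom K L) : Deg q (pull f c) :=
  fun n hn _ hz => h n hn _ (Gr334.map_mem_gr f hz)

theorem Deg.cobd {q : ℕ} {c : Co K} (h : Deg q c) : Deg (q + 1) (cobd c) := by
  intro n hn z hz
  rcases n with _ | n
  · rw [cobd_apply, Gr334.bd_gr_zero hz, map_zero]
  · exact h n (by omega) _ (Gr334.bd_mem_gr hz)

theorem cap_mem_gr {q : ℕ} {c : Co K} (h : Deg q c) {n : ℕ} {z : N F2 K} (hz : z ∈ N.gr F2 K (q + n)) :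
    cap c z ∈ N.gr F2 K n := by
  rw [Gr334.N_gr_eq_span] at hz
  refine Submodule.span_induction (p := fun z _ => cap c z ∈ N.gr F2 K n) ?_ ?_ ?_ ?_ hz
  · rintro _ ⟨x, rfl⟩
    rw [cap_sx]
    refine Submodule.sum_mem _ fun a ha => ?_
    by_cases e : a = q
    · subst e
      rw [Nat.add_sub_cancel_left]
      exact Submodule.smul_mem _ _ (Gr334.sx_mem_gr _)
    · rw [h a e _ (Gr334.sx_mem_gr _), zero_smul]
      exact Submodule.zero_mem _
  · rw [map_zero]; exact Submodule.zero_mem _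
  · intro a b _ _ ha hb; rw [map_add]; exact Submodule.add_mem _ ha hb
  · intro r a _ ha; rw [map_smul]; exact Submodule.smul_mem _ _ ha

theorem cap_gr_eq_zero {q : ℕ} {c : Co K} (h : Deg q c) {n : ℕ} (hn : n < q) {z : N F2 K}
    (hz : z ∈ N.gr F2 K n) : cap c z = 0 := by
  rw [Gr334.N_gr_eq_span] at hz
  refine Submodule.span_induction (p := fun z _ => cap c z = 0) ?_ ?_ ?_ ?_ hz
  · rintro _ ⟨x, rfl⟩
    rw [cap_sx]
    refine Finset.sum_eq_zero fun a ha => ?_
    rw [Finset.mem_range] at ha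
    rw [h a (by omega) _ (Gr334.sx_mem_gr _), zero_smul]
  · exact map_zero _
  · intro a b _ _ ha hb; rw [map_add, ha, hb, add_zero]
  · intro r a _ ha; rw [map_smul, ha, smul_zero]

theorem Deg.cup {p q : ℕ} {a b : Co K} (ha : Deg p a) (hb : Deg q b) : Deg (p + q) (cup a b) := by
  intro n hn z hz
  rw [cup_apply]
  by_cases h : n < p
  · rw [cap_gr_eq_zero ha h hz, map_zero]
  · obtain ⟨m, rfl⟩ : ∃ m, n = p + m := ⟨n - p, by omega⟩
    exact hb m (by omega) _ (cap_mem_gr ha hz)

theorem Deg.crs {p q : ℕ} {a : Co K} {b : Co L} (ha : Deg p a) (hb : Deg q b) :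
    Deg (p + q) (crs a b) := by
  rw [crs_eq_cup]
  exact (ha.pull _).cup (hb.pull _)

/-- slant product with a `p`-chain in the first factor lowers the degree by `p` -/
theorem Deg.slant {p q : ℕ} {c : Co (K.prod L)} (h : Deg (p + q) c) {z : N F2 K}
    (hz : z ∈ N.gr F2 K p) : Deg q (slant c z) := by
  intro n hn x hx
  exact h (p + n) (by omega) _ (EZ847.cross_mem_gr F2 hz hx)

theorem slant_eq_zero {p q : ℕ} (hpq : q < p) {c : Co (K.prod L)} (h : Deg q c) {z : N F2 K}
    (hz : z ∈ N.gr F2 K p) : slant c z = 0 := by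
  refine hom_ext fun n x => ?_
  exact h (p + n) (by omega) _ (EZ847.cross_mem_gr F2 hz (Gr334.sx_mem_gr x))

theorem slant'_eq_zero {p q : ℕ} (hpq : q < p) {c : Co (K.prod L)} (h : Deg q c) {x : N F2 L}
    (hx : x ∈ N.gr F2 L p) : slant' c x = 0 := by
  refine hom_ext fun n z => ?_
  exact h (n + p) (by omega) _ (EZ847.cross_mem_gr F2 (Gr334.sx_mem_gr z) hx)

/-- **the `B = 0` lemma** : if `deg c < deg z` then `pr₂_* (cap c (z × x)) = 0`, on the nose -/
theorem snd_cap_cross_eq_zero {p q : ℕ} (hpq : q < p) {c : Co (K.prod L)} (h : Deg q c)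
    {z : N F2 K} (hz : z ∈ N.gr F2 K p) (x : N F2 L) :
    N.map F2 (SS.snd K L) (cap c (cross F2 z x)) = 0 := by
  rw [snd_cap_cross, slant_eq_zero hpq h hz, cap_zero_left]

theorem fst_cap_cross_eq_zero {p q : ℕ} (hpq : q < p) {c : Co (K.prod L)} (h : Deg q c)
    (z : N F2 K) {x : N F2 L} (hx : x ∈ N.gr F2 L p) :
    N.map F2 (SS.fst K L) (cap c (cross F2 z x)) = 0 := by
  rw [fst_cap_cross, slant'_eq_zero hpq h hx, cap_zero_left]

/-- cap with a cochain pulled back from the first factor -/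
theorem cap_pull_fst (u : Co K) (a : N F2 K) (b : N F2 L) :
    cap (pull (SS.fst K L) u) (cross F2 a b) = cross F2 (cap u a) b := by
  have h : crs u (aug F2 : Co L) = pull (SS.fst K L) u := by
    rw [crs_eq_cup]
    have : pull (SS.snd K L) (aug F2 : Co L) = aug F2 :=
      LinearMap.ext fun z => by rw [pull_apply, aug_map]
    rw [this, cup_aug_right]
  rw [← h, cap_crs_cross, cap_aug]

/-- cap with a cochain pulled back from the second factor -/
theorem cap_pull_snd (v : Co L) (a : N F2 K) (b : N F2 L) :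
    cap (pull (SS.snd K L) v) (cross F2 a b) = cross F2 a (cap v b) := by
  have h : crs (aug F2 : Co K) v = pull (SS.snd K L) v := by
    rw [crs_eq_cup]
    have : pull (SS.fst K L) (aug F2 : Co K) = aug F2 :=
      LinearMap.ext fun z => by rw [pull_apply, aug_map]
    rw [this]
    refine LinearMap.ext fun z => ?_
    rw [cup_apply, cap_aug]
  rw [← h, cap_crs_cross, cap_aug]

end alg

/-! ## supports -/

section top

open Pairx877 SingAct265

variable {E E' E'' : Type} [TopologicalSpace E] [TopologicalSpace E'] [TopologicalSpace E'']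
  {X A V X' A' : Set E}

/-- inclusion of a subset as a simplicial map -/
abbrev inS (X : Set E) : SS.Hom (SS.Sing X) (SS.Sing E) := SS.SingMap (SpecA.inc X)

theorem cap_mem_CS (c : Co (SS.Sing E)) : ∀ z ∈ CS X, cap c z ∈ CS X := by
  intro z hz
  rw [CS_eq_range] at hz ⊢
  obtain ⟨y, rfl⟩ := hz
  rw [← map_cap]
  exact ⟨_, rfl⟩

theorem cap_congr_CS {c c' : Co (SS.Sing E)} (h : ∀ z ∈ CS X, c z = c' z) :
    ∀ z ∈ CS X, cap c z = cap c' z := by
  intro z hz
  rw [CS_eq_range] at hz
  obtain ⟨y, rfl⟩ := hz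
  rw [← map_cap, ← map_cap]
  have : pull (SS.SingMap (SpecA.inc X)) c = pull (SS.SingMap (SpecA.inc X)) c' :=
    LinearMap.ext fun w => h _ (by rw [CS_eq_range]; exact ⟨w, rfl⟩)
  rw [this]

theorem cap_eq_zero_CS {c : Co (SS.Sing E)} (h : ∀ z ∈ CS A, c z = 0) :
    ∀ z ∈ CS A, cap c z = 0 := by
  intro z hz
  rw [cap_congr_CS (c' := 0) (by simpa using h) z hz, cap_zero_left]

/-- support: `c` vanishes on `A` and `z` is `{A, V}`-small, then `cap c z` lives in `V` -/
theorem cap_small {c : Co (SS.Sing E)} (h : ∀ z ∈ CS A, c z = 0) {z : CE E}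
    (hz : z ∈ CS A ⊔ CS V) : cap c z ∈ CS V := by
  obtain ⟨a, ha, b, hb, rfl⟩ := Submodule.mem_sup.1 hz
  rw [map_add, cap_eq_zero_CS h a ha, zero_add]
  exact cap_mem_CS c b hb

/-- Leibniz rule for a cochain which is a cocycle on `X` -/
theorem bd_cap_CS {c : Co (SS.Sing E)} (h : ∀ z ∈ CS X, c (bdE E z) = 0) :
    ∀ z ∈ CS X, bdE E (cap c z) = cap c (bdE E z) := by
  intro z hz
  rw [bd_cap, cap_eq_zero_CS (c := cobd c) h z hz, add_zero]

theorem bd_cap_small {c : Co (SS.Sing E)} (h : ∀ z ∈ CS A, c z = 0)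
    (h' : ∀ z ∈ CS V, c (bdE E z) = 0) {z : CE E} (hz : z ∈ CS A ⊔ CS V) :
    bdE E (cap c z) = cap c (bdE E z) := by
  obtain ⟨a, ha, b, hb, rfl⟩ := Submodule.mem_sup.1 hz
  rw [map_add, map_add, map_add, map_add, cap_eq_zero_CS h a ha, map_zero, zero_add,
    bd_cap_CS h' b hb, cap_eq_zero_CS h _ (bd_mem_CS a ha), zero_add]

/-- cap on `CS X` computed in the subspace -/
theorem res_cap (c : Co (SS.Sing E)) : ∀ z ∈ CS X,
    res X (cap c z) = cap (pull (SS.SingMap (SpecA.inc X)) c) (res X z) := by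
  intro z hz
  rw [CS_eq_range] at hz
  obtain ⟨y, rfl⟩ := hz
  rw [← map_cap, res_map_inc, res_map_inc]

/-- projection formula for a map which is continuous on `X` -/
theorem push_cap {f : E → E'} {hf : ContinuousOn f X} (c : Co (SS.Sing E')) : ∀ z ∈ CS X,
    push X f hf (cap (c ∘ₗ push X f hf) z) = cap c (push X f hf z) := by
  intro z hz
  rw [push, LinearMap.comp_apply, LinearMap.comp_apply, res_cap _ z hz, ← map_cap]
  have e : pull (SS.SingMap (SpecA.inc X)) (c ∘ₗ N.map F2 (SS.SingMap ⟨X.domRestrict f,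
      hf.domRestrict⟩) ∘ₗ res X) = pull (SS.SingMap ⟨X.domRestrict f, hf.domRestrict⟩) c := by
    refine LinearMap.ext fun w => ?_
    show c (N.map F2 _ (res X (N.map F2 _ w))) = c (N.map F2 _ w)
    rw [res_map_inc]
  rw [e]

/-- chains of `CS X` are determined by their restriction -/
theorem push_mem_gr {f : E → E'} {hf : ContinuousOn f X} {n : ℕ} {z : CE E}
    (hz : z ∈ N.gr F2 (SS.Sing E) n) : push X f hf z ∈ N.gr F2 (SS.Sing E') n := by
  rw [Gr334.N_gr_eq_span] at hz
  refine Submodule.span_induction (p := fun z _ => push X f hf z ∈ N.gr F2 (SS.Sing E') n)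
    ?_ ?_ ?_ ?_ hz
  · rintro _ ⟨x, rfl⟩
    by_cases h : ∀ t, ev x t ∈ X
    · rw [push_sx h]; exact Gr334.sx_mem_gr _
    · rw [push_sx_neg h]; exact Submodule.zero_mem _
  · rw [map_zero]; exact Submodule.zero_mem _
  · intro a b _ _ ha hb; rw [map_add]; exact Submodule.add_mem _ ha hb
  · intro r a _ ha; rw [map_smul]; exact Submodule.smul_mem _ _ ha

/-- pull back of a cochain along a map which is continuous on `X` -/
def pullOn {X : Set E} (f : E → E') (hf : ContinuousOn f X) (c : Co (SS.Sing E')) :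
    Co (SS.Sing E) := c ∘ₗ push X f hf

theorem pullOn_apply (f : E → E') (hf : ContinuousOn f X) (c : Co (SS.Sing E')) (z : CE E) :
    pullOn f hf c z = c (push X f hf z) := rfl

theorem Deg.pullOn {f : E → E'} {hf : ContinuousOn f X} {q : ℕ} {c : Co (SS.Sing E')} (h : Deg q c) :
    Deg q (pullOn f hf c) := fun n hn _ hz => h n hn _ (push_mem_gr hz)

theorem pullOn_bd {f : E → E'} {hf : ContinuousOn f X} {c : Co (SS.Sing E')} {Y : Set E'}
    (hY : Set.MapsTo f X Y) (h : ∀ w ∈ CS Y, c (bdE E' w) = 0) :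
    ∀ z ∈ CS X, pullOn f hf c (bdE E z) = 0 := by
  intro z hz
  rw [pullOn_apply, ← bd_push z hz]
  exact h _ (push_mem hY z hz)

theorem pullOn_zero {f : E → E'} {hf : ContinuousOn f X} {c : Co (SS.Sing E')} {Y : Set E'}
    (hY : Set.MapsTo f A Y) (h : ∀ w ∈ CS Y, c w = 0) : ∀ z ∈ CS A, pullOn f hf c z = 0 :=
  fun z hz => h _ (push_mem hY z hz)

/-- change of cochain by a coboundary is a homotopy -/
theorem cap_cobd (b : Co (SS.Sing E)) (z : CE E) :
    cap (cobd b) z = bdE E (cap b z) + cap b (bdE E z) := by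
  rw [bd_cap, add_comm (cap b _), add_assoc, add_self, add_zero]

end top

end Crest.Agent.R231.CapCSx780
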