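import Crest.Agent.R204.EZCop_766
import Crest.Agent.R204.EZSym_847
import Crest.Agent.R204.ExcD_406

/-!
# Row 231, block P (helper226): chain level cap product on the mod 2 chains of row 204

`cap u z = (u ⊗ id) (cop z)` (the cochain eats the front face).  Leibniz rule, naturality,
associativity with the cup product, behaviour on cross products, slant products, degrees, supports.
-/

set_option autoImplicit false

noncomputable section

namespace Crest.Agent.R231.Capx226

open Crest.Agent.R204 Crest.Agent.R204.EZ271 TensorProduct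

variable {K L J : SS}

theorem add_self {M : Type*} [AddCommGroup M] [Module F2 M] (x : M) : x + x = 0 := by
  have h : (2 : F2) • x = 0 := by
    have : (2 : F2) = 0 := by decide
    rw [this, zero_smul]
  rwa [two_smul] at h

theorem neg_eq {M : Type*} [AddCommGroup M] [Module F2 M] (x : M) : -x = x :=
  neg_eq_of_add_eq_zero_left (add_self x)

theorem sub_eq {M : Type*} [AddCommGroup M] [Module F2 M] (x y : M) : x - y = x + y := by
  rw [sub_eq_add_neg, neg_eq]

theorem eq_of_add {M : Type*} [AddCommGroup M] [Module F2 M] {x y : M} (h : x + y = 0) : x = y := by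
  rw [← sub_eq] at h; exact sub_eq_zero.1 h

/-- mod 2 cochains (all degrees together) -/
abbrev Co (K : SS) : Type := N F2 K →ₗ[F2] F2

/-- coboundary -/
def cobd (u : Co K) : Co K := u ∘ₗ N.bd F2 K

theorem cobd_apply (u : Co K) (z : N F2 K) : cobd u z = u (N.bd F2 K z) := rfl

theorem cobd_cobd (u : Co K) : cobd (cobd u) = 0 := by
  ext1; refine LinearMap.ext fun z => ?_
  simp only [LinearMap.comp_apply, cobd_apply, N.bd_bd, map_zero]
  rfl

/-- pull back of cochains -/
def pull (f : SS.Hom K L) (u : Co L) : Co K := u ∘ₗ N.map F2 f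

theorem pull_apply (f : SS.Hom K L) (u : Co L) (z : N F2 K) : pull f u z = u (N.map F2 f z) := rfl

theorem pull_cobd (f : SS.Hom K L) (u : Co L) : pull f (cobd u) = cobd (pull f u) := by
  refine LinearMap.ext fun z => ?_
  rw [pull_apply, cobd_apply, cobd_apply, pull_apply]
  exact congrArg u (LinearMap.congr_fun (N.map_bd f) z).symm

/-- cap product as a bilinear map -/
def capL : Co K →ₗ[F2] N F2 K →ₗ[F2] N F2 K :=
  { toFun := fun u => (TensorProduct.lid F2 (N F2 K)).toLinearMap ∘ₗ
      TensorProduct.map u LinearMap.id ∘ₗ cop F2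
    map_add' := fun u v => by
      rw [TensorProduct.map_add_left, LinearMap.add_comp, LinearMap.comp_add]
    map_smul' := fun r u => by
      rw [TensorProduct.map_smul_left, LinearMap.smul_comp, LinearMap.comp_smul]
      rfl }

/-- cap product -/
def cap (u : Co K) : N F2 K →ₗ[F2] N F2 K := capL u

theorem cap_apply (u : Co K) (z : N F2 K) :
    cap u z = TensorProduct.lid F2 _ (TensorProduct.map u LinearMap.id (cop F2 z)) := rfl

theorem cap_add_left (u v : Co K) (z : N F2 K) : cap (u + v) z = cap u z + cap v z := by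
  unfold cap; rw [map_add]; rfl

theorem cap_zero_left (z : N F2 K) : cap (0 : Co K) z = 0 := by
  unfold cap; rw [map_zero]; rfl

theorem cap_sum_left {ι : Type*} (s : Finset ι) (u : ι → Co K) (z : N F2 K) :
    cap (∑ i ∈ s, u i) z = ∑ i ∈ s, cap (u i) z := by
  unfold cap; rw [map_sum, LinearMap.sum_apply]

theorem cap_sx (u : Co K) {n : ℕ} (x : K.S n) :
    cap u (N.sx F2 x) = ∑ a ∈ Finset.range (n + 1),
      u (N.sx F2 (K.act (front a n) x)) • N.sx F2 (K.act (back (n - a) n) x) := by
  rw [cap_apply, cop_sx, map_sum, map_sum]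
  refine Finset.sum_congr rfl fun a _ => ?_
  rw [TensorProduct.map_tmul, TensorProduct.lid_tmul]
  rfl

/-- evaluation of `t ∈ N ⊗ N` on a cochain in the first factor -/
def evl (u : Co K) : N F2 K ⊗[F2] N F2 L →ₗ[F2] N F2 L :=
  (TensorProduct.lid F2 (N F2 L)).toLinearMap ∘ₗ TensorProduct.map u LinearMap.id

theorem evl_tmul (u : Co K) (a : N F2 K) (b : N F2 L) : evl u (a ⊗ₜ[F2] b) = u a • b := by
  simp [evl]

theorem cap_eq_evl (u : Co K) (z : N F2 K) : cap u z = evl u (cop F2 z) := rfl

/-- Leibniz rule -/
theorem cap_bd (u : Co K) (z : N F2 K) :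
    cap u (N.bd F2 K z) = cap (cobd u) z + N.bd F2 K (cap u z) := by
  rw [cap_eq_evl, cap_eq_evl, cap_eq_evl, ← bd_cop]
  generalize cop F2 z = t
  induction t using TensorProduct.induction_on with
  | zero => simp
  | add x y hx hy => simp only [map_add, hx, hy]; abel
  | tmul a b =>
    rw [tbd_tmul, EZCop766.sg_F2, map_add, evl_tmul, evl_tmul, evl_tmul, evl_tmul, cobd_apply,
      map_smul]

theorem bd_cap (u : Co K) (z : N F2 K) :
    N.bd F2 K (cap u z) = cap u (N.bd F2 K z) + cap (cobd u) z := by
  rw [cap_bd, add_comm, ← add_assoc, add_self, zero_add]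

theorem bd_cap_cocycle {u : Co K} (hu : cobd u = 0) (z : N F2 K) :
    N.bd F2 K (cap u z) = cap u (N.bd F2 K z) := by
  rw [bd_cap, hu, cap_zero_left, add_zero]

/-- naturality (projection formula) -/
theorem map_cap (f : SS.Hom K L) (u : Co L) (z : N F2 K) :
    N.map F2 f (cap (pull f u) z) = cap u (N.map F2 f z) := by
  rw [cap_eq_evl, cap_eq_evl, cop_map]
  generalize cop F2 z = t
  induction t using TensorProduct.induction_on with
  | zero => simp
  | add x y hx hy => simp only [map_add, hx, hy]
  | tmul a b => rw [TensorProduct.map_tmul, evl_tmul, evl_tmul, map_smul, pull_apply]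

/-- cup product -/
def cup (u v : Co K) : Co K :=
  (TensorProduct.lid F2 F2).toLinearMap ∘ₗ TensorProduct.map u v ∘ₗ cop F2

theorem cup_apply (u v : Co K) (z : N F2 K) : cup u v z = v (cap u z) := by
  rw [cap_eq_evl]
  show (TensorProduct.lid F2 F2) (TensorProduct.map u v (cop F2 z)) = _
  generalize cop F2 z = t
  induction t using TensorProduct.induction_on with
  | zero => simp
  | add x y hx hy => simp only [map_add, hx, hy]
  | tmul a b => rw [TensorProduct.map_tmul, evl_tmul, TensorProduct.lid_tmul, map_smul]

theorem cobd_cup (u v : Co K) : cobd (cup u v) = cup (cobd u) v + cup u (cobd v) := by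
  refine LinearMap.ext fun z => ?_
  rw [cobd_apply, cup_apply, LinearMap.add_apply, cup_apply, cup_apply, cap_bd, map_add,
    cobd_apply]

theorem pull_cup (f : SS.Hom K L) (u v : Co L) : pull f (cup u v) = cup (pull f u) (pull f v) := by
  refine LinearMap.ext fun z => ?_
  rw [pull_apply, cup_apply, cup_apply, pull_apply, map_cap]

/-- `cap v (cap u z) = cap (u ∪ v) z` -/
theorem cap_cap (u v : Co K) (z : N F2 K) : cap v (cap u z) = cap (cup u v) z := by
  have h := cop_coassoc F2 z
  have e1 : cap v (cap u z) =
      evl (L := K) u (TensorProduct.map LinearMap.id (evl (L := K) v)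
        (TensorProduct.map LinearMap.id (cop F2) (cop F2 z))) := by
    rw [cap_eq_evl u z]
    generalize cop F2 z = t
    induction t using TensorProduct.induction_on with
    | zero => simp
    | add x y hx hy => simp only [map_add, hx, hy]
    | tmul a b =>
      rw [evl_tmul, map_smul, TensorProduct.map_tmul, TensorProduct.map_tmul]
      simp only [LinearMap.id_apply]
      rw [evl_tmul, cap_eq_evl]
  have e2 : cap (cup u v) z =
      evl (L := K) u (TensorProduct.map LinearMap.id (evl (L := K) v)
        (TensorProduct.assoc F2 _ _ _ (TensorProduct.map (cop F2) LinearMap.id (cop F2 z)))) := by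
    rw [cap_eq_evl]
    generalize cop F2 z = t
    induction t using TensorProduct.induction_on with
    | zero => simp
    | add x y hx hy => simp only [map_add, hx, hy]
    | tmul a b =>
      rw [evl_tmul, TensorProduct.map_tmul]
      show ((TensorProduct.lid F2 F2) (TensorProduct.map u v (cop F2 a))) • b = _
      generalize cop F2 a = s
      induction s using TensorProduct.induction_on with
      | zero => simp
      | add x y hx hy => simp only [map_add, add_smul, TensorProduct.add_tmul, hx, hy]
      | tmul a₁ a₂ =>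
        simp only [TensorProduct.map_tmul, TensorProduct.lid_tmul, LinearMap.id_apply,
          TensorProduct.assoc_tmul, evl_tmul, TensorProduct.tmul_smul, map_smul, smul_smul,
          smul_eq_mul, mul_comm]
  rw [e1, e2, h]

theorem cap_aug (z : N F2 K) : cap (aug F2) z = z := aug_cop_left F2 z

theorem cup_aug_right (u : Co K) : cup u (aug F2) = u := by
  refine LinearMap.ext fun z => ?_
  show (TensorProduct.lid F2 F2) (TensorProduct.map u (aug F2) (cop F2 z)) = _
  conv_rhs => rw [← aug_cop_right F2 z]
  generalize cop F2 z = t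
  induction t using TensorProduct.induction_on with
  | zero => simp
  | add x y hx hy => simp only [map_add, hx, hy]
  | tmul a b => simp [mul_comm]

/-! ## cross products -/

/-- external product of cochains -/
def crs (u : Co K) (v : Co L) : Co (K.prod L) :=
  (TensorProduct.lid F2 F2).toLinearMap ∘ₗ TensorProduct.map u v ∘ₗ aw F2

theorem crs_cross (u : Co K) (v : Co L) (a : N F2 K) (b : N F2 L) :
    crs u v (cross F2 a b) = u a * v b := by
  show (TensorProduct.lid F2 F2) (TensorProduct.map u v (aw F2 (cross F2 a b))) = _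
  rw [aw_cross, TensorProduct.map_tmul, TensorProduct.lid_tmul, smul_eq_mul]

theorem crs_eq_cup (u : Co K) (v : Co L) :
    crs u v = cup (pull (SS.fst K L) u) (pull (SS.snd K L) v) := by
  refine LinearMap.ext fun z => ?_
  show (TensorProduct.lid F2 F2) (TensorProduct.map u v (TensorProduct.map
    (N.map F2 (SS.fst K L)) (N.map F2 (SS.snd K L)) (cop F2 z))) =
    (TensorProduct.lid F2 F2) (TensorProduct.map (pull (SS.fst K L) u) (pull (SS.snd K L) v)
      (cop F2 z))
  rw [← LinearMap.comp_apply (TensorProduct.map u v), ← TensorProduct.map_comp]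
  rfl

theorem cobd_crs (u : Co K) (v : Co L) :
    cobd (crs u v) = crs (cobd u) v + crs u (cobd v) := by
  rw [crs_eq_cup, crs_eq_cup, crs_eq_cup, cobd_cup, pull_cobd, pull_cobd]

/-- the general formula for a cap with a cross product -/
def capX (c : Co (K.prod L)) : (N F2 K ⊗[F2] N F2 K) →ₗ[F2] (N F2 L ⊗[F2] N F2 L) →ₗ[F2]
    N F2 (K.prod L) :=
  TensorProduct.curry (evl (L := K.prod L) c ∘ₗ
    TensorProduct.map (TensorProduct.lift (cross F2)) (TensorProduct.lift (cross F2)) ∘ₗ
      (TensorProduct.tensorTensorTensorComm F2 _ _ _ _).toLinearMap)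

theorem capX_tmul (c : Co (K.prod L)) (a₁ a₂ : N F2 K) (b₁ b₂ : N F2 L) :
    capX c (a₁ ⊗ₜ a₂) (b₁ ⊗ₜ b₂) = c (cross F2 a₁ b₁) • cross F2 a₂ b₂ := by
  simp only [capX, TensorProduct.curry_apply, LinearMap.comp_apply, LinearEquiv.coe_coe,
    TensorProduct.tensorTensorTensorComm_tmul, TensorProduct.map_tmul, TensorProduct.lift.tmul,
    evl_tmul]

theorem cap_cross_gen (c : Co (K.prod L)) (a : N F2 K) (b : N F2 L) :
    cap c (cross F2 a b) = capX c (cop F2 a) (cop F2 b) := by
  rw [cap_eq_evl, EZCop766.cop_cross_F2]
  rfl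

/-- bilinear induction for tensors -/
theorem tensor_ext2 {M₁ M₂ N₁ N₂ P : Type*} [AddCommGroup M₁] [Module F2 M₁] [AddCommGroup M₂]
    [Module F2 M₂] [AddCommGroup N₁] [Module F2 N₁] [AddCommGroup N₂] [Module F2 N₂]
    [AddCommGroup P] [Module F2 P]
    (f g : (M₁ ⊗[F2] M₂) →ₗ[F2] (N₁ ⊗[F2] N₂) →ₗ[F2] P)
    (h : ∀ a₁ a₂ b₁ b₂, f (a₁ ⊗ₜ a₂) (b₁ ⊗ₜ b₂) = g (a₁ ⊗ₜ a₂) (b₁ ⊗ₜ b₂))
    (t : M₁ ⊗[F2] M₂) (s : N₁ ⊗[F2] N₂) : f t s = g t s := by
  induction t using TensorProduct.induction_on with
  | zero => simp
  | add x y hx hy => simp only [map_add, LinearMap.add_apply, hx, hy]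
  | tmul a₁ a₂ =>
    induction s using TensorProduct.induction_on with
    | zero => simp
    | add x y hx hy => simp only [map_add, hx, hy]
    | tmul b₁ b₂ => exact h _ _ _ _

theorem cap_crs_cross (u : Co K) (v : Co L) (a : N F2 K) (b : N F2 L) :
    cap (crs u v) (cross F2 a b) = cross F2 (cap u a) (cap v b) := by
  rw [cap_cross_gen, cap_eq_evl, cap_eq_evl]
  refine tensor_ext2 (capX (crs u v)) ((cross F2).compl₁₂ (evl (L := K) u) (evl (L := L) v)) ?_ _ _
  intro a₁ a₂ b₁ b₂
  rw [capX_tmul, crs_cross, LinearMap.compl₁₂_apply, evl_tmul, evl_tmul]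
  simp only [map_smul, LinearMap.smul_apply, smul_smul, mul_comm]

/-- slant product `c / a` -/
def slant (c : Co (K.prod L)) (a : N F2 K) : Co L := c ∘ₗ cross F2 a

theorem slant_apply (c : Co (K.prod L)) (a : N F2 K) (b : N F2 L) :
    slant c a b = c (cross F2 a b) := rfl

/-- slant product on the other side -/
def slant' (c : Co (K.prod L)) (b : N F2 L) : Co K := c ∘ₗ (cross F2 (K := K)).flip b

theorem slant'_apply (c : Co (K.prod L)) (a : N F2 K) (b : N F2 L) :
    slant' c b a = c (cross F2 a b) := rfl

theorem snd_cap_cross (c : Co (K.prod L)) (a : N F2 K) (b : N F2 L) :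
    N.map F2 (SS.snd K L) (cap c (cross F2 a b)) = cap (slant c a) b := by
  rw [cap_cross_gen, cap_eq_evl]
  have key : ∀ (t : N F2 K ⊗[F2] N F2 K) (s : N F2 L ⊗[F2] N F2 L),
      N.map F2 (SS.snd K L) (capX c t s) =
        evl (L := L) (slant c (TensorProduct.rid F2 _ (TensorProduct.map LinearMap.id (aug F2) t))) s := by
    intro t s
    induction t using TensorProduct.induction_on with
    | zero => simp [evl, slant]
    | add x y hx hy =>
      simp only [map_add, LinearMap.add_apply, hx, hy]
      have : slant c (TensorProduct.rid F2 _ (TensorProduct.map LinearMap.id (aug F2) x) +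
          TensorProduct.rid F2 _ (TensorProduct.map LinearMap.id (aug F2) y)) =
          slant c (TensorProduct.rid F2 _ (TensorProduct.map LinearMap.id (aug F2) x)) +
          slant c (TensorProduct.rid F2 _ (TensorProduct.map LinearMap.id (aug F2) y)) := by
        unfold slant; rw [map_add, LinearMap.comp_add]
      rw [this]
      unfold evl
      rw [TensorProduct.map_add_left, LinearMap.comp_add, LinearMap.add_apply]
    | tmul a₁ a₂ =>
      induction s using TensorProduct.induction_on with
      | zero => simp
      | add x y hx hy => simp only [map_add, hx, hy]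
      | tmul b₁ b₂ =>
        rw [capX_tmul, map_smul, snd_cross, TensorProduct.map_tmul, TensorProduct.rid_tmul,
          evl_tmul, slant_apply, LinearMap.id_apply, map_smul, LinearMap.smul_apply, map_smul,
          smul_smul, smul_eq_mul, mul_comm]
  rw [key, aug_cop_right]

theorem fst_cap_cross (c : Co (K.prod L)) (a : N F2 K) (b : N F2 L) :
    N.map F2 (SS.fst K L) (cap c (cross F2 a b)) = cap (slant' c b) a := by
  rw [cap_cross_gen, cap_eq_evl]
  have key : ∀ (s : N F2 L ⊗[F2] N F2 L) (t : N F2 K ⊗[F2] N F2 K),
      N.map F2 (SS.fst K L) (capX c t s) =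
        evl (L := K) (slant' c (TensorProduct.rid F2 _ (TensorProduct.map LinearMap.id (aug F2) s))) t := by
    intro s t
    induction s using TensorProduct.induction_on with
    | zero => simp [evl, slant']
    | add x y hx hy =>
      simp only [map_add, hx, hy]
      have : slant' c (TensorProduct.rid F2 _ (TensorProduct.map LinearMap.id (aug F2) x) +
          TensorProduct.rid F2 _ (TensorProduct.map LinearMap.id (aug F2) y)) =
          slant' c (TensorProduct.rid F2 _ (TensorProduct.map LinearMap.id (aug F2) x)) +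
          slant' c (TensorProduct.rid F2 _ (TensorProduct.map LinearMap.id (aug F2) y)) := by
        unfold slant'; rw [map_add, LinearMap.comp_add]
      rw [this]
      unfold evl
      rw [TensorProduct.map_add_left, LinearMap.comp_add, LinearMap.add_apply]
    | tmul b₁ b₂ =>
      induction t using TensorProduct.induction_on with
      | zero => simp
      | add x y hx hy => simp only [map_add, LinearMap.add_apply, hx, hy]
      | tmul a₁ a₂ =>
        rw [capX_tmul, map_smul, fst_cross, TensorProduct.map_tmul, TensorProduct.rid_tmul,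
          evl_tmul, slant'_apply, LinearMap.id_apply, map_smul, map_smul,
          smul_smul, smul_eq_mul, mul_comm]
  rw [key, aug_cop_right]

theorem cobd_slant (c : Co (K.prod L)) (a : N F2 K) :
    cobd (slant c a) = slant (cobd c) a + slant c (N.bd F2 K a) := by
  refine LinearMap.ext fun b => ?_
  rw [cobd_apply, slant_apply, LinearMap.add_apply, slant_apply, slant_apply, cobd_apply, bd_cross,
    EZCop766.sg_F2, map_add, add_comm, ← add_assoc, add_self, zero_add]

theorem cobd_slant' (c : Co (K.prod L)) (b : N F2 L) :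
    cobd (slant' c b) = slant' (cobd c) b + slant' c (N.bd F2 L b) := by
  refine LinearMap.ext fun a => ?_
  rw [cobd_apply, slant'_apply, LinearMap.add_apply, slant'_apply, slant'_apply, cobd_apply,
    bd_cross, EZCop766.sg_F2, map_add, add_assoc, add_self, add_zero]

end Crest.Agent.R231.Capx226
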