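import Crest.Agent.R231.PairH_877
import Crest.Agent.R231.FinDim_315

/-!
# Row 231 (S0357): homology classes of cycles of a subspace (helper475)

`O : Set E`.  `clS c hc hb : HS O` is the class of a cycle `c ∈ CS O` of the ambient space.
* `clS_eq_zero : clS c = 0 ↔ ∃ w ∈ CS O, bdE E w = c`; `clS_surj`, `clS_gr`, `clS_gr_surj`
* `Hm_inc_clS` : compatibility with inclusions of subsets
-/

set_option autoImplicit false
set_option linter.unusedSectionVars false

noncomputable section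

open Set Topology
open Crest.Agent.R204

namespace Crest.Agent.R231.ClSx475

open Pairx877 SingAct265 EZ271 FinDim315 SpecA

variable {E : Type} [TopologicalSpace E] {O O' : Set E}

/-- class of a cycle supported in `O` -/
def clS (c : CE E) (hc : c ∈ CS O) (hb : bdE E c = 0) : HS O :=
  Hd.mk (N.bd F2 (SS.Sing O)) (res O c) (by rw [bd_res c hc, hb, map_zero])

theorem clS_eq_zero {c : CE E} {hc : c ∈ CS O} {hb : bdE E c = 0} :
    clS c hc hb = 0 ↔ ∃ w ∈ CS O, bdE E w = c := by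
  unfold clS
  rw [Hd.mk_eq_zero]
  constructor
  · rintro ⟨w, hw⟩
    refine ⟨N.map F2 (SS.SingMap (SpecA.inc O)) w, ?_, ?_⟩
    · rw [CS_eq_range]; exact ⟨w, rfl⟩
    · have h := LinearMap.congr_fun (N.map_bd (R := F2) (SS.SingMap (SpecA.inc O))) w
      rw [LinearMap.comp_apply, LinearMap.comp_apply] at h
      rw [← h, hw, map_inc_res c hc]
  · rintro ⟨w, hw, h⟩
    exact ⟨res O w, by rw [bd_res w hw, h]⟩

theorem clS_surj (x : HS O) : ∃ (c : CE E) (hc : c ∈ CS O) (hb : bdE E c = 0), clS c hc hb = x := by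
  obtain ⟨z, hz, rfl⟩ := Hd.mk_surj _ x
  have h := LinearMap.congr_fun (N.map_bd (R := F2) (SS.SingMap (SpecA.inc O))) z
  rw [LinearMap.comp_apply, LinearMap.comp_apply, hz, map_zero] at h
  refine ⟨N.map F2 (SS.SingMap (SpecA.inc O)) z, ?_, h.symm, ?_⟩
  · rw [CS_eq_range]; exact ⟨z, rfl⟩
  · unfold clS
    congr 1
    exact res_map_inc z

theorem clS_congr {c c' : CE E} (h : c = c') {hc : c ∈ CS O} {hb : bdE E c = 0} {hc' : c' ∈ CS O}
    {hb' : bdE E c' = 0} : clS c hc hb = clS c' hc' hb' := by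
  subst h; rfl

theorem clS_add {c c' : CE E} (hc : c ∈ CS O) (hb : bdE E c = 0) (hc' : c' ∈ CS O)
    (hb' : bdE E c' = 0) :
    clS (c + c') (Submodule.add_mem _ hc hc') (by rw [map_add, hb, hb', add_zero]) =
      clS c hc hb + clS c' hc' hb' := by
  unfold clS Hd.mk
  rw [← Submodule.Quotient.mk_add]
  congr 1
  exact Subtype.ext (map_add (res O) c c')

theorem clS_gr {j : ℕ} {c : CE E} {hc : c ∈ CS O} {hb : bdE E c = 0}
    (h : c ∈ N.gr F2 (SS.Sing E) j) : clS c hc hb ∈ H.gr F2 (SS.Sing O) j :=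
  ⟨⟨res O c, by rw [LinearMap.mem_ker, bd_res c hc, hb, map_zero]⟩, res_gr h, rfl⟩

theorem clS_gr_surj {j : ℕ} {x : HS O} (hx : x ∈ H.gr F2 (SS.Sing O) j) :
    ∃ (c : CE E) (hc : c ∈ CS O) (hb : bdE E c = 0), c ∈ N.gr F2 (SS.Sing E) j ∧
      clS c hc hb = x := by
  obtain ⟨⟨z, hz⟩, hzj, rfl⟩ := hx
  have hz' : N.bd F2 (SS.Sing O) z = 0 := LinearMap.mem_ker.1 hz
  have h := LinearMap.congr_fun (N.map_bd (R := F2) (SS.SingMap (SpecA.inc O))) z
  rw [LinearMap.comp_apply, LinearMap.comp_apply, hz', map_zero] at h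
  refine ⟨N.map F2 (SS.SingMap (SpecA.inc O)) z, ?_, h.symm, Gr334.map_mem_gr _ hzj, ?_⟩
  · rw [CS_eq_range]; exact ⟨z, rfl⟩
  · unfold clS Hd.mk
    congr 1
    exact Subtype.ext (res_map_inc z)

/-- inclusion of subsets as a continuous map -/
def incO (h : O ⊆ O') : C(O, O') := ⟨Set.inclusion h, continuous_inclusion h⟩

theorem map_incO_res (h : O ⊆ O') {c : CE E} (hc : c ∈ CS O) :
    N.map F2 (SS.SingMap (incO h)) (res O c) = res O' c := by
  have h1 : N.map F2 (SS.SingMap (SpecA.inc O')) (N.map F2 (SS.SingMap (incO h)) (res O c)) = c := by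
    rw [EZ271.map_map]
    exact map_inc_res c hc
  conv_rhs => rw [← h1]
  rw [res_map_inc]

theorem Hm_incO_clS (h : O ⊆ O') {c : CE E} (hc : c ∈ CS O) (hb : bdE E c = 0) :
    Hm (incO h) (clS c hc hb) = clS c (CS_mono h hc) hb := by
  show Hd.map _ _ (Hd.mk _ _ _) = Hd.mk _ _ _
  rw [Hd.map_mk]
  congr 1
  exact map_incO_res h hc

end Crest.Agent.R231.ClSx475
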