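import Crest.Agent.R231.CmpPoly_952

/-!
# Row 231 (S0357), comparison leaf: the homotopy from a loop to its inscribed polygon (helper952)

`ht L N γ r` : on `[i/N, (i+1)/N]` the arc of `γ` over `[i/N, (i+r)/N]` is replaced by the minimal
geodesic.  `ht L N γ 0 = γ`, `ht L N γ 1 = pl L N γ`; continuous on `Dom M L.r0 N ×ˢ [0,1]`;
preserves every `X M t`, the value `γ 0` and the constants.
-/

set_option autoImplicit false
set_option linter.unusedSectionVars false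

noncomputable section

open Set Filter Topology
open Crest.Agent.R231.GLugx576

namespace Crest.Agent.R231.Cmpx952

variable {M : Type*} [MetricSpace M] (L : LUG M)

/-- one interval -/
def rg (N : ℕ) (i : ℝ) (γ : Lp M) (r s : ℝ) : M :=
  L.seg (γ ((i / N : ℝ) : UnitAddCircle)) (γ (((i + max s r) / N : ℝ) : UnitAddCircle))
    (s / max s r)

/-- the homotopy on the line -/
def rf (N : ℕ) (γ : Lp M) (r u : ℝ) : M :=
  rg L N ((⌊(N : ℝ) * u⌋ : ℤ) : ℝ) γ r (Int.fract ((N : ℝ) * u))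

theorem max_mem {s r : ℝ} (hs : s ∈ Icc (0 : ℝ) 1) (hr : r ∈ Icc (0 : ℝ) 1) :
    max s r ∈ Icc (0 : ℝ) 1 := ⟨hs.1.trans (le_max_left _ _), max_le hs.2 hr.2⟩

theorem frac_mem {s r : ℝ} (hs : s ∈ Icc (0 : ℝ) 1) (hr : r ∈ Icc (0 : ℝ) 1) :
    s / max s r ∈ Icc (0 : ℝ) 1 :=
  ⟨div_nonneg hs.1 (max_mem hs hr).1, div_le_one_of_le₀ (le_max_left _ _) (max_mem hs hr).1⟩

theorem rg_dist {N : ℕ} (hN : 0 < N) {ρ : ℝ} {γ : Lp M} (hγ : γ ∈ Dom M ρ N) (i : ℝ) {m : ℝ}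
    (hm : m ∈ Icc (0 : ℝ) 1) :
    dist (γ ((i / N : ℝ) : UnitAddCircle)) (γ (((i + m) / N : ℝ) : UnitAddCircle)) < ρ := by
  have hN' : (0 : ℝ) < N := by exact_mod_cast hN
  refine hγ _ _ ?_
  rw [← sub_div, abs_div, abs_of_pos hN']
  refine div_le_div_of_nonneg_right ?_ hN'.le
  rw [show i - (i + m) = -m by ring, abs_neg, abs_of_nonneg hm.1]
  exact hm.2

theorem rg_zero {N : ℕ} (hN : 0 < N) {γ : Lp M} (hγ : γ ∈ Dom M L.r0 N) (i : ℝ) {r : ℝ}
    (hr : r ∈ Icc (0 : ℝ) 1) : rg L N i γ r 0 = γ ((i / N : ℝ) : UnitAddCircle) := by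
  rw [rg, zero_div]
  exact L.seg_zero (rg_dist hN hγ i (max_mem ⟨le_rfl, zero_le_one⟩ hr))

theorem rg_of_ge {N : ℕ} (hN : 0 < N) {γ : Lp M} (hγ : γ ∈ Dom M L.r0 N) (i : ℝ) {r s : ℝ}
    (hr : r ∈ Icc (0 : ℝ) 1) (hs : s ∈ Icc (0 : ℝ) 1) (h : r ≤ s) :
    rg L N i γ r s = γ (((i + s) / N : ℝ) : UnitAddCircle) := by
  rcases hs.1.eq_or_lt with h0 | h0
  · rw [← h0, rg_zero L hN hγ i hr, add_zero]
  · rw [rg, max_eq_left h, div_self h0.ne']
    exact L.seg_one (rg_dist hN hγ i hs)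

theorem rf_eq {N : ℕ} (hN : 0 < N) {γ : Lp M} (hγ : γ ∈ Dom M L.r0 N) {r : ℝ}
    (hr : r ∈ Icc (0 : ℝ) 1) (i : ℤ) {u : ℝ} (h1 : (i : ℝ) ≤ N * u) (h2 : (N : ℝ) * u ≤ i + 1) :
    rf L N γ r u = rg L N i γ r (N * u - i) := by
  rcases h2.eq_or_lt with h | h
  · have hf : ⌊(N : ℝ) * u⌋ = i + 1 := by
      rw [h]
      have : (i : ℝ) + 1 = ((i + 1 : ℤ) : ℝ) := by push_cast; ring
      rw [this, Int.floor_intCast]
    have hfr : Int.fract ((N : ℝ) * u) = 0 := by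
      rw [Int.fract, hf, h]; push_cast; ring
    rw [rf, hf, hfr, rg_zero L hN hγ _ hr, h, show (i : ℝ) + 1 - i = 1 by ring,
      rg_of_ge L hN hγ _ hr ⟨zero_le_one, le_rfl⟩ hr.2]
    push_cast
    rfl
  · have hf : ⌊(N : ℝ) * u⌋ = i := Int.floor_eq_iff.2 ⟨h1, h⟩
    have hfr : Int.fract ((N : ℝ) * u) = N * u - i := by
      rw [Int.fract, hf]
    rw [rf, hf, hfr]

theorem rf_add_one {N : ℕ} (hN : 0 < N) (γ : Lp M) (r u : ℝ) :
    rf L N γ r (u + 1) = rf L N γ r u := by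
  have hN' : (N : ℝ) ≠ 0 := by exact_mod_cast hN.ne'
  have h1 : (N : ℝ) * (u + 1) = N * u + (N : ℤ) := by push_cast; ring
  have h2 : ⌊(N : ℝ) * (u + 1)⌋ = ⌊(N : ℝ) * u⌋ + N := by rw [h1, Int.floor_add_intCast]
  have h3 : Int.fract ((N : ℝ) * (u + 1)) = Int.fract ((N : ℝ) * u) := by
    rw [h1, Int.fract_add_intCast]
  rw [rf, rf, h2, h3, rg, rg]
  have e : ∀ m : ℝ, (((((⌊(N : ℝ) * u⌋ + N : ℤ) : ℝ) + m) / N : ℝ) : UnitAddCircle) =
      ((((⌊(N : ℝ) * u⌋ : ℤ) : ℝ) + m) / N : ℝ) := by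
    intro m
    have : ((((⌊(N : ℝ) * u⌋ + N : ℤ) : ℝ) + m) / N : ℝ) =
        (((⌊(N : ℝ) * u⌋ : ℤ) : ℝ) + m) / N + (1 : ℤ) := by
      push_cast; field_simp; ring
    rw [this, coe_add_int]
  have e0 := e 0
  rw [add_zero, add_zero] at e0
  rw [e, e0]

theorem rf_zero_right {N : ℕ} (hN : 0 < N) {γ : Lp M} (hγ : γ ∈ Dom M L.r0 N) {r : ℝ}
    (hr : r ∈ Icc (0 : ℝ) 1) : rf L N γ r 0 = γ 0 := by
  rw [rf_eq L hN hγ hr 0 (by simp) (by simp)]
  rw [show (N : ℝ) * 0 - (0 : ℤ) = 0 by simp, rg_zero L hN hγ _ hr]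
  simp

theorem rf_zero {N : ℕ} (hN : 0 < N) {γ : Lp M} (hγ : γ ∈ Dom M L.r0 N) (u : ℝ) :
    rf L N γ 0 u = γ u := by
  have hN' : (N : ℝ) ≠ 0 := by exact_mod_cast hN.ne'
  rw [rf, rg_of_ge L hN hγ _ ⟨le_rfl, zero_le_one⟩
    ⟨Int.fract_nonneg _, (Int.fract_lt_one _).le⟩ (Int.fract_nonneg _), Int.floor_add_fract,
    mul_div_cancel_left₀ _ hN']

theorem rf_one {N : ℕ} (γ : Lp M) (u : ℝ) : rf L N γ 1 u = pf L N γ u := by
  rw [rf, rg, max_eq_right (Int.fract_lt_one _).le, div_one, pf]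

/-- a family which is continuous on the `N` intervals is continuous -/
theorem cont_of_pieces {α M : Type*} [TopologicalSpace α] [TopologicalSpace M] {N : ℕ} (hN : 0 < N)
    {F : α × Icc (0 : ℝ) 1 → M}
    (h : ∀ i : ℕ, i < N → ContinuousOn F {p | ((i : ℕ) : ℝ) ≤ N * (p.2 : ℝ) ∧
      (N : ℝ) * p.2 ≤ (i : ℕ) + 1}) : Continuous F := by
  have hN' : (0 : ℝ) < N := by exact_mod_cast hN
  have hcov : ⋃ i : Fin N, {p : α × Icc (0 : ℝ) 1 |
      ((i : ℕ) : ℝ) ≤ N * (p.2 : ℝ) ∧ (N : ℝ) * p.2 ≤ (i : ℕ) + 1} = univ := by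
    refine eq_univ_of_forall fun p => mem_iUnion.2 ?_
    obtain ⟨γ, u, hu0, hu1⟩ := p
    rcases hu1.eq_or_lt with h | h
    · refine ⟨⟨N - 1, by omega⟩, ?_, ?_⟩
      · show ((N - 1 : ℕ) : ℝ) ≤ N * u
        rw [h, mul_one]
        exact_mod_cast Nat.sub_le _ _
      · show (N : ℝ) * u ≤ ((N - 1 : ℕ) : ℝ) + 1
        rw [h, mul_one]
        have : ((N - 1 : ℕ) : ℝ) + 1 = N := by
          rw [Nat.cast_sub hN]; simp
        rw [this]
    · have h0 : 0 ≤ (N : ℝ) * u := mul_nonneg hN'.le hu0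
      have h3 : ⌊(N : ℝ) * u⌋₊ < N := by
        rw [Nat.floor_lt h0]
        calc (N : ℝ) * u < N * 1 := mul_lt_mul_of_pos_left h hN'
          _ = N := mul_one _
      exact ⟨⟨⌊(N : ℝ) * u⌋₊, h3⟩, Nat.floor_le h0, (Nat.lt_floor_add_one _).le⟩
  refine (locallyFinite_of_finite _).continuous hcov ?_ ?_
  · intro i
    have hc : Continuous (fun p : α × Icc (0 : ℝ) 1 => (N : ℝ) * (p.2 : ℝ)) :=
      continuous_const.mul (continuous_subtype_val.comp continuous_snd)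
    have h1 : IsClosed {p : α × Icc (0 : ℝ) 1 | ((i : ℕ) : ℝ) ≤ (N : ℝ) * (p.2 : ℝ)} :=
      isClosed_le continuous_const hc
    have h2 : IsClosed {p : α × Icc (0 : ℝ) 1 | (N : ℝ) * (p.2 : ℝ) ≤ ((i : ℕ) : ℝ) + 1} :=
      isClosed_le hc continuous_const
    exact h1.inter h2
  · exact fun i => h i i.2

/-- continuity of one interval -/
theorem continuousOn_rg [CompactSpace M] {N : ℕ} (hN : 0 < N) (i : ℝ) :
    ContinuousOn (fun p : Lp M × ℝ × ℝ => rg L N i p.1 p.2.1 p.2.2)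
      (Dom M L.r0 N ×ˢ Icc (0 : ℝ) 1 ×ˢ Icc (0 : ℝ) 1) := by
  have c1 : Continuous (fun p : Lp M × ℝ × ℝ => p.1 ((i / N : ℝ) : UnitAddCircle)) :=
    (continuous_eval_const _).comp continuous_fst
  have cm : Continuous (fun p : Lp M × ℝ × ℝ => max p.2.2 p.2.1) :=
    (continuous_snd.comp continuous_snd).max (continuous_fst.comp continuous_snd)
  have c2 : Continuous (fun p : Lp M × ℝ × ℝ =>
      p.1 (((i + max p.2.2 p.2.1) / N : ℝ) : UnitAddCircle)) :=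
    continuous_evalR.comp (continuous_fst.prodMk ((continuous_const.add cm).div_const _))
  have hmaps : ∀ p ∈ (Dom M L.r0 N ×ˢ Icc (0 : ℝ) 1 ×ˢ Icc (0 : ℝ) 1 : Set (Lp M × ℝ × ℝ)),
      dist (p.1 ((i / N : ℝ) : UnitAddCircle))
        (p.1 (((i + max p.2.2 p.2.1) / N : ℝ) : UnitAddCircle)) < L.r0 ∧
      p.2.2 / max p.2.2 p.2.1 ∈ Icc (0 : ℝ) 1 := fun p hp =>
    ⟨rg_dist hN hp.1 i (max_mem hp.2.2 hp.2.1), frac_mem hp.2.2 hp.2.1⟩
  rintro ⟨γ, r, s⟩ hp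
  rcases (max_mem hp.2.2 hp.2.1).1.eq_or_lt with h0 | h0
  · -- `s = r = 0`
    have h0' : max s r = 0 := h0.symm
    have hs : s = 0 := le_antisymm ((le_max_left _ _).trans h0'.le) hp.2.2.1
    have hv : rg L N i γ r s = γ ((i / N : ℝ) : UnitAddCircle) := by
      rw [hs]; exact rg_zero L hN hp.1 i hp.2.1
    show Tendsto _ _ (𝓝 (rg L N i γ r s))
    rw [hv, tendsto_iff_dist_tendsto_zero]
    have hb : Tendsto (fun p : Lp M × ℝ × ℝ => dist (p.1 ((i / N : ℝ) : UnitAddCircle))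
        (p.1 (((i + max p.2.2 p.2.1) / N : ℝ) : UnitAddCircle)) +
        dist (p.1 ((i / N : ℝ) : UnitAddCircle)) (γ ((i / N : ℝ) : UnitAddCircle)))
        (𝓝[Dom M L.r0 N ×ˢ Icc (0 : ℝ) 1 ×ˢ Icc (0 : ℝ) 1] (γ, r, s)) (𝓝 0) := by
      have hc : Continuous (fun p : Lp M × ℝ × ℝ => dist (p.1 ((i / N : ℝ) : UnitAddCircle))
          (p.1 (((i + max p.2.2 p.2.1) / N : ℝ) : UnitAddCircle)) +
          dist (p.1 ((i / N : ℝ) : UnitAddCircle)) (γ ((i / N : ℝ) : UnitAddCircle))) :=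
        (c1.dist c2).add (c1.dist continuous_const)
      have hv0 : dist (γ ((i / N : ℝ) : UnitAddCircle))
          (γ (((i + max s r) / N : ℝ) : UnitAddCircle)) +
          dist (γ ((i / N : ℝ) : UnitAddCircle)) (γ ((i / N : ℝ) : UnitAddCircle)) = 0 := by
        rw [h0', add_zero, dist_self, add_zero]
      have hc' := hc.tendsto (γ, r, s)
      change Tendsto _ _ (𝓝 (dist (γ ((i / N : ℝ) : UnitAddCircle))
          (γ (((i + max s r) / N : ℝ) : UnitAddCircle)) +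
          dist (γ ((i / N : ℝ) : UnitAddCircle)) (γ ((i / N : ℝ) : UnitAddCircle)))) at hc'
      rw [hv0] at hc'
      exact hc'.mono_left nhdsWithin_le_nhds
    refine squeeze_zero' (Eventually.of_forall fun _ => dist_nonneg) ?_ hb
    filter_upwards [self_mem_nhdsWithin] with p hp'
    obtain ⟨h1, h2⟩ := hmaps p hp'
    refine (dist_triangle _ (p.1 ((i / N : ℝ) : UnitAddCircle)) _).trans (add_le_add_left ?_ _)
    rw [dist_comm, rg, L.dist_left h1 h2]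
    exact mul_le_of_le_one_left dist_nonneg h2.2
  · have hk : ContinuousAt (fun p : Lp M × ℝ × ℝ => p.2.2 / max p.2.2 p.2.1) (γ, r, s) :=
      ContinuousAt.div (continuous_snd.comp continuous_snd).continuousAt cm.continuousAt h0.ne'
    have hcomp : ContinuousWithinAt (fun p : Lp M × ℝ × ℝ =>
        (p.1 ((i / N : ℝ) : UnitAddCircle), p.1 (((i + max p.2.2 p.2.1) / N : ℝ) : UnitAddCircle),
          p.2.2 / max p.2.2 p.2.1)) (Dom M L.r0 N ×ˢ Icc (0 : ℝ) 1 ×ˢ Icc (0 : ℝ) 1) (γ, r, s) :=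
      (c1.continuousAt.prodMk (c2.continuousAt.prodMk hk)).continuousWithinAt
    exact (L.continuousOn_seg _ (hmaps _ hp)).comp hcomp fun p hp' => hmaps p hp'

/-- joint continuity on the line -/
theorem continuous_rf [CompactSpace M] {N : ℕ} (hN : 0 < N) :
    Continuous (fun p : (Dom M L.r0 N ×ˢ Icc (0 : ℝ) 1 : Set (Lp M × ℝ)) × Icc (0 : ℝ) 1 =>
      rf L N p.1.1.1 p.1.1.2 (p.2 : ℝ)) := by
  refine cont_of_pieces hN fun i hi => ?_
  have he : EqOn (fun p : (Dom M L.r0 N ×ˢ Icc (0 : ℝ) 1 : Set (Lp M × ℝ)) × Icc (0 : ℝ) 1 =>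
      rf L N p.1.1.1 p.1.1.2 (p.2 : ℝ))
      (fun p => rg L N (((i : ℕ) : ℤ) : ℝ) p.1.1.1 p.1.1.2 (N * (p.2 : ℝ) - (((i : ℕ) : ℤ) : ℝ)))
      {p | ((i : ℕ) : ℝ) ≤ N * (p.2 : ℝ) ∧ (N : ℝ) * p.2 ≤ (i : ℕ) + 1} := by
    intro p hp
    exact rf_eq L hN p.1.2.1 p.1.2.2 ((i : ℕ) : ℤ) (by exact_mod_cast hp.1)
      (by exact_mod_cast hp.2)
  refine ContinuousOn.congr ?_ he
  have hc : Continuous (fun p : (Dom M L.r0 N ×ˢ Icc (0 : ℝ) 1 : Set (Lp M × ℝ)) × Icc (0 : ℝ) 1 =>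
      ((p.1.1.1, p.1.1.2, (N : ℝ) * (p.2 : ℝ) - (((i : ℕ) : ℤ) : ℝ)) : Lp M × ℝ × ℝ)) := by
    fun_prop
  refine (continuousOn_rg L hN (((i : ℕ) : ℤ) : ℝ)).comp hc.continuousOn fun p hp => ?_
  have h1 : (((i : ℕ) : ℤ) : ℝ) = ((i : ℕ) : ℝ) := by push_cast; rfl
  refine ⟨p.1.2.1, p.1.2.2, ?_⟩
  show (N : ℝ) * (p.2 : ℝ) - (((i : ℕ) : ℤ) : ℝ) ∈ Icc (0 : ℝ) 1
  rw [h1]
  exact ⟨by linarith [hp.1], by linarith [hp.2]⟩

theorem continuousOn_rf_Icc [CompactSpace M] {N : ℕ} (hN : 0 < N) {γ : Lp M}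
    (hγ : γ ∈ Dom M L.r0 N) {r : ℝ} (hr : r ∈ Icc (0 : ℝ) 1) :
    ContinuousOn (rf L N γ r) (Icc 0 1) := by
  rw [continuousOn_iff_continuous_domRestrict]
  have h := continuous_rf (M := M) L hN
  exact h.comp (continuous_const (y := (⟨(γ, r), hγ, hr⟩ :
    (Dom M L.r0 N ×ˢ Icc (0 : ℝ) 1 : Set (Lp M × ℝ)))) |>.prodMk continuous_id)

open Classical in
/-- **the homotopy** -/
def ht [CompactSpace M] (N : ℕ) (γ : Lp M) (r : ℝ) : Lp M :=
  if h : 0 < N ∧ γ ∈ Dom M L.r0 N ∧ r ∈ Icc (0 : ℝ) 1 then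
    ⟨AddCircle.liftIco 1 0 (rf L N γ r), AddCircle.liftIco_continuous
      (by rw [rf_add_one L h.1])
      (by rw [zero_add]; exact continuousOn_rf_Icc L h.1 h.2.1 h.2.2)⟩
  else γ

variable [CompactSpace M]

theorem ht_coe {N : ℕ} (hN : 0 < N) {γ : Lp M} (hγ : γ ∈ Dom M L.r0 N) {r : ℝ}
    (hr : r ∈ Icc (0 : ℝ) 1) (u : ℝ) : ht L N γ r (u : UnitAddCircle) = rf L N γ r u := by
  rw [ht, dif_pos ⟨hN, hγ, hr⟩]
  show AddCircle.liftIco 1 0 (rf L N γ r) (u : UnitAddCircle) = rf L N γ r u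
  have hper : Function.Periodic (rf L N γ r) 1 := rf_add_one L hN γ r
  have h1 : (u : UnitAddCircle) = ((Int.fract u : ℝ) : UnitAddCircle) := by
    rw [AddCircle.coe_fract]
  have h2 : Int.fract u ∈ Ico (0 : ℝ) (0 + 1) := ⟨Int.fract_nonneg u, by
    rw [zero_add]; exact Int.fract_lt_one u⟩
  rw [h1, AddCircle.liftIco_coe_apply h2]
  have h3 := hper.sub_int_mul_eq (x := u) ⌊u⌋
  rw [mul_one] at h3
  exact h3

theorem ht_zero {N : ℕ} (hN : 0 < N) {γ : Lp M} (hγ : γ ∈ Dom M L.r0 N) : ht L N γ 0 = γ := by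
  ext x
  induction x using QuotientAddGroup.induction_on with | _ u => ?_
  exact (ht_coe L hN hγ ⟨le_rfl, zero_le_one⟩ u).trans (rf_zero L hN hγ u)

theorem ht_one {N : ℕ} (hN : 0 < N) {γ : Lp M} (hγ : γ ∈ Dom M L.r0 N) :
    ht L N γ 1 = pl L N γ := by
  ext x
  induction x using QuotientAddGroup.induction_on with | _ u => ?_
  exact (ht_coe L hN hγ ⟨zero_le_one, le_rfl⟩ u).trans ((rf_one L γ u).trans
    (pl_coe L hN hγ u).symm)

theorem ht_at_zero {N : ℕ} (hN : 0 < N) {γ : Lp M} (hγ : γ ∈ Dom M L.r0 N) {r : ℝ}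
    (hr : r ∈ Icc (0 : ℝ) 1) : ht L N γ r 0 = γ 0 :=
  (ht_coe L hN hγ hr 0).trans (rf_zero_right L hN hγ hr)

/-- **continuity** -/
theorem continuousOn_ht {N : ℕ} (hN : 0 < N) :
    ContinuousOn (fun p : Lp M × ℝ => ht L N p.1 p.2) (Dom M L.r0 N ×ˢ Icc (0 : ℝ) 1) := by
  rw [continuousOn_iff_continuous_domRestrict]
  refine cont_to_loop ?_
  refine (continuous_rf (M := M) L hN).congr fun p => ?_
  exact (ht_coe L hN p.1.2.1 p.1.2.2 _).symm

/-! ### Lipschitz constants -/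

theorem dist_rg_le {N : ℕ} (hN : 0 < N) {γ : Lp M} (hγ : γ ∈ Dom M L.r0 N) {t : ℝ}
    (ht : γ ∈ X M t) (i : ℝ) {r : ℝ} (hr : r ∈ Icc (0 : ℝ) 1) {s s' : ℝ} (hs : 0 ≤ s)
    (hss : s ≤ s') (hs' : s' ≤ 1) :
    dist (rg L N i γ r s) (rg L N i γ r s') ≤ t * ((s' - s) / N) := by
  have hN' : (0 : ℝ) < N := by exact_mod_cast hN
  have t0 := nonneg_of_mem ht
  -- both on the geodesic
  have hA : ∀ a b : ℝ, 0 ≤ a → a ≤ b → b ≤ r →
      dist (rg L N i γ r a) (rg L N i γ r b) ≤ t * ((b - a) / N) := by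
    intro a b ha hab hb
    have hr0 : 0 ≤ r := hr.1
    rcases hr0.eq_or_lt with h0 | h0
    · have e1 : a = 0 := le_antisymm (hab.trans (hb.trans h0.symm.le)) ha
      have e2 : b = 0 := le_antisymm (hb.trans h0.symm.le) (ha.trans hab)
      rw [e1, e2, dist_self]
      simp
    · have ha1 : a ≤ r := hab.trans hb
      have hra : max a r = r := max_eq_right ha1
      have hrb : max b r = r := max_eq_right hb
      have hfa : a / r ∈ Icc (0 : ℝ) 1 := ⟨div_nonneg ha h0.le, div_le_one_of_le₀ ha1 h0.le⟩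
      have hfb : b / r ∈ Icc (0 : ℝ) 1 :=
        ⟨div_nonneg (ha.trans hab) h0.le, div_le_one_of_le₀ hb h0.le⟩
      rw [rg, rg, hra, hrb, L.dist_seg (rg_dist hN hγ i hr) hfa hfb]
      have h1 : dist (γ ((i / N : ℝ) : UnitAddCircle)) (γ (((i + r) / N : ℝ) : UnitAddCircle)) ≤
          t * (r / N) := by
        refine (ht _ _).trans (le_of_eq ?_)
        rw [← sub_div, abs_div, abs_of_pos hN', show i - (i + r) = -r by ring, abs_neg,
          abs_of_pos h0]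
      have h2 : |a / r - b / r| = (b - a) / r := by
        rw [abs_sub_comm, ← sub_div, abs_of_nonneg (div_nonneg (by linarith) h0.le)]
      rw [h2]
      refine (mul_le_mul_of_nonneg_left h1 (div_nonneg (by linarith) h0.le)).trans (le_of_eq ?_)
      field_simp
  have hB : ∀ a b : ℝ, r ≤ a → a ≤ b → b ≤ 1 →
      dist (rg L N i γ r a) (rg L N i γ r b) ≤ t * ((b - a) / N) := by
    intro a b ha hab hb
    rw [rg_of_ge L hN hγ i hr ⟨hr.1.trans ha, hab.trans hb⟩ ha,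
      rg_of_ge L hN hγ i hr ⟨hr.1.trans (ha.trans hab), hb⟩ (ha.trans hab)]
    refine (ht _ _).trans (le_of_eq ?_)
    rw [← sub_div, abs_div, abs_of_pos hN', show i + a - (i + b) = -(b - a) by ring, abs_neg,
      abs_of_nonneg (by linarith)]
  rcases le_total s' r with h | h
  · exact hA s s' hs hss h
  · rcases le_total r s with h' | h'
    · exact hB s s' h' hss hs'
    · refine (dist_triangle _ (rg L N i γ r r) _).trans
        ((add_le_add (hA s r hs h' le_rfl) (hB r s' le_rfl h hs')).trans (le_of_eq ?_))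
      ring

theorem dist_rf_le {N : ℕ} (hN : 0 < N) {γ : Lp M} (hγ : γ ∈ Dom M L.r0 N) {t : ℝ}
    (ht : γ ∈ X M t) {r : ℝ} (hr : r ∈ Icc (0 : ℝ) 1) {u v : ℝ}
    (huv : u ≤ v) (h : v - u ≤ 1 / N) : dist (rf L N γ r u) (rf L N γ r v) ≤ t * (v - u) := by
  have hN' : (0 : ℝ) < N := by exact_mod_cast hN
  have hfu := Int.floor_le ((N : ℝ) * u)
  have hfu' := Int.lt_floor_add_one ((N : ℝ) * u)
  set i : ℤ := ⌊(N : ℝ) * u⌋ with hi
  have huv' : (N : ℝ) * u ≤ N * v := mul_le_mul_of_nonneg_left huv hN'.le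
  have hv' : (N : ℝ) * v ≤ N * u + 1 := by
    have := mul_le_mul_of_nonneg_left h hN'.le
    rw [mul_one_div, div_self hN'.ne'] at this
    linarith
  have e1 := rf_eq L hN hγ hr i hfu hfu'.le
  rcases le_or_gt ((N : ℝ) * v) (i + 1) with hv | hv
  · have e2 := rf_eq L hN hγ hr i (hfu.trans huv') hv
    rw [e1, e2]
    refine (dist_rg_le L hN hγ ht i hr (by linarith) (by linarith) (by linarith)).trans
      (le_of_eq ?_)
    field_simp
    ring
  · have e2 := rf_eq L hN hγ hr (i + 1) (u := v) (by push_cast; linarith) (by push_cast; linarith)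
    have hz : rg L N ((i + 1 : ℤ) : ℝ) γ r 0 = rg L N (i : ℝ) γ r 1 := by
      rw [rg_zero L hN hγ _ hr, rg_of_ge L hN hγ _ hr ⟨zero_le_one, le_rfl⟩ hr.2]
      push_cast
      rfl
    have hc1 := dist_rg_le L hN hγ ht (i : ℝ) hr (s := N * u - i) (s' := 1) (by linarith)
      (by linarith) le_rfl
    have hc2 := dist_rg_le L hN hγ ht ((i + 1 : ℤ) : ℝ) hr (s := 0)
      (s' := N * v - ((i + 1 : ℤ) : ℝ)) le_rfl (by push_cast; linarith) (by push_cast; linarith)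
    rw [hz] at hc2
    rw [e1, e2]
    refine (dist_triangle _ _ _).trans ((add_le_add hc1 hc2).trans (le_of_eq ?_))
    push_cast
    field_simp
    ring

/-- the homotopy preserves the Lipschitz constant -/
theorem ht_mem_X {N : ℕ} (hN : 0 < N) {γ : Lp M} (hγ : γ ∈ Dom M L.r0 N) {t : ℝ}
    (hX : γ ∈ X M t) {r : ℝ} (hr : r ∈ Icc (0 : ℝ) 1) : ht L N γ r ∈ X M t := by
  have hN' : (0 : ℝ) < N := by exact_mod_cast hN
  refine GSmithx651.mem_X_of_local (d := min (1 / N) (1 / 2)) (by positivity) fun x y hxy => ?_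
  obtain ⟨a, rfl, ha, ha2⟩ := GSmithx651.exists_real x y
  induction x using QuotientAddGroup.induction_on with | _ u => ?_
  have h1 := (lt_min_iff.1 hxy).1.le
  rw [← ha] at h1 ⊢
  have e : (u : UnitAddCircle) + (a : UnitAddCircle) = ((u + a : ℝ) : UnitAddCircle) := by
    rw [AddCircle.coe_add]
  change dist (ht L N γ r (u : UnitAddCircle))
    (ht L N γ r ((u : UnitAddCircle) + (a : UnitAddCircle))) ≤ _
  rw [e, ht_coe L hN hγ hr, ht_coe L hN hγ hr]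
  rcases le_total 0 a with h | h
  · rw [abs_of_nonneg h] at h1 ⊢
    have := dist_rf_le L hN hγ hX hr (u := u) (v := u + a) (by linarith) (by linarith)
    rwa [add_sub_cancel_left] at this
  · rw [abs_of_nonpos h] at h1 ⊢
    have := dist_rf_le L hN hγ hX hr (u := u + a) (v := u) (by linarith) (by linarith)
    rw [dist_comm]
    refine this.trans (le_of_eq ?_)
    ring

/-- constants do not move -/
theorem ht_const {N : ℕ} (hN : 0 < N) {γ : Lp M} (hγ : γ ∈ X M 0) {r : ℝ}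
    (hr : r ∈ Icc (0 : ℝ) 1) : ht L N γ r = γ := by
  have hD : γ ∈ Dom M L.r0 N := X_subset_Dom hN (by
    have := L.r0_pos
    have hN' : (0 : ℝ) < N := by exact_mod_cast hN
    positivity) hγ
  have h1 := mem_X_zero.1 (ht_mem_X L hN hD hγ hr)
  have h2 := mem_X_zero.1 hγ
  ext x
  rw [h1 x, h2 x, ht_at_zero L hN hD hr]

end Crest.Agent.R231.Cmpx952
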