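import Crest.Agent.R231.GSmith_651

/-!
# Row 231 (S0357), comparison of Lipschitz loops with continuous loops: metric part (helper952)

* `Dom ρ N` : loops with `dist (γ x) (γ y) < ρ` for `|x - y| ≤ 1/N` (all loops of a compact set of
  loops for `N` large: `exists_Dom`; `X M t ⊆ Dom ρ N` for `t < ρ N`)
* `pl L N : Lp M → Lp M` : the inscribed geodesic polygon (vertices `γ (i/N)`), continuous on
  `Dom L.r0 N`, with values in `X M (N * L.r0)`
* `ht L N γ r` : geodesic homotopy from `γ` (`r = 0`) to `pl L N γ` (`r = 1`), continuous on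
  `Dom (L.r0/2) N × [0,1]`; keeps `γ 0`, constants, and (with `SegLip`) maps `X M t` into `X M (2 t)`.
-/

set_option autoImplicit false
set_option linter.unusedSectionVars false

noncomputable section

open Set Filter Topology
open Crest.Agent.R231.GLugx576

namespace Crest.Agent.R231.Cmpx952

variable {M : Type*} [MetricSpace M]

/-- loops which move less than `ρ` in time `1/N` -/
def Dom (M : Type*) [MetricSpace M] (ρ : ℝ) (N : ℕ) : Set (Lp M) :=
  {γ | ∀ x y : ℝ, |x - y| ≤ 1 / N → dist (γ x) (γ y) < ρ}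

theorem Dom_mono {ρ ρ' : ℝ} (h : ρ ≤ ρ') (N : ℕ) : Dom M ρ N ⊆ Dom M ρ' N :=
  fun _ hγ x y hxy => (hγ x y hxy).trans_le h

theorem X_subset_Dom {t ρ : ℝ} {N : ℕ} (hN : 0 < N) (h : t < ρ * N) : X M t ⊆ Dom M ρ N := by
  intro γ hγ x y hxy
  have hN' : (0 : ℝ) < N := by exact_mod_cast hN
  have ht : 0 ≤ t := nonneg_of_mem hγ
  refine (hγ x y).trans_lt ((mul_le_mul_of_nonneg_left hxy ht).trans_lt ?_)
  rw [mul_one_div, div_lt_iff₀ hN']
  exact h

/-- a compact set of loops is contained in `Dom ρ N` for large `N` -/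
theorem exists_Dom {K : Set (Lp M)} (hK : IsCompact K) {ρ : ℝ} (hρ : 0 < ρ) :
    ∃ N₀ : ℕ, ∀ N : ℕ, N₀ ≤ N → 0 < N → K ⊆ Dom M ρ N := by
  have h1 : IsCompact (K ×ˢ (univ : Set UnitAddCircle)) := hK.prod isCompact_univ
  have h2 : ContinuousOn (fun p : Lp M × UnitAddCircle => p.1 p.2) (K ×ˢ univ) :=
    continuous_eval.continuousOn
  have h3 := h1.uniformContinuousOn_of_continuous h2
  rw [Metric.uniformContinuousOn_iff] at h3
  obtain ⟨δ, hδ, h4⟩ := h3 ρ hρ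
  obtain ⟨N₀, hN₀⟩ := exists_nat_gt (1 / δ)
  refine ⟨N₀, fun N hN hN0 γ hγ x y hxy => ?_⟩
  have hN' : (0 : ℝ) < N := by exact_mod_cast hN0
  have h5 : (1 : ℝ) / N < δ := by
    rw [div_lt_iff₀ hN']
    rw [div_lt_iff₀ hδ] at hN₀
    have : (N₀ : ℝ) ≤ N := by exact_mod_cast hN
    nlinarith
  refine h4 (γ, (x : UnitAddCircle)) ⟨hγ, trivial⟩ (γ, (y : UnitAddCircle)) ⟨hγ, trivial⟩ ?_
  rw [Prod.dist_eq, dist_self, max_eq_right dist_nonneg]
  refine lt_of_le_of_lt ?_ h5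
  rw [dist_eq_norm, ← AddCircle.coe_sub]
  exact (norm_coe_le _).trans hxy

variable (L : LUG M)

/-- the polygon as a function on the line -/
def pf (N : ℕ) (γ : Lp M) (u : ℝ) : M :=
  L.seg (γ (((⌊(N : ℝ) * u⌋ : ℤ) : ℝ) / N : ℝ)) (γ ((((⌊(N : ℝ) * u⌋ : ℤ) : ℝ) + 1) / N : ℝ))
    (Int.fract ((N : ℝ) * u))

/-- the polygon on one interval -/
theorem pf_eq {N : ℕ} (hN : 0 < N) {γ : Lp M} (hγ : γ ∈ Dom M L.r0 N) (i : ℤ) {u : ℝ}
    (h1 : (i : ℝ) ≤ N * u) (h2 : (N : ℝ) * u ≤ i + 1) :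
    pf L N γ u = L.seg (γ (((i : ℝ)) / N : ℝ)) (γ (((i : ℝ) + 1) / N : ℝ)) (N * u - i) := by
  have hN' : (0 : ℝ) < N := by exact_mod_cast hN
  have hd : ∀ j : ℤ, dist (γ (((j : ℝ)) / N : ℝ)) (γ (((j : ℝ) + 1) / N : ℝ)) < L.r0 := by
    intro j
    refine hγ _ _ (le_of_eq ?_)
    rw [← sub_div, abs_div, abs_of_pos hN']
    congr 1
    rw [show (j : ℝ) - (j + 1) = -1 by ring, abs_neg, abs_one]
  rcases h2.eq_or_lt with h | h
  · have hf : ⌊(N : ℝ) * u⌋ = i + 1 := by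
      rw [h]
      have : (i : ℝ) + 1 = ((i + 1 : ℤ) : ℝ) := by push_cast; ring
      rw [this, Int.floor_intCast]
    have hfr : Int.fract ((N : ℝ) * u) = 0 := by
      rw [Int.fract, hf, h]; push_cast; ring
    have h3 := hd (i + 1)
    rw [pf, hf, hfr, L.seg_zero h3, h]
    rw [show (i : ℝ) + 1 - i = 1 by ring, L.seg_one (hd i)]
    push_cast
    rfl
  · have hf : ⌊(N : ℝ) * u⌋ = i := Int.floor_eq_iff.2 ⟨h1, h⟩
    have hfr : Int.fract ((N : ℝ) * u) = N * u - i := by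
      rw [Int.fract, hf]
    rw [pf, hf, hfr]

theorem pf_add_one {N : ℕ} (hN : 0 < N) (γ : Lp M) (u : ℝ) : pf L N γ (u + 1) = pf L N γ u := by
  have hN' : (N : ℝ) ≠ 0 := by exact_mod_cast hN.ne'
  have h1 : (N : ℝ) * (u + 1) = N * u + (N : ℤ) := by push_cast; ring
  have h2 : ⌊(N : ℝ) * (u + 1)⌋ = ⌊(N : ℝ) * u⌋ + N := by rw [h1, Int.floor_add_intCast]
  have h3 : Int.fract ((N : ℝ) * (u + 1)) = Int.fract ((N : ℝ) * u) := by
    rw [h1, Int.fract_add_intCast]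
  rw [pf, pf, h2, h3]
  have e1 : ((((⌊(N : ℝ) * u⌋ + N : ℤ) : ℝ) / N : ℝ) : UnitAddCircle) =
      (((⌊(N : ℝ) * u⌋ : ℤ) : ℝ) / N : ℝ) := by
    have : (((⌊(N : ℝ) * u⌋ + N : ℤ) : ℝ) / N : ℝ) = ((⌊(N : ℝ) * u⌋ : ℤ) : ℝ) / N + (1 : ℤ) := by
      push_cast; field_simp
    rw [this, coe_add_int]
  have e2 : (((((⌊(N : ℝ) * u⌋ + N : ℤ) : ℝ) + 1) / N : ℝ) : UnitAddCircle) =
      ((((⌊(N : ℝ) * u⌋ : ℤ) : ℝ) + 1) / N : ℝ) := by
    have : ((((⌊(N : ℝ) * u⌋ + N : ℤ) : ℝ) + 1) / N : ℝ) =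
        (((⌊(N : ℝ) * u⌋ : ℤ) : ℝ) + 1) / N + (1 : ℤ) := by
      push_cast; field_simp; ring
    rw [this, coe_add_int]
  rw [e1, e2]

theorem pf_zero {N : ℕ} (hN : 0 < N) {γ : Lp M} (hγ : γ ∈ Dom M L.r0 N) : pf L N γ 0 = γ 0 := by
  rw [pf_eq L hN hγ 0 (by simp) (by simp)]
  have h0 : (0 : ℝ) < N := by exact_mod_cast hN
  have hd : dist (γ ((((0 : ℤ) : ℝ)) / N : ℝ)) (γ ((((0 : ℤ) : ℝ) + 1) / N : ℝ)) < L.r0 := by
    refine hγ _ _ (le_of_eq ?_)
    rw [← sub_div, abs_div, abs_of_pos h0]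
    congr 1
    simp
  rw [show (N : ℝ) * 0 - (0 : ℤ) = 0 by simp, L.seg_zero hd]
  simp

/-- the polygon is Lipschitz on intervals of length `1/N` -/
theorem dist_pf_le {N : ℕ} (hN : 0 < N) {γ : Lp M} (hγ : γ ∈ Dom M L.r0 N) {ρ : ℝ}
    (hρ : ∀ i : ℤ, dist (γ (((i : ℝ)) / N : ℝ)) (γ (((i : ℝ) + 1) / N : ℝ)) ≤ ρ) {u v : ℝ}
    (huv : u ≤ v) (h : v - u ≤ 1 / N) : dist (pf L N γ u) (pf L N γ v) ≤ N * ρ * (v - u) := by
  have hN' : (0 : ℝ) < N := by exact_mod_cast hN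
  have hd : ∀ j : ℤ, dist (γ (((j : ℝ)) / N : ℝ)) (γ (((j : ℝ) + 1) / N : ℝ)) < L.r0 := by
    intro j
    refine hγ _ _ (le_of_eq ?_)
    rw [← sub_div, abs_div, abs_of_pos hN']
    congr 1
    rw [show (j : ℝ) - (j + 1) = -1 by ring, abs_neg, abs_one]
  have hfu := Int.floor_le ((N : ℝ) * u)
  have hfu' := Int.lt_floor_add_one ((N : ℝ) * u)
  set i : ℤ := ⌊(N : ℝ) * u⌋ with hi
  have huv' : (N : ℝ) * u ≤ N * v := mul_le_mul_of_nonneg_left huv hN'.le
  have hv' : (N : ℝ) * v ≤ N * u + 1 := by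
    have := mul_le_mul_of_nonneg_left h hN'.le
    rw [mul_one_div, div_self hN'.ne'] at this
    linarith
  have e1 := pf_eq L hN hγ i hfu hfu'.le
  rcases le_or_gt ((N : ℝ) * v) (i + 1) with hv | hv
  · have e2 := pf_eq L hN hγ i (hfu.trans huv') hv
    rw [e1, e2, L.dist_seg (hd i) ⟨by linarith, by linarith⟩ ⟨by linarith, by linarith⟩]
    rw [abs_sub_comm, abs_of_nonneg (by linarith)]
    have := mul_le_mul_of_nonneg_left (hρ i) (show 0 ≤ (N : ℝ) * v - i - (N * u - i) by linarith)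
    refine this.trans (le_of_eq ?_)
    ring
  · have e2 := pf_eq L hN hγ (i + 1) (u := v) (by push_cast; linarith) (by push_cast; linarith)
    have hc1 : dist (pf L N γ u) (γ (((i : ℝ) + 1) / N : ℝ)) ≤ (i + 1 - N * u) * ρ := by
      rw [e1, L.dist_right (hd i) ⟨by linarith, by linarith⟩]
      have := mul_le_mul_of_nonneg_left (hρ i) (show 0 ≤ 1 - ((N : ℝ) * u - i) by linarith)
      refine this.trans (le_of_eq ?_)
      ring
    have hd2 := hd (i + 1)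
    have hr2 := hρ (i + 1)
    push_cast at e2 hd2 hr2
    have hc2 : dist (γ (((i : ℝ) + 1) / N : ℝ)) (pf L N γ v) ≤ (N * v - (i + 1)) * ρ := by
      rw [e2, L.dist_left hd2 ⟨by linarith, by linarith⟩]
      exact mul_le_mul_of_nonneg_left hr2 (by linarith)
    refine (dist_triangle _ _ _).trans ((add_le_add hc1 hc2).trans (le_of_eq ?_))
    ring

theorem continuous_pf {N : ℕ} (hN : 0 < N) {γ : Lp M} (hγ : γ ∈ Dom M L.r0 N) :
    Continuous (pf L N γ) := by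
  have hN' : (0 : ℝ) < N := by exact_mod_cast hN
  refine Metric.continuous_iff.2 fun v ε hε => ?_
  refine ⟨min (1 / N) (ε / (N * L.r0 + 1)), ?_, ?_⟩
  · have := L.r0_pos
    positivity
  intro u hu
  have hr : ∀ i : ℤ, dist (γ (((i : ℝ)) / N : ℝ)) (γ (((i : ℝ) + 1) / N : ℝ)) ≤ L.r0 := by
    intro j
    refine (hγ _ _ (le_of_eq ?_)).le
    rw [← sub_div, abs_div, abs_of_pos hN']
    congr 1
    rw [show (j : ℝ) - (j + 1) = -1 by ring, abs_neg, abs_one]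
  have h1 := (lt_min_iff.1 hu).1
  have h2 := (lt_min_iff.1 hu).2
  have hden : 0 < N * L.r0 + 1 := by have := L.r0_pos; positivity
  rw [Real.dist_eq] at h1 h2
  rw [lt_div_iff₀ hden] at h2
  have key : dist (pf L N γ u) (pf L N γ v) ≤ N * L.r0 * |u - v| := by
    rcases le_total u v with huv | huv
    · have := dist_pf_le L hN hγ hr huv (by rw [abs_sub_comm, abs_of_nonneg (by linarith)] at h1; exact h1.le)
      rwa [abs_sub_comm, abs_of_nonneg (by linarith)]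
    · have := dist_pf_le L hN hγ hr huv (by rw [abs_of_nonneg (by linarith)] at h1; exact h1.le)
      rwa [dist_comm, abs_of_nonneg (by linarith)]
  refine key.trans_lt ?_
  have := abs_nonneg (u - v)
  nlinarith [L.r0_pos]

open Classical in
/-- the inscribed polygon with vertices `γ (i/N)` -/
def pl (N : ℕ) (γ : Lp M) : Lp M :=
  if h : 0 < N ∧ γ ∈ Dom M L.r0 N then
    ⟨AddCircle.liftIco 1 0 (pf L N γ), AddCircle.liftIco_continuous
      (by rw [pf_add_one L h.1]) (continuous_pf L h.1 h.2).continuousOn⟩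
  else γ

theorem pl_coe {N : ℕ} (hN : 0 < N) {γ : Lp M} (hγ : γ ∈ Dom M L.r0 N) (u : ℝ) :
    pl L N γ (u : UnitAddCircle) = pf L N γ u := by
  rw [pl, dif_pos ⟨hN, hγ⟩]
  show AddCircle.liftIco 1 0 (pf L N γ) (u : UnitAddCircle) = pf L N γ u
  have hper : Function.Periodic (pf L N γ) 1 := pf_add_one L hN γ
  have h1 : (u : UnitAddCircle) = ((Int.fract u : ℝ) : UnitAddCircle) := by
    rw [AddCircle.coe_fract]
  have h2 : Int.fract u ∈ Ico (0 : ℝ) (0 + 1) := ⟨Int.fract_nonneg u, by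
    rw [zero_add]; exact Int.fract_lt_one u⟩
  rw [h1, AddCircle.liftIco_coe_apply h2]
  have h3 := hper.sub_int_mul_eq (x := u) ⌊u⌋
  rw [mul_one] at h3
  exact h3

theorem dist_grid_lt {N : ℕ} (hN : 0 < N) {ρ : ℝ} {γ : Lp M} (hγ : γ ∈ Dom M ρ N) (j : ℤ) :
    dist (γ (((j : ℝ)) / N : ℝ)) (γ (((j : ℝ) + 1) / N : ℝ)) < ρ := by
  have hN' : (0 : ℝ) < N := by exact_mod_cast hN
  refine hγ _ _ (le_of_eq ?_)
  rw [← sub_div, abs_div, abs_of_pos hN']
  congr 1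
  rw [show (j : ℝ) - (j + 1) = -1 by ring, abs_neg, abs_one]

/-- polygons are Lipschitz -/
theorem pl_mem_X_of {N : ℕ} (hN : 0 < N) {γ : Lp M} (hγ : γ ∈ Dom M L.r0 N) {ρ : ℝ}
    (hρ : ∀ i : ℤ, dist (γ (((i : ℝ)) / N : ℝ)) (γ (((i : ℝ) + 1) / N : ℝ)) ≤ ρ) :
    pl L N γ ∈ X M (N * ρ) := by
  have hN' : (0 : ℝ) < N := by exact_mod_cast hN
  refine GSmithx651.mem_X_of_local (d := min (1 / N) (1 / 2)) (by positivity) fun x y hxy => ?_
  obtain ⟨a, rfl, ha, ha2⟩ := GSmithx651.exists_real x y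
  induction x using QuotientAddGroup.induction_on with | _ u => ?_
  have h1 := (lt_min_iff.1 hxy).1.le
  rw [← ha] at h1 ⊢
  have e : (u : UnitAddCircle) + (a : UnitAddCircle) = ((u + a : ℝ) : UnitAddCircle) := by
    rw [AddCircle.coe_add]
  change dist (pl L N γ (u : UnitAddCircle)) (pl L N γ ((u : UnitAddCircle) + (a : UnitAddCircle))) ≤ _
  rw [e, pl_coe L hN hγ, pl_coe L hN hγ]
  rcases le_total 0 a with h | h
  · rw [abs_of_nonneg h] at h1 ⊢
    have := dist_pf_le L hN hγ hρ (u := u) (v := u + a) (by linarith) (by linarith)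
    rwa [add_sub_cancel_left] at this
  · rw [abs_of_nonpos h] at h1 ⊢
    have := dist_pf_le L hN hγ hρ (u := u + a) (v := u) (by linarith) (by linarith)
    rw [dist_comm]
    refine this.trans (le_of_eq ?_)
    ring

theorem pl_mem_X {N : ℕ} (hN : 0 < N) {γ : Lp M} (hγ : γ ∈ Dom M L.r0 N) :
    pl L N γ ∈ X M (N * L.r0) :=
  pl_mem_X_of L hN hγ fun i => (dist_grid_lt hN hγ i).le

/-- polygons do not increase the Lipschitz constant -/
theorem pl_mem_X' {N : ℕ} (hN : 0 < N) {t : ℝ} {γ : Lp M} (hγ : γ ∈ Dom M L.r0 N)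
    (ht : γ ∈ X M t) : pl L N γ ∈ X M t := by
  have hN' : (0 : ℝ) < N := by exact_mod_cast hN
  have h := pl_mem_X_of L hN hγ (ρ := t / N) fun i => by
    refine (ht _ _).trans (le_of_eq ?_)
    rw [← sub_div, abs_div, abs_of_pos hN']
    rw [show (i : ℝ) - (i + 1) = -1 by ring, abs_neg, abs_one]
    ring
  rwa [mul_div_cancel₀ _ hN'.ne'] at h

theorem pl_zero {N : ℕ} (hN : 0 < N) {γ : Lp M} (hγ : γ ∈ Dom M L.r0 N) : pl L N γ 0 = γ 0 := by
  have := pl_coe L hN hγ 0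
  rw [pf_zero L hN hγ] at this
  exact this

theorem pl_const {N : ℕ} (hN : 0 < N) {γ : Lp M} (hγ : γ ∈ X M 0) : pl L N γ = γ := by
  have hD : γ ∈ Dom M L.r0 N := X_subset_Dom hN (by
    have := L.r0_pos
    have hN' : (0 : ℝ) < N := by exact_mod_cast hN
    positivity) hγ
  have h1 := mem_X_zero.1 (pl_mem_X' L hN hD hγ)
  have h2 := mem_X_zero.1 hγ
  ext x
  rw [h1 x, h2 x, pl_zero L hN hD]

/-- **continuity of the polygon map** -/
theorem continuousOn_pl [CompactSpace M] {N : ℕ} (hN : 0 < N) :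
    ContinuousOn (pl L N) (Dom M L.r0 N) := by
  have hN' : (0 : ℝ) < N := by exact_mod_cast hN
  rw [continuousOn_iff_continuous_domRestrict]
  refine cont_to_loop ?_
  have hcov : ⋃ i : Fin N, {p : Dom M L.r0 N × Icc (0 : ℝ) 1 |
      ((i : ℕ) : ℝ) ≤ N * (p.2 : ℝ) ∧ (N : ℝ) * p.2 ≤ (i : ℕ) + 1} = univ := by
    refine eq_univ_of_forall fun p => mem_iUnion.2 ?_
    obtain ⟨γ, u, hu0, hu1⟩ := p
    rcases hu1.eq_or_lt with h | h
    · refine ⟨⟨N - 1, by omega⟩, ?_, ?_⟩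
      · show ((N - 1 : ℕ) : ℝ) ≤ N * u
        rw [h, mul_one]
        exact_mod_cast Nat.sub_le _ _
      · show (N : ℝ) * u ≤ ((N - 1 : ℕ) : ℝ) + 1
        rw [h, mul_one]
        have : ((N - 1 : ℕ) : ℝ) + 1 = N := by
          rw [Nat.cast_sub hN]; simp
        rw [this]
    · have h0 : 0 ≤ (N : ℝ) * u := mul_nonneg hN'.le hu0
      have h3 : ⌊(N : ℝ) * u⌋₊ < N := by
        rw [Nat.floor_lt h0]
        calc (N : ℝ) * u < N * 1 := mul_lt_mul_of_pos_left h hN'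
          _ = N := mul_one _
      exact ⟨⟨⌊(N : ℝ) * u⌋₊, h3⟩, Nat.floor_le h0, (Nat.lt_floor_add_one _).le⟩
  refine (locallyFinite_of_finite _).continuous hcov ?_ ?_
  · intro i
    have hc : Continuous (fun p : Dom M L.r0 N × Icc (0 : ℝ) 1 => (N : ℝ) * (p.2 : ℝ)) :=
      continuous_const.mul (continuous_subtype_val.comp continuous_snd)
    have h1 : IsClosed {p : Dom M L.r0 N × Icc (0 : ℝ) 1 | ((i : ℕ) : ℝ) ≤ (N : ℝ) * (p.2 : ℝ)} :=
      isClosed_le continuous_const hc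
    have h2 : IsClosed {p : Dom M L.r0 N × Icc (0 : ℝ) 1 | (N : ℝ) * (p.2 : ℝ) ≤ ((i : ℕ) : ℝ) + 1} :=
      isClosed_le hc continuous_const
    exact h1.inter h2
  · intro i
    have he : EqOn (fun p : Dom M L.r0 N × Icc (0 : ℝ) 1 =>
        (Dom M L.r0 N).domRestrict (pl L N) p.1 ((p.2 : ℝ) : UnitAddCircle))
        (fun p => L.seg (p.1.1 ((((i : ℕ) : ℤ) : ℝ) / N : ℝ))
          (p.1.1 (((((i : ℕ) : ℤ) : ℝ) + 1) / N : ℝ)) (N * (p.2 : ℝ) - (((i : ℕ) : ℤ) : ℝ)))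
        {p | ((i : ℕ) : ℝ) ≤ N * (p.2 : ℝ) ∧ (N : ℝ) * p.2 ≤ (i : ℕ) + 1} := by
      intro p hp
      show pl L N p.1.1 ((p.2 : ℝ) : UnitAddCircle) = _
      rw [pl_coe L hN p.1.2]
      exact pf_eq L hN p.1.2 ((i : ℕ) : ℤ) (by exact_mod_cast hp.1) (by exact_mod_cast hp.2)
    refine ContinuousOn.congr ?_ he
    refine L.continuousOn_seg' ?_ ?_ ?_ ?_ ?_
    · exact ((continuous_eval_const _).comp (continuous_subtype_val.comp continuous_fst)).continuousOn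
    · exact ((continuous_eval_const _).comp (continuous_subtype_val.comp continuous_fst)).continuousOn
    · exact ((continuous_const.mul (continuous_subtype_val.comp continuous_snd)).sub
        continuous_const).continuousOn
    · intro p _
      exact dist_grid_lt hN p.1.2 _
    · intro p hp
      have h1 : (((i : ℕ) : ℤ) : ℝ) = ((i : ℕ) : ℝ) := by push_cast; rfl
      rw [h1]
      exact ⟨by linarith [hp.1], by linarith [hp.2]⟩

end Crest.Agent.R231.Cmpx952
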