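import Crest.Agent.R231.PairH_877

/-!
# Row 231 (S0357): supports, small chains, excision for pairs of subsets (helper877)

* `prS X` : the projection to the simplices contained in `X`; `CS_inter : CS X ⊓ CS Y = CS (X ∩ Y)`
* `small2_top`, `small2` : small chains for two sets; `smallFam_top`, `smallFam` for families
* `exc_surj`, `exc_inj`, `HP.exc_bijective` : excision
* `exists_isCompact`, `mem_CS_of_directed`, `CS_lt`
* `CS_union_disj`, `CS_inf_disj`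
-/

set_option autoImplicit false

noncomputable section

open Function Finsupp Topology Set
open Crest.Agent.R204

namespace Crest.Agent.R231.Pairx877

open SingAct265 EZ271 HtpInv334 Gr334

variable {E E' E'' : Type} [TopologicalSpace E] [TopologicalSpace E'] [TopologicalSpace E'']
  {X A B X' A' Y : Set E}

/-! ## supports -/

/-- the projection to the simplices contained in `X` -/
def prS (X : Set E) : CE E →ₗ[F2] CE E := N.map F2 (SS.SingMap (SpecA.inc X)) ∘ₗ res X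

theorem prS_sx {n : ℕ} {σ : (SS.Sing E).S n} (h : ∀ t, ev σ t ∈ X) :
    prS X (N.sx F2 σ) = N.sx F2 σ := by
  rw [prS, LinearMap.comp_apply, res_sx h, N.map_sx, map_rs]

theorem prS_sx_neg {n : ℕ} {σ : (SS.Sing E).S n} (h : ¬ ∀ t, ev σ t ∈ X) :
    prS X (N.sx F2 σ) = 0 := by
  rw [prS, LinearMap.comp_apply, res_sx_neg h, map_zero]

theorem prS_of_mem : ∀ c ∈ CS X, prS X c = c := map_inc_res

theorem prS_mem : ∀ c ∈ CS Y, prS X c ∈ CS (X ∩ Y) := by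
  refine map_mem_of_CS fun n σ h => ?_
  by_cases hx : ∀ t, ev σ t ∈ X
  · rw [prS_sx hx]; exact sx_mem_CS fun t => ⟨hx t, h t⟩
  · rw [prS_sx_neg hx]; exact Submodule.zero_mem _

theorem mem_CS_iff {c : CE E} : c ∈ CS X ↔ prS X c = c := by
  refine ⟨prS_of_mem c, fun h => ?_⟩
  rw [← h]
  have := prS_mem (X := X) c (Y := univ) (by rw [CS_univ]; trivial)
  rwa [inter_univ] at this

theorem CS_inter : CS (X ∩ Y) = CS X ⊓ CS Y := by
  refine le_antisymm (le_inf (CS_mono inter_subset_left) (CS_mono inter_subset_right)) ?_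
  rintro c ⟨h1, h2⟩
  rw [← prS_of_mem c h1]
  exact prS_mem c h2

theorem mem_CS_inter {c : CE E} (h1 : c ∈ CS X) (h2 : c ∈ CS Y) : c ∈ CS (X ∩ Y) := by
  rw [CS_inter]; exact ⟨h1, h2⟩

/-- the restriction to `X` of a chain in the sum of two supports -/
theorem mem_sup_iff_of_subset {c : CE E} (h : X ⊆ Y) (hc : c ∈ CS X ⊔ CS A) (hY : c ∈ CS Y) :
    c ∈ CS X ⊔ CS (A ∩ Y) := by
  obtain ⟨x, hx, a, ha, rfl⟩ := Submodule.mem_sup.1 hc
  have h1 : a ∈ CS Y := by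
    have := Submodule.sub_mem _ hY (CS_mono h hx)
    rwa [add_sub_cancel_left] at this
  exact Submodule.add_mem_sup hx (mem_CS_inter ha h1)

/-! ## compact supports -/

theorem isCompact_range_ev {n : ℕ} (σ : (SS.Sing E).S n) : IsCompact (range (ev σ)) :=
  isCompact_range (continuous_ev σ)

theorem exists_isCompact {c : CE E} (hc : c ∈ CS X) : ∃ K ⊆ X, IsCompact K ∧ c ∈ CS K := by
  refine Submodule.span_induction (p := fun c _ => ∃ K ⊆ X, IsCompact K ∧ c ∈ CS K) ?_ ?_ ?_ ?_ hc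
  · rintro _ ⟨n, σ, hσ, rfl⟩
    exact ⟨range (ev σ), range_subset_iff.2 hσ, isCompact_range_ev σ,
      sx_mem_CS fun t => mem_range_self t⟩
  · exact ⟨∅, empty_subset _, isCompact_empty, Submodule.zero_mem _⟩
  · rintro a b _ _ ⟨K, hK, hKc, ha⟩ ⟨L, hL, hLc, hb⟩
    exact ⟨K ∪ L, union_subset hK hL, hKc.union hLc,
      Submodule.add_mem _ (CS_mono subset_union_left ha) (CS_mono subset_union_right hb)⟩
  · rintro r a _ ⟨K, hK, hKc, ha⟩
    exact ⟨K, hK, hKc, Submodule.smul_mem _ _ ha⟩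

/-- a chain supported in a directed union lies in one member -/
theorem mem_CS_of_directed {ι : Type*} [Nonempty ι] {X : ι → Set E} (hd : Directed (· ⊆ ·) X)
    (ho : ∀ y ∈ ⋃ i, X i, ∃ i, X i ∈ 𝓝[⋃ i, X i] y) {c : CE E} (hc : c ∈ CS (⋃ i, X i)) :
    ∃ i, c ∈ CS (X i) := by
  obtain ⟨K, hK, hKc, hcK⟩ := exists_isCompact hc
  suffices h : ∃ i, K ⊆ X i by
    obtain ⟨i, hi⟩ := h
    exact ⟨i, CS_mono hi hcK⟩
  have h1 : ∀ y : E, ∃ i, ∃ O : Set E, IsOpen O ∧ (y ∈ K → y ∈ O) ∧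
      O ∩ (⋃ i, X i) ⊆ X i := by
    intro y
    by_cases hy : y ∈ K
    · obtain ⟨i, hi⟩ := ho y (hK hy)
      obtain ⟨O, hO, hyO, hOs⟩ := mem_nhdsWithin.1 hi
      exact ⟨i, O, hO, fun _ => hyO, hOs⟩
    · exact ⟨Classical.arbitrary ι, ∅, isOpen_empty, fun h => (hy h).elim, by simp⟩
  choose i O hO hyO hOs using h1
  obtain ⟨s, hs⟩ := hKc.elim_finite_subcover O hO (fun y hy => mem_iUnion.2 ⟨y, hyO y hy⟩)
  obtain ⟨j, hj⟩ : ∃ j, ∀ y ∈ s, X (i y) ⊆ X j := by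
    classical
    obtain ⟨j, hj⟩ := hd.finset_le (s.image i)
    exact ⟨j, fun y hy => hj _ (Finset.mem_image_of_mem _ hy)⟩
  refine ⟨j, fun y hy => ?_⟩
  obtain ⟨z, hz, hyz⟩ := mem_iUnion₂.1 (hs hy)
  exact hj z hz (hOs z ⟨hyz, hK hy⟩)

/-- chains in an open sublevel set lie in a smaller closed sublevel set -/
theorem mem_CS_lt {f : E → ℝ} (hf : ContinuousOn f X) {s : ℝ} {c : CE E}
    (hc : c ∈ CS {y | y ∈ X ∧ f y < s}) : ∃ s' < s, c ∈ CS {y | y ∈ X ∧ f y ≤ s'} := by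
  obtain ⟨K, hK, hKc, hcK⟩ := exists_isCompact hc
  rcases K.eq_empty_or_nonempty with rfl | hne
  · exact ⟨s - 1, by linarith, CS_mono (empty_subset _) hcK⟩
  · obtain ⟨y, hy, hmax⟩ := hKc.exists_isMaxOn hne (hf.mono fun y hy => (hK hy).1)
    have hs : K ⊆ {z | z ∈ X ∧ f z ≤ f y} := fun z hz => ⟨(hK hz).1, hmax hz⟩
    exact ⟨f y, (hK hy).2, CS_mono hs hcK⟩

/-! ## small chains -/

/-- simplices contained in a member of the family -/
theorem map_incl_cov_mem {Y : Type} [TopologicalSpace Y] (𝒰 : Set (Set Y))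
    (c : N F2 (Exc406.cov 𝒰).tk.K) :
    N.map F2 (Exc406.cov 𝒰).incl.hom c ∈ ⨆ U ∈ 𝒰, CS U := by
  refine N_induction (p := fun c => N.map F2 (Exc406.cov 𝒰).incl.hom c ∈ ⨆ U ∈ 𝒰, CS U) c ?_ ?_ ?_ ?_
  · rw [map_zero]; exact Submodule.zero_mem _
  · intro a b ha hb; rw [map_add]; exact Submodule.add_mem _ ha hb
  · intro r a ha; rw [map_smul]; exact Submodule.smul_mem _ _ ha
  · intro n x
    rw [N.map_sx]
    obtain ⟨σ, U, hU, h⟩ := x
    have h' : ∀ t, ev (Y := Y) σ t ∈ U := h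
    exact (le_iSup₂ (f := fun U (_ : U ∈ 𝒰) => CS U) U hU) (sx_mem_CS h')

theorem mem_range_incl_cov {Y : Type} [TopologicalSpace Y] {𝒰 : Set (Set Y)} {c : CE Y}
    (hc : c ∈ ⨆ U ∈ 𝒰, CS U) : ∃ b, N.map F2 (Exc406.cov 𝒰).incl.hom b = c := by
  have h : (⨆ U ∈ 𝒰, CS U) ≤ LinearMap.range (N.map F2 (Exc406.cov 𝒰).incl.hom) := by
    refine iSup₂_le fun U hU => CS_le fun n σ hσ => ?_
    let x : (Exc406.cov 𝒰).tk.K.S n := ⟨σ, U, hU, hσ⟩
    exact ⟨N.sx F2 x, N.map_sx _ _⟩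
  exact h hc

theorem rel_zero {K L : SS} (i : SS.Hom K L) (hinj : Injective (N.map F2 i))
    (hI : Injective (H.map F2 i)) (hS : Surjective (H.map F2 i)) {z : N F2 L} {b : N F2 K}
    (hb : N.map F2 i b = N.bd F2 L z) : ∃ m w, z = N.map F2 i m + N.bd F2 L w := by
  have hbd : ∀ c, N.bd F2 L (N.map F2 i c) = N.map F2 i (N.bd F2 _ c) := fun c => (map_bd' F2 i c).symm
  have hb0 : N.bd F2 _ b = 0 := by
    apply hinj
    rw [map_zero, ← hbd, hb, N.bd_bd]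
  have hbz : H.map F2 i (Hd.mk _ b hb0) = 0 := by
    have : Hd.mk (N.bd F2 _) (N.map F2 i b) (by rw [hbd, hb0, map_zero]) = 0 := by
      rw [Hd.mk_eq_zero]
      exact ⟨z, hb.symm⟩
    exact this
  have hb1 : Hd.mk (N.bd F2 _) b hb0 = 0 := hI (by rw [hbz, map_zero])
  rw [Hd.mk_eq_zero] at hb1
  obtain ⟨m, hm⟩ := hb1
  have hcyc : N.bd F2 L (z - N.map F2 i m) = 0 := by
    rw [map_sub, hbd, hm, hb, sub_self]
  obtain ⟨x, hx⟩ := hS (Hd.mk _ (z - N.map F2 i m) hcyc)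
  obtain ⟨m', hm', rfl⟩ := Hd.mk_surj _ x
  have hx' : Hd.mk (N.bd F2 _) (N.map F2 i m') (by rw [hbd, hm', map_zero]) =
    Hd.mk (N.bd F2 L) (z - N.map F2 i m) hcyc := hx
  rw [Hd.mk_eq_mk] at hx'
  obtain ⟨w, hw⟩ := hx'
  refine ⟨m' + m, -w, ?_⟩
  rw [map_neg, hw, map_add]; abel

theorem smallFam_top {Y : Type} [TopologicalSpace Y] (𝒰 : Set (Set Y))
    (h : ∀ y, ∃ U ∈ 𝒰, U ∈ 𝓝 y) {z : CE Y} (hz : bdE Y z ∈ ⨆ U ∈ 𝒰, CS U) :
    ∃ w : CE Y, z - bdE Y w ∈ ⨆ U ∈ 𝒰, CS U := by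
  obtain ⟨b, hb⟩ := mem_range_incl_cov hz
  obtain ⟨m, w, h1⟩ := rel_zero (L := SS.Sing Y) (Exc406.cov 𝒰).incl.hom
    ((Exc406.cov 𝒰).N_incl_inj F2) (Exc406.small_cover 𝒰 F2 h).1 (Exc406.small_cover 𝒰 F2 h).2 hb
  refine ⟨w, ?_⟩
  have h2 : z - bdE Y w = N.map F2 (Exc406.cov 𝒰).incl.hom m := by
    rw [h1]; exact add_sub_cancel_right _ _
  rw [h2]
  exact map_incl_cov_mem 𝒰 m

/-- **small chains** for a family of subsets of `X` whose relative interiors cover `X` -/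
theorem smallFam (X : Set E) {ι : Type*} (U : ι → Set E) (hU : ∀ i, U i ⊆ X)
    (h : ∀ y ∈ X, ∃ i, U i ∈ 𝓝[X] y) {z : CE E} (hz : z ∈ CS X) (hd : bdE E z ∈ ⨆ i, CS (U i)) :
    ∃ w ∈ CS X, z - bdE E w ∈ ⨆ i, CS (U i) := by
  have e1 : ∀ c ∈ (⨆ i, CS (U i)), res X c ∈ ⨆ V ∈ range (fun i => (Subtype.val ⁻¹' U i : Set X)),
      CS V := by
    have : (⨆ i, CS (U i)) ≤ (⨆ V ∈ range (fun i => (Subtype.val ⁻¹' U i : Set X)),
        CS V).comap (res X) := by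
      refine iSup_le fun i => CS_le fun n σ hσ => ?_
      have hx : ∀ t, ev σ t ∈ X := fun t => hU i (hσ t)
      rw [Submodule.mem_comap, res_sx hx]
      exact (le_iSup₂ (f := fun V (_ : V ∈ range (fun i => (Subtype.val ⁻¹' U i : Set X))) => CS V)
        _ ⟨i, rfl⟩) (sx_mem_CS hσ)
    exact this
  have e2 : ∀ c ∈ (⨆ V ∈ range (fun i => (Subtype.val ⁻¹' U i : Set X)), CS V),
      N.map F2 (SS.SingMap (SpecA.inc X)) c ∈ ⨆ i, CS (U i) := by
    have : (⨆ V ∈ range (fun i => (Subtype.val ⁻¹' U i : Set X)), CS V) ≤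
        (⨆ i, CS (U i)).comap (N.map F2 (SS.SingMap (SpecA.inc X))) := by
      refine iSup₂_le ?_
      rintro _ ⟨i, rfl⟩
      refine CS_le fun n σ hσ => ?_
      rw [Submodule.mem_comap, N.map_sx]
      exact (le_iSup (fun i => CS (U i)) i) (sx_mem_CS hσ)
    exact this
  obtain ⟨w, hw⟩ := smallFam_top (range (fun i => (Subtype.val ⁻¹' U i : Set X))) (fun y => by
    obtain ⟨i, hi⟩ := h y y.2
    exact ⟨_, ⟨i, rfl⟩, preimage_coe_mem_nhds_subtype.2 hi⟩) (z := res X z)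
    (by rw [bd_res z hz]; exact e1 _ hd)
  refine ⟨N.map F2 (SS.SingMap (SpecA.inc X)) w, ?_, ?_⟩
  · rw [CS_eq_range]; exact ⟨w, rfl⟩
  · have := e2 _ hw
    rwa [map_sub, map_inc_res z hz, map_bd'] at this

/-- **small chains** for two sets -/
theorem small2 {U V : Set E} (h : ∀ y ∈ U ∪ V, U ∈ 𝓝[U ∪ V] y ∨ V ∈ 𝓝[U ∪ V] y) {z : CE E}
    (hz : z ∈ CS (U ∪ V)) (hd : bdE E z ∈ CS U ⊔ CS V) :
    ∃ a ∈ CS U, ∃ b ∈ CS V, ∃ w ∈ CS (U ∪ V), z = a + b + bdE E w := by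
  have e : CS U ⊔ CS V = ⨆ b : Bool, CS (cond b U V) := by
    rw [iSup_bool_eq]; rfl
  rw [e] at hd
  obtain ⟨w, hw, h1⟩ := smallFam (U ∪ V) (fun b : Bool => cond b U V) (by
    rintro (_ | _)
    · exact subset_union_right
    · exact subset_union_left) (fun y hy => by
    rcases h y hy with h | h
    · exact ⟨true, h⟩
    · exact ⟨false, h⟩) hz hd
  rw [← e, Submodule.mem_sup] at h1
  obtain ⟨a, ha, b, hb, h2⟩ := h1
  exact ⟨a, ha, b, hb, w, hw, by rw [h2, sub_add_cancel]⟩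

/-! ## excision -/

theorem exc_surj {U V : Set E} (h : ∀ y ∈ U ∪ V, U ∈ 𝓝[U ∪ V] y ∨ V ∈ 𝓝[U ∪ V] y) {z : CE E}
    (hz : z ∈ Zp (U ∪ V) V) : ∃ c ∈ Zp U (U ∩ V), ∃ b ∈ CS V, ∃ w ∈ CS (U ∪ V),
      z = c + b + bdE E w := by
  obtain ⟨a, ha, b, hb, w, hw, rfl⟩ := small2 h hz.1 (Submodule.mem_sup_right hz.2)
  refine ⟨a, ⟨ha, ?_⟩, b, hb, w, hw, rfl⟩
  have h1 : bdE E (a + b + bdE E w) ∈ CS V := hz.2
  rw [map_add, map_add, bd_bdE, add_zero] at h1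
  have h2 := Submodule.sub_mem _ h1 (bd_mem_CS b hb)
  rw [add_sub_cancel_right] at h2
  exact mem_CS_inter (bd_mem_CS a ha) h2

theorem exc_inj {U V : Set E} (h : ∀ y ∈ U ∪ V, U ∈ 𝓝[U ∪ V] y ∨ V ∈ 𝓝[U ∪ V] y) {c : CE E}
    (hc : c ∈ CS U) (hb : c ∈ Bp (U ∪ V) V) : c ∈ Bp U (U ∩ V) := by
  rw [mem_Bp] at hb ⊢
  obtain ⟨w, hw, h1⟩ := hb
  have h2 : bdE E w ∈ CS U ⊔ CS V := by
    have : bdE E w = c + -(c - bdE E w) := by abel
    rw [this]
    exact Submodule.add_mem_sup hc (Submodule.neg_mem _ h1)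
  obtain ⟨a, ha, b, hb, w', hw', rfl⟩ := small2 h hw h2
  refine ⟨a, ha, mem_CS_inter (Submodule.sub_mem _ hc (bd_mem_CS a ha)) ?_⟩
  have e : c - bdE E a = (c - bdE E (a + b + bdE E w')) + bdE E b := by
    rw [map_add, map_add, bd_bdE]; abel
  rw [e]
  exact Submodule.add_mem _ h1 (bd_mem_CS b hb)

/-- **excision** -/
theorem HP.exc_bijective {U V : Set E} (h : ∀ y ∈ U ∪ V, U ∈ 𝓝[U ∪ V] y ∨ V ∈ 𝓝[U ∪ V] y) :
    Bijective (Hr.inc (d := bdE E) (CS_mono (subset_union_left : U ⊆ U ∪ V))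
      (CS_mono (inter_subset_right : U ∩ V ⊆ V))) := by
  constructor
  · rw [injective_iff_map_eq_zero]
    intro x hx
    obtain ⟨c, h1, h2, rfl⟩ := Hr.mk_surj x
    rw [Hr.inc_mk, HP_mk_eq_zero] at hx
    rw [HP_mk_eq_zero]
    exact exc_inj h h1 hx
  · intro x
    obtain ⟨z, h1, h2, rfl⟩ := Hr.mk_surj x
    obtain ⟨c, hc, b, hb, w, hw, rfl⟩ := exc_surj h ⟨h1, h2⟩
    refine ⟨Hr.mk _ _ _ c hc.1 hc.2, ?_⟩
    rw [Hr.inc_mk, Hr.mk_eq_mk]
    refine ⟨-w, Submodule.neg_mem _ hw, ?_⟩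
    have e : c - (c + b + bdE E w) - bdE E (-w) = -b := by rw [map_neg]; abel
    rw [e]
    exact Submodule.neg_mem _ hb

/-- the condition of `small2` for open sets -/
theorem cov_of_open {U V : Set E} (hU : IsOpen U) (hV : IsOpen V) :
    ∀ y ∈ U ∪ V, U ∈ 𝓝[U ∪ V] y ∨ V ∈ 𝓝[U ∪ V] y := by
  rintro y (hy | hy)
  · exact Or.inl (mem_nhdsWithin_of_mem_nhds (hU.mem_nhds hy))
  · exact Or.inr (mem_nhdsWithin_of_mem_nhds (hV.mem_nhds hy))

/-- the condition of `small2` for relatively open sets -/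
theorem cov_of_relopen {U V W W' : Set E} (hW : IsOpen W) (hW' : IsOpen W')
    (hU : U = W ∩ (U ∪ V)) (hV : V = W' ∩ (U ∪ V)) :
    ∀ y ∈ U ∪ V, U ∈ 𝓝[U ∪ V] y ∨ V ∈ 𝓝[U ∪ V] y := by
  rintro y (hy | hy)
  · left
    rw [mem_nhdsWithin]
    exact ⟨W, hW, by rw [hU] at hy; exact hy.1, hU.symm.subset⟩
  · right
    rw [mem_nhdsWithin]
    exact ⟨W', hW', by rw [hV] at hy; exact hy.1, hV.symm.subset⟩

/-! ## disjoint unions -/

/-- a simplex with values in a disjoint union of two relatively open sets lies in one of them -/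
theorem simplex_disj {U V : Set E} (hd : Disjoint U V) (hU : ∀ y ∈ U, U ∈ 𝓝[U ∪ V] y)
    (hV : ∀ y ∈ V, V ∈ 𝓝[U ∪ V] y) {n : ℕ} {σ : (SS.Sing E).S n} (h : ∀ t, ev σ t ∈ U ∪ V) :
    (∀ t, ev σ t ∈ U) ∨ (∀ t, ev σ t ∈ V) := by
  have key : ∀ {U V : Set E}, (∀ y ∈ U, U ∈ 𝓝[U ∪ V] y) → (∀ t, ev σ t ∈ U ∪ V) →
      IsOpen {t | ev σ t ∈ U} := by
    intro U V hU h
    rw [isOpen_iff_mem_nhds]
    intro t ht
    obtain ⟨O, hO, hyO, hOs⟩ := mem_nhdsWithin.1 (hU _ ht)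
    refine Filter.mem_of_superset ((hO.preimage (continuous_ev σ)).mem_nhds hyO) fun s hs => ?_
    exact hOs ⟨hs, h s⟩
  have o1 := key hU h
  have o2 := key (U := V) (V := U) (by rwa [union_comm]) (by rwa [union_comm])
  have hc : {t | ev σ t ∈ U}ᶜ = {t | ev σ t ∈ V} := by
    ext t
    constructor
    · intro ht
      exact (h t).resolve_left ht
    · intro ht ht'
      exact disjoint_left.1 hd ht' ht
  have hcl : IsClopen {t | ev σ t ∈ U} := ⟨by rw [← isOpen_compl_iff, hc]; exact o2, o1⟩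
  have : PreconnectedSpace (stdSimplex ℝ (Fin (n + 1))) :=
    isPreconnected_iff_preconnectedSpace.1 (convex_stdSimplex ℝ (Fin (n + 1))).isPreconnected
  rcases isClopen_iff.1 hcl with h0 | h0
  · right
    intro t
    have : t ∈ {t | ev σ t ∈ U}ᶜ := by rw [h0]; simp
    rw [hc] at this
    exact this
  · left
    intro t
    have : t ∈ {t | ev σ t ∈ U} := by rw [h0]; trivial
    exact this

theorem CS_union_disj {U V : Set E} (hd : Disjoint U V) (hU : ∀ y ∈ U, U ∈ 𝓝[U ∪ V] y)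
    (hV : ∀ y ∈ V, V ∈ 𝓝[U ∪ V] y) : CS (U ∪ V) = CS U ⊔ CS V := by
  refine le_antisymm (CS_le fun n σ h => ?_)
    (sup_le (CS_mono subset_union_left) (CS_mono subset_union_right))
  rcases simplex_disj hd hU hV h with h | h
  · exact Submodule.mem_sup_left (sx_mem_CS h)
  · exact Submodule.mem_sup_right (sx_mem_CS h)

theorem CS_inf_disj {U V : Set E} (hd : Disjoint U V) : Disjoint (CS U) (CS V) := by
  rw [_root_.disjoint_iff, ← CS_inter, disjoint_iff_inter_eq_empty.1 hd, CS_empty]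

/-- a relative cycle of a disjoint union splits -/
theorem Zp_union_disj {U V : Set E} (hd : Disjoint U V) (hU : ∀ y ∈ U, U ∈ 𝓝[U ∪ V] y)
    (hV : ∀ y ∈ V, V ∈ 𝓝[U ∪ V] y) (A : Set E) :
    Zp (U ∪ V) A = Zp U (A ∩ U) ⊔ Zp V (A ∩ V) := by
  refine le_antisymm ?_ (sup_le (Zp_mono subset_union_left inter_subset_left)
    (Zp_mono subset_union_right inter_subset_left))
  rintro c ⟨h1, h2⟩
  have h1' : c ∈ CS U ⊔ CS V := by rw [← CS_union_disj hd hU hV]; exact h1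
  obtain ⟨a, ha, b, hb, rfl⟩ := Submodule.mem_sup.1 h1' 
  have h2' : bdE E a + bdE E b ∈ CS A := by rw [← map_add]; exact h2
  have hpa : ∀ x ∈ CS V, prS U x = 0 := by
    intro x hx
    have := prS_mem (X := U) x hx
    rwa [disjoint_iff_inter_eq_empty.1 hd, CS_empty, Submodule.mem_bot] at this
  have hpb : ∀ x ∈ CS U, prS V x = 0 := by
    intro x hx
    have := prS_mem (X := V) x hx
    rwa [inter_comm, disjoint_iff_inter_eq_empty.1 hd, CS_empty, Submodule.mem_bot] at this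
  refine Submodule.add_mem_sup ⟨ha, ?_⟩ ⟨hb, ?_⟩
  · have := prS_mem (X := U) _ h2'
    rw [map_add, prS_of_mem _ (bd_mem_CS a ha), hpa _ (bd_mem_CS b hb), add_zero, inter_comm] at this
    exact this
  · have := prS_mem (X := V) _ h2'
    rw [map_add, prS_of_mem _ (bd_mem_CS b hb), hpb _ (bd_mem_CS a ha), zero_add, inter_comm] at this
    exact this

end Crest.Agent.R231.Pairx877
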