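import Crest.Agent.R231.CmpHt_952
import Crest.Agent.R231.PairExc_877
import Crest.Agent.R231.TSub_569

/-!
# Row 231 (S0357): COMPARISON of Lipschitz loops with all continuous loops (helper952)

`Good L P` : the set `P` of loops is preserved by the polygon homotopy `ht` (true for every condition
on `γ 0`, for `X M t`, for unions and intersections).  For good sets `Q`, `P`:

* `C1` : a relative cycle of `(P, Q)` is homologous to one with Lipschitz support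
* `C2` : a Lipschitz relative cycle of `(P, Q)` which bounds, bounds with Lipschitz support
* `operator` : the chain operators behind it
-/

set_option autoImplicit false
set_option linter.unusedSectionVars false

noncomputable section

open Set Filter Topology
open Crest.Agent.R204
open Crest.Agent.R231.GLugx576 Crest.Agent.R231.Pairx877

namespace Crest.Agent.R231.Cmpx952

variable {M : Type} [MetricSpace M] [CompactSpace M] (L : LUG M)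

/-- sets of loops preserved by the polygon homotopy -/
def Good (P : Set (Lp M)) : Prop :=
  ∀ N : ℕ, 0 < N → ∀ γ ∈ P, γ ∈ Dom M L.r0 N → ∀ r ∈ Icc (0 : ℝ) 1, ht L N γ r ∈ P

theorem good_univ : Good L (univ : Set (Lp M)) := fun _ _ _ _ _ _ _ => trivial
theorem good_empty : Good L (∅ : Set (Lp M)) := fun _ _ _ h => h.elim
theorem good_X (t : ℝ) : Good L (X M t) := fun _ hN _ h hD _ hr => ht_mem_X L hN hD h hr

/-- conditions on the base point of the loop -/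
theorem good_at (U : Set M) : Good L {γ : Lp M | γ 0 ∈ U} := fun _ hN γ h hD _ hr => by
  show ht L _ γ _ 0 ∈ U
  rw [ht_at_zero L hN hD hr]; exact h

theorem Good.inter {P Q : Set (Lp M)} (hP : Good L P) (hQ : Good L Q) : Good L (P ∩ Q) :=
  fun N hN γ h hD r hr => ⟨hP N hN γ h.1 hD r hr, hQ N hN γ h.2 hD r hr⟩

theorem Good.union {P Q : Set (Lp M)} (hP : Good L P) (hQ : Good L Q) : Good L (P ∪ Q) :=
  fun N hN γ h hD r hr => h.elim (fun h => Or.inl (hP N hN γ h hD r hr))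
    fun h => Or.inr (hQ N hN γ h hD r hr)

/-- **the chain operators**: `φ` = inscribed polygon, `P` = prism of the homotopy -/
theorem operator {K : Set (Lp M)} (hK : IsCompact K) (t₀ : ℝ) :
    ∃ (t₁ : ℝ) (A : Set (Lp M)) (φ P : CE (Lp M) →ₗ[F2] CE (Lp M)), t₀ ≤ t₁ ∧ K ⊆ A ∧ X M t₀ ⊆ A ∧
      (∀ c ∈ CS A, bdE (Lp M) (P c) = c + φ c + P (bdE (Lp M) c)) ∧
      (∀ c ∈ CS A, bdE (Lp M) (φ c) = φ (bdE (Lp M) c)) ∧
      (∀ B : Set (Lp M), Good L B → ∀ c ∈ CS (B ∩ A), P c ∈ CS B ∧ φ c ∈ CS (B ∩ X M t₁)) ∧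
      (∀ B : Set (Lp M), Good L B → ∀ t ≤ t₀, ∀ c ∈ CS (B ∩ X M t),
        P c ∈ CS (B ∩ X M t) ∧ φ c ∈ CS (B ∩ X M t)) ∧
      (∀ n, ∀ c ∈ N.gr F2 (SS.Sing (Lp M)) n, P c ∈ N.gr F2 (SS.Sing (Lp M)) (n + 1)) ∧
      (∀ n, ∀ c ∈ N.gr F2 (SS.Sing (Lp M)) n, φ c ∈ N.gr F2 (SS.Sing (Lp M)) n) := by
  obtain ⟨N₀, hN₀⟩ := exists_Dom (K := K ∪ X M t₀) (hK.union (isCompact_X t₀)) L.r0_pos
  obtain ⟨N₁, hN₁⟩ := exists_nat_gt (t₀ / L.r0)
  set k : ℕ := max (max N₀ N₁) 1 with hk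
  have hk0 : 0 < k := lt_of_lt_of_le one_pos (le_max_right _ _)
  have hkN : N₀ ≤ k := (le_max_left _ _).trans (le_max_left _ _)
  have hkN1 : N₁ ≤ k := (le_max_right _ _).trans (le_max_left _ _)
  have hsub := hN₀ k hkN hk0
  have hD : ∀ t ≤ t₀, X M t ⊆ Dom M L.r0 k := fun t ht =>
    (X_mono ht).trans (subset_union_right.trans hsub)
  obtain ⟨φ, P, h1, h2, h3, h4, h5, h6⟩ := deform (A := Dom M L.r0 k) (fun γ r => ht L k γ r)
    (continuousOn_ht L hk0) (fun γ hγ => ht_zero L hk0 hγ)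
  refine ⟨max t₀ (k * L.r0), Dom M L.r0 k, φ, P, le_max_left _ _, subset_union_left.trans hsub,
    hD t₀ le_rfl, h1, h2, ?_, ?_, h5, h6⟩
  · intro B hB c hc
    refine ⟨h3 (B ∩ Dom M L.r0 k) B inter_subset_right (fun γ hγ r hr =>
      hB k hk0 γ hγ.1 hγ.2 r hr) c hc, h4 (B ∩ Dom M L.r0 k) (B ∩ X M (max t₀ (k * L.r0)))
      inter_subset_right (fun γ hγ => ?_) c hc⟩
    refine ⟨hB k hk0 γ hγ.1 hγ.2 1 ⟨zero_le_one, le_rfl⟩, ?_⟩
    show ht L k γ 1 ∈ _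
    rw [ht_one L hk0 hγ.2]
    exact X_mono (le_max_right _ _) (pl_mem_X L hk0 hγ.2)
  · intro B hB t ht' c hc
    have hs : B ∩ X M t ⊆ Dom M L.r0 k := inter_subset_right.trans (hD t ht')
    exact ⟨h3 (B ∩ X M t) (B ∩ X M t) hs (fun γ hγ r hr => ⟨hB k hk0 γ hγ.1 (hD t ht' hγ.2) r hr,
        ht_mem_X L hk0 (hD t ht' hγ.2) hγ.2 hr⟩) c hc,
      h4 (B ∩ X M t) (B ∩ X M t) hs (fun γ hγ => ⟨hB k hk0 γ hγ.1 (hD t ht' hγ.2) 1 ⟨zero_le_one, le_rfl⟩,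
        ht_mem_X L hk0 (hD t ht' hγ.2) hγ.2 ⟨zero_le_one, le_rfl⟩⟩) c hc⟩

/-- **(C1)** every relative cycle of `(P, Q)` is homologous to one with Lipschitz support. -/
theorem C1 {P Q : Set (Lp M)} (hP : Good L P) (hQ : Good L Q) {c : CE (Lp M)} (h1 : c ∈ CS P)
    (h2 : bdE (Lp M) c ∈ CS Q) : ∃ (t : ℝ) (c' w : CE (Lp M)), c' ∈ CS (P ∩ X M t) ∧
      bdE (Lp M) c' ∈ CS (Q ∩ X M t) ∧ w ∈ CS P ∧ c - c' - bdE (Lp M) w ∈ CS Q ∧
      (∀ n, c ∈ N.gr F2 (SS.Sing (Lp M)) n → c' ∈ N.gr F2 (SS.Sing (Lp M)) n ∧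
        w ∈ N.gr F2 (SS.Sing (Lp M)) (n + 1)) := by
  obtain ⟨K, hKP, hK, hcK⟩ := exists_isCompact h1
  obtain ⟨K', hKQ, hK', hcK'⟩ := exists_isCompact h2
  obtain ⟨t, A, φ, Pr, -, hKA, -, e1, e2, e3, -, e5, e6⟩ := operator L (hK.union hK') 0
  have a1 : c ∈ CS (P ∩ A) := CS_mono (subset_inter hKP (subset_union_left.trans hKA)) hcK
  have a2 : bdE (Lp M) c ∈ CS (Q ∩ A) :=
    CS_mono (subset_inter hKQ (subset_union_right.trans hKA)) hcK'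
  have a3 : c ∈ CS A := CS_mono inter_subset_right a1
  refine ⟨t, φ c, Pr c, (e3 P hP c a1).2, ?_, (e3 P hP c a1).1, ?_, fun n hn => ⟨e6 n c hn, e5 n c hn⟩⟩
  · rw [e2 c a3]; exact (e3 Q hQ _ a2).2
  · have : c - φ c - bdE (Lp M) (Pr c) = Pr (bdE (Lp M) c) := by
      rw [e1 c a3, ZModModule.sub_eq_add, ZModModule.sub_eq_add]
      have h1 := add_self_CE c
      have h2 := add_self_CE (φ c)
      calc c + φ c + (c + φ c + Pr (bdE (Lp M) c)) = (c + c) + (φ c + φ c) + Pr (bdE (Lp M) c) := by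
            abel
        _ = _ := by rw [h1, h2]; abel
    rw [this]
    exact (e3 Q hQ _ a2).1

/-- **(C2)** a Lipschitz relative cycle of `(P, Q)` which bounds, bounds with Lipschitz support. -/
theorem C2 {P Q : Set (Lp M)} (hP : Good L P) (hQ : Good L Q) {t : ℝ} {c w : CE (Lp M)}
    (h1 : c ∈ CS (P ∩ X M t)) (h2 : bdE (Lp M) c ∈ CS (Q ∩ X M t)) (h3 : w ∈ CS P)
    (h4 : c - bdE (Lp M) w ∈ CS Q) : ∃ (t' : ℝ) (w' : CE (Lp M)), t ≤ t' ∧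
      w' ∈ CS (P ∩ X M t') ∧ c - bdE (Lp M) w' ∈ CS (Q ∩ X M t') ∧
      (∀ n, c ∈ N.gr F2 (SS.Sing (Lp M)) n → w ∈ N.gr F2 (SS.Sing (Lp M)) (n + 1) →
        w' ∈ N.gr F2 (SS.Sing (Lp M)) (n + 1)) := by
  obtain ⟨K, hKP, hK, hcK⟩ := exists_isCompact h3
  obtain ⟨K', hKQ, hK', hcK'⟩ := exists_isCompact h4
  obtain ⟨t₁, A, φ, Pr, ht₁, hKA, hXA, e1, e2, e3, e4, e5, e6⟩ := operator L (hK.union hK') t
  have a1 : w ∈ CS (P ∩ A) := CS_mono (subset_inter hKP (subset_union_left.trans hKA)) hcK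
  have a2 : c - bdE (Lp M) w ∈ CS (Q ∩ A) :=
    CS_mono (subset_inter hKQ (subset_union_right.trans hKA)) hcK'
  have a3 : w ∈ CS A := CS_mono inter_subset_right a1
  have a4 : c ∈ CS A := CS_mono (inter_subset_right.trans hXA) h1
  have b1 := e4 P hP t le_rfl c h1
  have b2 := e4 Q hQ t le_rfl _ h2
  have m1 : P ∩ X M t ⊆ P ∩ X M t₁ := inter_subset_inter_right _ (X_mono ht₁)
  have m2 : Q ∩ X M t ⊆ Q ∩ X M t₁ := inter_subset_inter_right _ (X_mono ht₁)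
  refine ⟨t₁, φ w + Pr c, ht₁, Submodule.add_mem _ (e3 P hP w a1).2 (CS_mono m1 b1.1), ?_,
    fun n hc hw => Submodule.add_mem _ (e6 _ w hw) (e5 n c hc)⟩
  have key : c - bdE (Lp M) (φ w + Pr c) = φ (c - bdE (Lp M) w) + Pr (bdE (Lp M) c) := by
    rw [map_add, e2 w a3, e1 c a4, map_sub, ZModModule.sub_eq_add, ZModModule.sub_eq_add]
    have h1 := add_self_CE c
    calc c + (φ (bdE (Lp M) w) + (c + φ c + Pr (bdE (Lp M) c))) =
        (c + c) + (φ c + φ (bdE (Lp M) w)) + Pr (bdE (Lp M) c) := by abel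
      _ = _ := by rw [h1, zero_add]
  rw [key]
  exact Submodule.add_mem _ (e3 Q hQ _ a2).2 (CS_mono m2 b2.1)

/-! ### the same with `WL M = ⨆ t, CS (X M t)` -/

open TActx569 in
theorem mem_CS_inf_WL {P : Set (Lp M)} {c : CE (Lp M)} :
    c ∈ CS P ⊓ WL M ↔ ∃ t, c ∈ CS (P ∩ X M t) := by
  rw [Submodule.mem_inf, mem_WL M]
  constructor
  · rintro ⟨h1, t, h2⟩
    exact ⟨t, mem_CS_inter h1 h2⟩
  · rintro ⟨t, h⟩
    exact ⟨CS_mono inter_subset_left h, t, CS_mono inter_subset_right h⟩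

open TActx569 in
theorem mem_WL_inter {P Q : Set (Lp M)} {t : ℝ} {c : CE (Lp M)} (h1 : c ∈ CS (P ∩ X M t))
    (h2 : bdE (Lp M) c ∈ CS Q) : bdE (Lp M) c ∈ CS (Q ∩ X M t) :=
  mem_CS_inter h2 (CS_mono inter_subset_right (bd_mem_CS c h1))

open TActx569 in
/-- **(C1)** in terms of `WL M` -/
theorem C1_WL {P Q : Set (Lp M)} (hP : Good L P) (hQ : Good L Q) {c : CE (Lp M)} (h1 : c ∈ CS P)
    (h2 : bdE (Lp M) c ∈ CS Q) : ∃ c' w : CE (Lp M), c' ∈ CS P ⊓ WL M ∧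
      bdE (Lp M) c' ∈ CS Q ⊓ WL M ∧ w ∈ CS P ∧ c - c' - bdE (Lp M) w ∈ CS Q ∧
      (∀ n, c ∈ N.gr F2 (SS.Sing (Lp M)) n → c' ∈ N.gr F2 (SS.Sing (Lp M)) n ∧
        w ∈ N.gr F2 (SS.Sing (Lp M)) (n + 1)) := by
  obtain ⟨t, c', w, a1, a2, a3, a4, a5⟩ := C1 L hP hQ h1 h2
  exact ⟨c', w, mem_CS_inf_WL.2 ⟨t, a1⟩, mem_CS_inf_WL.2 ⟨t, a2⟩, a3, a4, a5⟩

open TActx569 in
/-- **(C2)** in terms of `WL M` -/
theorem C2_WL {P Q : Set (Lp M)} (hP : Good L P) (hQ : Good L Q) {c w : CE (Lp M)}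
    (h1 : c ∈ CS P ⊓ WL M) (h2 : bdE (Lp M) c ∈ CS Q) (h3 : w ∈ CS P)
    (h4 : c - bdE (Lp M) w ∈ CS Q) : ∃ w' : CE (Lp M), w' ∈ CS P ⊓ WL M ∧
      c - bdE (Lp M) w' ∈ CS Q ⊓ WL M ∧
      (∀ n, c ∈ N.gr F2 (SS.Sing (Lp M)) n → w ∈ N.gr F2 (SS.Sing (Lp M)) (n + 1) →
        w' ∈ N.gr F2 (SS.Sing (Lp M)) (n + 1)) := by
  obtain ⟨t, ht⟩ := mem_CS_inf_WL.1 h1
  obtain ⟨t', w', -, a1, a2, a3⟩ := C2 L hP hQ ht (mem_WL_inter ht h2) h3 h4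
  exact ⟨w', mem_CS_inf_WL.2 ⟨t', a1⟩, mem_CS_inf_WL.2 ⟨t', a2⟩, a3⟩

open TActx569 in
/-- absolute version of (C1) -/
theorem C1_abs {P : Set (Lp M)} (hP : Good L P) {c : CE (Lp M)} (h1 : c ∈ CS P)
    (h2 : bdE (Lp M) c = 0) : ∃ c' w : CE (Lp M), c' ∈ CS P ⊓ WL M ∧ bdE (Lp M) c' = 0 ∧
      w ∈ CS P ∧ c = c' + bdE (Lp M) w ∧
      (∀ n, c ∈ N.gr F2 (SS.Sing (Lp M)) n → c' ∈ N.gr F2 (SS.Sing (Lp M)) n ∧
        w ∈ N.gr F2 (SS.Sing (Lp M)) (n + 1)) := by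
  obtain ⟨c', w, a1, a2, a3, a4, a5⟩ := C1_WL L hP (good_empty L) h1
    (by rw [h2]; exact Submodule.zero_mem _)
  rw [CS_empty] at a2 a4
  have b2 : bdE (Lp M) c' = 0 := by
    have := a2.1
    rwa [SetLike.mem_coe, Submodule.mem_bot] at this
  rw [Submodule.mem_bot] at a4
  refine ⟨c', w, a1, b2, a3, ?_, a5⟩
  rw [sub_sub, sub_eq_zero] at a4
  exact a4

open TActx569 in
/-- absolute version of (C2) -/
theorem C2_abs {P : Set (Lp M)} (hP : Good L P) {c w : CE (Lp M)} (h1 : c ∈ CS P ⊓ WL M)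
    (h3 : w ∈ CS P) (h4 : bdE (Lp M) w = c) : ∃ w' : CE (Lp M), w' ∈ CS P ⊓ WL M ∧
      bdE (Lp M) w' = c ∧
      (∀ n, c ∈ N.gr F2 (SS.Sing (Lp M)) n → w ∈ N.gr F2 (SS.Sing (Lp M)) (n + 1) →
        w' ∈ N.gr F2 (SS.Sing (Lp M)) (n + 1)) := by
  obtain ⟨w', a1, a2, a3⟩ := C2_WL L hP (good_empty L) h1
    (by rw [← h4, bd_bdE]; exact Submodule.zero_mem _) h3
    (by rw [h4, sub_self]; exact Submodule.zero_mem _)
  rw [CS_empty] at a2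
  have b2 : c - bdE (Lp M) w' = 0 := by
    have := a2.1
    rwa [SetLike.mem_coe, Submodule.mem_bot] at this
  exact ⟨w', a1, (sub_eq_zero.1 b2).symm, a3⟩

open TActx569 in
/-- free loops: a Lipschitz chain which bounds, bounds a Lipschitz chain -/
theorem map_bd_WL (L : LUG M) {c : CE (Lp M)} (hc : c ∈ WL M) (h : ∃ w, bdE (Lp M) w = c) :
    c ∈ (WL M).map (bdE (Lp M)) := by
  obtain ⟨w, hw⟩ := h
  have hu : CS (univ : Set (Lp M)) = ⊤ := CS_univ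
  obtain ⟨w', a1, a2, -⟩ := C2_abs L (good_univ L) (c := c) (w := w)
    ⟨by rw [hu]; trivial, hc⟩ (by rw [hu]; trivial) hw
  exact ⟨w', a1.2, a2⟩

end Crest.Agent.R231.Cmpx952
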