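import Crest.Agent.R231.GLoop_576

/-!
# Row 231, block T (helper150): concatenation of based loops, space level

`Om p` : loops based at `p`; `conc m : C(Fin m → Om p, Lp M)`, the `m` loops run through on the `m`
equal intervals of the circle.

* `loopOf`, `continuous_loopOf` : loops from 1-periodic functions of a real variable
* `conc_coe` : value at a real number in the slot `k ≤ m x ≤ k + 1`, `k : ℤ`
* `rot_conc`  : `rot (1/m) (conc f) = conc (f ∘ finRotate m)`
* `rev_conc`  : `rev (conc f) = conc (fun i => revO (f i.rev))`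
* `conc_mem`  : `f i ∈ X M t` for all `i` gives `conc f ∈ X M (m t)`
* `conc_zero`, `concO`, `conc_const`, `conc_same` (`= itr m`)
-/

set_option autoImplicit false
set_option linter.unusedSectionVars false

noncomputable section

open Set Filter Topology

namespace Crest.Agent.R231.Concx150

open GLugx576

section loopOf

variable {M : Type*} [TopologicalSpace M]

/-- the loop of a continuous 1-periodic function -/
def loopOf (F : ℝ → M) (hF : Continuous F) (hp : Function.Periodic F 1) : Lp M :=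
  ⟨hp.lift, by
    refine (QuotientAddGroup.isQuotientMap_mk (N := AddSubgroup.zmultiples (1 : ℝ))).continuous_iff.2 ?_
    exact hF⟩

@[simp] theorem loopOf_coe (F : ℝ → M) (hF : Continuous F) (hp : Function.Periodic F 1) (x : ℝ) :
    loopOf F hF hp (x : UnitAddCircle) = F x := rfl

theorem lp_ext {γ γ' : Lp M} (h : ∀ x : ℝ, γ (x : UnitAddCircle) = γ' (x : UnitAddCircle)) : γ = γ' := by
  ext x
  induction x using QuotientAddGroup.induction_on with | _ x => exact h x

end loopOf

section loopOfM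

variable {M : Type*} [MetricSpace M]

theorem continuous_loopOf {α : Type*} [TopologicalSpace α] (F : α → ℝ → M)
    (hF : Continuous (fun q : α × ℝ => F q.1 q.2)) (hp : ∀ a, Function.Periodic (F a) 1)
    (hc : ∀ a, Continuous (F a)) : Continuous (fun a => loopOf (F a) (hc a) (hp a)) := by
  refine cont_to_loop ?_
  have h : Continuous (fun q : α × Icc (0 : ℝ) 1 => ((q.1, (q.2 : ℝ)) : α × ℝ)) := by fun_prop
  exact hF.comp h

end loopOfM

/-! ## slots -/

section slots

variable (m : ℕ) [NeZero m]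

theorem mpos : (0 : ℤ) < (m : ℤ) := by exact_mod_cast NeZero.pos m

/-- the slot of an integer: residue mod `m` -/
def ix (k : ℤ) : Fin m :=
  ⟨(k % m).toNat, by
    have h1 := Int.emod_nonneg k (mpos m).ne'
    have h2 := Int.emod_lt_of_pos k (mpos m)
    omega⟩

theorem ix_val (k : ℤ) : (((ix m k : Fin m) : ℕ) : ℤ) = k % m := by
  have h1 := Int.emod_nonneg k (mpos m).ne'
  show (((k % m).toNat : ℕ) : ℤ) = k % m
  omega

theorem ix_ext {k : ℤ} {i : Fin m} (h : k % m = ((i : ℕ) : ℤ)) : ix m k = i := by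
  refine Fin.ext ?_
  have := ix_val m k
  rw [h] at this
  exact_mod_cast this

theorem ix_nat (i : Fin m) : ix m ((i : ℕ) : ℤ) = i :=
  ix_ext m (Int.emod_eq_of_lt (by positivity) (by exact_mod_cast i.2))

theorem ix_zero : ix m 0 = ⟨0, NeZero.pos m⟩ := ix_ext m (by simp)

theorem ix_add_period (k : ℤ) : ix m (k + m) = ix m k := by
  refine ix_ext m ?_
  rw [ix_val, Int.add_emod_right]

theorem ix_succ (k : ℤ) : ix m (k + 1) = finRotate m (ix m k) := by
  obtain ⟨n, rfl⟩ : ∃ n, m = n + 1 := ⟨m - 1, by have := NeZero.pos m; omega⟩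
  have hv := ix_val (n + 1) k
  set i := ix (n + 1) k
  refine ix_ext _ ?_
  have e : (k + 1) % ((n + 1 : ℕ) : ℤ) = (k % ((n + 1 : ℕ) : ℤ) + 1) % ((n + 1 : ℕ) : ℤ) := by
    rw [Int.emod_add_emod]
  rw [e, ← hv]
  rcases Nat.lt_or_ge (i : ℕ) n with h | h
  · have h1 : finRotate (n + 1) i = ⟨(i : ℕ) + 1, by omega⟩ := finRotate_of_lt h
    rw [h1]
    rw [Int.emod_eq_of_lt (by positivity) (by push_cast; omega)]
    push_cast; rfl
  · have h2 : i = Fin.last n := Fin.ext (by have := i.2; simp only [Fin.val_last]; omega)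
    rw [h2, finRotate_last]
    simp only [Fin.val_last, Fin.val_zero]
    have : ((n : ℕ) : ℤ) + 1 = ((n + 1 : ℕ) : ℤ) := by push_cast; ring
    rw [this, Int.emod_self]; rfl

theorem ix_neg (k : ℤ) : ix m (-k - 1) = (ix m k).rev := by
  have hv := ix_val m k
  set i := ix m k
  refine ix_ext _ ?_
  have hm := mpos m
  have hi := i.2
  have e : ((i.rev : Fin m) : ℕ) = m - 1 - i := by rw [Fin.val_rev]; omega
  have e2 : (((m - 1 - (i : ℕ) : ℕ)) : ℤ) = (m : ℤ) - 1 - (i : ℕ) := by omega
  rw [e, e2]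
  have h3 : -k - 1 = ((m : ℤ) - 1 - (i : ℕ)) + (m : ℤ) * (-(k / m) - 1) := by
    have := Int.emod_add_mul_ediv k m
    rw [← hv] at this
    linear_combination this
  rw [h3, Int.add_mul_emod_self_left]
  exact Int.emod_eq_of_lt (by omega) (by omega)

end slots

/-! ## based loops -/

section based

variable {M : Type*} [MetricSpace M]

/-- loops based at `p` -/
abbrev Om (p : M) : Type _ := {γ : Lp M // γ 0 = p}

variable {p : M}

theorem Om.int (γ : Om p) (k : ℤ) : γ.1 ((k : ℝ) : UnitAddCircle) = p := by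
  rw [coe_int_circle]; exact γ.2

theorem Om.add_int (γ : Om p) (x : ℝ) (k : ℤ) :
    γ.1 ((x + k : ℝ) : UnitAddCircle) = γ.1 (x : UnitAddCircle) := by rw [coe_add_int]

/-- inclusion -/
def ιO (p : M) : C(Om p, Lp M) := ⟨Subtype.val, continuous_subtype_val⟩

theorem rev_zero_eq (γ : Om p) : (rev γ.1 : Lp M) 0 = p := by
  rw [rev_apply, neg_zero]; exact γ.2

/-- reversal of based loops -/
def revO (q : M) : C(Om q, Om q) where
  toFun γ := ⟨rev γ.1, rev_zero_eq γ⟩
  continuous_toFun := Continuous.subtype_mk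
    ((ContinuousMap.continuous (rev : C(Lp M, Lp M))).comp continuous_subtype_val) _

theorem revO_coe (γ : Om p) : (revO p γ).1 = rev γ.1 := rfl

variable (m : ℕ) [NeZero m]

/-- concatenation as a function on the line -/
def concR (f : Fin m → Om p) (x : ℝ) : M := (f (ix m ⌊m * x⌋)).1 ((m * x : ℝ) : UnitAddCircle)

/-- value in a closed slot -/
theorem concR_eq (f : Fin m → Om p) {x : ℝ} {k : ℤ} (h1 : (k : ℝ) ≤ m * x) (h2 : m * x ≤ k + 1) :
    concR m f x = (f (ix m k)).1 ((m * x : ℝ) : UnitAddCircle) := by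
  unfold concR
  rcases h2.lt_or_eq with h | h
  · rw [Int.floor_eq_iff.2 ⟨h1, h⟩]
  · have e : (m : ℝ) * x = ((k + 1 : ℤ) : ℝ) := by rw [h]; push_cast; ring
    rw [e, Om.int, Om.int]

theorem concR_periodic (f : Fin m → Om p) : Function.Periodic (concR m f) 1 := by
  intro x
  unfold concR
  have e : (m : ℝ) * (x + 1) = m * x + ((m : ℤ) : ℝ) := by push_cast; ring
  rw [e, Int.floor_add_intCast, ix_add_period, Om.add_int]

theorem continuous_concR : Continuous (fun q : (Fin m → Om p) × ℝ => concR m q.1 q.2) := by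
  let S : ℤ → Set ((Fin m → Om p) × ℝ) := fun k => {q | (k : ℝ) ≤ m * q.2 ∧ (m : ℝ) * q.2 ≤ k + 1}
  have hcl : ∀ k, IsClosed (S k) := by
    intro k
    have e : S k = {q | (k : ℝ) ≤ m * q.2} ∩ {q | (m : ℝ) * q.2 ≤ k + 1} := by
      ext q; exact Iff.rfl
    rw [e]
    exact (isClosed_le (by fun_prop) (by fun_prop)).inter (isClosed_le (by fun_prop) (by fun_prop))
  have hcov : ⋃ k, S k = univ := by
    refine eq_univ_of_forall fun q => mem_iUnion.2 ⟨⌊(m : ℝ) * q.2⌋, Int.floor_le _, ?_⟩
    exact (Int.lt_floor_add_one _).le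
  have hlf : LocallyFinite S := by
    intro q
    refine ⟨{r | |(m : ℝ) * r.2 - m * q.2| < 1}, ?_, ?_⟩
    · refine (isOpen_lt (by fun_prop) continuous_const).mem_nhds ?_
      simp
    · refine (Set.finite_Icc (⌊(m : ℝ) * q.2⌋ - 2) (⌊(m : ℝ) * q.2⌋ + 2)).subset ?_
      rintro k ⟨r, ⟨h1, h2⟩, h3⟩
      rw [mem_ofPred_eq, abs_lt] at h3
      have h4 := Int.floor_le ((m : ℝ) * q.2)
      have h5 := Int.lt_floor_add_one ((m : ℝ) * q.2)
      constructor
      · have : ((⌊(m : ℝ) * q.2⌋ - 2 : ℤ) : ℝ) ≤ k := by push_cast; linarith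
        exact_mod_cast this
      · have : (k : ℝ) < ((⌊(m : ℝ) * q.2⌋ + 2 : ℤ) : ℝ) := by push_cast; linarith
        exact (by exact_mod_cast this : k < ⌊(m : ℝ) * q.2⌋ + 2).le
  refine hlf.continuous hcov hcl fun k => ?_
  have hk : Continuous (fun q : (Fin m → Om p) × ℝ => (q.1 (ix m k)).1 ((m * q.2 : ℝ) : UnitAddCircle)) := by
    have h : Continuous (fun q : (Fin m → Om p) × ℝ => ((q.1 (ix m k)).1, (m : ℝ) * q.2)) :=
      (continuous_subtype_val.comp ((continuous_apply (ix m k)).comp continuous_fst)).prodMk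
        (continuous_const.mul continuous_snd)
    exact continuous_evalR.comp h
  exact hk.continuousOn.congr fun q hq => concR_eq m q.1 hq.1 hq.2

theorem continuous_concR' (f : Fin m → Om p) : Continuous (concR m f) :=
  (continuous_concR m).comp (Continuous.prodMk_right f)

/-- **concatenation of `m` based loops** -/
def conc : C(Fin m → Om p, Lp M) :=
  ⟨fun f => loopOf (concR m f) (continuous_concR' m f) (concR_periodic m f),
    continuous_loopOf _ (continuous_concR m) _ _⟩

theorem conc_coe' (f : Fin m → Om p) (x : ℝ) : conc m f (x : UnitAddCircle) = concR m f x := rfl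

/-- value in a closed slot -/
theorem conc_coe (f : Fin m → Om p) {x : ℝ} {k : ℤ} (h1 : (k : ℝ) ≤ m * x) (h2 : m * x ≤ k + 1) :
    conc m f (x : UnitAddCircle) = (f (ix m k)).1 ((m * x : ℝ) : UnitAddCircle) :=
  concR_eq m f h1 h2

theorem conc_slot (f : Fin m → Om p) (i : Fin m) {s : ℝ} (h0 : 0 ≤ s) (h1 : s ≤ 1) :
    conc m f (((i + s) / m : ℝ) : UnitAddCircle) = (f i).1 (s : UnitAddCircle) := by
  have hm : (m : ℝ) ≠ 0 := by exact_mod_cast NeZero.ne m
  have e : (m : ℝ) * ((i + s) / m) = s + (((i : ℕ) : ℤ) : ℝ) := by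
    field_simp; push_cast; ring
  rw [conc_coe m f (k := ((i : ℕ) : ℤ)) (by rw [e]; linarith) (by rw [e]; linarith), e, ix_nat,
    coe_add_int]

/-- first slot -/
theorem conc_first (f : Fin m → Om p) {s : ℝ} (h0 : 0 ≤ s) (h1 : s ≤ 1) :
    conc m f ((s / m : ℝ) : UnitAddCircle) = (f ⟨0, NeZero.pos m⟩).1 (s : UnitAddCircle) := by
  have := conc_slot m f ⟨0, NeZero.pos m⟩ h0 h1
  rwa [Nat.cast_zero, zero_add] at this

@[simp] theorem conc_zero (f : Fin m → Om p) : conc m f 0 = p := by
  have h := conc_coe m f (x := 0) (k := 0) (by simp) (by simp)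
  rw [mul_zero] at h
  have h0 : ((0 : ℝ) : UnitAddCircle) = 0 := rfl
  rw [h0] at h
  rw [h]
  exact (f _).2

/-- concatenation with values in based loops -/
def concO : C(Fin m → Om p, Om p) :=
  ⟨fun f => ⟨conc m f, conc_zero m f⟩, (ContinuousMap.continuous _).subtype_mk _⟩

theorem concO_coe (f : Fin m → Om p) : (concO m f).1 = conc m f := rfl

/-- **rotation by `1/m`** -/
theorem rot_conc (f : Fin m → Om p) :
    rot ((1 / m : ℝ) : UnitAddCircle) (conc m f) = conc m (fun i => f (finRotate m i)) := by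
  have hm : (m : ℝ) ≠ 0 := by exact_mod_cast NeZero.ne m
  refine lp_ext fun x => ?_
  have h1 := Int.floor_le ((m : ℝ) * x)
  have h2 := (Int.lt_floor_add_one ((m : ℝ) * x)).le
  have e : (m : ℝ) * (x + 1 / m) = m * x + ((1 : ℤ) : ℝ) := by field_simp; push_cast; ring
  rw [conc_coe m _ h1 h2, rot_apply, ← AddCircle.coe_add,
    conc_coe m f (x := x + 1 / m) (k := ⌊(m : ℝ) * x⌋ + 1) (by rw [e]; push_cast; linarith)
      (by rw [e]; push_cast; linarith), ix_succ, e, Om.add_int]

/-- **reversal** -/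
theorem rev_conc (f : Fin m → Om p) :
    rev (conc m f) = conc m (fun i => revO p (f i.rev)) := by
  refine lp_ext fun x => ?_
  have h1 := Int.floor_le ((m : ℝ) * x)
  have h2 := (Int.lt_floor_add_one ((m : ℝ) * x)).le
  rw [conc_coe m _ h1 h2, rev_apply, ← AddCircle.coe_neg,
    conc_coe m f (x := -x) (k := -⌊(m : ℝ) * x⌋ - 1) (by push_cast; linarith)
      (by push_cast; linarith), ix_neg, revO_coe, rev_apply, ← AddCircle.coe_neg, mul_neg]

/-- **Lipschitz bound** -/
theorem conc_mem {t : ℝ} {f : Fin m → Om p} (h : ∀ i, (f i).1 ∈ X M t) : conc m f ∈ X M (m * t) := by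
  have ht : 0 ≤ t := nonneg_of_mem (h ⟨0, NeZero.pos m⟩)
  have key : ∀ x y : ℝ, x ≤ y → dist (conc m f x) (conc m f y) ≤ m * t * (y - x) := by
    intro x y hxy
    have hm : (0 : ℝ) ≤ m := Nat.cast_nonneg m
    have hmx : (m : ℝ) * x ≤ m * y := mul_le_mul_of_nonneg_left hxy hm
    have h1 := Int.floor_le ((m : ℝ) * x)
    have h2 := (Int.lt_floor_add_one ((m : ℝ) * x)).le
    have h3 := Int.floor_le ((m : ℝ) * y)
    have h4 := (Int.lt_floor_add_one ((m : ℝ) * y)).le
    rw [conc_coe m f h1 h2, conc_coe m f h3 h4]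
    rcases (Int.floor_le_floor hmx).eq_or_lt with hk | hk
    · rw [← hk]
      refine (h _ _ _).trans (le_of_eq ?_)
      rw [abs_sub_comm, abs_of_nonneg (by linarith)]
      ring
    · set k := ⌊(m : ℝ) * x⌋
      set l := ⌊(m : ℝ) * y⌋
      have hkl : ((k : ℝ)) + 1 ≤ l := by exact_mod_cast hk
      have a1 := (h (ix m k)) (m * x) ((k + 1 : ℤ) : ℝ)
      have a2 := (h (ix m l)) ((l : ℤ) : ℝ) (m * y)
      rw [Om.int] at a1 a2
      rw [abs_sub_comm, abs_of_nonneg (by push_cast; linarith)] at a1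
      rw [abs_sub_comm, abs_of_nonneg (by linarith)] at a2
      refine (dist_triangle _ p _).trans ((add_le_add a1 a2).trans ?_)
      rw [← mul_add]
      have e : (m : ℝ) * t * (y - x) = t * (m * y - m * x) := by ring
      rw [e]
      refine mul_le_mul_of_nonneg_left ?_ ht
      push_cast
      linarith
  intro x y
  rcases le_total x y with hxy | hxy
  · rw [abs_sub_comm, abs_of_nonneg (by linarith)]; exact key x y hxy
  · rw [dist_comm, abs_of_nonneg (by linarith)]; exact key y x hxy

/-- constant loop -/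
def cO (p : M) : Om p := ⟨ContinuousMap.const _ p, rfl⟩

theorem conc_const : conc m (fun _ => cO p) = ContinuousMap.const _ p := by
  refine lp_ext fun x => ?_
  rfl

/-- all entries equal: iteration -/
theorem conc_same (γ : Om p) : conc m (fun _ => γ) = itr m γ.1 := by
  refine lp_ext fun x => ?_
  rw [itr_coe]; rfl

end based

end Crest.Agent.R231.Concx150
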