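import Crest.Agent.R231.AlgForce_978
import Crest.Agent.R231.AlgSplit_796
import Crest.Agent.R231.AlgEnd_807

/-!
# Row 231: block A complete: `Core → False`  (helpers 978, 796, 807)
-/

set_option autoImplicit false

namespace Crest.Agent.R231.CoreFalsex978

open Crest.Agent.R231

theorem core_false (K : IfAx978.Core) : False := by
  obtain ⟨α, β, hF⟩ := AlgForcex978.forcing K
  exact AlgEndx807.false_of_split K α β hF.1 hF.2.1 (AlgSplitx796.splitOut K hF)

end Crest.Agent.R231.CoreFalsex978
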