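import Crest.Agent.R231.OmSp_725
import Crest.Agent.R231.FinDim_315
import Crest.Agent.R204.CrossInst_477
import Crest.Agent.R204.EZInst_847

/-!
# Row 231 (S0357), block P: LITERAL INTERFACE (helper797)

Text: helper490's note 1871 (relation (R)); model: 725's `Moore_725` (1-Lipschitz maps `ℝ → M`).
Everything is stated with types, continuous maps and mod 2 homology `HS Y = H F2 (Sing Y)`.

* `cx` cross product of spaces (Q2b proves its properties)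
* spaces = 725's `OmSp_725` : `OmT p t`, `Om2T p T`, `Qt p t`, `QW V p t`, `GG W t hR` (levels in `ℝ≥0`);
  here only the free loops `La`, `LaT`
* `CutData M p n` (Q7: exists for every metric on `S^n` bounded by a multiple of the chordal one)
* `POps` = abstract operations used by the algebra Q5; `POps.Strong` = output of Q5
* `WOps` = abstract operations for free loops (Q6); `WOps.BD` = output
-/

set_option autoImplicit false

noncomputable section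

open TensorProduct Set NNReal

namespace Crest.Agent.R231.IfPx797

open Crest.Agent.R204 Crest.Agent.R204.SpecA Crest.Agent.R231.FinDim315 Crest.Agent.R231.Moorex725
  Crest.Agent.R231.CutMx725 Crest.Agent.R231.OmSpx725

/-! ## homology of spaces -/

section spaces

variable {X Y : Type} [TopologicalSpace X] [TopologicalSpace Y]

/-- degree `j` part of the homology of a space -/
abbrev grS (X : Type) [TopologicalSpace X] (j : ℕ) : Submodule F2 (HS X) := H.gr F2 (SS.Sing X) j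

/-- cross product in the homology of spaces -/
def cx : HS X →ₗ[F2] HS Y →ₗ[F2] HS (X × Y) :=
  (TensorProduct.mk F2 (HS X) (HS Y)).compr₂
    (H.map F2 (HopfF2477.spr X Y) ∘ₗ (EZ847.crH (SS.Sing X) (SS.Sing Y)).toLinearMap)

/-- augmentation -/
abbrev augS (X : Type) [TopologicalSpace X] : HS X →ₗ[F2] F2 := Coalg847.eps (SS.Sing X)

/-- class of a point -/
def ptS (x : X) : HS X :=
  Coalg847.vtx (K := SS.Sing X) (SingAct265.mkS (fun _ => x) continuous_const)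

end spaces

/-! ## homology of based and free loops; levels in `ℝ≥0` -/

section loops

variable {M : Type} [MetricSpace M] (p : M)

/-- free Moore loops of length at most `t` -/
def La (M : Type) [MetricSpace M] (t : ℝ≥0) : Set (ℝ → M) := {g | ∃ z : M, g ∈ MP z z (t : ℝ)}

abbrev LaT (M : Type) [MetricSpace M] (t : ℝ≥0) : Type := {g : ℝ → M // g ∈ La M t}

theorem La_mono (M : Type) [MetricSpace M] {s t : ℝ≥0} (h : s ≤ t) : La M s ⊆ La M t :=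
  fun _ ⟨z, hz⟩ => ⟨z, MP_mono z z (NNReal.coe_le_coe.2 h) hz⟩

/-- inclusion of free loops -/
def incLaC (M : Type) [MetricSpace M] {s t : ℝ≥0} (h : s ≤ t) : C(LaT M s, LaT M t) :=
  ⟨Set.inclusion (La_mono M h), continuous_inclusion (La_mono M h)⟩

/-- `H(Om s) → H(Om t)` -/
def incH {s t : ℝ≥0} (h : s ≤ t) : HS (OmT p s) →ₗ[F2] HS (OmT p t) := Hm (inc h)

/-- `H(Om2 s) → H(Om2 t)` -/
def inc2H {s t : ℝ≥0} (h : s ≤ t) : HS (Om2T p s) →ₗ[F2] HS (Om2T p t) := Hm (inc2 h)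

/-- `H(La s) → H(La t)` -/
def incLa (M : Type) [MetricSpace M] {s t : ℝ≥0} (h : s ≤ t) : HS (LaT M s) →ₗ[F2] HS (LaT M t) :=
  Hm (incLaC M h)

/-- Pontryagin product `H(Om a) ⊗ H(Om b) → H(Om (a+b))` -/
def mulH (a b : ℝ≥0) : HS (OmT p a) →ₗ[F2] HS (OmT p b) →ₗ[F2] HS (OmT p (a + b)) :=
  cx.compr₂ (Hm (mul p a b))

/-- `(F, S) ↦ (F w, S)` -/
def mid1H (T a : ℝ≥0) : HS (Om2T p T) →ₗ[F2] HS (OmT p a) →ₗ[F2] HS (Om2T p (T + a)) :=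
  cx.compr₂ (Hm (mid1 p T a))

/-- `(F, S) ↦ (F, w S)` -/
def mid2H (T a : ℝ≥0) : HS (Om2T p T) →ₗ[F2] HS (OmT p a) →ₗ[F2] HS (Om2T p (T + a)) :=
  cx.compr₂ (Hm (mid2 p T a))

/-- `(F, S) ↦ (w F, S)` -/
def lmH (a T : ℝ≥0) : HS (OmT p a) →ₗ[F2] HS (Om2T p T) →ₗ[F2] HS (Om2T p (a + T)) :=
  cx.compr₂ (Hm (lm p a T))

/-- `(F, S) ↦ (F, S w)` -/
def rmH (T a : ℝ≥0) : HS (Om2T p T) →ₗ[F2] HS (OmT p a) →ₗ[F2] HS (Om2T p (T + a)) :=
  cx.compr₂ (Hm (rm p T a))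

/-- `(F, S) ↦ F w S` -/
def insH (T a : ℝ≥0) : HS (Om2T p T) →ₗ[F2] HS (OmT p a) →ₗ[F2] HS (OmT p (T + a)) :=
  cx.compr₂ (Hm (insm p T a))

/-- the constant loop -/
def oneH (t : ℝ≥0) : HS (OmT p t) := ptS (one p t)

end loops

/-! ## geometric data of the cut (Q7) -/

/-- cut data: `cT` = tethers `c z : z → p` inside `U = cT.V ∋ p`; `bT` = tethers `b z : z → q → p` for
`z ∈ V = bT.V`, `b z = a z · e`, `a z` inside `V`, `e` a fixed path crossing once from `V` to `U`;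
`S = U ∩ V` has the homology of `S^(n-1)` -/
structure CutData (M : Type) [MetricSpace M] (p : M) (n : ℕ) where
  hn : 2 ≤ n
  cT : Tether p
  bT : Tether p
  hL : cT.L = bT.L
  cover : cT.V ∪ bT.V = univ
  hp : p ∈ cT.V
  c_p : cT.T p = fun _ => p
  c_stay : ∀ z ∈ cT.V, ∀ s, cT.T z s ∈ cT.V
  q : M
  hq : q ∈ bT.V
  La : ℝ
  hLa : 0 ≤ La
  a : M → ℝ → M
  a_mem : ∀ z ∈ bT.V, a z ∈ MP z q La
  a_cont : ContinuousOn a bT.V
  a_stay : ∀ z ∈ bT.V, ∀ s, a z s ∈ bT.V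
  e : ℝ → M
  Le : ℝ
  hLe : 0 ≤ Le
  hLL : La + Le ≤ bT.L
  e_mem : e ∈ MP q p Le
  b_eq : ∀ z ∈ bT.V, bT.T z = cc La (a z) e
  s0 : ℝ
  e_V : ∀ s ≤ s0, e s ∈ bT.V
  e_U : ∀ s, s0 ≤ s → e s ∈ cT.V
  z0 : M
  hz0 : z0 ∈ cT.V ∩ bT.V
  sg : HS ↥(cT.V ∩ bT.V)
  sg_gr : sg ∈ grS ↥(cT.V ∩ bT.V) (n - 1)
  sg_ne : sg ≠ 0
  span : ∀ y : HS ↥(cT.V ∩ bT.V), ∃ α β : F2,
    y = α • ptS (⟨z0, hz0⟩ : ↥(cT.V ∩ bT.V)) + β • sg

namespace CutData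

variable {M : Type} [MetricSpace M] {p : M} {n : ℕ} (W : CutData M p n)

/-- `U ∩ V` -/
abbrev S : Set M := W.cT.V ∩ W.bT.V

/-- the common duration of the tethers -/
def ℓ : ℝ≥0 := ell W.bT

theorem ell_c : ell W.cT = W.ℓ := NNReal.coe_injective W.hL

/-- the loop `v z = b z⁻¹ · c z`, `z ∈ U ∩ V` -/
def v (z : M) : ℝ → M := cc W.bT.L (rev W.bT.L (W.bT.T z)) (W.cT.T z)

theorem v_mem {z : M} (hz : z ∈ W.S) : W.v z ∈ Om p ((W.ℓ + W.ℓ : ℝ≥0) : ℝ) := by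
  have h := cc_mem (rev_mem (W.bT.mem z hz.2)) (W.cT.mem z hz.1) W.bT.L_nonneg W.cT.L_nonneg
  rw [W.hL] at h
  exact h

/-- `v` as a continuous map -/
def vC : C(↥W.S, OmT p (W.ℓ + W.ℓ)) where
  toFun z := ⟨W.v z.1, W.v_mem z.2⟩
  continuous_toFun := by
    refine Continuous.subtype_mk ?_ _
    have hb : Continuous fun z : ↥W.S => W.bT.T z.1 :=
      W.bT.cont.comp_continuous continuous_subtype_val fun z => z.2.2
    have hc : Continuous fun z : ↥W.S => W.cT.T z.1 :=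
      W.cT.cont.comp_continuous continuous_subtype_val fun z => z.2.1
    have hr : Continuous fun z : ↥W.S => rev W.bT.L (W.bT.T z.1) :=
      continuous_rev (g := fun z : ↥W.S => W.bT.T z.1) (s := fun _ => W.bT.L) hb
        (fun z => (W.bT.mem _ z.2.2).1) continuous_const
    refine continuous_cc (a := fun z : ↥W.S => rev W.bT.L (W.bT.T z.1))
      (b := fun z : ↥W.S => W.cT.T z.1) (c := fun _ => W.bT.L) hr hc continuous_const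
      (fun z => (W.cT.mem _ z.2.1).1) fun z => ?_
    rw [rev_apply, sub_self, leftOf (W.bT.mem _ z.2.2) le_rfl, leftOf (W.cT.mem _ z.2.1) le_rfl]

/-- the class `x = v_*[S^(n-1)]` -/
def x : HS (OmT p (W.ℓ + W.ℓ)) := Hm W.vC W.sg

end CutData

/-- **relation (R) and derivation (D)** = output of Q4a, Q4b: `D` with the uniform loss `2ℓ`
(`GG` has target `Om2T p (t + 2ℓ)`); all identities after a loss `≤ k` -/
structure DOps {M : Type} [MetricSpace M] {p : M} {n : ℕ} (W : CutData M p n) where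
  D : ∀ t : ℝ≥0, HS (OmT p t) →ₗ[F2] HS (Om2T p (t + 2 * W.ℓ))
  D_gr : ∀ {t : ℝ≥0} {j : ℕ} {y : HS (OmT p t)}, y ∈ grS _ (j + (n - 1)) → D t y ∈ grS _ j
  D_low : ∀ {t : ℝ≥0} {j : ℕ} {y : HS (OmT p t)}, j < n - 1 → y ∈ grS _ j → D t y = 0
  D_inc : ∀ {s t : ℝ≥0} (h : s ≤ t) (h' : s + 2 * W.ℓ ≤ t + 2 * W.ℓ) (y : HS (OmT p s)),
    D t (incH p h y) = inc2H p h' (D s y)
  k : ℝ≥0
  /-- (R): `i1 y + i2 y = D(y) *1 x + D(y) *2 x` -/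
  R : ∀ {t T : ℝ≥0} (_ : t + k ≤ T) (h1 : t ≤ T) (h2 : t + 2 * W.ℓ + (W.ℓ + W.ℓ) ≤ T)
    (y : HS (OmT p t)),
    inc2H p h1 (Hm (i1 p t) y) + inc2H p h1 (Hm (i2 p t) y) =
      inc2H p h2 (mid1H p _ _ (D t y) W.x) + inc2H p h2 (mid2H p _ _ (D t y) W.x)
  /-- (D): `D(y z) = D(y) z + y D(z)` -/
  leib : ∀ {a b T : ℝ≥0} (_ : a + b + k ≤ T) (h0 : a + b + 2 * W.ℓ ≤ T)
    (h1 : a + 2 * W.ℓ + b ≤ T) (h2 : a + (b + 2 * W.ℓ) ≤ T) (y : HS (OmT p a)) (z : HS (OmT p b)),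
    inc2H p h0 (D _ (mulH p a b y z)) =
      inc2H p h1 (rmH p _ _ (D a y) z) + inc2H p h2 (lmH p _ _ y (D b z))
  /-- Q4d: `D(x)` is the class of a point (after a loss) -/
  Dx : ∃ (T : ℝ≥0) (h : W.ℓ + W.ℓ + 2 * W.ℓ ≤ T) (m : Om2T p T), inc2H p h (D _ W.x) = ptS m

/-! ## Q5: the abstract algebra -/

/-- levelled algebra `A t = H(Om t)` (instance for every metric space: Q1 + Q2b) -/
structure LevAlg where
  A : ℝ → Type
  [ac : ∀ t, AddCommGroup (A t)]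
  [md : ∀ t, Module F2 (A t)]
  gr : ∀ t, ℕ → Submodule F2 (A t)
  -- inclusions
  inc : ∀ {s t : ℝ}, s ≤ t → A s →ₗ[F2] A t
  inc_refl : ∀ {t : ℝ} (y : A t), inc le_rfl y = y
  inc_inc : ∀ {s t u : ℝ} (h : s ≤ t) (h' : t ≤ u) (y : A s), inc h' (inc h y) = inc (h.trans h') y
  inc_gr : ∀ {s t : ℝ} (h : s ≤ t) {j : ℕ} {y : A s}, y ∈ gr s j → inc h y ∈ gr t j
  -- augmentation and unit
  aug : ∀ t, A t →ₗ[F2] F2
  aug_inc : ∀ {s t : ℝ} (h : s ≤ t) (y : A s), aug t (inc h y) = aug s y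
  aug_gr : ∀ {t : ℝ} {j : ℕ} {y : A t}, j ≠ 0 → y ∈ gr t j → aug t y = 0
  one : ∀ t, A t
  one_gr : ∀ t : ℝ, one t ∈ gr t 0
  inc_one : ∀ {s t : ℝ} (h : s ≤ t), inc h (one s) = one t
  aug_one : ∀ t : ℝ, aug t (one t) = 1
  -- product
  mul : ∀ {a b c : ℝ}, 0 ≤ a → 0 ≤ b → a + b ≤ c → A a →ₗ[F2] A b →ₗ[F2] A c
  mul_gr : ∀ {a b c : ℝ} (ha : 0 ≤ a) (hb : 0 ≤ b) (hc : a + b ≤ c) {i j : ℕ} {y : A a} {z : A b},
    y ∈ gr a i → z ∈ gr b j → mul ha hb hc y z ∈ gr c (i + j)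
  inc_mul : ∀ {a b c c' : ℝ} (ha : 0 ≤ a) (hb : 0 ≤ b) (hc : a + b ≤ c) (h : c ≤ c') (y : A a)
    (z : A b), inc h (mul ha hb hc y z) = mul ha hb (hc.trans h) y z
  mul_inc : ∀ {a b c a' b' : ℝ} (ha : 0 ≤ a) (hb : 0 ≤ b) (h : a ≤ a') (h' : b ≤ b')
    (hc : a' + b' ≤ c) (y : A a) (z : A b),
    mul (ha.trans h) (hb.trans h') hc (inc h y) (inc h' z) = mul ha hb (by linarith) y z
  mul_assoc : ∀ {a b c e f g : ℝ} (ha : 0 ≤ a) (hb : 0 ≤ b) (hc : 0 ≤ c) (he : a + b ≤ e)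
    (hf : b + c ≤ f) (hg : e + c ≤ g) (hg' : a + f ≤ g) (y : A a) (z : A b) (w : A c),
    mul (by linarith) hc hg (mul ha hb he y z) w = mul ha (by linarith) hg' y (mul hb hc hf z w)
  one_mul : ∀ {a b c : ℝ} (ha : 0 ≤ a) (hb : 0 ≤ b) (hc : a + b ≤ c) (y : A b),
    mul ha hb hc (one a) y = inc (by linarith) y
  mul_one : ∀ {a b c : ℝ} (ha : 0 ≤ a) (hb : 0 ≤ b) (hc : a + b ≤ c) (y : A a),
    mul ha hb hc y (one b) = inc (by linarith) y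
  aug_mul : ∀ {a b c : ℝ} (ha : 0 ≤ a) (hb : 0 ≤ b) (hc : a + b ≤ c) (y : A a) (z : A b),
    aug c (mul ha hb hc y z) = aug a y * aug b z

attribute [instance] LevAlg.ac LevAlg.md

/-- operations (1), (2), (3) on a levelled algebra (Q4); `c` is one constant for all losses -/
structure POps extends LevAlg where
  d : ℕ
  hd : 1 ≤ d
  c : ℝ
  hc : 0 < c
  -- the class `x`
  x : A c
  x_gr : x ∈ gr c d
  -- (1): `y = ε(y) 1 + ∂(y) x`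
  del : ∀ t, A t →ₗ[F2] A (t + c)
  del_inc : ∀ {s t : ℝ} (_ : 0 ≤ s) (h : s ≤ t) (y : A s),
    inc (by linarith) (del s y) = del t (inc h y)
  del_gr : ∀ {t : ℝ} {j : ℕ} {y : A t}, 0 ≤ t → y ∈ gr t (j + d) → del t y ∈ gr (t + c) j
  del_low : ∀ {t : ℝ} {j : ℕ} {y : A t}, 0 ≤ t → j < d → y ∈ gr t j → del t y = 0
  rel : ∀ {t : ℝ} (ht : 0 ≤ t) (y : A t),
    inc (by linarith) y = aug t y • one (t + 3 * c) +
      mul (a := t + c) (b := c) (c := t + 3 * c) (by linarith) hc.le (by linarith) (del t y) x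
  -- (2),(3): the central class `{z}`
  br : ∀ t, A t →ₗ[F2] A (t + c)
  br_gr : ∀ {t : ℝ} {j : ℕ} {y : A t}, 0 ≤ t → y ∈ gr t (j + d) → br t y ∈ gr (t + c) j
  br_inc : ∀ {s t : ℝ} (_ : 0 ≤ s) (h : s ≤ t) (y : A s),
    inc (by linarith) (br s y) = br t (inc h y)
  central : ∀ {s t u : ℝ} (hs : 0 ≤ s) (ht : 0 ≤ t) (_ : s + t + 3 * c ≤ u) (y : A s) (z : A t),
    mul (a := s) (b := t + c) (c := u) hs (by linarith) (by linarith) y (br t z) =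
      mul (a := t + c) (b := s) (c := u) (by linarith) hs (by linarith) (br t z) y
  -- powers of `x` (in the limit)
  xp : ∀ K : ℕ, A (K * c)
  xp_zero : xp 0 = one _
  xp_succ : ∀ K : ℕ, xp (K + 1) = mul (a := (K : ℝ) * c) (b := c) (c := ((K + 1 : ℕ) : ℝ) * c)
    (by positivity) hc.le (by push_cast; linarith) (xp K) x
  del_xp : ∀ K : ℕ, ∃ (u : ℝ) (h : ((K + 1 : ℕ) : ℝ) * c + c ≤ u) (h' : (K : ℝ) * c ≤ u),
    inc h (del _ (xp (K + 1))) = inc h' (xp K)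
  br_xp : ∀ K : ℕ, ∃ (u : ℝ) (h : ((K + 1 : ℕ) : ℝ) * c + c ≤ u) (h' : (K : ℝ) * c ≤ u),
    inc h (br _ (xp (K + 1))) = ((K + 1 : ℕ) : F2) • inc h' (xp K)

/-- a functional of degree `q` on the limit which vanishes at level `s'` -/
structure LevAlg.Dual (P : LevAlg) (q : ℕ) (s' : ℝ) where
  f : ∀ t, P.A t →ₗ[F2] F2
  f_inc : ∀ {s t : ℝ} (h : s ≤ t) (y : P.A s), f t (P.inc h y) = f s y
  f_gr : ∀ {t : ℝ} {j : ℕ} {y : P.A t}, j ≠ q → y ∈ P.gr t j → f t y = 0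
  f_van : ∀ y : P.A s', f s' y = 0

namespace POps

variable (P : POps)

/-- (4): the operators `Φ_ω` (Q3). For homogeneous `z` of degree `> q` : `Φ(z y) = Φ(z) y` (used for
`Φ(Z y) = Φ(Z) y` and for `Φ(y Z) = Φ(y) Z`). -/
structure Phi where
  phi : ∀ {q : ℕ} {s' : ℝ}, 0 ≤ s' → P.Dual q s' → ∀ {t u : ℝ}, t - s' + P.c ≤ u →
    P.A t →ₗ[F2] P.A u
  phi_inc : ∀ {q : ℕ} {s' : ℝ} (hs : 0 ≤ s') (w : P.Dual q s') {t u t' u' : ℝ} (_ : 0 ≤ t)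
    (_ : 0 ≤ u) (hu : t - s' + P.c ≤ u)
    (hu' : t' - s' + P.c ≤ u') (ht : t ≤ t') (huu : u ≤ u') (y : P.A t),
    phi hs w hu' (P.inc ht y) = P.inc huu (phi hs w hu y)
  phi_gr : ∀ {q : ℕ} {s' : ℝ} (hs : 0 ≤ s') (w : P.Dual q s') {t u : ℝ} (_ : 0 ≤ t)
    (_ : 0 ≤ u) (hu : t - s' + P.c ≤ u) {j : ℕ} {y : P.A t}, y ∈ P.gr t (j + q + P.d) →
      phi hs w hu y ∈ P.gr u j
  phi_low : ∀ {q : ℕ} {s' : ℝ} (hs : 0 ≤ s') (w : P.Dual q s') {t u : ℝ} (_ : 0 ≤ t)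
    (_ : 0 ≤ u) (hu : t - s' + P.c ≤ u) {j : ℕ} {y : P.A t}, j < q + P.d → y ∈ P.gr t j →
      phi hs w hu y = 0
  phi_mul : ∀ {q : ℕ} {s' : ℝ} (hs : 0 ≤ s') (w : P.Dual q s') {a b t u e : ℝ} (ha : 0 ≤ a)
    (hb : 0 ≤ b) (ht : a + b ≤ t) (hu : a - s' + P.c ≤ u) (hu0 : 0 ≤ u) (he : t - s' + P.c ≤ e)
    (he' : u + b ≤ e) {i : ℕ} (_ : q < i) {z : P.A a} (_ : z ∈ P.gr a i) (y : P.A b),
    phi hs w he (P.mul ha hb ht z y) = P.mul hu0 hb he' (phi hs w hu z) y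
  aug_phi : ∀ {q : ℕ} {s' : ℝ} (hs : 0 ≤ s') (w : P.Dual q s') {t u : ℝ} (_ : 0 ≤ t)
    (_ : 0 ≤ u) (hu : t - s' + P.c ≤ u) {z : P.A t} (_ : z ∈ P.gr t (q + P.d)),
    P.aug u (phi hs w hu z) = w.f _ (P.del t z)

/-- `y` dies eventually -/
def Fin' {t : ℝ} (y : P.A t) : Prop := ∃ (T : ℝ) (h : t ≤ T), P.inc h y = 0

/-- `y` becomes `x^K` eventually -/
def IsXp {t : ℝ} (K : ℕ) (y : P.A t) : Prop :=
  ∃ (T : ℝ) (h : t ≤ T) (h' : (K : ℝ) * P.c ≤ T), P.inc h y = P.inc h' (P.xp K)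

/-- **output of Q5** (bounded bars for the based loop space, strong form) -/
def Strong : Prop := ∃ C : ℝ, 0 ≤ C ∧ ∀ (t : ℝ) (_ : 0 ≤ t) (j : ℕ) (y : P.A t), y ∈ P.gr t j →
  (∀ u (h : t ≤ u), t + C ≤ u → P.inc h y = 0) ∨ (∃ K : ℕ, j = K * P.d ∧ P.IsXp K y)

/-- the powers of `x` never die -/
def XpNe : Prop := ∀ (K : ℕ) (T : ℝ) (h : (K : ℝ) * P.c ≤ T), P.inc h (P.xp K) ≠ 0

end POps

/-- **Q5** -/
def Q5 : Prop := ∀ (P : POps) (_ : P.Phi), P.Strong ∧ P.XpNe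

/-! ## Q6: free loops -/

/-- abstract operations for free loops over given based loops -/
structure WOps (P : POps) where
  B : ℝ → Type
  [ac : ∀ t, AddCommGroup (B t)]
  [md : ∀ t, Module F2 (B t)]
  gr : ∀ t, ℕ → Submodule F2 (B t)
  inc : ∀ {s t : ℝ}, s ≤ t → B s →ₗ[F2] B t
  inc_refl : ∀ {t : ℝ} (y : B t), inc le_rfl y = y
  inc_inc : ∀ {s t u : ℝ} (h : s ≤ t) (h' : t ≤ u) (y : B s), inc h' (inc h y) = inc (h.trans h') y
  /-- a loss -/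
  k : ℝ
  hk : 0 ≤ k
  /-- `j_* : H(Om t) → H(La t)` -/
  js : ∀ t, P.A t →ₗ[F2] B t
  js_gr : ∀ {t : ℝ} {j : ℕ} {y : P.A t}, y ∈ P.gr t j → js t y ∈ gr t j
  js_inc : ∀ {s t : ℝ} (h : s ≤ t) (y : P.A s), js t (P.inc h y) = inc h (js s y)
  /-- `j_! : H(La t) → H(Om (t + k))`, degree `-(d+1)` -/
  jr : ∀ t, B t →ₗ[F2] P.A (t + k)
  jr_gr : ∀ {t : ℝ} {j : ℕ} {y : B t}, 0 ≤ t → y ∈ gr t (j + P.d + 1) → jr t y ∈ P.gr (t + k) j
  jr_low : ∀ {t : ℝ} {j : ℕ} {y : B t}, 0 ≤ t → j < P.d + 1 → y ∈ gr t j → jr t y = 0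
  jr_inc : ∀ {s t : ℝ} (_ : 0 ≤ s) (h : s ≤ t) (y : B s),
    jr t (inc h y) = P.inc (by linarith) (jr s y)
  /-- (W1) coarse exactness -/
  w1 : ∀ {t u : ℝ} (_ : 0 ≤ t) (hu : t + k ≤ u) {j : ℕ} (y : B t), y ∈ gr t j →
    P.inc hu (jr t y) = 0 → ∃ z ∈ P.gr (u + k) j, js (u + k) z = inc (by linarith) y
  /-- (W2) kernel of `j_*` -/
  w2 : ∀ {t : ℝ} {j : ℕ} (_ : 0 ≤ t) (y : P.A t), y ∈ P.gr t j →
    (∃ (T : ℝ) (h : t ≤ T), inc h (js t y) = 0) →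
    ∃ (b u : ℝ) (hb : 0 ≤ b) (hu : P.c + b ≤ u) (h : t ≤ u) (i : ℕ) (w : P.A b),
      w ∈ P.gr b i ∧ P.inc h y =
        P.mul P.hc.le hb hu P.x w + P.mul hb P.hc.le (by linarith) w P.x

attribute [instance] WOps.ac WOps.md

/-- **output of Q6** (bounded bars for the free loop space) -/
def WOps.BD {P : POps} (W : WOps P) : Prop := ∃ C : ℝ, 0 ≤ C ∧ ∀ (t : ℝ) (_ : 0 ≤ t) (j : ℕ)
  (y : W.B t), y ∈ W.gr t j → (∃ (T : ℝ) (h : t ≤ T), W.inc h y = 0) →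
    ∀ u (h : t ≤ u), t + C ≤ u → W.inc h y = 0

/-- **Q6 algebra** -/
def Q6alg : Prop := ∀ (P : POps) (W : WOps P), P.Strong → P.XpNe → W.BD

end Crest.Agent.R231.IfPx797
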