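import Crest.Agent.R231.SphQ_543
import Crest.Agent.R231.SphBr_780
import Crest.Agent.R231.If_P_797

/-!
# Row 231, block P, leaf Q7 (helper543): the literal cut data of `(S^n, g)`, `n ≥ 2`

`cutData hn g : IfPx797.CutData (SG g) (pp g) n` for every smooth metric `g`.
-/

set_option autoImplicit false

noncomputable section

open Set Topology

namespace Crest.Agent.R231.CutDx543

open Crest.Agent.R204 Crest.Agent.R204.SpecA
open Crest.Agent.R231.GeoBasex724 Crest.Agent.R231.BiLipx218 Crest.Agent.R231.Arcx218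
open Crest.Agent.R231.Moorex725 Crest.Agent.R231.CutMx725 Crest.Agent.R231.SphQx543
open Crest.Agent.R231.IfPx797

variable {n : ℕ} [NeZero n]

theorem eT_mem_VS {g : Met n} {s : ℝ} (hs : s ≤ L0 g) : eT g s ∈ VS g := by
  unfold eT
  rw [cc_of_le _ _ hs]
  exact ch_qq_mem zz_mem.2 _

theorem eT_mem_US {g : Met n} {s : ℝ} (hs : L0 g ≤ s) : eT g s ∈ US g := by
  unfold eT
  rcases hs.eq_or_lt with h | h
  · rw [cc_of_le _ _ h.ge, ← h, rev, sub_self, chz_qq.2.1 _ le_rfl]
    exact zz_mem.1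
  · rw [cc_of_lt _ _ h]
    exact ch_pp_mem zz_mem.1 _

/-- a fundamental class of `US ∩ VS` -/
def hs (hn : 2 ≤ n) (g : Met n) : HSph (US g ∩ VS g : Set (SG g)) (n - 1) := (exists_hSph hn g).choose

theorem hs_z0 (hn : 2 ≤ n) (g : Met n) : ((hs hn g).z0 : SG g) = zz g := (exists_hSph hn g).choose_spec

/-- **the cut data of `(S^n, g)`** -/
def cutData (hn : 2 ≤ n) (g : Met n) : CutData (SG g) (pp g) n where
  hn := hn
  cT := Wc g
  bT := Wb g
  hL := rfl
  cover := US_union_VS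
  hp := pp_mem_US
  c_p := cT_pp
  c_stay := fun _ hz s => cT_mem_US hz s
  q := qq g
  hq := qq_mem_VS
  La := L0 g
  hLa := (L0_pos g).le
  a := fun z => ch z (qq g)
  a_mem := fun _ hz => ch_mem (one_le_qq hz)
  a_cont := (continuousOn_ch (qq g)).mono fun _ hx => one_le_qq hx
  a_stay := fun _ hz s => ch_qq_mem hz s
  e := eT g
  Le := 2 * L0 g
  hLe := by linarith [L0_pos g]
  hLL := le_of_eq (by show L0 g + 2 * L0 g = 3 * L0 g; ring)
  e_mem := eT_mem'
  b_eq := fun _ _ => rfl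
  s0 := L0 g
  e_V := fun _ hs => eT_mem_VS hs
  e_U := fun _ hs => eT_mem_US hs
  z0 := zz g
  hz0 := zz_mem
  sg := (hs hn g).fs
  sg_gr := (hs hn g).fs_mem
  sg_ne := (hs hn g).fs_ne
  span := fun y => by
    obtain ⟨r, s, h⟩ := SphBrx780.all (hs hn g) y
    refine ⟨r, s, ?_⟩
    have e : (hs hn g).z0 = ⟨zz g, zz_mem⟩ := Subtype.ext (hs_z0 hn g)
    rw [e] at h
    exact h

end Crest.Agent.R231.CutDx543
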