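import Crest.Agent.R231.DerOm_671

/-!
# Row 231, block P, leaf (III) (helper671): one-sided Leibniz rule after `S_*`

`leib` : for `D : ∀ t, H(Ω_t) → H(Ω²_{t+2ℓ})` natural and with the derivation property (`D_mul`),
`S_* D(a b) = (S_* D a) b + ε(a) S_* D b`, with arbitrary levels, literally the field `leib` of
`Levx969.LevA`.
-/

set_option autoImplicit false

noncomputable section

open Function Topology NNReal

namespace Crest.Agent.R231.Derivx671

open Crest.Agent.R204 Crest.Agent.R231.FinDim315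
open Crest.Agent.R204.SpecA (Hm)
open Crest.Agent.R231.CutWx749 Crest.Agent.R231.CXx780 Crest.Agent.R231.OmSpx725
open Crest.Agent.R231.Moorex725 Crest.Agent.R231.CutMx725

variable {M : Type} [PseudoMetricSpace M] {p : M}

section htpy

variable {X : Type} [TopologicalSpace X]

/-- concatenation at a time depending on the point -/
def ccAt {T b u : ℝ≥0} (S : C(X, OmT p T)) (w : C(X, OmT p b)) (c : C(X, ℝ))
    (h0 : ∀ x, 0 ≤ c x) (h1 : ∀ x, c x + b ≤ u) (hS : ∀ x, (S x).1 ∈ Om p (c x)) :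
    C(X, OmT p u) where
  toFun x := ⟨cc (c x) (S x).1 (w x).1, Om_mono p (h1 x) (cc_mem_Om (hS x) (w x).2 (h0 x) b.2)⟩
  continuous_toFun := by
    refine Continuous.subtype_mk (continuous_cc (continuous_subtype_val.comp S.continuous)
      (continuous_subtype_val.comp w.continuous) c.continuous (fun x => (w x).2.1) fun x => ?_) _
    exact ((hS x).2.2 _ le_rfl).trans ((w x).2.2.1 _ le_rfl).symm

/-- two concatenation times give homotopic maps -/
theorem ccAt_homotopic {T b u : ℝ≥0} (S : C(X, OmT p T)) (w : C(X, OmT p b)) (c c' : C(X, ℝ))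
    (h0 : ∀ x, 0 ≤ c x) (h1 : ∀ x, c x + b ≤ u) (hS : ∀ x, (S x).1 ∈ Om p (c x))
    (h0' : ∀ x, 0 ≤ c' x) (h1' : ∀ x, c' x + b ≤ u) (hS' : ∀ x, (S x).1 ∈ Om p (c' x)) :
    (ccAt S w c h0 h1 hS).Homotopic (ccAt S w c' h0' h1' hS') := by
  have hmem : ∀ (θ : unitInterval) (x : X), (S x).1 ∈ Om p ((1 - (θ : ℝ)) * c x + θ * c' x) := by
    intro θ x
    rcases le_total (c x) (c' x) with h | h
    · refine Om_mono p ?_ (hS x)
      nlinarith [θ.2.1, θ.2.2, mul_nonneg θ.2.1 (sub_nonneg.2 h)]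
    · refine Om_mono p ?_ (hS' x)
      nlinarith [θ.2.1, θ.2.2, mul_nonneg (sub_nonneg.2 θ.2.2) (sub_nonneg.2 h)]
  have hc : Continuous fun q : unitInterval × X => (1 - (q.1 : ℝ)) * c q.2 + q.1 * c' q.2 := by
    fun_prop
  refine ⟨{ toFun := fun q => ⟨cc ((1 - (q.1 : ℝ)) * c q.2 + q.1 * c' q.2) (S q.2).1 (w q.2).1, ?_⟩
            continuous_toFun := ?_
            map_zero_left := ?_
            map_one_left := ?_ }⟩
  · have e1 := h1 q.2
    have e2 := h1' q.2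
    have e3 := q.1.2.1
    have e4 := q.1.2.2
    refine Om_mono p ?_ (cc_mem_Om (hmem q.1 q.2) (w q.2).2 ?_ b.2)
    · have := add_le_add (mul_le_mul_of_nonneg_left e1 (sub_nonneg.2 e4))
        (mul_le_mul_of_nonneg_left e2 e3)
      linarith
    · exact add_nonneg (mul_nonneg (sub_nonneg.2 e4) (h0 _)) (mul_nonneg e3 (h0' _))
  · refine Continuous.subtype_mk (continuous_cc
      (continuous_subtype_val.comp (S.continuous.comp continuous_snd))
      (continuous_subtype_val.comp (w.continuous.comp continuous_snd)) hc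
      (fun q => (w q.2).2.1) fun q => ?_) _
    exact ((hmem q.1 q.2).2.2 _ le_rfl).trans ((w q.2).2.2.1 _ le_rfl).symm
  · intro x
    refine OmT_ext ?_
    show cc ((1 - ((0 : unitInterval) : ℝ)) * c x + ((0 : unitInterval) : ℝ) * c' x) _ _ = cc (c x) _ _
    simp
  · intro x
    refine OmT_ext ?_
    show cc ((1 - ((1 : unitInterval) : ℝ)) * c x + ((1 : unitInterval) : ℝ) * c' x) _ _ =
      cc (c' x) _ _
    simp

end htpy

/-- `S_* ∘ rm` is the product with `S_*`, at arbitrary levels -/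
theorem S_rm {T v b u w : ℝ≥0} (hT : T ≤ v) (h1 : T + b ≤ w) (h2 : w ≤ u) (h3 : v + b ≤ u)
    (d : HS (Om2T p T)) (y : HS (OmT p b)) :
    Hm ((inc h2).comp (fsS p w)) (Hm (inc2 h1) (Hm (rm p T b) (cx d y))) =
      Hm ((inc h3).comp (mul p v b)) (cx (Hm ((inc (le_refl v)).comp (fsS p v)) (Hm (inc2 hT) d)) y) := by
  rw [cx_left, cx_left, ← Hm_comp_apply, ← Hm_comp_apply, ← Hm_comp_apply, ← Hm_comp_apply]
  let S : C(Om2T p T × OmT p b, OmT p T) := (fsS p T).comp ⟨Prod.fst, continuous_fst⟩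
  let w' : C(Om2T p T × OmT p b, OmT p b) := ⟨Prod.snd, continuous_snd⟩
  let c0 : C(Om2T p T × OmT p b, ℝ) := ⟨fun x => (T : ℝ) - x.1.1.2.2, by
    exact continuous_const.sub (continuous_r.comp continuous_fst)⟩
  let c1 : C(Om2T p T × OmT p b, ℝ) := ContinuousMap.const _ (v : ℝ)
  have hTv : (T : ℝ) ≤ v := NNReal.coe_le_coe.2 hT
  have hTb : (T : ℝ) + b ≤ u := by
    have := NNReal.coe_le_coe.2 (h1.trans h2)
    push_cast at this
    exact this
  have hvb : (v : ℝ) + b ≤ u := by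
    have := NNReal.coe_le_coe.2 h3
    push_cast at this
    exact this
  have key := ccAt_homotopic (u := u) S w' c0 c1
    (fun x => sub_nonneg.2 x.1.2.2.2.2)
    (fun x => by
      show (T : ℝ) - x.1.1.2.2 + b ≤ u
      linarith [x.1.2.2.2.1])
    (fun x => x.1.2.2.1)
    (fun _ => v.2)
    (fun _ => hvb)
    (fun x => Om_mono p (by
      show (T : ℝ) - x.1.1.2.2 ≤ v
      linarith [x.1.2.2.2.1]) x.1.2.2.1)
  have e := Hm_homotopic key
  have e1 := LinearMap.congr_fun e (cx d y)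
  refine (Hm_ext (fun x => OmT_ext ?_) _).trans (e1.trans (Hm_ext (fun x => OmT_ext ?_) _))
  · rfl
  · rfl

/-- `S_* ∘ lm` forgets the first factor -/
theorem S_lm {a T u w : ℝ≥0} (h1 : a + T ≤ w) (h2 : w ≤ u) (h3 : T ≤ u)
    (x : HS (OmT p a)) (d : HS (Om2T p T)) :
    Hm ((inc h2).comp (fsS p w)) (Hm (inc2 h1) (Hm (lm p a T) (cx x d))) =
      ep x • Hm ((inc h3).comp (fsS p T)) d := by
  rw [← LinearMap.map_smul, ← Hm_snd_cx, ← Hm_comp_apply, ← Hm_comp_apply, ← Hm_comp_apply]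
  exact Hm_ext (fun x => rfl) _

/-- **one-sided Leibniz rule** (literal field `leib` of `Levx969.LevA`) -/
theorem leib (W : Tether p) (D : ∀ t : ℝ≥0, HS (OmT p t) →ₗ[F2] HS (Om2T p (t + 2 * ell W)))
    (hnat : ∀ {s t : ℝ≥0} (h : s ≤ t) (h' : s + 2 * ell W ≤ t + 2 * ell W) (y : HS (OmT p s)),
      D t (Hm (inc h) y) = Hm (inc2 h') (D s y))
    (hmul : ∀ (s t : ℝ≥0) (h1 : s + 2 * ell W + t ≤ s + t + 2 * ell W)
      (h2 : s + (t + 2 * ell W) ≤ s + t + 2 * ell W) (a : HS (OmT p s)) (b : HS (OmT p t)),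
      D (s + t) (Hm (mul p s t) (cx a b)) =
        Hm (inc2 h1) (Hm (rm p (s + 2 * ell W) t) (cx (D s a) b)) +
        Hm (inc2 h2) (Hm (lm p s (t + 2 * ell W)) (cx a (D t b))))
    {s t p' q v w u : ℝ≥0} (h1 : s + t ≤ p') (h2 : p' + 2 * ell W ≤ q) (h3 : q ≤ u)
    (h4 : s + 2 * ell W ≤ v) (h5 : v + t ≤ u) (h6 : t + 2 * ell W ≤ w) (h7 : w ≤ u)
    (a : HS (OmT p s)) (b : HS (OmT p t)) :
    Hm ((inc h3).comp (fsS p q)) (Hm (inc2 h2) (D p' (Hm ((inc h1).comp (mul p s t)) (cx a b)))) =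
      Hm ((inc h5).comp (mul p v t))
        (cx (Hm ((inc (le_refl v)).comp (fsS p v)) (Hm (inc2 h4) (D s a))) b) +
      ep a • Hm ((inc h7).comp (fsS p w)) (Hm (inc2 h6) (D t b)) := by
  have k1 : s + 2 * ell W + t ≤ s + t + 2 * ell W := le_of_eq (by ring)
  have k2 : s + (t + 2 * ell W) ≤ s + t + 2 * ell W := le_of_eq (by ring)
  have k3 : s + t + 2 * ell W ≤ p' + 2 * ell W := add_le_add_left h1 _
  have k4 : s + t + 2 * ell W ≤ u := (k3.trans h2).trans h3
  have e1 : Hm ((inc h3).comp (fsS p q)) (Hm (inc2 h2) (Hm (inc2 k3)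
      (D (s + t) (Hm (mul p s t) (cx a b))))) =
      Hm ((inc k4).comp (fsS p (s + t + 2 * ell W))) (D (s + t) (Hm (mul p s t) (cx a b))) := by
    rw [← Hm_comp_apply, ← Hm_comp_apply]
    exact Hm_ext (fun _ => rfl) _
  have e2 : Hm ((inc h7).comp (fsS p w)) (Hm (inc2 h6) (D t b)) =
      Hm ((inc (h6.trans h7)).comp (fsS p (t + 2 * ell W))) (D t b) := by
    rw [← Hm_comp_apply]
    exact Hm_ext (fun _ => rfl) _
  rw [Hm_comp_apply (inc h1), hnat h1 k3, e1, hmul s t k1 k2, LinearMap.map_add, S_rm h4 k1 k4 h5,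
    S_lm k2 k4 (h6.trans h7), e2]

end Crest.Agent.R231.Derivx671
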