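import Crest.Agent.R231.SlideM_725

/-!
# The spaces `OmT p t`, `Om2T p T` and their continuous maps (row 231, block P, leaf Q1)

Levels are `NNReal`s.

* `OmT p t` : based loops of length at most `t`;
* `Om2T p T` : loops of length at most `T` with a marked passage through the base point:
  `(F, S, r)` with `F` of length `≤ r`, `S` of length `≤ T - r`;
* `inc`, `inc2` : change of level; `one`, `one2`;
* `mul a b : OmT a × OmT b → OmT (a+b)`;
* `i1`, `i2 : OmT t → Om2T t`; `pair a b : OmT a × OmT b → Om2T (a+b)`;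
* `lm a T`, `rm T b` : left and right multiplication on `Om2T`;
* `mid1`, `mid2`, `midd` : multiplications at the mark; `insm` : insertion at the mark;
* `fsF`, `fsS`, `cat`, `tac : Om2T T → OmT T` : `F`, `S`, `F.S`, `S.F`;
* `Qt p t = OmT p t × [0,t]`, `QW V t ⊆ Qt p t`, `GG W t : QW W.V t → Om2T (t + 2ℓ)` (cut maps).
-/

namespace Crest.Agent.R231.OmSpx725

open Set Topology NNReal Crest.Agent.R231.Moorex725 Crest.Agent.R231.CutMx725
  Crest.Agent.R231.SlideMx725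

set_option linter.unusedSectionVars false
set_option linter.unusedVariables false

variable {M : Type*} [PseudoMetricSpace M] {p : M}

/-- Based loops of length at most `t`. -/
abbrev OmT (p : M) (t : ℝ≥0) : Type _ := {g : ℝ → M // g ∈ Om p (t : ℝ)}

/-- Marked based loops of total length at most `T`. -/
abbrev Om2T (p : M) (T : ℝ≥0) : Type _ :=
  {x : (ℝ → M) × (ℝ → M) × ℝ //
    x.1 ∈ Om p x.2.2 ∧ x.2.1 ∈ Om p ((T : ℝ) - x.2.2) ∧ 0 ≤ x.2.2 ∧ x.2.2 ≤ (T : ℝ)}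

theorem OmT_ext {t : ℝ≥0} {a b : OmT p t} (h : a.1 = b.1) : a = b := Subtype.ext h

theorem Om2T_ext {T : ℝ≥0} {a b : Om2T p T} (h1 : a.1.1 = b.1.1) (h2 : a.1.2.1 = b.1.2.1)
    (h3 : a.1.2.2 = b.1.2.2) : a = b := Subtype.ext (Prod.ext h1 (Prod.ext h2 h3))

theorem OmT_LL {t : ℝ≥0} (a : OmT p t) : a.1 ∈ LL M := a.2.1

theorem continuous_F {T : ℝ≥0} : Continuous fun x : Om2T p T => x.1.1 :=
  continuous_fst.comp continuous_subtype_val

theorem continuous_S {T : ℝ≥0} : Continuous fun x : Om2T p T => x.1.2.1 :=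
  continuous_fst.comp (continuous_snd.comp continuous_subtype_val)

theorem continuous_r {T : ℝ≥0} : Continuous fun x : Om2T p T => x.1.2.2 :=
  continuous_snd.comp (continuous_snd.comp continuous_subtype_val)

/-! ### Change of level, units -/

/-- inclusion `OmT t → OmT t'` -/
def inc {t t' : ℝ≥0} (h : t ≤ t') : C(OmT p t, OmT p t') where
  toFun g := ⟨g.1, Om_mono p (NNReal.coe_le_coe.2 h) g.2⟩
  continuous_toFun := continuous_subtype_val.subtype_mk _

/-- inclusion `Om2T T → Om2T T'` -/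
def inc2 {T T' : ℝ≥0} (h : T ≤ T') : C(Om2T p T, Om2T p T') where
  toFun x := ⟨x.1, x.2.1, Om_mono p (by have := NNReal.coe_le_coe.2 h; linarith) x.2.2.1,
    x.2.2.2.1, x.2.2.2.2.trans (NNReal.coe_le_coe.2 h)⟩
  continuous_toFun := continuous_subtype_val.subtype_mk _

@[simp] theorem inc_val {t t' : ℝ≥0} (h : t ≤ t') (g : OmT p t) : (inc h g).1 = g.1 := rfl

@[simp] theorem inc2_val {T T' : ℝ≥0} (h : T ≤ T') (x : Om2T p T) : (inc2 h x).1 = x.1 := rfl

theorem inc_inc {a b c : ℝ≥0} (h : a ≤ b) (h' : b ≤ c) :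
    (inc (p := p) h').comp (inc h) = inc (h.trans h') := rfl

theorem inc2_inc2 {a b c : ℝ≥0} (h : a ≤ b) (h' : b ≤ c) :
    (inc2 (p := p) h').comp (inc2 h) = inc2 (h.trans h') := rfl

theorem inc_id {a : ℝ≥0} (h : a ≤ a) : inc (p := p) h = ContinuousMap.id _ := rfl

theorem inc2_id {a : ℝ≥0} (h : a ≤ a) : inc2 (p := p) h = ContinuousMap.id _ := rfl

/-- the constant loop -/
def one (p : M) (t : ℝ≥0) : OmT p t := ⟨fun _ => p, const_mem_Om p t⟩

/-- the constant marked loop -/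
def one2 (p : M) (T : ℝ≥0) : Om2T p T :=
  ⟨(fun _ => p, fun _ => p, 0), const_mem_Om p _, const_mem_Om p _, le_rfl, T.2⟩

@[simp] theorem one_val (t : ℝ≥0) : (one p t).1 = fun _ => p := rfl

@[simp] theorem one2_val (t : ℝ≥0) : (one2 p t).1 = (fun _ => p, fun _ => p, 0) := rfl

/-! ### Multiplication -/

/-- concatenation (at time `a`) -/
noncomputable def mul (p : M) (a b : ℝ≥0) : C(OmT p a × OmT p b, OmT p (a + b)) where
  toFun x := ⟨cc (a : ℝ) x.1.1 x.2.1, cc_mem_Om x.1.2 x.2.2 a.2 b.2⟩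
  continuous_toFun := by
    refine Continuous.subtype_mk (continuous_cc (c := fun _ => (a : ℝ))
      (continuous_subtype_val.comp continuous_fst) (continuous_subtype_val.comp continuous_snd)
      continuous_const (fun x => x.2.2.1) fun x => ?_) _
    exact (x.1.2.2.2 _ le_rfl).trans (x.2.2.2.1 _ le_rfl).symm

@[simp] theorem mul_val (a b : ℝ≥0) (x : OmT p a × OmT p b) :
    (mul p a b x).1 = cc (a : ℝ) x.1.1 x.2.1 := rfl

theorem mul_assoc' (a b c : ℝ≥0) {T : ℝ≥0} (h : a + b + c ≤ T) (h' : a + (b + c) ≤ T)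
    (x : OmT p a) (y : OmT p b) (z : OmT p c) :
    inc h (mul p (a + b) c (mul p a b (x, y), z)) = inc h' (mul p a (b + c) (x, mul p b c (y, z))) :=
  OmT_ext (cc_assoc _ _ _ (NNReal.coe_nonneg b))

theorem mul_one' (a b : ℝ≥0) (x : OmT p a) :
    mul p a b (x, one p b) = inc (le_add_of_nonneg_right (zero_le)) x :=
  OmT_ext (cc_const_right x.2)

theorem one_mul_zero (b : ℝ≥0) {T : ℝ≥0} (h : 0 + b ≤ T) (h' : b ≤ T) (x : OmT p b) :
    inc h (mul p 0 b (one p 0, x)) = inc h' x :=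
  OmT_ext (cc_const_left x.2)

/-! ### Marked loops -/

/-- mark at the end -/
def i1 (p : M) (t : ℝ≥0) : C(OmT p t, Om2T p t) where
  toFun g := ⟨(g.1, fun _ => p, (t : ℝ)), g.2, const_mem_Om p _, t.2, le_rfl⟩
  continuous_toFun := Continuous.subtype_mk
    (continuous_subtype_val.prodMk (continuous_const.prodMk continuous_const)) _

/-- mark at the beginning -/
def i2 (p : M) (t : ℝ≥0) : C(OmT p t, Om2T p t) where
  toFun g := ⟨(fun _ => p, g.1, 0), const_mem_Om p _, by simp, le_rfl, t.2⟩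
  continuous_toFun := Continuous.subtype_mk
    (continuous_const.prodMk (continuous_subtype_val.prodMk continuous_const)) _

/-- the pair of two loops -/
def pair (p : M) (a b : ℝ≥0) : C(OmT p a × OmT p b, Om2T p (a + b)) where
  toFun x := ⟨(x.1.1, x.2.1, (a : ℝ)), x.1.2, by
    have e : ((a + b : ℝ≥0) : ℝ) - a = b := by push_cast; ring
    rw [e]; exact x.2.2, a.2, by push_cast; linarith [b.2]⟩
  continuous_toFun := Continuous.subtype_mk
    ((continuous_subtype_val.comp continuous_fst).prodMk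
      ((continuous_subtype_val.comp continuous_snd).prodMk continuous_const)) _

@[simp] theorem i1_val (t : ℝ≥0) (g : OmT p t) : (i1 p t g).1 = (g.1, fun _ => p, (t : ℝ)) := rfl

@[simp] theorem i2_val (t : ℝ≥0) (g : OmT p t) : (i2 p t g).1 = (fun _ => p, g.1, 0) := rfl

@[simp] theorem pair_val (a b : ℝ≥0) (x : OmT p a × OmT p b) :
    (pair p a b x).1 = (x.1.1, x.2.1, (a : ℝ)) := rfl

/-- left multiplication: `w.(F,S,r) = (w.F, S, a + r)` -/
noncomputable def lm (p : M) (a T : ℝ≥0) : C(OmT p a × Om2T p T, Om2T p (a + T)) where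
  toFun x := ⟨(cc (a : ℝ) x.1.1 x.2.1.1, x.2.1.2.1, (a : ℝ) + x.2.1.2.2),
    cc_mem_Om x.1.2 x.2.2.1 a.2 x.2.2.2.2.1, by
      have e : ((a + T : ℝ≥0) : ℝ) - (a + x.2.1.2.2) = T - x.2.1.2.2 := by push_cast; ring
      rw [e]; exact x.2.2.2.1, add_nonneg a.2 x.2.2.2.2.1, by
      have := x.2.2.2.2.2
      push_cast; linarith⟩
  continuous_toFun := by
    refine Continuous.subtype_mk (Continuous.prodMk (continuous_cc (c := fun _ => (a : ℝ))
      (continuous_subtype_val.comp continuous_fst) (continuous_F.comp continuous_snd)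
      continuous_const (fun x => x.2.2.1.1) fun x => ?_)
      ((continuous_S.comp continuous_snd).prodMk
        (continuous_const.add (continuous_r.comp continuous_snd)))) _
    exact (x.1.2.2.2 _ le_rfl).trans (x.2.2.1.2.1 _ le_rfl).symm

@[simp] theorem lm_val (a T : ℝ≥0) (x : OmT p a × Om2T p T) :
    (lm p a T x).1 = (cc (a : ℝ) x.1.1 x.2.1.1, x.2.1.2.1, (a : ℝ) + x.2.1.2.2) := rfl

/-- right multiplication: `(F,S,r).w = (F, S.w, r)` -/
noncomputable def rm (p : M) (T b : ℝ≥0) : C(Om2T p T × OmT p b, Om2T p (T + b)) where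
  toFun x := ⟨(x.1.1.1, cc ((T : ℝ) - x.1.1.2.2) x.1.1.2.1 x.2.1, x.1.1.2.2), x.1.2.1, by
      have h := cc_mem_Om x.1.2.2.1 x.2.2 (by linarith [x.1.2.2.2.2]) b.2
      have e : ((T + b : ℝ≥0) : ℝ) - x.1.1.2.2 = T - x.1.1.2.2 + b := by push_cast; ring
      rw [e]; exact h, x.1.2.2.2.1, x.1.2.2.2.2.trans (by push_cast; linarith [b.2])⟩
  continuous_toFun := by
    refine Continuous.subtype_mk (Continuous.prodMk (continuous_F.comp continuous_fst)
      (Continuous.prodMk (continuous_cc (continuous_S.comp continuous_fst)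
      (continuous_subtype_val.comp continuous_snd)
      (continuous_const.sub (continuous_r.comp continuous_fst)) (fun x => x.2.2.1) fun x => ?_)
      (continuous_r.comp continuous_fst))) _
    exact (x.1.2.2.1.2.2 _ le_rfl).trans (x.2.2.2.1 _ le_rfl).symm

@[simp] theorem rm_val (T b : ℝ≥0) (x : Om2T p T × OmT p b) :
    (rm p T b x).1 = (x.1.1.1, cc ((T : ℝ) - x.1.1.2.2) x.1.1.2.1 x.2.1, x.1.1.2.2) := rfl

/-- multiplication of the first piece at the mark: `(F,S,r),w ↦ (F.w, S, r + a)` -/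
noncomputable def mid1 (p : M) (T a : ℝ≥0) : C(Om2T p T × OmT p a, Om2T p (T + a)) where
  toFun x := ⟨(cc x.1.1.2.2 x.1.1.1 x.2.1, x.1.1.2.1, x.1.1.2.2 + a),
      cc_mem_Om x.1.2.1 x.2.2 x.1.2.2.2.1 a.2, by
      have e : ((T + a : ℝ≥0) : ℝ) - (x.1.1.2.2 + a) = T - x.1.1.2.2 := by push_cast; ring
      rw [e]; exact x.1.2.2.1, add_nonneg x.1.2.2.2.1 a.2, by
      have := x.1.2.2.2.2
      push_cast; linarith⟩
  continuous_toFun := by
    refine Continuous.subtype_mk (Continuous.prodMk (continuous_cc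
      (continuous_F.comp continuous_fst) (continuous_subtype_val.comp continuous_snd)
      (continuous_r.comp continuous_fst) (fun x => x.2.2.1) fun x => ?_)
      ((continuous_S.comp continuous_fst).prodMk
        ((continuous_r.comp continuous_fst).add continuous_const))) _
    exact (x.1.2.1.2.2 _ le_rfl).trans (x.2.2.2.1 _ le_rfl).symm

@[simp] theorem mid1_val (T a : ℝ≥0) (x : Om2T p T × OmT p a) :
    (mid1 p T a x).1 = (cc x.1.1.2.2 x.1.1.1 x.2.1, x.1.1.2.1, x.1.1.2.2 + (a : ℝ)) := rfl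

/-- multiplication of the second piece at the mark: `(F,S,r),w ↦ (F, w.S, r)` -/
noncomputable def mid2 (p : M) (T b : ℝ≥0) : C(Om2T p T × OmT p b, Om2T p (T + b)) where
  toFun x := ⟨(x.1.1.1, cc (b : ℝ) x.2.1 x.1.1.2.1, x.1.1.2.2), x.1.2.1, by
      have h := cc_mem_Om x.2.2 x.1.2.2.1 b.2 (by linarith [x.1.2.2.2.2])
      have e : ((T + b : ℝ≥0) : ℝ) - x.1.1.2.2 = b + (T - x.1.1.2.2) := by push_cast; ring
      rw [e]; exact h, x.1.2.2.2.1, x.1.2.2.2.2.trans (by push_cast; linarith [b.2])⟩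
  continuous_toFun := by
    refine Continuous.subtype_mk (Continuous.prodMk (continuous_F.comp continuous_fst)
      (Continuous.prodMk (continuous_cc (c := fun _ => (b : ℝ))
      (continuous_subtype_val.comp continuous_snd) (continuous_S.comp continuous_fst)
      continuous_const (fun x => x.1.2.2.1.1) fun x => ?_)
      (continuous_r.comp continuous_fst))) _
    exact (x.2.2.2.2 _ le_rfl).trans (x.1.2.2.1.2.1 _ le_rfl).symm

@[simp] theorem mid2_val (T b : ℝ≥0) (x : Om2T p T × OmT p b) :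
    (mid2 p T b x).1 = (x.1.1.1, cc (b : ℝ) x.2.1 x.1.1.2.1, x.1.1.2.2) := rfl

/-- multiplication of both pieces at the mark: `(F,S,r),(u,v) ↦ (F.u, v.S, r + a)` -/
noncomputable def midd (p : M) (T a b : ℝ≥0) :
    C(Om2T p T × (OmT p a × OmT p b), Om2T p (T + a + b)) where
  toFun x := mid2 p (T + a) b (mid1 p T a (x.1, x.2.1), x.2.2)
  continuous_toFun := (mid2 p (T + a) b).continuous.comp
    (((mid1 p T a).continuous.comp (by fun_prop)).prodMk (by fun_prop))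

theorem midd_apply (T a b : ℝ≥0) (x : Om2T p T × (OmT p a × OmT p b)) :
    midd p T a b x = mid2 p (T + a) b (mid1 p T a (x.1, x.2.1), x.2.2) := rfl

@[simp] theorem midd_val (T a b : ℝ≥0) (x : Om2T p T × (OmT p a × OmT p b)) :
    (midd p T a b x).1 = (cc x.1.1.2.2 x.1.1.1 x.2.1.1, cc (b : ℝ) x.2.2.1 x.1.1.2.1,
      x.1.1.2.2 + (a : ℝ)) := rfl

/-- forget the second piece -/
def fsF (p : M) (T : ℝ≥0) : C(Om2T p T, OmT p T) where
  toFun x := ⟨x.1.1, Om_mono p x.2.2.2.2 x.2.1⟩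
  continuous_toFun := Continuous.subtype_mk continuous_F _

@[simp] theorem fsF_val (T : ℝ≥0) (x : Om2T p T) : (fsF p T x).1 = x.1.1 := rfl

/-- forget the first piece -/
def fsS (p : M) (T : ℝ≥0) : C(Om2T p T, OmT p T) where
  toFun x := ⟨x.1.2.1, Om_mono p (by linarith [x.2.2.2.1]) x.2.2.1⟩
  continuous_toFun := Continuous.subtype_mk continuous_S _

@[simp] theorem fsS_val (T : ℝ≥0) (x : Om2T p T) : (fsS p T x).1 = x.1.2.1 := rfl

/-- `F.S` -/
noncomputable def cat (p : M) (T : ℝ≥0) : C(Om2T p T, OmT p T) where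
  toFun x := ⟨cc x.1.2.2 x.1.1 x.1.2.1, by
    have h := cc_mem_Om x.2.1 x.2.2.1 x.2.2.2.1 (by linarith [x.2.2.2.2])
    rwa [add_sub_cancel] at h⟩
  continuous_toFun := by
    refine Continuous.subtype_mk (continuous_cc continuous_F continuous_S continuous_r
      (fun x => x.2.2.1.1) fun x => ?_) _
    exact (x.2.1.2.2 _ le_rfl).trans (x.2.2.1.2.1 _ le_rfl).symm

@[simp] theorem cat_val (T : ℝ≥0) (x : Om2T p T) : (cat p T x).1 = cc x.1.2.2 x.1.1 x.1.2.1 := rfl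

/-- `S.F` -/
noncomputable def tac (p : M) (T : ℝ≥0) : C(Om2T p T, OmT p T) where
  toFun x := ⟨cc ((T : ℝ) - x.1.2.2) x.1.2.1 x.1.1, by
    have h := cc_mem_Om x.2.2.1 x.2.1 (by linarith [x.2.2.2.2]) x.2.2.2.1
    rwa [sub_add_cancel] at h⟩
  continuous_toFun := by
    refine Continuous.subtype_mk (continuous_cc continuous_S continuous_F
      (continuous_const.sub continuous_r) (fun x => x.2.1.1) fun x => ?_) _
    exact (x.2.2.1.2.2 _ le_rfl).trans (x.2.1.2.1 _ le_rfl).symm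

@[simp] theorem tac_val (T : ℝ≥0) (x : Om2T p T) :
    (tac p T x).1 = cc ((T : ℝ) - x.1.2.2) x.1.2.1 x.1.1 := rfl

/-- insertion at the mark: `F.w.S` -/
noncomputable def insm (p : M) (T a : ℝ≥0) : C(Om2T p T × OmT p a, OmT p (T + a)) where
  toFun x := cat p (T + a) (mid1 p T a x)
  continuous_toFun := (cat p (T + a)).continuous.comp (mid1 p T a).continuous

@[simp] theorem insm_val (T a : ℝ≥0) (x : Om2T p T × OmT p a) :
    (insm p T a x).1 = cc (x.1.1.2.2 + (a : ℝ)) (cc x.1.1.2.2 x.1.1.1 x.2.1) x.1.1.2.1 := rfl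

theorem insm_val' (T a : ℝ≥0) (x : Om2T p T × OmT p a) :
    (insm p T a x).1 = cc x.1.1.2.2 x.1.1.1 (cc (a : ℝ) x.2.1 x.1.1.2.1) := by
  rw [insm_val, cc_assoc _ _ _ (NNReal.coe_nonneg a)]

/-! ### Exact identities -/

theorem fsF_i1 (t : ℝ≥0) (g : OmT p t) : fsF p t (i1 p t g) = g := rfl

theorem fsF_i2 (t : ℝ≥0) (g : OmT p t) : fsF p t (i2 p t g) = one p t := rfl

theorem fsS_i1 (t : ℝ≥0) (g : OmT p t) : fsS p t (i1 p t g) = one p t := rfl

theorem fsS_i2 (t : ℝ≥0) (g : OmT p t) : fsS p t (i2 p t g) = g := rfl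

theorem cat_i1 (t : ℝ≥0) (g : OmT p t) : cat p t (i1 p t g) = g :=
  OmT_ext (cc_const_right g.2)

theorem cat_i2 (t : ℝ≥0) (g : OmT p t) : cat p t (i2 p t g) = g :=
  OmT_ext (cc_const_left g.2)

theorem tac_i1 (t : ℝ≥0) (g : OmT p t) : tac p t (i1 p t g) = g :=
  OmT_ext (by
    change cc ((t : ℝ) - t) (fun _ => p) g.1 = g.1
    rw [sub_self]; exact cc_const_left g.2)

theorem tac_i2 (t : ℝ≥0) (g : OmT p t) : tac p t (i2 p t g) = g :=
  OmT_ext (by
    change cc ((t : ℝ) - 0) g.1 (fun _ => p) = g.1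
    rw [sub_zero]; exact cc_const_right g.2)

theorem insm_i1 (t a : ℝ≥0) (g : OmT p t) (w : OmT p a) :
    insm p t a (i1 p t g, w) = mul p t a (g, w) :=
  OmT_ext (by
    rw [insm_val']
    change cc (t : ℝ) g.1 (cc (a : ℝ) w.1 fun _ => p) = cc (t : ℝ) g.1 w.1
    rw [cc_const_right w.2])

theorem insm_i2 (t a : ℝ≥0) {T : ℝ≥0} (h : t + a ≤ T) (h' : a + t ≤ T) (g : OmT p t)
    (w : OmT p a) : inc h (insm p t a (i2 p t g, w)) = inc h' (mul p a t (w, g)) :=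
  OmT_ext (by
    change (insm p t a (i2 p t g, w)).1 = _
    rw [insm_val']
    change cc (0 : ℝ) (fun _ => p) (cc (a : ℝ) w.1 g.1) = cc (a : ℝ) w.1 g.1
    exact cc_const_left (cc_mem_Om w.2 g.2 a.2 t.2))

theorem fsF_pair (a b : ℝ≥0) (x : OmT p a × OmT p b) :
    fsF p (a + b) (pair p a b x) = inc (le_add_of_nonneg_right zero_le) x.1 := rfl

theorem fsS_pair (a b : ℝ≥0) (x : OmT p a × OmT p b) :
    fsS p (a + b) (pair p a b x) = inc (le_add_of_nonneg_left zero_le) x.2 := rfl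

theorem cat_pair (a b : ℝ≥0) (x : OmT p a × OmT p b) :
    cat p (a + b) (pair p a b x) = mul p a b x := rfl

theorem tac_pair (a b : ℝ≥0) {T : ℝ≥0} (h : a + b ≤ T) (h' : b + a ≤ T)
    (x : OmT p a) (y : OmT p b) :
    inc h (tac p (a + b) (pair p a b (x, y))) = inc h' (mul p b a (y, x)) :=
  OmT_ext (by
    change cc (((a + b : ℝ≥0) : ℝ) - a) y.1 x.1 = cc (b : ℝ) y.1 x.1
    have e : ((a + b : ℝ≥0) : ℝ) - a = b := by push_cast; ring
    rw [e])

theorem insm_pair (a b c : ℝ≥0) {T : ℝ≥0} (h : a + b + c ≤ T) (h' : a + c + b ≤ T)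
    (x : OmT p a) (y : OmT p b) (w : OmT p c) :
    inc h (insm p (a + b) c (pair p a b (x, y), w)) =
      inc h' (mul p (a + c) b (mul p a c (x, w), y)) :=
  OmT_ext rfl

theorem lm_pair (c a b : ℝ≥0) {T : ℝ≥0} (h : c + (a + b) ≤ T) (h' : c + a + b ≤ T)
    (w : OmT p c) (x : OmT p a) (y : OmT p b) :
    inc2 h (lm p c (a + b) (w, pair p a b (x, y))) =
      inc2 h' (pair p (c + a) b (mul p c a (w, x), y)) :=
  Om2T_ext rfl rfl rfl

theorem rm_pair (a b c : ℝ≥0) {T : ℝ≥0} (h : a + b + c ≤ T) (h' : a + (b + c) ≤ T)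
    (x : OmT p a) (y : OmT p b) (w : OmT p c) :
    inc2 h (rm p (a + b) c (pair p a b (x, y), w)) =
      inc2 h' (pair p a (b + c) (x, mul p b c (y, w))) :=
  Om2T_ext rfl (by
    change cc (((a + b : ℝ≥0) : ℝ) - a) y.1 w.1 = cc (b : ℝ) y.1 w.1
    have e : ((a + b : ℝ≥0) : ℝ) - a = b := by push_cast; ring
    rw [e]) rfl

theorem mid1_pair (a b c : ℝ≥0) {T : ℝ≥0} (h : a + b + c ≤ T) (h' : a + c + b ≤ T)
    (x : OmT p a) (y : OmT p b) (w : OmT p c) :
    inc2 h (mid1 p (a + b) c (pair p a b (x, y), w)) =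
      inc2 h' (pair p (a + c) b (mul p a c (x, w), y)) :=
  Om2T_ext rfl rfl rfl

theorem mid2_pair (a b c : ℝ≥0) {T : ℝ≥0} (h : a + b + c ≤ T) (h' : a + (c + b) ≤ T)
    (x : OmT p a) (y : OmT p b) (w : OmT p c) :
    inc2 h (mid2 p (a + b) c (pair p a b (x, y), w)) =
      inc2 h' (pair p a (c + b) (x, mul p c b (w, y))) :=
  Om2T_ext rfl rfl rfl

theorem i1_eq_pair (t b : ℝ≥0) (g : OmT p t) :
    pair p t b (g, one p b) = inc2 (le_add_of_nonneg_right zero_le) (i1 p t g) := rfl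

theorem i2_eq_pair (t : ℝ≥0) {T : ℝ≥0} (h : 0 + t ≤ T) (h' : t ≤ T) (g : OmT p t) :
    inc2 h (pair p 0 t (one p 0, g)) = inc2 h' (i2 p t g) := rfl

theorem fsF_lm (a T : ℝ≥0) (w : OmT p a) (x : Om2T p T) :
    fsF p (a + T) (lm p a T (w, x)) = mul p a T (w, fsF p T x) := rfl

theorem fsF_rm (T b : ℝ≥0) (w : OmT p b) (x : Om2T p T) :
    fsF p (T + b) (rm p T b (x, w)) = inc (le_add_of_nonneg_right zero_le) (fsF p T x) := rfl

theorem fsF_mid2 (T b : ℝ≥0) (w : OmT p b) (x : Om2T p T) :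
    fsF p (T + b) (mid2 p T b (x, w)) = inc (le_add_of_nonneg_right zero_le) (fsF p T x) := rfl

theorem fsS_lm (a T : ℝ≥0) (w : OmT p a) (x : Om2T p T) :
    fsS p (a + T) (lm p a T (w, x)) = inc (le_add_of_nonneg_left zero_le) (fsS p T x) := rfl

theorem fsS_mid1 (T a : ℝ≥0) (w : OmT p a) (x : Om2T p T) :
    fsS p (T + a) (mid1 p T a (x, w)) = inc (le_add_of_nonneg_right zero_le) (fsS p T x) := rfl

theorem cat_lm (a T : ℝ≥0) (w : OmT p a) (x : Om2T p T) :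
    cat p (a + T) (lm p a T (w, x)) = mul p a T (w, cat p T x) :=
  OmT_ext (cc_assoc _ _ _ x.2.2.2.1)

theorem cat_rm (T b : ℝ≥0) (w : OmT p b) (x : Om2T p T) :
    cat p (T + b) (rm p T b (x, w)) = mul p T b (cat p T x, w) :=
  OmT_ext (by
    change cc x.1.2.2 x.1.1 (cc ((T : ℝ) - x.1.2.2) x.1.2.1 w.1) =
      cc (T : ℝ) (cc x.1.2.2 x.1.1 x.1.2.1) w.1
    rw [cc_assoc' _ _ _ x.2.2.2.2])

theorem cat_mid1 (T a : ℝ≥0) (x : Om2T p T × OmT p a) :
    cat p (T + a) (mid1 p T a x) = insm p T a x := rfl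

theorem cat_mid2 (T a : ℝ≥0) (x : Om2T p T × OmT p a) :
    cat p (T + a) (mid2 p T a x) = insm p T a x :=
  OmT_ext (by rw [insm_val']; rfl)

theorem tac_mid1 (T a : ℝ≥0) (x : Om2T p T) (w : OmT p a) :
    tac p (T + a) (mid1 p T a (x, w)) = mul p T a (tac p T x, w) :=
  OmT_ext (by
    change cc (((T + a : ℝ≥0) : ℝ) - (x.1.2.2 + a)) x.1.2.1 (cc x.1.2.2 x.1.1 w.1) =
      cc (T : ℝ) (cc ((T : ℝ) - x.1.2.2) x.1.2.1 x.1.1) w.1
    have e : ((T + a : ℝ≥0) : ℝ) - (x.1.2.2 + a) = T - x.1.2.2 := by push_cast; ring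
    rw [e, cc_assoc' _ _ _ (by linarith [x.2.2.2.1] : (T : ℝ) - x.1.2.2 ≤ T), sub_sub_cancel])

theorem tac_mid2 (T b : ℝ≥0) {T' : ℝ≥0} (h : T + b ≤ T') (h' : b + T ≤ T') (x : Om2T p T)
    (w : OmT p b) :
    inc h (tac p (T + b) (mid2 p T b (x, w))) = inc h' (mul p b T (w, tac p T x)) :=
  OmT_ext (by
    change cc (((T + b : ℝ≥0) : ℝ) - x.1.2.2) (cc (b : ℝ) w.1 x.1.2.1) x.1.1 =
      cc (b : ℝ) w.1 (cc ((T : ℝ) - x.1.2.2) x.1.2.1 x.1.1)
    have e : ((T + b : ℝ≥0) : ℝ) - x.1.2.2 = b + (T - x.1.2.2) := by push_cast; ring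
    rw [e, cc_assoc _ _ _ (by linarith [x.2.2.2.2])])

theorem insm_mid1 (T a b : ℝ≥0) {T' : ℝ≥0} (h : T + a + b ≤ T') (h' : T + (a + b) ≤ T')
    (x : Om2T p T) (u : OmT p a) (w : OmT p b) :
    inc h (insm p (T + a) b (mid1 p T a (x, u), w)) =
      inc h' (insm p T (a + b) (x, mul p a b (u, w))) :=
  OmT_ext (by
    change (insm p (T + a) b (mid1 p T a (x, u), w)).1 = (insm p T (a + b) (x, mul p a b (u, w))).1
    rw [insm_val', insm_val']
    change cc (x.1.2.2 + (a : ℝ)) (cc x.1.2.2 x.1.1 u.1) (cc (b : ℝ) w.1 x.1.2.1) =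
      cc x.1.2.2 x.1.1 (cc ((a + b : ℝ≥0) : ℝ) (cc (a : ℝ) u.1 w.1) x.1.2.1)
    rw [cc_assoc _ _ _ (NNReal.coe_nonneg a), NNReal.coe_add, cc_assoc _ _ _ (NNReal.coe_nonneg b)])

theorem insm_mid2 (T a b : ℝ≥0) {T' : ℝ≥0} (h : T + b + a ≤ T') (h' : T + (a + b) ≤ T')
    (x : Om2T p T) (u : OmT p b) (w : OmT p a) :
    inc h (insm p (T + b) a (mid2 p T b (x, u), w)) =
      inc h' (insm p T (a + b) (x, mul p a b (w, u))) :=
  OmT_ext (by
    change (insm p (T + b) a (mid2 p T b (x, u), w)).1 = (insm p T (a + b) (x, mul p a b (w, u))).1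
    rw [insm_val', insm_val']
    change cc x.1.2.2 x.1.1 (cc (a : ℝ) w.1 (cc (b : ℝ) u.1 x.1.2.1)) =
      cc x.1.2.2 x.1.1 (cc ((a + b : ℝ≥0) : ℝ) (cc (a : ℝ) w.1 u.1) x.1.2.1)
    rw [NNReal.coe_add, cc_assoc _ _ _ (NNReal.coe_nonneg b)])

theorem lm_lm (a b T : ℝ≥0) {T' : ℝ≥0} (h : a + (b + T) ≤ T') (h' : a + b + T ≤ T')
    (u : OmT p a) (v : OmT p b) (x : Om2T p T) :
    inc2 h (lm p a (b + T) (u, lm p b T (v, x))) =
      inc2 h' (lm p (a + b) T (mul p a b (u, v), x)) :=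
  Om2T_ext (cc_assoc _ _ _ (NNReal.coe_nonneg b)).symm rfl (by
    change (a : ℝ) + (b + x.1.2.2) = ((a + b : ℝ≥0) : ℝ) + x.1.2.2
    push_cast; ring)

theorem rm_rm (T a b : ℝ≥0) {T' : ℝ≥0} (h : T + a + b ≤ T') (h' : T + (a + b) ≤ T')
    (u : OmT p a) (v : OmT p b) (x : Om2T p T) :
    inc2 h (rm p (T + a) b (rm p T a (x, u), v)) =
      inc2 h' (rm p T (a + b) (x, mul p a b (u, v))) :=
  Om2T_ext rfl (by
    change cc (((T + a : ℝ≥0) : ℝ) - x.1.2.2) (cc ((T : ℝ) - x.1.2.2) x.1.2.1 u.1) v.1 =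
      cc ((T : ℝ) - x.1.2.2) x.1.2.1 (cc (a : ℝ) u.1 v.1)
    have e : ((T + a : ℝ≥0) : ℝ) - x.1.2.2 = T - x.1.2.2 + a := by push_cast; ring
    rw [e, cc_assoc _ _ _ (NNReal.coe_nonneg a)]) rfl

theorem lm_rm (a T b : ℝ≥0) {T' : ℝ≥0} (h : a + (T + b) ≤ T') (h' : a + T + b ≤ T')
    (u : OmT p a) (v : OmT p b) (x : Om2T p T) :
    inc2 h (lm p a (T + b) (u, rm p T b (x, v))) =
      inc2 h' (rm p (a + T) b (lm p a T (u, x), v)) :=
  Om2T_ext rfl (by
    change cc ((T : ℝ) - x.1.2.2) x.1.2.1 v.1 =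
      cc (((a + T : ℝ≥0) : ℝ) - ((a : ℝ) + x.1.2.2)) x.1.2.1 v.1
    have e : ((a + T : ℝ≥0) : ℝ) - ((a : ℝ) + x.1.2.2) = T - x.1.2.2 := by push_cast; ring
    rw [e]) rfl

theorem lm_i1 (a t : ℝ≥0) (w : OmT p a) (g : OmT p t) :
    lm p a t (w, i1 p t g) = i1 p (a + t) (mul p a t (w, g)) :=
  Om2T_ext rfl rfl (by
    change (a : ℝ) + t = ((a + t : ℝ≥0) : ℝ)
    push_cast; ring)

theorem rm_i2 (t a : ℝ≥0) (w : OmT p a) (g : OmT p t) :
    rm p t a (i2 p t g, w) = i2 p (t + a) (mul p t a (g, w)) :=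
  Om2T_ext rfl (by
    change cc ((t : ℝ) - 0) g.1 w.1 = cc (t : ℝ) g.1 w.1
    rw [sub_zero]) rfl

theorem rm_i1 (t a : ℝ≥0) (w : OmT p a) (g : OmT p t) :
    rm p t a (i1 p t g, w) = pair p t a (g, w) :=
  Om2T_ext rfl (by
    change cc ((t : ℝ) - t) (fun _ => p) w.1 = w.1
    rw [sub_self, cc_const_left w.2]) rfl

theorem lm_i2 (a t : ℝ≥0) (w : OmT p a) (g : OmT p t) :
    lm p a t (w, i2 p t g) = pair p a t (w, g) :=
  Om2T_ext (cc_const_right w.2) rfl (by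
    change (a : ℝ) + 0 = a
    rw [add_zero])

theorem lm_one2 (a T : ℝ≥0) (w : OmT p a) :
    lm p a T (w, one2 p T) = inc2 (le_add_of_nonneg_right zero_le) (i1 p a w) :=
  Om2T_ext (cc_const_right w.2) rfl (by
    change (a : ℝ) + 0 = a
    rw [add_zero])

theorem rm_one2_zero (b : ℝ≥0) {T : ℝ≥0} (h : 0 + b ≤ T) (h' : b ≤ T) (w : OmT p b) :
    inc2 h (rm p 0 b (one2 p 0, w)) = inc2 h' (i2 p b w) :=
  Om2T_ext rfl (by
    change cc (((0 : ℝ≥0) : ℝ) - 0) (fun _ => p) w.1 = w.1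
    rw [NNReal.coe_zero, sub_zero, cc_const_left w.2]) rfl

/-! ### Compatibility with the change of level (exact cases) -/

theorem fsF_inc2 {T T' : ℝ≥0} (h : T ≤ T') (x : Om2T p T) :
    fsF p T' (inc2 h x) = inc h (fsF p T x) := rfl

theorem fsS_inc2 {T T' : ℝ≥0} (h : T ≤ T') (x : Om2T p T) :
    fsS p T' (inc2 h x) = inc h (fsS p T x) := rfl

theorem cat_inc2 {T T' : ℝ≥0} (h : T ≤ T') (x : Om2T p T) :
    cat p T' (inc2 h x) = inc h (cat p T x) := rfl

theorem mul_inc_right (a : ℝ≥0) {b b' : ℝ≥0} (h : b ≤ b') (x : OmT p a) (y : OmT p b) :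
    mul p a b' (x, inc h y) = inc (add_le_add le_rfl h) (mul p a b (x, y)) := rfl

theorem lm_inc2 (a : ℝ≥0) {T T' : ℝ≥0} (h : T ≤ T') (w : OmT p a) (x : Om2T p T) :
    lm p a T' (w, inc2 h x) = inc2 (add_le_add le_rfl h) (lm p a T (w, x)) := rfl

theorem mid1_inc2 {T T' : ℝ≥0} (a : ℝ≥0) (h : T ≤ T') (w : OmT p a) (x : Om2T p T) :
    mid1 p T' a (inc2 h x, w) = inc2 (add_le_add h le_rfl) (mid1 p T a (x, w)) := rfl

theorem mid2_inc2 {T T' : ℝ≥0} (a : ℝ≥0) (h : T ≤ T') (w : OmT p a) (x : Om2T p T) :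
    mid2 p T' a (inc2 h x, w) = inc2 (add_le_add h le_rfl) (mid2 p T a (x, w)) := rfl

theorem midd_inc2 {T T' : ℝ≥0} (a b : ℝ≥0) (h : T ≤ T') (w : OmT p a × OmT p b)
    (x : Om2T p T) : midd p T' a b (inc2 h x, w) =
      inc2 (add_le_add (add_le_add h le_rfl) le_rfl) (midd p T a b (x, w)) := rfl

theorem insm_inc2 {T T' : ℝ≥0} (a : ℝ≥0) (h : T ≤ T') (w : OmT p a) (x : Om2T p T) :
    insm p T' a (inc2 h x, w) = inc (add_le_add h le_rfl) (insm p T a (x, w)) := rfl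

theorem i2_inc {t t' : ℝ≥0} (h : t ≤ t') (g : OmT p t) :
    i2 p t' (inc h g) = inc2 h (i2 p t g) := rfl

/-! ### The cut maps -/

/-- the length of the tether -/
noncomputable def ell (W : Tether p) : ℝ≥0 := ⟨W.L, W.L_nonneg⟩

@[simp] theorem coe_ell (W : Tether p) : ((ell W : ℝ≥0) : ℝ) = W.L := rfl

/-- loops with a time -/
abbrev Qt (p : M) (t : ℝ≥0) : Type _ := OmT p t × Icc (0 : ℝ) (t : ℝ)

/-- evaluation -/
noncomputable def evQ (p : M) (t : ℝ≥0) : C(Qt p t, M) where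
  toFun x := x.1.1 x.2
  continuous_toFun := continuous_eval (g := fun x : Qt p t => x.1.1) (s := fun x => (x.2 : ℝ))
    (continuous_subtype_val.comp continuous_fst) (fun x => x.1.2.1)
    (continuous_subtype_val.comp continuous_snd)

@[simp] theorem evQ_apply (t : ℝ≥0) (x : Qt p t) : evQ p t x = x.1.1 x.2 := rfl

/-- the part of `Qt` with the marked point in `V` -/
def QW (V : Set M) (p : M) (t : ℝ≥0) : Set (Qt p t) := {x | x.1.1 x.2 ∈ V}

theorem isOpen_QW {V : Set M} (hV : IsOpen V) (t : ℝ≥0) : IsOpen (QW V p t) :=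
  hV.preimage (evQ p t).continuous

theorem mem_QW {V : Set M} {t : ℝ≥0} {x : Qt p t} : x ∈ QW V p t ↔ x.1.1 x.2 ∈ V := Iff.rfl

theorem QW_inter (V V' : Set M) (t : ℝ≥0) : QW (V ∩ V') p t = QW V p t ∩ QW V' p t := rfl

theorem QW_union (V V' : Set M) (t : ℝ≥0) : QW (V ∪ V') p t = QW V p t ∪ QW V' p t := rfl

/-- The cut map of a tether, on any subset of its domain. -/
noncomputable def GG (W : Tether p) (t : ℝ≥0) {R : Set (Qt p t)} (hR : R ⊆ QW W.V p t) :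
    C(R, Om2T p (t + 2 * ell W)) where
  toFun x := ⟨(Fc W x.1.2 x.1.1.1, Sc W x.1.2 x.1.1.1, (x.1.2 : ℝ) + W.L),
    Fc_mem x.1.1.2 x.1.2.2.1 (hR x.2), by
      have h := Sc_mem x.1.1.2 x.1.2.2.2 (hR x.2)
      have e : ((t + 2 * ell W : ℝ≥0) : ℝ) - ((x.1.2 : ℝ) + W.L) = W.L + (t - x.1.2) := by
        push_cast; rw [coe_ell]; ring
      rw [e]; exact h, add_nonneg x.1.2.2.1 W.L_nonneg, by
      have := x.1.2.2.2
      push_cast
      rw [coe_ell]
      linarith [W.L_nonneg]⟩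
  continuous_toFun := by
    have c1 : Continuous fun x : R => x.1.1.1 :=
      continuous_subtype_val.comp (continuous_fst.comp continuous_subtype_val)
    have c2 : Continuous fun x : R => (x.1.2 : ℝ) :=
      continuous_subtype_val.comp (continuous_snd.comp continuous_subtype_val)
    have c3 : ∀ x : R, x.1.1.1 ∈ LL M := fun x => x.1.1.2.1
    exact Continuous.subtype_mk ((continuous_Fc (W := W) c1 c3 c2 fun x => hR x.2).prodMk
      ((continuous_Sc (W := W) c1 c3 c2 fun x => hR x.2).prodMk (c2.add continuous_const))) _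

@[simp] theorem GG_val (W : Tether p) (t : ℝ≥0) {R : Set (Qt p t)} (hR : R ⊆ QW W.V p t)
    (x : R) : (GG W t hR x).1 =
      (Fc W x.1.2 x.1.1.1, Sc W x.1.2 x.1.1.1, (x.1.2 : ℝ) + W.L) := rfl

/-- change of level on `Qt` -/
def incQ {t t' : ℝ≥0} (h : t ≤ t') : C(Qt p t, Qt p t') where
  toFun x := (inc h x.1, ⟨x.2.1, x.2.2.1, x.2.2.2.trans (NNReal.coe_le_coe.2 h)⟩)
  continuous_toFun := ((inc h).continuous.comp continuous_fst).prodMk
    (Continuous.subtype_mk (continuous_subtype_val.comp continuous_snd) _)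

theorem incQ_mem {t t' : ℝ≥0} (h : t ≤ t') (V : Set M) (x : Qt p t) :
    incQ h x ∈ QW V p t' ↔ x ∈ QW V p t := Iff.rfl

/-- The cut maps are compatible with the change of level. -/
theorem GG_inc (W : Tether p) {t t' : ℝ≥0} (h : t ≤ t') {R : Set (Qt p t)}
    (hR : R ⊆ QW W.V p t) {R' : Set (Qt p t')} (hR' : R' ⊆ QW W.V p t') (x : R)
    (hx : incQ h x.1 ∈ R') (h2 : t + 2 * ell W ≤ t' + 2 * ell W) :
    GG W t' hR' ⟨incQ h x.1, hx⟩ = inc2 h2 (GG W t hR x) := rfl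

/-- the product map on the first part of the interval -/
noncomputable def mulQ1 (p : M) (a b : ℝ≥0) : C(Qt p a × OmT p b, Qt p (a + b)) where
  toFun x := (mul p a b (x.1.1, x.2), ⟨x.1.2.1, x.1.2.2.1, x.1.2.2.2.trans (by
    push_cast; linarith [b.2])⟩)
  continuous_toFun := ((mul p a b).continuous.comp (by fun_prop)).prodMk
    (Continuous.subtype_mk (continuous_subtype_val.comp
      (continuous_snd.comp continuous_fst)) _)

/-- the product map on the second part of the interval -/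
noncomputable def mulQ2 (p : M) (a b : ℝ≥0) : C(OmT p a × Qt p b, Qt p (a + b)) where
  toFun x := (mul p a b (x.1, x.2.1), ⟨(a : ℝ) + x.2.2.1, add_nonneg a.2 x.2.2.2.1, by
    have := x.2.2.2.2
    push_cast; linarith⟩)
  continuous_toFun := ((mul p a b).continuous.comp (by fun_prop)).prodMk
    (Continuous.subtype_mk (continuous_const.add (continuous_subtype_val.comp
      (continuous_snd.comp continuous_snd))) _)

theorem evQ_mulQ1 (a b : ℝ≥0) (x : Qt p a) (w : OmT p b) :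
    evQ p (a + b) (mulQ1 p a b (x, w)) = evQ p a x := by
  change cc (a : ℝ) x.1.1 w.1 (x.2 : ℝ) = x.1.1 x.2
  exact cc_of_le _ _ x.2.2.2

theorem evQ_mulQ2 (a b : ℝ≥0) (x : Qt p b) (w : OmT p a) :
    evQ p (a + b) (mulQ2 p a b (w, x)) = evQ p b x := by
  change cc (a : ℝ) w.1 x.1.1 ((a : ℝ) + x.2.1) = x.1.1 x.2
  have hab : w.1 (a : ℝ) = x.1.1 0 := by rw [w.2.2.2 _ le_rfl, x.1.2.2.1 _ le_rfl]
  rw [cc_of_ge hab (by linarith [x.2.2.1]), add_sub_cancel_left]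

theorem mulQ1_mem (a b : ℝ≥0) (V : Set M) (x : Qt p a) (w : OmT p b) :
    mulQ1 p a b (x, w) ∈ QW V p (a + b) ↔ x ∈ QW V p a := by
  rw [mem_QW, mem_QW]
  have := evQ_mulQ1 a b x w
  rw [evQ_apply, evQ_apply] at this
  rw [this]

theorem mulQ2_mem (a b : ℝ≥0) (V : Set M) (x : Qt p b) (w : OmT p a) :
    mulQ2 p a b (w, x) ∈ QW V p (a + b) ↔ x ∈ QW V p b := by
  rw [mem_QW, mem_QW]
  have := evQ_mulQ2 a b x w
  rw [evQ_apply, evQ_apply] at this
  rw [this]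

/-- The cut of a product in the first factor. -/
theorem GG_mulQ1 (W : Tether p) (a b : ℝ≥0) {R : Set (Qt p a)} (hR : R ⊆ QW W.V p a)
    {R' : Set (Qt p (a + b))} (hR' : R' ⊆ QW W.V p (a + b)) (x : R) (w : OmT p b)
    (hx : mulQ1 p a b (x.1, w) ∈ R') {T : ℝ≥0} (h1 : a + b + 2 * ell W ≤ T)
    (h2 : a + 2 * ell W + b ≤ T) :
    inc2 h1 (GG W (a + b) hR' ⟨mulQ1 p a b (x.1, w), hx⟩) =
      inc2 h2 (rm p (a + 2 * ell W) b (GG W a hR x, w)) :=
  Om2T_ext (Fc_cc_of_le x.1.2.2.2) (by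
    change Sc W x.1.2 (cc (a : ℝ) x.1.1.1 w.1) =
      cc (((a + 2 * ell W : ℝ≥0) : ℝ) - ((x.1.2 : ℝ) + W.L)) (Sc W x.1.2 x.1.1.1) w.1
    have e : ((a + 2 * ell W : ℝ≥0) : ℝ) - ((x.1.2 : ℝ) + W.L) = W.L + (a - x.1.2) := by
      push_cast; rw [coe_ell]; ring
    rw [e, Sc_cc_of_le x.1.2.2.2]) rfl

/-- The cut of a product in the second factor. -/
theorem GG_mulQ2 (W : Tether p) (a b : ℝ≥0) {R : Set (Qt p b)} (hR : R ⊆ QW W.V p b)
    {R' : Set (Qt p (a + b))} (hR' : R' ⊆ QW W.V p (a + b)) (x : R) (w : OmT p a)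
    (hx : mulQ2 p a b (w, x.1) ∈ R') {T : ℝ≥0} (h1 : a + b + 2 * ell W ≤ T)
    (h2 : a + (b + 2 * ell W) ≤ T) :
    inc2 h1 (GG W (a + b) hR' ⟨mulQ2 p a b (w, x.1), hx⟩) =
      inc2 h2 (lm p a (b + 2 * ell W) (w, GG W b hR x)) := by
  have h0 : (a : ℝ) ≤ (a : ℝ) + x.1.2.1 := by linarith [x.1.2.2.1]
  refine Om2T_ext ?_ ?_ ?_
  · change Fc W ((a : ℝ) + x.1.2.1) (cc (a : ℝ) w.1 x.1.1.1) = cc (a : ℝ) w.1 (Fc W x.1.2 x.1.1.1)
    rw [Fc_cc_of_ge w.2 x.1.1.2 h0, add_sub_cancel_left]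
  · change Sc W ((a : ℝ) + x.1.2.1) (cc (a : ℝ) w.1 x.1.1.1) = Sc W x.1.2 x.1.1.1
    rw [Sc_cc_of_ge w.2 x.1.1.2 h0, add_sub_cancel_left]
  · change (a : ℝ) + x.1.2.1 + W.L = a + (x.1.2 + W.L)
    ring

end Crest.Agent.R231.OmSpx725
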