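import Crest.Agent.R231.CutSusp_373
import Crest.Agent.R231.OmSp_725

/-!
# Row 231, block P (helper373): the cylinder `Qt p t` over `OmT p t` as a `Cyl` (helper749)

`cylQ b c hp hcov t : Cyl (OmT p t) (QW c.V p t) (QW b.V p t)` for two tethers `b, c` at `p`, whose
domains cover `M`, with `p ∈ c.V`.  `i0 g = (g, 0)`, `i1 g = (g, t)`, `r = fst`.
-/

set_option autoImplicit false

noncomputable section

open Function Topology NNReal

namespace Crest.Agent.R231.CylQx373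

open Set Crest.Agent.R204 Crest.Agent.R204.SpecA Crest.Agent.R231.FinDim315 Crest.Agent.R231.CutWx749
  Crest.Agent.R231.Moorex725 Crest.Agent.R231.CutMx725 Crest.Agent.R231.OmSpx725

variable {M : Type} [PseudoMetricSpace M] {p : M}

/-- slice of the cylinder at time `s` -/
def sl (p : M) (t : ℝ≥0) (s : Icc (0 : ℝ) (t : ℝ)) : C(OmT p t, Qt p t) where
  toFun g := (g, s)
  continuous_toFun := continuous_id.prodMk continuous_const

theorem Icc_left (t : ℝ≥0) : (0 : ℝ) ∈ Icc (0 : ℝ) (t : ℝ) := ⟨le_rfl, t.2⟩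
theorem Icc_right (t : ℝ≥0) : (t : ℝ) ∈ Icc (0 : ℝ) (t : ℝ) := ⟨t.2, le_rfl⟩

theorem sl0_mem {U : Set M} (hp : p ∈ U) (t : ℝ≥0) (g : OmT p t) :
    sl p t ⟨0, Icc_left t⟩ g ∈ QW U p t := by
  change g.1 0 ∈ U
  rw [g.2.2.1 0 le_rfl]; exact hp

theorem sl1_mem {U : Set M} (hp : p ∈ U) (t : ℝ≥0) (g : OmT p t) :
    sl p t ⟨t, Icc_right t⟩ g ∈ QW U p t := by
  change g.1 (t : ℝ) ∈ U
  rw [g.2.2.2 _ le_rfl]; exact hp

/-- slice at time `0`, in `QW U` -/
def sl0 {U : Set M} (hp : p ∈ U) (t : ℝ≥0) : C(OmT p t, QW U p t) where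
  toFun g := ⟨sl p t ⟨0, Icc_left t⟩ g, sl0_mem hp t g⟩
  continuous_toFun := (sl p t ⟨0, Icc_left t⟩).continuous.subtype_mk _

/-- slice at time `t`, in `QW U` -/
def sl1 {U : Set M} (hp : p ∈ U) (t : ℝ≥0) : C(OmT p t, QW U p t) where
  toFun g := ⟨sl p t ⟨t, Icc_right t⟩ g, sl1_mem hp t g⟩
  continuous_toFun := (sl p t ⟨t, Icc_right t⟩).continuous.subtype_mk _

theorem sl0_val {U : Set M} (hp : p ∈ U) (t : ℝ≥0) (g : OmT p t) :
    (sl0 hp t g).1 = (g, ⟨0, Icc_left t⟩) := rfl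

theorem sl1_val {U : Set M} (hp : p ∈ U) (t : ℝ≥0) (g : OmT p t) :
    (sl1 hp t g).1 = (g, ⟨t, Icc_right t⟩) := rfl

/-- the cylinder -/
def cylQ {U V : Set M} (hU : IsOpen U) (hV : IsOpen V) (hp : p ∈ U) (hcov : ∀ y, y ∈ U ∨ y ∈ V)
    (t : ℝ≥0) : Cyl (OmT p t) (QW U p t) (QW V p t) where
  nhds q := by
    rcases hcov (evQ p t q) with h | h
    · exact Or.inl ((isOpen_QW hU t).mem_nhds h)
    · exact Or.inr ((isOpen_QW hV t).mem_nhds h)
  i0 := sl0 hp t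
  i1 := sl1 hp t
  r := ⟨Prod.fst, continuous_fst⟩
  h0 := ⟨{
    toFun := fun x => (x.2.1, ⟨(x.1 : ℝ) * x.2.2, mul_nonneg x.1.2.1 x.2.2.2.1,
      (mul_le_of_le_one_left x.2.2.2.1 x.1.2.2).trans x.2.2.2.2⟩)
    continuous_toFun := by
      refine Continuous.prodMk (continuous_fst.comp continuous_snd) (Continuous.subtype_mk ?_ _)
      exact (continuous_subtype_val.comp continuous_fst).mul
        (continuous_subtype_val.comp (continuous_snd.comp continuous_snd))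
    map_zero_left := fun x => by
      refine Prod.ext rfl (Subtype.ext ?_)
      change ((0 : unitInterval) : ℝ) * (x.2 : ℝ) = 0
      rw [Set.Icc.coe_zero, zero_mul]
    map_one_left := fun x => by
      refine Prod.ext rfl (Subtype.ext ?_)
      change ((1 : unitInterval) : ℝ) * (x.2 : ℝ) = x.2
      rw [Set.Icc.coe_one, one_mul] }⟩
  h1 := ContinuousMap.Homotopic.refl _

variable {U V : Set M} (hU : IsOpen U) (hV : IsOpen V) (hp : p ∈ U) (hcov : ∀ y, y ∈ U ∨ y ∈ V)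

@[simp] theorem cylQ_i0 (t : ℝ≥0) : (cylQ hU hV hp hcov t).i0 = sl0 hp t := rfl
@[simp] theorem cylQ_i1 (t : ℝ≥0) : (cylQ hU hV hp hcov t).i1 = sl1 hp t := rfl

end Crest.Agent.R231.CylQx373
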