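import Crest.Agent.R231.RelA_749
import Crest.Agent.R231.CylQ_373
import Crest.Agent.R231.OmTet_725

/-!
# Row 231, block P, leaf Q4a (helper749): the cut operator `D : H(Om t) → H(Om2 (t + 2ℓ))`, relation (R)

`TD p m` : two tethers `Wc` (domain `U ∋ p`, constant at `p`), `Wb` (domain `V`), `U ∪ V = M`,
`U ∩ V` a homology `m`-sphere (`SphLike`), `v s₀ ~ 1`, where `v z = b_z⁻¹ . c_z`.

* `W.D t` : the cut operator, of degree `-m` (`D_mem`, `D_low`), natural in `t` (`D_inc`);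
* `W.x` the class `v_* σ`;
* `W.rel` : **relation (R)** `i1 y + i2 y = mid1 (D y × x) + mid2 (D y × x)` in `H(Om2 U)`.
-/

set_option autoImplicit false
set_option maxHeartbeats 200000

noncomputable section

open Function Topology NNReal

namespace Crest.Agent.R231.RelRx749

open Set Crest.Agent.R204 Crest.Agent.R231.FinDim315 CutWx749 CXx780 RelAx749
  Moorex725 CutMx725 OmSpx725

open Crest.Agent.R204.SpecA hiding inc

/-- the geometric data of the cut -/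
structure TD {M : Type} [PseudoMetricSpace M] (p : M) (m : ℕ) where
  Wc : Tether p
  Wb : Tether p
  hp : p ∈ Wc.V
  cp : Wc.T p = fun _ => p
  cov : ∀ y, y ∈ Wc.V ∨ y ∈ Wb.V
  sph : SphLike (Wc.V ∩ Wb.V : Set M) m
  j0 : Joined (vv Wb Wc (S := Wc.V ∩ Wb.V) inter_subset_right inter_subset_left sph.s₀)
    (one p (ell Wb + ell Wc))

theorem mid1_lift {M : Type} [PseudoMetricSpace M] {p : M} {T U a a' : ℝ≥0} (k : a ≤ a')
    (h2 : T + a' ≤ U) (h3 : T + a ≤ U) (d : HS (Om2T p T)) (w : HS (OmT p a)) :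
    Hm (inc2 h3) (Hm (mid1 p T a) (cx d w)) =
      Hm (inc2 h2) (Hm (mid1 p T a') (cx d (Hm (inc k) w))) := by
  have e1 := Hm_homotopic (mid1_inc_right (p := p) (T := T) k h2 h3)
  calc Hm (inc2 h3) (Hm (mid1 p T a) (cx d w)) = Hm ((inc2 h3).comp (mid1 p T a)) (cx d w) :=
        (Hm_comp_apply _ _ _).symm
    _ = Hm ((inc2 h2).comp ((mid1 p T a').comp ((ContinuousMap.id _).prodMap (inc k))))
          (cx d w) := by rw [e1]
    _ = Hm (inc2 h2) (Hm (mid1 p T a') (Hm ((ContinuousMap.id _).prodMap (inc k)) (cx d w))) := by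
        rw [Hm_comp_apply, Hm_comp_apply]
    _ = _ := by rw [Hm_cx_right]

theorem mid2_lift {M : Type} [PseudoMetricSpace M] {p : M} {T U a a' : ℝ≥0} (k : a ≤ a')
    (h2 : T + a' ≤ U) (h3 : T + a ≤ U) (d : HS (Om2T p T)) (w : HS (OmT p a)) :
    Hm (inc2 h3) (Hm (mid2 p T a) (cx d w)) =
      Hm (inc2 h2) (Hm (mid2 p T a') (cx d (Hm (inc k) w))) := by
  have e1 := Hm_homotopic (mid2_inc_right (p := p) (T := T) k h2 h3)
  calc Hm (inc2 h3) (Hm (mid2 p T a) (cx d w)) = Hm ((inc2 h3).comp (mid2 p T a)) (cx d w) :=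
        (Hm_comp_apply _ _ _).symm
    _ = Hm ((inc2 h2).comp ((mid2 p T a').comp ((ContinuousMap.id _).prodMap (inc k))))
          (cx d w) := by rw [e1]
    _ = Hm (inc2 h2) (Hm (mid2 p T a') (Hm ((ContinuousMap.id _).prodMap (inc k)) (cx d w))) := by
        rw [Hm_comp_apply, Hm_comp_apply]
    _ = _ := by rw [Hm_cx_right]

theorem add_eq {V : Type*} [AddCommGroup V] {a b r s a' b' r' s' : V} (h : a + b = r + s)
    (e1 : a = a') (e2 : b = b') (e3 : r = r') (e4 : s = s') : a' + b' = r' + s' := by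
  rw [← e1, ← e2, ← e3, ← e4, h]

theorem add_eq' {V : Type*} [AddCommGroup V] {a b r s s' : V} (h : a + b = r + s)
    (e4 : s = s') : b + a = r + s' := by
  rw [← e4, ← h, add_comm]

namespace TD

variable {M : Type} [PseudoMetricSpace M] {p : M} {m : ℕ} (W : TD p m)

/-- `U ∩ V` -/
abbrev S : Set M := W.Wc.V ∩ W.Wb.V

/-- the level of `x` -/
def a : ℝ≥0 := ell W.Wb + ell W.Wc

/-- the loss of the cut -/
def b : ℝ≥0 := 2 * ell W.Wb

/-- the loops `b_z⁻¹ . c_z` -/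
def v : C(W.S, OmT p W.a) := vv W.Wb W.Wc inter_subset_right inter_subset_left

/-- the loops `c_z⁻¹ . b_z` -/
def v' : C(W.S, OmT p W.a) := (inv p W.a).comp W.v

/-- the class `x = v_* σ` -/
def x : HS (OmT p W.a) := Hm W.v W.sph.σ

theorem x_mem : W.x ∈ hg (OmT p W.a) m := Hm_mem_hg _ W.sph.σ_mem

/-- `U` -/
abbrev QU (t : ℝ≥0) : Set (Qt p t) := QW W.Wc.V p t

/-- `V` -/
abbrev QV (t : ℝ≥0) : Set (Qt p t) := QW W.Wb.V p t

/-- the cut data at level `t` -/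
def cd (t : ℝ≥0) : CD (OmT p t) (Om2T p (t + W.b)) (W.S : Set M) (W.QU t) (W.QV t) where
  cyl := CylQx373.cylQ W.Wc.isOpen W.Wb.isOpen W.hp W.cov t
  Gb := GG W.Wb t (R := W.QV t) subset_rfl
  ev := evR p t (R := W.QU t ∩ W.QV t) (S := W.S) subset_rfl

/-- **the cut operator** -/
def D (t : ℝ≥0) : HS (OmT p t) →ₗ[F2] HS (Om2T p (t + W.b)) := (W.cd t).D W.sph

theorem D_mem {t : ℝ≥0} {j : ℕ} {y : HS (OmT p t)} (hy : y ∈ hg (OmT p t) (j + m)) :
    W.D t y ∈ hg (Om2T p (t + W.b)) j := (W.cd t).D_mem W.sph hy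

theorem D_low {t : ℝ≥0} {j : ℕ} {y : HS (OmT p t)} (hy : y ∈ hg (OmT p t) j) (hj : j < m) :
    W.D t y = 0 := (W.cd t).D_low W.sph hy hj

/-! ### change of level -/

theorem incQ_mapsTo {s t : ℝ≥0} (h : s ≤ t) (V : Set M) :
    MapsTo (incQ (p := p) h) (QW V p s) (QW V p t) := fun _ hx => hx

theorem inc_i0 {s t : ℝ≥0} (h : s ≤ t) :
    (rmap (incQ (p := p) h) (incQ_mapsTo h W.Wc.V)).comp (W.cd s).cyl.i0 =
      (W.cd t).cyl.i0.comp (inc h) :=
  ContinuousMap.ext fun _ => rfl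

theorem inc_i1 {s t : ℝ≥0} (h : s ≤ t) :
    ((rmap (incQ (p := p) h) (incQ_mapsTo h W.Wc.V)).comp (W.cd s).cyl.i1).Homotopic
      ((W.cd t).cyl.i1.comp (OmSpx725.inc h)) := by
  have hst : (s : ℝ) ≤ t := NNReal.coe_le_coe.2 h
  refine homotopic_of (fun u g => ⟨(inc h g, ⟨mix u s t, le_mix s.2 t.2, mix_le hst le_rfl⟩), ?_⟩)
    ?_ (fun g => ?_) (fun g => ?_)
  · change g.1 (mix u s t) ∈ W.Wc.V
    rw [g.2.2.2 _ (le_mix le_rfl hst)]
    exact W.hp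
  · exact Continuous.subtype_mk (((inc h).continuous.comp continuous_snd).prodMk
      (Continuous.subtype_mk (continuous_mixc _ _) _)) _
  · exact Subtype.ext (Prod.ext rfl (Subtype.ext (mix_zero _ _)))
  · exact Subtype.ext (Prod.ext rfl (Subtype.ext (mix_one _ _)))

/-- **the cut operator is natural in the level** -/
theorem D_inc {s t : ℝ≥0} (h : s ≤ t) (h' : s + W.b ≤ t + W.b) (y : HS (OmT p s)) :
    W.D t (Hm (inc h) y) = Hm (inc2 h') (W.D s y) := by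
  refine (W.cd s).map_D W.sph (W.cd t) (incQ h) (incQ_mapsTo h W.Wc.V) (incQ_mapsTo h W.Wb.V)
    (inc2 h') ?_ ?_
  · rw [Cyl.bdry_apply, Cyl.bdry_apply, map_add, ← Hm_comp_apply, ← Hm_comp_apply,
      ← Hm_comp_apply, ← Hm_comp_apply, inc_i0, Hm_homotopic (W.inc_i1 h)]
  · have e : (W.cd t).bc.comp (rmap (incQ h)
        ((incQ_mapsTo h W.Wc.V).inter_inter (incQ_mapsTo h W.Wb.V))) =
        ((inc2 h').prodMap (ContinuousMap.id _)).comp (W.cd s).bc :=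
      ContinuousMap.ext fun _ => rfl
    rw [e]

/-! ### the relation (R) -/

theorem end_i0 (t : ℝ≥0) {U : ℝ≥0} (h1 : t + 2 * ell W.Wc ≤ U) (h2 : t ≤ U) (y : HS (OmT p t)) :
    Hm ((inc2 h1).comp (GG W.Wc t (R := W.QU t) subset_rfl)) (Hm (W.cd t).cyl.i0 y) =
      Hm (inc2 h2) (Hm (i2 p t) y) := by
  rw [← Hm_comp_apply, ← Hm_comp_apply]
  exact congrFun (congrArg DFunLike.coe (Hm_homotopic
    (GG_startR W.Wc W.cp t (R := W.QU t) subset_rfl (startQ_mem W.hp t) h1 h2))) y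

theorem end_i1 (t : ℝ≥0) {U : ℝ≥0} (h1 : t + 2 * ell W.Wc ≤ U) (h2 : t ≤ U) (y : HS (OmT p t)) :
    Hm ((inc2 h1).comp (GG W.Wc t (R := W.QU t) subset_rfl)) (Hm (W.cd t).cyl.i1 y) =
      Hm (inc2 h2) (Hm (i1 p t) y) := by
  rw [← Hm_comp_apply, ← Hm_comp_apply]
  exact congrFun (congrArg DFunLike.coe (Hm_homotopic
    (GG_endR W.Wc W.cp t (R := W.QU t) subset_rfl (endQ_mem W.hp t) h1 h2))) y

theorem ptc_v : ptc (W.v W.sph.s₀) = ptc (one p W.a) := ptc_eq_of_joined W.j0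

theorem ptc_v' : ptc (W.v' W.sph.s₀) = ptc (one p W.a) := by
  have h1 : ptc (W.v' W.sph.s₀) = Hm (inv p W.a) (ptc (W.v W.sph.s₀)) := by
    rw [Hm_ptc]; rfl
  rw [h1, W.ptc_v, Hm_ptc]
  rfl

theorem htp (t : ℝ≥0) {U : ℝ≥0} (h1 : t + 2 * ell W.Wc ≤ U) (h2 : t + W.b + W.a + W.a ≤ U) :
    (((inc2 h1).comp (GG W.Wc t (R := W.QU t) subset_rfl)).comp
      (il (W.QU t) (W.QV t))).Homotopic
      ((((inc2 h2).comp (midd p (t + W.b) W.a W.a)).comp ((ContinuousMap.id _).prodMap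
        (W.v.prodMk W.v'))).comp (W.cd t).bc) :=
  GG_htp W.Wb W.Wc t (S := W.S) inter_subset_right inter_subset_left
    (R := W.QU t ∩ W.QV t) subset_rfl h1 h2

theorem mid_right {T U : ℝ≥0} (h1 : T + W.a + W.a ≤ U) (h2 : T + W.a ≤ U) (d : HS (Om2T p T))
    (w : HS (OmT p W.a)) :
    Hm ((inc2 h1).comp (midd p T W.a W.a)) (cx d (cx w (ptc (one p W.a)))) =
      Hm (inc2 h2) (Hm (mid1 p T W.a) (cx d w)) := by
  have h := Hm_homotopic (midd_one_right (p := p) (T := T) (a := W.a) (b := W.a) h1 h2)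
  rw [cx_ptc, ← Hm_cx_right, ← Hm_comp_apply, ← Hm_comp_apply (inc2 h2), ← h]
  rfl

theorem mid_left {T U : ℝ≥0} (h1 : T + W.a + W.a ≤ U) (h2 : T + W.a ≤ U) (d : HS (Om2T p T))
    (w : HS (OmT p W.a)) :
    Hm ((inc2 h1).comp (midd p T W.a W.a)) (cx d (cx (ptc (one p W.a)) w)) =
      Hm (inc2 h2) (Hm (mid2 p T W.a) (cx d w)) := by
  have h := Hm_homotopic (midd_one_left (p := p) (T := T) (a := W.a) (b := W.a) h1 h2)
  rw [ptc_cx, ← Hm_cx_right, ← Hm_comp_apply, ← Hm_comp_apply (inc2 h2), ← h]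
  rfl

/-- the class `x' = v'_* σ` -/
def x' : HS (OmT p W.a) := Hm W.v' W.sph.σ

/-- relation (R) with `x'` -/
theorem rel0 (t : ℝ≥0) {U : ℝ≥0} (h0 : t ≤ U) (h1 : t + 2 * ell W.Wc ≤ U)
    (h2 : t + W.b + W.a + W.a ≤ U) (h3 : t + W.b + W.a ≤ U) (y : HS (OmT p t)) :
    Hm (inc2 h0) (Hm (i2 p t) y) + Hm (inc2 h0) (Hm (i1 p t) y) =
      Hm (inc2 h3) (Hm (mid1 p (t + W.b) W.a) (cx (W.D t y) W.x)) +
      Hm (inc2 h3) (Hm (mid2 p (t + W.b) W.a) (cx (W.D t y) W.x')) := by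
  have h := (W.cd t).rel_nu W.sph ((inc2 h1).comp (GG W.Wc t (R := W.QU t) subset_rfl)) W.v W.v'
    ((inc2 h2).comp (midd p (t + W.b) W.a W.a)) (W.htp t h1 h2) y
  have e1 : Hm ((inc2 h2).comp (midd p (t + W.b) W.a W.a))
      (cx (W.D t y) (cx W.x (ptc (W.v' W.sph.s₀)))) =
      Hm (inc2 h3) (Hm (mid1 p (t + W.b) W.a) (cx (W.D t y) W.x)) := by
    rw [W.ptc_v']
    exact W.mid_right h2 h3 (W.D t y) W.x
  have e2 : Hm ((inc2 h2).comp (midd p (t + W.b) W.a W.a))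
      (cx (W.D t y) (cx (ptc (W.v W.sph.s₀)) W.x')) =
      Hm (inc2 h3) (Hm (mid2 p (t + W.b) W.a) (cx (W.D t y) W.x')) := by
    rw [W.ptc_v]
    exact W.mid_left h2 h3 (W.D t y) W.x'
  exact add_eq h (W.end_i0 t h1 h0 y) (W.end_i1 t h1 h0 y) e1 e2

theorem mul_x (w : HS (OmT p W.a)) {T : ℝ≥0} (h : W.a + W.a ≤ T) (h' : W.a ≤ T) :
    Hm (inc h) (Hm (mul p W.a W.a) (cx w (ptc (one p W.a)))) = Hm (inc h') w := by
  rw [cx_ptc, ← Hm_comp_apply, ← Hm_comp_apply]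
  have e : ((inc h).comp (mul p W.a W.a)).comp (atR (OmT p W.a) (one p W.a)) = inc h' :=
    ContinuousMap.ext fun g => by
      change inc h (mul p W.a W.a (g, one p W.a)) = inc h' g
      rw [mul_one']
      rfl
  rw [e]

theorem x_mul (w : HS (OmT p W.a)) {T : ℝ≥0} (h : W.a + W.a ≤ T) (h' : W.a ≤ T) :
    Hm (inc h) (Hm (mul p W.a W.a) (cx (ptc (one p W.a)) w)) = Hm (inc h') w := by
  have e := Hm_homotopic (one_mul_htp (p := p) (a := W.a) (b := W.a) h h')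
  rw [ptc_cx, ← Hm_comp_apply, ← Hm_comp_apply, ← e]
  rfl

/-- `x = x'` after a loss -/
theorem x_eq {T : ℝ≥0} (h : W.a + W.a ≤ T) (h' : W.a ≤ T) :
    Hm (inc h') W.x = Hm (inc h') W.x' := by
  have h1 : Hm (W.v.prodMk W.v') W.sph.σ =
      cx W.x (ptc (one p W.a)) + cx (ptc (one p W.a)) W.x' := by
    refine (PrimCXx720.pair_σ W.sph W.v W.v').trans ?_
    congr 1
    · exact congrArg (cx W.x) W.ptc_v'
    · exact congrArg (fun z => cx z W.x') W.ptc_v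
  have h2 := congrArg (fun z => Hm (inc h) (Hm (mul p W.a W.a) z)) h1
  simp only [map_add] at h2
  rw [W.mul_x _ h h', W.x_mul _ h h', ← Hm_comp_apply (mul p W.a W.a)] at h2
  have h3 : ((mul p W.a W.a).comp (W.v.prodMk W.v')).Homotopic
      (ContinuousMap.const _ (one p (W.a + W.a))) :=
    (mul_inv_htp (p := p) W.a).comp (ContinuousMap.Homotopic.refl W.v)
  rw [Hm_homotopic h3, PrimCXx720.Hm_const', map_zero] at h2
  exact eq_of_add h2.symm

/-- **relation (R)** -/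
theorem rel (t : ℝ≥0) {U : ℝ≥0} (h0 : t ≤ U) (h1 : t + 2 * ell W.Wc ≤ U)
    (h2 : t + W.b + (W.a + W.a) ≤ U) (h3 : t + W.b + W.a ≤ U) (y : HS (OmT p t)) :
    Hm (inc2 h0) (Hm (i1 p t) y) + Hm (inc2 h0) (Hm (i2 p t) y) =
      Hm (inc2 h3) (Hm (mid1 p (t + W.b) W.a) (cx (W.D t y) W.x)) +
      Hm (inc2 h3) (Hm (mid2 p (t + W.b) W.a) (cx (W.D t y) W.x)) := by
  have k : W.a ≤ W.a + W.a := le_self_add
  have e' : Hm (inc2 h3) (Hm (mid2 p (t + W.b) W.a) (cx (W.D t y) W.x')) =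
      Hm (inc2 h3) (Hm (mid2 p (t + W.b) W.a) (cx (W.D t y) W.x)) := by
    rw [mid2_lift k h2 h3, mid2_lift k h2 h3, W.x_eq le_rfl k]
  exact add_eq' (W.rel0 t h0 h1 (by rwa [add_assoc]) h3 y) e'

end TD

end Crest.Agent.R231.RelRx749
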