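import Crest.Agent.R231.LevInstB_969
import Crest.Agent.R231.RelR_749
import Crest.Agent.R231.Leib_671

/-!
# Row 231, block P (helper969): 749's cut `TD p m` gives `CutH p m`, hence `LevA m`

`cutH (W : TD p m) (hx : x never dies) : CutH p m`; `levTD W hx : LevA m := (cutH W hx).lev 1`.
-/

set_option autoImplicit false

noncomputable section

open Set NNReal

namespace Crest.Agent.R231.CutIx969

open Crest.Agent.R204 Crest.Agent.R231.FinDim315 Crest.Agent.R231.CXx780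
  Crest.Agent.R231.Moorex725 Crest.Agent.R231.CutMx725 Crest.Agent.R231.OmSpx725
  Crest.Agent.R231.Levx969 Crest.Agent.R231.LevInstx969 Crest.Agent.R231.RelRx749
open Crest.Agent.R204.SpecA hiding inc

variable {M : Type} [PseudoMetricSpace M] {p : M} {m : ℕ}

theorem ends (W : TD p m) (t : ℝ≥0) : Derivx671.Ends (W.cd t).cyl := ⟨fun _ => rfl, fun _ => rfl⟩

theorem GE_eq (W : TD p m) (t : ℝ≥0) : Derivx671.GE W.Wb W.Wc.V t = (W.cd t).bc :=
  ContinuousMap.ext fun _ => rfl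

theorem spec (W : TD p m) (t : ℝ≥0) (y : HS (OmT p t)) :
    Hm (Derivx671.GE W.Wb W.Wc.V t) ((W.cd t).cyl.cut y) = cx (W.D t y) W.sph.σ :=
  (congrArg (fun f => Hm f ((W.cd t).cyl.cut y)) (GE_eq W t)).trans ((W.cd t).D_spec W.sph y)

theorem inc_id {t : ℝ≥0} (h : t ≤ t) (y : HS (OmT p t)) : Hm (inc h) y = y := Hm_id y

theorem inc2_id {t : ℝ≥0} (h : t ≤ t) (y : HS (Om2T p t)) : Hm (inc2 h) y = y := Hm_id y

set_option maxHeartbeats 2000000 in
/-- the cut is a derivation -/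
theorem D_mul0 (W : TD p m) (s t T : ℝ≥0) (h0 : s + t + W.b ≤ T) (h1 : s + W.b + t ≤ T)
    (h2 : s + (t + W.b) ≤ T) (a : HS (OmT p s)) (b : HS (OmT p t)) :
    Hm (inc2 h0) (W.D (s + t) (Hm (mul p s t) (cx a b))) =
      Hm (inc2 h1) (Hm (rm p (s + W.b) t) (cx (W.D s a) b)) +
      Hm (inc2 h2) (Hm (lm p s (t + W.b)) (cx a (W.D t b))) :=
    Derivx671.D_mul W.Wb (U := W.Wc.V) s t (cA := (W.cd s).cyl) (ends W s) (cB := (W.cd t).cyl)
      (ends W t) (c := (W.cd (s + t)).cyl) (ends W (s + t)) (x := a) (y := b) (σ := W.sph.σ)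
      (dA := W.D s a) (dB := W.D t b) (d := W.D (s + t) (Hm (mul p s t) (cx a b)))
      (spec W s a) (spec W t b) (spec W (s + t) (Hm (mul p s t) (cx a b)))
      (T := T) (fun _ _ h => W.sph.cx_σ_inj h) h0 h1 h2

theorem D_mul (W : TD p m) (s t : ℝ≥0) (h1 : s + W.b + t ≤ s + t + W.b)
    (h2 : s + (t + W.b) ≤ s + t + W.b) (a : HS (OmT p s)) (b : HS (OmT p t)) :
    W.D (s + t) (Hm (mul p s t) (cx a b)) =
      Hm (inc2 h1) (Hm (rm p (s + W.b) t) (cx (W.D s a) b)) +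
      Hm (inc2 h2) (Hm (lm p s (t + W.b)) (cx a (W.D t b))) :=
  (inc2_id le_rfl _).symm.trans (D_mul0 W s t _ le_rfl h1 h2 a b)

theorem fsS_id (t : ℝ≥0) (h : t ≤ t) (w : HS (Om2T p t)) :
    Hm ((inc h).comp (fsS p t)) (Hm (inc2 h) w) = Hm (fsS p t) w := by
  rw [inc2_id, Hm_comp_apply, inc_id]

/-- one-sided Leibniz rule -/
theorem leibT (W : TD p m) (s t T : ℝ≥0) (h0 : s + t + W.b ≤ T)
    (h1 : s + W.b + t ≤ T) (h2 : t + W.b ≤ T) (a : HS (OmT p s)) (b : HS (OmT p t)) :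
    Hm (inc h0) (Hm (fsS p _) (W.D (s + t) (Hm (mul p s t) (cx a b)))) =
      Hm (inc h1) (Hm (mul p _ _) (cx (Hm (fsS p _) (W.D s a)) b)) +
        ep a • Hm (inc h2) (Hm (fsS p _) (W.D t b)) := by
  have k1 : s + W.b + t ≤ s + t + W.b := le_of_eq (by ring)
  have k2 : s + (t + W.b) ≤ s + t + W.b := le_of_eq (by ring)
  have e1 := Derivx671.S_rm (le_refl (s + W.b)) k1 h0 h1 (W.D s a) b
  have e2 := Derivx671.S_lm k2 h0 h2 a (W.D t b)
  rw [fsS_id (s + W.b) (le_refl (s + W.b)) (W.D s a)] at e1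
  calc Hm (inc h0) (Hm (fsS p _) (W.D (s + t) (Hm (mul p s t) (cx a b))))
      = Hm ((inc h0).comp (fsS p _)) (W.D (s + t) (Hm (mul p s t) (cx a b))) :=
        (Hm_comp_apply _ _ _).symm
    _ = Hm ((inc h0).comp (fsS p _)) (Hm (inc2 k1) (Hm (rm p (s + W.b) t) (cx (W.D s a) b)) +
          Hm (inc2 k2) (Hm (lm p s (t + W.b)) (cx a (W.D t b)))) :=
        congrArg _ (D_mul W s t k1 k2 a b)
    _ = _ := map_add _ _ _
    _ = _ := congrArg₂ (· + ·) (e1.trans (Hm_comp_apply _ _ _))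
        (e2.trans (congrArg (fun z => ep a • z) (Hm_comp_apply _ _ _)))

/-- relation (R) -/
theorem relT (W : TD p m) (t T : ℝ≥0) (hk : t + (2 * ell W.Wc + (W.b + (W.a + W.a))) ≤ T)
    (h1 : t ≤ T) (h2 : t + W.b + W.a ≤ T) (y : HS (OmT p t)) :
    Hm (inc2 h1) (Hm (i1 p t) y) + Hm (inc2 h1) (Hm (i2 p t) y) =
      Hm (inc2 h2) (Hm (mid1 p _ _) (cx (W.D t y) W.x)) +
        Hm (inc2 h2) (Hm (mid2 p _ _) (cx (W.D t y) W.x)) := by
  have k1 : t + 2 * ell W.Wc ≤ T := le_trans (add_le_add le_rfl le_self_add) hk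
  have k2 : t + W.b + (W.a + W.a) ≤ T :=
    le_trans (by rw [add_assoc]; exact add_le_add le_rfl le_add_self) hk
  exact W.rel t h1 k1 k2 h2 y

/-- **the cut data** -/
def cutH (W : TD p m) (hx : ∀ (u : ℝ≥0) (h : W.a ≤ u), Hm (inc h) W.x ≠ 0) : CutH p m where
  cD := W.b
  Dc := W.D
  Dc_gr _ _ _ hy := W.D_mem hy
  Dc_lt _ _ _ hy hj := W.D_low hy hj
  Dc_inc _ _ h h' y := W.D_inc h h' y
  cx' := W.a
  x := W.x
  x_gr := W.x_mem
  x_ne := hx
  k := 2 * ell W.Wc + (W.b + (W.a + W.a))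
  R t T hk h1 h2 y := relT W t T hk h1 h2 y
  leib s t T _ h0 h1 h2 a b := leibT W s t T h0 h1 h2 a b

/-- **the levelled algebra** -/
def levTD (W : TD p m) (hx : ∀ (u : ℝ≥0) (h : W.a ≤ u), Hm (inc h) W.x ≠ 0) : LevA m :=
  (cutH W hx).lev 1

end Crest.Agent.R231.CutIx969
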