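import Crest.Agent.R231.Moore_725

/-!
# Cutting Moore loops with a tether (row 231, block P)

A *tether* at `p` is an open set `V` of `M` together with a continuous choice of a path
`T y` from `y ∈ V` to `p`, of length at most `L`.  For a path `g` and a time `s` with
`g s ∈ V`:

* `Fc s g = g|[0,s] . T (g s)` : a loop at `p` of length at most `s + L`;
* `Sc s g = T (g s)⁻¹ . g|[s,t]` : a loop at `p` of length at most `L + (t - s)`;
* `dt r s g` : the detour homotopy from `g` (`r = 0`) to `Fc s g . Sc s g` (`r = L`).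
-/

namespace Crest.Agent.R231.CutMx725

open Set Topology Crest.Agent.R231.Moorex725

set_option linter.unusedSectionVars false

variable {M : Type*} [PseudoMetricSpace M]

/-- A tether at `p`. -/
structure Tether (p : M) where
  V : Set M
  isOpen : IsOpen V
  L : ℝ
  L_nonneg : 0 ≤ L
  T : M → ℝ → M
  mem : ∀ y, y ∈ V → T y ∈ MP y p L
  cont : ContinuousOn T V

variable {p : M} (W : Tether p)

/-- The first piece of the cut. -/
noncomputable def Fc (s : ℝ) (g : ℝ → M) : ℝ → M := cc s (head s g) (W.T (g s))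

/-- The second piece of the cut. -/
noncomputable def Sc (s : ℝ) (g : ℝ → M) : ℝ → M := cc W.L (rev W.L (W.T (g s))) (tail s g)

variable {W}

theorem Fc_mem {q x : M} {t s : ℝ} {g : ℝ → M} (hg : g ∈ MP x q t) (hs : 0 ≤ s)
    (hV : g s ∈ W.V) : Fc W s g ∈ MP x p (s + W.L) :=
  cc_mem (head_mem hg) (W.mem _ hV) hs W.L_nonneg

theorem Sc_mem {q x : M} {t s : ℝ} {g : ℝ → M} (hg : g ∈ MP x q t) (hs : s ≤ t)
    (hV : g s ∈ W.V) : Sc W s g ∈ MP p q (W.L + (t - s)) :=
  cc_mem (rev_mem (W.mem _ hV)) (tail_mem hg hs) W.L_nonneg (by linarith)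

theorem Sc_mem' {q x : M} {t s b : ℝ} {g : ℝ → M} (hg : g ∈ MP x q t) (hb : 0 ≤ b)
    (hs : t ≤ b + s) (hV : g s ∈ W.V) : Sc W s g ∈ MP p q (W.L + b) :=
  cc_mem (rev_mem (W.mem _ hV)) (tail_mem' hg hb hs) W.L_nonneg hb

section junction

variable {x y q : M} {c d s : ℝ} {a b : ℝ → M}

theorem Fc_cc_of_le (h : s ≤ c) : Fc W s (cc c a b) = Fc W s a := by
  rw [Fc, Fc, head_cc_of_le _ _ h, cc_of_le _ _ h]

theorem Sc_cc_of_ge (ha : a ∈ MP x y c) (hb : b ∈ MP y q d) (h : c ≤ s) :
    Sc W s (cc c a b) = Sc W (s - c) b := by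
  have hab : a c = b 0 := by rw [ha.2.2 _ le_rfl, hb.2.1 _ le_rfl]
  rw [Sc, Sc, tail_cc_of_ge hab h, cc_of_ge hab h]

theorem Fc_cc_of_ge (ha : a ∈ MP x y c) (hb : b ∈ MP y q d) (h : c ≤ s) :
    Fc W s (cc c a b) = cc c a (Fc W (s - c) b) := by
  have hab : a c = b 0 := by rw [ha.2.2 _ le_rfl, hb.2.1 _ le_rfl]
  rw [Fc, Fc, head_cc_of_ge hab h, cc_of_ge hab h, cc_assoc' _ _ _ h]

theorem Sc_cc_of_le (h : s ≤ c) :
    Sc W s (cc c a b) = cc (W.L + (c - s)) (Sc W s a) b := by
  rw [Sc, Sc, tail_cc_of_le _ _ h, cc_of_le _ _ h, cc_assoc _ _ _ (by linarith)]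

end junction

/-! ### The detour homotopy -/

/-- Go along `g` until time `s`, make the detour along `c` until time `r` and back, and
continue along `g`. -/
noncomputable def dt (r s : ℝ) (c g : ℝ → M) : ℝ → M :=
  cc s (head s g) (cc r (head r c) (cc r (rev r (head r c)) (tail s g)))

theorem dt_mem {q x z : M} {t s r l : ℝ} {c g : ℝ → M} (hg : g ∈ MP x q t) (hs : 0 ≤ s)
    (hst : s ≤ t) (hc : c ∈ MP (g s) z l) (hr : 0 ≤ r) : dt r s c g ∈ MP x q (t + 2 * r) := by
  have h1 : cc r (rev r (head r c)) (tail s g) ∈ MP (c r) q (r + (t - s)) :=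
    cc_mem (rev_mem (head_mem hc)) (tail_mem hg hst) hr (by linarith)
  have h2 := cc_mem (head_mem hc) h1 hr (by linarith)
  have h3 := cc_mem (head_mem hg (s := s)) h2 hs (by linarith)
  have e : s + (r + (r + (t - s))) = t + 2 * r := by ring
  rwa [e] at h3

theorem dt_zero {q x z : M} {t s l : ℝ} {c g : ℝ → M} (hg : g ∈ MP x q t)
    (hst : s ≤ t) (hc : c ∈ MP (g s) z l) : dt 0 s c g = g := by
  have e1 : head 0 c = fun _ => g s := head_of_le hc le_rfl
  have e2 : rev 0 (head 0 c) = fun _ => g s := by rw [e1]; rfl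
  have hh := tail_mem hg hst
  rw [dt, e2, e1, cc_const_left hh, cc_const_left hh, cc_head_tail]

theorem dt_full {s l : ℝ} {c g : ℝ → M} {x q z : M} {t : ℝ} (hl : 0 ≤ l) (hg : g ∈ MP x q t)
    (hc : c ∈ MP (g s) z l) :
    dt l s c g = cc (s + l) (cc s (head s g) c) (cc l (rev l c) (tail s g)) := by
  rw [cc_assoc _ _ _ hl, dt, head_of_ge hc le_rfl]

theorem dt_tether {s t : ℝ} {g : ℝ → M} {x q : M} (hg : g ∈ MP x q t) (hV : g s ∈ W.V) :
    dt W.L s (W.T (g s)) g = cc (s + W.L) (Fc W s g) (Sc W s g) :=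
  dt_full W.L_nonneg hg (W.mem _ hV)

/-! ### Continuity -/

section cont

variable {X : Type*} [TopologicalSpace X] {g : X → ℝ → M} {s : X → ℝ}

theorem continuous_T (hg : Continuous g) (hL : ∀ x, g x ∈ LL M) (hs : Continuous s)
    (hV : ∀ x, g x (s x) ∈ W.V) : Continuous fun x => W.T (g x (s x)) :=
  W.cont.comp_continuous (continuous_eval hg hL hs) hV

theorem continuous_Fc (hg : Continuous g) (hL : ∀ x, g x ∈ LL M) (hs : Continuous s)
    (hV : ∀ x, g x (s x) ∈ W.V) : Continuous fun x => Fc W (s x) (g x) :=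
  continuous_cc (continuous_head hg hL hs) (continuous_T hg hL hs hV) hs
    (fun x => (W.mem _ (hV x)).1) fun x => by
      rw [head, min_self]
      exact ((W.mem _ (hV x)).2.1 0 le_rfl).symm

theorem continuous_Sc (hg : Continuous g) (hL : ∀ x, g x ∈ LL M) (hs : Continuous s)
    (hV : ∀ x, g x (s x) ∈ W.V) : Continuous fun x => Sc W (s x) (g x) := by
  refine continuous_cc (c := fun _ => W.L) ?_ (continuous_tail hg hL hs) continuous_const
    (fun x => tail_LL (hL x) _) fun x => ?_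
  · exact continuous_rev (s := fun _ => W.L) (continuous_T hg hL hs hV)
      (fun x => (W.mem _ (hV x)).1) continuous_const
  · rw [rev, sub_self, tail, max_self, zero_add]
    exact (W.mem _ (hV x)).2.1 0 le_rfl

theorem continuous_dt {r : X → ℝ} {c : X → ℝ → M} (hg : Continuous g) (hL : ∀ x, g x ∈ LL M)
    (hs : Continuous s) (hr : Continuous r) (hr0 : ∀ x, 0 ≤ r x) (hc : Continuous c)
    (hcL : ∀ x, c x ∈ LL M) (hc0 : ∀ x, c x 0 = g x (s x)) :
    Continuous fun x => dt (r x) (s x) (c x) (g x) := by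
  have h1 : Continuous fun x => rev (r x) (head (r x) (c x)) :=
    continuous_rev (continuous_head hc hcL hr) (fun x => head_LL (hcL x) _) hr
  have e1 : ∀ x, rev (r x) (head (r x) (c x)) (r x) = tail (s x) (g x) 0 := by
    intro x
    rw [rev, sub_self, head, min_eq_left (hr0 x), tail, max_self, zero_add, hc0 x]
  have e2 : ∀ x, rev (r x) (head (r x) (c x)) ∈ LL M := fun x => rev_LL (head_LL (hcL x) _) _
  have h2 : Continuous fun x => cc (r x) (rev (r x) (head (r x) (c x))) (tail (s x) (g x)) :=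
    continuous_cc h1 (continuous_tail hg hL hs) hr (fun x => tail_LL (hL x) _) e1
  have e3 : ∀ x, cc (r x) (rev (r x) (head (r x) (c x))) (tail (s x) (g x)) ∈ LL M := fun x =>
    cc_lip (e2 x) (tail_LL (hL x) _) (e1 x)
  have e4 : ∀ x, head (r x) (c x) (r x) =
      cc (r x) (rev (r x) (head (r x) (c x))) (tail (s x) (g x)) 0 := by
    intro x
    rw [cc_of_le _ _ (hr0 x), rev, sub_zero]
  have h3 : Continuous fun x => cc (r x) (head (r x) (c x))
      (cc (r x) (rev (r x) (head (r x) (c x))) (tail (s x) (g x))) :=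
    continuous_cc (continuous_head hc hcL hr) h2 hr e3 e4
  refine continuous_cc (continuous_head hg hL hs) h3 hs
    (fun x => cc_lip (head_LL (hcL x) _) (e3 x) (e4 x)) fun x => ?_
  rw [cc_of_le _ _ (hr0 x), head, head, min_self, min_eq_left (hr0 x), hc0 x]

end cont

end Crest.Agent.R231.CutMx725
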