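import Crest.Agent.R231.OmCmp_725

/-!
# Homotopies between the maps of `OmSp_725` (row 231, block P, leaf Q1)
-/

namespace Crest.Agent.R231.OmSpx725

open Set Topology NNReal Crest.Agent.R231.Moorex725 Crest.Agent.R231.CutMx725
  Crest.Agent.R231.SlideMx725

set_option linter.unusedSectionVars false
set_option linter.unusedVariables false

variable {M : Type*} [PseudoMetricSpace M] {p : M}

/-- how to give a homotopy -/
theorem homotopic_of {X Y : Type*} [TopologicalSpace X] [TopologicalSpace Y] {f g : C(X, Y)}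
    (H : unitInterval → X → Y) (hc : Continuous fun x : unitInterval × X => H x.1 x.2)
    (h0 : ∀ x, H 0 x = f x) (h1 : ∀ x, H 1 x = g x) : f.Homotopic g :=
  ⟨{ toFun := fun x => H x.1 x.2
     continuous_toFun := hc
     map_zero_left := h0
     map_one_left := h1 }⟩

/-- how to give a homotopy into `OmT` -/
theorem htpO {X : Type*} [TopologicalSpace X] {U : ℝ≥0} {f g : C(X, OmT p U)}
    (H : unitInterval → X → ℝ → M) (hm : ∀ u x, H u x ∈ Om p (U : ℝ))
    (hc : Continuous fun x : unitInterval × X => H x.1 x.2)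
    (h0 : ∀ x, H 0 x = (f x).1) (h1 : ∀ x, H 1 x = (g x).1) : f.Homotopic g :=
  homotopic_of (fun u x => ⟨H u x, hm u x⟩) (hc.subtype_mk _) (fun x => OmT_ext (h0 x))
    fun x => OmT_ext (h1 x)

/-- how to give a homotopy into `Om2T` -/
theorem htpO2 {X : Type*} [TopologicalSpace X] {U : ℝ≥0} {f g : C(X, Om2T p U)}
    (F S : unitInterval → X → ℝ → M) (r : unitInterval → X → ℝ)
    (hF : ∀ u x, F u x ∈ Om p (r u x)) (hS : ∀ u x, S u x ∈ Om p ((U : ℝ) - r u x))
    (hr0 : ∀ u x, 0 ≤ r u x) (hr1 : ∀ u x, r u x ≤ (U : ℝ))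
    (cF : Continuous fun x : unitInterval × X => F x.1 x.2)
    (cS : Continuous fun x : unitInterval × X => S x.1 x.2)
    (cr : Continuous fun x : unitInterval × X => r x.1 x.2)
    (F0 : ∀ x, F 0 x = (f x).1.1) (S0 : ∀ x, S 0 x = (f x).1.2.1) (r0 : ∀ x, r 0 x = (f x).1.2.2)
    (F1 : ∀ x, F 1 x = (g x).1.1) (S1 : ∀ x, S 1 x = (g x).1.2.1)
    (r1 : ∀ x, r 1 x = (g x).1.2.2) : f.Homotopic g :=
  homotopic_of (fun u x => ⟨(F u x, S u x, r u x), hF u x, hS u x, hr0 u x, hr1 u x⟩)
    ((cF.prodMk (cS.prodMk cr)).subtype_mk _) (fun x => Om2T_ext (F0 x) (S0 x) (r0 x))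
    fun x => Om2T_ext (F1 x) (S1 x) (r1 x)

/-- intermediate number -/
noncomputable def mix (u : unitInterval) (a b : ℝ) : ℝ := (1 - (u : ℝ)) * a + (u : ℝ) * b

@[simp] theorem mix_zero (a b : ℝ) : mix 0 a b = a := by simp [mix]

@[simp] theorem mix_one (a b : ℝ) : mix 1 a b = b := by simp [mix]

theorem le_mix {u : unitInterval} {a b c : ℝ} (h1 : c ≤ a) (h2 : c ≤ b) : c ≤ mix u a b := by
  have h3 := u.2.1
  have h4 : 0 ≤ 1 - (u : ℝ) := by linarith [u.2.2]
  unfold mix
  nlinarith [mul_le_mul_of_nonneg_left h1 h4, mul_le_mul_of_nonneg_left h2 h3]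

theorem mix_le {u : unitInterval} {a b c : ℝ} (h1 : a ≤ c) (h2 : b ≤ c) : mix u a b ≤ c := by
  have h3 := u.2.1
  have h4 : 0 ≤ 1 - (u : ℝ) := by linarith [u.2.2]
  unfold mix
  nlinarith [mul_le_mul_of_nonneg_left h1 h4, mul_le_mul_of_nonneg_left h2 h3]

theorem continuous_mix {X : Type*} [TopologicalSpace X] {a b : X → ℝ} (ha : Continuous a)
    (hb : Continuous b) : Continuous fun x : unitInterval × X => mix x.1 (a x.2) (b x.2) := by
  unfold mix
  fun_prop

theorem continuous_mixc {X : Type*} [TopologicalSpace X] (a b : ℝ) :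
    Continuous fun x : unitInterval × X => mix x.1 a b :=
  continuous_mix continuous_const continuous_const

theorem cc_mem_of_le {q : M} {c d e T : ℝ} {a b : ℝ → M} (ha : a ∈ Om q c) (hb : b ∈ Om q d)
    (hce : c ≤ e) (he : 0 ≤ e) (hd : 0 ≤ d) (hT : e + d ≤ T) : cc e a b ∈ Om q T :=
  Om_mono q hT (cc_mem' ha hb hce he hd)

/-! ### Change of the concatenation time -/

theorem mul_inc_left {a a' b T : ℝ≥0} (h : a ≤ a') (h1 : a' + b ≤ T) (h2 : a + b ≤ T) :
    ((inc h1).comp ((mul p a' b).comp ((inc h).prodMap (ContinuousMap.id _)))).Homotopic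
      ((inc h2).comp (mul p a b)) := by
  have k : (a : ℝ) ≤ a' := h
  have k1 : (a' : ℝ) + b ≤ T := by exact_mod_cast h1
  refine htpO (fun u x => cc (mix u a' a) x.1.1 x.2.1) (fun u x => cc_mem_of_le x.1.2 x.2.2
    (le_mix k le_rfl) (le_mix a'.2 a.2) b.2 ?_) ?_ (fun x => ?_) (fun x => ?_)
  · have := mix_le (u := u) (le_refl (a' : ℝ)) k
    linarith
  · refine continuous_cc
      (continuous_subtype_val.comp (continuous_fst.comp continuous_snd))
      (continuous_subtype_val.comp (continuous_snd.comp continuous_snd))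
      (continuous_mixc _ _) (fun x => x.2.2.2.1) fun x => ?_
    exact (x.2.1.2.2.2 _ (le_mix k le_rfl)).trans (x.2.2.2.2.1 _ le_rfl).symm
  · rw [mix_zero]; rfl
  · rw [mix_one]; rfl

theorem one_mul_htp {a b T : ℝ≥0} (h1 : a + b ≤ T) (h2 : b ≤ T) :
    ((inc h1).comp ((mul p a b).comp ((ContinuousMap.const _ (one p a)).prodMk
      (ContinuousMap.id _)))).Homotopic (inc h2) := by
  have k1 : (a : ℝ) + b ≤ T := by exact_mod_cast h1
  refine htpO (fun u x => cc (mix u a 0) (fun _ => p) x.1) (fun u x => cc_mem_of_le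
    (const_mem_Om p 0) x.2 (le_mix a.2 le_rfl) (le_mix a.2 le_rfl) b.2 ?_) ?_
    (fun x => ?_) (fun x => ?_)
  · have := mix_le (u := u) (le_refl (a : ℝ)) a.2
    linarith
  · refine continuous_cc continuous_const
      (continuous_subtype_val.comp continuous_snd)
      (continuous_mixc _ _) (fun x => x.2.2.1) fun x => ?_
    exact (x.2.2.2.1 _ le_rfl).symm
  · rw [mix_zero]; rfl
  · rw [mix_one]; exact cc_const_left x.2

theorem i1_inc {t t' T : ℝ≥0} (h : t ≤ t') (h1 : t' ≤ T) (h2 : t ≤ T) :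
    ((inc2 h1).comp ((i1 p t').comp (inc h))).Homotopic ((inc2 h2).comp (i1 p t)) := by
  have k : (t : ℝ) ≤ t' := h
  have k1 : (t' : ℝ) ≤ T := by exact_mod_cast h1
  refine htpO2 (fun u x => x.1) (fun u x _ => p) (fun u x => mix u t' t)
    (fun u x => Om_mono p (le_mix k le_rfl) x.2) (fun u x => const_mem_Om p _)
    (fun u x => le_mix t'.2 t.2) (fun u x => (mix_le le_rfl k).trans k1)
    (continuous_subtype_val.comp continuous_snd) continuous_const (continuous_mixc _ _)
    (fun x => rfl) (fun x => rfl) (fun x => mix_zero _ _)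
    (fun x => rfl) (fun x => rfl) (fun x => mix_one _ _)

theorem lm_inc_left {a a' T U : ℝ≥0} (h : a ≤ a') (h1 : a' + T ≤ U) (h2 : a + T ≤ U) :
    ((inc2 h1).comp ((lm p a' T).comp ((inc h).prodMap (ContinuousMap.id _)))).Homotopic
      ((inc2 h2).comp (lm p a T)) := by
  have k : (a : ℝ) ≤ a' := h
  have k1 : (a' : ℝ) + T ≤ U := by exact_mod_cast h1
  refine htpO2 (fun u x => cc (mix u a' a) x.1.1 x.2.1.1) (fun u x => x.2.1.2.1)
    (fun u x => mix u a' a + x.2.1.2.2)
    (fun u x => cc_mem_of_le x.1.2 x.2.2.1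
      (le_mix k le_rfl) (le_mix a'.2 a.2) x.2.2.2.2.1 le_rfl)
    (fun u x => ?_) (fun u x => add_nonneg (le_mix a'.2 a.2) x.2.2.2.2.1) (fun u x => ?_)
    ?_ (continuous_S.comp (continuous_snd.comp continuous_snd))
    ((continuous_mixc _ _).add (continuous_r.comp (continuous_snd.comp continuous_snd)))
    (fun x => ?_) (fun x => rfl) (fun x => ?_) (fun x => ?_) (fun x => rfl) (fun x => ?_)
  · refine Om_mono p ?_ x.2.2.2.1
    have := mix_le (u := u) (le_refl (a' : ℝ)) k
    linarith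
  · have := mix_le (u := u) (le_refl (a' : ℝ)) k
    have h5 := x.2.2.2.2.2
    linarith
  · refine continuous_cc
      (continuous_subtype_val.comp (continuous_fst.comp continuous_snd))
      (continuous_F.comp (continuous_snd.comp continuous_snd))
      (continuous_mixc _ _) (fun x => x.2.2.2.1.1) fun x => ?_
    exact (x.2.1.2.2.2 _ (le_mix k le_rfl)).trans (x.2.2.2.1.2.1 _ le_rfl).symm
  · rw [mix_zero]; rfl
  · rw [mix_zero]; rfl
  · rw [mix_one]; rfl
  · rw [mix_one]; rfl

theorem rm_inc2 {T T' b U : ℝ≥0} (h : T ≤ T') (h1 : T' + b ≤ U) (h2 : T + b ≤ U) :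
    ((inc2 h1).comp ((rm p T' b).comp ((inc2 h).prodMap (ContinuousMap.id _)))).Homotopic
      ((inc2 h2).comp (rm p T b)) := by
  have k : (T : ℝ) ≤ T' := h
  have k1 : (T' : ℝ) + b ≤ U := by exact_mod_cast h1
  have m0 : ∀ (u : unitInterval) (x : Om2T p T), (0 : ℝ) ≤ mix u T' T - x.1.2.2 := fun u x => by
    have := le_mix (u := u) (c := x.1.2.2) (x.2.2.2.2.trans k) x.2.2.2.2
    linarith
  have m1 : ∀ (u : unitInterval) (x : Om2T p T), (T : ℝ) - x.1.2.2 ≤ mix u T' T - x.1.2.2 :=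
    fun u x => by
      have := le_mix (u := u) k (le_refl (T : ℝ))
      linarith
  refine htpO2 (fun u x => x.1.1.1) (fun u x => cc (mix u T' T - x.1.1.2.2) x.1.1.2.1 x.2.1)
    (fun u x => x.1.1.2.2) (fun u x => x.1.2.1)
    (fun u x => cc_mem_of_le x.1.2.2.1 x.2.2 (m1 u x.1) (m0 u x.1) b.2 ?_)
    (fun u x => x.1.2.2.2.1) (fun u x => ?_)
    (continuous_F.comp (continuous_fst.comp continuous_snd)) ?_
    (continuous_r.comp (continuous_fst.comp continuous_snd))
    (fun x => rfl) (fun x => ?_) (fun x => rfl) (fun x => rfl) (fun x => ?_) (fun x => rfl)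
  · have := mix_le (u := u) (le_refl (T' : ℝ)) k
    linarith
  · have h5 := x.1.2.2.2.2
    have : (0 : ℝ) ≤ b := b.2
    linarith
  · refine continuous_cc (continuous_S.comp (continuous_fst.comp continuous_snd))
      (continuous_subtype_val.comp (continuous_snd.comp continuous_snd))
      ((continuous_mixc _ _).sub
        (continuous_r.comp (continuous_fst.comp continuous_snd)))
      (fun x => x.2.2.2.1) fun x => ?_
    exact (x.2.1.2.2.1.2.2 _ (m1 _ _)).trans (x.2.2.2.2.1 _ le_rfl).symm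
  · rw [mix_zero]; rfl
  · rw [mix_one]; rfl

theorem mid1_inc_right {T a a' U : ℝ≥0} (h : a ≤ a') (h1 : T + a' ≤ U) (h2 : T + a ≤ U) :
    ((inc2 h1).comp ((mid1 p T a').comp ((ContinuousMap.id _).prodMap (inc h)))).Homotopic
      ((inc2 h2).comp (mid1 p T a)) := by
  have k : (a : ℝ) ≤ a' := h
  have k1 : (T : ℝ) + a' ≤ U := by exact_mod_cast h1
  refine htpO2 (fun u x => cc x.1.1.2.2 x.1.1.1 x.2.1) (fun u x => x.1.1.2.1)
    (fun u x => x.1.1.2.2 + mix u a' a)
    (fun u x => cc_mem_of_le x.1.2.1 x.2.2 le_rfl x.1.2.2.2.1 a.2 ?_) (fun u x => ?_)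
    (fun u x => add_nonneg x.1.2.2.2.1 (le_mix a'.2 a.2)) (fun u x => ?_) ?_
    (continuous_S.comp (continuous_fst.comp continuous_snd))
    ((continuous_r.comp (continuous_fst.comp continuous_snd)).add (continuous_mixc _ _))
    (fun x => rfl) (fun x => rfl) (fun x => ?_) (fun x => rfl) (fun x => rfl) (fun x => ?_)
  · have := le_mix (u := u) k (le_refl (a : ℝ))
    change x.1.1.2.2 + (a : ℝ) ≤ _
    linarith
  · refine Om_mono p ?_ x.1.2.2.1
    have := mix_le (u := u) (le_refl (a' : ℝ)) k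
    linarith
  · have := mix_le (u := u) (le_refl (a' : ℝ)) k
    have h5 := x.1.2.2.2.2
    linarith
  · refine continuous_cc
      (continuous_F.comp (continuous_fst.comp continuous_snd))
      (continuous_subtype_val.comp (continuous_snd.comp continuous_snd))
      (continuous_r.comp (continuous_fst.comp continuous_snd)) (fun x => x.2.2.2.1)
      fun x => ?_
    exact (x.2.1.2.1.2.2 _ le_rfl).trans (x.2.2.2.2.1 _ le_rfl).symm
  · rw [mix_zero]; rfl
  · rw [mix_one]; rfl

theorem mid2_inc_right {T a a' U : ℝ≥0} (h : a ≤ a') (h1 : T + a' ≤ U) (h2 : T + a ≤ U) :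
    ((inc2 h1).comp ((mid2 p T a').comp ((ContinuousMap.id _).prodMap (inc h)))).Homotopic
      ((inc2 h2).comp (mid2 p T a)) := by
  have k : (a : ℝ) ≤ a' := h
  have k1 : (T : ℝ) + a' ≤ U := by exact_mod_cast h1
  refine htpO2 (fun u x => x.1.1.1) (fun u x => cc (mix u a' a) x.2.1 x.1.1.2.1)
    (fun u x => x.1.1.2.2)
    (fun u x => x.1.2.1) (fun u x => cc_mem_of_le x.2.2 x.1.2.2.1 (le_mix k le_rfl)
      (le_mix a'.2 a.2) (by linarith [x.1.2.2.2.2]) ?_) (fun u x => x.1.2.2.2.1) (fun u x => ?_)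
    (continuous_F.comp (continuous_fst.comp continuous_snd)) ?_
    (continuous_r.comp (continuous_fst.comp continuous_snd))
    (fun x => rfl) (fun x => ?_) (fun x => rfl) (fun x => rfl) (fun x => ?_) (fun x => rfl)
  · have := mix_le (u := u) (le_refl (a' : ℝ)) k
    linarith
  · have h5 := x.1.2.2.2.2
    have : (0 : ℝ) ≤ a' := a'.2
    linarith
  · refine continuous_cc (continuous_subtype_val.comp (continuous_snd.comp continuous_snd))
      (continuous_S.comp (continuous_fst.comp continuous_snd))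
      (continuous_mixc _ _)
      (fun x => x.2.1.2.2.1.1) fun x => ?_
    exact (x.2.2.2.2.2 _ (le_mix k le_rfl)).trans (x.2.1.2.2.1.2.1 _ le_rfl).symm
  · rw [mix_zero]; rfl
  · rw [mix_one]; rfl

theorem insm_inc_right {T a a' U : ℝ≥0} (h : a ≤ a') (h1 : T + a' ≤ U) (h2 : T + a ≤ U) :
    ((inc h1).comp ((insm p T a').comp ((ContinuousMap.id _).prodMap (inc h)))).Homotopic
      ((inc h2).comp (insm p T a)) :=
  (ContinuousMap.Homotopic.refl (cat p U)).comp (mid1_inc_right (p := p) h h1 h2)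

theorem sw_inc2 {T T' U : ℝ≥0} (h : T ≤ T') (h1 : T' ≤ U) (h2 : T ≤ U) :
    ((inc2 h1).comp ((sw p T').comp (inc2 h))).Homotopic ((inc2 h2).comp (sw p T)) := by
  have k : (T : ℝ) ≤ T' := h
  have k1 : (T' : ℝ) ≤ U := by exact_mod_cast h1
  have m1 : ∀ (u : unitInterval) (x : Om2T p T), (T : ℝ) - x.1.2.2 ≤ mix u T' T - x.1.2.2 :=
    fun u x => by
      have := le_mix (u := u) k (le_refl (T : ℝ))
      linarith
  refine htpO2 (fun u x => x.1.2.1) (fun u x => x.1.1) (fun u x => mix u T' T - x.1.2.2)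
    (fun u x => Om_mono p (m1 u x) x.2.2.1) (fun u x => Om_mono p ?_ x.2.1)
    (fun u x => ?_) (fun u x => ?_) (continuous_S.comp continuous_snd)
    (continuous_F.comp continuous_snd)
    ((continuous_mixc _ _).sub (continuous_r.comp continuous_snd))
    (fun x => rfl) (fun x => rfl) (fun x => ?_) (fun x => rfl) (fun x => rfl) (fun x => ?_)
  · have := mix_le (u := u) (le_refl (T' : ℝ)) k
    linarith
  · have := m1 u x
    have h5 := x.2.2.2.2
    linarith
  · have := mix_le (u := u) (le_refl (T' : ℝ)) k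
    have h5 := x.2.2.2.1
    linarith
  · rw [mix_zero]; rfl
  · rw [mix_one]; rfl

theorem tac_inc2 {T T' U : ℝ≥0} (h : T ≤ T') (h1 : T' ≤ U) (h2 : T ≤ U) :
    ((inc h1).comp ((tac p T').comp (inc2 h))).Homotopic ((inc h2).comp (tac p T)) :=
  (ContinuousMap.Homotopic.refl (cat p U)).comp (sw_inc2 (p := p) h h1 h2)

theorem cmp_inc2_right {S T T' U : ℝ≥0} (h : T ≤ T') (h1 : S + T' ≤ U) (h2 : S + T ≤ U) :
    ((inc2 h1).comp ((cmp p S T').comp ((ContinuousMap.id _).prodMap (inc2 h)))).Homotopic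
      ((inc2 h2).comp (cmp p S T)) := by
  have k : (T : ℝ) ≤ T' := h
  have k1 : (S : ℝ) + T' ≤ U := by exact_mod_cast h1
  have m0 : ∀ (u : unitInterval) (x : Om2T p T), (0 : ℝ) ≤ mix u T' T - x.1.2.2 := fun u x => by
    have := le_mix (u := u) (c := x.1.2.2) (x.2.2.2.2.trans k) x.2.2.2.2
    linarith
  have m1 : ∀ (u : unitInterval) (x : Om2T p T), (T : ℝ) - x.1.2.2 ≤ mix u T' T - x.1.2.2 :=
    fun u x => by
      have := le_mix (u := u) k (le_refl (T : ℝ))
      linarith
  have c1 : Continuous fun x : unitInterval × (Om2T p S × Om2T p T) => x.2.1 :=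
    continuous_fst.comp continuous_snd
  have c2 : Continuous fun x : unitInterval × (Om2T p S × Om2T p T) => x.2.2 :=
    continuous_snd.comp continuous_snd
  refine htpO2 (fun u x => cc x.1.1.2.2 x.1.1.1 x.2.1.1)
    (fun u x => cc (mix u T' T - x.2.1.2.2) x.2.1.2.1 x.1.1.2.1)
    (fun u x => x.1.1.2.2 + x.2.1.2.2)
    (fun u x => cc_mem_Om x.1.2.1 x.2.2.1 x.1.2.2.2.1 x.2.2.2.2.1)
    (fun u x => cc_mem_of_le x.2.2.2.1 x.1.2.2.1 (m1 u x.2) (m0 u x.2)
      (by linarith [x.1.2.2.2.2]) ?_)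
    (fun u x => add_nonneg x.1.2.2.2.1 x.2.2.2.2.1) (fun u x => ?_)
    (continuous_cc (continuous_F.comp c1) (continuous_F.comp c2)
      (continuous_r.comp c1) (fun x => x.2.2.2.1.1) fun x => ?_)
    (continuous_cc (continuous_S.comp c2) (continuous_S.comp c1)
      ((continuous_mixc _ _).sub (continuous_r.comp c2))
      (fun x => x.2.1.2.2.1.1) fun x => ?_)
    ((continuous_r.comp c1).add (continuous_r.comp c2))
    (fun x => rfl) (fun x => ?_) (fun x => rfl) (fun x => rfl) (fun x => ?_) (fun x => rfl)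
  · have := mix_le (u := u) (le_refl (T' : ℝ)) k
    linarith
  · have h5 := x.1.2.2.2.2
    have h6 := x.2.2.2.2.2
    linarith
  · exact (x.2.1.2.1.2.2 _ le_rfl).trans (x.2.2.2.1.2.1 _ le_rfl).symm
  · exact (x.2.2.2.2.1.2.2 _ (m1 _ _)).trans (x.2.1.2.2.1.2.1 _ le_rfl).symm
  · rw [mix_zero]; rfl
  · rw [mix_one]; rfl

/-- forgetting the second piece of `(F.w, S)` -/
theorem fsF_mid1 {T a U : ℝ≥0} (h1 : T + a ≤ U) :
    ((inc h1).comp ((fsF p (T + a)).comp (mid1 p T a))).Homotopic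
      ((inc h1).comp ((mul p T a).comp ((fsF p T).prodMap (ContinuousMap.id _)))) := by
  have k1 : (T : ℝ) + a ≤ U := by exact_mod_cast h1
  have m0 : ∀ (u : unitInterval) (x : Om2T p T), x.1.2.2 ≤ mix u x.1.2.2 T := fun u x =>
    le_mix le_rfl x.2.2.2.2
  refine htpO (fun u x => cc (mix u x.1.1.2.2 T) x.1.1.1 x.2.1)
    (fun u x => cc_mem_of_le x.1.2.1 x.2.2 (m0 u x.1) (x.1.2.2.2.1.trans (m0 u x.1)) a.2 ?_) ?_
    (fun x => ?_) (fun x => ?_)
  · have := mix_le (u := u) x.1.2.2.2.2 (le_refl (T : ℝ))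
    linarith
  · refine continuous_cc
      (continuous_F.comp (continuous_fst.comp continuous_snd))
      (continuous_subtype_val.comp (continuous_snd.comp continuous_snd))
      (continuous_mix (a := fun x : Om2T p T × OmT p a => x.1.1.2.2)
        (continuous_r.comp continuous_fst) continuous_const)
      (fun x => x.2.2.2.1) fun x => ?_
    exact (x.2.1.2.1.2.2 _ (m0 _ _)).trans (x.2.2.2.2.1 _ le_rfl).symm
  · rw [mix_zero]; rfl
  · rw [mix_one]; rfl

/-- `(F.u, 1.S) ~ (F.u, S)` -/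
theorem midd_one_right {T a b U : ℝ≥0} (h1 : T + a + b ≤ U) (h2 : T + a ≤ U) :
    ((inc2 h1).comp ((midd p T a b).comp ((ContinuousMap.id _).prodMap
      ((ContinuousMap.id _).prodMk (ContinuousMap.const _ (one p b)))))).Homotopic
      ((inc2 h2).comp (mid1 p T a)) := by
  have k1 : (T : ℝ) + a + b ≤ U := by exact_mod_cast h1
  have c1 : Continuous fun x : unitInterval × (Om2T p T × OmT p a) => x.2.1 :=
    continuous_fst.comp continuous_snd
  have c2 : Continuous fun x : unitInterval × (Om2T p T × OmT p a) => x.2.2 :=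
    continuous_snd.comp continuous_snd
  refine htpO2 (fun u x => cc x.1.1.2.2 x.1.1.1 x.2.1)
    (fun u x => cc (mix u b 0) (fun _ => p) x.1.1.2.1) (fun u x => x.1.1.2.2 + a)
    (fun u x => cc_mem_Om x.1.2.1 x.2.2 x.1.2.2.2.1 a.2)
    (fun u x => cc_mem_of_le (const_mem_Om p 0) x.1.2.2.1 (le_mix b.2 le_rfl)
      (le_mix b.2 le_rfl) (by linarith [x.1.2.2.2.2]) ?_)
    (fun u x => add_nonneg x.1.2.2.2.1 a.2) (fun u x => ?_)
    (continuous_cc (continuous_F.comp c1) (continuous_subtype_val.comp c2)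
      (continuous_r.comp c1) (fun x => x.2.2.2.1) fun x => ?_)
    (continuous_cc continuous_const (continuous_S.comp c1) (continuous_mixc _ _)
      (fun x => x.2.1.2.2.1.1) fun x => ?_)
    ((continuous_r.comp c1).add continuous_const)
    (fun x => rfl) (fun x => ?_) (fun x => rfl) (fun x => rfl) (fun x => ?_) (fun x => rfl)
  · have := mix_le (u := u) (le_refl (b : ℝ)) b.2
    linarith
  · have h5 := x.1.2.2.2.2
    have : (0 : ℝ) ≤ b := b.2
    linarith
  · exact (x.2.1.2.1.2.2 _ le_rfl).trans (x.2.2.2.2.1 _ le_rfl).symm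
  · exact (x.2.1.2.2.1.2.1 _ le_rfl).symm
  · rw [mix_zero]; rfl
  · rw [mix_one]; exact cc_const_left x.1.2.2.1

/-- `(F.1, v.S) ~ (F, v.S)` -/
theorem midd_one_left {T a b U : ℝ≥0} (h1 : T + a + b ≤ U) (h2 : T + b ≤ U) :
    ((inc2 h1).comp ((midd p T a b).comp ((ContinuousMap.id _).prodMap
      ((ContinuousMap.const _ (one p a)).prodMk (ContinuousMap.id _))))).Homotopic
      ((inc2 h2).comp (mid2 p T b)) := by
  have k1 : (T : ℝ) + a + b ≤ U := by exact_mod_cast h1
  have c1 : Continuous fun x : unitInterval × (Om2T p T × OmT p b) => x.2.1 :=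
    continuous_fst.comp continuous_snd
  have c2 : Continuous fun x : unitInterval × (Om2T p T × OmT p b) => x.2.2 :=
    continuous_snd.comp continuous_snd
  refine htpO2 (fun u x => x.1.1.1) (fun u x => cc (b : ℝ) x.2.1 x.1.1.2.1)
    (fun u x => x.1.1.2.2 + mix u a 0)
    (fun u x => Om_mono p (le_add_of_nonneg_right (le_mix a.2 le_rfl)) x.1.2.1)
    (fun u x => cc_mem_of_le x.2.2 x.1.2.2.1 le_rfl b.2 (by linarith [x.1.2.2.2.2]) ?_)
    (fun u x => add_nonneg x.1.2.2.2.1 (le_mix a.2 le_rfl)) (fun u x => ?_)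
    (continuous_F.comp c1)
    (continuous_cc (c := fun _ => (b : ℝ)) (continuous_subtype_val.comp c2)
      (continuous_S.comp c1) continuous_const (fun x => x.2.1.2.2.1.1) fun x => ?_)
    ((continuous_r.comp c1).add (continuous_mixc _ _))
    (fun x => ?_) (fun x => rfl) (fun x => ?_) (fun x => rfl) (fun x => rfl) (fun x => ?_)
  · have := mix_le (u := u) (le_refl (a : ℝ)) a.2
    linarith
  · have h5 := x.1.2.2.2.2
    have : (0 : ℝ) ≤ b := b.2
    have := mix_le (u := u) (le_refl (a : ℝ)) a.2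
    linarith
  · exact (x.2.2.2.2.2 _ le_rfl).trans (x.2.1.2.2.1.2.1 _ le_rfl).symm
  · change x.1.1.1 = cc x.1.1.2.2 x.1.1.1 (fun _ => p)
    rw [cc_const_right x.1.2.1]
  · rw [mix_zero]; rfl
  · rw [mix_one, add_zero]; rfl

/-! ### A loop times its inverse -/

/-- the reversed loop -/
noncomputable def inv (p : M) (a : ℝ≥0) : C(OmT p a, OmT p a) where
  toFun w := ⟨rev (a : ℝ) w.1, rev_mem w.2⟩
  continuous_toFun := Continuous.subtype_mk (continuous_rev (s := fun _ => (a : ℝ))
    continuous_subtype_val (fun x => x.2.1) continuous_const) _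

@[simp] theorem inv_val (a : ℝ≥0) (w : OmT p a) : (inv p a w).1 = rev (a : ℝ) w.1 := rfl

theorem inv_inv' (a : ℝ≥0) (w : OmT p a) : inv p a (inv p a w) = w :=
  OmT_ext (rev_rev _ _)

theorem inv_mul' (a b : ℝ≥0) {T : ℝ≥0} (h : a + b ≤ T) (h' : b + a ≤ T) (x : OmT p a)
    (y : OmT p b) : inc h (inv p (a + b) (mul p a b (x, y))) =
      inc h' (mul p b a (inv p b y, inv p a x)) :=
  OmT_ext (by
    change rev ((a + b : ℝ≥0) : ℝ) (cc (a : ℝ) x.1 y.1) = _
    rw [NNReal.coe_add, rev_cc x.2 y.2]; rfl)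

theorem inv_inc {a b : ℝ≥0} (h : a ≤ b) :
    ((inv p b).comp (inc h)).Homotopic ((inc h).comp (inv p a)) := by
  have k : (a : ℝ) ≤ b := h
  refine htpO (fun u x => rev (mix u b a) x.1)
    (fun u x => Om_mono p (mix_le le_rfl k) (rev_mem (Om_mono p (le_mix k le_rfl) x.2)))
    (continuous_rev (continuous_subtype_val.comp continuous_snd)
      (fun x => x.2.2.1) (continuous_mixc _ _)) (fun x => ?_) (fun x => ?_)
  · rw [mix_zero]; rfl
  · rw [mix_one]; rfl

/-- `w.w⁻¹ ~ 1` -/
theorem mul_inv_htp (a : ℝ≥0) :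
    ((mul p a a).comp ((ContinuousMap.id _).prodMk (inv p a))).Homotopic
      (ContinuousMap.const _ (one p (a + a))) := by
  refine htpO (fun u x => cc (mix u a 0) (head (mix u a 0) x.1)
    (rev (mix u a 0) (head (mix u a 0) x.1))) (fun u x => ?_) ?_ (fun x => ?_) (fun x => ?_)
  · have h0 : (0 : ℝ) ≤ mix u a 0 := le_mix a.2 le_rfl
    have h1 := mix_le (u := u) (le_refl (a : ℝ)) a.2
    have h2 := cc_mem (head_mem x.2 (s := mix u a 0)) (rev_mem (head_mem x.2)) h0 h0
    exact Om_mono p (by push_cast; linarith) h2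
  · have c1 : Continuous fun x : unitInterval × OmT p a => x.2.1 :=
      continuous_subtype_val.comp continuous_snd
    have c2 : Continuous fun x : unitInterval × OmT p a => mix x.1 a 0 :=
      continuous_mixc _ _
    have c3 := continuous_head c1 (fun x => x.2.2.1) c2
    have c4 := continuous_rev c3 (fun x => head_LL x.2.2.1 _) c2
    refine continuous_cc c3 c4 c2
      (fun x => rev_LL (head_LL x.2.2.1 _) _) fun x => ?_
    rw [rev_apply, sub_zero]
  · rw [mix_zero, head_of_ge x.2 le_rfl]; rfl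
  · rw [mix_one, head_of_le x.2 le_rfl]
    exact cc_const_left (const_mem_Om p 0)

/-- `w⁻¹.w ~ 1` -/
theorem inv_mul_htp (a : ℝ≥0) :
    ((mul p a a).comp ((inv p a).prodMk (ContinuousMap.id _))).Homotopic
      (ContinuousMap.const _ (one p (a + a))) := by
  have h := (mul_inv_htp (p := p) a).comp (ContinuousMap.Homotopic.refl (inv p a))
  have e : ((mul p a a).comp ((ContinuousMap.id _).prodMk (inv p a))).comp (inv p a) =
      (mul p a a).comp ((inv p a).prodMk (ContinuousMap.id _)) := by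
    refine ContinuousMap.ext fun x => ?_
    change mul p a a (inv p a x, inv p a (inv p a x)) = mul p a a (inv p a x, x)
    rw [inv_inv']
  rw [e] at h
  exact h

end Crest.Agent.R231.OmSpx725
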