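import Crest.Agent.R231.LevInst_969
import Crest.Agent.R231.OmHt_725

/-!
# Row 231, block P: `LevA` for the based loops of a metric space (helper969)

* `hts p : Hts p` (from 725's `OmHt_725`)
* `CutH p D` : outputs of leaves (II), (III), (IV) (749, 671, 373/720)
* `CutH.lev : LevA D`
* `ThH C c3 q s' xh` : output of leaf (V) (607/682) in terms of `mid1, mid2, lm, rm`;
  `hasTh : (∀ q s' xh, … → Nonempty (ThH …)) → (C.lev c3).HasTh`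
-/

set_option autoImplicit false

noncomputable section

open Set NNReal

namespace Crest.Agent.R231.LevInstx969

open Crest.Agent.R204 Crest.Agent.R231.FinDim315 Crest.Agent.R231.CXx780
  Crest.Agent.R231.Moorex725 Crest.Agent.R231.CutMx725 Crest.Agent.R231.OmSpx725
  Crest.Agent.R231.Levx969
open Crest.Agent.R204.SpecA hiding inc

variable {M : Type} [PseudoMetricSpace M] {p : M}

theorem hts : Hts p where
  mul_inc_left h h1 h2 := mul_inc_left h h1 h2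
  one_mul h h1 := one_mul_htp h h1
  cmp_inc2_right h h1 h2 := cmp_inc2_right h h1 h2
  sw_inc2 h := sw_inc2 h le_rfl h
  fsS_rm s t := by
    have h := (fsF_mid1 (p := p) (T := s) (a := t) (le_refl (s + t))).comp
      (ContinuousMap.Homotopic.refl ((sw p s).prodMap (ContinuousMap.id (OmT p t))))
    have e1 : (((inc (p := p) (le_refl (s + t))).comp ((fsF p (s + t)).comp (mid1 p s t))).comp
        ((sw p s).prodMap (ContinuousMap.id (OmT p t)))) = (fsS p (s + t)).comp (rm p s t) := by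
      refine ContinuousMap.ext fun x => ?_
      show fsF p (s + t) (mid1 p s t (sw p s x.1, x.2)) = fsS p (s + t) (rm p s t (x.1, x.2))
      rw [← sw_rm, fsF_sw]
    have e2 : (((inc (p := p) (le_refl (s + t))).comp ((mul p s t).comp
        ((fsF p s).prodMap (ContinuousMap.id (OmT p t))))).comp
        ((sw p s).prodMap (ContinuousMap.id (OmT p t)))) =
        (mul p s t).comp ((fsS p s).prodMap (ContinuousMap.id (OmT p t))) := rfl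
    rw [e1, e2] at h
    exact h

/-- **outputs of the leaves (II), (III), (IV)**: the cut `D`, relation (R), the one-sided Leibniz rule
after `S_*`, the class `x`. -/
structure CutH (p : M) (D : ℕ) where
  cD : ℝ≥0
  Dc : ∀ t : ℝ≥0, HS (OmT p t) →ₗ[F2] HS (Om2T p (t + cD))
  Dc_gr : ∀ (t : ℝ≥0) (j : ℕ) (y : HS (OmT p t)), y ∈ hg (OmT p t) (j + D) →
    Dc t y ∈ hg (Om2T p (t + cD)) j
  Dc_lt : ∀ (t : ℝ≥0) (j : ℕ) (y : HS (OmT p t)), y ∈ hg (OmT p t) j → j < D → Dc t y = 0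
  Dc_inc : ∀ (s t : ℝ≥0) (h : s ≤ t) (h' : s + cD ≤ t + cD) (y : HS (OmT p s)),
    Dc t (Hm (inc h) y) = Hm (inc2 h') (Dc s y)
  /-- level of `x` -/
  cx' : ℝ≥0
  x : HS (OmT p cx')
  x_gr : x ∈ hg (OmT p cx') D
  x_ne : ∀ (u : ℝ≥0) (h : cx' ≤ u), Hm (inc h) x ≠ 0
  /-- loss of (R) and of the Leibniz rule -/
  k : ℝ≥0
  R : ∀ (t T : ℝ≥0) (_ : t + k ≤ T) (h1 : t ≤ T) (h2 : t + cD + cx' ≤ T) (y : HS (OmT p t)),
    Hm (inc2 h1) (Hm (i1 p t) y) + Hm (inc2 h1) (Hm (i2 p t) y) =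
      Hm (inc2 h2) (Hm (mid1 p _ _) (cx (Dc t y) x)) + Hm (inc2 h2) (Hm (mid2 p _ _) (cx (Dc t y) x))
  leib : ∀ (s t T : ℝ≥0) (_ : s + t + k ≤ T) (h0 : s + t + cD ≤ T) (h1 : s + cD + t ≤ T)
    (h2 : t + cD ≤ T) (a : HS (OmT p s)) (b : HS (OmT p t)),
    Hm (inc h0) (Hm (fsS p _) (Dc (s + t) (Hm (mul p s t) (cx a b)))) =
      Hm (inc h1) (Hm (mul p _ _) (cx (Hm (fsS p _) (Dc s a)) b)) +
        ep a • Hm (inc h2) (Hm (fsS p _) (Dc t b))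

theorem SmA_eq {t u : ℝ≥0} (h : t ≤ u) (w : HS (Om2T p t)) :
    SmA h w = Hm (inc h) (Hm (fsS p t) w) := Hm_comp_apply _ _ _

theorem inc2A_inc2A {s t u : ℝ≥0} (h1 : s ≤ t) (h2 : t ≤ u) (h3 : s ≤ u) (y : HS (Om2T p s)) :
    inc2A h2 (inc2A h1 y) = inc2A h3 y := by
  rw [inc2A, inc2A, ← Hm_comp_apply]; rfl

variable {D : ℕ}

/-- the cut landing at an arbitrary level -/
def CutH.DcA (C : CutH p D) {t u : ℝ≥0} (h : t + C.cD ≤ u) : HS (OmT p t) →ₗ[F2] HS (Om2T p u) :=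
  (inc2A h).comp (C.Dc t)

theorem CutH.DcA_apply (C : CutH p D) {t u : ℝ≥0} (h : t + C.cD ≤ u) (y : HS (OmT p t)) :
    C.DcA h y = inc2A h (C.Dc t y) := rfl

theorem CutH.DcA_inc (C : CutH p D) {s t u : ℝ≥0} (h1 : s ≤ t) (h : t + C.cD ≤ u)
    (h2 : s + C.cD ≤ u) (y : HS (OmT p s)) : C.DcA h (incA h1 y) = C.DcA h2 y := by
  have h3 : s + C.cD ≤ t + C.cD := add_le_add h1 le_rfl
  rw [C.DcA_apply, C.DcA_apply, incA, C.Dc_inc s t h1 h3, ← inc2A_inc2A h3 h h2]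
  rfl

theorem inc2A_Hm {s t : ℝ≥0} (h : s ≤ t) (w : HS (Om2T p s)) : Hm (inc2 h) w = inc2A h w := rfl

theorem incA_Hm {s t : ℝ≥0} (h : s ≤ t) (w : HS (OmT p s)) : Hm (inc h) w = incA h w := rfl

theorem SmA_eq' {t u : ℝ≥0} (h : t ≤ u) (w : HS (Om2T p t)) :
    SmA h w = incA h (Hm (fsS p t) w) := SmA_eq h w

theorem CutH.R' (C : CutH p D) (t T : ℝ≥0) (hk : t + C.k ≤ T) (h1 : t ≤ T)
    (h2 : t + C.cD + C.cx' ≤ T) (y : HS (OmT p t)) :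
    inc2A h1 (Hm (i1 p t) y) + inc2A h1 (Hm (i2 p t) y) =
      inc2A h2 (Hm (mid1 p _ _) (cx (C.Dc t y) C.x)) +
        inc2A h2 (Hm (mid2 p _ _) (cx (C.Dc t y) C.x)) := C.R t T hk h1 h2 y

theorem CutH.leib' (C : CutH p D) (s t T : ℝ≥0) (hk : s + t + C.k ≤ T) (h0 : s + t + C.cD ≤ T)
    (h1 : s + C.cD + t ≤ T) (h2 : t + C.cD ≤ T) (a : HS (OmT p s)) (b : HS (OmT p t)) :
    incA h0 (Hm (fsS p _) (C.Dc (s + t) (Hm (mul p s t) (cx a b)))) =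
      incA h1 (Hm (mul p _ _) (cx (Hm (fsS p _) (C.Dc s a)) b)) +
        ep a • incA h2 (Hm (fsS p _) (C.Dc t b)) := C.leib s t T hk h0 h1 h2 a b

theorem oA_i1' {s t t' u : ℝ≥0} (h1 : t ≤ t') (h : s + t' ≤ u) (h2 : s + t ≤ u)
    (w : HS (Om2T p s)) (a : HS (OmT p t)) :
    oA h w (i1A h1 a) = inc2A h2 (Hm (mid1 p s t) (cx w a)) :=
  (oA_i1 hts h1 h h2 w a).trans (Hm_comp_apply (inc2 h2) (mid1 p s t) (cx w a))

theorem oA_i2' {s t t' u : ℝ≥0} (h1 : t ≤ t') (h : s + t' ≤ u) (h2 : s + t ≤ u)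
    (w : HS (Om2T p s)) (a : HS (OmT p t)) :
    oA h w (i2A h1 a) = inc2A h2 (Hm (mid2 p s t) (cx w a)) :=
  (oA_i2 hts h1 h h2 w a).trans (Hm_comp_apply (inc2 h2) (mid2 p s t) (cx w a))

section irr

attribute [local irreducible] oA mA SmA inc2A incA i1A i2A

theorem CutH.RA (C : CutH p D) {t u q r : ℝ≥0} (hk : t + C.k ≤ u) (h1 : t ≤ u)
    (h2 : t + C.cD ≤ q) (h3 : C.cx' ≤ r) (h4 : q + r ≤ u) (y : HS (OmT p t)) :
    i1A h1 y + i2A h1 y = oA h4 (C.DcA h2 y) (i1A h3 C.x + i2A h3 C.x) := by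
  have e1 : (t + C.cD) + r ≤ u := le_trans (add_le_add h2 le_rfl) h4
  have e2 : (t + C.cD) + C.cx' ≤ u := le_trans (add_le_add le_rfl h3) e1
  have a1 : oA h4 (C.DcA h2 y) (i1A h3 C.x) = inc2A e2 (Hm (mid1 p _ _) (cx (C.Dc t y) C.x)) :=
    (oA_inc_l h2 h4 e1 (C.Dc t y) _).trans (oA_i1' h3 e1 e2 _ _)
  have a2 : oA h4 (C.DcA h2 y) (i2A h3 C.x) = inc2A e2 (Hm (mid2 p _ _) (cx (C.Dc t y) C.x)) :=
    (oA_inc_l h2 h4 e1 (C.Dc t y) _).trans (oA_i2' h3 e1 e2 _ _)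
  have a0 : oA h4 (C.DcA h2 y) (i1A h3 C.x + i2A h3 C.x) =
      oA h4 (C.DcA h2 y) (i1A h3 C.x) + oA h4 (C.DcA h2 y) (i2A h3 C.x) :=
    map_add (oA h4 (C.DcA h2 y)) _ _
  exact ((congrArg₂ (· + ·) (i1A_eq h1 y) (i2A_eq h1 y)).trans (C.R' t u hk h1 e2 y)).trans
    ((congrArg₂ (· + ·) a1 a2).symm.trans a0.symm)

theorem CutH.leibA (C : CutH p D) {s t q r v w u : ℝ≥0} (hk : s + t + (C.k + C.cD) ≤ u)
    (h1 : s + t ≤ q) (h2 : q + C.cD ≤ r) (h3 : r ≤ u) (h4 : s + C.cD ≤ v) (h5 : v + t ≤ u)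
    (h6 : t + C.cD ≤ w) (h7 : w ≤ u) (a : HS (OmT p s)) (b : HS (OmT p t)) :
    SmA h3 (C.DcA h2 (mA h1 a b)) = mA h5 (SmA le_rfl (C.DcA h4 a)) b +
      ep a • SmA h7 (C.DcA h6 b) := by
  have g0 : s + t + C.cD ≤ u := le_trans (by rw [add_comm C.k]; gcongr; exact le_self_add) hk
  have gk : s + t + C.k ≤ u := le_trans (by gcongr; exact le_self_add) hk
  have g1 : s + C.cD + t ≤ u := le_trans (add_le_add h4 le_rfl) h5
  have g2 : t + C.cD ≤ u := h6.trans h7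
  have g3 : (s + t) + C.cD ≤ r := le_trans (add_le_add h1 le_rfl) h2
  have l1 : SmA h3 (C.DcA h2 (mA h1 a b)) =
      incA g0 (Hm (fsS p _) (C.Dc (s + t) (Hm (mul p s t) (cx a b)))) := by
    have b1 : C.DcA h2 (mA h1 a b) = inc2A g3 (C.Dc (s + t) (Hm (mul p s t) (cx a b))) := by
      rw [mA_eq h1 a b, C.DcA_inc h1 h2 g3, C.DcA_apply]
    rw [b1]
    exact (SmA_inc2 g3 h3 g0 _).trans (SmA_eq' g0 _)
  have l2 : mA h5 (SmA le_rfl (C.DcA h4 a)) b =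
      incA g1 (Hm (mul p _ _) (cx (Hm (fsS p _) (C.Dc s a)) b)) := by
    have b1 : SmA le_rfl (C.DcA h4 a) = incA h4 (Hm (fsS p _) (C.Dc s a)) :=
      (SmA_inc2 h4 le_rfl h4 (C.Dc s a)).trans (SmA_eq' h4 _)
    rw [b1]
    exact (mA_inc_l hts h4 h5 g1 _ b).trans (mA_eq g1 _ _)
  have l3 : SmA h7 (C.DcA h6 b) = incA g2 (Hm (fsS p _) (C.Dc t b)) :=
    (SmA_inc2 h6 h7 g2 (C.Dc t b)).trans (SmA_eq' g2 _)
  rw [l1, l2, l3]
  exact C.leib' s t u gk g0 g1 g2 a b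

end irr

/-- **the instance**: levelled algebra of the based loops -/
def CutH.lev (C : CutH p D) (c3 : ℝ≥0) : LevA D where
  A t := HS (OmT p t)
  A2 t := HS (Om2T p t)
  gr t := hg (OmT p t)
  gr2 t := hg (Om2T p t)
  inc h := incA h
  inc_self y := Hm_id y
  inc_inc h1 h2 h3 y := incA_incA h1 h2 h3 y
  inc_gr h j y hy := Hm_mem_hg _ hy
  gr_zero j y hy := gr_zeroA j y hy
  inc2 h := inc2A h
  inc2_gr h j y hy := Hm_mem_hg _ hy
  eps := ep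
  eps_inc h y := ep_Hm _ y
  eps_gr j y hy := ep_eq_zero (by omega) hy
  one t := ptc (one p t)
  one_inc h := Hm_ptc _ _
  one_gr t := ptc_mem _
  eps_one t := ep_ptc _
  m h := mA h
  m_gr h i j a b ha hb := Hm_mem_hg _ (cx_mem ha hb)
  inc_m h h1 h2 a b := inc_mA h h1 h2 a b
  m_inc_l h1 h h2 a b := mA_inc_l hts h1 h h2 a b
  m_inc_r h1 h h2 a b := mA_inc_r h1 h h2 a b
  one_m h h1 b := one_mA hts h h1 b
  m_one h h1 a := mA_one h h1 a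
  i1 h := i1A h
  i2 h := i2A h
  o h := oA h
  inc2_o h h1 h2 a b := inc2_oA h h1 h2 a b
  o_inc_l h1 h h2 a b := oA_inc_l h1 h h2 a b
  o_inc_r h1 h h2 a b := oA_inc_r hts h1 h h2 a b
  o_assoc h1 h2 h3 h4 a b c := oA_assoc h1 h2 h3 h4 hts a b c
  sw := swA
  sw_gr j w hw := Hm_mem_hg _ hw
  sw_sw w := swA_swA w
  sw_i1 h y := swA_i1A hts h y
  sw_i2 h y := swA_i2A hts h y
  sw_o h h' a b := swA_oA hts h h' a b
  Sm h := SmA h
  Sm_gr h j w hw := Hm_mem_hg _ hw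
  Sm_inc2 h1 h2 h3 w := SmA_inc2 h1 h2 h3 w
  inc_Sm h1 h2 h3 w := inc_SmA h1 h2 h3 w
  Sm_i1 h h' y := SmA_i1 h h' y
  Sm_i2 h h' h'' y := SmA_i2 h h' h'' y
  Sm_o_i1 h1 h h' h'' w a := SmA_oA_i1 hts h1 h h' h'' w a
  Sm_o_i2 h1 h h' h'' h4 w a := SmA_oA_i2 hts h1 h h' h'' h4 w a
  cD := C.cD
  Dc h := C.DcA h
  Dc_gr h j y hy := Hm_mem_hg _ (C.Dc_gr _ j y hy)
  Dc_lt h j y hy hj := by rw [C.DcA_apply, C.Dc_lt _ j y hy hj, map_zero]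
  Dc_inc h1 h h2 y := C.DcA_inc h1 h h2 y
  inc2_Dc h h1 h2 y := inc2A_inc2A h h1 h2 _
  cx := C.cx'
  x := C.x
  x_gr := C.x_gr
  x_ne h := C.x_ne _ h
  cR := C.k + (C.cD + C.cx')
  cR_le := le_add_self
  R hk h1 h2 h3 h4 y := C.RA (le_trans (by gcongr; exact le_self_add) hk) h1 h2 h3 h4 y
  cL := C.k + C.cD
  leib hk h1 h2 h3 h4 h5 h6 h7 a b := C.leibA hk h1 h2 h3 h4 h5 h6 h7 a b
  c3 := c3

end Crest.Agent.R231.LevInstx969
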