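import Crest.Agent.R231.ThLoc_530
import Crest.Agent.R231.OmSp_725

/-!
# Row 231, block P, leaf (V) (helper530): existence of the cocycle `ω`

`exists_cocycle` : for a monotone family `X t` of subsets of a space `E`, and a cycle `z0` of degree `q`
in `X t0` which is homologous to no cycle of `X s'`, there is a cochain `ω` of degree `q` on `E` which
vanishes on `X s'`, is a cocycle on every `X t`, and is `1` on `z0`.
`exists_om` : the same for based Moore loops.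
-/

set_option autoImplicit false

noncomputable section

namespace Crest.Agent.R231.Thx530

open Set Topology Function
open scoped NNReal
open Crest.Agent.R204 FinDim315 CXx780 Capx226 CapCSx780 Pairx877 CrossCSx780
open Crest.Agent.R204.SpecA (Hm)
open Crest.Agent.R231.Moorex725 Crest.Agent.R231.OmSpx725

theorem exists_cocycle {E : Type} [TopologicalSpace E] (X : ℝ≥0 → Set E) (hX : Monotone X)
    {q : ℕ} {s' : ℝ≥0} {z0 : CE E} (hq : z0 ∈ gE E q) (hc : bdE E z0 = 0)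
    (h : ∀ c ∈ CS (X s'), c ∈ gE E q → bdE E c = 0 → ∀ t, ∀ b ∈ CS (X t), z0 ≠ c + bdE E b) :
    ∃ ω : Co (SS.Sing E), Deg q ω ∧ (∀ z ∈ CS (X s'), ω z = 0) ∧
      (∀ t, ∀ z ∈ CS (X t), ω (bdE E z) = 0) ∧ ω z0 = 1 := by
  set P : Submodule F2 (CE E) := (⨆ t, CS (X t)).map (bdE E) ⊔ CS (X s') with hP
  have h0 : z0 ∉ P := by
    intro hz
    obtain ⟨a, ha, c, hc', e⟩ := Submodule.mem_sup.1 hz
    obtain ⟨b, hb, rfl⟩ := ha
    obtain ⟨t, ht⟩ := (Submodule.mem_iSup_of_directed _ (fun s t => ⟨max s t,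
      CS_mono (hX (le_max_left s t)), CS_mono (hX (le_max_right s t))⟩)).1 hb
    have e2 : z0 = pE E q c + bdE E (pE E (q + 1) b) := by
      have e3 := congrArg (pE E q) e
      rw [map_add, pE_bd, Gr334.prN_of_mem hq] at e3
      rw [← e3, add_comm]
    refine h (pE E q c) (prN_mem_CS q c hc') (Gr334.prN_mem q c) ?_ t (pE E (q + 1) b)
      (prN_mem_CS _ b ht) e2
    have e4 := congrArg (bdE E) e2
    rw [hc, map_add, bd_bdE, add_zero] at e4
    exact e4.symm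
  obtain ⟨f, hf, hPf⟩ := Submodule.exists_le_ker_of_notMem h0
  refine ⟨f ∘ₗ pE E q, ?_, ?_, ?_, ?_⟩
  · intro n hn z hz
    rw [LinearMap.comp_apply, Gr334.prN_of_mem_ne hn hz, map_zero]
  · intro z hz
    rw [LinearMap.comp_apply]
    exact hPf (Submodule.mem_sup_right (prN_mem_CS q z hz))
  · intro t z hz
    rw [LinearMap.comp_apply, pE_bd]
    exact hPf (Submodule.mem_sup_left ⟨_, Submodule.mem_iSup_of_mem t (prN_mem_CS _ z hz), rfl⟩)
  · rw [LinearMap.comp_apply, Gr334.prN_of_mem hq]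
    have : ∀ r : F2, r ≠ 0 → r = 1 := by decide
    exact this _ hf

variable {M : Type} [PseudoMetricSpace M] {p : M}

/-- the loop as a point of the ambient space -/
def valC (p : M) (t : ℝ≥0) : C(OmT p t, ℝ → M) := ⟨fun x => x.1, continuous_subtype_val⟩

theorem mp_val_mem (t : ℝ≥0) (z : CE (OmT p t)) : mp (valC p t) z ∈ CS (Om p (t : ℝ)) := by
  rw [CS_eq_range]
  exact ⟨z, rfl⟩

theorem mp_val_mem' {t u : ℝ≥0} (h : t ≤ u) (z : CE (OmT p t)) :
    mp (valC p t) z ∈ CS (Om p (u : ℝ)) := CS_mono (Om_mono p (NNReal.coe_le_coe.2 h)) (mp_val_mem t z)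

theorem res_val {t u : ℝ≥0} (h : t ≤ u) (z : CE (OmT p t)) :
    res (Om p (u : ℝ)) (mp (valC p t) z) = mp (inc h) z :=
  res_inc_mp (W := Om p (u : ℝ)) (g := inc h) (fun _ => rfl) z

/-- existence of the cocycle -/
theorem exists_om {q : ℕ} {s' t0 : ℝ≥0} {xh : HS (OmT p t0)} (hx : xh ∈ hg (OmT p t0) q)
    (h : ∀ y ∈ hg (OmT p s') q, ¬ ∃ (u : ℝ≥0) (h1 : s' ≤ u) (h2 : t0 ≤ u),
      Hm (inc h1) y = Hm (inc h2) xh) :
    ∃ ω : Co (SS.Sing (ℝ → M)), Deg q ω ∧ (∀ z ∈ CS (Om p (s' : ℝ)), ω z = 0) ∧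
      (∀ t : ℝ≥0, ∀ z ∈ CS (Om p (t : ℝ)), ω (bdE _ z) = 0) ∧
      ∀ (T : ℝ≥0) (z : CE (OmT p T)) (hz : bdE _ z = 0), (∃ (u : ℝ≥0) (h1 : T ≤ u) (h2 : t0 ≤ u),
        Hm (inc h1) (cl z hz) = Hm (inc h2) xh) → ω (mp (valC p T) z) = 1 := by
  obtain ⟨z1, hz1, hz1q, rfl⟩ := Coalg847.mem_gr_iff.1 hx
  change (∀ y ∈ hg (OmT p s') q, ¬ ∃ (u : ℝ≥0) (h1 : s' ≤ u) (h2 : t0 ≤ u),
      Hm (inc h1) y = Hm (inc h2) (cl z1 hz1)) at h
  obtain ⟨ω, h1, h2, h3, h4⟩ := exists_cocycle (fun t : ℝ≥0 => Om p (t : ℝ))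
    (fun s t hst => Om_mono p (NNReal.coe_le_coe.2 hst)) (q := q) (s' := s')
    (z0 := mp (valC p t0) z1) (Gr334.map_mem_gr _ hz1q) (mp_cyc _ hz1) (by
      intro c hc hcq hcc t b hb e
      have hcc' : bdE _ (res (Om p (s' : ℝ)) c) = 0 := by rw [bd_res _ hc, hcc, map_zero]
      refine h (cl (X := OmT p s') (res (Om p (s' : ℝ)) c) hcc')
        (Coalg847.mem_gr_iff.2 ⟨_, hcc', res_gr hcq, rfl⟩) ⟨max s' (max t0 t), le_max_left _ _,
          (le_max_left _ _).trans (le_max_right _ _), ?_⟩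
      rw [Hm_cl, Hm_cl]
      have ht : t ≤ max s' (max t0 t) := (le_max_right _ _).trans (le_max_right _ _)
      have hb' : b ∈ CS (Om p ((max s' (max t0 t) : ℝ≥0) : ℝ)) :=
        CS_mono (Om_mono p (NNReal.coe_le_coe.2 ht)) hb
      refine cl_eq.2 ⟨res (Om p ((max s' (max t0 t) : ℝ≥0) : ℝ)) b, ?_⟩
      have e5 : bdE (ℝ → M) b = c - mp (valC p t0) z1 := by
        rw [e, sub_eq, ← add_assoc, add_self, zero_add]
      have e6 : res (Om p ((max s' (max t0 t) : ℝ≥0) : ℝ)) c =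
          mp (inc (le_max_left s' (max t0 t))) (res (Om p (s' : ℝ)) c) := by
        conv_lhs => rw [← map_inc_res c hc]
        exact res_inc_mp (W := Om p ((max s' (max t0 t) : ℝ≥0) : ℝ))
          (g := inc (p := p) (le_max_left s' (max t0 t))) (fun _ => rfl) _
      rw [← e6]
      refine (bd_res _ hb').trans ?_
      rw [e5, map_sub, res_val ((le_max_left t0 t).trans (le_max_right s' (max t0 t)))])
  refine ⟨ω, h1, h2, h3, ?_⟩
  rintro T z hz ⟨u, k1, k2, e⟩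
  change Hm (inc k1) (cl z hz) = Hm (inc k2) (cl z1 hz1) at e
  rw [Hm_cl, Hm_cl] at e
  obtain ⟨w, hw⟩ := cl_eq.1 e
  have e7 := congrArg (mp (valC p u)) hw
  rw [map_sub, mp_mp, mp_mp, ← bd_mp] at e7
  have e8 : ω (bdE (ℝ → M) (mp (valC p u) w)) = 0 := h3 u _ (mp_val_mem u w)
  rw [e7, map_sub] at e8
  have e9 : ω (mp (valC p T) z) = ω (mp (valC p t0) z1) := sub_eq_zero.1 e8
  rw [e9, h4]

end Crest.Agent.R231.Thx530
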