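import Crest.Agent.R231.Th_682
import Crest.Agent.R231.OmEx_530
import Crest.Agent.R231.LevInstB_969

/-!
# Row 231, block P, leaf (V) (helper682): `HasTh` for the levelled algebra of based loops

`hasTh K : (K.lev 1).HasTh` for every `K : CutH p D` (969), from `Th_682` and 530's `exists_om`.
-/

set_option autoImplicit false

noncomputable section

namespace Crest.Agent.R231.HasThx682

open Crest.Agent.R204 FinDim315 CXx780 Capx226 CapCSx780 Pairx877 OmSpx725 Moorex725 Levx969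
  LevInstx969 Thx682 NNReal
open Crest.Agent.R204.SpecA (Hm)

variable {M : Type} [PseudoMetricSpace M] {p : M} {D : ℕ}

theorem SmA_swA {T T' : ℝ≥0} (h : T ≤ T') (w : HS (Om2T p T)) :
    SmA h (swA w) = Hm (inc h) (Hm (fsF p T) w) := by
  have e1 : SmA h (swA w) = Hm (((inc h).comp (fsS p T)).comp (sw p T)) w :=
    (Hm_comp_apply ((inc h).comp (fsS p T)) (sw p T) w).symm
  have e2 : ((inc h).comp (fsS p T)).comp (sw p T) = (inc h).comp (fsF p T) := rfl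
  rw [e1, e2]
  exact Hm_comp_apply (inc h) (fsF p T) w

/-- the structure `ThData` from a cochain which is `1` on `xh` -/
def thData (K : CutH p D) {q : ℕ} {s' t0 : ℝ≥0} (xh : HS (OmT p t0)) (C : Cw p s' q)
    (hC : ∀ (T : ℝ≥0) (v : HS (OmT p T)), (∃ (u : ℝ≥0) (h1 : T ≤ u) (h2 : t0 ≤ u),
      Hm (inc h1) v = Hm (inc h2) xh) → C.om T v = 1) : ThData (K.lev 1) q s' (t0 := t0) xh where
  Th h := C.Th h
  gr h j w hw := C.Th_gr h j hw
  lt h j w hw hj := C.Th_lt h hw hj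
  inc h h1 h2 w := C.Th_inc h h1 h2 w
  inc2 h1 h h2 w := C.Th_inc2 h1 h h2 w
  o_i1 h1 h h2 i w z hz hi := C.Th_o_i1 h1 h h2 w hz hi
  i1_o h1 h h2 i w y hy hi := C.Th_i1_o h1 h h2 w hy hi
  o_i2 h1 h h2 h3 h4 w z := C.Th_o_i2 h1 h h2 h3 h4 w z
  i2_o h1 h h2 h3 h4 w y := C.Th_i2_o h1 h h2 h3 h4 w y
  small h1 h h2 hs w z := C.Th_o_i2_small h1 h h2 hs w z
  eps := by
    intro T T' u h h' w hw he
    obtain ⟨v, g1, g2, e⟩ := he
    have e1 := C.ep_Th h h' w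
    refine e1.trans (hC T' _ ⟨v, g1, g2, ?_⟩)
    rw [← SmA_swA h' w]
    exact e

/-- **leaf (V)** -/
theorem hasTh (K : CutH p D) : (K.lev 1).HasTh := by
  intro q s' t0 xh hq hxh hne
  obtain ⟨ω, h1, h2, h3, h4⟩ := Thx530.exists_om (p := p) (s' := s') (xh := xh) hxh (by
    rintro y hy ⟨u, g1, g2, e⟩
    exact hne y hy ⟨u, g1, g2, e⟩)
  refine ⟨thData K xh ⟨ω, h1, h3, h2⟩ fun T v hv => ?_⟩
  obtain ⟨z, hz, rfl⟩ := Hd.mk_surj _ v
  exact h4 T z hz hv

end Crest.Agent.R231.HasThx682
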