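import Crest.Agent.R231.DxW_373

/-!
# Row 231, block P, leaf (IV) (helper373): the class `x` of `CutData` never dies

* `sphOf` : 780's `SphLike` from a spanning pair; `sphW W : SphLike (U ∩ V) (n-1)` with `σ = W.sg`;
* `GE_cut_Wx` (Q4d), `x_mem`, **`x_ne`**.
-/

set_option autoImplicit false

noncomputable section

open Function Topology NNReal

namespace Crest.Agent.R231.XNex373

open Set Crest.Agent.R204 Crest.Agent.R204.SpecA Crest.Agent.R231.FinDim315 Crest.Agent.R231.CutWx749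
  Crest.Agent.R231.Moorex725 Crest.Agent.R231.CutMx725 Crest.Agent.R231.OmSpx725
  Crest.Agent.R231.CylQx373 Crest.Agent.R231.CutSuspx373 Crest.Agent.R231.SuspTx373
  Crest.Agent.R231.CXx780 Crest.Agent.R231.DxWx373

/-! ### the class `x` never dies -/

section ne

open Crest.Agent.R231.IfPx797

variable {X : Type} [TopologicalSpace X]

theorem ptc_ne_zero (x : X) : (ptc x : HS X) ≠ 0 := by
  intro h
  have := congrArg ep h
  rw [ep_ptc, map_zero] at this
  exact one_ne_zero this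

theorem f2c (a : F2) : a = 0 ∨ a = 1 := by revert a; decide

/-- a class which is homogeneous of two different degrees vanishes -/
theorem eq_zero_of_mem {i j : ℕ} (hij : i ≠ j) {a : HS X} (hi : a ∈ hg X i) (hj : a ∈ hg X j) :
    a = 0 := by
  have h := (isInternal_hg (X := X)).submodule_iSupIndep
  have h2 := (h.pairwiseDisjoint hij).le_bot ⟨hi, hj⟩
  exact (Submodule.mem_bot F2).1 h2

section sphOf

variable {S : Type} [TopologicalSpace S] (z0 : S) (σ : HS S) {m : ℕ}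

theorem exists_phi (hne : σ ≠ 0) (hep : ep σ = 0) :
    ∃ φ : HS S →ₗ[F2] F2, φ σ = 1 ∧ φ (ptc z0) = 0 := by
  obtain ⟨f, hf⟩ := Module.Projective.exists_dual_eq_one F2 hne
  refine ⟨f + (f (ptc z0)) • ep, ?_, ?_⟩
  · rw [LinearMap.add_apply, LinearMap.smul_apply, hep, smul_zero, add_zero]
    exact hf
  · rw [LinearMap.add_apply, LinearMap.smul_apply, ep_ptc, smul_eq_mul, mul_one]
    exact CutWx749.add_self _

/-- `SphLike` from a spanning pair -/
def sphOf (hm : 0 < m) (hσ : σ ∈ hg S m) (hne : σ ≠ 0)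
    (span : ∀ y : HS S, ∃ α β : F2, y = α • ptc z0 + β • σ) : SphLike S m where
  s₀ := z0
  σ := σ
  φ := (exists_phi z0 σ hne (ep_eq_zero (by omega) hσ)).choose
  σ_mem := hσ
  pos := hm
  φ_deg := by
    have hep : ep σ = 0 := ep_eq_zero (by omega) hσ
    obtain ⟨h1, h0⟩ := (exists_phi z0 σ hne (ep_eq_zero (by omega) hσ)).choose_spec
    intro k hk b hb
    obtain ⟨α, β, h⟩ := span b
    have key : β = 0 := by
      rcases f2c β with h0 | h1
      · exact h0
      · exfalso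
        subst h1
        rw [one_smul] at h
        by_cases hk0 : k = 0
        · subst hk0
          have : σ ∈ hg S 0 := by
            have e : σ = b - α • ptc z0 := by rw [h]; abel
            rw [e]
            exact Submodule.sub_mem _ hb (Submodule.smul_mem _ _ (ptc_mem z0))
          exact hne (eq_zero_of_mem (by omega) this hσ)
        · have hα : α = 0 := by
            have e := congrArg ep h
            rw [map_add, map_smul, ep_ptc, hep, ep_eq_zero hk0 hb] at e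
            simpa using e.symm
          rw [hα, zero_smul, zero_add] at h
          rw [h] at hb
          exact hne (eq_zero_of_mem hk hb hσ)
    rw [h, key, zero_smul, add_zero, map_smul, h0, smul_zero]
  φ_σ := (exists_phi z0 σ hne (ep_eq_zero (by omega) hσ)).choose_spec.1
  decomp := by
    have hep : ep σ = 0 := ep_eq_zero (by omega) hσ
    obtain ⟨h1, h0⟩ := (exists_phi z0 σ hne (ep_eq_zero (by omega) hσ)).choose_spec
    intro a
    obtain ⟨α, β, h⟩ := span a
    have e1 : ep a = α := by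
      rw [h, map_add, map_smul, map_smul, ep_ptc, hep, smul_eq_mul, smul_zero, mul_one, add_zero]
    have e2 : (exists_phi z0 σ hne (ep_eq_zero (by omega) hσ)).choose a = β := by
      rw [h, map_add, map_smul, map_smul, h0, h1, smul_zero, zero_add, smul_eq_mul, mul_one]
    rw [e1, e2]
    exact h

end sphOf

@[simp] theorem sphOf_σ {S : Type} [TopologicalSpace S] (z0 : S) (σ : HS S) {m : ℕ} (hm : 0 < m)
    (hσ : σ ∈ hg S m) (hne : σ ≠ 0) (span : ∀ y : HS S, ∃ α β : F2, y = α • ptc z0 + β • σ) :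
    (sphOf z0 σ hm hσ hne span).σ = σ := rfl

variable {M : Type} [MetricSpace M] {p : M} {n : ℕ} (W : CutData M p n)

theorem spanW (y : HS (W.cT.V ∩ W.bT.V : Set M)) :
    ∃ α β : F2, y = α • ptc (⟨W.z0, W.hz0⟩ : (W.cT.V ∩ W.bT.V : Set M)) + β • W.sg := by
  obtain ⟨α, β, h⟩ := W.span y
  exact ⟨α, β, h⟩

/-- auxiliary: `sphOf` on `U ∩ V` -/
def sphWO (z0 : (W.cT.V ∩ W.bT.V : Set M)) (σ : HS (W.cT.V ∩ W.bT.V : Set M)) (hm : 0 < n - 1)
    (h : σ ∈ hg _ (n-1)) (h2 : σ ≠ 0)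
    (h3 : ∀ y : HS (W.cT.V ∩ W.bT.V : Set M), ∃ α β : F2, y = α • ptc z0 + β • σ) :
    SphLike (W.cT.V ∩ W.bT.V : Set M) (n - 1) :=
  sphOf z0 σ hm h h2 h3

theorem npos (W : CutData M p n) : 0 < n - 1 := by have := W.hn; omega

/-- the sphere `U ∩ V` of `CutData` -/
def sphW : SphLike (W.cT.V ∩ W.bT.V : Set M) (n - 1) :=
  sphWO W ⟨W.z0, W.hz0⟩ W.sg (npos W) W.sg_gr W.sg_ne (spanW W)

theorem sphW_σ : (sphW W).σ = W.sg := rfl

theorem x_eq : W.x = Hm W.vC (sphW W).σ := rfl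

theorem x_mem : W.x ∈ hg (OmT p (W.ℓ + W.ℓ)) (n - 1) := Hm_mem_hg _ W.sg_gr

/-- **Q4d** for `W.x` -/
theorem GE_cut_Wx : Hm (GE W.bT W.cT (W.ℓ + W.ℓ)) ((cylW W (W.ℓ + W.ℓ)).cut W.x) =
    CXx780.cx (ptc (mpt W ⟨W.z0, W.hz0⟩)) W.sg := GE_cut_x W (sphW W)

/-- an element with nonzero cross-product image is not zero -/
theorem ne_of_cx {A B S : Type} [TopologicalSpace A] [TopologicalSpace B] [TopologicalSpace S]
    {m : ℕ} (D : SphLike S m) (L : HS A →ₗ[F2] HS (B × S)) (a : HS A) (g : B)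
    (h : L a = CXx780.cx (ptc g) D.σ) : a ≠ 0 := by
  intro h0
  rw [h0, map_zero] at h
  have h2 : CXx780.cx (0 : HS B) D.σ = CXx780.cx (ptc g) D.σ := by
    rw [map_zero, LinearMap.zero_apply]; exact h
  exact ptc_ne_zero g (D.cx_σ_inj h2).symm

/-- **the class of the family `v_z` never dies** -/
theorem vz_ne {t : ℝ≥0} (ht : W.bT.L + W.cT.L ≤ (t : ℝ))
    {d : ℕ} (D : SphLike (W.cT.V ∩ W.bT.V : Set M) d) :
    Hm (vz W.bT W.cT ht) D.σ ≠ 0 :=
  ne_of_cx D ((Hm (GE W.bT W.cT t)) ∘ₗ (cylW W t).cut) _ _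
    (GE_cut_vz (susp W) ht D W.hp (cov W))

theorem inc_vC {t : ℝ≥0} (h : W.ℓ + W.ℓ ≤ t) (ht : W.bT.L + W.cT.L ≤ (t : ℝ))
    (a : HS (W.cT.V ∩ W.bT.V : Set M)) :
    Hm (OmSpx725.inc h) (Hm W.vC a) = Hm (vz W.bT W.cT ht) a :=
  (Hm_comp_apply _ _ a).symm

/-- **the class `x` never dies** -/
theorem x_ne {t : ℝ≥0} (h : W.ℓ + W.ℓ ≤ t) : Hm (OmSpx725.inc h) W.x ≠ 0 := by
  have ht : W.bT.L + W.cT.L ≤ (t : ℝ) := (bc_le W).trans (NNReal.coe_le_coe.2 h)
  intro h0
  exact vz_ne W ht (sphW W) ((inc_vC W h ht W.sg).symm.trans h0)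

end ne

end Crest.Agent.R231.XNex373
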