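import Crest.Agent.R231.RelR_749
import Crest.Agent.R231.CutD_543
import Crest.Agent.R231.XNe_373

/-!
# Row 231, block P (helper749): the cut data `tdS hn g : TD (pp g) (n - 1)` of `(S^n, g)`, `n ≥ 2`

`x_ne` : the class `x` never dies (helper373).
-/

set_option autoImplicit false
set_option maxHeartbeats 200000

noncomputable section

open Function Topology NNReal

namespace Crest.Agent.R231.RelRx749

open Set Crest.Agent.R204 Crest.Agent.R231.FinDim315 CutWx749 CXx780 RelAx749
  Moorex725 CutMx725 OmSpx725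

open Crest.Agent.R204.SpecA hiding inc

/-- `e⁻¹ . e ~ 1` for a path `e` ending at `p` -/
theorem joined_inv {M : Type} [PseudoMetricSpace M] {q p : M} {L : ℝ} (hL : 0 ≤ L) {e : ℝ → M}
    (he : e ∈ MP q p L) {U : ℝ≥0} (hU : 2 * L ≤ (U : ℝ)) (w : OmT p U)
    (hw : w.1 = cc L (rev L e) e) : Joined w (one p U) := by
  have hm : ∀ u : unitInterval, tail (L - mix u L 0) e ∈ MP (e (L - mix u L 0)) p (mix u L 0) := by
    intro u
    have h0 : (0 : ℝ) ≤ mix u L 0 := le_mix hL le_rfl
    have h := tail_mem he (s := L - mix u L 0) (by linarith)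
    rwa [sub_sub_cancel] at h
  refine ⟨⟨⟨fun u => ⟨cc (mix u L 0) (rev (mix u L 0) (tail (L - mix u L 0) e))
    (tail (L - mix u L 0) e), ?_⟩, ?_⟩, ?_, ?_⟩⟩
  · have h0 : (0 : ℝ) ≤ mix u L 0 := le_mix hL le_rfl
    have h1 : mix u L 0 ≤ L := mix_le le_rfl hL
    exact Om_mono p (by linarith) (cc_mem (rev_mem (hm u)) (hm u) h0 h0)
  · have c0 : Continuous fun u : unitInterval => mix u L 0 := by
      unfold mix; fun_prop
    have c1 : Continuous fun u : unitInterval => tail (L - mix u L 0) e :=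
      continuous_tail (g := fun _ : unitInterval => e) continuous_const (fun _ => he.1)
        (continuous_const.sub c0)
    have c2 : Continuous fun u : unitInterval =>
        rev (mix u L 0) (tail (L - mix u L 0) e) :=
      continuous_rev c1 (fun u => (hm u).1) c0
    exact Continuous.subtype_mk (continuous_cc c2 c1 c0 (fun u => (hm u).1) fun u => by
      rw [(rev_mem (hm u)).2.2 _ le_rfl, (hm u).2.1 _ le_rfl]) _
  · refine OmT_ext ?_
    change cc (mix 0 L 0) (rev (mix 0 L 0) (tail (L - mix 0 L 0) e)) (tail (L - mix 0 L 0) e) = w.1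
    rw [mix_zero, sub_self, tail_zero he, hw]
  · refine OmT_ext ?_
    change cc (mix 1 L 0) (rev (mix 1 L 0) (tail (L - mix 1 L 0) e)) (tail (L - mix 1 L 0) e) =
      fun _ => p
    rw [mix_one, sub_zero, tail_of_ge he le_rfl]
    exact cc_const_left (d := 0) (const_mem_MP p 0)

open Crest.Agent.R231.GeoBasex724 Crest.Agent.R231.BiLipx218 Crest.Agent.R231.Arcx218
  Crest.Agent.R231.SphQx543 Crest.Agent.R231.CutDx543

variable {n : ℕ} [NeZero n]

theorem j0S (g : Met n) :
    Joined (vv (Wb g) (Wc g) (S := US g ∩ VS g) inter_subset_right inter_subset_left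
      ⟨zz g, zz_mem⟩) (one (pp g) (ell (Wb g) + ell (Wc g))) := by
  have h0 := L0_pos g
  refine joined_inv (L := 2 * L0 g) (by linarith) (eT_mem' (g := g)) ?_ _ (v_zz (g := g))
  rw [NNReal.coe_add, coe_ell, coe_ell]
  change 2 * (2 * L0 g) ≤ 3 * L0 g + 3 * L0 g
  linarith

/-- **the cut data of `(S^n, g)`** -/
def tdS (hn : 2 ≤ n) (g : Met n) : TD (pp g) (n - 1) where
  Wc := Wc g
  Wb := Wb g
  hp := pp_mem_US
  cp := cT_pp
  cov := fun y => by
    have h : y ∈ US g ∪ VS g := by rw [US_union_VS]; exact mem_univ y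
    exact h
  sph := XNex373.sphW (cutData hn g)
  j0 := j0S g

theorem tdS_σ (hn : 2 ≤ n) (g : Met n) : (tdS hn g).sph.σ = (cutData hn g).sg := rfl

theorem tdS_x (hn : 2 ≤ n) (g : Met n) {t : ℝ≥0} (h : (tdS hn g).a ≤ t)
    (h' : (cutData hn g).ℓ + (cutData hn g).ℓ ≤ t) :
    Hm (inc h) (tdS hn g).x = Hm (inc h') (cutData hn g).x := by
  unfold TD.x IfPx797.CutData.x
  rw [← Hm_comp_apply, ← Hm_comp_apply]
  rfl

/-- **the class `x` never dies** -/
theorem x_ne (hn : 2 ≤ n) (g : Met n) {t : ℝ≥0} (h : (tdS hn g).a ≤ t) :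
    Hm (inc h) (tdS hn g).x ≠ 0 := by
  have h' : (cutData hn g).ℓ + (cutData hn g).ℓ ≤ t := h
  rw [tdS_x hn g h h']
  exact XNex373.x_ne (cutData hn g) h'

end Crest.Agent.R231.RelRx749
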