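import Crest.Agent.R231.CutI_969
import Crest.Agent.R231.TdS_749
import Crest.Agent.R231.HasTh_682

/-!
# Row 231, block P (helper969): the levelled algebra of `(S^n, g)`

`cutS hn g : CutH (pp g) (n - 1)`, `levS hn g : LevA (n - 1)`, `hasThS hn g : (levS hn g).HasTh`.
-/

set_option autoImplicit false

noncomputable section

open Set NNReal

namespace Crest.Agent.R231.CutSx969

open Crest.Agent.R204 Crest.Agent.R231.FinDim315 Crest.Agent.R231.GeoBasex724
  Crest.Agent.R231.SphQx543 Crest.Agent.R231.Levx969 Crest.Agent.R231.LevInstx969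
  Crest.Agent.R231.CutIx969 Crest.Agent.R231.RelRx749

variable {n : ℕ} [NeZero n]

/-- **the cut data of `(S^n, g)`** -/
def cutS (hn : 2 ≤ n) (g : Met n) : CutH (pp g) (n - 1) :=
  cutH (tdS hn g) (fun _ h => x_ne hn g h)

/-- **the levelled algebra of `(S^n, g)`** -/
def levS (hn : 2 ≤ n) (g : Met n) : LevA (n - 1) := (cutS hn g).lev 1

theorem hasThS (hn : 2 ≤ n) (g : Met n) : (levS hn g).HasTh := HasThx682.hasTh (cutS hn g)

end Crest.Agent.R231.CutSx969
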