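import Crest.Agent.R231.CutW_749

/-!
# Row 231, block P, leaf Q4d (helper373): the cut class of a suspension family, abstract form

`v : S → Z`, `s, s' : S → U ∩ V` (two slices of the family), `s` slides to the end `i1 ∘ v` inside `U`,
`s'` slides to the end `i0 ∘ v` inside `U`, and `s` slides to `s'` inside `V`.  Then
`cut (v_* σ) = s_* σ + s'_* σ`.
-/

set_option autoImplicit false

noncomputable section

open Function Topology

namespace Crest.Agent.R231.CutSuspx373

open Crest.Agent.R204 Crest.Agent.R204.SpecA Crest.Agent.R231.FinDim315 Crest.Agent.R231.CutWx749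

variable {Q : Type} [TopologicalSpace Q] {U V : Set Q} {Z : Type} [TopologicalSpace Z]
  {S : Type} [TopologicalSpace S]

/-- the cut of a suspension family -/
theorem cut_susp (c : Cyl Z U V) (v : C(S, Z)) (s s' : C(S, (U ∩ V : Set Q)))
    (h1 : ((il U V).comp s).Homotopic (c.i1.comp v))
    (h0 : ((il U V).comp s').Homotopic (c.i0.comp v))
    (hr : ((ir U V).comp s).Homotopic ((ir U V).comp s')) (σ : HS S) :
    c.cut (Hm v σ) = Hm s σ + Hm s' σ := by
  symm
  refine c.eq_cut ⟨?_, ?_⟩
  · rw [map_add, ← Hm_comp_apply, ← Hm_comp_apply, Hm_homotopic h1, Hm_homotopic h0, Hm_comp_apply,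
      Hm_comp_apply, add_comm]
  · rw [map_add, ← Hm_comp_apply, ← Hm_comp_apply, Hm_homotopic hr, CutWx749.add_self]

end Crest.Agent.R231.CutSuspx373
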