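import Crest.Agent.R231.FinDim_315

/-!
# Row 231, block P (helper749): the cut class of an open cover, by uniqueness

For a space `Q` covered by (the interiors of) `U`, `V` such that `H(U) → H(Q)` is onto, Mayer-Vietoris
says: every `α ∈ ker (H(U) → H(Q))` has a UNIQUE lift `w ∈ H(U ∩ V)` with `w ↦ α` in `H(U)` and
`w ↦ 0` in `H(V)`.  (`IsW l r α w`, `IsW.unique`, `exists_isW`.)

`Cyl Z U V` : a cylinder with slices `i0, i1 : Z → U`, retraction `r : Q → Z`; `Cyl.cut y` is the class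
over `i0 y + i1 y`.
-/

set_option autoImplicit false

noncomputable section

open Function Topology

namespace Crest.Agent.R231.CutWx749

open Crest.Agent.R204 Crest.Agent.R204.SpecA Crest.Agent.R231.FinDim315

section mod2

variable {M : Type*} [AddCommGroup M] [Module F2 M]

theorem add_self (x : M) : x + x = 0 := by
  have h : (2 : F2) • x = 0 := by
    have : (2 : F2) = 0 := by decide
    rw [this, zero_smul]
  rwa [two_smul] at h

theorem neg_eq (x : M) : -x = x := neg_eq_of_add_eq_zero_left (add_self x)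

theorem eq_of_add {x y : M} (h : x + y = 0) : x = y := by
  have := neg_eq_of_add_eq_zero_left h
  rw [← this, neg_eq]

end mod2

/-! ## cut classes -/

section isW

variable {W A B W' A' B' : Type} [TopologicalSpace W] [TopologicalSpace A] [TopologicalSpace B]
  [TopologicalSpace W'] [TopologicalSpace A'] [TopologicalSpace B']

/-- `w ∈ H(W)` lifts `α ∈ H(A)` and dies in `H(B)` -/
def IsW (l : C(W, A)) (r : C(W, B)) (α : HS A) (w : HS W) : Prop := Hm l w = α ∧ Hm r w = 0

variable {l : C(W, A)} {r : C(W, B)} {l' : C(W', A')} {r' : C(W', B')}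

theorem IsW.zero : IsW l r 0 0 := ⟨map_zero _, map_zero _⟩

theorem IsW.add {α β : HS A} {w v : HS W} (h : IsW l r α w) (h' : IsW l r β v) :
    IsW l r (α + β) (w + v) :=
  ⟨by rw [map_add, h.1, h'.1], by rw [map_add, h.2, h'.2, add_zero]⟩

theorem IsW.smul {α : HS A} {w : HS W} (c : F2) (h : IsW l r α w) : IsW l r (c • α) (c • w) :=
  ⟨by rw [map_smul, h.1], by rw [map_smul, h.2, smul_zero]⟩

/-- naturality -/
theorem IsW.map {α : HS A} {w : HS W} (h : IsW l r α w) (fW : C(W, W')) (fA : C(A, A'))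
    (fB : C(B, B')) (h1 : (l'.comp fW).Homotopic (fA.comp l))
    (h2 : (r'.comp fW).Homotopic (fB.comp r)) : IsW l' r' (Hm fA α) (Hm fW w) := by
  constructor
  · rw [← Hm_comp_apply, Hm_homotopic h1, Hm_comp_apply, h.1]
  · rw [← Hm_comp_apply, Hm_homotopic h2, Hm_comp_apply, h.2, map_zero]

/-- naturality, strictly commutative version -/
theorem IsW.map' {α : HS A} {w : HS W} (h : IsW l r α w) (fW : C(W, W')) (fA : C(A, A'))
    (fB : C(B, B')) (h1 : ∀ x, l' (fW x) = fA (l x)) (h2 : ∀ x, r' (fW x) = fB (r x)) :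
    IsW l' r' (Hm fA α) (Hm fW w) :=
  h.map fW fA fB (by rw [show l'.comp fW = fA.comp l from ContinuousMap.ext h1])
    (by rw [show r'.comp fW = fB.comp r from ContinuousMap.ext h2])

end isW

/-! ## covers -/

section cover

variable {Q : Type} [TopologicalSpace Q] {U V : Set Q}

/-- `U ∩ V → U` -/
abbrev il (U V : Set Q) : C((U ∩ V : Set Q), U) := inc₂ Set.inter_subset_left

/-- `U ∩ V → V` -/
abbrev ir (U V : Set Q) : C((U ∩ V : Set Q), V) := inc₂ Set.inter_subset_right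

theorem inc_il (U V : Set Q) : (inc U).comp (il U V) = inc (U ∩ V) := rfl
theorem inc_ir (U V : Set Q) : (inc V).comp (ir U V) = inc (U ∩ V) := rfl

theorem inc_il_eq (U V : Set Q) (w : HS (U ∩ V : Set Q)) :
    Hm (inc U) (Hm (il U V) w) = Hm (inc V) (Hm (ir U V) w) := by
  rw [← Hm_comp_apply, ← Hm_comp_apply, inc_il, inc_ir]

/-- Mayer-Vietoris: existence of cut classes -/
theorem exists_isW (hUV : ∀ q, U ∈ 𝓝 q ∨ V ∈ 𝓝 q) {α : HS U} (hα : Hm (inc U) α = 0) :
    ∃ w, IsW (il U V) (ir U V) α w := by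
  obtain ⟨δ, h1, -, -, -, -, -⟩ := Exc406.mayerVietoris U V F2 hUV
  obtain ⟨w, hw⟩ := (h1 (α, 0)).1 (by
    rw [LinearMap.coprod_apply, map_zero, add_zero]
    exact hα)
  have e1 : Hm (il U V) w = α := congrArg Prod.fst hw
  have e2 : -Hm (ir U V) w = 0 := congrArg Prod.snd hw
  exact ⟨w, e1, by rwa [neg_eq_zero] at e2⟩

/-- Mayer-Vietoris: uniqueness of cut classes, if `H(U) → H(Q)` is onto -/
theorem IsW.unique (hUV : ∀ q, U ∈ 𝓝 q ∨ V ∈ 𝓝 q) (ho : Surjective (Hm (inc U)))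
    {α : HS U} {w w' : HS (U ∩ V : Set Q)} (hw : IsW (il U V) (ir U V) α w)
    (hw' : IsW (il U V) (ir U V) α w') : w = w' := by
  obtain ⟨δ, -, h2, h3, -, -, -⟩ := Exc406.mayerVietoris U V F2 hUV
  have hδ : ∀ z, δ z = 0 := by
    intro z
    obtain ⟨a, rfl⟩ := ho z
    refine (h2 _).2 ⟨(a, 0), ?_⟩
    rw [LinearMap.coprod_apply, map_zero, add_zero]
  have e : ((Hm (il U V)).prod (-Hm (ir U V))) (w - w') = 0 := by
    refine Prod.ext ?_ ?_
    · show Hm (il U V) (w - w') = 0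
      rw [map_sub, hw.1, hw'.1, sub_self]
    · show -Hm (ir U V) (w - w') = 0
      rw [map_sub, hw.2, hw'.2, sub_self, neg_zero]
  obtain ⟨z, hz⟩ := (h3 _).1 e
  rw [hδ] at hz
  exact (sub_eq_zero.1 hz.symm)

/-- a cylinder over `Z` with both ends in `U` -/
structure Cyl (Z : Type) [TopologicalSpace Z] (U V : Set Q) where
  nhds : ∀ q, U ∈ 𝓝 q ∨ V ∈ 𝓝 q
  i0 : C(Z, U)
  i1 : C(Z, U)
  r : C(Q, Z)
  h0 : (((inc U).comp i0).comp r).Homotopic (ContinuousMap.id Q)
  h1 : (r.comp ((inc U).comp i1)).Homotopic (ContinuousMap.id Z)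

namespace Cyl

variable {Z : Type} [TopologicalSpace Z] (c : Cyl Z U V)

include c in
theorem onto : Surjective (Hm (inc U)) := fun q => ⟨Hm c.i0 (Hm c.r q), by
  rw [← Hm_comp_apply, ← Hm_comp_apply, Hm_homotopic c.h0, Hm_id]⟩

theorem ends (y : HS Z) : Hm (inc U) (Hm c.i0 y) = Hm (inc U) (Hm c.i1 y) := by
  have h : Hm (inc U) (Hm c.i1 y) =
      Hm (((inc U).comp c.i0).comp c.r) (Hm (inc U) (Hm c.i1 y)) := by
    rw [Hm_homotopic c.h0, Hm_id]
  rw [h, Hm_comp_apply, Hm_comp_apply, ← Hm_comp_apply (inc U) c.i1, ← Hm_comp_apply c.r,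
    Hm_homotopic c.h1, Hm_id]

/-- the two ends -/
def bdry : HS Z →ₗ[F2] HS U := Hm c.i0 + Hm c.i1

theorem bdry_apply (y : HS Z) : c.bdry y = Hm c.i0 y + Hm c.i1 y := rfl

theorem inc_bdry (y : HS Z) : Hm (inc U) (c.bdry y) = 0 := by
  rw [bdry_apply, map_add, c.ends, add_self]

theorem exists_cut (y : HS Z) : ∃ w, IsW (il U V) (ir U V) (c.bdry y) w :=
  exists_isW c.nhds (c.inc_bdry y)

include c in
theorem unique {α : HS U} {w w' : HS (U ∩ V : Set Q)} (hw : IsW (il U V) (ir U V) α w)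
    (hw' : IsW (il U V) (ir U V) α w') : w = w' := IsW.unique c.nhds c.onto hw hw'

/-- the cut class -/
def cut : HS Z →ₗ[F2] HS (U ∩ V : Set Q) where
  toFun y := (c.exists_cut y).choose
  map_add' y y' := c.unique (c.exists_cut (y + y')).choose_spec (by
    rw [map_add]
    exact (c.exists_cut y).choose_spec.add (c.exists_cut y').choose_spec)
  map_smul' a y := c.unique (c.exists_cut (a • y)).choose_spec (by
    rw [map_smul]
    exact (c.exists_cut y).choose_spec.smul a)

theorem isW_cut (y : HS Z) : IsW (il U V) (ir U V) (c.bdry y) (c.cut y) :=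
  (c.exists_cut y).choose_spec

theorem cut_l (y : HS Z) : Hm (il U V) (c.cut y) = Hm c.i0 y + Hm c.i1 y := (c.isW_cut y).1

theorem cut_r (y : HS Z) : Hm (ir U V) (c.cut y) = 0 := (c.isW_cut y).2

theorem eq_cut {y : HS Z} {w : HS (U ∩ V : Set Q)}
    (hw : IsW (il U V) (ir U V) (Hm c.i0 y + Hm c.i1 y) w) : w = c.cut y :=
  c.unique hw (c.isW_cut y)

end Cyl

/-! ### restricted maps -/

variable {Q' : Type} [TopologicalSpace Q'] {U' V' : Set Q'}

/-- the restriction of a map to subsets -/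
def rmap (f : C(Q, Q')) {A : Set Q} {A' : Set Q'} (h : Set.MapsTo f A A') : C(A, A') :=
  ⟨fun x => ⟨f x, h x.2⟩, (f.continuous.comp continuous_subtype_val).subtype_mk _⟩

/-- naturality of cut classes for maps of covers -/
theorem IsW.rmap {α : HS U} {w : HS (U ∩ V : Set Q)} (h : IsW (il U V) (ir U V) α w)
    (f : C(Q, Q')) (hU : Set.MapsTo f U U') (hV : Set.MapsTo f V V') :
    IsW (il U' V') (ir U' V') (Hm (rmap f hU) α)
      (Hm (CutWx749.rmap f (hU.inter_inter hV)) w) :=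
  h.map' _ _ (CutWx749.rmap f hV) (fun _ => rfl) fun _ => rfl

/-- naturality of the cut of cylinders -/
theorem Cyl.map_cut {Z Z' : Type} [TopologicalSpace Z] [TopologicalSpace Z'] (c : Cyl Z U V)
    (c' : Cyl Z' U' V') (f : C(Q, Q')) (hU : Set.MapsTo f U U') (hV : Set.MapsTo f V V')
    {y : HS Z} {y' : HS Z'} (h : Hm (CutWx749.rmap f hU) (c.bdry y) = c'.bdry y') :
    Hm (CutWx749.rmap f (hU.inter_inter hV)) (c.cut y) = c'.cut y' := by
  refine c'.unique ?_ (c'.isW_cut y')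
  rw [← h]
  exact (c.isW_cut y).rmap f hU hV

/-- naturality of the cut of cylinders, with the ends -/
theorem Cyl.map_cut' {Z Z' : Type} [TopologicalSpace Z] [TopologicalSpace Z'] (c : Cyl Z U V)
    (c' : Cyl Z' U' V') (f : C(Q, Q')) (hU : Set.MapsTo f U U') (hV : Set.MapsTo f V V')
    (g : C(Z, Z')) (h0 : ((CutWx749.rmap f hU).comp c.i0).Homotopic (c'.i0.comp g))
    (h1 : ((CutWx749.rmap f hU).comp c.i1).Homotopic (c'.i1.comp g)) (y : HS Z) :
    Hm (CutWx749.rmap f (hU.inter_inter hV)) (c.cut y) = c'.cut (Hm g y) := by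
  refine c.map_cut c' f hU hV ?_
  rw [c.bdry_apply, c'.bdry_apply, map_add, ← Hm_comp_apply, ← Hm_comp_apply, ← Hm_comp_apply,
    ← Hm_comp_apply, Hm_homotopic h0, Hm_homotopic h1]

end cover

end Crest.Agent.R231.CutWx749
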