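import Crest.Agent.R231.CrossCS_780
import Crest.Agent.R231.FinDim_315
import Crest.Agent.R204.EZInst_847

/-!
# Row 231, block P (helper749): the homology cross product of spaces

`cx : HS X →ₗ HS Y →ₗ HS (X × Y)`; `cx_mk`, `cx_map`, `cx_swap`, `cx_assoc`, `fst_cx`, `snd_cx`,
augmentation `eps`, point classes `ptc`, `cx_ptc`, `ptc_cx`, degrees, Kuenneth `cx_bij`.
K-STEP `kstep` : `a ∈ H(Z × S)`, `fst_* a = 0` ⟹ `a = D × σ`, `kinj` : `D × σ = 0 ⟹ D = 0`, for a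
space `S` with `H(S) = ⟨pt, σ⟩` (`SphL`).
-/

set_option autoImplicit false

noncomputable section

open Function Topology

namespace Crest.Agent.R231.Cxx749

open Crest.Agent.R204 Crest.Agent.R204.SpecA Crest.Agent.R231.FinDim315 TensorProduct
open Pairx877 CrossCSx780

variable {X Y Z X' Y' : Type} [TopologicalSpace X] [TopologicalSpace Y] [TopologicalSpace Z]
  [TopologicalSpace X'] [TopologicalSpace Y']

theorem Hm_mk (f : C(X, Y)) (z : CE X) (hz : N.bd F2 (SS.Sing X) z = 0)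
    (hz' : N.bd F2 (SS.Sing Y) (N.map F2 (SS.SingMap f) z) = 0) :
    Hm f (Hd.mk (N.bd F2 (SS.Sing X)) z hz) =
      Hd.mk (N.bd F2 (SS.Sing Y)) (N.map F2 (SS.SingMap f) z) hz' := rfl

theorem map_cyc (f : C(X, Y)) {z : CE X} (hz : N.bd F2 (SS.Sing X) z = 0) :
    N.bd F2 (SS.Sing Y) (N.map F2 (SS.SingMap f) z) = 0 := by
  have := LinearMap.congr_fun (N.map_bd (R := F2) (SS.SingMap f)) z
  simp only [LinearMap.comp_apply] at this
  rw [← this, hz, map_zero]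

theorem mk_congr {z z' : CE X} (h : z = z') (hz : N.bd F2 (SS.Sing X) z = 0)
    (hz' : N.bd F2 (SS.Sing X) z' = 0) :
    Hd.mk (N.bd F2 (SS.Sing X)) z hz = Hd.mk (N.bd F2 (SS.Sing X)) z' hz' := by subst h; rfl

theorem crE_cyc {z : CE X} (hz : N.bd F2 (SS.Sing X) z = 0) {z' : CE Y}
    (hz' : N.bd F2 (SS.Sing Y) z' = 0) : N.bd F2 (SS.Sing (X × Y)) (crE z z') = 0 := by
  have := bd_crE z z'
  rw [show bdE (X × Y) (crE z z') = N.bd F2 (SS.Sing (X × Y)) (crE z z') from rfl] at this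
  rw [this, show bdE X z = 0 from hz, show bdE Y z' = 0 from hz', map_zero, map_zero,
    LinearMap.zero_apply, add_zero]

/-- **the cross product** -/
def cx : HS X →ₗ[F2] HS Y →ₗ[F2] HS (X × Y) :=
  TensorProduct.curry (H.map F2 (SingAct265.singPair X Y) ∘ₗ
    (EZ847.crH (SS.Sing X) (SS.Sing Y)).toLinearMap)

theorem cx_mk (z : CE X) (hz : N.bd F2 (SS.Sing X) z = 0) (z' : CE Y)
    (hz' : N.bd F2 (SS.Sing Y) z' = 0) :
    cx (Hd.mk (N.bd F2 (SS.Sing X)) z hz) (Hd.mk (N.bd F2 (SS.Sing Y)) z' hz') =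
      Hd.mk (N.bd F2 (SS.Sing (X × Y))) (crE z z') (crE_cyc hz hz') := by
  rw [cx, TensorProduct.curry_apply, LinearMap.comp_apply, LinearEquiv.coe_coe, EZ847.crH_mk]
  rfl

theorem cx_map (f : C(X, X')) (g : C(Y, Y')) (a : HS X) (b : HS Y) :
    Hm (f.prodMap g) (cx a b) = cx (Hm f a) (Hm g b) := by
  obtain ⟨z, hz, rfl⟩ := Hd.mk_surj _ a
  obtain ⟨z', hz', rfl⟩ := Hd.mk_surj _ b
  rw [cx_mk, Hm_mk _ _ _ (map_cyc _ (crE_cyc hz hz')), Hm_mk _ _ _ (map_cyc _ hz),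
    Hm_mk _ _ _ (map_cyc _ hz'), cx_mk]
  exact mk_congr (crE_map f g z z') _ _

/-- the swap -/
abbrev sw (X Y : Type) [TopologicalSpace X] [TopologicalSpace Y] : C(X × Y, Y × X) :=
  ⟨Prod.swap, continuous_swap⟩

theorem cx_swap (a : HS X) (b : HS Y) : Hm (sw X Y) (cx a b) = cx b a := by
  obtain ⟨z, hz, rfl⟩ := Hd.mk_surj _ a
  obtain ⟨z', hz', rfl⟩ := Hd.mk_surj _ b
  rw [cx_mk, Hm_mk _ _ _ (map_cyc _ (crE_cyc hz hz')), cx_mk]
  exact mk_congr (swap_crE z z') _ _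

/-- `(X × Y) × Z → X × (Y × Z)` -/
abbrev asc (X Y Z : Type) [TopologicalSpace X] [TopologicalSpace Y] [TopologicalSpace Z] :
    C((X × Y) × Z, X × (Y × Z)) :=
  ⟨fun p : (X × Y) × Z => (p.1.1, (p.1.2, p.2)), by fun_prop⟩

theorem cx_assoc (a : HS X) (b : HS Y) (c : HS Z) :
    Hm (asc X Y Z) (cx (cx a b) c) = cx a (cx b c) := by
  obtain ⟨z, hz, rfl⟩ := Hd.mk_surj _ a
  obtain ⟨z', hz', rfl⟩ := Hd.mk_surj _ b
  obtain ⟨z'', hz'', rfl⟩ := Hd.mk_surj _ c
  rw [cx_mk, cx_mk, Hm_mk _ _ _ (map_cyc _ (crE_cyc (crE_cyc hz hz') hz'')), cx_mk, cx_mk]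
  exact mk_congr (assoc_crE z z' z'') _ _

/-- `X × (Y × Z) → (X × Y) × Z` -/
abbrev asc' (X Y Z : Type) [TopologicalSpace X] [TopologicalSpace Y] [TopologicalSpace Z] :
    C(X × (Y × Z), (X × Y) × Z) :=
  ⟨fun p : X × (Y × Z) => ((p.1, p.2.1), p.2.2), by fun_prop⟩

theorem cx_assoc' (a : HS X) (b : HS Y) (c : HS Z) :
    Hm (asc' X Y Z) (cx a (cx b c)) = cx (cx a b) c := by
  rw [← cx_assoc, ← Hm_comp_apply]
  exact Hm_id _

/-! ### augmentation and points -/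

theorem aug_bd (w : CE X) : EZ271.aug F2 (N.bd F2 (SS.Sing X) w) = 0 := EZ271.aug_bd F2 w

/-- augmentation -/
def eps : HS X →ₗ[F2] F2 :=
  Submodule.liftQ _ (EZ271.aug F2 ∘ₗ (LinearMap.ker (N.bd F2 (SS.Sing X))).subtype) (by
    rintro ⟨x, hx⟩ h
    rw [Submodule.mem_comap] at h
    obtain ⟨w, hw⟩ := h
    rw [LinearMap.mem_ker, LinearMap.comp_apply, ← hw]
    exact aug_bd w)

theorem eps_mk (z : CE X) (hz : N.bd F2 (SS.Sing X) z = 0) :
    eps (Hd.mk (N.bd F2 (SS.Sing X)) z hz) = EZ271.aug F2 z := rfl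

theorem eps_map (f : C(X, Y)) (a : HS X) : eps (Hm f a) = eps a := by
  obtain ⟨z, hz, rfl⟩ := Hd.mk_surj _ a
  rw [Hm_mk _ _ _ (map_cyc _ hz), eps_mk, eps_mk]
  exact EZ271.aug_map F2 _ z

theorem fst_cx (a : HS X) (b : HS Y) :
    Hm (⟨Prod.fst, continuous_fst⟩ : C(X × Y, X)) (cx a b) = eps b • a := by
  obtain ⟨z, hz, rfl⟩ := Hd.mk_surj _ a
  obtain ⟨z', hz', rfl⟩ := Hd.mk_surj _ b
  rw [cx_mk, Hm_mk _ _ _ (map_cyc _ (crE_cyc hz hz')), eps_mk]
  exact mk_congr (fst_crE z z') _ (by rw [map_smul, hz, smul_zero])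

theorem snd_cx (a : HS X) (b : HS Y) :
    Hm (⟨Prod.snd, continuous_snd⟩ : C(X × Y, Y)) (cx a b) = eps a • b := by
  obtain ⟨z, hz, rfl⟩ := Hd.mk_surj _ a
  obtain ⟨z', hz', rfl⟩ := Hd.mk_surj _ b
  rw [cx_mk, Hm_mk _ _ _ (map_cyc _ (crE_cyc hz hz')), eps_mk]
  exact mk_congr (snd_crE z z') _ (by rw [map_smul, hz', smul_zero])

/-- the class of a point -/
def ptc (x : X) : HS X := Hd.mk (N.bd F2 (SS.Sing X)) (vE x) (bd_vE x)

theorem ptc_map (f : C(X, Y)) (x : X) : Hm f (ptc x) = ptc (f x) := by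
  rw [ptc, Hm_mk _ _ _ (map_cyc _ (bd_vE x))]
  exact mk_congr (map_vE f x) _ _

theorem eps_ptc (x : X) : eps (ptc x) = 1 := aug_vE x

theorem cx_ptc (a : HS X) (y : Y) :
    cx a (ptc y) = Hm (⟨fun x : X => (x, y), by fun_prop⟩ : C(X, X × Y)) a := by
  obtain ⟨z, hz, rfl⟩ := Hd.mk_surj _ a
  rw [ptc, cx_mk, Hm_mk _ _ _ (map_cyc _ hz)]
  exact mk_congr (crE_vE_right z y) _ _

theorem ptc_cx (x : X) (b : HS Y) :
    cx (ptc x) b = Hm (⟨fun y : Y => (x, y), by fun_prop⟩ : C(Y, X × Y)) b := by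
  obtain ⟨z, hz, rfl⟩ := Hd.mk_surj _ b
  rw [ptc, cx_mk, Hm_mk _ _ _ (map_cyc _ hz)]
  exact mk_congr (crE_vE_left x z) _ _

/-! ### Kuenneth -/

theorem singPair_bij : Bijective (H.map F2 (SingAct265.singPair X Y)) := by
  have e1 : ∀ z, H.map F2 (SingAct265.singUnpair X Y) (H.map F2 (SingAct265.singPair X Y) z) = z := by
    intro z
    rw [← HZ76.H_map_comp]
    have : (SingAct265.singUnpair X Y).comp (SingAct265.singPair X Y) = SS.Hom.id _ := rfl
    rw [this, HZ76.H_map_id]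
  have e2 : ∀ z, H.map F2 (SingAct265.singPair X Y) (H.map F2 (SingAct265.singUnpair X Y) z) = z := by
    intro z
    rw [← HZ76.H_map_comp]
    have : (SingAct265.singPair X Y).comp (SingAct265.singUnpair X Y) = SS.Hom.id _ := rfl
    rw [this, HZ76.H_map_id]
  exact ⟨LeftInverse.injective e1, RightInverse.surjective e2⟩

/-- **Kuenneth** -/
theorem cx_bij : Bijective (TensorProduct.lift (cx (X := X) (Y := Y))) := by
  have e : TensorProduct.lift (cx (X := X) (Y := Y)) = H.map F2 (SingAct265.singPair X Y) ∘ₗ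
      (EZ847.crH (SS.Sing X) (SS.Sing Y)).toLinearMap := by
    refine TensorProduct.ext' fun a b => ?_
    rw [TensorProduct.lift.tmul, cx, TensorProduct.curry_apply]
  rw [e, LinearMap.coe_comp]
  exact singPair_bij.comp (EZ847.crH (SS.Sing X) (SS.Sing Y)).bijective

theorem cx_span (a : HS (X × Y)) : a ∈ Submodule.span F2 {c | ∃ (x : HS X) (y : HS Y), c = cx x y} := by
  obtain ⟨t, rfl⟩ := cx_bij.2 a
  induction t using TensorProduct.induction_on with
  | zero => rw [map_zero]; exact Submodule.zero_mem _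
  | add x y hx hy => rw [map_add]; exact Submodule.add_mem _ hx hy
  | tmul x y => exact Submodule.subset_span ⟨x, y, TensorProduct.lift.tmul _ _⟩

/-- a space whose homology is spanned by a point and a class `σ ≠ 0` of augmentation `0` -/
structure SphL (S : Type) [TopologicalSpace S] (z0 : S) (σ : HS S) : Prop where
  span : ∀ b : HS S, ∃ r s : F2, b = r • ptc z0 + s • σ
  eps : eps σ = 0
  ne : σ ≠ 0

variable {S : Type} [TopologicalSpace S] {z0 : S} {σ : HS S}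

/-- **K-STEP**, existence -/
theorem kstep (h : SphL S z0 σ) (a : HS (Z × S))
    (ha : Hm (⟨Prod.fst, continuous_fst⟩ : C(Z × S, Z)) a = 0) : ∃ D : HS Z, a = cx D σ := by
  have h1 : ∃ D0 D : HS Z, a = cx D0 (ptc z0) + cx D σ := by
    clear ha
    have := cx_span a
    induction this using Submodule.span_induction with
    | mem x hx =>
      obtain ⟨p, q, rfl⟩ := hx
      obtain ⟨r, s, rfl⟩ := h.span q
      exact ⟨r • p, s • p, by rw [map_add, map_smul, map_smul, map_smul, map_smul]; rfl⟩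
    | zero => exact ⟨0, 0, by rw [map_zero, LinearMap.zero_apply, LinearMap.zero_apply, add_zero]⟩
    | add x y _ _ hx hy =>
      obtain ⟨p, q, rfl⟩ := hx
      obtain ⟨p', q', rfl⟩ := hy
      exact ⟨p + p', q + q', by rw [map_add, map_add, LinearMap.add_apply, LinearMap.add_apply]; abel⟩
    | smul r x _ hx =>
      obtain ⟨p, q, rfl⟩ := hx
      exact ⟨r • p, r • q, by rw [map_smul, map_smul, LinearMap.smul_apply, LinearMap.smul_apply,
        smul_add]⟩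
  obtain ⟨D0, D, rfl⟩ := h1
  refine ⟨D, ?_⟩
  rw [map_add, fst_cx, fst_cx, eps_ptc, one_smul, h.eps, zero_smul, add_zero] at ha
  rw [ha, map_zero, LinearMap.zero_apply, zero_add]

/-- **K-STEP**, uniqueness -/
theorem kinj (h : SphL S z0 σ) {D : HS Z} (hD : cx D σ = 0) : D = 0 := by
  have h1 : D ⊗ₜ[F2] σ = 0 := by
    apply cx_bij.1
    rw [TensorProduct.lift.tmul, hD, map_zero]
  obtain ⟨f, hf⟩ := Module.Projective.exists_dual_eq_one F2 h.ne
  have h2 := congrArg (TensorProduct.rid F2 (HS Z) ∘ TensorProduct.map LinearMap.id f) h1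
  simpa [hf] using h2

end Crest.Agent.R231.Cxx749
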