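import Crest.Agent.R231.Deriv_671
import Crest.Agent.R231.OmSp_725

/-!
# Row 231, block P, leaf Q4b (helper671): the cut `D` of based loops is a derivation

`GE W U t` : cut map and evaluation on `Q_U ∩ Q_V`;
`D_mul` : `D(m(a × b)) = rm(D a × b) + lm(a × D b)` in `Om2T p T`, `a + b + 2 ℓ ≤ T`;
`S_mul` : after forgetting the first piece, `S_* D(ab) = S_* D(a) . b + ε(a) S_* D(b)`.
-/

set_option autoImplicit false

noncomputable section

open Function Topology NNReal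

namespace Crest.Agent.R231.Derivx671

open Crest.Agent.R204 Crest.Agent.R204.SpecA Crest.Agent.R231.FinDim315
open Crest.Agent.R231.CutWx749 Crest.Agent.R231.CXx780 Crest.Agent.R231.OmSpx725
open Crest.Agent.R231.Moorex725 Crest.Agent.R231.CutMx725

variable {M : Type} [PseudoMetricSpace M] {p : M}

/-- cut map and evaluation on `Q_U ∩ Q_V` -/
def GE (W : Tether p) (U : Set M) (t : ℝ≥0) :
    C((QW U p t ∩ QW W.V p t : Set (Qt p t)), Om2T p (t + 2 * ell W) × (U ∩ W.V : Set M)) where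
  toFun x := (GG W t (Set.inter_subset_right : QW U p t ∩ QW W.V p t ⊆ QW W.V p t) x,
    ⟨evQ p t x.1, x.2.1, x.2.2⟩)
  continuous_toFun := (GG W t _).continuous.prodMk
    (Continuous.subtype_mk ((evQ p t).continuous.comp continuous_subtype_val) _)

theorem mulQ1_memU (a b : ℝ≥0) (V : Set M) : ∀ q ∈ QW V p a, ∀ w : OmT p b,
    mulQ1 p a b (q, w) ∈ QW V p (a + b) := fun q hq w => (mulQ1_mem a b V q w).2 hq

theorem mulQ2_memU (a b : ℝ≥0) (V : Set M) : ∀ q ∈ QW V p b, ∀ w : OmT p a,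
    mulQ2 p a b (w, q) ∈ QW V p (a + b) := fun q hq w => (mulQ2_mem a b V q w).2 hq

/-- ends of the cylinder of loops with a time -/
structure Ends {U V : Set M} {t : ℝ≥0} (c : Cyl (OmT p t) (QW U p t) (QW V p t)) : Prop where
  e0 : ∀ g, ((c.i0 g : QW U p t) : Qt p t) = (g, ⟨0, le_rfl, t.2⟩)
  e1 : ∀ g, ((c.i1 g : QW U p t) : Qt p t) = (g, ⟨t, t.2, le_rfl⟩)

/-- **the derivation property**, at the level of the classes on `Om2 × S` -/
theorem der_Om (W : Tether p) {U : Set M} (a b : ℝ≥0)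
    {cA : Cyl (OmT p a) (QW U p a) (QW W.V p a)} (eA : Ends cA)
    {cB : Cyl (OmT p b) (QW U p b) (QW W.V p b)} (eB : Ends cB)
    {c : Cyl (OmT p (a + b)) (QW U p (a + b)) (QW W.V p (a + b))} (eC : Ends c)
    {x : HS (OmT p a)} {y : HS (OmT p b)} {σ : HS (U ∩ W.V : Set M)}
    {dA : HS (Om2T p (a + 2 * ell W))} {dB : HS (Om2T p (b + 2 * ell W))}
    (hA : Hm (GE W U a) (cA.cut x) = cx dA σ) (hB : Hm (GE W U b) (cB.cut y) = cx dB σ)
    {T : ℝ≥0} (h : a + b + 2 * ell W ≤ T) (h1 : a + 2 * ell W + b ≤ T)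
    (h2 : a + (b + 2 * ell W) ≤ T) :
    Hm ((inc2 h).prodMap (ContinuousMap.id _)) (Hm (GE W U (a + b)) (c.cut (Hm (mul p a b) (cx x y))))
      = cx (Hm ((inc2 h1).comp (rm p (a + 2 * ell W) b)) (cx dA y) +
          Hm ((inc2 h2).comp (lm p a (b + 2 * ell W))) (cx x dB)) σ := by
  rw [← Hm_comp_apply]
  refine der cA cB c (mul p a b) (mulQ1 p a b) (mulQ2 p a b) (mulQ1_memU a b U)
    (mulQ1_memU a b W.V) (mulQ2_memU a b U) (mulQ2_memU a b W.V) ?_ ?_ ?_ (GE W U a) (GE W U b)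
    _ _ _ ?_ ?_ hA hB
  · intro g w
    rw [eA.e0, eC.e0]
    rfl
  · intro g w
    rw [eA.e1, eB.e0]
    refine Prod.ext rfl (Subtype.ext ?_)
    show (a : ℝ) = a + 0
    rw [add_zero]
  · intro g w
    rw [eB.e1, eC.e1]
    refine Prod.ext rfl (Subtype.ext ?_)
    show (a : ℝ) + b = ((a + b : ℝ≥0) : ℝ)
    rw [NNReal.coe_add]
  · intro q w
    refine Prod.ext ?_ (Subtype.ext ?_)
    · exact GG_mulQ1 W a b _ _ q w _ h h1
    · exact evQ_mulQ1 a b q.1 w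
  · intro w q
    refine Prod.ext ?_ (Subtype.ext ?_)
    · exact GG_mulQ2 W a b _ _ q w _ h h2
    · exact evQ_mulQ2 a b q.1 w

/-- **Q4b**: `D(ab) = D(a).b + a.D(b)` -/
theorem D_mul (W : Tether p) {U : Set M} (a b : ℝ≥0)
    {cA : Cyl (OmT p a) (QW U p a) (QW W.V p a)} (eA : Ends cA)
    {cB : Cyl (OmT p b) (QW U p b) (QW W.V p b)} (eB : Ends cB)
    {c : Cyl (OmT p (a + b)) (QW U p (a + b)) (QW W.V p (a + b))} (eC : Ends c)
    {x : HS (OmT p a)} {y : HS (OmT p b)} {σ : HS (U ∩ W.V : Set M)}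
    {dA : HS (Om2T p (a + 2 * ell W))} {dB : HS (Om2T p (b + 2 * ell W))}
    {d : HS (Om2T p (a + b + 2 * ell W))}
    (hA : Hm (GE W U a) (cA.cut x) = cx dA σ) (hB : Hm (GE W U b) (cB.cut y) = cx dB σ)
    (hC : Hm (GE W U (a + b)) (c.cut (Hm (mul p a b) (cx x y))) = cx d σ)
    {T : ℝ≥0} (hσ : ∀ z z' : HS (Om2T p T), cx z σ = cx z' σ → z = z')
    (h : a + b + 2 * ell W ≤ T) (h1 : a + 2 * ell W + b ≤ T)
    (h2 : a + (b + 2 * ell W) ≤ T) :
    Hm (inc2 h) d = Hm (inc2 h1) (Hm (rm p (a + 2 * ell W) b) (cx dA y)) +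
      Hm (inc2 h2) (Hm (lm p a (b + 2 * ell W)) (cx x dB)) := by
  have h3 := der_Om W a b eA eB eC hA hB h h1 h2
  rw [hC, Hm_cx_left] at h3
  rw [← Hm_comp_apply, ← Hm_comp_apply]
  exact hσ _ _ h3

end Crest.Agent.R231.Derivx671
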