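import Crest.Agent.R231.CX_780
import Crest.Agent.R231.CutW_749

/-!
# Row 231, block P, leaf Q4b (helper671): the cut is a derivation

`cut (m_* (a × b)) = f1_* (cut a × b) + f2_* (a × cut b)` for cylinders `QA`, `QB`, `Q` with maps
`f1 : QA × B → Q`, `f2 : A × QB → Q` which cover the cylinder over `m : A × B → C`.
-/

set_option autoImplicit false

noncomputable section

open Function Topology

namespace Crest.Agent.R231.Derivx671

open Crest.Agent.R204 Crest.Agent.R204.SpecA Crest.Agent.R231.FinDim315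
open Crest.Agent.R231.CutWx749 Crest.Agent.R231.CXx780

section aux

variable {X Y Z X' Y' : Type} [TopologicalSpace X] [TopologicalSpace Y] [TopologicalSpace Z]
  [TopologicalSpace X'] [TopologicalSpace Y']

theorem Hm_ext {f g : C(X, Y)} (h : ∀ x, f x = g x) (a : HS X) : Hm f a = Hm g a := by
  rw [ContinuousMap.ext h]

theorem cx_left (f : C(X, X')) (a : HS X) (b : HS Y) :
    cx (Hm f a) b = Hm (f.prodMap (ContinuousMap.id Y)) (cx a b) := (Hm_cx_left f a b).symm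

theorem cx_right (g : C(Y, Y')) (a : HS X) (b : HS Y) :
    cx a (Hm g b) = Hm ((ContinuousMap.id X).prodMap g) (cx a b) := (Hm_cx_right g a b).symm

/-- `((x, y), z) ↦ ((x, z), y)` -/
def perm : C((X × Y) × Z, (X × Z) × Y) :=
  ⟨fun p => ((p.1.1, p.2), p.1.2), by fun_prop⟩

theorem cx_perm (a : HS X) (b : HS Y) (c : HS Z) :
    Hm perm (cx (cx a b) c) = cx (cx a c) b := by
  have h : (perm : C((X × Y) × Z, (X × Z) × Y)) =
      ((casC X Z Y).comp ((ContinuousMap.id X).prodMap (swC Y Z))).comp (assC X Y Z) :=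
    ContinuousMap.ext fun _ => rfl
  rw [h, Hm_comp_apply, Hm_comp_apply, cx_assoc, ← cx_right, cx_swap, cx_assoc']

end aux

/-- the map `(A ⊆ Q) × B → (A' ⊆ Q')` -/
def rl {Q B Q' : Type} [TopologicalSpace Q] [TopologicalSpace B] [TopologicalSpace Q']
    {A : Set Q} {A' : Set Q'} (f : C(Q × B, Q')) (h : ∀ q ∈ A, ∀ b, f (q, b) ∈ A') : C(A × B, A') :=
  ⟨fun x => ⟨f (x.1, x.2), h x.1 x.1.2 x.2⟩, by
    refine Continuous.subtype_mk (f.continuous.comp ?_) _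
    exact (continuous_subtype_val.comp continuous_fst).prodMk continuous_snd⟩

/-- the map `B × (A ⊆ Q) → (A' ⊆ Q')` -/
def rr {Q B Q' : Type} [TopologicalSpace Q] [TopologicalSpace B] [TopologicalSpace Q']
    {A : Set Q} {A' : Set Q'} (f : C(B × Q, Q')) (h : ∀ q ∈ A, ∀ b, f (b, q) ∈ A') : C(B × A, A') :=
  ⟨fun x => ⟨f (x.1, x.2), h x.2 x.2.2 x.1⟩, by
    refine Continuous.subtype_mk (f.continuous.comp ?_) _
    exact continuous_fst.prodMk (continuous_subtype_val.comp continuous_snd)⟩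

section

variable {QA QB Q A B C : Type} [TopologicalSpace QA] [TopologicalSpace QB] [TopologicalSpace Q]
  [TopologicalSpace A] [TopologicalSpace B] [TopologicalSpace C]
  {UA VA : Set QA} {UB VB : Set QB} {U V : Set Q}

theorem inter_l {f : C(QA × B, Q)} (hU : ∀ q ∈ UA, ∀ b, f (q, b) ∈ U)
    (hV : ∀ q ∈ VA, ∀ b, f (q, b) ∈ V) : ∀ q ∈ UA ∩ VA, ∀ b, f (q, b) ∈ U ∩ V :=
  fun q hq b => ⟨hU q hq.1 b, hV q hq.2 b⟩

theorem inter_r {f : C(A × QB, Q)} (hU : ∀ q ∈ UB, ∀ a, f (a, q) ∈ U)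
    (hV : ∀ q ∈ VB, ∀ a, f (a, q) ∈ V) : ∀ q ∈ UB ∩ VB, ∀ a, f (a, q) ∈ U ∩ V :=
  fun q hq b => ⟨hU q hq.1 b, hV q hq.2 b⟩

/-- **the cut class of a product** -/
theorem cut_mul (cA : Cyl A UA VA) (cB : Cyl B UB VB) (c : Cyl C U V) (m : C(A × B, C))
    (f1 : C(QA × B, Q)) (f2 : C(A × QB, Q))
    (h1U : ∀ q ∈ UA, ∀ b, f1 (q, b) ∈ U) (h1V : ∀ q ∈ VA, ∀ b, f1 (q, b) ∈ V)
    (h2U : ∀ q ∈ UB, ∀ a, f2 (a, q) ∈ U) (h2V : ∀ q ∈ VB, ∀ a, f2 (a, q) ∈ V)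
    (e0 : ∀ a b, f1 (cA.i0 a, b) = c.i0 (m (a, b)))
    (e1 : ∀ a b, f1 (cA.i1 a, b) = f2 (a, cB.i0 b))
    (e2 : ∀ a b, f2 (a, cB.i1 b) = c.i1 (m (a, b))) (a : HS A) (b : HS B) :
    c.cut (Hm m (cx a b)) = Hm (rl f1 (inter_l h1U h1V)) (cx (cA.cut a) b) +
      Hm (rr f2 (inter_r h2U h2V)) (cx a (cB.cut b)) := by
  refine (c.eq_cut ⟨?_, ?_⟩).symm
  · have d1 : ∀ w : HS (UA ∩ VA : Set QA), Hm (il U V) (Hm (rl f1 (inter_l h1U h1V)) (cx w b)) =
        Hm (rl f1 h1U) (cx (Hm (il UA VA) w) b) := fun w => by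
      rw [cx_left, ← Hm_comp_apply, ← Hm_comp_apply]
      exact Hm_ext (fun _ => rfl) _
    have d2 : ∀ w : HS (UB ∩ VB : Set QB), Hm (il U V) (Hm (rr f2 (inter_r h2U h2V)) (cx a w)) =
        Hm (rr f2 h2U) (cx a (Hm (il UB VB) w)) := fun w => by
      rw [cx_right, ← Hm_comp_apply, ← Hm_comp_apply]
      exact Hm_ext (fun _ => rfl) _
    have g0 : Hm (rl f1 h1U) (cx (Hm cA.i0 a) b) = Hm c.i0 (Hm m (cx a b)) := by
      rw [cx_left, ← Hm_comp_apply, ← Hm_comp_apply]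
      exact Hm_ext (fun x => Subtype.ext (e0 x.1 x.2)) _
    have g1 : Hm (rl f1 h1U) (cx (Hm cA.i1 a) b) = Hm (rr f2 h2U) (cx a (Hm cB.i0 b)) := by
      rw [cx_left, cx_right, ← Hm_comp_apply, ← Hm_comp_apply]
      exact Hm_ext (fun x => Subtype.ext (e1 x.1 x.2)) _
    have g2 : Hm (rr f2 h2U) (cx a (Hm cB.i1 b)) = Hm c.i1 (Hm m (cx a b)) := by
      rw [cx_right, ← Hm_comp_apply, ← Hm_comp_apply]
      exact Hm_ext (fun x => Subtype.ext (e2 x.1 x.2)) _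
    rw [LinearMap.map_add, d1, d2, cA.cut_l, cB.cut_l, LinearMap.map_add cx, LinearMap.add_apply,
      LinearMap.map_add, LinearMap.map_add (cx a), LinearMap.map_add]
    rw [g0, g1, g2, add_assoc, ← add_assoc (Hm (rr f2 h2U) _), add_self, zero_add]
  · have d1 : ∀ w : HS (UA ∩ VA : Set QA), Hm (ir U V) (Hm (rl f1 (inter_l h1U h1V)) (cx w b)) =
        Hm (rl f1 h1V) (cx (Hm (ir UA VA) w) b) := fun w => by
      rw [cx_left, ← Hm_comp_apply, ← Hm_comp_apply]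
      exact Hm_ext (fun _ => rfl) _
    have d2 : ∀ w : HS (UB ∩ VB : Set QB), Hm (ir U V) (Hm (rr f2 (inter_r h2U h2V)) (cx a w)) =
        Hm (rr f2 h2V) (cx a (Hm (ir UB VB) w)) := fun w => by
      rw [cx_right, ← Hm_comp_apply, ← Hm_comp_apply]
      exact Hm_ext (fun _ => rfl) _
    rw [LinearMap.map_add, d1, d2, cA.cut_r, cB.cut_r, LinearMap.map_zero cx, LinearMap.zero_apply,
      LinearMap.map_zero (cx a), LinearMap.map_zero, LinearMap.map_zero, add_zero]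

/-! ### the class `D` -/

variable {XA XB X S : Type} [TopologicalSpace XA] [TopologicalSpace XB] [TopologicalSpace X]
  [TopologicalSpace S]

/-- **the derivation property**: if `G_* (cut a) = dA × σ` and `G_* (cut b) = dB × σ`, then
`G_* (cut (m_* (a × b))) = (rm_* (dA × b) + lm_* (a × dB)) × σ`. -/
theorem der (cA : Cyl A UA VA) (cB : Cyl B UB VB) (c : Cyl C U V) (m : C(A × B, C))
    (f1 : C(QA × B, Q)) (f2 : C(A × QB, Q))
    (h1U : ∀ q ∈ UA, ∀ b, f1 (q, b) ∈ U) (h1V : ∀ q ∈ VA, ∀ b, f1 (q, b) ∈ V)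
    (h2U : ∀ q ∈ UB, ∀ a, f2 (a, q) ∈ U) (h2V : ∀ q ∈ VB, ∀ a, f2 (a, q) ∈ V)
    (e0 : ∀ a b, f1 (cA.i0 a, b) = c.i0 (m (a, b)))
    (e1 : ∀ a b, f1 (cA.i1 a, b) = f2 (a, cB.i0 b))
    (e2 : ∀ a b, f2 (a, cB.i1 b) = c.i1 (m (a, b)))
    (GA : C((UA ∩ VA : Set QA), XA × S)) (GB : C((UB ∩ VB : Set QB), XB × S))
    (G : C((U ∩ V : Set Q), X × S)) (rm : C(XA × B, X)) (lm : C(A × XB, X))
    (k1 : ∀ q b, G (rl f1 (inter_l h1U h1V) (q, b)) = (rm ((GA q).1, b), (GA q).2))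
    (k2 : ∀ a q, G (rr f2 (inter_r h2U h2V) (a, q)) = (lm (a, (GB q).1), (GB q).2))
    {a : HS A} {b : HS B} {dA : HS XA} {dB : HS XB} {σ : HS S}
    (hA : Hm GA (cA.cut a) = cx dA σ) (hB : Hm GB (cB.cut b) = cx dB σ) :
    Hm G (c.cut (Hm m (cx a b))) = cx (Hm rm (cx dA b) + Hm lm (cx a dB)) σ := by
  rw [cut_mul cA cB c m f1 f2 h1U h1V h2U h2V e0 e1 e2, LinearMap.map_add, LinearMap.map_add,
    LinearMap.add_apply]
  congr 1
  · have h1 : Hm G (Hm (rl f1 (inter_l h1U h1V)) (cx (cA.cut a) b)) =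
        Hm (rm.prodMap (ContinuousMap.id S)) (Hm perm (cx (Hm GA (cA.cut a)) b)) := by
      rw [cx_left, ← Hm_comp_apply, ← Hm_comp_apply, ← Hm_comp_apply]
      exact Hm_ext (fun x => k1 x.1 x.2) _
    rw [h1, hA, cx_perm, ← cx_left]
  · have h1 : Hm G (Hm (rr f2 (inter_r h2U h2V)) (cx a (cB.cut b))) =
        Hm (lm.prodMap (ContinuousMap.id S)) (Hm (casC A XB S) (cx a (Hm GB (cB.cut b)))) := by
      rw [cx_right, ← Hm_comp_apply, ← Hm_comp_apply, ← Hm_comp_apply]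
      exact Hm_ext (fun x => k2 x.1 x.2) _
    rw [h1, hB, cx_assoc', ← cx_left]

end

end Crest.Agent.R231.Derivx671
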