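import Crest.Agent.R231.SuspFam_373
import Crest.Agent.R231.CX_780

/-!
# Row 231, block P, leaf Q4d (helper373): `D(x) = [point]`

* `diag_σ : Δ_* σ = σ × pt + pt × σ` for `SphLike`;
* `sl_graph : ((f, id)_* σ) / φ = [f s₀]`;
* `GE b c t = (GG b, ev) : QW c.V ∩ QW b.V → Om2T × (c.V ∩ b.V)`;
* `sl_cut_vz`: the slant product of `GE_* (cut (v_* σ))` is the class of a point.
-/

set_option autoImplicit false

noncomputable section

open Function Topology NNReal

namespace Crest.Agent.R231.DxPtx373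

open Set Crest.Agent.R204 Crest.Agent.R204.SpecA Crest.Agent.R231.FinDim315 Crest.Agent.R231.CutWx749
  Crest.Agent.R231.Moorex725 Crest.Agent.R231.CutMx725 Crest.Agent.R231.OmSpx725
  Crest.Agent.R231.CylQx373 Crest.Agent.R231.CutSuspx373 Crest.Agent.R231.SuspFamx373
  Crest.Agent.R231.CXx780

/-! ### the diagonal class -/

section diag

variable {S : Type} [TopologicalSpace S] {m : ℕ} (D : SphLike S m)

/-- the diagonal -/
def dg (S : Type) [TopologicalSpace S] : C(S, S × S) := ⟨fun x => (x, x), by fun_prop⟩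

theorem Hm_fst_dg (a : HS S) : Hm (fstC S S) (Hm (dg S) a) = a := by
  rw [← Hm_comp_apply]
  exact Hm_id a

theorem Hm_snd_dg (a : HS S) : Hm (sndC S S) (Hm (dg S) a) = a := by
  rw [← Hm_comp_apply]
  exact Hm_id a

/-- the slant product of the diagonal class -/
theorem sl_dg : sl D.φ (Hm (dg S) D.σ) = ptc D.s₀ := by
  set a := sl D.φ (Hm (dg S) D.σ) with ha
  have h0 : a ∈ hg S 0 := by
    have h : Hm (dg S) D.σ ∈ hg (S × S) (0 + m) := by
      rw [zero_add]; exact Hm_mem_hg (dg S) D.σ_mem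
    exact sl_mem D.φ_deg h
  have h1 : D.φ a = 0 := D.φ_deg 0 (by have := D.pos; omega) _ h0
  have h2 : a = ep a • ptc D.s₀ := by
    conv_lhs => rw [D.decomp a, h1, zero_smul, add_zero]
  have h3 : Hm (sndC S S) (Hm (dg S) D.σ) = ep a • D.σ := by
    rw [D.cx_decomp (Hm (dg S) D.σ), Hm_fst_dg, map_add, Hm_snd_cx, Hm_snd_cx, D.ep_σ, zero_smul,
      zero_add]
  rw [Hm_snd_dg] at h3
  have h4 : ep a = 1 := by
    have := congrArg D.φ h3
    rw [map_smul, D.φ_σ, smul_eq_mul, mul_one] at this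
    exact this.symm
  rw [h2, h4, one_smul]

theorem diag_σ : Hm (dg S) D.σ = cx D.σ (ptc D.s₀) + cx (ptc D.s₀) D.σ := by
  conv_lhs => rw [D.cx_decomp (Hm (dg S) D.σ), Hm_fst_dg, sl_dg]

variable {X Y : Type} [TopologicalSpace X] [TopologicalSpace Y]

/-- primitivity of the fundamental class of a sphere -/
theorem Hm_prodMk_σ (f : C(S, X)) (g : C(S, Y)) : Hm (f.prodMk g) D.σ =
    cx (Hm f D.σ) (ptc (g D.s₀)) + cx (ptc (f D.s₀)) (Hm g D.σ) := by
  have e : f.prodMk g = (f.prodMap g).comp (dg S) := rfl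
  rw [e, Hm_comp_apply, diag_σ, map_add, Hm_cx, Hm_cx, Hm_ptc, Hm_ptc]

/-- the slant product of a graph -/
theorem sl_graph (f : C(S, X)) :
    sl D.φ (Hm (f.prodMk (ContinuousMap.id S)) D.σ) = ptc (f D.s₀) := by
  rw [Hm_prodMk_σ, map_add, sl_cx, sl_cx, D.φ_ptc, zero_smul, zero_add, Hm_id, D.φ_σ, one_smul]

/-- the slant product of a family with constant second component -/
theorem sl_const (f : C(S, X)) (s : S) :
    sl D.φ (Hm (f.prodMk (ContinuousMap.const S s)) D.σ) = 0 := by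
  have e : f.prodMk (ContinuousMap.const S s) = (atR X s).comp f := rfl
  rw [e, Hm_comp_apply, ← cx_ptc, sl_cx, D.φ_ptc, zero_smul]

end diag

/-! ### the cut class of the suspension family -/

variable {M : Type} [PseudoMetricSpace M] {p : M}

/-- evaluation `QW U ∩ QW V → U ∩ V` -/
def evS (U V : Set M) (p : M) (t : ℝ≥0) :
    C((QW U p t ∩ QW V p t : Set (Qt p t)), (U ∩ V : Set M)) where
  toFun x := ⟨x.1.1.1 x.1.2, x.2⟩
  continuous_toFun := ((evQ p t).continuous.comp continuous_subtype_val).subtype_mk _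

/-- `(GG b, ev)` -/
def GE (b c : Tether p) (t : ℝ≥0) : C((QW c.V p t ∩ QW b.V p t : Set (Qt p t)),
    Om2T p (t + 2 * ell b) × (c.V ∩ b.V : Set M)) :=
  (GG b t inter_subset_right).prodMk (evS c.V b.V p t)

variable {b c : Tether p} (K : SuspData b c)

theorem evS_s1 : (evS c.V b.V p (ell b + ell c)).comp K.s1 = ContinuousMap.id _ := by
  refine ContinuousMap.ext fun z => Subtype.ext ?_
  change (vz b c z).1 b.L = z
  rw [vz_le z le_rfl, sub_self, (b.mem _ z.2.2).2.1 _ le_rfl]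

theorem evS_s0 (z0 : (c.V ∩ b.V : Set M)) : (evS c.V b.V p (ell b + ell c)).comp K.s0 =
    ContinuousMap.const _ (evS c.V b.V p (ell b + ell c) (K.s0 z0)) := by
  refine ContinuousMap.ext fun z => Subtype.ext ?_
  change (vz b c z).1 (b.L - K.m) = (vz b c z0).1 (b.L - K.m)
  rw [vz_le z (by linarith [K.m_nonneg]), vz_le z0 (by linarith [K.m_nonneg]), sub_sub_cancel,
    K.bw _ z.2.2, K.bw _ z0.2.2]

/-- **Q4d**: the slant product of `GE_* (cut (v_* σ))` is the class of a point -/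
theorem sl_cut_vz {d : ℕ} (D : SphLike (c.V ∩ b.V : Set M) d) (hp : p ∈ c.V)
    (hcov : ∀ y, y ∈ c.V ∨ y ∈ b.V) :
    sl D.φ (Hm (GE b c (ell b + ell c))
      ((cylQ c.isOpen b.isOpen hp hcov (ell b + ell c)).cut (Hm (vz b c) D.σ))) =
      ptc (GG b (ell b + ell c) inter_subset_right (K.s1 D.s₀)) := by
  rw [K.cut_vz hp hcov, map_add, map_add, ← Hm_comp_apply, ← Hm_comp_apply]
  have e1 : (GE b c (ell b + ell c)).comp K.s1 =
      ((GG b (ell b + ell c) inter_subset_right).comp K.s1).prodMk (ContinuousMap.id _) := by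
    rw [← evS_s1 K]; rfl
  have e0 : (GE b c (ell b + ell c)).comp K.s0 =
      ((GG b (ell b + ell c) inter_subset_right).comp K.s0).prodMk
        (ContinuousMap.const _ (evS c.V b.V p (ell b + ell c) (K.s0 D.s₀))) := by
    rw [← evS_s0 K]; rfl
  rw [e1, e0, sl_graph, sl_const, add_zero]
  rfl

end Crest.Agent.R231.DxPtx373
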