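import Crest.Agent.R231.SuspT_373
import Crest.Agent.R231.CX_780
import Crest.Agent.R231.If_P_797

/-!
# Row 231, block P, leaf Q4d (helper373): `D(x) = [point]` for 797's `CutData`

* `diag_σ : Δ_* σ = σ × pt + pt × σ` for 780's `SphLike`; `sl_graph : ((f, id)_* σ) / φ = [f s₀]`;
* `evS U V p t : QW U ∩ QW V → U ∩ V`, `GE b c t = (GG b, ev)`;
* `cylW W t`, `susp W : SuspData W.bT W.cT`;
* **`GE_cut_x`** : `(GG b, ev)_* (cut x) = [m] × σ`, `m = GG b (v z₀, ℓb)` an explicit point of `Om2T`.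
-/

set_option autoImplicit false

noncomputable section

open Function Topology NNReal

namespace Crest.Agent.R231.DxWx373

open Set Crest.Agent.R204 Crest.Agent.R204.SpecA Crest.Agent.R231.FinDim315 Crest.Agent.R231.CutWx749
  Crest.Agent.R231.Moorex725 Crest.Agent.R231.CutMx725 Crest.Agent.R231.OmSpx725
  Crest.Agent.R231.CylQx373 Crest.Agent.R231.CutSuspx373 Crest.Agent.R231.SuspTx373
  Crest.Agent.R231.CXx780

/-! ### the diagonal class -/

section diag

variable {S : Type} [TopologicalSpace S] {m : ℕ} (D : SphLike S m)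

/-- the diagonal -/
def dg (S : Type) [TopologicalSpace S] : C(S, S × S) := ⟨fun x => (x, x), by fun_prop⟩

theorem Hm_fst_dg (a : HS S) : Hm (fstC S S) (Hm (dg S) a) = a := by
  rw [← Hm_comp_apply]
  exact Hm_id a

theorem Hm_snd_dg (a : HS S) : Hm (sndC S S) (Hm (dg S) a) = a := by
  rw [← Hm_comp_apply]
  exact Hm_id a

/-- the slant product of the diagonal class -/
theorem sl_dg : sl D.φ (Hm (dg S) D.σ) = ptc D.s₀ := by
  set a := sl D.φ (Hm (dg S) D.σ) with ha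
  have h0 : a ∈ hg S 0 := by
    have h : Hm (dg S) D.σ ∈ hg (S × S) (0 + m) := by
      rw [zero_add]; exact Hm_mem_hg (dg S) D.σ_mem
    exact sl_mem D.φ_deg h
  have h1 : D.φ a = 0 := D.φ_deg 0 (by have := D.pos; omega) _ h0
  have h2 : a = ep a • ptc D.s₀ := by
    conv_lhs => rw [D.decomp a, h1, zero_smul, add_zero]
  have h3 : Hm (sndC S S) (Hm (dg S) D.σ) = ep a • D.σ := by
    rw [D.cx_decomp (Hm (dg S) D.σ), Hm_fst_dg, map_add, Hm_snd_cx, Hm_snd_cx, D.ep_σ, zero_smul,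
      zero_add]
  rw [Hm_snd_dg] at h3
  have h4 : ep a = 1 := by
    have := congrArg D.φ h3
    rw [map_smul, D.φ_σ, smul_eq_mul, mul_one] at this
    exact this.symm
  rw [h2, h4, one_smul]

theorem diag_σ : Hm (dg S) D.σ = cx D.σ (ptc D.s₀) + cx (ptc D.s₀) D.σ := by
  conv_lhs => rw [D.cx_decomp (Hm (dg S) D.σ), Hm_fst_dg, sl_dg]

variable {X Y : Type} [TopologicalSpace X] [TopologicalSpace Y]

/-- primitivity of the fundamental class of a sphere -/
theorem Hm_prodMk_σ (f : C(S, X)) (g : C(S, Y)) : Hm (f.prodMk g) D.σ =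
    cx (Hm f D.σ) (ptc (g D.s₀)) + cx (ptc (f D.s₀)) (Hm g D.σ) := by
  have e : f.prodMk g = (f.prodMap g).comp (dg S) := rfl
  rw [e, Hm_comp_apply, diag_σ, map_add, Hm_cx, Hm_cx, Hm_ptc, Hm_ptc]

/-- the slant product of a graph -/
theorem sl_graph (f : C(S, X)) :
    sl D.φ (Hm (f.prodMk (ContinuousMap.id S)) D.σ) = ptc (f D.s₀) := by
  rw [Hm_prodMk_σ, map_add, sl_cx, sl_cx, D.φ_ptc, zero_smul, zero_add, Hm_id, D.φ_σ, one_smul]

/-- the slant product of a family with constant second component -/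
theorem sl_const (f : C(S, X)) (s : S) :
    sl D.φ (Hm (f.prodMk (ContinuousMap.const S s)) D.σ) = 0 := by
  have e : f.prodMk (ContinuousMap.const S s) = (atR X s).comp f := rfl
  rw [e, Hm_comp_apply, ← cx_ptc, sl_cx, D.φ_ptc, zero_smul]

end diag

/-! ### the cut class of the suspension family -/

section general

variable {M : Type} [PseudoMetricSpace M] {p : M}

/-- evaluation `QW U ∩ QW V → U ∩ V` -/
def evS (U V : Set M) (p : M) (t : ℝ≥0) :
    C((QW U p t ∩ QW V p t : Set (Qt p t)), (U ∩ V : Set M)) where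
  toFun x := ⟨x.1.1.1 x.1.2, x.2⟩
  continuous_toFun := ((evQ p t).continuous.comp continuous_subtype_val).subtype_mk _

/-- `(GG b, ev)` -/
def GE (b c : Tether p) (t : ℝ≥0) : C((QW c.V p t ∩ QW b.V p t : Set (Qt p t)),
    Om2T p (t + 2 * ell b) × (c.V ∩ b.V : Set M)) :=
  (GG b t inter_subset_right).prodMk (evS c.V b.V p t)

/-- the first component of `GE_*` of a cut class vanishes -/
theorem fst_GE_cut {b c : Tether p} {t : ℝ≥0} {Z : Type} [TopologicalSpace Z]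
    (C : Cyl Z (QW c.V p t) (QW b.V p t)) (y : HS Z) :
    Hm (fstC _ _) (Hm (GE b c t) (C.cut y)) = 0 := by
  have e : (fstC (Om2T p (t + 2 * ell b)) (c.V ∩ b.V : Set M)).comp (GE b c t) =
      (GG b t (R := QW b.V p t) subset_rfl).comp (ir (QW c.V p t) (QW b.V p t)) := rfl
  rw [← Hm_comp_apply, e, Hm_comp_apply, C.cut_r, map_zero]

variable {b c : Tether p} (K : SuspData b c) {t : ℝ≥0} (ht : b.L + c.L ≤ t)

theorem evS_s1 : (evS c.V b.V p t).comp (K.s1 ht) = ContinuousMap.id _ := by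
  refine ContinuousMap.ext fun z => Subtype.ext ?_
  change (vz b c ht z).1 b.L = z
  rw [vz_le ht z le_rfl, sub_self, (b.mem _ z.2.2).2.1 _ le_rfl]

theorem evS_s0 (z0 : (c.V ∩ b.V : Set M)) : (evS c.V b.V p t).comp (K.s0 ht) =
    ContinuousMap.const _ (evS c.V b.V p t (K.s0 ht z0)) := by
  refine ContinuousMap.ext fun z => Subtype.ext ?_
  change (vz b c ht z).1 (b.L - K.m) = (vz b c ht z0).1 (b.L - K.m)
  rw [vz_le ht z (by linarith [K.m_nonneg]), vz_le ht z0 (by linarith [K.m_nonneg]), sub_sub_cancel,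
    K.bw _ z.2.2, K.bw _ z0.2.2]

/-- the slant product of `GE_* (cut (v_* σ))` is the class of a point -/
theorem sl_cut_vz {d : ℕ} (D : SphLike (c.V ∩ b.V : Set M) d) (hp : p ∈ c.V)
    (hcov : ∀ y, y ∈ c.V ∨ y ∈ b.V) :
    sl D.φ (Hm (GE b c t)
      ((cylQ c.isOpen b.isOpen hp hcov t).cut (Hm (vz b c ht) D.σ))) =
      ptc (GG b t inter_subset_right (K.s1 ht D.s₀)) := by
  rw [K.cut_vz ht hp hcov, map_add, map_add, ← Hm_comp_apply, ← Hm_comp_apply]
  have e1 : (GE b c t).comp (K.s1 ht) =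
      ((GG b t inter_subset_right).comp (K.s1 ht)).prodMk (ContinuousMap.id _) := by
    rw [← evS_s1 K ht]; rfl
  have e0 : (GE b c t).comp (K.s0 ht) =
      ((GG b t inter_subset_right).comp (K.s0 ht)).prodMk
        (ContinuousMap.const _ (evS c.V b.V p t (K.s0 ht D.s₀))) := by
    rw [← evS_s0 K ht]; rfl
  rw [e1, e0, sl_graph, sl_const, add_zero]
  rfl

/-- **`GE_* (cut (v_* σ)) = [m] × σ`** -/
theorem GE_cut_vz {d : ℕ} (D : SphLike (c.V ∩ b.V : Set M) d) (hp : p ∈ c.V)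
    (hcov : ∀ y, y ∈ c.V ∨ y ∈ b.V) :
    Hm (GE b c t) ((cylQ c.isOpen b.isOpen hp hcov t).cut (Hm (vz b c ht) D.σ)) =
      cx (ptc (GG b t inter_subset_right (K.s1 ht D.s₀))) D.σ := by
  rw [← sl_cut_vz K ht D hp hcov]
  exact D.eq_cx_of_fst (fst_GE_cut _ _)

end general

/-! ### 797's `CutData` -/

section W

open Crest.Agent.R231.IfPx797

variable {M : Type} [MetricSpace M] {p : M} {n : ℕ} (W : CutData M p n)

theorem cov (y : M) : y ∈ W.cT.V ∨ y ∈ W.bT.V := by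
  have : y ∈ W.cT.V ∪ W.bT.V := by rw [W.cover]; trivial
  exact this

/-- the cylinder of `CutData` -/
def cylW (t : ℝ≥0) : Cyl (OmT p t) (QW W.cT.V p t) (QW W.bT.V p t) :=
  cylQ W.cT.isOpen W.bT.isOpen W.hp (cov W) t

/-- crossing time of `e` -/
def ct : ℝ := min (max W.s0 0) W.Le

theorem ct_nonneg : 0 ≤ ct W := le_min (le_max_right _ _) W.hLe
theorem ct_le : ct W ≤ W.Le := min_le_right _ _

theorem eV (s : ℝ) (hs : s ≤ ct W) : W.e s ∈ W.bT.V := by
  have h1 : s ≤ max W.s0 0 := hs.trans (min_le_left _ _)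
  rcases le_max_iff.1 h1 with h | h
  · exact W.e_V s h
  · rw [W.e_mem.2.1 s h]; exact W.hq

theorem eU (s : ℝ) (hs : ct W ≤ s) : W.e s ∈ W.cT.V := by
  rcases min_le_iff.1 hs with h | h
  · exact W.e_U s ((le_max_left _ _).trans h)
  · rw [W.e_mem.2.2 s h]; exact W.hp

/-- the data of the suspension family -/
def susp : SuspData W.bT W.cT where
  m := W.La + ct W
  m_nonneg := add_nonneg W.hLa (ct_nonneg W)
  m_le := by linarith [W.hLL, ct_le W]
  bV z hz s hs := by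
    rw [W.b_eq z hz]
    rcases le_or_gt s W.La with h | h
    · rw [cc_of_le _ _ h]; exact W.a_stay z hz s
    · rw [cc_of_lt _ _ h]; exact eV W _ (by linarith)
  bU z hz s hs := by
    rw [W.b_eq z hz]
    have hab : W.a z W.La = W.e 0 := by
      rw [(W.a_mem z hz).2.2 _ le_rfl, W.e_mem.2.1 _ le_rfl]
    rw [cc_of_ge hab (by linarith [ct_nonneg W])]
    exact eU W _ (by linarith)
  cU := W.c_stay
  w₀ := W.e (ct W)
  bw z hz := by
    rw [W.b_eq z hz]
    have hab : W.a z W.La = W.e 0 := by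
      rw [(W.a_mem z hz).2.2 _ le_rfl, W.e_mem.2.1 _ le_rfl]
    rw [cc_of_ge hab (by linarith [ct_nonneg W]), add_sub_cancel_left]

theorem bc_le : W.bT.L + W.cT.L ≤ ((W.ℓ + W.ℓ : ℝ≥0) : ℝ) := by
  rw [W.hL]; exact le_rfl

theorem vC_eq : W.vC = vz W.bT W.cT (bc_le W) := rfl

/-- the point `GG b (v z, ℓb)` of `Om2T`, `z ∈ U ∩ V` -/
def mpt (z : (W.cT.V ∩ W.bT.V : Set M)) : Om2T p (W.ℓ + W.ℓ + 2 * W.ℓ) :=
  GG W.bT (W.ℓ + W.ℓ) inter_subset_right ((susp W).s1 (bc_le W) z)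

/-- **Q4d**: `(GG b, ev)_* (cut (v_* σ)) = [m] × σ` -/
theorem GE_cut_x {d : ℕ} (D : SphLike (W.cT.V ∩ W.bT.V : Set M) d) :
    Hm (GE W.bT W.cT (W.ℓ + W.ℓ)) ((cylW W (W.ℓ + W.ℓ)).cut (Hm W.vC D.σ)) =
      CXx780.cx (ptc (mpt W D.s₀)) D.σ :=
  GE_cut_vz (susp W) (bc_le W) D W.hp (cov W)

end W

end Crest.Agent.R231.DxWx373
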