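import Crest.Agent.R231.TSub_569

/-!
# Row 231 (S0357): the concrete mixed complex of the free loop space, part A (helper895)

`M` a metric space (in `Type`), `Lp M = C(UnitAddCircle, M)`, `X M t` = `t`-Lipschitz loops.

On top of TSub_569 (`LA M`, `WL M`, `TL M`, `GSL M V`, `FL M t = GSL M (CS (X M t))`):
* `mix M : IfAx978.Mix := (TL M).toMix`, chain groups `C j = N.gr F2 (Sing (Lp M)) j ⊓ WL M`
* `tauC`, `psiC` : reversal and doubling on chains
* `mem_Zc_gs`, `mem_Bd_gs` : bridge `Zc / Bd` ↔ `Zp / Bp` of Pair_877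
-/

set_option autoImplicit false
set_option linter.unusedSectionVars false

noncomputable section

open Function Topology
open Crest.Agent.R204

namespace Crest.Agent.R231.Instx895

open SingAct265 EZ271 EZ847 Pairx877 GLugx576 TActx569 TCx569 IfAx978 Gr334

variable {M : Type} [MetricSpace M]

/-! ## the rotation action -/

theorem ev_LA {n : ℕ} (s : ST.S n) (σ : (SS.Sing (Lp M)).S n) (y : stdSimplex ℝ (Fin (n + 1))) :
    ev ((LA M).a.app n (s, σ)) y = rot (ev s y) (ev σ y) := rfl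

/-- subsets invariant under rotation -/
def RotInv (Y : Set (Lp M)) : Prop := ∀ (a : UnitAddCircle) (γ : Lp M), γ ∈ Y → rot a γ ∈ Y

theorem rotInv_X (t : ℝ) : RotInv (X M t) := fun a _ h => rot_mem h a

/-- the chain operators of the circle preserve the chains of an invariant subset -/
theorem op_mem_CS {Y : Set (Lp M)} (hY : RotInv Y) (c : N F2 ST) :
    ∀ z ∈ CS Y, (LA M).op c z ∈ CS Y := TAct.op_mem_CS (fun v x hx => hY v x hx) c

theorem gN_mem_CS {Y : Set (Lp M)} (hY : RotInv Y) : ∀ z ∈ CS Y, (LA M).gN z ∈ CS Y := by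
  intro z hz
  rw [TAct.gN_eq]
  exact op_mem_CS hY _ z hz

theorem hN_mem_CS {Y : Set (Lp M)} (hY : RotInv Y) : ∀ z ∈ CS Y, (LA M).hN z ∈ CS Y :=
  op_mem_CS hY _

/-- `Δ = (1 + g) h` on all chains -/
def DelN (M : Type) [MetricSpace M] : CE (Lp M) →ₗ[F2] CE (Lp M) :=
  (LinearMap.id + (LA M).gN) ∘ₗ (LA M).hN

theorem DelN_apply (z : CE (Lp M)) :
    DelN M z = (LA M).hN z + (LA M).gN ((LA M).hN z) := rfl

theorem add_self (z : CE (Lp M)) : z + z = 0 := TCx569.TC.add_self z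

theorem DelN_mem_CS {Y : Set (Lp M)} (hY : RotInv Y) : ∀ z ∈ CS Y, DelN M z ∈ CS Y := fun z hz =>
  Submodule.add_mem _ (hN_mem_CS hY z hz) (gN_mem_CS hY _ (hN_mem_CS hY z hz))

theorem DelN_mem_gr {n : ℕ} {z : CE (Lp M)} (hz : z ∈ N.gr F2 (SS.Sing (Lp M)) n) :
    DelN M z ∈ N.gr F2 (SS.Sing (Lp M)) (n + 1) :=
  Submodule.add_mem _ ((LA M).hN_mem_gr hz)
    ((LA M).gN_mem_gr ((LA M).hN_mem_gr hz))

theorem DelN_DelN (z : CE (Lp M)) : DelN M (DelN M z) = 0 := by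
  have h1 : (LA M).hN (DelN M z) = 0 := by
    rw [DelN_apply, map_add, TAct.hN_gN, TAct.hN_hN, map_zero, add_zero]
  rw [DelN_apply (DelN M z), h1, map_zero, add_zero]

theorem bd_DelN (z : CE (Lp M)) : bdE (Lp M) (DelN M z) = DelN M (bdE (Lp M) z) := by
  have h1 : N.bd F2 _ ((LA M).hN z) =
      z + (LA M).gN z + (LA M).hN (N.bd F2 _ z) := by
    rw [← (LA M).bd_hN z, add_assoc, add_self, add_zero]
  have h2 : N.bd F2 _ ((LA M).gN ((LA M).hN z)) =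
      (LA M).gN z + z + (LA M).gN ((LA M).hN (N.bd F2 _ z)) := by
    rw [TAct.bd_gN, h1, map_add, map_add, TAct.gN_gN]
  rw [DelN_apply, DelN_apply, map_add]
  change N.bd F2 _ _ + N.bd F2 _ _ = _
  rw [h1, h2]
  have h3 : z + (LA M).gN z + (LA M).hN (N.bd F2 _ z) +
      ((LA M).gN z + z + (LA M).gN ((LA M).hN (N.bd F2 _ z))) =
      (z + z) + ((LA M).gN z + (LA M).gN z) + ((LA M).hN (N.bd F2 _ z) +
      (LA M).gN ((LA M).hN (N.bd F2 _ z))) := by abel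
  rw [h3, add_self, add_self, zero_add, zero_add]

/-! ## reversal and doubling -/

/-- reversal on chains -/
def tauN (M : Type) [MetricSpace M] : CE (Lp M) →ₗ[F2] CE (Lp M) := N.map F2 (SS.SingMap rev)
/-- doubling on chains -/
def psiN (M : Type) [MetricSpace M] : CE (Lp M) →ₗ[F2] CE (Lp M) := N.map F2 (SS.SingMap dbl)

theorem tauN_tauN (z : CE (Lp M)) : tauN M (tauN M z) = z := by
  unfold tauN
  rw [map_map]
  have h : (SS.SingMap (rev (M := M))).comp (SS.SingMap rev) = SS.Hom.id _ :=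
    SS.Hom.ext (funext fun n => funext fun σ => sing_ext fun y => rev_rev (ev σ y))
  rw [h, map_idHom]

theorem bd_tauN (z : CE (Lp M)) : bdE (Lp M) (tauN M z) = tauN M (bdE (Lp M) z) :=
  (map_bd' F2 _ _).symm

theorem bd_psiN (z : CE (Lp M)) : bdE (Lp M) (psiN M z) = psiN M (bdE (Lp M) z) :=
  (map_bd' F2 _ _).symm

theorem SingMap_mem_CS {E E' : Type} [TopologicalSpace E] [TopologicalSpace E'] {Y : Set E}
    {Y' : Set E'} (f : C(E, E')) (h : ∀ y ∈ Y, f y ∈ Y') :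
    ∀ z ∈ CS Y, N.map F2 (SS.SingMap f) z ∈ CS Y' := by
  refine map_mem_of_CS fun n σ hσ => ?_
  rw [N.map_sx]
  exact sx_mem_CS fun t => h _ (hσ t)

theorem tauN_mem_CS {Y Y' : Set (Lp M)} (h : ∀ y ∈ Y, rev y ∈ Y') :
    ∀ z ∈ CS Y, tauN M z ∈ CS Y' := SingMap_mem_CS rev h

theorem psiN_mem_CS {Y Y' : Set (Lp M)} (h : ∀ y ∈ Y, dbl y ∈ Y') :
    ∀ z ∈ CS Y, psiN M z ∈ CS Y' := SingMap_mem_CS dbl h

theorem dbl_rot (a : UnitAddCircle) (γ : Lp M) : rot a (dbl γ) = dbl (rot (2 • a) γ) := by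
  ext x
  simp only [rot_apply, itr_apply, smul_add]

/-- doubling of the circle -/
def two : SS.Hom ST ST := SS.SingMap ⟨fun a => 2 • a, by fun_prop⟩

/-- `c (ψ z) = ψ ((2c) z)` -/
theorem op_psiN (c : N F2 ST) (z : CE (Lp M)) :
    (LA M).op c (psiN M z) = psiN M ((LA M).op (N.map F2 two c) z) := by
  unfold psiN
  rw [TAct.op_apply, TAct.op_apply]
  have h1 := map_cross F2 (SS.Hom.id ST) (SS.SingMap (dbl (M := M))) c z
  rw [map_idHom] at h1
  have h2 := map_cross F2 two (SS.Hom.id (SS.Sing (Lp M))) c z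
  rw [map_idHom] at h2
  rw [← h1, ← h2, map_map, map_map, map_map]
  have h3 : (LA M).a.comp (SS.prodMap (SS.Hom.id ST) (SS.SingMap dbl)) =
      (SS.SingMap dbl).comp ((LA M).a.comp (SS.prodMap two (SS.Hom.id (SS.Sing (Lp M))))) := by
    refine SS.Hom.ext (funext fun n => funext fun x => sing_ext fun y => ?_)
    exact dbl_rot (ev x.1 y) (ev x.2 y)
  rw [h3]
  rfl

theorem gN_psiN (z : CE (Lp M)) : (LA M).gN (psiN M z) = psiN M z := by
  rw [TAct.gN_eq, op_psiN]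
  have h : N.map F2 two (N.sx F2 (vx ((1 / 2 : ℝ) : UnitAddCircle))) = N.sx F2 (vx 0) := by
    rw [N.map_sx]
    congr 1
    refine sing_ext fun y => ?_
    change 2 • (((1 / 2 : ℝ)) : UnitAddCircle) = 0
    rw [two_nsmul]
    exact TAct.half_add_half
  rw [h, TAct.op_vx, TAct.rot_zero, map_idHom]

/-- `Δ ψ = 0` -/
theorem DelN_psiN (z : CE (Lp M)) : DelN M (psiN M z) = 0 := by
  have h : (LA M).hN (psiN M z) = psiN M ((LA M).op (N.map F2 two half) z) :=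
    op_psiN half z
  rw [DelN_apply, h, gN_psiN, add_self]

/-! ## Lipschitz chains -/

theorem CS_X_mono {s t : ℝ} (h : s ≤ t) : CS (X M s) ≤ CS (X M t) := CS_mono (X_mono h)

theorem mem_CL {z : CE (Lp M)} : z ∈ WL M ↔ ∃ t : ℝ, z ∈ CS (X M t) := mem_WL M

theorem CS_le_CL (t : ℝ) : CS (X M t) ≤ WL M := le_iSup (fun t : ℝ => CS (X M t)) t

/-- a subset contained in some `X M t` -/
theorem CS_le_CL' {Y : Set (Lp M)} {t : ℝ} (h : Y ⊆ X M t) : CS Y ≤ WL M :=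
  (CS_mono h).trans (CS_le_CL t)

theorem bd_mem_CL {z : CE (Lp M)} (hz : z ∈ WL M) : bdE (Lp M) z ∈ WL M := by
  obtain ⟨t, ht⟩ := mem_CL.1 hz
  exact CS_le_CL t (bd_mem_CS z ht)

theorem DelN_mem_CL {z : CE (Lp M)} (hz : z ∈ WL M) : DelN M z ∈ WL M := by
  obtain ⟨t, ht⟩ := mem_CL.1 hz
  exact CS_le_CL t (DelN_mem_CS (rotInv_X t) z ht)

theorem tauN_mem_X {t : ℝ} {z : CE (Lp M)} (hz : z ∈ CS (X M t)) : tauN M z ∈ CS (X M t) :=
  tauN_mem_CS (fun _ h => rev_mem h) z hz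

theorem psiN_mem_X {t : ℝ} {z : CE (Lp M)} (hz : z ∈ CS (X M t)) : psiN M z ∈ CS (X M (2 * t)) :=
  psiN_mem_CS (fun _ h => by exact_mod_cast itr_mem h 2) z hz

theorem tauN_mem_CL {z : CE (Lp M)} (hz : z ∈ WL M) : tauN M z ∈ WL M := by
  obtain ⟨t, ht⟩ := mem_CL.1 hz
  exact CS_le_CL t (tauN_mem_X ht)

theorem psiN_mem_CL {z : CE (Lp M)} (hz : z ∈ WL M) : psiN M z ∈ WL M := by
  obtain ⟨t, ht⟩ := mem_CL.1 hz
  exact CS_le_CL _ (psiN_mem_X ht)

/-! ### homogeneity -/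

/-- submodules of chains stable under the degree projections -/
def Homog (P : Submodule F2 (CE (Lp M))) : Prop := ∀ n, ∀ z ∈ P, prN F2 (SS.Sing (Lp M)) n z ∈ P

theorem homog_CS (Y : Set (Lp M)) : Homog (CS Y) := by
  intro n
  refine map_mem_of_CS fun m σ hσ => ?_
  rw [prN_sx]
  split_ifs with h
  · exact sx_mem_CS hσ
  · exact Submodule.zero_mem _

theorem homog_CL : Homog (WL M) := by
  intro n z hz
  obtain ⟨t, ht⟩ := mem_CL.1 hz
  exact CS_le_CL t (homog_CS _ n z ht)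

theorem Homog.sup {P Q : Submodule F2 (CE (Lp M))} (hP : Homog P) (hQ : Homog Q) :
    Homog (P ⊔ Q) := by
  intro n z hz
  obtain ⟨a, ha, b, hb, rfl⟩ := Submodule.mem_sup.1 hz
  rw [map_add]
  exact Submodule.add_mem_sup (hP n a ha) (hQ n b hb)

theorem Homog.inf {P Q : Submodule F2 (CE (Lp M))} (hP : Homog P) (hQ : Homog Q) :
    Homog (P ⊓ Q) := fun n z hz => ⟨hP n z hz.1, hQ n z hz.2⟩

theorem Homog.map_bd {P : Submodule F2 (CE (Lp M))} (hP : Homog P) :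
    Homog (P.map (bdE (Lp M))) := by
  rintro n _ ⟨z, hz, rfl⟩
  rw [prN_bd]
  exact ⟨_, hP _ z hz, rfl⟩

theorem Homog.comap_bd {P : Submodule F2 (CE (Lp M))} (hP : Homog P) :
    Homog (P.comap (bdE (Lp M))) := by
  intro n z hz
  rw [Submodule.mem_comap]
  rcases n with _ | n
  · have h0 : bdE (Lp M) (prN F2 (SS.Sing (Lp M)) 0 z) = 0 := bd_gr_zero (prN_mem 0 z)
    rw [h0]
    exact Submodule.zero_mem _
  · have h1 := prN_bd n z
    rw [← h1]
    exact hP n _ hz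

theorem homog_top : Homog (⊤ : Submodule F2 (CE (Lp M))) := fun _ _ _ => trivial

theorem homog_bot : Homog (⊥ : Submodule F2 (CE (Lp M))) := by
  intro n z hz
  rw [(Submodule.mem_bot F2).1 hz, map_zero]
  exact Submodule.zero_mem _

theorem homog_Bp (X A : Set (Lp M)) : Homog (Bp X A) := (homog_CS A).sup (homog_CS X).map_bd
theorem homog_Zp (X A : Set (Lp M)) : Homog (Zp X A) := (homog_CS X).inf (homog_CS A).comap_bd

/-! ## the mixed complex -/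

/-- **the mixed complex of Lipschitz loops** -/
abbrev mix (M : Type) [MetricSpace M] : Mix := (TL M).toMix

/-- underlying chain -/
def vl (j : ℕ) : (mix M).C j →ₗ[ZMod 2] CE (Lp M) := (LA M).sval (stb_WL M) j

theorem vl_inj (j : ℕ) : Injective (vl (M := M) j) := (LA M).sval_inj (stb_WL M) j
theorem vl_mem_gr {j : ℕ} (x : (mix M).C j) : vl j x ∈ N.gr F2 (SS.Sing (Lp M)) j :=
  (LA M).sval_mem (stb_WL M) x
theorem vl_mem_CL {j : ℕ} (x : (mix M).C j) : vl j x ∈ WL M := (LA M).sval_mem' (stb_WL M) x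

/-- a Lipschitz chain of degree `j` as an element of the mixed complex -/
def mk {j : ℕ} (z : CE (Lp M)) (h1 : z ∈ N.gr F2 (SS.Sing (Lp M)) j) (h2 : z ∈ WL M) :
    (mix M).C j := (LA M).smk (stb_WL M) z h1 h2

@[simp] theorem vl_mk {j : ℕ} (z : CE (Lp M)) (h1 : z ∈ N.gr F2 (SS.Sing (Lp M)) j)
    (h2 : z ∈ WL M) : vl j (mk z h1 h2) = z := rfl

@[simp] theorem vl_d (j : ℕ) (x : (mix M).C (j + 1)) :
    vl j ((mix M).d j x) = bdE (Lp M) (vl (j + 1) x) := rfl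
@[simp] theorem vl_De (j : ℕ) (x : (mix M).C j) :
    vl (j + 1) ((mix M).De j x) = DelN M (vl j x) := rfl

/-- operators on the mixed complex from operators on the total chain group -/
def opC {i j : ℕ} (f : CE (Lp M) →ₗ[F2] CE (Lp M))
    (h : ∀ x ∈ N.gr F2 (SS.Sing (Lp M)) i ⊓ WL M, f x ∈ N.gr F2 (SS.Sing (Lp M)) j ⊓ WL M) :
    (mix M).C i →ₗ[ZMod 2] (mix M).C j := f.restrict h

@[simp] theorem vl_opC {i j : ℕ} (f : CE (Lp M) →ₗ[F2] CE (Lp M))
    (h : ∀ x ∈ N.gr F2 (SS.Sing (Lp M)) i ⊓ WL M, f x ∈ N.gr F2 (SS.Sing (Lp M)) j ⊓ WL M)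
    (x : (mix M).C i) : vl j (opC f h x) = f (vl i x) := rfl

/-- reversal -/
def tauC (M : Type) [MetricSpace M] (j : ℕ) : (mix M).C j →ₗ[ZMod 2] (mix M).C j :=
  opC (tauN M) fun _ hx => ⟨map_mem_gr _ hx.1, tauN_mem_CL hx.2⟩

/-- doubling -/
def psiC (M : Type) [MetricSpace M] (j : ℕ) : (mix M).C j →ₗ[ZMod 2] (mix M).C j :=
  opC (psiN M) fun _ hx => ⟨map_mem_gr _ hx.1, psiN_mem_CL hx.2⟩

@[simp] theorem vl_tau (j : ℕ) (x : (mix M).C j) : vl j (tauC M j x) = tauN M (vl j x) := rfl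
@[simp] theorem vl_psi (j : ℕ) (x : (mix M).C j) : vl j (psiC M j x) = psiN M (vl j x) := rfl

/-- `GSL` with the type `GS (mix M)` -/
abbrev gs (P : Submodule F2 (CE (Lp M))) : GS (mix M) := GSL M P

/-- chains of `X M t` (`FL` with the type `GS (mix M)`) -/
abbrev FF (M : Type) [MetricSpace M] (t : ℝ) : GS (mix M) := FL M t

theorem mem_gs {P : Submodule F2 (CE (Lp M))} {j : ℕ} {x : (mix M).C j} :
    x ∈ gs P j ↔ vl j x ∈ P := Iff.rfl

theorem gs_mono {P Q : Submodule F2 (CE (Lp M))} (h : P ≤ Q) (j : ℕ) : gs P j ≤ gs Q j :=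
  fun _ hx => h hx

theorem gs_WL : gs (WL M) = (⊤ : GS (mix M)) := by
  funext j
  refine eq_top_iff.2 fun x _ => ?_
  exact vl_mem_CL x

theorem mem_FF {t : ℝ} {j : ℕ} {x : (mix M).C j} :
    x ∈ FF M t j ↔ vl j x ∈ CS (X M t) := Iff.rfl

/-! ### the bridge -/

theorem mem_Zc_gs {P Q : Submodule F2 (CE (Lp M))} {j : ℕ} {x : (mix M).C j} :
    x ∈ Zc (gs P) (gs Q) j ↔ vl j x ∈ Q ⊓ P.comap (bdE (Lp M)) := by
  rcases j with _ | j
  · constructor
    · intro h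
      refine ⟨h, ?_⟩
      have h0 : bdE (Lp M) (vl 0 x) = 0 := bd_gr_zero (vl_mem_gr x)
      change bdE (Lp M) (vl 0 x) ∈ P
      rw [h0]
      exact Submodule.zero_mem _
    · intro h; exact h.1
  · rfl

theorem mem_Bd_gs {P Q : Submodule F2 (CE (Lp M))} (hP : Homog P) (hQ : Homog Q) (hQL : Q ≤ WL M)
    {j : ℕ} {x : (mix M).C j} :
    x ∈ Bd (gs P) (gs Q) j ↔ vl j x ∈ P ⊔ Q.map (bdE (Lp M)) := by
  constructor
  · intro h
    obtain ⟨b, ⟨w, hw, rfl⟩, a, ha, rfl⟩ := Submodule.mem_sup.1 h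
    rw [map_add]
    exact Submodule.add_mem _ (Submodule.mem_sup_right ⟨_, hw, rfl⟩) (Submodule.mem_sup_left ha)
  · intro h
    obtain ⟨a, ha, b, ⟨w, hw, rfl⟩, h⟩ := Submodule.mem_sup.1 h
    have e : vl j x = prN F2 _ j a + bdE (Lp M) (prN F2 _ (j + 1) w) := by
      have h1 := congrArg (prN F2 (SS.Sing (Lp M)) j) h
      rw [map_add, prN_bd, prN_of_mem (vl_mem_gr x)] at h1
      exact h1.symm
    have hw' : prN F2 (SS.Sing (Lp M)) (j + 1) w ∈ Q := hQ _ _ hw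
    have e2 : prN F2 (SS.Sing (Lp M)) j a = vl j x - bdE (Lp M) (prN F2 _ (j + 1) w) := by
      rw [e, add_sub_cancel_right]
    have haL : prN F2 (SS.Sing (Lp M)) j a ∈ WL M := by
      rw [e2]
      exact Submodule.sub_mem _ (vl_mem_CL x) (bd_mem_CL (hQL hw'))
    refine Submodule.mem_sup.2 ⟨(mix M).d j (mk _ (prN_mem (j + 1) w) (hQL hw')),
      ⟨mk _ (prN_mem (j + 1) w) (hQL hw'), hw', rfl⟩, mk _ (prN_mem j a) haL, hP _ _ ha, ?_⟩
    refine vl_inj j ?_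
    rw [map_add, vl_d, vl_mk, vl_mk, e, add_comm]

theorem gs_top_eq : (⊤ : GS (mix M)) = gs (WL M) := gs_WL.symm

/-- relative cycles of pairs of subsets -/
theorem mem_Zc_CS {A B : Set (Lp M)} {j : ℕ} {x : (mix M).C j} :
    x ∈ Zc (gs (CS A)) (gs (CS B)) j ↔ vl j x ∈ Zp B A := mem_Zc_gs

/-- relative boundaries of pairs of subsets -/
theorem mem_Bd_CS {A B : Set (Lp M)} {t : ℝ} (hB : B ⊆ X M t) {j : ℕ} {x : (mix M).C j} :
    x ∈ Bd (gs (CS A)) (gs (CS B)) j ↔ vl j x ∈ Bp B A :=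
  mem_Bd_gs (homog_CS A) (homog_CS B) (CS_le_CL' hB)

theorem mem_Zc_FF {a b : ℝ} {j : ℕ} {x : (mix M).C j} :
    x ∈ Zc (FF M a) (FF M b) j ↔ vl j x ∈ Zp (X M b) (X M a) := mem_Zc_gs

theorem mem_Bd_FF {a b : ℝ} {j : ℕ} {x : (mix M).C j} :
    x ∈ Bd (FF M a) (FF M b) j ↔ vl j x ∈ Bp (X M b) (X M a) := mem_Bd_CS subset_rfl

theorem mem_Zc_top {a : ℝ} {j : ℕ} {x : (mix M).C j} :
    x ∈ Zc (FF M a) ⊤ j ↔ bdE (Lp M) (vl j x) ∈ CS (X M a) := by
  rw [gs_top_eq, mem_Zc_gs]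
  exact ⟨fun h => h.2, fun h => ⟨vl_mem_CL x, h⟩⟩

theorem mem_Bd_top {a : ℝ} {j : ℕ} {x : (mix M).C j} :
    x ∈ Bd (FF M a) ⊤ j ↔ ∃ t : ℝ, vl j x ∈ Bp (X M t) (X M a) := by
  rw [gs_top_eq, mem_Bd_gs (homog_CS _) homog_CL le_rfl]
  constructor
  · intro h
    obtain ⟨a', ha, b, ⟨w, hw, rfl⟩, h⟩ := Submodule.mem_sup.1 h
    obtain ⟨t, ht⟩ := mem_CL.1 hw
    refine ⟨t, ?_⟩
    rw [← h]
    exact Submodule.add_mem _ (Submodule.mem_sup_left ha) (Submodule.mem_sup_right ⟨w, ht, rfl⟩)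
  · rintro ⟨t, h⟩
    have h2 : Bp (X M t) (X M a) ≤ CS (X M a) ⊔ (WL M).map (bdE (Lp M)) :=
      sup_le_sup_left (Submodule.map_mono (CS_le_CL t)) _
    exact h2 h

/-! ### stability -/

theorem stab_gs {Y : Set (Lp M)} (hY : RotInv Y) : Stab (gs (CS Y)) :=
  ⟨fun _ _ hx => bd_mem_CS _ hx, fun _ _ hx => DelN_mem_CS hY _ hx⟩

theorem stab_FF (t : ℝ) : Stab (FF M t) := stab_gs (rotInv_X t)

theorem FF_tau (t : ℝ) (j : ℕ) (x : (mix M).C j) (h : x ∈ FF M t j) : tauC M j x ∈ FF M t j :=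
  tauN_mem_X h

theorem FF_psi (t : ℝ) (j : ℕ) (x : (mix M).C j) (h : x ∈ FF M t j) :
    psiC M j x ∈ FF M (2 * t) j := psiN_mem_X h

theorem tau_tauC (j : ℕ) (x : (mix M).C j) : tauC M j (tauC M j x) = x :=
  vl_inj j (tauN_tauN _)

theorem d_tauC (j : ℕ) (x : (mix M).C (j + 1)) :
    (mix M).d j (tauC M (j + 1) x) = tauC M j ((mix M).d j x) := vl_inj j (bd_tauN _)

theorem d_psiC (j : ℕ) (x : (mix M).C (j + 1)) :
    (mix M).d j (psiC M (j + 1) x) = psiC M j ((mix M).d j x) := vl_inj j (bd_psiN _)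

theorem De_psiC (j : ℕ) (x : (mix M).C j) : (mix M).De j (psiC M j x) = 0 :=
  vl_inj (j + 1) ((DelN_psiN _).trans (map_zero (vl (M := M) (j + 1))).symm)

end Crest.Agent.R231.Instx895
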