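import Crest.Agent.R231.IfWang_525
import Crest.Agent.R231.ArcSys_694

/-!
# Row 231 (S0357), Wang package: the geometric data from two systems of arcs (helper525)

`wangGeo A A'` : `WangGeo M (Lp M)` with `X = X M`, `O = Om p`, from 694's `ArcSys M D p`,
`ArcSys M D' p`.
-/

set_option autoImplicit false

noncomputable section

open Set Topology
open Crest.Agent.R204

namespace Crest.Agent.R231.WgGeox525

open GLugx576 ArcSysx694 ArcSysx694.ArcSys IfWangx525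

variable {M : Type} [MetricSpace M] {D D' : Set M} {p : M}

/-- enlarge the constant -/
def enl (A : ArcSys M D p) (k : ℝ) (hk : A.c ≤ k) : ArcSys M D p where
  c := k
  arc := A.arc
  c_pos := A.c_pos.trans_le hk
  zero := A.zero
  one := A.one
  lip m hm u hu v hv := (A.lip m hm u hu v hv).trans (mul_le_mul_of_nonneg_right hk (abs_nonneg _))
  cont := A.cont

@[simp] theorem enl_c (A : ArcSys M D p) (k : ℝ) (hk : A.c ≤ k) : (enl A k hk).c = k := rfl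
@[simp] theorem enl_arc (A : ArcSys M D p) (k : ℝ) (hk : A.c ≤ k) : (enl A k hk).arc = A.arc := rfl

/-- evaluation at time `0` -/
def ev0 (M : Type) [MetricSpace M] : C(Lp M, M) :=
  ⟨fun γ => γ 0, continuous_eval_const _⟩

@[simp] theorem ev0_apply (γ : Lp M) : ev0 M γ = γ 0 := rfl

theorem toXD {t : ℝ} {γ : Lp M} (h : γ ∈ X M t ∩ (ev0 M) ⁻¹' D) : γ ∈ XD D (t + 1) :=
  ⟨X_mono (by linarith) h.1, h.2⟩

theorem toXD' {t : ℝ} {γ : Lp M} (hp : p ∈ D) (h : γ ∈ Om p t) : γ ∈ XD D (t + 1) :=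
  ⟨X_mono (by linarith) h.1, by rw [h.2]; exact hp⟩

theorem toOm' {t : ℝ} {γ : Lp M} (h : γ ∈ Om p t) : γ ∈ Om p (t + 1) :=
  Om_mono (by linarith) h

theorem subXD {t : ℝ} : X M t ∩ (ev0 M) ⁻¹' D ⊆ XD D (t + 1) := fun _ h => toXD h

variable (A : ArcSys M D p) {t s : ℝ} {γ : Lp M}

theorem f_hn_cont (ht : 0 ≤ t) : ContinuousOn (fun x : Lp M × ℝ => A.h3 (t + 1) x.1 x.2)
    ((X M t ∩ (ev0 M) ⁻¹' D) ×ˢ Icc 0 1) :=
  ContinuousOn.mono (ArcSys.continuousOn_h3 (A := A) (t := t + 1) (by linarith))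
    (prod_mono subXD Subset.rfl)

theorem f_hn_mem (ht : 0 ≤ t) (hγ : γ ∈ X M t ∩ (ev0 M) ⁻¹' D) (hs : s ∈ Icc (0 : ℝ) 1) :
    A.h3 (t + 1) γ s ∈ X M (t + (2 * A.c + 1)) :=
  X_mono (by linarith) (ArcSys.h3_mem (A := A) (t := t + 1) (by linarith) (toXD hγ) hs)

theorem f_hn_one (ht : 0 ≤ t) (hγ : γ ∈ X M t ∩ (ev0 M) ⁻¹' D) :
    A.h3 (t + 1) γ 1 ∈ Om p (t + (2 * A.c + 1)) :=
  Om_mono (by linarith) (ArcSys.tr_mem (A := A) (t := t + 1) (by linarith) (toXD hγ))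

theorem f_ho_cont (hp : p ∈ D) (ht : 0 ≤ t) :
    ContinuousOn (fun x : Lp M × ℝ => A.h3 (t + 1) x.1 x.2) (Om p t ×ˢ Icc 0 1) :=
  ContinuousOn.mono (ArcSys.continuousOn_h3 (A := A) (t := t + 1) (by linarith))
    (prod_mono (fun _ h => toXD' hp h) Subset.rfl)

theorem f_ho_mem (hp : p ∈ D) (hcst : ∀ u ∈ Icc (0 : ℝ) 1, A.arc p u = p) (ht : 0 ≤ t)
    (hγ : γ ∈ Om p t) (hs : s ∈ Icc (0 : ℝ) 1) : A.h3 (t + 1) γ s ∈ Om p (t + (2 * A.c + 1)) :=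
  Om_mono (by linarith)
    (ArcSys.h3_mem_Om (A := A) (t := t + 1) hp hcst (by linarith) (toOm' hγ) hs)

theorem f_cn_cont (ht : 0 ≤ t) : ContinuousOn (A.tr (t + 1)) (X M t ∩ (ev0 M) ⁻¹' D) :=
  ContinuousOn.mono (ArcSys.continuousOn_tr (A := A) (t := t + 1) (by linarith)) subXD

theorem f_cn_mem (ht : 0 ≤ t) (hγ : γ ∈ X M t ∩ (ev0 M) ⁻¹' D) :
    A.tr (t + 1) γ ∈ Om p (t + (2 * A.c + 1)) :=
  Om_mono (by linarith) (ArcSys.tr_mem (A := A) (t := t + 1) (by linarith) (toXD hγ))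

/-- the level used by `un` -/
def pl (t : ℝ) : ℝ := if 0 < t then t else 1

theorem pl_pos (t : ℝ) : 0 < pl t := by unfold pl; split_ifs with h; exacts [h, one_pos]
theorem le_pl (ht : 0 ≤ t) : t ≤ pl t := by unfold pl; split_ifs <;> linarith
theorem pl_le (ht : 0 ≤ t) : pl t ≤ t + 1 := by unfold pl; split_ifs <;> linarith
theorem pl_of_pos (ht : 0 < t) : pl t = t := if_pos ht

theorem f_un_cont (ht : 0 ≤ t) :
    ContinuousOn (fun q : M × Lp M => A.un (pl t) q.1 q.2) (D ×ˢ Om p t) :=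
  ContinuousOn.mono (ArcSys.continuousOn_un (A := A) (t := pl t) (pl_pos t))
    (prod_mono Subset.rfl (Om_mono (le_pl ht)))

theorem f_un_mem (ht : 0 ≤ t) {b : M} (hb : b ∈ D) (hγ : γ ∈ Om p t) :
    A.un (pl t) b γ ∈ X M (t + (2 * A.c + 1)) :=
  X_mono (by linarith [pl_le ht])
    (ArcSys.un_mem (A := A) (t := pl t) (pl_pos t) hb (Om_mono (le_pl ht) hγ)).1

theorem f_un_e (ht : 0 ≤ t) {b : M} (hb : b ∈ D) (hγ : γ ∈ Om p t) :
    A.un (pl t) b γ 0 = b :=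
  ArcSys.un_base (A := A) (t := pl t) (pl_pos t) hb (Om_mono (le_pl ht) hγ)

theorem f_h1_cont (ht : 0 ≤ t) : ContinuousOn (fun x : Lp M × ℝ => A.h1 (t + 1) x.1 x.2)
    ((X M t ∩ (ev0 M) ⁻¹' D) ×ˢ Icc 0 1) :=
  ContinuousOn.mono (ArcSys.continuousOn_h1 (A := A) (t := t + 1) (by linarith))
    (prod_mono subXD Subset.rfl)

theorem f_h1_one (ht : 0 ≤ t) (hγ : γ ∈ X M t ∩ (ev0 M) ⁻¹' D) :
    A.h1 (t + 1) γ 1 = A.un (pl (t + (2 * A.c + 1))) (γ 0) (A.tr (t + 1) γ) := by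
  rw [ArcSys.h1_one (A := A) (t := t + 1) (by linarith) (toXD hγ),
    pl_of_pos (by linarith [A.c_pos]), show t + 1 + 2 * A.c = t + (2 * A.c + 1) by ring]

theorem f_h1_mem (ht : 0 ≤ t) (hγ : γ ∈ X M t ∩ (ev0 M) ⁻¹' D) (hs : s ∈ Icc (0 : ℝ) 1) :
    A.h1 (t + 1) γ s ∈ X M (t + (2 * A.c + 1) + (2 * A.c + 1)) :=
  X_mono (by linarith) (ArcSys.h1_mem (A := A) (t := t + 1) (by linarith) (toXD hγ) hs).1

theorem f_rc_cont {s t : ℝ} (hs : 0 ≤ s) (hst : s ≤ t) :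
    ContinuousOn (fun x : Lp M × ℝ => A.tr (lev (s + 1) (t + 1) x.2) x.1)
      ((X M s ∩ (ev0 M) ⁻¹' D) ×ˢ Icc 0 1) :=
  ContinuousOn.mono (ArcSys.continuousOn_tr_lev (A := A) (t := s + 1) (t' := t + 1)
    (by linarith) (by linarith)) (prod_mono subXD Subset.rfl)

theorem f_rc_mem {s t u : ℝ} (hs : 0 ≤ s) (hst : s ≤ t) (hγ : γ ∈ X M s ∩ (ev0 M) ⁻¹' D)
    (hu : u ∈ Icc (0 : ℝ) 1) : A.tr (lev (s + 1) (t + 1) u) γ ∈ Om p (t + (2 * A.c + 1)) :=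
  Om_mono (by linarith)
    (ArcSys.tr_lev_mem (A := A) (t := s + 1) (t' := t + 1) (by linarith) (by linarith)
      (toXD hγ) hu)

/-- **the Wang data from two systems of arcs with the same constant** -/
def wangGeo' (A : ArcSys M D p) (A' : ArcSys M D' p) (k : ℝ) (hk : k = 2 * A.c + 1)
    (hk' : k = 2 * A'.c + 1) (oD : IsOpen D)
    (oD' : IsOpen D') (cov : ∀ b, b ∈ D ∨ b ∈ D') (hp : p ∈ D)
    (hcst : ∀ u ∈ Icc (0 : ℝ) 1, A.arc p u = p) : WangGeo M (Lp M) where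
  e := ev0 M
  D := D
  D' := D'
  isOpen_D := oD
  isOpen_D' := oD'
  cov := cov
  X := X M
  O := Om p
  X_mono := fun {_ _} h => X_mono h
  O_mono := fun {_ _} h => Om_mono h
  O_sub t := fun γ hγ => ⟨hγ.1, by
    show γ 0 ∈ D
    rw [hγ.2]; exact hp⟩
  c := k
  c_nonneg := by have := A.c_pos; rw [hk]; linarith
  hn t γ u := A.h3 (t + 1) γ u
  hn_cont t ht := f_hn_cont A ht
  hn_zero t ht γ hγ := ArcSys.h3_zero (A := A) (t := t + 1) (by linarith) (toXD hγ)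
  hn_mem t ht γ hγ u hu := by rw [hk]; exact f_hn_mem A ht hγ hu
  hn_one t ht γ hγ := by rw [hk]; exact f_hn_one A ht hγ
  ho t γ u := A.h3 (t + 1) γ u
  ho_cont t ht := f_ho_cont A hp ht
  ho_zero t ht γ hγ := ArcSys.h3_zero (A := A) (t := t + 1) (by linarith) (toXD' hp hγ)
  ho_one t ht γ hγ := rfl
  ho_mem t ht γ hγ u hu := by rw [hk]; exact f_ho_mem A hp hcst ht hγ hu
  cn t := A'.tr (t + 1)
  cn_cont t ht := f_cn_cont A' ht
  cn_mem t ht γ hγ := by rw [hk']; exact f_cn_mem A' ht hγ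
  un t q := A'.un (pl t) q.1 q.2
  un_cont t ht := f_un_cont A' ht
  un_mem t ht b hb γ hγ := by rw [hk']; exact f_un_mem A' ht hb hγ
  un_e t ht b hb γ hγ := f_un_e A' ht hb hγ
  hn' t γ u := A'.h1 (t + 1) γ u
  hn'_cont t ht := f_h1_cont A' ht
  hn'_zero t ht γ hγ := ArcSys.h1_zero (A := A') (t := t + 1) (by linarith) (toXD hγ)
  hn'_one t ht γ hγ := by rw [hk']; exact f_h1_one A' ht hγ
  hn'_mem t ht γ hγ u hu := by rw [hk']; exact f_h1_mem A' ht hγ hu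
  hn'_e t ht γ hγ u hu := ArcSys.h1_base (A := A') (t := t + 1) (by linarith) (toXD hγ) hu
  rc s t γ u := A'.tr (lev (s + 1) (t + 1) u) γ
  rc_cont s t hs hst := f_rc_cont A' hs hst
  rc_zero s t hs hst γ hγ := by
    show A'.tr (lev (s + 1) (t + 1) 0) γ = A'.tr (s + 1) γ
    rw [lev_zero]
  rc_one s t hs hst γ hγ := by
    show A'.tr (lev (s + 1) (t + 1) 1) γ = A'.tr (t + 1) γ
    rw [lev_one]
  rc_mem s t hs hst γ hγ u hu := by rw [hk']; exact f_rc_mem A' hs hst hγ hu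

/-- **the Wang data from two systems of arcs** -/
def wangGeo (A : ArcSys M D p) (A' : ArcSys M D' p) (oD : IsOpen D)
    (oD' : IsOpen D') (cov : ∀ b, b ∈ D ∨ b ∈ D') (hp : p ∈ D)
    (hcst : ∀ u ∈ Icc (0 : ℝ) 1, A.arc p u = p) : WangGeo M (Lp M) :=
  wangGeo' (enl A (max A.c A'.c) (le_max_left _ _)) (enl A' (max A.c A'.c) (le_max_right _ _))
    (2 * max A.c A'.c + 1) rfl rfl oD oD' cov hp hcst

end Crest.Agent.R231.WgGeox525
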