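import Crest.Agent.R231.PairH_877
import Crest.Agent.R231.BDAlg_969

/-!
# Row 231 (S0357): the levelled complex of a monotone family of subspaces (helper475)

`E` a space, `O : ℝ → Set E` monotone.  `yLC O hO : LC` has chain groups
`C j = N.gr F2 (Sing E) j ⊓ ⨆ t, CS (O t)` and levels `F t j = ` chains of `O t`.
`cyc_iff`, `bnd_iff`, `fin_iff` : `Cyc`, `Bnd`, `Fin` of `BDAlg_969` in the language of `Pair_877`.
-/

set_option autoImplicit false
set_option linter.unusedSectionVars false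
set_option linter.unusedVariables false

noncomputable section

open Set Topology
open Crest.Agent.R204

namespace Crest.Agent.R231.YLcx475

open Pairx877 SingAct265 EZ271 BDAx969 Gr334

variable {E : Type} [TopologicalSpace E]

/-- union of the chain groups -/
def WU (O : ℝ → Set E) : Submodule F2 (CE E) := ⨆ t : ℝ, CS (O t)

theorem mem_WU {O : ℝ → Set E} (hO : Monotone O) {c : CE E} : c ∈ WU O ↔ ∃ t, c ∈ CS (O t) := by
  unfold WU
  rw [Submodule.mem_iSup_of_directed]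
  exact fun a b => ⟨max a b, CS_mono (hO (le_max_left _ _)), CS_mono (hO (le_max_right _ _))⟩

theorem CS_le_WU (O : ℝ → Set E) (t : ℝ) : CS (O t) ≤ WU O := le_iSup (fun t : ℝ => CS (O t)) t

theorem bd_mem_WU {O : ℝ → Set E} (hO : Monotone O) {c : CE E} (h : c ∈ WU O) :
    bdE E c ∈ WU O := by
  obtain ⟨t, ht⟩ := (mem_WU hO).1 h
  exact CS_le_WU O t (bd_mem_CS c ht)

theorem prN_mem_WU {O : ℝ → Set E} (hO : Monotone O) {c : CE E} (h : c ∈ WU O) (n : ℕ) :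
    prN F2 (SS.Sing E) n c ∈ WU O := by
  obtain ⟨t, ht⟩ := (mem_WU hO).1 h
  exact CS_le_WU O t (prN_mem_CS n c ht)

theorem bd_gr {j : ℕ} {c : CE E} (h : c ∈ N.gr F2 (SS.Sing E) (j + 1)) :
    bdE E c ∈ N.gr F2 (SS.Sing E) j := by
  have := prN_bd (R := F2) (K := SS.Sing E) j c
  rw [prN_of_mem h] at this
  rw [← this]
  exact prN_mem j _

variable (O : ℝ → Set E) (hO : Monotone O)

/-- **the levelled complex of the family `O`** -/
def yLC : LC where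
  C j := ↥(N.gr F2 (SS.Sing E) j ⊓ WU O)
  d j := (bdE E).restrict (fun _ hx => ⟨bd_gr hx.1, bd_mem_WU hO hx.2⟩)
  dd j x := Subtype.ext (bd_bdE x.1)
  F t j := (CS (O t)).comap (N.gr F2 (SS.Sing E) j ⊓ WU O).subtype
  F_mono s t h j := Submodule.comap_mono (CS_mono (hO h))
  F_exh j x := (mem_WU hO).1 x.2.2
  F_stab t j x hx := bd_mem_CS x.1 hx

variable {O}

/-- underlying chain -/
def yv (j : ℕ) : (yLC O hO).C j →ₗ[F2] CE E := (N.gr F2 (SS.Sing E) j ⊓ WU O).subtype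

variable {hO}

theorem yv_inj {j : ℕ} {x y : (yLC O hO).C j} (h : yv hO j x = yv hO j y) : x = y := Subtype.ext h

theorem yv_gr {j : ℕ} (x : (yLC O hO).C j) : yv hO j x ∈ N.gr F2 (SS.Sing E) j := x.2.1
theorem yv_WU {j : ℕ} (x : (yLC O hO).C j) : yv hO j x ∈ WU O := x.2.2

/-- a chain as an element of the complex -/
def ymk {j : ℕ} (c : CE E) (h1 : c ∈ N.gr F2 (SS.Sing E) j) (h2 : c ∈ WU O) : (yLC O hO).C j :=
  ⟨c, h1, h2⟩

@[simp] theorem yv_ymk {j : ℕ} (c : CE E) (h1 : c ∈ N.gr F2 (SS.Sing E) j) (h2 : c ∈ WU O) :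
    yv hO j (ymk c h1 h2) = c := rfl

@[simp] theorem yv_d {j : ℕ} (x : (yLC O hO).C (j + 1)) :
    yv hO j ((yLC O hO).d j x) = bdE E (yv hO (j + 1) x) := rfl

theorem mem_F {t : ℝ} {j : ℕ} {x : (yLC O hO).C j} :
    x ∈ (yLC O hO).F t j ↔ yv hO j x ∈ CS (O t) := Iff.rfl

theorem cyc_iff : ∀ {j : ℕ} {x : (yLC O hO).C j}, (yLC O hO).Cyc j x ↔ bdE E (yv hO j x) = 0
  | 0, x => ⟨fun _ => bd_gr_zero (yv_gr x), fun _ => trivial⟩
  | (j + 1), x => by
    show (yLC O hO).d j x = 0 ↔ _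
    constructor
    · intro h
      rw [← yv_d, h, map_zero]
    · intro h
      refine yv_inj ?_
      rw [yv_d, h, map_zero]

theorem bnd_iff {t : ℝ} {j : ℕ} {x : (yLC O hO).C j} :
    (yLC O hO).Bnd t j x ↔ ∃ w ∈ CS (O t), bdE E w = yv hO j x := by
  constructor
  · rintro ⟨w, hw, rfl⟩
    exact ⟨_, hw, rfl⟩
  · rintro ⟨w, hw, h⟩
    refine ⟨ymk (prN F2 _ (j + 1) w) (prN_mem _ _) (CS_le_WU O t (prN_mem_CS _ w hw)),
      prN_mem_CS _ w hw, yv_inj ?_⟩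
    rw [yv_d, yv_ymk, ← prN_bd, h, prN_of_mem (yv_gr x)]

theorem fin_iff {j : ℕ} {x : (yLC O hO).C j} :
    (yLC O hO).Fin j x ↔ ∃ t, ∃ w ∈ CS (O t), bdE E w = yv hO j x := by
  constructor
  · rintro ⟨w, rfl⟩
    obtain ⟨t, ht⟩ := (yLC O hO).F_exh _ w
    exact ⟨t, _, ht, rfl⟩
  · rintro ⟨t, h⟩
    obtain ⟨w, _, hw⟩ := bnd_iff.2 h
    exact ⟨w, hw⟩

end Crest.Agent.R231.YLcx475
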