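import Crest.Agent.R231.WgLv_525
import Crest.Agent.R231.WgGeo_525
import Crest.Agent.R231.YLc_475
import Crest.Agent.R231.InstA_895
import Crest.Agent.R231.BDLam_969
import Crest.Agent.R231.GLoop_576

/-!
# Row 231 (S0357), Wang package: the literal `WangOut` (helper525)

`wangOut` : `WangOut (yLC (Om p)) (mix M) (FF M) n (iO p)` from `Kun`, `Deg n U` and `Onto`.
-/

set_option autoImplicit false

noncomputable section

open Set Topology Function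
open Crest.Agent.R204

namespace Crest.Agent.R231.WgOutx525

open Pairx877 Capx226 CapCSx780 SingAct265 EZ271 Gr334 IfWangx525 WangAbsx525 WgLvx525 WgGeox525
open GLugx576 ArcSysx694 YLcx475 BDAx969 IfAx978 Instx895 TActx569 TCx569

variable {M : Type} [MetricSpace M] {D D' : Set M} {p : M}

variable (p) in
theorem Om_monotone : Monotone (Om (M := M) p) := fun _ _ h => Om_mono h

variable (p) in
/-- chains of the based loops -/
abbrev YO : LC := yLC (Om (M := M) p) (Om_monotone p)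

theorem WU_le_WL : WU (Om (M := M) p) ≤ WL M := by
  intro c hc
  obtain ⟨t, ht⟩ := (mem_WU (Om_monotone p)).1 hc
  exact CS_le_CL' (Om_sub_X t) ht

variable (p) in
/-- the inclusion of the based loops -/
def iO (_ : ℝ) (j : ℕ) : (YO (M := M) p).C j →ₗ[ZMod 2] (mix M).C j where
  toFun y := mk (yv (Om_monotone p) j y) (yv_gr y) (WU_le_WL (yv_WU y))
  map_add' x y := vl_inj j (by
    refine (vl_mk _ _ _).trans ((map_add (yv (Om_monotone p) j) x y).trans ?_)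
    rw [map_add, vl_mk, vl_mk])
  map_smul' a x := vl_inj j (by
    refine (vl_mk _ _ _).trans ((map_smul (yv (Om_monotone p) j) a x).trans ?_)
    rw [map_smul, vl_mk, RingHom.id_apply])

@[simp] theorem vl_iO (t : ℝ) (j : ℕ) (y : (YO (M := M) p).C j) :
    vl j (iO p t j y) = yv (Om_monotone p) j y :=
  vl_mk (yv (Om_monotone p) j y) (yv_gr y) (WU_le_WL (yv_WU y))

variable (A : ArcSys M D p) (A' : ArcSys M D' p) (oD : IsOpen D)
    (oD' : IsOpen D') (cov : ∀ b, b ∈ D ∨ b ∈ D') (hp : p ∈ D)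
    (hcst : ∀ u ∈ Icc (0 : ℝ) 1, A.arc p u = p)

/-- the constant loops -/
def kmap : KMap (wangGeo A A' oD oD' cov hp hcst) where
  k := ContinuousMap.const'.comp (ev0 M)
  kX γ := const_mem le_rfl (γ 0)
  kO t γ hγ := ⟨const_mem le_rfl (γ 0), hγ.2⟩
  k_id γ hγ := by
    ext x
    exact (mem_X_zero.1 hγ x).symm

section fields

variable {G : WangGeo M (Lp M)} (hX : G.X = X M) (hOm : G.O = Om p) (κ : KMap G)
  {U : Co (SS.Sing M)} (hU : PtCo G.D U) (hK : ∀ O : Set (Lp M), Kun G.D G.D' U O)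

include hX hOm κ hK in
theorem f_inj (hO : Onto G hU) (t : ℝ) (j : ℕ) (y : (YO (M := M) p).C j) (ht : 0 ≤ t)
    (hy : y ∈ (YO (M := M) p).F t j) (hc : (YO (M := M) p).Cyc j y)
    (hb : iO p t j y ∈ Bd (FF M 0) ⊤ j) :
    ∃ y0 ∈ (YO (M := M) p).F 0 j, (YO (M := M) p).Cyc j y0 ∧ (YO (M := M) p).Fin j (y + y0) ∧
      iO p t j y0 ∈ Bd (FF M 0) (FF M t) j := by
  obtain ⟨t', ht'⟩ := mem_Bd_top.1 hb
  rw [vl_iO, ← hX] at ht'
  have hy' : yv (Om_monotone p) j y ∈ CS (G.O t) := by rw [hOm]; exact mem_F.1 hy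
  obtain ⟨s', b, hb, e⟩ := inj_lv κ hU hK hO ht hy' (t' := t') ht'
  have hcy : bdE _ (yv (Om_monotone p) j y) = 0 := cyc_iff.1 hc
  have hk0 := κ.memO hy'
  rw [hOm] at hk0 hb
  refine ⟨ymk (mp κ.k (yv (Om_monotone p) j y)) (κ.gr (yv_gr y)) (CS_le_WU _ _ hk0),
    mem_F.2 hk0, cyc_iff.2 ?_, fin_iff.2 ⟨s', b, hb, ?_⟩, ?_⟩
  · rw [yv_ymk, mp_bd, hcy, map_zero]
  · rw [e, map_add, yv_ymk]
  · refine mem_Bd_FF.2 ?_
    rw [vl_iO, yv_ymk, mem_Bp']
    exact ⟨_, CS_mono (Om_sub_X 0) hk0, 0, Submodule.zero_mem _, by rw [map_zero, add_zero]⟩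

include hX hOm κ hU hK in
theorem f_exact {n : ℕ} (hn : Deg n U) (t : ℝ) (j : ℕ) (x : (mix M).C j) (ht : 0 ≤ t)
    (hx : x ∈ Zc (FF M 0) (FF M t) j) :
    (j < n → ∃ y ∈ (YO (M := M) p).F (t + 3 * G.c) j, (YO (M := M) p).Cyc j y ∧
      x + iO p (t + 3 * G.c) j y ∈ Bd (FF M 0) (FF M (t + 3 * G.c)) j) ∧
    (∀ l, j = l + n → ∃ r ∈ (YO (M := M) p).F (t + 3 * G.c) l, (YO (M := M) p).Cyc l r ∧
      (x ∈ Bd (FF M 0) ⊤ j → (YO (M := M) p).Fin l r) ∧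
      ∀ v, t + 3 * G.c ≤ v → (YO (M := M) p).Bnd v l r →
        ∃ y ∈ (YO (M := M) p).F (v + 3 * G.c) j, (YO (M := M) p).Cyc j y ∧
          x + iO p (v + 3 * G.c) j y ∈ Bd (FF M 0) (FF M (v + 3 * G.c)) j) := by
  have hc := G.c_nonneg
  have hx' := mem_Zc_FF.1 hx
  obtain ⟨h1, h2⟩ := exact_lv κ hU hK hn ht (vl_mem_gr x) (by rw [hX]; exact hx'.1)
    (by rw [hX]; exact hx'.2)
  have fin : ∀ v : ℝ, (∃ y ∈ CS (G.O (v + 3 * G.c)), y ∈ N.gr F2 (SS.Sing (Lp M)) j ∧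
      bdE (Lp M) y = 0 ∧ vl j x + y ∈ Bp (G.X (v + 3 * G.c)) (G.X 0)) →
      ∃ y ∈ (YO (M := M) p).F (v + 3 * G.c) j, (YO (M := M) p).Cyc j y ∧
          x + iO p (v + 3 * G.c) j y ∈ Bd (FF M 0) (FF M (v + 3 * G.c)) j := by
    rintro v ⟨y, hy, hyj, hyb, hyB⟩
    rw [hOm] at hy
    refine ⟨ymk y hyj (CS_le_WU _ _ hy), mem_F.2 hy, cyc_iff.2 hyb, mem_Bd_FF.2 ?_⟩
    rw [map_add, vl_iO, yv_ymk, ← hX]
    exact hyB
  refine ⟨fun hj => fin t (h1 hj), fun l hl => ?_⟩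
  obtain ⟨r, hr, hrl, hrb, hrf, hR⟩ := h2 l hl
  rw [hOm] at hr
  refine ⟨ymk r hrl (CS_le_WU _ _ hr), mem_F.2 hr, cyc_iff.2 hrb, fun hb => ?_,
    fun v hv hB => ?_⟩
  · obtain ⟨t', ht'⟩ := mem_Bd_top.1 hb
    rw [← hX] at ht'
    obtain ⟨t'', w, hw, e⟩ := hrf ⟨t', ht'⟩
    rw [hOm] at hw
    exact fin_iff.2 ⟨t'', w, hw, e⟩
  · obtain ⟨w, hw, e⟩ := bnd_iff.1 hB
    rw [← hOm] at hw
    exact fin v (hR v (by linarith) ⟨w, hw, e⟩)

include hX hOm κ hK in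
/-- **the output of the Wang package**, general form -/
theorem wangOut_of {n : ℕ} (hn : Deg n U) (hO : Onto G hU) :
    WangOut (YO (M := M) p) (mix M) (FF M) n (iO p) where
  lev t j y _ hy := mem_FF.2 (by rw [vl_iO]; exact CS_mono (Om_sub_X t) (mem_F.1 hy))
  d_i t j y _ _ := vl_inj j (by rw [vl_d, vl_iO, vl_iO, yv_d])
  compat s t j y _ _ _ _ := by
    have : iO p s j y + iO p t j y = 0 :=
      vl_inj j (by rw [map_add, vl_iO, vl_iO, map_zero]; exact WangAbsx525.add_self _)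
    rw [this]; exact Submodule.zero_mem _
  inj := f_inj hX hOm κ hU hK hO
  exact := ⟨3 * G.c, by have := G.c_nonneg; linarith, f_exact hX hOm κ hU hK hn⟩

end fields

/-- **the output of the Wang package** -/
theorem wangOut {U : Co (SS.Sing M)} (hU : PtCo D U) (hK : ∀ O : Set (Lp M), Kun D D' U O) {n : ℕ}
    (hn : Deg n U) (hO : Onto (wangGeo A A' oD oD' cov hp hcst) hU) :
    WangOut (YO (M := M) p) (mix M) (FF M) n (iO p) :=
  wangOut_of (G := wangGeo A A' oD oD' cov hp hcst) rfl rfl (kmap A A' oD oD' cov hp hcst) hU hK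
    hn hO

end Crest.Agent.R231.WgOutx525
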