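import Crest.Agent.R231.End_475
import Crest.Agent.R231.LevInstB_969
import Crest.Agent.R231.WgOut_525

/-!
# Row 231 (S0357), block P: end wiring, concrete form (helper475)

`pouts_of` : `Asmx895.POuts M D` from 969's `CutH p D`, `HasTh` and 525's `WangOut (YO p) ..`.
-/

set_option autoImplicit false
set_option linter.unusedSectionVars false

noncomputable section

open Set Topology
open scoped NNReal
open Crest.Agent.R204

namespace Crest.Agent.R231.End2x475

open SpecA (Hm)
open Pairx877 BDAx969 Levx969 LevInstx969 YLcx475 YOutx475 OmCmpx475 OmSpx725 FinDim315 IfAx978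
  Instx895 Asmx895 WgOutx525 Endx475

variable {M : Type} [MetricSpace M] {p : M} {D : ℕ}

/-- the comparison for 969's instance -/
def cmpLev (C : CutH p D) (c3 : ℝ≥0) : Cmp (C.lev c3) (ArcSysx694.Om p) :=
  cmpOf (C.lev c3) (fun t => LinearEquiv.refl F2 (HS (OmT p t))) (fun _ _ _ => Iff.rfl)
    (fun _ _ => rfl)

/-- **output of block P** -/
def pouts_of (hD : 1 ≤ D) (C : CutH p D) (c3 : ℝ≥0) (hT : (C.lev c3).HasTh)
    (W : WangOut (YO (M := M) p) (mix M) (FF M) (D + 1) (iO p)) : POuts M D where
  Y := YO (M := M) p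
  BD := (cmpLev C c3).bd_of hD hT
  i := iO p
  wang := W
  Pw := (cmpLev C c3).Pw
  τ := fun m => (sg (C.lev c3) m : ℝ)
  pw := (cmpLev C c3).pw_of hD hT

end Crest.Agent.R231.End2x475
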