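import Crest.Agent.R231.RkLE_898
import Crest.Agent.R231.Pair_877

/-!
# Row 231, block GM (helper898): the local rank bound `SR` / `LB`

* `SR X A K C` (`K : Set E`): for every open `U' ⊇ K` there is an open `U`, `K ⊆ U ⊆ U'`, such that
  `H(U ∩ X, U ∩ X ∩ A) → H(U' ∩ X, U' ∩ X ∩ A)` has rank `≤ C` (mod 2 homology of pairs of subsets, all degrees).
* `LB p A C` : the same for a point `p` of the ambient space (`X = univ`, neighbourhoods of `p`).
  For a function `f` one takes `A = {f < 0}`.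
-/

set_option autoImplicit false

noncomputable section

open Topology Set

namespace Crest.Agent.R231.GM898

open Crest.Agent.R204 Crest.Agent.R231.Pairx877

variable {E E' : Type} [TopologicalSpace E] [TopologicalSpace E']

/-- rank bound for the map of pairs `(Y, B) → (Y', B')` of subsets of `E` -/
def RkP (Y B Y' B' : Set E) (C : ℕ) : Prop := RkLE (Zp Y B) (Bp Y' B') C

/-- semilocal rank bound at the set `K`, in the space `X`, lower set `A` -/
def SR (X A K : Set E) (C : ℕ) : Prop :=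
  ∀ U' : Set E, IsOpen U' → K ⊆ U' → ∃ U : Set E, IsOpen U ∧ K ⊆ U ∧ U ⊆ U' ∧
    RkP (U ∩ X) (U ∩ X ∩ A) (U' ∩ X) (U' ∩ X ∩ A) C

/-- local rank bound at the point `p`, lower set `A` -/
def LB (p : E) (A : Set E) (C : ℕ) : Prop :=
  ∀ U' ∈ 𝓝 p, ∃ U ∈ 𝓝 p, U ⊆ U' ∧ RkP U (U ∩ A) U' (U' ∩ A) C

theorem RkP.mono {Y B Y' B' Z D Z' D' : Set E} {C C' : ℕ} (h : RkP Y B Y' B' C) (h1 : Z ⊆ Y)
    (h2 : D ⊆ B) (h3 : Y' ⊆ Z') (h4 : B' ⊆ D') (hC : C ≤ C') : RkP Z D Z' D' C' :=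
  RkLE.mono h (Zp_mono h1 h2) (Bp_mono h3 h4) hC

theorem LB.mono {p : E} {A : Set E} {C C' : ℕ} (h : LB p A C) (hC : C ≤ C') : LB p A C' := by
  intro U' hU'
  obtain ⟨U, hU, h1, h2⟩ := h U' hU'
  exact ⟨U, hU, h1, h2.mono subset_rfl subset_rfl subset_rfl subset_rfl hC⟩

/-- the neighbourhoods may be taken open, and inside a prescribed neighbourhood -/
theorem lb_iff_of_mem {p : E} {A : Set E} {C : ℕ} {W : Set E} (hW : W ∈ 𝓝 p) :
    LB p A C ↔ ∀ U' : Set E, IsOpen U' → p ∈ U' → U' ⊆ W → ∃ U : Set E, IsOpen U ∧ p ∈ U ∧ U ⊆ U' ∧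
      RkP U (U ∩ A) U' (U' ∩ A) C := by
  constructor
  · intro h U' hU' hp _
    obtain ⟨U, hU, h1, h2⟩ := h U' (hU'.mem_nhds hp)
    obtain ⟨V, hVU, hV, hpV⟩ := mem_nhds_iff.1 hU
    exact ⟨V, hV, hpV, hVU.trans h1, h2.mono hVU (inter_subset_inter_left _ hVU) subset_rfl
      subset_rfl le_rfl⟩
  · intro h U' hU'
    obtain ⟨V', hV'U, hV', hpV'⟩ := mem_nhds_iff.1 (Filter.inter_mem hU' hW)
    obtain ⟨U, hU, hp, h1, h2⟩ := h V' hV' hpV' (hV'U.trans inter_subset_right)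
    have h3 : V' ⊆ U' := hV'U.trans inter_subset_left
    exact ⟨U, hU.mem_nhds hp, h1.trans h3, h2.mono subset_rfl subset_rfl h3
      (inter_subset_inter_left _ h3) le_rfl⟩

theorem lb_iff_open {p : E} {A : Set E} {C : ℕ} :
    LB p A C ↔ ∀ U' : Set E, IsOpen U' → p ∈ U' → ∃ U : Set E, IsOpen U ∧ p ∈ U ∧ U ⊆ U' ∧
      RkP U (U ∩ A) U' (U' ∩ A) C := by
  rw [lb_iff_of_mem Filter.univ_mem]
  exact ⟨fun h U' h1 h2 => h U' h1 h2 (subset_univ _), fun h U' h1 h2 _ => h U' h1 h2⟩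

theorem lb_iff_SR {p : E} {A : Set E} {C : ℕ} : LB p A C ↔ SR univ A {p} C := by
  rw [lb_iff_open]
  unfold SR
  simp only [inter_univ, singleton_subset_iff]

/-- `LB` only depends on the germ of the lower set -/
theorem LB.congr {p : E} {A A' : Set E} {C : ℕ} (h : LB p A C) (hA : A =ᶠ[𝓝 p] A') : LB p A' C := by
  have hW : {x | x ∈ A ↔ x ∈ A'} ∈ 𝓝 p := by
    filter_upwards [hA] with x hx
    exact Iff.of_eq hx
  rw [lb_iff_of_mem hW] at h ⊢
  intro U' hU' hp hW'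
  obtain ⟨U, hU, hpU, h1, h2⟩ := h U' hU' hp hW'
  have e1 : U' ∩ A' = U' ∩ A := by
    ext x
    exact ⟨fun hx => ⟨hx.1, (hW' hx.1).2 hx.2⟩, fun hx => ⟨hx.1, (hW' hx.1).1 hx.2⟩⟩
  have e2 : U ∩ A' = U ∩ A := by
    ext x
    exact ⟨fun hx => ⟨hx.1, (hW' (h1 hx.1)).2 hx.2⟩, fun hx => ⟨hx.1, (hW' (h1 hx.1)).1 hx.2⟩⟩
  exact ⟨U, hU, hpU, h1, by rw [e1, e2]; exact h2⟩

theorem LB.congr_fun {p : E} {f g : E → ℝ} {C : ℕ} (h : LB p {x | f x < 0} C)
    (hfg : f =ᶠ[𝓝 p] g) : LB p {x | g x < 0} C := by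
  refine h.congr ?_
  filter_upwards [hfg] with x hx
  show (f x < 0) = (g x < 0)
  rw [hx]

/-- multiplication by a positive constant -/
theorem LB.const_mul {p : E} {f : E → ℝ} {C : ℕ} (h : LB p {x | f x < 0} C) {k : ℝ} (hk : 0 < k) :
    LB p {x | k * f x < 0} C := by
  have : {x | k * f x < 0} = {x | f x < 0} := by
    ext x
    show k * f x < 0 ↔ f x < 0
    constructor
    · intro h; by_contra h'; exact absurd h (not_lt.2 (mul_nonneg hk.le (not_lt.1 h')))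
    · intro h; exact mul_neg_of_pos_of_neg hk h
  rw [this]
  exact h

/-! ### transport of rank bounds -/

/-- transport of a rank bound by a chain map -/
theorem RkLE.of_map {M M' : Type*} [AddCommGroup M] [Module (ZMod 2) M] [AddCommGroup M']
    [Module (ZMod 2) M'] {Z B : Submodule (ZMod 2) M} {Z' B' : Submodule (ZMod 2) M'} {C : ℕ}
    (f : M →ₗ[ZMod 2] M') (h1 : ∀ z ∈ Z, f z ∈ Z') (h2 : ∀ z ∈ Z, f z ∈ B' → z ∈ B)
    (h : RkLE Z' B' C) : RkLE Z B C := by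
  refine RkLE.of_rel (Submodule.map (LinearMap.prod LinearMap.id f) Z)
    (fun z hz => ⟨f z, ⟨z, hz, rfl⟩⟩) ?_ ?_ h
  · rintro z' a ⟨z, hz, e⟩
    have e1 : z = z' := congrArg Prod.fst e
    have e2 : f z = a := congrArg Prod.snd e
    rw [← e2]
    exact h1 z hz
  · rintro z' a ⟨z, hz, e⟩ hB
    have e1 : z = z' := congrArg Prod.fst e
    have e2 : f z = a := congrArg Prod.snd e
    rw [← e1]
    exact h2 z hz (by rw [e2]; exact hB)

/-- a rank bound may be checked on finitely generated subspaces -/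
theorem RkLE.of_fg {M : Type*} [AddCommGroup M] [Module (ZMod 2) M] {Z B : Submodule (ZMod 2) M}
    {C : ℕ} (h : ∀ Z1 ≤ Z, Z1.FG → RkLE Z1 B C) : RkLE Z B C := by
  by_contra hcon
  -- there is a family of `C + 1` elements of `Z` independent mod `B`
  have h1 : ¬ (Module.Finite (ZMod 2) (Z.map B.mkQ) ∧
      Module.finrank (ZMod 2) (Z.map B.mkQ) ≤ C) := fun h => hcon (RkLE.iff_finrank.2 h)
  have h2 : ∃ v : Fin (C + 1) → (Z.map B.mkQ), LinearIndependent (ZMod 2) v := by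
    by_cases hf : Module.Finite (ZMod 2) (Z.map B.mkQ)
    · have h3 : C + 1 ≤ Module.finrank (ZMod 2) (Z.map B.mkQ) := by
        by_contra h4
        exact h1 ⟨hf, by omega⟩
      exact exists_linearIndependent_of_le_finrank h3
    · have h3 : (C + 1 : Cardinal) ≤ Module.rank (ZMod 2) (Z.map B.mkQ) := by
        have h4 : Cardinal.aleph0 ≤ Module.rank (ZMod 2) (Z.map B.mkQ) := by
          by_contra h5
          exact hf (Module.rank_lt_aleph0_iff.1 (not_le.1 h5))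
        exact le_trans (by exact_mod_cast (Cardinal.natCast_lt_aleph0 (n := C + 1)).le) h4
      exact exists_linearIndependent_of_le_rank (n := C + 1) (by exact_mod_cast h3)
  obtain ⟨v, hv⟩ := h2
  have h3 : ∀ i, ∃ z : M, z ∈ Z ∧ B.mkQ z = (v i : M ⧸ B) := fun i => by
    obtain ⟨z, hz, e⟩ := (v i).2
    exact ⟨z, hz, e⟩
  choose z hz hze using h3
  have h4 := h (Submodule.span (ZMod 2) (Set.range z))
    (Submodule.span_le.2 (by rintro _ ⟨i, rfl⟩; exact hz i))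
    (Submodule.fg_span (Set.finite_range z))
  rw [RkLE.iff_finrank] at h4
  obtain ⟨h5, h6⟩ := h4
  have h7 : LinearIndependent (ZMod 2) (fun i => (B.mkQ (z i) : M ⧸ B)) := by
    have h8 : (fun i => (B.mkQ (z i) : M ⧸ B)) = fun i => ((v i : Z.map B.mkQ) : M ⧸ B) := by
      funext i; exact hze i
    rw [h8]
    exact hv.map' (Z.map B.mkQ).subtype (Submodule.ker_subtype _)
  have h9 : LinearIndependent (ZMod 2)
      (fun i => (⟨B.mkQ (z i), ⟨z i, Submodule.subset_span ⟨i, rfl⟩, rfl⟩⟩ :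
        (Submodule.span (ZMod 2) (Set.range z)).map B.mkQ)) :=
    LinearIndependent.of_comp ((Submodule.span (ZMod 2) (Set.range z)).map B.mkQ).subtype h7
  have h10 := h9.fintype_card_le_finrank
  simp only [Fintype.card_fin] at h10
  omega

/-- `LB` is transported by continuous maps defined near the point, if one composite is the identity
(e.g. local homeomorphisms): `φ : E → E'`, `ψ : E' → E`, `ψ ∘ φ = id` near `p`. -/
theorem LB.of_inv {p : E} {q : E'} {A : Set E} {A' : Set E'} {C : ℕ} (h : LB q A' C)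
    {W : Set E} {W' : Set E'} (hW : W ∈ 𝓝 p) (hW' : W' ∈ 𝓝 q) {φ : E → E'} {ψ : E' → E}
    (hφ : ContinuousOn φ W) (hψ : ContinuousOn ψ W') (hpq : φ p = q) (hqp : ψ q = p)
    (hid : ∀ x ∈ W, ψ (φ x) = x) (hA : ∀ x ∈ W, x ∈ A → φ x ∈ A') (hA' : ∀ y ∈ W', y ∈ A' → ψ y ∈ A) :
    LB p A C := by
  intro U' hU'
  -- shrink the target neighbourhood
  have hV' : ψ ⁻¹' U' ∩ W' ∈ 𝓝 q := by
    refine Filter.inter_mem ?_ hW'
    have : ContinuousAt ψ q := hψ.continuousAt hW'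
    exact this.preimage_mem_nhds (by rw [hqp]; exact hU')
  obtain ⟨V, hV, hVV', hr⟩ := h _ hV'
  have hUn : φ ⁻¹' V ∩ W ∩ U' ∈ 𝓝 p := by
    refine Filter.inter_mem (Filter.inter_mem ?_ hW) hU'
    have : ContinuousAt φ p := hφ.continuousAt hW
    exact this.preimage_mem_nhds (by rw [hpq]; exact hV)
  refine ⟨_, hUn, inter_subset_right, ?_⟩
  set U := φ ⁻¹' V ∩ W ∩ U' with hU
  have hUW : U ⊆ W := fun x hx => hx.1.2
  have cφ : ContinuousOn φ U := hφ.mono hUW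
  have hV'W : ψ ⁻¹' U' ∩ W' ⊆ W' := inter_subset_right
  have cψ : ContinuousOn ψ (ψ ⁻¹' U' ∩ W') := hψ.mono hV'W
  refine RkLE.of_map (push U φ cφ) ?_ ?_ hr
  · rintro z ⟨hz1, hz2⟩
    refine ⟨push_mem (fun x hx => hx.1.1) z hz1, ?_⟩
    show bdE E' (push U φ cφ z) ∈ CS (V ∩ A')
    rw [bd_push z hz1]
    have hm : MapsTo φ (U ∩ A) (V ∩ A') := fun x hx => ⟨hx.1.1.1, hA x (hUW hx.1) hx.2⟩
    exact push_mem hm _ hz2
  · rintro z ⟨hz1, hz2⟩ hB
    rw [mem_Bp] at hB ⊢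
    obtain ⟨w, hw, h1⟩ := hB
    refine ⟨push (ψ ⁻¹' U' ∩ W') ψ cψ w, push_mem (fun y hy => hy.1) w hw, ?_⟩
    have hz3 : push U φ cφ z ∈ CS (ψ ⁻¹' U' ∩ W') :=
      CS_mono hVV' (push_mem (fun x hx => hx.1.1) z hz1)
    have e1 : push (ψ ⁻¹' U' ∩ W') ψ cψ (push U φ cφ z) = z := by
      have h2 := push_push (E := E) (E' := E') (E'' := E) (X := U) (hf := cφ) (hk := cψ)
        (l := fun x => x) (hl := continuousOn_id) (fun x hx => hVV' hx.1.1)
        (fun x hx => hid x (hUW hx)) z hz1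
      rw [h2]
      exact push_id z hz1
    have e2 : z - bdE E (push (ψ ⁻¹' U' ∩ W') ψ cψ w) =
        push (ψ ⁻¹' U' ∩ W') ψ cψ (push U φ cφ z - bdE E' w) := by
      rw [map_sub, e1, bd_push w hw]
    rw [e2]
    have hm : MapsTo ψ (ψ ⁻¹' U' ∩ W' ∩ A') (U' ∩ A) := fun y hy => ⟨hy.1.1, hA' y hy.1.2 hy.2⟩
    exact push_mem hm _ h1

end Crest.Agent.R231.GM898
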