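import Mathlib

/-!
GM-A, part 1 (row 231): periodic vectors of a linear map on a finite-dimensional space.
`per P m = ker (P^m - 1)`; there is `M > 0` with `per P m = per P (gcd m M)` for every `m > 0`.
-/

set_option autoImplicit false

namespace Crest.Agent.R231.GMLinx102

open Module

variable {K V : Type*} [Field K] [AddCommGroup V] [Module K V]

/-- vectors of period `m` for `P`. -/
def per (P : V →ₗ[K] V) (m : ℕ) : Submodule K V where
  carrier := {v | Function.IsPeriodicPt P m v}
  add_mem' := by
    intro a b ha hb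
    have h : ∀ (k : ℕ) (x y : V), P^[k] (x + y) = P^[k] x + P^[k] y := by
      intro k
      induction k with
      | zero => intro x y; rfl
      | succ k ih => intro x y; simp only [Function.iterate_succ, Function.comp_apply, map_add, ih]
    simp only [Set.mem_setOf_eq, Function.IsPeriodicPt, Function.IsFixedPt] at *
    rw [h, ha, hb]
  zero_mem' := by
    simp only [Set.mem_setOf_eq, Function.IsPeriodicPt, Function.IsFixedPt]
    exact Function.iterate_fixed (map_zero P) m
  smul_mem' := by
    intro c a ha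
    have h : ∀ (k : ℕ) (x : V), P^[k] (c • x) = c • P^[k] x := by
      intro k
      induction k with
      | zero => intro x; rfl
      | succ k ih => intro x; simp only [Function.iterate_succ, Function.comp_apply, map_smul, ih]
    simp only [Set.mem_setOf_eq, Function.IsPeriodicPt, Function.IsFixedPt] at *
    rw [h, ha]

theorem mem_per {P : V →ₗ[K] V} {m : ℕ} {v : V} : v ∈ per P m ↔ P^[m] v = v := Iff.rfl

theorem per_mono {P : V →ₗ[K] V} {m m' : ℕ} (h : m ∣ m') : per P m ≤ per P m' := by
  intro v hv
  exact Function.IsPeriodicPt.trans_dvd hv h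

theorem per_gcd (P : V →ₗ[K] V) (m m' : ℕ) : per P (Nat.gcd m m') = per P m ⊓ per P m' := by
  apply le_antisymm
  · exact le_inf (per_mono (Nat.gcd_dvd_left _ _)) (per_mono (Nat.gcd_dvd_right _ _))
  · rintro v ⟨h1, h2⟩
    exact Function.IsPeriodicPt.gcd h1 h2

/-- there is one period `M` which is a period of all periodic vectors. -/
theorem exists_period [FiniteDimensional K V] (P : V →ₗ[K] V) :
    ∃ M : ℕ, 0 < M ∧ ∀ m : ℕ, 0 < m → per P m ≤ per P M := by
  classical
  let S : Set ℕ := {d | ∃ M : ℕ, 0 < M ∧ finrank K (per P M) = d}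
  have hbd : BddAbove S := by
    refine ⟨finrank K V, ?_⟩
    rintro d ⟨M, -, rfl⟩
    exact Submodule.finrank_le _
  have hne : S.Nonempty := ⟨_, 1, one_pos, rfl⟩
  obtain ⟨M, hM, hd⟩ := Nat.sSup_mem hne hbd
  refine ⟨M, hM, fun m hm => ?_⟩
  have h1 : per P M ≤ per P (Nat.lcm m M) := per_mono (Nat.dvd_lcm_right _ _)
  have h2 : per P m ≤ per P (Nat.lcm m M) := per_mono (Nat.dvd_lcm_left _ _)
  have h3 : finrank K (per P (Nat.lcm m M)) ≤ finrank K (per P M) := by
    rw [hd]
    exact le_csSup hbd ⟨_, Nat.lcm_pos hm hM, rfl⟩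
  have h4 : per P M = per P (Nat.lcm m M) := Submodule.eq_of_le_of_finrank_le h1 h3
  rw [h4]
  exact h2

theorem per_eq_gcd {P : V →ₗ[K] V} {M : ℕ} (hM : ∀ m : ℕ, 0 < m → per P m ≤ per P M) {m : ℕ}
    (hm : 0 < m) : per P m = per P (Nat.gcd m M) := by
  rw [per_gcd]
  exact (inf_eq_left.2 (hM m hm)).symm

end Crest.Agent.R231.GMLinx102
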