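import Mathlib
import Crest.Agent.R231.GMLin_102

/-!
GM-A, part 2 (row 231): the discrete action `Fm D m p = ∑_{i in Z/Nm} D_i (p_i, p_{i+1})`.

* `Fm_fderiv2` : the Hessian at `0`;
* `exists_period_ker` : there is one `M > 0` such that for every `m > 0` each vector of the kernel
  of the Hessian of `Fm D m` at `0` has period `N * gcd m M`;
-/

set_option autoImplicit false

open scoped Topology
open Filter

namespace Crest.Agent.R231.GMRedx102

open Crest.Agent.R231.GMLinx102

variable {S : Type*} [NormedAddCommGroup S] [NormedSpace ℝ S]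

/-- reduction `Z/b → Z/a` for `a ∣ b`. -/
abbrev red (a b : ℕ) (h : a ∣ b) : ZMod b →+* ZMod a := ZMod.castHom h (ZMod a)

/-- the discrete action functional of `m` turns. -/
noncomputable def Fm {N : ℕ} (D : ZMod N → S × S → ℝ) (m : ℕ) [NeZero (N * m)]
    (p : ZMod (N * m) → S) : ℝ :=
  ∑ i : ZMod (N * m), D (red N (N * m) (dvd_mul_right N m) i) (p i, p (i + 1))

/-- `p ↦ (p i, p (i+1))`. -/
noncomputable def ev2 {k : ℕ} [NeZero k] (i : ZMod k) : (ZMod k → S) →L[ℝ] S × S :=
  (ContinuousLinearMap.proj (R := ℝ) (φ := fun _ : ZMod k => S) i).prod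
    (ContinuousLinearMap.proj (R := ℝ) (φ := fun _ : ZMod k => S) (i + 1))

@[simp] theorem ev2_apply {k : ℕ} [NeZero k] (i : ZMod k) (p : ZMod k → S) :
    ev2 i p = (p i, p (i + 1)) := rfl

/-- second derivative of `D i` at `(0,0)`. -/
noncomputable def H2 {N : ℕ} (D : ZMod N → S × S → ℝ) (i : ZMod N) :
    S × S →L[ℝ] S × S →L[ℝ] ℝ :=
  fderiv ℝ (fderiv ℝ (D i)) (0, 0)

section deriv

variable {N : ℕ} {D : ZMod N → S × S → ℝ} {m : ℕ} [NeZero (N * m)]

theorem eventually_hasFDerivAt (hD : ∀ i, ContDiffAt ℝ 2 (D i) (0, 0)) :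
    ∀ᶠ p in 𝓝 (0 : ZMod (N * m) → S),
      HasFDerivAt (Fm D m) (∑ i : ZMod (N * m),
        (fderiv ℝ (D (red N (N * m) (dvd_mul_right N m) i)) (ev2 i p)).comp (ev2 i)) p := by
  have h1 : ∀ i : ZMod (N * m), ∀ᶠ p in 𝓝 (0 : ZMod (N * m) → S),
      DifferentiableAt ℝ (D (red N (N * m) (dvd_mul_right N m) i)) (ev2 i p) := by
    intro i
    have h := (hD (red N (N * m) (dvd_mul_right N m) i)).eventually (by simp)
    have h' : Tendsto (fun p : ZMod (N * m) → S => ev2 i p) (𝓝 0) (𝓝 ((0 : S), (0 : S))) := by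
      have h0 := (ev2 (S := S) i).continuous.tendsto 0
      rw [map_zero] at h0
      exact h0
    exact (h'.eventually h).mono (fun p hp => hp.differentiableAt (by norm_num))
  filter_upwards [eventually_all.2 h1] with p hp
  have h2 : ∀ i ∈ (Finset.univ : Finset (ZMod (N * m))),
      HasFDerivAt (fun p : ZMod (N * m) → S =>
        D (red N (N * m) (dvd_mul_right N m) i) (p i, p (i + 1)))
      ((fderiv ℝ (D (red N (N * m) (dvd_mul_right N m) i)) (ev2 i p)).comp (ev2 i)) p := by
    intro i _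
    exact HasFDerivAt.comp p (hp i).hasFDerivAt (ev2 (S := S) i).hasFDerivAt
  exact HasFDerivAt.fun_sum h2

theorem Fm_fderiv2 (hD : ∀ i, ContDiffAt ℝ 2 (D i) (0, 0)) (u w : ZMod (N * m) → S) :
    fderiv ℝ (fderiv ℝ (Fm D m)) 0 u w =
      ∑ i : ZMod (N * m), H2 D (red N (N * m) (dvd_mul_right N m) i)
        (u i, u (i + 1)) (w i, w (i + 1)) := by
  have h1 : fderiv ℝ (Fm D m) =ᶠ[𝓝 0] fun p => ∑ i : ZMod (N * m),
        (fderiv ℝ (D (red N (N * m) (dvd_mul_right N m) i)) (ev2 i p)).comp (ev2 i) :=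
    (eventually_hasFDerivAt hD).mono (fun p hp => hp.fderiv)
  rw [h1.fderiv_eq]
  have h2 : ∀ i ∈ (Finset.univ : Finset (ZMod (N * m))),
      HasFDerivAt (fun p : ZMod (N * m) → S =>
        (fderiv ℝ (D (red N (N * m) (dvd_mul_right N m) i)) (ev2 i p)).comp (ev2 i))
      (((ContinuousLinearMap.compL ℝ (ZMod (N * m) → S) (S × S) ℝ).flip (ev2 i)).comp
        ((H2 D (red N (N * m) (dvd_mul_right N m) i)).comp (ev2 i))) 0 := by
    intro i _
    have h3 : HasFDerivAt (fderiv ℝ (D (red N (N * m) (dvd_mul_right N m) i)))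
        (H2 D (red N (N * m) (dvd_mul_right N m) i)) (ev2 i (0 : ZMod (N * m) → S)) := by
      have h4 : ContDiffAt ℝ 1 (fderiv ℝ (D (red N (N * m) (dvd_mul_right N m) i)))
          ((0 : S), (0 : S)) :=
        (hD (red N (N * m) (dvd_mul_right N m) i)).fderiv_right (by norm_num)
      have h5 := (h4.differentiableAt (by norm_num)).hasFDerivAt
      simpa [H2] using h5
    have h6 : HasFDerivAt (fun p : ZMod (N * m) → S =>
        fderiv ℝ (D (red N (N * m) (dvd_mul_right N m) i)) (ev2 i p))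
        ((H2 D (red N (N * m) (dvd_mul_right N m) i)).comp (ev2 i)) 0 :=
      HasFDerivAt.comp 0 h3 (ev2 (S := S) i).hasFDerivAt
    exact HasFDerivAt.comp (0 : ZMod (N * m) → S)
      (g := fun T => ((ContinuousLinearMap.compL ℝ (ZMod (N * m) → S) (S × S) ℝ).flip (ev2 i)) T)
      (ContinuousLinearMap.hasFDerivAt _) h6
  rw [(HasFDerivAt.fun_sum h2).fderiv]
  simp

end deriv

/-! ### bi-infinite Jacobi sequences -/

section jac

variable {N : ℕ} (D : ZMod N → S × S → ℝ)

/-- the bi-infinite sequences solving the linearised equation. -/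
noncomputable def Jac : Submodule ℝ (ℤ → S) where
  carrier := {u | ∀ (j : ℤ) (w : S),
    H2 D (j : ZMod N) (u j, u (j + 1)) (w, 0) +
      H2 D ((j - 1 : ℤ) : ZMod N) (u (j - 1), u j) (0, w) = 0}
  add_mem' := by
    intro a b ha hb j w
    have h1 := ha j w
    have h2 := hb j w
    have e1 : ((a + b) j, (a + b) (j + 1)) = (a j, a (j + 1)) + (b j, b (j + 1)) := rfl
    have e2 : ((a + b) (j - 1), (a + b) j) = (a (j - 1), a j) + (b (j - 1), b j) := rfl
    rw [e1, e2, map_add, map_add]
    simp only [ContinuousLinearMap.add_apply]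
    linarith
  zero_mem' := by
    intro j w
    have e1 : ((0 : ℤ → S) j, (0 : ℤ → S) (j + 1)) = 0 := rfl
    have e2 : ((0 : ℤ → S) (j - 1), (0 : ℤ → S) j) = 0 := rfl
    rw [e1, e2]
    simp
  smul_mem' := by
    intro c a ha j w
    have h1 := ha j w
    have e1 : ((c • a) j, (c • a) (j + 1)) = c • (a j, a (j + 1)) := rfl
    have e2 : ((c • a) (j - 1), (c • a) j) = c • (a (j - 1), a j) := rfl
    rw [e1, e2, map_smul, map_smul]
    simp only [ContinuousLinearMap.smul_apply, smul_eq_mul]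
    rw [← mul_add, h1, mul_zero]

variable {D}

theorem mem_Jac {u : ℤ → S} : u ∈ Jac D ↔ ∀ (j : ℤ) (w : S),
    H2 D (j : ZMod N) (u j, u (j + 1)) (w, 0) +
      H2 D ((j - 1 : ℤ) : ZMod N) (u (j - 1), u j) (0, w) = 0 := Iff.rfl

theorem H2_symm (hD : ∀ i, ContDiffAt ℝ 2 (D i) (0, 0)) (i : ZMod N) (x y : S × S) :
    H2 D i x y = H2 D i y x := by
  have h := (hD i).isSymmSndFDerivAt (by simp)
  exact h x y

/-- nondegenerate coupling, other side -/
theorem nondeg' [FiniteDimensional ℝ S] (hD : ∀ i, ContDiffAt ℝ 2 (D i) (0, 0))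
    (hB : ∀ i x, (∀ w, H2 D i (0, x) (w, 0) = 0) → x = 0) (i : ZMod N) (x : S)
    (hx : ∀ w, H2 D i (x, 0) (0, w) = 0) : x = 0 := by
  classical
  let B : S →ₗ[ℝ] Module.Dual ℝ S :=
    { toFun := fun w =>
        { toFun := fun y => H2 D i (0, w) (y, 0)
          map_add' := by
            intro a b
            rw [← map_add]
            simp
          map_smul' := by
            intro c a
            rw [← map_smul]
            simp }
      map_add' := by
        intro a b
        ext y
        have e : ((0 : S), a + b) = (0, a) + (0, b) := by simp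
        simp only [LinearMap.coe_mk, AddHom.coe_mk, LinearMap.add_apply, e, map_add,
          ContinuousLinearMap.add_apply]
      map_smul' := by
        intro c a
        ext y
        have e : ((0 : S), c • a) = c • ((0 : S), a) := by simp
        simp only [LinearMap.coe_mk, AddHom.coe_mk, e, map_smul,
          ContinuousLinearMap.smul_apply, RingHom.id_apply, LinearMap.smul_apply] }
  have hinj : Function.Injective B := by
    rw [injective_iff_map_eq_zero]
    intro w hw
    apply hB i w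
    intro y
    exact DFunLike.congr_fun hw y
  have hsurj : Function.Surjective B :=
    (LinearMap.injective_iff_surjective_of_finrank_eq_finrank
      (Subspace.dual_finrank_eq).symm).1 hinj
  rw [← Module.forall_dual_apply_eq_zero_iff ℝ]
  intro φ
  obtain ⟨w, rfl⟩ := hsurj φ
  change H2 D i (0, w) (x, 0) = 0
  rw [H2_symm hD]
  exact hx w

theorem Jac_zero [FiniteDimensional ℝ S] (hD : ∀ i, ContDiffAt ℝ 2 (D i) (0, 0))
    (hB : ∀ i x, (∀ w, H2 D i (0, x) (w, 0) = 0) → x = 0) {u : ℤ → S} (hu : u ∈ Jac D)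
    (h0 : u 0 = 0) (h1 : u 1 = 0) : u = 0 := by
  have key : ∀ j : ℤ, u j = 0 ∧ u (j + 1) = 0 := by
    intro j
    induction j using Int.induction_on with
    | zero => exact ⟨h0, by simpa using h1⟩
    | succ k ih =>
      refine ⟨ih.2, ?_⟩
      apply hB (((k : ℤ) + 1 : ℤ) : ZMod N)
      intro w
      have h := hu ((k : ℤ) + 1) w
      have e : (k : ℤ) + 1 - 1 = k := by ring
      rw [e, ih.2, ih.1] at h
      have e0 : ((0 : S), (0 : S)) = 0 := rfl
      rw [e0, map_zero] at h
      simpa using h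
    | pred k ih =>
      have e : -(k : ℤ) - 1 + 1 = -k := by ring
      refine ⟨?_, by rw [e]; exact ih.1⟩
      apply nondeg' hD hB ((-(k : ℤ) - 1 : ℤ) : ZMod N)
      intro w
      have h := hu (-(k : ℤ)) w
      rw [ih.1, ih.2] at h
      have e0 : ((0 : S), (0 : S)) = 0 := rfl
      rw [e0, map_zero] at h
      simpa using h
  funext j
  exact (key j).1

theorem finiteDimensional_Jac [FiniteDimensional ℝ S]
    (hD : ∀ i, ContDiffAt ℝ 2 (D i) (0, 0))
    (hB : ∀ i x, (∀ w, H2 D i (0, x) (w, 0) = 0) → x = 0) : FiniteDimensional ℝ (Jac D) := by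
  let φ : Jac D →ₗ[ℝ] S × S :=
    { toFun := fun u => (u.1 0, u.1 1)
      map_add' := fun a b => rfl
      map_smul' := fun c a => rfl }
  have hφ : Function.Injective φ := by
    rw [injective_iff_map_eq_zero]
    intro u hu
    have h0 : u.1 0 = 0 := congrArg Prod.fst hu
    have h1 : u.1 1 = 0 := congrArg Prod.snd hu
    exact Subtype.ext (Jac_zero hD hB u.2 h0 h1)
  exact FiniteDimensional.of_injective φ hφ

/-- shift by `N`. -/
noncomputable def shiftN : Jac D →ₗ[ℝ] Jac D where
  toFun u := ⟨fun j => u.1 (j + N), by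
    intro j w
    have h := u.2 (j + N) w
    have e1 : ((j + N : ℤ) : ZMod N) = (j : ZMod N) := by push_cast; simp
    have e2 : ((j + N - 1 : ℤ) : ZMod N) = ((j - 1 : ℤ) : ZMod N) := by push_cast; simp
    have e3 : j + (N : ℤ) + 1 = j + 1 + N := by ring
    have e4 : j + (N : ℤ) - 1 = j - 1 + N := by ring
    rw [e1, e2, e3, e4] at h
    exact h⟩
  map_add' a b := rfl
  map_smul' c a := rfl

theorem shiftN_iterate (k : ℕ) (u : Jac D) (j : ℤ) :
    ((shiftN (D := D))^[k] u).1 j = u.1 (j + N * k) := by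
  induction k generalizing j with
  | zero => simp
  | succ k ih =>
    rw [Function.iterate_succ_apply']
    change ((shiftN (D := D))^[k] u).1 (j + N) = _
    rw [ih]
    congr 1
    push_cast
    ring

end jac

section kernel

variable {N : ℕ} {D : ZMod N → S × S → ℝ}

/-- a kernel vector of the Hessian gives a periodic Jacobi sequence. -/
theorem ker_mem_Jac {m : ℕ} [NeZero (N * m)] (hD : ∀ i, ContDiffAt ℝ 2 (D i) (0, 0))
    {u : ZMod (N * m) → S}
    (hu : ∀ w, fderiv ℝ (fderiv ℝ (Fm D m)) 0 u w = 0) :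
    (fun j : ℤ => u (j : ZMod (N * m))) ∈ Jac D := by
  classical
  intro j w
  have h := hu (Pi.single (j : ZMod (N * m)) w)
  rw [Fm_fderiv2 hD] at h
  set W : ZMod (N * m) → S := Pi.single (j : ZMod (N * m)) w with hW
  have h1 : ∑ i : ZMod (N * m), H2 D (red N (N * m) (dvd_mul_right N m) i)
        (u i, u (i + 1)) (W i, W (i + 1)) =
      ∑ i : ZMod (N * m), H2 D (red N (N * m) (dvd_mul_right N m) i)
        (u i, u (i + 1)) (W i, 0) +
      ∑ i : ZMod (N * m), H2 D (red N (N * m) (dvd_mul_right N m) i)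
        (u i, u (i + 1)) (0, W (i + 1)) := by
    rw [← Finset.sum_add_distrib]
    apply Finset.sum_congr rfl
    intro i _
    rw [← map_add]
    simp
  have h2 : ∑ i : ZMod (N * m), H2 D (red N (N * m) (dvd_mul_right N m) i)
        (u i, u (i + 1)) (W i, 0) =
      H2 D (red N (N * m) (dvd_mul_right N m) (j : ZMod (N * m)))
        (u (j : ZMod (N * m)), u ((j : ZMod (N * m)) + 1)) (w, 0) := by
    rw [Finset.sum_eq_single (j : ZMod (N * m))]
    · rw [hW, Pi.single_eq_same]
    · intro i _ hi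
      rw [hW, Pi.single_eq_of_ne hi]
      have e0 : ((0 : S), (0 : S)) = 0 := rfl
      rw [e0, map_zero]
    · intro h
      exact absurd (Finset.mem_univ _) h
  have h3 : ∑ i : ZMod (N * m), H2 D (red N (N * m) (dvd_mul_right N m) i)
        (u i, u (i + 1)) (0, W (i + 1)) =
      H2 D (red N (N * m) (dvd_mul_right N m) ((j - 1 : ℤ) : ZMod (N * m)))
        (u ((j - 1 : ℤ) : ZMod (N * m)), u (j : ZMod (N * m))) (0, w) := by
    rw [Finset.sum_eq_single (((j - 1 : ℤ) : ZMod (N * m)))]
    · have e : (((j - 1 : ℤ) : ZMod (N * m))) + 1 = (j : ZMod (N * m)) := by push_cast; ring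
      rw [e, hW, Pi.single_eq_same]
    · intro i _ hi
      have hi' : i + 1 ≠ (j : ZMod (N * m)) := by
        intro h'
        apply hi
        push_cast
        rw [← h']
        ring
      rw [hW, Pi.single_eq_of_ne hi']
      have e0 : ((0 : S), (0 : S)) = 0 := rfl
      rw [e0, map_zero]
    · intro h
      exact absurd (Finset.mem_univ _) h
  rw [h1, h2, h3] at h
  simp only [map_intCast] at h
  have e5 : (((j + 1 : ℤ)) : ZMod (N * m)) = (j : ZMod (N * m)) + 1 := by push_cast; rfl
  rw [← e5] at h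
  exact h

/-- **Periods of the null vectors.** -/
theorem exists_period_ker [FiniteDimensional ℝ S] (hD : ∀ i, ContDiffAt ℝ 2 (D i) (0, 0))
    (hB : ∀ i x, (∀ w, H2 D i (0, x) (w, 0) = 0) → x = 0) :
    ∃ M : ℕ, 0 < M ∧ ∀ (m : ℕ) [NeZero (N * m)] (u : ZMod (N * m) → S),
      (∀ w, fderiv ℝ (fderiv ℝ (Fm D m)) 0 u w = 0) →
      ∀ i, u (i + ((N * Nat.gcd m M : ℕ) : ZMod (N * m))) = u i := by
  haveI := finiteDimensional_Jac hD hB
  obtain ⟨M, hM, hper⟩ := exists_period (shiftN (D := D))
  refine ⟨M, hM, ?_⟩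
  intro m hm u hu i
  have hm0 : 0 < m := by
    rcases Nat.eq_zero_or_pos m with h | h
    · exact absurd (by rw [h, Nat.mul_zero]) hm.out
    · exact h
  let v : Jac D := ⟨_, ker_mem_Jac hD hu⟩
  have hv : v ∈ per (shiftN (D := D)) m := by
    rw [mem_per]
    apply Subtype.ext
    funext j
    rw [shiftN_iterate]
    change u ((j + N * m : ℤ) : ZMod (N * m)) = u (j : ZMod (N * m))
    congr 1
    have : (((N * m : ℕ) : ℤ) : ZMod (N * m)) = 0 := by
      rw [Int.cast_natCast]; exact ZMod.natCast_self _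
    push_cast at this ⊢
    rw [this, add_zero]
  rw [per_eq_gcd hper hm0, mem_per] at hv
  obtain ⟨j, rfl⟩ := ZMod.intCast_surjective i
  have h := congrFun (congrArg Subtype.val hv) j
  rw [shiftN_iterate] at h
  change u ((j + N * (Nat.gcd m M : ℕ) : ℤ) : ZMod (N * m)) = u (j : ZMod (N * m)) at h
  rw [← h]
  congr 1
  push_cast
  rfl

end kernel

end Crest.Agent.R231.GMRedx102
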