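import Mathlib
import Crest.Agent.R231.GMRed_102

/-!
GM-A, part 3 (row 231): the product form.

For `m = m0 * q` the `Z/q`-symmetry of `Fm D m` (shift by `N*m0`) splits
`(ZMod (N*m) → S) = ι (ZMod (N*m0) → S) ⊕ Y` with `Y` = zero average along the shift, and
* `Fm D m (ι x) = q * Fm D m0 x`,
* the derivative of `Fm D m` at `ι x` vanishes on `Y` for every `x`,
* the Hessian at `0` is nondegenerate on `Y` if all its null vectors are `N*m0`-periodic.
-/

set_option autoImplicit false

open scoped Topology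
open Filter

namespace Crest.Agent.R231.GMProdx102

open Crest.Agent.R231.GMLinx102 Crest.Agent.R231.GMRedx102

variable {S : Type*} [NormedAddCommGroup S] [NormedSpace ℝ S]

section zmod

variable {a b : ℕ} (h : a ∣ b)

theorem red_surj : Function.Surjective (red a b h) := ZMod.castHom_surjective h

theorem red_natCast_self : red a b h ((a : ℕ) : ZMod b) = 0 := by
  rw [map_natCast]
  exact ZMod.natCast_self a

theorem red_add_mul (i : ZMod b) (k : ℕ) : red a b h (i + ((a * k : ℕ) : ZMod b)) = red a b h i := by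
  rw [map_add, map_natCast]
  have : ((a * k : ℕ) : ZMod a) = 0 := by
    push_cast
    simp
  rw [this, add_zero]

theorem exists_of_red_eq [NeZero b] {i i' : ZMod b} (hi : red a b h i = red a b h i') :
    ∃ k : ℕ, i' = i + ((a * k : ℕ) : ZMod b) := by
  obtain ⟨x, rfl⟩ := ZMod.intCast_surjective i
  obtain ⟨y, rfl⟩ := ZMod.intCast_surjective i'
  rw [map_intCast, map_intCast, ZMod.intCast_eq_intCast_iff_dvd_sub] at hi
  obtain ⟨c, hc⟩ := hi
  have hb : 0 < b := Nat.pos_of_ne_zero (NeZero.ne b)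
  refine ⟨(c % b).toNat, ?_⟩
  have h1 : ((c % b).toNat : ℤ) = c % b := Int.toNat_of_nonneg (Int.emod_nonneg _ (by positivity))
  have h2 : (((c % b).toNat : ℕ) : ZMod b) = (c : ZMod b) := by
    rw [← Int.cast_natCast, h1]
    exact (ZMod.intCast_mod c b)
  push_cast
  rw [h2]
  have h3 : y = x + a * c := by linarith
  rw [h3]
  push_cast
  ring

end zmod

section iota

variable {a b : ℕ} (h : a ∣ b)

/-- repetition of a polygon. -/
noncomputable def iota [NeZero a] [NeZero b] : (ZMod a → S) →L[ℝ] (ZMod b → S) :=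
  ContinuousLinearMap.pi (fun i : ZMod b =>
    ContinuousLinearMap.proj (R := ℝ) (φ := fun _ : ZMod a => S) (red a b h i))

@[simp] theorem iota_apply [NeZero a] [NeZero b] (x : ZMod a → S) (i : ZMod b) :
    iota h x i = x (red a b h i) := rfl

theorem iota_injective [NeZero a] [NeZero b] :
    Function.Injective (iota (S := S) h) := by
  intro x y hxy
  funext j
  obtain ⟨i, rfl⟩ := red_surj h j
  exact congrFun hxy i

/-- shift by `a`. -/
noncomputable def shE (a b : ℕ) [NeZero b] : (ZMod b → S) ≃L[ℝ] (ZMod b → S) :=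
  ContinuousLinearEquiv.piCongrLeft ℝ (fun _ : ZMod b => S)
    (Equiv.addRight (-((a : ℕ) : ZMod b)))

@[simp] theorem shE_apply [NeZero b] (p : ZMod b → S) (i : ZMod b) :
    shE a b p i = p (i + ((a : ℕ) : ZMod b)) := by
  have h1 := Equiv.piCongrLeft_apply_apply (P := fun _ : ZMod b => S)
    (e := Equiv.addRight (-((a : ℕ) : ZMod b))) p (i + ((a : ℕ) : ZMod b))
  simp only [Equiv.coe_addRight, add_neg_cancel_right] at h1
  exact h1

theorem shE_iterate [NeZero b] (k : ℕ) (p : ZMod b → S) (i : ZMod b) :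
    ((shE a b : (ZMod b → S) → (ZMod b → S))^[k] p) i = p (i + ((a * k : ℕ) : ZMod b)) := by
  induction k generalizing i with
  | zero => simp
  | succ k ih =>
    rw [Function.iterate_succ_apply', shE_apply, ih]
    congr 1
    push_cast
    ring

theorem shE_iota [NeZero a] [NeZero b] (x : ZMod a → S) :
    shE a b (iota h x) = iota h x := by
  funext i
  rw [shE_apply, iota_apply, iota_apply]
  have := red_add_mul h i 1
  rw [mul_one] at this
  rw [this]

/-- the vectors with zero average along the shift by `a` (`q` steps). -/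
def Yq (S : Type*) [NormedAddCommGroup S] [NormedSpace ℝ S] (a b q : ℕ) :
    Submodule ℝ (ZMod b → S) where
  carrier := {p | ∀ i, ∑ k ∈ Finset.range q, p (i + ((a * k : ℕ) : ZMod b)) = 0}
  add_mem' := by
    intro x y hx hy i
    have := congrArg₂ (· + ·) (hx i) (hy i)
    simp only [← Finset.sum_add_distrib, add_zero] at this
    exact this
  zero_mem' := by
    intro i
    simp
  smul_mem' := by
    intro c x hx i
    have := congrArg (c • ·) (hx i)
    simp only [Finset.smul_sum, smul_zero] at this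
    exact this

theorem mem_Yq {q : ℕ} {p : ZMod b → S} :
    p ∈ Yq S a b q ↔ ∀ i, ∑ k ∈ Finset.range q, p (i + ((a * k : ℕ) : ZMod b)) = 0 := Iff.rfl

theorem sum_iterate_Yq [NeZero b] {q : ℕ} {p : ZMod b → S} (hp : p ∈ Yq S a b q) :
    ∑ k ∈ Finset.range q, ((shE a b : (ZMod b → S) → (ZMod b → S))^[k] p) = 0 := by
  funext i
  rw [Finset.sum_apply]
  simp only [shE_iterate]
  exact hp i

/-- average -/
noncomputable def avg (a q : ℕ) (p : ZMod b → S) (i : ZMod b) : S :=
  (q : ℝ)⁻¹ • ∑ k ∈ Finset.range q, p (i + ((a * k : ℕ) : ZMod b))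

theorem avg_add_a {q : ℕ} (hb : b = a * q) (p : ZMod b → S) (i : ZMod b) :
    avg a q p (i + ((a : ℕ) : ZMod b)) = avg a q p i := by
  unfold avg
  congr 1
  have h1 : ∀ k ∈ Finset.range q, p (i + ((a : ℕ) : ZMod b) + ((a * k : ℕ) : ZMod b)) =
      p (i + ((a * (k + 1) : ℕ) : ZMod b)) := by
    intro k _
    congr 1
    push_cast
    ring
  rw [Finset.sum_congr rfl h1]
  have h2 := Finset.sum_range_succ' (fun k => p (i + ((a * k : ℕ) : ZMod b))) q
  have h3 := Finset.sum_range_succ (fun k => p (i + ((a * k : ℕ) : ZMod b))) q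
  have h4 : p (i + ((a * q : ℕ) : ZMod b)) = p (i + ((a * 0 : ℕ) : ZMod b)) := by
    congr 2
    rw [← hb, ZMod.natCast_self, mul_zero, Nat.cast_zero]
  rw [h4] at h3
  exact add_right_cancel (h2.symm.trans h3)

theorem avg_add {q : ℕ} (hb : b = a * q) (p : ZMod b → S) (i : ZMod b) (k : ℕ) :
    avg a q p (i + ((a * k : ℕ) : ZMod b)) = avg a q p i := by
  induction k with
  | zero => simp
  | succ k ih =>
    rw [← ih, ← avg_add_a hb p (i + ((a * k : ℕ) : ZMod b))]
    congr 1
    push_cast
    ring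

/-- the projection on the repeated polygons, as a polygon with `a` vertices. -/
noncomputable def prX (h : a ∣ b) (q : ℕ) (p : ZMod b → S) (j : ZMod a) : S :=
  avg a q p (Classical.choose (red_surj h j))

theorem prX_red [NeZero b] {q : ℕ} (hb : b = a * q) (p : ZMod b → S) (i : ZMod b) :
    prX h q p (red a b h i) = avg a q p i := by
  unfold prX
  have h1 := Classical.choose_spec (red_surj h (red a b h i))
  obtain ⟨k, hk⟩ := exists_of_red_eq h h1
  conv_rhs => rw [hk]
  rw [avg_add hb]

theorem avg_iota [NeZero a] [NeZero b] {q : ℕ} (hb : b = a * q) (x : ZMod a → S) (i : ZMod b) :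
    avg a q (iota h x) i = x (red a b h i) := by
  unfold avg
  have h1 : ∀ k ∈ Finset.range q, iota h x (i + ((a * k : ℕ) : ZMod b)) = x (red a b h i) := by
    intro k _
    rw [iota_apply, red_add_mul]
  rw [Finset.sum_congr rfl h1, Finset.sum_const, Finset.card_range, ← Nat.cast_smul_eq_nsmul ℝ,
    smul_smul, inv_mul_cancel₀, one_smul]
  have : q ≠ 0 := by
    rintro rfl
    exact NeZero.ne b (by rw [hb, mul_zero])
  exact_mod_cast this

theorem avg_eq_zero {q : ℕ} {p : ZMod b → S} (hp : p ∈ Yq S a b q) (i : ZMod b) :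
    avg a q p i = 0 := by
  unfold avg
  rw [hp i, smul_zero]

theorem sub_avg_mem [NeZero a] [NeZero b] {q : ℕ} (hb : b = a * q) (p : ZMod b → S) :
    p - iota h (prX h q p) ∈ Yq S a b q := by
  intro i
  have h0 : (q : ℝ) ≠ 0 := by
    have : q ≠ 0 := by
      rintro rfl
      exact NeZero.ne b (by rw [hb, mul_zero])
    exact_mod_cast this
  simp only [Pi.sub_apply, Finset.sum_sub_distrib, iota_apply]
  have h1 : ∀ k ∈ Finset.range q, prX h q p (red a b h (i + ((a * k : ℕ) : ZMod b))) =
      avg a q p i := by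
    intro k _
    rw [red_add_mul, prX_red h hb]
  rw [Finset.sum_congr rfl h1, Finset.sum_const, Finset.card_range, ← Nat.cast_smul_eq_nsmul ℝ]
  unfold avg
  rw [smul_smul, mul_inv_cancel₀ h0, one_smul, sub_self]

/-- **the splitting** `X × Y ≃ (ZMod b → S)`, `(x, y) ↦ ι x + y`. -/
noncomputable def splitE [NeZero a] [NeZero b] [FiniteDimensional ℝ S] {q : ℕ} (hb : b = a * q) :
    ((ZMod a → S) × Yq S a b q) ≃L[ℝ] (ZMod b → S) :=
  LinearEquiv.toContinuousLinearEquiv
    (LinearEquiv.ofBijective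
      ((iota (S := S) h).toLinearMap.coprod (Yq S a b q).subtype) (by
        constructor
        · rw [injective_iff_map_eq_zero]
          rintro ⟨x, y⟩ hxy
          have hxy' : iota h x + (y : ZMod b → S) = 0 := hxy
          have hx : x = 0 := by
            funext j
            obtain ⟨i, rfl⟩ := red_surj h j
            have h1 := avg_iota h hb x i
            have h2 : iota h x = -(y : ZMod b → S) := eq_neg_of_add_eq_zero_left hxy'
            rw [h2] at h1
            rw [← h1]
            exact avg_eq_zero (Submodule.neg_mem _ y.2) i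
          subst hx
          have hy : (y : ZMod b → S) = 0 := by simpa using hxy'
          exact Prod.ext rfl (Subtype.ext hy)
        · intro p
          refine ⟨(prX h q p, ⟨_, sub_avg_mem h hb p⟩), ?_⟩
          change iota h (prX h q p) + (p - iota h (prX h q p)) = p
          abel))

@[simp] theorem splitE_apply [NeZero a] [NeZero b] [FiniteDimensional ℝ S] {q : ℕ}
    (hb : b = a * q) (z : (ZMod a → S) × Yq S a b q) :
    splitE h hb z = iota h z.1 + (z.2 : ZMod b → S) := rfl

end iota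

section action

variable {N : ℕ} {D : ZMod N → S × S → ℝ} {m0 m q : ℕ}

theorem dvdNm (hm : m = m0 * q) : N * m0 ∣ N * m := by
  rw [hm, ← mul_assoc]
  exact dvd_mul_right _ _

theorem red_red {a b c : ℕ} (h1 : a ∣ b) (h2 : b ∣ c) (i : ZMod c) :
    red a b h1 (red b c h2 i) = red a c (h1.trans h2) i := by
  obtain ⟨x, rfl⟩ := ZMod.intCast_surjective i
  rw [map_intCast, map_intCast, map_intCast]

/-- cardinality of the fibres of the reduction. -/
theorem sum_red {a b : ℕ} [NeZero a] [NeZero b] (h : a ∣ b) {q : ℕ} (hb : b = a * q)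
    (g : ZMod a → ℝ) : ∑ i : ZMod b, g (red a b h i) = q * ∑ j : ZMod a, g j := by
  classical
  rw [← Finset.sum_fiberwise (s := Finset.univ) (g := fun i : ZMod b => red a b h i)]
  have hcard : ∀ j : ZMod a, (Finset.univ.filter (fun i : ZMod b => red a b h i = j)).card =
      (Finset.univ.filter (fun i : ZMod b => red a b h i = 0)).card := by
    intro j
    exact AddMonoidHom.card_fiber_eq_of_mem_range (red a b h).toAddMonoidHom
      (red_surj h j) (red_surj h 0)
  have h0 : a * (Finset.univ.filter (fun i : ZMod b => red a b h i = 0)).card = a * q := by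
    rw [← hb]
    have h1 : (Finset.univ : Finset (ZMod b)).card = ∑ j : ZMod a,
        (Finset.univ.filter (fun i : ZMod b => red a b h i = j)).card :=
      Finset.card_eq_sum_card_fiberwise (fun x _ => Finset.mem_coe.2 (Finset.mem_univ _))
    rw [Finset.card_univ, ZMod.card, Finset.sum_congr rfl (fun j _ => hcard j), Finset.sum_const,
      Finset.card_univ, ZMod.card, smul_eq_mul] at h1
    exact h1.symm
  have h2 := Nat.eq_of_mul_eq_mul_left (Nat.pos_of_ne_zero (NeZero.ne a)) h0
  rw [Finset.mul_sum]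
  apply Finset.sum_congr rfl
  intro j _
  have h3 : ∀ i ∈ Finset.univ.filter (fun i : ZMod b => red a b h i = j),
      g (red a b h i) = g j := by
    intro i hi
    rw [(Finset.mem_filter.1 hi).2]
  rw [Finset.sum_congr rfl h3, Finset.sum_const, hcard, h2, nsmul_eq_mul]

theorem Fm_iota [NeZero (N * m0)] [NeZero (N * m)] (hm : m = m0 * q)
    (x : ZMod (N * m0) → S) :
    Fm D m (iota (dvdNm hm) x) = q * Fm D m0 x := by
  have hb : N * m = (N * m0) * q := by rw [hm, mul_assoc]
  have h1 := sum_red (dvdNm (N := N) hm) hb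
    (fun j : ZMod (N * m0) => D (red N (N * m0) (dvd_mul_right N m0) j) (x j, x (j + 1)))
  unfold Fm
  rw [← h1]
  apply Finset.sum_congr rfl
  intro i _
  rw [iota_apply, iota_apply, map_add, map_one, red_red]

theorem Fm_shift [NeZero (N * m0)] [NeZero (N * m)] (hm : m = m0 * q)
    (p : ZMod (N * m) → S) : Fm D m (shE (N * m0) (N * m) p) = Fm D m p := by
  have key := Equiv.sum_comp (Equiv.addRight ((N * m0 : ℕ) : ZMod (N * m)))
    (fun i : ZMod (N * m) => D (red N (N * m) (dvd_mul_right N m) i) (p i, p (i + 1)))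
  refine Eq.trans (Finset.sum_congr rfl ?_) key
  intro i _
  simp only [shE_apply, Equiv.coe_addRight]
  rw [red_add_mul]
  have h2 : i + 1 + ((N * m0 : ℕ) : ZMod (N * m)) = i + ((N * m0 : ℕ) : ZMod (N * m)) + 1 := by
    ring
  rw [h2]

theorem fderiv_shift [NeZero (N * m0)] [NeZero (N * m)] (hm : m = m0 * q)
    (p u : ZMod (N * m) → S) :
    fderiv ℝ (Fm D m) (shE (N * m0) (N * m) p) (shE (N * m0) (N * m) u) =
      fderiv ℝ (Fm D m) p u := by
  have h1 : (Fm D m) ∘ (shE (N * m0) (N * m) : (ZMod (N * m) → S) ≃L[ℝ] (ZMod (N * m) → S)) =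
      Fm D m := by
    funext p
    exact Fm_shift hm p
  have h2 := (shE (N * m0) (N * m) : (ZMod (N * m) → S) ≃L[ℝ] (ZMod (N * m) → S)).comp_right_fderiv
    (f := Fm D m) (x := p)
  rw [h1] at h2
  rw [h2]
  rfl

/-- the derivative vanishes on `Y` at every repeated polygon. -/
theorem fderiv_Y [NeZero (N * m0)] [NeZero (N * m)] (hm : m = m0 * q)
    (x : ZMod (N * m0) → S) {y : ZMod (N * m) → S} (hy : y ∈ Yq S (N * m0) (N * m) q) :
    fderiv ℝ (Fm D m) (iota (dvdNm hm) x) y = 0 := by
  have h1 : ∀ k : ℕ, fderiv ℝ (Fm D m) (iota (dvdNm hm) x)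
      ((shE (N * m0) (N * m) : (ZMod (N * m) → S) → (ZMod (N * m) → S))^[k] y) =
      fderiv ℝ (Fm D m) (iota (dvdNm hm) x) y := by
    intro k
    induction k with
    | zero => rfl
    | succ k ih =>
      rw [Function.iterate_succ_apply', ← ih]
      conv_lhs => rw [← shE_iota (dvdNm hm) x]
      exact fderiv_shift hm _ _
  have h2 := congrArg (fderiv ℝ (Fm D m) (iota (dvdNm hm) x)) (sum_iterate_Yq hy)
  rw [map_sum, map_zero, Finset.sum_congr rfl (fun k _ => h1 k), Finset.sum_const,
    Finset.card_range, nsmul_eq_mul] at h2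
  have hq : (q : ℝ) ≠ 0 := by
    have : q ≠ 0 := by
      rintro rfl
      exact NeZero.ne (N * m) (by rw [hm, mul_zero, mul_zero])
    exact_mod_cast this
  exact (mul_eq_zero.1 h2).resolve_left hq

theorem hess_shift [NeZero (N * m0)] [NeZero (N * m)] (hm : m = m0 * q)
    (hD : ∀ i, ContDiffAt ℝ 2 (D i) (0, 0)) (u w : ZMod (N * m) → S) :
    fderiv ℝ (fderiv ℝ (Fm D m)) 0 (shE (N * m0) (N * m) u) (shE (N * m0) (N * m) w) =
      fderiv ℝ (fderiv ℝ (Fm D m)) 0 u w := by
  rw [Fm_fderiv2 hD, Fm_fderiv2 hD]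
  have key := Equiv.sum_comp (Equiv.addRight ((N * m0 : ℕ) : ZMod (N * m)))
    (fun i : ZMod (N * m) => H2 D (red N (N * m) (dvd_mul_right N m) i)
      (u i, u (i + 1)) (w i, w (i + 1)))
  refine Eq.trans (Finset.sum_congr rfl ?_) key
  intro i _
  simp only [shE_apply, Equiv.coe_addRight]
  rw [red_add_mul]
  have h2 : i + 1 + ((N * m0 : ℕ) : ZMod (N * m)) = i + ((N * m0 : ℕ) : ZMod (N * m)) + 1 := by
    ring
  rw [h2]

/-- `X` and `Y` are orthogonal for the Hessian. -/
theorem hess_orth [NeZero (N * m0)] [NeZero (N * m)] (hm : m = m0 * q)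
    (hD : ∀ i, ContDiffAt ℝ 2 (D i) (0, 0))
    (x : ZMod (N * m0) → S) {y : ZMod (N * m) → S} (hy : y ∈ Yq S (N * m0) (N * m) q) :
    fderiv ℝ (fderiv ℝ (Fm D m)) 0 y (iota (dvdNm hm) x) = 0 := by
  have h1 : ∀ k : ℕ, fderiv ℝ (fderiv ℝ (Fm D m)) 0
      ((shE (N * m0) (N * m) : (ZMod (N * m) → S) → (ZMod (N * m) → S))^[k] y)
        (iota (dvdNm hm) x) =
      fderiv ℝ (fderiv ℝ (Fm D m)) 0 y (iota (dvdNm hm) x) := by
    intro k
    induction k with
    | zero => rfl
    | succ k ih =>
      rw [Function.iterate_succ_apply', ← ih]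
      conv_lhs => rw [← shE_iota (dvdNm hm) x]
      exact hess_shift hm hD _ _
  have h2 := congrArg (fun z => fderiv ℝ (fderiv ℝ (Fm D m)) 0 z (iota (dvdNm hm) x))
    (sum_iterate_Yq hy)
  simp only [map_sum, map_zero] at h2
  rw [show (∑ k ∈ Finset.range q, fderiv ℝ (fderiv ℝ (Fm D m)) 0
      ((shE (N * m0) (N * m) : (ZMod (N * m) → S) → (ZMod (N * m) → S))^[k] y))
        (iota (dvdNm hm) x) = ∑ k ∈ Finset.range q, fderiv ℝ (fderiv ℝ (Fm D m)) 0
      ((shE (N * m0) (N * m) : (ZMod (N * m) → S) → (ZMod (N * m) → S))^[k] y)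
        (iota (dvdNm hm) x) from by simp,
    Finset.sum_congr rfl (fun k _ => h1 k), Finset.sum_const,
    Finset.card_range, nsmul_eq_mul] at h2
  have hq : (q : ℝ) ≠ 0 := by
    have : q ≠ 0 := by
      rintro rfl
      exact NeZero.ne (N * m) (by rw [hm, mul_zero, mul_zero])
    exact_mod_cast this
  exact (mul_eq_zero.1 h2).resolve_left hq

/-- **nondegeneracy on `Y`**. -/
theorem hess_Y_nondeg [NeZero (N * m0)] [NeZero (N * m)] (hm : m = m0 * q)
    (hD : ∀ i, ContDiffAt ℝ 2 (D i) (0, 0))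
    (hker : ∀ u : ZMod (N * m) → S, (∀ w, fderiv ℝ (fderiv ℝ (Fm D m)) 0 u w = 0) →
      ∀ i, u (i + ((N * m0 : ℕ) : ZMod (N * m))) = u i)
    {y : ZMod (N * m) → S} (hy : y ∈ Yq S (N * m0) (N * m) q)
    (h0 : ∀ y' ∈ Yq S (N * m0) (N * m) q, fderiv ℝ (fderiv ℝ (Fm D m)) 0 y y' = 0) : y = 0 := by
  have hb : N * m = (N * m0) * q := by rw [hm, mul_assoc]
  have hq : (q : ℝ) ≠ 0 := by
    have : q ≠ 0 := by
      rintro rfl
      exact NeZero.ne (N * m) (by rw [hm, mul_zero, mul_zero])
    exact_mod_cast this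
  have h1 : ∀ w, fderiv ℝ (fderiv ℝ (Fm D m)) 0 y w = 0 := by
    intro w
    have h2 : w = iota (dvdNm hm) (prX (dvdNm hm) q w) +
        (w - iota (dvdNm hm) (prX (dvdNm hm) q w)) := by abel
    rw [h2, map_add, hess_orth hm hD _ hy, h0 _ (sub_avg_mem (dvdNm hm) hb w), add_zero]
  have h3 := hker y h1
  have h4 : ∀ (k : ℕ) (i : ZMod (N * m)),
      y (i + ((N * m0 * k : ℕ) : ZMod (N * m))) = y i := by
    intro k
    induction k with
    | zero => intro i; simp
    | succ k ih =>
      intro i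
      rw [← ih i, ← h3 (i + ((N * m0 * k : ℕ) : ZMod (N * m)))]
      congr 1
      push_cast
      ring
  funext i
  have h5 := hy i
  rw [Finset.sum_congr rfl (fun k _ => h4 k i), Finset.sum_const, Finset.card_range,
    ← Nat.cast_smul_eq_nsmul ℝ] at h5
  exact (smul_eq_zero.1 h5).resolve_left hq

end action

end Crest.Agent.R231.GMProdx102
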