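import Mathlib
import Crest.Agent.R231.GMProd_102

/-!
GM-A, part 4 (row 231): the output of block GM-A in the literal form of the hypotheses of the
saddle lemma (B1) of helper898/helper888, for `f := Fm D m ∘ splitE` on `X × Y`.
-/

set_option autoImplicit false

open scoped Topology
open Filter

namespace Crest.Agent.R231.GMFormx102

open Crest.Agent.R231.GMLinx102 Crest.Agent.R231.GMRedx102 Crest.Agent.R231.GMProdx102

variable {S : Type*} [NormedAddCommGroup S] [NormedSpace ℝ S]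

section basic

variable {N : ℕ} {D : ZMod N → S × S → ℝ} {m : ℕ} [NeZero (N * m)]

theorem contDiffAt_Fm {r : WithTop ℕ∞} (hD : ∀ i, ContDiffAt ℝ r (D i) (0, 0)) :
    ContDiffAt ℝ r (Fm D m) 0 := by
  unfold Fm
  apply ContDiffAt.sum
  intro i _
  have h1 : ContDiffAt ℝ r (D (red N (N * m) (dvd_mul_right N m) i))
      (ev2 (S := S) i (0 : ZMod (N * m) → S)) := by
    have h0 : ev2 (S := S) i (0 : ZMod (N * m) → S) = (0, 0) := rfl
    rw [h0]
    exact hD _
  exact ContDiffAt.comp (0 : ZMod (N * m) → S) (g := D (red N (N * m) (dvd_mul_right N m) i))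
    (f := fun p : ZMod (N * m) → S => ev2 (S := S) i p) h1 (ev2 (S := S) i).contDiff.contDiffAt

theorem Fm_zero' [NeZero N] (h0 : ∑ i : ZMod N, D i (0, 0) = 0) : Fm D m 0 = 0 := by
  have h1 := sum_red (a := N) (b := N * m) (dvd_mul_right N m) (q := m) rfl
    (fun i => D i (0, 0))
  unfold Fm
  rw [h0, mul_zero] at h1
  exact h1

end basic

section form

variable [FiniteDimensional ℝ S] {N : ℕ} {D : ZMod N → S × S → ℝ} {m0 m q : ℕ}

theorem mul_eq' (hm : m = m0 * q) : N * m = (N * m0) * q := by rw [hm, mul_assoc]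

/-- the function of the product form. -/
noncomputable def Fsp (D : ZMod N → S × S → ℝ) [NeZero (N * m0)] [NeZero (N * m)]
    (hm : m = m0 * q) (z : (ZMod (N * m0) → S) × Yq S (N * m0) (N * m) q) : ℝ :=
  Fm D m (splitE (dvdNm hm) (mul_eq' hm) z)

variable [NeZero (N * m0)] [NeZero (N * m)]

theorem Fsp_eq (hm : m = m0 * q) (x : ZMod (N * m0) → S) :
    Fsp D hm (x, 0) = q * Fm D m0 x := by
  unfold Fsp
  rw [splitE_apply]
  simp only [ZeroMemClass.coe_zero, add_zero]
  exact Fm_iota hm x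

theorem q_pos (hm : m = m0 * q) (N : ℕ) [NeZero (N * m)] : 0 < q := by
  rcases Nat.eq_zero_or_pos q with h | h
  · exact absurd (by rw [hm, h, mul_zero, mul_zero]) (NeZero.ne (N * m))
  · exact h

theorem Fsp_lt_iff (hm : m = m0 * q) (x : ZMod (N * m0) → S) :
    Fsp D hm (x, 0) < 0 ↔ Fm D m0 x < 0 := by
  rw [Fsp_eq]
  have hq : (0 : ℝ) < q := by exact_mod_cast q_pos hm N
  constructor
  · intro h
    by_contra h'
    exact absurd h (not_lt.2 (mul_nonneg hq.le (not_lt.1 h')))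
  · intro h
    exact mul_neg_of_pos_of_neg hq h

theorem contDiffAt_Fsp {r : WithTop ℕ∞} (hm : m = m0 * q)
    (hD : ∀ i, ContDiffAt ℝ r (D i) (0, 0)) :
    ContDiffAt ℝ r (Fsp D hm) (0, 0) := by
  unfold Fsp
  have h1 : ContDiffAt ℝ r (Fm D m)
      (splitE (S := S) (dvdNm hm) (mul_eq' hm)
        ((0, 0) : (ZMod (N * m0) → S) × Yq S (N * m0) (N * m) q)) := by
    have h0 : splitE (S := S) (dvdNm hm) (mul_eq' hm)
        ((0, 0) : (ZMod (N * m0) → S) × Yq S (N * m0) (N * m) q) = 0 := by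
      rw [splitE_apply]
      simp
    rw [h0]
    exact contDiffAt_Fm hD
  have h2 : ContDiffAt ℝ r (fun z : (ZMod (N * m0) → S) × Yq S (N * m0) (N * m) q =>
      splitE (S := S) (dvdNm hm) (mul_eq' hm) z) (0, 0) := by
    let e : ((ZMod (N * m0) → S) × Yq S (N * m0) (N * m) q) ≃L[ℝ] (ZMod (N * m) → S) :=
      splitE (S := S) (dvdNm hm) (mul_eq' hm)
    have h3 : ContDiff ℝ r (fun z => e z) := e.contDiff
    exact h3.contDiffAt
  exact ContDiffAt.comp ((0, 0) : (ZMod (N * m0) → S) × Yq S (N * m0) (N * m) q)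
    (g := Fm D m) (f := fun z => splitE (S := S) (dvdNm hm) (mul_eq' hm) z) h1 h2

theorem Fsp_zero (hm : m = m0 * q) [NeZero N] (h0 : ∑ i : ZMod N, D i (0, 0) = 0) :
    Fsp D hm (0, 0) = 0 := by
  rw [Fsp_eq hm]
  rw [Fm_zero' h0, mul_zero]

/-- the partial function `y ↦ Fsp (x, y)` differentiated near `0`. -/
theorem hasFDerivAt_partial (hm : m = m0 * q) {x : ZMod (N * m0) → S}
    {y : Yq S (N * m0) (N * m) q}
    (hd : DifferentiableAt ℝ (Fm D m) (iota (dvdNm hm) x + (y : ZMod (N * m) → S))) :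
    HasFDerivAt (fun y : Yq S (N * m0) (N * m) q => Fsp D hm (x, y))
      ((fderiv ℝ (Fm D m) (iota (dvdNm hm) x + (y : ZMod (N * m) → S))).comp
        (Yq S (N * m0) (N * m) q).subtypeL) y := by
  have h1 : HasFDerivAt (fun y : Yq S (N * m0) (N * m) q =>
      iota (dvdNm hm) x + (y : ZMod (N * m) → S)) (Yq S (N * m0) (N * m) q).subtypeL y :=
    ((Yq S (N * m0) (N * m) q).subtypeL.hasFDerivAt).const_add _
  exact HasFDerivAt.comp y hd.hasFDerivAt h1

/-- **hypothesis h1 of (B1)**. -/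
theorem fderiv_partial (hm : m = m0 * q) (hD : ∀ i, ContDiffAt ℝ 2 (D i) (0, 0)) :
    ∀ᶠ x in 𝓝 (0 : ZMod (N * m0) → S),
      fderiv ℝ (fun y : Yq S (N * m0) (N * m) q => Fsp D hm (x, y)) 0 = 0 := by
  have h1 := eventually_hasFDerivAt (m := m) hD
  have h2 : Tendsto (fun x : ZMod (N * m0) → S => iota (S := S) (dvdNm (N := N) hm) x)
      (𝓝 0) (𝓝 0) := by
    have h0 := (iota (S := S) (dvdNm (N := N) hm)).continuous.tendsto 0
    rw [map_zero] at h0
    exact h0
  filter_upwards [h2.eventually h1] with x hx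
  have h3 : DifferentiableAt ℝ (Fm D m)
      (iota (dvdNm hm) x + ((0 : Yq S (N * m0) (N * m) q) : ZMod (N * m) → S)) := by
    rw [ZeroMemClass.coe_zero, add_zero]
    exact hx.differentiableAt
  rw [(hasFDerivAt_partial hm h3).fderiv]
  ext y
  simp only [ContinuousLinearMap.comp_apply, ZeroMemClass.coe_zero, add_zero]
  exact fderiv_Y hm x y.2

/-- **hypothesis h2 of (B1)**. -/
theorem hess_partial (hm : m = m0 * q) (hD : ∀ i, ContDiffAt ℝ 2 (D i) (0, 0))
    (hker : ∀ u : ZMod (N * m) → S, (∀ w, fderiv ℝ (fderiv ℝ (Fm D m)) 0 u w = 0) →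
      ∀ i, u (i + ((N * m0 : ℕ) : ZMod (N * m))) = u i)
    (v : Yq S (N * m0) (N * m) q) (hv : v ≠ 0) :
    ∃ w : Yq S (N * m0) (N * m) q,
      fderiv ℝ (fderiv ℝ (fun y : Yq S (N * m0) (N * m) q => Fsp D hm (0, y))) 0 v w ≠ 0 := by
  have h1 := eventually_hasFDerivAt (m := m) hD
  have h2 : Tendsto (fun y : Yq S (N * m0) (N * m) q => (y : ZMod (N * m) → S))
      (𝓝 0) (𝓝 0) := by
    have h0 := (Yq S (N * m0) (N * m) q).subtypeL.continuous.tendsto 0
    rw [map_zero] at h0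
    exact h0
  have h3 : fderiv ℝ (fun y : Yq S (N * m0) (N * m) q => Fsp D hm (0, y)) =ᶠ[𝓝 0]
      fun y => (fderiv ℝ (Fm D m) (y : ZMod (N * m) → S)).comp
        (Yq S (N * m0) (N * m) q).subtypeL := by
    filter_upwards [h2.eventually h1] with y hy
    have h4 : DifferentiableAt ℝ (Fm D m)
        (iota (dvdNm hm) (0 : ZMod (N * m0) → S) + (y : ZMod (N * m) → S)) := by
      rw [map_zero, zero_add]
      exact hy.differentiableAt
    have h5 := (hasFDerivAt_partial hm h4).fderiv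
    rw [h5, map_zero, zero_add]
  have h6 : HasFDerivAt (fderiv ℝ (Fm D m)) (fderiv ℝ (fderiv ℝ (Fm D m)) 0)
      (0 : ZMod (N * m) → S) := by
    have h7 : ContDiffAt ℝ 1 (fderiv ℝ (Fm D m)) (0 : ZMod (N * m) → S) :=
      (contDiffAt_Fm (m := m) hD).fderiv_right (by norm_num)
    exact (h7.differentiableAt (by norm_num)).hasFDerivAt
  have h8 : HasFDerivAt (fun y : Yq S (N * m0) (N * m) q =>
      (fderiv ℝ (Fm D m) (y : ZMod (N * m) → S)).comp (Yq S (N * m0) (N * m) q).subtypeL)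
      (((ContinuousLinearMap.compL ℝ (Yq S (N * m0) (N * m) q) (ZMod (N * m) → S) ℝ).flip
        (Yq S (N * m0) (N * m) q).subtypeL).comp
        ((fderiv ℝ (fderiv ℝ (Fm D m)) 0).comp (Yq S (N * m0) (N * m) q).subtypeL)) 0 := by
    have h9 : HasFDerivAt (fun y : Yq S (N * m0) (N * m) q =>
        fderiv ℝ (Fm D m) (y : ZMod (N * m) → S))
        ((fderiv ℝ (fderiv ℝ (Fm D m)) 0).comp (Yq S (N * m0) (N * m) q).subtypeL) 0 := by
      refine HasFDerivAt.comp (0 : Yq S (N * m0) (N * m) q)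
        (f := fun y : Yq S (N * m0) (N * m) q => (Yq S (N * m0) (N * m) q).subtypeL y) ?_
        (Yq S (N * m0) (N * m) q).subtypeL.hasFDerivAt
      rw [map_zero]
      exact h6
    exact HasFDerivAt.comp (0 : Yq S (N * m0) (N * m) q)
      (g := fun T => ((ContinuousLinearMap.compL ℝ (Yq S (N * m0) (N * m) q)
        (ZMod (N * m) → S) ℝ).flip (Yq S (N * m0) (N * m) q).subtypeL) T)
      (ContinuousLinearMap.hasFDerivAt _) h9
  by_contra hcon
  push Not at hcon
  apply hv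
  apply Subtype.ext
  rw [ZeroMemClass.coe_zero]
  apply hess_Y_nondeg hm hD hker v.2
  intro y' hy'
  have h10 := hcon ⟨y', hy'⟩
  rw [h3.fderiv_eq, h8.fderiv] at h10
  exact h10

end form

end Crest.Agent.R231.GMFormx102
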