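import Mathlib
import Crest.Agent.R231.GMForm_102
import Crest.Agent.R231.GMDefs_898

/-!
GM-ABS (row 231), assembly: the saddle lemma (B1) and the finiteness lemma (B2) give one constant
bounding the local ranks of all iterates of the discrete action.
-/

set_option autoImplicit false

open scoped Topology ContDiff
open Filter Set

namespace Crest.Agent.R231.GMAbsx102

open Crest.Agent.R231.GMLinx102 Crest.Agent.R231.GMRedx102 Crest.Agent.R231.GMProdx102
open Crest.Agent.R231.GMFormx102 Crest.Agent.R231.GM898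

/-- (B1), the saddle lemma. -/
def B1 : Prop :=
  ∀ (X Y : Type) [NormedAddCommGroup X] [NormedSpace ℝ X] [FiniteDimensional ℝ X]
    [NormedAddCommGroup Y] [NormedSpace ℝ Y] [FiniteDimensional ℝ Y] (f : X × Y → ℝ),
    ContDiffAt ℝ 2 f (0, 0) → (∀ᶠ x in 𝓝 (0 : X), fderiv ℝ (fun y => f (x, y)) 0 = 0) →
    (∀ v : Y, v ≠ 0 → ∃ w : Y, (fderiv ℝ (fderiv ℝ (fun y => f (0, y))) 0) v w ≠ 0) →
    f (0, 0) = 0 → ∀ C : ℕ,
    LB (0 : X) {x | f (x, 0) < 0} C → LB ((0, 0) : X × Y) {p | f p < 0} C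

/-- (B2), finite local rank at an isolated critical point. -/
def B2 : Prop :=
  ∀ (E : Type) [NormedAddCommGroup E] [NormedSpace ℝ E] [FiniteDimensional ℝ E] (f : E → ℝ),
    ContDiffAt ℝ 2 f 0 → f 0 = 0 → (∀ᶠ x in 𝓝[≠] (0 : E), fderiv ℝ f x ≠ 0) →
    ∃ C : ℕ, LB (0 : E) {x | f x < 0} C

theorem gm_abs (b1 : B1) (b2 : B2) {S : Type} [NormedAddCommGroup S] [NormedSpace ℝ S]
    [FiniteDimensional ℝ S] {N : ℕ} [NeZero N] (D : ZMod N → S × S → ℝ)
    (hD2 : ∀ i, ContDiffAt ℝ 2 (D i) (0, 0))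
    (hB : ∀ i x, (∀ w, H2 D i (0, x) (w, 0) = 0) → x = 0)
    (h0 : ∑ i : ZMod N, D i (0, 0) = 0)
    (hiso : ∀ (m : ℕ) [NeZero (N * m)], ∀ᶠ p in 𝓝[≠] (0 : ZMod (N * m) → S),
      fderiv ℝ (Fm D m) p ≠ 0) :
    ∃ C : ℕ, ∀ (m : ℕ) [NeZero (N * m)],
      LB (0 : ZMod (N * m) → S) {p | Fm D m p < 0} C := by
  obtain ⟨M, hM, hper⟩ := exists_period_ker hD2 hB
  have hC : ∀ d : ℕ, ∃ C : ℕ, ∀ (_ : NeZero (N * d)),
      LB (0 : ZMod (N * d) → S) {x | Fm D d x < 0} C := by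
    intro d
    by_cases hd : N * d = 0
    · exact ⟨0, fun h => absurd hd h.out⟩
    · haveI : NeZero (N * d) := ⟨hd⟩
      obtain ⟨C, hC⟩ := b2 (ZMod (N * d) → S) (Fm D d) (contDiffAt_Fm hD2) (Fm_zero' h0) (hiso d)
      exact ⟨C, fun _ => hC⟩
  choose c hc using hC
  refine ⟨∑ d ∈ M.divisors, c d, ?_⟩
  intro m hm0
  have hmpos : 0 < m := by
    rcases Nat.eq_zero_or_pos m with h | h
    · exact absurd (by rw [h, Nat.mul_zero]) hm0.out
    · exact h
  set m0 := Nat.gcd m M with hm0def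
  have hm0pos : 0 < m0 := Nat.gcd_pos_of_pos_left _ hmpos
  have : NeZero (N * m0) := ⟨Nat.mul_ne_zero (NeZero.ne N) hm0pos.ne'⟩
  have hm : m = m0 * (m / m0) := (Nat.mul_div_cancel' (Nat.gcd_dvd_left m M)).symm
  have h1 : LB (0 : ZMod (N * m0) → S) {x | Fm D m0 x < 0} (∑ d ∈ M.divisors, c d) := by
    refine (hc m0 inferInstance).mono ?_
    exact Finset.single_le_sum (f := c) (fun _ _ => Nat.zero_le _)
      (Nat.mem_divisors.2 ⟨Nat.gcd_dvd_right _ _, hM.ne'⟩)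
  have h2 : {x : ZMod (N * m0) → S | Fsp D hm (x, 0) < 0} = {x | Fm D m0 x < 0} := by
    ext x
    exact Fsp_lt_iff hm x
  have h3 : LB ((0, 0) : (ZMod (N * m0) → S) × Yq S (N * m0) (N * m) (m / m0))
      {z | Fsp D hm z < 0} (∑ d ∈ M.divisors, c d) := by
    refine b1 _ _ (Fsp D hm) (contDiffAt_Fsp hm hD2) (fderiv_partial hm hD2)
      (hess_partial hm hD2 (fun u hu => hper m u hu)) (Fsp_zero hm h0) _ ?_
    rw [h2]
    exact h1
  let e : ((ZMod (N * m0) → S) × Yq S (N * m0) (N * m) (m / m0)) ≃L[ℝ] (ZMod (N * m) → S) :=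
    splitE (S := S) (dvdNm hm) (mul_eq' hm)
  refine LB.of_inv h3 (W := univ) (W' := univ) univ_mem univ_mem (φ := fun p => e.symm p)
    (ψ := fun z => e z) e.symm.continuous.continuousOn e.continuous.continuousOn ?_ ?_ ?_ ?_ ?_
  · exact map_zero e.symm
  · exact map_zero e
  · intro x _
    exact e.apply_symm_apply x
  · intro p _ hp
    change Fm D m (e (e.symm p)) < 0
    rw [e.apply_symm_apply]
    exact hp
  · intro z _ hz
    exact hz

end Crest.Agent.R231.GMAbsx102
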