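import Crest.Agent.R231.GMSadC_888
import Crest.Agent.R231.GMAbs_102

/-!
# Row 231, block GM: (B1) from 888's saddle lemma in coordinates (helper898)

* `exists_diag` : a nondegenerate symmetric bilinear form is `∑ w_i u_i v_i`, `w_i = ±1`, in a suitable
  linear coordinate system
* `sadBox_of` : a `C²` function whose partial derivative in `y` vanishes along `y = 0` and whose
  Hessian in `y` at the point is this form satisfies 888's `SadBox`
* `b1 : GMAbsx102.B1`
-/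

set_option autoImplicit false
set_option linter.unusedSectionVars false

noncomputable section

open Set Filter Topology
open Crest.Agent.R231.GM898 Crest.Agent.R231.GMSadAx888 Crest.Agent.R231.GMSadCx888

namespace Crest.Agent.R231.GM898

section diag

variable {Y : Type} [NormedAddCommGroup Y] [NormedSpace ℝ Y] [FiniteDimensional ℝ Y]

theorem exists_diag (B : Y →L[ℝ] Y →L[ℝ] ℝ) (hs : ∀ v w, B v w = B w v)
    (hn : ∀ v, v ≠ 0 → ∃ w, B v w ≠ 0) :
    ∃ (w : Fin (Module.finrank ℝ Y) → ℝ) (e : (Fin (Module.finrank ℝ Y) → ℝ) ≃L[ℝ] Y),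
      (∀ i, w i = -1 ∨ w i = 1) ∧ ∀ u v, B (e u) (e v) = ∑ i, w i * u i * v i := by
  let Bl : LinearMap.BilinForm ℝ Y := LinearMap.mk₂ ℝ (fun v w => B v w)
    (fun a b c => by simp) (fun a b c => by simp) (fun a b c => by simp) (fun a b c => by simp)
  have hBl : ∀ v w, Bl v w = B v w := fun v w => rfl
  have hass : (QuadraticMap.associated (R := ℝ) Bl.toQuadraticMap) = Bl :=
    QuadraticMap.associated_left_inverse (S := ℝ) (B₁ := Bl) (fun x y => hs x y)
  have hsep : (QuadraticMap.associated (R := ℝ) Bl.toQuadraticMap).SeparatingLeft := by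
    rw [hass]
    intro v hv
    by_contra hne
    obtain ⟨w, hw⟩ := hn v hne
    exact hw (hv w)
  obtain ⟨w, hw, ⟨iso⟩⟩ :=
    QuadraticForm.equivalent_one_neg_one_weighted_sum_squared Bl.toQuadraticMap hsep
  let e : (Fin (Module.finrank ℝ Y) → ℝ) ≃L[ℝ] Y :=
    iso.symm.toLinearEquiv.toContinuousLinearEquiv
  refine ⟨w, e, hw, ?_⟩
  have hq : ∀ u, B (e u) (e u) = ∑ i, w i * u i * u i := by
    intro u
    have h1 : Bl.toQuadraticMap (iso.symm u) = QuadraticMap.weightedSumSquares ℝ w u :=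
      iso.symm.map_app u
    rw [QuadraticMap.weightedSumSquares_apply] at h1
    calc B (e u) (e u) = Bl.toQuadraticMap (iso.symm u) := rfl
      _ = _ := h1
      _ = _ := Finset.sum_congr rfl fun i _ => by rw [smul_eq_mul, mul_assoc]
  intro u v
  have h1 := hq (u + v)
  have h2 := hq u
  have h3 := hq v
  rw [map_add] at h1
  have h1' : B (e u + e v) (e u + e v) = B (e u) (e u) + B (e v) (e u) +
      (B (e u) (e v) + B (e v) (e v)) := by
    rw [map_add, map_add]; rfl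
  rw [h1'] at h1
  rw [hs (e v) (e u)] at h1
  have h4 : ∑ i, w i * (u + v) i * (u + v) i =
      ∑ i, w i * u i * u i + 2 * ∑ i, w i * u i * v i + ∑ i, w i * v i * v i := by
    rw [Finset.mul_sum, ← Finset.sum_add_distrib, ← Finset.sum_add_distrib]
    refine Finset.sum_congr rfl fun i _ => ?_
    rw [Pi.add_apply]; ring
  linarith

end diag

section main

variable {X Y : Type} [NormedAddCommGroup X] [NormedSpace ℝ X] [FiniteDimensional ℝ X]
  [NormedAddCommGroup Y] [NormedSpace ℝ Y] [FiniteDimensional ℝ Y]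

/-- the inclusion of the second factor -/
abbrev jr : Y →L[ℝ] X × Y := ContinuousLinearMap.inr ℝ X Y

theorem fderiv_slice {f : X × Y → ℝ} {x : X} {y : Y} (h : DifferentiableAt ℝ f (x, y)) :
    HasFDerivAt (fun y => f (x, y)) ((fderiv ℝ f (x, y)).comp (jr (X := X))) y := by
  have h1 : HasFDerivAt (fun y : Y => (x, y)) (jr (X := X) (Y := Y)) y :=
    (hasFDerivAt_const x y).prodMk (hasFDerivAt_id (𝕜 := ℝ) y)
  exact h.hasFDerivAt.comp y h1

theorem near_of_cont {E G : Type} [TopologicalSpace E] [NormedAddCommGroup G] {φ : E → G} {p : E}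
    (h : ContinuousAt φ p) {ε : ℝ} (hε : 0 < ε) : ∀ᶠ q in 𝓝 p, ‖φ q - φ p‖ < ε := by
  have h1 : ContinuousAt (fun q => ‖φ q - φ p‖) p := (h.sub continuousAt_const).norm
  refine h1.eventually (gt_mem_nhds ?_)
  show ‖φ p - φ p‖ < ε
  rw [sub_self, norm_zero]; exact hε

theorem fderiv_slice2 {f : X × Y → ℝ} (hf : ContDiffAt ℝ 2 f (0, 0)) (v w : Y) :
    (fderiv ℝ (fderiv ℝ (fun y => f (0, y))) 0) v w =
      fderiv ℝ (fderiv ℝ f) (0, 0) (0, v) (0, w) := by
  have hd : ∀ᶠ p in 𝓝 ((0, 0) : X × Y), DifferentiableAt ℝ f p := by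
    have := hf.eventually (by simp)
    filter_upwards [this] with p hp
    exact hp.differentiableAt (by norm_num)
  have hc : Tendsto (fun y : Y => ((0 : X), y)) (𝓝 0) (𝓝 (0, 0)) := by
    have : Continuous (fun y : Y => ((0 : X), y)) := by fun_prop
    exact this.tendsto 0
  have he : fderiv ℝ (fun y => f (0, y)) =ᶠ[𝓝 0]
      fun y => (fderiv ℝ f (0, y)).comp (jr (X := X)) := by
    filter_upwards [hc.eventually hd] with y hy
    exact (fderiv_slice hy).fderiv
  rw [he.fderiv_eq]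
  have h2 : DifferentiableAt ℝ (fderiv ℝ f) (0, 0) := by
    have h := hf.fderiv_right (m := 1) (by norm_num)
    exact h.differentiableAt (by norm_num)
  have h1 : HasFDerivAt (fun y : Y => ((0 : X), y)) (jr (X := X) (Y := Y)) 0 :=
    (hasFDerivAt_const (0 : X) (0 : Y)).prodMk (hasFDerivAt_id (𝕜 := ℝ) (0 : Y))
  have h3 : HasFDerivAt (fun y : Y => fderiv ℝ f (0, y))
      ((fderiv ℝ (fderiv ℝ f) (0, 0)).comp (jr (X := X))) 0 := h2.hasFDerivAt.comp 0 h1
  have h4 := (ContinuousLinearMap.compL ℝ Y (X × Y) ℝ).flip (jr (X := X)) |>.hasFDerivAt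
    (x := fderiv ℝ f ((0 : X), (0 : Y))) |>.comp (0 : Y) h3
  have h5 : HasFDerivAt (fun y : Y => (fderiv ℝ f (0, y)).comp (jr (X := X)))
      (((ContinuousLinearMap.compL ℝ Y (X × Y) ℝ).flip (jr (X := X))).comp
        ((fderiv ℝ (fderiv ℝ f) (0, 0)).comp (jr (X := X)))) 0 := h4
  rw [h5.fderiv]
  simp

theorem sadBox_of {f : X × Y → ℝ} (hf : ContDiffAt ℝ 2 f (0, 0))
    (h0 : ∀ᶠ x in 𝓝 (0 : X), fderiv ℝ (fun y => f (x, y)) 0 = 0)
    {ι : Type} [Fintype ι] (w : ι → ℝ) (hw : ∀ i, w i = -1 ∨ w i = 1) (e : (ι → ℝ) ≃L[ℝ] Y)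
    (he : ∀ u v, fderiv ℝ (fderiv ℝ f) (0, 0) ((0 : X), e u) ((0 : X), e v) =
      ∑ i, w i * u i * v i) :
    ∃ ρ > 0, ∃ U ∈ 𝓝 (0 : X), SadBox (fun p : X × (ι → ℝ) => f (p.1, e p.2)) w U ρ ∧
      ContinuousOn (fun x => f (x, e 0)) U := by
  set M : ℝ := ‖(e : (ι → ℝ) →L[ℝ] Y)‖ with hM
  have hM0 : 0 ≤ M := norm_nonneg _
  set ε : ℝ := 1 / (2 * (M * M + 1)) with hε
  have hε0 : 0 < ε := by positivity
  have hεM : ε * (M * M) ≤ 1 / 2 := by
    rw [hε, div_mul_eq_mul_div, one_mul, div_le_div_iff₀ (by positivity) (by norm_num)]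
    nlinarith
  -- the second derivative is continuous at the point
  have hfd : ContDiffAt ℝ 1 (fderiv ℝ f) (0, 0) := hf.fderiv_right (by norm_num)
  have hfd2 : ContDiffAt ℝ 0 (fderiv ℝ (fderiv ℝ f)) (0, 0) := hfd.fderiv_right (by norm_num)
  have hc2 : ContinuousAt (fderiv ℝ (fderiv ℝ f)) ((0 : X), (0 : Y)) := hfd2.continuousAt
  have e1 : ∀ᶠ p in 𝓝 ((0, 0) : X × Y), ‖fderiv ℝ (fderiv ℝ f) p -
      fderiv ℝ (fderiv ℝ f) (0, 0)‖ < ε := by
    exact near_of_cont (G := (X × Y) →L[ℝ] (X × Y) →L[ℝ] ℝ) hc2 hε0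
  have e2 : ∀ᶠ p in 𝓝 ((0, 0) : X × Y), ContDiffAt ℝ 2 f p := hf.eventually (by simp)
  have e3 : ∀ᶠ p in 𝓝 ((0, 0) : X × Y), DifferentiableAt ℝ (fderiv ℝ f) p := by
    filter_upwards [e2] with p hp
    exact (hp.fderiv_right (m := 1) (by norm_num)).differentiableAt (by norm_num)
  have hev := (e1.and (e2.and e3))
  rw [Filter.eventually_iff, mem_nhds_prod_iff] at hev
  obtain ⟨U, hU, V, hV, hUV⟩ := hev
  -- radius
  obtain ⟨δ, hδ, hδV⟩ := Metric.nhds_basis_closedBall.mem_iff.1 hV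
  set ρ : ℝ := δ / (M + 1) with hρ
  have hρ0 : 0 < ρ := by positivity
  have hρM : M * ρ ≤ δ := by
    rw [hρ, mul_div_assoc', div_le_iff₀ (by positivity)]
    nlinarith
  have hmem : ∀ y : ι → ℝ, ‖y‖ ≤ ρ → e y ∈ V := by
    intro y hy
    apply hδV
    rw [mem_closedBall_zero_iff]
    calc ‖e y‖ ≤ M * ‖y‖ := (e : (ι → ℝ) →L[ℝ] Y).le_opNorm y
      _ ≤ M * ρ := mul_le_mul_of_nonneg_left hy hM0
      _ ≤ δ := hρM
  set U' : Set X := U ∩ {x | fderiv ℝ (fun y => f (x, y)) 0 = 0} with hU'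
  have hU'n : U' ∈ 𝓝 (0 : X) := inter_mem hU h0
  have hV0 : (0 : Y) ∈ V := mem_of_mem_nhds hV
  refine ⟨ρ, hρ0, U', hU'n, ⟨hw, ?_⟩, ?_⟩
  · intro x hx y hy
    have hxy : (x, e y) ∈ U ×ˢ V := ⟨hx.1, hmem y hy⟩
    obtain ⟨-, hC2, -⟩ := hUV hxy
    have hdf : DifferentiableAt ℝ f (x, e y) := hC2.differentiableAt (by norm_num)
    refine ⟨((fderiv ℝ f (x, e y)).comp (jr (X := X))).comp (e : (ι → ℝ) →L[ℝ] Y),
      (fderiv_slice hdf).comp y e.hasFDerivAt, ?_⟩
    intro v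
    -- along the segment
    set g : ℝ → ℝ := fun s => fderiv ℝ f (x, s • e y) ((0 : X), e v) - s * ∑ i, w i * y i * v i
      with hg
    have hseg : ∀ s ∈ Icc (0 : ℝ) 1, s • e y ∈ V := by
      intro s hs
      rw [← map_smul]
      apply hmem
      rw [norm_smul, Real.norm_of_nonneg hs.1]
      exact (mul_le_of_le_one_left (norm_nonneg _) hs.2).trans hy
    have hder : ∀ s ∈ Icc (0 : ℝ) 1, HasDerivAt g
        (fderiv ℝ (fderiv ℝ f) (x, s • e y) ((0 : X), e y) ((0 : X), e v) -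
          ∑ i, w i * y i * v i) s := by
      intro s hs
      obtain ⟨-, -, hd2⟩ := hUV (show (x, s • e y) ∈ U ×ˢ V from ⟨hx.1, hseg s hs⟩)
      have h1 : HasDerivAt (fun s : ℝ => ((x : X), s • e y)) ((0 : X), e y) s := by
        have h11 : HasDerivAt (fun s : ℝ => s • e y) ((1 : ℝ) • e y) s :=
          (hasDerivAt_id s).smul_const (e y)
        rw [one_smul] at h11
        exact (hasDerivAt_const s x).prodMk h11
      have h2 : HasDerivAt (fun s : ℝ => fderiv ℝ f (x, s • e y))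
          (fderiv ℝ (fderiv ℝ f) (x, s • e y) ((0 : X), e y)) s :=
        hd2.hasFDerivAt.comp_hasDerivAt s h1
      have h3 := h2.clm_apply (hasDerivAt_const s ((0 : X), e v))
      have h4 : HasDerivAt (fun s : ℝ => s * ∑ i, w i * y i * v i) (∑ i, w i * y i * v i) s := by
        have := (hasDerivAt_id s).mul_const (∑ i, w i * y i * v i)
        rwa [one_mul] at this
      have h5 := h3.sub h4
      simp only [map_zero, add_zero] at h5
      exact h5
    have hbd : ∀ s ∈ Icc (0 : ℝ) 1, ‖fderiv ℝ (fderiv ℝ f) (x, s • e y) ((0 : X), e y)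
        ((0 : X), e v) - ∑ i, w i * y i * v i‖ ≤ (1 / 2) * ‖y‖ * ‖v‖ := by
      intro s hs
      obtain ⟨hn, -, -⟩ := hUV (show (x, s • e y) ∈ U ×ˢ V from ⟨hx.1, hseg s hs⟩)
      rw [← he y v]
      have hsub : fderiv ℝ (fderiv ℝ f) (x, s • e y) ((0 : X), e y) ((0 : X), e v) -
          fderiv ℝ (fderiv ℝ f) (0, 0) ((0 : X), e y) ((0 : X), e v) =
          (fderiv ℝ (fderiv ℝ f) (x, s • e y) - fderiv ℝ (fderiv ℝ f) (0, 0)) ((0 : X), e y)
            ((0 : X), e v) := rfl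
      rw [hsub]
      have hey : ‖((0 : X), e y)‖ ≤ M * ‖y‖ := by
        rw [Prod.norm_def, norm_zero, max_eq_right (norm_nonneg _)]
        exact (e : (ι → ℝ) →L[ℝ] Y).le_opNorm y
      have hev : ‖((0 : X), e v)‖ ≤ M * ‖v‖ := by
        rw [Prod.norm_def, norm_zero, max_eq_right (norm_nonneg _)]
        exact (e : (ι → ℝ) →L[ℝ] Y).le_opNorm v
      calc ‖(fderiv ℝ (fderiv ℝ f) (x, s • e y) - fderiv ℝ (fderiv ℝ f) (0, 0)) ((0 : X), e y)
            ((0 : X), e v)‖
          ≤ ‖fderiv ℝ (fderiv ℝ f) (x, s • e y) - fderiv ℝ (fderiv ℝ f) (0, 0)‖ *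
              ‖((0 : X), e y)‖ * ‖((0 : X), e v)‖ := ContinuousLinearMap.le_opNorm₂ _ _ _
        _ ≤ ε * (M * ‖y‖) * (M * ‖v‖) := by
            gcongr
        _ = ε * (M * M) * (‖y‖ * ‖v‖) := by ring
        _ ≤ 1 / 2 * (‖y‖ * ‖v‖) := mul_le_mul_of_nonneg_right hεM (by positivity)
        _ = (1 / 2) * ‖y‖ * ‖v‖ := by ring
    have hmv := (convex_Icc (0 : ℝ) 1).norm_image_sub_le_of_norm_hasDerivWithin_le
      (f := g) (fun s hs => (hder s hs).hasDerivWithinAt) hbd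
      (left_mem_Icc.2 zero_le_one) (right_mem_Icc.2 zero_le_one)
    have hg0 : g 0 = 0 := by
      have h1 : fderiv ℝ f (x, (0 : ℝ) • e y) ((0 : X), e v) = 0 := by
        obtain ⟨-, hC, -⟩ := hUV (show (x, (0 : Y)) ∈ U ×ˢ V from ⟨hx.1, hV0⟩)
        have h2 := (fderiv_slice (hC.differentiableAt (by norm_num))).fderiv
        have h3 : fderiv ℝ (fun y => f (x, y)) 0 = 0 := hx.2
        rw [h3] at h2
        have h4 := congrArg (fun L : Y →L[ℝ] ℝ => L (e v)) h2
        rw [zero_smul]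
        simpa using h4.symm
      rw [hg]
      simp only [h1, zero_mul, sub_zero]
    have hg1 : g 1 = fderiv ℝ f (x, e y) ((0 : X), e v) - ∑ i, w i * y i * v i := by
      rw [hg]
      simp only [one_smul, one_mul]
    rw [hg0, hg1, sub_zero, sub_zero, norm_one, mul_one] at hmv
    rw [Real.norm_eq_abs] at hmv
    simpa using hmv
  · intro x hx
    obtain ⟨-, hC, -⟩ := hUV (show (x, (0 : Y)) ∈ U ×ˢ V from ⟨hx.1, hV0⟩)
    have h1 : ContinuousAt f (x, e 0) := by
      rw [map_zero]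
      exact hC.continuousAt
    have h2 : ContinuousAt (fun x : X => (x, e 0)) x := by fun_prop
    exact (ContinuousAt.comp (f := fun x : X => (x, e 0)) h1 h2).continuousWithinAt

end main

/-- **(B1), the saddle lemma** -/
theorem b1 : GMAbsx102.B1 := by
  intro X Y _ _ _ _ _ _ f hf h0 hn hf0 C hL
  set B : Y →L[ℝ] Y →L[ℝ] ℝ := fderiv ℝ (fderiv ℝ (fun y => f (0, y))) 0 with hB
  have hfy : ContDiffAt ℝ 2 (fun y : Y => f (0, y)) 0 := by
    have h1 : ContDiffAt ℝ 2 (fun y : Y => ((0 : X), y)) 0 := by fun_prop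
    exact ContDiffAt.comp (0 : Y) (f := fun y : Y => ((0 : X), y)) hf h1
  have hsym : ∀ v w, B v w = B w v := by
    intro v w
    exact (hfy.isSymmSndFDerivAt (by simp)).eq v w
  obtain ⟨w, e, hw, he⟩ := exists_diag B hsym hn
  obtain ⟨ρ, hρ, U, hU, hbox, hcont⟩ := sadBox_of hf h0 w hw e (fun u v => by
    rw [← fderiv_slice2 hf]
    exact he u v)
  have hL' : LB (0 : X) {x | (fun p : X × (Fin (Module.finrank ℝ Y) → ℝ) => f (p.1, e p.2)) (x, 0)
      < 0} C := by
    simpa using hL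
  have h1 := LB_of_SadBox (x0 := (0 : X)) hbox hρ hU hcont
    (by show f (0, e 0) = 0; rw [map_zero]; exact hf0) hL'
  refine LB.of_inv h1 (W := univ) (W' := univ) univ_mem univ_mem
    (φ := fun p : X × Y => (p.1, e.symm p.2))
    (ψ := fun p : X × (Fin (Module.finrank ℝ Y) → ℝ) => (p.1, e p.2))
    (by fun_prop) (by fun_prop) (by simp) (by simp) (fun p _ => by simp) ?_ ?_
  · intro p _ hp
    show f (p.1, e (e.symm p.2)) < 0
    rw [e.apply_symm_apply]
    exact hp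
  · intro p _ hp
    exact hp

end Crest.Agent.R231.GM898
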