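import Crest.Agent.R231.GMFin_898
import Crest.Agent.R231.GMAbs_102

/-!
# Row 231, block GM (helper898): (B2) in the literal form of `GMAbs_102`
-/

set_option autoImplicit false

namespace Crest.Agent.R231.GM898

theorem b2 : GMAbsx102.B2 := by
  intro E _ _ _ f hf h0 hiso
  exact lb_isolated hf h0 hiso

end Crest.Agent.R231.GM898
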