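import Crest.Agent.R231.GMBrk_889
import Crest.Agent.R231.GMRed_102

/-!
# Row 231 (S0357), block GM-GEO (b): INTERFACE (helper889)

* `SliceSys L S` : a closed unit speed geodesic `c` (period `l`), `N` slices `σ i : S → M` through
  `c (i l / N)`, and the crossing functions of short geodesics `[p,q]` near
  `[c ((i - 1/2) l / N), c ((i + 1/2) l / N)]` with the slice `i`.  (INPUT: helper654 / helper320)
* `A.D`          : `D i (u, v) = dist (σ i u) (σ (i+1) v) - l / N`  (`Fm A.D m` of `GMRed_102`)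
* `SliceDom A m` : the maps between loops near `c^m` and slice polygons near `0`, respecting the
  levels, the composite being homotopic to the inclusion.  (OUTPUT, helper889)
-/

set_option autoImplicit false
set_option linter.unusedSectionVars false

open Set Filter Topology

noncomputable section

namespace Crest.Agent.R231.GMGeox889

open Crest.Agent.R231.GLugx576 Crest.Agent.R231.GMRedx102

/-- slices transversal to a closed geodesic and crossing functions -/
structure SliceSys {M : Type*} [MetricSpace M] (L : LUG M) (S : Type*) [NormedAddCommGroup S] where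
  /-- the unit speed closed geodesic -/
  c : ℝ → M
  /-- its period (length) -/
  l : ℝ
  /-- number of slices -/
  N : ℕ
  [N_ne : NeZero N]
  l_pos : 0 < l
  per : ∀ y, c (y + l) = c y
  geo : ∀ x y : ℝ, |x - y| < L.r0 → dist (c x) (c y) = |x - y|
  small : 4 * l / N < L.r0
  /-- the slices -/
  σ : ZMod N → S → M
  σ_zero : ∀ i, σ i 0 = c (i.val * l / N)
  σ_cont : ∀ i, Continuous (σ i)
  /-- crossing time of the short geodesic `p.1 → p.2` with the slice `i` -/
  τ : ZMod N → M × M → ℝ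
  /-- crossing point, in the coordinates of the slice -/
  w : ZMod N → M × M → S
  cross : ∀ i, ∃ O : Set (M × M), IsOpen O ∧
    (c ((i.val - 1 / 2) * l / N), c ((i.val + 1 / 2) * l / N)) ∈ O ∧
    ContinuousOn (τ i) O ∧ ContinuousOn (w i) O ∧
    ∀ p ∈ O, τ i p ∈ Ioo (0 : ℝ) 1 ∧ L.seg p.1 p.2 (τ i p) = σ i (w i p)
  τ_mid : ∀ i, τ i (c ((i.val - 1 / 2) * l / N), c ((i.val + 1 / 2) * l / N)) = 1 / 2
  w_mid : ∀ i, w i (c ((i.val - 1 / 2) * l / N), c ((i.val + 1 / 2) * l / N)) = 0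

attribute [instance] SliceSys.N_ne

namespace SliceSys

variable {M : Type*} [MetricSpace M] {L : LUG M} {S : Type*} [NormedAddCommGroup S]
  (A : SliceSys L S)

/-- the discrete action density -/
def D (i : ZMod A.N) (q : S × S) : ℝ := dist (A.σ i q.1) (A.σ (i + 1) q.2) - A.l / A.N

/-- `g` is the `m`-fold iterate of the closed geodesic -/
def IsIt (m : ℕ) (g : Lp M) : Prop := ∀ x : ℝ, g x = A.c (m * A.l * x)

end SliceSys

/-- loops with Lipschitz constant `< s` -/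
def XL (M : Type*) [MetricSpace M] (s : ℝ) : Set (Lp M) := {g | ∃ t < s, g ∈ X M t}

/-- **the maps** between `X_b` near `c^m` and the slice polygons near `0`, levels `< s` and `< 0` -/
structure Maps {M : Type*} [MetricSpace M] {Z : Type*} [TopologicalSpace Z] [Zero Z]
    (F : Z → ℝ) (g0 : Lp M) (b s : ℝ) where
  U : Set (Lp M)
  W : Set Z
  φ : Lp M → Z
  ψ : Z → Lp M
  h : Lp M → ℝ → Lp M
  isOpen_U : IsOpen U
  isOpen_W : IsOpen W
  mem_U : g0 ∈ U
  mem_W : (0 : Z) ∈ W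
  φ_cont : ContinuousOn φ (U ∩ X M b)
  φ_zero : φ g0 = 0
  φ_maps : ∀ g ∈ U ∩ X M b, φ g ∈ W
  φ_lev : ∀ g ∈ U ∩ X M b, g ∈ XL M s → F (φ g) < 0
  ψ_cont : ContinuousOn ψ W
  ψ_zero : ψ 0 = g0
  ψ_maps : ∀ p ∈ W, ψ p ∈ X M b
  ψ_lev : ∀ p ∈ W, F p < 0 → ψ p ∈ XL M s
  h_cont : ContinuousOn (fun q : Lp M × ℝ => h q.1 q.2) ((U ∩ X M b) ×ˢ Icc (0 : ℝ) 1)
  h_zero : ∀ g ∈ U ∩ X M b, h g 0 = g
  h_one : ∀ g ∈ U ∩ X M b, h g 1 = ψ (φ g)
  h_fix : ∀ t ∈ Icc (0 : ℝ) 1, h g0 t = g0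
  h_maps : ∀ g ∈ U ∩ X M b, ∀ t ∈ Icc (0 : ℝ) 1, h g t ∈ X M b
  h_lev : ∀ g ∈ U ∩ X M b, g ∈ XL M s → ∀ t ∈ Icc (0 : ℝ) 1, h g t ∈ XL M s

/-- **OUTPUT of (b)**: for the `m`-fold iterate (`s = m l`) and every `b` with `s < b ≤ 2 s` -/
def SliceDom {M : Type*} [MetricSpace M] {L : LUG M} {S : Type*} [NormedAddCommGroup S]
    (A : SliceSys L S) : Prop :=
  ∀ (m : ℕ) [NeZero (A.N * m)] (g0 : Lp M), 0 < m → A.IsIt m g0 →
    ∀ b : ℝ, m * A.l < b → b ≤ 2 * (m * A.l) →
      Nonempty (Maps (Z := ZMod (A.N * m) → S) (Fm A.D m) g0 b (m * A.l))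

end Crest.Agent.R231.GMGeox889
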