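import Crest.Agent.R231.GMOrb_537
import Crest.Agent.R231.GMGeoB_889

/-!
# Row 231, block GM (helper537): the rank bound near the orbits of the iterates of a closed geodesic

* `rotFlow M` : the rotation flow on `Lp M`; `inv_X`, `inv_XL`
* `SR.of_maps` : helper889's `Maps` and a polygon bound `LB 0 {F < 0} C` give `SR (X M b) (XL M s) {g0} C`
* `SR_orbit_rot` : `SR (X M b) (XL M s) {c} C → SR (X M b) (XL M s) (orbit c) (4 * C)`
* `SR_of_sliceDom`, `SR_orbits_rot`
-/

set_option autoImplicit false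

noncomputable section

open Topology Set

namespace Crest.Agent.R231.GMOrbx537

open Crest.Agent.R204 Crest.Agent.R231.Pairx877 Crest.Agent.R231.GM898
  Crest.Agent.R231.GLugx576 Crest.Agent.R231.GMRedx102 Crest.Agent.R231.GMGeox889

variable {M : Type} [MetricSpace M]

/-- the rotation flow -/
def rotFlow (M : Type) [MetricSpace M] : RFlow (Lp M) where
  R a g := rot (a : UnitAddCircle) g
  cont := by
    have h : Continuous (fun p : ℝ × Lp M => ((p.1 : UnitAddCircle), p.2)) :=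
      ((AddCircle.continuous_mk' 1).comp continuous_fst).prodMk continuous_snd
    exact continuous_rot.comp h
  zero g := by
    show rot ((0 : ℝ) : UnitAddCircle) g = g
    rw [AddCircle.coe_zero]; exact rot_zero g
  add a b g := by
    show rot ((a + b : ℝ) : UnitAddCircle) g = rot (a : UnitAddCircle) (rot (b : UnitAddCircle) g)
    rw [rot_rot, AddCircle.coe_add]

theorem rotFlow_R (a : ℝ) (g : Lp M) : (rotFlow M).R a g = rot (a : UnitAddCircle) g := rfl

theorem inv_X (b : ℝ) : (rotFlow M).Inv (X M b) := fun a _ hg => rot_mem hg (a : UnitAddCircle)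

theorem inv_XL (s : ℝ) : (rotFlow M).Inv (XL M s) := by
  rintro a g ⟨t, ht, hg⟩
  exact ⟨t, ht, rot_mem hg (a : UnitAddCircle)⟩

theorem rot_one (g : Lp M) : (rotFlow M).R 1 g = g := by
  show rot ((1 : ℝ) : UnitAddCircle) g = g
  rw [coe_one_circle]; exact rot_zero g

theorem orb_eq_range (g : Lp M) : (rotFlow M).orb g = range fun a : UnitAddCircle => rot a g := by
  apply Subset.antisymm
  · rintro _ ⟨a, rfl⟩
    exact ⟨(a : UnitAddCircle), rfl⟩
  · rintro _ ⟨a, rfl⟩
    induction a using QuotientAddGroup.induction_on with | _ a => ?_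
    exact ⟨a, rfl⟩

/-- **slice polygons dominate loops** near the iterate `g0` -/
theorem SR.of_maps {Z : Type} [TopologicalSpace Z] [Zero Z] {F : Z → ℝ} {g0 : Lp M} {b s : ℝ}
    (m : Maps F g0 b s) {C : ℕ} (h : LB (0 : Z) {p | F p < 0} C) :
    SR (X M b) (XL M s) {g0} C := by
  rw [lb_iff_SR] at h
  have hg0 : g0 ∈ X M b := by
    rw [← m.ψ_zero]; exact m.ψ_maps 0 m.mem_W
  refine SR.dom h (singleton_subset_iff.2 hg0) (subset_univ _) m.isOpen_U
    (singleton_subset_iff.2 m.mem_U) m.isOpen_W (singleton_subset_iff.2 m.mem_W)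
    m.φ m.φ_cont ?_ (fun _ _ => trivial) ?_ m.ψ (m.ψ_cont.mono inter_subset_left) ?_ ?_ ?_
    m.h m.h_cont ?_ m.h_zero (fun x hx _ => m.h_one x hx) m.h_maps m.h_lev
  · intro x hx
    rw [mem_singleton_iff] at hx
    rw [hx, mem_singleton_iff, m.φ_zero]
  · exact fun x hx hxA => m.φ_lev x hx hxA
  · intro x hx
    rw [mem_singleton_iff] at hx
    rw [hx, mem_singleton_iff, m.ψ_zero]
  · exact fun x hx => m.ψ_maps x hx.1
  · exact fun x hx hxA => m.ψ_lev x hx.1 hxA
  · intro x hx t ht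
    rw [mem_singleton_iff] at hx
    rw [hx, mem_singleton_iff, m.h_fix t ht]

/-- **from a loop to its orbit under rotations** -/
theorem SR_orbit_rot {b s : ℝ} {c : Lp M} {C : ℕ} (hc : c ∈ X M b)
    (h : SR (X M b) (XL M s) {c} C) :
    SR (X M b) (XL M s) (range fun a : UnitAddCircle => rot a c) (4 * C) := by
  rw [← orb_eq_range]
  exact SR.orbit (rotFlow M) (inv_X b) (inv_XL s) hc (rot_one c) h

/-- **finitely many orbits** -/
theorem SR_orbits_rot {b s : ℝ} (F : Finset (Lp M)) (C : Lp M → ℕ) (hF : ∀ c ∈ F, c ∈ X M b)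
    (h : ∀ c ∈ F, SR (X M b) (XL M s) {c} (C c)) :
    SR (X M b) (XL M s) (⋃ c ∈ F, range fun a : UnitAddCircle => rot a c) (∑ c ∈ F, 4 * C c) := by
  have := SR.orbits (rotFlow M) (inv_X b) (inv_XL s) F C hF (fun c _ => rot_one c) h
  simpa only [orb_eq_range] using this

/-- the set of critical loops is a finite union of orbits -/
theorem SR_crit {b s : ℝ} {K : Set (Lp M)} (F : Finset (Lp M)) (C : Lp M → ℕ)
    (hF : ∀ c ∈ F, c ∈ X M b) (hFK : ∀ c ∈ F, ∀ a : UnitAddCircle, rot a c ∈ K)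
    (hK : ∀ g ∈ K, ∃ c ∈ F, ∃ a : UnitAddCircle, g = rot a c)
    (h : ∀ c ∈ F, SR (X M b) (XL M s) {c} (C c)) :
    SR (X M b) (XL M s) K (∑ c ∈ F, 4 * C c) := by
  have e : K = ⋃ c ∈ F, range fun a : UnitAddCircle => rot a c := by
    apply Subset.antisymm
    · intro g hg
      obtain ⟨c, hc, a, rfl⟩ := hK g hg
      exact mem_iUnion₂.2 ⟨c, hc, a, rfl⟩
    · intro g hg
      obtain ⟨c, hc, a, rfl⟩ := mem_iUnion₂.1 hg
      exact hFK c hc a
  rw [e]
  exact SR_orbits_rot F C hF h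

/-- **iterates of a closed geodesic** : the bound on slice polygons (uniform in `m`) gives the bound
at the iterates -/
theorem SR_of_sliceDom {L : LUG M} {S : Type} [NormedAddCommGroup S] (A : SliceSys L S)
    (hD : SliceDom A) {C : ℕ}
    (hLB : ∀ (m : ℕ) [NeZero (A.N * m)], 0 < m → LB (0 : ZMod (A.N * m) → S) {p | Fm A.D m p < 0} C)
    {m : ℕ} (hm : 0 < m) {g0 : Lp M} (hg0 : A.IsIt m g0) {b : ℝ} (hb : m * A.l < b)
    (hb2 : b ≤ 2 * (m * A.l)) : SR (X M b) (XL M (m * A.l)) {g0} C := by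
  have : NeZero (A.N * m) := ⟨Nat.mul_ne_zero A.N_ne.out hm.ne'⟩
  obtain ⟨mp⟩ := hD m g0 hm hg0 b hb hb2
  exact SR.of_maps mp (hLB m hm)

end Crest.Agent.R231.GMOrbx537
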