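import Crest.Agent.R231.GMPoint_529
import Crest.Agent.R231.GMOrbC_537

/-!
# Row 231, block GM (helper537): `DomStmt` of helper529
-/

set_option autoImplicit false

noncomputable section

namespace Crest.Agent.R231.GMOrbx537

open Crest.Agent.R231.GMPointx529

/-- **(Dom)** : the domination statement of helper529 -/
theorem domStmt (M : Type) [MetricSpace M] : DomStmt M :=
  fun _ _ _ _ _ _ _ _ m h => SR.of_maps m h

end Crest.Agent.R231.GMOrbx537
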