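import Mathlib

/-!
# Row 231 (S0357), block GM (helper654): calculus for the slices

* `mixed_comp` : the mixed second derivative of `F (χ a, ψ b)`
* `mixed_outer` : the mixed second derivative of `g ∘ H` where `dH = 0`
-/

set_option autoImplicit false

open Filter Topology Set

namespace Crest.Agent.R231.GMCalc654

variable {A B X Y : Type*} [NormedAddCommGroup A] [NormedSpace ℝ A] [NormedAddCommGroup B]
  [NormedSpace ℝ B] [NormedAddCommGroup X] [NormedSpace ℝ X] [NormedAddCommGroup Y]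
  [NormedSpace ℝ Y]

theorem differentiableAt_ev {F : X → ℝ} {x : X} (hF : ContDiffAt ℝ 2 F x) :
    ∀ᶠ y in 𝓝 x, DifferentiableAt ℝ F y := by
  have := hF.eventually (by simp)
  filter_upwards [this] with y hy using hy.differentiableAt (by simp)

theorem hasFDerivAt_fderiv {F : X → ℝ} {x : X} (hF : ContDiffAt ℝ 2 F x) :
    HasFDerivAt (fderiv ℝ F) (fderiv ℝ (fderiv ℝ F) x) x :=
  ((hF.fderiv_right (m := 1) (by norm_num)).differentiableAt (by simp)).hasFDerivAt

/-- the mixed second derivative of a function of two variables composed with maps of the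
variables -/
theorem mixed_comp {F : X × Y → ℝ} {H : A × B → ℝ} {χ : A → X} {ψ : B → Y} {a : A} {b : B}
    {χ' : A →L[ℝ] X} {ψ' : B →L[ℝ] Y} (hF : ContDiffAt ℝ 2 F (χ a, ψ b))
    (hχ : HasFDerivAt χ χ' a) (hψ : HasFDerivAt ψ ψ' b) (hH : ContDiffAt ℝ 2 H (a, b))
    (hHF : ∀ᶠ q : A × B in 𝓝 (a, b), H q = F (χ q.1, ψ q.2)) (η : A) (ζ : B) :
    fderiv ℝ (fderiv ℝ H) (a, b) (0, ζ) (η, 0)
      = fderiv ℝ (fderiv ℝ F) (χ a, ψ b) (0, ψ' ζ) (χ' η, 0) := by
  -- the line in the second variable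
  have lin : HasDerivAt (fun s : ℝ => (a, b + s • ζ)) ((0 : A), ζ) 0 := by
    have h1 : HasDerivAt (fun s : ℝ => b + s • ζ) ζ 0 := by
      simpa using ((hasDerivAt_id (0 : ℝ)).smul_const ζ).const_add b
    exact (hasDerivAt_const (0 : ℝ) a).prodMk h1
  have lin0 : (fun s : ℝ => (a, b + s • ζ)) 0 = (a, b) := by simp
  have cline : Tendsto (fun s : ℝ => (a, b + s • ζ)) (𝓝 0) (𝓝 (a, b)) := by
    have := lin.continuousAt.tendsto
    simpa using this
  have hψb : HasFDerivAt ψ ψ' (b + (0 : ℝ) • ζ) := by simpa using hψ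
  have lψ : HasDerivAt (fun s : ℝ => ψ (b + s • ζ)) (ψ' ζ) 0 := by
    have h1 : HasDerivAt (fun s : ℝ => b + s • ζ) ζ 0 := by
      simpa using ((hasDerivAt_id (0 : ℝ)).smul_const ζ).const_add b
    exact hψb.comp_hasDerivAt (0 : ℝ) h1
  have lF : HasDerivAt (fun s : ℝ => (χ a, ψ (b + s • ζ))) ((0 : X), ψ' ζ) 0 :=
    (hasDerivAt_const (0 : ℝ) (χ a)).prodMk lψ
  have lF0 : (fun s : ℝ => (χ a, ψ (b + s • ζ))) 0 = (χ a, ψ b) := by simp
  have cF : Tendsto (fun s : ℝ => (χ a, ψ (b + s • ζ))) (𝓝 0) (𝓝 (χ a, ψ b)) := by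
    have := lF.continuousAt.tendsto
    simpa using this
  -- derivative of `fderiv H` along the line
  have d1 : HasDerivAt (fun s : ℝ => fderiv ℝ H (a, b + s • ζ) (η, 0))
      (fderiv ℝ (fderiv ℝ H) (a, b) (0, ζ) (η, 0)) 0 := by
    have h1 : HasFDerivAt (fderiv ℝ H) (fderiv ℝ (fderiv ℝ H) (a, b))
        ((fun s : ℝ => (a, b + s • ζ)) 0) := by rw [lin0]; exact hasFDerivAt_fderiv hH
    have h2 := h1.comp_hasDerivAt (0 : ℝ) lin
    have h3 := h2.clm_apply (hasDerivAt_const (0 : ℝ) ((η, 0) : A × B))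
    rw [map_zero, add_zero] at h3
    exact h3
  have d2 : HasDerivAt (fun s : ℝ => fderiv ℝ F (χ a, ψ (b + s • ζ)) (χ' η, 0))
      (fderiv ℝ (fderiv ℝ F) (χ a, ψ b) (0, ψ' ζ) (χ' η, 0)) 0 := by
    have h1 : HasFDerivAt (fderiv ℝ F) (fderiv ℝ (fderiv ℝ F) (χ a, ψ b))
        ((fun s : ℝ => (χ a, ψ (b + s • ζ))) 0) := by rw [lF0]; exact hasFDerivAt_fderiv hF
    have h2 := h1.comp_hasDerivAt (0 : ℝ) lF
    have h3 := h2.clm_apply (hasDerivAt_const (0 : ℝ) ((χ' η, 0) : X × Y))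
    rw [map_zero, add_zero] at h3
    exact h3
  -- they agree
  have key : (fun s : ℝ => fderiv ℝ H (a, b + s • ζ) (η, 0))
      =ᶠ[𝓝 0] fun s : ℝ => fderiv ℝ F (χ a, ψ (b + s • ζ)) (χ' η, 0) := by
    filter_upwards [cline.eventually hHF.eventually_nhds,
      cline.eventually (differentiableAt_ev hH), cF.eventually (differentiableAt_ev hF)]
      with s h1 h2 h3
    have l1 : HasDerivAt (fun t : ℝ => (a + t • η, b + s • ζ)) (η, (0 : B)) 0 := by
      have h4 : HasDerivAt (fun t : ℝ => a + t • η) η 0 := by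
        simpa using ((hasDerivAt_id (0 : ℝ)).smul_const η).const_add a
      exact h4.prodMk (hasDerivAt_const _ _)
    have l2 : HasDerivAt (fun t : ℝ => (χ (a + t • η), ψ (b + s • ζ))) (χ' η, (0 : Y)) 0 := by
      have h4 : HasDerivAt (fun t : ℝ => a + t • η) η 0 := by
        simpa using ((hasDerivAt_id (0 : ℝ)).smul_const η).const_add a
      have h5 : HasFDerivAt χ χ' (a + (0 : ℝ) • η) := by simpa using hχ
      exact (h5.comp_hasDerivAt (0 : ℝ) h4).prodMk (hasDerivAt_const _ _)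
    have e1 : HasDerivAt (fun t : ℝ => H (a + t • η, b + s • ζ))
        (fderiv ℝ H (a, b + s • ζ) (η, 0)) 0 := by
      have h6 : HasFDerivAt H (fderiv ℝ H (a, b + s • ζ))
          ((fun t : ℝ => (a + t • η, b + s • ζ)) 0) := by
        simp only [zero_smul, add_zero]; exact h2.hasFDerivAt
      exact h6.comp_hasDerivAt (0 : ℝ) l1
    have e2 : HasDerivAt (fun t : ℝ => F (χ (a + t • η), ψ (b + s • ζ)))
        (fderiv ℝ F (χ a, ψ (b + s • ζ)) (χ' η, 0)) 0 := by
      have h6 : HasFDerivAt F (fderiv ℝ F (χ a, ψ (b + s • ζ)))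
          ((fun t : ℝ => (χ (a + t • η), ψ (b + s • ζ))) 0) := by
        simp only [zero_smul, add_zero]; exact h3.hasFDerivAt
      exact h6.comp_hasDerivAt (0 : ℝ) l2
    refine e1.unique (e2.congr_of_eventuallyEq ?_)
    have c1 : Tendsto (fun t : ℝ => (a + t • η, b + s • ζ)) (𝓝 0) (𝓝 (a, b + s • ζ)) := by
      have := l1.continuousAt.tendsto
      simpa using this
    exact c1.eventually h1
  exact d1.unique (d2.congr_of_eventuallyEq key)

/-- second derivative of `g ∘ H` at a critical point of `H` -/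
theorem second_outer {g : ℝ → ℝ} {H : X → ℝ} {x : X} (hg : ContDiffAt ℝ 2 g (H x))
    (hH : ContDiffAt ℝ 2 H x) (h0 : fderiv ℝ H x = 0) (v w : X) :
    fderiv ℝ (fderiv ℝ (fun y => g (H y))) x v w
      = deriv g (H x) * fderiv ℝ (fderiv ℝ H) x v w := by
  have hgd : ∀ᶠ y in 𝓝 x, fderiv ℝ (fun y => g (H y)) y = deriv g (H y) • fderiv ℝ H y := by
    have h1 : ∀ᶠ s in 𝓝 (H x), DifferentiableAt ℝ g s := by
      have := hg.eventually (by simp)
      filter_upwards [this] with y hy using hy.differentiableAt (by simp)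
    filter_upwards [hH.continuousAt.eventually h1, differentiableAt_ev hH] with y h2 h3
    exact (h2.hasDerivAt.comp_hasFDerivAt y h3.hasFDerivAt).fderiv
  have hg' : DifferentiableAt ℝ (deriv g) (H x) := by
    have h1 : ContDiffAt ℝ 1 (fderiv ℝ g) (H x) := hg.fderiv_right (m := 1) (by norm_num)
    have h2 : deriv g = fun s => fderiv ℝ g s 1 := by
      funext s; exact (fderiv_apply_one_eq_deriv).symm
    rw [h2]
    exact (h1.differentiableAt (by simp)).clm_apply (differentiableAt_const _)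
  have hd : HasFDerivAt (fun y => deriv g (H y)) ((deriv (deriv g) (H x)) • fderiv ℝ H x) x :=
    hg'.hasDerivAt.comp_hasFDerivAt x (hH.differentiableAt (by norm_num)).hasFDerivAt
  have h4 : HasFDerivAt (fun y => deriv g (H y) • fderiv ℝ H y)
      (deriv g (H x) • fderiv ℝ (fderiv ℝ H) x +
        ((deriv (deriv g) (H x)) • fderiv ℝ H x).smulRight (fderiv ℝ H x)) x :=
    hd.smul (hasFDerivAt_fderiv hH)
  have h5 : HasFDerivAt (fderiv ℝ (fun y => g (H y)))
      (deriv g (H x) • fderiv ℝ (fderiv ℝ H) x +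
        ((deriv (deriv g) (H x)) • fderiv ℝ H x).smulRight (fderiv ℝ H x)) x :=
    h4.congr_of_eventuallyEq hgd
  rw [h5.fderiv, h0]
  simp

/-- first derivative of `g ∘ H` at a critical point of `H` -/
theorem first_outer {g : ℝ → ℝ} {H : X → ℝ} {x : X} (hg : DifferentiableAt ℝ g (H x))
    (hH : DifferentiableAt ℝ H x) (h0 : fderiv ℝ H x = 0) :
    fderiv ℝ (fun y => g (H y)) x = 0 := by
  have h := (hg.hasDerivAt.comp_hasFDerivAt x hH.hasFDerivAt).fderiv
  rw [h0, smul_zero] at h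
  exact h

end Crest.Agent.R231.GMCalc654
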