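import Crest.Agent.R231.GMSliceDefs_654
import Crest.Agent.R231.GMCalc_654
import Crest.Agent.R226.ChartCost_77

/-!
# Row 231 (S0357), block GM (helper654): the distance of consecutive slices

* `contDiffAt_D`  : smoothness
* `fderiv_D`      : `0` is a critical point
* `twist_left`, `twist_right` : the mixed second derivative is nondegenerate
-/

set_option autoImplicit false
set_option linter.unusedSectionVars false

noncomputable section

open MeasureTheory Bundle Set Filter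
open scoped Manifold ContDiff Bundle ENNReal Topology
open Crest.GeometryTopology.MTW
open Crest.Agent.R226 Crest.Agent.R226.ChartCost77

namespace Crest.Agent.R231.GMSlx654

variable {n : ℕ} {M : Type*} [MetricSpace M] [ChartedSpace (EuclideanSpace ℝ (Fin n)) M]
  [IsManifold (𝓡 n) ∞ M]
  [RiemannianBundle (fun p : M => TangentSpace (𝓡 n) p)]

variable (G : GeoData n M)

omit [MetricSpace M] [ChartedSpace (EuclideanSpace ℝ (Fin n)) M]
  [IsManifold (𝓡 n) ∞ M] [RiemannianBundle (fun p : M => TangentSpace (𝓡 n) p)] in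
theorem two_le : (2 : ℕ∞ω) ≤ (∞ : ℕ∞ω) := WithTop.coe_le_coe.2 le_top

/-- the slice at the vector `p` -/
def sp (p : TangentBundle (𝓡 n) M) (v : Sl n) : M := G.ex p.1 (E p v)

/-- half squared distance of points of two slices -/
def Hp (p p' : TangentBundle (𝓡 n) M) (q : Sl n × Sl n) : ℝ :=
  halfDistSq (sp G p q.1) (sp G p' q.2)

theorem sp_zero (p : TangentBundle (𝓡 n) M) : sp G p 0 = p.1 := by
  rw [sp, map_zero, G.ex_zero]

theorem sg_eq {G : GeoData n M} (c : Cg G) (N : ℕ) (i : ZMod N) : sg c N i = sp G (c.pt N i) := rfl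

/-- `E p`, with values in the model space -/
def Ee (p : TangentBundle (𝓡 n) M) : Sl n →L[ℝ] EE n := E p

theorem contMDiff_sp (p : TangentBundle (𝓡 n) M) :
    ContMDiff 𝓘(ℝ, Sl n) (𝓡 n) ∞ (sp G p) := by
  have h1 : ContDiff ℝ ∞ (Ee p) := ContinuousLinearMap.contDiff _
  exact (GeoBasic616.contMDiff_ex_fibre G p.1).comp h1.contMDiff

theorem continuous_sp (p : TangentBundle (𝓡 n) M) : Continuous (sp G p) :=
  (contMDiff_sp G p).continuous

theorem contDiffAt_Hp {p p' : TangentBundle (𝓡 n) M} {q : Sl n × Sl n}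
    (h : dist (sp G p q.1) (sp G p' q.2) < G.r₀) : ContDiffAt ℝ ∞ (Hp G p p') q := by
  rw [← contMDiffAt_iff_contDiffAt]
  have h1 : ContMDiffAt 𝓘(ℝ, Sl n × Sl n) (𝓡 n) ∞ (fun q : Sl n × Sl n => sp G p q.1) q :=
    (contMDiff_sp G p).contMDiffAt.comp (g := sp G p) (f := Prod.fst) q
      contDiff_fst.contMDiff.contMDiffAt
  have h2 : ContMDiffAt 𝓘(ℝ, Sl n × Sl n) (𝓡 n) ∞ (fun q : Sl n × Sl n => sp G p' q.2) q :=
    (contMDiff_sp G p').contMDiffAt.comp (g := sp G p') (f := Prod.snd) q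
      contDiff_snd.contMDiff.contMDiffAt
  have h3 : ContMDiffAt ((𝓡 n).prod (𝓡 n)) 𝓘(ℝ) ∞ (fun r : M × M => halfDistSq r.1 r.2)
      (sp G p q.1, sp G p' q.2) :=
    G.smooth_cost.contMDiffAt
      ((isOpen_lt (continuous_fst.dist continuous_snd) continuous_const).mem_nhds h)
  exact ContMDiffAt.comp q h3 (h1.prodMk h2)

theorem ex_neg (p : TangentBundle (𝓡 n) M) (τ : ℝ) :
    G.ex (G.Flow τ p).1 ((-τ) • (G.Flow τ p).2) = p.1 := by
  have h := congrArg (fun r : TangentBundle (𝓡 n) M => r.1) (GeoBasic616.Flow_neg_Flow G τ p)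
  exact h

section flow

variable {p : TangentBundle (𝓡 n) M} (hp : ‖p.2‖ = 1) {τ : ℝ} (h0 : 0 < τ) (hτ : τ < G.r₀)

include hp h0 hτ

theorem dist_flow : dist p.1 (G.Flow τ p).1 = τ := by
  have h1 := G.dist_eq p.1 p.2 0 τ (by
    rw [hp, mul_one, zero_sub, abs_neg, abs_of_pos h0]; exact hτ)
  rw [zero_smul, G.ex_zero, hp, mul_one, zero_sub, abs_neg, abs_of_pos h0] at h1
  exact h1

theorem contDiffAt_Hp0 : ContDiffAt ℝ ∞ (Hp G p (G.Flow τ p)) (0, 0) := by
  refine contDiffAt_Hp G ?_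
  simp only [sp_zero]
  rw [dist_flow G hp h0 hτ]
  exact hτ

theorem Hp_zero : Hp G p (G.Flow τ p) (0, 0) = τ ^ 2 / 2 := by
  rw [Hp, sp_zero, sp_zero, halfDistSq, dist_flow G hp h0 hτ]

/-- `0` is critical -/
theorem fderiv_Hp : fderiv ℝ (Hp G p (G.Flow τ p)) (0, 0) = 0 := by
  have hd : HasFDerivAt (Hp G p (G.Flow τ p)) (fderiv ℝ (Hp G p (G.Flow τ p)) (0, 0)) (0, 0) :=
    ((contDiffAt_Hp0 G hp h0 hτ).differentiableAt (by simp)).hasFDerivAt
  have hp' : ‖(G.Flow τ p).2‖ = 1 := by rw [GeoBasic616.norm_Flow]; exact hp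
  have k1 : ∀ η : Sl n, fderiv ℝ (Hp G p (G.Flow τ p)) (0, 0) (η, 0) = 0 := by
    intro η
    have l1 : HasDerivAt (fun t : ℝ => (t • η, (0 : Sl n))) (η, (0 : Sl n)) 0 := by
      have h4 : HasDerivAt (fun t : ℝ => t • η) η 0 := by
        simpa using (hasDerivAt_id (0 : ℝ)).smul_const η
      exact h4.prodMk (hasDerivAt_const _ _)
    have hd' : HasFDerivAt (Hp G p (G.Flow τ p)) (fderiv ℝ (Hp G p (G.Flow τ p)) (0, 0))
        ((fun t : ℝ => (t • η, (0 : Sl n))) 0) := by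
      simp only [zero_smul]; exact hd
    have e1 := hd'.comp_hasDerivAt (0 : ℝ) l1
    have e2 := G.hasDerivAt_cost p.1 (τ • p.2) (E p η) (by
      rw [norm_smul, hp, mul_one, Real.norm_of_nonneg h0.le]; exact hτ)
    have e3 : (Hp G p (G.Flow τ p) ∘ fun t : ℝ => (t • η, (0 : Sl n)))
        = fun t : ℝ => halfDistSq (G.ex p.1 (t • E p η)) (G.ex p.1 (τ • p.2)) := by
      funext t
      simp only [Function.comp_apply, Hp, sp_zero]
      rw [sp, map_smul]
      rfl
    rw [e3] at e1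
    rw [e1.unique e2, real_inner_smul_left, inner_E hp, mul_zero, neg_zero]
  have k2 : ∀ ζ : Sl n, fderiv ℝ (Hp G p (G.Flow τ p)) (0, 0) (0, ζ) = 0 := by
    intro ζ
    have l1 : HasDerivAt (fun t : ℝ => ((0 : Sl n), t • ζ)) ((0 : Sl n), ζ) 0 := by
      have h4 : HasDerivAt (fun t : ℝ => t • ζ) ζ 0 := by
        simpa using (hasDerivAt_id (0 : ℝ)).smul_const ζ
      exact (hasDerivAt_const (0 : ℝ) (0 : Sl n)).prodMk h4
    have hd' : HasFDerivAt (Hp G p (G.Flow τ p)) (fderiv ℝ (Hp G p (G.Flow τ p)) (0, 0))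
        ((fun t : ℝ => ((0 : Sl n), t • ζ)) 0) := by
      simp only [zero_smul]; exact hd
    have e1 := hd'.comp_hasDerivAt (0 : ℝ) l1
    have e2 := G.hasDerivAt_cost (G.Flow τ p).1 ((-τ) • (G.Flow τ p).2) (E (G.Flow τ p) ζ) (by
      rw [norm_smul, hp', mul_one, norm_neg, Real.norm_of_nonneg h0.le]; exact hτ)
    have e3 : (Hp G p (G.Flow τ p) ∘ fun t : ℝ => ((0 : Sl n), t • ζ))
        = fun t : ℝ => halfDistSq (G.ex (G.Flow τ p).1 (t • E (G.Flow τ p) ζ))
            (G.ex (G.Flow τ p).1 ((-τ) • (G.Flow τ p).2)) := by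
      funext t
      rw [ex_neg]
      simp only [Function.comp_apply, Hp, sp_zero]
      rw [sp, map_smul]
      unfold halfDistSq
      rw [dist_comm]
    rw [e3] at e1
    rw [e1.unique e2, real_inner_smul_left, inner_E hp', mul_zero, neg_zero]
  refine ContinuousLinearMap.ext fun q => ?_
  obtain ⟨η, ζ⟩ := q
  have : (η, ζ) = (η, (0 : Sl n)) + ((0 : Sl n), ζ) := by simp
  rw [this, map_add, k1, k2]
  simp

end flow

/-- the slice in the chart -/
theorem hasFDerivAt_chart (p : TangentBundle (𝓡 n) M) :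
    HasFDerivAt (fun v : Sl n => extChartAt (𝓡 n) p.1 (sp G p v))
      (Ee p) 0 := by
  -- the exponential map in the chart
  have h1 : ContDiffAt ℝ ∞ (fun w : EE n => extChartAt (𝓡 n) p.1 (G.ex p.1 w)) 0 := by
    rw [← contMDiffAt_iff_contDiffAt]
    have h2 : ContMDiffAt (𝓡 n) 𝓘(ℝ, EE n) ∞ (extChartAt (𝓡 n) p.1)
        ((fun w : EE n => G.ex p.1 w) 0) := by
      have e : (fun w : EE n => G.ex p.1 w) 0 = p.1 := G.ex_zero p.1
      rw [e]
      exact contMDiffAt_extChartAt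
    exact ContMDiffAt.comp (0 : EE n) (g := extChartAt (𝓡 n) p.1)
      (f := fun w : EE n => G.ex p.1 w) h2
      (GeoBasic616.contMDiff_ex_fibre G p.1).contMDiffAt
  have h2 : HasFDerivAt (fun w : EE n => extChartAt (𝓡 n) p.1 (G.ex p.1 w))
      (fderiv ℝ (fun w : EE n => extChartAt (𝓡 n) p.1 (G.ex p.1 w)) 0) 0 :=
    (h1.differentiableAt (by simp)).hasFDerivAt
  have h3 : fderiv ℝ (fun w : EE n => extChartAt (𝓡 n) p.1 (G.ex p.1 w)) 0
      = ContinuousLinearMap.id ℝ (EE n) := by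
    ext1 ξ
    have l1 : HasDerivAt (fun t : ℝ => t • ξ) ξ 0 := by
      simpa using (hasDerivAt_id (0 : ℝ)).smul_const ξ
    have h4 : HasFDerivAt (fun w : EE n => extChartAt (𝓡 n) p.1 (G.ex p.1 w))
      (fderiv ℝ (fun w : EE n => extChartAt (𝓡 n) p.1 (G.ex p.1 w)) 0)
      ((fun t : ℝ => t • ξ) 0) := by simp only [zero_smul]; exact h2
    have h5 := h4.comp_hasDerivAt (0 : ℝ) l1
    have h6 := hasDerivAt_chart_radial G p.1 (ξ : TangentSpace (𝓡 n) p.1)
    exact h5.unique h6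
  rw [h3] at h2
  have h4 : HasFDerivAt (fun w : EE n => extChartAt (𝓡 n) p.1 (G.ex p.1 w))
      (ContinuousLinearMap.id ℝ (EE n)) ((Ee p) 0) := by
    rw [map_zero]; exact h2
  exact h4.comp 0 (ContinuousLinearMap.hasFDerivAt _)

section flow2

variable {p : TangentBundle (𝓡 n) M} (hp : ‖p.2‖ = 1) {τ : ℝ} (h0 : 0 < τ) (hτ : τ < G.r₀)

include hp h0 hτ

/-- **twist** -/
theorem twist_Hp {ζ : Sl n} (h : ∀ η : Sl n,
    fderiv ℝ (fderiv ℝ (Hp G p (G.Flow τ p))) (0, 0) (0, ζ) (η, 0) = 0) : ζ = 0 := by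
  have hp' : ‖(G.Flow τ p).2‖ = 1 := by rw [GeoBasic616.norm_Flow]; exact hp
  set p' := G.Flow τ p with hpp
  have hK : (τ • p.2 : TangentSpace (𝓡 n) p.1) ∈ G.K p.1 := by
    refine GeoBasic616.mem_K_of_norm_lt G ?_
    rw [norm_smul, hp, mul_one, Real.norm_of_nonneg h0.le]; exact hτ
  have hs : ContDiffAt ℝ ∞ (cc (n := n) p.1 (G.ex p.1 (τ • p.2)))
      (o p.1, o (G.ex p.1 (τ • p.2))) := by
    refine cc_contDiffAt (G.smooth_cost.contMDiffAt
      ((isOpen_lt (continuous_fst.dist continuous_snd) continuous_const).mem_nhds ?_))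
    have := dist_flow G hp h0 hτ
    show dist p.1 (G.Flow τ p).1 < G.r₀
    rw [this]; exact hτ
  obtain ⟨S, hS1, hS2⟩ := exists_right_inverse G hK hs
  -- the mixed derivative through the charts
  have hχ := hasFDerivAt_chart G p
  have hψ := hasFDerivAt_chart G p'
  have e1 : extChartAt (𝓡 n) p.1 (sp G p 0) = o p.1 := by rw [sp_zero]; rfl
  have e2 : extChartAt (𝓡 n) p'.1 (sp G p' 0) = o p'.1 := by rw [sp_zero]; rfl
  have hF : ContDiffAt ℝ 2 (cc (n := n) p.1 p'.1)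
      (extChartAt (𝓡 n) p.1 (sp G p 0), extChartAt (𝓡 n) p'.1 (sp G p' 0)) := by
    rw [e1, e2]
    exact hs.of_le two_le
  have hH : ContDiffAt ℝ 2 (Hp G p p') (0, 0) :=
    (contDiffAt_Hp0 G hp h0 hτ).of_le two_le
  have hHF : ∀ᶠ q : Sl n × Sl n in 𝓝 (0, 0), Hp G p p' q
      = cc (n := n) p.1 p'.1 (extChartAt (𝓡 n) p.1 (sp G p q.1),
        extChartAt (𝓡 n) p'.1 (sp G p' q.2)) := by
    have c1 : ∀ᶠ q : Sl n × Sl n in 𝓝 (0, 0), sp G p q.1 ∈ (extChartAt (𝓡 n) p.1).source := by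
      have : Tendsto (fun q : Sl n × Sl n => sp G p q.1) (𝓝 (0, 0)) (𝓝 (sp G p 0)) :=
        ((continuous_sp G p).comp continuous_fst).tendsto _
      rw [sp_zero] at this
      exact this.eventually (extChartAt_source_mem_nhds (I := 𝓡 n) p.1)
    have c2 : ∀ᶠ q : Sl n × Sl n in 𝓝 (0, 0), sp G p' q.2 ∈ (extChartAt (𝓡 n) p'.1).source := by
      have : Tendsto (fun q : Sl n × Sl n => sp G p' q.2) (𝓝 (0, 0)) (𝓝 (sp G p' 0)) :=
        ((continuous_sp G p').comp continuous_snd).tendsto _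
      rw [sp_zero] at this
      exact this.eventually (extChartAt_source_mem_nhds (I := 𝓡 n) p'.1)
    filter_upwards [c1, c2] with q h1 h2
    simp only [Hp, cc, (extChartAt (𝓡 n) p.1).left_inv h1, (extChartAt (𝓡 n) p'.1).left_inv h2]
  have key : ∀ η : Sl n, inner ℝ (S (Ee p' ζ)) (E p η) = 0 := by
    intro η
    have h1 := GMCalc654.mixed_comp (χ := fun v : Sl n => extChartAt (𝓡 n) p.1 (sp G p v))
      (ψ := fun v : Sl n => extChartAt (𝓡 n) p'.1 (sp G p' v)) hF hχ hψ hH hHF η ζ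
    rw [h η, e1, e2] at h1
    have h2 := hS2 (Ee p' ζ) (E p η)
    rw [h2]
    show -(fderiv ℝ (fderiv ℝ (cc (n := n) p.1 p'.1)) (o p.1, o p'.1)
      (0, Ee p' ζ) (Ee p η, 0)) = 0
    rw [← h1, neg_zero]
  -- the vector is a multiple of the velocity
  set v : TangentSpace (𝓡 n) p.1 := S (Ee p' ζ) with hv
  set lam : ℝ := inner ℝ p.2 v with hlam
  have hpp2 : inner ℝ p.2 p.2 = (1 : ℝ) := by
    rw [real_inner_self_eq_norm_sq, hp, one_pow]
  have hv1 : v = lam • p.2 := by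
    have h1 : inner ℝ p.2 (v - lam • p.2) = (0 : ℝ) := by
      rw [inner_sub_right, real_inner_smul_right, hpp2, mul_one, ← hlam, sub_self]
    obtain ⟨η, hη⟩ := (range_E hp (v - lam • p.2)).2 h1
    have h2 := key η
    rw [hη] at h2
    have h3 : inner ℝ (v - lam • p.2) (v - lam • p.2) = (0 : ℝ) := by
      rw [inner_sub_left, h2, real_inner_smul_left, h1, mul_zero, sub_zero]
    exact sub_eq_zero.1 (inner_self_eq_zero.1 h3)
  -- the image of the velocity
  have hvel : fderiv ℝ (ec G p.1 (G.ex p.1 (τ • p.2))) (τ • p.2) p.2 = (p'.2 : EE n) := by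
    have l1 : HasDerivAt (fun t : ℝ => t • p.2) p.2 τ := by
      simpa using (hasDerivAt_id τ).smul_const p.2
    have h1 : HasFDerivAt (ec G p.1 (G.ex p.1 (τ • p.2)))
        (fderiv ℝ (ec G p.1 (G.ex p.1 (τ • p.2))) (τ • p.2)) ((fun t : ℝ => t • p.2) τ) :=
      ((ec_contDiffAt G p.1 (τ • p.2)).differentiableAt (by simp)).hasFDerivAt
    have h2 := h1.comp_hasDerivAt τ l1
    have h3 := hasDerivAt_chart_curve (γ := fun t : ℝ => G.ex p.1 (t • p.2)) (t₀ := τ)
      (GeoBasic616.mdifferentiableAt_ray G p.1 p.2 τ)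
    exact h2.unique h3
  have h4 : Ee p' ζ = lam • (p'.2 : EE n) := by
    have h5 := hS1 (Ee p' ζ)
    rw [← hv, hv1, map_smul, hvel] at h5
    exact h5.symm
  have h6 : E p' ζ = lam • p'.2 := h4
  have h7 : lam = 0 := by
    have h8 := inner_E hp' ζ
    rw [h6, real_inner_smul_right, real_inner_self_eq_norm_sq, hp', one_pow, mul_one] at h8
    exact h8
  rw [h7, zero_smul] at h6
  have h9 := norm_E hp' ζ
  rw [h6, norm_zero] at h9
  exact norm_eq_zero.1 h9.symm

end flow2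

/-! ### the distance -/

section D

variable {G} (c : Cg G) {N : ℕ} [NeZero N] (h : c.l / N < G.r₀) (i : ZMod N)

theorem D_eq : D c N i = fun q => Real.sqrt (2 * Hp G (c.pt N i) (G.Flow (c.l / N) (c.pt N i)) q)
    - c.l / N := by
  funext q
  rw [D, sg_eq, sg_eq, c.pt_succ, Hp, halfDistSq]
  congr 1
  rw [mul_div_cancel₀ _ (two_ne_zero' ℝ), Real.sqrt_sq dist_nonneg]

theorem step_pos : 0 < c.l / N := div_pos c.l_pos (Nat.cast_pos.2 (NeZero.pos N))

theorem contDiffAt_sqrt {a : ℝ} (b : ℝ) (ha : 0 < a) :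
    ContDiffAt ℝ ∞ (fun s : ℝ => Real.sqrt (2 * s) - b) a := by
  have h1 : ContDiffAt ℝ ∞ (fun s : ℝ => 2 * s) a := contDiffAt_const.mul contDiffAt_id
  have h2 : (fun s : ℝ => 2 * s) a ≠ 0 := by simp only; positivity
  exact (ContDiffAt.sqrt h1 h2).sub contDiffAt_const

include h

theorem contDiffAt_D : ContDiffAt ℝ ∞ (D c N i) (0, 0) := by
  rw [D_eq]
  have h1 := contDiffAt_Hp0 G (c.norm_pt N i) (step_pos c) h
  have h2 := Hp_zero G (c.norm_pt N i) (step_pos c) h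
  refine ContDiffAt.comp (g := fun s : ℝ => Real.sqrt (2 * s) - c.l / N) (0, 0) ?_ h1
  rw [h2]
  have := step_pos c (N := N)
  exact contDiffAt_sqrt _ (by positivity)

theorem contDiffAt_D_two : ContDiffAt ℝ 2 (D c N i) (0, 0) := (contDiffAt_D c h i).of_le two_le

/-- **`0` is critical** -/
theorem fderiv_D : fderiv ℝ (D c N i) (0, 0) = 0 := by
  rw [D_eq]
  have h1 := contDiffAt_Hp0 G (c.norm_pt N i) (step_pos c) h
  have h2 := Hp_zero G (c.norm_pt N i) (step_pos c) h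
  refine GMCalc654.first_outer (g := fun s : ℝ => Real.sqrt (2 * s) - c.l / N) ?_
    (h1.differentiableAt (by simp)) (fderiv_Hp G (c.norm_pt N i) (step_pos c) h)
  rw [h2]
  have := step_pos c (N := N)
  exact (contDiffAt_sqrt _ (by positivity)).differentiableAt (by simp)

theorem second_D (v w : Sl n × Sl n) : ∃ k : ℝ, k ≠ 0 ∧
    fderiv ℝ (fderiv ℝ (D c N i)) (0, 0) v w
      = k * fderiv ℝ (fderiv ℝ (Hp G (c.pt N i) (G.Flow (c.l / N) (c.pt N i)))) (0, 0) v w := by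
  rw [D_eq]
  have h1 := contDiffAt_Hp0 G (c.norm_pt N i) (step_pos c) h
  have h2 := Hp_zero G (c.norm_pt N i) (step_pos c) h
  have hs := step_pos c (N := N)
  have hpos : 0 < (c.l / N) ^ 2 / 2 := by positivity
  refine ⟨deriv (fun s : ℝ => Real.sqrt (2 * s) - c.l / N)
    (Hp G (c.pt N i) (G.Flow (c.l / N) (c.pt N i)) (0, 0)), ?_, ?_⟩
  · rw [h2]
    have h3 : HasDerivAt (fun s : ℝ => Real.sqrt (2 * s) - c.l / N)
        ((2 * 1) / (2 * Real.sqrt (2 * ((c.l / N) ^ 2 / 2)))) ((c.l / N) ^ 2 / 2) := by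
      refine (HasDerivAt.sqrt ((hasDerivAt_id _).const_mul 2) ?_).sub_const _
      show 2 * ((c.l / N) ^ 2 / 2) ≠ 0
      positivity
    rw [h3.deriv]
    have : 0 < Real.sqrt (2 * ((c.l / N) ^ 2 / 2)) := Real.sqrt_pos.2 (by positivity)
    positivity
  · refine GMCalc654.second_outer (g := fun s : ℝ => Real.sqrt (2 * s) - c.l / N) ?_
      (h1.of_le two_le) (fderiv_Hp G (c.norm_pt N i) (step_pos c) h) v w
    rw [h2]
    exact (contDiffAt_sqrt _ hpos).of_le two_le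

/-- **twist** -/
theorem twist_right {ζ : Sl n} (hz : ∀ η : Sl n,
    fderiv ℝ (fderiv ℝ (D c N i)) (0, 0) (0, ζ) (η, 0) = 0) : ζ = 0 := by
  refine twist_Hp G (c.norm_pt N i) (step_pos c) h fun η => ?_
  obtain ⟨k, hk, he⟩ := second_D c h i (0, ζ) (η, 0)
  rw [hz η] at he
  exact (mul_eq_zero.1 he.symm).resolve_left hk

/-- the second derivative is symmetric -/
theorem symm_D (v w : Sl n × Sl n) : fderiv ℝ (fderiv ℝ (D c N i)) (0, 0) v w
    = fderiv ℝ (fderiv ℝ (D c N i)) (0, 0) w v := by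
  have h1 := (contDiffAt_D_two c h i).isSymmSndFDerivAt (by simp)
  exact h1 v w

/-- **twist**, the other variable -/
theorem twist_left {η : Sl n} (hz : ∀ ζ : Sl n,
    fderiv ℝ (fderiv ℝ (D c N i)) (0, 0) (η, 0) (0, ζ) = 0) : η = 0 := by
  -- the coupling as a linear map `S → S*`
  let B : Sl n →ₗ[ℝ] Module.Dual ℝ (Sl n) :=
    LinearMap.mk₂ ℝ (fun ζ η => fderiv ℝ (fderiv ℝ (D c N i)) (0, 0) (0, ζ) (η, 0))
      (fun a b d => by
        rw [show ((0 : Sl n), a + b) = (0, a) + (0, b) by simp, map_add]; rfl)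
      (fun r a d => by
        rw [show ((0 : Sl n), r • a) = r • ((0 : Sl n), a) by simp, map_smul]; rfl)
      (fun a b d => by
        rw [show (b + d, (0 : Sl n)) = (b, 0) + (d, 0) by simp, map_add])
      (fun r a d => by
        rw [show (r • d, (0 : Sl n)) = r • (d, (0 : Sl n)) by simp, map_smul])
  have hB : Function.Injective B := by
    rw [injective_iff_map_eq_zero]
    intro ζ hζ
    exact twist_right c h i fun η => LinearMap.congr_fun hζ η
  have hfin : Module.finrank ℝ (Sl n) = Module.finrank ℝ (Module.Dual ℝ (Sl n)) :=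
    (Subspace.dual_finrank_eq (K := ℝ) (V := Sl n)).symm
  have hsurj : Function.Surjective B :=
    (LinearMap.injective_iff_surjective_of_finrank_eq_finrank hfin).1 hB
  obtain ⟨ζ, hζ⟩ := hsurj ((innerSL ℝ η : Sl n →L[ℝ] ℝ) : Sl n →ₗ[ℝ] ℝ)
  have h1 : fderiv ℝ (fderiv ℝ (D c N i)) (0, 0) (0, ζ) (η, 0) = inner ℝ η η :=
    LinearMap.congr_fun hζ η
  rw [symm_D c h i, hz ζ] at h1
  exact inner_self_eq_zero.1 h1.symm

end D

end Crest.Agent.R231.GMSlx654
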