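import Crest.Agent.R231.GeoSeg_724
import Crest.Agent.R231.GLoop_576
import Crest.Agent.R231.PrimeGeo_893

/-!
# Row 231 (S0357), block G, part G6 (helper724): the geodesic package gives `LUG`

`M` compact Riemannian manifold with `G : GeoData n M`:

* `lug G : LUG M` with radius `G.r₀` and `seg := GeoSegx724.seg G`
* `exline_Icc` : a curve on `[a,b]` with `dist (c x) (c y) = v |x-y|` for `|x-y| ≤ δ` is an `ex`-line
* `locMin` : `(lug G).LocMin`
* `isLoopG_of_isGeo`, `exists_line` : a metric closed geodesic `γ : Lp M` of length `s` is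
  `t ↦ G.ex (γ 0) (t v)`, `‖v‖ = s`, `G.Flow 1 (γ 0, v) = (γ 0, v)`
* `loopOf`, `isGeo_loopOf` : conversely
-/

set_option autoImplicit false
set_option linter.unusedSectionVars false

noncomputable section

open Bundle Set Filter
open scoped Manifold ContDiff Bundle ENNReal Topology
open Crest.GeometryTopology.MTW
open Crest.Agent.R226 Crest.Agent.R226.GeoBasic616 Crest.Agent.R226.TB616
open Crest.Agent.R231.GeoSegx724 Crest.Agent.R231.GLugx576

namespace Crest.Agent.R231.GeoLugx724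

variable {n : ℕ} {M : Type*} [MetricSpace M] [ChartedSpace (EuclideanSpace ℝ (Fin n)) M]
  [IsManifold (𝓡 n) ∞ M]
  [RiemannianBundle (fun p : M => TangentSpace (𝓡 n) p)]

variable (G : GeoData n M)

/-- the unique short geodesics of a geodesic package -/
def lug : LUG M where
  r0 := G.r₀
  r0_pos := G.r₀_pos
  seg := seg G
  dist_seg := fun _ _ _ hs ht => dist_seg G _ _ hs ht
  seg_zero := fun _ => seg_zero G _ _
  seg_one := fun _ => seg_one G _ _
  uniq := fun h _ _ h1 h2 => seg_uniq G h h1 h2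

@[simp] theorem lug_r0 : (lug G).r0 = G.r₀ := rfl

@[simp] theorem lug_seg : (lug G).seg = seg G := rfl

/-- on a short window a metric geodesic is a ray -/
theorem exline_window {c : ℝ → M} {p q v : ℝ} (hpq : p < q) (hr : v * (q - p) < G.r₀)
    (h : ∀ x ∈ Icc p q, ∀ y ∈ Icc p q, dist (c x) (c y) = v * |x - y|) {x : M} (hx : c p = x) :
    ∃ w : TangentSpace (𝓡 n) x, ‖w‖ = v ∧ ∀ t ∈ Icc (0 : ℝ) (q - p), c (p + t) = G.ex x (t • w) := by
  subst hx
  have hl : 0 < q - p := by linarith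
  have hp : p ∈ Icc p q := ⟨le_rfl, hpq.le⟩
  have hq : q ∈ Icc p q := ⟨hpq.le, le_rfl⟩
  have hd : dist (c p) (c q) = v * (q - p) := by
    rw [h p hp q hq, abs_sub_comm, abs_of_pos hl]
  refine ⟨(q - p)⁻¹ • lg G (c p) (c q), ?_, fun t ht => ?_⟩
  · rw [norm_smul, norm_lg, hd, Real.norm_of_nonneg (inv_nonneg.2 hl.le)]
    field_simp
  · have h1 : p + t ∈ Icc p q := ⟨by linarith [ht.1], by linarith [ht.2]⟩
    have h2 : c (p + t) = seg G (c p) (c q) (t / (q - p)) := by
      refine seg_uniq G (by rw [hd]; exact hr) ?_ ?_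
      · rw [h p hp _ h1, hd, show p - (p + t) = -t by ring, abs_neg, abs_of_nonneg ht.1]
        field_simp
      · rw [h _ h1 q hq, hd, abs_sub_comm, show q - (p + t) = q - p - t by ring,
          abs_of_nonneg (by linarith [ht.2])]
        field_simp
    rw [h2]
    unfold seg
    rw [smul_smul, div_eq_mul_inv]

/-- **a local metric geodesic on `[a,b]` is an `ex`-line** -/
theorem exline_Icc {c : ℝ → M} {a b v δ : ℝ} (hab : a < b) (hδ : 0 < δ) (hv : 0 ≤ v)
    (h : ∀ x ∈ Icc a b, ∀ y ∈ Icc a b, |x - y| ≤ δ → dist (c x) (c y) = v * |x - y|)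
    {x : M} (hx : c a = x) :
    ∃ w : TangentSpace (𝓡 n) x, ‖w‖ = v ∧ ∀ t ∈ Icc (0 : ℝ) (b - a), c (a + t) = G.ex x (t • w) := by
  have hr := G.r₀_pos
  have hl : 0 < b - a := by linarith
  -- the number of steps
  obtain ⟨N, hN⟩ := exists_nat_gt (max (2 * (b - a) / δ) (2 * v * (b - a) / G.r₀))
  have hN1 : 2 * (b - a) / δ < N := lt_of_le_of_lt (le_max_left _ _) hN
  have hN2 : 2 * v * (b - a) / G.r₀ < N := lt_of_le_of_lt (le_max_right _ _) hN
  have hN0 : (0 : ℝ) < N := lt_of_le_of_lt (by positivity) hN1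
  have hNn : 0 < N := by exact_mod_cast hN0
  set η : ℝ := (b - a) / N with hη
  have hη0 : 0 < η := div_pos hl hN0
  have hηδ : 2 * η ≤ δ := by
    rw [hη]
    rw [div_lt_iff₀ hδ] at hN1
    rw [← mul_div_assoc, div_le_iff₀ hN0]
    linarith
  have hηr : v * (2 * η) < G.r₀ := by
    rw [hη]
    rw [div_lt_iff₀ hr] at hN2
    rw [show v * (2 * ((b - a) / N)) = 2 * v * (b - a) / N by ring, div_lt_iff₀ hN0]
    linarith
  have hNη : N * η = b - a := by rw [hη]; field_simp
  -- windows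
  have win : ∀ p q, a ≤ p → p < q → q ≤ b → q - p ≤ 2 * η → ∀ {y : M}, c p = y →
      ∃ w : TangentSpace (𝓡 n) y, ‖w‖ = v ∧
        ∀ t ∈ Icc (0 : ℝ) (q - p), c (p + t) = G.ex y (t • w) := by
    intro p q hp hpq hq hw y hy
    refine exline_window G hpq ?_ ?_ hy
    · refine lt_of_le_of_lt ?_ hηr
      exact mul_le_mul_of_nonneg_left hw hv
    · intro s hs t ht
      refine h s ⟨hp.trans hs.1, hs.2.trans hq⟩ t ⟨hp.trans ht.1, ht.2.trans hq⟩ ?_
      rw [abs_le]
      constructor <;> linarith [hs.1, hs.2, ht.1, ht.2]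
  have hηb : a + η ≤ b := by
    have h1 : (1 : ℝ) ≤ N := by exact_mod_cast hNn
    have := mul_le_mul_of_nonneg_right h1 hη0.le
    linarith
  obtain ⟨w, hw1, hw⟩ := win a (a + η) le_rfl (by linarith) hηb (by linarith) hx
  refine ⟨w, hw1, ?_⟩
  have key : ∀ k : ℕ, k + 1 ≤ N → ∀ t, 0 ≤ t → t ≤ (k + 1) * η → c (a + t) = G.ex x (t • w) := by
    intro k
    induction k with
    | zero =>
      intro _ t ht0 ht1
      refine hw t ⟨ht0, ?_⟩
      norm_num at ht1
      linarith
    | succ k ih =>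
      intro hk t ht0 ht1
      have ih' := ih (by omega)
      rcases le_or_gt t ((k + 1) * η) with hle | hgt
      · exact ih' t ht0 hle
      have hk0 : (0 : ℝ) ≤ k := Nat.cast_nonneg k
      have hkη : 0 ≤ k * η := mul_nonneg hk0 hη0.le
      have hkN : ((k : ℝ) + 1 + 1) * η ≤ b - a := by
        rw [← hNη]
        refine mul_le_mul_of_nonneg_right ?_ hη0.le
        exact_mod_cast hk
      have hcp : c (a + k * η) = G.ex x ((k * η) • w) := ih' _ hkη (by linarith)
      obtain ⟨w', hw1', hw'⟩ := win (a + k * η) (a + (k + 1 + 1) * η) (by linarith)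
        (by linarith) (by linarith) (by linarith) hcp
      have hwv : w' = G.vel x w (k * η) := by
        have e1 : c (a + k * η + η) = G.ex _ (η • w') := hw' η ⟨hη0.le, by linarith⟩
        have e2 : c (a + k * η + η) = G.ex x ((k * η + η) • w) := by
          rw [add_assoc]
          exact ih' _ (by linarith) (by linarith)
        have e3 : G.ex (G.ex x ((k * η) • w)) (η • G.vel x w (k * η)) = G.ex x ((k * η + η) • w) :=
          G.flow x w (k * η) η
        have hn : ∀ u : TangentSpace (𝓡 n) (G.ex x ((k * η) • w)), ‖u‖ = v → ‖η • u‖ < G.r₀ := by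
          intro u hu
          rw [norm_smul, Real.norm_of_nonneg hη0.le, hu, mul_comm]
          refine lt_of_le_of_lt ?_ hηr
          exact mul_le_mul_of_nonneg_left (by linarith) hv
        have e4 := G.inj _ (η • w') (η • G.vel x w (k * η)) (hn _ hw1')
          (hn _ (by rw [GeoBasic616.norm_vel, hw1])) (by rw [← e1, e2, e3])
        exact smul_right_injective _ hη0.ne' e4
      have e5 := hw' (t - k * η) ⟨by linarith, by push_cast at ht1; linarith⟩
      rw [show a + k * η + (t - k * η) = a + t by ring] at e5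
      rw [e5, hwv]
      have e6 : G.ex (G.ex x ((k * η) • w)) ((t - k * η) • G.vel x w (k * η)) =
        G.ex x ((k * η + (t - k * η)) • w) := G.flow x w (k * η) (t - k * η)
      rw [e6]
      congr 2
      ring
  intro t ht
  obtain ⟨k, hk⟩ : ∃ k, N = k + 1 := ⟨N - 1, by omega⟩
  refine key k (by omega) t ht.1 ?_
  have hNk : (N : ℝ) = k + 1 := by rw [hk]; push_cast; ring
  rw [← hNk, hNη]
  exact ht.2

/-- locally minimal curves of length `< r₀` are minimal -/
theorem locMin : (lug G).LocMin := by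
  intro c a b v δ hab hδ hv hr h
  rcases hab.eq_or_lt with hab | hab
  · subst hab
    rw [dist_self, sub_self, mul_zero]
  · obtain ⟨w, hw1, hw⟩ := exline_Icc G hab hδ hv h rfl
    have h1 := hw 0 ⟨le_rfl, by linarith⟩
    have h2 := hw (b - a) ⟨by linarith, le_rfl⟩
    rw [add_zero] at h1
    rw [show a + (b - a) = b by ring] at h2
    have hba : |0 - (b - a)| = b - a := by
      rw [zero_sub, abs_neg, abs_of_pos (by linarith)]
    have h3 := G.dist_eq (c a) w 0 (b - a) (by rw [hba, hw1, mul_comm]; exact hr)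
    rw [← h1, ← h2, hba, hw1, mul_comm] at h3
    exact h3

/-- a metric closed geodesic is a local geodesic with radius `r₀` -/
theorem isGeo_dist {γ : Lp M} {s : ℝ} (h : IsGeo s γ) {x y : ℝ} (hxy : s * |x - y| < G.r₀) :
    dist (γ x) (γ y) = s * |x - y| := by
  obtain ⟨hs, δ, hδ, h⟩ := h
  have key : ∀ x y : ℝ, x ≤ y → s * (y - x) < G.r₀ → dist (γ x) (γ y) = s * (y - x) :=
    fun x y hxy h1 => locMin G (fun t : ℝ => γ t) x y s δ hxy hδ hs.le h1
      fun z _ w _ hzw => h z w hzw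
  rcases le_total x y with hle | hle
  · rw [abs_sub_comm, abs_of_nonneg (by linarith)] at hxy ⊢
    exact key x y hle hxy
  · rw [abs_of_nonneg (by linarith)] at hxy ⊢
    rw [dist_comm]
    exact key y x hle hxy

theorem isLoopG_of_isGeo {γ : Lp M} {s : ℝ} (h : IsGeo s γ) :
    PrimeGeox893.IsLoopG G.r₀ s (fun x : ℝ => γ x) := by
  refine ⟨fun x => ?_, fun x y hxy => isGeo_dist G h hxy⟩
  show γ ((x + 1 : ℝ) : UnitAddCircle) = γ x
  rw [AddCircle.coe_add, coe_one_circle, add_zero]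

theorem eq_of_ex {p q : TangentBundle (𝓡 n) M} (h1 : q.1 = p.1) {η : ℝ} (hη : 0 < η)
    (hp : η * ‖p.2‖ < G.r₀) (hq : η * ‖q.2‖ < G.r₀)
    (h : G.ex q.1 (η • q.2) = G.ex p.1 (η • p.2)) : q = p := by
  obtain ⟨x, v⟩ := p
  obtain ⟨y, w⟩ := q
  simp only at h1
  subst h1
  have hn : ∀ u : TangentSpace (𝓡 n) y, η * ‖u‖ < G.r₀ → ‖η • u‖ < G.r₀ := by
    intro u hu
    rw [norm_smul, Real.norm_of_nonneg hη.le]
    exact hu
  have h2 := G.inj y _ _ (hn w hq) (hn v hp) h
  have h3 : w = v := smul_right_injective _ hη.ne' h2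
  rw [h3]

/-- **a metric closed geodesic is a closed orbit of the geodesic flow** -/
theorem exists_line {γ : Lp M} {s : ℝ} (h : IsGeo s γ) :
    ∃ p : TangentBundle (𝓡 n) M, p.1 = γ 0 ∧ ‖p.2‖ = s ∧ G.Flow 1 p = p ∧
      ∀ t : ℝ, γ t = G.ex p.1 (t • p.2) := by
  have hr := G.r₀_pos
  have hs := h.1
  obtain ⟨_, δ, hδ, h'⟩ := id h
  have h0 : (fun t : ℝ => γ t) 0 = γ 0 := rfl
  obtain ⟨w, hw1, hw⟩ := exline_Icc G (c := fun t : ℝ => γ t) (a := 0) (b := 2) (by norm_num) hδ
    hs.le (fun x _ y _ hxy => h' x y hxy) h0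
  simp only [zero_add, sub_zero] at hw
  set p : TangentBundle (𝓡 n) M := ⟨γ 0, w⟩ with hp
  have hper : ∀ t : ℝ, γ ((1 + t : ℝ) : UnitAddCircle) = γ t := by
    intro t
    rw [AddCircle.coe_add, coe_one_circle, zero_add]
  have hq1 : (G.Flow 1 p).1 = p.1 := by
    have h1 := hw 1 ⟨by norm_num, by norm_num⟩
    have h2 := hper 0
    rw [add_zero] at h2
    rw [h2] at h1
    exact h1.symm
  have hF : G.Flow 1 p = p := by
    set η : ℝ := min 1 (G.r₀ / (2 * s)) with hη
    have hη0 : 0 < η := lt_min one_pos (by positivity)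
    have hη1 : η ≤ 1 := min_le_left _ _
    have hη2 : η * s < G.r₀ := by
      have h1 : η ≤ G.r₀ / (2 * s) := min_le_right _ _
      rw [le_div_iff₀ (by positivity)] at h1
      linarith
    refine eq_of_ex G hq1 hη0 (by rw [hw1]; exact hη2) (by rw [norm_Flow, hw1]; exact hη2) ?_
    have h1 := G.flow (γ 0) w 1 η
    have h2 : G.ex (G.Flow 1 p).1 (η • (G.Flow 1 p).2) = G.ex (γ 0) ((1 + η) • w) := h1
    rw [h2, ← hw (1 + η) ⟨by linarith, by linarith⟩, hper, hw η ⟨hη0.le, by linarith⟩]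
  refine ⟨p, rfl, hw1, hF, ?_⟩
  have hper2 : Function.Periodic (fun t : ℝ => G.ex p.1 (t • p.2)) 1 := by
    intro t
    have h1 : G.Flow (1 + t) p = G.Flow t (G.Flow 1 p) := by
      rw [Flow_add]
    show (G.Flow (t + 1) p).1 = (G.Flow t p).1
    rw [add_comm, h1, hF]
  intro t
  have e1 : (t : UnitAddCircle) = ((Int.fract t : ℝ) : UnitAddCircle) := by
    rw [AddCircle.coe_fract]
  rw [e1, hw _ ⟨Int.fract_nonneg t, by linarith [Int.fract_lt_one t]⟩]
  have h2 := hper2.sub_int_mul_eq (x := t) ⌊t⌋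
  simp only [mul_one] at h2
  rw [← h2]
  rfl

/-- the loop of a closed orbit of the geodesic flow -/
def loopOf (p : TangentBundle (𝓡 n) M) (h : G.Flow 1 p = p) : Lp M where
  toFun := Function.Periodic.lift (f := fun t : ℝ => G.ex p.1 (t • p.2)) (c := 1) (by
    intro t
    show (G.Flow (t + 1) p).1 = (G.Flow t p).1
    rw [add_comm, ← Flow_add, h])
  continuous_toFun := by
    refine continuous_coinduced_dom.mpr ?_
    show Continuous (fun t : ℝ => G.ex p.1 (t • p.2))
    exact (contMDiff_ray G p.1 p.2).continuous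

@[simp] theorem loopOf_coe (p : TangentBundle (𝓡 n) M) (h : G.Flow 1 p = p) (t : ℝ) :
    loopOf G p h t = G.ex p.1 (t • p.2) := rfl

theorem isGeo_loopOf (p : TangentBundle (𝓡 n) M) (h : G.Flow 1 p = p) (hp : p.2 ≠ 0) :
    IsGeo ‖p.2‖ (loopOf G p h) := by
  have hr := G.r₀_pos
  have hpos : 0 < ‖p.2‖ := norm_pos_iff.2 hp
  refine ⟨hpos, G.r₀ / (2 * ‖p.2‖), by positivity, fun x y hxy => ?_⟩
  rw [loopOf_coe, loopOf_coe, G.dist_eq p.1 p.2 x y ?_, mul_comm]
  rw [le_div_iff₀ (by positivity)] at hxy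
  linarith

end Crest.Agent.R231.GeoLugx724
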