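import Crest.Agent.R231.GMCross_320
import Crest.Agent.R231.GMGeoB_889
import Crest.Agent.R231.GeoLug_724

/-!
# Row 231 (S0357), block GM-GEO (helper320): the slice system of a closed geodesic

`sliceSys c N hN : SliceSys (lug G) (Sl n)` with `c`, `l`, `N`, `σ = sg c N`; `D_sliceSys`.
-/

set_option autoImplicit false
set_option linter.unusedSectionVars false

noncomputable section

open MeasureTheory Bundle Set Filter
open scoped Manifold ContDiff Bundle ENNReal Topology
open Crest.GeometryTopology.MTW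
open Crest.Agent.R226

namespace Crest.Agent.R231.GMSysx320

open Crest.Agent.R226.GeoBasic616 Crest.Agent.R226.TB616
open Crest.Agent.R231.GMDirx320 Crest.Agent.R231.GMSlx654 Crest.Agent.R231.GMCrossx320
open Crest.Agent.R231.GMGeox889 Crest.Agent.R231.GeoLugx724

variable {n : ℕ} {M : Type*} [MetricSpace M] [ChartedSpace (EuclideanSpace ℝ (Fin n)) M]
  [IsManifold (𝓡 n) ∞ M]
  [RiemannianBundle (fun p : M => TangentSpace (𝓡 n) p)]
variable {G : GeoData n M}

/-- the closed geodesic as a curve -/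
def crv (c : Cg G) (t : ℝ) : M := G.ex c.x0 (t • c.u0)

theorem crv_eq (c : Cg G) (t : ℝ) : crv c t = (G.Flow t c.p0).1 := rfl

theorem crv_per (c : Cg G) (y : ℝ) : crv c (y + c.l) = crv c y := by
  rw [crv_eq, crv_eq, add_comm, ← Flow_add]
  exact congrArg (fun p => (G.Flow y p).1) c.per

theorem crv_geo (c : Cg G) (x y : ℝ) (h : |x - y| < G.r₀) :
    dist (crv c x) (crv c y) = |x - y| := by
  have := G.dist_eq c.x0 c.u0 x y (by rw [c.norm_u0, mul_one]; exact h)
  rw [c.norm_u0, mul_one] at this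
  exact this

theorem pt_ex (c : Cg G) (N : ℕ) (i : ZMod N) (s : ℝ) :
    G.ex (c.pt N i).1 (s • (c.pt N i).2) = crv c ((i.val : ℝ) * (c.l / N) + s) := by
  have := Flow_add G s ((i.val : ℝ) * (c.l / N)) c.p0
  exact congrArg (fun p : TangentBundle (𝓡 n) M => p.1) this

section
variable [IsContMDiffRiemannianBundle (𝓡 n) ∞ (EuclideanSpace ℝ (Fin n))
    (fun p : M => TangentSpace (𝓡 n) p)]

theorem sys_cross (c : Cg G) {N : ℕ} [NeZero N] (hN : 4 * c.l / N < G.r₀) (i : ZMod N) :
    ∃ (τ : M × M → ℝ) (w : M × M → Sl n),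
      (∃ O : Set (M × M), IsOpen O ∧
        (crv c ((i.val - 1 / 2) * c.l / N), crv c ((i.val + 1 / 2) * c.l / N)) ∈ O ∧
        ContinuousOn τ O ∧ ContinuousOn w O ∧
        ∀ p ∈ O, τ p ∈ Ioo (0 : ℝ) 1 ∧ GeoSegx724.seg G p.1 p.2 (τ p) = sg c N i (w p)) ∧
      τ (crv c ((i.val - 1 / 2) * c.l / N), crv c ((i.val + 1 / 2) * c.l / N)) = 1 / 2 ∧
      w (crv c ((i.val - 1 / 2) * c.l / N), crv c ((i.val + 1 / 2) * c.l / N)) = 0 := by
  have hNp : (0 : ℝ) < N := Nat.cast_pos.2 (NeZero.pos N)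
  have hl := c.l_pos
  have hh : 0 < c.l / (2 * N) := by positivity
  have h2 : 2 * (c.l / (2 * N)) < G.r₀ / 2 := by
    have e : 4 * c.l / N = 8 * (c.l / (2 * N)) := by field_simp; ring
    rw [e] at hN
    linarith
  obtain ⟨O, τ, w, hO, hcO, hτ, hw, hτ0, hw0, hall⟩ := crossing (G := G) (P := c.pt N i)
    (c.norm_pt N i) hh h2
  have e1 : G.ex (c.pt N i).1 ((-(c.l / (2 * N))) • (c.pt N i).2) =
      crv c ((i.val - 1 / 2) * c.l / N) := by
    rw [pt_ex]; congr 1; field_simp; ring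
  have e2 : G.ex (c.pt N i).1 ((c.l / (2 * N)) • (c.pt N i).2) =
      crv c ((i.val + 1 / 2) * c.l / N) := by
    rw [pt_ex]; congr 1; field_simp
  rw [e1, e2] at hcO hτ0 hw0
  exact ⟨τ, w, ⟨O, hO, hcO, hτ, hw, fun p hp => ⟨(hall p hp).2.1, (hall p hp).2.2⟩⟩, hτ0, hw0⟩

/-- **the slice system** of a closed geodesic -/
def sliceSys (c : Cg G) (N : ℕ) [hNe : NeZero N] (hN : 4 * c.l / N < G.r₀) :
    SliceSys (lug G) (Sl n) where
  c := crv c
  l := c.l
  N := N
  l_pos := c.l_pos
  per := crv_per c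
  geo := crv_geo c
  small := hN
  σ := sg c N
  σ_zero := by
    intro i
    rw [sg_zero]
    change crv c _ = _
    congr 1
    ring
  σ_cont := by
    intro i
    exact (contMDiff_ex_fibre G (c.pt N i).1).continuous.comp (E (c.pt N i)).continuous
  τ := fun i => Classical.choose (sys_cross c hN i)
  w := fun i => Classical.choose (Classical.choose_spec (sys_cross c hN i))
  cross := fun i => (Classical.choose_spec (Classical.choose_spec (sys_cross c hN i))).1
  τ_mid := fun i => (Classical.choose_spec (Classical.choose_spec (sys_cross c hN i))).2.1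
  w_mid := fun i => (Classical.choose_spec (Classical.choose_spec (sys_cross c hN i))).2.2

@[simp] theorem sliceSys_N (c : Cg G) (N : ℕ) [NeZero N] (hN : 4 * c.l / N < G.r₀) :
    (sliceSys c N hN).N = N := rfl

@[simp] theorem sliceSys_l (c : Cg G) (N : ℕ) [NeZero N] (hN : 4 * c.l / N < G.r₀) :
    (sliceSys c N hN).l = c.l := rfl

@[simp] theorem sliceSys_c (c : Cg G) (N : ℕ) [NeZero N] (hN : 4 * c.l / N < G.r₀) :
    (sliceSys c N hN).c = crv c := rfl

theorem sliceSys_D (c : Cg G) (N : ℕ) [NeZero N] (hN : 4 * c.l / N < G.r₀) :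
    (sliceSys c N hN).D = GMSlx654.D c N := rfl

end

end Crest.Agent.R231.GMSysx320
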