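import Crest.Agent.R231.GMAdapt_529
import Crest.Agent.R231.GMSys_320
import Crest.Agent.R231.GMSlice_654
import Crest.Agent.R231.GMAbs_102

/-!
# Row 231 (S0357), block GM (helper529): ONE constant for all critical points

`point_bound` : there is ONE `C` such that for every closed geodesic `γ : Lp M` of length `s` (all iterates,
both orientations) and every `b` with `s < b ≤ 2 s`:  `SR (X M b) (XL M s) {γ} C`.

Inputs: `B1`, `B2` (888, 898 via 102), `SliceDom` (889), `DomStmt` (537), isolatedness (320).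
-/

set_option autoImplicit false
set_option linter.unusedSectionVars false

noncomputable section

open Bundle Set Filter
open scoped Manifold ContDiff Bundle ENNReal Topology
open Crest.GeometryTopology.MTW
open Crest.Agent.R226 Crest.Agent.R226.GeoBasic616
open Crest.Agent.R231.Pairx877 Crest.Agent.R231.GM898
open Crest.Agent.R231.GLugx576 Crest.Agent.R231.GeoLugx724 Crest.Agent.R231.GeoSegx724
open Crest.Agent.R231.GMSlx654 Crest.Agent.R231.GMGeox889 Crest.Agent.R231.GMRedx102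
open Crest.Agent.R231.GMAbsx102 Crest.Agent.R231.GMSysx320
open Crest.Agent.R231.PrimeGeox893 Crest.Agent.R231.CritPMx893 Crest.Agent.R231.Frontx893
open Crest.Agent.R231.GMAdaptx529 (cv cv_eq cv_per cv_geo exists_cg)

namespace Crest.Agent.R231.GMPointx529

/-- transport of `SR` along maps with `ψ ∘ φ = id` -/
theorem SR.of_inv {E E' : Type} [TopologicalSpace E] [TopologicalSpace E']
    {X A K : Set E} {X' A' K' : Set E'} {C : ℕ} (h : SR X' A' K' C) {φ : E → E'} {ψ : E' → E}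
    (hφ : Continuous φ) (hψ : Continuous ψ) (hid : ∀ x, ψ (φ x) = x)
    (hX : MapsTo φ X X') (hA : ∀ x ∈ X, x ∈ A → φ x ∈ A') (hK : MapsTo φ K K')
    (hX' : MapsTo ψ X' X) (hA' : ∀ y ∈ X', y ∈ A' → ψ y ∈ A) (hK' : MapsTo ψ K' K) :
    SR X A K C := by
  intro U' hU' hKU'
  obtain ⟨V, hV, hKV, hVV', hr⟩ := h (ψ ⁻¹' U') (hU'.preimage hψ) (fun y hy => hKU' (hK' hy))
  refine ⟨φ ⁻¹' V ∩ U', (hV.preimage hφ).inter hU', fun x hx => ⟨hKV (hK hx), hKU' hx⟩,
    inter_subset_right, ?_⟩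
  have cφ : ContinuousOn φ (φ ⁻¹' V ∩ U' ∩ X) := hφ.continuousOn
  have cψ : ContinuousOn ψ (ψ ⁻¹' U' ∩ X') := hψ.continuousOn
  refine RkLE.of_map (push (φ ⁻¹' V ∩ U' ∩ X) φ cφ) ?_ ?_ hr
  · rintro z ⟨hz1, hz2⟩
    refine ⟨push_mem (Y' := V ∩ X') (fun x hx => ⟨hx.1.1, hX hx.2⟩) z hz1, ?_⟩
    show bdE E' (push _ φ cφ z) ∈ CS (V ∩ X' ∩ A')
    rw [bd_push z hz1]
    have hm : MapsTo φ (φ ⁻¹' V ∩ U' ∩ X ∩ A) (V ∩ X' ∩ A') :=
      fun x hx => ⟨⟨hx.1.1.1, hX hx.1.2⟩, hA x hx.1.2 hx.2⟩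
    exact push_mem hm _ hz2
  · rintro z ⟨hz1, hz2⟩ hB
    rw [mem_Bp] at hB ⊢
    obtain ⟨w, hw, h1⟩ := hB
    refine ⟨push (ψ ⁻¹' U' ∩ X') ψ cψ w, push_mem (Y' := U' ∩ X) (fun y hy => ⟨hy.1, hX' hy.2⟩) w hw, ?_⟩
    have hz3 : push (φ ⁻¹' V ∩ U' ∩ X) φ cφ z ∈ CS (ψ ⁻¹' U' ∩ X') :=
      CS_mono (inter_subset_inter_left _ hVV')
        (push_mem (Y' := V ∩ X') (fun x hx => ⟨hx.1.1, hX hx.2⟩) z hz1)
    have e1 : push (ψ ⁻¹' U' ∩ X') ψ cψ (push (φ ⁻¹' V ∩ U' ∩ X) φ cφ z) = z := by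
      have h2 := push_push (E := E) (E' := E') (E'' := E) (X := φ ⁻¹' V ∩ U' ∩ X) (hf := cφ)
        (hk := cψ) (l := fun x => x) (hl := continuousOn_id)
        (fun x hx => ⟨hVV' hx.1.1, hX hx.2⟩) (fun x _ => hid x) z hz1
      rw [h2]
      exact push_id z hz1
    have e2 : z - bdE E (push (ψ ⁻¹' U' ∩ X') ψ cψ w) =
        push (ψ ⁻¹' U' ∩ X') ψ cψ (push (φ ⁻¹' V ∩ U' ∩ X) φ cφ z - bdE E' w) := by
      rw [map_sub, e1, bd_push w hw]
    rw [e2]
    have hm : MapsTo ψ (ψ ⁻¹' U' ∩ X' ∩ A') (U' ∩ X ∩ A) :=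
      fun y hy => ⟨⟨hy.1.1, hX' hy.1.2⟩, hA' y hy.1.2 hy.2⟩
    exact push_mem hm _ h1

theorem rot_mem_XL {M : Type*} [MetricSpace M] {s : ℝ} {g : Lp M} (h : g ∈ XL M s)
    (a : UnitAddCircle) : rot a g ∈ XL M s := by
  obtain ⟨t, ht, hg⟩ := h
  exact ⟨t, ht, rot_mem hg a⟩

/-- rotation invariance of the semilocal rank bound -/
theorem SR_rot {M : Type} [MetricSpace M] {b s : ℝ} {g : Lp M} {C : ℕ}
    (h : SR (X M b) (XL M s) {g} C) (a : UnitAddCircle) :
    SR (X M b) (XL M s) {rot a g} C := by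
  refine SR.of_inv h (φ := rot (-a)) (ψ := rot a) (rot (-a)).continuous (rot a).continuous ?_
    (fun x hx => rot_mem hx _) (fun x _ hx => rot_mem_XL hx _) ?_ (fun x hx => rot_mem hx _)
    (fun x _ hx => rot_mem_XL hx _) ?_
  · intro x
    rw [rot_rot, add_neg_cancel, rot_zero]
  · rintro x rfl
    show rot (-a) (rot a g) = g
    rw [rot_rot, neg_add_cancel, rot_zero]
  · rintro x rfl
    rfl

/-- the statement (Dom) of helper537 for the maps of helper889 -/
def DomStmt (M : Type) [MetricSpace M] : Prop :=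
  ∀ (Z : Type) [TopologicalSpace Z] [Zero Z] (F : Z → ℝ) (g0 : Lp M) (b s : ℝ) (C : ℕ),
    Maps F g0 b s → LB (0 : Z) {p | F p < 0} C → SR (X M b) (XL M s) {g0} C

variable {n : ℕ} {M : Type} [MetricSpace M] [ChartedSpace (EuclideanSpace ℝ (Fin n)) M]
  [IsManifold (𝓡 n) ∞ M]
  [RiemannianBundle (fun p : M => TangentSpace (𝓡 n) p)]
  [IsContMDiffRiemannianBundle (𝓡 n) ∞ (EuclideanSpace ℝ (Fin n))
    (fun p : M => TangentSpace (𝓡 n) p)]

/-- the statement of helper320 (S4): `0` is an isolated critical point of all iterates -/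
def Isol {G : GeoData n M} (c : Cg G) (N : ℕ) : Prop :=
  ∀ (m : ℕ) [NeZero (N * m)], ∀ᶠ p in 𝓝[≠] (0 : ZMod (N * m) → Sl n),
    fderiv ℝ (Fm (D c N) m) p ≠ 0

theorem exists_N (l r : ℝ) (hr : 0 < r) : ∃ N : ℕ, 0 < N ∧ 4 * l / N < r := by
  obtain ⟨N, hN⟩ := exists_nat_gt (max 1 (4 * l / r))
  have h1 : (1 : ℝ) < N := lt_of_le_of_lt (le_max_left _ _) hN
  have h2 : 4 * l / r < N := lt_of_le_of_lt (le_max_right _ _) hN
  have h0 : (0 : ℝ) < N := by linarith
  refine ⟨N, by exact_mod_cast h0, ?_⟩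
  rw [div_lt_iff₀ hr] at h2
  rw [div_lt_iff₀ h0]
  linarith

variable {G : GeoData n M}

/-- **one closed geodesic, all iterates** -/
theorem cg_bound (b1 : B1) (b2 : B2) (hdom : DomStmt M)
    (hSD : ∀ A : SliceSys (lug G) (Sl n), SliceDom A) (c : Cg G)
    (hiso : ∀ N : ℕ, 0 < N → 4 * c.l / N < G.r₀ → Isol c N) :
    ∃ C : ℕ, ∀ m : ℕ, 0 < m → ∀ g0 : Lp M, (∀ x : ℝ, g0 x = cv c (m * c.l * x)) →
      ∀ b : ℝ, m * c.l < b → b ≤ 2 * (m * c.l) → SR (X M b) (XL M (m * c.l)) {g0} C := by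
  obtain ⟨N, hN0, hN⟩ := exists_N c.l G.r₀ G.r₀_pos
  have hNe : NeZero N := ⟨hN0.ne'⟩
  have hNpos : (0 : ℝ) < N := by exact_mod_cast hN0
  have hlN : c.l / N < G.r₀ := by
    refine lt_of_le_of_lt ?_ hN
    have h1 := c.l_pos
    rw [div_le_div_iff_of_pos_right hNpos]
    linarith
  obtain ⟨C, hC⟩ := gm_abs b1 b2 (D c N) (contDiffAt_D_two c hlN)
    (fun i x hx => twist_right c hlN i hx)
    (Finset.sum_eq_zero fun i _ => D_zero c hlN i) (hiso N hN0 hN)
  refine ⟨C, fun m hm g0 hg0 b hb1 hb2 => ?_⟩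
  have hNm : NeZero (N * m) := ⟨Nat.mul_ne_zero hN0.ne' hm.ne'⟩
  have hNm' : NeZero ((sliceSys c N hN).N * m) := hNm
  obtain ⟨Mp⟩ := hSD (sliceSys c N hN) m g0 hm hg0 b hb1 hb2
  exact hdom _ _ g0 b _ C Mp (hC m)

/-- **ONE constant for all critical points** -/
theorem point_bound [CompactSpace M] (b1 : B1) (b2 : B2) (hdom : DomStmt M)
    (hSD : ∀ A : SliceSys (lug G) (Sl n), SliceDom A)
    (hiso : ∀ (c : Cg G) (N : ℕ), 0 < N → 4 * c.l / N < G.r₀ → Isol c N)
    {ι : Type} [Finite ι] (S : PrimeSys M G.r₀ ι) :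
    ∃ C : ℕ, ∀ (s : ℝ) (g : Lp M), IsGeo s g → ∀ b : ℝ, s < b → b ≤ 2 * s →
      SR (X M b) (XL M s) {g} C := by
  classical
  have := Fintype.ofFinite ι
  have hr := G.r₀_pos
  -- the prime loops with orientation
  have hprime : ∀ (i : ι) (e : Bool), ∃ c : Cg G, c.l = S.l i ∧
      ∀ u : ℝ, S.c i (sgn e * u) = cv c u := by
    intro i e
    have hl := S.l_pos i
    obtain ⟨γ, hγ1, hγ2⟩ := exists_circle (S := S) hr hl i e ⟨1, one_pos, by simp⟩
    have hγ3 : γ ∈ {γ : Lp M | up γ ∈ S.orbit i (sgn e) (S.l i)} := by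
      rw [hγ2]
      exact ⟨0, rot_zero γ⟩
    obtain ⟨a, ha⟩ := hγ3
    -- rotate so that the phase is `0`
    set b : ℝ := -(sgn e * a / S.l i) with hb
    have hg : up (rot (b : UnitAddCircle) γ) = fun t => S.c i (sgn e * S.l i * t) := by
      rw [up_rot, ha]
      funext t
      show S.c i (sgn e * S.l i * (t + b) + a) = S.c i (sgn e * S.l i * t)
      congr 1
      have h1 : sgn e * S.l i * b = -a := by
        rw [hb]
        have h2 := sgn_mul_self e
        field_simp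
        linear_combination (-a) * h2
      rw [mul_add, h1]
      ring
    have hgeo : IsGeo (S.l i) (rot (b : UnitAddCircle) γ) :=
      isGeo_rot (isGeo_of_mem_critP hr hγ1) _
    obtain ⟨c, hc1, hc2⟩ := exists_cg (G := G) hgeo
    refine ⟨c, hc1, fun u => ?_⟩
    have h3 := hc2 (u / S.l i)
    have h4 := congrFun hg (u / S.l i)
    rw [up_apply, h3] at h4
    rw [mul_div_cancel₀ _ hl.ne'] at h4
    rw [h4]
    congr 1
    field_simp
  choose c hcl hcv using hprime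
  have hCb := fun i e => cg_bound b1 b2 hdom hSD (c i e) (hiso (c i e))
  choose C hC using hCb
  refine ⟨∑ i, (C i true + C i false), fun s g hg b hb1 hb2 => ?_⟩
  have hle : ∀ i e, C i e ≤ ∑ i, (C i true + C i false) := by
    intro i e
    have h1 : C i e ≤ C i true + C i false := by cases e <;> omega
    exact h1.trans (Finset.single_le_sum (f := fun i => C i true + C i false)
      (fun _ _ => Nat.zero_le _) (Finset.mem_univ i))
  -- classify `g`
  have hmem : g ∈ critP S true s ∪ critP S false s := by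
    exact (Set.ext_iff.1 (setOf_isGeo (lug G) (locMin G) (nonBr G) (S := S) s) g).1 hg
  have key : ∀ e : Bool, g ∈ critP S e s →
      SR (X M b) (XL M s) {g} (∑ i, (C i true + C i false)) := by
    rintro e ⟨i, m, hm, hs, a, ha⟩
    have hl := S.l_pos i
    have hm0 : (0 : ℝ) < m := by exact_mod_cast hm
    have hspos : 0 < s := by rw [hs]; positivity
    -- rotate to phase `0`
    set β : ℝ := -(sgn e * a / s) with hβ
    have hg0 : ∀ x : ℝ, rot (β : UnitAddCircle) g x = cv (c i e) (m * (c i e).l * x) := by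
      intro x
      have h1 : up (rot (β : UnitAddCircle) g) x = S.c i (sgn e * s * x) := by
        rw [up_rot, ha]
        show S.c i (sgn e * s * (x + β) + a) = _
        congr 1
        have h1 : sgn e * s * β = -a := by
          rw [hβ]
          have h2 := sgn_mul_self e
          field_simp
          linear_combination (-a) * h2
        rw [mul_add, h1]
        ring
      rw [up_apply] at h1
      rw [h1, hcl, ← hs, ← hcv]
      congr 1
      ring
    have h5 := hC i e m hm (rot (β : UnitAddCircle) g) hg0 b (by rw [hcl, ← hs]; exact hb1)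
      (by rw [hcl, ← hs]; exact hb2)
    rw [hcl, ← hs] at h5
    have h6 := SR_rot h5 (-(β : UnitAddCircle))
    rw [rot_rot, neg_add_cancel, rot_zero] at h6
    intro U' hU' hK
    obtain ⟨U, hU1, hU2, hU3, hU4⟩ := h6 U' hU' hK
    exact ⟨U, hU1, hU2, hU3, hU4.mono subset_rfl subset_rfl subset_rfl subset_rfl (hle i e)⟩
  rcases hmem with h | h
  · exact key true h
  · exact key false h

end Crest.Agent.R231.GMPointx529
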