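import Crest.Agent.R231.GMIso_320
import Crest.Agent.R231.Front_893
import Crest.Agent.R231.GMPoint_529

/-!
# Row 231 (S0357), block GM-GEO (helper320): isolatedness from a prime system

`finite_orbits` : a finite prime system gives finitely many closed unit speed orbits of the flow;
`isol` : the literal hypothesis of `GMPointx529.point_bound`.
-/

set_option autoImplicit false
set_option linter.unusedSectionVars false

noncomputable section

open MeasureTheory Bundle Set Filter
open scoped Manifold ContDiff Bundle ENNReal Topology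
open Crest.GeometryTopology.MTW
open Crest.Agent.R226

namespace Crest.Agent.R231.GMIsoPx320

open Crest.Agent.R226.GeoBasic616 Crest.Agent.R226.TB616
open Crest.Agent.R231.GMDirx320 Crest.Agent.R231.GMSlx654 Crest.Agent.R231.GMIsox320
open Crest.Agent.R231.GMRedx102 Crest.Agent.R231.PrimeGeox893 Crest.Agent.R231.GMPointx529

variable {n : ℕ} {M : Type*} [MetricSpace M] [ChartedSpace (EuclideanSpace ℝ (Fin n)) M]
  [IsManifold (𝓡 n) ∞ M]
  [RiemannianBundle (fun p : M => TangentSpace (𝓡 n) p)]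
variable {G : GeoData n M}

/-- the curve of a vector -/
def cu (G : GeoData n M) (Q : TangentBundle (𝓡 n) M) (t : ℝ) : M := G.ex Q.1 (t • Q.2)

theorem cu_isLG {Q : TangentBundle (𝓡 n) M} (hQ : ‖Q.2‖ = 1) : IsLG G.r₀ (cu G Q) := by
  intro s t h
  have := G.dist_eq Q.1 Q.2 s t (by rw [hQ, mul_one]; exact h)
  rw [hQ, mul_one] at this
  exact this

theorem cu_flow (Q : TangentBundle (𝓡 n) M) (s t : ℝ) : cu G (G.Flow s Q) t = cu G Q (t + s) := by
  have := Flow_add G t s Q
  have h2 := congrArg (fun p : TangentBundle (𝓡 n) M => p.1) this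
  rw [add_comm]
  exact h2

/-- a vector is determined by its curve -/
theorem eq_of_cu {Q Q' : TangentBundle (𝓡 n) M} (h : ∀ t, cu G Q t = cu G Q' t) : Q = Q' := by
  have h1 : cu G Q = cu G Q' := funext h
  have key : ∀ Q : TangentBundle (𝓡 n) M,
      (⟨cu G Q 0, curveVel n (cu G Q) 0⟩ : TangentBundle (𝓡 n) M) = Q := fun Q => Flow_zero G Q
  rw [← key Q, ← key Q', h1]

theorem isLoopG_of_isPer {Q : TangentBundle (𝓡 n) M} (hQ : ‖Q.2‖ = 1) {T : ℝ} (hT : 0 < T)
    (h : G.Flow T Q = Q) : IsLoopG G.r₀ T (fun t => cu G Q (T * t)) := by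
  have hp : Function.Periodic (cu G Q) T := by
    intro t
    rw [← cu_flow, h]
  have h1 := (cu_isLG hQ).loop hT hp (ε := 1) (Or.inl rfl) 0
  simpa using h1

/-- finitely many closed orbits -/
theorem finite_orbits {ι : Type} [Finite ι] (S : PrimeSys M G.r₀ ι) (nb : NonBr M G.r₀) :
    ∃ F : Set (TangentBundle (𝓡 n) M), F.Finite ∧ ∀ Q : TangentBundle (𝓡 n) M, ‖Q.2‖ = 1 →
      IsPer G Q → ∃ P ∈ F, ∃ s, Q = G.Flow s P := by
  classical
  -- description of a unit periodic vector
  have hcl : ∀ Q : TangentBundle (𝓡 n) M, ‖Q.2‖ = 1 → IsPer G Q →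
      ∃ (i : ι) (e : Bool), ∃ a : ℝ, ∀ u, cu G Q u = S.c i ((if e then 1 else -1) * u + a) := by
    rintro Q hQ ⟨T, hT, hper⟩
    obtain ⟨i, m, hm, hTm, ε, hε, a, ha⟩ := S.classify G.r₀_pos nb hT (isLoopG_of_isPer hQ hT hper)
    have key : ∀ u, cu G Q u = S.c i (ε * u + a) := by
      intro u
      have := ha (u / T)
      rw [mul_div_cancel₀ _ hT.ne'] at this
      rw [this]
      congr 2
      field_simp
    rcases hε with rfl | rfl
    · exact ⟨i, true, a, fun u => by rw [key]; simp⟩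
    · exact ⟨i, false, a, fun u => by rw [key]; simp⟩
  let Pr : ι × Bool → TangentBundle (𝓡 n) M → Prop := fun x Q =>
    ∃ a : ℝ, ∀ u, cu G Q u = S.c x.1 ((if x.2 then 1 else -1) * u + a)
  let D : Set (ι × Bool) := {x | ∃ Q, Pr x Q}
  let f : D → TangentBundle (𝓡 n) M := fun x => Classical.choose x.2
  have hf : ∀ x : D, Pr x.1 (f x) := fun x => Classical.choose_spec x.2
  refine ⟨range f, finite_range f, fun Q hQ hper => ?_⟩
  obtain ⟨i, e, a, ha⟩ := hcl Q hQ hper
  have hx : (i, e) ∈ D := ⟨Q, a, ha⟩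
  obtain ⟨b, hb⟩ := hf ⟨(i, e), hx⟩
  simp only at hb
  refine ⟨f ⟨(i, e), hx⟩, mem_range_self _, (if e then 1 else -1) * (a - b), ?_⟩
  apply eq_of_cu (G := G)
  intro t
  rw [cu_flow, ha, hb]
  congr 1
  cases e <;> simp <;> ring

section
variable [IsContMDiffRiemannianBundle (𝓡 n) ∞ (EuclideanSpace ℝ (Fin n))
    (fun p : M => TangentSpace (𝓡 n) p)]

/-- **the literal hypothesis of `point_bound`** -/
theorem isol {M : Type} [MetricSpace M] [ChartedSpace (EuclideanSpace ℝ (Fin n)) M]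
    [IsManifold (𝓡 n) ∞ M] [RiemannianBundle (fun p : M => TangentSpace (𝓡 n) p)]
    [IsContMDiffRiemannianBundle (𝓡 n) ∞ (EuclideanSpace ℝ (Fin n))
      (fun p : M => TangentSpace (𝓡 n) p)] {G : GeoData n M}
    {ι : Type} [Finite ι] (S : PrimeSys M G.r₀ ι)
    (c : Cg G) (N : ℕ) (hN0 : 0 < N) (hN : 4 * c.l / N < G.r₀) : Isol c N := by
  intro m hm
  have : NeZero N := ⟨hN0.ne'⟩
  have hNp : (0 : ℝ) < N := Nat.cast_pos.2 hN0
  have hlN : c.l / N < G.r₀ / 2 := by
    have e : 4 * c.l / N = 4 * (c.l / N) := by ring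
    have hl : 0 < c.l / N := div_pos c.l_pos hNp
    rw [e] at hN
    linarith
  have h := isolated c hlN (finite_orbits S (Frontx893.nonBr G)) m
  rw [eventually_nhdsWithin_iff]
  filter_upwards [h] with p hp hp0 hcon
  exact hp0 (hp hcon)

end

end Crest.Agent.R231.GMIsoPx320
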