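import Crest.Agent.R231.GMMaps3_889

/-!
# Row 231 (S0357), block GM-GEO (b): proof of `SliceDom`, part 4: assembly (helper889)

* `sliceDom (A : SliceSys L S) : SliceDom A`
-/

set_option autoImplicit false
set_option linter.unusedSectionVars false

open Set Filter Topology

noncomputable section

namespace Crest.Agent.R231.GMGeox889

open Crest.Agent.R231.GLugx576 Crest.Agent.R231.GMRedx102 Crest.Agent.R231.GCrossx449

namespace SliceSys

section

variable {M : Type*} [MetricSpace M] [CompactSpace M] [Nonempty M] {L : LUG M}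
  {S : Type*} [NormedAddCommGroup S] {A : SliceSys L S} {n : ℕ} [NeZero n]

/-- the domain in loop space -/
def UU (A : SliceSys L S) (n : ℕ) (b : ℝ) : Set (Lp M) :=
  A.U1 n ∩ A.ph n ⁻¹' {p | Gd A n p ∧ A.len n p < b}

theorem isOpen_WW (b : ℝ) : IsOpen {p | Gd A n p ∧ A.len n p < b} :=
  isOpen_Gd.inter (isOpen_lt cont_len continuous_const)

theorem isOpen_UU (b : ℝ) : IsOpen (A.UU n b) := contOn_ph.isOpen_inter_preimage isOpen_U1 (isOpen_WW b)

variable (A n) in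
/-- the homotopy -/
def hh (g : Lp M) (t : ℝ) : Lp M :=
  if t ≤ 1 / 3 then h1 L n g (3 * t) else
    if t ≤ 2 / 3 then A.h2 n g (3 * t - 1) else A.h3 n g (3 * t - 2)

variable {b : ℝ} {g : Lp M} {t : ℝ}

theorem hh_p1 (ht : t ≤ 1 / 3) : A.hh n g t = h1 L n g (3 * t) := if_pos ht

theorem hh_p2 (ht : 1 / 3 ≤ t) (ht' : t ≤ 2 / 3) : A.hh n g t = A.h2 n g (3 * t - 1) := by
  rcases ht.lt_or_eq with h | h
  · rw [hh, if_neg (not_le.2 h), if_pos ht']
  · rw [hh, if_pos h.ge, ← h]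
    norm_num
    exact (h2_zero g).symm

theorem hh_p3 (h : Dv A n) (hb : 0 ≤ b) (hs : b * (2 / n) < L.r0) (hg : g ∈ X M b)
    (hU : g ∈ A.UU n b) (ht : 2 / 3 ≤ t) : A.hh n g t = A.h3 n g (3 * t - 2) := by
  rcases ht.lt_or_eq with h' | h'
  · rw [hh, if_neg (not_le.2 (by linarith)), if_neg (not_le.2 h')]
  · rw [hh_p2 (by linarith) h'.ge, ← h']
    norm_num
    exact (h3_zero h hb hs hg hU.1 hU.2.1).symm

/-- levels -/
theorem hh_mem (h : Dv A n) (hb : 0 ≤ b) (hs : b * (2 / n) < L.r0) {s : ℝ} (hsb : s ≤ b)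
    (hg : g ∈ X M s) (hU : g ∈ A.UU n b) (ht : t ∈ Icc (0 : ℝ) 1) : A.hh n g t ∈ X M s := by
  rcases le_total t (1 / 3) with h1 | h1
  · rw [hh_p1 h1]
    exact h1_mem hb hs hsb hg ⟨by linarith [ht.1], by linarith⟩
  · rcases le_total t (2 / 3) with h2 | h2
    · rw [hh_p2 h1 h2]
      exact h2_mem h hb hs hsb hg hU.1 ⟨by linarith, by linarith⟩
    · rw [hh_p3 h hb hs (X_mono hsb hg) hU h2]
      exact h3_mem h hb hs hsb hg hU.1 hU.2.1 ⟨by linarith, by linarith [ht.2]⟩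

/-! ### continuity -/

theorem cont_h1 (hb : 0 ≤ b) (hs : b * (2 / n) < L.r0) :
    ContinuousOn (fun q : Lp M × ℝ => h1 L n q.1 q.2) ((A.UU n b ∩ X M b) ×ˢ Icc (0 : ℝ) 1) :=
  contOn_repN (θ := fun _ => hT n) (t := b) (fun _ _ => continuousOn_const) continuousOn_snd
    continuousOn_fst (fun _ _ => tim_hT (nb_short hb hs)) (fun _ hq => hq.2)
    (fun _ hq => hq.1.2) n le_rfl

theorem cont_al (hb : 0 ≤ b) (hs : b * (2 / n) < L.r0) :
    ContinuousOn (fun g : Lp M => al L n g) (X M b) :=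
  contOn_repN (θ := fun _ => hT n) (r := fun _ => 1) (g := fun g => g) (t := b)
    (fun _ _ => continuousOn_const) continuousOn_const continuousOn_id
    (fun _ _ => tim_hT (nb_short hb hs)) (fun _ _ => ⟨zero_le_one, le_rfl⟩) (fun _ hq => hq) n le_rfl

theorem fst_maps : MapsTo (Prod.fst : Lp M × ℝ → Lp M) ((A.UU n b ∩ X M b) ×ˢ Icc (0 : ℝ) 1)
    (A.U1 n) := fun _ hq => hq.1.1.1

theorem cont_h2 (h : Dv A n) (hb : 0 ≤ b) (hs : b * (2 / n) < L.r0) :
    ContinuousOn (fun q : Lp M × ℝ => A.h2 n q.1 q.2)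
      ((A.UU n b ∩ X M b) ×ˢ Icc (0 : ℝ) 1) :=
  contOn_repN (t := b) (fun k _ => (contOn_cT h k).comp continuousOn_fst fst_maps)
    continuousOn_snd ((cont_al hb hs).comp continuousOn_fst fun _ hq => hq.1.2)
    (fun _ hq => tim_cT h hb hs hq.1.1.1) (fun _ hq => hq.2)
    (fun _ hq => al_mem hb hs le_rfl hq.1.2) n le_rfl

theorem cont_ew (k : ℕ) :
    ContinuousOn (fun p => A.ew n p k) {p : ZMod n → S | Gd A n p} :=
  ((cont_vq k).dist (cont_vq (k + 1))).continuousOn.div cont_len.continuousOn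
    fun _ hp => (Gd.len_pos hp).ne'

theorem cont_h3 (h : Dv A n) :
    ContinuousOn (fun q : Lp M × ℝ => A.h3 n q.1 q.2)
      ((A.UU n b ∩ X M b) ×ˢ Icc (0 : ℝ) 1) := by
  have hc : ∀ k, ContinuousOn (fun q : Lp M × ℝ => A.cT n q.1 k)
      ((A.UU n b ∩ X M b) ×ˢ Icc (0 : ℝ) 1) :=
    fun k => (contOn_cT h k).comp continuousOn_fst fst_maps
  have hp : ContinuousOn (fun q : Lp M × ℝ => A.ph n q.1)
      ((A.UU n b ∩ X M b) ×ˢ Icc (0 : ℝ) 1) := contOn_ph.comp continuousOn_fst fst_maps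
  have hr : ContinuousOn (fun q : Lp M × ℝ => 1 - q.2) ((A.UU n b ∩ X M b) ×ˢ Icc (0 : ℝ) 1) :=
    continuousOn_const.sub continuousOn_snd
  have hB : ContinuousOn (fun q : Lp M × ℝ =>
      BG L n (A.er n q.1 q.2) (A.vq n (A.ph n q.1))) ((A.UU n b ∩ X M b) ×ˢ Icc (0 : ℝ) 1) := by
    refine contOn_BG (fun q hq => er_adm h hq.1.1.1 hq.1.1.2.1 hq.2) (fun k _ => ?_) fun k _ => ?_
    · unfold er
      exact (hr.mul ((hc (k + 1)).sub (hc k))).add
        (continuousOn_snd.mul ((cont_ew k).comp hp fun _ hq => hq.1.1.2.1))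
    · exact (cont_vq k).comp_continuousOn hp
  exact continuous_rot.comp_continuousOn
    (((AddCircle.continuous_mk' 1).comp_continuousOn ((hr.mul (hc 0)).neg)).prodMk hB)

/-- **continuity of the homotopy** -/
theorem cont_hh (h : Dv A n) (hb : 0 ≤ b) (hs : b * (2 / n) < L.r0) :
    ContinuousOn (fun q : Lp M × ℝ => A.hh n q.1 q.2)
      ((A.UU n b ∩ X M b) ×ˢ Icc (0 : ℝ) 1) := by
  have hT : ContinuousOn (fun q : Lp M × ℝ => 3 * q.2) ((A.UU n b ∩ X M b) ×ˢ Icc (0 : ℝ) 1) :=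
    continuousOn_const.mul continuousOn_snd
  refine cont_pieces (n := 3) hT (by norm_num) (fun q hq => ?_) fun k hk => ?_
  · constructor
    · linarith [hq.2.1]
    · push_cast; linarith [hq.2.2]
  · have hpar : ∀ c : ℝ, ContinuousOn (fun q : Lp M × ℝ => (q.1, 3 * q.2 - c))
        {a | a ∈ (A.UU n b ∩ X M b) ×ˢ Icc (0 : ℝ) 1 ∧ 3 * a.2 ∈ Icc (k : ℝ) (k + 1)} :=
      fun c => (continuous_fst.prodMk
        ((continuous_const.mul continuous_snd).sub continuous_const)).continuousOn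
    have hmap : MapsTo (fun q : Lp M × ℝ => (q.1, 3 * q.2 - (k : ℝ)))
        {a | a ∈ (A.UU n b ∩ X M b) ×ˢ Icc (0 : ℝ) 1 ∧ 3 * a.2 ∈ Icc (k : ℝ) (k + 1)}
        ((A.UU n b ∩ X M b) ×ˢ Icc (0 : ℝ) 1) := fun q hq =>
      ⟨hq.1.1, by linarith [hq.2.1], by linarith [hq.2.2]⟩
    have hk' : k = 0 ∨ k = 1 ∨ k = 2 := by omega
    rcases hk' with rfl | rfl | rfl
    · refine ((cont_h1 (A := A) hb hs).comp (hpar _) hmap).congr fun q hq => ?_
      have h5 := hq.2.2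
      push_cast at h5 ⊢
      show A.hh n q.1 q.2 = h1 L n q.1 (3 * q.2 - 0)
      rw [hh_p1 (by linarith), sub_zero]
    · refine ((cont_h2 h hb hs).comp (hpar _) hmap).congr fun q hq => ?_
      have h1 := hq.2.1
      have h2 := hq.2.2
      push_cast at h1 h2 ⊢
      show A.hh n q.1 q.2 = A.h2 n q.1 (3 * q.2 - 1)
      rw [hh_p2 (by linarith) (by linarith)]
    · refine ((cont_h3 h).comp (hpar _) hmap).congr fun q hq => ?_
      have h1 := hq.2.1
      push_cast at h1 ⊢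
      show A.hh n q.1 q.2 = A.h3 n q.1 (3 * q.2 - 2)
      rw [hh_p3 h hb hs hq.1.1.2 hq.1.1.1 (by linarith)]

end

/-! ### assembly -/

section

variable {M : Type*} [MetricSpace M] [CompactSpace M] [Nonempty M] {L : LUG M}
  {S : Type*} [NormedAddCommGroup S] {A : SliceSys L S} {m : ℕ} [NeZero (A.N * m)] {g0 : Lp M}

theorem g0_U1 (h0 : A.IsIt m g0) : g0 ∈ A.U1 (A.N * m) := fun k _ => by
  rw [pr_centre h0]; exact A.mem_Oc _

theorem g0_UU (h0 : A.IsIt m g0) {b : ℝ} (hb : m * A.l < b) : g0 ∈ A.UU (A.N * m) b := by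
  refine ⟨g0_U1 h0, ?_⟩
  rw [mem_preimage, ph_centre h0]
  exact ⟨Gd_centre, by rw [len_centre]; exact hb⟩

theorem h3_centre (h0 : A.IsIt m g0) (r : ℝ) : A.h3 (A.N * m) g0 r = g0 := by
  have e : ∀ k, A.er (A.N * m) g0 r k = 1 / (A.N * m : ℕ) := by
    intro k
    unfold er
    rw [cT_centre h0, cT_centre h0, ph_centre h0, ew_centre]
    push_cast
    ring
  unfold h3
  rw [ph_centre h0, BG_centre h0 e, cT_centre h0, Nat.cast_zero, zero_div, mul_zero, neg_zero]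
  exact rot_zero _

theorem hh_centre (hm : 0 < m) (h0 : A.IsIt m g0) {b : ℝ} (hsb : m * A.l ≤ b) (hb : 0 ≤ b)
    (hs : b * (2 / (A.N * m : ℕ)) < L.r0) {t : ℝ} (ht : t ∈ Icc (0 : ℝ) 1) :
    A.hh (A.N * m) g0 t = g0 := by
  have hg := g0_mem hm h0
  have htight := tight hm h0
  have e1 : ∀ r ∈ Icc (0 : ℝ) 1, h1 L (A.N * m) g0 r = g0 := fun r hr =>
    repN_fix (tim_hT (nb_short hb hs)) hr hsb hg htight _ le_rfl
  have e2 : ∀ r ∈ Icc (0 : ℝ) 1, A.h2 (A.N * m) g0 r = g0 := fun r hr => by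
    unfold h2 al
    rw [e1 1 ⟨zero_le_one, le_rfl⟩]
    exact repN_fix (tim_cT dvN hb hs (g0_U1 h0)) hr hsb hg htight _ le_rfl
  unfold hh
  split_ifs with h1 h2
  · exact e1 _ ⟨by linarith [ht.1], by linarith⟩
  · exact e2 _ ⟨by linarith, by linarith⟩
  · exact h3_centre h0 _

/-- **the maps between loops near an iterate and slice polygons** -/
theorem sliceDom (A : SliceSys L S) : SliceDom A := by
  intro m _ g0 hm h0 b hb1 hb2
  have hs0 := s_pos A hm
  have hb : 0 ≤ b := by linarith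
  have hmR := m_posR A m
  have hN : (0 : ℝ) < A.N := N_posR
  have hs : b * (2 / (A.N * m : ℕ)) < L.r0 := by
    have h1 : b * (2 / (A.N * m : ℕ)) ≤ 2 * (m * A.l) * (2 / (A.N * m : ℕ)) :=
      mul_le_mul_of_nonneg_right hb2 (by positivity)
    have h2 : 2 * (m * A.l) * (2 / (A.N * m : ℕ)) = 4 * A.l / A.N := by
      push_cast
      field_simp
      ring
    rw [h2] at h1
    exact h1.trans_lt A.small
  have hd : Dv A (A.N * m) := dvN
  refine ⟨{
    U := A.UU (A.N * m) b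
    W := {p | Gd A (A.N * m) p ∧ A.len (A.N * m) p < b}
    φ := A.ph (A.N * m)
    ψ := A.ps (A.N * m)
    h := A.hh (A.N * m)
    isOpen_U := isOpen_UU b
    isOpen_W := isOpen_WW b
    mem_U := g0_UU h0 hb1
    mem_W := ⟨Gd_centre, by rw [len_centre]; exact hb1⟩
    φ_cont := contOn_ph.mono fun g hg => hg.1.1
    φ_zero := ph_centre h0
    φ_maps := fun g hg => hg.1.2
    φ_lev := ?_
    ψ_cont := (contOn_ps hd).mono fun p hp => hp.1
    ψ_zero := ps_centre h0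
    ψ_maps := fun p hp => hp.1.ps_mem hd hp.2.le
    ψ_lev := ?_
    h_cont := cont_hh hd hb hs
    h_zero := ?_
    h_one := ?_
    h_fix := fun t ht => hh_centre hm h0 hb1.le hb hs ht
    h_maps := fun g hg t ht => hh_mem hd hb hs le_rfl hg.2 hg.1 ht
    h_lev := ?_ }⟩
  · rintro g hg ⟨t, ht, hgt⟩
    have h1 := len_le hd hb hs (by linarith : t ≤ b) hgt hg.1.1
    rw [Fm_eq]
    linarith
  · intro p hp hF
    rw [Fm_eq] at hF
    exact ⟨A.len (A.N * m) p, by linarith, hp.1.ps_mem hd le_rfl⟩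
  · intro g _
    rw [hh_p1 (by norm_num), mul_zero]
    exact h1_zero g
  · intro g hg
    rw [hh_p3 hd hb hs hg.2 hg.1 (by norm_num), show (3 : ℝ) * 1 - 2 = 1 by norm_num]
    exact h3_one g
  · rintro g hg ⟨t, ht, hgt⟩ u hu
    exact ⟨t, ht, hh_mem hd hb hs (by linarith) hgt hg.1 hu⟩

end

end SliceSys

end Crest.Agent.R231.GMGeox889
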