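import Crest.Agent.R231.GLoop_576

/-!
# Row 231 (S0357), block G, leaf G3: crossing a critical level (helper449)

`Push M T` : one Birkhoff step on `X M T` (a level non-increasing homotopy which strictly decreases the
level of every loop which is not a closed geodesic, and fixes the closed geodesics), to be produced by
G2 (helper576).

* `Push.near` (K) : for every open `U ⊇ Crit_s` and small `ε`, `H 1` maps `X (s + ε)` into
  `X (s - ε) ∪ U`.
* `Push.nested` (T) : nested neighbourhoods `U 0 ε ⊆ U 1 ε ⊆ … ⊆ U m ε ⊆ O ε` of the two halves of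
  `Crit_s`, open, rotation invariant, exchanged by reversal, `closure (U k ε) ⊆ U (k+1) ε`,
  `H (U k ε) ⊆ U (k+1) ε`, and `H 1 (X (s + e)) ⊆ X (s - e) ∪ U 0 true ∪ U 0 false`.
-/

set_option autoImplicit false

open Set Filter Topology

namespace Crest.Agent.R231.GCrossx449

open Crest.Agent.R231.GLugx576

/-- one Birkhoff step on `X M T` -/
structure Push (M : Type*) [MetricSpace M] (T : ℝ) where
  /-- the homotopy -/
  H : ℝ → Lp M → Lp M
  cont : ContinuousOn (fun p : ℝ × Lp M => H p.1 p.2) (Icc (0 : ℝ) 1 ×ˢ X M T)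
  H0 : ∀ g ∈ X M T, H 0 g = g
  lev : ∀ t ≤ T, ∀ g ∈ X M t, ∀ r ∈ Icc (0 : ℝ) 1, H r g ∈ X M t
  /-- a bound for the level of `H 1 g` -/
  lam : Lp M → ℝ
  lam_cont : ContinuousOn lam (X M T)
  lam_mem : ∀ g ∈ X M T, H 1 g ∈ X M (lam g)
  dich : ∀ t, 0 < t → t ≤ T → ∀ g ∈ X M t, lam g < t ∨ IsGeo t g
  fix : ∀ t ≤ T, ∀ g, IsGeo t g → ∀ r ∈ Icc (0 : ℝ) 1, H r g = g

section geo

variable {M : Type*} [MetricSpace M]

/-- a closed geodesic of length `s` is `s`-Lipschitz -/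
theorem geo_mem {s : ℝ} {g : Lp M} (h : IsGeo s g) : g ∈ X M s := by
  obtain ⟨hs, δ, hδ, h⟩ := h
  have key : ∀ n : ℕ, ∀ x y : ℝ, x ≤ y → y - x ≤ n * δ → dist (g x) (g y) ≤ s * (y - x) := by
    intro n
    induction n with
    | zero =>
      intro x y hxy h0
      have : x = y := le_antisymm hxy (by simpa using h0)
      subst this; simp
    | succ n ih =>
      intro x y hxy h0
      rcases le_total (y - x) δ with h1 | h1
      · have := h x y (by rw [abs_sub_comm, abs_of_nonneg (by linarith)]; exact h1)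
        rw [this, abs_sub_comm, abs_of_nonneg (by linarith)]
      · have h2 := ih (x + δ) y (by linarith) (by push_cast at h0; linarith)
        have h3 := h x (x + δ) (by rw [abs_sub_comm, abs_of_nonneg (by linarith)]; linarith)
        rw [abs_sub_comm, abs_of_nonneg (by linarith)] at h3
        have h4 := dist_triangle (g x) (g ((x + δ : ℝ) : UnitAddCircle)) (g y)
        have e : s * (y - x) = s * (x + δ - x) + s * (y - (x + δ)) := by ring
        rw [e]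
        linarith
  intro x y
  rcases le_total x y with hxy | hxy
  · obtain ⟨n, hn⟩ := exists_nat_ge ((y - x) / δ)
    rw [abs_sub_comm, abs_of_nonneg (by linarith)]
    exact key n x y hxy ((div_le_iff₀ hδ).1 hn)
  · obtain ⟨n, hn⟩ := exists_nat_ge ((x - y) / δ)
    rw [dist_comm, abs_of_nonneg (by linarith)]
    exact key n y x hxy ((div_le_iff₀ hδ).1 hn)

/-- … and not better -/
theorem geo_le_of_mem {s t : ℝ} {g : Lp M} (h : IsGeo s g) (ht : g ∈ X M t) : s ≤ t := by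
  obtain ⟨hs, δ, hδ, h⟩ := h
  have h1 := h 0 δ (by rw [zero_sub, abs_neg, abs_of_pos hδ])
  have h2 := ht 0 δ
  have e : |(0 : ℝ) - δ| = δ := by rw [zero_sub, abs_neg, abs_of_pos hδ]
  rw [e] at h1 h2
  have e2 : ((0 : ℝ) : UnitAddCircle) = 0 := rfl
  rw [h1] at h2
  exact le_of_mul_le_mul_right h2 hδ

theorem geo_rot {s : ℝ} {g : Lp M} (h : IsGeo s g) (a : UnitAddCircle) : IsGeo s (rot a g) := by
  obtain ⟨hs, δ, hδ, h⟩ := h
  induction a using QuotientAddGroup.induction_on with | _ a => ?_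
  refine ⟨hs, δ, hδ, fun x y hxy => ?_⟩
  have := h (x + a) (y + a) (by rwa [add_sub_add_right_eq_sub])
  rw [add_sub_add_right_eq_sub] at this
  exact this

theorem geo_rev {s : ℝ} {g : Lp M} (h : IsGeo s g) : IsGeo s (rev g) := by
  obtain ⟨hs, δ, hδ, h⟩ := h
  refine ⟨hs, δ, hδ, fun x y hxy => ?_⟩
  have e : -x - -y = -(x - y) := by ring
  have := h (-x) (-y) (by rwa [e, abs_neg])
  rw [e, abs_neg] at this
  exact this

/-- the rotation invariant core of a set -/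
def core (V : Set (Lp M)) : Set (Lp M) := {g | ∀ a : UnitAddCircle, GLugx576.rot a g ∈ V}

theorem core_subset (V : Set (Lp M)) : core V ⊆ V := fun g h => by
  have := h 0
  rwa [rot_zero] at this

theorem rot_mem_core {V : Set (Lp M)} {g : Lp M} (h : g ∈ core V) (a : UnitAddCircle) :
    GLugx576.rot a g ∈ core V := fun b => by
  rw [rot_rot]; exact h _

theorem isOpen_core {V : Set (Lp M)} (hV : IsOpen V) : IsOpen (core V) := by
  rw [← isClosed_compl_iff]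
  have e : (core V)ᶜ = Prod.snd '' {p : UnitAddCircle × Lp M | GLugx576.rot p.1 p.2 ∉ V} := by
    ext g
    simp only [core, mem_compl_iff, mem_image, Prod.exists, exists_eq_right]
    show (¬ ∀ a, GLugx576.rot a g ∈ V) ↔ ∃ a : UnitAddCircle, GLugx576.rot a g ∉ V
    push Not; rfl
  rw [e]
  refine isClosedMap_snd_of_compactSpace _ ?_
  exact (hV.isClosed_compl).preimage continuous_rot

theorem subset_core {V K : Set (Lp M)} (hK : ∀ g ∈ K, ∀ a, GLugx576.rot a g ∈ K) (h : K ⊆ V) :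
    K ⊆ core V := fun g hg a => h (hK g hg a)

end geo

namespace Push

variable {M : Type*} [MetricSpace M] {T : ℝ} (P : Push M T)

include P

theorem contH (r : ℝ) (hr : r ∈ Icc (0 : ℝ) 1) : ContinuousOn (P.H r) (X M T) := by
  have h : ContinuousOn (fun g : Lp M => ((r, g) : ℝ × Lp M)) (X M T) := by fun_prop
  exact P.cont.comp h fun g hg => ⟨hr, hg⟩

/-- the critical set at level `s` -/
theorem geo_iff {s : ℝ} (hs : 0 < s) (hsT : s ≤ T) (g : Lp M) :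
    IsGeo s g ↔ g ∈ X M s ∧ s ≤ P.lam g := by
  constructor
  · intro h
    refine ⟨geo_mem h, ?_⟩
    have h1 := P.lam_mem g (X_mono hsT (geo_mem h))
    rw [P.fix s hsT g h 1 ⟨zero_le_one, le_rfl⟩] at h1
    exact geo_le_of_mem h h1
  · rintro ⟨h1, h2⟩
    rcases P.dich s hs hsT g h1 with h3 | h3
    · exact absurd h2 (not_le.2 h3)
    · exact h3

theorem isClosed_geo {s : ℝ} (hs : 0 < s) (hsT : s ≤ T) : IsClosed {g : Lp M | IsGeo s g} := by
  have e : {g : Lp M | IsGeo s g} = X M s ∩ P.lam ⁻¹' (Ici s) := by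
    ext g; exact P.geo_iff hs hsT g
  rw [e]
  exact (P.lam_cont.mono (X_mono hsT)).preimage_isClosed_of_isClosed (isClosed_X s) isClosed_Ici

theorem isCompact_geo [CompactSpace M] {s : ℝ} (hs : 0 < s) (hsT : s ≤ T) :
    IsCompact {g : Lp M | IsGeo s g} :=
  (isCompact_X s).of_isClosed_subset (P.isClosed_geo hs hsT) fun _ h => geo_mem h

/-- **(K)** pushing across the critical level `s` into any neighbourhood of the critical set. -/
theorem near [CompactSpace M] {s : ℝ} (hs : 0 < s) (hsT : s < T) {U : Set (Lp M)} (hU : IsOpen U)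
    (hc : ∀ g, IsGeo s g → g ∈ U) :
    ∃ e0 > (0 : ℝ), ∀ e, 0 < e → e ≤ e0 → ∀ g ∈ X M (s + e), P.H 1 g ∈ X M (s - e) ∪ U := by
  set η : ℝ := T - s with hη
  have hη0 : 0 < η := by linarith
  set S : ℕ → Set (Lp M) := fun n =>
    X M (s + η / (n + 1)) ∩ (P.lam ⁻¹' (Ici (s - η / (n + 1))) ∩ (P.H 1) ⁻¹' Uᶜ) with hS
  have hle : ∀ n : ℕ, s + η / (n + 1) ≤ T := fun n => by
    have h1 : η / ((n : ℝ) + 1) ≤ η := div_le_self hη0.le (by
      have : (0 : ℝ) ≤ n := Nat.cast_nonneg n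
      linarith)
    linarith
  have hclosed : ∀ n, IsClosed (S n) := by
    intro n
    have c1 := (P.lam_cont.mono (X_mono (hle n))).preimage_isClosed_of_isClosed
      (isClosed_X _) (isClosed_Ici (a := s - η / ((n : ℝ) + 1)))
    have c2 := ((P.contH 1 ⟨zero_le_one, le_rfl⟩).mono
      (X_mono (hle n))).preimage_isClosed_of_isClosed (isClosed_X _) hU.isClosed_compl
    have e : S n = (X M (s + η / (n + 1)) ∩ P.lam ⁻¹' (Ici (s - η / ((n : ℝ) + 1)))) ∩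
        (X M (s + η / (n + 1)) ∩ (P.H 1) ⁻¹' Uᶜ) := by
      ext g; simp only [hS, mem_inter_iff]; tauto
    rw [e]; exact c1.inter c2
  have hanti : ∀ n, S (n + 1) ⊆ S n := by
    intro n g hg
    have h1 : η / (((n + 1 : ℕ) : ℝ) + 1) ≤ η / ((n : ℝ) + 1) := by
      apply div_le_div_of_nonneg_left hη0.le (by positivity)
      push_cast; linarith
    refine ⟨X_mono (by linarith) hg.1, ?_, hg.2.2⟩
    have h2 : s - η / (((n + 1 : ℕ) : ℝ) + 1) ≤ P.lam g := hg.2.1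
    show s - η / ((n : ℝ) + 1) ≤ P.lam g
    linarith
  have hempty : ¬ (⋂ n, S n).Nonempty := by
    rintro ⟨g, hg⟩
    rw [mem_iInter] at hg
    have ht : Tendsto (fun n : ℕ => η / ((n : ℝ) + 1)) atTop (𝓝 0) := by
      have := (tendsto_one_div_add_atTop_nhds_zero_nat (𝕜 := ℝ)).const_mul η
      simpa [div_eq_mul_inv] using this
    have g1 : g ∈ X M s := by
      intro x y
      have h3 : Tendsto (fun n : ℕ => (s + η / ((n : ℝ) + 1)) * |x - y|) atTop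
          (𝓝 ((s + 0) * |x - y|)) := (tendsto_const_nhds.add ht).mul_const _
      rw [add_zero] at h3
      exact ge_of_tendsto' h3 fun n => (hg n).1 x y
    have g2 : s ≤ P.lam g := by
      have h3 : Tendsto (fun n : ℕ => s - η / ((n : ℝ) + 1)) atTop (𝓝 (s - 0)) :=
        tendsto_const_nhds.sub ht
      rw [sub_zero] at h3
      exact le_of_tendsto' h3 fun n => (hg n).2.1
    have g3 : IsGeo s g := (P.geo_iff hs hsT.le g).2 ⟨g1, g2⟩
    have g4 := (hg 0).2.2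
    rw [mem_preimage, P.fix s hsT.le g g3 1 ⟨zero_le_one, le_rfl⟩] at g4
    exact g4 (hc g g3)
  obtain ⟨n, hn⟩ : ∃ n, S n = ∅ := by
    by_contra hne
    push Not at hne
    refine hempty (IsCompact.nonempty_iInter_of_sequence_nonempty_isCompact_isClosed S hanti
      (fun n => hne n) ?_ hclosed)
    exact (isCompact_X _).of_isClosed_subset (hclosed 0) fun g hg => hg.1
  refine ⟨η / (n + 1), by positivity, fun e he he' g hg => ?_⟩
  by_cases h1 : P.H 1 g ∈ U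
  · exact Or.inr h1
  · left
    have h2 : g ∈ X M (s + η / (n + 1)) := X_mono (by linarith) hg
    have h3 : P.lam g < s - η / (n + 1) := by
      by_contra h4
      have : g ∈ S n := ⟨h2, not_lt.1 h4, h1⟩
      rw [hn] at this
      exact this
    exact X_mono (by linarith) (P.lam_mem g (X_mono (hle n) h2))

/-- stable neighbourhoods of a fixed set: if `K ⊆ U`, `U` open and `K` fixed by the homotopy then
the points whose whole trajectory stays in `U` form a neighbourhood of `K`. -/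
theorem stable [CompactSpace M] {K U : Set (Lp M)} (hU : IsOpen U) (hKU : K ⊆ U)
    (hfix : ∀ g ∈ K, ∀ r ∈ Icc (0 : ℝ) 1, P.H r g = g) :
    ∃ V : Set (Lp M), IsOpen V ∧ K ⊆ V ∧ V ⊆ U ∧
      ∀ g ∈ V, g ∈ X M T → ∀ r ∈ Icc (0 : ℝ) 1, P.H r g ∈ U := by
  set F : Set (Lp M) := Prod.snd ''
    ((Icc (0 : ℝ) 1 ×ˢ X M T) ∩ (fun p : ℝ × Lp M => P.H p.1 p.2) ⁻¹' Uᶜ) with hF
  have hcomp : IsCompact (Icc (0 : ℝ) 1 ×ˢ X M T) := isCompact_Icc.prod (isCompact_X T)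
  have hFc : IsClosed F := by
    refine IsCompact.isClosed (IsCompact.image ?_ continuous_snd)
    refine hcomp.of_isClosed_subset ?_ inter_subset_left
    exact P.cont.preimage_isClosed_of_isClosed hcomp.isClosed hU.isClosed_compl
  refine ⟨U ∩ Fᶜ, hU.inter hFc.isOpen_compl, fun g hg => ⟨hKU hg, ?_⟩, inter_subset_left, ?_⟩
  · rintro ⟨⟨r, g'⟩, ⟨hm, hn⟩, rfl⟩
    apply hn
    show P.H r g' ∈ U
    rw [hfix g' hg r hm.1]
    exact hKU hg
  · intro g hg hgT r hr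
    by_contra hn
    exact hg.2 ⟨(r, g), ⟨⟨hr, hgT⟩, hn⟩, rfl⟩

/-- one step of the nested family, symmetric under rotation and reversal -/
theorem step [CompactSpace M] {K U : Bool → Set (Lp M)} (hKc : ∀ ε, IsClosed (K ε))
    (hKrot : ∀ ε, ∀ g ∈ K ε, ∀ a, rot a g ∈ K ε) (hKrev : ∀ ε, ∀ g ∈ K ε, rev g ∈ K (!ε))
    (hfix : ∀ ε, ∀ g ∈ K ε, ∀ r ∈ Icc (0 : ℝ) 1, P.H r g = g)
    (hU : ∀ ε, IsOpen (U ε)) (hKU : ∀ ε, K ε ⊆ U ε) :
    ∃ V : Bool → Set (Lp M), (∀ ε, IsOpen (V ε)) ∧ (∀ ε, K ε ⊆ V ε) ∧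
      (∀ ε, closure (V ε) ⊆ U ε) ∧ (∀ ε, ∀ g ∈ V ε, ∀ a, rot a g ∈ V ε) ∧
      (∀ ε, ∀ g ∈ V ε, rev g ∈ V (!ε)) ∧
      (∀ ε, ∀ g ∈ V ε, g ∈ X M T → ∀ r ∈ Icc (0 : ℝ) 1, P.H r g ∈ U ε) := by
  have h1 : ∀ ε, ∃ V : Set (Lp M), IsOpen V ∧ K ε ⊆ V ∧ V ⊆ U ε ∧
      ∀ g ∈ V, g ∈ X M T → ∀ r ∈ Icc (0 : ℝ) 1, P.H r g ∈ U ε := fun ε =>
    P.stable (hU ε) (hKU ε) (hfix ε)
  choose V1 o1 k1 _ s1 using h1
  have h2 : ∀ ε, ∃ W : Set (Lp M), IsOpen W ∧ K ε ⊆ W ∧ closure W ⊆ U ε := fun ε =>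
    normal_exists_closure_subset (hKc ε) (hU ε) (hKU ε)
  choose W o2 k2 c2 using h2
  set C : Bool → Set (Lp M) := fun ε => core (V1 ε ∩ W ε) with hC
  have oC : ∀ ε, IsOpen (C ε) := fun ε => isOpen_core ((o1 ε).inter (o2 ε))
  have kC : ∀ ε, K ε ⊆ C ε := fun ε => subset_core (hKrot ε) (subset_inter (k1 ε) (k2 ε))
  have sC : ∀ ε, C ε ⊆ V1 ε ∩ W ε := fun ε => core_subset _
  refine ⟨fun ε => C ε ∩ rev ⁻¹' (C (!ε)), fun ε => (oC ε).inter ((oC (!ε)).preimage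
    continuous_rev), fun ε => subset_inter (kC ε) fun g hg => kC _ (hKrev ε g hg), fun ε => ?_,
    fun ε g hg a => ⟨rot_mem_core hg.1 a, ?_⟩, fun ε g hg => ⟨hg.2, ?_⟩, fun ε g hg => ?_⟩
  · exact (closure_mono (inter_subset_left.trans ((sC ε).trans inter_subset_right))).trans (c2 ε)
  · show rev (rot a g) ∈ C (!ε)
    rw [rev_rot]
    exact rot_mem_core hg.2 _
  · show rev (rev g) ∈ C (!!ε)
    rw [rev_rev, Bool.not_not]
    exact hg.1
  · exact s1 ε g (sC ε hg.1).1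

/-- **G3 (nested form)**: nested neighbourhoods `U 0 ε ⊆ U 1 ε ⊆ … ⊆ U m ε ⊆ O ε` of the two halves
`K true`, `K false` of the critical set at level `s`. -/
theorem nested [CompactSpace M] {s : ℝ} (hs : 0 < s) (hsT : s < T) {K O : Bool → Set (Lp M)}
    (hK : ∀ g, IsGeo s g ↔ ∃ ε, g ∈ K ε) (hKc : ∀ ε, IsClosed (K ε))
    (hKrot : ∀ ε, ∀ g ∈ K ε, ∀ a, rot a g ∈ K ε) (hKrev : ∀ ε, ∀ g ∈ K ε, rev g ∈ K (!ε))
    (hO : ∀ ε, IsOpen (O ε)) (hKO : ∀ ε, K ε ⊆ O ε) (m : ℕ) :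
    ∃ U : ℕ → Bool → Set (Lp M),
      (∀ k ε, IsOpen (U k ε)) ∧ (∀ k ε, K ε ⊆ U k ε) ∧ (∀ k ε, U k ε ⊆ U (k + 1) ε) ∧
      (∀ k ε, closure (U k ε) ⊆ O ε) ∧ (∀ k, k < m → ∀ ε, closure (U k ε) ⊆ U (k + 1) ε) ∧
      (∀ k ε, ∀ g ∈ U k ε, ∀ a, rot a g ∈ U k ε) ∧ (∀ k ε, ∀ g ∈ U k ε, rev g ∈ U k (!ε)) ∧
      (∀ k ε, ∀ g ∈ U k ε, g ∈ X M T → ∀ r ∈ Icc (0 : ℝ) 1, P.H r g ∈ O ε) ∧
      (∀ k, k < m → ∀ ε, ∀ g ∈ U k ε, g ∈ X M T → ∀ r ∈ Icc (0 : ℝ) 1,
        P.H r g ∈ U (k + 1) ε) ∧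
      ∃ e0 > (0 : ℝ), s + e0 ≤ T ∧ ∀ e, 0 < e → e ≤ e0 → ∀ g ∈ X M (s + e),
        P.H 1 g ∈ X M (s - e) ∪ (U 0 true ∪ U 0 false) := by
  have hfix : ∀ ε, ∀ g ∈ K ε, ∀ r ∈ Icc (0 : ℝ) 1, P.H r g = g := fun ε g hg =>
    P.fix s hsT.le g ((hK g).2 ⟨ε, hg⟩)
  let Q : (Bool → Set (Lp M)) → Prop := fun U => (∀ ε, IsOpen (U ε)) ∧ ∀ ε, K ε ⊆ U ε
  have hstep : ∀ U : {U // Q U}, ∃ V : {V // Q V},
      (∀ ε, closure (V.1 ε) ⊆ U.1 ε) ∧ (∀ ε, ∀ g ∈ V.1 ε, ∀ a, rot a g ∈ V.1 ε) ∧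
      (∀ ε, ∀ g ∈ V.1 ε, rev g ∈ V.1 (!ε)) ∧
      (∀ ε, ∀ g ∈ V.1 ε, g ∈ X M T → ∀ r ∈ Icc (0 : ℝ) 1, P.H r g ∈ U.1 ε) := by
    rintro ⟨U, hU1, hU2⟩
    obtain ⟨V, a1, a2, a3, a4, a5, a6⟩ := P.step hKc hKrot hKrev hfix hU1 hU2
    exact ⟨⟨V, a1, a2⟩, a3, a4, a5, a6⟩
  choose f hf using hstep
  let V : ℕ → {U // Q U} := fun n => Nat.rec (f ⟨O, hO, hKO⟩) (fun _ U => f U) n
  have hV0 : V 0 = f ⟨O, hO, hKO⟩ := rfl
  have hVs : ∀ n, V (n + 1) = f (V n) := fun _ => rfl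
  have hcl : ∀ n ε, closure ((V n).1 ε) ⊆ O ε := by
    intro n
    induction n with
    | zero => intro ε; rw [hV0]; exact (hf ⟨O, hO, hKO⟩).1 ε
    | succ n ih =>
      intro ε
      rw [hVs]
      exact ((hf (V n)).1 ε).trans (subset_closure.trans (ih ε))
  have hrot : ∀ n ε, ∀ g ∈ (V n).1 ε, ∀ a, rot a g ∈ (V n).1 ε := by
    rintro (_ | n)
    · exact (hf ⟨O, hO, hKO⟩).2.1
    · exact (hf (V n)).2.1
  have hrev : ∀ n ε, ∀ g ∈ (V n).1 ε, rev g ∈ (V n).1 (!ε) := by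
    rintro (_ | n)
    · exact (hf ⟨O, hO, hKO⟩).2.2.1
    · exact (hf (V n)).2.2.1
  have hmono : ∀ n ε, (V (n + 1)).1 ε ⊆ (V n).1 ε := fun n ε =>
    subset_closure.trans ((hf (V n)).1 ε)
  have hH0 : ∀ n ε, ∀ g ∈ (V n).1 ε, g ∈ X M T → ∀ r ∈ Icc (0 : ℝ) 1, P.H r g ∈ O ε := by
    rintro (_ | n) ε g hg hgT r hr
    · exact (hf ⟨O, hO, hKO⟩).2.2.2 ε g hg hgT r hr
    · exact hcl n ε (subset_closure ((hf (V n)).2.2.2 ε g hg hgT r hr))
  obtain ⟨e0, he0, he1⟩ := P.near hs hsT (U := (V m).1 true ∪ (V m).1 false)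
    (((V m).2.1 true).union ((V m).2.1 false)) (fun g hg => by
      obtain ⟨ε, hε⟩ := (hK g).1 hg
      cases ε
      · exact Or.inr ((V m).2.2 _ hε)
      · exact Or.inl ((V m).2.2 _ hε))
  refine ⟨fun k => (V (m - k)).1, fun k => (V (m - k)).2.1, fun k => (V (m - k)).2.2, ?_,
    fun k => hcl _, ?_, fun k => hrot _, fun k => hrev _, fun k => hH0 _, ?_,
    min e0 (T - s), lt_min he0 (by linarith), by linarith [min_le_right e0 (T - s)],
    fun e h1 h2 => he1 e h1 (h2.trans (min_le_left _ _))⟩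
  · intro k ε
    show (V (m - k)).1 ε ⊆ (V (m - (k + 1))).1 ε
    rcases Nat.lt_or_ge k m with hk | hk
    · have e : m - k = (m - (k + 1)) + 1 := by omega
      rw [e]; exact hmono _ ε
    · have e : m - k = m - (k + 1) := by omega
      rw [e]
  · intro k hk ε
    show closure ((V (m - k)).1 ε) ⊆ (V (m - (k + 1))).1 ε
    have e : m - k = (m - (k + 1)) + 1 := by omega
    rw [e]; exact (hf (V _)).1 ε
  · intro k hk ε
    show ∀ g ∈ (V (m - k)).1 ε, g ∈ X M T → ∀ r ∈ Icc (0 : ℝ) 1,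
      P.H r g ∈ (V (m - (k + 1))).1 ε
    have e : m - k = (m - (k + 1)) + 1 := by omega
    rw [e]; exact (hf (V _)).2.2.2 ε

end Push

end Crest.Agent.R231.GCrossx449
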