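import Crest.Agent.R231.GBirk2_576
import Crest.Agent.R231.GCross_449

/-!
# Row 231 (S0357), block G: a Birkhoff step commuting with the half rotation (helper576)

* `repA_comm` : replacements of the arcs `[a, a+l]` and `[a+1/2, a+1/2+l]` commute (`l ≤ 1/2`)
* `exists_push` : an instance of `Push M T` (GCross_449) whose homotopy commutes with `rot (1/2)`
-/

set_option autoImplicit false
set_option linter.unusedSectionVars false

open Set Filter Topology

namespace Crest.Agent.R231.GLugx576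

variable {M : Type*} [MetricSpace M] (L : LUG M) [CompactSpace M]

section comm

variable {a l t : ℝ} {γ : Lp M}

/-- inside the arc -/
theorem repA_in (hd : (l, rot (a : UnitAddCircle) γ) ∈ RepDom L) {x : ℝ}
    (hx : x ∈ Icc a (a + l)) : repA L a l γ x =
      L.seg (γ (a : UnitAddCircle)) (γ ((a + l : ℝ) : UnitAddCircle)) ((x - a) / l) := by
  have hl := hd.1
  simp only at hl
  rw [repA_coe, rep_apply L hd ⟨by linarith [hx.1], by linarith [hx.2, hl.2]⟩, repF,
    if_pos (by linarith [hx.2]), rot_coe, rot_coe, add_zero]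

theorem repA_congr {a' : ℝ} (h : (a : UnitAddCircle) = (a' : UnitAddCircle)) :
    repA L a l γ = repA L a' l γ := by
  rw [repA, repA, AddCircle.coe_neg, AddCircle.coe_neg, h]

theorem rot_repA (b : ℝ) : rot (b : UnitAddCircle) (repA L a l γ) =
    repA L (a - b) l (rot (b : UnitAddCircle) γ) := by
  rw [repA, repA, rot_rot, rot_rot]
  congr 2
  · rw [← AddCircle.coe_add]; congr 1; ring
  · rw [← AddCircle.coe_add]; congr 2; congr 1; ring

/-- the end points of a disjoint arc do not move -/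
theorem repA_fix_right (hd : (l, rot (a : UnitAddCircle) γ) ∈ RepDom L) {x : ℝ}
    (hx : x ∈ Icc (a + l) (a + 1)) : repA L a l γ x = γ (x : UnitAddCircle) := repA_out L hd hx

theorem repA_comm (hγ : γ ∈ X M t) (h0 : 0 ≤ l) (h1 : l ≤ 1 / 2) (h : t * l < L.r0) :
    repA L (a + 1 / 2) l (repA L a l γ) = repA L a l (repA L (a + 1 / 2) l γ) := by
  have h1' : l ≤ 1 := by linarith
  have d1 := mem_domA hγ h0 h1' h a
  have d2 := mem_domA hγ h0 h1' h (a + 1 / 2)
  have m1 : repA L a l γ ∈ X M t := repA_mem L hγ h0 h1' h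
  have m2 : repA L (a + 1 / 2) l γ ∈ X M t := repA_mem L hγ h0 h1' h
  have d3 := mem_domA m1 h0 h1' h (a + 1 / 2)
  have d4 := mem_domA m2 h0 h1' h a
  -- values of `repA a l γ` outside its arc, seen from `[a + 1/2, a + 3/2]`
  have e1 : ∀ x ∈ Icc (a + 1 / 2) (a + 1), repA L a l γ x = γ (x : UnitAddCircle) := fun x hx =>
    repA_out L d1 ⟨by linarith [hx.1], hx.2⟩
  have e2 : ∀ x ∈ Icc a (a + 1 / 2), repA L (a + 1 / 2) l γ x = γ (x : UnitAddCircle) := by
    intro x hx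
    have h5 : ((x + 1 : ℝ) : UnitAddCircle) = x := by
      have := coe_add_int x 1
      rwa [Int.cast_one] at this
    rw [← h5]
    exact repA_out L d2 ⟨by linarith [hx.1], by linarith [hx.2]⟩
  have key : ∀ x ∈ Ico a (a + 1), repA L (a + 1 / 2) l (repA L a l γ) x =
      repA L a l (repA L (a + 1 / 2) l γ) x := by
    intro x hx
    rcases le_total x (a + 1 / 2) with hx1 | hx1
    · -- the second operator does not act on the left side
      have h6 : repA L (a + 1 / 2) l (repA L a l γ) x = repA L a l γ x := by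
        have h5 : ((x + 1 : ℝ) : UnitAddCircle) = x := by
          have := coe_add_int x 1
          rwa [Int.cast_one] at this
        rw [← h5]
        exact repA_out L d3 ⟨by linarith [hx.1], by linarith⟩
      rw [h6]
      rcases le_total x (a + l) with hx2 | hx2
      · rw [repA_in L d1 ⟨hx.1, hx2⟩, repA_in L d4 ⟨hx.1, hx2⟩, e2 a ⟨le_rfl, by linarith⟩,
          e2 (a + l) ⟨by linarith, by linarith⟩]
      · rw [repA_out L d1 ⟨hx2, by linarith⟩, repA_out L d4 ⟨hx2, by linarith⟩,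
          e2 x ⟨hx.1, hx1⟩]
    · have h6 : repA L a l (repA L (a + 1 / 2) l γ) x = repA L (a + 1 / 2) l γ x :=
        repA_out L d4 ⟨by linarith, hx.2.le⟩
      rw [h6]
      rcases le_total x (a + 1 / 2 + l) with hx2 | hx2
      · rw [repA_in L d3 ⟨hx1, hx2⟩, repA_in L d2 ⟨hx1, hx2⟩, e1 _ ⟨le_rfl, by linarith⟩,
          e1 (a + 1 / 2 + l) ⟨by linarith, by linarith⟩]
      · rw [repA_out L d3 ⟨hx2, by linarith [hx.2]⟩, repA_out L d2 ⟨hx2, by linarith [hx.2]⟩,
          e1 x ⟨hx1, hx.2.le⟩]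
  ext x
  obtain ⟨u, hu, rfl⟩ := exists_Icc x
  obtain ⟨n, hn1, hn2⟩ := exists_shift a u
  rw [← coe_sub_int u n]
  exact key _ ⟨hn1, hn2⟩

end comm

/-- the pair of replacements -/
noncomputable def Dp (N : ℕ) (τ : ℝ) (n : ℕ) (γ : Lp M) : Lp M :=
  repA L ((n : ℝ) / (2 * N) + 1 / 2) (τ * (1 / N)) (repA L ((n : ℝ) / (2 * N)) (τ * (1 / N)) γ)

/-- the first `n` pairs -/
noncomputable def Cst (N : ℕ) (τ : ℝ) : ℕ → Lp M → Lp M
  | 0, γ => γ
  | n + 1, γ => Dp L N τ n (Cst N τ n γ)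

variable {N : ℕ} {T s t : ℝ} {γ : Lp M}

theorem levDef_Dp (hN : 0 < N) (hT : T * (1 / N) < L.r0) (n : ℕ) :
    LevDef M T (fun p => Dp L N p.1 n p.2) :=
  (levDef_repA L ((n : ℝ) / (2 * N) + 1 / 2) (by positivity) (one_div_le_one_N hN) hT).comp
    (levDef_repA L ((n : ℝ) / (2 * N)) (by positivity) (one_div_le_one_N hN) hT)

theorem levDef_Cst (hN : 0 < N) (hT : T * (1 / N) < L.r0) (n : ℕ) :
    LevDef M T (fun p => Cst L N p.1 n p.2) := by
  induction n with
  | zero => exact LevDef.id T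
  | succ n ih => exact (levDef_Dp L hN hT n).comp ih

theorem half_coe (a : ℝ) : ((a - 1 / 2 : ℝ) : UnitAddCircle) = ((a + 1 / 2 : ℝ) : UnitAddCircle) := by
  have := coe_add_int (a - 1 / 2) 1
  rw [← this]; congr 1; push_cast; ring

theorem aux_dom (hN : 0 < N) (hT : T * (1 / N) < L.r0) (ht : t ≤ T) {τ : ℝ}
    (hτ : τ ∈ Icc (0 : ℝ) 1) (hγ : γ ∈ X M t) :
    0 ≤ τ * (1 / N) ∧ τ * (1 / N) ≤ 1 / (N : ℝ) ∧ t * (τ * (1 / N)) < L.r0 := by
  have ht0 := nonneg_of_mem hγ
  have h0 : (0 : ℝ) ≤ 1 / N := by positivity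
  have a1 : τ * (1 / N) ≤ 1 / (N : ℝ) := mul_le_of_le_one_left h0 hτ.2
  refine ⟨mul_nonneg hτ.1 h0, a1, lt_of_le_of_lt ?_ hT⟩
  exact mul_le_mul ht a1 (mul_nonneg hτ.1 h0) (ht0.trans ht)

/-- the pair commutes with the half rotation -/
theorem rot_Dp (hN : 2 ≤ N) (hT : T * (1 / N) < L.r0) {τ : ℝ} (hτ : τ ∈ Icc (0 : ℝ) 1)
    (hγ : γ ∈ X M T) (n : ℕ) :
    rot ((1 / 2 : ℝ) : UnitAddCircle) (Dp L N τ n γ) =
      Dp L N τ n (rot ((1 / 2 : ℝ) : UnitAddCircle) γ) := by
  have hN0 : 0 < N := by omega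
  obtain ⟨h0, h1, h2⟩ := aux_dom L hN0 hT le_rfl hτ hγ
  have h3 : 1 / (N : ℝ) ≤ 1 / 2 := by
    apply one_div_le_one_div_of_le (by norm_num)
    exact_mod_cast hN
  rw [Dp, rot_repA, rot_repA, add_sub_cancel_right, repA_congr L (half_coe ((n : ℝ) / (2 * N))),
    Dp, repA_comm L (rot_mem hγ _) h0 (h1.trans h3) h2]

theorem rot_Cst (hN : 2 ≤ N) (hT : T * (1 / N) < L.r0) {τ : ℝ} (hτ : τ ∈ Icc (0 : ℝ) 1)
    (hγ : γ ∈ X M T) (n : ℕ) :
    Cst L N τ n (rot ((1 / 2 : ℝ) : UnitAddCircle) γ) =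
      rot ((1 / 2 : ℝ) : UnitAddCircle) (Cst L N τ n γ) := by
  have hN0 : 0 < N := by omega
  induction n with
  | zero => rfl
  | succ n ih =>
    show Dp L N τ n (Cst L N τ n _) = rot _ (Dp L N τ n (Cst L N τ n γ))
    rw [ih, rot_Dp L hN hT hτ ((levDef_Cst L hN0 hT n).maps T le_rfl τ hτ γ hγ)]

theorem Cst_mem (hN : 0 < N) (hs : s * (1 / N) < L.r0) (hγ : γ ∈ X M s) (n : ℕ) :
    Cst L N 1 n γ ∈ X M s :=
  (levDef_Cst L hN hs n).maps s le_rfl 1 ⟨zero_le_one, le_rfl⟩ γ hγ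

/-- the intermediate loop -/
noncomputable def Mst (N : ℕ) (n : ℕ) (γ : Lp M) : Lp M :=
  repA L ((n : ℝ) / (2 * N)) (1 / N) (Cst L N 1 n γ)

theorem Cst_succ (n : ℕ) (γ : Lp M) :
    Cst L N 1 (n + 1) γ = repA L ((n : ℝ) / (2 * N) + 1 / 2) (1 / N) (Mst L N n γ) := by
  show repA L _ (1 * (1 / N)) (repA L _ (1 * (1 / N)) (Cst L N 1 n γ)) = _
  rw [one_mul]; rfl

theorem Mst_mem (hN : 0 < N) (hs : s * (1 / N) < L.r0) (hγ : γ ∈ X M s) (n : ℕ) :
    Mst L N n γ ∈ X M s :=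
  repA_mem L (Cst_mem L hN hs hγ n) (by positivity) (one_div_le_one_N hN) hs

/-- tightness goes back: from `Cst (n+1)` to `Mst n` -/
theorem tight_C_M (hN : 0 < N) (hs : s * (1 / N) < L.r0) (hγ : γ ∈ X M s) {c d : ℝ}
    (hcd : c < d) {n : ℕ}
    (ht : dist (Cst L N 1 (n + 1) γ c) (Cst L N 1 (n + 1) γ d) = s * (d - c)) :
    dist (Mst L N n γ c) (Mst L N n γ d) = s * (d - c) := by
  rw [Cst_succ] at ht
  exact tight_back L (Mst_mem L hN hs hγ n) (by positivity) (one_div_le_one_N hN) hs hcd ht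

theorem tight_M_C (hN : 0 < N) (hs : s * (1 / N) < L.r0) (hγ : γ ∈ X M s) {c d : ℝ}
    (hcd : c < d) {n : ℕ}
    (ht : dist (Mst L N n γ c) (Mst L N n γ d) = s * (d - c)) :
    dist (Cst L N 1 n γ c) (Cst L N 1 n γ d) = s * (d - c) :=
  tight_back L (Cst_mem L hN hs hγ n) (by positivity) (one_div_le_one_N hN) hs hcd ht

theorem tight_C_back (hN : 0 < N) (hs : s * (1 / N) < L.r0) (hγ : γ ∈ X M s) {c d : ℝ}
    (hcd : c < d) {n m : ℕ} (hmn : m ≤ n)
    (ht : dist (Cst L N 1 n γ c) (Cst L N 1 n γ d) = s * (d - c)) :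
    dist (Cst L N 1 m γ c) (Cst L N 1 m γ d) = s * (d - c) := by
  induction n with
  | zero =>
    obtain rfl : m = 0 := by omega
    exact ht
  | succ n ih =>
    rcases Nat.le_succ_iff.1 hmn with h | h
    · exact ih h (tight_M_C L hN hs hγ hcd (tight_C_M L hN hs hγ hcd ht))
    · rw [h]; exact ht

/-- all arcs are tight -/
theorem tight_arcs (hN : 0 < N) (hs : s * (1 / N) < L.r0) (hγ : γ ∈ X M s) {c d : ℝ}
    (hcd : c < d) {j : ℕ} (n : ℤ)
    (hov : max c ((j : ℝ) / (2 * N) + n) < min d ((j : ℝ) / (2 * N) + 1 / N + n))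
    (ht : dist (Cst L N 1 (j + 1) γ c) (Cst L N 1 (j + 1) γ d) = s * (d - c)) :
    ∀ m ≤ j, dist (γ (((m : ℝ) / (2 * N) : ℝ) : UnitAddCircle))
        (γ (((m : ℝ) / (2 * N) + 1 / N : ℝ) : UnitAddCircle)) = s * (1 / N) := by
  have hN' : (0 : ℝ) < 1 / N := by positivity
  have hNr : (0 : ℝ) < N := by exact_mod_cast hN
  have key : ∀ i ≤ j,
      dist (Cst L N 1 (j - i) γ (((j - i : ℕ) : ℝ) / (2 * N) : ℝ))
        (Cst L N 1 (j - i) γ (((j - i : ℕ) : ℝ) / (2 * N) + 1 / N : ℝ)) = s * (1 / N) := by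
    intro i hi
    induction i with
    | zero =>
      rw [Nat.sub_zero]
      exact (tight_overlap L (Cst_mem L hN hs hγ j) hN' (one_div_le_one_N hN) hs n hov
        (tight_C_M L hN hs hγ hcd ht)).2
    | succ i ih =>
      have g2 := ih (by omega)
      set m := j - (i + 1) with hm
      have hji : j - i = m + 1 := by omega
      rw [hji] at g2
      have e1 : s * (1 / (N : ℝ)) = s * ((((m + 1 : ℕ) : ℝ) / (2 * N) + 1 / N) -
          ((m + 1 : ℕ) : ℝ) / (2 * N)) := by ring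
      have hlt : ((m + 1 : ℕ) : ℝ) / (2 * N) < ((m + 1 : ℕ) : ℝ) / (2 * N) + 1 / N := by linarith
      rw [e1] at g2
      have g3 := tight_C_M L hN hs hγ hlt g2
      have hov' : max (((m + 1 : ℕ) : ℝ) / (2 * N)) ((m : ℝ) / (2 * N) + (0 : ℤ)) <
          min (((m + 1 : ℕ) : ℝ) / (2 * N) + 1 / N) ((m : ℝ) / (2 * N) + 1 / N + (0 : ℤ)) := by
        have e2 := grid_succ (N := N) m
        have e3 := grid_len hN
        have e4 : (0 : ℝ) < 1 / (2 * N) := by positivity
        rw [e2, e3, Int.cast_zero, add_zero, add_zero]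
        rw [lt_min_iff, max_lt_iff, max_lt_iff]
        refine ⟨⟨?_, ?_⟩, ?_, ?_⟩ <;> linarith
      exact (tight_overlap L (Cst_mem L hN hs hγ m) hN' (one_div_le_one_N hN) hs 0 hov' g3).2
  intro m hm
  have h1 := key (j - m) (by omega)
  have e : j - (j - m) = m := by omega
  rw [e] at h1
  have hlt : (m : ℝ) / (2 * N) < (m : ℝ) / (2 * N) + 1 / N := by linarith
  have e1 : s * (1 / (N : ℝ)) = s * (((m : ℝ) / (2 * N) + 1 / N) - (m : ℝ) / (2 * N)) := by ring
  rw [e1] at h1 ⊢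
  exact tight_C_back L hN hs hγ hlt (Nat.zero_le m) h1

/-- a loop all of whose grid arcs are tight is a closed geodesic -/
theorem geo_of_arcs (hN : 0 < N) (hγ : γ ∈ X M s)
    (h3 : ∀ m : ℕ, m < 2 * N → dist (γ (((m : ℝ) / (2 * N) : ℝ) : UnitAddCircle))
      (γ (((m : ℝ) / (2 * N) + 1 / N : ℝ) : UnitAddCircle)) = s * (1 / N)) :
    ∀ x y : ℝ, |x - y| ≤ 1 / (2 * N) → dist (γ (x : UnitAddCircle)) (γ (y : UnitAddCircle)) =
      s * |x - y| := by
  have hNr : (0 : ℝ) < N := by exact_mod_cast hN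
  have key : ∀ x y : ℝ, x ≤ y → y - x ≤ 1 / (2 * N) →
      dist (γ (x : UnitAddCircle)) (γ (y : UnitAddCircle)) = s * (y - x) := by
    intro x y hxy hd
    set x' := Int.fract x with hx'
    set y' := y - ⌊x⌋ with hy'
    have ex : x' = x - ⌊x⌋ := rfl
    have hx0 := Int.fract_nonneg x
    have hx1 := Int.fract_lt_one x
    set m := ⌊x' * (2 * N)⌋₊ with hm
    have hm1 : (m : ℝ) ≤ x' * (2 * N) := Nat.floor_le (by positivity)
    have hm2 : x' * (2 * N) < m + 1 := Nat.lt_floor_add_one _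
    have hm3 : m < 2 * N := by
      have : (m : ℝ) < ((2 * N : ℕ) : ℝ) := by
        push_cast
        calc (m : ℝ) ≤ x' * (2 * N) := hm1
          _ < 1 * (2 * N) := mul_lt_mul_of_pos_right hx1 (by positivity)
          _ = 2 * N := one_mul _
      exact_mod_cast this
    have h4 := h3 m hm3
    have e6 : s * (1 / (N : ℝ)) = s * (((m : ℝ) / (2 * N) + 1 / N) - (m : ℝ) / (2 * N)) := by ring
    rw [e6] at h4
    have a1 : (m : ℝ) / (2 * N) ≤ x' := by rw [div_le_iff₀ (by positivity)]; exact hm1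
    have a2 : y' ≤ (m : ℝ) / (2 * N) + 1 / N := by
      have b1 : x' < (m : ℝ) / (2 * N) + 1 / (2 * N) := by
        rw [← add_div, lt_div_iff₀ (by positivity)]; exact hm2
      have e3 := grid_len hN
      have b2 : y' - x' = y - x := by rw [hy', ex]; ring
      linarith
    have a3 : x' ≤ y' := by rw [hy', ex]; linarith
    have h5 := tight_sub hγ a1 a3 a2 h4
    rw [hy', ex, coe_sub_int, coe_sub_int] at h5
    rw [h5]; ring
  intro x y hd
  rcases le_total x y with hxy | hxy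
  · rw [abs_sub_comm, abs_of_nonneg (by linarith)] at hd ⊢
    exact key x y hxy hd
  · rw [abs_of_nonneg (by linarith)] at hd ⊢
    rw [dist_comm]
    exact key y x hxy hd

/-- **strict decrease** -/
theorem isGeo_of_tightC (hN : 0 < N) (hs : s * (1 / N) < L.r0) (hγ : γ ∈ X M s) {k : ℕ}
    (hk : k < 2 * N)
    (ht : dist (Cst L N 1 (4 * N) γ (((k : ℝ) / (2 * N) : ℝ) : UnitAddCircle))
      (Cst L N 1 (4 * N) γ ((((k + 1 : ℕ) : ℝ) / (2 * N) : ℝ) : UnitAddCircle)) =
        s * (1 / (2 * N))) :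
    ∀ x y : ℝ, |x - y| ≤ 1 / (2 * N) → dist (γ (x : UnitAddCircle)) (γ (y : UnitAddCircle)) =
      s * |x - y| := by
  have hNr : (0 : ℝ) < N := by exact_mod_cast hN
  have hcd : (k : ℝ) / (2 * N) < ((k + 1 : ℕ) : ℝ) / (2 * N) := by
    apply div_lt_div_of_pos_right _ (by positivity)
    push_cast; linarith
  have e1 : ((k + 1 : ℕ) : ℝ) / (2 * N) - (k : ℝ) / (2 * N) = 1 / (2 * N) := by
    push_cast; ring
  have h1 : dist (Cst L N 1 (2 * N + k + 1) γ (((k : ℝ) / (2 * N) : ℝ) : UnitAddCircle))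
      (Cst L N 1 (2 * N + k + 1) γ ((((k + 1 : ℕ) : ℝ) / (2 * N) : ℝ) : UnitAddCircle)) =
      s * (((k + 1 : ℕ) : ℝ) / (2 * N) - (k : ℝ) / (2 * N)) := by
    refine tight_C_back L hN hs hγ hcd (n := 4 * N) (by omega) ?_
    rw [e1]; exact ht
  have hov : max ((k : ℝ) / (2 * N)) (((2 * N + k : ℕ) : ℝ) / (2 * N) + ((-1 : ℤ) : ℝ)) <
      min (((k + 1 : ℕ) : ℝ) / (2 * N)) (((2 * N + k : ℕ) : ℝ) / (2 * N) + 1 / N + ((-1 : ℤ) : ℝ)) := by
    have e2 : ((2 * N + k : ℕ) : ℝ) / (2 * N) = 1 + (k : ℝ) / (2 * N) := by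
      push_cast; field_simp
    have e3 := grid_len hN
    have e4 : (0 : ℝ) < 1 / (2 * N) := by positivity
    have e5 := grid_succ (N := N) k
    rw [e2, e3, e5]
    push_cast
    rw [lt_min_iff, max_lt_iff, max_lt_iff]
    refine ⟨⟨?_, ?_⟩, ?_, ?_⟩ <;> linarith
  have h2 := tight_arcs L hN hs hγ hcd (-1) hov h1
  exact geo_of_arcs hN hγ fun m hm => h2 m (by omega)

/-! ### constant speed on the grid -/

theorem PL_new (hN : 0 < N) {k : ℕ} (hd : ((1 : ℝ) / N, rot (((k : ℝ) / (2 * N) : ℝ) :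
    UnitAddCircle) γ) ∈ RepDom L) : PL N (repA L ((k : ℝ) / (2 * N)) (1 / N) γ) k := by
  have e3 := grid_len hN
  have e4 : (0 : ℝ) ≤ 1 / (2 * N) := by positivity
  refine PL_in L hN hd 0 ?_ ?_
  · rw [Int.cast_zero, sub_zero]
  · rw [Int.cast_zero, sub_zero, grid_succ]; linarith

theorem PL_step (hN : 0 < N) {j k : ℕ} (hd : ((1 : ℝ) / N, rot (((j : ℝ) / (2 * N) : ℝ) :
    UnitAddCircle) γ) ∈ RepDom L) (hPL : PL N γ k) :
    PL N (repA L ((j : ℝ) / (2 * N)) (1 / N) γ) k := by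
  have hNr : (0 : ℝ) < N := by exact_mod_cast hN
  set q : ℤ := ((k : ℤ) - j) / (2 * N) with hq
  set i : ℤ := ((k : ℤ) - j) % (2 * N) with hi
  have hqi : (k : ℤ) - j = i + 2 * N * q := by
    have := Int.emod_add_mul_ediv ((k : ℤ) - j) (2 * N)
    rw [hi, hq]; linarith
  have h2N : (0 : ℤ) < 2 * N := by have : (0 : ℤ) < N := by exact_mod_cast hN
                                   linarith
  have hi0 : 0 ≤ i := Int.emod_nonneg _ h2N.ne'
  have hi1 : i < 2 * N := Int.emod_lt_of_pos _ h2N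
  have e1 : (k : ℝ) / (2 * N) - q = (j : ℝ) / (2 * N) + i / (2 * N) := by
    have : (k : ℝ) - j = i + 2 * N * q := by exact_mod_cast hqi
    have h3 : (k : ℝ) = j + i + 2 * N * q := by linarith
    rw [h3]; field_simp; ring
  have e2 : ((k + 1 : ℕ) : ℝ) / (2 * N) - q = (j : ℝ) / (2 * N) + (i + 1) / (2 * N) := by
    rw [grid_succ]
    have : (k : ℝ) / (2 * N) + 1 / (2 * N) - q = ((k : ℝ) / (2 * N) - q) + 1 / (2 * N) := by ring
    rw [this, e1]; ring
  have e3 : (1 : ℝ) / N = 2 / (2 * N) := by field_simp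
  have hi0r : (0 : ℝ) ≤ i := by exact_mod_cast hi0
  have hi1r : (i : ℝ) + 1 ≤ 2 * N := by exact_mod_cast hi1
  rcases lt_or_ge i 2 with h | h
  · refine PL_in L hN hd q ?_ ?_
    · rw [e1]; have : (0 : ℝ) ≤ i / (2 * N) := by positivity
      linarith
    · rw [e2, e3]
      have : ((i : ℝ) + 1) / (2 * N) ≤ 2 / (2 * N) := by
        apply div_le_div_of_nonneg_right _ (by positivity)
        have : (i : ℝ) ≤ 1 := by exact_mod_cast (by omega : i ≤ 1)
        linarith
      linarith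
  · refine PL_out L hN hd q ?_ ?_ hPL
    · rw [e1, e3]
      have : (2 : ℝ) / (2 * N) ≤ i / (2 * N) := by
        apply div_le_div_of_nonneg_right _ (by positivity)
        exact_mod_cast h
      linarith
    · rw [e2]
      have : ((i : ℝ) + 1) / (2 * N) ≤ 1 := by
        rw [div_le_one (by positivity)]; exact hi1r
      linarith

theorem half_grid (hN : 0 < N) (n : ℕ) :
    (n : ℝ) / (2 * N) + 1 / 2 = ((n + N : ℕ) : ℝ) / (2 * N) := by
  have hNr : (0 : ℝ) < N := by exact_mod_cast hN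
  push_cast; field_simp

theorem PL_Cst (hN : 0 < N) (hs : s * (1 / N) < L.r0) (hγ : γ ∈ X M s) (n : ℕ) :
    ∀ k < n, PL N (Cst L N 1 n γ) k := by
  have hN' : (0 : ℝ) < 1 / N := by positivity
  induction n with
  | zero => intro k h; exact absurd h (Nat.not_lt_zero k)
  | succ n ih =>
    intro k hk
    have h1 : PL N (Mst L N n γ) k := by
      have hd := mem_domA (Cst_mem L hN hs hγ n) hN'.le (one_div_le_one_N hN) hs
        ((n : ℝ) / (2 * N))
      rcases Nat.lt_succ_iff_lt_or_eq.1 hk with h | h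
      · exact PL_step L hN hd (ih k h)
      · subst h; exact PL_new L hN hd
    have hd2 := mem_domA (Mst_mem L hN hs hγ n) hN'.le (one_div_le_one_N hN) hs
      (((n + N : ℕ) : ℝ) / (2 * N))
    rw [Cst_succ, half_grid hN]
    exact PL_step L hN hd2 h1

/-- the speed on the `k`-th interval after all steps -/
noncomputable def spd (N : ℕ) (k : ℕ) (γ : Lp M) : ℝ :=
  2 * N * dist (Cst L N 1 (4 * N) γ (((k : ℝ) / (2 * N) : ℝ) : UnitAddCircle))
    (Cst L N 1 (4 * N) γ ((((k + 1 : ℕ) : ℝ) / (2 * N) : ℝ) : UnitAddCircle))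

theorem contOn_spd (hN : 0 < N) (hT : T * (1 / N) < L.r0) (k : ℕ) :
    ContinuousOn (spd L N k) (X M T) := by
  have h1 : ContinuousOn (fun γ : Lp M => Cst L N 1 (4 * N) γ) (X M T) :=
    (levDef_Cst L hN hT (4 * N)).cont.comp (continuousOn_const.prodMk continuousOn_id)
      fun γ hγ => ⟨⟨zero_le_one, le_rfl⟩, hγ⟩
  have h2 : ∀ x : UnitAddCircle, ContinuousOn (fun γ : Lp M => Cst L N 1 (4 * N) γ x) (X M T) :=
    fun x => (continuous_eval_const x).comp_continuousOn h1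
  exact continuousOn_const.mul (continuous_dist.comp_continuousOn ((h2 _).prodMk (h2 _)))

theorem mem_of_spd (hN : 0 < N) (hs : s * (1 / N) < L.r0) (hγ : γ ∈ X M s) {v : ℝ}
    (hv : ∀ k < 2 * N, spd L N k γ ≤ v) : Cst L N 1 (4 * N) γ ∈ X M v := by
  have hNr : (0 : ℝ) < N := by exact_mod_cast hN
  refine mem_X_of_grid hN fun k hk x hx y hy hxy => ?_
  have h1 := PL_Cst L hN hs hγ (4 * N) k (by omega) x hx y hy
  rw [h1, abs_sub_comm, abs_of_nonneg (by linarith)]
  have h2 := hv k hk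
  calc _ = (y - x) * spd L N k γ := by rw [spd]; ring
    _ ≤ (y - x) * v := mul_le_mul_of_nonneg_left h2 (by linarith)
    _ = v * (y - x) := mul_comm _ _

theorem spd_le (hN : 0 < N) (hs : s * (1 / N) < L.r0) (hγ : γ ∈ X M s) (k : ℕ) :
    spd L N k γ ≤ s := by
  have hNr : (0 : ℝ) < N := by exact_mod_cast hN
  have hm : Cst L N 1 (4 * N) γ ∈ X M s := Cst_mem L hN hs hγ _
  have h2 := hm ((k : ℝ) / (2 * N)) (((k + 1 : ℕ) : ℝ) / (2 * N))
  rw [grid_succ, abs_sub_comm, add_sub_cancel_left,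
    abs_of_nonneg (by positivity : (0 : ℝ) ≤ 1 / (2 * N)), ← grid_succ] at h2
  rw [spd]
  calc _ ≤ 2 * N * (s * (1 / (2 * N))) := mul_le_mul_of_nonneg_left h2 (by positivity)
    _ = s := by field_simp

/-- closed geodesics are fixed by all replacements -/
theorem Cst_geo (hL : L.LocMin) (hN : 0 < N) (hT : T * (1 / N) < L.r0) (ht : t ≤ T)
    (hg : IsGeo t γ) {τ : ℝ} (hτ : τ ∈ Icc (0 : ℝ) 1) (n : ℕ) : Cst L N τ n γ = γ := by
  have hm : γ ∈ X M t := GCrossx449.geo_mem hg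
  obtain ⟨h0, h1, h2⟩ := aux_dom L hN hT ht hτ hm
  obtain ⟨ht0, δ, hδ, hloc⟩ := hg
  have tight : ∀ a : ℝ, dist (γ (a : UnitAddCircle)) (γ ((a + τ * (1 / N) : ℝ) : UnitAddCircle)) =
      t * (τ * (1 / N)) := by
    intro a
    have := hL (fun x => γ (x : UnitAddCircle)) a (a + τ * (1 / N)) t δ (by linarith) hδ ht0.le
      (by rw [add_sub_cancel_left]; exact h2) fun x _ y _ hxy => hloc x y hxy
    rwa [add_sub_cancel_left] at this
  have step : ∀ a : ℝ, repA L a (τ * (1 / N)) γ = γ := fun a =>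
    repA_eq_self L hm h0 (h1.trans (one_div_le_one_N hN)) h2 (tight a)
  induction n with
  | zero => rfl
  | succ n ih =>
    show Dp L N τ n (Cst L N τ n γ) = γ
    rw [ih, Dp, step, step]

/-- **an instance of `Push`, commuting with the half rotation** -/
theorem exists_push (L : LUG M) (hL : L.LocMin) (T : ℝ) :
    ∃ P : GCrossx449.Push M T, ∀ g ∈ X M T, ∀ r ∈ Icc (0 : ℝ) 1,
      P.H r (rot ((1 / 2 : ℝ) : UnitAddCircle) g) = rot ((1 / 2 : ℝ) : UnitAddCircle) (P.H r g) := by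
  obtain ⟨N0, hN0, hT0⟩ := exists_N L T
  -- at least two nodes
  have hex : ∃ N : ℕ, 2 ≤ N ∧ T * (1 / N) < L.r0 := by
    refine ⟨2 * N0, by omega, ?_⟩
    rcases le_total 0 T with h | h
    · refine lt_of_le_of_lt (mul_le_mul_of_nonneg_left ?_ h) hT0
      apply one_div_le_one_div_of_le (by exact_mod_cast hN0)
      push_cast
      have : (0 : ℝ) ≤ N0 := Nat.cast_nonneg _
      linarith
    · refine lt_of_le_of_lt ?_ L.r0_pos
      exact mul_nonpos_of_nonpos_of_nonneg h (by positivity)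
  obtain ⟨N, hN2, hT⟩ := hex
  have hN : 0 < N := by omega
  have hne : (Finset.range (2 * N)).Nonempty := Finset.nonempty_range_iff.2 (by omega)
  have hsT : ∀ t ≤ T, t * (1 / N) < L.r0 := fun t ht =>
    lt_of_le_of_lt (mul_le_mul_of_nonneg_right ht (by positivity)) hT
  refine ⟨{ H := fun r g => Cst L N r (4 * N) g
            cont := (levDef_Cst L hN hT (4 * N)).cont
            H0 := (levDef_Cst L hN hT (4 * N)).zero
            lev := fun t ht g hg r hr => (levDef_Cst L hN hT (4 * N)).maps t ht r hr g hg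
            lam := fun g => (Finset.range (2 * N)).sup' hne (fun k => spd L N k g)
            lam_cont := ?_
            lam_mem := ?_
            dich := ?_
            fix := fun t ht g hg r hr => Cst_geo L hL hN hT ht hg hr _ }, ?_⟩
  · exact ContinuousOn.finset_sup'_apply hne fun k _ => contOn_spd L hN hT k
  · intro g hg
    refine mem_of_spd L hN hT hg fun k hk => ?_
    exact Finset.le_sup' (fun k => spd L N k g) (Finset.mem_range.2 hk)
  · intro t ht0 ht g hg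
    by_cases h : ∃ k < 2 * N, t ≤ spd L N k g
    · right
      obtain ⟨k, hk, hk2⟩ := h
      have hNr : (0 : ℝ) < N := by exact_mod_cast hN
      have h1 : spd L N k g = t := le_antisymm (spd_le L hN (hsT t ht) hg k) hk2
      refine ⟨ht0, 1 / (2 * N), by positivity, isGeo_of_tightC L hN (hsT t ht) hg hk ?_⟩
      rw [spd] at h1
      rw [← h1]; field_simp
    · left
      push Not at h
      exact (Finset.sup'_lt_iff hne).2 fun k hk => h k (Finset.mem_range.1 hk)
  · intro g hg r hr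
    exact rot_Cst L hN2 hT hr hg _

end Crest.Agent.R231.GLugx576
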