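import Crest.Agent.R231.GMEnd_160
import Crest.Agent.R231.GMB1_898
import Crest.Agent.R231.GMB2_898
import Crest.Agent.R231.GMDomS_537
import Crest.Agent.R231.GMMaps4_889
import Crest.Agent.R231.GMIsoP_320
import Crest.Agent.R231.GPush_576

/-!
# Row 231 (S0357), block GM: the field `gm` without hypotheses (helper160)

* `gmw G S : GMW M` for a compact Riemannian manifold with its geodesic package `G` and a finite
  prime system `S`
* `gmw_sphere` : the literal hypothesis `gm` of `TopBasex220.infinite_of_blocks`
-/

set_option autoImplicit false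
set_option linter.unusedSectionVars false

noncomputable section

open Bundle Set Filter Function
open scoped Manifold ContDiff Bundle ENNReal Topology
open Crest.GeometryTopology.MTW Crest.GeometryTopology.Geodesic
open Crest.Agent.R226 Crest.Agent.R226.GeoBasic616 Crest.Agent.R226.TB616

namespace Crest.Agent.R231.GMWx160

open GLugx576 GMGeox889 GeoBasex724 PrimeGeox893 CritPMx893 Frontx893 GeoLugx724 Asmx895 GMEndx160

theorem orbStmt (M : Type) [MetricSpace M] : OrbStmt M := fun _ _ _ _ hg hsb h =>
  GMOrbx537.SR_orbit_rot (X_mono hsb.le (GCrossx449.geo_mem hg)) h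

section

variable {n : ℕ} {M : Type} [MetricSpace M] [ChartedSpace (EuclideanSpace ℝ (Fin n)) M]
  [IsManifold (𝓡 n) ∞ M]
  [RiemannianBundle (fun p : M => TangentSpace (𝓡 n) p)]
  [IsContMDiffRiemannianBundle (𝓡 n) ∞ (EuclideanSpace ℝ (Fin n))
    (fun p : M => TangentSpace (𝓡 n) p)]

/-- **(GM)**: finitely many closed geodesics give a uniform bound for the critical groups -/
theorem gmw [CompactSpace M] [Nonempty M] (G : GeoData n M) {ι : Type} [Finite ι]
    (S : PrimeSys M G.r₀ ι) : GMW M :=
  gmw_of_point (lug G) (locMin G) (nonBr G) S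
    (fun T => ⟨(exists_push (lug G) (locMin G) T).choose⟩) (orbStmt M)
    (GMPointx529.point_bound GM898.b1 GM898.b2 (GMOrbx537.domStmt M) (fun A => A.sliceDom)
      (fun c N h1 h2 => GMIsoPx320.isol S c N h1 h2) S)

end

/-- **the literal field** for the spheres -/
theorem gmw_sphere (n : ℕ) [NeZero n] (g : Met n) (G : GeoData n (SG g)) (N : ℕ)
    (S : PrimeSys (SG g) G.r₀ (Fin N)) : GMW (SG g) :=
  gmw G S

end Crest.Agent.R231.GMWx160
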