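import Crest.Agent.R231.AmCh_150
import Crest.Agent.R231.InstA_895

/-!
# Row 231, block T (helper150): strict identities of `A_m(x)` and `v_m(x) = [0,1/m] . A_m(x)`

* affine chains of the circle: `Sg a b` (path from `a` to `b`), `Tr a b c`; `bd_Sg`, `bd_Tr`,
  `pont_vx_Sg`;
* general T-action `A : TAct K`, `ρ`-invariant chain `y` (`y = rot(1/m) y`), `bd y = 0`:
  `vv A m y = A.op (Sg 0 (1/m)) y` is a cycle, `g`-invariant if `m` is even, and
  `Δ y + vv A m y` is the boundary of an explicit chain if `m` is odd (`del_add_vv`);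
* loops: `A_m`, `v_m` for `x` a cycle of based loops.
-/

set_option autoImplicit false
set_option linter.unusedSectionVars false

noncomputable section

namespace Crest.Agent.R231.TFillx150

open Crest.Agent.R204 EZ271 EZ847 Coalg847 SingAct265
open GLugx576 Concx150 CPowx150 Pairx877 AmChx150 TActx569 TCx569

/-! ## affine chains of the circle -/

/-- affine path from `a` to `b` -/
def seg (a b : ℝ) : ST.S 1 :=
  mkS (fun x => (((a * (x : Fin 2 → ℝ) 0 + b * (x : Fin 2 → ℝ) 1 : ℝ)) : UnitAddCircle)) (by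
    refine (AddCircle.continuous_mk' (1 : ℝ)).comp ?_
    exact ((continuous_const.mul ((continuous_apply (0 : Fin 2)).comp continuous_subtype_val)).add
      (continuous_const.mul ((continuous_apply (1 : Fin 2)).comp continuous_subtype_val))))

/-- affine triangle -/
def tri (a b c : ℝ) : ST.S 2 :=
  mkS (fun x => (((a * (x : Fin 3 → ℝ) 0 + b * (x : Fin 3 → ℝ) 1 + c * (x : Fin 3 → ℝ) 2 : ℝ)) :
      UnitAddCircle)) (by
    refine (AddCircle.continuous_mk' (1 : ℝ)).comp ?_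
    exact ((continuous_const.mul ((continuous_apply (0 : Fin 3)).comp continuous_subtype_val)).add
      (continuous_const.mul ((continuous_apply (1 : Fin 3)).comp continuous_subtype_val))).add
      (continuous_const.mul ((continuous_apply (2 : Fin 3)).comp continuous_subtype_val)))

/-- the chains -/
def Sg (a b : ℝ) : N F2 ST := N.sx F2 (seg a b)
def Tr (a b c : ℝ) : N F2 ST := N.sx F2 (tri a b c)
def V (a : ℝ) : N F2 ST := N.sx F2 (vx (a : UnitAddCircle))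

/-- coordinates of a face map -/
theorem coord_face {n : ℕ} (i : Fin (n + 2)) (x : stdSimplex ℝ (Fin (n + 1))) (j : Fin (n + 2)) :
    (stdSimplex.map (Op.face i) x : Fin (n + 2) → ℝ) j =
      ∑ a ∈ Finset.univ.filter (fun a => Op.face i a = j), (x : Fin (n + 1) → ℝ) a := by
  refine (congrFun (stdSimplex.map_coe (Op.face i) x) j).trans ?_
  rw [FunOnFinite.linearMap_apply_apply]

theorem coord_self {n : ℕ} (i : Fin (n + 2)) (x : stdSimplex ℝ (Fin (n + 1))) :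
    (stdSimplex.map (Op.face i) x : Fin (n + 2) → ℝ) i = 0 := by
  rw [coord_face, Finset.filter_false_of_mem (fun a _ => by
    intro h
    have := congrArg Fin.val h
    rw [Ch.face_val] at this
    split_ifs at this <;> omega)]
  rfl

theorem coord_ne {n : ℕ} (i : Fin (n + 2)) (x : stdSimplex ℝ (Fin (n + 1))) (a : Fin (n + 1)) :
    (stdSimplex.map (Op.face i) x : Fin (n + 2) → ℝ) (Op.face i a) = (x : Fin (n + 1) → ℝ) a := by
  rw [coord_face]
  have e : Finset.univ.filter (fun b => Op.face i b = Op.face i a) = {a} := by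
    ext b
    simp only [Finset.mem_filter, Finset.mem_univ, true_and, Finset.mem_singleton]
    constructor
    · intro h
      have := congrArg Fin.val h
      rw [Ch.face_val, Ch.face_val] at this
      refine Fin.ext ?_
      split_ifs at this <;> omega
    · rintro rfl; rfl
  rw [e, Finset.sum_singleton]

theorem f10 : (Op.face (0 : Fin 2) : Op 0 1) 0 = 1 := rfl
theorem f11 : (Op.face (1 : Fin 2) : Op 0 1) 0 = 0 := rfl

theorem one_coord (x : stdSimplex ℝ (Fin 1)) : (x : Fin 1 → ℝ) 0 = 1 := by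
  have := x.2.2
  simpa using this

theorem face0_seg (a b : ℝ) : ST.act (Op.face (0 : Fin 2)) (seg a b) = vx (b : UnitAddCircle) := by
  refine sing_ext fun x => ?_
  have h0 : (stdSimplex.map (Op.face (0 : Fin 2)) x : Fin 2 → ℝ) 0 = 0 := coord_self 0 x
  have h1 : (stdSimplex.map (Op.face (0 : Fin 2)) x : Fin 2 → ℝ) 1 = 1 :=
    (coord_ne (0 : Fin 2) x 0).trans (one_coord x)
  show ((((a * (stdSimplex.map (Op.face (0 : Fin 2)) x : Fin 2 → ℝ) 0 +
    b * (stdSimplex.map (Op.face (0 : Fin 2)) x : Fin 2 → ℝ) 1 : ℝ)) : UnitAddCircle)) = (b : UnitAddCircle)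
  rw [h0, h1]; ring_nf

theorem face1_seg (a b : ℝ) : ST.act (Op.face (1 : Fin 2)) (seg a b) = vx (a : UnitAddCircle) := by
  refine sing_ext fun x => ?_
  have h0 : (stdSimplex.map (Op.face (1 : Fin 2)) x : Fin 2 → ℝ) 1 = 0 := coord_self 1 x
  have h1 : (stdSimplex.map (Op.face (1 : Fin 2)) x : Fin 2 → ℝ) 0 = 1 :=
    (coord_ne (1 : Fin 2) x 0).trans (one_coord x)
  show ((((a * (stdSimplex.map (Op.face (1 : Fin 2)) x : Fin 2 → ℝ) 0 +
    b * (stdSimplex.map (Op.face (1 : Fin 2)) x : Fin 2 → ℝ) 1 : ℝ)) : UnitAddCircle)) = (a : UnitAddCircle)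
  rw [h0, h1]; ring_nf

theorem bd_Sg (a b : ℝ) : N.bd F2 ST (Sg a b) = V b + V a := by
  unfold Sg V
  rw [bd_sx_succ, Fin.sum_univ_two, face0_seg, face1_seg]
  have h : (-1 : F2) = 1 := rfl
  simp [h]

theorem face0_tri (a b c : ℝ) : ST.act (Op.face (0 : Fin 3)) (tri a b c) = seg b c := by
  refine sing_ext fun x => ?_
  have h0 : (stdSimplex.map (Op.face (0 : Fin 3)) x : Fin 3 → ℝ) 0 = 0 := coord_self 0 x
  have h1 : (stdSimplex.map (Op.face (0 : Fin 3)) x : Fin 3 → ℝ) 1 = (x : Fin 2 → ℝ) 0 :=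
    coord_ne (0 : Fin 3) x 0
  have h2 : (stdSimplex.map (Op.face (0 : Fin 3)) x : Fin 3 → ℝ) 2 = (x : Fin 2 → ℝ) 1 :=
    coord_ne (0 : Fin 3) x 1
  show ((((a * (stdSimplex.map (Op.face (0 : Fin 3)) x : Fin 3 → ℝ) 0 +
    b * (stdSimplex.map (Op.face (0 : Fin 3)) x : Fin 3 → ℝ) 1 +
    c * (stdSimplex.map (Op.face (0 : Fin 3)) x : Fin 3 → ℝ) 2 : ℝ)) : UnitAddCircle)) =
    (((b * (x : Fin 2 → ℝ) 0 + c * (x : Fin 2 → ℝ) 1 : ℝ)) : UnitAddCircle)
  rw [h0, h1, h2]; ring_nf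

theorem face1_tri (a b c : ℝ) : ST.act (Op.face (1 : Fin 3)) (tri a b c) = seg a c := by
  refine sing_ext fun x => ?_
  have h0 : (stdSimplex.map (Op.face (1 : Fin 3)) x : Fin 3 → ℝ) 1 = 0 := coord_self 1 x
  have h1 : (stdSimplex.map (Op.face (1 : Fin 3)) x : Fin 3 → ℝ) 0 = (x : Fin 2 → ℝ) 0 :=
    coord_ne (1 : Fin 3) x 0
  have h2 : (stdSimplex.map (Op.face (1 : Fin 3)) x : Fin 3 → ℝ) 2 = (x : Fin 2 → ℝ) 1 :=
    coord_ne (1 : Fin 3) x 1
  show ((((a * (stdSimplex.map (Op.face (1 : Fin 3)) x : Fin 3 → ℝ) 0 +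
    b * (stdSimplex.map (Op.face (1 : Fin 3)) x : Fin 3 → ℝ) 1 +
    c * (stdSimplex.map (Op.face (1 : Fin 3)) x : Fin 3 → ℝ) 2 : ℝ)) : UnitAddCircle)) =
    (((a * (x : Fin 2 → ℝ) 0 + c * (x : Fin 2 → ℝ) 1 : ℝ)) : UnitAddCircle)
  rw [h0, h1, h2]; ring_nf

theorem face2_tri (a b c : ℝ) : ST.act (Op.face (2 : Fin 3)) (tri a b c) = seg a b := by
  refine sing_ext fun x => ?_
  have h0 : (stdSimplex.map (Op.face (2 : Fin 3)) x : Fin 3 → ℝ) 2 = 0 := coord_self 2 x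
  have h1 : (stdSimplex.map (Op.face (2 : Fin 3)) x : Fin 3 → ℝ) 0 = (x : Fin 2 → ℝ) 0 :=
    coord_ne (2 : Fin 3) x 0
  have h2 : (stdSimplex.map (Op.face (2 : Fin 3)) x : Fin 3 → ℝ) 1 = (x : Fin 2 → ℝ) 1 :=
    coord_ne (2 : Fin 3) x 1
  show ((((a * (stdSimplex.map (Op.face (2 : Fin 3)) x : Fin 3 → ℝ) 0 +
    b * (stdSimplex.map (Op.face (2 : Fin 3)) x : Fin 3 → ℝ) 1 +
    c * (stdSimplex.map (Op.face (2 : Fin 3)) x : Fin 3 → ℝ) 2 : ℝ)) : UnitAddCircle)) =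
    (((a * (x : Fin 2 → ℝ) 0 + b * (x : Fin 2 → ℝ) 1 : ℝ)) : UnitAddCircle)
  rw [h0, h1, h2]; ring_nf

theorem bd_Tr (a b c : ℝ) : N.bd F2 ST (Tr a b c) = Sg b c + Sg a c + Sg a b := by
  unfold Tr Sg
  rw [bd_sx_succ, Fin.sum_univ_three, face0_tri, face1_tri, face2_tri]
  have h : (-1 : F2) = 1 := rfl
  simp [h]

theorem half_eq : half = Sg 0 (1 / 2) := by
  unfold half Sg
  congr 1
  refine sing_ext fun x => ?_
  show (((x : Fin 2 → ℝ) 1 / 2 : ℝ) : UnitAddCircle) =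
    (((0 * (x : Fin 2 → ℝ) 0 + 1 / 2 * (x : Fin 2 → ℝ) 1 : ℝ)) : UnitAddCircle)
  congr 1; ring

/-- translation of a path -/
theorem pont_V_Sg (v a b : ℝ) : pont (V v) (Sg a b) = Sg (v + a) (v + b) := by
  unfold V Sg
  rw [pont_apply, cross_vertex_left, map_map, N.map_sx]
  congr 1
  refine sing_ext fun x => ?_
  show (v : UnitAddCircle) + (((a * (x : Fin 2 → ℝ) 0 + b * (x : Fin 2 → ℝ) 1 : ℝ)) : UnitAddCircle) =
    ((((v + a) * (x : Fin 2 → ℝ) 0 + (v + b) * (x : Fin 2 → ℝ) 1 : ℝ)) : UnitAddCircle)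
  rw [← AddCircle.coe_add]
  congr 1
  have h : (x : Fin 2 → ℝ) 0 + (x : Fin 2 → ℝ) 1 = 1 := by
    have := x.2.2
    rwa [Fin.sum_univ_two] at this
  linear_combination (-v) * h

theorem Sg_mem_gr (a b : ℝ) : Sg a b ∈ N.gr F2 ST 1 := TAct.sx_mem_gr (L := ST) (seg a b)
theorem Tr_mem_gr (a b c : ℝ) : Tr a b c ∈ N.gr F2 ST 2 := TAct.sx_mem_gr (L := ST) (tri a b c)

/-! ## actions -/

section act

variable {K : SS} (A : TAct K)

theorem op_V_Sg (v a b : ℝ) (y : N F2 K) :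
    A.op (Sg (v + a) (v + b)) y = A.op (Sg a b) (A.op (V v) y) := by
  rw [← pont_V_Sg, ← A.op_op, A.op_comm]

theorem gN_eq_V (y : N F2 K) : A.gN y = A.op (V (1 / 2)) y := A.gN_eq y

/-- `v = [0, 1/m] . y` -/
def vv (m : ℕ) (y : N F2 K) : N F2 K := A.op (Sg 0 (1 / m)) y

theorem vv_mem_gr (m : ℕ) {n : ℕ} {y : N F2 K} (hy : y ∈ N.gr F2 K n) :
    vv A m y ∈ N.gr F2 K (n + 1) := by
  rw [add_comm n 1]
  exact A.op_mem_gr (Sg_mem_gr _ _) hy

variable {A} {m : ℕ} {y : N F2 K}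

theorem op_V_mul (hr : A.op (V (1 / m)) y = y) : ∀ k : ℕ, A.op (V (k / m)) y = y := by
  intro k
  induction k with
  | zero =>
    unfold V
    rw [Nat.cast_zero, zero_div, AddCircle.coe_zero, A.op_vx, A.rot_zero, map_idHom]
  | succ k ih =>
    have e : pont (V (k / m)) (V (1 / m)) = V ((k + 1 : ℕ) / m) := by
      unfold V
      rw [pont_apply, cross_vertex_left, map_map, N.map_sx]
      congr 1
      refine sing_ext fun x => ?_
      show ((k / m : ℝ) : UnitAddCircle) + ((1 / m : ℝ) : UnitAddCircle) =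
        (((k + 1 : ℕ) / m : ℝ) : UnitAddCircle)
      rw [← AddCircle.coe_add]
      congr 1
      push_cast; ring
    rw [← e, ← A.op_op, hr, ih]

theorem bd_vv (hr : A.op (V (1 / m)) y = y) (hy : N.bd F2 K y = 0) : N.bd F2 K (vv A m y) = 0 := by
  unfold vv
  rw [A.bd_op, bd_Sg, hy, map_zero, add_zero, map_add, LinearMap.add_apply, hr]
  have h0 : A.op (V 0) y = y := by
    unfold V
    rw [AddCircle.coe_zero, A.op_vx, A.rot_zero, map_idHom]
  rw [h0]
  exact TCx569.TC.add_self _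

theorem gN_fix (hr : A.op (V (1 / m)) y = y) (hm : Even m) (h0 : m ≠ 0) : A.gN y = y := by
  obtain ⟨l, hl⟩ := hm
  have e := op_V_mul hr l
  have h1 : ((l : ℝ) / m) = 1 / 2 := by
    have hl0 : (l : ℝ) ≠ 0 := by
      have : l ≠ 0 := by omega
      exact_mod_cast this
    rw [hl]; push_cast; field_simp; ring
  rw [h1] at e
  rw [gN_eq_V, e]

theorem gN_vv (hr : A.op (V (1 / m)) y = y) (hm : Even m) (h0 : m ≠ 0) :
    A.gN (vv A m y) = vv A m y := by
  unfold vv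
  rw [gN_eq_V, A.op_comm, ← gN_eq_V, gN_fix hr hm h0]

/-- `[0, k/m] . y + k • v` is a boundary -/
theorem exists_bd (hr : A.op (V (1 / m)) y = y) (hy : N.bd F2 K y = 0) (k : ℕ) :
    ∃ c ∈ N.gr F2 ST 2, A.op (Sg 0 (k / m)) y + k • vv A m y = N.bd F2 K (A.op c y) := by
  have hbd : ∀ c : N F2 ST, N.bd F2 K (A.op c y) = A.op (N.bd F2 ST c) y := by
    intro c
    rw [A.bd_op, hy, map_zero, add_zero]
  induction k with
  | zero =>
    refine ⟨Tr 0 0 0, Tr_mem_gr _ _ _, ?_⟩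
    rw [hbd, bd_Tr, Nat.cast_zero, zero_div, zero_smul, add_zero]
    rw [map_add, map_add, LinearMap.add_apply, LinearMap.add_apply, TCx569.TC.add_self, zero_add]
  | succ k ih =>
    obtain ⟨c, hc, h⟩ := ih
    refine ⟨c + Tr 0 (k / m) ((k + 1 : ℕ) / m), add_mem hc (Tr_mem_gr _ _ _), ?_⟩
    rw [hbd, map_add, bd_Tr]
    have e1 : A.op (Sg (k / m) ((k + 1 : ℕ) / m)) y = vv A m y := by
      have e : Sg (k / m) ((k + 1 : ℕ) / m) = Sg ((k : ℝ) / m + 0) ((k : ℝ) / m + 1 / m) := by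
        congr 1
        · ring
        · push_cast; ring
      rw [e, op_V_Sg, op_V_mul hr k]; rfl
    rw [map_add, LinearMap.add_apply, ← hbd, ← h, map_add, map_add, LinearMap.add_apply,
      LinearMap.add_apply, e1, succ_nsmul]
    have h2 := TCx569.TC.add_self (A.op (Sg 0 (k / m)) y)
    have e3 : A.op (Sg 0 (k / m)) y + k • vv A m y +
        (vv A m y + A.op (Sg 0 ((k + 1 : ℕ) / m)) y + A.op (Sg 0 (k / m)) y) =
        (A.op (Sg 0 (k / m)) y + A.op (Sg 0 (k / m)) y) +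
        (A.op (Sg 0 ((k + 1 : ℕ) / m)) y + (k • vv A m y + vv A m y)) := by abel
    rw [e3, h2, zero_add]

theorem odd_smul {W : Type*} [AddCommGroup W] [Module F2 W] {k : ℕ} (hk : Odd k) (w : W) :
    k • w = w := by
  obtain ⟨l, rfl⟩ := hk
  rw [add_smul, one_smul, two_mul, add_smul]
  have : l • w + l • w = 0 := TCx569.TC.add_self _
  rw [this, zero_add]

/-- **`Δ y + v` is a boundary for `m` odd** -/
theorem del_add_vv (hr : A.op (V (1 / m)) y = y) (hy : N.bd F2 K y = 0) (hm : Odd m) :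
    ∃ c ∈ N.gr F2 ST 2, A.hN y + A.gN (A.hN y) + vv A m y = N.bd F2 K (A.op c y) := by
  obtain ⟨c, hc, h⟩ := exists_bd hr hy m
  have hm0 : (m : ℝ) ≠ 0 := by
    have : m ≠ 0 := by rintro rfl; simp at hm
    exact_mod_cast this
  rw [odd_smul hm, div_self hm0] at h
  have hbd : ∀ c : N F2 ST, N.bd F2 K (A.op c y) = A.op (N.bd F2 ST c) y := by
    intro c
    rw [A.bd_op, hy, map_zero, add_zero]
  refine ⟨c + Tr 0 (1 / 2) 1, add_mem hc (Tr_mem_gr _ _ _), ?_⟩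
  have e1 : A.gN (A.hN y) = A.op (Sg (1 / 2) 1) y := by
    have e : Sg (1 / 2) 1 = Sg (1 / 2 + 0) (1 / 2 + 1 / 2) := by
      congr 1 <;> norm_num
    rw [e, op_V_Sg, gN_eq_V]
    unfold TAct.hN
    rw [half_eq, A.op_comm]
  have e2 : A.hN y = A.op (Sg 0 (1 / 2)) y := by
    unfold TAct.hN
    rw [half_eq]
  rw [hbd, map_add, map_add, LinearMap.add_apply, ← hbd, ← h, bd_Tr, e1, e2, map_add, map_add,
    LinearMap.add_apply, LinearMap.add_apply]
  have h2 := TCx569.TC.add_self (A.op (Sg 0 1) y)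
  have e3 : A.op (Sg 0 1) y + vv A m y + (A.op (Sg (1 / 2) 1) y + A.op (Sg 0 1) y +
      A.op (Sg 0 (1 / 2)) y) = (A.op (Sg 0 1) y + A.op (Sg 0 1) y) +
      (A.op (Sg 0 (1 / 2)) y + A.op (Sg (1 / 2) 1) y + vv A m y) := by abel
  rw [e3, h2, zero_add]

end act

/-! ## loops -/

section loops

variable {M : Type} [MetricSpace M] {p : M} (m : ℕ) [NeZero m]

theorem op_V_eq_rotN (a : ℝ) (z : CE (Lp M)) :
    (LA M).op (V a) z = rotN M (a : UnitAddCircle) z := by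
  unfold V
  rw [TAct.op_vx]
  unfold rotN
  congr 1

/-- `v_m(x)` -/
def vm (x : CO p) : CE (Lp M) := vv (LA M) m (Am m x)

theorem op_V_Am (x : CO p) : (LA M).op (V (1 / m)) (Am m x) = Am m x := by
  rw [op_V_eq_rotN, rot_Am]

theorem bd_vm {x : CO p} (hx : N.bd F2 _ x = 0) : bdE _ (vm m x) = 0 :=
  bd_vv (op_V_Am m x) (bd_Am m hx)

theorem gN_Am (x : CO p) (hm : Even m) : (LA M).gN (Am m x) = Am m x :=
  gN_fix (op_V_Am m x) hm (NeZero.ne m)

theorem gN_vm (x : CO p) (hm : Even m) : (LA M).gN (vm m x) = vm m x :=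
  gN_vv (op_V_Am m x) hm (NeZero.ne m)

theorem vm_mem_gr {d : ℕ} {x : CO p} (hx : x ∈ N.gr F2 _ d) : vm m x ∈ N.gr F2 _ (m * d + 1) :=
  vv_mem_gr _ m (Am_mem_gr m hx)

theorem vm_mem_CS {t : ℝ} {x : CO p} (hx : x ∈ CS (OmX p t)) : vm m x ∈ CS (X M (m * t)) :=
  Instx895.op_mem_CS (Instx895.rotInv_X _) _ _ (Am_mem_CS m hx)

/-- **`Δ A_m(x) + v_m(x)` is a boundary for `m` odd**, at the same level -/
theorem del_Am {t : ℝ} {x : CO p} (hx : N.bd F2 _ x = 0) (ht : x ∈ CS (OmX p t)) {d : ℕ}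
    (hd : x ∈ N.gr F2 _ d) (hm : Odd m) :
    ∃ w ∈ CS (X M (m * t)), w ∈ N.gr F2 _ (m * d + 2) ∧
      Instx895.DelN M (Am m x) + vm m x = bdE _ w := by
  obtain ⟨c, hc, h⟩ := del_add_vv (op_V_Am m x) (bd_Am m hx) hm
  refine ⟨(LA M).op c (Am m x), ?_, ?_, h⟩
  · exact Instx895.op_mem_CS (Instx895.rotInv_X _) _ _ (Am_mem_CS m ht)
  · rw [add_comm (m * d) 2]
    exact (LA M).op_mem_gr hc (Am_mem_gr m hd)

end loops

end Crest.Agent.R231.TFillx150
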