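import Crest.Agent.R231.TOut_482
import Crest.Agent.R231.TFill_150
import Crest.Agent.R231.InstC_895

/-!
# Row 231, block T (helper482): the operator `kap` with `τΔ + Δτ = d kap + kap d`

* `aff a` : affine simplex of the circle with vertices `a i`; `act_aff`, `negH_aff`, `aff_add_one`
* `del` : the fundamental chain, `DelN_eq : DelN M z = (LA M).op del z`
* `khat` : `bd_khat : bd khat = del + (-1)_* del`; `rhoh` : `bd_rhoh : bd rhoh = khat + (-1)_* khat`
* `kapOps : KapOps M`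
-/

set_option autoImplicit false
set_option linter.unusedSectionVars false

noncomputable section

namespace Crest.Agent.R231.KapOpsx482

open Crest.Agent.R204 EZ271 EZ847 Coalg847 SingAct265
open GLugx576 Concx150 CPowx150 Pairx877 AmChx150 TActx569 TCx569 TFillx150 TOutx482 IfAx978
  Instx895

/-! ## affine simplices -/

/-- affine simplex of the circle -/
def aff {n : ℕ} (a : Fin (n + 1) → ℝ) : ST.S n :=
  mkS (fun x => ((∑ i, a i * (x : Fin (n + 1) → ℝ) i : ℝ) : UnitAddCircle)) (by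
    refine (AddCircle.continuous_mk' (1 : ℝ)).comp ?_
    exact continuous_finsetSum _ fun i _ =>
      continuous_const.mul ((continuous_apply i).comp continuous_subtype_val))

theorem act_aff {m n : ℕ} (f : Op m n) (a : Fin (n + 1) → ℝ) :
    ST.act f (aff a) = aff (fun i => a (f i)) := by
  refine sing_ext fun x => ?_
  show (((∑ i, a i * (stdSimplex.map f x : Fin (n + 1) → ℝ) i : ℝ)) : UnitAddCircle) =
    ((∑ i, a (f i) * (x : Fin (m + 1) → ℝ) i : ℝ) : UnitAddCircle)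
  congr 1
  have h : ∀ i, (stdSimplex.map f x : Fin (n + 1) → ℝ) i =
      ∑ j ∈ Finset.univ.filter (fun j => f j = i), (x : Fin (m + 1) → ℝ) j := by
    intro i
    refine (congrFun (stdSimplex.map_coe f x) i).trans ?_
    rw [FunOnFinite.linearMap_apply_apply]
  rw [← Finset.sum_fiberwise (Finset.univ : Finset (Fin (m + 1))) (fun j => f j)]
  refine Finset.sum_congr rfl fun i _ => ?_
  rw [h i, Finset.mul_sum]
  refine Finset.sum_congr rfl fun j hj => ?_
  rw [(Finset.mem_filter.1 hj).2]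

theorem negH_aff {n : ℕ} (a : Fin (n + 1) → ℝ) : negH.app n (aff a) = aff (fun i => - a i) := by
  refine sing_ext fun x => ?_
  show - ((∑ i, a i * (x : Fin (n + 1) → ℝ) i : ℝ) : UnitAddCircle) =
    ((∑ i, - a i * (x : Fin (n + 1) → ℝ) i : ℝ) : UnitAddCircle)
  rw [← AddCircle.coe_neg]
  congr 1
  simp

theorem aff_add_one {n : ℕ} (a : Fin (n + 1) → ℝ) : aff (fun i => a i + 1) = aff a := by
  refine sing_ext fun x => ?_
  show ((∑ i, (a i + 1) * (x : Fin (n + 1) → ℝ) i : ℝ) : UnitAddCircle) =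
    ((∑ i, a i * (x : Fin (n + 1) → ℝ) i : ℝ) : UnitAddCircle)
  have e : ∑ i, (a i + 1) * (x : Fin (n + 1) → ℝ) i =
      ∑ i, a i * (x : Fin (n + 1) → ℝ) i + 1 := by
    have h1 : ∑ i, (x : Fin (n + 1) → ℝ) i = 1 := x.2.2
    calc ∑ i, (a i + 1) * (x : Fin (n + 1) → ℝ) i =
        ∑ i, (a i * (x : Fin (n + 1) → ℝ) i + (x : Fin (n + 1) → ℝ) i) :=
          Finset.sum_congr rfl fun i _ => by ring
      _ = _ := by rw [Finset.sum_add_distrib, h1]
  rw [e, AddCircle.coe_add]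
  have h1 : ((1 : ℝ) : UnitAddCircle) = 0 := AddCircle.coe_period 1
  rw [h1, add_zero]

/-- the chain -/
def Af {n : ℕ} (a : Fin (n + 1) → ℝ) : N F2 ST := N.sx F2 (aff a)

theorem Af_dgn {n : ℕ} (a : Fin (n + 2) → ℝ) (j : Fin (n + 1)) (h : a j.castSucc = a j.succ) :
    Af a = 0 := by
  have e : a = fun i => a ((Op.face j.succ) ((Op.dgn j) i)) := by
    funext i
    rcases eq_or_ne i j.succ with rfl | hi
    · have e2 : Op.face j.succ (Op.dgn j j.succ) = j.castSucc := by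
        refine Fin.ext ?_
        rw [Ch.face_val, Ch.dgn_val, Fin.val_succ, Fin.val_castSucc]
        split_ifs <;> omega
      rw [e2, h]
    · congr 1
      have hi' : (i : ℕ) ≠ (j : ℕ) + 1 := fun h => hi (Fin.ext (by simpa using h))
      refine Fin.ext ?_
      rw [Ch.face_val, Ch.dgn_val, Fin.val_succ]
      split_ifs <;> omega
  unfold Af
  rw [e, ← act_aff (Op.dgn j) (fun i => a (Op.face j.succ i)), N.sx_dgn]

theorem Af_mem_gr {n : ℕ} (a : Fin (n + 1) → ℝ) : Af a ∈ N.gr F2 ST n :=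
  TAct.sx_mem_gr (L := ST) (aff a)

theorem neg_Af {n : ℕ} (a : Fin (n + 1) → ℝ) : N.map F2 negH (Af a) = Af (fun i => - a i) := by
  unfold Af
  rw [N.map_sx, negH_aff]

theorem Af_shift {n : ℕ} (a b : Fin (n + 1) → ℝ) (h : ∀ i, b i = a i + 1) : Af b = Af a := by
  have e : b = fun i => a i + 1 := funext h
  unfold Af
  rw [e, aff_add_one]

theorem bd_Af {n : ℕ} (a : Fin (n + 2) → ℝ) :
    N.bd F2 ST (Af a) = ∑ i : Fin (n + 2), Af (fun j => a (Op.face i j)) := by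
  unfold Af
  rw [bd_sx_succ]
  refine Finset.sum_congr rfl fun i _ => ?_
  rw [act_aff]
  have h : (-1 : F2) = 1 := rfl
  rw [h, one_pow, one_smul]

theorem bd_Af1 (a b : ℝ) : N.bd F2 ST (Af ![a, b]) = Af ![b] + Af ![a] := by
  rw [bd_Af, Fin.sum_univ_two]
  congr 2 <;>
  · funext j
    fin_cases j
    rfl

theorem bd_Af2 (a b c : ℝ) :
    N.bd F2 ST (Af ![a, b, c]) = Af ![b, c] + Af ![a, c] + Af ![a, b] := by
  rw [bd_Af, Fin.sum_univ_three]
  congr 3 <;> (funext j; fin_cases j <;> rfl)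

theorem bd_Af3 (a b c d : ℝ) : N.bd F2 ST (Af ![a, b, c, d]) =
    Af ![b, c, d] + Af ![a, c, d] + Af ![a, b, d] + Af ![a, b, c] := by
  rw [bd_Af, Fin.sum_univ_four]
  congr 4 <;> (funext j; fin_cases j <;> rfl)

theorem bd_tri (a b : ℝ) : N.bd F2 ST (Af ![a, b, a]) = Af ![b, a] + Af ![a, b] := by
  rw [bd_Af2, Af_dgn ![a, a] 0 rfl, add_zero]

theorem bd_tet (a b : ℝ) : N.bd F2 ST (Af ![a, b, a, b]) = Af ![b, a, b] + Af ![a, b, a] := by
  rw [bd_Af3, Af_dgn ![a, a, b] 0 rfl, Af_dgn ![a, b, b] 1 rfl, add_zero, add_zero]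

theorem neg_Af1 (a b : ℝ) : N.map F2 negH (Af ![a, b]) = Af ![-a, -b] := by
  rw [neg_Af]
  congr 1
  funext j; fin_cases j <;> rfl

theorem neg_Af2 (a b c : ℝ) : N.map F2 negH (Af ![a, b, c]) = Af ![-a, -b, -c] := by
  rw [neg_Af]
  congr 1
  funext j; fin_cases j <;> rfl

/-! ## the chains `del`, `khat`, `rhoh` -/

/-- fundamental chain -/
def del : N F2 ST := Af ![0, 1 / 2] + Af ![1 / 2, 1]
/-- the `2`-chain with boundary `del + (-1)_* del` -/
def khat : N F2 ST := Af ![0, 1 / 2, 0] + Af ![1 / 2, 1, 1 / 2]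
/-- the `3`-chain with boundary `khat + (-1)_* khat` -/
def rhoh : N F2 ST := Af ![0, 1 / 2, 0, 1 / 2] + Af ![1 / 2, 1, 1 / 2, 1]

theorem khat_mem_gr : khat ∈ N.gr F2 ST 2 := add_mem (Af_mem_gr _) (Af_mem_gr _)
theorem rhoh_mem_gr : rhoh ∈ N.gr F2 ST 3 := add_mem (Af_mem_gr _) (Af_mem_gr _)

theorem neg_del : N.map F2 negH del = Af ![1, 1 / 2] + Af ![1 / 2, 0] := by
  unfold del
  rw [map_add, neg_Af1, neg_Af1]
  rw [Af_shift ![-0, -(1 / 2)] ![1, 1 / 2] (by intro i; fin_cases i <;> norm_num),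
    Af_shift ![-(1 / 2), -1] ![1 / 2, 0] (by intro i; fin_cases i <;> norm_num)]

theorem neg_khat : N.map F2 negH khat = Af ![1, 1 / 2, 1] + Af ![1 / 2, 0, 1 / 2] := by
  unfold khat
  rw [map_add, neg_Af2, neg_Af2]
  rw [Af_shift ![-0, -(1 / 2), -0] ![1, 1 / 2, 1] (by intro i; fin_cases i <;> norm_num),
    Af_shift ![-(1 / 2), -1, -(1 / 2)] ![1 / 2, 0, 1 / 2] (by intro i; fin_cases i <;> norm_num)]

theorem bd_khat : N.bd F2 ST khat = del + N.map F2 negH del := by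
  rw [neg_del]
  unfold khat del
  rw [map_add, bd_tri, bd_tri]
  abel

theorem bd_rhoh : N.bd F2 ST rhoh = khat + N.map F2 negH khat := by
  rw [neg_khat]
  unfold rhoh khat
  rw [map_add, bd_tet, bd_tet]
  abel

/-! ## operators on loops -/

variable {M : Type} [MetricSpace M]

theorem Sg_eq (a b : ℝ) : Sg a b = Af ![a, b] := by
  unfold Sg Af
  congr 1
  refine sing_ext fun x => ?_
  show (((a * (x : Fin 2 → ℝ) 0 + b * (x : Fin 2 → ℝ) 1 : ℝ)) : UnitAddCircle) =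
    ((∑ i, (![a, b] : Fin 2 → ℝ) i * (x : Fin 2 → ℝ) i : ℝ) : UnitAddCircle)
  rw [Fin.sum_univ_two]; rfl

theorem DelN_eq (z : CE (Lp M)) : DelN M z = (LA M).op del z := by
  have e1 : (LA M).gN ((LA M).hN z) = (LA M).op (Sg (1 / 2) 1) z := by
    have e : Sg (1 / 2) 1 = Sg (1 / 2 + 0) (1 / 2 + 1 / 2) := by
      congr 1 <;> norm_num
    rw [e, op_V_Sg, gN_eq_V]
    unfold TAct.hN
    rw [half_eq, (LA M).op_comm]
  have e2 : (LA M).hN z = (LA M).op (Sg 0 (1 / 2)) z := by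
    unfold TAct.hN
    rw [half_eq]
  rw [DelN_apply, e1, e2, Sg_eq, Sg_eq]
  unfold del
  rw [map_add, LinearMap.add_apply]

theorem tauN_eq' : tauN M = revN M := rfl

theorem op_tauN (c : N F2 ST) (z : CE (Lp M)) :
    (LA M).op c (tauN M z) = tauN M ((LA M).op (N.map F2 negH c) z) := op_revN M c z

/-- the operator `kap` on all chains -/
def kapN (M : Type) [MetricSpace M] : CE (Lp M) →ₗ[F2] CE (Lp M) := tauN M ∘ₗ (LA M).op khat

theorem kapN_apply (z : CE (Lp M)) : kapN M z = tauN M ((LA M).op khat z) := rfl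

theorem tauDelN (z : CE (Lp M)) : tauN M (DelN M z) + DelN M (tauN M z) =
    bdE (Lp M) (kapN M z) + kapN M (bdE (Lp M) z) := by
  rw [kapN_apply, kapN_apply, bd_tauN]
  have h : bdE (Lp M) ((LA M).op khat z) =
      (LA M).op (N.bd F2 ST khat) z + (LA M).op khat (bdE (Lp M) z) := (LA M).bd_op khat z
  rw [h, bd_khat, DelN_eq, DelN_eq, op_tauN, map_add (tauN M), map_add ((LA M).op),
    LinearMap.add_apply, map_add (tauN M), add_assoc _ (tauN M _) (tauN M _), add_self, add_zero]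

theorem kapN_cyc (z : CE (Lp M)) : tauN M (kapN M z) + kapN M (tauN M z) =
    bdE (Lp M) ((LA M).op rhoh z) + (LA M).op rhoh (bdE (Lp M) z) := by
  rw [kapN_apply, kapN_apply, tauN_tauN, op_tauN, tauN_tauN]
  have h : bdE (Lp M) ((LA M).op rhoh z) =
      (LA M).op (N.bd F2 ST rhoh) z + (LA M).op rhoh (bdE (Lp M) z) := (LA M).bd_op rhoh z
  rw [h, bd_rhoh, map_add, LinearMap.add_apply, add_assoc _ ((LA M).op rhoh _) _, add_self,
    add_zero]

theorem op_mem_WL (c : N F2 ST) {z : CE (Lp M)} (hz : z ∈ WL M) : (LA M).op c z ∈ WL M := by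
  obtain ⟨t, ht⟩ := mem_CL.1 hz
  exact CS_le_CL t (op_mem_CS (rotInv_X t) c z ht)

theorem kapN_mem_X {t : ℝ} {z : CE (Lp M)} (hz : z ∈ CS (X M t)) : kapN M z ∈ CS (X M t) :=
  tauN_mem_X (op_mem_CS (rotInv_X t) khat z hz)

theorem kapN_mem_CL {z : CE (Lp M)} (hz : z ∈ WL M) : kapN M z ∈ WL M :=
  tauN_mem_CL (op_mem_WL khat hz)

theorem kapN_mem_gr {n : ℕ} {z : CE (Lp M)} (hz : z ∈ N.gr F2 (SS.Sing (Lp M)) n) :
    kapN M z ∈ N.gr F2 (SS.Sing (Lp M)) (n + 2) := by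
  refine Exc406.map_mem_gr _ ?_
  rw [add_comm n 2]
  exact (LA M).op_mem_gr khat_mem_gr hz

/-- `kap` -/
def kapC (M : Type) [MetricSpace M] (j : ℕ) : (mix M).C j →ₗ[ZMod 2] (mix M).C (j + 2) :=
  opC (kapN M) fun _ hx => ⟨kapN_mem_gr hx.1, kapN_mem_CL hx.2⟩

@[simp] theorem vl_kap (j : ℕ) (x : (mix M).C j) : vl (j + 2) (kapC M j x) = kapN M (vl j x) := rfl

/-- **the operator `kap` of block T** -/
def kapOps (M : Type) [MetricSpace M] : KapOps M where
  kap := kapC M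
  B_kap _ _ hx := kapN_mem_X hx
  tauDe j x := vl_inj (j + 2) (tauDelN (vl (j + 1) x))
  kap_cyc j z hz := by
    rw [mem_Bd_top']
    have hz' : bdE (Lp M) (vl (j + 1) z) ∈ CS (X M 0) := hz.2
    have e : vl (j + 3) (tauC M (j + 3) (kapC M (j + 1) z) + kapC M (j + 1) (tauC M (j + 1) z)) =
        tauN M (kapN M (vl (j + 1) z)) + kapN M (tauN M (vl (j + 1) z)) := rfl
    rw [e, kapN_cyc]
    exact Submodule.add_mem _
      (Submodule.mem_sup_right ⟨_, op_mem_WL rhoh (vl_mem_CL z), rfl⟩)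
      (Submodule.mem_sup_left (op_mem_CS (rotInv_X 0) rhoh _ hz'))

end Crest.Agent.R231.KapOpsx482
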