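import Crest.Agent.R231.SDex_737
import Crest.Agent.R231.CritPM_893
import Crest.Agent.R231.GPush_576

/-!
# Row 231, block R (helper737): `SDFam M` and the field `A4`

`M` a compact metric space with short geodesics `L : LUG M` (`LocMin`), non branching, whose closed
geodesics are the iterates of a finite prime system: `sdFam : SDFam M`, `A4P_of_prime : A4P M`.
-/

set_option autoImplicit false
set_option linter.unusedSectionVars false

noncomputable section

open Function Topology Set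

namespace Crest.Agent.R231.SDexx737

open GLugx576 PrimeGeox893 CritPMx893 Instx895
open GCrossx449 (Push)
open GSmithx651 (hf)
open A4Ofx125 (YY SDFam)

variable {M : Type} [MetricSpace M]

/-! ## iteration -/

theorem itr_one (γ : Lp M) : itr 1 γ = γ := by ext x; simp

theorem itr_dbl (m : ℕ) (γ : Lp M) : itr (2 ^ m) (dbl γ) = itr (2 ^ (m + 1)) γ := by
  ext x
  simp only [itr_apply]
  rw [smul_smul]
  congr 2
  rw [pow_succ]
  ring

theorem rev_itr (m : ℕ) (γ : Lp M) : itr m (rev γ) = rev (itr m γ) := by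
  ext x
  simp only [itr_apply, rev_apply, smul_neg]

/-- a rotation of `γ` rotates the iterates -/
theorem itr_rot {m : ℕ} (hm : 0 < m) (a : UnitAddCircle) (γ : Lp M) :
    ∃ b : UnitAddCircle, itr m (rot a γ) = rot b (itr m γ) := by
  obtain ⟨u, -, rfl⟩ := exists_Icc a
  refine ⟨((u / m : ℝ) : UnitAddCircle), ?_⟩
  ext x
  simp only [itr_apply, rot_apply, smul_add]
  have h : (m • ((u / m : ℝ) : UnitAddCircle)) = (u : UnitAddCircle) := by
    rw [← AddCircle.coe_nsmul, nsmul_eq_mul]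
    congr 1
    have : (m : ℝ) ≠ 0 := by exact_mod_cast hm.ne'
    field_simp
  rw [h]

theorem rotInv_preimage {m : ℕ} (hm : 0 < m) {V : Set (Lp M)} (hV : RotInv V) :
    RotInv ((itr m : Lp M → Lp M) ⁻¹' V) := by
  intro a γ hγ
  obtain ⟨b, hb⟩ := itr_rot hm a γ
  change itr m (rot a γ) ∈ V
  rw [hb]
  exact hV b _ hγ

/-! ## finite sets -/

theorem exists_pos_le {F : Set ℝ} (hF : F.Finite) (f : ℝ → ℝ) (hf : ∀ s ∈ F, 0 < f s) :
    ∃ ε : ℝ, 0 < ε ∧ ε ≤ 1 ∧ ∀ s ∈ F, ε ≤ f s := by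
  induction F, hF using Set.Finite.induction_on with
  | empty => exact ⟨1, one_pos, le_rfl, fun s hs => hs.elim⟩
  | insert ha hS ih =>
    rename_i a F
    obtain ⟨ε, h1, h2, h3⟩ := ih fun s hs => hf s (mem_insert_of_mem _ hs)
    refine ⟨min ε (f a), lt_min h1 (hf a (mem_insert _ _)), (min_le_left _ _).trans h2, ?_⟩
    rintro s (rfl | hs)
    · exact min_le_right _ _
    · exact (min_le_left _ _).trans (h3 s hs)

/-! ## the family -/

section family

variable [CompactSpace M] (L : LUG M) (hL : L.LocMin) (nb : NonBr M L.r0) {ι : Type} [Finite ι]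
  (S : PrimeSys M L.r0 ι)

/-- the neighbourhoods `V s e`, from `V₁ s e` -/
def VV (T : ℝ) (V₁ : ℝ → Bool → Set (Lp M)) (s : ℝ) (e : Bool) : Set (Lp M) :=
  {γ | ∀ m : ℕ, 2 ^ m * s ≤ T → itr (2 ^ m) γ ∈ V₁ (2 ^ m * s) e}

variable {T : ℝ} {V₁ : ℝ → Bool → Set (Lp M)}

theorem VV_subset {s : ℝ} (hs : s ≤ T) (e : Bool) : VV T V₁ s e ⊆ V₁ s e := by
  intro γ h
  have := h 0 (by rwa [pow_zero, one_mul])
  rwa [pow_zero, pow_zero, one_mul, itr_one] at this

theorem dbl_VV (s : ℝ) (e : Bool) {γ : Lp M} (h : γ ∈ VV T V₁ (s / 2) e) : dbl γ ∈ VV T V₁ s e := by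
  intro m hm
  have e1 : (2 : ℝ) ^ (m + 1) * (s / 2) = 2 ^ m * s := by rw [pow_succ]; ring
  have := h (m + 1) (by rwa [e1])
  rwa [e1, ← itr_dbl] at this

theorem rotInv_VV (hV : ∀ s e, RotInv (V₁ s e)) (s : ℝ) (e : Bool) : RotInv (VV T V₁ s e) :=
  fun a γ h m hm => rotInv_preimage (pow_pos (by norm_num) m) (hV _ e) a γ (h m hm)

theorem rev_VV (hV : ∀ s e, ∀ γ ∈ V₁ s e, rev γ ∈ V₁ s (!e)) (s : ℝ) (e : Bool) {γ : Lp M}
    (h : γ ∈ VV T V₁ s e) : rev γ ∈ VV T V₁ s (!e) := by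
  intro m hm
  rw [rev_itr]
  exact hV _ e _ (h m hm)

theorem isOpen_VV (hV : ∀ s e, IsOpen (V₁ s e)) {s : ℝ} (hs : 0 < s) (e : Bool) :
    IsOpen (VV T V₁ s e) := by
  have hfin : {m : ℕ | 2 ^ m * s ≤ T}.Finite := by
    obtain ⟨n, hn⟩ := pow_unbounded_of_one_lt (T / s) (by norm_num : (1 : ℝ) < 2)
    refine (Set.finite_lt_nat n).subset fun m hm => ?_
    by_contra hnm
    have h1 : (2 : ℝ) ^ n ≤ 2 ^ m := pow_le_pow_right₀ (by norm_num) (not_lt.1 hnm)
    have h2 : T < 2 ^ n * s := by rwa [div_lt_iff₀ hs] at hn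
    have h3 : (2 : ℝ) ^ m * s ≤ T := hm
    nlinarith
  have e1 : VV T V₁ s e = ⋂ m ∈ {m : ℕ | 2 ^ m * s ≤ T},
      (itr (2 ^ m) : Lp M → Lp M) ⁻¹' V₁ (2 ^ m * s) e := by
    ext γ
    simp only [VV, mem_iInter, mem_preimage, mem_ofPred_eq]
  rw [e1]
  exact hfin.isOpen_biInter fun m _ => (hV _ e).preimage (continuous_itr _)

variable {S} in
theorem critP_subset_VV (hV : ∀ s e, critP S e s ⊆ V₁ s e) (s : ℝ) (e : Bool) :
    critP S e s ⊆ VV T V₁ s e := by
  intro γ hγ m _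
  refine hV _ e ?_
  have h := (itr_mem_critP_iff (S := S) (m := 2 ^ m) (pow_pos (by norm_num) m) (e := e) (s := s)
    (γ := γ)).2 hγ
  have e1 : ((2 ^ m : ℕ) : ℝ) = 2 ^ m := by push_cast; ring
  rw [e1] at h
  exact h

include hL nb S in
/-- **the family of splitting data** -/
theorem sdFam : SDFam M := by
  intro T
  obtain ⟨P, hP⟩ := exists_push L hL (T + 1)
  have hP' : Equi P := hP
  have hr := L.r0_pos
  -- neighbourhoods at one level
  have key : ∀ s : ℝ, ∃ W V₁ : Bool → Set (Lp M), (∀ e, IsOpen (V₁ e)) ∧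
      (∀ e, critP S e s ⊆ V₁ e) ∧ (∀ e, RotInv (V₁ e)) ∧ (∀ e, ∀ γ ∈ V₁ e, rev γ ∈ V₁ (!e)) ∧
      (s ≤ T → (∀ e, V₁ e ⊆ W e) ∧ (∀ e, RotInv (W e)) ∧
        Disjoint (closure (W true)) (closure (W false)) ∧
        (∀ e, ∀ g ∈ V₁ e, g ∈ X M (T + 1) → ∀ r ∈ Icc (0 : ℝ) 1, P.H r g ∈ W e)) := by
    intro s
    by_cases hs : s ≤ T
    · obtain ⟨W, w1, w2, -, w4, w5, w6⟩ := exists_nbhd (S := S) hr s isOpen_univ
        fun e => subset_univ _
      obtain ⟨V₁, v1, v2, v3, v4, v5, v6⟩ := P.step (K := fun e => critP S e s) (U := W)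
        (fun e => (isCompact_critP hr e s).isClosed) (fun e g hg a => rot_mem_critP hg a)
        (fun e g hg => rev_mem_critP hg)
        (fun e g hg => P.fix s (by linarith) g (isGeo_of_mem_critP hr hg)) w1 w2
      exact ⟨W, V₁, v1, v2, fun e a γ h => v4 e γ h a, v5, fun _ =>
        ⟨fun e => subset_closure.trans (v3 e), fun e a γ h => w5 e γ h a, w4, v6⟩⟩
    · exact ⟨fun _ => univ, fun _ => univ, fun _ => isOpen_univ, fun _ => subset_univ _,
        fun _ _ _ _ => trivial, fun _ _ _ => trivial, fun h => absurd h hs⟩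
  choose W V₁ k1 k2 k3 k4 k5 using key
  -- the radii
  have hgeo : ∀ s (g : Lp M), IsGeo s g → g ∈ VV T V₁ s true ∪ VV T V₁ s false := by
    intro s g hg
    have h1 : g ∈ critP S true s ∪ critP S false s := by
      rw [← setOf_isGeo L hL nb (S := S) s]; exact hg
    rcases h1 with h | h
    · exact Or.inl (critP_subset_VV L k2 s true h)
    · exact Or.inr (critP_subset_VV L k2 s false h)
  have hrad : ∀ s : ℝ, ∃ e0 : ℝ, s ∈ CritS M ∩ Iic T → 0 < e0 ∧ ∀ e, 0 < e → e ≤ e0 →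
      ∀ g ∈ X M (s + e), P.H 1 g ∈ X M (s - e) ∪ (VV T V₁ s true ∪ VV T V₁ s false) := by
    intro s
    by_cases hs : s ∈ CritS M ∩ Iic T
    · obtain ⟨γ, hγ⟩ := hs.1
      have hsT : s ≤ T := hs.2
      obtain ⟨e0, h0, h1⟩ := P.near hγ.1 (by linarith : s < T + 1)
        ((isOpen_VV k1 hγ.1 true).union (isOpen_VV k1 hγ.1 false)) (hgeo s)
      exact ⟨e0, fun _ => ⟨h0, h1⟩⟩
    · exact ⟨0, fun h => absurd h hs⟩
  choose f hf using hrad
  obtain ⟨ε0, h0, h01, h0f⟩ := exists_pos_le (isCrit_finite L hL nb S T) f fun s hs => (hf s hs).1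
  refine ⟨VV T V₁, ε0, h0, fun s _ _ e γ h => rev_VV k4 s e h, fun s _ _ e γ h => dbl_VV s e h, ?_⟩
  intro s hs hsT a b _ has hsb hab _ _ _
  have hb : b ≤ T + 1 := by linarith
  obtain ⟨j1, j2, j3, j4⟩ := k5 s hsT
  refine ⟨_, _, _, _, _, _, sd_of P hb hP' (has.le.trans hsb.le) (V := VV T V₁ s) (W := W s)
    (fun e => (VV_subset hsT e).trans (j1 e)) (fun e => rotInv_VV k3 s e) j2 j3
    (fun e g hg hgb r hr => j4 e g (VV_subset hsT e hg) (X_mono hb hgb) r hr) ?_⟩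
  intro g hg
  have hε : 0 < max (b - s) (s - a) := lt_max_of_lt_left (by linarith)
  have hε' : max (b - s) (s - a) ≤ f s := by
    refine le_trans ?_ (h0f s ⟨hs, hsT⟩)
    exact max_le (by linarith) (by linarith)
  have h1 := (hf s ⟨hs, hsT⟩).2 _ hε hε' g (X_mono (by linarith [le_max_left (b - s) (s - a)]) hg)
  rcases h1 with h | h
  · exact Or.inl (X_mono (by linarith [le_max_right (b - s) (s - a)]) h)
  · exact Or.inr h

include hL nb S in
/-- **(A4)** -/
theorem A4P_of_prime : A4P M := A4Ofx125.A4P_of (sdFam L hL nb S)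

end family

end Crest.Agent.R231.SDexx737
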