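import Crest.Agent.R204.C1_735
import Crest.Agent.R231.GLoop_576

/-!
# Row 231 (S0357), block T, leaf T-LIP (helper871), part 1: based loops and `GenLoop (Fin 1)`

* `L0 p = {γ : Lp M | γ 0 = p}`; `omHomeo p : L0 p ≃ₜ Ω^ (Fin 1) M p`
* `mapHomeo` : change of the space; `exists_sphere_homeo` : the sphere is homogeneous
-/

set_option autoImplicit false

open Set Filter Topology
open scoped unitInterval Topology.Homotopy

noncomputable section

namespace Crest.Agent.R231.OmHomx871

open Crest.Agent.R231.GLugx576 (Lp)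
open Crest.Agent.R204 Crest.Agent.R204.Cubes735

/-! ### based loops -/

section hom

variable {M : Type} [MetricSpace M]

/-- continuous loops based at `p` -/
def L0 (p : M) : Set (Lp M) := {γ | γ 0 = p}

theorem mem_L0 {p : M} {γ : Lp M} : γ ∈ L0 p ↔ γ 0 = p := Iff.rfl

variable (p : M)

/-- a loop as a generalised loop -/
def toG (γ : L0 p) : Ω^ (Fin 1) M p :=
  ⟨⟨fun t => γ.1 (((t 0 : I) : ℝ) : UnitAddCircle), by
      refine γ.1.continuous.comp ((AddCircle.continuous_mk' 1).comp ?_)
      exact continuous_subtype_val.comp (continuous_apply 0)⟩, by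
    rintro t ⟨j, hj⟩
    obtain rfl : j = 0 := Subsingleton.elim _ _
    show γ.1 (((t 0 : I) : ℝ) : UnitAddCircle) = p
    rcases hj with hj | hj
    · rw [hj]
      exact γ.2
    · rw [hj]
      show γ.1 ((1 : ℝ) : UnitAddCircle) = p
      rw [GLugx576.coe_one_circle]
      exact γ.2⟩

theorem toG_apply (γ : L0 p) (t : Fin 1 → I) :
    toG p γ t = γ.1 (((t 0 : I) : ℝ) : UnitAddCircle) := rfl

theorem continuous_toG : Continuous (toG p) := by
  rw [continuous_genLoop_iff]
  have h : Continuous (fun q : L0 p × (Fin 1 → I) => (q.1.1, ((q.2 0 : I) : ℝ))) := by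
    refine (continuous_subtype_val.comp continuous_fst).prodMk ?_
    exact continuous_subtype_val.comp ((continuous_apply 0).comp continuous_snd)
  exact GLugx576.continuous_evalR.comp h

variable {p}

/-- the values on `ℝ` of a generalised loop -/
def vG (x : Ω^ (Fin 1) M p) (s : ℝ) : M := x fun _ => clampI s

theorem continuous_vG (x : Ω^ (Fin 1) M p) : Continuous (vG x) :=
  x.1.continuous.comp (continuous_pi fun _ => continuous_clampI)

theorem vG_zero (x : Ω^ (Fin 1) M p) : vG x 0 = p :=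
  x.2 _ ⟨0, Or.inl (clampI_of_le le_rfl)⟩

theorem vG_one (x : Ω^ (Fin 1) M p) : vG x 1 = p :=
  x.2 _ ⟨0, Or.inr (clampI_of_ge le_rfl)⟩

/-- a generalised loop as a loop -/
def ofG' (x : Ω^ (Fin 1) M p) : Lp M :=
  ⟨AddCircle.liftIco 1 0 (vG x), by
    refine AddCircle.liftIco_continuous ?_ (continuous_vG x).continuousOn
    rw [zero_add, vG_zero, vG_one]⟩

theorem ofG'_coe (x : Ω^ (Fin 1) M p) {s : ℝ} (h0 : 0 ≤ s) (h1 : s ≤ 1) :
    ofG' x (s : UnitAddCircle) = vG x s := by
  have key : ∀ r : ℝ, 0 ≤ r → r < 1 → ofG' x (r : UnitAddCircle) = vG x r := fun r h h' =>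
    AddCircle.liftIco_coe_apply (p := (1 : ℝ)) (a := (0 : ℝ)) (f := vG x) ⟨h, by simpa using h'⟩
  rcases h1.eq_or_lt with rfl | h1
  · have h2 := key 0 le_rfl zero_lt_one
    rw [vG_zero] at h2
    rw [GLugx576.coe_one_circle, vG_one]
    exact h2
  · exact key s h0 h1

variable (p)

/-- a generalised loop as a based loop -/
def ofG (x : Ω^ (Fin 1) M p) : L0 p :=
  ⟨ofG' x, by
    show ofG' x 0 = p
    have := ofG'_coe x le_rfl zero_le_one
    rw [vG_zero] at this
    exact this⟩

theorem continuous_ofG : Continuous (ofG p) := by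
  refine Continuous.subtype_mk (f := fun x : Ω^ (Fin 1) M p => ofG' x) ?_ _
  refine GLugx576.cont_to_loop ?_
  have h : (fun q : Ω^ (Fin 1) M p × Icc (0 : ℝ) 1 => ofG' q.1 ((q.2 : ℝ) : UnitAddCircle)) =
      fun q => q.1 fun _ => clampI q.2 := by
    funext q
    exact ofG'_coe q.1 q.2.2.1 q.2.2.2
  rw [h]
  exact Continuous.eval continuous_fst
    (continuous_pi fun _ => continuous_clampI.comp (continuous_subtype_val.comp continuous_snd))

/-- **based loops and generalised loops of dimension `1`** -/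
def omHomeo : L0 p ≃ₜ Ω^ (Fin 1) M p where
  toFun := toG p
  invFun := ofG p
  left_inv γ := by
    apply Subtype.ext
    refine ContinuousMap.ext fun x => ?_
    obtain ⟨s, hs, rfl⟩ := GLugx576.exists_Icc x
    show ofG' (toG p γ) (s : UnitAddCircle) = _
    rw [ofG'_coe _ hs.1 hs.2]
    show γ.1 (((clampI s : I) : ℝ) : UnitAddCircle) = _
    rw [coe_clampI hs.1 hs.2]
  right_inv x := by
    ext t
    show ofG' x (((t 0 : I) : ℝ) : UnitAddCircle) = x t
    rw [ofG'_coe _ (t 0).2.1 (t 0).2.2]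
    show x (fun _ => clampI ((t 0 : I) : ℝ)) = x t
    congr 1
    funext j
    rw [clampI_coe, Subsingleton.elim j 0]
  continuous_toFun := continuous_toG p
  continuous_invFun := continuous_ofG p

@[simp] theorem omHomeo_apply (γ : L0 p) (t : Fin 1 → I) :
    omHomeo p γ t = γ.1 (((t 0 : I) : ℝ) : UnitAddCircle) := rfl

theorem omHomeo_symm_coe (x : Ω^ (Fin 1) M p) {s : ℝ} (h0 : 0 ≤ s) (h1 : s ≤ 1) :
    ((omHomeo p).symm x).1 (s : UnitAddCircle) = vG x s := ofG'_coe x h0 h1

end hom

/-! ### change of the space -/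

section chg

variable {J M N : Type} [TopologicalSpace M] [TopologicalSpace N]

/-- homeomorphism of generalised loops -/
def mapHomeo (φ : M ≃ₜ N) {p : M} {q : N} (h : φ p = q) : Ω^ J M p ≃ₜ Ω^ J N q where
  toFun := GenLoop.map (φ : C(M, N)) h
  invFun := GenLoop.map (φ.symm : C(N, M)) (by rw [← h]; exact φ.symm_apply_apply p)
  left_inv x := by
    ext t
    exact φ.symm_apply_apply _
  right_inv x := by
    ext t
    exact φ.apply_symm_apply _
  continuous_toFun := by
    refine Continuous.subtype_mk (f := fun x : Ω^ J M p => (φ : C(M, N)).comp x.1) ?_ _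
    exact (ContinuousMap.continuous_postcomp _).comp continuous_subtype_val
  continuous_invFun := by
    refine Continuous.subtype_mk (f := fun x : Ω^ J N q => (φ.symm : C(N, M)).comp x.1) ?_ _
    exact (ContinuousMap.continuous_postcomp _).comp continuous_subtype_val

@[simp] theorem mapHomeo_apply (φ : M ≃ₜ N) {p : M} {q : N} (h : φ p = q) (x : Ω^ J M p)
    (t : J → I) : mapHomeo φ h x t = φ (x t) := rfl

theorem mapHomeo_mu {F : Type} [Finite F] [Finite J] (φ : M ≃ₜ N) {p : M} {q : N} (h : φ p = q)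
    (c : BoxConf F J) (x : F → Ω^ J M p) :
    mapHomeo φ h (mu c x) = mu c fun v => mapHomeo φ h (x v) :=
  (mu_map (φ : C(M, N)) h c x).symm

/-- the sphere is homogeneous -/
theorem exists_sphere_homeo {n : ℕ} (p q : Metric.sphere (0 : EuclideanSpace ℝ (Fin (n + 1))) 1) :
    ∃ φ : Metric.sphere (0 : EuclideanSpace ℝ (Fin (n + 1))) 1 ≃ₜ
      Metric.sphere (0 : EuclideanSpace ℝ (Fin (n + 1))) 1, φ p = q := by
  have hp : ‖(p : EuclideanSpace ℝ (Fin (n + 1)))‖ = ‖(q : EuclideanSpace ℝ (Fin (n + 1)))‖ := by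
    rw [mem_sphere_zero_iff_norm.1 p.2, mem_sphere_zero_iff_norm.1 q.2]
  let A := Submodule.reflection (ℝ ∙ ((p : EuclideanSpace ℝ (Fin (n + 1))) -
    (q : EuclideanSpace ℝ (Fin (n + 1)))))ᗮ
  have hA : A (p : EuclideanSpace ℝ (Fin (n + 1))) = q := Submodule.reflection_sub hp
  refine ⟨A.toHomeomorph.subtype fun x => ?_, ?_⟩
  · rw [mem_sphere_zero_iff_norm, mem_sphere_zero_iff_norm]
    show _ ↔ ‖A x‖ = 1
    rw [A.norm_map]
  · exact Subtype.ext hA

end chg

end Crest.Agent.R231.OmHomx871
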