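import Crest.Agent.R204.OmS_94
import Crest.Agent.R231.AmCh_150
import Crest.Agent.R231.OmHom_871

/-!
# Row 231 (S0357), block T (helper871): `H_*(Ω S^(k+1); F2) = F2[x]` in the language of `conc`

Part 1: the powers `pO x m` of the archive (`R204/OmS_94`) are the classes of
`opP (cfg m)_# (z × ... × z)`, `cfg m` = `m` equal intervals.
-/

set_option autoImplicit false

open Set Topology
open scoped unitInterval Topology.Homotopy

noncomputable section

namespace Crest.Agent.R231.OmPowx871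

open Crest.Agent.R204 Crest.Agent.R204.Cubes735 Crest.Agent.R204.Hsp696 Crest.Agent.R204.HspSS696
  Crest.Agent.R204.SingAct265 Crest.Agent.R204.OmS94 Crest.Agent.R204.EZ271
  Crest.Agent.R204.EZ847 Crest.Agent.R204.Coalg847
open CPowx150 AmChx150 Concx150 OmHomx871
open Crest.Agent.R204.Freu297 (Sph pt)
open TensorProduct

/-! ### configurations of intervals -/

/-- `m` equal intervals -/
def cfg (m : ℕ) : BoxConf (Fin m) (Fin (0 + 1)) :=
  BoxConf.mk' (fun v _ => ((v : ℕ) : ℝ) / m) (fun _ _ => 1 / m)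
    (fun v j => by
      have hm : (0 : ℝ) < m := by exact_mod_cast v.pos
      have hv : ((v : ℕ) : ℝ) + 1 ≤ m := by exact_mod_cast v.2
      refine ⟨by positivity, by positivity, ?_⟩
      rw [← add_div, div_le_one hm]
      exact hv)
    (fun v w h => ⟨0, by
      have hm : (0 : ℝ) < m := by exact_mod_cast v.pos
      rcases lt_or_gt_of_ne h with h | h
      · left
        have h' : ((v : ℕ) : ℝ) + 1 ≤ ((w : ℕ) : ℝ) := by exact_mod_cast h
        rw [← add_div]
        exact div_le_div_of_nonneg_right h' hm.le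
      · right
        have h' : ((w : ℕ) : ℝ) + 1 ≤ ((v : ℕ) : ℝ) := by exact_mod_cast h
        rw [← add_div]
        exact div_le_div_of_nonneg_right h' hm.le⟩)

theorem cfg_a (m : ℕ) (v : Fin m) (j : Fin (0 + 1)) : (cfg m).a v j = ((v : ℕ) : ℝ) / m := rfl
theorem cfg_r (m : ℕ) (v : Fin m) (j : Fin (0 + 1)) : (cfg m).r v j = 1 / m := rfl

theorem cfg_lt {m : ℕ} {v w : Fin m} (h : v < w) (j : Fin (0 + 1)) :
    (cfg m).a v j + (cfg m).r v j ≤ (cfg m).a w j := by
  have hm : (0 : ℝ) < m := by exact_mod_cast v.pos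
  have h' : ((v : ℕ) : ℝ) + 1 ≤ ((w : ℕ) : ℝ) := by exact_mod_cast h
  rw [cfg_a, cfg_a, cfg_r, ← add_div]
  exact div_le_div_of_nonneg_right h' hm.le

/-- left ends of `[0,1/2]` and of `m` equal intervals of `[1/2,1]` -/
def ca (m : ℕ) (v : Fin (m + 1)) : ℝ :=
  Fin.cases (motive := fun _ => ℝ) 0 (fun i : Fin m => 1 / 2 + ((i : ℕ) : ℝ) / (2 * m)) v
/-- lengths -/
def cr (m : ℕ) (v : Fin (m + 1)) : ℝ :=
  Fin.cases (motive := fun _ => ℝ) (1 / 2) (fun _ : Fin m => 1 / (2 * m)) v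

theorem ca_zero (m : ℕ) : ca m 0 = 0 := rfl
theorem ca_succ (m : ℕ) (i : Fin m) : ca m i.succ = 1 / 2 + ((i : ℕ) : ℝ) / (2 * m) := rfl
theorem cr_zero (m : ℕ) : cr m 0 = 1 / 2 := rfl
theorem cr_succ (m : ℕ) (i : Fin m) : cr m i.succ = 1 / (2 * m) := rfl

theorem ca_lt {m : ℕ} {v w : Fin (m + 1)} (h : v < w) : ca m v + cr m v ≤ ca m w := by
  revert h
  refine Fin.cases (fun h => ?_) (fun i h => ?_) v
  · revert h
    refine Fin.cases (fun h => absurd h (lt_irrefl _)) (fun j h => ?_) w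
    have hm : (0 : ℝ) < m := by exact_mod_cast j.pos
    rw [ca_zero, cr_zero, ca_succ, zero_add]
    have : 0 ≤ ((j : ℕ) : ℝ) / (2 * m) := by positivity
    linarith
  · revert h
    refine Fin.cases (fun h => absurd h (Fin.not_lt_zero _)) (fun j h => ?_) w
    have hm : (0 : ℝ) < m := by exact_mod_cast j.pos
    have h' : ((i : ℕ) : ℝ) + 1 ≤ ((j : ℕ) : ℝ) := by exact_mod_cast (Fin.succ_lt_succ_iff.1 h)
    rw [ca_succ, cr_succ, ca_succ, add_assoc, ← add_div]
    have : (((i : ℕ) : ℝ) + 1) / (2 * m) ≤ ((j : ℕ) : ℝ) / (2 * m) :=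
      div_le_div_of_nonneg_right h' (by positivity)
    linarith

/-- `[0,1/2]` and `m` equal intervals of `[1/2,1]` -/
def cfg' (m : ℕ) : BoxConf (Fin (m + 1)) (Fin (0 + 1)) :=
  BoxConf.mk' (fun v _ => ca m v) (fun v _ => cr m v)
    (fun v j => by
      refine Fin.cases ?_ (fun i => ?_) v
      · rw [ca_zero, cr_zero]
        norm_num
      · have hm : (0 : ℝ) < m := by exact_mod_cast i.pos
        have hv : ((i : ℕ) : ℝ) + 1 ≤ m := by exact_mod_cast i.2
        rw [ca_succ, cr_succ]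
        refine ⟨by positivity, by positivity, ?_⟩
        have : (((i : ℕ) : ℝ) + 1) / (2 * m) ≤ 1 / 2 := by
          rw [div_le_div_iff₀ (by positivity) (by norm_num)]
          linarith
        rw [add_assoc, ← add_div]
        linarith)
    (fun v w h => ⟨0, by
      rcases lt_or_gt_of_ne h with h | h
      · exact Or.inl (ca_lt h)
      · exact Or.inr (ca_lt h)⟩)

theorem cfg'_a (m : ℕ) (v : Fin (m + 1)) (j : Fin (0 + 1)) : (cfg' m).a v j = ca m v := rfl
theorem cfg'_r (m : ℕ) (v : Fin (m + 1)) (j : Fin (0 + 1)) : (cfg' m).r v j = cr m v := rfl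

theorem joined_cfg (m : ℕ) : Joined (cfg' m) (cfg (m + 1)) := by
  apply Compat.joined
  apply Compat.of_coord 0
  intro v w h
  rcases lt_or_gt_of_ne h with h | h
  · exact Or.inl ⟨ca_lt h, cfg_lt h 0⟩
  · exact Or.inr ⟨ca_lt h, cfg_lt h 0⟩

/-! ### the recursion -/

section mu

variable {Z : Type} [TopologicalSpace Z] {z₀ : Z}

theorem mu_cons (m : ℕ) (x : Ω^ (Fin (0 + 1)) Z z₀) (y : Fin m → Ω^ (Fin (0 + 1)) Z z₀) :
    mu (halves (Fin.last 0)) ![x, mu (cfg m) y] =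
      mu (cfg' m) (Fin.cons x y : Fin (m + 1) → Ω^ (Fin (0 + 1)) Z z₀) := by
  ext t
  rw [mu_apply, mu_apply]
  generalize (fun j => ((t j : I) : ℝ)) = s
  have J0 : ∀ j : Fin (0 + 1), j = Fin.last 0 := by decide
  have ha0 : ∀ j, (halves (Fin.last 0) : BoxConf (Fin 2) (Fin (0 + 1))).a 0 j = 0 := fun j => by
    rw [halves_a]; simp
  have ha1 : ∀ j, (halves (Fin.last 0) : BoxConf (Fin 2) (Fin (0 + 1))).a 1 j = 1 / 2 := fun j => by
    rw [halves_a, if_pos ⟨J0 j, rfl⟩]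
  have hr : ∀ v j, (halves (Fin.last 0) : BoxConf (Fin 2) (Fin (0 + 1))).r v j = 1 / 2 := fun v j => by
    rw [halves_r, if_pos (J0 j)]
  -- second half
  have key : (halves (Fin.last 0) : BoxConf (Fin 2) (Fin (0 + 1))).inside 1 s →
      ∀ i : Fin m, ((cfg m).inside i ((halves (Fin.last 0)).resc 1 s) ↔ (cfg' m).inside i.succ s) ∧
        (cfg m).resc i ((halves (Fin.last 0)).resc 1 s) = (cfg' m).resc i.succ s := by
    intro _ i
    have hm : (0 : ℝ) < m := by exact_mod_cast i.pos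
    have e : (cfg m).resc i ((halves (Fin.last 0)).resc 1 s) = (cfg' m).resc i.succ s := by
      funext j
      show ((s j - (halves (Fin.last 0)).a 1 j) / (halves (Fin.last 0)).r 1 j - (cfg m).a i j) /
        (cfg m).r i j = (s j - (cfg' m).a i.succ j) / (cfg' m).r i.succ j
      rw [ha1, hr, cfg_a, cfg_r, cfg'_a, cfg'_r, ca_succ, cr_succ]
      field_simp
      ring
    exact ⟨by rw [BoxConf.inside_iff, BoxConf.inside_iff, e], e⟩
  have in1 : ∀ i : Fin m, (cfg' m).inside i.succ s →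
      (halves (Fin.last 0) : BoxConf (Fin 2) (Fin (0 + 1))).inside 1 s := by
    intro i hi j
    have hm : (0 : ℝ) < m := by exact_mod_cast i.pos
    have h := hi j
    have hv : ((i : ℕ) : ℝ) + 1 ≤ m := by exact_mod_cast i.2
    rw [cfg'_a, cfg'_r, ca_succ, cr_succ] at h
    have h1 : 0 ≤ ((i : ℕ) : ℝ) / (2 * m) := by positivity
    have h2 : ((i : ℕ) : ℝ) / (2 * m) + 1 / (2 * m) ≤ 1 / 2 := by
      rw [← add_div, div_le_div_iff₀ (by positivity) (by norm_num)]
      linarith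
    rw [ha1, hr]
    constructor <;> linarith [h.1, h.2]
  symm
  apply muFun_eq
  · intro v
    refine Fin.cases (fun hv => ?_) (fun i hv => ?_) v
    · have h0 : (halves (Fin.last 0) : BoxConf (Fin 2) (Fin (0 + 1))).inside 0 s := by
        intro j
        have h := hv j
        rw [cfg'_a, cfg'_r, ca_zero, cr_zero] at h
        rw [ha0, hr]
        exact h
      rw [muFun_of_inside _ _ h0]
      show ext0 x _ = ext0 x _
      congr 1
      funext j
      show (s j - (halves (Fin.last 0)).a 0 j) / (halves (Fin.last 0)).r 0 j =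
        (s j - (cfg' m).a 0 j) / (cfg' m).r 0 j
      rw [ha0, hr, cfg'_a, cfg'_r, ca_zero, cr_zero]
    · have h1 := in1 i hv
      rw [muFun_of_inside _ _ h1]
      show ext0 (mu (cfg m) y) _ = ext0 (y i) _
      obtain ⟨hi, he⟩ := key h1 i
      rw [ext0_mu, muFun_of_inside _ _ (hi.2 hv), he]
  · intro hn
    apply muFun_eq
    · intro v hv
      have hv' : ∀ u : Fin 2, u = 0 ∨ u = 1 := by decide
      rcases hv' v with rfl | rfl
      · refine absurd ?_ (hn 0)
        intro j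
        have h := hv j
        rw [ha0, hr] at h
        rw [cfg'_a, cfg'_r, ca_zero, cr_zero]
        exact h
      · show z₀ = ext0 (mu (cfg m) y) _
        rw [ext0_mu, muFun_of_not]
        intro i hi
        exact hn i.succ (((key hv i).1).1 hi)
    · intro _
      rfl

theorem mu_zero (y : Fin 0 → Ω^ (Fin (0 + 1)) Z z₀) : mu (cfg 0) y = GenLoop.const := by
  ext t
  rw [mu_apply, muFun_of_not]
  · rfl
  · exact fun v => v.elim0

/-! ### the simplicial operations -/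

/-- family operations on singular simplices -/
def opP {m : ℕ} (c : BoxConf (Fin m) (Fin (0 + 1))) :
    SS.Hom (Pw (SS.Sing (Om (Fin (0 + 1)) Z z₀)) m) (SS.Sing (Om (Fin (0 + 1)) Z z₀)) :=
  (SS.SingMap (muC c)).comp (piH _ m)

theorem ev_opP {m n : ℕ} (c : BoxConf (Fin m) (Fin (0 + 1)))
    (x : Fin m → (SS.Sing (Om (Fin (0 + 1)) Z z₀)).S n) (t : stdSimplex ℝ (Fin (n + 1))) :
    ev ((opP c).app n x) t = mu c fun i => ev (x i) t := rfl

theorem opP_htpy {m : ℕ} {c d : BoxConf (Fin m) (Fin (0 + 1))} (h : Joined c d) :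
    Nonempty (SingAct265.Htpy (opP c : SS.Hom (Pw (SS.Sing (Om (Fin (0 + 1)) Z z₀)) m) _) (opP d)) := by
  obtain ⟨H⟩ := nonempty_htpy_rel (muC_homotopicRel (Z := Z) (z₀ := z₀) h)
  exact ⟨H.pre (piH _ m)⟩

theorem opP_cons (m : ℕ) :
    (mulS (halves (Fin.last 0))).comp
        (SS.prodMap (SS.Hom.id (SS.Sing (Om (Fin (0 + 1)) Z z₀))) (opP (cfg m))) =
      (opP (cfg' m)).comp (consH _ m) := by
  refine SS.Hom.ext (funext fun n => funext fun q => ?_)
  refine sing_ext fun t => ?_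
  show mu (halves (Fin.last 0)) ![ev q.1 t, mu (cfg m) fun i => ev (q.2 i) t] =
    mu (cfg' m) fun i => ev ((Fin.cons q.1 q.2 :
      Fin (m + 1) → (SS.Sing (Om (Fin (0 + 1)) Z z₀)).S n) i) t
  rw [mu_cons]
  congr 1
  funext i
  refine Fin.cases rfl (fun j => rfl) i

end mu

/-! ### the powers of the archive -/

section powers

variable {k : ℕ}

theorem mO_mk {z w : N F2 (SS.Sing (OS k))} (hz : N.bd F2 _ z = 0) (hw : N.bd F2 _ w = 0) :
    ∃ h, mO (Hd.mk _ z hz) (Hd.mk _ w hw) =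
      Hd.mk _ (N.map F2 (mulS (halves (Fin.last 0))) (cross F2 z w)) h := by
  refine ⟨?_, ?_⟩
  · rw [← map_bd', bd_cross2, hz, hw, map_zero, LinearMap.zero_apply, map_zero, add_zero, map_zero]
  · show H.map F2 (mulS (halves (Fin.last 0))) (EZ847.ezd.cr _ _ (Hd.mk _ z hz ⊗ₜ Hd.mk _ w hw)) = _
    rw [EZData.cr_mk]
    rfl

/-- the class of the `m`-fold power -/
theorem pO_mk {z : N F2 (SS.Sing (OS k))} (hz : N.bd F2 _ z = 0) (m : ℕ) :
    ∃ h, pO (Hd.mk _ z hz) m = Hd.mk _ (N.map F2 (opP (cfg m)) (cpow z m)) h := by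
  induction m with
  | zero =>
    have e : N.map F2 (opP (cfg 0)) (cpow z 0) =
        N.sx F2 (eS (J := Fin (0 + 1)) (Z := Sph (k + 1)) (z₀ := pt (k + 1))) := by
      rw [cpow_zero, N.map_sx]
      congr 1
      refine sing_ext fun t => ?_
      rw [ev_opP, mu_zero]
      rfl
    refine ⟨by rw [e]; exact bd_vertex _, ?_⟩
    rw [pO_zero]
    show Hd.mk _ _ _ = _
    rw [Hd.mk_eq_mk]
    exact ⟨0, by rw [map_zero, e, sub_self]⟩
  | succ m ih =>
    obtain ⟨h, ih⟩ := ih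
    have h' : N.bd F2 _ (N.map F2 (opP (Z := Sph (k + 1)) (z₀ := pt (k + 1)) (cfg (m + 1)))
        (cpow z (m + 1))) = 0 := by
      rw [← map_bd', bd_cpow hz, map_zero]
    refine ⟨h', ?_⟩
    rw [pO_succ, ih]
    obtain ⟨h2, e2⟩ := mO_mk hz h
    rw [e2]
    have e3 : N.map F2 (mulS (halves (Fin.last 0))) (cross F2 z (N.map F2 (opP (cfg m)) (cpow z m))) =
        N.map F2 (opP (cfg' m)) (cpow z (m + 1)) := by
      rw [cross_map_right, map_map, opP_cons, cpow_cons, map_map]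
    obtain ⟨H⟩ := opP_htpy (Z := Sph (k + 1)) (z₀ := pt (k + 1)) (joined_cfg m)
    have e4 := LinearMap.congr_fun (Bar170.map_eq_of_htpy HtpInv334.homotopyInv H)
      (Hd.mk _ (cpow z (m + 1)) (bd_cpow hz (m + 1)))
    rw [hMap_mk, hMap_mk] at e4
    refine Eq.trans ?_ e4
    rw [Hd.mk_eq_mk]
    exact ⟨0, by rw [map_zero, e3, sub_self]⟩

end powers

/-! ### transport to based loops of period one -/

section transport

variable {M : Type} [MetricSpace M]

theorem exists_slot (m : ℕ) [NeZero m] {x : ℝ} (h0 : 0 ≤ x) (h1 : x ≤ 1) :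
    ∃ (i : Fin m) (s : ℝ), 0 ≤ s ∧ s ≤ 1 ∧ x = (((i : ℕ) : ℝ) + s) / m := by
  have hm0 : 0 < m := NeZero.pos m
  have hm : (0 : ℝ) < m := by exact_mod_cast hm0
  rcases h1.eq_or_lt with rfl | h1
  · refine ⟨⟨m - 1, by omega⟩, 1, zero_le_one, le_rfl, ?_⟩
    show (1 : ℝ) = (((m - 1 : ℕ) : ℝ) + 1) / m
    rw [Nat.cast_sub hm0, Nat.cast_one, sub_add_cancel, div_self hm.ne']
  · have hx : 0 ≤ m * x := by positivity
    have hlt : ⌊(m : ℝ) * x⌋₊ < m := by
      rw [Nat.floor_lt hx]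
      nlinarith
    refine ⟨⟨⌊(m : ℝ) * x⌋₊, hlt⟩, m * x - ⌊(m : ℝ) * x⌋₊, ?_, ?_, ?_⟩
    · exact sub_nonneg.2 (Nat.floor_le hx)
    · have := Nat.lt_floor_add_one ((m : ℝ) * x)
      linarith
    · show x = ((⌊(m : ℝ) * x⌋₊ : ℝ) + (m * x - ⌊(m : ℝ) * x⌋₊)) / m
      rw [add_sub_cancel, mul_div_cancel_left₀ _ hm.ne']

/-- based loops as generalised loops -/
def oh (p : M) : Concx150.Om p ≃ₜ Ω^ (Fin (0 + 1)) M p := omHomeo p

theorem oh_apply (p : M) (γ : Concx150.Om p) (t : Fin (0 + 1) → I) :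
    oh p γ t = γ.1 (((t 0 : I) : ℝ) : UnitAddCircle) := rfl

theorem oh_conc (p : M) (m : ℕ) [NeZero m] (w : Fin m → Concx150.Om p) :
    oh p (concO m w) = mu (cfg m) fun i => oh p (w i) := by
  have hm : (0 : ℝ) < m := by exact_mod_cast NeZero.pos m
  ext t
  obtain ⟨i, s, hs0, hs1, hx⟩ := exists_slot m (t 0).2.1 (t 0).2.2
  have J0 : ∀ j : Fin (0 + 1), j = 0 := by decide
  have er : ∀ j, (cfg m).resc i (fun j => ((t j : I) : ℝ)) j = s := by
    intro j
    rw [J0 j]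
    show (((t 0 : I) : ℝ) - (cfg m).a i 0) / (cfg m).r i 0 = s
    rw [hx, cfg_a, cfg_r]
    field_simp
    ring
  rw [mu_apply, muFun_of_closed (cfg m) _ (v := i)]
  · have e2 : ext0 (oh p (w i)) ((cfg m).resc i fun j => ((t j : I) : ℝ)) =
        (w i).1 (((clampI s : I) : ℝ) : UnitAddCircle) := by
      show oh p (w i) (fun j => clampI ((cfg m).resc i (fun j => ((t j : I) : ℝ)) j)) = _
      rw [oh_apply, er]
    rw [e2, coe_clampI hs0 hs1, oh_apply, hx]
    exact conc_slot m w i hs0 hs1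
  · intro j
    rw [J0 j, cfg_a, cfg_r, hx, ← add_div]
    exact ⟨div_le_div_of_nonneg_right (by linarith) hm.le,
      div_le_div_of_nonneg_right (by linarith) hm.le⟩

variable {k : ℕ}

/-- based loops of `M` as the loop space of the archive -/
def hO (φ : M ≃ₜ Sph (k + 1)) {p : M} (h : φ p = pt (k + 1)) : Concx150.Om p ≃ₜ OS k :=
  (oh p).trans (mapHomeo φ h)

theorem hO_conc (φ : M ≃ₜ Sph (k + 1)) {p : M} (h : φ p = pt (k + 1)) (m : ℕ) [NeZero m]
    (w : Fin m → Concx150.Om p) : hO φ h (concO m w) = mu (cfg m) fun i => hO φ h (w i) := by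
  show mapHomeo φ h (oh p (concO m w)) = _
  rw [oh_conc, mapHomeo_mu]
  rfl

open PF872 (hc)

theorem hO_Am (φ : M ≃ₜ Sph (k + 1)) {p : M} (h : φ p = pt (k + 1)) (m : ℕ) [NeZero m]
    (x : CO p) : N.map F2 (SS.SingMap (hc (hO φ h))) (AmO m x) =
      N.map F2 (opP (cfg m)) (cpow (N.map F2 (SS.SingMap (hc (hO φ h))) x) m) := by
  rw [← cpow_map, EZ271.map_map]
  show N.map F2 (SS.SingMap (hc (hO φ h))) (N.map F2 (concOH m p) (cpow x m)) = _
  rw [EZ271.map_map]
  congr 2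
  refine SS.Hom.ext (funext fun n => funext fun q => ?_)
  exact sing_ext fun t => hO_conc φ h m fun i => ev (q i) t

end transport

/-! ### boundaries and homeomorphisms -/

section bdry

variable {X Y : Type} [TopologicalSpace X] [TopologicalSpace Y]

open PF872 (hc)

theorem map_symm_map (e : X ≃ₜ Y) (y : N F2 (SS.Sing X)) :
    N.map F2 (SS.SingMap (hc e.symm)) (N.map F2 (SS.SingMap (hc e)) y) = y := by
  rw [EZ271.map_map, PF872.singMap_homeo, map_idHom]

theorem map_map_symm (e : X ≃ₜ Y) (y : N F2 (SS.Sing Y)) :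
    N.map F2 (SS.SingMap (hc e)) (N.map F2 (SS.SingMap (hc e.symm)) y) = y := by
  rw [EZ271.map_map, PF872.singMap_homeo', map_idHom]

theorem map_mem_range (f : C(X, Y)) {y : N F2 (SS.Sing X)}
    (h : y ∈ LinearMap.range (N.bd F2 (SS.Sing X))) :
    N.map F2 (SS.SingMap f) y ∈ LinearMap.range (N.bd F2 (SS.Sing Y)) := by
  obtain ⟨w, rfl⟩ := h
  exact ⟨N.map F2 (SS.SingMap f) w, (map_bd' _ _ w).symm⟩

theorem map_mem_range_iff (e : X ≃ₜ Y) {y : N F2 (SS.Sing X)} :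
    N.map F2 (SS.SingMap (hc e)) y ∈ LinearMap.range (N.bd F2 (SS.Sing Y)) ↔
      y ∈ LinearMap.range (N.bd F2 (SS.Sing X)) := by
  refine ⟨fun h => ?_, fun h => map_mem_range _ h⟩
  have := map_mem_range (hc e.symm) h
  rwa [map_symm_map] at this

theorem mk_zero_iff {K : SS} {z : N F2 K} (hz : N.bd F2 K z = 0) :
    Hd.mk _ z hz = 0 ↔ z ∈ LinearMap.range (N.bd F2 K) := Hd.mk_eq_zero

theorem mk_eq_iff {K : SS} {z w : N F2 K} (hz : N.bd F2 K z = 0) (hw : N.bd F2 K w = 0) :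
    Hd.mk _ z hz = Hd.mk _ w hw ↔ z + w ∈ LinearMap.range (N.bd F2 K) := by
  rw [Hd.mk_eq_mk]
  have e : z - w = z + w := by
    rw [sub_eq_add_neg]
    congr 1
    exact neg_eq_of_add_eq_zero_left (by rw [← two_smul F2 w, show (2 : F2) = 0 from rfl, zero_smul])
  rw [← e]
  exact Iff.rfl

end bdry

/-! ### final form -/

section final

variable {M : Type} [MetricSpace M] {k : ℕ}

open PF872 (hc)

theorem exists_base_homeo (φ : M ≃ₜ Sph (k + 1)) (p : M) :
    ∃ ψ : M ≃ₜ Sph (k + 1), ψ p = pt (k + 1) := by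
  obtain ⟨χ, hχ⟩ := exists_sphere_homeo (φ p) (pt (k + 1))
  exact ⟨φ.trans χ, hχ⟩

/-- **(a)** there is a cycle of degree `k` of based loops which is not a boundary -/
theorem exists_cycle (φ : M ≃ₜ Sph (k + 1)) (p : M) :
    ∃ z : CO p, z ∈ N.gr F2 (SS.Sing (Concx150.Om p)) k ∧ N.bd F2 _ z = 0 ∧
      z ∉ LinearMap.range (N.bd F2 (SS.Sing (Concx150.Om p))) := by
  obtain ⟨ψ, hψ⟩ := exists_base_homeo φ p
  obtain ⟨x, hx, hx0⟩ := exists_gen k
  obtain ⟨z, hz, hzk, rfl⟩ := mem_gr_iff.1 hx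
  have hz0 : z ∉ LinearMap.range (N.bd F2 (SS.Sing (OS k))) := by
    intro h
    refine hx0 ?_
    rw [(mk_zero_iff hz).2 h, map_zero]
  refine ⟨N.map F2 (SS.SingMap (hc (hO ψ hψ).symm)) z, Exc406.map_mem_gr _ hzk, ?_, ?_⟩
  · rw [← map_bd', hz, map_zero]
  · intro h
    exact hz0 ((map_mem_range_iff _).1 h)

variable (hk : 1 ≤ k) (φ : M ≃ₜ Sph (k + 1)) {p : M}

include hk φ

/-- **(b)** the powers are not boundaries -/
theorem AmO_not_bd {z : CO p} (hz : z ∈ N.gr F2 (SS.Sing (Concx150.Om p)) k)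
    (hb : N.bd F2 _ z = 0) (hn : z ∉ LinearMap.range (N.bd F2 (SS.Sing (Concx150.Om p))))
    (m : ℕ) [NeZero m] : AmO m z ∉ LinearMap.range (N.bd F2 (SS.Sing (Concx150.Om p))) := by
  obtain ⟨ψ, hψ⟩ := exists_base_homeo φ p
  intro h
  have hb' : N.bd F2 _ (N.map F2 (SS.SingMap (hc (hO ψ hψ))) z) = 0 := by
    rw [← map_bd', hb, map_zero]
  have hx : Hd.mk _ _ hb' ∈ H.gr F2 (SS.Sing (OS k)) k := mk_mem_gr hb' (Exc406.map_mem_gr _ hz)
  have hx0 : Hd.mk _ _ hb' ≠ 0 := fun h' => hn ((map_mem_range_iff _).1 ((mk_zero_iff hb').1 h'))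
  obtain ⟨h1, e1⟩ := pO_mk hb' m
  refine (omS hk hx hx0).2 m (NeZero.ne m) ?_
  rw [e1, mk_zero_iff, ← hO_Am]
  exact map_mem_range _ h

/-- **(b), (c)** every cycle of positive degree is a boundary or homologous to a power -/
theorem AmO_span {z : CO p} (hz : z ∈ N.gr F2 (SS.Sing (Concx150.Om p)) k)
    (hb : N.bd F2 _ z = 0) (hn : z ∉ LinearMap.range (N.bd F2 (SS.Sing (Concx150.Om p))))
    {j : ℕ} (hj : 1 ≤ j) {y : CO p} (hy : y ∈ N.gr F2 (SS.Sing (Concx150.Om p)) j)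
    (hby : N.bd F2 _ y = 0) : y ∈ LinearMap.range (N.bd F2 (SS.Sing (Concx150.Om p))) ∨
      ∃ (m : ℕ) (_ : NeZero m), m * k = j ∧
        y + AmO m z ∈ LinearMap.range (N.bd F2 (SS.Sing (Concx150.Om p))) := by
  obtain ⟨ψ, hψ⟩ := exists_base_homeo φ p
  have hb' : N.bd F2 _ (N.map F2 (SS.SingMap (hc (hO ψ hψ))) z) = 0 := by
    rw [← map_bd', hb, map_zero]
  have hby' : N.bd F2 _ (N.map F2 (SS.SingMap (hc (hO ψ hψ))) y) = 0 := by
    rw [← map_bd', hby, map_zero]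
  have hx : Hd.mk _ _ hb' ∈ H.gr F2 (SS.Sing (OS k)) k := mk_mem_gr hb' (Exc406.map_mem_gr _ hz)
  have hx0 : Hd.mk _ _ hb' ≠ 0 := fun h' => hn ((map_mem_range_iff _).1 ((mk_zero_iff hb').1 h'))
  rcases (omS hk hx hx0).1 j hj _ (mk_mem_gr hby' (Exc406.map_mem_gr _ hy)) with h | ⟨m, hm, h⟩
  · exact Or.inl ((map_mem_range_iff _).1 ((mk_zero_iff hby').1 h))
  · have hm0 : NeZero m := ⟨fun h0 => by rw [h0, zero_mul] at hm; omega⟩
    refine Or.inr ⟨m, hm0, hm, ?_⟩
    obtain ⟨h1, e1⟩ := pO_mk hb' m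
    rw [e1, mk_eq_iff, ← hO_Am, ← map_add] at h
    exact (map_mem_range_iff _).1 h

/-- **(c)** degrees not divisible by `k` -/
theorem bd_of_not_dvd {j : ℕ} (hj : ¬ k ∣ j) {y : CO p}
    (hy : y ∈ N.gr F2 (SS.Sing (Concx150.Om p)) j) (hby : N.bd F2 _ y = 0) :
    y ∈ LinearMap.range (N.bd F2 (SS.Sing (Concx150.Om p))) := by
  obtain ⟨z, hz, hb, hn⟩ := exists_cycle φ p
  have hj1 : 1 ≤ j := by
    rcases Nat.eq_zero_or_pos j with rfl | h
    · exact absurd (dvd_zero k) hj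
    · exact h
  rcases AmO_span hk φ hz hb hn hj1 hy hby with h | ⟨m, -, hm, -⟩
  · exact h
  · exact absurd ⟨m, by rw [← hm, mul_comm]⟩ hj

theorem pathConn : PathConnectedSpace (Concx150.Om p) := by
  obtain ⟨ψ, hψ⟩ := exists_base_homeo φ p
  have h : PathConnectedSpace (OS k) := Geo979.pathConn (joined1 hk)
  exact (hO ψ hψ).symm.surjective.pathConnectedSpace (hO ψ hψ).symm.continuous

/-- degree zero: spanned by any vertex -/
theorem span_zero (v : (SS.Sing (Concx150.Om p)).S 0) {y : CO p}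
    (hy : y ∈ N.gr F2 (SS.Sing (Concx150.Om p)) 0) :
    y ∈ LinearMap.range (N.bd F2 (SS.Sing (Concx150.Om p))) ∨
      y + N.sx F2 v ∈ LinearMap.range (N.bd F2 (SS.Sing (Concx150.Om p))) := by
  have := pathConn hk φ (p := p)
  have hby : N.bd F2 _ y = 0 := Gr334.bd_gr_zero hy
  have h := Geo979.gr_zero_eq v (mk_mem_gr hby hy)
  rcases f2_cases (eps _ (Hd.mk _ y hby)) with h0 | h1
  · left
    rw [h0, zero_smul, mk_zero_iff] at h
    exact h
  · right
    rw [h1, one_smul] at h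
    exact (mk_eq_iff hby (bd_vertex v)).1 h

end final

theorem vertex_not_bd {K : SS} (v : K.S 0) : N.sx F2 v ∉ LinearMap.range (N.bd F2 K) := by
  intro h
  have h1 : eps K (vtx v) = 1 := eps_vtx v
  have h2 : vtx v = 0 := (mk_zero_iff (bd_vertex v)).2 h
  rw [h2, map_zero] at h1
  exact absurd h1 (by decide)

end Crest.Agent.R231.OmPowx871
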