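import Crest.Agent.R231.TSub_569

/-!
# Row 231, leaf H1c (helper569): equivariant and twisted-equivariant maps, trivial actions

* `op_twist` : if `a(s, f x) = f (a(φ s, x))` then `B.op c (f z) = f (A.op (φ c) z)`
  (`φ = id` : equivariant maps; `φ = negH` : reversal; `φ = mulH 2` : doubling)
* `op_trivial` : on chains with trivial action `A.op c z = aug c • z`; `hN_trivial`, `gN_trivial`
* loops: `op_rev`, `op_itr`, `gN_rev`, `gN_dbl`, `op_const`, `hN_const`.
-/

set_option autoImplicit false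

noncomputable section

open Crest.Agent.R204 Crest.Agent.R204.EZ271 Crest.Agent.R204.EZ847 Crest.Agent.R204.SingAct265
open Crest.Agent.R231.TCx569 Crest.Agent.R231.Pairx877

namespace Crest.Agent.R231.TActx569

/-- negation on the simplicial circle group -/
def negH : SS.Hom ST ST := ⟨fun _ x => sneg x, fun _ _ => rfl⟩

/-- multiplication by `m` on the simplicial circle group -/
def mulH (m : ℕ) : SS.Hom ST ST :=
  SS.SingMap ⟨fun x : UnitAddCircle => m • x, by fun_prop⟩

namespace TAct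

variable {K L : SS} {A : TAct K} {B : TAct L}

/-- twisted equivariance on chains -/
theorem op_twist (f : SS.Hom K L) (φ : SS.Hom ST ST)
    (h : ∀ (n : ℕ) (s : ST.S n) (x : K.S n), B.a.app n (s, f.app n x) = f.app n (A.a.app n (φ.app n s, x)))
    (c : N F2 ST) (z : N F2 K) :
    B.op c (N.map F2 f z) = N.map F2 f (A.op (N.map F2 φ c) z) := by
  rw [op_apply, op_apply]
  have h1 := map_cross F2 (SS.Hom.id ST) f c z
  rw [map_idHom] at h1
  have h2 := map_cross F2 φ (SS.Hom.id K) c z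
  rw [map_idHom] at h2
  rw [← h1, ← h2, map_map, map_map, map_map]
  congr 1
  have h3 : B.a.comp (SS.prodMap (SS.Hom.id ST) f) = (f.comp A.a).comp (SS.prodMap φ (SS.Hom.id K)) :=
    SS.Hom.ext (funext fun n => funext fun x => h n x.1 x.2)
  rw [h3]

/-- equivariant maps -/
theorem op_equiv (f : SS.Hom K L)
    (h : ∀ (n : ℕ) (s : ST.S n) (x : K.S n), B.a.app n (s, f.app n x) = f.app n (A.a.app n (s, x)))
    (c : N F2 ST) (z : N F2 K) : B.op c (N.map F2 f z) = N.map F2 f (A.op c z) := by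
  have h1 := op_twist (A := A) (B := B) f (SS.Hom.id ST) h c z
  rwa [map_idHom] at h1

/-- rotation and twisted maps -/
theorem rot_twist (f : SS.Hom K L) (φ : SS.Hom ST ST)
    (h : ∀ (n : ℕ) (s : ST.S n) (x : K.S n), B.a.app n (s, f.app n x) = f.app n (A.a.app n (φ.app n s, x)))
    (v w : UnitAddCircle) (hv : φ.app 0 (vx v) = vx w) (z : N F2 K) :
    N.map F2 (B.rot v) (N.map F2 f z) = N.map F2 f (N.map F2 (A.rot w) z) := by
  rw [← op_vx, ← op_vx, op_twist f φ h, N.map_sx, hv]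

/-- trivial action -/
theorem op_trivial_sx (A : TAct K) {n : ℕ} (x : K.S n)
    (h : ∀ (m : ℕ) (f : Op m n) (s : ST.S m), A.a.app m (s, K.act f x) = K.act f x) (c : N F2 ST) :
    A.op c (N.sx F2 x) = aug F2 c • N.sx F2 x := by
  have e1 : N.sx F2 x = N.map F2 (K.yo x) (N.sx F2 (iota n)) := sx_eq_map_iota F2 x
  have e2 := map_cross F2 (SS.Hom.id ST) (K.yo x) c (N.sx F2 (iota n))
  rw [map_idHom, ← e1] at e2
  rw [op_apply, ← e2, map_map]
  have h3 : A.a.comp (SS.prodMap (SS.Hom.id ST) (K.yo x)) = (K.yo x).comp (SS.snd ST (SS.std n)) :=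
    SS.Hom.ext (funext fun m => funext fun y => h m y.2 y.1)
  rw [h3, ← map_map, snd_cross, map_smul, ← e1]

/-- operators on chains supported on a sub-simplicial set with trivial action -/
theorem op_trivial {E : Type} [TopologicalSpace E] {ρ : C(UnitAddCircle × E, E)}
    {h0 : ∀ x, ρ (0, x) = x} {ha : ∀ s t x, ρ (s + t, x) = ρ (s, ρ (t, x))} {X : Set E}
    (h : ∀ v, ∀ x ∈ X, ρ (v, x) = x) (c : N F2 ST) :
    ∀ z ∈ CS X, (TAct.sing ρ h0 ha).op c z = aug F2 c • z := by
  have h1 := eq_on_CS (X := X) (f := (TAct.sing ρ h0 ha).op c) (g := aug F2 c • LinearMap.id)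
    (fun n σ hσ => by
      rw [LinearMap.smul_apply, LinearMap.id_apply]
      refine op_trivial_sx _ σ (fun m f s => sing_ext fun u => ?_) c
      exact h _ _ (hσ _))
  intro z hz
  rw [h1 z hz]; rfl

theorem aug_half : aug F2 half = 0 := aug_sx_succ F2 (n := 0) hp

/-- chains of fixed points are killed by `h` -/
theorem hN_trivial {E : Type} [TopologicalSpace E] {ρ : C(UnitAddCircle × E, E)}
    {h0 : ∀ x, ρ (0, x) = x} {ha : ∀ s t x, ρ (s + t, x) = ρ (s, ρ (t, x))} {X : Set E}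
    (h : ∀ v, ∀ x ∈ X, ρ (v, x) = x) : ∀ z ∈ CS X, (TAct.sing ρ h0 ha).hN z = 0 := by
  intro z hz
  unfold hN
  rw [op_trivial h half z hz, aug_half, zero_smul]

/-- `g` is the identity on the chains of its fixed points -/
theorem gN_fixed {E : Type} [TopologicalSpace E] {ρ : C(UnitAddCircle × E, E)}
    {h0 : ∀ x, ρ (0, x) = x} {ha : ∀ s t x, ρ (s + t, x) = ρ (s, ρ (t, x))} {X : Set E}
    (h : ∀ x ∈ X, ρ (((1 / 2 : ℝ) : UnitAddCircle), x) = x) : ∀ z ∈ CS X, (TAct.sing ρ h0 ha).gN z = z := by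
  have h1 := eq_on_CS (X := X) (f := (TAct.sing ρ h0 ha).gN) (g := LinearMap.id)
    (fun n σ hσ => by
      rw [LinearMap.id_apply]
      unfold gN
      rw [N.map_sx]
      congr 1
      exact sing_ext fun u => h _ (hσ _))
  intro z hz
  rw [h1 z hz]; rfl

end TAct

/-! ## loops -/

section loops

open Crest.Agent.R231.GLugx576

variable (M : Type) [MetricSpace M]

/-- reversal on chains of loops -/
def revN : CE (Lp M) →ₗ[F2] CE (Lp M) := N.map F2 (SS.SingMap (rev : C(Lp M, Lp M)))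

/-- iteration on chains of loops -/
def itrN (m : ℕ) : CE (Lp M) →ₗ[F2] CE (Lp M) := N.map F2 (SS.SingMap (itr m : C(Lp M, Lp M)))

theorem bd_revN (z : CE (Lp M)) : bdE _ (revN M z) = revN M (bdE _ z) := (map_bd' F2 _ _).symm
theorem bd_itrN (m : ℕ) (z : CE (Lp M)) : bdE _ (itrN M m z) = itrN M m (bdE _ z) := (map_bd' F2 _ _).symm

theorem revN_revN (z : CE (Lp M)) : revN M (revN M z) = z := by
  unfold revN
  rw [map_map]
  have : (SS.SingMap (rev : C(Lp M, Lp M))).comp (SS.SingMap rev) = SS.Hom.id _ :=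
    SS.Hom.ext (funext fun n => funext fun σ => sing_ext fun u => rev_rev _)
  rw [this, map_idHom]

theorem op_revN (c : N F2 ST) (z : CE (Lp M)) :
    (LA M).op c (revN M z) = revN M ((LA M).op (N.map F2 negH c) z) :=
  TAct.op_twist (A := LA M) (B := LA M) _ negH (fun n s x => sing_ext fun u => by
    change rot (ev s u) (rev (ev x u)) = rev (rot (ev (sneg s) u) (ev x u))
    have e : ev (sneg s) u = - ev s u := rfl
    rw [rev_rot, e, neg_neg]) c z

theorem rot_itr (m : ℕ) (v : UnitAddCircle) (γ : Lp M) : rot v (itr m γ) = itr m (rot (m • v) γ) := by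
  ext x
  simp [smul_add]

theorem op_itrN (m : ℕ) (c : N F2 ST) (z : CE (Lp M)) :
    (LA M).op c (itrN M m z) = itrN M m ((LA M).op (N.map F2 (mulH m) c) z) :=
  TAct.op_twist (A := LA M) (B := LA M) _ (mulH m) (fun n s x => sing_ext fun u => by
    change rot (ev s u) (itr m (ev x u)) = itr m (rot (m • ev s u) (ev x u))
    exact rot_itr M m _ _) c z

theorem gN_LA (z : CE (Lp M)) :
    (LA M).gN z = N.map F2 (SS.SingMap (rot ((1 / 2 : ℝ) : UnitAddCircle) : C(Lp M, Lp M))) z := by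
  unfold TAct.gN LA
  rw [TAct.rot_sing]
  rfl

theorem gN_revN (z : CE (Lp M)) : (LA M).gN (revN M z) = revN M ((LA M).gN z) := by
  rw [TAct.gN_eq, TAct.gN_eq, op_revN, N.map_sx]
  have e : negH.app 0 (vx ((1 / 2 : ℝ) : UnitAddCircle)) = vx ((1 / 2 : ℝ) : UnitAddCircle) :=
    sing_ext fun (u : stdSimplex ℝ (Fin (0 + 1))) => by
      change - ((1 / 2 : ℝ) : UnitAddCircle) = ((1 / 2 : ℝ) : UnitAddCircle)
      exact neg_eq_of_add_eq_zero_left TAct.half_add_half
  rw [e]

theorem gN_dblN (z : CE (Lp M)) : (LA M).gN (itrN M 2 z) = itrN M 2 z := by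
  rw [TAct.gN_eq, op_itrN, N.map_sx]
  have : (mulH 2).app 0 (vx ((1 / 2 : ℝ) : UnitAddCircle)) = vx 0 := sing_ext fun u => by
    change 2 • ((1 / 2 : ℝ) : UnitAddCircle) = 0
    rw [two_smul]; exact TAct.half_add_half
  rw [this, TAct.op_vx, TAct.rot_zero, map_idHom]

/-- `Δ` kills doubled chains -/
theorem Del_dblN (z : CE (Lp M)) :
    (LA M).hN (itrN M 2 z) + (LA M).gN ((LA M).hN (itrN M 2 z)) = 0 := by
  rw [← TAct.hN_gN, gN_dblN, TC.add_self]

theorem revN_itrN (m : ℕ) (z : CE (Lp M)) : revN M (itrN M m z) = itrN M m (revN M z) := by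
  unfold revN itrN
  rw [map_map, map_map]
  have : (SS.SingMap (rev : C(Lp M, Lp M))).comp (SS.SingMap (itr m)) =
      (SS.SingMap (itr m : C(Lp M, Lp M))).comp (SS.SingMap rev) :=
    SS.Hom.ext (funext fun n => funext fun σ => sing_ext fun u => by
      change rev (itr m (ev σ u)) = itr m (rev (ev σ u))
      ext x
      simp)
  rw [this]

theorem revN_mem {t : ℝ} : ∀ z ∈ CS (X M t), revN M z ∈ CS (X M t) :=
  map_mem_of_CS fun n σ hσ => by
    unfold revN
    rw [N.map_sx]
    exact sx_mem_CS fun u => rev_mem (hσ u)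

theorem itrN_mem (m : ℕ) {t : ℝ} : ∀ z ∈ CS (X M t), itrN M m z ∈ CS (X M (m * t)) :=
  map_mem_of_CS fun n σ hσ => by
    unfold itrN
    rw [N.map_sx]
    exact sx_mem_CS fun u => itr_mem (hσ u) m

theorem rot_const (v : UnitAddCircle) (γ : Lp M) (h : γ ∈ X M 0) : rot v γ = γ := by
  ext x
  rw [mem_X_zero] at h
  rw [rot_apply, h, h x]

theorem op_const (c : N F2 ST) : ∀ z ∈ CS (X M 0), (LA M).op c z = aug F2 c • z :=
  TAct.op_trivial (fun v γ h => rot_const M v γ h) c

theorem hN_const : ∀ z ∈ CS (X M 0), (LA M).hN z = 0 :=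
  TAct.hN_trivial (fun v γ h => rot_const M v γ h)

theorem gN_const : ∀ z ∈ CS (X M 0), (LA M).gN z = z :=
  TAct.gN_fixed (fun γ h => rot_const M _ γ h)

end loops

end Crest.Agent.R231.TActx569
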