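import Crest.Agent.R231.InstC_895
import Crest.Agent.R231.A1Fld_901
import Crest.Agent.R231.A3Alg_617
import Crest.Agent.R231.A3Q_657
import Crest.Agent.R231.TMap_569
import Crest.Agent.R231.IfPT_200

/-!
# Row 231, block T: the wiring onto the concrete objects of `Instx895` (helper482)

* `TIn M k` : the output of the topology of `Λ S^n` (`k = n - 1`): cycles `A m` (class of `x^m`) and
  `v m` (path of rotations of `A m`), strict identities, basis theorem, non-vanishing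
* `TIn.perm` : every relative cycle of parity `k + 1` is permanent; `TIn.A1P`
* `TIn.A3_gen` : the fields `A3op`, `A3tau` in the degree `e + 1 = L k` (`L` odd or `k` even)
* `tout : TIn M (n-1) → KapOps M → IfPTx200.TOut n M`
-/

set_option autoImplicit false
set_option linter.unusedSectionVars false

noncomputable section

open Function Topology
open Crest.Agent.R204

namespace Crest.Agent.R231.TOutx482

open SingAct265 EZ271 EZ847 Pairx877 TActx569 TCx569 IfAx978 Gr334 Instx895 A1Spanx901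
  A3Algx617
open GLugx576 hiding dbl

variable {M : Type} [MetricSpace M]

/-! ## generalities -/

/-- replace a loop by the constant loop at its base point -/
def cst0 (M : Type) [MetricSpace M] : C(Lp M, Lp M) :=
  ⟨fun γ => ContinuousMap.const _ (γ 0), ContinuousMap.continuous_const'.comp
    (continuous_eval_const 0)⟩

@[simp] theorem cst0_apply (γ : Lp M) (x : UnitAddCircle) : cst0 M γ x = γ 0 := rfl

theorem cst0_mem (γ : Lp M) : cst0 M γ ∈ X M 0 := const_mem le_rfl _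

theorem cst0_const {γ : Lp M} (h : γ ∈ X M 0) : cst0 M γ = γ := by
  ext x
  rw [mem_X_zero] at h
  rw [cst0_apply, h x]

/-- the chain map of `cst0` -/
def cN (M : Type) [MetricSpace M] : CE (Lp M) →ₗ[F2] CE (Lp M) := N.map F2 (SS.SingMap (cst0 M))

theorem bd_cN (z : CE (Lp M)) : bdE (Lp M) (cN M z) = cN M (bdE (Lp M) z) := (map_bd' F2 _ _).symm

theorem cN_gr {j : ℕ} {z : CE (Lp M)} (h : z ∈ N.gr F2 (SS.Sing (Lp M)) j) :
    cN M z ∈ N.gr F2 (SS.Sing (Lp M)) j := map_mem_gr _ h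

theorem cN_mem (z : CE (Lp M)) : cN M z ∈ CS (X M 0) :=
  map_mem_CS _ (fun _ _ _ => cst0_mem _) z

theorem cN_const : ∀ z ∈ CS (X M 0), cN M z = z :=
  eq_on_CS (f := cN M) (g := LinearMap.id) fun n σ h => by
    rw [LinearMap.id_apply]
    unfold cN
    rw [N.map_sx]
    congr 1
    exact sing_ext fun t => cst0_const (h t)

theorem X0_le_WL : CS (X M 0) ≤ WL M := CS_le_CL 0

theorem cycle_of_rel {z : CE (Lp M)} (h : bdE (Lp M) z ∈ CS (X M 0)) :
    bdE (Lp M) (z + cN M z) = 0 := by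
  rw [map_add, bd_cN, cN_const _ h, Instx895.add_self]

/-- membership from spanning sets -/
theorem mem_of_span {j : ℕ} (P : Submodule (ZMod 2) ((mix M).C j)) (hB : Bd (FF M 0) ⊤ j ≤ P)
    (G : Set (CE (Lp M))) (hG : ∀ g ∈ G, ∃ y : (mix M).C j, vl j y = g ∧ y ∈ P)
    {x : (mix M).C j} (hx : vl j x ∈ Submodule.span F2 G ⊔ Binf0 M) : x ∈ P := by
  obtain ⟨s, hs, b, hb, e⟩ := Submodule.mem_sup.1 hx
  have h1 : Submodule.span F2 G ≤ P.map (vl (M := M) j) :=
    Submodule.span_le.2 fun g hg => by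
      obtain ⟨y, hy, hyP⟩ := hG g hg
      exact ⟨y, hyP, hy⟩
  obtain ⟨y, hy, rfl⟩ := h1 hs
  have h2 : x - y ∈ Bd (FF M 0) ⊤ j := by
    rw [mem_Bd_top', map_sub, ← e, add_sub_cancel_left]
    exact hb
  have h3 := P.add_mem (hB h2) hy
  rwa [sub_add_cancel] at h3


/-! ## the input -/

/-- generators in degree `j` -/
def Gen (A v : ℕ → CE (Lp M)) (k j : ℕ) : Set (CE (Lp M)) :=
  {g | ∃ m, m * k = j ∧ g = A m} ∪ {g | ∃ m, 1 ≤ m ∧ m * k + 1 = j ∧ g = v m}

/-- **the output of the topology of `Λ S^n`**, `k = n - 1` -/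
structure TIn (M : Type) [MetricSpace M] (k : ℕ) where
  k_pos : 1 ≤ k
  /-- cycles of class `x^m` -/
  A : ℕ → CE (Lp M)
  /-- the path of rotations `[0, 1/m]` of `A m` -/
  v : ℕ → CE (Lp M)
  A_gr : ∀ m, A m ∈ N.gr F2 (SS.Sing (Lp M)) (m * k)
  A_WL : ∀ m, A m ∈ WL M
  A_cyc : ∀ m, bdE (Lp M) (A m) = 0
  A_g : ∀ m, m % 2 = 0 → (LA M).gN (A m) = A m
  A_zero : A 0 ∈ CS (X M 0)
  v_gr : ∀ m, 1 ≤ m → v m ∈ N.gr F2 (SS.Sing (Lp M)) (m * k + 1)
  v_WL : ∀ m, 1 ≤ m → v m ∈ WL M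
  v_cyc : ∀ m, 1 ≤ m → bdE (Lp M) (v m) = 0
  v_g : ∀ m, 1 ≤ m → m % 2 = 0 → (LA M).gN (v m) = v m
  De_odd : ∀ m, m % 2 = 1 → DelN M (A m) + v m ∈ (WL M).map (bdE (Lp M))
  /-- basis theorem -/
  span : ∀ (j : ℕ) (c : CE (Lp M)), c ∈ N.gr F2 (SS.Sing (Lp M)) j → c ∈ WL M →
    bdE (Lp M) c = 0 → c ∈ Submodule.span F2 (Gen A v k j) ⊔ (WL M).map (bdE (Lp M))
  /-- non-vanishing modulo constant loops -/
  v_ne : ∀ m, 2 ≤ m → v m ∉ Binf0 M
  A_ne : ∀ m, 1 ≤ m → A m ∉ Binf0 M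
  /-- base point -/
  p : M
  A_based : ∀ m, A m ∈ CS {γ : Lp M | γ 0 = p}
  /-- basis theorem for the based loops (only used for `k = 1`) -/
  Ospan : k = 1 → ∀ (j : ℕ) (c : CE (Lp M)), c ∈ N.gr F2 (SS.Sing (Lp M)) (j + 1) →
    c ∈ CS {γ : Lp M | γ 0 = p} ⊓ WL M → bdE (Lp M) c = 0 →
    c ∈ (CS {γ : Lp M | γ 0 = p} ⊓ WL M).map (bdE (Lp M)) ∨
    c + A (j + 1) ∈ (CS {γ : Lp M | γ 0 = p} ⊓ WL M).map (bdE (Lp M))

theorem map_le_Binf0 : (WL M).map (bdE (Lp M)) ≤ Binf0 M := le_sup_right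
theorem X0_le_Binf0 : CS (X M 0) ≤ Binf0 M := le_sup_left

theorem Del_of_g {z : CE (Lp M)} (h : (LA M).gN z = z) : DelN M z = 0 := by
  rw [DelN_apply, ← TAct.hN_gN, h, Instx895.add_self]

theorem perm_of {j : ℕ} {g : CE (Lp M)} (h1 : g ∈ N.gr F2 (SS.Sing (Lp M)) j) (h2 : g ∈ WL M)
    (h3 : bdE (Lp M) g = 0) (h4 : DelN M g = 0) : mk g h1 h2 ∈ Perm (FF M 0) j := by
  refine mem_Perm_of_De ?_ ?_
  · intro k hk
    cases hk
    rw [mem_FF, vl_d, vl_mk, h3]
    exact Submodule.zero_mem _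
  · rw [mem_FF, vl_De, vl_mk, h4]
    exact Submodule.zero_mem _

namespace TIn

variable {k : ℕ} (T : TIn M k)
include T

/-- relative basis theorem -/
theorem rel_span {j : ℕ} {x : (mix M).C j} (hx : bdE (Lp M) (vl j x) ∈ CS (X M 0)) :
    vl j x ∈ Submodule.span F2 (Gen T.A T.v k j) ⊔ Binf0 M := by
  have h1 := T.span j (vl j x + cN M (vl j x)) (Submodule.add_mem _ (vl_mem_gr x)
    (cN_gr (vl_mem_gr x))) (Submodule.add_mem _ (vl_mem_CL x) (X0_le_WL (cN_mem _)))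
    (cycle_of_rel hx)
  have h2 := Submodule.add_mem _ ((sup_le_sup_left map_le_Binf0 _ :
    _ ≤ Submodule.span F2 (Gen T.A T.v k j) ⊔ Binf0 M) h1)
    (Submodule.mem_sup_right (X0_le_Binf0 (cN_mem (vl j x))))
  rwa [add_assoc, Instx895.add_self, add_zero] at h2

/-- **every relative cycle of parity `k + 1` is permanent** -/
theorem perm : ∀ i, i % 2 = (k + 1) % 2 → Zc (FF M 0) ⊤ i ≤ Perm (FF M 0) i := by
  intro i hi x hx
  refine mem_of_span _ (Bd_le_Perm _ _) _ ?_ (T.rel_span (mem_Zc_top.1 hx))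
  rintro g (⟨m, hm, rfl⟩ | ⟨m, hm1, hm, rfl⟩)
  · have hm2 : m % 2 = 0 := by
      have h1 : (m % 2) * (k % 2) % 2 = i % 2 := by rw [← Nat.mul_mod, hm]
      rcases Nat.mod_two_eq_zero_or_one m with h | h
      · exact h
      · rcases Nat.mod_two_eq_zero_or_one k with h' | h'
        · rw [h, h'] at h1; omega
        · rw [h, h'] at h1; omega
    subst hm
    exact ⟨Instx895.mk (T.A m) (T.A_gr m) (T.A_WL m), rfl,
      perm_of _ _ (T.A_cyc m) (Del_of_g (T.A_g m hm2))⟩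
  · subst hm
    refine ⟨Instx895.mk (T.v m) (T.v_gr m hm1) (T.v_WL m hm1), rfl, ?_⟩
    rcases Nat.mod_two_eq_zero_or_one m with h | h
    · exact perm_of _ _ (T.v_cyc m hm1) (Del_of_g (T.v_g m hm1 h))
    · have h1 : (mix M).De _ (Instx895.mk (T.A m) (T.A_gr m) (T.A_WL m)) ∈ Perm (FF M 0) (m * k + 1) := by
        refine De_mem_Perm (stab_FF 0) (mem_Zc_top.2 ?_)
        rw [vl_mk, T.A_cyc]; exact Submodule.zero_mem _
      have h2 : (mix M).De _ (Instx895.mk (T.A m) (T.A_gr m) (T.A_WL m)) +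
          Instx895.mk (T.v m) (T.v_gr m hm1) (T.v_WL m hm1) ∈ Bd (FF M 0) ⊤ (m * k + 1) := by
        rw [mem_Bd_top', map_add, vl_De, vl_mk, vl_mk]
        exact map_le_Binf0 (T.De_odd m h)
      have h3 := Submodule.add_mem _ h1 (Bd_le_Perm _ _ h2)
      rwa [← add_assoc, A1Spanx901.self_add, zero_add] at h3

/-- **the field `A1`** -/
theorem A1P (h : A2P M) : A1P M k := A1Fldx901.A1_field (fun _ _ h j => FL_mono M h j) stab_FF k
  T.perm h

end TIn

/-! ## reversal: the operator `kap` of helper617 -/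

variable (M) in
/-- the degree `2` operator with `τ Δ + Δ τ = d kap + kap d` -/
structure KapOps where
  kap : ∀ j, (mix M).C j →ₗ[ZMod 2] (mix M).C (j + 2)
  B_kap : ∀ j x, x ∈ FF M 0 j → kap j x ∈ FF M 0 (j + 2)
  tauDe : ∀ j x, tauC M (j + 2) ((mix M).De (j + 1) x) + (mix M).De (j + 1) (tauC M (j + 1) x) =
    (mix M).d (j + 2) (kap (j + 1) x) + kap j ((mix M).d j x)
  kap_cyc : ∀ j, ∀ z ∈ Zc (FF M 0) ⊤ (j + 1),
    tauC M (j + 3) (kap (j + 1) z) + kap (j + 1) (tauC M (j + 1) z) ∈ Bd (FF M 0) ⊤ (j + 3)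

/-- the mixed complex with reversal -/
abbrev KapOps.rmix (K : KapOps M) : RMix where
  X := mix M
  tau := tauC M
  kap := K.kap
  B := FF M 0
  tau_tau := tau_tauC
  d_tau := d_tauC
  B_d := (stab_FF 0).d
  B_tau := FF_tau 0
  B_De := (stab_FF 0).De
  B_kap := K.B_kap
  tauDe := K.tauDe
  kap_cyc := K.kap_cyc

theorem mem_Bo (K : KapOps M) {j : ℕ} {x : (mix M).C j} :
    x ∈ K.rmix.Bo j ↔ vl j x ∈ Binf0 M := mem_Bd_top'

theorem cy_iff' (K : KapOps M) {j : ℕ} {x : (mix M).C (j + 1)} :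
    K.rmix.Cy j x ↔ bdE (Lp M) (vl (j + 1) x) ∈ CS (X M 0) := Iff.rfl

theorem a3opP_of (K : KapOps M) {j : ℕ} (h : K.rmix.A3op j) : A3opP M (j + 1) :=
  fun m0 m1 hm1 h0 => h m0 m1 (K.rmix.cy_iff.1 hm1) h0

theorem a3tauP_of (K : KapOps M) {j : ℕ} (h : K.rmix.Triv j) : A3tauP M (j + 1) :=
  fun m1 hm1 => h m1 (K.rmix.cy_iff.1 hm1)

section rmix
variable (R : RMix)

/-- **transfer of the classes `Δ a`** (`a + τ a ~ 0`, `Δ = 0` on the next homology) -/
theorem q_De {j : ℕ} (a : R.X.C (j + 1)) (ha : R.Cy j a) (hta : a + R.tau _ a ∈ R.Bo (j + 1))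
    (hDe : ∀ z : R.X.C (j + 2), R.Cy (j + 1) z → R.X.De _ z ∈ R.Bo (j + 3)) :
    ∃ m : R.X.C (j + 3), R.X.d _ m + (R.X.De _ a + R.tau _ (R.X.De _ a)) ∈ R.B (j + 2) ∧
      m + R.tau _ m ∈ R.Bo (j + 3) := by
  obtain ⟨w, hw⟩ := R.mem_Bo.1 hta
  set b := a + R.tau _ a + R.X.d _ w with hb
  have ew : R.X.d _ w = a + R.tau _ a + b := by
    rw [hb]; linear_combination (norm := abel) - dbl a - dbl (R.tau _ a)
  have E1 := R.tauDe j a
  have E2 := R.X.dDe _ w
  rw [ew] at E2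
  have E3 := R.tauDe _ w
  rw [ew] at E3
  refine ⟨R.X.De _ w + R.kap _ a, ?_, ?_⟩
  · have e : R.X.d _ (R.X.De _ w + R.kap _ a) + (R.X.De _ a + R.tau _ (R.X.De _ a)) =
        R.kap _ (R.X.d _ a) + R.X.De _ b := by
      simp only [map_add] at E2 ⊢
      rw [E2]
      linear_combination (norm := abel) - E1 + dbl (R.X.De _ a) + dbl (R.tau _ (R.X.De _ a)) +
        dbl (R.X.De _ (R.tau _ a)) - dbl (R.kap _ (R.X.d _ a))
    rw [e]
    exact Submodule.add_mem _ (R.B_kap _ _ ha) (R.B_De _ _ hw)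
  · have hc : R.Cy (j + 1) (w + R.tau _ w) := by
      unfold RMix.Cy
      have h2 := R.B_tau _ _ hw
      have e : R.X.d _ (w + R.tau _ w) = b + R.tau _ b := by
        rw [map_add, R.d_tau, ew]
        simp only [map_add, R.tau_tau]
        linear_combination (norm := abel) dbl a + dbl (R.tau _ a)
      rw [e]; exact Submodule.add_mem _ hw h2
    have h3 := hDe _ hc
    have h4 := R.kap_cyc j a (R.cy_iff.2 ha)
    have e : R.X.De _ w + R.kap _ a + R.tau _ (R.X.De _ w + R.kap _ a) =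
        R.X.De _ (w + R.tau _ w) + R.X.d _ (R.kap _ w) +
        (R.tau _ (R.kap _ a) + R.kap _ (R.tau _ a)) + R.kap _ b := by
      simp only [map_add] at E3 ⊢
      linear_combination (norm := abel) E3 - dbl (R.X.De _ (R.tau _ w)) + dbl (R.kap _ a)
    rw [e]
    exact Submodule.add_mem _ (Submodule.add_mem _ (Submodule.add_mem _ h3 (R.d_mem _ _)) h4)
      (R.B_le (R.B_kap _ _ hw))

/-- **`n = 3`**: `N_{d-1} = ⟨Δ a⟩` and `τ = 1` on `N_d` imply `A3op` -/
theorem a3_three {j : ℕ} (a : R.X.C (j + 1)) (ha : R.Cy j a) (hta : a + R.tau _ a ∈ R.Bo (j + 1))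
    (hs : R.Span1 (j + 1) (R.X.De _ a)) (ht : R.Triv (j + 2)) : R.A3op (j + 1) := by
  have hDe : ∀ z : R.X.C (j + 2), R.Cy (j + 1) z → R.X.De _ z ∈ R.Bo (j + 3) := by
    intro z hz
    rcases hs z hz with h | h
    · exact R.Bo_De h
    · have h2 := R.Bo_De h
      rwa [map_add, R.X.DeDe, add_zero] at h2
  obtain ⟨q, hq, hQ⟩ := q_De R a ha hta hDe
  intro m0 m1 h1 h0
  have key : ∀ c : ZMod 2, m1 + c • R.X.De _ a ∈ R.Bo (j + 2) → m0 + R.tau _ m0 ∈ R.Bo (j + 3) := by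
    intro c h
    obtain ⟨w, hw⟩ := R.mem_Bo.1 h
    set y := R.X.De _ a with hy
    set x := m0 + c • q + (w + R.tau _ w) with hx
    have hcy : R.Cy (j + 2) x := by
      unfold RMix.Cy
      have h5 := R.B_tau _ _ hw
      have e : R.X.d _ x = (R.X.d _ m0 + (m1 + R.tau _ m1)) + c • (R.X.d _ q + (y + R.tau _ y)) +
          (m1 + c • y + R.X.d _ w) + R.tau _ (m1 + c • y + R.X.d _ w) := by
        rw [hx]
        simp only [map_add, map_smul, R.d_tau, smul_add]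
        linear_combination (norm := abel) - dbl m1 - dbl (R.tau _ m1) - dbl (c • y) -
          dbl (c • R.tau _ y)
      rw [e]
      exact Submodule.add_mem _ (Submodule.add_mem _ (Submodule.add_mem _ h0
        (Submodule.smul_mem _ _ hq)) hw) h5
    have e : m0 + R.tau _ m0 = (x + R.tau _ x) + c • (q + R.tau _ q) := by
      rw [hx]
      simp only [map_add, map_smul, R.tau_tau, smul_add]
      linear_combination (norm := abel) - dbl (c • q) - dbl (c • R.tau _ q) - dbl w -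
        dbl (R.tau _ w)
    rw [e]
    exact Submodule.add_mem _ (ht x hcy) (Submodule.smul_mem _ _ hQ)
  rcases hs m1 h1 with h | h
  · exact key 0 (by rwa [zero_smul, add_zero])
  · exact key 1 (by rwa [one_smul])

end rmix

/-! ## the fields `A3op`, `A3tau` -/

theorem exists_eq_of_span {G : Set (CE (Lp M))} {g0 : CE (Lp M)} (h : ∀ g ∈ G, g = g0)
    {z : CE (Lp M)} (hz : z ∈ Submodule.span F2 G ⊔ Binf0 M) : z ∈ Binf0 M ∨ z + g0 ∈ Binf0 M := by
  obtain ⟨s, hs, b, hb, rfl⟩ := Submodule.mem_sup.1 hz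
  have h1 : Submodule.span F2 G ≤ Submodule.span F2 {g0} :=
    Submodule.span_mono fun g hg => h g hg
  obtain ⟨c, rfl⟩ := Submodule.mem_span_singleton.1 (h1 hs)
  have h2 : ∀ r : F2, r = 0 ∨ r = 1 := by decide
  rcases h2 c with rfl | rfl
  · left; rwa [zero_smul, zero_add]
  · right
    rw [one_smul, show g0 + b + g0 = b + (g0 + g0) by abel, Instx895.add_self, add_zero]
    exact hb

theorem exists_eq_of_span2 {G : Set (CE (Lp M))} {g0 g1 : CE (Lp M)} (h : ∀ g ∈ G, g = g0 ∨ g = g1)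
    {z : CE (Lp M)} (hz : z ∈ Submodule.span F2 G ⊔ Binf0 M) :
    ∃ α β : ZMod 2, z + α • g0 + β • g1 ∈ Binf0 M := by
  obtain ⟨s, hs, b, hb, rfl⟩ := Submodule.mem_sup.1 hz
  have h1 : Submodule.span F2 G ≤ Submodule.span F2 {g0, g1} :=
    Submodule.span_mono fun g hg => h g hg
  obtain ⟨α, β, rfl⟩ := Submodule.mem_span_pair.1 (h1 hs)
  refine ⟨α, β, ?_⟩
  rw [show α • g0 + β • g1 + b + α • g0 + β • g1 = b + (α • g0 + α • g0) + (β • g1 + β • g1) by
    abel, Instx895.add_self, Instx895.add_self, add_zero, add_zero]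
  exact hb

namespace TIn

variable {k : ℕ} (T : TIn M k) (K : KapOps M)
include T

/-- the generator `A m` in degree `j` -/
def cA (m : ℕ) {j : ℕ} (h : m * k = j) : (mix M).C j :=
  Instx895.mk (T.A m) (h ▸ T.A_gr m) (T.A_WL m)

@[simp] theorem vl_cA (m : ℕ) {j : ℕ} (h : m * k = j) : vl j (T.cA m h) = T.A m := rfl

theorem cy_cA (m : ℕ) {j : ℕ} (h : m * k = j + 1) : K.rmix.Cy j (T.cA m h) := by
  rw [cy_iff', vl_cA, T.A_cyc]
  exact Submodule.zero_mem _

/-- spanning in a degree with at most one generator -/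
theorem span1 {j : ℕ} {g0 : CE (Lp M)} (h : ∀ g ∈ Gen T.A T.v k j, g = g0) (x : (mix M).C j)
    (hx : bdE (Lp M) (vl j x) ∈ CS (X M 0)) : vl j x ∈ Binf0 M ∨ vl j x + g0 ∈ Binf0 M :=
  exists_eq_of_span h (T.rel_span hx)

theorem dim1_of {j : ℕ} {g0 : CE (Lp M)} (h : ∀ g ∈ Gen T.A T.v k (j + 1), g = g0) :
    K.rmix.Dim1 j := by
  intro z z' hz hz'
  rcases T.span1 h z hz with h1 | h1
  · exact Or.inl ((mem_Bo K).2 h1)
  rcases T.span1 h z' hz' with h2 | h2
  · exact Or.inr (Or.inl ((mem_Bo K).2 h2))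
  refine Or.inr (Or.inr ((mem_Bo K).2 ?_))
  have e : vl (j + 1) (z + z') = (vl _ z + g0) + (vl _ z' + g0) := by
    rw [map_add, show vl (j + 1) z + g0 + (vl (j + 1) z' + g0) =
      vl (j + 1) z + vl (j + 1) z' + (g0 + g0) by abel, Instx895.add_self, add_zero]
  rw [e]; exact Submodule.add_mem _ h1 h2

/-- for `k ≥ 2` there is at most one generator in every degree -/
theorem one_gen (hk : 2 ≤ k) (j : ℕ) : ∃ g0, ∀ g ∈ Gen T.A T.v k j, g = g0 := by
  by_cases h1 : ∃ m, m * k = j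
  · obtain ⟨m, rfl⟩ := h1
    refine ⟨T.A m, ?_⟩
    rintro g (⟨m', hm, rfl⟩ | ⟨m', -, hm, -⟩)
    · rw [Nat.eq_of_mul_eq_mul_right (by omega) hm]
    · exfalso
      have h2 : k ∣ 1 := (Nat.dvd_add_right (Dvd.intro_left m' rfl)).1
        (hm ▸ Dvd.intro_left m rfl)
      have := Nat.le_of_dvd one_pos h2
      omega
  · by_cases h2 : ∃ m, m * k + 1 = j
    · obtain ⟨m, rfl⟩ := h2
      refine ⟨T.v m, ?_⟩
      rintro g (⟨m', hm, -⟩ | ⟨m', -, hm, rfl⟩)
      · exact absurd ⟨m', hm⟩ h1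
      · rw [Nat.eq_of_mul_eq_mul_right (by omega) (Nat.add_right_cancel hm)]
    · refine ⟨0, ?_⟩
      rintro g (⟨m', hm, -⟩ | ⟨m', -, hm, -⟩)
      · exact absurd ⟨m', hm⟩ h1
      · exact absurd ⟨m', hm⟩ h2

/-- `Δ A m ~ v m` for `m` odd -/
theorem De_cA {m : ℕ} (hm : m % 2 = 1) {j : ℕ} (h : m * k = j) :
    vl (j + 1) ((mix M).De j (T.cA m h)) + T.v m ∈ Binf0 M := by
  rw [vl_De, vl_cA]
  exact map_le_Binf0 (T.De_odd m hm)

theorem gen_eq_v {m : ℕ} (hm : m % 2 = 1) {j : ℕ} (h : m * k = j) {z : CE (Lp M)}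
    (hz : z + T.v m ∈ Binf0 M) : z + vl (j + 1) ((mix M).De j (T.cA m h)) ∈ Binf0 M := by
  have h1 := Submodule.add_mem _ hz (T.De_cA hm h)
  rwa [show z + T.v m + (vl (j + 1) ((mix M).De j (T.cA m h)) + T.v m) =
    z + vl (j + 1) ((mix M).De j (T.cA m h)) + (T.v m + T.v m) by abel, Instx895.add_self,
    add_zero] at h1

/-! ### the easy case: `N_{d-1} = 0` -/

theorem low {e : ℕ} (h : ∀ g ∈ Gen T.A T.v k e, g ∈ Binf0 M) :
    Zc (FF M 0) ⊤ e ≤ Bd (FF M 0) ⊤ e := by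
  intro x hx
  rw [mem_Bd_top']
  have h1 := T.rel_span (mem_Zc_top.1 hx)
  exact (sup_le (Submodule.span_le.2 h) le_rfl : _ ≤ Binf0 M) h1

include K in
theorem a3_low {e : ℕ} (h : ∀ g ∈ Gen T.A T.v k e, g ∈ Binf0 M) {g0 : CE (Lp M)}
    (h1 : ∀ g ∈ Gen T.A T.v k (e + 1), g = g0) : A3opP M e ∧ A3tauP M e := by
  have hT : K.rmix.Triv e := (T.dim1_of K h1).triv
  refine ⟨fun m0 m1 hm1 h0 => ?_, fun m1 hm1 => ?_⟩
  · exact A3Qx657.A3op_zero (FF_tau 0) tau_tauC d_tauC (T.low h)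
      (fun z hz => hT z ((K.rmix.cy_iff).1 hz)) m0 m1 hm1 h0
  · exact Submodule.add_mem _ (T.low h hm1) (K.rmix.Bo_tau (T.low h hm1))

/-! ### `n = 3` -/

include K in
theorem a3_n3 (hk : k = 2) (a : ℕ) : A3opP M (4 * a + 3) ∧ A3tauP M (4 * a + 3) := by
  have h0 : ∀ j, ∃ g0, ∀ g ∈ Gen T.A T.v k j, g = g0 := T.one_gen hk.ge
  have hT : ∀ j, K.rmix.Triv j := fun j => by
    obtain ⟨g0, h⟩ := h0 (j + 1)
    exact (T.dim1_of K h).triv
  have hd : (2 * a + 1) * k = 4 * a + 1 + 1 := by subst hk; ring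
  refine ⟨a3opP_of K (j := 4 * a + 1 + 1) (a3_three K.rmix (j := 4 * a + 1)
    (T.cA (2 * a + 1) hd) (T.cy_cA K _ hd) (hT _ _ (T.cy_cA K _ hd)) ?_ (hT _)),
    a3tauP_of K (hT (4 * a + 1 + 1))⟩
  intro z hz
  have hg : ∀ g ∈ Gen T.A T.v k (4 * a + 1 + 1 + 1), g = T.v (2 * a + 1) := by
    rintro g (⟨m, hm, rfl⟩ | ⟨m, -, hm, rfl⟩)
    · subst hk; omega
    · have : m = 2 * a + 1 := by subst hk; omega
      rw [this]
  rcases T.span1 hg z hz with h | h
  · exact Or.inl ((mem_Bo K).2 h)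
  · right
    rw [mem_Bo, map_add]
    exact T.gen_eq_v (by omega) hd h

/-! ### `n = 2` -/

omit T in
theorem fin2 (c : ZMod 2) : c = 0 ∨ c = 1 := by
  fin_cases c
  · exact Or.inl rfl
  · exact Or.inr rfl

/-- spanning in a degree with two generators, the second one replaced by `Δ A m` -/
theorem span2 {j m : ℕ} (hm : m % 2 = 1) (h : m * k = j) {g0 : CE (Lp M)}
    (hG : ∀ g ∈ Gen T.A T.v k (j + 1), g = g0 ∨ g = T.v m) (x : (mix M).C (j + 1))
    (hx : bdE (Lp M) (vl (j + 1) x) ∈ CS (X M 0)) :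
    ∃ α β : ZMod 2, vl (j + 1) x + α • g0 + β • vl (j + 1) ((mix M).De j (T.cA m h)) ∈ Binf0 M := by
  obtain ⟨α, β, h1⟩ := exists_eq_of_span2 hG (T.rel_span hx)
  refine ⟨α, β, ?_⟩
  have h2 := Submodule.add_mem _ h1 (Submodule.smul_mem _ β (T.De_cA hm h))
  rw [smul_add] at h2
  rwa [show vl (j + 1) x + α • g0 + β • T.v m + (β • vl (j + 1) ((mix M).De j (T.cA m h)) +
    β • T.v m) = vl (j + 1) x + α • g0 + β • vl (j + 1) ((mix M).De j (T.cA m h)) +
    (β • T.v m + β • T.v m) by abel, Instx895.add_self, add_zero] at h2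

/-- chains of based loops -/
def ΩC : GS (mix M) := gs (CS {γ : Lp M | γ 0 = T.p})

theorem cN_based : ∀ z ∈ CS {γ : Lp M | γ 0 = T.p}, cN M z ∈ CS {γ : Lp M | γ 0 = T.p} :=
  SingMap_mem_CS (cst0 M) fun _ hy => hy

theorem homog_based : Homog (CS {γ : Lp M | γ 0 = T.p} ⊓ WL M) :=
  (homog_CS _).inf homog_CL

/-- the basis theorem for the based loops in the mixed complex -/
theorem ospan (hk : k = 1) {j : ℕ} {x : (mix M).C (j + 1)} (hx : x ∈ T.ΩC (j + 1))
    (hc : bdE (Lp M) (vl (j + 1) x) ∈ CS (X M 0)) :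
    (∃ w ∈ T.ΩC (j + 2), x + (mix M).d (j + 1) w ∈ FF M 0 (j + 1)) ∨
    (∃ w ∈ T.ΩC (j + 2), x + T.cA (j + 1) (by rw [hk, mul_one]) + (mix M).d (j + 1) w ∈
      FF M 0 (j + 1)) := by
  have h1 : vl (j + 1) x + cN M (vl (j + 1) x) ∈ CS {γ : Lp M | γ 0 = T.p} ⊓ WL M :=
    ⟨Submodule.add_mem _ hx (T.cN_based _ hx),
      Submodule.add_mem _ (vl_mem_CL x) (X0_le_WL (cN_mem _))⟩
  have hgr : T.A (j + 1) ∈ N.gr F2 (SS.Sing (Lp M)) (j + 1) := by
    have := T.A_gr (j + 1)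
    rwa [show (j + 1) * k = j + 1 by rw [hk, mul_one]] at this
  have key : ∀ y : CE (Lp M), y ∈ N.gr F2 (SS.Sing (Lp M)) (j + 1) →
      y ∈ (CS {γ : Lp M | γ 0 = T.p} ⊓ WL M).map (bdE (Lp M)) →
      ∃ w : (mix M).C (j + 2), w ∈ T.ΩC (j + 2) ∧ bdE (Lp M) (vl _ w) = y := by
    rintro _ hy ⟨w, hw, rfl⟩
    have h2 := T.homog_based (j + 1 + 1) w hw
    refine ⟨Instx895.mk _ (prN_mem (j + 1 + 1) w) h2.2, h2.1, ?_⟩
    rw [vl_mk, ← prN_bd, prN_of_mem hy]
  have e2 : ∀ y z c : CE (Lp M), z = y + c → y + z = c := by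
    rintro y z c rfl
    rw [← add_assoc, Instx895.add_self, zero_add]
  rcases T.Ospan hk j _ (Submodule.add_mem _ (vl_mem_gr x) (cN_gr (vl_mem_gr x))) h1
    (cycle_of_rel hc) with h | h
  · obtain ⟨w, hw, h⟩ := key _ (Submodule.add_mem _ (vl_mem_gr x) (cN_gr (vl_mem_gr x))) h
    refine Or.inl ⟨w, hw, ?_⟩
    rw [mem_FF, map_add, vl_d, e2 _ _ _ h]
    exact cN_mem _
  · obtain ⟨w, hw, h⟩ := key _ (Submodule.add_mem _ (Submodule.add_mem _ (vl_mem_gr x)
      (cN_gr (vl_mem_gr x))) hgr) h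
    refine Or.inr ⟨w, hw, ?_⟩
    rw [mem_FF, map_add, map_add, vl_d, vl_cA, e2 (vl (j + 1) x + T.A (j + 1)) _
      (cN M (vl (j + 1) x)) (by rw [h]; abel)]
    exact cN_mem _

theorem gen_one (hk : k = 1) {j : ℕ} {m : ℕ} (hm : m = j) :
    ∀ g ∈ Gen T.A T.v k (j + 1), g = T.A (j + 1) ∨ g = T.v m := by
  subst hk hm
  rintro g (⟨m', hm', rfl⟩ | ⟨m', -, hm', rfl⟩)
  · left; rw [show m' = m + 1 by omega]
  · right; rw [show m' = m by omega]

/-- the data of helper617 for `n = 2` -/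
def two (hk : k = 1) (f : ℕ) (hf : f % 2 = 0) : K.rmix.Two f where
  O := T.ΩC
  O_d _ _ h := bd_mem_CS _ h
  O_tau _ _ h := tauN_mem_CS (fun y (hy : y 0 = T.p) => by
    change rev y 0 = T.p
    rw [← hy, rev_apply, neg_zero]) _ h
  a j := T.cA j (by rw [hk, mul_one])
  aO j := T.A_based j
  a_cy j := T.cy_cA K (j + 1) _
  Ospan j x hx hc := T.ospan hk hx hc
  span1 z hz := by
    obtain ⟨α, β, h⟩ := T.span2 (j := f + 1) (m := f + 1) (by omega) (by rw [hk, mul_one])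
      (T.gen_one hk rfl) z hz
    exact ⟨α, β, (mem_Bo K).2 h⟩
  span3 z hz := by
    obtain ⟨α, β, h⟩ := T.span2 (j := f + 3) (m := f + 3) (by omega) (by rw [hk, mul_one])
      (T.gen_one hk rfl) z hz
    exact ⟨α, β, (mem_Bo K).2 h⟩
  quot := by
    have key : ∀ v : (mix M).C (f + 3), bdE (Lp M) (vl (f + 3) v) ∈ CS (X M 0) →
        ∃ α β : ZMod 2, vl (f + 3) v + α • T.A (f + 3) + β • T.v (f + 2) ∈ Binf0 M :=
      fun v hv => exists_eq_of_span2 (T.gen_one hk (j := f + 2) rfl) (T.rel_span hv)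
    intro v v' hv hv'
    obtain ⟨α, β, h⟩ := key v hv
    obtain ⟨α', β', h'⟩ := key v' hv'
    have aux : ∀ (α : ZMod 2) (z : (mix M).C (f + 3)), vl (f + 3) z + α • T.A (f + 3) ∈ Binf0 M →
        z ∈ K.rmix.Bo (f + 3) ∨ z + T.cA (f + 3) (by rw [hk, mul_one]) ∈ K.rmix.Bo (f + 3) := by
      intro α z hz
      rcases fin2 α with rfl | rfl
      · left; rw [mem_Bo]; rwa [zero_smul, add_zero] at hz
      · right; rw [mem_Bo, map_add]; rwa [one_smul] at hz
    rcases fin2 β with rfl | rfl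
    · left
      rw [zero_smul, add_zero] at h
      exact aux α v h
    rcases fin2 β' with rfl | rfl
    · right; left
      rw [zero_smul, add_zero] at h'
      exact aux α' v' h'
    right; right
    refine aux (α + α') (v + v') ?_
    have h2 := Submodule.add_mem _ h h'
    rw [one_smul] at h2
    rw [map_add, add_smul]
    rwa [show vl (f + 3) v + α • T.A (f + 3) + T.v (f + 2) +
      (vl (f + 3) v' + α' • T.A (f + 3) + T.v (f + 2)) = vl (f + 3) v + vl (f + 3) v' +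
      (α • T.A (f + 3) + α' • T.A (f + 3)) + (T.v (f + 2) + T.v (f + 2)) by abel,
      Instx895.add_self, add_zero] at h2
  Dev := by
    left
    rw [mem_Bo, vl_De, vl_cA, Del_of_g (T.A_g (f + 2) (by omega))]
    exact Submodule.zero_mem _
  Dne h := by
    rw [mem_Bo] at h
    have h1 := Submodule.add_mem _ h (T.De_cA (m := f + 3) (by omega) (j := f + 3)
      (by rw [hk, mul_one]))
    rw [← add_assoc, Instx895.add_self, zero_add] at h1
    exact T.v_ne (f + 3) (by omega) h1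

/-! ### all `n` -/

include K in
/-- **the fields `A3op`, `A3tau`** in the degree `e + 1 = L k`, for `L` odd, or `k` even -/
theorem A3_gen {L e : ℕ} (hL : 1 ≤ L) (he : e + 1 = L * k) (hpar : L % 2 = 1 ∨ k % 2 = 0) :
    A3opP M e ∧ A3tauP M e := by
  have hk := T.k_pos
  rcases Nat.lt_or_ge 2 k with h3 | h3
  · -- `k ≥ 3`
    obtain ⟨g0, hg0⟩ := T.one_gen (by omega) (e + 1)
    refine T.a3_low K (fun g hg => ?_) hg0
    exfalso
    rcases hg with ⟨m, hm, -⟩ | ⟨m, -, hm, -⟩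
    · have h2 : k ∣ 1 := (Nat.dvd_add_right (Dvd.intro_left m rfl)).1
        ((show m * k + 1 = L * k by omega) ▸ Dvd.intro_left _ rfl)
      have := Nat.le_of_dvd one_pos h2
      omega
    · have h2 : k ∣ 2 := (Nat.dvd_add_right (Dvd.intro_left m rfl)).1
        ((show m * k + 2 = L * k by omega) ▸ Dvd.intro_left _ rfl)
      have := Nat.le_of_dvd two_pos h2
      omega
  rcases Nat.lt_or_ge 1 L with hL1 | hL1
  swap
  · -- `L = 1`
    have hL2 : L = 1 := by omega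
    have he2 : e + 1 = k := by rw [he, hL2, one_mul]
    refine T.a3_low K (g0 := T.A 1) ?_ ?_
    · rintro g (⟨m, hm, rfl⟩ | ⟨m, hm1, hm, rfl⟩)
      · have : m = 0 := by
          rcases m with _ | m
          · rfl
          · exfalso
            have : (m + 1) * k = m * k + k := by ring
            omega
        rw [this]
        exact X0_le_Binf0 T.A_zero
      · exfalso
        obtain ⟨m, rfl⟩ := Nat.exists_eq_add_of_le' hm1
        have : (m + 1) * k = m * k + k := by ring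
        omega
    · rintro g (⟨m, hm, rfl⟩ | ⟨m, hm1, hm, rfl⟩)
      · rw [he2] at hm
        have : m * k = 1 * k := by rw [hm, one_mul]
        rw [Nat.eq_of_mul_eq_mul_right (by omega) this]
      · exfalso
        obtain ⟨m, rfl⟩ := Nat.exists_eq_add_of_le' hm1
        have : (m + 1) * k = m * k + k := by ring
        omega
  obtain hk2 | hk1 : k = 2 ∨ k = 1 := by omega
  · -- `k = 2`
    have hT : ∀ j, K.rmix.Triv j := fun j => by
      obtain ⟨g0, h⟩ := T.one_gen hk2.ge (j + 1)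
      exact (T.dim1_of K h).triv
    rcases Nat.mod_two_eq_zero_or_one L with h | h
    · obtain ⟨a, rfl⟩ : ∃ a, L = 2 * a + 2 := ⟨(L - 2) / 2, by omega⟩
      have h4 : e = 4 * a + 3 := by rw [hk2] at he; omega
      rw [h4]
      exact T.a3_n3 K hk2 a
    · obtain ⟨a, rfl⟩ : ∃ a, L = a + 2 := ⟨L - 2, by omega⟩
      have h4 : e = 2 * a + 2 + 1 := by rw [hk2] at he; omega
      have hd : (a + 2) * k = 2 * a + 2 + 2 := by rw [hk2]; ring
      rw [h4]
      have hg : ∀ g ∈ Gen T.A T.v k (2 * a + 2 + 1 + 1), g = T.A (a + 2) := by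
        rintro g (⟨m, hm, rfl⟩ | ⟨m, -, hm, rfl⟩)
        · have : m = a + 2 := by subst hk2; omega
          rw [this]
        · subst hk2; omega
      refine ⟨a3opP_of K (j := 2 * a + 2) (K.rmix.a3_high (j := 2 * a + 2) (T.cA (a + 2) hd) ?_ ?_ ?_),
        a3tauP_of K (hT (2 * a + 2))⟩
      · intro z hz
        rcases T.span1 hg z hz with h | h
        · exact Or.inl ((mem_Bo K).2 h)
        · right
          rw [mem_Bo, map_add]
          exact h
      · intro h1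
        rw [mem_Bo] at h1
        have h2 := Submodule.add_mem _ h1 (T.De_cA (m := a + 2) h (j := 2 * a + 2 + 2) hd)
        rw [← add_assoc, Instx895.add_self, zero_add] at h2
        exact T.v_ne (a + 2) (by omega) h2
      · obtain ⟨g0, h⟩ := T.one_gen hk2.ge (2 * a + 2 + 2 + 1)
        exact T.dim1_of K h
  · -- `k = 1`
    obtain ⟨a, rfl⟩ : ∃ a, L = 2 * a + 3 := ⟨(L - 3) / 2, by omega⟩
    have h4 : e = 2 * a + 1 + 1 := by rw [hk1] at he; omega
    have hf : (2 * a) % 2 = 0 := by omega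
    rw [h4]
    exact ⟨a3opP_of K (j := 2 * a + 1) (T.two K hk1 (2 * a) hf).a3_two,
      a3tauP_of K (j := 2 * a + 1) (T.two K hk1 (2 * a) hf).a3tau_two⟩

theorem ne_gen {L j : ℕ} (hL : 1 ≤ L) (h : L * k = j) :
    ¬ Zc (FF M 0) ⊤ j ≤ Bd (FF M 0) ⊤ j := by
  intro h2
  have h1 : T.cA L h ∈ Bd (FF M 0) ⊤ j := h2 (mem_Zc_top.2 (by
    rw [TIn.vl_cA, T.A_cyc]; exact Submodule.zero_mem _))
  rw [mem_Bd_top', TIn.vl_cA] at h1
  exact T.A_ne _ hL h1

end TIn

theorem KK_par {n : ℕ} (hn : 2 ≤ n) (i : ℕ) : IfPTx200.KK n i % 2 = 1 ∨ (n - 1) % 2 = 0 := by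
  unfold IfPTx200.KK
  split_ifs <;> omega

/-- **block T, final output** (literal form of helper200) -/
theorem tout {n : ℕ} (hn : 2 ≤ n) (T : TIn M (n - 1)) (K : KapOps M) : IfPTx200.TOut n M where
  A1 := A1_of (stab_FF 0) (n - 1) T.perm
  ne i := T.ne_gen (IfPTx200.KK_pos n i) (IfPTx200.ee_add_one hn i).symm
  A3op i := (T.A3_gen K (IfPTx200.KK_pos n i) (IfPTx200.ee_add_one hn i) (KK_par hn i)).1
  A3tau i := (T.A3_gen K (IfPTx200.KK_pos n i) (IfPTx200.ee_add_one hn i) (KK_par hn i)).2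

end Crest.Agent.R231.TOutx482
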