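import Crest.Agent.R231.TEv_952
import Crest.Agent.R231.TOut_482
import Crest.Agent.R231.OmPow_871

/-!
# Row 231, block T (helper952): the record `TIn M k` from the basis theorem in all continuous loops

* `Af z`, `vf z` : the families `A m`, `v m` of a cycle `z` of based loops (`A 0` = constant loop);
* `BTc k z` : the basis theorem in all continuous loops (output of helper961);
* `tin` : `Nonempty (TIn M k)` for `M` compact, `L : LUG M`, `M` homeomorphic to a sphere.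
-/

set_option autoImplicit false
set_option linter.unusedSectionVars false

noncomputable section

open Set
open Crest.Agent.R204 EZ271 EZ847 SingAct265
open Crest.Agent.R204.Freu297 (Sph pt)
open Crest.Agent.R231.GLugx576 Crest.Agent.R231.Pairx877 Crest.Agent.R231.TActx569
open Crest.Agent.R231.Concx150 Crest.Agent.R231.CPowx150 Crest.Agent.R231.AmChx150
open Crest.Agent.R231.TFillx150 Crest.Agent.R231.Cmpx952 Crest.Agent.R231.TOutx482
open Crest.Agent.R231.A1Spanx901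
open Crest.Agent.R231.OmHomx871 (L0)

namespace Crest.Agent.R231.TTransx952

variable {M : Type} [MetricSpace M] {p : M}

/-- the constant loop as a vertex -/
def vO (p : M) : (SS.Sing (Om p)).S 0 := mkS (fun _ => cO p) continuous_const

/-- `A m`; `A 0` is the constant loop -/
def Af (z : CO p) : ℕ → CE (Lp M)
  | 0 => jN p (N.sx F2 (vO p))
  | m + 1 => Am (m + 1) z

/-- `v m` -/
def vf (z : CO p) : ℕ → CE (Lp M)
  | 0 => 0
  | m + 1 => vm (m + 1) z

theorem Af_eq (z : CO p) (m : ℕ) [NeZero m] : Af z m = Am m z := by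
  obtain ⟨m, rfl⟩ : ∃ n, m = n + 1 := ⟨m - 1, by have := NeZero.pos m; omega⟩
  rfl

theorem vf_eq (z : CO p) (m : ℕ) [NeZero m] : vf z m = vm m z := by
  obtain ⟨m, rfl⟩ : ∃ n, m = n + 1 := ⟨m - 1, by have := NeZero.pos m; omega⟩
  rfl

/-- **basis theorem in all continuous loops** -/
structure BTc (k : ℕ) (z : CO p) : Prop where
  span : ∀ (j : ℕ) (c : CE (Lp M)), c ∈ N.gr F2 (SS.Sing (Lp M)) j → bdE (Lp M) c = 0 →
    c ∈ Submodule.span F2 (Gen (Af z) (vf z) k j) ⊔ LinearMap.range (bdE (Lp M))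
  v_ne : ∀ m, 2 ≤ m → vf z m ∉ LinearMap.range (bdE (Lp M))
  A_ne : ∀ m, 1 ≤ m → Af z m ∉ LinearMap.range (bdE (Lp M))

theorem vO_const : N.sx F2 (vO p) ∈ CS (OmX p (0 : ℝ)) :=
  sx_mem_CS fun _ => const_mem le_rfl p

theorem Af_zero_mem (z : CO p) : Af z 0 ∈ CS (X M 0) := jN_mem_X vO_const

theorem Af_zero_gr (z : CO p) : Af z 0 ∈ N.gr F2 (SS.Sing (Lp M)) 0 :=
  jN_gr (TAct.sx_mem_gr (vO p))

/-- constant chains are fixed by the rotations -/
theorem gN_X0 : ∀ c ∈ CS (X M 0), (LA M).gN c = c := by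
  refine eq_on_CS (f := (LA M).gN) (g := LinearMap.id) fun n σ hσ => ?_
  have h1 : (LA M).gN (N.sx F2 σ) =
      N.map F2 ((LA M).rot ((1 / 2 : ℝ) : UnitAddCircle)) (N.sx F2 σ) := rfl
  rw [h1, N.map_sx, LinearMap.id_apply]
  congr 1
  refine sing_ext fun y => ?_
  have h2 : ev (((LA M).rot ((1 / 2 : ℝ) : UnitAddCircle)).app n σ) y =
    rot (((1 / 2 : ℝ) : UnitAddCircle)) (ev σ y) := rfl
  rw [h2]
  refine ContinuousMap.ext fun x => ?_
  rw [rot_apply, mem_X_zero.1 (hσ y) (x + _), mem_X_zero.1 (hσ y) x]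

section cyc

variable {k : ℕ} {z : CO p} (hz : z ∈ N.gr F2 (SS.Sing (Om p)) k) (hb : N.bd F2 _ z = 0)

include hz in
theorem Af_gr (m : ℕ) : Af z m ∈ N.gr F2 (SS.Sing (Lp M)) (m * k) := by
  rcases m with _ | m
  · rw [zero_mul]; exact Af_zero_gr z
  · exact Am_mem_gr (m + 1) hz

include hb in
theorem Af_cyc (m : ℕ) : bdE (Lp M) (Af z m) = 0 := by
  rcases m with _ | m
  · exact Gr334.bd_gr_zero (Af_zero_gr z)
  · exact bd_Am (m + 1) hb

theorem Af_g (m : ℕ) (hm : m % 2 = 0) : (LA M).gN (Af z m) = Af z m := by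
  rcases m with _ | m
  · exact gN_X0 _ (Af_zero_mem z)
  · exact gN_Am (m + 1) z (Nat.even_iff.2 hm)

theorem Af_based (m : ℕ) : Af z m ∈ CS (L0 p) := by
  rcases m with _ | m
  · exact jN_mem_L0 _
  · show Am (m + 1) z ∈ _
    rw [Am_eq_AmO]
    exact jN_mem_L0 _

include hz in
theorem vf_gr (m : ℕ) (hm : 1 ≤ m) : vf z m ∈ N.gr F2 (SS.Sing (Lp M)) (m * k + 1) := by
  obtain ⟨m, rfl⟩ : ∃ n, m = n + 1 := ⟨m - 1, by omega⟩
  exact vm_mem_gr (m + 1) hz

include hb in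
theorem vf_cyc (m : ℕ) : bdE (Lp M) (vf z m) = 0 := by
  rcases m with _ | m
  · exact map_zero _
  · exact bd_vm (m + 1) hb

theorem vf_g (m : ℕ) (hm : m % 2 = 0) : (LA M).gN (vf z m) = vf z m := by
  rcases m with _ | m
  · exact map_zero _
  · exact gN_vm (m + 1) z (Nat.even_iff.2 hm)

variable {t : ℝ} (ht : z ∈ CS (OmX p t))

include ht in
theorem Af_WL (m : ℕ) : Af z m ∈ WL M := by
  rcases m with _ | m
  · exact Instx895.CS_le_CL 0 (Af_zero_mem z)
  · exact Instx895.CS_le_CL _ (Am_mem_CS (m + 1) ht)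

include ht in
theorem vf_WL (m : ℕ) : vf z m ∈ WL M := by
  rcases m with _ | m
  · exact Submodule.zero_mem _
  · exact Instx895.CS_le_CL _ (vm_mem_CS (m + 1) ht)

include hz hb ht in
theorem De_odd (m : ℕ) (hm : m % 2 = 1) :
    Instx895.DelN M (Af z m) + vf z m ∈ (WL M).map (bdE (Lp M)) := by
  obtain ⟨m, rfl⟩ : ∃ n, m = n + 1 := ⟨m - 1, by omega⟩
  obtain ⟨w, hw, -, e⟩ := del_Am (m + 1) hb ht hz (Nat.odd_iff.2 hm)
  exact ⟨w, Instx895.CS_le_CL _ hw, e.symm⟩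

end cyc

theorem Binf0_le : Instx895.Binf0 M ≤ CS (X M 0) ⊔ LinearMap.range (bdE (Lp M)) :=
  sup_le_sup le_rfl LinearMap.map_le_range

/-- the record from a Lipschitz cycle satisfying the basis theorem -/
def tinOf [CompactSpace M] (L : LUG M) {k : ℕ} (hk : 1 ≤ k) (φ : M ≃ₜ Sph (k + 1)) {z : CO p}
    (hz : z ∈ N.gr F2 (SS.Sing (Om p)) k) (hb : N.bd F2 _ z = 0)
    (hn : z ∉ LinearMap.range (N.bd F2 (SS.Sing (Om p)))) {t : ℝ} (ht : z ∈ CS (OmX p t))
    (B : BTc k z) : TIn M k where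
  k_pos := hk
  A := Af z
  v := vf z
  A_gr := Af_gr hz
  A_WL := Af_WL ht
  A_cyc := Af_cyc hb
  A_g := Af_g
  A_zero := Af_zero_mem z
  v_gr := vf_gr hz
  v_WL m _ := vf_WL ht m
  v_cyc m _ := vf_cyc hb m
  v_g m _ hm := vf_g m hm
  De_odd := De_odd hz hb ht
  span j c hc hW h0 := by
    obtain ⟨s, hs, b, ⟨w, rfl⟩, e⟩ := Submodule.mem_sup.1 (B.span j c hc h0)
    have h1 : s ∈ WL M := by
      refine Submodule.span_le.2 ?_ hs
      rintro g (⟨m, -, rfl⟩ | ⟨m, -, -, rfl⟩)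
      · exact Af_WL ht m
      · exact vf_WL ht m
    have h2 : bdE (Lp M) w = c - s := by rw [← e, add_sub_cancel_left]
    have h3 : c - s ∈ (WL M).map (bdE (Lp M)) :=
      map_bd_WL L (Submodule.sub_mem _ hW h1) ⟨w, h2⟩
    rw [← h2] at h3
    rw [← e]
    exact Submodule.add_mem_sup hs h3
  v_ne m hm h := by
    have : NeZero m := ⟨by omega⟩
    refine not_const (B.v_ne m hm) ?_ (Binf0_le h)
    rw [vf_eq, ev0_vm hk hm hz]
    exact Submodule.zero_mem _
  A_ne m hm h := by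
    have : NeZero m := ⟨by omega⟩
    refine not_const (B.A_ne m hm) ?_ (Binf0_le h)
    rw [Af_eq, ev0_Am hk hz]
    exact Submodule.zero_mem _
  p := p
  A_based := Af_based
  Ospan hk1 j c hc hcO h0 := by
    subst hk1
    have key : ∀ c : CE (Lp M), c ∈ CS (L0 p) ⊓ WL M →
        rO p c ∈ LinearMap.range (N.bd F2 (SS.Sing (Om p))) →
        c ∈ (CS (L0 p) ⊓ WL M).map (bdE (Lp M)) := by
      rintro c hc ⟨w, hw⟩
      obtain ⟨w', a1, a2, -⟩ := C2_abs L (good_L0 L p) (c := c) (w := jN p w) hc (jN_mem_L0 w)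
        (by rw [bd_jN, hw, jN_rO hc.1])
      exact ⟨w', a1, a2⟩
    have hy : N.bd F2 _ (rO p c) = 0 := by rw [bd_rO hcO.1, h0, map_zero]
    rcases OmPowx871.AmO_span hk φ hz hb hn (Nat.le_add_left 1 j) (rO_gr hc) hy with h | h
    · exact Or.inl (key c hcO h)
    · obtain ⟨m, hm, e, h⟩ := h
      rw [mul_one] at e
      subst e
      refine Or.inr (key _ (Submodule.add_mem _ hcO ⟨Af_based _, Af_WL ht _⟩) ?_)
      have e2 : rO p (Af z (j + 1)) = AmO (j + 1) z := by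
        rw [Af_eq, Am_eq_AmO, rO_jN]
      rw [map_add, e2]
      exact h

/-- **`TIn M k` from the basis theorem in all continuous loops** -/
theorem tin [CompactSpace M] (L : LUG M) {k : ℕ} (hk : 1 ≤ k) (φ : M ≃ₜ Sph (k + 1)) (p : M)
    (B : ∀ z : CO p, z ∈ N.gr F2 (SS.Sing (Om p)) k → N.bd F2 _ z = 0 →
      z ∉ LinearMap.range (N.bd F2 (SS.Sing (Om p))) → BTc k z) : Nonempty (TIn M k) := by
  obtain ⟨z, hz, hb, hn⟩ := OmPowx871.exists_cycle φ p
  obtain ⟨t, x, w, h1, h2, h3, h4⟩ := lip_rep L hz hb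
  have hx : x ∉ LinearMap.range (N.bd F2 (SS.Sing (Om p))) := by
    rintro ⟨u, hu⟩
    refine hn ⟨u + w, ?_⟩
    rw [map_add, hu, ← h4]
  exact ⟨tinOf L hk φ h2 h3 hx h1 (B x h2 h3 hx)⟩

end Crest.Agent.R231.TTransx952
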