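import Crest.Agent.R231.TBas_961
import Crest.Agent.R231.TTrans_952

/-!
# Row 231, block T (helper961): the record `TIn M k` of helper482, without hypothesis

`btc` : helper952's `BTc k z`; `tinIn` : `Nonempty (TIn M k)`.
-/

set_option autoImplicit false

noncomputable section

namespace Crest.Agent.R231.TBasx961

open Crest.Agent.R204 Crest.Agent.R204.EZ271
open Crest.Agent.R204.Freu297 (Sph pt)
open GLugx576 (Lp LUG)
open Concx150 AmChx150 TFillx150 Pairx877
open TTransx952 (Af vf BTc Af_eq vf_eq)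
open TOutx482 (Gen TIn)

variable {M : Type} [MetricSpace M] {k : ℕ}

theorem GenL_sub {p : M} (z : CO p) (j : ℕ) : GenL z k j ⊆ Gen (Af z) (vf z) k j := by
  rintro c (⟨m, hm0, hm, rfl⟩ | ⟨m, hm0, hm, rfl⟩ | ⟨rfl, rfl⟩)
  · exact Or.inl ⟨m, hm, (Af_eq z m).symm⟩
  · exact Or.inr ⟨m, NeZero.pos m, hm, (vf_eq z m).symm⟩
  · refine Or.inl ⟨0, Nat.zero_mul k, ?_⟩
    show _ = jN p (N.sx F2 (TTransx952.vO p))
    unfold jN
    rw [N.map_sx]
    rfl

/-- **the basis theorem in all continuous loops** -/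
theorem btc (hk : 1 ≤ k) (φ : M ≃ₜ Sph (k + 1)) {p : M} (z : CO p)
    (hz : z ∈ N.gr F2 (SS.Sing (Om p)) k) (hb : N.bd F2 _ z = 0)
    (hn : z ∉ LinearMap.range (N.bd F2 (SS.Sing (Om p)))) : BTc k z where
  span j c hc hcb := by
    have h1 : Submodule.span F2 (GenL z k j) ≤ Submodule.span F2 (Gen (Af z) (vf z) k j) :=
      Submodule.span_mono (GenL_sub z j)
    obtain ⟨g, hg, b, hgb, rfl⟩ := Submodule.mem_sup.1 (mem_span_sup hk φ hz hb hn hc hcb)
    exact Submodule.add_mem_sup (h1 hg) hgb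
  v_ne m hm := by
    have : NeZero m := ⟨by omega⟩
    rw [vf_eq]
    exact vm_not_bd hk φ hz hb hn m
  A_ne m hm := by
    have : NeZero m := ⟨by omega⟩
    rw [Af_eq]
    exact Am_not_bd hk φ hz hb hn m

/-- **block T: the record `TIn M k`** -/
theorem tinIn [CompactSpace M] (L : LUG M) (hk : 1 ≤ k) (φ : M ≃ₜ Sph (k + 1)) (p : M) :
    Nonempty (TIn M k) :=
  TTransx952.tin L hk φ p fun z hz hb hn => btc hk φ z hz hb hn

end Crest.Agent.R231.TBasx961
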