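import Crest.Agent.R231.TOut_482
import Crest.Agent.R231.Asm_895

/-!
# Row 231, block T: adapters to `Asmx895.Outs` (helper482), degrees `e3 D a + 1 = (2 a + 3) D`
-/

set_option autoImplicit false

noncomputable section

namespace Crest.Agent.R231.TOutx482

open Crest.Agent.R231 IfAx978 Instx895 Asmx895 BDAx969 Pairx877

variable {M : Type} [MetricSpace M]

namespace TIn

variable {k : ℕ} (T : TIn M k)
include T

theorem A1s : A1sP M k := A1s_of_perm T.perm

theorem neOdd : NeOdd M k := fun _ _ hL => T.ne_gen (by omega) rfl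

theorem A3op_e3 (K : KapOps M) (a : ℕ) : A3opP M (e3 k a) :=
  (T.A3_gen K (L := 2 * a + 3) (by omega) (e3_succ T.k_pos a) (Or.inl (by omega))).1

theorem A3tau_e3 (K : KapOps M) (a : ℕ) : A3tauP M (e3 k a) :=
  (T.A3_gen K (L := 2 * a + 3) (by omega) (e3_succ T.k_pos a) (Or.inl (by omega))).2

/-- **`Outs` from block T (`TIn`, `KapOps`) and the other blocks**, degrees `(2 a + 3) k` -/
theorem outs (K : KapOps M) (hb : BaseHyp M) (hw : Window (CritS M)) (gm : GMW M)
    (bd : BDLam (mix M) (FF M)) (hst : StepOdd M k) (A4 : A4P M) : Outs M k :=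
  outs_of_odd T.k_pos hb hw gm bd hst T.neOdd T.A1s (T.A3op_e3 K) (T.A3tau_e3 K) A4

/-- the degrees of (A3) for a general choice `e a + 1 = L a * k`, `L a` odd or `k` even -/
theorem degP (K : KapOps M) {e L : ℕ → ℕ} (hL : ∀ a, 1 ≤ L a) (he : ∀ a, e a + 1 = L a * k)
    (hpar : ∀ a, L a % 2 = 1 ∨ k % 2 = 0) (hm : StrictMono e) (lv : LvP M e) : DegP M k e where
  mono := hm
  par a := by
    rw [he a, Nat.mul_mod]
    rcases hpar a with h | h
    · rw [h, one_mul, Nat.mod_mod]
    · rw [h, mul_zero, Nat.zero_mod]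
  lv := lv
  A3op a := (T.A3_gen K (hL a) (he a) (hpar a)).1
  A3tau a := (T.A3_gen K (hL a) (he a) (hpar a)).2

end TIn

/-- **`Outs` from block T and the literal output `POut` of block P** -/
theorem outs_PT {n : ℕ} (hn : 2 ≤ n) (T : TIn M (n - 1)) (K : KapOps M) (hb : BaseHyp M)
    (hw : Window (CritS M)) (gm : GMW M) (P : IfPTx200.POut n M) (A4 : A4P M) : Outs M (n - 1) :=
  outs_of_PT hn hb hw gm (tout hn T K) P A4

end Crest.Agent.R231.TOutx482
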