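import Crest.Agent.R231.OmCmp_475
import Crest.Agent.R231.Asm_895

/-!
# Row 231 (S0357), block P: end wiring (helper475)

`pouts` : `Asmx895.POuts M D` from a levelled algebra `K : LevA D` with `A t = HS (OmT p t)`,
`K.HasTh` and the coarse Wang sequence over `yLC (Om p)`; `incY` : inclusion of the chains of the based
loops into the mixed complex.
-/

set_option autoImplicit false
set_option linter.unusedSectionVars false

noncomputable section

open Set Topology
open scoped NNReal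
open Crest.Agent.R204

namespace Crest.Agent.R231.Endx475

open SpecA (Hm)
open Pairx877 SingAct265 EZ271 BDAx969 Levx969 YLcx475 YOutx475 OmCmpx475 OmSpx725 FinDim315
  GLugx576 TActx569 TCx569 IfAx978 Instx895 Asmx895

variable {M : Type} [MetricSpace M] {p : M} {D : ℕ}

theorem mono_Om (p : M) : Monotone (ArcSysx694.Om p) := fun _ _ h => ArcSysx694.Om_mono h

theorem WU_Om_le (p : M) : WU (ArcSysx694.Om p) ≤ WL M :=
  iSup_le fun t => (CS_mono (ArcSysx694.Om_sub_X t)).trans (CS_le_CL t)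

/-- the inclusion of the chains of the based loops -/
def incY (p : M) (j : ℕ) : (yLC (ArcSysx694.Om p) (mono_Om p)).C j →ₗ[ZMod 2] (mix M).C j where
  toFun y := mk (yv (mono_Om p) j y) (yv_gr y) (WU_Om_le p (yv_WU y))
  map_add' a b := vl_inj j ((vl_mk _ (yv_gr (a + b)) (WU_Om_le p (yv_WU (a + b)))).trans
    ((map_add (yv (mono_Om p) j) a b).trans
    ((congrArg₂ (· + ·) (vl_mk _ (yv_gr a) (WU_Om_le p (yv_WU a)))
      (vl_mk _ (yv_gr b) (WU_Om_le p (yv_WU b)))).symm.trans (map_add (vl j) _ _).symm)))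
  map_smul' r a := vl_inj j ((vl_mk _ (yv_gr (r • a)) (WU_Om_le p (yv_WU (r • a)))).trans
    ((map_smul (yv (mono_Om p) j) r a).trans
    ((congrArg (r • ·) (vl_mk _ (yv_gr a) (WU_Om_le p (yv_WU a)))).symm.trans
      (map_smul (vl j) r _).symm)))

theorem incY_apply (j : ℕ) (y : (yLC (ArcSysx694.Om p) (mono_Om p)).C j) :
    incY p j y = mk (yv (mono_Om p) j y) (yv_gr y) (WU_Om_le p (yv_WU y)) := rfl

theorem vl_incY (j : ℕ) (y : (yLC (ArcSysx694.Om p) (mono_Om p)).C j) :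
    vl j (incY p j y) = yv (mono_Om p) j y :=
  (congrArg (vl j) (incY_apply j y)).trans (vl_mk _ _ _)

/-- **output of block P** -/
def pouts (hD : 1 ≤ D) (K : LevA D) (φ : ∀ t : ℝ≥0, HS (OmT p t) ≃ₗ[F2] K.A t)
    (φ_gr : ∀ (t : ℝ≥0) (j : ℕ) (y : HS (OmT p t)), φ t y ∈ K.gr t j ↔
      y ∈ H.gr F2 (SS.Sing (OmT p t)) j)
    (φ_inc : ∀ {s t : ℝ≥0} (h : s ≤ t) (y : HS (OmT p s)), φ t (Hm (inc h) y) = K.inc h (φ s y))
    (hT : K.HasTh)
    (i : ℝ → ∀ j, (yLC (ArcSysx694.Om p) (mono_Om p)).C j →ₗ[ZMod 2] (mix M).C j)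
    (W : WangOut (yLC (ArcSysx694.Om p) (mono_Om p)) (mix M) (FF M) (D + 1) i) : POuts M D where
  Y := yLC (ArcSysx694.Om p) (mono_Om p)
  BD := (cmpOf K φ φ_gr φ_inc).bd_of hD hT
  i := i
  wang := W
  Pw := (cmpOf K φ φ_gr φ_inc).Pw
  τ := fun m => (sg K m : ℝ)
  pw := (cmpOf K φ φ_gr φ_inc).pw_of hD hT

end Crest.Agent.R231.Endx475
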