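import Crest.Agent.R231.EndP_89
import Crest.Agent.R231.End_475

/-!
# Row 231 (S0357): the theorem from the output `POuts` (second door) of block P (helper89)
-/

set_option autoImplicit false
set_option linter.unusedSectionVars false

noncomputable section

open Bundle Set Filter Function
open scoped Manifold ContDiff Bundle ENNReal Topology
open Crest.GeometryTopology.MTW Crest.GeometryTopology.Geodesic
open Crest.Agent.R226 Crest.Agent.R226.GeoBasic616 Crest.Agent.R226.TB616
open Crest.Agent.R204

namespace Crest.Agent.R231.EndPx89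

open Pairx877 GLugx576 TActx569 TCx569 IfAx978 Gr334 Instx895
open PrimeGeox893 CritPMx893 GeoLugx724 GeoBasex724 Frontx893 Asmx895 BDAx969 TopBasex220

/-- `Outs` from the block T and the second door of block P -/
theorem outs_of_POuts {M : Type} [MetricSpace M] {k : ℕ} (hk : 1 ≤ k) (T : TOutx482.TIn M k)
    (K : TOutx482.KapOps M) (hb : BaseHyp M) (hw : Window (CritS M)) (gm : GMW M)
    (P : POuts M k) (A4 : A4P M) : Outs M k where
  base := hb
  window := hw
  gm := gm
  bd := bd_of_pouts P
  A1s := T.A1s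
  deg := ⟨e3 k, e3_mono hk, e3_par hk,
    lv_of_pouts' hk hb P (e3 k) 3 (by omega) (fun _ => rfl) (e3_succ hk), T.A3op_e3 K,
    T.A3tau_e3 K⟩
  A4 := A4

/-- **S0357** from the second output of block P for the spheres -/
theorem infinite_of_POuts (n : ℕ) (hn : 2 ≤ n)
    (P : ∀ [NeZero n] (g : Met n), Nonempty (POuts (SG g) (n - 1))) (g : Met n) :
    {S : Set (Metric.sphere (0 : EuclideanSpace ℝ (Fin (n + 1))) 1) |
      ∃ γ : ℝ → Metric.sphere (0 : EuclideanSpace ℝ (Fin (n + 1))) 1,
      IsClosedGeodesic (𝓡 n) g γ ∧ (∃ s t, γ s ≠ γ t) ∧ Set.range γ = S}.Infinite :=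
  infinite_of_outs CoreFalsex978.core_false n hn (fun g G N S => by
    obtain ⟨k, rfl⟩ : ∃ k, n = k + 1 := ⟨n - 1, by omega⟩
    have hk : 1 ≤ k := by omega
    obtain ⟨p⟩ : Nonempty (SG g) := inferInstance
    obtain ⟨T⟩ := TBasx961.tinIn (M := SG g) (lug G) hk (toSG g).symm p
    obtain ⟨P⟩ := P g
    exact outs_of_POuts hk T (KapOpsx482.kapOps (SG g)) (baseHyp_sphere' g G S)
      (window_of' G S) (GMWx160.gmw_sphere (k + 1) g G N S) P
      (SDexx737.A4P_of_prime (lug G) (locMin G) (nonBr G) S)) g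

end Crest.Agent.R231.EndPx89
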