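import Crest.Agent.R231.WgK_667
import Crest.Agent.R231.PairExc_877
import Crest.Agent.R204.Sph_94e
import Crest.Agent.R204.HZ_76

/-!
# Row 231, block T / Wang (helper667): local homology of the sphere

* `CS_point` : chains at a point, `contr` : cycles of a contractible set
* `OneS.exc` : excision for one dimensional pairs
* `Sphere`: `contr_compl` (`S ∖ q` is contractible), `oneS_univ`, `oneS_compl` : the pairs
  `(S, S ∖ q)` and `(S ∖ p, S ∖ {p, q})` have one dimensional homology in degree `dim S`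
-/

set_option autoImplicit false

noncomputable section

open Function Set
open Crest.Agent.R204

namespace Crest.Agent.R231.WgSx667

open EZ271 Capx226 Pairx877 SingAct265 WgKx667

variable {E : Type} [TopologicalSpace E]

/-! ## chains at a point, contractible sets -/

/-- the vertex at `y` -/
abbrev vx (y : E) : (SS.Sing E).S 0 := HZ76.vtx y

theorem vx_mem {y : E} {X : Set E} (h : y ∈ X) : N.sx F2 (vx y) ∈ CS X :=
  sx_mem_CS fun _ => h

/-- a chain in a one point set is a multiple of the vertex -/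
theorem CS_point {y : E} : ∀ c ∈ CS ({y} : Set E), c = aug F2 c • N.sx F2 (vx y) := by
  refine eq_on_CS (f := LinearMap.id) (g := (LinearMap.toSpanSingleton F2 _ (N.sx F2 (vx y))) ∘ₗ
    aug F2) fun n σ hσ => ?_
  rw [LinearMap.id_apply, LinearMap.comp_apply, LinearMap.toSpanSingleton_apply]
  rcases n with _ | n
  · rw [aug_sx_zero, one_smul]
    congr 1
    exact sing_ext fun t => hσ t
  · rw [aug_sx_succ, zero_smul]
    have h : σ = (SS.Sing E).act (Op.dgn 0) ((SS.Sing E).act (Op.face 0) σ) := by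
      refine sing_ext fun t => ?_
      rw [ev_act, ev_act]
      have h1 : ev σ t = y := hσ t
      have h2 : ev σ (stdSimplex.map (Op.face 0 : Op n (n + 1))
        (stdSimplex.map (Op.dgn 0 : Op (n + 1) n) t)) = y := hσ _
      rw [h1, h2]
    rw [h]
    exact N.sx_dgn (K := SS.Sing E) 0 _

/-- cycles of a contractible set -/
theorem contr {X : Set E} {y0 : E} (F : E → ℝ → E)
    (hF : ContinuousOn (fun p : E × ℝ => F p.1 p.2) (X ×ˢ Icc 0 1)) (h0 : ∀ y ∈ X, F y 0 = y)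
    (h1 : ∀ y ∈ X, F y 1 = y0) (hX : ∀ y ∈ X, ∀ t ∈ Icc (0 : ℝ) 1, F y t ∈ X)
    (z : CE E) (hz : z ∈ CS X) (hb : bdE E z = 0) :
    ∃ w ∈ CS X, bdE E w = z + aug F2 z • N.sx F2 (vx y0) := by
  obtain ⟨φ, P, hP, -, hPX, hφX, -, -⟩ := deform F hF h0
  have e := hP z hz
  rw [hb, map_zero, add_zero] at e
  refine ⟨P z, hPX X X Subset.rfl hX z hz, ?_⟩
  rw [e]
  have h2 := CS_point (φ z) (hφX X {y0} Subset.rfl (fun y hy => h1 y hy) z hz)
  have h3 : aug F2 (φ z) = aug F2 z := by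
    have h4 : aug F2 (bdE E (P z)) = 0 := aug_bd F2 _
    rw [e, map_add] at h4
    have h5 : ∀ a b : F2, a + b = 0 → b = a := by decide
    exact h5 _ _ h4
  rw [h2, h3]

theorem aug_gr_succ {K : SS} {n : ℕ} (c : N F2 K) (hc : c ∈ N.gr F2 K (n + 1)) : aug F2 c = 0 := by
  refine Gr334.gr_induction (p := fun c => aug F2 c = 0) hc (map_zero _) ?_ ?_ fun x =>
    aug_sx_succ F2 x
  · intro a b ha hb; rw [map_add, ha, hb, add_zero]
  · intro r a ha; rw [map_smul, ha, smul_zero]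

/-! ## excision for one dimensional pairs -/

theorem OneS.exc {U V : Set E} (hc : ∀ y ∈ U ∪ V, U ∈ nhdsWithin y (U ∪ V) ∨ V ∈ nhdsWithin y (U ∪ V))
    {u0 : CE E} (h : OneS (U ∪ V) V u0) {n : ℕ} (hn : u0 ∈ N.gr F2 (SS.Sing E) n) :
    ∃ u ∈ N.gr F2 (SS.Sing E) n, OneS U (U ∩ V) u ∧ u0 + u ∈ Bp (U ∪ V) V := by
  obtain ⟨c, hcZ, b, hb, w, hw, e⟩ := exc_surj hc ⟨h.mem, h.cyc⟩
  have hcg : u0 + Gr334.prN F2 _ n c ∈ Bp (U ∪ V) V := by
    have h1 : u0 + c ∈ Bp (U ∪ V) V := by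
      rw [mem_Bp]
      refine ⟨w, hw, ?_⟩
      have : u0 + c - bdE E w = b := by
        rw [e]
        have : c + b + bdE E w + c - bdE E w = b + (c + c) := by abel
        rw [this, add_self, add_zero]
      rw [this]; exact hb
    have h2 := WgKx667.prN_mem_Bp n h1
    rwa [map_add, Gr334.prN_of_mem hn] at h2
  have hcm : Gr334.prN F2 _ n c ∈ CS U := WgKx667.prN_mem_CS n c hcZ.1
  have hcd : bdE E (Gr334.prN F2 _ n c) ∈ CS (U ∩ V) := by
    rcases n with _ | n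
    · have : bdE E (Gr334.prN F2 (SS.Sing E) 0 c) = 0 := Gr334.bd_gr_zero (Gr334.prN_mem _ _)
      rw [this]; exact Submodule.zero_mem _
    · have h1 : bdE E (Gr334.prN F2 (SS.Sing E) (n + 1) c) = Gr334.prN F2 _ n (bdE E c) :=
        (Gr334.prN_bd n c).symm
      rw [h1]
      exact WgKx667.prN_mem_CS n _ hcZ.2
  refine ⟨Gr334.prN F2 _ n c, Gr334.prN_mem _ _, ⟨inter_subset_left, hcm, hcd, ?_, ?_⟩, hcg⟩
  · intro z hz hz'
    obtain ⟨r, hr⟩ := h.surj z (CS_mono subset_union_left hz) (CS_mono inter_subset_right hz')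
    refine ⟨r, exc_inj hc (Submodule.add_mem _ hz (Submodule.smul_mem _ _ hcm)) ?_⟩
    have : z + r • Gr334.prN F2 _ n c = (z + r • u0) + r • (u0 + Gr334.prN F2 _ n c) := by
      rw [smul_add]
      have : z + r • u0 + (r • u0 + r • Gr334.prN F2 _ n c) =
        z + r • Gr334.prN F2 _ n c + (r • u0 + r • u0) := by abel
      rw [this, add_self, add_zero]
    rw [this]
    exact Submodule.add_mem _ hr (Submodule.smul_mem _ _ hcg)
  · intro hb'
    refine h.ne ?_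
    have h1 := Submodule.add_mem _ hcg
      (Bp_mono (subset_union_left : U ⊆ U ∪ V) (inter_subset_right : U ∩ V ⊆ V) hb')
    rwa [add_assoc, add_self, add_zero] at h1

/-! ## the sphere -/

section sphere

open SpecA (Sph cst)

variable {n : ℕ}

/-- the straight line homotopy from the identity of `S ∖ q` to `-q` -/
def hS (q : Sph n) (z : Sph n) (t : ℝ) : Sph n :=
  if h : ‖(1 - t) • (z : EuclideanSpace ℝ (Fin (n + 1))) + t • (-(q : EuclideanSpace ℝ (Fin (n + 1))))‖ = 0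
  then z else
  ⟨‖(1 - t) • (z : EuclideanSpace ℝ (Fin (n + 1))) + t • (-(q : EuclideanSpace ℝ (Fin (n + 1))))‖⁻¹ •
    ((1 - t) • (z : EuclideanSpace ℝ (Fin (n + 1))) + t • (-(q : EuclideanSpace ℝ (Fin (n + 1))))), by
    rw [mem_sphere_zero_iff_norm, norm_smul, norm_inv, norm_norm, inv_mul_cancel₀ h]⟩

theorem nrmS (z : Sph n) : ‖(z : EuclideanSpace ℝ (Fin (n + 1)))‖ = 1 :=
  mem_sphere_zero_iff_norm.1 z.2

theorem line_ne {q z : Sph n} (hz : z ≠ q) {t : ℝ} (ht : t ∈ Icc (0 : ℝ) 1) :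
    (1 - t) • (z : EuclideanSpace ℝ (Fin (n + 1))) + t • (-(q : EuclideanSpace ℝ (Fin (n + 1)))) ≠ 0 := by
  intro h
  have h1 : (1 - t) • (z : EuclideanSpace ℝ (Fin (n + 1))) = t • (q : EuclideanSpace ℝ (Fin (n + 1))) := by
    rw [smul_neg] at h
    exact (sub_eq_zero.1 (by rw [sub_eq_add_neg]; exact h))
  have h2 := congrArg norm h1
  rw [norm_smul, norm_smul, nrmS, nrmS, mul_one, mul_one, Real.norm_of_nonneg (by linarith [ht.2]),
    Real.norm_of_nonneg ht.1] at h2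
  have h3 : t = 1 / 2 := by linarith
  subst h3
  apply hz
  apply Subtype.ext
  have h4 : ((1 : ℝ) / 2) • (z : EuclideanSpace ℝ (Fin (n + 1))) = ((1 : ℝ) / 2) • (q : EuclideanSpace ℝ (Fin (n + 1))) := by
    rw [← h1]; congr 1; norm_num
  exact smul_right_injective _ (by norm_num : (1 : ℝ) / 2 ≠ 0) h4

theorem hS_coe {q z : Sph n} (hz : z ≠ q) {t : ℝ} (ht : t ∈ Icc (0 : ℝ) 1) :
    (hS q z t : EuclideanSpace ℝ (Fin (n + 1))) =
      ‖(1 - t) • (z : EuclideanSpace ℝ (Fin (n + 1))) + t • (-(q : EuclideanSpace ℝ (Fin (n + 1))))‖⁻¹ •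
    ((1 - t) • (z : EuclideanSpace ℝ (Fin (n + 1))) + t • (-(q : EuclideanSpace ℝ (Fin (n + 1))))) := by
  rw [hS, dif_neg (fun h => line_ne hz ht (norm_eq_zero.1 h))]

theorem hS_zero (q z : Sph n) (hz : z ≠ q) : hS q z 0 = z := by
  apply Subtype.ext
  rw [hS_coe hz ⟨le_rfl, zero_le_one⟩]
  simp

theorem hS_one (q z : Sph n) (hz : z ≠ q) : hS q z 1 = -q := by
  apply Subtype.ext
  rw [hS_coe hz ⟨zero_le_one, le_rfl⟩]
  simp

theorem hS_ne {q z : Sph n} (hz : z ≠ q) {t : ℝ} (ht : t ∈ Icc (0 : ℝ) 1) : hS q z t ≠ q := by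
  intro h
  have h1 := congrArg (Subtype.val) h
  rw [hS_coe hz ht] at h1
  set v := (1 - t) • (z : EuclideanSpace ℝ (Fin (n + 1))) + t • (-(q : EuclideanSpace ℝ (Fin (n + 1)))) with hv
  have hn : 0 < ‖v‖ := norm_pos_iff.2 (line_ne hz ht)
  have h2 : v = ‖v‖ • (q : EuclideanSpace ℝ (Fin (n + 1))) := by
    rw [← h1, smul_smul, mul_inv_cancel₀ hn.ne', one_smul]
  have h3 : (1 - t) • (z : EuclideanSpace ℝ (Fin (n + 1))) = (‖v‖ + t) • (q : EuclideanSpace ℝ (Fin (n + 1))) := by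
    rw [add_smul, ← h2, hv, smul_neg]; abel
  have h4 := congrArg norm h3
  rw [norm_smul, norm_smul, nrmS, nrmS, mul_one, mul_one, Real.norm_of_nonneg (by linarith [ht.2]),
    Real.norm_of_nonneg (by linarith [ht.1])] at h4
  apply hz
  apply Subtype.ext
  rw [← h4] at h3
  exact smul_right_injective _ (by linarith [ht.1] : (1 - t) ≠ 0) h3

theorem continuousOn_hS (q : Sph n) :
    ContinuousOn (fun p : Sph n × ℝ => hS q p.1 p.2) (({q}ᶜ : Set (Sph n)) ×ˢ Icc 0 1) := by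
  rw [continuousOn_iff_continuous_domRestrict]
  refine continuous_induced_rng.2 ?_
  have hc : Continuous fun p : ↥(({q}ᶜ : Set (Sph n)) ×ˢ Icc (0 : ℝ) 1) =>
      (1 - p.1.2) • (p.1.1 : EuclideanSpace ℝ (Fin (n + 1))) +
        p.1.2 • (-(q : EuclideanSpace ℝ (Fin (n + 1)))) := by fun_prop
  have h2 : Continuous fun p : ↥(({q}ᶜ : Set (Sph n)) ×ˢ Icc (0 : ℝ) 1) =>
      ‖(1 - p.1.2) • (p.1.1 : EuclideanSpace ℝ (Fin (n + 1))) +
        p.1.2 • (-(q : EuclideanSpace ℝ (Fin (n + 1))))‖⁻¹ •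
      ((1 - p.1.2) • (p.1.1 : EuclideanSpace ℝ (Fin (n + 1))) +
        p.1.2 • (-(q : EuclideanSpace ℝ (Fin (n + 1))))) :=
    (hc.norm.inv₀ fun p h => line_ne p.2.1 p.2.2 (norm_eq_zero.1 h)).smul hc
  refine h2.congr fun p => ?_
  exact (hS_coe p.2.1 p.2.2).symm

/-- cycles of `S ∖ q` -/
theorem contr_compl (q : Sph n) (z : CE (Sph n)) (hz : z ∈ CS ({q}ᶜ : Set (Sph n)))
    (hb : bdE _ z = 0) : ∃ w ∈ CS ({q}ᶜ : Set (Sph n)), bdE _ w = z + aug F2 z • N.sx F2 (vx (-q)) :=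
  contr (hS q) (continuousOn_hS q) (fun _ h => hS_zero q _ h) (fun _ h => hS_one q _ h)
    (fun _ h _ ht => hS_ne h ht) z hz hb

instance pcSph (n : ℕ) : PathConnectedSpace (Sph (n + 1)) := by
  refine isPathConnected_iff_pathConnectedSpace.1 (isPathConnected_sphere ?_ _ zero_le_one)
  rw [← Module.finrank_eq_rank, finrank_euclideanSpace, Fintype.card_fin]
  exact_mod_cast (by omega : 1 < n + 1 + 1)

/-- a simplex with constant faces is a cycle -/
theorem bd_const_faces {Y : Type} [TopologicalSpace Y] {y : Y} {n : ℕ} {x : (SS.Sing Y).S (n + 1)}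
    (h : ∀ i, (SS.Sing Y).act (Op.face i) x = cst y n) : bdE Y (N.sx F2 x) = 0 := by
  have h0 : bdE Y (N.sx F2 x) = ∑ i : Fin (n + 2), N.sx F2 ((SS.Sing Y).act (Op.face i) x) := by
    refine (Gr334.bd_sx_succ x).trans (Finset.sum_congr rfl fun i _ => ?_)
    have : (-1 : F2) = 1 := by decide
    rw [this, one_pow, one_smul]
  rw [h0]
  simp only [h]
  rcases n with _ | n
  · rw [Fin.sum_univ_two, add_self]
  · have h1 : N.sx F2 (K := SS.Sing Y) (n := n + 1) (cst y (n + 1)) = 0 := by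
      have h2 : cst y (n + 1) = (SS.Sing Y).act (Op.dgn 0) (cst y n) := rfl
      rw [h2]; exact N.sx_dgn (K := SS.Sing Y) 0 _
    simp only [h1, Finset.sum_const_zero]

/-- the fundamental cycle of the sphere -/
theorem exists_fund (n : ℕ) : ∃ u0 ∈ N.gr F2 (SS.Sing (Sph (n + 1))) (n + 1),
    bdE _ u0 = 0 ∧ (∀ w, bdE _ w ≠ u0) ∧
    (∀ z ∈ N.gr F2 (SS.Sing (Sph (n + 1))) (n + 1), bdE _ z = 0 →
      ∃ (r : F2) (w : CE (Sph (n + 1))), z = r • u0 + bdE _ w) ∧
    (∀ m, m ≠ 0 → m ≠ n + 1 → ∀ z ∈ N.gr F2 (SS.Sing (Sph (n + 1))) m, bdE _ z = 0 →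
      ∃ w : CE (Sph (n + 1)), bdE _ w = z) := by
  obtain ⟨x, hx, h1, h2⟩ := Sph94.spheres n (Classical.arbitrary _)
  have hz : bdE _ (N.sx F2 x) = 0 := bd_const_faces hx
  obtain ⟨h3, h4⟩ := h1 hz
  refine ⟨N.sx F2 x, Gr334.sx_mem_gr x, hz, fun w hw => h3 (Hd.mk_eq_zero.2 ⟨w, hw⟩), ?_, ?_⟩
  · intro z hzg hzb
    have h5 : Hd.mk (N.bd F2 _) z hzb ∈ H.gr F2 (SS.Sing (Sph (n + 1))) (n + 1) :=
      Gr334.mk_mem_gr hzg hzb
    rw [h4, Submodule.mem_span_singleton] at h5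
    obtain ⟨r, hr⟩ := h5
    have h6 : Hd.mk (N.bd F2 _) z hzb = Hd.mk (N.bd F2 (SS.Sing (Sph (n + 1)))) (r • N.sx F2 x)
        (by rw [map_smul, hz, smul_zero]) := hr.symm
    rw [Hd.mk_eq_mk] at h6
    obtain ⟨w, hw⟩ := h6
    exact ⟨r, w, by rw [hw]; abel⟩
  · intro m hm hm' z hzg hzb
    have h5 : Hd.mk (N.bd F2 _) z hzb ∈ H.gr F2 (SS.Sing (Sph (n + 1))) m :=
      Gr334.mk_mem_gr hzg hzb
    rw [h2 m hm hm', Submodule.mem_bot, Hd.mk_eq_zero] at h5
    exact h5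

theorem antipode_ne (q : Sph n) : -q ≠ q := by
  intro h
  have h1 : -(q : EuclideanSpace ℝ (Fin (n + 1))) = q := congrArg Subtype.val h
  have h2 : (q : EuclideanSpace ℝ (Fin (n + 1))) = 0 := by
    have h3 : (2 : ℝ) • (q : EuclideanSpace ℝ (Fin (n + 1))) = 0 := by
      rw [two_smul]
      nth_rewrite 1 [← h1]
      exact neg_add_cancel _
    exact (smul_eq_zero.1 h3).resolve_left two_ne_zero
  have h3 := nrmS q
  rw [h2, norm_zero] at h3
  exact zero_ne_one h3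

theorem mem_Bp_of_bd {X A : Set E} {w : CE E} (hw : w ∈ CS X) : bdE E w ∈ Bp X A := by
  rw [mem_Bp]; exact ⟨w, hw, by rw [sub_self]; exact Submodule.zero_mem _⟩

theorem mem_Bp_of_CS {X A : Set E} {a : CE E} (ha : a ∈ CS A) : a ∈ Bp X A := by
  rw [mem_Bp]; exact ⟨0, Submodule.zero_mem _, by rw [map_zero, sub_zero]; exact ha⟩

/-- **local homology of the sphere** -/
theorem oneS_univ (q : Sph (n + 1)) {u0 : CE (Sph (n + 1))}
    (hg : u0 ∈ N.gr F2 (SS.Sing (Sph (n + 1))) (n + 1)) (hb : bdE _ u0 = 0)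
    (hne : ∀ w, bdE _ w ≠ u0)
    (htop : ∀ z ∈ N.gr F2 (SS.Sing (Sph (n + 1))) (n + 1), bdE _ z = 0 →
      ∃ (r : F2) (w : CE (Sph (n + 1))), z = r • u0 + bdE _ w)
    (hmid : ∀ m, m ≠ 0 → m ≠ n + 1 → ∀ z ∈ N.gr F2 (SS.Sing (Sph (n + 1))) m, bdE _ z = 0 →
      ∃ w : CE (Sph (n + 1)), bdE _ w = z) :
    OneS (univ : Set (Sph (n + 1))) {q}ᶜ u0 where
  sub := subset_univ _
  mem := by rw [CS_univ]; trivial
  cyc := by rw [hb]; exact Submodule.zero_mem _
  surj z _ hz' := by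
    have hmq : -q ∈ ({q}ᶜ : Set (Sph (n + 1))) := antipode_ne q
    -- correct `z` to an absolute cycle
    obtain ⟨w, hw, e⟩ := contr_compl q (bdE _ z) hz' (bd_bdE z)
    have haug : aug F2 (bdE _ z) = 0 := aug_bd F2 _
    rw [haug, zero_smul, add_zero] at e
    have hc : bdE _ (z + w) = 0 := by rw [map_add, e, add_self]
    -- all homogeneous parts are in `T`
    let T : Submodule F2 (CE (Sph (n + 1))) :=
      Bp (univ : Set (Sph (n + 1))) {q}ᶜ ⊔ Submodule.span F2 {u0}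
    have hpart : ∀ m, Gr334.prN F2 _ m (z + w) ∈ T := by
      intro m
      have hm : bdE _ (Gr334.prN F2 (SS.Sing (Sph (n + 1))) m (z + w)) = 0 := by
        rcases m with _ | m
        · exact Gr334.bd_gr_zero (Gr334.prN_mem _ _)
        · have h1 : bdE _ (Gr334.prN F2 (SS.Sing (Sph (n + 1))) (m + 1) (z + w)) =
              Gr334.prN F2 _ m (bdE _ (z + w)) := (Gr334.prN_bd m _).symm
          rw [h1, hc, map_zero]
      by_cases hm0 : m = 0
      · subst hm0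
        obtain ⟨v, -, hv⟩ := HZ76.exists_bd F2 (-q) (Gr334.prN F2 (SS.Sing (Sph (n + 1))) 0 (z + w))
          (Gr334.prN_mem _ _)
        refine Submodule.mem_sup_left ?_
        have h1 : Gr334.prN F2 (SS.Sing (Sph (n + 1))) 0 (z + w) = bdE _ v +
            aug F2 (Gr334.prN F2 (SS.Sing (Sph (n + 1))) 0 (z + w)) • N.sx F2 (vx (-q)) := by
          rw [hv]; abel
        rw [h1]
        exact Submodule.add_mem _ (mem_Bp_of_bd (by rw [CS_univ]; trivial))
          (mem_Bp_of_CS (Submodule.smul_mem _ _ (vx_mem hmq)))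
      · by_cases hm1 : m = n + 1
        · subst hm1
          obtain ⟨r, v, hv⟩ := htop _ (Gr334.prN_mem _ _) hm
          rw [hv]
          exact Submodule.add_mem _ (Submodule.mem_sup_right
            (Submodule.smul_mem _ _ (Submodule.mem_span_singleton_self _)))
            (Submodule.mem_sup_left (mem_Bp_of_bd (by rw [CS_univ]; trivial)))
        · obtain ⟨v, hv⟩ := hmid m hm0 hm1 _ (Gr334.prN_mem _ _) hm
          rw [← hv]
          exact Submodule.mem_sup_left (mem_Bp_of_bd (by rw [CS_univ]; trivial))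
    have hT : z + w ∈ T := by
      obtain ⟨M, -, hM⟩ := Gr334.exists_sum_prN (z + w)
      rw [hM]
      exact Submodule.sum_mem _ fun m _ => hpart m
    obtain ⟨b, hb', s, hs, e2⟩ := Submodule.mem_sup.1 hT
    obtain ⟨r, rfl⟩ := Submodule.mem_span_singleton.1 hs
    refine ⟨r, ?_⟩
    have e3 : z + r • u0 = b + w := by
      have h1 : b + r • u0 + w = z := by
        rw [e2]
        have : z + w + w = z + (w + w) := by abel
        rw [this, add_self w, add_zero]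
      rw [← h1]
      have h2 : b + r • u0 + w + r • u0 = b + w + (r • u0 + r • u0) := by abel
      rw [h2, add_self (r • u0), add_zero]
    rw [e3]
    exact Submodule.add_mem _ hb' (mem_Bp_of_CS hw)
  ne hB := by
    have hB' := WgKx667.prN_mem_Bp (n + 1) hB
    rw [mem_Bp] at hB
    obtain ⟨w, -, hw⟩ := hB
    have h1 : bdE _ (u0 - bdE _ w) = 0 := by rw [map_sub, hb, bd_bdE, sub_zero]
    have h2 : Gr334.prN F2 _ (n + 1) (u0 - bdE _ w) ∈ CS ({q}ᶜ : Set (Sph (n + 1))) :=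
      WgKx667.prN_mem_CS _ _ hw
    have h3 : bdE _ (Gr334.prN F2 (SS.Sing (Sph (n + 1))) (n + 1) (u0 - bdE _ w)) = 0 := by
      have h4 : bdE _ (Gr334.prN F2 (SS.Sing (Sph (n + 1))) (n + 1) (u0 - bdE _ w)) =
          Gr334.prN F2 _ n (bdE _ (u0 - bdE _ w)) := (Gr334.prN_bd n _).symm
      rw [h4, h1, map_zero]
    obtain ⟨v, -, hv⟩ := contr_compl q _ h2 h3
    have h5 : aug F2 (Gr334.prN F2 (SS.Sing (Sph (n + 1))) (n + 1) (u0 - bdE _ w)) = 0 :=
      aug_gr_succ _ (Gr334.prN_mem _ _)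
    rw [h5, zero_smul, add_zero, map_sub, Gr334.prN_of_mem hg] at hv
    refine hne (v + Gr334.prN F2 _ (n + 2) w) ?_
    have h6 : bdE _ (Gr334.prN F2 (SS.Sing (Sph (n + 1))) (n + 2) w) =
      Gr334.prN F2 _ (n + 1) (bdE _ w) := (Gr334.prN_bd (n + 1) _).symm
    rw [map_add, hv, h6]
    abel

/-- the pair `(S ∖ p, S ∖ {p, q})` -/
theorem oneS_compl {p q : Sph (n + 1)} (hpq : p ≠ q) {u0 : CE (Sph (n + 1))}
    (hg : u0 ∈ N.gr F2 (SS.Sing (Sph (n + 1))) (n + 1))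
    (h : OneS (univ : Set (Sph (n + 1))) {q}ᶜ u0) :
    ∃ u ∈ N.gr F2 (SS.Sing (Sph (n + 1))) (n + 1), OneS ({p}ᶜ : Set (Sph (n + 1))) ({p}ᶜ ∩ {q}ᶜ) u ∧
      u0 + u ∈ Bp (univ : Set (Sph (n + 1))) {q}ᶜ := by
  have hU : ({p}ᶜ : Set (Sph (n + 1))) ∪ {q}ᶜ = univ := by
    rw [← compl_inter, compl_univ_iff, singleton_inter_eq_empty]
    exact hpq
  have h' : OneS (({p}ᶜ : Set (Sph (n + 1))) ∪ {q}ᶜ) {q}ᶜ u0 := by rw [hU]; exact h
  obtain ⟨u, hu, h1, h2⟩ := OneS.exc (cov_of_open isOpen_compl_singleton isOpen_compl_singleton)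
    h' hg
  exact ⟨u, hu, h1, by rwa [hU] at h2⟩

end sphere

end Crest.Agent.R231.WgSx667
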