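import Crest.Agent.R231.IfWang_525
import Crest.Agent.R231.WgS_667

/-!
# Row 231, Wang package (helper667): the Künneth input `Kun` of helper525's interface

* `kun` : `Kun D D' U O` for every `O`, if `(D', D' ∩ D)` has one dimensional homology spanned by `u`, `U u = 1`
* `kun_sphere` : `D = S ∖ q`, `D' = S ∖ p`, `U` a point cocycle with value `1` on some cycle
-/

set_option autoImplicit false

noncomputable section

open Set
open Crest.Agent.R204

namespace Crest.Agent.R231.WgKunx667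

open EZ271 Capx226 Pairx877 SingAct265 WgKx667 WgSx667 IfWangx525

variable {B E : Type} [TopologicalSpace B] [TopologicalSpace E] {D D' : Set B} {O : Set E}
  {U : Co (SS.Sing B)} {u : CE B}

/-- the cap with the pull back of `U`, pushed to the second factor -/
def ph (E : Type) [TopologicalSpace E] (U : Co (SS.Sing B)) : CE (B × E) →ₗ[F2] CE E :=
  mp (pr2 B E) ∘ₗ cap (pb (pr1 B E) U)

theorem ph_apply (y : CE (B × E)) : ph E U y = mp (pr2 B E) (cap (pb (pr1 B E) U) y) := rfl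

theorem ph_bd (hU : ∀ z, U (bdE B z) = 0) (y : CE (B × E)) :
    ph E U (bdE _ y) = bdE E (ph E U y) := by
  have h1 : cobd (pb (pr1 B E) U) = 0 := by
    rw [pb, ← pull_cobd]
    have : cobd U = 0 := LinearMap.ext hU
    rw [this]; rfl
  rw [ph_apply, ph_apply, ← bd_cap_cocycle h1]
  exact LinearMap.congr_fun (N.map_bd (R := F2) (SS.SingMap (pr2 B E))) _

theorem ph_sx {n : ℕ} (σ : (SS.Sing (B × E)).S n) :
    ph E U (N.sx F2 σ) = ∑ a ∈ Finset.range (n + 1),
      U (N.sx F2 ((SS.SingMap (pr1 B E)).app a ((SS.Sing (B × E)).act (front a n) σ))) •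
        N.sx F2 ((SS.SingMap (pr2 B E)).app (n - a) ((SS.Sing (B × E)).act (back (n - a) n) σ)) := by
  rw [ph_apply, cap_sx, map_sum]
  refine Finset.sum_congr rfl fun a _ => ?_
  rw [map_smul, N.map_sx, pb, pull_apply, N.map_sx]

theorem ph_mem : ∀ y ∈ CS (D' ×ˢ O), ph E U y ∈ CS O := by
  refine map_mem_of_CS fun n σ hσ => ?_
  rw [ph_sx]
  refine Submodule.sum_mem _ fun a _ => Submodule.smul_mem _ _ (sx_mem_CS fun t => ?_)
  rw [ev_map, ev_act]
  exact (hσ _).2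

theorem ph_zero (hU : ∀ z ∈ CS D, U z = 0) {A : Set B} (hA : A ⊆ D) :
    ∀ y ∈ CS (A ×ˢ O), ph E U y = 0 := by
  refine eq_on_CS (g := 0) fun n σ hσ => ?_
  rw [ph_sx, LinearMap.zero_apply]
  refine Finset.sum_eq_zero fun a _ => ?_
  rw [hU _ (sx_mem_CS fun t => ?_), zero_smul]
  rw [ev_map, ev_act]
  exact hA (hσ _).1

theorem ph_xp (u : CE B) (y : CE E) : ph E U (xp u y) = U u • y := by
  have e : pull (singPair B E) (pull (SS.SingMap (pr1 B E)) U) =
      pull (SS.fst (SS.Sing B) (SS.Sing E)) U := by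
    refine LinearMap.ext fun z => ?_
    rw [pull_apply, pull_apply, pull_apply, ← Exc406.N_map_comp]
    rfl
  rw [ph_apply, xp_apply, pb, ← map_cap, e, ← snd_cap_fst (K := SS.Sing B) (L := SS.Sing E) U u y,
    mp, ← Exc406.N_map_comp]
  rfl

theorem kun (h : OneS D' (D' ∩ D) u) (hU : PtCo D U) (hu : U u = 1) (O : Set E) :
    Kun D D' U O := by
  intro y hy hc
  obtain ⟨v, hv, hvb, hB⟩ := xp_surj h y hy.1 hy.2
  rw [mem_Bp] at hB
  obtain ⟨w, hw, hw'⟩ := hB
  -- `v` is a boundary in `O`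
  have e1 : ph E U (y + xp u v - bdE _ w) = 0 := ph_zero hU.zero inter_subset_right _ hw'
  rw [map_sub, map_add, ph_xp, hu, one_smul, ph_bd hU.cocycle] at e1
  rw [← ph_apply, mem_Bp] at hc
  obtain ⟨w1, hw1, hc⟩ := hc
  rw [CS_empty, Submodule.mem_bot] at hc
  have e2 : bdE E (ph E U w - w1) = v := by
    rw [map_sub, ← sub_eq_zero.1 hc, ← sub_eq_zero.1 e1]; abel
  have hm : ph E U w - w1 ∈ CS O := Submodule.sub_mem _ (ph_mem w hw) hw1
  -- hence `xp u v` is a relative boundary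
  rw [mem_Bp]
  refine ⟨w - xp u (ph E U w - w1), Submodule.sub_mem _ hw (xp_mem h.mem hm), ?_⟩
  have e3 : y - bdE (B × E) (w - xp u (ph E U w - w1)) =
      (y + xp u v - bdE _ w) + xp (bdE B u) (ph E U w - w1) := by
    rw [map_sub, bd_xp, e2]; abel
  rw [e3]
  exact Submodule.add_mem _ hw' (xp_mem h.cyc hm)

section sphere

open SpecA (Sph)

variable {n : ℕ}

/-- **`Kun` for the sphere**: `U` vanishes on `S ∖ q`, is a cocycle and takes the value `1` on some cycle -/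
theorem kun_sphere {p q : Sph (n + 1)} (hpq : p ≠ q) {U : Co (SS.Sing (Sph (n + 1)))}
    (hU : PtCo ({q}ᶜ : Set (Sph (n + 1))) U) (h1 : ∃ z, bdE _ z = 0 ∧ U z = 1) (O : Set E) :
    Kun ({q}ᶜ : Set (Sph (n + 1))) {p}ᶜ U O := by
  obtain ⟨u0, hg, hb, hne, htop, hmid⟩ := exists_fund n
  have h0 := oneS_univ q hg hb hne htop hmid
  obtain ⟨u, -, hu, hu'⟩ := oneS_compl hpq hg h0
  have hB : ∀ z ∈ Bp (univ : Set (Sph (n + 1))) {q}ᶜ, U z = 0 := by
    intro z hz
    rw [mem_Bp] at hz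
    obtain ⟨w, -, hw⟩ := hz
    have h2 := hU.zero _ hw
    rwa [map_sub, hU.cocycle, sub_zero] at h2
  have hU0 : U u0 = 1 := by
    obtain ⟨z, hz, hz1⟩ := h1
    obtain ⟨r, hr⟩ := h0.surj z (by rw [CS_univ]; trivial) (by rw [hz]; exact Submodule.zero_mem _)
    have h2 := hB _ hr
    rw [map_add, map_smul, hz1, smul_eq_mul] at h2
    have h3 : ∀ r s : F2, 1 + r * s = 0 → s = 1 := by decide
    exact h3 _ _ h2
  refine kun hu hU ?_ O
  have h2 := hB _ hu'
  rw [map_add, hU0] at h2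
  have h3 : ∀ s : F2, 1 + s = 0 → s = 1 := by decide
  exact h3 _ h2

/-- a point cocycle of the sphere exists; it is concentrated in degree `n + 1` -/
theorem exists_ptCo (q : Sph (n + 1)) : ∃ U : Co (SS.Sing (Sph (n + 1))),
    PtCo ({q}ᶜ : Set (Sph (n + 1))) U ∧ (∃ z, bdE _ z = 0 ∧ U z = 1) ∧
      ∀ m, m ≠ n + 1 → ∀ z ∈ N.gr F2 (SS.Sing (Sph (n + 1))) m, U z = 0 := by
  obtain ⟨u0, hg, hb, hne, htop, hmid⟩ := exists_fund n
  obtain ⟨c, hc, hc1⟩ := (oneS_univ q hg hb hne htop hmid).exists_co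
  refine ⟨c ∘ₗ Gr334.prN F2 _ (n + 1), ⟨fun z hz => hc _ (mem_Bp_of_CS (WgKx667.prN_mem_CS _ z hz)),
    fun z => ?_⟩, ⟨u0, hb, ?_⟩, fun m hm z hz => ?_⟩
  · rw [LinearMap.comp_apply]
    have h1 : Gr334.prN F2 _ (n + 1) (bdE _ z) = bdE _ (Gr334.prN F2 (SS.Sing (Sph (n + 1))) (n + 2) z) :=
      Gr334.prN_bd (n + 1) z
    rw [h1]
    exact hc _ (mem_Bp_of_bd (by rw [CS_univ]; trivial))
  · rw [LinearMap.comp_apply, Gr334.prN_of_mem hg, hc1]
  · rw [LinearMap.comp_apply, Gr334.prN_of_mem_ne hm hz, map_zero]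

end sphere

end Crest.Agent.R231.WgKunx667
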