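import Crest.Agent.R231.TDegB_961
import Crest.Agent.R231.OmHom_871
import Crest.Agent.R204.OmS_94
import Crest.Agent.R204.Rel_683

/-!
# Row 231, leaf T-DEG (helper961), part C: topology

* `map_htpy` : homotopic maps, elementwise; `fam_homotopic` : the slices of a family over a path
* `acyc` : positive degree cycles of a contractible space are boundaries
* `compl_contractible` : a sphere minus a point
-/

set_option autoImplicit false

noncomputable section

namespace Crest.Agent.R231.TDegx961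

open Crest.Agent.R204 Crest.Agent.R204.EZ271 Crest.Agent.R231.Capx226
open Crest.Agent.R204.Sigma88 (io sgN)
open Crest.Agent.R204.Gr334 (prN)
open Crest.Agent.R204.Freu297 (Sph pt)
open unitInterval

section htp

variable {W L P : Type} [TopologicalSpace W] [TopologicalSpace L] [TopologicalSpace P]

/-- homotopic maps agree on cycles up to a boundary -/
theorem map_htpy {f g : C(W, L)} (h : f.Homotopic g) {ζ : N F2 (SS.Sing W)}
    (hζ : N.bd F2 _ ζ = 0) :
    ∃ b, N.map F2 (SS.SingMap f) ζ = N.map F2 (SS.SingMap g) ζ + N.bd F2 _ b := by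
  have h1 := LinearMap.congr_fun (HZ76.topHomotopyInv F2 W L f g h) (Hd.mk _ ζ hζ)
  unfold H.map at h1
  rw [Hd.map_mk, Hd.map_mk, Hd.mk_eq_mk] at h1
  obtain ⟨b, hb⟩ := h1
  exact ⟨b, by rw [hb]; abel⟩

/-- slice of a family -/
def slice (Φ : C(P × W, L)) (a : P) : C(W, L) :=
  Φ.comp ((ContinuousMap.const W a).prodMk (ContinuousMap.id W))

theorem slice_apply (Φ : C(P × W, L)) (a : P) (w : W) : slice Φ a w = Φ (a, w) := rfl

theorem slice_homotopic (Φ : C(P × W, L)) {a b : P} (h : Joined a b) :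
    (slice Φ a).Homotopic (slice Φ b) := by
  obtain ⟨γ⟩ := h
  refine ⟨⟨⟨fun x => Φ (γ x.1, x.2), ?_⟩, fun w => ?_, fun w => ?_⟩⟩
  · exact Φ.continuous.comp ((γ.continuous.comp continuous_fst).prodMk continuous_snd)
  · show Φ (γ 0, w) = Φ (a, w)
    rw [γ.source]
  · show Φ (γ 1, w) = Φ (b, w)
    rw [γ.target]

theorem N_const_pos {Y : SS} (v : Y.S 0) {K : SS} {n : ℕ} {c : N F2 K}
    (hc : c ∈ N.gr F2 K (n + 1)) : N.map F2 (SS.constHom K Y v) c = 0 := by
  refine Gr334.gr_induction (p := fun c => N.map F2 (SS.constHom K Y v) c = 0) hc (map_zero _)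
    ?_ ?_ ?_
  · intro a b ha hb; rw [map_add, ha, hb, add_zero]
  · intro r a ha; rw [map_smul, ha, smul_zero]
  · intro x
    rw [N.map_sx]
    exact Gr334.sx_act_of_lt (K := Y) (n := n + 1) (m := 0) (Nat.succ_pos n)
      ⟨fun _ => 0, fun _ _ _ => le_rfl⟩ v

/-- positive degree cycles of a contractible space are boundaries -/
theorem acyc (X : Type) [TopologicalSpace X] [ContractibleSpace X] {n : ℕ} {c : N F2 (SS.Sing X)}
    (hc : c ∈ N.gr F2 (SS.Sing X) (n + 1)) (hz : N.bd F2 _ c = 0) : ∃ b, N.bd F2 _ b = c := by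
  obtain ⟨x0, hx0⟩ := id_nullhomotopic X
  obtain ⟨b, hb⟩ := map_htpy hx0 hz
  have h1 : SS.SingMap (ContinuousMap.id X) = SS.Hom.id (SS.Sing X) := rfl
  rw [h1, map_idHom, HspSS696.singMap_const, N_const_pos _ hc, zero_add] at hb
  exact ⟨b, hb.symm⟩

end htp

/-! ### a sphere minus a point -/

theorem sph_compl_contractible {n : ℕ} (v : Sph n) :
    ContractibleSpace ({v}ᶜ : Set (Sph n)) := by
  have hv : ‖(v : EuclideanSpace ℝ (Fin (n + 1)))‖ = 1 := by simp
  have hs : (stereographic hv).source = ({v}ᶜ : Set (Sph n)) := stereographic_source hv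
  have ht : (stereographic hv).target = Set.univ := stereographic_target hv
  have h1 : ContractibleSpace (stereographic hv).source :=
    ((stereographic hv).toHomeomorphSourceTarget.trans
      ((Homeomorph.setCongr ht).trans (Homeomorph.Set.univ _))).contractibleSpace
  exact (Homeomorph.setCongr hs).symm.contractibleSpace

theorem compl_contractible {M : Type} [TopologicalSpace M] {n : ℕ} (φ : M ≃ₜ Sph n) (q : M) :
    ContractibleSpace {x : M // x ≠ q} := by
  have h := sph_compl_contractible (φ q)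
  exact (φ.subtype (p := fun x => x ≠ q) (q := fun y => y ∈ ({φ q}ᶜ : Set (Sph n))) (by
    intro x
    show x ≠ q ↔ φ x ≠ φ q
    exact (φ.injective.ne_iff).symm)).contractibleSpace

/-! ### evaluation of based loops and the suspension -/

section ev

variable {M : Type} [MetricSpace M]

open GLugx576 (Lp)
open OmHomx871 (L0 omHomeo mapHomeo)

/-- `(t, γ) ↦ γ t` -/
def evI (M : Type) [MetricSpace M] : C(I × Lp M, M) :=
  ⟨fun x => x.2 (((x.1 : I) : ℝ) : UnitAddCircle), by
    have h : Continuous fun x : I × Lp M => (x.2, ((x.1 : I) : ℝ)) :=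
      continuous_snd.prodMk (continuous_subtype_val.comp continuous_fst)
    exact GLugx576.continuous_evalR.comp h⟩

theorem evI_apply (t : I) (γ : Lp M) : evI M (t, γ) = γ ((t : ℝ) : UnitAddCircle) := rfl

/-- evaluation on based loops -/
def evL (p : M) : C(I × L0 p, M) :=
  (evI M).comp ((ContinuousMap.id I).prodMap ⟨Subtype.val, continuous_subtype_val⟩)

/-- the evaluation family `Δ¹ × Sing (L0 p) → Sing M` -/
def evS (p : M) : SS.Hom ((SS.std 1).prod (SS.Sing (L0 p))) (SS.Sing M) :=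
  Sus330.fam (n := 1) ((evL p).comp (Sus330.lam1.prodMap (ContinuousMap.id _)))

theorem evS_app (p : M) {n : ℕ} (θ : Op n 1) (x : (SS.Sing (L0 p)).S n) (u : Sus330.Dl n) :
    Sus330.sg ((evS p).app n (θ, x)) u =
      (Sus330.sg x u).1 ((((Sus330.lam1 (stdSimplex.map θ u) : I) : ℝ)) : UnitAddCircle) := rfl

/-- both ends of the evaluation family are constant -/
theorem evS_ends (p : M) : Sigma88.Ends (evS p) (HspSS696.ptS p) where
  zero n x := by
    refine ContinuousMap.ext fun u => ?_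
    refine (evS_app p (Sigma88.cst n 0) x u).trans ?_
    have h : Sus330.lam1 (stdSimplex.map (Sigma88.cst n 0) u) = 0 := by
      refine Subtype.ext ?_
      rw [Sus330.LoopStr.map_one_val]
      exact Finset.sum_eq_zero fun a _ => if_neg (show ¬ ((0 : Fin 2) = 1) by decide)
    rw [h]
    exact (Sus330.sg x u).2
  one n x := by
    refine ContinuousMap.ext fun u => ?_
    refine (evS_app p (Sigma88.cst n 1) x u).trans ?_
    have h : Sus330.lam1 (stdSimplex.map (Sigma88.cst n 1) u) = 1 := by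
      refine Subtype.ext ?_
      rw [Sus330.LoopStr.map_one_val]
      refine (Finset.sum_congr rfl fun a _ => if_pos (show (1 : Fin 2) = 1 from rfl)).trans ?_
      exact stdSimplex.sum_eq_one u
    rw [h]
    show (Sus330.sg x u).1 ((1 : ℝ) : UnitAddCircle) = p
    rw [GLugx576.coe_one_circle]
    exact (Sus330.sg x u).2

/-- a point as a loop of dimension `0` -/
def toG0 {Z : Type} [TopologicalSpace Z] (z₀ : Z) : C(Z, GenLoop (Fin 0) Z z₀) :=
  ⟨fun y => ⟨ContinuousMap.const _ y, fun _ h => h.elim fun i => i.elim0⟩, by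
    refine Continuous.subtype_mk (f := fun y : Z => (ContinuousMap.const (Fin 0 → I) y)) ?_ _
    exact ContinuousMap.continuous_const'⟩

variable {k : ℕ} (hk : 1 ≤ k)

/-- homeomorphism to the archive's loop space -/
def toOS (φ : M ≃ₜ Sph (k + 1)) (p : M) (h : φ p = pt (k + 1)) : L0 p ≃ₜ OmS94.OS k :=
  (omHomeo p).trans (mapHomeo φ h)

theorem toOS_ev (φ : M ≃ₜ Sph (k + 1)) (p : M) (h : φ p = pt (k + 1)) :
    (Sus330.LoopStr.evH (Sus330.genLoop (Z := Sph (k + 1)) (z₀ := pt (k + 1)) 0)).comp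
      (SS.prodMap (SS.Hom.id _) (SS.SingMap ((toOS φ p h : L0 p ≃ₜ _) : C(_, _)))) =
    (SS.SingMap ((toG0 (pt (k + 1))).comp (φ : C(M, Sph (k + 1))))).comp (evS p) := by
  refine SS.Hom.ext (funext fun n => funext fun x => ?_)
  refine ContinuousMap.ext fun u => ?_
  refine GenLoop.ext _ _ fun c => ?_
  exact (Cubes735.ev_apply (Z := Sph (k + 1)) (n := 0) _ _ c)

/-- not being a boundary is detected after a map -/
theorem not_bd_of_map {K L : SS} (f : SS.Hom K L) {c : N F2 K}
    (h : N.map F2 f c ∉ LinearMap.range (N.bd F2 L)) : c ∉ LinearMap.range (N.bd F2 K) := by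
  rintro ⟨b, rfl⟩
  exact h ⟨N.map F2 f b, (map_bd' F2 f b).symm⟩

/-- homeomorphisms preserve non-boundaries -/
theorem not_bd_homeo {X Y : Type} [TopologicalSpace X] [TopologicalSpace Y] (e : X ≃ₜ Y)
    {c : N F2 (SS.Sing X)} (h : c ∉ LinearMap.range (N.bd F2 (SS.Sing X))) :
    N.map F2 (SS.SingMap (e : C(X, Y))) c ∉ LinearMap.range (N.bd F2 (SS.Sing Y)) := by
  refine not_bd_of_map (SS.SingMap (e.symm : C(Y, X))) ?_
  have h1 : (SS.SingMap (e.symm : C(Y, X))).comp (SS.SingMap (e : C(X, Y))) = SS.Hom.id _ := by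
    refine SS.Hom.ext (funext fun n => funext fun x => ContinuousMap.ext fun u => ?_)
    exact e.symm_apply_apply _
  rwa [map_map, h1, map_idHom]

include hk in
/-- **the suspension of a nonzero class of degree `k` is nonzero** -/
theorem sus_ne (φ : M ≃ₜ Sph (k + 1)) (p : M) {z : N F2 (SS.Sing (L0 p))}
    (hz : z ∈ N.gr F2 (SS.Sing (L0 p)) k) (hb : N.bd F2 _ z = 0)
    (hne : z ∉ LinearMap.range (N.bd F2 (SS.Sing (L0 p)))) :
    sgN (evS p) z ∉ LinearMap.range (N.bd F2 (SS.Sing M)) := by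
  obtain ⟨ψ, hψ⟩ := OmHomx871.exists_sphere_homeo (n := k + 1) (φ p) (pt (k + 1))
  have h : (φ.trans ψ) p = pt (k + 1) := hψ
  set E := toOS (φ.trans ψ) p h with hE
  have h1 := not_bd_homeo E hne
  set z' := N.map F2 (SS.SingMap (E : C(L0 p, OmS94.OS k))) z with hz'
  have hb' : N.bd F2 _ z' = 0 := by rw [hz', ← map_bd', hb, map_zero]
  have hx : Hd.mk (N.bd F2 _) z' hb' ∈ H.gr F2 (SS.Sing (OmS94.OS k)) k :=
    Gr334.mk_mem_gr (Exc406.map_mem_gr _ hz) hb'
  have hx0 : Hd.mk (N.bd F2 _) z' hb' ≠ 0 := by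
    intro h0
    rw [Hd.mk_eq_zero] at h0
    exact h1 h0
  have h2 := OmS94.sigma_ne hk hx hx0
  rw [Sus330.LoopStr.sigma_mk] at h2
  refine not_bd_of_map (SS.SingMap ((toG0 (pt (k + 1))).comp
    ((φ.trans ψ : M ≃ₜ Sph (k + 1)) : C(M, Sph (k + 1))))) ?_
  have h3 : N.map F2 (SS.SingMap ((toG0 (pt (k + 1))).comp
      ((φ.trans ψ : M ≃ₜ Sph (k + 1)) : C(M, Sph (k + 1))))) (sgN (evS p) z) =
      (Sus330.genLoop (Z := Sph (k + 1)) (z₀ := pt (k + 1)) 0).sig F2 z' := by
    rw [Sigma88.sgN_apply, map_map, ← toOS_ev (φ.trans ψ) p h, ← map_map, map_cross, map_idHom]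
    rfl
  rw [h3]
  intro h4
  exact h2 (Hd.mk_eq_zero.2 h4)

/-- degree `k + 1` of the suspension -/
theorem sgN_mem {P Y : SS} (e : SS.Hom ((SS.std 1).prod P) Y) {k : ℕ} {z : N F2 P}
    (hz : z ∈ N.gr F2 P k) : sgN e z ∈ N.gr F2 Y (k + 1) := Exc406.map_mem_gr e (io_cross_mem hz)

/-- inclusion of a subset -/
def inc {X : Type} [TopologicalSpace X] (s : Set X) : C(s, X) := ⟨Subtype.val, continuous_subtype_val⟩

theorem inc_SInj {X : Type} [TopologicalSpace X] (s : Set X) : HA683.SInj (SS.SingMap (inc s)) := by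
  intro n x y h
  refine ContinuousMap.ext fun u => Subtype.ext ?_
  exact congrArg (fun f : C(stdSimplex ℝ (Fin (n + 1)), X) => f u) h

/-- relative boundaries modulo an acyclic subspace: a cycle of positive degree is a boundary -/
theorem bd_of_relBd {A K : SS} {i : SS.Hom A K} (hi : HA683.SInj i) {n : ℕ}
    (hA : ∀ u ∈ N.gr F2 A n, N.bd F2 A u = 0 → ∃ b, N.bd F2 A b = u)
    {c : N F2 K} (hc : c ∈ N.gr F2 K n) (hb : N.bd F2 K c = 0) (h : c ∈ RelBd i) :
    c ∈ LinearMap.range (N.bd F2 K) := by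
  obtain ⟨w, u, rfl⟩ := mem_RelBd.1 h
  have h1 : N.bd F2 K w + N.map F2 i u = N.bd F2 K (prN F2 K (n + 1) w) +
      N.map F2 i (prN F2 A n u) := by
    have h2 := Gr334.prN_of_mem hc
    rw [map_add, Gr334.prN_bd, Gr334.prN_map] at h2
    exact h2.symm
  have h3 : N.bd F2 A (prN F2 A n u) = 0 := by
    refine HA683.N_map_injective F2 hi ?_
    rw [map_zero, map_bd']
    rw [h1, map_add, N.bd_bd, zero_add] at hb
    exact hb
  obtain ⟨b, hb'⟩ := hA _ (Gr334.prN_mem n u) h3
  rw [h1, ← hb', map_bd', ← map_add]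
  exact ⟨_, rfl⟩

include hk in
/-- **the suspension of a nonzero class of degree `k` is nonzero modulo the complement of a point** -/
theorem sus_rel_ne (φ : M ≃ₜ Sph (k + 1)) (p q : M) {z : N F2 (SS.Sing (L0 p))}
    (hz : z ∈ N.gr F2 (SS.Sing (L0 p)) k) (hb : N.bd F2 _ z = 0)
    (hne : z ∉ LinearMap.range (N.bd F2 (SS.Sing (L0 p)))) :
    sgN (evS p) z ∉ RelBd (SS.SingMap (inc {x : M | x ≠ q})) := by
  intro h
  have : ContractibleSpace {x : M // x ≠ q} := compl_contractible φ q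
  refine sus_ne hk φ p hz hb hne (bd_of_relBd (inc_SInj _) (n := k + 1) ?_ (sgN_mem _ hz) ?_ h)
  · intro u hu hu0
    exact acyc {x : M // x ≠ q} hu hu0
  · rw [Sigma88.bd_sgN (evS_ends p), hb, map_zero, neg_zero]

end ev

end Crest.Agent.R231.TDegx961
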