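import Crest.Agent.R231.Cmp_952
import Crest.Agent.R231.TFill_150
import Crest.Agent.R231.TDegC_961

/-!
# Row 231, block T (helper952): based chains, evaluation at the base point, constants

* `jN p : CO p → CE (Lp M)` is injective with image `CS (L0 p)`;
* `ev0 _# (Am m x) = 0`, `ev0 _# (vm m x) = 0` (`m ≥ 2`), `ev0 _# (vm 1 x)` = suspension of `x`;
* `not_const` : a cycle which is not a boundary and whose evaluation is zero is not
  homologous to a chain of constant loops;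
* `lip_rep` : every cycle of based loops is homologous to a Lipschitz one.
-/

set_option autoImplicit false
set_option linter.unusedSectionVars false

noncomputable section

open Set
open Crest.Agent.R204 EZ271 EZ847 SingAct265
open Crest.Agent.R231.GLugx576 Crest.Agent.R231.Pairx877 Crest.Agent.R231.TActx569
open Crest.Agent.R231.Concx150 Crest.Agent.R231.CPowx150 Crest.Agent.R231.AmChx150
open Crest.Agent.R231.TFillx150 Crest.Agent.R231.Cmpx952
open Crest.Agent.R231.OmHomx871 (L0)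

namespace Crest.Agent.R231.TTransx952

variable {M : Type} [MetricSpace M]

/-- restriction to based loops -/
def rO (p : M) : CE (Lp M) →ₗ[F2] CO p := res (L0 p)

theorem CS_L0 (p : M) : CS (L0 p) = LinearMap.range (jN p) := CS_eq_range

theorem rO_jN {p : M} (x : CO p) : rO p (jN p x) = x := res_map_inc x

theorem jN_inj (p : M) : Function.Injective (jN p) := fun x y h => by
  rw [← rO_jN x, ← rO_jN y, h]

theorem jN_mem_L0 {p : M} (x : CO p) : jN p x ∈ CS (L0 p) := by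
  rw [CS_L0]; exact ⟨x, rfl⟩

theorem jN_rO {p : M} {c : CE (Lp M)} (hc : c ∈ CS (L0 p)) : jN p (rO p c) = c :=
  map_inc_res c hc

theorem bd_jN {p : M} (x : CO p) : bdE (Lp M) (jN p x) = jN p (N.bd F2 _ x) :=
  (map_bd' F2 _ _).symm

theorem bd_rO {p : M} {c : CE (Lp M)} (hc : c ∈ CS (L0 p)) :
    N.bd F2 _ (rO p c) = rO p (bdE (Lp M) c) := bd_res c hc

theorem rO_gr {p : M} {n : ℕ} {c : CE (Lp M)} (hc : c ∈ N.gr F2 (SS.Sing (Lp M)) n) :
    rO p c ∈ N.gr F2 (SS.Sing (Om p)) n := res_gr hc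

theorem jN_gr {p : M} {n : ℕ} {x : CO p} (hx : x ∈ N.gr F2 (SS.Sing (Om p)) n) :
    jN p x ∈ N.gr F2 (SS.Sing (Lp M)) n := Exc406.map_mem_gr _ hx

theorem jN_mem_X {p : M} {t : ℝ} {x : CO p} (hx : x ∈ CS (OmX p t)) : jN p x ∈ CS (X M t) :=
  Instx895.SingMap_mem_CS (ιO p) (fun _ h => h) x hx

theorem res_L0_X {p : M} {t : ℝ} : ∀ c ∈ CS (L0 p ∩ X M t),
    res (L0 p) c ∈ CS {γ : L0 p | γ.1 ∈ X M t} := by
  refine map_mem_of_CS fun n σ hσ => ?_
  rw [res_sx fun t => (hσ t).1]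
  exact sx_mem_CS fun s => (hσ s).2

theorem rO_mem_OmX {p : M} {t : ℝ} {c : CE (Lp M)} (hc : c ∈ CS (L0 p ∩ X M t)) :
    rO p c ∈ CS (OmX p t) := res_L0_X c hc

section eval

/-- evaluation at `0` -/
def ev0 (M : Type) [MetricSpace M] : C(Lp M, M) :=
  ⟨fun γ => γ 0, by
    have h : Continuous fun γ : Lp M => (γ, (0 : ℝ)) := continuous_id.prodMk continuous_const
    have h2 := GLugx576.continuous_evalR.comp h
    exact h2⟩

/-- constant loops -/
def cst (M : Type) [MetricSpace M] : C(M, Lp M) :=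
  ⟨fun q => ContinuousMap.const _ q, ContinuousMap.continuous_const'⟩

theorem cst_ev0 {γ : Lp M} (h : γ ∈ X M 0) : cst M (ev0 M γ) = γ := by
  refine ContinuousMap.ext fun x => ?_
  exact (mem_X_zero.1 h x).symm

theorem cst_ev0_CS : ∀ c ∈ CS (X M 0),
    N.map F2 (SS.SingMap (cst M)) (N.map F2 (SS.SingMap (ev0 M)) c) = c := by
  refine eq_on_CS (f := (N.map F2 (SS.SingMap (cst M))) ∘ₗ (N.map F2 (SS.SingMap (ev0 M))))
    (g := LinearMap.id) fun n σ hσ => ?_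
  rw [LinearMap.comp_apply, N.map_sx, N.map_sx, LinearMap.id_apply]
  congr 1
  exact sing_ext fun y => cst_ev0 (hσ y)

theorem ev0_jN {p : M} {n : ℕ} {x : CO p} (hx : x ∈ N.gr F2 _ (n + 1)) :
    N.map F2 (SS.SingMap (ev0 M)) (jN p x) = 0 := by
  unfold jN
  rw [map_map]
  have h : (SS.SingMap (ev0 M)).comp (SS.SingMap (ιO p)) =
      SS.SingMap (ContinuousMap.const (Om p) p) := by
    refine SS.Hom.ext (funext fun n => funext fun σ => sing_ext fun y => ?_)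
    exact (ev σ y).2
  rw [h, HspSS696.singMap_const]
  exact TDegx961.N_const_pos _ hx

/-- **`ev_# A_m(x) = 0`** -/
theorem ev0_Am {p : M} {d m : ℕ} [NeZero m] (hd : 0 < d) {x : CO p} (hx : x ∈ N.gr F2 _ d) :
    N.map F2 (SS.SingMap (ev0 M)) (Am m x) = 0 := by
  rw [Am_eq_AmO]
  have h1 : AmO m x ∈ N.gr F2 _ (m * d) := AmO_mem_gr m hx
  obtain ⟨n, hn⟩ : ∃ n, m * d = n + 1 := ⟨m * d - 1, by
    have := Nat.mul_pos (NeZero.pos m) hd
    omega⟩
  rw [hn] at h1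
  exact ev0_jN h1

theorem aug_pos {K : SS} {n : ℕ} (hn : 0 < n) {c : N F2 K} (hc : c ∈ N.gr F2 K n) :
    aug F2 c = 0 := by
  refine Gr334.gr_induction (p := fun c => aug F2 c = 0) hc (map_zero _) ?_ ?_ ?_
  · intro a b ha hb; rw [map_add, ha, hb, add_zero]
  · intro r a ha; rw [map_smul, ha, smul_zero]
  · intro x
    obtain ⟨k, rfl⟩ : ∃ k, n = k + 1 := ⟨n - 1, by omega⟩
    exact EZ271.aug_sx_succ F2 x

/-- first coordinate -/
def p0H (K : SS) (m : ℕ) : SS.Hom (Pw K (m + 1)) K :=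
  ⟨fun _ x => x 0, fun _ _ => rfl⟩

theorem p0_cpow {K : SS} {d m : ℕ} (hd : 0 < d) {x : N F2 K} (hx : x ∈ N.gr F2 _ d) (hm : 0 < m) :
    N.map F2 (p0H K m) (cpow x (m + 1)) = 0 := by
  rw [cpow_cons, map_map]
  have h : (p0H K m).comp (consH K m) = SS.fst K (Pw K m) := rfl
  rw [h, fst_cross, aug_pos (Nat.mul_pos hm hd) (cpow_mem_gr hx m), zero_smul]

/-- the evaluation family of `TDegC_961` on `Om p` -/
def evSO (p : M) : SS.Hom ((SS.std 1).prod (SS.Sing (Om p))) (SS.Sing M) := TDegx961.evS p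

/-- `γ_1 ... γ_m (s/m) = γ_1 (s)` on simplices -/
theorem ev_factor (p : M) (m : ℕ) :
    (SS.SingMap (ev0 M)).comp ((LA M).a.comp
      (SS.prodMap (ST.yo (seg 0 (1 / (m + 1 : ℕ)))) (concH (m + 1) p))) =
    (evSO p).comp (SS.prodMap (SS.Hom.id (SS.std 1)) (p0H (SS.Sing (Om p)) m)) := by
  refine SS.Hom.ext (funext fun n => funext fun x => sing_ext fun y => ?_)
  obtain ⟨θ, f⟩ := x
  change Op n 1 at θ
  set t : stdSimplex ℝ (Fin 2) := stdSimplex.map θ y with ht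
  have h2 : ev ((ST.yo (seg 0 (1 / (m + 1 : ℕ)))).app n θ) y =
      (((t : Fin 2 → ℝ) 1 / (m + 1 : ℕ) : ℝ) : UnitAddCircle) := by
    have h3 : ev ((ST.yo (seg 0 (1 / (m + 1 : ℕ)))).app n θ) y =
      ((0 * (t : Fin 2 → ℝ) 0 + (1 / (m + 1 : ℕ)) * (t : Fin 2 → ℝ) 1 : ℝ) : UnitAddCircle) := rfl
    rw [h3]
    congr 1
    ring
  have h1 : ev (((SS.SingMap (ev0 M)).comp ((LA M).a.comp
      (SS.prodMap (ST.yo (seg 0 (1 / (m + 1 : ℕ)))) (concH (m + 1) p)))).app n (θ, f)) y =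
      (rot (ev ((ST.yo (seg 0 (1 / (m + 1 : ℕ)))).app n θ) y)
        (conc (m + 1) fun i => ev (f i) y)) 0 := rfl
  rw [h1, h2, rot_apply, zero_add, conc_first (m + 1) (fun i => ev (f i) y)
    (stdSimplex.zero_le t 1) (stdSimplex.le_one t 1)]
  rfl

theorem vm_eq {p : M} (m : ℕ) (x : CO p) : vm (m + 1) x =
    N.map F2 ((LA M).a.comp (SS.prodMap (ST.yo (seg 0 (1 / (m + 1 : ℕ)))) (concH (m + 1) p)))
      (cross F2 (N.sx F2 (iota 1)) (cpow x (m + 1))) := by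
  have h1 : vm (m + 1) x = N.map F2 (LA M).a (cross F2 (N.sx F2 (seg 0 (1 / (m + 1 : ℕ))))
    (N.map F2 (concH (m + 1) p) (cpow x (m + 1)))) := rfl
  rw [h1, sx_eq_map_iota F2 (seg 0 (1 / (m + 1 : ℕ))), ← map_cross, map_map]

/-- **`ev_# v_m(x) = 0` for `m ≥ 2`** -/
theorem ev0_vm_succ {p : M} {d m : ℕ} (hd : 0 < d) (hm : 0 < m) {x : CO p} (hx : x ∈ N.gr F2 _ d) :
    N.map F2 (SS.SingMap (ev0 M)) (vm (m + 1) x) = 0 := by
  rw [vm_eq, map_map, ev_factor, ← map_map, map_cross, p0_cpow hd hx hm, map_zero, map_zero]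

theorem ev0_vm {p : M} {d m : ℕ} [NeZero m] (hd : 0 < d) (hm : 2 ≤ m) {x : CO p}
    (hx : x ∈ N.gr F2 _ d) : N.map F2 (SS.SingMap (ev0 M)) (vm m x) = 0 := by
  obtain ⟨m, rfl⟩ : ∃ m', m = m' + 1 := ⟨m - 1, by omega⟩
  exact ev0_vm_succ hd (by omega) hx

/-- a cycle which is not a boundary and whose evaluation bounds is not homologous to a chain of
constant loops -/
theorem not_const {c : CE (Lp M)} (hne : c ∉ LinearMap.range (bdE (Lp M)))
    (hev : N.map F2 (SS.SingMap (ev0 M)) c ∈ LinearMap.range (bdE M)) :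
    c ∉ CS (X M 0) ⊔ LinearMap.range (bdE (Lp M)) := by
  intro h
  obtain ⟨c0, h0, b, ⟨w, rfl⟩, h⟩ := Submodule.mem_sup.1 h
  obtain ⟨u, hu⟩ := hev
  have e1 : c0 = c - bdE (Lp M) w := by rw [← h, add_sub_cancel_right]
  have e2 : N.map F2 (SS.SingMap (ev0 M)) c0 =
      bdE M (u - N.map F2 (SS.SingMap (ev0 M)) w) := by
    rw [e1, map_sub, map_sub, hu, map_bd']
  refine hne ⟨N.map F2 (SS.SingMap (cst M)) (u - N.map F2 (SS.SingMap (ev0 M)) w) + w, ?_⟩
  have e3 : bdE (Lp M) (N.map F2 (SS.SingMap (cst M)) (u - N.map F2 (SS.SingMap (ev0 M)) w)) =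
      c0 := by
    refine (map_bd' F2 (SS.SingMap (cst M)) _).symm.trans ?_
    refine Eq.trans ?_ (cst_ev0_CS c0 h0)
    rw [e2]
  rw [map_add, e3, h]

end eval

section lip

variable [CompactSpace M] (L : LUG M)

theorem good_L0 (p : M) : Good L (L0 p) := good_at L {p}

include L in
/-- **every cycle of based loops is homologous to a Lipschitz one** -/
theorem lip_rep {p : M} {d : ℕ} {z : CO p} (hz : z ∈ N.gr F2 _ d) (hb : N.bd F2 _ z = 0) :
    ∃ (t : ℝ) (x w : CO p), x ∈ CS (OmX p t) ∧ x ∈ N.gr F2 _ d ∧ N.bd F2 _ x = 0 ∧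
      z = x + N.bd F2 _ w := by
  obtain ⟨c', w, a1, a2, a3, a4, a5⟩ := C1_abs L (good_L0 L p) (jN_mem_L0 z)
    (by rw [bd_jN, hb, map_zero])
  obtain ⟨t, ht⟩ := mem_CS_inf_WL.1 a1
  refine ⟨t, rO p c', rO p w, rO_mem_OmX ht, rO_gr (a5 d (jN_gr hz)).1, ?_, ?_⟩
  · rw [bd_rO a1.1, a2, map_zero]
  · rw [bd_rO a3, ← map_add, ← a4, rO_jN]

end lip

end Crest.Agent.R231.TTransx952
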