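import Crest.Agent.R231.PairExc_877

/-!
# Row 231 (S0357): degrees for pairs of subsets (helper877)

`gr j = N.gr F2 (SS.Sing E) j`.
* `mem_CS_iff_prN`, `mem_Zp_iff_prN`, `mem_Bp_iff_prN`, `mem_Bp_gr`
* `HZ j X A` : `H_j(X, A) = 0`; `hz_iff`, triple sequence `HZ.trans`, `HZ.of_top`, `HZ.of_sub`
* chain exactness in a degree `exact_mid`, `exact_right`, `exact_left`
* `small2_gr`, `smallFam_gr`, `exc_surj_gr`, `hz_exc`
* `toH : HP X ∅ ≃ₗ[F2] H F2 (SS.Sing X)`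
-/

set_option autoImplicit false

noncomputable section

open Function Finsupp Topology Set
open Crest.Agent.R204

namespace Crest.Agent.R231.Pairx877

open SingAct265 EZ271 HtpInv334 Gr334

variable {E E' : Type} [TopologicalSpace E] [TopologicalSpace E'] {X A B Y : Set E}

/-- chains of degree `j` -/
abbrev gE (E : Type) [TopologicalSpace E] (j : ℕ) : Submodule F2 (CE E) := N.gr F2 (SS.Sing E) j

/-- projection to degree `j` -/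
abbrev pE (E : Type) [TopologicalSpace E] (j : ℕ) : CE E →ₗ[F2] CE E := prN F2 (SS.Sing E) j

theorem mem_of_pE {W : Submodule F2 (CE E)} {c : CE E} (h : ∀ n, pE E n c ∈ W) : c ∈ W := by
  obtain ⟨M, -, hM⟩ := exists_sum_prN c
  rw [hM]
  exact Submodule.sum_mem _ fun n _ => h n

theorem pE_bd (n : ℕ) (c : CE E) : pE E n (bdE E c) = bdE E (pE E (n + 1) c) := prN_bd n c

theorem bd_pE_zero (c : CE E) : bdE E (pE E 0 c) = 0 := bd_gr_zero (prN_mem 0 c)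

theorem mem_CS_iff_prN {c : CE E} : c ∈ CS X ↔ ∀ n, pE E n c ∈ CS X :=
  ⟨fun h n => prN_mem_CS n c h, mem_of_pE⟩

theorem pE_mem_Zp {c : CE E} (h : c ∈ Zp X A) (n : ℕ) : pE E n c ∈ Zp X A := by
  refine ⟨prN_mem_CS n c h.1, ?_⟩
  show bdE E (pE E n c) ∈ CS A
  rcases n with _ | n
  · rw [bd_pE_zero]; exact Submodule.zero_mem _
  · rw [← pE_bd]; exact prN_mem_CS n _ h.2

theorem pE_mem_Bp {c : CE E} (h : c ∈ Bp X A) (n : ℕ) : pE E n c ∈ Bp X A := by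
  rw [mem_Bp] at h ⊢
  obtain ⟨w, hw, h⟩ := h
  refine ⟨pE E (n + 1) w, prN_mem_CS _ _ hw, ?_⟩
  rw [← pE_bd, ← map_sub]
  exact prN_mem_CS n _ h

theorem mem_Zp_iff_prN {c : CE E} : c ∈ Zp X A ↔ ∀ n, pE E n c ∈ Zp X A :=
  ⟨pE_mem_Zp, mem_of_pE⟩

theorem mem_Bp_iff_prN {c : CE E} : c ∈ Bp X A ↔ ∀ n, pE E n c ∈ Bp X A :=
  ⟨pE_mem_Bp, mem_of_pE⟩

/-- a homogeneous relative boundary bounds a homogeneous chain -/
theorem mem_Bp_gr {j : ℕ} {c : CE E} (hc : c ∈ gE E j) :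
    c ∈ Bp X A ↔ ∃ w ∈ gE E (j + 1), w ∈ CS X ∧ c - bdE E w ∈ CS A := by
  rw [mem_Bp]
  constructor
  · rintro ⟨w, hw, h⟩
    refine ⟨pE E (j + 1) w, prN_mem _ _, prN_mem_CS _ _ hw, ?_⟩
    have : c - bdE E (pE E (j + 1) w) = pE E j (c - bdE E w) := by
      rw [map_sub, pE_bd, prN_of_mem hc]
    rw [this]
    exact prN_mem_CS _ _ h
  · rintro ⟨w, -, hw, h⟩
    exact ⟨w, hw, h⟩

/-! ## vanishing in a degree -/

/-- `H_j(X, A) = 0` -/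
def HZ (j : ℕ) (X A : Set E) : Prop := ∀ c ∈ gE E j, c ∈ CS X → bdE E c ∈ CS A → c ∈ Bp X A

theorem HZ.lift {j : ℕ} (h : HZ j X A) {c : CE E} (hc : c ∈ gE E j) (h1 : c ∈ CS X)
    (h2 : bdE E c ∈ CS A) : ∃ w ∈ gE E (j + 1), w ∈ CS X ∧ c - bdE E w ∈ CS A :=
  (mem_Bp_gr hc).1 (h c hc h1 h2)

theorem hz_iff {j : ℕ} : HZ j X A ↔ Zp X A ⊓ gE E j ≤ Bp X A :=
  ⟨fun h c hc => h c hc.2 hc.1.1 hc.1.2, fun h c hc h1 h2 => h ⟨⟨h1, h2⟩, hc⟩⟩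

/-- all degrees -/
theorem hz_all : (∀ j, HZ j X A) ↔ Zp X A ≤ Bp X A := by
  constructor
  · intro h c hc
    rw [mem_Bp_iff_prN]
    intro n
    have := pE_mem_Zp hc n
    exact h n _ (prN_mem _ _) this.1 this.2
  · intro h j c _ h1 h2
    exact h ⟨h1, h2⟩

theorem subsingleton_HP_iff : Subsingleton (HP X A) ↔ Zp X A ≤ Bp X A := by
  constructor
  · intro h c hc
    exact HP_mk_eq_zero.1 (Subsingleton.elim (Hr.mk (bdE E) (CS X) (CS A) c hc.1 hc.2) 0)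
  · intro h
    refine subsingleton_of_forall_eq 0 fun x => ?_
    obtain ⟨c, h1, h2, rfl⟩ := Hr.mk_surj x
    exact HP_mk_eq_zero.2 (h ⟨h1, h2⟩)

theorem HZ.refl (j : ℕ) (X : Set E) : HZ j X X := fun c _ h1 _ => Submodule.mem_sup_left h1

/-! ### exactness for a triple `A ⊆ B ⊆ X`, chain forms -/

/-- at `H_j(X, A)` -/
theorem exact_mid {j : ℕ} {c : CE E} (hc : c ∈ gE E j) (h2 : bdE E c ∈ CS A)
    (h3 : c ∈ Bp X B) : ∃ b ∈ gE E j, b ∈ CS B ∧ bdE E b ∈ CS A ∧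
      ∃ w ∈ gE E (j + 1), w ∈ CS X ∧ c = b + bdE E w := by
  obtain ⟨w, hw, hw', h⟩ := (mem_Bp_gr hc).1 h3
  refine ⟨c - bdE E w, Submodule.sub_mem _ hc (bd_mem_gr hw), h, ?_, w, hw, hw',
    (sub_add_cancel _ _).symm⟩
  rw [map_sub, bd_bdE, sub_zero]
  exact h2

/-- at `H_{j+1}(X, B)` -/
theorem exact_right {j : ℕ} (hBX : B ⊆ X) {c : CE E} (hc : c ∈ gE E (j + 1)) (h1 : c ∈ CS X)
    (h2 : bdE E c ∈ Bp B A) : ∃ c' ∈ gE E (j + 1), c' ∈ CS X ∧ bdE E c' ∈ CS A ∧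
      ∃ b ∈ gE E (j + 1), b ∈ CS B ∧ c = c' + b := by
  obtain ⟨w, hw, hw', h⟩ := (mem_Bp_gr (bd_mem_gr hc)).1 h2
  exact ⟨c - w, Submodule.sub_mem _ hc hw, Submodule.sub_mem _ h1 (CS_mono hBX hw'),
    by rw [map_sub]; exact h, w, hw, hw', (sub_add_cancel _ _).symm⟩

/-- at `H_j(B, A)` -/
theorem exact_left {j : ℕ} (hAB : A ⊆ B) {b : CE E} (hb : b ∈ gE E j) (h1 : b ∈ CS B)
    (h2 : b ∈ Bp X A) : ∃ c ∈ gE E (j + 1), c ∈ CS X ∧ bdE E c ∈ CS B ∧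
      b - bdE E c ∈ CS A := by
  obtain ⟨w, hw, hw', h⟩ := (mem_Bp_gr hb).1 h2
  refine ⟨w, hw, hw', ?_, h⟩
  have : bdE E w = b - (b - bdE E w) := by abel
  rw [this]
  exact Submodule.sub_mem _ h1 (CS_mono hAB h)

theorem HZ.trans {j : ℕ} (hBX : B ⊆ X) (hAB : A ⊆ B) (h1 : HZ j X B) (h2 : HZ j B A) :
    HZ j X A := by
  intro c hc hcX hcA
  obtain ⟨b, hb, hbB, hbA, w, hw, hwX, rfl⟩ := exact_mid hc hcA (h1 c hc hcX (CS_mono hAB hcA))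
  obtain ⟨v, hv, hvB, h⟩ := (h2.lift hb hbB hbA)
  rw [mem_Bp]
  refine ⟨v + w, Submodule.add_mem _ (CS_mono hBX hvB) hwX, ?_⟩
  rw [map_add]
  have : b + bdE E w - (bdE E v + bdE E w) = b - bdE E v := by abel
  rw [this]; exact h

/-- `H_{j+1}(X, A) = 0`, `H_j(B, A) = 0` give `H_{j+1}(X, B) = 0` -/
theorem HZ.of_top {j : ℕ} (hBX : B ⊆ X) (hAB : A ⊆ B) (h1 : HZ (j + 1) X A) (h2 : HZ j B A) :
    HZ (j + 1) X B := by
  intro c hc hcX hcB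
  have h3 : bdE E c ∈ Bp B A :=
    h2 _ (bd_mem_gr hc) hcB (by rw [bd_bdE]; exact Submodule.zero_mem _)
  obtain ⟨c', hc', hc'X, hc'A, b, hb, hbB, rfl⟩ := exact_right hBX hc hcX h3
  obtain ⟨v, hv, hvX, h⟩ := h1.lift hc' hc'X hc'A
  rw [mem_Bp]
  refine ⟨v, hvX, ?_⟩
  have : c' + b - bdE E v = (c' - bdE E v) + b := by abel
  rw [this]
  exact Submodule.add_mem _ (CS_mono hAB h) hbB

/-- `H_0(X, A) = 0` gives `H_0(X, B) = 0` -/
theorem HZ.of_top_zero (hAB : A ⊆ B) (h1 : HZ 0 X A) : HZ 0 X B := by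
  intro c hc hcX _
  exact Bp_mono subset_rfl hAB (h1 c hc hcX (by rw [bd_gr_zero hc]; exact Submodule.zero_mem _))

/-- `H_j(X, A) = 0`, `H_{j+1}(X, B) = 0` give `H_j(B, A) = 0` -/
theorem HZ.of_sub {j : ℕ} (hBX : B ⊆ X) (hAB : A ⊆ B) (h1 : HZ j X A) (h2 : HZ (j + 1) X B) :
    HZ j B A := by
  intro b hb hbB hbA
  obtain ⟨c, hc, hcX, hcB, h⟩ := exact_left hAB hb hbB (h1 b hb (CS_mono hBX hbB) hbA)
  obtain ⟨v, hv, hvX, h'⟩ := h2.lift hc hcX hcB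
  rw [mem_Bp]
  refine ⟨c - bdE E v, h', ?_⟩
  rw [map_sub, bd_bdE, sub_zero]
  exact h

/-! ## small chains and excision in a degree -/

theorem pE_mem_iSup {ι : Sort*} {U : ι → Set E} (n : ℕ) {c : CE E} (hc : c ∈ ⨆ i, CS (U i)) :
    pE E n c ∈ ⨆ i, CS (U i) := by
  have h : (⨆ i, CS (U i)) ≤ (⨆ i, CS (U i)).comap (pE E n) :=
    iSup_le fun i z hz => (le_iSup (fun i => CS (U i)) i) (prN_mem_CS n z hz)
  exact h hc

theorem smallFam_gr (X : Set E) {ι : Type*} (U : ι → Set E) (hU : ∀ i, U i ⊆ X)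
    (h : ∀ y ∈ X, ∃ i, U i ∈ 𝓝[X] y) {j : ℕ} {z : CE E} (hj : z ∈ gE E j) (hz : z ∈ CS X)
    (hd : bdE E z ∈ ⨆ i, CS (U i)) :
    ∃ w ∈ gE E (j + 1), w ∈ CS X ∧ z - bdE E w ∈ ⨆ i, CS (U i) := by
  obtain ⟨w, hw, h⟩ := smallFam X U hU h hz hd
  refine ⟨pE E (j + 1) w, prN_mem _ _, prN_mem_CS _ _ hw, ?_⟩
  have : z - bdE E (pE E (j + 1) w) = pE E j (z - bdE E w) := by
    rw [map_sub, pE_bd, prN_of_mem hj]
  rw [this]
  exact pE_mem_iSup _ h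

theorem small2_gr {U V : Set E} (h : ∀ y ∈ U ∪ V, U ∈ 𝓝[U ∪ V] y ∨ V ∈ 𝓝[U ∪ V] y) {j : ℕ}
    {z : CE E} (hj : z ∈ gE E j) (hz : z ∈ CS (U ∪ V)) (hd : bdE E z ∈ CS U ⊔ CS V) :
    ∃ a ∈ gE E j, a ∈ CS U ∧ ∃ b ∈ gE E j, b ∈ CS V ∧ ∃ w ∈ gE E (j + 1), w ∈ CS (U ∪ V) ∧
      z = a + b + bdE E w := by
  obtain ⟨a, ha, b, hb, w, hw, rfl⟩ := small2 h hz hd
  refine ⟨pE E j a, prN_mem _ _, prN_mem_CS _ _ ha, pE E j b, prN_mem _ _, prN_mem_CS _ _ hb,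
    pE E (j + 1) w, prN_mem _ _, prN_mem_CS _ _ hw, ?_⟩
  rw [← pE_bd, ← map_add, ← map_add]
  exact (prN_of_mem hj).symm

theorem exc_surj_gr {U V : Set E} (h : ∀ y ∈ U ∪ V, U ∈ 𝓝[U ∪ V] y ∨ V ∈ 𝓝[U ∪ V] y) {j : ℕ}
    {z : CE E} (hj : z ∈ gE E j) (hz : z ∈ Zp (U ∪ V) V) : ∃ c ∈ gE E j, c ∈ Zp U (U ∩ V) ∧
      ∃ b ∈ gE E j, b ∈ CS V ∧ ∃ w ∈ gE E (j + 1), w ∈ CS (U ∪ V) ∧ z = c + b + bdE E w := by
  obtain ⟨a, ha, b, hb, w, hw, rfl⟩ := exc_surj h hz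
  refine ⟨pE E j a, prN_mem _ _, pE_mem_Zp ha _, pE E j b, prN_mem _ _, prN_mem_CS _ _ hb,
    pE E (j + 1) w, prN_mem _ _, prN_mem_CS _ _ hw, ?_⟩
  rw [← pE_bd, ← map_add, ← map_add]
  exact (prN_of_mem hj).symm

/-- excision for vanishing in a degree -/
theorem hz_exc {U V : Set E} (h : ∀ y ∈ U ∪ V, U ∈ 𝓝[U ∪ V] y ∨ V ∈ 𝓝[U ∪ V] y) {j : ℕ} :
    HZ j (U ∪ V) V ↔ HZ j U (U ∩ V) := by
  constructor
  · intro h1 c hc hcU hcV
    exact exc_inj h hcU (h1 c hc (CS_mono subset_union_left hcU) (CS_mono inter_subset_right hcV))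
  · intro h1 z hj hz hzV
    obtain ⟨c, hc, hcZ, b, hb, hbV, w, hw, hwU, rfl⟩ := exc_surj_gr h hj ⟨hz, hzV⟩
    refine Submodule.add_mem _ (Submodule.add_mem _ ?_ (Submodule.mem_sup_left hbV))
      (Submodule.mem_sup_right ⟨w, hwU, rfl⟩)
    exact Bp_mono subset_union_left inter_subset_right (h1 c hc hcZ.1 hcZ.2)

/-! ## invariance of the vanishing under deformations -/

theorem HZ.of_deform {X' A' : Set E} {j : ℕ} (hX : X' ⊆ X) (hA : A' ⊆ A) (F : E → ℝ → E)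
    (hF : ContinuousOn (fun p : E × ℝ => F p.1 p.2) (X ×ˢ Icc 0 1)) (h0 : ∀ y ∈ X, F y 0 = y)
    (hFX : ∀ y ∈ X, ∀ t ∈ Icc (0 : ℝ) 1, F y t ∈ X)
    (hFA : ∀ y ∈ A, ∀ t ∈ Icc (0 : ℝ) 1, F y t ∈ A)
    (h1X : ∀ y ∈ X, F y 1 ∈ X') (h1A : ∀ y ∈ A, F y 1 ∈ A') (h : HZ j X' A') : HZ j X A := by
  intro c hc hcX hcA
  obtain ⟨φ, P, e1, e2, e3, e4, e5, e6⟩ := deform F hF h0
  have m1 : φ c ∈ CS X' := e4 X X' subset_rfl h1X c hcX
  have hAX : bdE E c ∈ CS (A ∩ X) := mem_CS_inter hcA (bd_mem_CS c hcX)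
  have m2 : φ (bdE E c) ∈ CS A' := e4 (A ∩ X) A' inter_subset_right (fun y hy => h1A y hy.1) _ hAX
  have m3 : P (bdE E c) ∈ CS A := e3 (A ∩ X) A inter_subset_right (fun y hy => hFA y hy.1) _ hAX
  have m4 : P c ∈ CS X := e3 X X subset_rfl hFX c hcX
  have h5 := h (φ c) (e6 j c hc) m1 (by rw [e2 c hcX]; exact m2)
  obtain ⟨w, hw, h6⟩ := mem_Bp.1 h5
  rw [mem_Bp]
  refine ⟨P c + w, Submodule.add_mem _ m4 (CS_mono hX hw), ?_⟩
  have e : c - bdE E (P c + w) = -(φ c - bdE E w) - P (bdE E c) - (bdE E w + bdE E w) +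
      0 := by
    rw [map_add, e1 c hcX]; abel
  rw [e, add_zero, add_self_CE, sub_zero]
  exact Submodule.sub_mem _ (Submodule.neg_mem _ (CS_mono hA h6)) m3

/-! ## comparison with `H F2 (SS.Sing X)` -/

/-- absolute pair homology of a subset is the homology of the space -/
def toH (X : Set E) : HP X (∅ : Set E) →ₗ[F2] H F2 (SS.Sing X) :=
  Submodule.mapQ _ _ ((res X).restrict (p := Zr (bdE E) (CS X) (CS ∅))
    (q := LinearMap.ker (N.bd F2 (SS.Sing X))) (fun c hc => by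
      rw [LinearMap.mem_ker]
      have h1 : c ∈ CS X := hc.1
      have h2 : bdE E c ∈ CS (∅ : Set E) := hc.2
      rw [CS_empty, Submodule.mem_bot] at h2
      show bdE X (res X c) = 0
      rw [bd_res c h1, h2, map_zero]))
    (by
      rintro ⟨c, hc⟩ h
      rw [Submodule.mem_comap, Submodule.mem_sup] at h
      obtain ⟨a, ha, b, ⟨w, hw, rfl⟩, h⟩ := h
      rw [CS_empty, Submodule.mem_bot] at ha
      subst ha
      rw [zero_add] at h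
      refine ⟨res X w, ?_⟩
      show bdE X (res X w) = res X c
      rw [bd_res w hw, h]
      rfl)

theorem toH_mk {c : CE E} (h1 : c ∈ CS X) (h2 : bdE E c ∈ CS (∅ : Set E))
    (h3 : N.bd F2 (SS.Sing X) (res X c) = 0) :
    toH X (Hr.mk _ _ _ c h1 h2) = Hd.mk _ (res X c) h3 := rfl

theorem toH_bijective (X : Set E) : Bijective (toH X) := by
  constructor
  · rw [injective_iff_map_eq_zero]
    intro x hx
    obtain ⟨c, h1, h2, rfl⟩ := Hr.mk_surj x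
    have h2' := h2
    rw [CS_empty, Submodule.mem_bot] at h2'
    rw [toH_mk h1 h2 (by show bdE X (res X c) = 0; rw [bd_res c h1, h2', map_zero]),
      Hd.mk_eq_zero] at hx
    obtain ⟨w, hw⟩ := hx
    rw [Hr.mk_eq_zero]
    refine ⟨N.map F2 (SS.SingMap (SpecA.inc X)) w, by rw [CS_eq_range]; exact ⟨w, rfl⟩, ?_⟩
    have e : bdE E (N.map F2 (SS.SingMap (SpecA.inc X)) w) = c := by
      rw [← map_bd', hw, map_inc_res c h1]
    rw [e, sub_self]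
    exact Submodule.zero_mem _
  · intro y
    obtain ⟨z, hz, rfl⟩ := Hd.mk_surj _ y
    have h1 : N.map F2 (SS.SingMap (SpecA.inc X)) z ∈ CS X := by rw [CS_eq_range]; exact ⟨z, rfl⟩
    have h2 : bdE E (N.map F2 (SS.SingMap (SpecA.inc X)) z) ∈ CS (∅ : Set E) := by
      rw [← map_bd', hz, map_zero]; exact Submodule.zero_mem _
    refine ⟨Hr.mk _ _ _ _ h1 h2, ?_⟩
    rw [toH_mk h1 h2 (by rw [res_map_inc, hz])]
    congr 1
    exact res_map_inc z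

/-- `HP X ∅ ≃ H F2 (SS.Sing X)` -/
def equivH (X : Set E) : HP X (∅ : Set E) ≃ₗ[F2] H F2 (SS.Sing X) :=
  LinearEquiv.ofBijective (toH X) (toH_bijective X)

/-- naturality of `toH` for maps continuous on `X` -/
theorem toH_map {Y : Set E'} {f : E → E'} {hf : ContinuousOn f X} (hX : MapsTo f X Y)
    {hA : MapsTo f (∅ : Set E) (∅ : Set E')} (k : C(X, Y)) (hk : ∀ x : X, (k x : E') = f x)
    (x : HP X (∅ : Set E)) :
    toH Y (HP.map f hf hX hA x) = H.map F2 (SS.SingMap k) (toH X x) := by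
  obtain ⟨c, h1, h2, rfl⟩ := Hr.mk_surj x
  have h2' := h2
  rw [CS_empty, Submodule.mem_bot] at h2'
  have h3 : N.bd F2 (SS.Sing X) (res X c) = 0 := by
    show bdE X (res X c) = 0; rw [bd_res c h1, h2', map_zero]
  have h4 : N.bd F2 (SS.Sing Y) (res Y (push X f hf c)) = 0 := by
    show bdE Y (res Y (push X f hf c)) = 0
    rw [bd_res _ (push_mem hX c h1), bd_push c h1, h2', map_zero, map_zero]
  rw [HP.map_mk, toH_mk _ _ h4, toH_mk h1 h2 h3]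
  have h5 : res Y (push X f hf c) = N.map F2 (SS.SingMap k) (res X c) := by
    refine eq_on_CS (f := res Y ∘ₗ push X f hf) (g := N.map F2 (SS.SingMap k) ∘ₗ res X)
      (fun n σ h => ?_) c h1
    have hy : ∀ t, ev (cmp f hf σ h) t ∈ Y := fun t => hX (h t)
    rw [LinearMap.comp_apply, LinearMap.comp_apply, push_sx h, res_sx hy, res_sx h, N.map_sx]
    congr 1
    exact sing_ext fun t => Subtype.ext (hk ⟨ev σ t, h t⟩).symm
  show Hd.mk _ _ _ = Hd.mk _ _ _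
  congr 1

end Crest.Agent.R231.Pairx877
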