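import Crest.Agent.R231.WangAbs_525
import Crest.Agent.R231.PairGr_877

/-!
# Row 231 (S0357), Wang package: levels and degrees (helper525)

* `KMap G` : the retraction `κ` to the constant loops
* `Onto G` : `j_!` is onto (after enlarging the level)
* `inj_lv`, `exact_lv` : the two non-formal fields of `WangOut` (`BDLam_969`) on chains
-/

set_option autoImplicit false

noncomputable section

open Set Topology Function
open Crest.Agent.R204

namespace Crest.Agent.R231.WgLvx525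

open Pairx877 Capx226 CapCSx780 SmallCSx226 SingAct265 EZ271 Gr334 IfWangx525 WangAbsx525
open IfWangx525.WangGeo

variable {E B : Type} [TopologicalSpace E] [TopologicalSpace B]

/-- constant loops: `κ γ` = the constant loop at `e γ` -/
structure KMap (G : WangGeo B E) where
  k : C(E, E)
  kX : ∀ γ, k γ ∈ G.X 0
  kO : ∀ t, ∀ γ ∈ G.O t, k γ ∈ G.O 0
  k_id : ∀ γ ∈ G.X 0, k γ = γ

variable {G : WangGeo B E} (κ : KMap G)

namespace KMap

theorem mem (z : CE E) {t : ℝ} (hz : z ∈ CS (G.X t)) : mp κ.k z ∈ CS (G.X 0) :=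
  mp_mem κ.k (fun γ _ => κ.kX γ) z hz

theorem memO {z : CE E} {t : ℝ} (hz : z ∈ CS (G.O t)) : mp κ.k z ∈ CS (G.O 0) :=
  mp_mem κ.k (κ.kO t) z hz

theorem fix : ∀ z ∈ CS (G.X 0), mp κ.k z = z := by
  intro z hz
  rw [← push_eq_mp κ.k (hf := κ.k.continuous.continuousOn) z hz]
  have h2 : ContinuousOn (fun γ : E => γ) (G.X 0) := continuousOn_id
  rw [push_congr (hg := h2) (fun γ hγ => κ.k_id γ hγ)]
  exact push_id z hz

theorem gr {z : CE E} {j : ℕ} (hz : z ∈ N.gr F2 (SS.Sing E) j) :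
    mp κ.k z ∈ N.gr F2 (SS.Sing E) j := map_mem_gr _ hz

/-- the absolute cycle of a relative cycle -/
theorem abs_cyc {z : CE E} (hb : bdE E z ∈ CS (G.X 0)) : bdE E (z + mp κ.k z) = 0 := by
  rw [map_add, mp_bd, κ.fix _ hb]
  exact WangAbsx525.add_self _

/-- a chain trivial relative to the constant loops -/
theorem abs_bd {z : CE E} {t : ℝ} (h : z ∈ Bp (G.X t) (G.X 0)) :
    ∃ w ∈ CS (G.X t), z + mp κ.k z = bdE E (w + mp κ.k w) := by
  rw [mem_Bp'] at h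
  obtain ⟨r, hr, w, hw, rfl⟩ := h
  refine ⟨w, hw, ?_⟩
  rw [map_add, κ.fix r hr, map_add, mp_bd]
  have : ∀ a b : CE E, r + a + (r + b) = (r + r) + (a + b) := fun a b => by abel
  rw [this, WangAbsx525.add_self, zero_add]

end KMap

/-! ### surjectivity of `j_!` -/

/-- `j_!` is onto, after enlarging the level (input from T-DEG and `H(Ω)`) -/
def Onto (G : WangGeo B E) {U : Co (SS.Sing B)} (hU : PtCo G.D U) : Prop :=
  ∀ t, 0 ≤ t → ∀ y ∈ CS (G.O t), bdE E y = 0 →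
    ∃ s, ∃ hs : 0 ≤ s, t ≤ s ∧ ∃ v, ∃ hv : v ∈ CS (G.X s), ∃ hb : bdE E v = 0,
      ∃ hy : y ∈ CS (G.O (s + G.c)), ∃ hy' : bdE E y = 0,
        jsh hU hs (Hr.mk _ _ _ v hv (by rw [hb]; exact Submodule.zero_mem _)) =
          Hr.mk _ _ _ y hy (by rw [hy']; exact Submodule.zero_mem _)

variable {U : Co (SS.Sing B)} (hU : PtCo G.D U)

theorem X_O (t : ℝ) : G.O t ⊆ G.X t := fun _ h => (G.O_sub t h).1

/-- **(inj)** : a based cycle which is trivial in `(Λ, Λ⁰)` is a boundary of based chains, up to the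
constant loop at the base point -/
theorem inj_lv (hK : ∀ O : Set E, Kun G.D G.D' U O) (hO : Onto G hU) {t : ℝ} (ht : 0 ≤ t)
    {y : CE E} (hy : y ∈ CS (G.O t)) {t' : ℝ} (h : y ∈ Bp (G.X t') (G.X 0)) :
    ∃ s', ∃ b ∈ CS (G.O s'), bdE E b = y + mp κ.k y := by
  obtain ⟨w, hw, e⟩ := κ.abs_bd h
  set s := max t t' with hs
  have hts : t ≤ s := le_max_left _ _
  have hs0 : 0 ≤ s := ht.trans hts
  have hw' : w + mp κ.k w ∈ CS (G.X s) := Submodule.add_mem _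
    (CS_mono (G.X_mono (le_max_right _ _)) hw) (CS_mono (G.X_mono hs0) (κ.mem w hw))
  have ha : y + mp κ.k y ∈ CS (G.O t) :=
    Submodule.add_mem _ hy (CS_mono (G.O_mono ht) (κ.memO hy))
  have haW : y + mp κ.k y ∈ CS (G.W s) :=
    CS_mono ((G.O_sub t).trans (inter_subset_inter_left _ (G.X_mono hts))) ha
  obtain ⟨s', b, _, hb, hb'⟩ := inj_of_onto hU hK ht hts ha hw' e (by
    obtain ⟨q, hq1, hq2, hq⟩ := Hr.mk_surj (jsh hU hs0 (Hr.mk (bdE E) (CS (G.X s)) (CS (G.W s))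
      (w + mp κ.k w) hw' (by rw [← e]; exact haW)))
    rw [CS_empty, Submodule.mem_bot] at hq2
    obtain ⟨s₁, hs₁, h1, v, hv, hbv, hqy, hqb, hjs⟩ := hO (s + G.c) (by linarith [G.c_nonneg]) q
      hq1 hq2
    have hss : s ≤ s₁ := by linarith [G.c_nonneg]
    refine ⟨s₁, hss, v, hv, hbv, hjs.trans ?_⟩
    have h2 := jsh_inc hU hs0 hss (Hr.mk (bdE E) (CS (G.X s)) (CS (G.W s))
      (w + mp κ.k w) hw' (by rw [← e]; exact haW))
    rw [hq, Hr.inc_mk, Hr.inc_mk] at h2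
    exact h2.symm)
  exact ⟨s', b, hb, hb'.symm⟩

/-- homogeneous decomposition of a cycle -/
theorem exists_dec_gr {t : ℝ} {z : CE E} {j : ℕ} (hj : z ∈ N.gr F2 (SS.Sing E) j)
    (hz : z ∈ CS (G.X t)) (hb : bdE E z ∈ CS (G.W t)) :
    ∃ z₁ ∈ CS (G.W t), ∃ z₂ ∈ CS (G.V t), z₂ ∈ N.gr F2 (SS.Sing E) j ∧
      ∃ w ∈ CS (G.X t), z = z₁ + z₂ + bdE E w := by
  obtain ⟨z₁, h₁, z₂, h₂, w, hw, e⟩ := exists_dec hz hb
  refine ⟨pE E j z₁, prN_mem_CS _ _ h₁, pE E j z₂, prN_mem_CS _ _ h₂, prN_mem _ _,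
    pE E (j + 1) w, prN_mem_CS _ _ hw, ?_⟩
  rw [← pE_bd, ← map_add, ← map_add, ← e]
  exact (prN_of_mem hj).symm

include κ hU in
/-- **(exact)** : coarse exactness for relative cycles -/
theorem exact_lv (hK : ∀ O : Set E, Kun G.D G.D' U O) {n : ℕ} (hn : Deg n U) {t : ℝ} (ht : 0 ≤ t)
    {j : ℕ} {z : CE E} (hj : z ∈ N.gr F2 (SS.Sing E) j) (hz : z ∈ CS (G.X t))
    (hb : bdE E z ∈ CS (G.X 0)) :
    (j < n → ∃ y ∈ CS (G.O (t + 3 * G.c)), y ∈ N.gr F2 (SS.Sing E) j ∧ bdE E y = 0 ∧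
      z + y ∈ Bp (G.X (t + 3 * G.c)) (G.X 0)) ∧
    ∀ l, j = l + n → ∃ r ∈ CS (G.O (t + 3 * G.c)), r ∈ N.gr F2 (SS.Sing E) l ∧ bdE E r = 0 ∧
      ((∃ t', z ∈ Bp (G.X t') (G.X 0)) → ∃ t', ∃ w ∈ CS (G.O t'), bdE E w = r) ∧
      ∀ v, t ≤ v → (∃ w ∈ CS (G.O v), bdE E w = r) →
        ∃ y ∈ CS (G.O (v + 3 * G.c)), y ∈ N.gr F2 (SS.Sing E) j ∧ bdE E y = 0 ∧
          z + y ∈ Bp (G.X (v + 3 * G.c)) (G.X 0) := by
  have hc := G.c_nonneg
  set z' := z + mp κ.k z with hz'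
  have hz'X : z' ∈ CS (G.X t) := Submodule.add_mem _ hz (CS_mono (G.X_mono ht) (κ.mem z hz))
  have hz'b : bdE E z' = 0 := κ.abs_cyc hb
  have hz'j : z' ∈ N.gr F2 (SS.Sing E) j := Submodule.add_mem _ hj (κ.gr hj)
  have hz'W : bdE E z' ∈ CS (G.W t) := by rw [hz'b]; exact Submodule.zero_mem _
  obtain ⟨z₁, h₁, z₂, h₂, h₂j, w, hw, e⟩ := exists_dec_gr hz'j hz'X hz'W
  have hjm := jsh_mk hU ht hz'X hz'W h₁ h₂ hw e
  -- the final step
  have fin : ∀ v, t ≤ v → ∀ y ∈ CS (G.O (v + G.c + G.c + G.c)), bdE E y = 0 →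
      (∃ u ∈ CS (G.X (v + G.c + G.c + G.c)), z' = y + bdE E u) →
      ∃ y ∈ CS (G.O (v + 3 * G.c)), y ∈ N.gr F2 (SS.Sing E) j ∧ bdE E y = 0 ∧
          z + y ∈ Bp (G.X (v + 3 * G.c)) (G.X 0) := by
    intro v hv y hy hyb ⟨u, hu, eu⟩
    have hv3 : v + G.c + G.c + G.c = v + 3 * G.c := by ring
    rw [hv3] at hy hu
    refine ⟨pE E j y, prN_mem_CS _ _ hy, prN_mem _ _, ?_, ?_⟩
    · rcases j with _ | j
      · exact bd_pE_zero y
      · rw [← pE_bd, hyb, map_zero]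
    · rw [mem_Bp']
      refine ⟨mp κ.k z, κ.mem z hz, pE E (j + 1) u, prN_mem_CS _ _ hu, ?_⟩
      have h1 : z' = pE E j y + bdE E (pE E (j + 1) u) := by
        rw [← pE_bd, ← map_add, ← eu]; exact (prN_of_mem hz'j).symm
      have h2 : z = z' + mp κ.k z := by
        rw [hz', add_assoc, WangAbsx525.add_self, add_zero]
      nth_rewrite 1 [h2]
      rw [h1]
      have : ∀ a b c : CE E, a + b + c + a = (a + a) + (c + b) := fun a b c => by abel
      rw [this, WangAbsx525.add_self, zero_add]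
  constructor
  · intro hjn
    have h0 : jsh hU ht (Hr.mk _ _ _ z' hz'X hz'W) = 0 := by
      rw [hjm, HP_mk_eq_zero]
      have : cap (pb G.e U) z₂ = 0 := cap_gr_eq_zero (hn.pull _) hjn h₂j
      rw [this, map_zero]
      exact Submodule.zero_mem _
    obtain ⟨y, hy, hyb, u, hu, eu⟩ := coarse_wang hU hK ht le_rfl hz'X hz'b (by rw [h0, map_zero])
    exact fin t le_rfl y hy hyb ⟨u, hu, eu⟩
  · rintro l rfl
    set r := push (G.V t) (G.cn t) (G.cn_cont t ht) (cap (pb G.e U) z₂) with hr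
    have hrO : r ∈ CS (G.O (t + G.c)) := push_mem (G.cn_mem t ht) _ (cap_mem_CS _ _ h₂)
    have hrb : bdE E r = 0 := by
      have h3 : bdE E r ∈ CS (∅ : Set E) := by
        rw [hr, bd_push _ (cap_mem_CS _ _ h₂)]
        exact push_mem (mapsTo_empty _ _) _
            (cap_cyc (pb_zero G.e hU) (pb_cocycle G.e hU) h₂ (bd_mem_inf hz'W h₁ h₂ e))
      rwa [CS_empty, Submodule.mem_bot] at h3
    have hrl : r ∈ N.gr F2 (SS.Sing E) l :=
      push_mem_gr (cap_mem_gr (q := n) (n := l) (hn.pull _) (by rwa [add_comm n l]))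
    refine ⟨r, CS_mono (G.O_mono (by linarith)) hrO, hrl, hrb, ?_, ?_⟩
    · rintro ⟨t', ht'⟩
      obtain ⟨w', hw', e'⟩ := κ.abs_bd ht'
      set s := max t t' with hs
      have hts : t ≤ s := le_max_left _ _
      have hs0 : 0 ≤ s := ht.trans hts
      have hw2 : w' + mp κ.k w' ∈ CS (G.X s) := Submodule.add_mem _
        (CS_mono (G.X_mono (le_max_right _ _)) hw') (CS_mono (G.X_mono hs0) (κ.mem w' hw'))
      have h3 := jsh_inc hU ht hts (Hr.mk _ _ _ z' hz'X hz'W)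
      rw [Hr.inc_mk, hjm, Hr.inc_mk] at h3
      have h4 : Hr.mk (bdE E) (CS (G.X s)) (CS (G.W s)) z' (CS_mono (G.X_mono hts) hz'X)
          (by rw [hz'b]; exact Submodule.zero_mem _) = 0 := by
        rw [HP_mk_eq_zero, mem_Bp']
        exact ⟨0, Submodule.zero_mem _, _, hw2, by rw [zero_add]; exact e'⟩
      rw [h4, map_zero] at h3
      have h5 := h3.symm
      rw [HP_mk_eq_zero, mem_Bp_empty] at h5
      obtain ⟨q, hq, eq⟩ := h5
      exact ⟨_, q, hq, eq.symm⟩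
    · rintro v hv ⟨q, hq, eq⟩
      obtain ⟨y, hy, hyb, u, hu, eu⟩ := coarse_wang hU hK ht hv hz'X hz'b (by
        rw [hjm, Hr.inc_mk, HP_mk_eq_zero, mem_Bp_empty]
        exact ⟨q, CS_mono (G.O_mono (by linarith)) hq, eq.symm⟩)
      exact fin v hv y hy hyb ⟨u, hu, eu⟩

end Crest.Agent.R231.WgLvx525
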