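import Crest.Agent.R231.TBas_961
import Crest.Agent.R231.TEv_952
import Crest.Agent.R231.WgLv_525
import Crest.Agent.R231.ArcSys_694

/-!
# Row 231 (S0357), Wang package: `j_!` is onto (helper961)

`onto` : `Onto G hU` for every Wang data `G` with `X = X M`, `O = Om p`, over a manifold `M`
homeomorphic to the sphere of dimension `k + 1`.

Proof: `v_(m+1)` is not homologous to a based cycle (T-DEG), so `j_! v_(m+1) ≠ 0` in the limit
(`coarse_wang`); it has degree `m k`, where `H(Ω)` has one nonzero class (helper871).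
-/

set_option autoImplicit false

noncomputable section

namespace Crest.Agent.R231.WgOntox961

open Crest.Agent.R204 Crest.Agent.R204.EZ271 Crest.Agent.R204.SingAct265
open Crest.Agent.R204.Freu297 (Sph pt)
open Crest.Agent.R204.Gr334 (prN)
open GLugx576 (Lp LUG)
open Pairx877 IfWangx525 IfWangx525.WangGeo WangAbsx525 WgLvx525 Capx226 CapCSx780
open Set

/-! ### the relation `j_! [v] = [r]` at level `s` -/

section rel

variable {B E : Type} [TopologicalSpace B] [TopologicalSpace E] {G : WangGeo B E}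
  {U : Co (SS.Sing B)} (hU : PtCo G.D U)

/-- `j_! [v] = [r]` at the level `s` -/
def J (s : ℝ) (v r : CE E) : Prop :=
  ∃ (hs : 0 ≤ s) (hv : v ∈ CS (G.X s)) (hb : bdE E v = 0) (hr : r ∈ CS (G.O (s + G.c)))
    (hrb : bdE E r = 0),
    jsh hU hs (Hr.mk _ _ _ v hv (by rw [hb]; exact Submodule.zero_mem _)) =
      Hr.mk _ _ _ r hr (by rw [hrb]; exact Submodule.zero_mem _)

variable {hU}

theorem J.raise {s t : ℝ} {v r : CE E} (h : J hU s v r) (hst : s ≤ t) : J hU t v r := by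
  obtain ⟨hs, hv, hb, hr, hrb, e⟩ := h
  refine ⟨hs.trans hst, CS_mono (G.X_mono hst) hv, hb, CS_mono (G.O_mono (by linarith)) hr, hrb, ?_⟩
  have h1 := jsh_inc hU hs hst (Hr.mk _ _ _ v hv (by rw [hb]; exact Submodule.zero_mem _))
  rw [e, Hr.inc_mk, Hr.inc_mk] at h1
  exact h1

theorem J.add {s : ℝ} {v r v' r' : CE E} (h : J hU s v r) (h' : J hU s v' r') :
    J hU s (v + v') (r + r') := by
  obtain ⟨hs, hv, hb, hr, hrb, e⟩ := h
  obtain ⟨_, hv', hb', hr', hrb', e'⟩ := h'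
  refine ⟨hs, Submodule.add_mem _ hv hv', by rw [map_add, hb, hb', add_zero],
    Submodule.add_mem _ hr hr', by rw [map_add, hrb, hrb', add_zero], ?_⟩
  have h1 := congrArg₂ (· + ·) e e'
  rw [← map_add, ← Hr.mk_add, ← Hr.mk_add] at h1
  exact h1

theorem J_zero {s : ℝ} (hs : 0 ≤ s) : J hU s 0 0 :=
  ⟨hs, Submodule.zero_mem _, map_zero _, Submodule.zero_mem _, map_zero _, by
    have h1 : Hr.mk (bdE E) (CS (G.X s)) (CS (G.W s)) 0 (Submodule.zero_mem _)
      (by rw [map_zero]; exact Submodule.zero_mem _) = 0 := rfl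
    rw [h1, map_zero]
    rfl⟩

/-- change of the representative -/
theorem J.congr {s s' : ℝ} {v r r' w : CE E} (h : J hU s v r) (hw : w ∈ CS (G.O s'))
    (e : r + r' = bdE E w) : J hU (max s s') v r' := by
  have hc := G.c_nonneg
  obtain ⟨hs, hv, hb, hr, hrb, ej⟩ := h.raise (le_max_left s s')
  have hw' : w ∈ CS (G.O (max s s' + G.c)) :=
    CS_mono (G.O_mono (by linarith [le_max_right s s'])) hw
  have er : r' = r + bdE E w := by rw [← e, ← add_assoc, WangAbsx525.add_self, zero_add]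
  have hr' : r' ∈ CS (G.O (max s s' + G.c)) := by
    rw [er]; exact Submodule.add_mem _ hr (bd_mem_CS _ hw')
  refine ⟨hs, hv, hb, hr', by rw [er, map_add, hrb, bd_bdE, add_zero], ej.trans ?_⟩
  rw [Hr.mk_eq_mk]
  refine ⟨w, hw', ?_⟩
  have : r - r' - bdE E w = 0 := by
    rw [er, sub_add_cancel_left, ZModModule.neg_eq_self, ZModModule.sub_eq_add, WangAbsx525.add_self]
  rw [this]
  exact Submodule.zero_mem _

/-- the representative of `j_! v` in one degree -/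
theorem exists_J {n : ℕ} (hn : Deg n U) {s : ℝ} (hs : 0 ≤ s) {l : ℕ} {v : CE E}
    (hv : v ∈ CS (G.X s)) (hb : bdE E v = 0) (hl : v ∈ N.gr F2 (SS.Sing E) (l + n)) :
    ∃ r ∈ N.gr F2 (SS.Sing E) l, J hU s v r := by
  have hvW : bdE E v ∈ CS (G.W s) := by rw [hb]; exact Submodule.zero_mem _
  obtain ⟨z₁, h₁, z₂, h₂, h₂j, w, hw, e⟩ := exists_dec_gr hl hv hvW
  have hjm := jsh_mk hU hs hv hvW h₁ h₂ hw e
  set r := push (G.V s) (G.cn s) (G.cn_cont s hs) (cap (pb G.e U) z₂) with hr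
  have hrO : r ∈ CS (G.O (s + G.c)) := push_mem (G.cn_mem s hs) _ (cap_mem_CS _ _ h₂)
  have hrb : bdE E r = 0 := by
    have h3 : bdE E r ∈ CS (∅ : Set E) := by
      rw [hr, bd_push _ (cap_mem_CS _ _ h₂)]
      exact push_mem (mapsTo_empty _ _) _
          (cap_cyc (pb_zero G.e hU) (pb_cocycle G.e hU) h₂ (bd_mem_inf hvW h₁ h₂ e))
    rwa [CS_empty, Submodule.mem_bot] at h3
  have hrl : r ∈ N.gr F2 (SS.Sing E) l :=
    push_mem_gr (cap_mem_gr (q := n) (n := l) (hn.pull _) (by rwa [add_comm n l]))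
  exact ⟨r, hrl, hs, hv, hb, hrO, hrb, hjm⟩

/-- if `j_! v` is a boundary then `v` is homologous to a based cycle -/
theorem J.based (hK : ∀ O : Set E, Kun G.D G.D' U O) {s s' : ℝ} {v r w : CE E} (h : J hU s v r)
    (hw : w ∈ CS (G.O s')) (e : r = bdE E w) :
    ∃ t, ∃ y ∈ CS (G.O t), ∃ x ∈ CS (G.X t), v = y + bdE E x := by
  have hc := G.c_nonneg
  obtain ⟨hs, hv, hb, hr, hrb, ej⟩ := h
  have hss : s ≤ max s s' := le_max_left s s'
  obtain ⟨y, hy, -, x, hx, exy⟩ := coarse_wang hU hK hs hss hv hb (by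
    rw [ej, Hr.inc_mk, HP_mk_eq_zero, mem_Bp_empty]
    exact ⟨w, CS_mono (G.O_mono (by linarith [le_max_right s s'])) hw, e⟩)
  exact ⟨_, y, hy, x, hx, exy⟩

end rel

/-! ### loops -/

section loops

open Concx150 (Om)
open AmChx150 TFillx150 TDegx961 TBasx961 TTransx952 Cmpx952 TActx569 OmHomx871

variable {M : Type} [MetricSpace M] {p : M} {k : ℕ}

section not

variable (hk : 1 ≤ k) (φ : M ≃ₜ Sph (k + 1)) {z : CO p}
  (hz : z ∈ N.gr F2 (SS.Sing (Om p)) k) (hb : N.bd F2 _ z = 0)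
  (hn : z ∉ LinearMap.range (N.bd F2 (SS.Sing (Om p))))

include hk φ hz hb hn

/-- `v_m` is not a boundary modulo the loops with `γ 0 ≠ q` -/
theorem vm_not_rel (q : M) : ∀ m : ℕ, vm (m + 1) z ∉ RelBd (SS.SingMap (inc (Uq q)))
  | 0 => vm_one_ne hk φ q hz hb hn
  | (m + 1) => vm_succ_ne hk φ q hz hb hn (m + 1) (Am_not_bd hk φ hz hb hn (m + 1))

/-- cycles of based loops -/
theorem aO_span {j : ℕ} {y : CO p} (hy : y ∈ N.gr F2 (SS.Sing (Om p)) j) (hyb : N.bd F2 _ y = 0) :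
    y ∈ LinearMap.range (N.bd F2 (SS.Sing (Om p))) ∨
      ∃ m, m * k = j ∧ y + aO z m ∈ LinearMap.range (N.bd F2 (SS.Sing (Om p))) :=
  (btd φ hk hz hb hn).a_span j y hy hyb

end not

variable (L : LUG M) [CompactSpace M]

omit [CompactSpace M] in
theorem CS_Om_eq (t : ℝ) : CS (ArcSysx694.Om p t) = CS (L0 p ∩ GLugx576.X M t) := by
  congr 1
  ext γ
  exact and_comm

include L in
/-- a Lipschitz chain of based loops which bounds in the continuous based loops bounds a Lipschitz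
chain of based loops -/
theorem lip_bd {t : ℝ} {y : CE (Lp M)} (hy : y ∈ CS (ArcSysx694.Om p t)) {w : CO p}
    (h : N.bd F2 _ w = rO p y) : ∃ t', ∃ w' ∈ CS (ArcSysx694.Om p t'), y = bdE (Lp M) w' := by
  rw [CS_Om_eq] at hy
  have h1 : y ∈ CS (L0 p) ⊓ WL M := mem_CS_inf_WL.2 ⟨t, hy⟩
  have h2 : bdE (Lp M) (jN p w) = y := by rw [bd_jN, h, jN_rO h1.1]
  obtain ⟨w', hw', e, -⟩ := C2_abs L (good_L0 L p) h1 (jN_mem_L0 w) h2
  obtain ⟨t', ht'⟩ := mem_CS_inf_WL.1 hw'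
  exact ⟨t', w', by rw [CS_Om_eq]; exact ht', e.symm⟩

omit [CompactSpace M] in
theorem mem_L0_of {t : ℝ} {y : CE (Lp M)} (hy : y ∈ CS (ArcSysx694.Om p t)) : y ∈ CS (L0 p) :=
  CS_mono (fun _ h => h.2) hy

variable {G : WangGeo M (Lp M)} (hX : G.X = GLugx576.X M) (hOm : G.O = ArcSysx694.Om p)
  {U : Co (SS.Sing M)} (hU : PtCo G.D U) (hK : ∀ O : Set (Lp M), Kun G.D G.D' U O)
  (hn : Deg (k + 1) U) (hk : 1 ≤ k) (φ : M ≃ₜ Sph (k + 1)) {q : M} (hpq : p ≠ q)

/-- `y` is in the image of `j_!` -/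
def Im (hU : PtCo G.D U) (y : CE (Lp M)) : Prop := ∃ s v, J hU s v y

omit [CompactSpace M] in
theorem Im.add {y y' : CE (Lp M)} (h : Im hU y) (h' : Im hU y') : Im hU (y + y') := by
  obtain ⟨s, v, h⟩ := h
  obtain ⟨s', v', h'⟩ := h'
  exact ⟨max s s', v + v', (h.raise (le_max_left _ _)).add (h'.raise (le_max_right _ _))⟩

omit [CompactSpace M] in
theorem Im_zero : Im hU (0 : CE (Lp M)) := ⟨0, 0, J_zero le_rfl⟩

omit [CompactSpace M] in
theorem Im.sum {ι : Type} (S : Finset ι) {f : ι → CE (Lp M)} (h : ∀ i ∈ S, Im hU (f i)) :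
    Im hU (∑ i ∈ S, f i) := by
  classical
  induction S using Finset.induction_on with
  | empty => exact Im_zero hU
  | insert a S ha ih =>
    rw [Finset.sum_insert ha]
    exact (h a (Finset.mem_insert_self a S)).add hU
      (ih fun i hi => h i (Finset.mem_insert_of_mem hi))

include L hX hOm hK hn hk φ hpq in
/-- the classes `j_! v_(m+1)` -/
theorem exists_class {t₀ : ℝ} {z : CO p} (hzt : z ∈ CS (OmX p t₀))
    (hz : z ∈ N.gr F2 (SS.Sing (Om p)) k) (hb : N.bd F2 _ z = 0)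
    (hn1 : z ∉ LinearMap.range (N.bd F2 (SS.Sing (Om p)))) (m : ℕ) :
    ∃ s v r, J hU s v r ∧ rO p r + aO z m ∈ LinearMap.range (N.bd F2 (SS.Sing (Om p))) := by
  have hv1 : vm (m + 1) z ∈ CS (GLugx576.X M ((m + 1 : ℕ) * t₀)) := vm_mem_CS (m + 1) hzt
  set s := max (((m + 1 : ℕ) : ℝ) * t₀) 0 with hs
  have hv2 : vm (m + 1) z ∈ CS (G.X s) := by
    rw [hX]; exact CS_mono (GLugx576.X_mono (le_max_left _ _)) hv1
  have hvg : vm (m + 1) z ∈ N.gr F2 (SS.Sing (Lp M)) (m * k + (k + 1)) := by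
    have h := vm_mem_gr (m + 1) hz
    have e : (m + 1) * k + 1 = m * k + (k + 1) := by ring
    rwa [e] at h
  obtain ⟨r, hr, hJ⟩ := exists_J hn (le_max_right _ _) hv2 (bd_vm (m + 1) hb) hvg
  refine ⟨s, _, r, hJ, ?_⟩
  have hJ' := hJ
  obtain ⟨-, -, -, hrO, hrb, -⟩ := hJ'
  rw [hOm] at hrO
  -- `r` is not a boundary
  have hr0 : rO p r ∉ LinearMap.range (N.bd F2 (SS.Sing (Om p))) := by
    rintro ⟨w, hw⟩
    obtain ⟨t', w', hw', e⟩ := lip_bd L hrO hw
    rw [← hOm] at hw'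
    obtain ⟨t, y, hy, x, -, exy⟩ := hJ.based hK hw' e
    refine vm_not_rel hk φ hz hb hn1 q m ?_
    rw [exy]
    refine Submodule.add_mem _ ?_ (range_le_relBd _ ⟨x, rfl⟩)
    rw [hOm] at hy
    have hy2 : y ∈ CS (Uq q) := CS_mono (fun γ hγ => by
      show γ 0 ≠ q
      have h0 : γ 0 = p := hγ.2
      rw [h0]
      exact hpq) hy
    have h3 : y ∈ RelBd (SS.SingMap (SpecA.inc (Uq q))) :=
      mem_relBd_iff.2 (mem_Bp'.2 ⟨y, hy2, 0, Submodule.zero_mem _, by rw [map_zero, add_zero]⟩)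
    exact h3
  have hr1 : N.bd F2 _ (rO p r) = 0 := by rw [bd_rO (mem_L0_of hrO), hrb, map_zero]
  rcases aO_span hk φ hz hb hn1 (rO_gr hr) hr1 with h | ⟨m', hm', h⟩
  · exact absurd h hr0
  · have : m' = m := Nat.eq_of_mul_eq_mul_right (by omega) hm'
    rwa [this] at h

include L hX hOm hK hn hk φ hpq in
/-- homogeneous cycles are in the image -/
theorem im_gr {j : ℕ} {y : CE (Lp M)} {t : ℝ} (hy : y ∈ CS (G.O t)) (hyb : bdE (Lp M) y = 0)
    (hj : y ∈ N.gr F2 (SS.Sing (Lp M)) j) : Im hU y := by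
  obtain ⟨z0, hz0, hb0, hn0⟩ := OmPowx871.exists_cycle φ p
  obtain ⟨t₀, z, w, hzt, hz, hb, e⟩ := lip_rep L hz0 hb0
  have hn1 : z ∉ LinearMap.range (N.bd F2 (SS.Sing (Om p))) := by
    intro h
    refine hn0 ?_
    rw [e]
    exact Submodule.add_mem _ h ⟨w, rfl⟩
  have hyO : y ∈ CS (ArcSysx694.Om p t) := by rwa [← hOm]
  have hy0 : N.bd F2 _ (rO p y) = 0 := by rw [bd_rO (mem_L0_of hyO), hyb, map_zero]
  rcases aO_span hk φ hz hb hn1 (rO_gr hj) hy0 with ⟨w1, h⟩ | ⟨m, hm, h⟩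
  · obtain ⟨t', w', hw', e'⟩ := lip_bd L hyO h
    rw [← hOm] at hw'
    exact ⟨_, _, (J_zero (hU := hU) le_rfl).congr hw' (by rw [zero_add]; exact e')⟩
  · obtain ⟨s, v, r, hJ, hr⟩ := exists_class L hX hOm hU hK hn hk φ hpq hzt hz hb hn1 m
    have hJ' := hJ
    obtain ⟨-, -, -, hrO, hrb, -⟩ := hJ'
    rw [hOm] at hrO
    obtain ⟨w1, hw1⟩ := Submodule.add_mem _ hr h
    have h2 : rO p r + aO z m + (rO p y + aO z m) = rO p (r + y) := by
      rw [map_add]
      have h3 := add_self2 (aO z m)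
      calc _ = rO p r + rO p y + (aO z m + aO z m) := by abel
        _ = _ := by rw [h3, add_zero]
    rw [h2] at hw1
    have hsum : r + y ∈ CS (ArcSysx694.Om p (max (s + G.c) t)) :=
      Submodule.add_mem _ (CS_mono (ArcSysx694.Om_mono (le_max_left _ _)) hrO)
        (CS_mono (ArcSysx694.Om_mono (le_max_right _ _)) hyO)
    obtain ⟨t', w', hw', e'⟩ := lip_bd L hsum hw1
    rw [← hOm] at hw'
    exact ⟨_, _, hJ.congr hw' e'⟩

include L hX hOm hK hn hk φ hpq in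
/-- **`j_!` is onto** -/
theorem onto : Onto G hU := by
  intro t ht y hy hyb
  obtain ⟨N0, -, hN⟩ := Gr334.exists_sum_prN y
  have him : Im hU y := by
    rw [hN]
    refine Im.sum hU _ fun j _ => ?_
    refine im_gr (j := j) L hX hOm hU hK hn hk φ hpq (WgKx667.prN_mem_CS j y hy) ?_
      (Gr334.prN_mem j y)
    rcases j with _ | j
    · exact Gr334.bd_gr_zero (Gr334.prN_mem _ _)
    · have h1 : prN F2 _ j (bdE (Lp M) y) = bdE (Lp M) (prN F2 _ (j + 1) y) := Gr334.prN_bd j y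
      rw [← h1, hyb, map_zero]
  obtain ⟨s, v, hJ⟩ := him
  obtain ⟨hs, hv, hb, hr, hrb, e⟩ := hJ.raise (le_max_left s t)
  exact ⟨max s t, hs, le_max_right _ _, v, hv, hb, hr, hrb, e⟩

end loops

end Crest.Agent.R231.WgOntox961
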