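import Crest.Agent.R231.End2_475
import Crest.Agent.R231.CutI_969
import Crest.Agent.R231.HasTh_682
import Crest.Agent.R231.WgOnto_961
import Crest.Agent.R231.WgKun_667
import Crest.Agent.R231.ArcInst_694
import Crest.Agent.R231.CutS_969
import Crest.Agent.R231.EndQ_89

/-!
# Row 231 (S0357): the Wang package and the second door of block P on `(S^n, g)` (helper89)
-/

set_option autoImplicit false
set_option linter.unusedSectionVars false

noncomputable section

open Set Filter Function Topology
open Crest.Agent.R204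
open scoped NNReal Manifold ContDiff

namespace Crest.Agent.R231.EndPx89

open Pairx877 GLugx576 TActx569 TCx569 IfAx978 Gr334 Instx895 Capx226
open PrimeGeox893 CritPMx893 GeoLugx724 GeoBasex724 Frontx893 Asmx895 BDAx969 TopBasex220
open CapCSx780 EZ271 SingAct265 IfWangx525 WgOutx525 WgGeox525 WgLvx525 ArcInstx694 ArcSysx694

theorem wang_SG {k : ℕ} (hk : 1 ≤ k) (g : Met (k + 1)) (p : SG g) :
    WangOut (YO p) (mix (SG g)) (FF (SG g)) (k + 1) (iO p) := by
  obtain ⟨U, hU, h1, hd⟩ := WgKunx667.exists_ptCo (n := k) ((toSG g).symm (neg p))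
  have hU' : PtCo ({neg p}ᶜ : Set (SG g)) U := hU
  have hK : ∀ O : Set (Lp (SG g)), Kun ({neg p}ᶜ : Set (SG g)) {p}ᶜ U O := fun O =>
    WgKunx667.kun_sphere (p := (toSG g).symm p) (q := (toSG g).symm (neg p))
      (fun h => neg_ne p ((toSG g).symm.injective h).symm) hU h1 O
  have hn : Deg (k + 1) U := fun m hm z hz => hd m hm z hz
  obtain ⟨G⟩ := nonempty_geoData g
  exact wangOut (slerp p) (slerpN p) isOpen_compl_singleton isOpen_compl_singleton
    (fun b => by
      by_cases h : b = neg p
      · right; rw [h]; exact neg_ne p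
      · left; exact h)
    (fun h => neg_ne p h.symm) (fun u _ => slerp_self p u) hU' hK hn
    (WgOntox961.onto (q := neg p) (lug G) rfl rfl hU' hK hn hk (toSG g).symm (fun h => neg_ne p h.symm))

/-- **the output of block P for the spheres** (second door) -/
theorem pouts_SG {n : ℕ} (hn : 2 ≤ n) [NeZero n] (g : Met n) : Nonempty (POuts (SG g) (n - 1)) := by
  obtain ⟨k, rfl⟩ : ∃ k, n = k + 1 := ⟨n - 1, by omega⟩
  have hk : 1 ≤ k := by omega
  exact ⟨End2x475.pouts_of (D := k) hk (CutSx969.cutS hn g) 1 (CutSx969.hasThS hn g)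
    (wang_SG hk g _)⟩

/-- **S0357** -/
theorem infinite_sphere (n : ℕ) (hn : 2 ≤ n) (g : Met n) :
    {S : Set (Metric.sphere (0 : EuclideanSpace ℝ (Fin (n + 1))) 1) |
      ∃ γ : ℝ → Metric.sphere (0 : EuclideanSpace ℝ (Fin (n + 1))) 1,
      Crest.GeometryTopology.Geodesic.IsClosedGeodesic (𝓡 n) g γ ∧ (∃ s t, γ s ≠ γ t) ∧
        Set.range γ = S}.Infinite :=
  infinite_of_POuts n hn (fun g => pouts_SG hn g) g

end Crest.Agent.R231.EndPx89
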