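import Crest.Agent.R231.TC_569
import Crest.Agent.R231.IfA_978

/-!
# Row 231, block H, leaf H2 (helper432): acyclicity of pairs in the completed complexes of a `TC`

Ambient `X : TC`, graded submodules `A B : GS X`, `PB B` = product of the `B j` inside `X.P`.

* `AcyS D A B` (general module): `v ∈ B`, `D v ∈ A` ⟹ `v + D c ∈ A` for some `c ∈ B`
* `AcyS.trans`, `AcyS.quot`, `AcyS.sub` (two of three), `AcyS.sup_iff` (excision)
* `Acy A B`, `AcyZ A B`, `AcyT A B` : acyclicity of `(B, A)` for `d`, `d + 1 + g`, `d + Δ`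
* `acyZ_iff_acyT` (L1), `acyZ_of_acy`, `acyT_of_acy` (L2), `acyZ_of_contr` (L4), homotopies (L5)
* `mix X : IfAx978.Mix`, `DD_eq : DD = X.DT`
* `acyT_smith` (L6) and `smith_of_acyT : IfAx978.Smith ..`
-/

set_option autoImplicit false

namespace Crest.Agent.R231.Tatex432

open Crest.Agent.R204 TCx569 Function

/-! ### abstract part -/

section Abs

variable {R P : Type*} [CommRing R] [AddCommGroup P] [Module R P]

/-- successive approximation, relative version -/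
theorem approx {F : ℕ → Submodule R P} {D : P →ₗ[R] P} (anti : ∀ j, F (j + 1) ≤ F j)
    (compl : ∀ y : ℕ → P, (∀ j, y j ∈ F j) → ∃ b, ∀ j, b - ∑ i ∈ Finset.range j, y i ∈ F j)
    (sq : ∀ x, D (D x) = 0) (hD : ∀ j, ∀ x ∈ F (j + 1), D x ∈ F j)
    (step : ∀ j, ∀ x ∈ F j, (∀ i, D x ∈ F i) → ∃ y ∈ F (j + 1), x - D y ∈ F (j + 1))
    (c : P) (hc0 : c ∈ F 0) (hc : ∀ i, D c ∈ F i) : ∃ b ∈ F 0, ∀ i, c - D b ∈ F i := by
  classical
  choose! Y hY1 hY2 using step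
  -- remainders
  let r : ℕ → P := fun j => Nat.rec c (fun j rj => rj - D (Y j rj)) j
  have r0 : r 0 = c := rfl
  have rs : ∀ j, r (j + 1) = r j - D (Y j (r j)) := fun j => rfl
  have hr : ∀ j, r j ∈ F j ∧ ∀ i, D (r j) ∈ F i := by
    intro j
    induction j with
    | zero => exact ⟨by rw [r0]; exact hc0, by rw [r0]; exact hc⟩
    | succ j ih =>
      refine ⟨by rw [rs]; exact hY2 j _ ih.1 ih.2, ?_⟩
      intro i
      rw [rs, map_sub, sq, sub_zero]
      exact ih.2 i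
  have hrs : ∀ j, r j = c - D (∑ i ∈ Finset.range j, Y i (r i)) := by
    intro j
    induction j with
    | zero => rw [r0, Finset.range_zero, Finset.sum_empty, map_zero, sub_zero]
    | succ j ih => rw [rs, Finset.sum_range_succ, map_add, ← sub_sub, ← ih]
  obtain ⟨b, hb⟩ := compl (fun j => Y j (r j)) fun j => anti j (hY1 j _ (hr j).1 (hr j).2)
  refine ⟨b, ?_, fun j => ?_⟩
  · have := hb 0
    rwa [Finset.range_zero, Finset.sum_empty, sub_zero] at this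
  · have h1 : c - D b = r j - D (b - ∑ i ∈ Finset.range j, Y i (r i)) := by
      rw [map_sub, hrs j]
      abel
    rw [h1]
    refine (F j).sub_mem (hr j).1 (hD j _ ?_)
    have h2 := hb (j + 1)
    rw [Finset.sum_range_succ] at h2
    have h3 : b - ∑ i ∈ Finset.range j, Y i (r i) =
        (b - (∑ i ∈ Finset.range j, Y i (r i) + Y j (r j))) + Y j (r j) := by abel
    rw [h3]
    exact (F (j + 1)).add_mem h2 (hY1 j _ (hr j).1 (hr j).2)

/-- the pair `(B, A)` of subspaces is acyclic for `D` -/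
def AcyS (D : P →ₗ[R] P) (A B : Submodule R P) : Prop :=
  ∀ v ∈ B, D v ∈ A → ∃ c ∈ B, v + D c ∈ A

variable {D : P →ₗ[R] P} {A B C : Submodule R P}

theorem AcyS.refl (D : P →ₗ[R] P) (A : Submodule R P) : AcyS D A A :=
  fun v hv _ => ⟨0, A.zero_mem, by rw [map_zero, add_zero]; exact hv⟩

/-- `(B,A)`, `(C,B)` acyclic ⟹ `(C,A)` acyclic -/
theorem AcyS.trans (sq : ∀ x, D (D x) = 0) (hAB : A ≤ B) (hBC : B ≤ C) (h1 : AcyS D A B)
    (h2 : AcyS D B C) : AcyS D A C := by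
  intro v hv hdv
  obtain ⟨c, hc, h⟩ := h2 v hv (hAB hdv)
  obtain ⟨b, hb, h'⟩ := h1 (v + D c) h (by rw [map_add, sq, add_zero]; exact hdv)
  exact ⟨c + b, C.add_mem hc (hBC hb), by rw [map_add, ← add_assoc]; exact h'⟩

/-- `(B,A)`, `(C,A)` acyclic ⟹ `(C,B)` acyclic -/
theorem AcyS.quot (sq : ∀ x, D (D x) = 0) (hAB : A ≤ B) (hBC : B ≤ C) (h1 : AcyS D A B)
    (h2 : AcyS D A C) : AcyS D B C := by
  intro v hv hdv
  obtain ⟨b, hb, h⟩ := h1 (D v) hdv (by rw [sq]; exact A.zero_mem)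
  obtain ⟨c, hc, h'⟩ := h2 (v + b) (C.add_mem hv (hBC hb)) (by rw [map_add]; exact h)
  refine ⟨c, hc, ?_⟩
  have : v + D c = (v + b + D c) - b := by abel
  rw [this]
  exact B.sub_mem (hAB h') hb

/-- `(C,A)`, `(C,B)` acyclic ⟹ `(B,A)` acyclic -/
theorem AcyS.sub (sq : ∀ x, D (D x) = 0) (hAB : A ≤ B) (hBC : B ≤ C) (h1 : AcyS D A C)
    (h2 : AcyS D B C) : AcyS D A B := by
  intro v hv hdv
  obtain ⟨c, hc, h⟩ := h1 v (hBC hv) hdv
  have hdc : D c ∈ B := by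
    have : D c = (v + D c) - v := by abel
    rw [this]
    exact B.sub_mem (hAB h) hv
  obtain ⟨e, _, h'⟩ := h2 c hc hdc
  exact ⟨c + D e, h', by rw [map_add, sq, add_zero]; exact h⟩

/-- second isomorphism theorem (excision) -/
theorem AcyS.sup_iff (hA : ∀ x ∈ A, D x ∈ A) (hB : ∀ x ∈ B, D x ∈ B) :
    AcyS D A (A ⊔ B) ↔ AcyS D (A ⊓ B) B := by
  constructor
  · intro h v hv hdv
    obtain ⟨c, hc, h'⟩ := h v (Submodule.mem_sup_right hv) hdv.1
    obtain ⟨a, ha, b, hb, rfl⟩ := Submodule.mem_sup.1 hc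
    refine ⟨b, hb, ?_, B.add_mem hv (hB b hb)⟩
    have : v + D b = (v + D (a + b)) - D a := by rw [map_add]; abel
    rw [this]
    exact A.sub_mem h' (hA a ha)
  · intro h v hv hdv
    obtain ⟨a, ha, b, hb, rfl⟩ := Submodule.mem_sup.1 hv
    have hdb : D b ∈ A := by
      have : D b = D (a + b) - D a := by rw [map_add]; abel
      rw [this]
      exact A.sub_mem hdv (hA a ha)
    obtain ⟨c, hc, h'⟩ := h b hb ⟨hdb, hB b hb⟩
    refine ⟨c, Submodule.mem_sup_right hc, ?_⟩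
    rw [add_assoc]
    exact A.add_mem ha h'.1

/-- conjugation of the differential -/
theorem AcyS.conj {D' : P →ₗ[R] P} {f f' : P →ₗ[R] P} (hf : ∀ x, f (D x) = D' (f x))
    (hf' : ∀ x, f' (D' x) = D (f' x)) (hff : ∀ x, f' (f x) = x)
    (hA : ∀ x ∈ A, f x ∈ A) (hA' : ∀ x ∈ A, f' x ∈ A) (hB : ∀ x ∈ B, f x ∈ B)
    (hB' : ∀ x ∈ B, f' x ∈ B) (h : AcyS D' A B) : AcyS D A B := by
  intro v hv hdv
  obtain ⟨c, hc, h'⟩ := h (f v) (hB v hv) (by rw [← hf]; exact hA _ hdv)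
  refine ⟨f' c, hB' c hc, ?_⟩
  have := hA' _ h'
  rwa [map_add, hff, hf'] at this

/-- contraction modulo `A` -/
theorem AcyS.of_contr (s : P →ₗ[R] P) (hA : ∀ x ∈ A, s x ∈ A) (hB : ∀ x ∈ B, s x ∈ B)
    (h : ∀ x ∈ B, x + D (s x) + s (D x) ∈ A) : AcyS D A B := by
  intro v hv hdv
  refine ⟨s v, hB v hv, ?_⟩
  have : v + D (s v) = (v + D (s v) + s (D v)) - s (D v) := by abel
  rw [this]
  exact A.sub_mem (h v hv) (hA _ hdv)

end Abs

/-! ### graded submodules of a `TC` -/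

/-- graded submodules -/
abbrev GS (X : TC) : Type := ∀ j, Submodule F2 (X.C j)

section GS

variable {X : TC}

/-- product of a graded submodule -/
def PB (B : GS X) : Submodule F2 X.P where
  carrier := {c | ∀ j, c j ∈ B j}
  zero_mem' := fun j => (B j).zero_mem
  add_mem' := fun ha hb j => (B j).add_mem (ha j) (hb j)
  smul_mem' := fun r _ ha j => (B j).smul_mem r (ha j)

theorem mem_PB {B : GS X} {c : X.P} : c ∈ PB B ↔ ∀ j, c j ∈ B j := Iff.rfl

theorem PB_mono {A B : GS X} (h : ∀ j, A j ≤ B j) : PB A ≤ PB B := fun _ hc j => h j (hc j)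

theorem PB_sup (A B : GS X) : PB (fun j => A j ⊔ B j) = PB A ⊔ PB B := by
  apply le_antisymm
  · intro c hc
    have : ∀ j, ∃ a ∈ A j, ∃ b ∈ B j, a + b = c j := fun j => Submodule.mem_sup.1 (hc j)
    choose a ha b hb h using this
    exact Submodule.mem_sup.2 ⟨a, ha, b, hb, funext h⟩
  · refine sup_le (PB_mono fun j => le_sup_left) (PB_mono fun j => le_sup_right)

theorem PB_inf (A B : GS X) : PB (fun j => A j ⊓ B j) = PB A ⊓ PB B := by
  ext c
  constructor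
  · intro h
    exact ⟨fun j => (h j).1, fun j => (h j).2⟩
  · intro h j
    exact ⟨h.1 j, h.2 j⟩

theorem PB_bot : PB (fun _ => ⊥ : GS X) = ⊥ := by
  ext c
  rw [Submodule.mem_bot, mem_PB]
  constructor
  · intro h
    exact funext fun j => (Submodule.mem_bot F2).1 (h j)
  · rintro rfl j
    exact Submodule.zero_mem _

theorem PB_top : PB (fun _ => ⊤ : GS X) = ⊤ := by
  ext c
  simp [mem_PB]

/-- stable under `d` -/
def StD (A : GS X) : Prop := ∀ j, ∀ x ∈ A (j + 1), X.d j x ∈ A j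
/-- stable under `g` -/
def StG (A : GS X) : Prop := ∀ j, ∀ x ∈ A j, X.g j x ∈ A j
/-- stable under `h` -/
def StH (A : GS X) : Prop := ∀ j, ∀ x ∈ A j, X.h j x ∈ A (j + 1)

variable {A B C : GS X}

theorem dP_mem (hA : StD A) {c : X.P} (hc : c ∈ PB A) : X.dP c ∈ PB A := fun j => hA j _ (hc _)
theorem gP_mem (hA : StG A) {c : X.P} (hc : c ∈ PB A) : X.gP c ∈ PB A := fun j => hA j _ (hc _)
theorem hP_mem (hA : StH A) {c : X.P} (hc : c ∈ PB A) : X.hP c ∈ PB A := fun j => by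
  rcases j with _ | j
  · exact (A 0).zero_mem
  · exact hA j _ (hc _)

theorem cj_mem (hA : StH A) {c : X.P} (hc : c ∈ PB A) : X.cj c ∈ PB A := by
  rw [TC.cj_apply]
  exact (PB A).add_mem hc (hP_mem hA hc)

theorem DZ_mem (hd : StD A) (hg : StG A) {c : X.P} (hc : c ∈ PB A) : X.DZ c ∈ PB A := by
  rw [TC.DZ_apply]
  exact (PB A).add_mem ((PB A).add_mem (dP_mem hd hc) hc) (gP_mem hg hc)

theorem DT_mem (hd : StD A) (hg : StG A) (hh : StH A) {c : X.P} (hc : c ∈ PB A) :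
    X.DT c ∈ PB A := by
  rw [TC.DT_apply]
  exact (PB A).add_mem (dP_mem hd hc) ((PB A).add_mem (hP_mem hh hc) (gP_mem hg (hP_mem hh hc)))

/-! ### the mixed complex -/

/-- the mixed complex of a T-complex -/
noncomputable def mix (X : TC) : IfAx978.Mix where
  C := X.C
  d := X.d
  De j := (LinearMap.id + X.g (j + 1)) ∘ₗ X.h j
  dd := X.dd
  DeDe j x := by
    show X.h (j + 1) (X.h j x + X.g (j + 1) (X.h j x)) +
      X.g (j + 2) (X.h (j + 1) (X.h j x + X.g (j + 1) (X.h j x))) = 0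
    rw [map_add, X.hh, X.hg, X.hh, map_zero, add_zero, map_zero, add_zero]
  dDe0 x := by
    show X.d 0 (X.h 0 x + X.g 1 (X.h 0 x)) = 0
    rw [map_add, X.dg, X.dh_zero, map_add, X.gg]
    have : x + X.g 0 x + (X.g 0 x + x) = (x + x) + (X.g 0 x + X.g 0 x) := by abel
    rw [this, TC.add_self, TC.add_self, add_zero]
  dDe j x := by
    show X.d (j + 1) (X.h (j + 1) x + X.g (j + 2) (X.h (j + 1) x)) =
      X.h j (X.d j x) + X.g (j + 1) (X.h j (X.d j x))
    have h0 : ∀ a b c : X.C (j + 1), a + b = c → a = c + b := by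
      intro a b c h
      rw [← h, add_assoc a b b, TC.add_self, add_zero]
    have h1 : X.d (j + 1) (X.h (j + 1) x) = x + X.g (j + 1) x + X.h j (X.d j x) :=
      h0 _ _ _ (X.dh_succ j x)
    rw [map_add, X.dg, h1, map_add, map_add, X.gg]
    have : x + X.g (j + 1) x + X.h j (X.d j x) + (X.g (j + 1) x + x +
        X.g (j + 1) (X.h j (X.d j x))) = (x + x) + (X.g (j + 1) x + X.g (j + 1) x) +
        (X.h j (X.d j x) + X.g (j + 1) (X.h j (X.d j x))) := by abel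
    rw [this, TC.add_self, TC.add_self, zero_add, zero_add]

theorem mix_De (X : TC) (j : ℕ) (x : X.C j) :
    (mix X).De j x = X.h j x + X.g (j + 1) (X.h j x) := rfl

theorem DD_eq (X : TC) (c : X.P) : IfAx978.DD (X := mix X) c = X.DT c := by
  funext j
  rcases j with _ | j
  · show X.d 0 (c 1) = X.d 0 (c 1) + ((0 : X.C 0) + X.g 0 0)
    rw [map_zero, add_zero, add_zero]
  · rfl

theorem stab_mix (hd : StD A) (hg : StG A) (hh : StH A) : IfAx978.Stab (X := mix X) A where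
  d := hd
  De j x hx := (A (j + 1)).add_mem (hh j x hx) (hg (j + 1) _ (hh j x hx))

/-! ### acyclicity of pairs -/

/-- relative cycles of the pair `(B, A)` -/
def zc (A B : GS X) : GS X
  | 0 => B 0
  | (j + 1) => B (j + 1) ⊓ (A j).comap (X.d j)

/-- relative boundaries of the pair `(B, A)` -/
def bd (A B : GS X) : GS X := fun j => (B (j + 1)).map (X.d j) ⊔ A j

theorem Zc_mix (A B : GS X) (j : ℕ) : IfAx978.Zc (X := mix X) A B j = zc A B j := by
  rcases j with _ | j <;> rfl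

theorem Bd_mix (A B : GS X) (j : ℕ) : IfAx978.Bd (X := mix X) A B j = bd A B j := rfl

/-- `H(B, A) = 0` in every degree -/
def Acy (A B : GS X) : Prop := ∀ j, zc A B j ≤ bd A B j

theorem acy_mix : Acy A B ↔
    ∀ j, IfAx978.Zc (X := mix X) A B j ≤ IfAx978.Bd (X := mix X) A B j := by
  constructor
  · intro h j
    rw [Zc_mix, Bd_mix]
    exact h j
  · intro h j
    rw [← Zc_mix, ← Bd_mix]
    exact h j

/-- Z/2-Tate acyclic -/
def AcyZ (A B : GS X) : Prop := AcyS X.DZ (PB A) (PB B)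

/-- T-Tate acyclic -/
def AcyT (A B : GS X) : Prop := AcyS X.DT (PB A) (PB B)

theorem mem_zc_zero {x : X.C 0} : x ∈ zc A B 0 ↔ x ∈ B 0 := Iff.rfl
theorem mem_zc_succ {j : ℕ} {x : X.C (j + 1)} : x ∈ zc A B (j + 1) ↔
    x ∈ B (j + 1) ∧ X.d j x ∈ A j := Iff.rfl
theorem mem_bd {j : ℕ} {x : X.C j} : x ∈ bd A B j ↔
    ∃ y ∈ B (j + 1), x + X.d j y ∈ A j := by
  constructor
  · intro h
    obtain ⟨a, ha, b, hb, rfl⟩ := Submodule.mem_sup.1 h
    obtain ⟨y, hy, rfl⟩ := ha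
    refine ⟨y, hy, ?_⟩
    have : X.d j y + b + X.d j y = (X.d j y + X.d j y) + b := by abel
    rw [this, TC.add_self, zero_add]
    exact hb
  · rintro ⟨y, hy, h⟩
    refine Submodule.mem_sup.2 ⟨X.d j y, ⟨y, hy, rfl⟩, x + X.d j y, h, ?_⟩
    have : X.d j y + (x + X.d j y) = (X.d j y + X.d j y) + x := by abel
    rw [this, TC.add_self, zero_add]

/-- the degreewise notion is the notion for `d` on the product -/
theorem acy_iff : Acy A B ↔ AcyS X.dP (PB A) (PB B) := by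
  constructor
  · intro h v hv hdv
    have : ∀ j, ∃ y ∈ B (j + 1), v j + X.d j y ∈ A j := fun j => by
      refine mem_bd.1 (h j ?_)
      rcases j with _ | j
      · exact hv 0
      · exact ⟨hv _, hdv j⟩
    choose y hy h2 using this
    refine ⟨fun j => match j with
      | 0 => 0
      | j + 1 => y j, fun j => ?_, fun j => h2 j⟩
    rcases j with _ | j
    · exact (B 0).zero_mem
    · exact hy j
  · intro h j x hx
    rw [mem_bd]
    have hxB : x ∈ B j := by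
      rcases j with _ | j
      · exact hx
      · exact hx.1
    obtain ⟨c, hc, h'⟩ := h (Pi.single j x) (fun i => by
      by_cases hij : i = j
      · subst hij; rw [Pi.single_eq_same]; exact hxB
      · rw [Pi.single_eq_of_ne hij]; exact (B i).zero_mem) (fun i => by
      show X.d i (Pi.single (M := X.C) j x (i + 1)) ∈ A i
      by_cases hij : i + 1 = j
      · subst hij; rw [Pi.single_eq_same]; exact hx.2
      · rw [Pi.single_eq_of_ne hij, map_zero]; exact (A i).zero_mem)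
    refine ⟨c (j + 1), hc _, ?_⟩
    have := h' j
    rwa [show (Pi.single j x + X.dP c : X.P) j = x + X.d j (c (j + 1)) by
      show Pi.single (M := X.C) j x j + _ = _
      rw [Pi.single_eq_same]; rfl] at this

theorem Acy.trans (hAB : ∀ j, A j ≤ B j) (hBC : ∀ j, B j ≤ C j) (h1 : Acy A B) (h2 : Acy B C) :
    Acy A C :=
  acy_iff.2 (AcyS.trans X.dP_dP' (PB_mono hAB) (PB_mono hBC) (acy_iff.1 h1) (acy_iff.1 h2))

theorem Acy.quot (hAB : ∀ j, A j ≤ B j) (hBC : ∀ j, B j ≤ C j) (h1 : Acy A B) (h2 : Acy A C) :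
    Acy B C :=
  acy_iff.2 (AcyS.quot X.dP_dP' (PB_mono hAB) (PB_mono hBC) (acy_iff.1 h1) (acy_iff.1 h2))

theorem Acy.sub (hAB : ∀ j, A j ≤ B j) (hBC : ∀ j, B j ≤ C j) (h1 : Acy A C) (h2 : Acy B C) :
    Acy A B :=
  acy_iff.2 (AcyS.sub X.dP_dP' (PB_mono hAB) (PB_mono hBC) (acy_iff.1 h1) (acy_iff.1 h2))

theorem Acy.sup_iff (hA : StD A) (hB : StD B) :
    Acy A (fun j => A j ⊔ B j) ↔ Acy (fun j => A j ⊓ B j) B := by
  rw [acy_iff, acy_iff, PB_sup, PB_inf]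
  exact AcyS.sup_iff (fun _ => dP_mem hA) (fun _ => dP_mem hB)

theorem AcyZ.trans (hAB : ∀ j, A j ≤ B j) (hBC : ∀ j, B j ≤ C j) (h1 : AcyZ A B) (h2 : AcyZ B C) :
    AcyZ A C := AcyS.trans X.DZ_DZ (PB_mono hAB) (PB_mono hBC) h1 h2

theorem AcyZ.quot (hAB : ∀ j, A j ≤ B j) (hBC : ∀ j, B j ≤ C j) (h1 : AcyZ A B) (h2 : AcyZ A C) :
    AcyZ B C := AcyS.quot X.DZ_DZ (PB_mono hAB) (PB_mono hBC) h1 h2

theorem AcyZ.sub (hAB : ∀ j, A j ≤ B j) (hBC : ∀ j, B j ≤ C j) (h1 : AcyZ A C) (h2 : AcyZ B C) :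
    AcyZ A B := AcyS.sub X.DZ_DZ (PB_mono hAB) (PB_mono hBC) h1 h2

theorem AcyZ.sup_iff (hA : StD A) (hA' : StG A) (hB : StD B) (hB' : StG B) :
    AcyZ A (fun j => A j ⊔ B j) ↔ AcyZ (fun j => A j ⊓ B j) B := by
  rw [AcyZ, AcyZ, PB_sup, PB_inf]
  exact AcyS.sup_iff (fun _ => DZ_mem hA hA') (fun _ => DZ_mem hB hB')

theorem AcyT.trans (hAB : ∀ j, A j ≤ B j) (hBC : ∀ j, B j ≤ C j) (h1 : AcyT A B) (h2 : AcyT B C) :
    AcyT A C := AcyS.trans X.DT_DT (PB_mono hAB) (PB_mono hBC) h1 h2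

theorem AcyT.quot (hAB : ∀ j, A j ≤ B j) (hBC : ∀ j, B j ≤ C j) (h1 : AcyT A B) (h2 : AcyT A C) :
    AcyT B C := AcyS.quot X.DT_DT (PB_mono hAB) (PB_mono hBC) h1 h2

theorem AcyT.sub (hAB : ∀ j, A j ≤ B j) (hBC : ∀ j, B j ≤ C j) (h1 : AcyT A C) (h2 : AcyT B C) :
    AcyT A B := AcyS.sub X.DT_DT (PB_mono hAB) (PB_mono hBC) h1 h2

/-- (L1) `Z/2`-Tate and `T`-Tate acyclicity agree -/
theorem acyZ_iff_acyT (hA : StH A) (hB : StH B) : AcyZ A B ↔ AcyT A B := by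
  constructor
  · exact AcyS.conj (f := X.cj) (f' := X.cj) X.cj_DT X.cj_DZ X.cj_cj (fun _ => cj_mem hA)
      (fun _ => cj_mem hA) (fun _ => cj_mem hB) (fun _ => cj_mem hB)
  · exact AcyS.conj (f := X.cj) (f' := X.cj) X.cj_DZ X.cj_DT X.cj_cj (fun _ => cj_mem hA)
      (fun _ => cj_mem hA) (fun _ => cj_mem hB) (fun _ => cj_mem hB)

/-! ### (L2) acyclic pairs are Tate acyclic -/

/-- `c i ∈ A i` for `i < j`, and `c ∈ PB B` -/
def FA (A B : GS X) (j : ℕ) : Submodule F2 X.P where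
  carrier := {c | c ∈ PB B ∧ ∀ i, i < j → c i ∈ A i}
  zero_mem' := ⟨(PB B).zero_mem, fun i _ => (A i).zero_mem⟩
  add_mem' := fun ha hb => ⟨(PB B).add_mem ha.1 hb.1, fun i hi => (A i).add_mem (ha.2 i hi) (hb.2 i hi)⟩
  smul_mem' := fun r _ ha => ⟨(PB B).smul_mem r ha.1, fun i hi => (A i).smul_mem r (ha.2 i hi)⟩

theorem mem_FA {j : ℕ} {c : X.P} : c ∈ FA A B j ↔ c ∈ PB B ∧ ∀ i, i < j → c i ∈ A i := Iff.rfl

theorem FA_compl (y : ℕ → X.P) (hy : ∀ j, y j ∈ FA A B j) :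
    ∃ b, ∀ j, b - ∑ i ∈ Finset.range j, y i ∈ FA A B j := by
  refine ⟨fun i => ∑ k ∈ Finset.range (i + 1), y k i, fun j => ⟨?_, ?_⟩⟩
  · refine (PB B).sub_mem (fun i => Submodule.sum_mem _ fun k _ => (hy k).1 i)
      (Submodule.sum_mem _ fun k _ => (hy k).1)
  · intro i hi
    show ∑ k ∈ Finset.range (i + 1), y k i - (∑ k ∈ Finset.range j, y k) i ∈ A i
    rw [Finset.sum_apply]
    have h1 : ∑ k ∈ Finset.range j, y k i = ∑ k ∈ Finset.range (i + 1), y k i +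
        ∑ k ∈ Finset.Ico (i + 1) j, y k i :=
      (Finset.sum_range_add_sum_Ico _ (by omega)).symm
    rw [h1]
    have h2 : ∑ k ∈ Finset.range (i + 1), y k i - (∑ k ∈ Finset.range (i + 1), y k i +
        ∑ k ∈ Finset.Ico (i + 1) j, y k i) = -∑ k ∈ Finset.Ico (i + 1) j, y k i := by abel
    rw [h2]
    refine (A i).neg_mem (Submodule.sum_mem _ fun k hk => (hy k).2 i ?_)
    exact (Finset.mem_Ico.1 hk).1

/-- general form: an operator `D` with symbol `d` -/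
theorem acyS_of_symbol {D : X.P →ₗ[F2] X.P} (sq : ∀ x, D (D x) = 0)
    (hAB : ∀ j, A j ≤ B j) (hAd : StD A) (hDB : ∀ x ∈ PB B, D x ∈ PB B)
    (lead : ∀ j, ∀ c ∈ FA A B (j + 1), ∃ a ∈ A j, D c j = X.d j (c (j + 1)) + a)
    (h : Acy A B) : AcyS D (PB A) (PB B) := by
  intro v hv hdv
  have hlead0 : ∀ j, ∀ c ∈ FA A B (j + 1), D c ∈ FA A B j := by
    intro j c hc
    refine ⟨hDB c hc.1, fun i hi => ?_⟩
    obtain ⟨a, ha, e⟩ := lead i c ⟨hc.1, fun k hk => hc.2 k (by omega)⟩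
    rw [e]
    exact (A i).add_mem (hAd i _ (hc.2 _ (by omega))) ha
  obtain ⟨b, hb, hb'⟩ := approx (F := FA A B) (D := D)
    (fun j c hc => ⟨hc.1, fun i hi => hc.2 i (by omega)⟩) FA_compl sq hlead0
    (fun j x hx hDx => by
      have hz : x j ∈ zc A B j := by
        rcases j with _ | j
        · exact hx.1 0
        · refine ⟨hx.1 _, ?_⟩
          obtain ⟨a, ha, e⟩ := lead j x ⟨hx.1, fun k hk => hx.2 k (by omega)⟩
          have h1 : D x j ∈ A j := (hDx (j + 1)).2 j (by omega)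
          have h2 : X.d j (x (j + 1)) = D x j - a := by rw [e]; abel
          show X.d j (x (j + 1)) ∈ A j
          rw [h2]
          exact (A j).sub_mem h1 ha
      obtain ⟨y, hy, hxy⟩ := mem_bd.1 (h j hz)
      have hone : (Pi.single (j + 1) y : X.P) ∈ FA A B (j + 1) := by
        refine ⟨fun i => ?_, fun i hi => ?_⟩
        · by_cases hij : i = j + 1
          · subst hij; rw [Pi.single_eq_same]; exact hy
          · rw [Pi.single_eq_of_ne hij]; exact (B i).zero_mem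
        · rw [Pi.single_eq_of_ne (by omega)]; exact (A i).zero_mem
      refine ⟨Pi.single (j + 1) y, hone, ?_, ?_⟩
      · exact (PB B).sub_mem hx.1 (hDB _ hone.1)
      · intro i hi
        rcases Nat.lt_succ_iff_lt_or_eq.1 hi with h | h
        · exact (A i).sub_mem (hx.2 i h) ((hlead0 j _ hone).2 i h)
        · subst h
          obtain ⟨a, ha, e⟩ := lead i _ ⟨hone.1, fun k hk => hone.2 k (by omega)⟩
          show x i - D (Pi.single (i + 1) y) i ∈ A i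
          rw [e, Pi.single_eq_same]
          have h3 : x i - (X.d i y + a) = (x i + X.d i y) - (X.d i y + X.d i y) - a := by abel
          rw [h3, TC.add_self, sub_zero]
          exact (A i).sub_mem hxy ha) v ⟨hv, fun i hi => absurd hi (Nat.not_lt_zero i)⟩
    (fun i => ⟨PB_mono hAB hdv, fun k _ => hdv k⟩)
  refine ⟨-b, (PB B).neg_mem hb.1, fun j => ?_⟩
  rw [map_neg, ← sub_eq_add_neg]
  exact (hb' (j + 1)).2 j (by omega)

/-- (L2) -/
theorem acyZ_of_acy (hAB : ∀ j, A j ≤ B j) (hAd : StD A) (hAg : StG A) (hBd : StD B)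
    (hBg : StG B) (h : Acy A B) : AcyZ A B := by
  refine acyS_of_symbol X.DZ_DZ hAB hAd (fun _ => DZ_mem hBd hBg) ?_ h
  intro j c hc
  refine ⟨c j + X.g j (c j), (A j).add_mem (hc.2 j (by omega)) (hAg _ _ (hc.2 j (by omega))), ?_⟩
  show X.d j (c (j + 1)) + c j + X.g j (c j) = _
  rw [add_assoc (X.d j _) (c j)]

/-- (L2) -/
theorem acyT_of_acy (hAB : ∀ j, A j ≤ B j) (hAd : StD A) (hAg : StG A) (hAh : StH A)
    (hBd : StD B) (hBg : StG B) (hBh : StH B) (h : Acy A B) : AcyT A B := by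
  refine acyS_of_symbol X.DT_DT hAB hAd (fun _ => DT_mem hBd hBg hBh) ?_ h
  intro j c hc
  refine ⟨X.DelP c j, ?_, rfl⟩
  rcases j with _ | j
  · show (0 : X.C 0) + X.g 0 0 ∈ A 0
    rw [map_zero, add_zero]
    exact (A 0).zero_mem
  · exact (A (j + 1)).add_mem (hAh j _ (hc.2 j (by omega)))
      (hAg _ _ (hAh j _ (hc.2 j (by omega))))

/-- (L4) contraction of an induced pair -/
theorem acyZ_of_contr (s : ∀ j, X.C j →ₗ[F2] X.C j) (hA : ∀ j, ∀ x ∈ A j, s j x ∈ A j)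
    (hB : ∀ j, ∀ x ∈ B j, s j x ∈ B j)
    (hsd : ∀ j, ∀ x ∈ B (j + 1), X.d j (s (j + 1) x) + s j (X.d j x) ∈ A j)
    (hsg : ∀ j, ∀ x ∈ B j, x + (s j x + X.g j (s j x)) + (s j x + s j (X.g j x)) ∈ A j) :
    AcyZ A B := by
  refine AcyS.of_contr (zrP s) (fun x hx j => hA j _ (hx j)) (fun x hx j => hB j _ (hx j)) ?_
  intro x hx j
  show x j + (X.d j (s (j + 1) (x (j + 1))) + s j (x j) + X.g j (s j (x j))) +
    s j (X.d j (x (j + 1)) + x j + X.g j (x j)) ∈ A j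
  have h1 := (A j).add_mem (hsd j _ (hx (j + 1))) (hsg j _ (hx j))
  rw [map_add, map_add]
  have h2 : x j + (X.d j (s (j + 1) (x (j + 1))) + s j (x j) + X.g j (s j (x j))) +
      (s j (X.d j (x (j + 1))) + s j (x j) + s j (X.g j (x j))) =
      X.d j (s (j + 1) (x (j + 1))) + s j (X.d j (x (j + 1))) +
      (x j + (s j (x j) + X.g j (s j (x j))) + (s j (x j) + s j (X.g j (x j)))) := by abel
  rw [h2]
  exact h1

/-- (L4), variant: `s` commutes with `d` and `s(1+g) + (1+g)s = 1` exactly -/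
theorem acyZ_of_contr' (s : ∀ j, X.C j →ₗ[F2] X.C j) (hA : ∀ j, ∀ x ∈ A j, s j x ∈ A j)
    (hB : ∀ j, ∀ x ∈ B j, s j x ∈ B j)
    (hsd : ∀ j x, X.d j (s (j + 1) x) = s j (X.d j x))
    (hsg : ∀ j x, X.g j (s j x) + s j (X.g j x) = x) : AcyZ A B := by
  refine acyZ_of_contr s hA hB (fun j x _ => ?_) (fun j x _ => ?_)
  · rw [hsd, TC.add_self]
    exact (A j).zero_mem
  · have h : x + (s j x + X.g j (s j x)) + (s j x + s j (X.g j x)) =
        x + (X.g j (s j x) + s j (X.g j x)) + (s j x + s j x) := by abel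
    rw [h, hsg, TC.add_self, TC.add_self, add_zero]
    exact (A j).zero_mem

/-! ### (L5) homotopies -/

section Htpy

variable {Z Y : TC}

/-- chain homotopy between T-maps, commuting with `g` and `h` -/
structure Htp (φ ψ : TC.Hom Z Y) where
  K : ∀ j, Z.C j →ₗ[F2] Y.C (j + 1)
  Kg : ∀ j x, K j (Z.g j x) = Y.g (j + 1) (K j x)
  Kh : ∀ j x, K (j + 1) (Z.h j x) = Y.h (j + 1) (K j x)
  dK_zero : ∀ x, Y.d 0 (K 0 x) = φ.f 0 x + ψ.f 0 x
  dK_succ : ∀ j x, Y.d (j + 1) (K (j + 1) x) + K j (Z.d j x) = φ.f (j + 1) x + ψ.f (j + 1) x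

variable {φ ψ : TC.Hom Z Y} (K : Htp φ ψ)

/-- the homotopy on the total spaces -/
def Htp.KP : Z.P →ₗ[F2] Y.P where
  toFun c n := match n with
    | 0 => 0
    | n + 1 => K.K n (c n)
  map_add' a b := by
    funext n
    rcases n with _ | n
    · exact (add_zero (0 : Y.C 0)).symm
    · exact map_add (K.K n) _ _
  map_smul' r a := by
    funext n
    rcases n with _ | n
    · exact (smul_zero r).symm
    · exact map_smul (K.K n) _ _

@[simp] theorem Htp.KP_zero (c : Z.P) : K.KP c 0 = 0 := rfl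
@[simp] theorem Htp.KP_succ (c : Z.P) (n : ℕ) : K.KP c (n + 1) = K.K n (c n) := rfl

theorem Htp.KP_g (c : Z.P) : K.KP (Z.gP c) = Y.gP (K.KP c) := by
  funext n
  rcases n with _ | n
  · exact (map_zero (Y.g 0)).symm
  · exact K.Kg n _

theorem Htp.KP_h (c : Z.P) : K.KP (Z.hP c) = Y.hP (K.KP c) := by
  funext n
  rcases n with _ | _ | n
  · rfl
  · show K.K 0 0 = Y.h 0 0
    rw [map_zero, map_zero]
  · exact K.Kh n _

theorem Htp.KP_d (c : Z.P) : Y.dP (K.KP c) + K.KP (Z.dP c) = φ.P c + ψ.P c := by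
  funext n
  rcases n with _ | n
  · show Y.d 0 (K.K 0 (c 0)) + 0 = φ.f 0 (c 0) + ψ.f 0 (c 0)
    rw [add_zero, K.dK_zero]
  · exact K.dK_succ n _

/-- `K` is a homotopy for `d + Δ` -/
theorem Htp.KP_DT (c : Z.P) : Y.DT (K.KP c) + K.KP (Z.DT c) = φ.P c + ψ.P c := by
  rw [TC.DT_apply, TC.DT_apply, map_add, map_add, K.KP_g, K.KP_h, ← K.KP_d]
  have : Y.dP (K.KP c) + (Y.hP (K.KP c) + Y.gP (Y.hP (K.KP c))) +
      (K.KP (Z.dP c) + (Y.hP (K.KP c) + Y.gP (Y.hP (K.KP c)))) =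
      Y.dP (K.KP c) + K.KP (Z.dP c) + ((Y.hP (K.KP c) + Y.gP (Y.hP (K.KP c))) +
      (Y.hP (K.KP c) + Y.gP (Y.hP (K.KP c)))) := by abel
  rw [this, TC.add_self, add_zero]

/-- `K` is a homotopy for `d + 1 + g` -/
theorem Htp.KP_DZ (c : Z.P) : Y.DZ (K.KP c) + K.KP (Z.DZ c) = φ.P c + ψ.P c := by
  rw [TC.DZ_apply, TC.DZ_apply, map_add, map_add, K.KP_g, ← K.KP_d]
  have : Y.dP (K.KP c) + K.KP c + Y.gP (K.KP c) +
      (K.KP (Z.dP c) + K.KP c + Y.gP (K.KP c)) =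
      Y.dP (K.KP c) + K.KP (Z.dP c) + (K.KP c + K.KP c) +
      (Y.gP (K.KP c) + Y.gP (K.KP c)) := by abel
  rw [this, TC.add_self, TC.add_self, add_zero, add_zero]

end Htpy

/-! ### (L6) two out of six -/

/-- image of a graded submodule / range of a T-map as graded submodule -/
def rng {Z : TC} (φ : TC.Hom Z X) : GS X := fun j => LinearMap.range (φ.f j)

/-- **two out of six**: `Y ≤ V ≤ W`, `V = im ι`, `Y' ≤ W'`, `W ≤ W'`, homotopy in `W'` from
`ι` to a map `ρ` into `Y'` which is the identity on `Y`; the pairs `(Y', Y)`, `(W, V)`,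
`(W', W)` are Tate acyclic; then `(W, Y)` is Tate acyclic. -/
theorem acyT_six {Z : TC} {ι ρ : TC.Hom Z X} (K : Htp ι ρ) {Y V W Y' W' : GS X}
    (hYV : ∀ j, Y j ≤ V j) (hVW : ∀ j, V j ≤ W j) (hWW : ∀ j, W j ≤ W' j)
    (hYW : ∀ j, Y' j ≤ W' j)
    (hιi : ∀ j, Injective (ι.f j)) (hιV : ∀ j, ∀ x ∈ V j, ∃ z, ι.f j z = x)
    (hιV' : ∀ j z, ι.f j z ∈ V j)
    (hρ : ∀ j z, ρ.f j z ∈ Y' j) (hρY : ∀ j z, ι.f j z ∈ Y j → ρ.f j z = ι.f j z)
    (hK : ∀ j z, K.K j z ∈ W' (j + 1))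
    (h1 : AcyT Y Y') (h2 : AcyT V W) (h3 : AcyT W W') : AcyT Y W := by
  have h23 : AcyT V W' := AcyT.trans hVW hWW h2 h3
  have hιP : Injective ι.P := fun a b hab => funext fun j => hιi j (congrFun hab j)
  have hlift : ∀ v ∈ PB V, ∃ z : Z.P, ι.P z = v := by
    intro v hv
    choose z hz using fun j => hιV j (v j) (hv j)
    exact ⟨z, funext hz⟩
  have hρY' : ∀ z : Z.P, ι.P z ∈ PB Y → ρ.P z = ι.P z := fun z hz => funext fun j => hρY j _ (hz j)
  have hKW : ∀ c : Z.P, K.KP c ∈ PB W' := by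
    intro c j
    rcases j with _ | j
    · exact (W' 0).zero_mem
    · exact hK j _
  refine AcyT.trans hYV hVW ?_ h2
  -- (V, Y) is acyclic
  intro v hv hdv
  obtain ⟨z, rfl⟩ := hlift v hv
  have hDz : ρ.P (Z.DT z) = ι.P (Z.DT z) := hρY' _ (by rw [ι.P_DT]; exact hdv)
  have hdρ : X.DT (ρ.P z) = X.DT (ι.P z) := by
    rw [← ρ.P_DT, ← ι.P_DT, hDz]
  obtain ⟨c, hc, h4⟩ := h1 (ρ.P z) (fun j => hρ j _) (by rw [hdρ]; exact hdv)
  obtain ⟨z', hz'⟩ := hlift _ (PB_mono hYV h4)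
  have hρz' : ρ.P z' = ρ.P z + X.DT c := by rw [hρY' z' (by rw [hz']; exact h4), hz']
  have hcyc : Z.DT (z + z') = 0 := by
    apply hιP
    rw [ι.P_DT, map_zero, map_add, hz', map_add, map_add, X.DT_DT, add_zero, hdρ, TC.add_self]
  have hρs : ρ.P (z + z') = X.DT c := by
    rw [map_add, hρz', ← add_assoc, TC.add_self, zero_add]
  have hb : ι.P (z + z') = X.DT (c + K.KP (z + z')) := by
    have := K.KP_DT (z + z')
    rw [hcyc, map_zero, add_zero, hρs] at this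
    rw [map_add X.DT, this, add_comm (X.DT c), add_assoc, TC.add_self, add_zero]
  obtain ⟨e, -, he⟩ := h23 (c + K.KP (z + z'))
    ((PB W').add_mem (PB_mono hYW hc) (hKW _)) (by rw [← hb]; exact fun j => hιV' j _)
  refine ⟨c + K.KP (z + z') + X.DT e, he, ?_⟩
  rw [map_add X.DT, X.DT_DT, add_zero, ← hb, map_add, hz', ← add_assoc, TC.add_self, zero_add]
  exact h4

/-! ### the Smith isomorphism from Tate acyclicity -/

/-- image of a graded submodule under a degree 0 map -/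
def im (ψ : ∀ j, X.C j →ₗ[F2] X.C j) (A : GS X) : GS X := fun j => (A j).map (ψ j)

theorem mem_im {ψ : ∀ j, X.C j →ₗ[F2] X.C j} {j : ℕ} {x : X.C j} :
    x ∈ im ψ A j ↔ ∃ y ∈ A j, ψ j y = x := Submodule.mem_map

/-- transport of acyclicity along an injective chain map -/
theorem acy_im {ψ : ∀ j, X.C j →ₗ[F2] X.C j} (hi : ∀ j, Injective (ψ j))
    (hd : ∀ j x, X.d j (ψ (j + 1) x) = ψ j (X.d j x)) (h : Acy A B) :
    Acy (im ψ A) (im ψ B) := by
  intro j x hx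
  rw [mem_bd]
  have : ∃ y ∈ zc A B j, ψ j y = x := by
    rcases j with _ | j
    · exact hx
    · obtain ⟨⟨y, hy, rfl⟩, h2⟩ := hx
      refine ⟨y, ⟨hy, ?_⟩, rfl⟩
      have h3 : X.d j (ψ (j + 1) y) ∈ im ψ A j := h2
      rw [hd] at h3
      obtain ⟨w, hw, e⟩ := h3
      have : w = X.d j y := hi j e
      rw [this] at hw
      exact hw
  obtain ⟨y, hy, rfl⟩ := this
  obtain ⟨w, hw, h4⟩ := mem_bd.1 (h j hy)
  refine ⟨ψ (j + 1) w, ⟨w, hw, rfl⟩, ?_⟩
  rw [hd, ← map_add]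
  exact ⟨_, h4, rfl⟩

/-- **Smith isomorphism** from Tate acyclicity of `(X_t, psi X_{t/2})` -/
theorem smith_of_acyT {ψ : ∀ j, X.C j →ₗ[F2] X.C j}
    (hd : ∀ j x, X.d j (ψ (j + 1) x) = ψ j (X.d j x))
    (hDe : ∀ j x, X.h j (ψ j x) + X.g (j + 1) (X.h j (ψ j x)) = 0)
    {A B B' : GS X} (hAB' : ∀ j, A j ≤ im ψ B' j)
    (hA : ∀ j x, ψ j x ∈ A j → x ∈ A j)
    (h : AcyT (im ψ B') B) :
    IfAx978.Smith (X := mix X) ψ A B A B' := by
  -- `DT ∘ ψ = ψ ∘ dP`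
  have hψ : ∀ y : X.P, X.DT (zrP ψ y) = zrP ψ (X.dP y) := by
    intro y
    funext j
    rcases j with _ | j
    · show X.d 0 (ψ 1 (y 1)) + ((0 : X.C 0) + X.g 0 0) = ψ 0 (X.d 0 (y 1))
      rw [map_zero, add_zero, add_zero, hd]
    · show X.d (j + 1) (ψ (j + 2) (y (j + 2))) + (X.h j (ψ j (y j)) +
        X.g (j + 1) (X.h j (ψ j (y j)))) = ψ (j + 1) (X.d (j + 1) (y (j + 2)))
      rw [hDe, add_zero, hd]
  have surj : ∀ v : X.P, v ∈ PB B → X.DT v ∈ PB A → ∃ y c : X.P, (∀ j, y j ∈ zc A B' j) ∧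
      c ∈ PB B ∧ v + zrP ψ y + X.DT c ∈ PB A := by
    intro v hv hdv'
    obtain ⟨c, hc, h1⟩ := h v hv (PB_mono hAB' hdv')
    choose y hy hyx using fun j => mem_im.1 (h1 j)
    have hyv : zrP ψ y = v + X.DT c := funext hyx
    have hdy : zrP ψ (X.dP y) ∈ PB A := by
      rw [← hψ, hyv, map_add, X.DT_DT, add_zero]
      exact hdv'
    refine ⟨y, c, fun j => ?_, hc, ?_⟩
    · rcases j with _ | j
      · exact hy 0
      · exact ⟨hy _, hA j _ (hdy j)⟩
    · have : v + zrP ψ y + X.DT c = 0 := by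
        rw [hyv, ← add_assoc, TC.add_self, zero_add, TC.add_self]
      rw [this]
      exact (PB A).zero_mem
  have inj : ∀ y c : X.P, (∀ j, y j ∈ zc A B' j) → c ∈ PB B → zrP ψ y + X.DT c ∈ PB A →
      ∀ j, y j ∈ bd A B' j := by
    intro y c hy hc hyc' j
    rw [mem_bd]
    have hyB : ∀ j, y j ∈ B' j := by
      intro j
      have := hy j
      rcases j with _ | j
      · exact this
      · exact this.1
    have hDc : X.DT c ∈ PB (im ψ B') := by
      have h2 : X.DT c = (zrP ψ y + X.DT c) - zrP ψ y := by abel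
      rw [h2]
      exact (PB _).sub_mem (PB_mono hAB' hyc') (fun j => ⟨y j, hyB j, rfl⟩)
    obtain ⟨b, -, hb2⟩ := h c hc hDc
    choose e he hex using fun j => mem_im.1 (hb2 j)
    have hex' : zrP ψ e = c + X.DT b := funext hex
    have h3 : zrP ψ (y + X.dP e) ∈ PB A := by
      rw [map_add, ← hψ, hex', map_add, X.DT_DT, add_zero]
      exact hyc'
    exact ⟨e (j + 1), he _, hA j _ (h3 j)⟩
  have e : ∀ c : X.P, IfAx978.DD (X := mix X) c = X.DT c := DD_eq X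
  constructor
  · intro (v : X.P) hv hdv
    have hdv' : X.DT v ∈ PB A := fun j =>
      Eq.subst (motive := fun t : X.P => t j ∈ A j) (e v) (hdv j)
    obtain ⟨y, c, h1, h2, h3⟩ := surj v hv hdv'
    refine ⟨y, c, fun j => ?_, h2, fun j => ?_⟩
    · rw [Zc_mix]
      exact h1 j
    · exact Eq.subst (motive := fun t : X.P => (v + zrP ψ y + t : X.P) j ∈ A j) (e c).symm (h3 j)
  · intro (y : X.P) (c : X.P) hy hc hyc
    refine inj y c (fun j => ?_) hc fun j => ?_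
    · rw [← Zc_mix]; exact hy j
    · exact Eq.subst (motive := fun t : X.P => (zrP ψ y + t : X.P) j ∈ A j) (e c) (hyc j)

/-- **Smith isomorphism at level `t`** (two out of six between the levels `t < t'`):
`A = F 0`, `B = F t`, `E = F t'`, `B' = F (t/2)`, `E' = F (t'/2)`, `V = im ι` the Smith
neighbourhood, `ρ : V → im ψ E'` the retraction, `K` the equivariant homotopy in `E`. -/
theorem smith_six {Z : TC} {ι ρ : TC.Hom Z X} (K : Htp ι ρ) {ψ : ∀ j, X.C j →ₗ[F2] X.C j}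
    (hi : ∀ j, Injective (ψ j)) (hd : ∀ j x, X.d j (ψ (j + 1) x) = ψ j (X.d j x))
    (hDe : ∀ j x, X.h j (ψ j x) + X.g (j + 1) (X.h j (ψ j x)) = 0)
    {A B B' E E' V : GS X} (hAB' : ∀ j, A j ≤ im ψ B' j) (hA : ∀ j x, ψ j x ∈ A j → x ∈ A j)
    (hBV : ∀ j, im ψ B' j ≤ V j) (hVB : ∀ j, V j ≤ B j) (hBE : ∀ j, B j ≤ E j)
    (hBE' : ∀ j, B' j ≤ E' j) (hEE : ∀ j, im ψ E' j ≤ E j)
    (hBd : StD B) (hBg : StG B) (hBh : StH B) (hEd : StD E) (hEg : StG E) (hEh : StH E)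
    (hB'd : StD (im ψ B')) (hB'g : StG (im ψ B')) (hB'h : StH (im ψ B'))
    (hE'd : StD (im ψ E')) (hE'g : StG (im ψ E')) (hE'h : StH (im ψ E'))
    (hιi : ∀ j, Injective (ι.f j)) (hιV : ∀ j, ∀ x ∈ V j, ∃ z, ι.f j z = x)
    (hιV' : ∀ j z, ι.f j z ∈ V j)
    (hρ : ∀ j z, ρ.f j z ∈ im ψ E' j) (hρY : ∀ j z, ι.f j z ∈ im ψ B' j → ρ.f j z = ι.f j z)
    (hK : ∀ j z, K.K j z ∈ E (j + 1))
    (h1 : Acy B' E') (h2 : AcyT V B) (h3 : Acy B E) :
    IfAx978.Smith (X := mix X) ψ A B A B' := by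
  refine smith_of_acyT hd hDe hAB' hA ?_
  refine acyT_six K hBV hVB hBE hEE hιi hιV hιV' hρ hρY hK ?_ h2 ?_
  · exact acyT_of_acy (fun j => Submodule.map_mono (hBE' j)) hB'd hB'g hB'h hE'd hE'g hE'h
      (acy_im hi hd h1)
  · exact acyT_of_acy hBE hBd hBg hBh hEd hEg hEh h3

end GS

end Crest.Agent.R231.Tatex432
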