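import Crest.Agent.R231.Eqv_937
import Crest.Agent.R231.TSub_569
import Crest.Agent.R231.Tate_432

/-!
# Row 231, block H, leaf H4b (helper937): equivariant maps and homotopies as maps of T-complexes

`T : TAct (SS.Sing E)`, `T' : TAct (SS.Sing E')` given pointwise by `act`, `act'` (`PtAct`),
`X : Set E` invariant, `W ≤ CS X` stable, `W'` stable.
* `incT : Hom (T.sub W) (T.sub W')` (`W ≤ W'`), `incT_inj`, `rng`-form;
* `pushT : Hom (T.sub W) (T'.sub W')` for an equivariant map `f`, continuous on `X`;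
* `prT : Htp (pushT F0) (pushT F1)` for an equivariant homotopy `F`, continuous on `X × [0,1]`;
* `deformT : Htp incT (pushT F1)` if `F x 0 = x` (the literal `K : Htp ι ρ` of `Tatex432.GS.smith_six`).
* loops: `XV`-versions with `LA M`, `TL M`, `FL M t`.
-/

set_option autoImplicit false

noncomputable section

namespace Crest.Agent.R231.Eqvx937

open Crest.Agent.R204 Crest.Agent.R204.SS
open Crest.Agent.R204.EZ271 (cross iota map_cross map_map incl prism prism_apply prism_homotopy)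
open SingAct265 Pairx877
open Crest.Agent.R231.TActx569 Crest.Agent.R231.TCx569
open Crest.Agent.R231.Tatex432

/-! ## chain-level constructions -/

section chain

variable {K L : SS} {A : TAct K} {B : TAct L} {W W₂ : Submodule F2 (N F2 K)}
  {W' : Submodule F2 (N F2 L)}

/-- inclusion of stable submodules -/
def incT (hW : A.Stb W) (hW₂ : A.Stb W₂) (h : W ≤ W₂) : TC.Hom (A.sub W hW) (A.sub W₂ hW₂) where
  f _ := Submodule.inclusion (inf_le_inf_left _ h)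
  fd _ _ := rfl
  fg _ _ := rfl
  fh _ _ := rfl

@[simp] theorem sval_incT (hW : A.Stb W) (hW₂ : A.Stb W₂) (h : W ≤ W₂) (j : ℕ)
    (z : (A.sub W hW).C j) : A.sval hW₂ j ((incT hW hW₂ h).f j z) = A.sval hW j z := rfl

theorem incT_inj (hW : A.Stb W) (hW₂ : A.Stb W₂) (h : W ≤ W₂) (j : ℕ) :
    Function.Injective ((incT hW hW₂ h).f j) := fun x y e =>
  A.sval_inj hW j (by
    have := congrArg (A.sval hW₂ j) e
    exact this)

theorem incT_mem (hW : A.Stb W) (hW₂ : A.Stb W₂) (h : W ≤ W₂) (j : ℕ) (z : (A.sub W hW).C j) :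
    (incT hW hW₂ h).f j z ∈ A.gs hW₂ W j := A.sval_mem' hW z

theorem exists_incT (hW : A.Stb W) (hW₂ : A.Stb W₂) (h : W ≤ W₂) (j : ℕ) (x : (A.sub W₂ hW₂).C j)
    (hx : x ∈ A.gs hW₂ W j) : ∃ z, (incT hW hW₂ h).f j z = x :=
  ⟨A.smk hW (A.sval hW₂ j x) (A.sval_mem hW₂ x) hx, rfl⟩

theorem rng_incT (hW : A.Stb W) (hW₂ : A.Stb W₂) (h : W ≤ W₂) (j : ℕ) :
    rng (incT hW hW₂ h) j = A.gs hW₂ W j := by
  refine le_antisymm ?_ fun x hx => ?_
  · rintro _ ⟨z, rfl⟩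
    exact incT_mem hW hW₂ h j z
  · obtain ⟨z, hz⟩ := exists_incT hW hW₂ h j x hx
    exact ⟨z, hz⟩

/-- properties of a chain operator of degree `k` with respect to the gradings and submodules -/
structure OpG (W : Submodule F2 (N F2 K)) (W' : Submodule F2 (N F2 L))
    (f : N F2 K →ₗ[F2] N F2 L) (k : ℕ) : Prop where
  gr (n : ℕ) (z : N F2 K) (h : z ∈ N.gr F2 K n) : f z ∈ N.gr F2 L (n + k)
  mem : ∀ z ∈ W, f z ∈ W'

/-- a chain map between stable submodules as a map of T-complexes -/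
def homT (hW : A.Stb W) (hW' : B.Stb W') (f : N F2 K →ₗ[F2] N F2 L) (hf : OpG W W' f 0)
    (hd : ∀ z ∈ W, f (N.bd F2 K z) = N.bd F2 L (f z))
    (hg : ∀ z ∈ W, f (A.gN z) = B.gN (f z)) (hh : ∀ z ∈ W, f (A.hN z) = B.hN (f z)) :
    TC.Hom (A.sub W hW) (B.sub W' hW') where
  f n := f.restrict (fun _ hx => ⟨hf.gr n _ hx.1, hf.mem _ hx.2⟩)
  fd _ x := Subtype.ext (hd _ x.2.2)
  fg _ x := Subtype.ext (hg _ x.2.2)
  fh _ x := Subtype.ext (hh _ x.2.2)

section homT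

variable (hW : A.Stb W) (hW' : B.Stb W') {f f₁ : N F2 K →ₗ[F2] N F2 L} (hf : OpG W W' f 0)
    (hd : ∀ z ∈ W, f (N.bd F2 K z) = N.bd F2 L (f z))
    (hg : ∀ z ∈ W, f (A.gN z) = B.gN (f z)) (hh : ∀ z ∈ W, f (A.hN z) = B.hN (f z))
    (hf₁ : OpG W W' f₁ 0)
    (hd₁ : ∀ z ∈ W, f₁ (N.bd F2 K z) = N.bd F2 L (f₁ z))
    (hg₁ : ∀ z ∈ W, f₁ (A.gN z) = B.gN (f₁ z)) (hh₁ : ∀ z ∈ W, f₁ (A.hN z) = B.hN (f₁ z))

@[simp] theorem sval_homT (j : ℕ) (z : (A.sub W hW).C j) :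
    B.sval hW' j ((homT hW hW' f hf hd hg hh).f j z) = f (A.sval hW j z) := rfl

/-- a chain homotopy between stable submodules as a homotopy of T-complexes -/
def htpT (k : N F2 K →ₗ[F2] N F2 L) (hk : OpG W W' k 1)
    (hkd : ∀ z ∈ W, N.bd F2 L (k z) + k (N.bd F2 K z) = f z + f₁ z)
    (hkg : ∀ z ∈ W, k (A.gN z) = B.gN (k z)) (hkh : ∀ z ∈ W, k (A.hN z) = B.hN (k z)) :
    Htp (homT hW hW' f hf hd hg hh) (homT hW hW' f₁ hf₁ hd₁ hg₁ hh₁) where
  K n := k.restrict (fun _ hx => ⟨hk.gr n _ hx.1, hk.mem _ hx.2⟩)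
  Kg n x := Subtype.ext (hkg _ x.2.2)
  Kh n x := Subtype.ext (hkh _ x.2.2)
  dK_zero x := Subtype.ext (by
    have h := hkd _ x.2.2
    rw [Exc406.bd_gr_zero x.2.1, map_zero, add_zero] at h
    exact h)
  dK_succ n x := Subtype.ext (hkd _ x.2.2)

end homT

end chain

/-! ## topological versions -/

section top

variable {E E' : Type} [TopologicalSpace E] [TopologicalSpace E'] {T : TAct (SS.Sing E)}
  {T' : TAct (SS.Sing E')} {act : UnitAddCircle → E → E} {act' : UnitAddCircle → E' → E'}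
  {X V : Set E} {Y' : Set E'} {W : Submodule F2 (CE E)} {W' : Submodule F2 (CE E')}

theorem ptAct_sing {ρ : C(UnitAddCircle × E, E)} {h0 : ∀ x, ρ (0, x) = x}
    {ha : ∀ s t x, ρ (s + t, x) = ρ (s, ρ (t, x))} :
    PtAct (TAct.sing ρ h0 ha) (fun v x => ρ (v, x)) := fun _ _ _ _ => rfl

/-- chains of an invariant subset are stable -/
theorem stb_CS (hT : PtAct T act) (hX : ∀ v, ∀ x ∈ X, act v x ∈ X) : T.Stb (CS X) where
  bd := bd_mem_CS
  g z hz := by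
    rw [TAct.gN_eq]
    exact op_mem_CS hT hX _ z hz
  h z hz := op_mem_CS hT hX _ z hz

theorem prV_gN {F : E → ℝ → E'}
    {hF : ContinuousOn (fun p : E × ℝ => F p.1 p.2) (X ×ˢ Set.Icc (0 : ℝ) 1)}
    (hT : PtAct T act) (hT' : PtAct T' act') (hX : ∀ v, ∀ x ∈ X, act v x ∈ X)
    (hE : ∀ v, ∀ x ∈ X, ∀ r ∈ Set.Icc (0 : ℝ) 1, F (act v x) r = act' v (F x r)) :
    ∀ z ∈ CS X, prV X F hF (T.gN z) = T'.gN (prV X F hF z) := by
  intro z hz
  rw [TAct.gN_eq, TAct.gN_eq]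
  exact prV_op hT hT' hX hE _ z hz

theorem push_gN {f : E → E'} {hf : ContinuousOn f X}
    (hT : PtAct T act) (hT' : PtAct T' act') (hX : ∀ v, ∀ x ∈ X, act v x ∈ X)
    (hE : ∀ v, ∀ x ∈ X, f (act v x) = act' v (f x)) :
    ∀ z ∈ CS X, push X f hf (T.gN z) = T'.gN (push X f hf z) := by
  intro z hz
  rw [TAct.gN_eq, TAct.gN_eq]
  exact push_op hT hT' hX hE _ z hz

theorem push_mem_gr {f : E → E'} {hf : ContinuousOn f X} {n : ℕ} {c : CE E}
    (hc : c ∈ N.gr F2 (SS.Sing E) n) : push X f hf c ∈ N.gr F2 (SS.Sing E') n :=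
  Exc406.map_mem_gr _ (res_mem_gr hc)

/-- **the map of T-complexes of an equivariant map** (continuous on `X`, `W ≤ CS X`) -/
def pushT (hT : PtAct T act) (hT' : PtAct T' act') (hX : ∀ v, ∀ x ∈ X, act v x ∈ X)
    (hW : T.Stb W) (hW' : T'.Stb W') (hWX : W ≤ CS X) (f : E → E') (hf : ContinuousOn f X)
    (hE : ∀ v, ∀ x ∈ X, f (act v x) = act' v (f x)) (hm : ∀ z ∈ W, push X f hf z ∈ W') :
    TC.Hom (T.sub W hW) (T'.sub W' hW') :=
  homT hW hW' (push X f hf) ⟨fun _ _ hz => push_mem_gr hz, hm⟩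
    (fun z hz => (bd_push z (hWX hz)).symm) (fun z hz => push_gN hT hT' hX hE z (hWX hz))
    (fun z hz => push_op hT hT' hX hE _ z (hWX hz))

@[simp] theorem sval_pushT (hT : PtAct T act) (hT' : PtAct T' act') (hX : ∀ v, ∀ x ∈ X, act v x ∈ X)
    (hW : T.Stb W) (hW' : T'.Stb W') (hWX : W ≤ CS X) (f : E → E') (hf : ContinuousOn f X)
    (hE : ∀ v, ∀ x ∈ X, f (act v x) = act' v (f x)) (hm : ∀ z ∈ W, push X f hf z ∈ W') (j : ℕ)
    (z : (T.sub W hW).C j) :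
    T'.sval hW' j ((pushT hT hT' hX hW hW' hWX f hf hE hm).f j z) = push X f hf (T.sval hW j z) :=
  rfl

/-- **the homotopy of T-complexes of an equivariant homotopy** (continuous on `X × [0,1]`) -/
def prT (hT : PtAct T act) (hT' : PtAct T' act') (hX : ∀ v, ∀ x ∈ X, act v x ∈ X)
    (hW : T.Stb W) (hW' : T'.Stb W') (hWX : W ≤ CS X) (F : E → ℝ → E')
    (hF : ContinuousOn (fun p : E × ℝ => F p.1 p.2) (X ×ˢ Set.Icc (0 : ℝ) 1))
    (hE : ∀ v, ∀ x ∈ X, ∀ r ∈ Set.Icc (0 : ℝ) 1, F (act v x) r = act' v (F x r))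
    (hm : ∀ z ∈ W, prV X F hF z ∈ W')
    (h0 : ContinuousOn (fun x => F x 0) X) (h1 : ContinuousOn (fun x => F x 1) X)
    (hm0 : ∀ z ∈ W, push X (fun x => F x 0) h0 z ∈ W')
    (hm1 : ∀ z ∈ W, push X (fun x => F x 1) h1 z ∈ W') :
    Htp (pushT hT hT' hX hW hW' hWX (fun x => F x 0) h0
        (fun v x hx => hE v x hx 0 (Set.left_mem_Icc.2 zero_le_one)) hm0)
      (pushT hT hT' hX hW hW' hWX (fun x => F x 1) h1
        (fun v x hx => hE v x hx 1 (Set.right_mem_Icc.2 zero_le_one)) hm1) :=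
  htpT hW hW' _ _ _ _ _ _ _ _ (prV X F hF) ⟨fun _ _ hz => prV_mem_gr hz, hm⟩
    (fun z hz => (bd_prV h0 h1 z (hWX hz)).trans (add_comm _ _))
    (fun z hz => prV_gN hT hT' hX hE z (hWX hz)) (fun z hz => prV_op hT hT' hX hE _ z (hWX hz))

end top

/-! ## a deformation of an invariant set `V` : the data `ι`, `ρ`, `K` of `smith_six` -/

section nbd

variable {E : Type} [TopologicalSpace E] {T : TAct (SS.Sing E)} {act : UnitAddCircle → E → E}
  {V Y Y' B : Set E} {W : Submodule F2 (CE E)}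

/-- an equivariant deformation of the invariant set `V` inside `B`, starting with the identity -/
structure Dfm (T : TAct (SS.Sing E)) (act : UnitAddCircle → E → E) (V B : Set E)
    (W : Submodule F2 (CE E)) (F : E → ℝ → E) : Prop where
  pt : PtAct T act
  inv : ∀ v, ∀ x ∈ V, act v x ∈ V
  stb : T.Stb W
  cont : ContinuousOn (fun p : E × ℝ => F p.1 p.2) (V ×ˢ Set.Icc (0 : ℝ) 1)
  eqv : ∀ v, ∀ x ∈ V, ∀ r ∈ Set.Icc (0 : ℝ) 1, F (act v x) r = act v (F x r)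
  zero : ∀ x ∈ V, F x 0 = x
  mem : ∀ x ∈ V, ∀ r ∈ Set.Icc (0 : ℝ) 1, F x r ∈ B
  le : CS B ≤ W

namespace Dfm

variable {F : E → ℝ → E} (D : Dfm T act V B W F)

include D in
theorem VB : V ⊆ B := fun x hx => by
  have := D.mem x hx 0 (Set.left_mem_Icc.2 zero_le_one)
  rwa [D.zero x hx] at this

include D in
theorem le' : CS V ≤ W := (CS_mono D.VB).trans D.le

/-- the T-complex of chains of `V` -/
abbrev Z : TC := T.sub (CS V) (stb_CS D.pt D.inv)

/-- the ambient T-complex -/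
abbrev A : TC := T.sub W D.stb

/-- the inclusion -/
def ι : TC.Hom D.Z D.A := incT (stb_CS D.pt D.inv) D.stb D.le'

include D in
theorem c1 : ContinuousOn (fun x => F x 1) V := contAt (Set.right_mem_Icc.2 zero_le_one) D.cont

include D in
theorem c0 : ContinuousOn (fun x => F x 0) V := contAt (Set.left_mem_Icc.2 zero_le_one) D.cont

/-- the end of the deformation -/
def ρ : TC.Hom D.Z D.A :=
  pushT D.pt D.pt D.inv (stb_CS D.pt D.inv) D.stb le_rfl (fun x => F x 1) D.c1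
    (fun v x hx => D.eqv v x hx 1 (Set.right_mem_Icc.2 zero_le_one))
    (fun z hz => D.le (push_mem (A := V) (fun x hx => D.mem x hx 1 (Set.right_mem_Icc.2 zero_le_one))
      z hz))

theorem push_zero : ∀ c ∈ CS V, push V (fun x => F x 0) D.c0 c = c := by
  intro c hc
  rw [push_congr (g := fun x => x) (hg := continuousOn_id) D.zero]
  exact push_id c hc

theorem hd : ∀ c ∈ CS V, bdE E (prV V F D.cont c) + prV V F D.cont (bdE E c) =
    c + push V (fun x => F x 1) D.c1 c := by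
  intro c hc
  rw [bd_prV D.c0 D.c1 c hc, D.push_zero c hc, add_comm]

/-- the homotopy -/
def K : Htp D.ι D.ρ where
  K n := (prV V F D.cont).restrict (fun _ hx => ⟨prV_mem_gr hx.1, D.le (prV_mem_self D.mem _)⟩)
  Kg n x := Subtype.ext (prV_gN D.pt D.pt D.inv D.eqv _ x.2.2)
  Kh n x := Subtype.ext (prV_op D.pt D.pt D.inv D.eqv _ _ x.2.2)
  dK_zero x := Subtype.ext (by
    have h := D.hd _ x.2.2
    rw [Exc406.bd_gr_zero x.2.1, map_zero, add_zero] at h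
    exact h)
  dK_succ n x := Subtype.ext (D.hd _ x.2.2)

theorem ι_inj (j : ℕ) : Function.Injective (D.ι.f j) := incT_inj _ _ _ j

theorem exists_ι (j : ℕ) (x : D.A.C j) (hx : x ∈ T.gs D.stb (CS V) j) : ∃ z, D.ι.f j z = x :=
  exists_incT _ _ _ j x hx

theorem ι_mem (j : ℕ) (z : D.Z.C j) : D.ι.f j z ∈ T.gs D.stb (CS V) j := incT_mem _ _ _ j z

theorem ρ_mem (h : ∀ x ∈ V, F x 1 ∈ Y') (j : ℕ) (z : D.Z.C j) : D.ρ.f j z ∈ T.gs D.stb (CS Y') j :=
  push_mem (A := V) (hf := D.c1) h _ z.2.2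

theorem ρ_fix (hY : Y ⊆ V) (h : ∀ x ∈ Y, F x 1 = x) (j : ℕ) (z : D.Z.C j)
    (hz : D.ι.f j z ∈ T.gs D.stb (CS Y) j) : D.ρ.f j z = D.ι.f j z := by
  refine Subtype.ext ?_
  have h1 := push_subset (hf := D.c1) (hfA := D.c1.mono hY) hY _ hz
  rw [push_congr (g := fun x => x) (hg := continuousOn_id) h] at h1
  exact h1.trans (push_id _ hz)

theorem K_mem (j : ℕ) (z : D.Z.C j) : D.K.K j z ∈ T.gs D.stb (CS B) (j + 1) :=
  prV_mem_self D.mem _

/-- supports of the homotopy -/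
theorem K_mem' {A' B' : Set E} (h : ∀ x ∈ A', x ∈ V → ∀ r ∈ Set.Icc (0 : ℝ) 1, F x r ∈ B') (j : ℕ)
    (z : D.Z.C j) (hz : D.ι.f j z ∈ T.gs D.stb (CS A') j) : D.K.K j z ∈ T.gs D.stb (CS B') (j + 1) :=
  prV_mem (fun x hx => h x hx.1 hx.2) _ hz

end Dfm

end nbd

/-! ## loops -/

section loops

open Crest.Agent.R231.GLugx576

variable {M : Type} [MetricSpace M]

theorem ptAct_LA : PtAct (LA M) (fun v γ => rot v γ) := fun _ _ _ _ => rfl

theorem CS_le_WL {V : Set (Lp M)} {t : ℝ} (h : V ⊆ X M t) : CS V ≤ WL M :=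
  (CS_mono h).trans (le_iSup (fun t : ℝ => CS (X M t)) t)

/-- the deformation data for invariant sets of loops; the ambient T-complex is `TL M` -/
theorem dfm_loops {V : Set (Lp M)} {t : ℝ} {F : Lp M → ℝ → Lp M}
    (inv : ∀ v, ∀ γ ∈ V, rot v γ ∈ V)
    (cont : ContinuousOn (fun p : Lp M × ℝ => F p.1 p.2) (V ×ˢ Set.Icc (0 : ℝ) 1))
    (eqv : ∀ v, ∀ γ ∈ V, ∀ r ∈ Set.Icc (0 : ℝ) 1, F (rot v γ) r = rot v (F γ r))
    (zero : ∀ γ ∈ V, F γ 0 = γ) (mem : ∀ γ ∈ V, ∀ r ∈ Set.Icc (0 : ℝ) 1, F γ r ∈ X M t) :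
    Dfm (LA M) (fun v γ => rot v γ) V (X M t) (WL M) F :=
  ⟨ptAct_LA, inv, stb_WL M, cont, eqv, zero, mem, CS_le_WL le_rfl⟩

end loops

end Crest.Agent.R231.Eqvx937
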