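import Crest.Agent.R204.Defs

/-!
# Row 231, block H (helper569): T-complexes over F₂ (dependent grading), completed complexes

`TC` = nonnegatively graded complex `C : ℕ → Type` of `F2`-modules with `d`, `g` (rotation by a half
turn) and `h` (the half turn chain operator), `g² = 1`, `h² = 0`, `gh = hg`, `dg = gd`,
`dh + hd = 1 + g`.  The completed total space is `X.P = ∀ n, X.C n`; on it live
`X.dP`, `X.gP`, `X.hP`, `X.DelP = (1+g)h`, `X.DT = d + Δ`, `X.DZ = d + 1 + g` and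
`(1+h) DT (1+h) = DZ`.  Tate homology: `Hd X.DT`.
-/

set_option autoImplicit false

noncomputable section

namespace Crest.Agent.R231.TCx569

open Crest.Agent.R204

/-! ## unbundled operators on the product -/

section ops

variable {C : ℕ → Type} [∀ n, AddCommGroup (C n)] [∀ n, Module F2 (C n)]

/-- degree `-1` operator on the product -/
def dnP (d : ∀ n, C (n + 1) →ₗ[F2] C n) : (∀ n, C n) →ₗ[F2] (∀ n, C n) where
  toFun c n := d n (c (n + 1))
  map_add' a b := by funext n; simp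
  map_smul' r a := by funext n; simp

/-- degree `0` operator on the product -/
def zrP (g : ∀ n, C n →ₗ[F2] C n) : (∀ n, C n) →ₗ[F2] (∀ n, C n) where
  toFun c n := g n (c n)
  map_add' a b := by funext n; simp
  map_smul' r a := by funext n; simp

/-- degree `+1` operator on the product: the underlying function -/
def upF (h : ∀ n, C n →ₗ[F2] C (n + 1)) (c : ∀ n, C n) : ∀ n, C n
  | 0 => 0
  | n + 1 => h n (c n)

/-- degree `+1` operator on the product -/
def upP (h : ∀ n, C n →ₗ[F2] C (n + 1)) : (∀ n, C n) →ₗ[F2] (∀ n, C n) where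
  toFun c := upF h c
  map_add' a b := by
    funext n
    cases n with
    | zero => simp [upF]
    | succ n => simp [upF]
  map_smul' r a := by
    funext n
    cases n with
    | zero => simp [upF]
    | succ n => simp [upF]

variable (d : ∀ n, C (n + 1) →ₗ[F2] C n) (g : ∀ n, C n →ₗ[F2] C n) (h : ∀ n, C n →ₗ[F2] C (n + 1))

@[simp] theorem dnP_apply (c : ∀ n, C n) (n : ℕ) : dnP d c n = d n (c (n + 1)) := rfl
@[simp] theorem zrP_apply (c : ∀ n, C n) (n : ℕ) : zrP g c n = g n (c n) := rfl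
@[simp] theorem upP_zero (c : ∀ n, C n) : upP h c 0 = 0 := rfl
@[simp] theorem upP_succ (c : ∀ n, C n) (n : ℕ) : upP h c (n + 1) = h n (c n) := rfl

end ops

/-- T-complex over `F2` -/
structure TC where
  C : ℕ → Type
  [grp : ∀ n, AddCommGroup (C n)]
  [mod : ∀ n, Module F2 (C n)]
  /-- boundary -/
  d : ∀ n, C (n + 1) →ₗ[F2] C n
  /-- rotation by a half turn -/
  g : ∀ n, C n →ₗ[F2] C n
  /-- half turn chain operator -/
  h : ∀ n, C n →ₗ[F2] C (n + 1)
  dd : ∀ n x, d n (d (n + 1) x) = 0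
  gg : ∀ n x, g n (g n x) = x
  hh : ∀ n x, h (n + 1) (h n x) = 0
  hg : ∀ n x, h n (g n x) = g (n + 1) (h n x)
  dg : ∀ n x, d n (g (n + 1) x) = g n (d n x)
  dh_zero : ∀ x, d 0 (h 0 x) = x + g 0 x
  dh_succ : ∀ n x, d (n + 1) (h (n + 1) x) + h n (d n x) = x + g (n + 1) x

attribute [instance] TC.grp TC.mod

namespace TC

/-- morphisms -/
structure Hom (X Y : TC) where
  f : ∀ n, X.C n →ₗ[F2] Y.C n
  fd : ∀ n x, f n (X.d n x) = Y.d n (f (n + 1) x)
  fg : ∀ n x, f n (X.g n x) = Y.g n (f n x)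
  fh : ∀ n x, f (n + 1) (X.h n x) = Y.h n (f n x)

variable (X : TC)

/-- the completed total space -/
abbrev P : Type := ∀ n, X.C n

def dP : X.P →ₗ[F2] X.P := dnP X.d
def gP : X.P →ₗ[F2] X.P := zrP X.g
def hP : X.P →ₗ[F2] X.P := upP X.h
/-- `Δ = (1+g)h` -/
def DelP : X.P →ₗ[F2] X.P := (LinearMap.id + X.gP) ∘ₗ X.hP
/-- T-Tate differential `d + Δ` -/
def DT : X.P →ₗ[F2] X.P := X.dP + X.DelP
/-- `Z/2`-Tate differential `d + 1 + g` -/
def DZ : X.P →ₗ[F2] X.P := X.dP + LinearMap.id + X.gP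
/-- `1 + h` -/
def cj : X.P →ₗ[F2] X.P := LinearMap.id + X.hP

theorem add_self {M : Type*} [AddCommGroup M] [Module F2 M] (x : M) : x + x = 0 := by
  rw [← two_smul F2 x, show (2 : F2) = 0 from rfl, zero_smul]

theorem dP_dP : X.dP ∘ₗ X.dP = 0 := by
  refine LinearMap.ext fun c => funext fun n => ?_
  exact X.dd n _

theorem gP_gP : X.gP ∘ₗ X.gP = LinearMap.id := by
  refine LinearMap.ext fun c => funext fun n => ?_
  exact X.gg n _

theorem hP_hP : X.hP ∘ₗ X.hP = 0 := by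
  refine LinearMap.ext fun c => funext fun n => ?_
  rcases n with _ | _ | n
  · rfl
  · exact map_zero (X.h 0)
  · exact X.hh n _

theorem hP_gP : X.hP ∘ₗ X.gP = X.gP ∘ₗ X.hP := by
  refine LinearMap.ext fun c => funext fun n => ?_
  rcases n with _ | n
  · exact (map_zero (X.g 0)).symm
  · exact X.hg n _

theorem dP_gP : X.dP ∘ₗ X.gP = X.gP ∘ₗ X.dP := by
  refine LinearMap.ext fun c => funext fun n => ?_
  exact X.dg n _

theorem dP_hP : X.dP ∘ₗ X.hP + X.hP ∘ₗ X.dP = LinearMap.id + X.gP := by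
  refine LinearMap.ext fun c => funext fun n => ?_
  rcases n with _ | n
  · change X.d 0 (X.h 0 (c 0)) + 0 = c 0 + X.g 0 (c 0)
    rw [add_zero, X.dh_zero]
  · exact X.dh_succ n _

/-- pointwise versions -/
theorem dP_dP' (c : X.P) : X.dP (X.dP c) = 0 := LinearMap.congr_fun X.dP_dP c
theorem gP_gP' (c : X.P) : X.gP (X.gP c) = c := LinearMap.congr_fun X.gP_gP c
theorem hP_hP' (c : X.P) : X.hP (X.hP c) = 0 := LinearMap.congr_fun X.hP_hP c
theorem hP_gP' (c : X.P) : X.hP (X.gP c) = X.gP (X.hP c) := LinearMap.congr_fun X.hP_gP c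
theorem dP_gP' (c : X.P) : X.dP (X.gP c) = X.gP (X.dP c) := LinearMap.congr_fun X.dP_gP c
theorem dP_hP' (c : X.P) : X.dP (X.hP c) = c + X.gP c + X.hP (X.dP c) := by
  have h : X.dP (X.hP c) + X.hP (X.dP c) = c + X.gP c := LinearMap.congr_fun X.dP_hP c
  rw [← h, add_assoc, add_self, add_zero]

theorem DelP_apply (c : X.P) : X.DelP c = X.hP c + X.gP (X.hP c) := rfl
theorem DT_apply (c : X.P) : X.DT c = X.dP c + (X.hP c + X.gP (X.hP c)) := rfl
theorem DZ_apply (c : X.P) : X.DZ c = X.dP c + c + X.gP c := rfl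
theorem cj_apply (c : X.P) : X.cj c = c + X.hP c := rfl

theorem cj_cj (c : X.P) : X.cj (X.cj c) = c := by
  rw [cj_apply, cj_apply, map_add, hP_hP', add_zero, add_assoc, add_self, add_zero]

theorem hP_DelP (c : X.P) : X.hP (X.DelP c) = 0 := by
  rw [DelP_apply, map_add, hP_gP', hP_hP', map_zero, add_zero]

theorem DelP_hP (c : X.P) : X.DelP (X.hP c) = 0 := by
  rw [DelP_apply, hP_hP', map_zero, add_zero]

theorem DelP_DelP (c : X.P) : X.DelP (X.DelP c) = 0 := by
  rw [DelP_apply X (X.DelP c), hP_DelP, map_zero, add_zero]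

theorem gP_DelP (c : X.P) : X.gP (X.DelP c) = X.DelP c := by
  rw [DelP_apply, map_add, gP_gP', add_comm]

theorem dP_DelP (c : X.P) : X.dP (X.DelP c) = X.DelP (X.dP c) := by
  rw [DelP_apply, DelP_apply, map_add, dP_gP', dP_hP']
  simp only [map_add, gP_gP']
  have h1 : c + X.gP c + X.hP (X.dP c) + (X.gP c + c + X.gP (X.hP (X.dP c))) =
      (c + c) + (X.gP c + X.gP c) + (X.hP (X.dP c) + X.gP (X.hP (X.dP c))) := by abel
  rw [h1, add_self, add_self, zero_add, zero_add]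

/-- **conjugation** `(1+h)(d+Δ) = (d+1+g)(1+h)` -/
theorem cj_DT (c : X.P) : X.cj (X.DT c) = X.DZ (X.cj c) := by
  have e : X.DT c = X.dP c + X.DelP c := rfl
  rw [e, cj_apply, map_add, hP_DelP, add_zero, cj_apply, DZ_apply, map_add, map_add, dP_hP', DelP_apply]
  have h1 : X.dP c + (c + X.gP c + X.hP (X.dP c)) + (c + X.hP c) + (X.gP c + X.gP (X.hP c)) =
      X.dP c + (X.hP c + X.gP (X.hP c)) + X.hP (X.dP c) + (c + c) + (X.gP c + X.gP c) := by abel
  rw [h1, add_self, add_self, add_zero, add_zero]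

theorem cj_DZ (c : X.P) : X.cj (X.DZ c) = X.DT (X.cj c) := by
  have h := X.cj_DT (X.cj c)
  rw [cj_cj] at h
  rw [← h, cj_cj]

theorem DT_DT (c : X.P) : X.DT (X.DT c) = 0 := by
  have e : ∀ c, X.DT c = X.dP c + X.DelP c := fun _ => rfl
  rw [e, e, map_add, map_add, dP_dP', DelP_DelP, dP_DelP, zero_add, add_zero, add_self]

theorem DZ_DZ (c : X.P) : X.DZ (X.DZ c) = 0 := by
  have h := X.cj_DT (X.DT (X.cj c))
  rw [DT_DT, map_zero, cj_DT, cj_cj] at h
  exact h.symm

/-- the map on total spaces -/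
def Hom.P {X Y : TC} (φ : Hom X Y) : X.P →ₗ[F2] Y.P where
  toFun c n := φ.f n (c n)
  map_add' a b := by funext n; simp
  map_smul' r a := by funext n; simp

section hom

variable {X} {Y : TC} (φ : Hom X Y)

@[simp] theorem Hom.P_apply (c : X.P) (n : ℕ) : φ.P c n = φ.f n (c n) := rfl

theorem Hom.P_dP (c : X.P) : φ.P (X.dP c) = Y.dP (φ.P c) := funext fun n => φ.fd n _
theorem Hom.P_gP (c : X.P) : φ.P (X.gP c) = Y.gP (φ.P c) := funext fun n => φ.fg n _
theorem Hom.P_hP (c : X.P) : φ.P (X.hP c) = Y.hP (φ.P c) := by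
  funext n
  rcases n with _ | n
  · exact map_zero (φ.f 0)
  · exact φ.fh n _

theorem Hom.P_DT (c : X.P) : φ.P (X.DT c) = Y.DT (φ.P c) := by
  rw [DT_apply, DT_apply, map_add, map_add, Hom.P_dP, Hom.P_gP, Hom.P_hP]

theorem Hom.P_DZ (c : X.P) : φ.P (X.DZ c) = Y.DZ (φ.P c) := by
  rw [DZ_apply, DZ_apply, map_add, map_add, Hom.P_dP, Hom.P_gP]

theorem Hom.P_cj (c : X.P) : φ.P (X.cj c) = Y.cj (φ.P c) := by
  rw [cj_apply, cj_apply, map_add, Hom.P_hP]

/-- `d`-homology (product over all degrees) -/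
def Hom.HN : Hd X.dP →ₗ[F2] Hd Y.dP := Hd.map φ.P (LinearMap.ext φ.P_dP)
/-- T-Tate homology -/
def Hom.HT : Hd X.DT →ₗ[F2] Hd Y.DT := Hd.map φ.P (LinearMap.ext φ.P_DT)
/-- Z/2-Tate homology -/
def Hom.HZ : Hd X.DZ →ₗ[F2] Hd Y.DZ := Hd.map φ.P (LinearMap.ext φ.P_DZ)

end hom

/-- identity and composition -/
def Hom.id (X : TC) : Hom X X := ⟨fun _ => LinearMap.id, fun _ _ => rfl, fun _ _ => rfl, fun _ _ => rfl⟩

def Hom.comp {X Y Z : TC} (ψ : Hom Y Z) (φ : Hom X Y) : Hom X Z where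
  f n := ψ.f n ∘ₗ φ.f n
  fd n x := by simp only [LinearMap.comp_apply, φ.fd, ψ.fd]
  fg n x := by simp only [LinearMap.comp_apply, φ.fg, ψ.fg]
  fh n x := by simp only [LinearMap.comp_apply, φ.fh, ψ.fh]

end TC

end Crest.Agent.R231.TCx569
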