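import Crest.Agent.R204.EZSym_847
import Crest.Agent.R204.EZHtp_271
import Crest.Agent.R204.ExcD_406
import Crest.Agent.R231.TC_569

/-!
# Row 231, leaf H1 (helper569): actions of the simplicial circle group on R204 chains

* `ST = Sing T`, `T = UnitAddCircle`; `addH`, `pont` (Pontryagin product of chains of `T`);
* `TAct K` : action of `ST` on a simplicial set `K`;
* `A.op c z` chain operator of a chain `c` of `T`: Leibniz `bd_op`, `op_op`, `pont_comm`;
* `half = [path t ↦ t/2]`, `bd_half`, `pont_half_half = 0`;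
* `A.rot v`; `A.gN`, `A.hN` and all identities of a `TC`;
* `A.tc : TC`, chain groups `N.gr F2 K n`.
-/

set_option autoImplicit false

noncomputable section

namespace Crest.Agent.R231.TActx569

open Crest.Agent.R204 EZ271 EZ847 Coalg847

/-- the simplicial circle group -/
abbrev ST : SS := SS.Sing UnitAddCircle

/-- `n`-simplices of the circle -/
abbrev CT (n : ℕ) : Type := C(stdSimplex ℝ (Fin (n + 1)), UnitAddCircle)

/-- addition of simplices of the circle -/
def sadd {n : ℕ} (s t : ST.S n) : ST.S n := @HAdd.hAdd (CT n) (CT n) (CT n) _ s t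
/-- zero simplex of the circle -/
def szero (n : ℕ) : ST.S n := (0 : CT n)
/-- negative simplex -/
def sneg {n : ℕ} (s : ST.S n) : ST.S n := @Neg.neg (CT n) _ s

theorem sadd_comm {n : ℕ} (s t : ST.S n) : sadd s t = sadd t s := @add_comm (CT n) _ s t
theorem sadd_assoc {n : ℕ} (s t u : ST.S n) : sadd (sadd s t) u = sadd s (sadd t u) :=
  @add_assoc (CT n) _ s t u
theorem szero_sadd {n : ℕ} (s : ST.S n) : sadd (szero n) s = s := @zero_add (CT n) _ s
theorem sneg_sadd {n : ℕ} (s : ST.S n) : sadd (sneg s) s = szero n := @neg_add_cancel (CT n) _ s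

/-- addition of the simplicial circle group -/
def addH : SS.Hom (ST.prod ST) ST :=
  ⟨fun _ x => sadd x.1 x.2, fun _ _ => rfl⟩

theorem addH_swap : addH.comp (SS.swap ST ST) = addH := by
  refine SS.Hom.ext (funext fun n => funext fun x => ?_)
  exact sadd_comm x.2 x.1

/-- action of the simplicial circle group -/
structure TAct (K : SS) where
  a : SS.Hom (ST.prod K) K
  assoc : ∀ (n : ℕ) (s t : ST.S n) (x : K.S n),
    a.app n (sadd s t, x) = a.app n (s, a.app n (t, x))
  zero : ∀ (n : ℕ) (x : K.S n), a.app n (szero n, x) = x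

/-- Pontryagin product of chains on the circle -/
def pont : N F2 ST →ₗ[F2] N F2 ST →ₗ[F2] N F2 ST := (cross F2).compr₂ (N.map F2 addH)

theorem pont_apply (c c' : N F2 ST) : pont c c' = N.map F2 addH (cross F2 c c') := rfl

theorem pont_comm (c c' : N F2 ST) : pont c c' = pont c' c := by
  rw [pont_apply, pont_apply, ← cross_swap_F2 c' c, map_map, addH_swap]

/-- if `c = C.c u` is a cone, then the square of `c` is zero -/
theorem pont_cone_sq {p : ℕ} (x : ST.S (p + 1)) : pont (N.sx F2 x) (N.sx F2 x) = 0 := by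
  have iotaS : N.sx F2 (iota (p + 1)) =
      (Cone.std (p + 1)).c F2 (N.map F2 (stdMap (Op.face 0)) (N.sx F2 (iota p))) := iota_succ F2 p
  have e1 : N.sx F2 x = N.map F2 (ST.yo x) (N.sx F2 (iota (p + 1))) := sx_eq_map_iota F2 x
  rw [pont_apply]
  rw [e1, ← map_cross, iotaS]
  set A := Cone.std (p + 1)
  set u := N.map F2 (stdMap (Op.face 0)) (N.sx F2 (iota p))
  rw [cross_c_c, sg_F2, map_add, map_add]
  have h2 : (A.prod A).c F2 (cross F2 (A.c F2 u) u) =
      N.map F2 (SS.swap _ _) ((A.prod A).c F2 (cross F2 u (A.c F2 u))) := by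
    rw [map_swap_c, cross_swap_F2]
  rw [h2, map_add, map_map, map_map, map_map]
  have h3 : (addH.comp (SS.prodMap (ST.yo x) (ST.yo x))).comp (SS.swap _ _) =
      addH.comp (SS.prodMap (ST.yo x) (ST.yo x)) := by
    have h4 : (addH.comp (SS.prodMap (ST.yo x) (ST.yo x))).comp (SS.swap _ _) =
      (addH.comp (SS.swap ST ST)).comp (SS.prodMap (ST.yo x) (ST.yo x)) := rfl
    rw [h4, addH_swap]
  rw [h3]
  exact TCx569.TC.add_self _

/-- vertices of the circle -/
def vx (v : UnitAddCircle) : ST.S 0 := (ContinuousMap.const _ v : CT 0)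

/-- half turn path -/
def hp : ST.S 1 :=
  (⟨fun x => (((x : Fin 2 → ℝ) 1 / 2 : ℝ) : UnitAddCircle), by
    refine (AddCircle.continuous_mk' (1 : ℝ)).comp ?_
    exact (((continuous_apply (1 : Fin 2)).comp continuous_subtype_val).div_const 2)⟩ : CT 1)

/-- the half turn chain -/
def half : N F2 ST := N.sx F2 hp

/-- full turn path -/
def fp : ST.S 1 :=
  (⟨fun x => (((x : Fin 2 → ℝ) 1 : ℝ) : UnitAddCircle), by
    refine (AddCircle.continuous_mk' (1 : ℝ)).comp ?_
    exact (continuous_apply (1 : Fin 2)).comp continuous_subtype_val⟩ : CT 1)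

theorem pont_half_half : pont half half = 0 := pont_cone_sq (p := 0) hp

theorem face_vert0 : ST.act (Op.face (0 : Fin 2)) hp = vx ((1 / 2 : ℝ) : UnitAddCircle) := by
  refine ContinuousMap.ext fun x => ?_
  change ((((stdSimplex.map (Op.face (0 : Fin 2)) x : stdSimplex ℝ (Fin 2)) : Fin 2 → ℝ) 1 / 2 : ℝ) :
    UnitAddCircle) = ((1 / 2 : ℝ) : UnitAddCircle)
  have h1 : ((stdSimplex.map (Op.face (0 : Fin 2)) x : stdSimplex ℝ (Fin 2)) : Fin 2 → ℝ) 1 = 1 := by
    refine (congrFun (stdSimplex.map_coe (Op.face (0 : Fin 2)) x) 1).trans ?_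
    rw [FunOnFinite.linearMap_apply_apply, Finset.filter_true_of_mem (fun a _ => by
      have : a = 0 := Fin.ext (by omega)
      subst this; rfl)]
    exact x.2.2
  rw [h1]

theorem face_vert1 : ST.act (Op.face (1 : Fin 2)) hp = vx 0 := by
  refine ContinuousMap.ext fun x => ?_
  change ((((stdSimplex.map (Op.face (1 : Fin 2)) x : stdSimplex ℝ (Fin 2)) : Fin 2 → ℝ) 1 / 2 : ℝ) :
    UnitAddCircle) = 0
  have h1 : ((stdSimplex.map (Op.face (1 : Fin 2)) x : stdSimplex ℝ (Fin 2)) : Fin 2 → ℝ) 1 = 0 := by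
    refine (congrFun (stdSimplex.map_coe (Op.face (1 : Fin 2)) x) 1).trans ?_
    rw [FunOnFinite.linearMap_apply_apply, Finset.filter_false_of_mem (fun a _ => by
      have : a = 0 := Fin.ext (by omega)
      subst this
      intro h
      have := congrArg Fin.val h
      rw [Ch.face_val] at this
      simp at this)]
    rfl
  rw [h1, zero_div, AddCircle.coe_zero]

theorem bd_half : N.bd F2 ST half = N.sx F2 (vx ((1 / 2 : ℝ) : UnitAddCircle)) + N.sx F2 (vx 0) := by
  unfold half
  rw [bd_sx_succ, Fin.sum_univ_two, face_vert0, face_vert1]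
  have h : (-1 : F2) = 1 := rfl
  simp [h]

namespace TAct

variable {K : SS} (A : TAct K)

/-- the operator of a chain of the circle -/
def op : N F2 ST →ₗ[F2] N F2 K →ₗ[F2] N F2 K := (cross F2).compr₂ (N.map F2 A.a)

theorem op_apply (c : N F2 ST) (z : N F2 K) : A.op c z = N.map F2 A.a (cross F2 c z) := rfl

theorem bd_op (c : N F2 ST) (z : N F2 K) :
    N.bd F2 K (A.op c z) = A.op (N.bd F2 ST c) z + A.op c (N.bd F2 K z) := by
  rw [op_apply, ← map_bd', bd_cross, map_add, sg_F2]; rfl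

theorem op_op (c c' : N F2 ST) (z : N F2 K) : A.op c (A.op c' z) = A.op (pont c c') z := by
  rw [op_apply, op_apply, op_apply, pont_apply]
  have h1 := map_cross F2 (SS.Hom.id ST) A.a c (cross F2 c' z)
  rw [map_idHom] at h1
  have h2 := map_cross F2 addH (SS.Hom.id K) (cross F2 c c') z
  rw [map_idHom] at h2
  rw [← h1, ← h2, ← cross_assoc, map_map, map_map, map_map]
  have h3 : (A.a.comp (SS.prodMap (SS.Hom.id ST) A.a)).comp (asc ST ST K) =
      A.a.comp (SS.prodMap addH (SS.Hom.id K)) := by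
    refine SS.Hom.ext (funext fun n => funext fun x => ?_)
    exact (A.assoc n x.1.1 x.1.2 x.2).symm
  rw [h3]

theorem op_comm (c c' : N F2 ST) (z : N F2 K) : A.op c (A.op c' z) = A.op c' (A.op c z) := by
  rw [op_op, op_op, pont_comm]

/-- rotation -/
def rot (v : UnitAddCircle) : SS.Hom K K :=
  A.a.comp (SS.pair (SS.constHom K ST (vx v)) (SS.Hom.id K))

theorem constHom_vx (n : ℕ) (v : UnitAddCircle) (x : K.S n) :
    (SS.constHom K ST (vx v)).app n x = (ContinuousMap.const _ v : CT n) := rfl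

theorem rot_app (n : ℕ) (v : UnitAddCircle) (x : K.S n) :
    (A.rot v).app n x = A.a.app n ((ContinuousMap.const _ v : CT n), x) := rfl

theorem op_vx (v : UnitAddCircle) (z : N F2 K) : A.op (N.sx F2 (vx v)) z = N.map F2 (A.rot v) z := by
  rw [op_apply, cross_vertex_left, map_map]; rfl

theorem rot_zero : A.rot 0 = SS.Hom.id K := by
  refine SS.Hom.ext (funext fun n => funext fun x => ?_)
  exact A.zero n x

theorem rot_comp (v w : UnitAddCircle) : (A.rot v).comp (A.rot w) = A.rot (v + w) := by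
  refine SS.Hom.ext (funext fun n => funext fun x => ?_)
  exact (A.assoc n _ _ x).symm

theorem half_add_half : (((1 / 2 : ℝ) : UnitAddCircle)) + ((1 / 2 : ℝ) : UnitAddCircle) = 0 := by
  rw [← AddCircle.coe_add, show (1 / 2 : ℝ) + 1 / 2 = 1 by norm_num]
  exact AddCircle.coe_period 1

/-- rotation by a half turn on chains -/
def gN : N F2 K →ₗ[F2] N F2 K := N.map F2 (A.rot ((1 / 2 : ℝ) : UnitAddCircle))
/-- the half turn chain operator -/
def hN : N F2 K →ₗ[F2] N F2 K := A.op half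

theorem gN_eq (z : N F2 K) : A.gN z = A.op (N.sx F2 (vx ((1 / 2 : ℝ) : UnitAddCircle))) z :=
  (A.op_vx _ z).symm

theorem gN_gN (z : N F2 K) : A.gN (A.gN z) = z := by
  unfold gN
  rw [map_map, rot_comp, half_add_half, rot_zero, map_idHom]

theorem hN_hN (z : N F2 K) : A.hN (A.hN z) = 0 := by
  unfold hN
  rw [op_op, pont_half_half, map_zero, LinearMap.zero_apply]

theorem hN_gN (z : N F2 K) : A.hN (A.gN z) = A.gN (A.hN z) := by
  rw [gN_eq, gN_eq]; exact A.op_comm _ _ _

theorem bd_gN (z : N F2 K) : N.bd F2 K (A.gN z) = A.gN (N.bd F2 K z) := (map_bd' F2 _ _).symm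

theorem bd_hN (z : N F2 K) : N.bd F2 K (A.hN z) + A.hN (N.bd F2 K z) = z + A.gN z := by
  unfold hN
  rw [bd_op, bd_half, map_add, LinearMap.add_apply, op_vx, op_vx, rot_zero, map_idHom, add_assoc,
    TCx569.TC.add_self, add_zero, add_comm]
  rfl

/-! ## degrees -/

theorem sx_mem_gr {L : SS} {n : ℕ} (x : L.S n) : N.sx F2 x ∈ N.gr F2 L n :=
  ⟨Finsupp.single ⟨_, x⟩ 1, Submodule.subset_span ⟨x, rfl⟩, rfl⟩

theorem op_mem_gr {m n : ℕ} {c : N F2 ST} {z : N F2 K} (hc : c ∈ N.gr F2 ST m) (hz : z ∈ N.gr F2 K n) :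
    A.op c z ∈ N.gr F2 K (m + n) :=
  Exc406.map_mem_gr A.a (cross_mem_gr F2 hc hz)

theorem gN_mem_gr {n : ℕ} {z : N F2 K} (hz : z ∈ N.gr F2 K n) : A.gN z ∈ N.gr F2 K n :=
  Exc406.map_mem_gr _ hz

theorem hN_mem_gr {n : ℕ} {z : N F2 K} (hz : z ∈ N.gr F2 K n) : A.hN z ∈ N.gr F2 K (n + 1) := by
  rw [add_comm n 1]
  exact A.op_mem_gr (sx_mem_gr hp) hz

/-- **the T-complex of a simplicial set with an action of the circle** -/
def tc : TCx569.TC where
  C n := N.gr F2 K n
  d n := (N.bd F2 K).restrict (fun _ hx => Exc406.bd_mem_gr n hx)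
  g n := A.gN.restrict (fun _ hx => A.gN_mem_gr hx)
  h n := A.hN.restrict (fun _ hx => A.hN_mem_gr hx)
  dd n x := Subtype.ext (N.bd_bd _)
  gg n x := Subtype.ext (A.gN_gN _)
  hh n x := Subtype.ext (A.hN_hN _)
  hg n x := Subtype.ext (A.hN_gN _)
  dg n x := Subtype.ext (A.bd_gN _)
  dh_zero x := Subtype.ext (by
    have h := A.bd_hN x.1
    rw [Exc406.bd_gr_zero x.2, map_zero, add_zero] at h
    exact h)
  dh_succ n x := Subtype.ext (A.bd_hN _)

/-- underlying chain -/
def val (n : ℕ) : A.tc.C n →ₗ[F2] N F2 K := (N.gr F2 K n).subtype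

theorem val_inj (n : ℕ) : Function.Injective (A.val n) := Subtype.val_injective
theorem val_mem {n : ℕ} (x : A.tc.C n) : A.val n x ∈ N.gr F2 K n := x.2
/-- a chain in degree `n` as an element of the complex -/
def mkC {n : ℕ} (z : N F2 K) (hz : z ∈ N.gr F2 K n) : A.tc.C n := ⟨z, hz⟩
@[simp] theorem val_mkC {n : ℕ} (z : N F2 K) (hz : z ∈ N.gr F2 K n) : A.val n (A.mkC z hz) = z := rfl
theorem mkC_val {n : ℕ} (x : A.tc.C n) : A.mkC (A.val n x) (A.val_mem x) = x := rfl

@[simp] theorem val_d (n : ℕ) (x : A.tc.C (n + 1)) :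
    A.val n (A.tc.d n x) = N.bd F2 K (A.val (n + 1) x) := rfl
@[simp] theorem val_g (n : ℕ) (x : A.tc.C n) : A.val n (A.tc.g n x) = A.gN (A.val n x) := rfl
@[simp] theorem val_h (n : ℕ) (x : A.tc.C n) : A.val (n + 1) (A.tc.h n x) = A.hN (A.val n x) := rfl

end TAct

end Crest.Agent.R231.TActx569
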