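import Crest.Agent.R204.EZSym_847
import Crest.Agent.R204.EZHtp_271
import Crest.Agent.R204.SingAct_265
import Crest.Agent.R231.TAct_569
import Crest.Agent.R231.Pair_877

/-!
# Row 231, block H, leaf H4 (helper937): equivariant simplicial homotopies

`S` a simplicial set acting: `aK : S × K → K`, `aL : S × L → L` (no axioms needed), `c ∈ N F2 S`;
`opc aK c z = N.map aK (cross c z)`.
A simplicial homotopy `G : K × Δ¹ → L` which is equivariant (`EqH aK aL G`) has a prism operator
`pr G : N F2 K → N F2 L` with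
* `pr_opc : pr G (opc aK c z) = opc aL c (pr G z)`  (all `c`, in particular `g`, `h`, `Δ`),
* `bd_pr : bd (pr G z) + pr G (bd z) = map (end 1) z + map (end 0) z`,
* `pr_mem_gr`: degree `+1`.
-/

set_option autoImplicit false

noncomputable section

namespace Crest.Agent.R231.Eqvx937

open Crest.Agent.R204 Crest.Agent.R204.SS
open Crest.Agent.R204.EZ271 (cross iota map_cross map_map incl prism prism_apply prism_homotopy)
open Crest.Agent.R204.EZ847 (cross_assoc cross_mem_gr)
open Crest.Agent.R204.Coalg847 (asc)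

variable {S K L : SS}

/-- the operator of a chain `c` of the acting simplicial set -/
def opc (a : SS.Hom (S.prod K) K) (c : N F2 S) : N F2 K →ₗ[F2] N F2 K :=
  N.map F2 a ∘ₗ cross F2 c

theorem opc_apply (a : SS.Hom (S.prod K) K) (c : N F2 S) (z : N F2 K) :
    opc a c z = N.map F2 a (cross F2 c z) := rfl

/-- equivariance of a simplicial map -/
def EqM (aK : SS.Hom (S.prod K) K) (aL : SS.Hom (S.prod L) L) (f : SS.Hom K L) : Prop :=
  ∀ (n : ℕ) (s : S.S n) (x : K.S n), f.app n (aK.app n (s, x)) = aL.app n (s, f.app n x)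

/-- equivariance of a simplicial homotopy -/
def EqH (aK : SS.Hom (S.prod K) K) (aL : SS.Hom (S.prod L) L) (G : SS.Hom (K.prod (SS.std 1)) L) :
    Prop :=
  ∀ (n : ℕ) (s : S.S n) (x : K.S n) (e : (SS.std 1).S n),
    G.app n (aK.app n (s, x), e) = aL.app n (s, G.app n (x, e))

theorem map_opc {aK : SS.Hom (S.prod K) K} {aL : SS.Hom (S.prod L) L} {f : SS.Hom K L}
    (h : EqM aK aL f) (c : N F2 S) (z : N F2 K) :
    N.map F2 f (opc aK c z) = opc aL c (N.map F2 f z) := by
  have e : f.comp aK = aL.comp (SS.prodMap (SS.Hom.id S) f) := by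
    refine SS.Hom.ext (funext fun n => funext fun p => ?_)
    exact h n p.1 p.2
  rw [opc_apply, opc_apply, map_map, e, ← map_map, map_cross]
  rw [EZ271.map_idHom]

/-- prism operator over `F2` -/
def pr (G : SS.Hom (K.prod (SS.std 1)) L) : N F2 K →ₗ[F2] N F2 L :=
  N.map F2 G ∘ₗ (cross F2).flip (N.sx F2 (iota 1))

theorem pr_apply (G : SS.Hom (K.prod (SS.std 1)) L) (z : N F2 K) :
    pr G z = N.map F2 G (cross F2 z (N.sx F2 (iota 1))) := rfl

theorem pr_eq_prism (G : SS.Hom (K.prod (SS.std 1)) L) (z : N F2 K) : pr G z = prism F2 G z := by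
  rw [pr_apply, prism_apply, EZ847.sg_F2]

theorem add_self {M : Type*} [AddCommGroup M] [Module F2 M] (x : M) : x + x = 0 := by
  rw [← two_smul F2 x, show (2 : F2) = 0 from rfl, zero_smul]

theorem sub_eq {M : Type*} [AddCommGroup M] [Module F2 M] (x y : M) : x - y = x + y := by
  rw [sub_eq_add_neg, neg_eq_of_add_eq_zero_left (add_self y)]

theorem bd_pr (G : SS.Hom (K.prod (SS.std 1)) L) (z : N F2 K) :
    N.bd F2 L (pr G z) + pr G (N.bd F2 K z) =
      N.map F2 (G.comp (incl K 1)) z + N.map F2 (G.comp (incl K 0)) z := by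
  rw [pr_eq_prism, pr_eq_prism, prism_homotopy, sub_eq]

theorem pr_mem_gr (G : SS.Hom (K.prod (SS.std 1)) L) {n : ℕ} {z : N F2 K} (hz : z ∈ N.gr F2 K n) :
    pr G z ∈ N.gr F2 L (n + 1) :=
  Exc406.map_mem_gr G (cross_mem_gr F2 hz (TActx569.TAct.sx_mem_gr (iota 1)))

/-- **the prism operator of an equivariant homotopy commutes with all operators `opc c`** -/
theorem pr_opc {aK : SS.Hom (S.prod K) K} {aL : SS.Hom (S.prod L) L}
    {G : SS.Hom (K.prod (SS.std 1)) L} (h : EqH aK aL G) (c : N F2 S) (z : N F2 K) :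
    pr G (opc aK c z) = opc aL c (pr G z) := by
  have e : G.comp (SS.prodMap aK (SS.Hom.id (SS.std 1))) =
      (aL.comp (SS.prodMap (SS.Hom.id S) G)).comp (asc S K (SS.std 1)) := by
    refine SS.Hom.ext (funext fun n => funext fun p => ?_)
    exact h n p.1.1 p.1.2 p.2
  have h1 : cross F2 (N.map F2 aK (cross F2 c z)) (N.sx F2 (iota 1)) =
      N.map F2 (SS.prodMap aK (SS.Hom.id (SS.std 1))) (cross F2 (cross F2 c z) (N.sx F2 (iota 1))) := by
    rw [map_cross, EZ271.map_idHom]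
  have h2 : cross F2 c (N.map F2 G (cross F2 z (N.sx F2 (iota 1)))) =
      N.map F2 (SS.prodMap (SS.Hom.id S) G) (cross F2 c (cross F2 z (N.sx F2 (iota 1)))) := by
    rw [map_cross, EZ271.map_idHom]
  rw [pr_apply, opc_apply, opc_apply, pr_apply, h1, h2, map_map, map_map, e, ← map_map, cross_assoc]

/-! ## topological version: homotopies defined on a subset -/

section top

open SingAct265 Pairx877
open Crest.Agent.R231.TActx569 (ST TAct)

variable {E E' : Type} [TopologicalSpace E] [TopologicalSpace E']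

/-- the homotopy restricted to a subset, as a continuous map -/
def hX (X : Set E) (F : E → ℝ → E')
    (hF : ContinuousOn (fun p : E × ℝ => F p.1 p.2) (X ×ˢ Set.Icc (0 : ℝ) 1)) :
    C(X × unitInterval, E') where
  toFun p := F p.1 p.2
  continuous_toFun := by
    refine hF.comp_continuous (f := fun p : X × unitInterval => ((p.1 : E), (p.2 : ℝ)))
      ((continuous_subtype_val.comp continuous_fst).prodMk
        (continuous_subtype_val.comp continuous_snd)) (fun p => ⟨p.1.2, p.2.2⟩)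

/-- prism operator of a homotopy `F` which is continuous on `X × [0,1]` -/
def prV (X : Set E) (F : E → ℝ → E')
    (hF : ContinuousOn (fun p : E × ℝ => F p.1 p.2) (X ×ˢ Set.Icc (0 : ℝ) 1)) :
    CE E →ₗ[F2] CE E' :=
  pr (singHtpy (hX X F hF)) ∘ₗ res X

variable {X A : Set E} {F : E → ℝ → E'}
  {hF : ContinuousOn (fun p : E × ℝ => F p.1 p.2) (X ×ˢ Set.Icc (0 : ℝ) 1)}

theorem prV_apply (c : CE E) : prV X F hF c = pr (singHtpy (hX X F hF)) (res X c) := rfl

theorem contAt {r : ℝ} (hr : r ∈ Set.Icc (0 : ℝ) 1)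
    (hF : ContinuousOn (fun p : E × ℝ => F p.1 p.2) (X ×ˢ Set.Icc (0 : ℝ) 1)) :
    ContinuousOn (fun x => F x r) X :=
  hF.comp (f := fun x : E => (x, r)) (by fun_prop) (fun _ hx => ⟨hx, hr⟩)

/-- **the homotopy formula** -/
theorem bd_prV (h0 : ContinuousOn (fun x => F x 0) X) (h1 : ContinuousOn (fun x => F x 1) X) :
    ∀ c ∈ CS X, bdE E' (prV X F hF c) + prV X F hF (bdE E c) =
      push X (fun x => F x 1) h1 c + push X (fun x => F x 0) h0 c := by
  intro c hc
  rw [prV_apply, prV_apply, ← bd_res c hc]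
  refine (bd_pr (singHtpy (hX X F hF)) (res X c)).trans ?_
  have e1 : (singHtpy (hX X F hF)).comp (incl (SS.Sing X) 1) =
      SS.SingMap ⟨X.domRestrict (fun x => F x 1), h1.domRestrict⟩ := by
    refine SS.Hom.ext (funext fun n => funext fun σ => ?_)
    exact singHtpy_one (hX X F hF) _ (fun _ => rfl) σ
  have e0 : (singHtpy (hX X F hF)).comp (incl (SS.Sing X) 0) =
      SS.SingMap ⟨X.domRestrict (fun x => F x 0), h0.domRestrict⟩ := by
    refine SS.Hom.ext (funext fun n => funext fun σ => ?_)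
    exact singHtpy_zero (hX X F hF) _ (fun _ => rfl) σ
  rw [e1, e0]
  rfl

/-- compatibility with restriction to a smaller subset -/
theorem prV_subset {B : Set E} (hB : B ⊆ X)
    {hFB : ContinuousOn (fun p : E × ℝ => F p.1 p.2) (B ×ˢ Set.Icc (0 : ℝ) 1)} :
    ∀ c ∈ CS B, prV X F hF c = prV B F hFB c := by
  refine eq_on_CS fun n σ h => ?_
  have hx : ∀ t, ev σ t ∈ X := fun t => hB (h t)
  rw [prV_apply, prV_apply, res_sx hx, res_sx h]
  have e : N.sx F2 (rs X σ hx) = N.map F2 (SS.SingMap ⟨Set.inclusion hB, continuous_inclusion hB⟩)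
      (N.sx F2 (rs B σ h)) := by
    rw [N.map_sx]; rfl
  rw [e, pr_apply, pr_apply]
  have e2 : cross F2 (N.map F2 (SS.SingMap ⟨Set.inclusion hB, continuous_inclusion hB⟩)
      (N.sx F2 (rs B σ h))) (N.sx F2 (iota 1)) =
      N.map F2 (SS.prodMap (SS.SingMap ⟨Set.inclusion hB, continuous_inclusion hB⟩)
        (SS.Hom.id (SS.std 1))) (cross F2 (N.sx F2 (rs B σ h)) (N.sx F2 (iota 1))) := by
    rw [map_cross, EZ271.map_idHom]
  rw [e2, map_map]
  rfl

theorem ev_singHtpy {Y : Type} [TopologicalSpace Y] (H : C(Y × unitInterval, E')) {n : ℕ}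
    (p : ((SS.Sing Y).prod (SS.std 1)).S n) (t : stdSimplex ℝ (Fin (n + 1))) :
    ev ((singHtpy H).app n p) t = H (ev p.1 t, bar p.2 t) := rfl

theorem prV_mem_self {Y' : Set E'} (h : ∀ x ∈ X, ∀ r ∈ Set.Icc (0 : ℝ) 1, F x r ∈ Y') (c : CE E) :
    prV X F hF c ∈ CS Y' := by
  rw [prV_apply, pr_apply]
  refine map_mem_CS _ (fun n p t => ?_) _
  rw [ev_singHtpy]
  exact h _ (ev p.1 t).2 _ (bar p.2 t).2

/-- supports -/
theorem prV_mem {Y' : Set E'} (h : ∀ x ∈ A ∩ X, ∀ r ∈ Set.Icc (0 : ℝ) 1, F x r ∈ Y') :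
    ∀ c ∈ CS A, prV X F hF c ∈ CS Y' := by
  refine map_mem_of_CS fun n σ hσ => ?_
  by_cases hx : ∀ t, ev σ t ∈ X
  · have hB : ContinuousOn (fun p : E × ℝ => F p.1 p.2) ((A ∩ X) ×ˢ Set.Icc (0 : ℝ) 1) :=
      hF.mono (Set.prod_mono Set.inter_subset_right le_rfl)
    rw [prV_subset (B := A ∩ X) (hFB := hB) Set.inter_subset_right _
      (sx_mem_CS fun t => ⟨hσ t, hx t⟩)]
    exact prV_mem_self h _
  · rw [prV_apply, res_sx_neg hx, map_zero]; exact Submodule.zero_mem _

theorem gr_le {K : SS} {n : ℕ} {P : Submodule F2 (N F2 K)} (h : ∀ x : K.S n, N.sx F2 x ∈ P) :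
    N.gr F2 K n ≤ P := by
  rw [N.gr, Submodule.map_le_iff_le_comap, Ch.gr, Submodule.span_le]
  rintro _ ⟨x, rfl⟩
  exact h x

theorem res_mem_gr {n : ℕ} {c : CE E} (hc : c ∈ N.gr F2 (SS.Sing E) n) :
    res X c ∈ N.gr F2 (SS.Sing X) n := by
  have h : N.gr F2 (SS.Sing E) n ≤ (N.gr F2 (SS.Sing X) n).comap (res X) := gr_le fun σ => by
    rw [Submodule.mem_comap]
    by_cases hx : ∀ t, ev σ t ∈ X
    · rw [res_sx hx]; exact TActx569.TAct.sx_mem_gr _
    · rw [res_sx_neg hx]; exact Submodule.zero_mem _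
  exact h hc

theorem prV_mem_gr {n : ℕ} {c : CE E} (hc : c ∈ N.gr F2 (SS.Sing E) n) :
    prV X F hF c ∈ N.gr F2 (SS.Sing E') (n + 1) := pr_mem_gr _ (res_mem_gr hc)

/-! ### equivariance -/

/-- the simplicial action `A` is given pointwise by `act` -/
def PtAct (A : TAct (SS.Sing E)) (act : UnitAddCircle → E → E) : Prop :=
  ∀ (n : ℕ) (s : ST.S n) (σ : (SS.Sing E).S n) (t : stdSimplex ℝ (Fin (n + 1))),
    ev (A.a.app n (s, σ)) t = act (ev s t) (ev σ t)

variable {T : TAct (SS.Sing E)} {T' : TAct (SS.Sing E')} {act : UnitAddCircle → E → E}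
  {act' : UnitAddCircle → E' → E'}

/-- the action on the simplices of an invariant subset -/
def actX (hT : PtAct T act) (hX : ∀ v, ∀ x ∈ X, act v x ∈ X) :
    SS.Hom (ST.prod (SS.Sing X)) (SS.Sing X) where
  app n p := rs X (T.a.app n (p.1, (SS.SingMap (SpecA.inc X)).app n p.2)) (fun t => by
    rw [hT]; exact hX _ _ (ev p.2 t).2)
  nat f p := by
    refine sing_ext fun t => Subtype.ext ?_
    have h := T.a.nat f (p.1, (SS.SingMap (SpecA.inc X)).app _ p.2)
    exact congrArg (fun σ => ev σ t) h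

theorem inc_actX (hT : PtAct T act) (hX : ∀ v, ∀ x ∈ X, act v x ∈ X) :
    EqM (actX hT hX) T.a (SS.SingMap (SpecA.inc X)) := fun _ _ _ => rfl

theorem op_map_inc (hT : PtAct T act) (hX : ∀ v, ∀ x ∈ X, act v x ∈ X) (c : N F2 ST) (z : CE X) :
    T.op c (N.map F2 (SS.SingMap (SpecA.inc X)) z) =
      N.map F2 (SS.SingMap (SpecA.inc X)) (opc (actX hT hX) c z) :=
  (map_opc (inc_actX hT hX) c z).symm

/-- chains of an invariant subset are stable under the operators -/
theorem op_mem_CS (hT : PtAct T act) (hX : ∀ v, ∀ x ∈ X, act v x ∈ X) (c : N F2 ST) :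
    ∀ z ∈ CS X, T.op c z ∈ CS X := by
  intro z hz
  rw [← map_inc_res z hz, op_map_inc hT hX, CS_eq_range]
  exact ⟨_, rfl⟩

theorem res_op (hT : PtAct T act) (hX : ∀ v, ∀ x ∈ X, act v x ∈ X) (c : N F2 ST) :
    ∀ z ∈ CS X, res X (T.op c z) = opc (actX hT hX) c (res X z) := by
  intro z hz
  conv_lhs => rw [← map_inc_res z hz]
  rw [op_map_inc hT hX, res_map_inc]

/-- **the prism operator of an equivariant homotopy commutes with all operators** -/
theorem prV_op (hT : PtAct T act) (hT' : PtAct T' act') (hX : ∀ v, ∀ x ∈ X, act v x ∈ X)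
    (hE : ∀ v, ∀ x ∈ X, ∀ r ∈ Set.Icc (0 : ℝ) 1, F (act v x) r = act' v (F x r)) (c : N F2 ST) :
    ∀ z ∈ CS X, prV X F hF (T.op c z) = T'.op c (prV X F hF z) := by
  intro z hz
  rw [prV_apply, prV_apply, res_op hT hX c z hz]
  refine pr_opc (fun n s x e => ?_) c (res X z)
  refine sing_ext fun t => ?_
  refine Eq.trans ?_ (hT' n s ((singHtpy (Eqvx937.hX X F hF)).app n (x, e)) t).symm
  change F (ev (T.a.app n (s, _)) t) _ = _
  rw [hT]
  exact hE _ _ (ev x t).2 _ (bar e t).2

variable {f : E → E'} {hf : ContinuousOn f X}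

/-- the chain map of an equivariant map commutes with all operators -/
theorem push_op (hT : PtAct T act) (hT' : PtAct T' act') (hX : ∀ v, ∀ x ∈ X, act v x ∈ X)
    (hE : ∀ v, ∀ x ∈ X, f (act v x) = act' v (f x)) (c : N F2 ST) :
    ∀ z ∈ CS X, push X f hf (T.op c z) = T'.op c (push X f hf z) := by
  intro z hz
  rw [push, LinearMap.comp_apply, LinearMap.comp_apply, res_op hT hX c z hz]
  refine map_opc (fun n s x => ?_) c (res X z)
  refine sing_ext fun t => ?_
  rw [hT']
  change f (ev (T.a.app n (s, _)) t) = _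
  rw [hT]
  exact hE _ _ (ev x t).2

end top

end Crest.Agent.R231.Eqvx937
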