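import Crest.Agent.R231.GSmith_651
import Crest.Agent.R231.IfA_978
import Crest.Agent.R231.Pair_877

/-!
# Row 231, block G: LITERAL INTERFACE (helper651)

All statements are over the loop model of `GLug_576` / `GLoop_576`:
`Lp M = C(UnitAddCircle, M)`, `X M t` = `t`-Lipschitz loops, `IsCrit M s`, `rot`, `rev`, `dbl`.
`M : Type` is a compact metric space with short geodesics `D : LUG M`; for the theorem
`M = SG g` (`GeoBase_724`) and `D` = the `LUG` of `GeoSeg_724` / `GeoLine_724`.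

OWNERS: `G2` = 576, `G3` = 449, `G4` = 943 (factorisation) + 315 (finite rank, `fin`, `bdd`),
`G5` = 651 (`GSmith_651.exists_homotopy`) with `SegLipM` for `SG g` = 67, `G6` = 724,
`noncrit` field from `Push` = 651.
-/

set_option autoImplicit false

open Set

namespace Crest.Agent.R231.IfGx651

open GLugx576 Pairx877

section defs

variable (M : Type) [MetricSpace M]

/-- A homotopy `F : X b × [0,1] → X b` starting at the identity which preserves all levels `X t`,
`t ≤ b` (so it does not increase the Lipschitz constant). -/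
structure IsDef (b : ℝ) (F : Lp M → ℝ → Lp M) : Prop where
  cont : ContinuousOn (fun p : Lp M × ℝ => F p.1 p.2) (X M b ×ˢ Icc (0 : ℝ) 1)
  zero : ∀ γ ∈ X M b, F γ 0 = γ
  level : ∀ t ≤ b, ∀ γ ∈ X M t, ∀ r ∈ Icc (0 : ℝ) 1, F γ r ∈ X M t

/-- `X b` can be deformed into `X a` -/
def Push (a b : ℝ) : Prop := ∃ F : Lp M → ℝ → Lp M, IsDef M b F ∧ ∀ γ ∈ X M b, F γ 1 ∈ X M a

/-- **(G2)** no critical level in `[a, b]`: `X b` is deformed into `X a` (also for `a = 0`). -/
def G2 : Prop :=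
  ∀ a b : ℝ, 0 ≤ a → a ≤ b → (∀ s, IsCrit M s → ¬ (a ≤ s ∧ s ≤ b)) → Push M a b

/-- **(G3)** crossing the level `s` (nested form).  `s` is the only critical level in `[s-e, s+e]`.
For every rotation invariant open `O` containing the critical loops of level `s` and every `m` there
are rotation invariant open sets `O ⊇ U 0 ⊇ … ⊇ U m`, all containing the critical loops of
level `s`, and for all small `ε` a deformation of `X (s+ε)`, equivariant under the half rotation,
which ends in `X (s-ε) ∪ U m` and maps `U (k+1)` into `U k ∪ X (s-ε)` at all times. -/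
def G3 (s e : ℝ) : Prop :=
  ∀ (m : ℕ) (O : Set (Lp M)), IsOpen O → (∀ a, ∀ γ ∈ O, rot a γ ∈ O) → (∀ γ, IsGeo s γ → γ ∈ O) →
    ∃ (U : ℕ → Set (Lp M)) (ε₀ : ℝ), 0 < ε₀ ∧ ε₀ ≤ e ∧ U 0 ⊆ O ∧
      (∀ k, IsOpen (U k)) ∧ (∀ k a, ∀ γ ∈ U k, rot a γ ∈ U k) ∧
      (∀ k γ, IsGeo s γ → γ ∈ U k) ∧ (∀ k, U (k + 1) ⊆ U k) ∧
      ∀ ε, 0 < ε → ε < ε₀ → ∃ F : Lp M → ℝ → Lp M, IsDef M (s + ε) F ∧
        (∀ γ ∈ X M (s + ε), F γ 1 ∈ X M (s - ε) ∪ U m) ∧
        (∀ k < m, ∀ γ ∈ X M (s + ε) ∩ U (k + 1), ∀ r ∈ Icc (0 : ℝ) 1,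
          F γ r ∈ U k ∪ X M (s - ε)) ∧
        (∀ γ ∈ X M (s + ε), ∀ r ∈ Icc (0 : ℝ) 1,
          F (rot GSmithx651.hf γ) r = rot GSmithx651.hf (F γ r))

end defs

section homology

open Crest.Agent.R204

variable (M : Type) [MetricSpace M]

/-- **(noncrit)** in the language of `Pair_877`: the pair `(X b, X a)` is acyclic -/
def NonCrit (a b : ℝ) : Prop := Zp (X M b) (X M a) ≤ Bp (X M b) (X M a)

/-- **(G4)** finite rank: for `a < b` the image of `H (X a, X 0) → H (X b, X 0)` (total homology) is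
finite dimensional; "the relative cycles of `(X a, X 0)` modulo those which are relative boundaries in
`(X b, X 0)`". -/
def G4 (a b : ℝ) : Prop :=
  ∃ S : Finset (CE (Lp M)), (∀ z ∈ S, z ∈ Zp (X M a) (X M 0)) ∧
    Zp (X M a) (X M 0) ≤ Bp (X M b) (X M 0) ⊔ Submodule.span F2 (S : Set (CE (Lp M)))

end homology

/-!
For the Smith neighbourhood see `GSmithx651.exists_homotopyM` / `exists_homotopyF`; the only
Riemannian input is `GSmithx651.SegLipM D` (implied by `LUG.SegLip`).
-/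

end Crest.Agent.R231.IfGx651
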