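import Crest.Agent.R231.GFin_315
import Crest.Agent.R231.InstA_895
import Crest.Agent.R231.If_G_651

/-!
# Row 231 (S0357), block G: the fields `fin` and `bdd` of `IfAx978.Base` (helper315)

For 895's concrete mixed complex `mix M`, `FF M t`:
* `rd_ne_top_of_frk`, `bdd_of_frk` : graded statements from `Frk`
* `Zp_le_Bp_of_graded` : total version of a graded statement
* `fin_bdd` : `Frk (X t') (X 0) (X t) (X 0)` and `H(X t, X t') = 0` give both fields at the level `t`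
-/

set_option autoImplicit false
set_option linter.unusedSectionVars false

noncomputable section

open Function Topology

namespace Crest.Agent.R231.GFinBx315

open Crest.Agent.R204
open Pairx877 GLugx576 IfAx978 Gr334 GFinx315 FinDim315 Instx895

variable {M : Type} [MetricSpace M]

theorem rd_ne_top_of_frk {X A X' A' : Set (Lp M)} {t : ℝ} (hX : X' ⊆ GLugx576.X M t)
    (h : Frk X A X' A') (j : ℕ) :
    rd (Bd (gs (CS A')) (gs (CS X')) j) (Zc (gs (CS A)) (gs (CS X)) j) ≠ ⊤ := by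
  obtain ⟨S, hS, h⟩ := h
  let φ : Zc (gs (CS A)) (gs (CS X)) j →ₗ[ZMod 2] (CE (Lp M) ⧸ Bp X' A') :=
    (Bp X' A').mkQ ∘ₗ vl j ∘ₗ (Zc (gs (CS A)) (gs (CS X)) j).subtype
  have hφ : LinearMap.range φ ≤ S.map (Bp X' A').mkQ := by
    rintro _ ⟨x, rfl⟩
    obtain ⟨b, hb, s, hs, hbs⟩ := Submodule.mem_sup.1 (h (mem_Zc_CS.1 x.2))
    refine ⟨s, hs, ?_⟩
    show (Bp X' A').mkQ s = (Bp X' A').mkQ (vl j x.1)
    rw [← hbs, map_add, show (Bp X' A').mkQ b = 0 from (Submodule.Quotient.mk_eq_zero _).2 hb,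
      zero_add]
  have hker : LinearMap.ker φ = (Bd (gs (CS A')) (gs (CS X')) j).submoduleOf
      (Zc (gs (CS A)) (gs (CS X)) j) := by
    ext x
    rw [LinearMap.mem_ker, Submodule.submoduleOf, Submodule.mem_comap, Submodule.subtype_apply, mem_Bd_CS hX]
    exact Submodule.Quotient.mk_eq_zero _
  have h6 : Module.Finite F2 (S.map (Bp X' A').mkQ) := ⟨(Submodule.fg_top _).2 (hS.map _)⟩
  have h7 : Module.Finite F2 (LinearMap.range φ) :=
    Module.Finite.of_injective (Submodule.inclusion hφ) (Submodule.inclusion_injective hφ)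
  have h8 : Module.Finite F2 (Zc (gs (CS A)) (gs (CS X)) j ⧸ LinearMap.ker φ) :=
    Module.Finite.equiv φ.quotKerEquivRange.symm
  unfold rd
  rw [← hker]
  rw [Module.length_ne_top_iff]
  exact isFiniteLength_iff_isNoetherian_isArtinian.2 ⟨inferInstance, inferInstance⟩

/-- chains of a finite dimensional space have bounded degree -/
theorem exists_prN_eq_zero {S : Submodule F2 (CE (Lp M))} (hS : S.FG) :
    ∃ N : ℕ, ∀ j, N ≤ j → ∀ s ∈ S, prN F2 (SS.Sing (Lp M)) j s = 0 := by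
  obtain ⟨T, rfl⟩ := hS
  choose D hD _ using fun c : CE (Lp M) => exists_sum_prN (R := F2) (K := SS.Sing (Lp M)) c
  refine ⟨T.sup D, fun j hj s hs => ?_⟩
  have h1 : Submodule.span F2 (T : Set (CE (Lp M))) ≤ LinearMap.ker (prN F2 (SS.Sing (Lp M)) j) := by
    refine Submodule.span_le.2 fun c hc => ?_
    exact hD c j ((Finset.le_sup hc).trans hj)
  exact h1 hs

theorem bdd_of_frk {X A X' A' : Set (Lp M)} {t : ℝ} (hX : X' ⊆ GLugx576.X M t)
    (h : Frk X A X' A') : ∃ N : ℕ, ∀ j, N ≤ j →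
      Zc (gs (CS A)) (gs (CS X)) j ≤ Bd (gs (CS A')) (gs (CS X')) j := by
  obtain ⟨S, hS, h⟩ := h
  obtain ⟨N, hN⟩ := exists_prN_eq_zero hS
  refine ⟨N, fun j hj x hx => ?_⟩
  rw [mem_Bd_CS hX]
  obtain ⟨b, hb, s, hs, hbs⟩ := Submodule.mem_sup.1 (h (mem_Zc_CS.1 hx))
  have h1 : vl j x = prN F2 (SS.Sing (Lp M)) j b := by
    rw [← prN_of_mem (vl_mem_gr x), ← hbs, map_add, hN j hj s hs, add_zero]
  rw [h1]
  exact homog_Bp _ _ j b hb

/-- the total version of a graded statement -/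
theorem Zp_le_Bp_of_graded {X A X' A' : Set (Lp M)} {t t' : ℝ} (hX : X ⊆ GLugx576.X M t)
    (hX' : X' ⊆ GLugx576.X M t')
    (h : ∀ j, Zc (gs (CS A)) (gs (CS X)) j ≤ Bd (gs (CS A')) (gs (CS X')) j) :
    Zp X A ≤ Bp X' A' := by
  intro z hz
  obtain ⟨N, -, hN⟩ := exists_sum_prN (R := F2) (K := SS.Sing (Lp M)) z
  rw [hN]
  refine Submodule.sum_mem _ fun j _ => ?_
  have h1 : prN F2 (SS.Sing (Lp M)) j z ∈ Zp X A := homog_Zp _ _ j z hz
  have h3 : mk _ (prN_mem j z) (CS_le_CL' hX h1.1) ∈ Zc (gs (CS A)) (gs (CS X)) j :=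
    mem_Zc_CS.2 h1
  exact (mem_Bd_CS hX').1 (h j h3)

/-- the graded version of a total statement -/
theorem graded_of_Zp_le_Bp {X A X' A' : Set (Lp M)} {t' : ℝ} (hX' : X' ⊆ GLugx576.X M t')
    (h : Zp X A ≤ Bp X' A') (j : ℕ) :
    Zc (gs (CS A)) (gs (CS X)) j ≤ Bd (gs (CS A')) (gs (CS X')) j := fun _ hx =>
  (mem_Bd_CS hX').2 (h (mem_Zc_CS.1 hx))

/-- **the fields `fin` and `bdd`** at one level -/
theorem fin_bdd_at {t' t : ℝ} (h0 : 0 ≤ t')
    (hfr : Frk (GLugx576.X M t') (GLugx576.X M 0) (GLugx576.X M t) (GLugx576.X M 0))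
    (hnc : ∀ j, Zc (FF M t') (FF M t) j ≤ Bd (FF M t') (FF M t) j) :
    (∀ j, rd (Bd (FF M 0) (FF M t) j) (Zc (FF M 0) (FF M t) j) ≠ ⊤) ∧
      ∃ N : ℕ, ∀ j, N ≤ j → Zc (FF M 0) (FF M t) j ≤ Bd (FF M 0) (FF M t) j := by
  have h1 : Zp (GLugx576.X M t) (GLugx576.X M t') ≤ Bp (GLugx576.X M t) (GLugx576.X M t') :=
    Zp_le_Bp_of_graded subset_rfl subset_rfl hnc
  have h2 : Frk (GLugx576.X M t) (GLugx576.X M 0) (GLugx576.X M t) (GLugx576.X M 0) :=
    frk_of_acyclic (X_mono h0) h1 hfr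
  exact ⟨fun j => rd_ne_top_of_frk subset_rfl h2 j, bdd_of_frk subset_rfl h2⟩

/-- **the fields `fin` and `bdd`** of `IfAx978.Base` -/
theorem fin_bdd {Crit : Set ℝ} (hfin : ∀ T : ℝ, (Crit ∩ Set.Iic T).Finite)
    (hfr : ∀ t' t : ℝ, 0 ≤ t' → t' < t →
      Frk (GLugx576.X M t') (GLugx576.X M 0) (GLugx576.X M t) (GLugx576.X M 0))
    (hnc : ∀ a b : ℝ, 0 ≤ a → a ≤ b → (∀ s ∈ Crit, ¬ (a ≤ s ∧ s ≤ b)) →
      ∀ j, Zc (FF M a) (FF M b) j ≤ Bd (FF M a) (FF M b) j) (t : ℝ) (ht : 0 ≤ t)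
    (htc : t ∉ Crit) :
    (∀ j, rd (Bd (FF M 0) (FF M t) j) (Zc (FF M 0) (FF M t) j) ≠ ⊤) ∧
      ∃ N : ℕ, ∀ j, N ≤ j → Zc (FF M 0) (FF M t) j ≤ Bd (FF M 0) (FF M t) j := by
  rcases ht.eq_or_lt with h | h
  · subst h
    have h1 : ∀ j, Zc (FF M 0) (FF M 0) j ≤ Bd (FF M 0) (FF M 0) j := fun j x hx => by
      refine Submodule.mem_sup_right ?_
      exact (mem_Zc_CS.1 hx).1
    refine ⟨fun j => ?_, 0, fun j _ => h1 j⟩
    unfold rd
    have h2 : (Bd (FF M 0) (FF M 0) j).submoduleOf (Zc (FF M 0) (FF M 0) j) = ⊤ := by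
      rw [Submodule.submoduleOf_eq_top]
      exact h1 j
    rw [h2]
    have h3 : Module.length (ZMod 2) (↥(Zc (FF M 0) (FF M 0) j) ⧸
      (⊤ : Submodule (ZMod 2) ↥(Zc (FF M 0) (FF M 0) j))) = 0 := by
      rw [Module.length_eq_zero_iff]
      infer_instance
    rw [h3]
    exact ENat.zero_ne_top
  · -- a level `t' < t` without critical levels in `[t', t]`
    obtain ⟨t', h0, h1, h2⟩ : ∃ t' : ℝ, 0 ≤ t' ∧ t' < t ∧ ∀ s ∈ Crit, ¬ (t' ≤ s ∧ s ≤ t) := by
      have hc : IsClosed (Crit ∩ Set.Iic t) := (hfin t).isClosed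
      have ho : (Crit ∩ Set.Iic t)ᶜ ∈ 𝓝 t := hc.isOpen_compl.mem_nhds fun h => htc h.1
      obtain ⟨ε, hε, hb⟩ := Metric.mem_nhds_iff.1 ho
      refine ⟨max 0 (t - ε / 2), le_max_left _ _, max_lt h (by linarith), fun s hs hst => ?_⟩
      have hmem : s ∈ Metric.ball t ε := ?_
      · exact hb hmem ⟨hs, hst.2⟩
      rw [Metric.mem_ball, Real.dist_eq, abs_sub_comm, abs_of_nonneg (by linarith [hst.2])]
      have := (le_max_right 0 (t - ε / 2)).trans hst.1
      linarith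
    exact fin_bdd_at h0 (hfr t' t h0 h1) (hnc t' t h0 h1.le h2)

/-! ### the form of `If_G_651` -/

section general

variable {E : Type} [TopologicalSpace E]

/-- the finite dimensional complement can be chosen inside the relative cycles -/
theorem exists_finset_of_frk {X A X' A' : Set E} (h : Frk X A X' A') :
    ∃ S : Finset (CE E), (∀ z ∈ S, z ∈ Zp X A) ∧
      Zp X A ≤ Bp X' A' ⊔ Submodule.span F2 (S : Set (CE E)) := by
  obtain ⟨S, hS, h⟩ := h
  let ψ : Zp X A →ₗ[F2] (CE E ⧸ Bp X' A') := (Bp X' A').mkQ ∘ₗ (Zp X A).subtype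
  have hψ : LinearMap.range ψ ≤ S.map (Bp X' A').mkQ := by
    rintro _ ⟨c, rfl⟩
    obtain ⟨b, hb, s, hs, hbs⟩ := Submodule.mem_sup.1 (h c.2)
    refine ⟨s, hs, ?_⟩
    show (Bp X' A').mkQ s = (Bp X' A').mkQ c.1
    rw [← hbs, map_add, show (Bp X' A').mkQ b = 0 from (Submodule.Quotient.mk_eq_zero _).2 hb,
      zero_add]
  have hfg : (LinearMap.range ψ).FG := by
    have h5 : (S.map (Bp X' A').mkQ).FG := hS.map _
    have h6 : Module.Finite F2 (S.map (Bp X' A').mkQ) := ⟨(Submodule.fg_top _).2 h5⟩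
    have h7 : Module.Finite F2 (LinearMap.range ψ) :=
      Module.Finite.of_injective (Submodule.inclusion hψ) (Submodule.inclusion_injective hψ)
    exact (Submodule.fg_top _).1 h7.1
  obtain ⟨n, g, hg⟩ := Submodule.fg_iff_exists_fin_generating_family.1 hfg
  have hgm : ∀ i, g i ∈ LinearMap.range ψ := fun i => by
    rw [← hg]; exact Submodule.subset_span ⟨i, rfl⟩
  choose z hz using hgm
  classical
  refine ⟨Finset.univ.image fun i => (z i : CE E), fun w hw => ?_, fun c hc => ?_⟩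
  · obtain ⟨i, -, rfl⟩ := Finset.mem_image.1 hw
    exact (z i).2
  · have h8 : ψ ⟨c, hc⟩ ∈ LinearMap.range ψ := ⟨_, rfl⟩
    rw [← hg, Submodule.mem_span_range_iff_exists_fun] at h8
    obtain ⟨a, ha⟩ := h8
    have h9 : ψ (∑ i, a i • z i) = ψ ⟨c, hc⟩ := by
      rw [← ha, map_sum]
      exact Finset.sum_congr rfl fun i _ => by rw [map_smul, hz]
    have h10 : ψ (⟨c, hc⟩ - ∑ i, a i • z i) = 0 := by rw [map_sub, h9, sub_self]
    have h11 : c - ((∑ i, a i • z i : Zp X A) : CE E) ∈ Bp X' A' :=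
      (Submodule.Quotient.mk_eq_zero _).1 h10
    have h12 : c = (c - ((∑ i, a i • z i : Zp X A) : CE E)) +
        ((∑ i, a i • z i : Zp X A) : CE E) := by abel
    rw [h12]
    refine Submodule.add_mem_sup h11 ?_
    rw [AddSubmonoidClass.coe_finsetSum]
    exact Submodule.sum_mem _ fun i _ => Submodule.smul_mem _ _ (Submodule.subset_span
      (Finset.mem_coe.2 (Finset.mem_image_of_mem _ (Finset.mem_univ i))))

theorem frk_of_finset {X A X' A' : Set E} {S : Finset (CE E)}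
    (h : Zp X A ≤ Bp X' A' ⊔ Submodule.span F2 (S : Set (CE E))) : Frk X A X' A' :=
  ⟨_, Submodule.fg_span S.finite_toSet, h⟩

/-- a space with finite dimensional homology -/
theorem frk_of_finite {X : Set E} (h : Module.Finite F2 (HS X)) : Frk X ∅ X ∅ :=
  frk_of_finRk subset_rfl (FinRk.of_finite_left _ h)

end general

/-- a compact retract of an open subset of a normed space has finite dimensional homology -/
theorem finite_of_retract {V Y : Type} [NormedAddCommGroup V] [NormedSpace ℝ V]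
    [TopologicalSpace Y] [CompactSpace Y] {O : Set V} (hO : IsOpen O) (i : C(Y, O)) (r : C(O, Y))
    (h : ∀ y, r (i y) = y) : Module.Finite F2 (HS Y) := by
  have hK : IsCompact (Set.range fun y => (i y : V)) := isCompact_range (by fun_prop)
  have hKO : (Set.range fun y => (i y : V)) ⊆ O := by
    rintro _ ⟨y, rfl⟩
    exact (i y).2
  have e : ContinuousMap.id Y = r.comp i := by
    ext y; exact (h y).symm
  refine finite_of_factor hK hO hKO i (fun y => ⟨y, rfl⟩) r (ContinuousMap.id Y) ?_ ?_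
  · rw [e]
  · intro x y hxy
    rwa [Hm_id, Hm_id] at hxy

/-- constant loops -/
def X0equiv (M : Type) [MetricSpace M] : GLugx576.X M 0 ≃ₜ M where
  toFun γ := γ.1 0
  invFun p := ⟨ContinuousMap.const _ p, const_mem le_rfl p⟩
  left_inv γ := by
    apply Subtype.ext
    ext x
    exact (mem_X_zero.1 γ.2 x).symm
  right_inv p := rfl
  continuous_toFun := by fun_prop
  continuous_invFun := by
    refine Continuous.subtype_mk ?_ _
    exact ContinuousMap.continuous_const'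

theorem frk_X0 (h : Module.Finite F2 (HS M)) :
    Frk (GLugx576.X M 0) ∅ (GLugx576.X M 0) ∅ :=
  frk_of_finite (finite_of_homeo (X0equiv M).symm h)

/-- **(G4)** from the absolute finite rank -/
theorem frk_X {a b : ℝ} (ha : 0 ≤ a) (hab : a ≤ b) (h0 : Module.Finite F2 (HS M))
    (h : FinRk (SpecA.Hm (incl (X_mono (M := M) hab)))) :
    Frk (GLugx576.X M a) (GLugx576.X M 0) (GLugx576.X M b) (GLugx576.X M 0) :=
  frk_pair (frk_X0 h0) (frk_of_finRk _ h) subset_rfl (X_mono ha) subset_rfl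

/-- the literal statement of `If_G_651` -/
theorem G4_iff {a b : ℝ} : IfGx651.G4 M a b ↔
    Frk (GLugx576.X M a) (GLugx576.X M 0) (GLugx576.X M b) (GLugx576.X M 0) :=
  ⟨fun ⟨_, _, h⟩ => frk_of_finset h, fun h => exists_finset_of_frk h⟩

/-- **the fields `fin` and `bdd`** of `IfAx978.Base` from the literal `G4` of `If_G_651` and the field
`noncrit` -/
theorem fin_bdd_of_G4 {Crit : Set ℝ} (hfin : ∀ T : ℝ, (Crit ∩ Set.Iic T).Finite)
    (h4 : ∀ a b : ℝ, 0 ≤ a → a < b → IfGx651.G4 M a b)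
    (hnc : ∀ a b : ℝ, 0 ≤ a → a ≤ b → (∀ s ∈ Crit, ¬ (a ≤ s ∧ s ≤ b)) →
      ∀ j, Zc (FF M a) (FF M b) j ≤ Bd (FF M a) (FF M b) j) (t : ℝ) (ht : 0 ≤ t)
    (htc : t ∉ Crit) :
    (∀ j, rd (Bd (FF M 0) (FF M t) j) (Zc (FF M 0) (FF M t) j) ≠ ⊤) ∧
      ∃ N : ℕ, ∀ j, N ≤ j → Zc (FF M 0) (FF M t) j ≤ Bd (FF M 0) (FF M t) j :=
  fin_bdd hfin (fun a b ha hab => G4_iff.1 (h4 a b ha hab)) hnc t ht htc

/-- the field `noncrit` from `NonCrit` of `If_G_651` -/
theorem noncrit_of {a b : ℝ} (h : IfGx651.NonCrit M a b) (j : ℕ) :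
    Zc (FF M a) (FF M b) j ≤ Bd (FF M a) (FF M b) j :=
  graded_of_Zp_le_Bp subset_rfl h j

end Crest.Agent.R231.GFinBx315
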