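import Crest.Agent.R231.GBirk_576

/-!
# Row 231 (S0357), block G: levels without closed geodesics (helper576)

* `B_mem_of_nodes` : the Lipschitz constant of `B L N 1 γ` is read off on the nodes `k/2N`
* `exists_delta` : near a level without closed geodesics the Birkhoff map decreases the level
* `exists_levDef` : **if no level in `[a,b]` (resp. `(0,b]` for `a = 0`) is critical, there is a
  homotopy of `X b`, preserving every `X t`, from the identity to a map into `X a`**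
-/

set_option autoImplicit false
set_option linter.unusedSectionVars false

open Set Filter Topology

namespace Crest.Agent.R231.GLugx576

variable {M : Type*} [MetricSpace M] (L : LUG M)

/-- constant speed on the `k`-th interval of the grid -/
def PL (N : ℕ) (γ : Lp M) (k : ℕ) : Prop :=
  ∀ x ∈ Icc ((k : ℝ) / (2 * N)) (((k + 1 : ℕ) : ℝ) / (2 * N)),
    ∀ y ∈ Icc ((k : ℝ) / (2 * N)) (((k + 1 : ℕ) : ℝ) / (2 * N)),
      dist (γ (x : UnitAddCircle)) (γ (y : UnitAddCircle)) = 2 * N * |x - y| *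
        dist (γ (((k : ℝ) / (2 * N) : ℝ) : UnitAddCircle))
          (γ ((((k + 1 : ℕ) : ℝ) / (2 * N) : ℝ) : UnitAddCircle))

section

variable [CompactSpace M] {N : ℕ} {T s t : ℝ} {γ : Lp M}

theorem grid_len (hN : 0 < N) : (1 : ℝ) / N = 1 / (2 * N) + 1 / (2 * N) := by
  have hNr : (0 : ℝ) < N := by exact_mod_cast hN
  field_simp; norm_num

theorem grid_succ (k : ℕ) : ((k + 1 : ℕ) : ℝ) / (2 * N) = (k : ℝ) / (2 * N) + 1 / (2 * N) := by
  push_cast; ring

/-- `repA` at a grid arc, on a grid interval inside the arc -/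
theorem PL_in (hN : 0 < N) {j k : ℕ} (hd : ((1 : ℝ) / N, rot (((j : ℝ) / (2 * N) : ℝ) :
    UnitAddCircle) γ) ∈ RepDom L) (n : ℤ)
    (h1 : (j : ℝ) / (2 * N) ≤ (k : ℝ) / (2 * N) - n)
    (h2 : ((k + 1 : ℕ) : ℝ) / (2 * N) - n ≤ (j : ℝ) / (2 * N) + 1 / N) :
    PL N (repA L ((j : ℝ) / (2 * N)) (1 / N) γ) k := by
  have hNr : (0 : ℝ) < N := by exact_mod_cast hN
  have key : ∀ x ∈ Icc ((k : ℝ) / (2 * N)) (((k + 1 : ℕ) : ℝ) / (2 * N)),
      ∀ y ∈ Icc ((k : ℝ) / (2 * N)) (((k + 1 : ℕ) : ℝ) / (2 * N)),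
      dist (repA L ((j : ℝ) / (2 * N)) (1 / N) γ (x : UnitAddCircle))
        (repA L ((j : ℝ) / (2 * N)) (1 / N) γ (y : UnitAddCircle)) = N * |x - y| *
        dist (γ (((j : ℝ) / (2 * N) : ℝ) : UnitAddCircle))
          (γ (((j : ℝ) / (2 * N) + 1 / N : ℝ) : UnitAddCircle)) := by
    intro x hx y hy
    rw [← coe_sub_int x n, ← coe_sub_int y n,
      repA_dist L hd ⟨by linarith [hx.1], by linarith [hx.2]⟩
        ⟨by linarith [hy.1], by linarith [hy.2]⟩]
    congr 1
    rw [← sub_div, abs_div, abs_of_pos (by positivity : (0 : ℝ) < 1 / N)]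
    have e : x - n - (j : ℝ) / (2 * N) - (y - n - (j : ℝ) / (2 * N)) = x - y := by ring
    rw [e]; field_simp
  intro x hx y hy
  have hk : (k : ℝ) / (2 * N) ≤ ((k + 1 : ℕ) : ℝ) / (2 * N) := by
    rw [grid_succ]; have : (0 : ℝ) ≤ 1 / (2 * N) := by positivity
    linarith
  rw [key x hx y hy, key _ ⟨le_rfl, hk⟩ _ ⟨hk, le_rfl⟩]
  have e : |(k : ℝ) / (2 * N) - ((k + 1 : ℕ) : ℝ) / (2 * N)| = 1 / (2 * N) := by
    rw [grid_succ, abs_sub_comm, add_sub_cancel_left, abs_of_nonneg (by positivity)]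
  rw [e]; field_simp

/-- `repA` at a grid arc, on a grid interval outside the arc -/
theorem PL_out (hN : 0 < N) {j k : ℕ} (hd : ((1 : ℝ) / N, rot (((j : ℝ) / (2 * N) : ℝ) :
    UnitAddCircle) γ) ∈ RepDom L) (n : ℤ)
    (h1 : (j : ℝ) / (2 * N) + 1 / N ≤ (k : ℝ) / (2 * N) - n)
    (h2 : ((k + 1 : ℕ) : ℝ) / (2 * N) - n ≤ (j : ℝ) / (2 * N) + 1) (hPL : PL N γ k) :
    PL N (repA L ((j : ℝ) / (2 * N)) (1 / N) γ) k := by
  have key : ∀ x ∈ Icc ((k : ℝ) / (2 * N)) (((k + 1 : ℕ) : ℝ) / (2 * N)),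
      repA L ((j : ℝ) / (2 * N)) (1 / N) γ (x : UnitAddCircle) = γ (x : UnitAddCircle) := by
    intro x hx
    rw [← coe_sub_int x n, repA_out L hd ⟨by linarith [hx.1], by linarith [hx.2]⟩]
  have hk : (k : ℝ) / (2 * N) ≤ ((k + 1 : ℕ) : ℝ) / (2 * N) := by
    rw [grid_succ]; have : (0 : ℝ) ≤ 1 / (2 * N) := by positivity
    linarith
  intro x hx y hy
  rw [key x hx, key y hy, key _ ⟨le_rfl, hk⟩, key _ ⟨hk, le_rfl⟩]
  exact hPL x hx y hy

/-- after step `n`, the intervals `k < n` of the grid have constant speed -/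
theorem PL_Bst (hN : 0 < N) (hs : s * (1 / N) < L.r0) (hγ : γ ∈ X M s) (n : ℕ) :
    ∀ k < 2 * N, k < n → PL N (Bst L N 1 n γ) k := by
  have hNr : (0 : ℝ) < N := by exact_mod_cast hN
  have hN' : (0 : ℝ) < 1 / N := by positivity
  induction n with
  | zero => intro k _ h; exact absurd h (Nat.not_lt_zero k)
  | succ n ih =>
    intro k hk hkn
    have hd : ((1 : ℝ) / N, rot (((n : ℝ) / (2 * N) : ℝ) : UnitAddCircle) (Bst L N 1 n γ)) ∈
        RepDom L := mem_domA (Bst_mem L hN hs hγ n) hN'.le (one_div_le_one_N hN) hs _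
    rw [Bst_succ]
    -- the position of the interval relative to the arc
    set q : ℤ := ((k : ℤ) - n) / (2 * N) with hq
    set i : ℤ := ((k : ℤ) - n) % (2 * N) with hi
    have hqi : (k : ℤ) - n = i + 2 * N * q := by
      have := Int.emod_add_mul_ediv ((k : ℤ) - n) (2 * N)
      rw [hi, hq]; linarith
    have h2N : (0 : ℤ) < 2 * N := by have : (0 : ℤ) < N := by exact_mod_cast hN
                                     linarith
    have hi0 : 0 ≤ i := Int.emod_nonneg _ h2N.ne'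
    have hi1 : i < 2 * N := Int.emod_lt_of_pos _ h2N
    have e1 : (k : ℝ) / (2 * N) - q = (n : ℝ) / (2 * N) + i / (2 * N) := by
      have : (k : ℝ) - n = i + 2 * N * q := by exact_mod_cast hqi
      have h3 : (k : ℝ) = n + i + 2 * N * q := by linarith
      rw [h3]; field_simp; ring
    have e2 : ((k + 1 : ℕ) : ℝ) / (2 * N) - q = (n : ℝ) / (2 * N) + (i + 1) / (2 * N) := by
      rw [grid_succ]
      have : (k : ℝ) / (2 * N) + 1 / (2 * N) - q = ((k : ℝ) / (2 * N) - q) + 1 / (2 * N) := by ring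
      rw [this, e1]; ring
    have e3 : (1 : ℝ) / N = 2 / (2 * N) := by field_simp
    have hi0r : (0 : ℝ) ≤ i := by exact_mod_cast hi0
    have hi1r : (i : ℝ) + 1 ≤ 2 * N := by exact_mod_cast hi1
    rcases lt_or_ge i 2 with h | h
    · refine PL_in L hN hd q ?_ ?_
      · rw [e1]; have : (0 : ℝ) ≤ i / (2 * N) := by positivity
        linarith
      · rw [e2, e3]
        have : ((i : ℝ) + 1) / (2 * N) ≤ 2 / (2 * N) := by
          apply div_le_div_of_nonneg_right _ (by positivity)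
          have : (i : ℝ) ≤ 1 := by exact_mod_cast (by omega : i ≤ 1)
          linarith
        linarith
    · have hkn' : k < n := by
        by_contra hcon
        have hkn2 : k = n := by omega
        rw [hkn2, sub_self, Int.zero_emod] at hi
        omega
      refine PL_out L hN hd q ?_ ?_ (ih k hk hkn')
      · rw [e1, e3]
        have : (2 : ℝ) / (2 * N) ≤ i / (2 * N) := by
          apply div_le_div_of_nonneg_right _ (by positivity)
          exact_mod_cast h
        linarith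
      · rw [e2]
        have : ((i : ℝ) + 1) / (2 * N) ≤ 1 := by
          rw [div_le_one (by positivity)]; exact hi1r
        linarith

/-- a Lipschitz bound on every interval of the grid -/
theorem mem_X_of_grid (hN : 0 < N) {v : ℝ}
    (h : ∀ k < 2 * N, ∀ x ∈ Icc ((k : ℝ) / (2 * N)) (((k + 1 : ℕ) : ℝ) / (2 * N)),
      ∀ y ∈ Icc ((k : ℝ) / (2 * N)) (((k + 1 : ℕ) : ℝ) / (2 * N)), x ≤ y →
        dist (γ (x : UnitAddCircle)) (γ (y : UnitAddCircle)) ≤ v * (y - x)) : γ ∈ X M v := by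
  have hNr : (0 : ℝ) < N := by exact_mod_cast hN
  have key : ∀ K ≤ 2 * N, ∀ x y : ℝ, 0 ≤ x → x ≤ y → y ≤ (K : ℝ) / (2 * N) →
      dist (γ (x : UnitAddCircle)) (γ (y : UnitAddCircle)) ≤ v * (y - x) := by
    intro K
    induction K with
    | zero =>
      intro _ x y hx hxy hy
      rw [Nat.cast_zero, zero_div] at hy
      have e1 : x = 0 := le_antisymm (hxy.trans hy) hx
      have e2 : y = 0 := le_antisymm hy (hx.trans hxy)
      rw [e1, e2, dist_self]; simp
    | succ K ih =>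
      intro hK x y hx hxy hy
      have hK' : K < 2 * N := by omega
      rcases le_total y ((K : ℝ) / (2 * N)) with h1 | h1
      · exact ih (by omega) x y hx hxy h1
      · rcases le_total x ((K : ℝ) / (2 * N)) with h2 | h2
        · have a1 := ih (by omega) x _ hx h2 le_rfl
          have hk : (K : ℝ) / (2 * N) ≤ ((K + 1 : ℕ) : ℝ) / (2 * N) := h1.trans hy
          have a2 := h K hK' _ ⟨le_rfl, hk⟩ y ⟨h1, hy⟩ h1
          refine (dist_triangle _ _ _).trans ((add_le_add a1 a2).trans (le_of_eq ?_))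
          ring
        · exact h K hK' x ⟨h2, hxy.trans hy⟩ y ⟨h1, hy⟩ hxy
  refine mem_X_of_Icc fun x y hx hxy hy => key (2 * N) le_rfl x y hx hxy ?_
  have : ((2 * N : ℕ) : ℝ) / (2 * N) = 1 := by push_cast; field_simp
  rw [this]; exact hy

/-- **the Lipschitz constant of `B γ` is read off on the nodes** -/
theorem B_mem_of_nodes (hN : 0 < N) (hs : s * (1 / N) < L.r0) (hγ : γ ∈ X M s) {v : ℝ}
    (hv : ∀ k < 2 * N, dist (B L N 1 γ (((k : ℝ) / (2 * N) : ℝ) : UnitAddCircle))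
      (B L N 1 γ ((((k + 1 : ℕ) : ℝ) / (2 * N) : ℝ) : UnitAddCircle)) ≤ v * (1 / (2 * N))) :
    B L N 1 γ ∈ X M v := by
  have hNr : (0 : ℝ) < N := by exact_mod_cast hN
  refine mem_X_of_grid hN fun k hk x hx y hy hxy => ?_
  have h1 := PL_Bst L hN hs hγ (4 * N) k hk (by omega) x hx y hy
  have h2 := hv k hk
  show dist (Bst L N 1 (4 * N) γ (x : UnitAddCircle)) (Bst L N 1 (4 * N) γ (y : UnitAddCircle)) ≤ _
  rw [h1, abs_sub_comm, abs_of_nonneg (by linarith)]
  calc _ ≤ 2 * N * (y - x) * (v * (1 / (2 * N))) := by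
        refine mul_le_mul_of_nonneg_left h2 ?_
        exact mul_nonneg (by positivity) (by linarith)
    _ = v * (y - x) := by field_simp

/-- the speed of `B γ` on the `k`-th interval -/
theorem contOn_speed (hN : 0 < N) (hT : T * (1 / N) < L.r0) (k : ℕ) :
    ContinuousOn (fun γ : Lp M => 2 * N *
      dist (B L N 1 γ (((k : ℝ) / (2 * N) : ℝ) : UnitAddCircle))
      (B L N 1 γ ((((k + 1 : ℕ) : ℝ) / (2 * N) : ℝ) : UnitAddCircle))) (X M T) := by
  have h1 : ContinuousOn (fun γ : Lp M => B L N 1 γ) (X M T) :=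
    (levDef_B L hN hT).cont.comp (continuousOn_const.prodMk continuousOn_id)
      fun γ hγ => ⟨⟨zero_le_one, le_rfl⟩, hγ⟩
  have h2 : ∀ x : UnitAddCircle, ContinuousOn (fun γ : Lp M => B L N 1 γ x) (X M T) := fun x =>
    (continuous_eval_const x).comp_continuousOn h1
  exact continuousOn_const.mul (continuous_dist.comp_continuousOn ((h2 _).prodMk (h2 _)))

/-- a continuous function which is `< s` on `X s` is `< s - η` on `X (s + η)` -/
theorem exists_eta {f : Lp M → ℝ} (hf : ContinuousOn f (X M T))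
    (h : ∀ γ ∈ X M s, f γ < s) :
    ∃ η > (0 : ℝ), ∀ γ ∈ X M T, γ ∈ X M (s + η) → f γ < s - η := by
  by_contra hcon
  push Not at hcon
  have hpos : ∀ n : ℕ, (0 : ℝ) < 1 / ((n : ℝ) + 1) := fun n => by positivity
  choose g hg1 hg2 hg3 using fun n : ℕ => hcon (1 / ((n : ℝ) + 1)) (hpos n)
  obtain ⟨γ, hγ, φ, hφ, hlim⟩ := (isCompact_X (M := M) T).tendsto_subseq hg1
  have hz : Tendsto (fun n : ℕ => 1 / (((φ n : ℕ) : ℝ) + 1)) atTop (𝓝 0) :=
    tendsto_one_div_add_atTop_nhds_zero_nat.comp hφ.tendsto_atTop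
  have hmem : γ ∈ X M s := by
    intro x y
    have h1 : Tendsto (fun n : ℕ => dist (g (φ n) (x : UnitAddCircle)) (g (φ n) (y : UnitAddCircle)))
        atTop (𝓝 (dist (γ (x : UnitAddCircle)) (γ (y : UnitAddCircle)))) :=
      (((continuous_eval_const _).tendsto γ).comp hlim).dist
        (((continuous_eval_const _).tendsto γ).comp hlim)
    have h2 : Tendsto (fun n : ℕ => (s + 1 / (((φ n : ℕ) : ℝ) + 1)) * |x - y|) atTop
        (𝓝 ((s + 0) * |x - y|)) := (tendsto_const_nhds.add hz).mul tendsto_const_nhds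
    have h3 := le_of_tendsto_of_tendsto' h1 h2 fun n => hg2 (φ n) x y
    rwa [add_zero] at h3
  have h4 : Tendsto (fun n : ℕ => f (g (φ n))) atTop (𝓝 (f γ)) := by
    have := (hf γ hγ).tendsto
    refine this.comp (tendsto_nhdsWithin_iff.2 ⟨hlim, Eventually.of_forall fun n => hg1 (φ n)⟩)
  have h5 : Tendsto (fun n : ℕ => s - 1 / (((φ n : ℕ) : ℝ) + 1)) atTop (𝓝 (s - 0)) :=
    tendsto_const_nhds.sub hz
  have h6 := le_of_tendsto_of_tendsto' h5 h4 fun n => hg3 (φ n)
  rw [sub_zero] at h6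
  exact absurd (h γ hmem) (not_lt.2 h6)

/-- **near a non-critical level the Birkhoff map decreases the level** -/
theorem exists_delta (hN : 0 < N) (hT : T * (1 / N) < L.r0) (hs0 : 0 < s) (hsT : s ≤ T)
    (hc : ¬ IsCrit M s) :
    ∃ η > (0 : ℝ), ∀ γ ∈ X M T, γ ∈ X M (s + η) → B L N 1 γ ∈ X M (s - η) := by
  have hNr : (0 : ℝ) < N := by exact_mod_cast hN
  have hsN : s * (1 / N) < L.r0 :=
    lt_of_le_of_lt (mul_le_mul_of_nonneg_right hsT (by positivity)) hT
  have h1 : ∀ k < 2 * N, ∀ γ ∈ X M s, 2 * N *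
      dist (B L N 1 γ (((k : ℝ) / (2 * N) : ℝ) : UnitAddCircle))
      (B L N 1 γ ((((k + 1 : ℕ) : ℝ) / (2 * N) : ℝ) : UnitAddCircle)) < s := by
    intro k hk γ hγ
    have hm : B L N 1 γ ∈ X M s := Bst_mem L hN hsN hγ _
    have h2 := hm ((k : ℝ) / (2 * N)) (((k + 1 : ℕ) : ℝ) / (2 * N))
    rw [grid_succ, abs_sub_comm, add_sub_cancel_left,
      abs_of_nonneg (by positivity : (0 : ℝ) ≤ 1 / (2 * N)), ← grid_succ] at h2
    by_contra hcon
    refine hc ⟨γ, hs0, 1 / (2 * N), by positivity, isGeo_of_tight L hN hsN hγ hk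
      (le_antisymm h2 ?_)⟩
    have h3 := not_lt.1 hcon
    have e : s * (1 / (2 * (N : ℝ))) = s / (2 * N) := by ring
    rw [e, div_le_iff₀ (by positivity)]
    linarith
  have h2 : ∀ k < 2 * N, ∃ η > (0 : ℝ), ∀ γ ∈ X M T, γ ∈ X M (s + η) → 2 * N *
      dist (B L N 1 γ (((k : ℝ) / (2 * N) : ℝ) : UnitAddCircle))
      (B L N 1 γ ((((k + 1 : ℕ) : ℝ) / (2 * N) : ℝ) : UnitAddCircle)) < s - η := fun k hk =>
    exists_eta (contOn_speed L hN hT k) (h1 k hk)
  -- a common `η`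
  have h3 : ∀ K ≤ 2 * N, ∃ η > (0 : ℝ), ∀ k < K, ∀ γ ∈ X M T, γ ∈ X M (s + η) → 2 * N *
      dist (B L N 1 γ (((k : ℝ) / (2 * N) : ℝ) : UnitAddCircle))
      (B L N 1 γ ((((k + 1 : ℕ) : ℝ) / (2 * N) : ℝ) : UnitAddCircle)) < s - η := by
    intro K
    induction K with
    | zero => intro _; exact ⟨1, one_pos, fun k hk => absurd hk (Nat.not_lt_zero k)⟩
    | succ K ih =>
      intro hK
      obtain ⟨η1, h11, h12⟩ := ih (by omega)
      obtain ⟨η2, h21, h22⟩ := h2 K (by omega)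
      refine ⟨min η1 η2, lt_min h11 h21, fun k hk γ hγ hγ' => ?_⟩
      rcases Nat.lt_succ_iff_lt_or_eq.1 hk with h | h
      · have := h12 k h γ hγ (X_mono (by linarith [min_le_left η1 η2]) hγ')
        linarith [min_le_left η1 η2]
      · subst h
        have := h22 γ hγ (X_mono (by linarith [min_le_right η1 η2]) hγ')
        linarith [min_le_right η1 η2]
  obtain ⟨η, hη, h4⟩ := h3 (2 * N) le_rfl
  refine ⟨η, hη, fun γ hγ hγ' => ?_⟩
  refine B_mem_of_nodes L hN hT hγ fun k hk => ?_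
  have h5 := (h4 k hk γ hγ hγ').le
  have e : (s - η) * (1 / (2 * (N : ℝ))) = (s - η) / (2 * N) := by ring
  rw [e, le_div_iff₀ (by positivity)]
  linarith

/-! ### level preserving deformations -/

/-- iterates of the Birkhoff homotopy -/
theorem levDef_iter (hN : 0 < N) (hT : T * (1 / N) < L.r0) (k : ℕ) :
    LevDef M T (fun p => (B L N p.1)^[k] p.2) := by
  induction k with
  | zero => exact LevDef.id T
  | succ k ih =>
    have := (levDef_B L hN hT).comp ih
    simpa only [Function.iterate_succ_apply'] using this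

/-- iterating the Birkhoff map through an interval of non-critical levels -/
theorem exists_iter (hN : 0 < N) (hT : T * (1 / N) < L.r0) {a b : ℝ} (ha : 0 < a) (hab : a ≤ b)
    (hbT : b ≤ T) (hc : ∀ s ∈ Icc a b, ¬ IsCrit M s) :
    ∃ k : ℕ, ∀ γ ∈ X M b, (B L N 1)^[k] γ ∈ X M a := by
  set S : Set ℝ := {s | s ∈ Icc a b ∧ ∃ k : ℕ, ∀ γ ∈ X M s, (B L N 1)^[k] γ ∈ X M a} with hS
  have haS : a ∈ S := ⟨⟨le_rfl, hab⟩, 0, fun γ hγ => hγ⟩
  have hbdd : BddAbove S := ⟨b, fun s hs => hs.1.2⟩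
  set c := sSup S with hcdef
  have hac : a ≤ c := le_csSup hbdd haS
  have hcb : c ≤ b := csSup_le ⟨a, haS⟩ fun s hs => hs.1.2
  obtain ⟨η, hη, h1⟩ := exists_delta L hN hT (ha.trans_le hac) (hcb.trans hbT) (hc c ⟨hac, hcb⟩)
  obtain ⟨s', hs', hs'c⟩ := exists_lt_of_lt_csSup ⟨a, haS⟩ (by linarith : c - η < c)
  obtain ⟨hs'1, k, hk⟩ := hs'
  have h2 : min (c + η) b ∈ S := by
    refine ⟨⟨le_min (by linarith) hab, min_le_right _ _⟩, k + 1, fun γ hγ => ?_⟩
    rw [Function.iterate_succ_apply]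
    refine hk _ (X_mono hs'c.le (h1 γ (X_mono ((min_le_right _ _).trans hbT) hγ)
      (X_mono (min_le_left _ _) hγ)))
  have h3 : min (c + η) b ≤ c := le_csSup hbdd h2
  have h4 : b ≤ c := by
    rcases min_le_iff.1 h3 with h | h
    · linarith
    · exact h
  have h5 : min (c + η) b = b := min_eq_right (by linarith)
  rw [h5] at h2
  exact h2.2

/-- a good number of nodes -/
theorem exists_N (T : ℝ) : ∃ N : ℕ, 0 < N ∧ T * (1 / N) < L.r0 := by
  obtain ⟨N, hN⟩ := exists_nat_gt (T / L.r0)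
  refine ⟨N + 1, Nat.succ_pos N, ?_⟩
  rw [mul_one_div, div_lt_iff₀ (by positivity)]
  have := L.r0_pos
  rw [div_lt_iff₀ this] at hN
  push_cast
  nlinarith

include L in
/-- **non-critical levels, positive case** -/
theorem exists_levDef_pos {a b : ℝ} (ha : 0 < a) (hab : a ≤ b)
    (hc : ∀ s ∈ Icc a b, ¬ IsCrit M s) :
    ∃ H : ℝ × Lp M → Lp M, LevDef M b H ∧ ∀ γ ∈ X M b, H (1, γ) ∈ X M a := by
  obtain ⟨N, hN, hT⟩ := exists_N L b
  obtain ⟨k, hk⟩ := exists_iter L hN hT ha hab le_rfl hc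
  exact ⟨_, levDef_iter L hN hT k, hk⟩

/-- short loops contract to constants -/
theorem levDef_small {T : ℝ} (hT : T < L.r0) : LevDef M T (fun p => repA L 0 (p.1 * 1) p.2) :=
  levDef_repA L 0 zero_le_one le_rfl (by rwa [mul_one])

theorem small_one (γ : Lp M) : repA L 0 (1 * 1) γ ∈ X M 0 := by
  rw [mem_X_zero]
  intro x
  rw [mul_one, repA]
  simp only [rot_apply, rep_one]

include L in
/-- **non-critical levels**: a homotopy of `X b` preserving all levels, ending in `X a` -/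
theorem exists_levDef {a b : ℝ} (ha : 0 ≤ a) (hab : a ≤ b)
    (hc : ∀ s ∈ Icc a b, 0 < s → ¬ IsCrit M s) :
    ∃ H : ℝ × Lp M → Lp M, LevDef M b H ∧ ∀ γ ∈ X M b, H (1, γ) ∈ X M a := by
  rcases ha.eq_or_lt with h0 | h0
  · subst h0
    set c := min b (L.r0 / 2) with hcdef
    rcases hab.eq_or_lt with hb0 | hb0
    · subst hb0
      exact ⟨_, LevDef.id 0, fun γ hγ => hγ⟩
    have hr := L.r0_pos
    have hc0 : 0 < c := lt_min hb0 (by linarith)
    obtain ⟨H, hH, hH1⟩ := exists_levDef_pos L hc0 (min_le_left b _)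
      fun s hs => hc s ⟨hc0.le.trans hs.1, hs.2⟩ (hc0.trans_le hs.1)
    have hsm : LevDef M c (fun p => repA L 0 (p.1 * 1) p.2) :=
      levDef_small L (lt_of_le_of_lt (min_le_right _ _) (by linarith))
    -- concatenate the two homotopies in time
    refine ⟨fun p => if p.1 ≤ 1 / 2 then H (2 * p.1, p.2) else
      repA L 0 ((2 * p.1 - 1) * 1) (H (1, p.2)), ⟨?_, ?_, ?_⟩, ?_⟩
    · have k1 : ContinuousOn (fun p : ℝ × Lp M => H (2 * p.1, p.2))
          ((Icc (0 : ℝ) 1 ×ˢ X M b) ∩ {p | p.1 ≤ 1 / 2}) := by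
        refine hH.cont.comp (by fun_prop) fun p hp => ⟨⟨?_, ?_⟩, hp.1.2⟩
        · have := hp.1.1.1; show 0 ≤ 2 * p.1; linarith
        · have : p.1 ≤ 1 / 2 := hp.2; show 2 * p.1 ≤ 1; linarith
      have k2 : ContinuousOn (fun p : ℝ × Lp M => repA L 0 ((2 * p.1 - 1) * 1) (H (1, p.2)))
          ((Icc (0 : ℝ) 1 ×ˢ X M b) ∩ {p | 1 / 2 ≤ p.1}) := by
        have k3 : ContinuousOn (fun p : ℝ × Lp M => H (1, p.2))
            ((Icc (0 : ℝ) 1 ×ˢ X M b) ∩ {p | 1 / 2 ≤ p.1}) :=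
          hH.cont.comp (by fun_prop) fun p hp => ⟨⟨zero_le_one, le_rfl⟩, hp.1.2⟩
        have k4 : ContinuousOn (fun p : ℝ × Lp M => (2 * p.1 - 1, H (1, p.2)))
            ((Icc (0 : ℝ) 1 ×ˢ X M b) ∩ {p | 1 / 2 ≤ p.1}) :=
          ((continuousOn_const.mul continuousOn_fst).sub continuousOn_const).prodMk k3
        refine hsm.cont.comp k4 fun p hp => ⟨⟨?_, ?_⟩, hH1 p.2 hp.1.2⟩
        · have : 1 / 2 ≤ p.1 := hp.2; show 0 ≤ 2 * p.1 - 1; linarith
        · have := hp.1.1.2; show 2 * p.1 - 1 ≤ 1; linarith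
      have hU : Icc (0 : ℝ) 1 ×ˢ X M b = ((Icc (0 : ℝ) 1 ×ˢ X M b) ∩ {p | p.1 ≤ 1 / 2}) ∪
          ((Icc (0 : ℝ) 1 ×ˢ X M b) ∩ {p | 1 / 2 ≤ p.1}) := by
        rw [← inter_union_distrib_left]
        refine (inter_eq_left.2 fun q _ => ?_).symm
        exact le_total q.1 (1 / 2)
      have c1 : IsClosed {p : ℝ × Lp M | p.1 ≤ 1 / 2} := isClosed_le continuous_fst continuous_const
      have c2 : IsClosed {p : ℝ × Lp M | 1 / 2 ≤ p.1} := isClosed_le continuous_const continuous_fst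
      have f1 : ContinuousOn (fun p : ℝ × Lp M => if p.1 ≤ 1 / 2 then H (2 * p.1, p.2) else
          repA L 0 ((2 * p.1 - 1) * 1) (H (1, p.2)))
          ((Icc (0 : ℝ) 1 ×ˢ X M b) ∩ {p | p.1 ≤ 1 / 2}) :=
        k1.congr fun p hp => if_pos hp.2
      have f2 : ContinuousOn (fun p : ℝ × Lp M => if p.1 ≤ 1 / 2 then H (2 * p.1, p.2) else
          repA L 0 ((2 * p.1 - 1) * 1) (H (1, p.2)))
          ((Icc (0 : ℝ) 1 ×ˢ X M b) ∩ {p | 1 / 2 ≤ p.1}) := by
        refine k2.congr fun p hp => ?_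
        have hp2 : (1 : ℝ) / 2 ≤ p.1 := hp.2
        rcases hp2.eq_or_lt with he | hlt
        · show (if p.1 ≤ 1 / 2 then H (2 * p.1, p.2) else _) = _
          have e1 : 2 * p.1 = 1 := by rw [← he]; norm_num
          show _ = repA L 0 ((2 * p.1 - 1) * 1) (H (1, p.2))
          rw [if_pos (le_of_eq he.symm), e1, sub_self, zero_mul, repA_zero]
        · exact if_neg (not_le.2 hlt)
      intro q0 hq0
      rw [hU]
      refine ContinuousWithinAt.union ?_ ?_
      · by_cases h : q0.1 ≤ 1 / 2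
        · exact f1 q0 ⟨hq0, h⟩
        · refine continuousWithinAt_of_notMem_closure fun hcl => h ?_
          have := closure_mono (inter_subset_right : _ ⊆ {p : ℝ × Lp M | p.1 ≤ 1 / 2}) hcl
          rwa [c1.closure_eq] at this
      · by_cases h : 1 / 2 ≤ q0.1
        · exact f2 q0 ⟨hq0, h⟩
        · refine continuousWithinAt_of_notMem_closure fun hcl => h ?_
          have := closure_mono (inter_subset_right : _ ⊆ {p : ℝ × Lp M | 1 / 2 ≤ p.1}) hcl
          rwa [c2.closure_eq] at this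
    · intro γ hγ
      show (if (0 : ℝ) ≤ 1 / 2 then H (2 * 0, γ) else _) = γ
      rw [if_pos (by norm_num), mul_zero]
      exact hH.zero γ hγ
    · intro t ht τ hτ γ hγ
      show (if τ ≤ 1 / 2 then H (2 * τ, γ) else repA L 0 ((2 * τ - 1) * 1) (H (1, γ))) ∈ X M t
      split_ifs with h
      · exact hH.maps t ht _ ⟨by linarith [hτ.1], by linarith⟩ γ hγ
      · have h1 := hH.maps t ht 1 ⟨zero_le_one, le_rfl⟩ γ hγ
        have h2 := hH1 γ (X_mono ht hγ)
        have h3 : H (1, γ) ∈ X M (min t c) := by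
          rcases le_total t c with h | h
          · rwa [min_eq_left h]
          · rwa [min_eq_right h]
        exact X_mono (min_le_left t c) (hsm.maps (min t c) (min_le_right t c) (2 * τ - 1)
          ⟨by linarith, by linarith [hτ.2]⟩ _ h3)
    · intro γ _
      show (if (1 : ℝ) ≤ 1 / 2 then H (2 * 1, γ) else
        repA L 0 ((2 * 1 - 1) * 1) (H (1, γ))) ∈ X M 0
      rw [if_neg (by norm_num)]
      have : (2 * 1 - 1 : ℝ) * 1 = 1 * 1 := by norm_num
      rw [this]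
      exact small_one L _
  · exact exists_levDef_pos L h0 hab fun s hs => hc s hs (h0.trans_le hs.1)

end

end Crest.Agent.R231.GLugx576
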