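import Crest.Agent.R231.Pair_877
import Crest.Agent.R204.C5Aux_265

/-!
# Row 231 (S0357): homotopies on chains of pairs (helper877)

* `prismP X F hF : CE E →ₗ[F2] CE E'` for `F : E → ℝ → E'` continuous on `X ×ˢ Icc 0 1`:
  `bd_prismP`, `prismP_mem` (supports), `prismP_gr` (degree `+1`), `push_prismP`, `prismP_push` (naturality)
* `deformPush`, `deform` : existence forms
* `HP.map`, `HP.map_map`, `HP.map_id`, `HP.map_eq_of_homotopy`, `HP.inc_bijective_of_deform`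
* grading : `prN_mem_CS`, `push_gr`
-/

set_option autoImplicit false

noncomputable section

open Function Finsupp Topology Set
open Crest.Agent.R204

namespace Crest.Agent.R231.Pairx877

open SingAct265 EZ271 HtpInv334 Gr334

variable {E E' E'' : Type} [TopologicalSpace E] [TopologicalSpace E'] [TopologicalSpace E'']
  {X A B X' A' : Set E}

/-! ## grading -/

theorem prN_mem_CS (n : ℕ) : ∀ c ∈ CS X, prN F2 (SS.Sing E) n c ∈ CS X := by
  refine map_mem_of_CS fun m σ h => ?_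
  rw [prN_sx]
  split_ifs
  · exact sx_mem_CS h
  · exact Submodule.zero_mem _

theorem res_gr {n : ℕ} {c : CE E} (hc : c ∈ N.gr F2 (SS.Sing E) n) :
    res X c ∈ N.gr F2 (SS.Sing X) n := by
  refine gr_induction (p := fun c => res X c ∈ N.gr F2 (SS.Sing X) n) hc ?_ ?_ ?_ fun x => ?_
  · rw [map_zero]; exact zero_mem _
  · intro a b ha hb; rw [map_add]; exact add_mem ha hb
  · intro r a ha; rw [map_smul]; exact Submodule.smul_mem _ _ ha
  · by_cases h : ∀ t, ev x t ∈ X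
    · rw [res_sx h]; exact sx_mem_gr _
    · rw [res_sx_neg h]; exact zero_mem _

theorem push_gr {f : E → E'} {hf : ContinuousOn f X} {n : ℕ} {c : CE E}
    (hc : c ∈ N.gr F2 (SS.Sing E) n) : push X f hf c ∈ N.gr F2 (SS.Sing E') n :=
  map_mem_gr _ (res_gr hc)

theorem prN_push {f : E → E'} {hf : ContinuousOn f X} (n : ℕ) (c : CE E) :
    prN F2 (SS.Sing E') n (push X f hf c) = push X f hf (prN F2 (SS.Sing E) n c) := by
  have h : prN F2 (SS.Sing E') n ∘ₗ push X f hf = push X f hf ∘ₗ prN F2 (SS.Sing E) n := by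
    refine N_ext fun m x => ?_
    rw [LinearMap.comp_apply, LinearMap.comp_apply, prN_sx]
    by_cases hx : ∀ t, ev x t ∈ X
    · rw [push_sx hx, prN_sx]
      split_ifs
      · rw [push_sx hx]
      · rw [map_zero]
    · rw [push_sx_neg hx, map_zero]
      split_ifs
      · rw [push_sx_neg hx]
      · rw [map_zero]
  exact LinearMap.congr_fun h c

/-! ## prism operators -/

/-- a homotopy which is continuous on `X` as a continuous map -/
def htC (F : E → ℝ → E') (hF : ContinuousOn (fun p : E × ℝ => F p.1 p.2) (X ×ˢ Icc 0 1)) :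
    C(X × unitInterval, E') :=
  ⟨fun p => F p.1 p.2, hF.comp_continuous
    (f := fun p : X × unitInterval => ((p.1 : E), (p.2 : ℝ)))
    ((continuous_subtype_val.comp continuous_fst).prodMk
      (continuous_subtype_val.comp continuous_snd)) (fun p => ⟨p.1.2, p.2.2⟩)⟩

/-- the prism operator of a homotopy continuous on `X ×ˢ Icc 0 1` (zero on the other simplices) -/
def prismP (X : Set E) (F : E → ℝ → E')
    (hF : ContinuousOn (fun p : E × ℝ => F p.1 p.2) (X ×ˢ Icc 0 1)) : CE E →ₗ[F2] CE E' :=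
  prism (singHtpy (htC F hF)) ∘ₗ res X

theorem contOn_end {F : E → ℝ → E'}
    (hF : ContinuousOn (fun p : E × ℝ => F p.1 p.2) (X ×ˢ Icc 0 1)) {t : ℝ} (ht : t ∈ Icc (0 : ℝ) 1) :
    ContinuousOn (fun y => F y t) X :=
  hF.comp (f := fun y : E => (y, t)) (Continuous.continuousOn (by fun_prop)) fun y hy => ⟨hy, ht⟩

variable {F : E → ℝ → E'} {hF : ContinuousOn (fun p : E × ℝ => F p.1 p.2) (X ×ˢ Icc 0 1)}

theorem add_self_CE (c : CE E) : c + c = 0 := ZModModule.add_self c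

theorem cross_iota1 {K : SS} {p : ℕ} (x : K.S p) : cross F2 (N.sx F2 x) (iota1 F2) =
    N.map F2 (SS.prodMap (K.yo x) ((SS.std 1).yo (OrderHom.id : Op 1 1))) (EZ271.E F2 p 1) :=
  cross_sx F2 (L := SS.std 1) (q := 1) x (OrderHom.id : Op 1 1)

theorem bd_prismP {f0 f1 : E → E'} {h0 : ContinuousOn f0 X} {h1 : ContinuousOn f1 X}
    (e0 : ∀ y ∈ X, F y 0 = f0 y) (e1 : ∀ y ∈ X, F y 1 = f1 y) :
    ∀ c ∈ CS X, bdE E' (prismP X F hF c) =
      push X f0 h0 c + push X f1 h1 c + prismP X F hF (bdE E c) := by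
  intro c hc
  rw [prismP, LinearMap.comp_apply, bd_prism, bd_res c hc, C5265.sg_F2, LinearMap.comp_apply]
  have g1 : (SS.Hom.comp (singHtpy (htC F hF)) (SpecA.endMap (SS.Sing X) 1)) =
      SS.SingMap ⟨X.domRestrict f1, h1.domRestrict⟩ := by
    refine SS.Hom.ext (funext fun n => funext fun σ => ?_)
    exact singHtpy_one (htC F hF) ⟨X.domRestrict f1, h1.domRestrict⟩ (fun y => e1 y y.2) σ
  have g0 : (SS.Hom.comp (singHtpy (htC F hF)) (SpecA.endMap (SS.Sing X) 0)) =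
      SS.SingMap ⟨X.domRestrict f0, h0.domRestrict⟩ := by
    refine SS.Hom.ext (funext fun n => funext fun σ => ?_)
    exact singHtpy_zero (htC F hF) ⟨X.domRestrict f0, h0.domRestrict⟩ (fun y => e0 y y.2) σ
  rw [g1, g0, ZModModule.sub_eq_add, push, push, LinearMap.comp_apply, LinearMap.comp_apply]
  abel

theorem prismP_mem {B : Set E} {B' : Set E'} (h : ∀ y ∈ B, ∀ t ∈ Icc (0 : ℝ) 1, F y t ∈ B') :
    ∀ c ∈ CS B, prismP X F hF c ∈ CS B' := by
  refine map_mem_of_CS fun n σ hσ => ?_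
  rw [prismP, LinearMap.comp_apply]
  by_cases hx : ∀ t, ev σ t ∈ X
  · rw [res_sx hx, prism, LinearMap.comp_apply, LinearMap.flip_apply, cross_iota1, map_map]
    refine map_mem_CS _ (fun m x t => ?_) _
    exact h _ (hσ _) _ (Subtype.prop _)
  · rw [res_sx_neg hx, map_zero]; exact Submodule.zero_mem _

theorem prismP_gr {n : ℕ} {c : CE E} (hc : c ∈ N.gr F2 (SS.Sing E) n) :
    prismP X F hF c ∈ N.gr F2 (SS.Sing E') (n + 1) := by
  rw [prismP, LinearMap.comp_apply, prism, LinearMap.comp_apply, LinearMap.flip_apply]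
  exact map_mem_gr _ (C5265.cross_mem_gr F2 (res_gr hc) (sx_mem_gr _))

theorem prismP_sx_neg {n : ℕ} {σ : (SS.Sing E).S n} (h : ¬ ∀ t, ev σ t ∈ X) :
    prismP X F hF (N.sx F2 σ) = 0 := by
  rw [prismP, LinearMap.comp_apply, res_sx_neg h, map_zero]

theorem prismP_congr {G : E → ℝ → E'}
    {hG : ContinuousOn (fun p : E × ℝ => G p.1 p.2) (X ×ˢ Icc 0 1)}
    (h : ∀ y ∈ X, ∀ t ∈ Icc (0 : ℝ) 1, F y t = G y t) : prismP X F hF = prismP X G hG := by
  have : htC F hF = htC G hG := ContinuousMap.ext fun p => h p.1 p.1.2 p.2 p.2.2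
  rw [prismP, prismP, this]

theorem prismP_subset {A : Set E} (hA : A ⊆ X)
    {hFA : ContinuousOn (fun p : E × ℝ => F p.1 p.2) (A ×ˢ Icc 0 1)} :
    ∀ c ∈ CS A, prismP X F hF c = prismP A F hFA c := by
  refine eq_on_CS fun n σ hσ => ?_
  have hx : ∀ t, ev σ t ∈ X := fun t => hA (hσ t)
  rw [prismP, prismP, LinearMap.comp_apply, LinearMap.comp_apply, res_sx hx, res_sx hσ, prism, prism,
    LinearMap.comp_apply, LinearMap.comp_apply, LinearMap.flip_apply, LinearMap.flip_apply,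
    cross_iota1, cross_iota1, map_map, map_map]
  rfl

/-- naturality at the target: `f (F y t) = G y t` -/
theorem push_prismP {Y' : Set E'} {f : E' → E''} {hf : ContinuousOn f Y'} {G : E → ℝ → E''}
    {hG : ContinuousOn (fun p : E × ℝ => G p.1 p.2) (X ×ˢ Icc 0 1)}
    (hm : ∀ y ∈ X, ∀ t ∈ Icc (0 : ℝ) 1, F y t ∈ Y')
    (h : ∀ y ∈ X, ∀ t ∈ Icc (0 : ℝ) 1, f (F y t) = G y t) :
    ∀ c ∈ CS X, push Y' f hf (prismP X F hF c) = prismP X G hG c := by
  refine eq_on_CS (f := push Y' f hf ∘ₗ prismP X F hF) fun n σ hσ => ?_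
  rw [LinearMap.comp_apply, prismP, prismP, LinearMap.comp_apply, LinearMap.comp_apply, res_sx hσ,
    prism, prism, LinearMap.comp_apply, LinearMap.comp_apply, LinearMap.flip_apply]
  generalize cross F2 (N.sx F2 (rs X σ hσ)) (iota1 F2) = z
  have key : push Y' f hf ∘ₗ N.map F2 (singHtpy (htC F hF)) = N.map F2 (singHtpy (htC G hG)) := by
    refine hom_ext fun m x => ?_
    have hx : ∀ t, ev ((singHtpy (htC F hF)).app m x) t ∈ Y' := fun t =>
      hm _ (Subtype.prop _) _ (Subtype.prop _)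
    rw [LinearMap.comp_apply, N.map_sx, N.map_sx, push_sx hx]
    congr 1
    exact sing_ext fun t => h _ (Subtype.prop _) _ (Subtype.prop _)
  exact LinearMap.congr_fun key z

/-- naturality at the source: `F (k y) t = G y t` -/
theorem prismP_push {Y : Set E''} {k : E'' → E} {hk : ContinuousOn k Y} {G : E'' → ℝ → E'}
    {hG : ContinuousOn (fun p : E'' × ℝ => G p.1 p.2) (Y ×ˢ Icc 0 1)} (hm : MapsTo k Y X)
    (h : ∀ y ∈ Y, ∀ t ∈ Icc (0 : ℝ) 1, F (k y) t = G y t) :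
    ∀ c ∈ CS Y, prismP X F hF (push Y k hk c) = prismP Y G hG c := by
  refine eq_on_CS (f := prismP X F hF ∘ₗ push Y k hk) fun n σ hσ => ?_
  have hx : ∀ t, ev (cmp k hk σ hσ) t ∈ X := fun t => hm (hσ t)
  rw [LinearMap.comp_apply, push_sx hσ, prismP, prismP, LinearMap.comp_apply, LinearMap.comp_apply,
    res_sx hσ, res_sx hx, prism, prism, LinearMap.comp_apply, LinearMap.comp_apply,
    LinearMap.flip_apply, LinearMap.flip_apply, cross_iota1, cross_iota1, map_map, map_map]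
  congr 1
  congr 1
  refine SS.Hom.ext (funext fun m => funext fun x => ?_)
  exact sing_ext fun t => h _ (hσ _) _ (Subtype.prop _)

/-! ## existence forms -/

/-- **push along a map with a homotopy**: `F : E → ℝ → E'` continuous on `A ×ˢ Icc 0 1` -/
theorem deformPush (F : E → ℝ → E')
    (hF : ContinuousOn (fun p : E × ℝ => F p.1 p.2) (A ×ˢ Icc 0 1)) :
    ∃ φ₀ φ₁ P : CE E →ₗ[F2] CE E',
      (∀ c ∈ CS A, bdE E' (P c) = φ₀ c + φ₁ c + P (bdE E c)) ∧
      (∀ c ∈ CS A, bdE E' (φ₀ c) = φ₀ (bdE E c)) ∧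
      (∀ c ∈ CS A, bdE E' (φ₁ c) = φ₁ (bdE E c)) ∧
      (∀ (B : Set E) (B' : Set E'), B ⊆ A → (∀ y ∈ B, ∀ t ∈ Icc (0 : ℝ) 1, F y t ∈ B') →
        ∀ c ∈ CS B, P c ∈ CS B') ∧
      (∀ (B : Set E) (B' : Set E'), B ⊆ A → (∀ y ∈ B, F y 0 ∈ B') → ∀ c ∈ CS B, φ₀ c ∈ CS B') ∧
      (∀ (B : Set E) (B' : Set E'), B ⊆ A → (∀ y ∈ B, F y 1 ∈ B') → ∀ c ∈ CS B, φ₁ c ∈ CS B') ∧
      (∀ n, ∀ c ∈ N.gr F2 (SS.Sing E) n, P c ∈ N.gr F2 (SS.Sing E') (n + 1)) ∧
      (∀ n, ∀ c ∈ N.gr F2 (SS.Sing E) n, φ₀ c ∈ N.gr F2 (SS.Sing E') n) ∧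
      (∀ n, ∀ c ∈ N.gr F2 (SS.Sing E) n, φ₁ c ∈ N.gr F2 (SS.Sing E') n) := by
  refine ⟨push A (fun y => F y 0) (contOn_end hF ⟨le_rfl, zero_le_one⟩),
    push A (fun y => F y 1) (contOn_end hF ⟨zero_le_one, le_rfl⟩), prismP A F hF,
    bd_prismP (fun _ _ => rfl) (fun _ _ => rfl), bd_push, bd_push,
    fun B B' _ h => prismP_mem h, fun B B' _ h => push_mem h, fun B B' _ h => push_mem h,
    fun n c hc => prismP_gr hc, fun n c hc => push_gr hc, fun n c hc => push_gr hc⟩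

/-- **deformation**: `F : E → ℝ → E` continuous on `A ×ˢ Icc 0 1` which starts with the identity -/
theorem deform (F : E → ℝ → E)
    (hF : ContinuousOn (fun p : E × ℝ => F p.1 p.2) (A ×ˢ Icc 0 1)) (h0 : ∀ y ∈ A, F y 0 = y) :
    ∃ φ P : CE E →ₗ[F2] CE E,
      (∀ c ∈ CS A, bdE E (P c) = c + φ c + P (bdE E c)) ∧
      (∀ c ∈ CS A, bdE E (φ c) = φ (bdE E c)) ∧
      (∀ B B' : Set E, B ⊆ A → (∀ y ∈ B, ∀ t ∈ Icc (0 : ℝ) 1, F y t ∈ B') →
        ∀ c ∈ CS B, P c ∈ CS B') ∧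
      (∀ B B' : Set E, B ⊆ A → (∀ y ∈ B, F y 1 ∈ B') → ∀ c ∈ CS B, φ c ∈ CS B') ∧
      (∀ n, ∀ c ∈ N.gr F2 (SS.Sing E) n, P c ∈ N.gr F2 (SS.Sing E) (n + 1)) ∧
      (∀ n, ∀ c ∈ N.gr F2 (SS.Sing E) n, φ c ∈ N.gr F2 (SS.Sing E) n) := by
  refine ⟨push A (fun y => F y 1) (contOn_end hF ⟨zero_le_one, le_rfl⟩), prismP A F hF,
    fun c hc => ?_, bd_push,
    fun B B' _ h => prismP_mem h, fun B B' _ h => push_mem h,
    fun n c hc => prismP_gr hc, fun n c hc => push_gr hc⟩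
  rw [bd_prismP (f0 := fun y => y) (h0 := continuousOn_id) h0 (fun _ _ => rfl) c hc, push_id c hc]

/-! ## maps of pairs -/

namespace HP

variable {f g : E → E'} {Y B' : Set E'}

/-- the map of pair homologies of a map continuous on `X` -/
def map (f : E → E') (hf : ContinuousOn f X) (hX : MapsTo f X Y) (hA : MapsTo f A B') :
    HP X A →ₗ[F2] HP Y B' :=
  Hr.map (push X f hf) (push_mem hX) (push_mem hA) bd_push

@[simp] theorem map_mk (hf : ContinuousOn f X) (hX : MapsTo f X Y) (hA : MapsTo f A B') {c : CE E}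
    (h1 : c ∈ CS X) (h2 : bdE E c ∈ CS A) :
    map f hf hX hA (Hr.mk _ _ _ c h1 h2) = Hr.mk _ _ _ (push X f hf c) (push_mem hX c h1)
      (by rw [bd_push c h1]; exact push_mem hA _ h2) := rfl

theorem map_congr {hf : ContinuousOn f X} {hg : ContinuousOn g X} {hX : MapsTo f X Y}
    {hA : MapsTo f A B'} {hX' : MapsTo g X Y} {hA' : MapsTo g A B'} (h : EqOn f g X) :
    map f hf hX hA = map g hg hX' hA' :=
  Hr.map_congr fun c _ => by rw [push_congr h]

theorem map_map {Z C : Set E''} {k : E' → E''} {l : E → E''} {hf : ContinuousOn f X}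
    {hX : MapsTo f X Y} {hA : MapsTo f A B'} {hk : ContinuousOn k Y} {kX : MapsTo k Y Z}
    {kA : MapsTo k B' C} {hl : ContinuousOn l X} {lX : MapsTo l X Z} {lA : MapsTo l A C}
    (h : ∀ x ∈ X, k (f x) = l x) (x : HP X A) :
    map k hk kX kA (map f hf hX hA x) = map l hl lX lA x :=
  Hr.map_map (push_push hX h) x

theorem map_id {hf : ContinuousOn (fun x : E => x) X} {hX : MapsTo (fun x : E => x) X X'}
    {hA : MapsTo (fun x : E => x) A A'} (x : HP X A) :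
    map (fun x => x) hf hX hA x = Hr.inc (CS_mono hX) (CS_mono hA) x := by
  obtain ⟨c, h1, h2, rfl⟩ := Hr.mk_surj x
  rw [map_mk, Hr.inc_mk]
  congr 1
  exact push_id c h1

/-- **homotopy invariance for pairs** -/
theorem map_eq_of_homotopy {hf : ContinuousOn f X} {hg : ContinuousOn g X} {hX : MapsTo f X Y}
    {hA : MapsTo f A B'} {hX' : MapsTo g X Y} {hA' : MapsTo g A B'} (F : E → ℝ → E')
    (hF : ContinuousOn (fun p : E × ℝ => F p.1 p.2) (X ×ˢ Icc 0 1))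
    (h0 : ∀ y ∈ X, F y 0 = f y) (h1 : ∀ y ∈ X, F y 1 = g y)
    (hFX : ∀ y ∈ X, ∀ t ∈ Icc (0 : ℝ) 1, F y t ∈ Y)
    (hFA : ∀ y ∈ A, ∀ t ∈ Icc (0 : ℝ) 1, F y t ∈ B') :
    map f hf hX hA = map g hg hX' hA' := by
  refine Hr.map_eq_of_homotopy (prismP X F hF) (prismP_mem hFX) (prismP_mem hFA) fun c hc => ?_
  rw [bd_prismP h0 h1 c hc, add_assoc, add_self_CE, add_zero, ZModModule.sub_eq_add]

/-- a pair which deforms into a smaller pair: `F y 0 = y`, `F` preserves `X`, `A`, `X'`, `A'` and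
moves `X` into `X'`, `A` into `A'` at time `1` -/
theorem inc_bijective_of_deform (hX : X' ⊆ X) (hA : A' ⊆ A) (F : E → ℝ → E)
    (hF : ContinuousOn (fun p : E × ℝ => F p.1 p.2) (X ×ˢ Icc 0 1)) (h0 : ∀ y ∈ X, F y 0 = y)
    (hFX : ∀ y ∈ X, ∀ t ∈ Icc (0 : ℝ) 1, F y t ∈ X)
    (hFA : ∀ y ∈ A, ∀ t ∈ Icc (0 : ℝ) 1, F y t ∈ A)
    (hFX' : ∀ y ∈ X', ∀ t ∈ Icc (0 : ℝ) 1, F y t ∈ X')
    (hFA' : ∀ y ∈ A', ∀ t ∈ Icc (0 : ℝ) 1, F y t ∈ A')
    (h1X : ∀ y ∈ X, F y 1 ∈ X') (h1A : ∀ y ∈ A, F y 1 ∈ A') :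
    Bijective (Hr.inc (d := bdE E) (CS_mono hX) (CS_mono hA)) := by
  have c1 : ContinuousOn (fun y => F y 1) X := contOn_end hF ⟨zero_le_one, le_rfl⟩
  have m1X : MapsTo (fun y => F y 1) X X' := fun y hy => h1X y hy
  have m1A : MapsTo (fun y => F y 1) A A' := fun y hy => h1A y hy
  have hb : ∀ c ∈ CS X, bdE E (prismP X F hF c) =
      c + push X (fun y => F y 1) c1 c + prismP X F hF (bdE E c) := fun c hc => by
    rw [bd_prismP (f0 := fun y => y) (h0 := continuousOn_id) h0 (fun _ _ => rfl) c hc,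
      push_id c hc]
  have hs : ∀ c ∈ CS X, push X (fun y => F y 1) c1 c - c - bdE E (prismP X F hF c) =
      prismP X F hF (bdE E c) := fun c hc => by
    rw [hb c hc]
    simp only [ZModModule.sub_eq_add]
    have e : ∀ a b p : CE E, a + b + (b + a + p) = (a + a) + (b + b) + p := fun a b p => by abel
    rw [e, add_self_CE, add_self_CE, zero_add, zero_add]
  have key : ∀ x : HP X A, Hr.inc (CS_mono hX) (CS_mono hA)
      (map (fun y => F y 1) c1 m1X m1A x) = x := by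
    intro x
    obtain ⟨c, h2, h3, rfl⟩ := Hr.mk_surj x
    rw [map_mk, Hr.inc_mk, Hr.mk_eq_mk]
    refine ⟨prismP X F hF c, prismP_mem hFX c h2, ?_⟩
    rw [hs c h2]
    exact prismP_mem hFA _ h3
  have key' : ∀ x : HP X' A', map (fun y => F y 1) c1 m1X m1A
      (Hr.inc (CS_mono hX) (CS_mono hA) x) = x := by
    intro x
    obtain ⟨c, h2, h3, rfl⟩ := Hr.mk_surj x
    rw [Hr.inc_mk, map_mk, Hr.mk_eq_mk]
    refine ⟨prismP X F hF c, prismP_mem hFX' c h2, ?_⟩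
    rw [hs c (CS_mono hX h2)]
    exact prismP_mem hFA' _ h3
  exact ⟨fun x y h => by rw [← key' x, h, key' y], fun x => ⟨_, key x⟩⟩

end HP

end Crest.Agent.R231.Pairx877
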