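import Crest.Agent.R231.InstA_895
import Crest.Agent.R231.GBirk2_576
import Crest.Agent.R231.PairH_877

/-!
# Row 231, block G: the field `noncrit` (helper651)

* `acyclic_of_levDef` : a level preserving deformation of `X b` into `X a` gives
  `Zp (X M b) (X M a) ≤ Bp (X M b) (X M a)`; also relative to any smaller base and in each degree
* `acyclic`, `noncrit` : no critical level in `[a, b]` (`a = 0` allowed); `noncrit` is literally the
  field of `IfAx978.Base` for the instance of `InstA_895`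
-/

set_option autoImplicit false
set_option linter.unusedSectionVars false

open Set

namespace Crest.Agent.R231.GNonx651

open Crest.Agent.R204 Pairx877 GLugx576 Instx895 IfAx978

variable {M : Type} [MetricSpace M]

/-- a deformation of `X'` into `A` inside `X'`, which preserves `A`: the pair is acyclic -/
theorem acyclic_of_def {E : Type} [TopologicalSpace E] {X' A : Set E} (hA : A ⊆ X') (F : E → ℝ → E)
    (hF : ContinuousOn (fun p : E × ℝ => F p.1 p.2) (X' ×ˢ Icc 0 1)) (h0 : ∀ y ∈ X', F y 0 = y)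
    (h1 : ∀ y ∈ X', F y 1 ∈ A) (hX : ∀ y ∈ X', ∀ t ∈ Icc (0 : ℝ) 1, F y t ∈ X')
    (hAA : ∀ y ∈ A, ∀ t ∈ Icc (0 : ℝ) 1, F y t ∈ A) : Zp X' A ≤ Bp X' A := by
  obtain ⟨φ, P, hP, -, hPB, hφB, -, -⟩ := deform F hF h0
  intro c hc
  rw [mem_Zp] at hc
  rw [mem_Bp]
  refine ⟨P c, hPB X' X' subset_rfl hX c hc.1, ?_⟩
  have e : c - bdE E (P c) = -(φ c + P (bdE E c)) := by
    rw [hP c hc.1]; abel
  rw [e]
  exact (CS A).neg_mem ((CS A).add_mem (hφB X' A subset_rfl h1 c hc.1)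
    (hPB A A hA hAA _ hc.2))

theorem acyclic_of_levDef {a b : ℝ} (hab : a ≤ b) {H : ℝ × Lp M → Lp M} (h : LevDef M b H)
    (h1 : ∀ γ ∈ X M b, H (1, γ) ∈ X M a) : Zp (X M b) (X M a) ≤ Bp (X M b) (X M a) := by
  refine acyclic_of_def (X_mono hab) (fun γ r => H (r, γ)) ?_ h.zero h1
    (fun γ hγ r hr => h.maps b le_rfl r hr γ hγ) (fun γ hγ r hr => h.maps a hab r hr γ hγ)
  exact h.cont.comp (by fun_prop) fun p hp => ⟨hp.2, hp.1⟩

variable [CompactSpace M]

/-- **no critical level in `[a,b]`: the pair `(X b, X a)` is acyclic** -/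
theorem acyclic (L : LUG M) {a b : ℝ} (ha : 0 ≤ a) (hab : a ≤ b)
    (hc : ∀ s, IsCrit M s → ¬ (a ≤ s ∧ s ≤ b)) : Zp (X M b) (X M a) ≤ Bp (X M b) (X M a) := by
  obtain ⟨H, hH, h1⟩ := exists_levDef L ha hab fun s hs _ hcr => hc s hcr hs
  exact acyclic_of_levDef hab hH h1

/-- **the field `noncrit` of `IfAx978.Base`** -/
theorem noncrit (L : LUG M) {Crit : Set ℝ} (hCrit : ∀ s, IsCrit M s → s ∈ Crit) (a b : ℝ)
    (ha : 0 ≤ a) (hab : a ≤ b) (hc : ∀ s ∈ Crit, ¬ (a ≤ s ∧ s ≤ b)) (j : ℕ) :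
    Zc (FF M a) (FF M b) j ≤ Bd (FF M a) (FF M b) j := by
  intro x hx
  rw [mem_Bd_FF]
  exact acyclic L ha hab (fun s hs => hc s (hCrit s hs)) (mem_Zc_FF.1 hx)

end Crest.Agent.R231.GNonx651
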