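import Mathlib

/-!
# Row 231 (S0357), block G (helper67): calculus for the near isometry of `exp`
-/

set_option autoImplicit false

open Set Filter Topology

namespace Crest.Agent.R231.GSegCalcx67


variable {E : Type*} [NormedAddCommGroup E] [NormedSpace ℝ E]

/-- two-step mean value estimate on `[0,1]` -/
theorem abs_le_of_second {φ φ' φ'' : ℝ → ℝ} {B : ℝ}
    (h1 : ∀ s ∈ Icc (0 : ℝ) 1, HasDerivAt φ (φ' s) s)
    (h2 : ∀ s ∈ Icc (0 : ℝ) 1, HasDerivAt φ' (φ'' s) s)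
    (h3 : ∀ s ∈ Icc (0 : ℝ) 1, |φ'' s| ≤ B) (h0 : φ 0 = 0) (h0' : φ' 0 = 0) :
    |φ 1| ≤ B := by
  have hB : 0 ≤ B := (abs_nonneg _).trans (h3 0 (left_mem_Icc.2 zero_le_one))
  have hφ' : ∀ s ∈ Icc (0 : ℝ) 1, |φ' s| ≤ B := by
    intro s hs
    have h4 := (convex_Icc (0 : ℝ) 1).norm_image_sub_le_of_norm_hasDerivWithin_le
      (f := φ') (f' := φ'') (C := B) (fun x hx => (h2 x hx).hasDerivWithinAt)
      (fun x hx => by rw [Real.norm_eq_abs]; exact h3 x hx) (left_mem_Icc.2 zero_le_one) hs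
    rw [h0', sub_zero, sub_zero, Real.norm_eq_abs, Real.norm_of_nonneg hs.1] at h4
    exact h4.trans (mul_le_of_le_one_right hB hs.2)
  have h4 := (convex_Icc (0 : ℝ) 1).norm_image_sub_le_of_norm_hasDerivWithin_le
    (f := φ) (f' := φ') (C := B) (fun x hx => (h1 x hx).hasDerivWithinAt)
    (fun x hx => by rw [Real.norm_eq_abs]; exact hφ' x hx) (left_mem_Icc.2 zero_le_one)
    (right_mem_Icc.2 zero_le_one)
  rw [h0, sub_zero, sub_zero, Real.norm_eq_abs, norm_one, mul_one] at h4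
  exact h4

theorem quad2 {H : E × E × E → ℝ} {a : E} (hH : ContDiffAt ℝ 3 H (a, 0, 0))
    (h0 : ∀ x A : E, H (x, A, A) = 0) (hnn : ∀ p, 0 ≤ H p) {ε : ℝ} (hε : 0 < ε) :
    ∃ δ : ℝ, 0 < δ ∧ ∀ x A B : E, ‖x - a‖ < δ → ‖A‖ < δ → ‖B‖ < δ →
      |H (x, A, B) - H (x, 0, B - A)| ≤ ε * ‖B - A‖ ^ 2 := by
  have hD2 : ContDiffAt ℝ 1 (fderiv ℝ (fderiv ℝ H)) (a, 0, 0) :=
    (hH.fderiv_right (m := 2) (by norm_num)).fderiv_right (m := 1) (by norm_num)
  obtain ⟨K, t, ht, hK⟩ := hD2.exists_lipschitzOnWith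
  have hev : ∀ᶠ p in 𝓝 ((a, 0, 0) : E × E × E), ContDiffAt ℝ 3 H p := hH.eventually (by simp)
  obtain ⟨δ₁, hδ₁, hball₁⟩ := Metric.mem_nhds_iff.1 (inter_mem ht hev)
  obtain ⟨δ₀, hδ₀, hδ₀₁, hδ₀K⟩ : ∃ δ₀ : ℝ, 0 < δ₀ ∧ δ₀ ≤ δ₁ ∧ (K : ℝ) * δ₀ ≤ ε / 2 := by
    refine ⟨min δ₁ (ε / (2 * (K + 1))), lt_min hδ₁ (by positivity), min_le_left _ _, ?_⟩
    calc (K : ℝ) * min δ₁ (ε / (2 * (K + 1))) ≤ (K + 1) * (ε / (2 * (K + 1))) := by
          gcongr
          · linarith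
          · exact min_le_right _ _
      _ = ε / 2 := by field_simp
  have hball : Metric.ball ((a, 0, 0) : E × E × E) δ₀ ⊆ t ∩ {p | ContDiffAt ℝ 3 H p} :=
    (Metric.ball_subset_ball hδ₀₁).trans hball₁
  have hctr : ((a, 0, 0) : E × E × E) ∈ Metric.ball ((a, 0, 0) : E × E × E) δ₀ :=
    Metric.mem_ball_self hδ₀
  have hcd : ∀ p ∈ Metric.ball ((a, 0, 0) : E × E × E) δ₀, ContDiffAt ℝ 3 H p :=
    fun p hp => (hball hp).2
  refine ⟨δ₀ / 2, by positivity, ?_⟩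
  intro x A B hx hA hB
  obtain ⟨η, hη⟩ : ∃ η : E, η = B - A := ⟨_, rfl⟩
  have hηn : ‖η‖ < δ₀ := by
    rw [hη]
    have := norm_sub_le B A
    linarith
  -- both paths stay in the ball
  have hm1 : ∀ s ∈ Icc (0 : ℝ) 1, (x, A, A + s • η) ∈ Metric.ball ((a, 0, 0) : E × E × E) δ₀ := by
    intro s hs
    rw [Metric.mem_ball, dist_eq_norm]
    simp only [Prod.mk_sub_mk, Prod.norm_def, sub_zero]
    refine max_lt (by linarith) (max_lt (by linarith) ?_)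
    have e : A + s • η = (1 - s) • A + s • B := by rw [hη, smul_sub, sub_smul, one_smul]; abel
    rw [e]
    have h1 := norm_add_le ((1 - s) • A) (s • B)
    rw [norm_smul, norm_smul, Real.norm_of_nonneg (by linarith [hs.2]), Real.norm_of_nonneg hs.1] at h1
    have h2 : (1 - s) * ‖A‖ ≤ (1 - s) * (δ₀ / 2) :=
      mul_le_mul_of_nonneg_left hA.le (by linarith [hs.2])
    have h3 : s * ‖B‖ ≤ s * (δ₀ / 2) := mul_le_mul_of_nonneg_left hB.le hs.1
    linarith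
  have hm2 : ∀ s ∈ Icc (0 : ℝ) 1, (x, (0 : E), s • η) ∈ Metric.ball ((a, 0, 0) : E × E × E) δ₀ := by
    intro s hs
    rw [Metric.mem_ball, dist_eq_norm]
    simp only [Prod.mk_sub_mk, Prod.norm_def, sub_zero, norm_zero]
    refine max_lt (by linarith) (max_lt hδ₀ ?_)
    rw [norm_smul, Real.norm_of_nonneg hs.1]
    calc s * ‖η‖ ≤ 1 * ‖η‖ := by gcongr; exact hs.2
      _ < δ₀ := by rw [one_mul]; exact hηn
  have hp1 : ∀ s : ℝ, HasDerivAt (fun s : ℝ => (x, A, A + s • η)) ((0 : E), (0 : E), η) s := by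
    intro s
    have h8 : HasDerivAt (fun s : ℝ => A + s • η) η s := by
      simpa using ((hasDerivAt_id s).smul_const η).const_add A
    exact (hasDerivAt_const s _).prodMk ((hasDerivAt_const s _).prodMk h8)
  have hp2 : ∀ s : ℝ, HasDerivAt (fun s : ℝ => (x, (0 : E), s • η)) ((0 : E), (0 : E), η) s := by
    intro s
    have h8 : HasDerivAt (fun s : ℝ => s • η) η s := by
      simpa using (hasDerivAt_id s).smul_const η
    exact (hasDerivAt_const s _).prodMk ((hasDerivAt_const s _).prodMk h8)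
  have hn : ‖((0 : E), (0 : E), η)‖ = ‖η‖ := by simp [Prod.norm_def]
  -- first derivatives
  have hf1 : ∀ s ∈ Icc (0 : ℝ) 1, HasDerivAt (fun s : ℝ => H (x, A, A + s • η))
      (fderiv ℝ H (x, A, A + s • η) (0, 0, η)) s := fun s hs =>
    ((hcd _ (hm1 s hs)).differentiableAt (by norm_num)).hasFDerivAt.comp_hasDerivAt s (hp1 s)
  have hf2 : ∀ s ∈ Icc (0 : ℝ) 1, HasDerivAt (fun s : ℝ => H (x, 0, s • η))
      (fderiv ℝ H (x, 0, s • η) (0, 0, η)) s := fun s hs =>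
    ((hcd _ (hm2 s hs)).differentiableAt (by norm_num)).hasFDerivAt.comp_hasDerivAt s (hp2 s)
  -- second derivatives
  have hg1 : ∀ s ∈ Icc (0 : ℝ) 1, HasDerivAt (fun s : ℝ => fderiv ℝ H (x, A, A + s • η) (0, 0, η))
      (fderiv ℝ (fderiv ℝ H) (x, A, A + s • η) (0, 0, η) (0, 0, η)) s := by
    intro s hs
    have h5 : DifferentiableAt ℝ (fderiv ℝ H) (x, A, A + s • η) :=
      ((hcd _ (hm1 s hs)).fderiv_right (m := 2) (by norm_num)).differentiableAt (by norm_num)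
    have h6 : HasDerivAt (fun s : ℝ => fderiv ℝ H (x, A, A + s • η))
        (fderiv ℝ (fderiv ℝ H) (x, A, A + s • η) (0, 0, η)) s :=
      h5.hasFDerivAt.comp_hasDerivAt s (hp1 s)
    simpa using h6.clm_apply (hasDerivAt_const s ((0 : E), (0 : E), η))
  have hg2 : ∀ s ∈ Icc (0 : ℝ) 1, HasDerivAt (fun s : ℝ => fderiv ℝ H (x, 0, s • η) (0, 0, η))
      (fderiv ℝ (fderiv ℝ H) (x, 0, s • η) (0, 0, η) (0, 0, η)) s := by
    intro s hs
    have h5 : DifferentiableAt ℝ (fderiv ℝ H) (x, 0, s • η) :=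
      ((hcd _ (hm2 s hs)).fderiv_right (m := 2) (by norm_num)).differentiableAt (by norm_num)
    have h6 : HasDerivAt (fun s : ℝ => fderiv ℝ H (x, 0, s • η))
        (fderiv ℝ (fderiv ℝ H) (x, 0, s • η) (0, 0, η)) s :=
      h5.hasFDerivAt.comp_hasDerivAt s (hp2 s)
    simpa using h6.clm_apply (hasDerivAt_const s ((0 : E), (0 : E), η))
  have hlm0 : (0 : ℝ) ∈ Icc (0 : ℝ) 1 := left_mem_Icc.2 zero_le_one
  have hmin1 : fderiv ℝ H (x, A, A + (0 : ℝ) • η) (0, 0, η) = 0 := by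
    refine IsLocalMin.hasDerivAt_eq_zero (f := fun s : ℝ => H (x, A, A + s • η)) (a := 0) ?_
      (hf1 0 hlm0)
    refine Filter.Eventually.of_forall fun s => ?_
    have e : H (x, A, A + (0 : ℝ) • η) = 0 := by rw [zero_smul, add_zero]; exact h0 x A
    change H (x, A, A + (0 : ℝ) • η) ≤ H (x, A, A + s • η)
    rw [e]
    exact hnn _
  have hmin2 : fderiv ℝ H (x, 0, (0 : ℝ) • η) (0, 0, η) = 0 := by
    refine IsLocalMin.hasDerivAt_eq_zero (f := fun s : ℝ => H (x, 0, s • η)) (a := 0) ?_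
      (hf2 0 hlm0)
    refine Filter.Eventually.of_forall fun s => ?_
    have e : H (x, 0, (0 : ℝ) • η) = 0 := by rw [zero_smul]; exact h0 x 0
    change H (x, 0, (0 : ℝ) • η) ≤ H (x, 0, s • η)
    rw [e]
    exact hnn _
  have hb : ∀ p ∈ Metric.ball ((a, 0, 0) : E × E × E) δ₀,
      |fderiv ℝ (fderiv ℝ H) p (0, 0, η) (0, 0, η) -
        fderiv ℝ (fderiv ℝ H) (a, 0, 0) (0, 0, η) (0, 0, η)| ≤ ε / 2 * ‖η‖ ^ 2 := by
    intro p hp
    have h1 := hK.dist_le_mul _ (hball hp).1 _ (hball hctr).1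
    have h1d : dist p ((a, 0, 0) : E × E × E) ≤ δ₀ := (Metric.mem_ball.1 hp).le
    rw [dist_eq_norm] at h1
    have h1e : (K : ℝ) * dist p ((a, 0, 0) : E × E × E) ≤ ε / 2 :=
      (mul_le_mul_of_nonneg_left h1d K.coe_nonneg).trans hδ₀K
    replace h1 := h1.trans h1e
    obtain ⟨D, hD⟩ : ∃ D : (E × E × E) →L[ℝ] (E × E × E) →L[ℝ] ℝ,
      D = fderiv ℝ (fderiv ℝ H) p - fderiv ℝ (fderiv ℝ H) (a, 0, 0) := ⟨_, rfl⟩
    have h4 : fderiv ℝ (fderiv ℝ H) p (0, 0, η) (0, 0, η) -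
        fderiv ℝ (fderiv ℝ H) (a, 0, 0) (0, 0, η) (0, 0, η) = D (0, 0, η) (0, 0, η) := by
      rw [hD]; rfl
    rw [← hD] at h1
    rw [h4, ← Real.norm_eq_abs]
    have h6 := ContinuousLinearMap.le_opNorm₂ D ((0 : E), (0 : E), η) ((0 : E), (0 : E), η)
    rw [hn] at h6
    calc ‖D (0, 0, η) (0, 0, η)‖ ≤ ‖D‖ * ‖η‖ * ‖η‖ := h6
      _ ≤ (ε / 2) * ‖η‖ * ‖η‖ := by gcongr
      _ = ε / 2 * ‖η‖ ^ 2 := by ring
  have key := abs_le_of_second
    (φ := fun s : ℝ => H (x, A, A + s • η) - H (x, 0, s • η))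
    (φ' := fun s : ℝ => fderiv ℝ H (x, A, A + s • η) (0, 0, η) - fderiv ℝ H (x, 0, s • η) (0, 0, η))
    (φ'' := fun s : ℝ => fderiv ℝ (fderiv ℝ H) (x, A, A + s • η) (0, 0, η) (0, 0, η) -
      fderiv ℝ (fderiv ℝ H) (x, 0, s • η) (0, 0, η) (0, 0, η)) (B := ε * ‖η‖ ^ 2)
    (fun s hs => (hf1 s hs).sub (hf2 s hs)) (fun s hs => (hg1 s hs).sub (hg2 s hs))
    (fun s hs => by
      have h1 := hb _ (hm1 s hs)
      have h2 := hb _ (hm2 s hs)
      rw [abs_le] at h1 h2 ⊢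
      constructor <;> linarith [h1.1, h1.2, h2.1, h2.2])
    (by simp [h0]) (by rw [hmin1, hmin2, sub_zero])
  simp only [one_smul] at key
  rw [show A + η = B by rw [hη]; abel] at key
  rwa [hη] at key

end Crest.Agent.R231.GSegCalcx67
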