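import Crest.Agent.R231.GLoop_576

/-!
# Row 231, block G (helper651): the SMITH NEIGHBOURHOOD of the loops of period `1/2`

`L : LUG M`, `hL : L.SegLip` (`M` compact).  `X M t` = `t`-Lipschitz loops,
`V M t δ` = loops of `X M t` with `dist (γ x) (γ (x + 1/2)) < δ`.

* `lip_of_local` : local Lipschitz bounds on the circle are global
* `exists_homotopy` : for `0 ≤ t < t'` there is `δ₀ > 0` such that for `0 < δ ≤ δ₀` there is a continuous
  `H : V t δ × [0,1] → V t' δ`, `H γ 0 = γ`, `H γ 1` of period `1/2`, `H γ r = γ` if `γ` has period `1/2`,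
  equivariant for rotations and reversal.
* `exists_cover` : finitely many open sets `U` with `U` disjoint from `{γ | rot (1/2) γ ∈ U}` cover
  `X t \ V t δ`.
-/

set_option autoImplicit false
set_option linter.unusedSectionVars false

noncomputable section

open Set Filter Topology Metric

namespace Crest.Agent.R231.GSmithx651

open Crest.Agent.R231.GLugx576

/-- the circle -/
abbrev Ci : Type := UnitAddCircle

/-- half a turn -/
def hf : Ci := ((1 / 2 : ℝ) : Ci)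

theorem hf_add_hf : hf + hf = 0 := by
  unfold hf
  rw [← AddCircle.coe_add]
  norm_num

theorem neg_hf : -hf = hf := neg_eq_of_add_eq_zero_left hf_add_hf

/-! ### local to global -/

theorem exists_real (x y : Ci) : ∃ a : ℝ, y = x + (a : Ci) ∧ |a| = dist x y ∧ |a| ≤ 1 / 2 := by
  obtain ⟨b, hb⟩ := QuotientAddGroup.mk_surjective (y - x)
  have hb' : ((b : ℝ) : Ci) = y - x := hb
  refine ⟨b - round b, ?_, ?_, ?_⟩
  · rw [AddCircle.coe_sub, hb']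
    have : ((round b : ℝ) : Ci) = 0 := by
      rw [AddCircle.coe_eq_zero_iff]
      exact ⟨round b, by simp⟩
    rw [this]
    abel
  · rw [dist_comm, dist_eq_norm, ← hb', UnitAddCircle.norm_eq]
  · exact abs_sub_round b

theorem norm_coe_of_le {a : ℝ} (ha : |a| ≤ 1 / 2) : ‖(a : Ci)‖ = |a| := by
  have h : |a| ≤ |(1 : ℝ)| / 2 := by simpa using ha
  exact (AddCircle.norm_coe_eq_abs_iff (1 : ℝ) one_ne_zero).2 h

/-- local Lipschitz bounds are global -/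
theorem lip_of_local {M : Type*} [PseudoMetricSpace M] {f : Ci → M} {t d : ℝ} (hd : 0 < d)
    (h : ∀ x y, dist x y < d → dist (f x) (f y) ≤ t * dist x y) (x y : Ci) :
    dist (f x) (f y) ≤ t * dist x y := by
  obtain ⟨a, rfl, ha, ha2⟩ := exists_real x y
  obtain ⟨K, hK⟩ := exists_nat_gt (|a| / d)
  have hK0 : (0 : ℝ) < K := lt_of_le_of_lt (by positivity) hK
  have hK' : |a| / K < d := by
    rw [div_lt_iff₀ hd] at hK
    rw [div_lt_iff₀ hK0]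
    linarith [mul_comm d (K : ℝ)]
  have hstep : ∀ k : ℕ, dist (f (x + ((k * (a / K) : ℝ) : Ci))) (f (x + (((k + 1 : ℕ) * (a / K) : ℝ) : Ci)))
      ≤ t * (|a| / K) := by
    intro k
    have h1 : dist (x + ((k * (a / K) : ℝ) : Ci)) (x + (((k + 1 : ℕ) * (a / K) : ℝ) : Ci)) = |a| / K := by
      rw [dist_add_left, dist_comm, dist_eq_norm, ← AddCircle.coe_sub]
      have h2 : ((k + 1 : ℕ) * (a / K) : ℝ) - k * (a / K) = a / K := by push_cast; ring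
      rw [h2, norm_coe_of_le, abs_div, abs_of_pos hK0]
      rw [abs_div, abs_of_pos hK0]
      have h3 : (1 : ℝ) ≤ K := by
        have : 0 < K := by exact_mod_cast hK0
        exact_mod_cast this
      exact (div_le_self (abs_nonneg a) h3).trans ha2
    have h4 := h _ _ (h1.trans_lt hK')
    rwa [h1] at h4
  have hsum : ∀ k : ℕ, dist (f x) (f (x + ((k * (a / K) : ℝ) : Ci))) ≤ k * (t * (|a| / K)) := by
    intro k
    induction k with
    | zero => simp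
    | succ k ih =>
      refine (dist_triangle _ (f (x + ((k * (a / K) : ℝ) : Ci))) _).trans ?_
      have := hstep k
      push_cast at this ⊢
      linarith
  have h5 := hsum K
  have h6 : (K : ℝ) * (a / K) = a := by field_simp
  rw [h6] at h5
  refine h5.trans (le_of_eq ?_)
  rw [← ha]
  field_simp

/-- local Lipschitz bounds are global -/
theorem mem_X_of_local {M : Type*} [MetricSpace M] {γ : Lp M} {t d : ℝ} (hd : 0 < d)
    (h : ∀ x y, dist x y < d → dist (γ x) (γ y) ≤ t * dist x y) : γ ∈ X M t :=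
  mem_X_iff.2 (lip_of_local hd h)

variable {M : Type*} [MetricSpace M]

/-- the neighbourhood of the loops of period `1/2` -/
def V (M : Type*) [MetricSpace M] (t δ : ℝ) : Set (Lp M) :=
  {γ | γ ∈ X M t ∧ ∀ x, dist (γ x) (γ (x + hf)) < δ}

theorem rot_mem_V {t δ : ℝ} {γ : Lp M} (h : γ ∈ V M t δ) (a : Ci) : rot a γ ∈ V M t δ := by
  refine ⟨rot_mem h.1 a, fun x => ?_⟩
  have := h.2 (x + a)
  simp only [rot_apply]
  rwa [show x + hf + a = x + a + hf by abel]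

theorem rev_mem_V {t δ : ℝ} {γ : Lp M} (h : γ ∈ V M t δ) : rev γ ∈ V M t δ := by
  refine ⟨rev_mem h.1, fun x => ?_⟩
  have := h.2 (-x)
  simp only [rev_apply]
  have e : -(x + hf) = -x + hf := by rw [neg_add, neg_hf]
  rwa [e]

/-! ### the cover -/

/-- `U p x δ`: `γ x` is `δ/2`-near `p` and `γ (x + 1/2)` is not -/
def U (p : M) (x : Ci) (δ : ℝ) : Set (Lp M) :=
  {γ | dist (γ x) p < δ / 2 ∧ δ / 2 < dist (γ (x + hf)) p}

theorem isOpen_U (p : M) (x : Ci) (δ : ℝ) : IsOpen (U p x δ) := by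
  have h1 : Continuous fun γ : Lp M => dist (γ x) p := by fun_prop
  have h2 : Continuous fun γ : Lp M => dist (γ (x + hf)) p := by fun_prop
  exact (isOpen_lt h1 continuous_const).inter (isOpen_lt continuous_const h2)

theorem disjoint_U (p : M) (x : Ci) (δ : ℝ) : Disjoint (U p x δ) {γ | rot hf γ ∈ U p x δ} := by
  rw [Set.disjoint_left]
  rintro γ ⟨h1, _⟩ ⟨_, h4⟩
  simp only [rot_apply] at h4
  rw [show x + hf + hf = x by rw [add_assoc, hf_add_hf, add_zero]] at h4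
  exact absurd h1 (not_lt.2 h4.le)

theorem exists_cover [CompactSpace M] {t δ : ℝ} (hδ : 0 < δ) :
    ∃ S : Finset (M × Ci), ∀ γ ∈ X M t, γ ∉ V M t δ → ∃ q ∈ S, γ ∈ U q.1 q.2 δ := by
  have hc : IsCompact (X M t) := isCompact_X t
  have hclosed : IsCompact (X M t ∩ {γ : Lp M | ∃ x, δ ≤ dist (γ x) (γ (x + hf))}) := by
    refine hc.inter_right ?_
    have h1 : Continuous fun q : Lp M × Ci => dist (q.1 q.2) (q.1 (q.2 + hf)) := by fun_prop
    have h2 : IsClosed {q : Lp M × Ci | δ ≤ dist (q.1 q.2) (q.1 (q.2 + hf))} :=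
      isClosed_le continuous_const h1
    have h3 : {γ : Lp M | ∃ x, δ ≤ dist (γ x) (γ (x + hf))} =
        Prod.fst '' {q : Lp M × Ci | δ ≤ dist (q.1 q.2) (q.1 (q.2 + hf))} := by
      ext γ
      constructor
      · rintro ⟨x, hx⟩
        exact ⟨(γ, x), hx, rfl⟩
      · rintro ⟨⟨γ', x⟩, hx, rfl⟩
        exact ⟨x, hx⟩
    rw [h3]
    exact isClosedMap_fst_of_compactSpace _ h2
  obtain ⟨S, hS⟩ := hclosed.elim_finite_subcover (fun q : M × Ci => U q.1 q.2 δ)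
    (fun q => isOpen_U _ _ _) (by
      rintro γ ⟨_, x, hx⟩
      refine mem_iUnion.2 ⟨(γ x, x), ?_, ?_⟩
      · show dist (γ x) (γ x) < δ / 2
        rw [dist_self]
        linarith
      · show δ / 2 < dist (γ (x + hf)) (γ x)
        rw [dist_comm]
        linarith)
  refine ⟨S, fun γ hγ hV => ?_⟩
  have h1 : γ ∈ X M t ∩ {γ : Lp M | ∃ x, δ ≤ dist (γ x) (γ (x + hf))} := by
    refine ⟨hγ, ?_⟩
    by_contra hne
    refine hV ⟨hγ, fun x => ?_⟩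
    by_contra hx
    exact hne ⟨x, not_lt.1 hx⟩
  obtain ⟨q, hq⟩ := mem_iUnion.1 (hS h1)
  obtain ⟨hq1, hq2⟩ := mem_iUnion.1 hq
  exact ⟨q, hq1, hq2⟩

/-! ### the homotopy -/

variable [CompactSpace M] (D : LUG M)

/-- the homotopy, pointwise -/
def hm (γ : Lp M) (r : ℝ) (x : Ci) : M := D.seg (γ x) (γ (x + hf)) (r / 2)

variable {D}

theorem hm_zero {δ : ℝ} (hδ : δ ≤ D.r0) {γ : Lp M} (h : ∀ x, dist (γ x) (γ (x + hf)) < δ)
    (x : Ci) : hm D γ 0 x = γ x := by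
  unfold hm
  rw [zero_div]
  exact D.seg_zero ((h x).trans_le hδ)

theorem hm_period {γ : Lp M} (h : rot hf γ = γ) {r : ℝ} (hr : r ∈ Icc (0 : ℝ) 1) (x : Ci) :
    hm D γ r x = γ x := by
  unfold hm
  have : γ (x + hf) = γ x := DFunLike.congr_fun h x
  rw [this]
  exact D.seg_self _ ⟨by linarith [hr.1], by linarith [hr.2]⟩

theorem hm_add_hf {δ : ℝ} (hδ : δ ≤ D.r0) {γ : Lp M} (h : ∀ x, dist (γ x) (γ (x + hf)) < δ)
    {r : ℝ} (hr : r ∈ Icc (0 : ℝ) 1) (x : Ci) :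
    hm D γ r (x + hf) = D.seg (γ x) (γ (x + hf)) (1 - r / 2) := by
  unfold hm
  rw [show x + hf + hf = x by rw [add_assoc, hf_add_hf, add_zero]]
  exact D.seg_symm ((h x).trans_le hδ) ⟨by linarith [hr.1], by linarith [hr.2]⟩

theorem dist_hm_hf {δ : ℝ} (hδ : δ ≤ D.r0) {γ : Lp M}
    (h : ∀ x, dist (γ x) (γ (x + hf)) < δ) {r : ℝ} (hr : r ∈ Icc (0 : ℝ) 1) (x : Ci) :
    dist (hm D γ r x) (hm D γ r (x + hf)) = (1 - r) * dist (γ x) (γ (x + hf)) := by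
  rw [hm_add_hf hδ h hr]
  unfold hm
  rw [D.dist_seg ((h x).trans_le hδ) ⟨by linarith [hr.1], by linarith [hr.2]⟩
    ⟨by linarith [hr.1, hr.2], by linarith [hr.1]⟩]
  congr 1
  rw [abs_of_nonpos (by linarith [hr.2])]
  ring

theorem hm_rot (γ : Lp M) (a : Ci) (r : ℝ) (x : Ci) :
    hm D (rot a γ) r x = hm D γ r (x + a) := by
  unfold hm
  simp only [rot_apply]
  rw [show x + hf + a = x + a + hf by abel]

theorem hm_rev (γ : Lp M) (r : ℝ) (x : Ci) : hm D (rev γ) r x = hm D γ r (-x) := by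
  unfold hm
  simp only [rev_apply]
  rw [neg_add, neg_hf]

theorem continuous_hm {t δ : ℝ} (hδ : δ ≤ D.r0) :
    Continuous fun q : (V M t δ × Icc (0 : ℝ) 1) × Ci => hm D (q.1.1 : Lp M) q.1.2 q.2 := by
  have h1 : Continuous fun q : (V M t δ × Icc (0 : ℝ) 1) × Ci =>
      (((q.1.1 : Lp M) q.2, (q.1.1 : Lp M) (q.2 + hf), ((q.1.2 : ℝ) / 2)) : M × M × ℝ) := by
    fun_prop
  refine D.continuousOn_seg.comp_continuous h1 fun q => ⟨(q.1.1.2.2 q.2).trans_le hδ, ?_, ?_⟩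
  · have := q.1.2.2.1
    show 0 ≤ (q.1.2 : ℝ) / 2
    linarith
  · have := q.1.2.2.2
    show (q.1.2 : ℝ) / 2 ≤ 1
    linarith

/-- the `max` form of `LUG.SegLip` (enough for the Smith neighbourhood) -/
def SegLipM {M : Type*} [MetricSpace M] (L : LUG M) : Prop :=
  ∀ ε > (0 : ℝ), ∃ δ > (0 : ℝ), ∀ x y x' y' : M, dist x y < δ → dist x' y' < δ → dist x x' < δ →
    ∀ s ∈ Icc (0 : ℝ) 1, dist (L.seg x y s) (L.seg x' y' s) ≤
      (1 + ε) * max (dist x x') (dist y y')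

theorem segLipM_of_segLip {M : Type*} [MetricSpace M] {L : LUG M} (h : L.SegLip) :
    SegLipM L := by
  intro ε hε
  obtain ⟨δ, hδ, H⟩ := h ε hε
  refine ⟨δ, hδ, fun x y x' y' h1 h2 h3 s hs => (H x y x' y' h1 h2 h3 s hs).trans ?_⟩
  refine mul_le_mul_of_nonneg_left ?_ (by linarith)
  have h4 := mul_le_mul_of_nonneg_left (le_max_left (dist x x') (dist y y'))
    (show (0 : ℝ) ≤ 1 - s by linarith [hs.2])
  have h5 := mul_le_mul_of_nonneg_left (le_max_right (dist x x') (dist y y')) hs.1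
  linarith

/-- Lipschitz bound of the homotopy -/
theorem lip_hm (hD : SegLipM D) {t t' : ℝ} (ht : 0 ≤ t) (htt : t < t') : ∃ δ₀ : ℝ, 0 < δ₀ ∧ δ₀ ≤ D.r0 ∧
    ∀ γ ∈ V M t δ₀, ∀ r ∈ Icc (0 : ℝ) 1, ∀ x y, dist (hm D γ r x) (hm D γ r y) ≤ t' * dist x y := by
  obtain ⟨ε, hε, hεt⟩ : ∃ ε : ℝ, 0 < ε ∧ (1 + ε) * t ≤ t' := by
    refine ⟨(t' - t) / (t + 1), div_pos (by linarith) (by linarith), ?_⟩
    rw [add_mul, one_mul, div_mul_eq_mul_div]
    have : (t' - t) * t / (t + 1) ≤ t' - t := by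
      rw [div_le_iff₀ (by linarith)]
      nlinarith
    linarith
  obtain ⟨d, hd, hlip⟩ := hD ε hε
  refine ⟨min d D.r0, lt_min hd D.r0_pos, min_le_right _ _, ?_⟩
  intro γ hγ r hr
  refine lip_of_local (d := d / (t + 1)) (div_pos hd (by linarith)) fun x y hxy => ?_
  have hγ1 := mem_X_iff.1 hγ.1
  have h1 : dist (γ x) (γ y) < d := by
    refine (hγ1 x y).trans_lt ?_
    rw [lt_div_iff₀ (by linarith)] at hxy
    nlinarith [dist_nonneg (x := x) (y := y)]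
  have h2 := hlip (γ x) (γ (x + hf)) (γ y) (γ (y + hf)) ((hγ.2 x).trans_le (min_le_left _ _))
    ((hγ.2 y).trans_le (min_le_left _ _)) h1 (r / 2) ⟨by linarith [hr.1], by linarith [hr.2]⟩
  refine h2.trans ?_
  have h3 := hγ1 x y
  have h4 := hγ1 (x + hf) (y + hf)
  rw [dist_add_right] at h4
  have h5 : max (dist (γ x) (γ y)) (dist (γ (x + hf)) (γ (y + hf))) ≤ t * dist x y :=
    max_le h3 h4
  calc (1 + ε) * max (dist (γ x) (γ y)) (dist (γ (x + hf)) (γ (y + hf)))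
      ≤ (1 + ε) * (t * dist x y) := mul_le_mul_of_nonneg_left h5 (by linarith)
    _ = ((1 + ε) * t) * dist x y := by ring
    _ ≤ t' * dist x y := mul_le_mul_of_nonneg_right hεt dist_nonneg

theorem V_mono {t δ δ' : ℝ} (h : δ ≤ δ') : V M t δ ⊆ V M t δ' :=
  fun _ hγ => ⟨hγ.1, fun x => (hγ.2 x).trans_le h⟩

/-- **the Smith homotopy** -/
theorem exists_homotopyM (D : LUG M) (hD : SegLipM D) {t t' : ℝ} (ht : 0 ≤ t) (htt : t < t') :
    ∃ δ₀ : ℝ, 0 < δ₀ ∧ ∀ δ : ℝ, 0 < δ → δ ≤ δ₀ → ∃ H : C(V M t δ × Icc (0 : ℝ) 1, V M t' δ),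
      (∀ γ : V M t δ, (H (γ, ⟨0, left_mem_Icc.2 zero_le_one⟩) : Lp M) = γ) ∧
      (∀ γ : V M t δ, rot hf (H (γ, ⟨1, right_mem_Icc.2 zero_le_one⟩) : Lp M) =
        H (γ, ⟨1, right_mem_Icc.2 zero_le_one⟩)) ∧
      (∀ (γ : V M t δ) (r : Icc (0 : ℝ) 1), rot hf (γ : Lp M) = γ →
        (H (γ, r) : Lp M) = γ) ∧
      (∀ (γ : V M t δ) (r : Icc (0 : ℝ) 1) (a : Ci),
        (H (⟨rot a γ, rot_mem_V γ.2 a⟩, r) : Lp M) = rot a (H (γ, r))) ∧
      (∀ (γ : V M t δ) (r : Icc (0 : ℝ) 1),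
        (H (⟨rev γ, rev_mem_V γ.2⟩, r) : Lp M) = rev (H (γ, r))) := by
  obtain ⟨δ₀, hδ₀, hδr, hlip⟩ := lip_hm (D := D) hD ht htt
  refine ⟨δ₀, hδ₀, fun δ hδ hδδ => ?_⟩
  have hc := continuous_hm (D := D) (t := t) (δ := δ) (hδδ.trans hδr)
  let F : C((V M t δ × Icc (0 : ℝ) 1) × Ci, M) := ⟨_, hc⟩
  have hFV : ∀ q : V M t δ × Icc (0 : ℝ) 1, F.curry q ∈ V M t' δ := by
    intro q
    refine ⟨mem_X_iff.2 fun x y => ?_, fun x => ?_⟩
    · exact hlip q.1 (V_mono hδδ q.1.2) q.2 q.2.2 x y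
    · show dist (hm D (q.1 : Lp M) q.2 x) (hm D (q.1 : Lp M) q.2 (x + hf)) < δ
      rw [dist_hm_hf (hδδ.trans hδr) q.1.2.2 q.2.2]
      have h1 := q.1.2.2 x
      have h2 := q.2.2.1
      have h3 : (1 - (q.2 : ℝ)) * dist ((q.1 : Lp M) x) ((q.1 : Lp M) (x + hf)) ≤
          dist ((q.1 : Lp M) x) ((q.1 : Lp M) (x + hf)) := by
        nlinarith [dist_nonneg (x := (q.1 : Lp M) x) (y := (q.1 : Lp M) (x + hf))]
      linarith
  refine ⟨⟨fun q => ⟨F.curry q, hFV q⟩, by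
    exact (ContinuousMap.continuous F.curry).subtype_mk _⟩, ?_, ?_, ?_, ?_, ?_⟩
  · intro γ
    ext x
    exact hm_zero (hδδ.trans hδr) γ.2.2 x
  · intro γ
    ext x
    show hm D (γ : Lp M) 1 (x + hf) = hm D (γ : Lp M) 1 x
    have h := dist_hm_hf (D := D) (hδδ.trans hδr) γ.2.2 (r := 1) ⟨zero_le_one, le_rfl⟩ x
    rw [sub_self, zero_mul] at h
    exact (dist_eq_zero.1 h).symm
  · intro γ r h
    ext x
    exact hm_period h r.2 x
  · intro γ r a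
    ext x
    exact hm_rot _ a _ x
  · intro γ r
    ext x
    exact hm_rev _ _ x

/-- **the Smith homotopy**, `SegLip` form -/
theorem exists_homotopy (D : LUG M) (hD : D.SegLip) {t t' : ℝ} (ht : 0 ≤ t) (htt : t < t') :
    ∃ δ₀ : ℝ, 0 < δ₀ ∧ ∀ δ : ℝ, 0 < δ → δ ≤ δ₀ → ∃ H : C(V M t δ × Icc (0 : ℝ) 1, V M t' δ),
      (∀ γ : V M t δ, (H (γ, ⟨0, left_mem_Icc.2 zero_le_one⟩) : Lp M) = γ) ∧
      (∀ γ : V M t δ, rot hf (H (γ, ⟨1, right_mem_Icc.2 zero_le_one⟩) : Lp M) =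
        H (γ, ⟨1, right_mem_Icc.2 zero_le_one⟩)) ∧
      (∀ (γ : V M t δ) (r : Icc (0 : ℝ) 1), rot hf (γ : Lp M) = γ →
        (H (γ, r) : Lp M) = γ) ∧
      (∀ (γ : V M t δ) (r : Icc (0 : ℝ) 1) (a : Ci),
        (H (⟨rot a γ, rot_mem_V γ.2 a⟩, r) : Lp M) = rot a (H (γ, r))) ∧
      (∀ (γ : V M t δ) (r : Icc (0 : ℝ) 1),
        (H (⟨rev γ, rev_mem_V γ.2⟩, r) : Lp M) = rev (H (γ, r))) :=
  exists_homotopyM D (segLipM_of_segLip hD) ht htt

/-- **the Smith homotopy**, unbundled form -/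
theorem exists_homotopyF (D : LUG M) (hD : SegLipM D) {t t' : ℝ} (ht : 0 ≤ t) (htt : t < t') :
    ∃ δ₀ : ℝ, 0 < δ₀ ∧ ∀ δ : ℝ, 0 < δ → δ ≤ δ₀ → ∃ F : Lp M → ℝ → Lp M,
      ContinuousOn (fun p : Lp M × ℝ => F p.1 p.2) (V M t δ ×ˢ Icc (0 : ℝ) 1) ∧
      (∀ γ ∈ V M t δ, ∀ r ∈ Icc (0 : ℝ) 1, F γ r ∈ V M t' δ) ∧
      (∀ γ ∈ V M t δ, F γ 0 = γ) ∧
      (∀ γ ∈ V M t δ, rot hf (F γ 1) = F γ 1) ∧
      (∀ γ ∈ V M t δ, ∀ r ∈ Icc (0 : ℝ) 1, rot hf γ = γ → F γ r = γ) ∧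
      (∀ γ ∈ V M t δ, ∀ r ∈ Icc (0 : ℝ) 1, ∀ a : Ci, F (rot a γ) r = rot a (F γ r)) ∧
      (∀ γ ∈ V M t δ, ∀ r ∈ Icc (0 : ℝ) 1, F (rev γ) r = rev (F γ r)) := by
  classical
  obtain ⟨δ₀, hδ₀, H⟩ := exists_homotopyM D hD ht htt
  refine ⟨δ₀, hδ₀, fun δ hδ hδδ => ?_⟩
  obtain ⟨H, h0, h1, h2, h3, h4⟩ := H δ hδ hδδ
  let F : Lp M → ℝ → Lp M := fun γ r =>
    if h : γ ∈ V M t δ ∧ r ∈ Icc (0 : ℝ) 1 then H (⟨γ, h.1⟩, ⟨r, h.2⟩) else γ
  have hF : ∀ (γ : Lp M) (hγ : γ ∈ V M t δ) (r : ℝ) (hr : r ∈ Icc (0 : ℝ) 1),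
      F γ r = H (⟨γ, hγ⟩, ⟨r, hr⟩) := fun γ hγ r hr => dif_pos ⟨hγ, hr⟩
  refine ⟨F, ?_, ?_, ?_, ?_, ?_, ?_, ?_⟩
  · rw [continuousOn_iff_continuous_domRestrict]
    have hc : Continuous (fun q : (V M t δ ×ˢ Icc (0 : ℝ) 1 : Set (Lp M × ℝ)) =>
        (H (⟨q.1.1, q.2.1⟩, ⟨q.1.2, q.2.2⟩) : Lp M)) := by
      refine continuous_subtype_val.comp (H.continuous.comp ?_)
      exact ((continuous_fst.comp continuous_subtype_val).subtype_mk _).prodMk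
        ((continuous_snd.comp continuous_subtype_val).subtype_mk _)
    refine hc.congr fun q => ?_
    exact (hF q.1.1 q.2.1 q.1.2 q.2.2).symm
  · intro γ hγ r hr
    rw [hF γ hγ r hr]; exact (H _).2
  · intro γ hγ
    rw [hF γ hγ 0 (left_mem_Icc.2 zero_le_one)]; exact h0 ⟨γ, hγ⟩
  · intro γ hγ
    rw [hF γ hγ 1 (right_mem_Icc.2 zero_le_one)]; exact h1 ⟨γ, hγ⟩
  · intro γ hγ r hr h
    rw [hF γ hγ r hr]; exact h2 ⟨γ, hγ⟩ ⟨r, hr⟩ h
  · intro γ hγ r hr a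
    rw [hF γ hγ r hr, hF _ (rot_mem_V hγ a) r hr]; exact h3 ⟨γ, hγ⟩ ⟨r, hr⟩ a
  · intro γ hγ r hr
    rw [hF γ hγ r hr, hF _ (rev_mem_V hγ) r hr]; exact h4 ⟨γ, hγ⟩ ⟨r, hr⟩

end Crest.Agent.R231.GSmithx651
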