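import Crest.Agent.R231.GeoLug_724
import Crest.Agent.R231.GSmith_651
import Crest.Agent.R231.GSegCalc_67
import Crest.Agent.R226.LoeperUnif_128

/-!
# Row 231 (S0357), block G (helper67): near isometry of `exp` and `SegLip`

`M` compact Riemannian manifold, `G : GeoData n M`.
* `near_iso` : for all `ε > 0` there is `r > 0` such that for `‖v‖, ‖v'‖ ≤ r` in `T_z M`
  `|d(exp_z v, exp_z v')² - ‖v' - v‖²| ≤ ε ‖v' - v‖²`
* `segLip : (lug G).SegLip`,  `segLipM : SegLipM (lug G)`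
-/

set_option autoImplicit false
set_option linter.unusedSectionVars false

noncomputable section

open Bundle Set Filter
open scoped Manifold ContDiff Bundle ENNReal Topology
open Crest.GeometryTopology.MTW
open Crest.Agent.R226 Crest.Agent.R226.LoeperUnif128 Crest.Agent.R226.TMSmooth771
open Crest.Agent.R231.GeoSegx724 Crest.Agent.R231.GLugx576 Crest.Agent.R231.GeoLugx724

namespace Crest.Agent.R231.GSegLipx67

variable {n : ℕ} {M : Type*} [MetricSpace M] [ChartedSpace (EuclideanSpace ℝ (Fin n)) M]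
  [IsManifold (𝓡 n) ∞ M]
  [RiemannianBundle (fun p : M => TangentSpace (𝓡 n) p)]

/-- the cost in bundle coordinates -/
def HH (G : GeoData n M) (y : M) (z : EE n × EE n × EE n) : ℝ :=
  halfDistSq (exT G (tmci y (z.1, z.2.1))) (exT G (tmci y (z.1, z.2.2)))

theorem contDiffAt_HH (G : GeoData n M) (y : M) :
    ContDiffAt ℝ 3 (HH G y) (extChartAt (𝓡 n) y y, 0, 0) := by
  have hyt : extChartAt (𝓡 n) y y ∈ (extChartAt (𝓡 n) y).target :=
    (extChartAt (𝓡 n) y).map_source (mem_extChartAt_source y)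
  have e0 : tmci y (extChartAt (𝓡 n) y y, 0) = (⟨y, 0⟩ : TangentBundle (𝓡 n) M) := by
    have := tmci_tmc (x₀ := y) (p := (⟨y, 0⟩ : TangentBundle (𝓡 n) M)) (mem_chart_source _ y)
    unfold tmc at this
    simp only [map_zero] at this
    exact this
  have h1 : ContMDiffAt 𝓘(ℝ, EE n × EE n × EE n) 𝓘(ℝ, EE n × EE n) ∞
      (fun z : EE n × EE n × EE n => (z.1, z.2.1)) (extChartAt (𝓡 n) y y, 0, 0) := by
    apply ContDiffAt.contMDiffAt
    fun_prop
  have h2 : ContMDiffAt 𝓘(ℝ, EE n × EE n × EE n) 𝓘(ℝ, EE n × EE n) ∞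
      (fun z : EE n × EE n × EE n => (z.1, z.2.2)) (extChartAt (𝓡 n) y y, 0, 0) := by
    apply ContDiffAt.contMDiffAt
    fun_prop
  have h3 := ContMDiffAt.comp (extChartAt (𝓡 n) y y, (0 : EE n), (0 : EE n))
    (contMDiffAt_tmci (x₀ := y) (q := (extChartAt (𝓡 n) y y, (0 : EE n))) hyt) h1
  have h4 := ContMDiffAt.comp (extChartAt (𝓡 n) y y, (0 : EE n), (0 : EE n))
    (contMDiffAt_tmci (x₀ := y) (q := (extChartAt (𝓡 n) y y, (0 : EE n))) hyt) h2
  have hex : ContMDiff (𝓡 n).tangent (𝓡 n) ∞ (exT G) := G.smooth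
  have h5 := (hex.contMDiffAt).comp (extChartAt (𝓡 n) y y, (0 : EE n), (0 : EE n)) h3
  have h6 := (hex.contMDiffAt).comp (extChartAt (𝓡 n) y y, (0 : EE n), (0 : EE n)) h4
  have h7 := h5.prodMk h6
  have hopen : IsOpen {q : M × M | dist q.1 q.2 < G.r₀} :=
    isOpen_lt (continuous_fst.dist continuous_snd) continuous_const
  have h8 : ContMDiffAt ((𝓡 n).prod (𝓡 n)) 𝓘(ℝ) ∞ (fun q : M × M => halfDistSq q.1 q.2) (y, y) :=
    G.smooth_cost.contMDiffAt (hopen.mem_nhds (by simp [G.r₀_pos]))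
  have h9 : ContMDiffAt ((𝓡 n).prod (𝓡 n)) 𝓘(ℝ) ∞ (fun q : M × M => halfDistSq q.1 q.2)
      ((fun z : EE n × EE n × EE n =>
        (exT G (tmci y (z.1, z.2.1)), exT G (tmci y (z.1, z.2.2))))
        (extChartAt (𝓡 n) y y, (0 : EE n), (0 : EE n))) := by
    simp only [e0]
    have e2 : exT G (⟨y, 0⟩ : TangentBundle (𝓡 n) M) = y := G.ex_zero y
    rw [e2]
    exact h8
  exact (contMDiffAt_iff_contDiffAt.1
    (ContMDiffAt.comp (extChartAt (𝓡 n) y y, (0 : EE n), (0 : EE n)) h9 h7)).of_le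
    Crest.Agent.R226.LoeperPt128.three_le_infty

variable [IsContMDiffRiemannianBundle (𝓡 n) ∞ (EuclideanSpace ℝ (Fin n))
  (fun p : M => TangentSpace (𝓡 n) p)]

theorem near_iso_local (G : GeoData n M) (y : M) {ε : ℝ} (hε : 0 < ε) :
    ∃ r : ℝ, 0 < r ∧ ∀ᶠ z in 𝓝 y, ∀ v v' : TangentSpace (𝓡 n) z, ‖v‖ ≤ r → ‖v'‖ ≤ r →
      |dist (G.ex z v) (G.ex z v') ^ 2 - ‖v' - v‖ ^ 2| ≤ ε * ‖v' - v‖ ^ 2 := by
  obtain ⟨C, hC, hb⟩ := dphi_bounds (n := n) y
  obtain ⟨δ, hδ, hq⟩ := GSegCalcx67.quad2 (contDiffAt_HH G y)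
    (fun x A => by simp [HH, halfDistSq]) (fun p => by unfold HH halfDistSq; positivity)
    (show 0 < ε / (2 * C ^ 2) by positivity)
  have hcont : ∀ᶠ z in 𝓝 y, ‖extChartAt (𝓡 n) y z - extChartAt (𝓡 n) y y‖ < δ := by
    have h1 := (continuousAt_extChartAt (I := 𝓡 n) y)
    have h2 : Tendsto (fun z => ‖extChartAt (𝓡 n) y z - extChartAt (𝓡 n) y y‖) (𝓝 y)
        (𝓝 ‖extChartAt (𝓡 n) y y - extChartAt (𝓡 n) y y‖) := (h1.sub continuousAt_const).norm
    rw [sub_self, norm_zero] at h2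
    exact h2.eventually_lt_const hδ
  refine ⟨min (δ / (2 * C)) (G.r₀ / 4), lt_min (by positivity) (by linarith [G.r₀_pos]), ?_⟩
  filter_upwards [hb, hcont] with z ⟨hz, hzb⟩ hzc v v' hv hv'
  have hv1 : ‖dphi y z v‖ < δ := by
    refine ((hzb v).1).trans_lt ?_
    calc C * ‖v‖ ≤ C * (δ / (2 * C)) := by gcongr; exact hv.trans (min_le_left _ _)
      _ = δ / 2 := by field_simp
      _ < δ := by linarith
  have hv1' : ‖dphi y z v'‖ < δ := by
    refine ((hzb v').1).trans_lt ?_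
    calc C * ‖v'‖ ≤ C * (δ / (2 * C)) := by gcongr; exact hv'.trans (min_le_left _ _)
      _ = δ / 2 := by field_simp
      _ < δ := by linarith
  have h1 := hq (extChartAt (𝓡 n) y z) (dphi y z v) (dphi y z v') hzc hv1 hv1'
  have et : ∀ w : TangentSpace (𝓡 n) z,
      tmci y (extChartAt (𝓡 n) y z, dphi y z w) = (⟨z, w⟩ : TangentBundle (𝓡 n) M) := fun w =>
    tmci_tmc (x₀ := y) (p := (⟨z, w⟩ : TangentBundle (𝓡 n) M)) hz
  have eA : HH G y (extChartAt (𝓡 n) y z, dphi y z v, dphi y z v') =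
      dist (G.ex z v) (G.ex z v') ^ 2 / 2 := by
    unfold HH
    simp only [et]
    rfl
  have hn : ‖v' - v‖ < G.r₀ := by
    have h2 := norm_sub_le v' v
    have h3 := hv.trans (min_le_right _ _)
    have h4 := hv'.trans (min_le_right _ _)
    have := G.r₀_pos
    linarith
  have eB : HH G y (extChartAt (𝓡 n) y z, 0, dphi y z v' - dphi y z v) = ‖v' - v‖ ^ 2 / 2 := by
    have e1 : dphi y z v' - dphi y z v = dphi y z (v' - v) := (map_sub _ _ _).symm
    have e2 : (0 : EE n) = dphi y z 0 := (map_zero _).symm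
    unfold HH
    rw [e1, e2]
    simp only [et]
    change dist (G.ex z 0) (G.ex z (v' - v)) ^ 2 / 2 = _
    have h3 := G.dist_eq z (v' - v) 0 1 (by simpa using hn)
    rw [zero_smul, one_smul] at h3
    rw [h3]
    simp
  rw [eA, eB] at h1
  have h5 : ‖dphi y z v' - dphi y z v‖ ≤ C * ‖v' - v‖ := by
    rw [← map_sub]
    exact (hzb _).1
  have h6 : ε / (2 * C ^ 2) * ‖dphi y z v' - dphi y z v‖ ^ 2 ≤
      ε / (2 * C ^ 2) * (C * ‖v' - v‖) ^ 2 := by gcongr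
  have h7 : ε / (2 * C ^ 2) * (C * ‖v' - v‖) ^ 2 = ε / 2 * ‖v' - v‖ ^ 2 := by
    field_simp
  have h8 := (h1.trans h6).trans_eq h7
  rw [abs_le] at h8 ⊢
  constructor <;> linarith [h8.1, h8.2]

variable [CompactSpace M]

/-- **near isometry of the exponential map at small scale** -/
theorem near_iso (G : GeoData n M) {ε : ℝ} (hε : 0 < ε) :
    ∃ r : ℝ, 0 < r ∧ ∀ (z : M) (v v' : TangentSpace (𝓡 n) z), ‖v‖ ≤ r → ‖v'‖ ≤ r →
      |dist (G.ex z v) (G.ex z v') ^ 2 - ‖v' - v‖ ^ 2| ≤ ε * ‖v' - v‖ ^ 2 := by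
  have h : ∃ r : ℝ, 0 < r ∧ ∀ z ∈ (univ : Set M), ∀ v v' : TangentSpace (𝓡 n) z,
      ‖v‖ ≤ r → ‖v'‖ ≤ r →
      |dist (G.ex z v) (G.ex z v') ^ 2 - ‖v' - v‖ ^ 2| ≤ ε * ‖v' - v‖ ^ 2 := by
    refine isCompact_univ.induction_on (p := fun S : Set M => ∃ r : ℝ, 0 < r ∧ ∀ z ∈ S,
      ∀ v v' : TangentSpace (𝓡 n) z, ‖v‖ ≤ r → ‖v'‖ ≤ r →
      |dist (G.ex z v) (G.ex z v') ^ 2 - ‖v' - v‖ ^ 2| ≤ ε * ‖v' - v‖ ^ 2) ?_ ?_ ?_ ?_
    · exact ⟨1, one_pos, fun z hz => absurd hz (Set.notMem_empty _)⟩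
    · rintro s t hst ⟨r, hr, H⟩
      exact ⟨r, hr, fun z hz => H z (hst hz)⟩
    · rintro s t ⟨r, hr, H⟩ ⟨r', hr', H'⟩
      refine ⟨min r r', lt_min hr hr', ?_⟩
      rintro z (hz | hz) v v' h1 h2
      · exact H z hz v v' (h1.trans (min_le_left _ _)) (h2.trans (min_le_left _ _))
      · exact H' z hz v v' (h1.trans (min_le_right _ _)) (h2.trans (min_le_right _ _))
    · intro y _
      obtain ⟨r, hr, H⟩ := near_iso_local G y hε
      exact ⟨_, mem_nhdsWithin_of_mem_nhds H, r, hr, fun z hz => hz⟩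
  obtain ⟨r, hr, H⟩ := h
  exact ⟨r, hr, fun z => H z (mem_univ z)⟩

/-- linear form -/
theorem near_iso' (G : GeoData n M) {ε : ℝ} (hε : 0 < ε) :
    ∃ r : ℝ, 0 < r ∧ ∀ (z : M) (v v' : TangentSpace (𝓡 n) z), ‖v‖ ≤ r → ‖v'‖ ≤ r →
      dist (G.ex z v) (G.ex z v') ≤ (1 + ε) * ‖v' - v‖ ∧
      ‖v' - v‖ ≤ (1 + ε) * dist (G.ex z v) (G.ex z v') := by
  obtain ⟨η, hη, hη1, hη2⟩ : ∃ η : ℝ, 0 < η ∧ η ≤ ε ∧ 1 ≤ (1 + ε) ^ 2 * (1 - η) := by
    refine ⟨ε / (1 + ε), by positivity, ?_, ?_⟩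
    · rw [div_le_iff₀ (by linarith)]
      nlinarith
    · have e : 1 - ε / (1 + ε) = 1 / (1 + ε) := by field_simp; ring
      rw [e]
      have e2 : (1 + ε) ^ 2 * (1 / (1 + ε)) = 1 + ε := by field_simp
      rw [e2]; linarith
  obtain ⟨r, hr, H⟩ := near_iso G hη
  refine ⟨r, hr, fun z v v' h1 h2 => ?_⟩
  have h3 := H z v v' h1 h2
  rw [abs_le] at h3
  have hN : 0 ≤ ‖v' - v‖ := norm_nonneg _
  have hd : 0 ≤ dist (G.ex z v) (G.ex z v') := dist_nonneg
  constructor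
  · refine abs_le_of_sq_le_sq' ?_ (by positivity) |>.2
    rw [mul_pow]
    have h4 : (1 + η) * ‖v' - v‖ ^ 2 ≤ (1 + ε) ^ 2 * ‖v' - v‖ ^ 2 := by
      gcongr
      nlinarith
    linarith [h3.2]
  · refine abs_le_of_sq_le_sq' ?_ (by positivity) |>.2
    rw [mul_pow]
    have h4 : (1 + ε) ^ 2 * ((1 - η) * ‖v' - v‖ ^ 2) ≤
        (1 + ε) ^ 2 * dist (G.ex z v) (G.ex z v') ^ 2 := by
      gcongr
      linarith [h3.1]
    have h5 : 1 * ‖v' - v‖ ^ 2 ≤ (1 + ε) ^ 2 * (1 - η) * ‖v' - v‖ ^ 2 := by gcongr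
    linarith

/-- one variable form of `SegLip` -/
theorem seg_right (G : GeoData n M) {ε : ℝ} (hε : 0 < ε) :
    ∃ r : ℝ, 0 < r ∧ ∀ x y y' : M, dist x y ≤ r → dist x y' ≤ r → ∀ s ∈ Icc (0 : ℝ) 1,
      dist (seg G x y s) (seg G x y' s) ≤ (1 + ε) * (s * dist y y') := by
  obtain ⟨η, hη, hη1⟩ : ∃ η : ℝ, 0 < η ∧ (1 + η) * (1 + η) ≤ 1 + ε := by
    refine ⟨min 1 (ε / 3), lt_min one_pos (by positivity), ?_⟩
    have h1 : min 1 (ε / 3) ≤ 1 := min_le_left _ _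
    have h2 : min 1 (ε / 3) ≤ ε / 3 := min_le_right _ _
    have h3 : 0 < min 1 (ε / 3) := lt_min one_pos (by positivity)
    nlinarith
  obtain ⟨r, hr, H⟩ := near_iso' G hη
  refine ⟨r, hr, fun x y y' h1 h2 s hs => ?_⟩
  have hs0 := hs.1
  have hw : ‖lg G x y‖ ≤ r := by rw [norm_lg]; exact h1
  have hw' : ‖lg G x y'‖ ≤ r := by rw [norm_lg]; exact h2
  have hsw : ∀ w : TangentSpace (𝓡 n) x, ‖w‖ ≤ r → ‖s • w‖ ≤ r := by
    intro w hwr
    rw [norm_smul, Real.norm_of_nonneg hs0]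
    exact (mul_le_of_le_one_left (norm_nonneg _) hs.2).trans hwr
  have h3 := (H x (s • lg G x y) (s • lg G x y') (hsw _ hw) (hsw _ hw')).1
  have h4 := (H x (lg G x y) (lg G x y') hw hw').2
  rw [ex_lg, ex_lg] at h4
  rw [← smul_sub, norm_smul, Real.norm_of_nonneg hs0] at h3
  change dist (G.ex x (s • lg G x y)) (G.ex x (s • lg G x y')) ≤ _
  calc _ ≤ (1 + η) * (s * ‖lg G x y' - lg G x y‖) := h3
    _ ≤ (1 + η) * (s * ((1 + η) * dist y y')) := by gcongr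
    _ = ((1 + η) * (1 + η)) * (s * dist y y') := by ring
    _ ≤ (1 + ε) * (s * dist y y') := by gcongr

/-- **`SegLip` for Riemannian manifolds** -/
theorem segLip (G : GeoData n M) : (lug G).SegLip := by
  intro ε hε
  obtain ⟨r, hr, H⟩ := seg_right G hε
  have hr0 := G.r₀_pos
  refine ⟨min (r / 2) (G.r₀ / 2), lt_min (by positivity) (by positivity), ?_⟩
  intro x y x' y' h1 h2 h3 s hs
  simp only [lug_seg]
  have a1 := h1.trans_le (min_le_left _ _)
  have a2 := h2.trans_le (min_le_left _ _)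
  have a3 := h3.trans_le (min_le_left _ _)
  have b1 := h1.trans_le (min_le_right _ _)
  have b2 := h2.trans_le (min_le_right _ _)
  have b3 := h3.trans_le (min_le_right _ _)
  have h4 : dist x y' < 2 * min (r / 2) (G.r₀ / 2) := by
    have := dist_triangle x x' y'
    linarith
  have h4r : dist x y' < r := h4.trans_le (by linarith [min_le_left (r / 2) (G.r₀ / 2)])
  have h40 : dist x y' < G.r₀ := h4.trans_le (by linarith [min_le_right (r / 2) (G.r₀ / 2)])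
  have h5 := H x y y' (by linarith) h4r.le s hs
  have hs' : 1 - s ∈ Icc (0 : ℝ) 1 := ⟨by linarith [hs.2], by linarith [hs.1]⟩
  have h6 := H y' x x' (by rw [dist_comm]; exact h4r.le) (by rw [dist_comm]; linarith) (1 - s) hs'
  have e1 : seg G y' x (1 - s) = seg G x y' s := by
    rw [seg_symm G h40]; congr 1; ring
  have e2 : seg G y' x' (1 - s) = seg G x' y' s := by
    rw [seg_symm G (x := x') (y := y') (by linarith)]; congr 1; ring
  rw [e1, e2] at h6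
  have h7 := dist_triangle (seg G x y s) (seg G x y' s) (seg G x' y' s)
  have h8 : (1 + ε) * ((1 - s) * dist x x' + s * dist y y') =
      (1 + ε) * ((1 - s) * dist x x') + (1 + ε) * (s * dist y y') := by ring
  rw [h8]
  linarith

theorem segLipM (G : GeoData n M) : GSmithx651.SegLipM (lug G) :=
  GSmithx651.segLipM_of_segLip (segLip G)

end Crest.Agent.R231.GSegLipx67
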