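import Crest.Agent.R231.InstA_895

/-!
# Row 231 (S0357): the concrete instance of `Base`, part B (helper895)

* `sum_rd_le_length` : `∑_{j<n} rd (Bd_j) (Zc_j) ≤ length (total relative homology)`
* `rd_ne_top_of_finite`, `bdd_of_finite` : finite total homology gives the fields `fin` and `bdd`
* `BaseHyp M` : the hypotheses (leaves of G, H, W) in the language of Pair_877;
  `base : BaseHyp M → IfAx978.Base`
-/

set_option autoImplicit false
set_option linter.unusedSectionVars false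

noncomputable section

open Function Topology
open Crest.Agent.R204

namespace Crest.Agent.R231.Instx895

open SingAct265 EZ271 EZ847 Pairx877 GLugx576 TActx569 TCx569 IfAx978 Gr334

variable {M : Type} [MetricSpace M]

/-! ## ranks -/

section rank

variable {P Q : Submodule F2 (CE (Lp M))}

/-- the class of a relative cycle of degree `j` in the total relative homology -/
def cls (P Q : Submodule F2 (CE (Lp M))) (j : ℕ) :
    Zc (gs P) (gs Q) j →ₗ[F2] Hr (bdE (Lp M)) Q P :=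
  (Submodule.mkQ _) ∘ₗ (vl (M := M) j).restrict (p := Zc (gs P) (gs Q) j)
    (q := Zr (bdE (Lp M)) Q P) fun _ hx => mem_Zc_gs.1 hx

theorem cls_apply (j : ℕ) (x : Zc (gs P) (gs Q) j) :
    cls P Q j x = Hr.mk (bdE (Lp M)) Q P (vl j x.1) (mem_Zc_gs.1 x.2).1 (mem_Zc_gs.1 x.2).2 := rfl

theorem mk_eq_zero_iff {z : CE (Lp M)} {h1 : z ∈ Q} {h2 : bdE (Lp M) z ∈ P} :
    Hr.mk (bdE (Lp M)) Q P z h1 h2 = 0 ↔ z ∈ P ⊔ Q.map (bdE (Lp M)) := by
  rw [Hr.mk_eq_zero]
  constructor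
  · rintro ⟨w, hw, h⟩
    exact Submodule.mem_sup.2 ⟨_, h, _, ⟨w, hw, rfl⟩, sub_add_cancel _ _⟩
  · intro h
    obtain ⟨a, ha, b, ⟨w, hw, rfl⟩, rfl⟩ := Submodule.mem_sup.1 h
    exact ⟨w, hw, by rwa [add_sub_cancel_right]⟩

/-- degree `j` homology -/
abbrev Hj (P Q : Submodule F2 (CE (Lp M))) (j : ℕ) : Type :=
  (Zc (gs P) (gs Q) j) ⧸ (Bd (gs P) (gs Q) j).submoduleOf (Zc (gs P) (gs Q) j)

/-- the map of the homology of degree `j` to the total homology -/
def clsQ (hP : Homog P) (hQ : Homog Q) (hQL : Q ≤ WL M) (j : ℕ) :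
    Hj P Q j →ₗ[F2] Hr (bdE (Lp M)) Q P :=
  Submodule.liftQ _ (cls P Q j) (by
    intro x hx
    rw [LinearMap.mem_ker, cls_apply, mk_eq_zero_iff]
    exact (mem_Bd_gs hP hQ hQL).1 hx)

theorem clsQ_mk (hP : Homog P) (hQ : Homog Q) (hQL : Q ≤ WL M) (j : ℕ)
    (x : Zc (gs P) (gs Q) j) :
    clsQ hP hQ hQL j (Submodule.Quotient.mk x) = cls P Q j x := rfl

/-- the sum of the maps in degrees `< n` -/
def clsS (hP : Homog P) (hQ : Homog Q) (hQL : Q ≤ WL M) (n : ℕ) :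
    (∀ j : Fin n, Hj P Q j) →ₗ[F2] Hr (bdE (Lp M)) Q P :=
  ∑ j : Fin n, clsQ hP hQ hQL j ∘ₗ LinearMap.proj j

theorem cls_sum {n : ℕ} (x : ∀ j : Fin n, Zc (gs P) (gs Q) j)
    (h1 : ∑ j : Fin n, vl j (x j).1 ∈ Q) (h2 : bdE (Lp M) (∑ j : Fin n, vl j (x j).1) ∈ P) :
    ∑ j : Fin n, cls P Q j (x j) = Hr.mk (bdE (Lp M)) Q P (∑ j : Fin n, vl j (x j).1) h1 h2 := by
  have e : ∀ j : Fin n, cls P Q j (x j) = (Submodule.mkQ _)
      (⟨vl j (x j).1, mem_Zc_gs.1 (x j).2⟩ : Zr (bdE (Lp M)) Q P) := fun _ => rfl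
  simp only [e]
  rw [← map_sum]
  have e2 : (∑ j : Fin n, (⟨vl j (x j).1, mem_Zc_gs.1 (x j).2⟩ : Zr (bdE (Lp M)) Q P)) =
      ⟨∑ j : Fin n, vl j (x j).1, h1, h2⟩ := Subtype.ext (by
    rw [AddSubmonoidClass.coe_finsetSum])
  rw [e2]
  rfl

theorem clsS_injective (hP : Homog P) (hQ : Homog Q) (hQL : Q ≤ WL M) (n : ℕ) :
    Injective (clsS hP hQ hQL n) := by
  rw [injective_iff_map_eq_zero]
  intro q hq
  choose x hx using fun j : Fin n => Submodule.Quotient.mk_surjective _ (q j)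
  have h0 : ∑ j : Fin n, cls P Q j (x j) = 0 := by
    rw [← hq, clsS, LinearMap.sum_apply]
    refine Finset.sum_congr rfl fun j _ => ?_
    rw [LinearMap.comp_apply, LinearMap.proj_apply, ← hx j, clsQ_mk]
  have h1 : ∑ j : Fin n, vl j (x j).1 ∈ Q :=
    Submodule.sum_mem _ fun j _ => (mem_Zc_gs.1 (x j).2).1
  have h2 : bdE (Lp M) (∑ j : Fin n, vl j (x j).1) ∈ P := by
    rw [map_sum]
    exact Submodule.sum_mem _ fun j _ => (mem_Zc_gs.1 (x j).2).2
  rw [cls_sum x h1 h2, mk_eq_zero_iff] at h0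
  funext j
  have h3 := (hP.sup hQ.map_bd) j _ h0
  have h4 : prN F2 (SS.Sing (Lp M)) j (∑ i : Fin n, vl i (x i).1) = vl j (x j).1 := by
    rw [map_sum, Finset.sum_eq_single j]
    · exact prN_of_mem (vl_mem_gr _)
    · intro i _ hi
      exact prN_of_mem_ne (fun h => hi (Fin.ext h)) (vl_mem_gr _)
    · intro h; exact absurd (Finset.mem_univ j) h
  rw [h4] at h3
  rw [← hx j, Pi.zero_apply, Submodule.Quotient.mk_eq_zero]
  exact (mem_Bd_gs hP hQ hQL).2 h3

/-- **the ranks of the homology groups are bounded by the total rank** -/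
theorem sum_rd_le_length (hP : Homog P) (hQ : Homog Q) (hQL : Q ≤ WL M) (n : ℕ) :
    ∑ j ∈ Finset.range n, rd (Bd (gs P) (gs Q) j) (Zc (gs P) (gs Q) j) ≤
      Module.length F2 (Hr (bdE (Lp M)) Q P) := by
  rw [Finset.sum_range]
  have h1 := Module.length_le_of_injective (clsS hP hQ hQL n) (clsS_injective hP hQ hQL n)
  rw [Module.length_pi_of_fintype] at h1
  exact h1

theorem rd_le_length (hP : Homog P) (hQ : Homog Q) (hQL : Q ≤ WL M) (j : ℕ) :
    rd (Bd (gs P) (gs Q) j) (Zc (gs P) (gs Q) j) ≤ Module.length F2 (Hr (bdE (Lp M)) Q P) := by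
  refine le_trans ?_ (sum_rd_le_length hP hQ hQL (j + 1))
  exact Finset.single_le_sum (f := fun j => rd (Bd (gs P) (gs Q) j) (Zc (gs P) (gs Q) j))
    (fun _ _ => zero_le) (Finset.self_mem_range_succ j)

theorem length_ne_top {V : Type*} [AddCommGroup V] [Module F2 V] [Module.Finite F2 V] :
    Module.length F2 V ≠ ⊤ := Module.length_ne_top

theorem rd_eq_zero_iff {V : Type*} [AddCommGroup V] [Module (ZMod 2) V]
    {A B : Submodule (ZMod 2) V} : rd A B = 0 ↔ B ≤ A := by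
  rw [rd, Module.length_eq_zero_iff, ← Submodule.submoduleOf_eq_top]
  constructor
  · intro h
    refine eq_top_iff.2 fun x _ => ?_
    rw [← Submodule.Quotient.mk_eq_zero]
    exact Subsingleton.elim _ _
  · intro h
    refine ⟨fun a b => ?_⟩
    obtain ⟨a, rfl⟩ := Submodule.Quotient.mk_surjective _ a
    obtain ⟨b, rfl⟩ := Submodule.Quotient.mk_surjective _ b
    rw [Submodule.Quotient.eq, h]
    trivial

theorem rd_ne_top_of_finite (hP : Homog P) (hQ : Homog Q) (hQL : Q ≤ WL M)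
    (hF : Module.Finite F2 (Hr (bdE (Lp M)) Q P)) (j : ℕ) :
    rd (Bd (gs P) (gs Q) j) (Zc (gs P) (gs Q) j) ≠ ⊤ :=
  ne_top_of_le_ne_top length_ne_top (rd_le_length hP hQ hQL j)

/-- a sequence in `ℕ∞` with bounded partial sums is eventually zero -/
theorem eventually_zero_of_sum_le {r : ℕ → ℕ∞} {C : ℕ∞} (hC : C ≠ ⊤)
    (h : ∀ n, ∑ j ∈ Finset.range n, r j ≤ C) : ∃ n, ∀ j, n ≤ j → r j = 0 := by
  by_contra hcon
  push Not at hcon
  have key : ∀ k : ℕ, ∃ n, (k : ℕ∞) ≤ ∑ j ∈ Finset.range n, r j := by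
    intro k
    induction k with
    | zero => exact ⟨0, by simp⟩
    | succ k ih =>
      obtain ⟨n, hn⟩ := ih
      obtain ⟨j, hj, hr⟩ := hcon n
      refine ⟨j + 1, ?_⟩
      rw [Finset.sum_range_succ, Nat.cast_add, Nat.cast_one]
      refine add_le_add (hn.trans ?_) (Order.one_le_iff_ne_zero.2 hr)
      exact Finset.sum_le_sum_of_subset (Finset.range_mono hj)
  obtain ⟨c, rfl⟩ := ENat.ne_top_iff_exists.1 hC
  obtain ⟨n, hn⟩ := key (c + 1)
  have := hn.trans (h n)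
  rw [Nat.cast_le] at this
  omega

theorem bdd_of_finite (hP : Homog P) (hQ : Homog Q) (hQL : Q ≤ WL M)
    (hF : Module.Finite F2 (Hr (bdE (Lp M)) Q P)) :
    ∃ n : ℕ, ∀ j, n ≤ j → Zc (gs P) (gs Q) j ≤ Bd (gs P) (gs Q) j := by
  obtain ⟨n, hn⟩ := eventually_zero_of_sum_le (length_ne_top (V := Hr (bdE (Lp M)) Q P))
    (sum_rd_le_length hP hQ hQL)
  exact ⟨n, fun j hj => rd_eq_zero_iff.1 (hn j hj)⟩

/-- pairs of subsets -/
theorem sum_rd_le_length_CS {A B : Set (Lp M)} {t : ℝ} (hB : B ⊆ X M t) (n : ℕ) :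
    ∑ j ∈ Finset.range n, rd (Bd (gs (CS A)) (gs (CS B)) j) (Zc (gs (CS A)) (gs (CS B)) j) ≤
      Module.length F2 (HP B A) :=
  sum_rd_le_length (homog_CS A) (homog_CS B) (CS_le_CL' hB) n

theorem sum_rd_le_length_FF (a b : ℝ) (n : ℕ) :
    ∑ j ∈ Finset.range n, rd (Bd (FF M a) (FF M b) j) (Zc (FF M a) (FF M b) j) ≤
      Module.length F2 (HP (X M b) (X M a)) := sum_rd_le_length_CS subset_rfl n

end rank

/-! ## the instance of `Base` -/

theorem isGeo_dbl {s : ℝ} {γ : Lp M} (h : IsGeo s γ) : IsGeo (2 * s) (dbl γ) := by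
  obtain ⟨hs, δ, hδ, hγ⟩ := h
  refine ⟨by linarith, δ / 2, by linarith, fun x y hxy => ?_⟩
  rw [itr_coe, itr_coe, hγ _ _ ?_]
  · rw [← mul_sub, abs_mul]
    simp only [Nat.cast_ofNat, Nat.abs_ofNat]
    ring
  · rw [← mul_sub, abs_mul]
    simp only [Nat.cast_ofNat, Nat.abs_ofNat]
    linarith

theorem isCrit_two {s : ℝ} (h : IsCrit M s) : IsCrit M (2 * s) := by
  obtain ⟨γ, hγ⟩ := h
  exact ⟨_, isGeo_dbl hγ⟩

/-- the critical levels -/
def CritS (M : Type) [MetricSpace M] : Set ℝ := {s | IsCrit M s}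

theorem mem_CritS {s : ℝ} : s ∈ CritS M ↔ IsCrit M s := Iff.rfl

variable (M) in
/-- **the leaves of the blocks W, G, H** which give `Base` -/
structure BaseHyp : Prop where
  /-- (W) the critical levels are discrete -/
  crit_fin : ∀ T : ℝ, (CritS M ∩ Set.Iic T).Finite
  /-- (G3) no closed geodesic with length in `[a, b]` ⟹ `H(X_b, X_a) = 0` -/
  noncrit : ∀ a b : ℝ, 0 ≤ a → a ≤ b → (∀ s ∈ CritS M, ¬ (a ≤ s ∧ s ≤ b)) →
    Zp (X M b) (X M a) ≤ Bp (X M b) (X M a)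
  /-- (G4) finite dimension at non-critical levels -/
  fin : ∀ t : ℝ, 0 ≤ t → t ∉ CritS M → Module.Finite F2 (HP (X M t) (X M 0))
  /-- (H) Smith isomorphism at non-critical levels -/
  smith : ∀ t : ℝ, 0 ≤ t → t ∉ CritS M →
    Smith (psiC M) (FF M 0) (FF M t) (FF M 0) (FF M (t / 2))

/-- **the concrete `Base`** -/
def base (h : BaseHyp M) : Base where
  X := mix M
  tau := tauC M
  psi := psiC M
  tau_tau := tau_tauC
  d_tau := d_tauC
  d_psi := d_psiC
  De_psi := De_psiC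
  F := FF M
  F_mono _ _ h j := FL_mono M h j
  F_exh := FL_exh M
  F_stab := stab_FF
  F_tau := FF_tau
  F_psi := FF_psi
  Crit := CritS M
  Crit_pos := by
    rintro s ⟨γ, hγ⟩
    exact hγ.1
  Crit_fin := h.crit_fin
  Crit_two _ hs := isCrit_two hs
  noncrit a b ha hab hc j x hx := mem_Bd_FF.2 (h.noncrit a b ha hab hc (mem_Zc_FF.1 hx))
  fin t ht htc j := rd_ne_top_of_finite (homog_CS _) (homog_CS _) (CS_le_CL t) (h.fin t ht htc) j
  bdd t ht htc := bdd_of_finite (homog_CS _) (homog_CS _) (CS_le_CL t) (h.fin t ht htc)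
  smith := h.smith

end Crest.Agent.R231.Instx895
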