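import Crest.Agent.R231.SmithEnd_609
import Crest.Agent.R231.InstB_895

/-!
# Row 231, block H, leaf H7 (helper609): the field `smith` of `BaseHyp` (InstB_895)

`smith_of` : for a compact `M` with `D : LUG M`, `D.SegLip`, discrete critical levels and `noncrit`,
the Smith isomorphism `Smith (psiC M) (FF M 0) (FF M t) (FF M 0) (FF M (t / 2))` at all non-critical `t ≥ 0`.
-/

set_option autoImplicit false

noncomputable section

namespace Crest.Agent.R231.SmFx609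

open Crest.Agent.R204 Function Topology Set
open Crest.Agent.R231.Pairx877 Crest.Agent.R231.SmAx609 Crest.Agent.R231.SmBx609
open Crest.Agent.R231.SmEndx609
open Crest.Agent.R231.GLugx576 Crest.Agent.R231.GSmithx651
open Crest.Agent.R231.Instx895 Crest.Agent.R231.IfAx978 Crest.Agent.R231.TActx569
open Crest.Agent.R231.TCx569

variable {M : Type} [MetricSpace M]

/-- homological acyclicity gives degreewise acyclicity -/
theorem AcP_of {E : Type} [TopologicalSpace E] {X A : Set E} (h : Zp X A ≤ Bp X A) : AcP X A := by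
  intro j x hx hxX hxA
  obtain ⟨w, hw, hwA⟩ := mem_Bp.1 (h ⟨hxX, hxA⟩)
  refine ⟨Exc406.prN F2 _ (j + 1) w, Exc406.prN_mem_gr _ _, prN_mem_CS _ w hw, ?_⟩
  have h1 := prN_mem_CS j _ hwA
  rw [map_sub, Exc406.prN_of_mem_gr j hx] at h1
  rw [← Exc406.prN_bd]
  exact h1

theorem gN_eq_gE : (LA M).gN = gE M := by
  unfold TAct.gN gE
  have : (LA M).rot ((1 / 2 : ℝ) : UnitAddCircle) = SS.SingMap (GLugx576.rot hf : C(Lp M, Lp M)) := by
    refine SS.Hom.ext (funext fun n => funext fun σ => ?_)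
    exact SingAct265.sing_ext fun t => rfl
  rw [this]

theorem hN_mem {Y : Set (Lp M)} (hY : RotInv Y) : ∀ z ∈ CS Y, (LA M).hN z ∈ CS Y := hN_mem_CS hY

theorem rotInv_YS (t : ℝ) : RotInv (YS M t) := fun a _ h => rot_mem_YS h a

/-- the sequence of the underlying chains -/
def sq (v : ∀ j, (mix M).C j) : ℕ → CE (Lp M) := fun j => vl j (v j)

theorem sq_DD (v : ∀ j, (mix M).C j) (j : ℕ) :
    vl j (DD v j) = DTs (bdE (Lp M)) (gE M) (LA M).hN (sq v) j := by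
  cases j with
  | zero =>
    rw [DTs_zero]
    rfl
  | succ j =>
    rw [DTs_succ, ← gN_eq_gE]
    rfl

theorem CS_YS_eq (t : ℝ) : CS (YS M t) = (CS (X M (t / 2))).map (psiN M) := by
  rw [YS_eq, CS_image _ isEmbedding_dbl]
  rfl

theorem psiN_inj : Injective (psiN M) := N_map_inj _ isEmbedding_dbl

theorem mem_X_zero_of_psi {c : CE (Lp M)} (h : psiN M c ∈ CS (X M 0)) : c ∈ CS (X M 0) := by
  rw [YS_zero, YS_eq, zero_div] at h
  exact mem_of_map_CS _ isEmbedding_dbl h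

theorem psi_mem_YS {t : ℝ} {c : CE (Lp M)} (h : c ∈ CS (X M (t / 2))) : psiN M c ∈ CS (YS M t) := by
  rw [CS_YS_eq]
  exact ⟨c, h, rfl⟩

theorem psi_mem_gr {j : ℕ} {c : CE (Lp M)} (h : c ∈ N.gr F2 (SS.Sing (Lp M)) j) :
    psiN M c ∈ N.gr F2 (SS.Sing (Lp M)) j := Exc406.map_mem_gr _ h

/-- lifting a sequence of chains of loops of period `1/2` -/
theorem exists_lift {t : ℝ} {y : ℕ → CE (Lp M)}
    (hy : y ∈ Smx566.PP (N.gr F2 (SS.Sing (Lp M))) (CS (YS M t))) :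
    ∃ z : ∀ j, (mix M).C j, (∀ j, z j ∈ FF M (t / 2) j) ∧ ∀ j, psiN M (vl j (z j)) = y j := by
  have h : ∀ j, ∃ z : (mix M).C j, z ∈ FF M (t / 2) j ∧ psiN M (vl j z) = y j := by
    intro j
    have h1 := (hy j).2
    rw [CS_YS_eq] at h1
    obtain ⟨c, hc, hcy⟩ := h1
    have hcg : c ∈ N.gr F2 (SS.Sing (Lp M)) j := by
      refine Exc406.mem_gr_of_map _ psiN_inj ?_
      have h2 := (hy j).1
      rw [← hcy] at h2
      exact h2
    exact ⟨mk c hcg (CS_le_CL _ hc), hc, hcy⟩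
  choose z hz1 hz2 using h
  exact ⟨z, hz1, hz2⟩

theorem lift_seq {t : ℝ} {y : ℕ → CE (Lp M)}
    (hy : y ∈ Smx566.PP (N.gr F2 (SS.Sing (Lp M))) (CS (X M t))) :
    ∃ z : ∀ j, (mix M).C j, (∀ j, z j ∈ FF M t j) ∧ sq z = y :=
  ⟨fun j => mk (y j) (hy j).1 (CS_le_CL _ (hy j).2), fun j => (hy j).2, rfl⟩

theorem sq_mem {t : ℝ} {v : ∀ j, (mix M).C j} (hv : ∀ j, v j ∈ FF M t j) :
    sq v ∈ Smx566.PP (N.gr F2 (SS.Sing (Lp M))) (CS (X M t)) := fun j => ⟨vl_mem_gr _, hv j⟩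

/-- the algebraic identities -/
theorem hgE (x : CE (Lp M)) : (LA M).hN (gE M x) = gE M ((LA M).hN x) := by
  rw [← gN_eq_gE]; exact (LA M).hN_gN x

theorem dhE (x : CE (Lp M)) :
    bdE (Lp M) ((LA M).hN x) + (LA M).hN (bdE (Lp M) x) = x + gE M x := by
  rw [← gN_eq_gE]; exact (LA M).bd_hN x

/-- the Smith isomorphism from the `Z/2`-form -/
theorem smith_of_ra {t : ℝ} (ht : 0 ≤ t)
    (hra : Smx566.RA (Smx566.DD (bdE (Lp M)) (LinearMap.id + gE M))
      (Smx566.PP (N.gr F2 (SS.Sing (Lp M))) (CS (YS M t)))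
      (Smx566.PP (N.gr F2 (SS.Sing (Lp M))) (CS (X M t)))) :
    Smith (psiC M) (FF M 0) (FF M t) (FF M 0) (FF M (t / 2)) := by
  have hd0 : ∀ x ∈ N.gr F2 (SS.Sing (Lp M)) 0, bdE (Lp M) x = 0 := fun x hx => Exc406.bd_gr_zero hx
  have hhgr : ∀ j, ∀ x ∈ N.gr F2 (SS.Sing (Lp M)) j, (LA M).hN x ∈ N.gr F2 (SS.Sing (Lp M)) (j + 1) :=
    fun j x hx => (LA M).hN_mem_gr hx
  have hF0Y : CS (X M 0) ≤ CS (YS M t) := by
    rw [YS_zero]
    exact CS_mono (YS_mono ht)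
  constructor
  · intro v hv hDv
    obtain ⟨y, hy, hdy, c, hc, hvc⟩ := smith_surj (F0 := CS (X M 0)) (Y := CS (YS M t))
      (X := CS (X M t)) hd0 hhgr (LA M).hN_hN hgE dhE hF0Y (hN_mem (rotInv_X 0))
      (hN_mem (rotInv_YS t)) (hN_mem (rotInv_X t)) gE_fix gE_gE bd_gE N.bd_bd hra (sq_mem hv)
      (by
        intro j
        rw [← sq_DD]
        exact ⟨vl_mem_gr _, hDv j⟩)
    obtain ⟨z, hz, hzy⟩ := exists_lift hy
    obtain ⟨c', hc', hcc⟩ := lift_seq hc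
    refine ⟨z, c', ?_, hc', ?_⟩
    · intro j
      rw [mem_Zc_FF, mem_Zp]
      refine ⟨hz j, ?_⟩
      cases j with
      | zero =>
        rw [hd0 _ (vl_mem_gr _)]
        exact Submodule.zero_mem _
      | succ j =>
        refine mem_X_zero_of_psi ?_
        rw [← bd_psiN, hzy]
        exact hdy j
    · intro j
      rw [mem_FF, map_add, map_add, vl_psi, hzy, sq_DD, hcc]
      have := congrFun hvc j
      have h2 : vl j (v j) + y j + DTs (bdE (Lp M)) (gE M) (LA M).hN c j = 0 := this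
      rw [h2]
      exact Submodule.zero_mem _
  · intro y c hy hc hyc
    have hyY : (fun j => psiN M (vl j (y j))) ∈
        Smx566.PP (N.gr F2 (SS.Sing (Lp M))) (CS (YS M t)) := by
      intro j
      refine ⟨psi_mem_gr (vl_mem_gr _), psi_mem_YS ?_⟩
      exact (mem_Zp.1 (mem_Zc_FF.1 (hy j))).1
    obtain ⟨e, he, hey⟩ := smith_inj (F0 := CS (X M 0)) (Y := CS (YS M t))
      (X := CS (X M t)) hd0 hhgr (LA M).hN_hN hgE dhE hF0Y (hN_mem (rotInv_X 0))
      (hN_mem (rotInv_YS t)) (hN_mem (rotInv_X t)) gE_fix gE_gE bd_gE N.bd_bd hra hyY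
      (sq_mem hc) (by
        intro j
        have h1 : vl j (psiC M j (y j) + DD c j) ∈ CS (X M 0) := hyc j
        have h2 : (fun j => psiN M (vl j (y j))) j + DTs (bdE (Lp M)) (gE M) (LA M).hN (sq c) j =
            vl j (psiC M j (y j) + DD c j) := by
          rw [map_add, sq_DD]
          rfl
        show (fun j => psiN M (vl j (y j))) j + DTs (bdE (Lp M)) (gE M) (LA M).hN (sq c) j ∈ _ ∧
          (fun j => psiN M (vl j (y j))) j + DTs (bdE (Lp M)) (gE M) (LA M).hN (sq c) j ∈ _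
        rw [h2]
        exact ⟨vl_mem_gr _, h1⟩)
    obtain ⟨z, hz, hze⟩ := exists_lift he
    intro j
    rw [mem_Bd_FF, mem_Bp]
    refine ⟨vl (j + 1) (z (j + 1)), hz (j + 1), ?_⟩
    rw [SmAx609.sub_add]
    refine mem_X_zero_of_psi ?_
    rw [map_add, ← bd_psiN, hze]
    exact hey j

/-- right of a non-critical level there is a non-critical interval -/
theorem exists_right {S : Set ℝ} (hS : ∀ T : ℝ, (S ∩ Iic T).Finite) {t : ℝ} (ht : t ∉ S) :
    ∃ t' : ℝ, t < t' ∧ ∀ s ∈ S, ¬ (t ≤ s ∧ s ≤ t') := by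
  have hc : IsClosed (S ∩ Iic (t + 1)) := (hS (t + 1)).isClosed
  have ho : IsOpen (S ∩ Iic (t + 1))ᶜ := hc.isOpen_compl
  obtain ⟨ε, hε, hball⟩ := Metric.isOpen_iff.1 ho t (fun h => ht h.1)
  refine ⟨t + min (ε / 2) 1, lt_add_of_pos_right _ (lt_min (half_pos hε) one_pos), fun s hs h => ?_⟩
  have h1 : s ∈ Metric.ball t ε := by
    rw [Metric.mem_ball, Real.dist_eq, abs_of_nonneg (by linarith [h.1])]
    have := min_le_left (ε / 2) 1
    linarith [h.2]
  refine hball h1 ⟨hs, ?_⟩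
  have := min_le_right (ε / 2) (1 : ℝ)
  show s ≤ t + 1
  linarith [h.2]

/-- **the field `smith` of `BaseHyp`** -/
theorem smith_of [CompactSpace M] (D : LUG M) (hD : D.SegLip)
    (hfin : ∀ T : ℝ, (CritS M ∩ Set.Iic T).Finite)
    (hnc : ∀ a b : ℝ, 0 ≤ a → a ≤ b → (∀ s ∈ CritS M, ¬ (a ≤ s ∧ s ≤ b)) →
      Zp (X M b) (X M a) ≤ Bp (X M b) (X M a)) (t : ℝ) (ht : 0 ≤ t) (htc : t ∉ CritS M) :
    Smith (psiC M) (FF M 0) (FF M t) (FF M 0) (FF M (t / 2)) := by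
  obtain ⟨t', htt, hno⟩ := exists_right hfin htc
  refine smith_of_ra ht (smithZ D hD ht htt (AcP_of (hnc t t' ht htt.le hno))
    (AcP_of (hnc (t / 2) (t' / 2) (by linarith) (by linarith) ?_)))
  intro s hs h
  exact hno _ (isCrit_two hs) ⟨by linarith [h.1], by linarith [h.2]⟩

end Crest.Agent.R231.SmFx609
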