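import Crest.Agent.R231.Asm_895
import Crest.Agent.R231.SmithFin_609
import Crest.Agent.R231.GFinB_315
import Crest.Agent.R231.GNon_651
import Crest.Agent.R231.GSegLip_67

/-!
# Row 231 (S0357): the geometric fields on `(S^n, g)` (helper220)

`G : GeoData n M`, `M` compact, `S : PrimeSys M G.r₀ ι` finite.

* `finite_HP` : `H(X t, X 0)` is finite dimensional at the non-critical levels, from the finite rank of
  `H(X a) → H(X b)` (leaf G4a, `FinStep M`)
* `baseHyp_of` : `BaseHyp M`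
-/

set_option autoImplicit false
set_option linter.unusedSectionVars false

noncomputable section

open Bundle Set Filter Function
open scoped Manifold ContDiff Bundle ENNReal Topology
open Crest.GeometryTopology.MTW Crest.GeometryTopology.Geodesic
open Crest.Agent.R226 Crest.Agent.R226.GeoBasic616 Crest.Agent.R226.TB616
open Crest.Agent.R204

namespace Crest.Agent.R231.TopBasex220

open Pairx877 GLugx576 TActx569 TCx569 IfAx978 Gr334 Instx895 GFinx315 GFinBx315 FinDim315
open PrimeGeox893 CritPMx893 GeoLugx724 GeoBasex724 Frontx893 Asmx895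

section metric

variable {M : Type} [MetricSpace M]

theorem finite_HP_of_frk {E : Type} [TopologicalSpace E] {X A : Set E} (h : Frk X A X A) :
    Module.Finite F2 (HP X A) := by
  have h1 := (finRk_inc_iff (X := X) (A := A) subset_rfl subset_rfl).2 h
  have h2 : LinearMap.range (Hr.inc (d := bdE E) (CS_mono (subset_rfl : X ⊆ X))
      (CS_mono (subset_rfl : A ⊆ A))) = ⊤ := by
    rw [LinearMap.range_eq_top]
    intro x
    exact ⟨x, Hr.inc_refl x⟩
  unfold FinRk at h1
  rw [h2] at h1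
  exact Module.Finite.equiv (Submodule.topEquiv (R := F2) (M := HP X A))

variable (M) in
/-- leaf G4: `H(X a, X 0) → H(X b, X 0)` has finite rank -/
def FinStep : Prop := ∀ a b : ℝ, 0 ≤ a → a < b → IfGx651.G4 M a b

theorem finite_HP {Crit : Set ℝ} (hfin : ∀ T : ℝ, (Crit ∩ Set.Iic T).Finite)
    (h4 : FinStep M)
    (hnc : ∀ a b : ℝ, 0 ≤ a → a ≤ b → (∀ s ∈ Crit, ¬ (a ≤ s ∧ s ≤ b)) →
      Zp (X M b) (X M a) ≤ Bp (X M b) (X M a)) (t : ℝ) (ht : 0 ≤ t) (htc : t ∉ Crit) :
    Module.Finite F2 (HP (X M t) (X M 0)) := by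
  rcases ht.eq_or_lt with h | h
  · subst h
    refine finite_HP_of_frk ⟨⊥, Submodule.fg_bot, ?_⟩
    intro c hc
    refine Submodule.mem_sup_left (mem_Bp.2 ⟨0, Submodule.zero_mem _, ?_⟩)
    rw [map_zero, sub_zero]
    exact hc.1
  · obtain ⟨t', h0, h1, h2⟩ : ∃ t' : ℝ, 0 ≤ t' ∧ t' < t ∧ ∀ s ∈ Crit, ¬ (t' ≤ s ∧ s ≤ t) := by
      have hc : IsClosed (Crit ∩ Set.Iic t) := (hfin t).isClosed
      have ho : (Crit ∩ Set.Iic t)ᶜ ∈ 𝓝 t := hc.isOpen_compl.mem_nhds fun h => htc h.1
      obtain ⟨ε, hε, hb⟩ := Metric.mem_nhds_iff.1 ho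
      refine ⟨max 0 (t - ε / 2), le_max_left _ _, max_lt h (by linarith), fun s hs hst => ?_⟩
      have hmem : s ∈ Metric.ball t ε := ?_
      · exact hb hmem ⟨hs, hst.2⟩
      rw [Metric.mem_ball, Real.dist_eq, abs_sub_comm, abs_of_nonneg (by linarith [hst.2])]
      have := (le_max_right 0 (t - ε / 2)).trans hst.1
      linarith
    exact finite_HP_of_frk (frk_of_acyclic (X_mono h0) (hnc t' t h0 h1.le h2)
      (G4_iff.1 (h4 t' t h0 h1)))

/-- `BaseHyp` from a metric package -/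
theorem baseHyp_of_lug [CompactSpace M] {ι : Type} [Finite ι] (L : LUG M) (hS : L.SegLip)
    (hL : L.LocMin) (nb : NonBr M L.r0) (S : PrimeSys M L.r0 ι) (h4 : FinStep M) : BaseHyp M := by
  have hfin : ∀ T : ℝ, (CritS M ∩ Set.Iic T).Finite := crit_fin_of L hL nb S
  have hnc : ∀ a b : ℝ, 0 ≤ a → a ≤ b → (∀ s ∈ CritS M, ¬ (a ≤ s ∧ s ≤ b)) →
      Zp (X M b) (X M a) ≤ Bp (X M b) (X M a) := fun a b ha hab hc =>
    GNonx651.acyclic L ha hab hc
  exact ⟨hfin, hnc, fun t ht htc => finite_HP hfin h4 hnc t ht htc,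
    fun t ht htc => SmFx609.smith_of L hS hfin hnc t ht htc⟩

end metric

section riem

variable {n : ℕ} {M : Type} [MetricSpace M] [ChartedSpace (EuclideanSpace ℝ (Fin n)) M]
  [IsManifold (𝓡 n) ∞ M] [CompactSpace M]
  [RiemannianBundle (fun p : M => TangentSpace (𝓡 n) p)]
  [IsContMDiffRiemannianBundle (𝓡 n) ∞ (EuclideanSpace ℝ (Fin n))
    (fun p : M => TangentSpace (𝓡 n) p)]

variable (G : GeoData n M)

theorem baseHyp_of {ι : Type} [Finite ι] (S : PrimeSys M G.r₀ ι) (h4 : FinStep M) : BaseHyp M :=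
  baseHyp_of_lug (lug G) (GSegLipx67.segLip G) (locMin G) (nonBr G) S h4

theorem window_of' {ι : Type} [Finite ι] (S : PrimeSys M G.r₀ ι) :
    BDAx969.Window (CritS M) := window_of (lug G) (locMin G) (nonBr G) S

end riem

section sphere

variable {n : ℕ} [NeZero n] (g : Met n) (G : GeoData n (SG g))

/-- **all geometric fields on `(S^n, g)`** -/
theorem baseHyp_sphere {ι : Type} [Finite ι] (S : PrimeSys (SG g) G.r₀ ι)
    (h4 : FinStep (SG g)) : BaseHyp (SG g) := baseHyp_of G S h4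

end sphere

end Crest.Agent.R231.TopBasex220
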