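import Crest.Agent.R231.GPolyF_943
import Crest.Agent.R231.TopBase_220

/-!
# Row 231 (S0357), block G: `FinStep` (helper315)

`finStep_of` : for a compact `M` with short geodesics which is a Euclidean neighbourhood retract (943's
`ENR`), `H(X a, X 0) → H(X b, X 0)` has finite rank for `0 ≤ a < b`; `finStep_sphere` : for `SG g`.
-/

set_option autoImplicit false
set_option linter.unusedSectionVars false

noncomputable section

open Bundle Set Filter Function
open scoped Manifold ContDiff Bundle ENNReal Topology
open Crest.Agent.R226 Crest.Agent.R226.GeoBasic616 Crest.Agent.R226.TB616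
open Crest.Agent.R204

namespace Crest.Agent.R231.FinStepx315

open Pairx877 GLugx576 GFinx315 GFinBx315 FinDim315 TopBasex220 GPolyx943
open GeoLugx724 GeoBasex724 Frontx893 PrimeGeox893

variable {M : Type} [MetricSpace M] [CompactSpace M]

theorem finite_HS_of_enr {V : Type} [NormedAddCommGroup V] [NormedSpace ℝ V] (D : ENR M V) :
    Module.Finite F2 (HS M) :=
  finite_of_retract (O := D.U) D.isOpen_U ⟨fun x => ⟨D.ι x, D.ι_mem x⟩, by fun_prop⟩
    ⟨fun v => D.ρ v, continuousOn_iff_continuous_domRestrict.1 D.contOn⟩ fun y => D.ρ_ι y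

theorem finStep_of {V : Type} [NormedAddCommGroup V] [NormedSpace ℝ V] (D : ENR M V)
    (L : LUG M) : FinStep M := fun _ _ ha hab =>
  G4_iff.2 (frk_X ha hab.le (finite_HS_of_enr D) (finRk_X D L hab))

section sphere

variable {n : ℕ} [NeZero n] (g : Met n)

/-- **(G4) for `(S^n, g)`** -/
theorem finStep_sphere (L : LUG (SG g)) : FinStep (SG g) := by
  have h : Nonempty (SG g) := inferInstance
  obtain ⟨p⟩ := h
  exact finStep_of ((enrSphere (EuclideanSpace ℝ (Fin (n + 1))) ((toSG g).symm p)).congr (toSG g)) L

/-- **the fields of `Base` on `(S^n, g)`** -/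
theorem baseHyp (G : GeoData n (SG g)) {ι : Type} [Finite ι] (S : PrimeSys (SG g) G.r₀ ι) :
    Instx895.BaseHyp (SG g) := baseHyp_sphere g G S (finStep_sphere g (lug G))

end sphere

end Crest.Agent.R231.FinStepx315
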