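import Crest.Agent.R231.GRep_576

/-!
# Row 231 (S0357), block G: replacement of an arc `[a, a+l]`, tight arcs (helper576)
-/

set_option autoImplicit false
set_option linter.unusedSectionVars false

open Set Filter Topology

namespace Crest.Agent.R231.GLugx576

variable {M : Type*} [MetricSpace M] (L : LUG M)

/-- replacement of the arc `[a, a+l]` by the short geodesic -/
noncomputable def repA [CompactSpace M] (a l : ℝ) (γ : Lp M) : Lp M :=
  rot ((-a : ℝ) : UnitAddCircle) (rep L l (rot (a : UnitAddCircle) γ))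

section

variable [CompactSpace M] {a l s t : ℝ} {γ : Lp M}

theorem rot_coe (γ : Lp M) (a x : ℝ) : rot (a : UnitAddCircle) γ (x : UnitAddCircle) =
    γ ((a + x : ℝ) : UnitAddCircle) := by
  rw [rot_apply, ← AddCircle.coe_add, add_comm]

theorem repA_coe (x : ℝ) : repA L a l γ (x : UnitAddCircle) =
    rep L l (rot (a : UnitAddCircle) γ) ((x - a : ℝ) : UnitAddCircle) := by
  rw [repA, rot_coe]; congr 2; ring_nf

theorem rot_inv (γ : Lp M) (a : ℝ) :
    rot ((-a : ℝ) : UnitAddCircle) (rot (a : UnitAddCircle) γ) = γ := by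
  rw [rot_rot, ← AddCircle.coe_add, neg_add_cancel, AddCircle.coe_zero, rot_zero]

theorem repA_zero : repA L a 0 γ = γ := by
  rw [repA, rep_zero, rot_inv]

variable {L} in
theorem mem_domA (hγ : γ ∈ X M t) (h0 : 0 ≤ l) (h1 : l ≤ 1) (h : t * l < L.r0) (a : ℝ) :
    (l, rot (a : UnitAddCircle) γ) ∈ RepDom L :=
  mem_RepDom (rot_mem hγ _) h0 h1 h

theorem repA_mem (hγ : γ ∈ X M t) (h0 : 0 ≤ l) (h1 : l ≤ 1) (h : t * l < L.r0) :
    repA L a l γ ∈ X M t :=
  rot_mem (rep_mem L (rot_mem hγ _) h0 h1 h) _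

/-- inside the arc -/
theorem repA_dist (hd : (l, rot (a : UnitAddCircle) γ) ∈ RepDom L) {x y : ℝ}
    (hx : x ∈ Icc a (a + l)) (hy : y ∈ Icc a (a + l)) :
    dist (repA L a l γ x) (repA L a l γ y) =
      |(x - a) / l - (y - a) / l| * dist (γ (a : UnitAddCircle)) (γ ((a + l : ℝ) : UnitAddCircle)) := by
  rw [repA_coe, repA_coe, rep_dist L hd ⟨by linarith [hx.1], by linarith [hx.2]⟩
    ⟨by linarith [hy.1], by linarith [hy.2]⟩, rot_coe, rot_coe, add_zero]

/-- outside the arc -/
theorem repA_out (hd : (l, rot (a : UnitAddCircle) γ) ∈ RepDom L) {x : ℝ}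
    (hx : x ∈ Icc (a + l) (a + 1)) : repA L a l γ x = γ (x : UnitAddCircle) := by
  rw [repA_coe, rep_right L hd ⟨by linarith [hx.1], by linarith [hx.2]⟩, rot_coe]
  congr 2; ring

theorem repA_left (hd : (l, rot (a : UnitAddCircle) γ) ∈ RepDom L) :
    repA L a l γ a = γ (a : UnitAddCircle) := by
  rw [repA_coe, sub_self, rep_zero_pt L hd, rot_coe, add_zero]

/-- a tight arc is not changed -/
theorem repA_eq_self (hγ : γ ∈ X M s) (h0 : 0 ≤ l) (h1 : l ≤ 1) (h : s * l < L.r0)
    (ht : dist (γ (a : UnitAddCircle)) (γ ((a + l : ℝ) : UnitAddCircle)) = s * l) :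
    repA L a l γ = γ := by
  rw [repA, rep_eq_self L (rot_mem hγ _) h0 h1 h (by rwa [rot_coe, rot_coe, add_zero]), rot_inv]

/-- reduction of a real parameter to `[a, a+1)` -/
theorem exists_shift (a x : ℝ) : ∃ n : ℤ, a ≤ x - n ∧ x - n < a + 1 := by
  refine ⟨⌊x - a⌋, ?_, ?_⟩
  · have := Int.floor_le (x - a); linarith
  · have := Int.lt_floor_add_one (x - a); linarith

theorem coe_sub_int (x : ℝ) (n : ℤ) : ((x - n : ℝ) : UnitAddCircle) = x := by
  have := coe_add_int x (-n)
  rwa [Int.cast_neg, ← sub_eq_add_neg] at this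

/-- subarcs of tight arcs are tight -/
theorem tight_sub (hγ : γ ∈ X M s) {b c d : ℝ} (hac : a ≤ c) (hcd : c ≤ d) (hdb : d ≤ b)
    (ht : dist (γ (a : UnitAddCircle)) (γ (b : UnitAddCircle)) = s * (b - a)) :
    dist (γ (c : UnitAddCircle)) (γ (d : UnitAddCircle)) = s * (d - c) := by
  have h1 := hγ a c
  have h2 := hγ c d
  have h3 := hγ d b
  rw [abs_sub_comm, abs_of_nonneg (by linarith)] at h1 h2 h3
  have h4 := dist_triangle4 (γ (a : UnitAddCircle)) (γ (c : UnitAddCircle)) (γ (d : UnitAddCircle))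
    (γ (b : UnitAddCircle))
  rw [ht] at h4
  refine le_antisymm h2 ?_
  nlinarith

/-- tightness is invariant under integer shifts -/
theorem tight_shift {c d : ℝ} (n : ℤ)
    (ht : dist (γ (c : UnitAddCircle)) (γ (d : UnitAddCircle)) = s * (d - c)) :
    dist (γ ((c - n : ℝ) : UnitAddCircle)) (γ ((d - n : ℝ) : UnitAddCircle)) =
      s * ((d - n) - (c - n)) := by
  rw [coe_sub_int, coe_sub_int, ht]; ring

/-- **the key step**: if the replaced loop is tight on an arc meeting the replaced one (`n` = an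
integer shift), nothing has been replaced and the replaced arc was tight -/
theorem tight_overlap (hγ : γ ∈ X M s) (h0 : 0 < l) (h1 : l ≤ 1) (h : s * l < L.r0)
    {c d : ℝ} (n : ℤ) (hov : max c (a + n) < min d (a + l + n))
    (ht : dist (repA L a l γ c) (repA L a l γ d) = s * (d - c)) :
    repA L a l γ = γ ∧
      dist (γ (a : UnitAddCircle)) (γ ((a + l : ℝ) : UnitAddCircle)) = s * l := by
  have hd := mem_domA hγ h0.le h1 h a
  have hm : repA L a l γ ∈ X M s := repA_mem L hγ h0.le h1 h
  set c' := max c (a + n) with hc'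
  set d' := min d (a + l + n) with hd'
  have t1 : dist (repA L a l γ (c' : UnitAddCircle)) (repA L a l γ (d' : UnitAddCircle)) =
      s * (d' - c') := tight_sub hm (le_max_left _ _) hov.le (min_le_left _ _) ht
  have t2 := tight_shift n t1
  have hx : c' - n ∈ Icc a (a + l) :=
    ⟨by linarith [le_max_right c (a + n)], by linarith [min_le_right d (a + l + n)]⟩
  have hy : d' - n ∈ Icc a (a + l) :=
    ⟨by linarith [le_max_right c (a + n)], by linarith [min_le_right d (a + l + n)]⟩
  rw [repA_dist L hd hx hy] at t2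
  have e1 : |(c' - n - a) / l - (d' - n - a) / l| = (d' - c') / l := by
    rw [← sub_div, abs_div, abs_of_pos h0, abs_sub_comm, abs_of_nonneg (by linarith)]
    congr 1; ring
  rw [e1] at t2
  have h5 : 0 < d' - c' := by linarith
  have t3 : dist (γ (a : UnitAddCircle)) (γ ((a + l : ℝ) : UnitAddCircle)) = s * l := by
    have h6 : (d' - c') / l * dist (γ (a : UnitAddCircle)) (γ ((a + l : ℝ) : UnitAddCircle)) =
        (d' - c') / l * (s * l) := by
      rw [t2]; field_simp; ring
    exact mul_left_cancel₀ (by positivity) h6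
  exact ⟨repA_eq_self L hγ h0.le h1 h t3, t3⟩

/-- tightness on any arc is inherited from the replaced loop -/
theorem tight_back (hγ : γ ∈ X M s) (h0 : 0 < l) (h1 : l ≤ 1) (h : s * l < L.r0)
    {c d : ℝ} (hcd : c < d)
    (ht : dist (repA L a l γ c) (repA L a l γ d) = s * (d - c)) :
    dist (γ (c : UnitAddCircle)) (γ (d : UnitAddCircle)) = s * (d - c) := by
  by_cases hov : ∃ n : ℤ, max c (a + n) < min d (a + l + n)
  · obtain ⟨n, hn⟩ := hov
    have := (tight_overlap L hγ h0 h1 h n hn ht).1
    rwa [this] at ht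
  · push Not at hov
    have hd := mem_domA hγ h0.le h1 h a
    have key : ∀ x : ℝ, (x = c ∨ x = d) → repA L a l γ x = γ (x : UnitAddCircle) := by
      intro x hx
      obtain ⟨n, hn1, hn2⟩ := exists_shift a x
      rw [← coe_sub_int x n]
      rcases hn1.eq_or_lt with he | hlt
      · rw [← he]; exact repA_left L hd
      · refine repA_out L hd ⟨?_, hn2.le⟩
        by_contra hcon
        have h3 : x < a + l + n := by linarith [not_le.1 hcon]
        have h4 : a + n < x := by linarith
        have h5 := hov n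
        rcases hx with rfl | rfl
        · exact absurd (h5.trans_eq (max_eq_left h4.le)) (not_le.2 (lt_min hcd h3))
        · have h6 : min x (a + l + n) = x := min_eq_left h3.le
          rw [h6] at h5
          exact absurd h5 (not_le.2 (max_lt hcd h4))
    rwa [key c (Or.inl rfl), key d (Or.inr rfl)] at ht

end

end Crest.Agent.R231.GLugx576
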