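import Crest.Agent.R231.GArc_576

/-!
# Row 231 (S0357), block G: the Birkhoff map (helper576)

`B L N τ` : successive replacement of the arcs `[j/2N, (j + 2τ)/2N]`, `j = 0, …, 4N - 1`.

* `LevDef T H` : homotopies of `X T` preserving every level `X t`, `t ≤ T`; `levDef_B`
* `isGeo_of_tight` : if `B L N 1 γ` has full speed `s` on some interval of the grid, then `γ ∈ X s`
  is a closed geodesic of length `s`
* `B_mem_of_nodes` : the Lipschitz constant of `B L N 1 γ` is read off on the nodes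
-/

set_option autoImplicit false
set_option linter.unusedSectionVars false

open Set Filter Topology

namespace Crest.Agent.R231.GLugx576

variable {M : Type*} [MetricSpace M] (L : LUG M)

/-- homotopies of `X T` which preserve every level -/
structure LevDef (M : Type*) [MetricSpace M] (T : ℝ) (H : ℝ × Lp M → Lp M) : Prop where
  cont : ContinuousOn H (Icc (0 : ℝ) 1 ×ˢ X M T)
  zero : ∀ γ ∈ X M T, H (0, γ) = γ
  maps : ∀ t ≤ T, ∀ τ ∈ Icc (0 : ℝ) 1, ∀ γ ∈ X M t, H (τ, γ) ∈ X M t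

theorem LevDef.mono {T T' : ℝ} {H : ℝ × Lp M → Lp M} (h : LevDef M T H) (hT : T' ≤ T) :
    LevDef M T' H where
  cont := h.cont.mono (prod_mono le_rfl (X_mono hT))
  zero := fun γ hγ => h.zero γ (X_mono hT hγ)
  maps := fun t ht => h.maps t (ht.trans hT)

theorem LevDef.id (T : ℝ) : LevDef M T (fun p => p.2) where
  cont := continuous_snd.continuousOn
  zero := fun _ _ => rfl
  maps := fun _ _ _ _ _ hγ => hγ

/-- composition (same time) -/
theorem LevDef.comp {T : ℝ} {H H' : ℝ × Lp M → Lp M} (h' : LevDef M T H') (h : LevDef M T H) :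
    LevDef M T (fun p => H' (p.1, H p)) where
  cont := by
    refine h'.cont.comp (continuousOn_fst.prodMk h.cont) fun p hp => ⟨hp.1, ?_⟩
    exact h.maps T le_rfl p.1 hp.1 p.2 hp.2
  zero := fun γ hγ => by
    show H' (0, H (0, γ)) = γ
    rw [h.zero γ hγ, h'.zero γ hγ]
  maps := fun t ht τ hτ γ hγ => h'.maps t ht τ hτ _ (h.maps t ht τ hτ γ hγ)

section

variable [CompactSpace M]

/-- continuity of the replacement of an arc -/
theorem contOn_repA (a : ℝ) : ContinuousOn (fun p : ℝ × Lp M => repA L a p.1 p.2)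
    {p | (p.1, rot (a : UnitAddCircle) p.2) ∈ RepDom L} := by
  have h1 : ContinuousOn (fun p : ℝ × Lp M => (p.1, rot (a : UnitAddCircle) p.2))
      {p | (p.1, rot (a : UnitAddCircle) p.2) ∈ RepDom L} :=
    (continuous_fst.prodMk ((rot (a : UnitAddCircle)).continuous.comp continuous_snd)).continuousOn
  have h2 := (contOn_rep L).comp h1 fun p hp => hp
  exact (rot ((-a : ℝ) : UnitAddCircle)).continuous.comp_continuousOn h2

/-- the homotopy `τ ↦ repA a (τ l)` -/
theorem levDef_repA {T l : ℝ} (a : ℝ) (h0 : 0 ≤ l) (h1 : l ≤ 1) (h : T * l < L.r0) :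
    LevDef M T (fun p => repA L a (p.1 * l) p.2) := by
  have aux : ∀ t ≤ T, ∀ τ ∈ Icc (0 : ℝ) 1, ∀ γ ∈ X M t,
      0 ≤ τ * l ∧ τ * l ≤ 1 ∧ t * (τ * l) < L.r0 := by
    intro t ht τ hτ γ hγ
    have ht0 := nonneg_of_mem hγ
    have a1 : τ * l ≤ l := mul_le_of_le_one_left h0 hτ.2
    refine ⟨mul_nonneg hτ.1 h0, a1.trans h1, ?_⟩
    refine lt_of_le_of_lt ?_ h
    exact mul_le_mul ht a1 (mul_nonneg hτ.1 h0) (ht0.trans ht)
  refine ⟨?_, ?_, ?_⟩
  · have c1 : ContinuousOn (fun p : ℝ × Lp M => (p.1 * l, p.2)) (Icc (0 : ℝ) 1 ×ˢ X M T) := by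
      fun_prop
    refine (contOn_repA L a).comp c1 fun p hp => ?_
    obtain ⟨b1, b2, b3⟩ := aux T le_rfl p.1 hp.1 p.2 hp.2
    exact mem_domA hp.2 b1 b2 b3 a
  · intro γ _
    show repA L a (0 * l) γ = γ
    rw [zero_mul, repA_zero]
  · intro t ht τ hτ γ hγ
    obtain ⟨b1, b2, b3⟩ := aux t ht τ hτ γ hγ
    exact repA_mem L hγ b1 b2 b3

/-- the first `n` replacements -/
noncomputable def Bst (N : ℕ) (τ : ℝ) : ℕ → Lp M → Lp M
  | 0, γ => γ
  | n + 1, γ => repA L ((n : ℝ) / (2 * N)) (τ * (1 / N)) (Bst N τ n γ)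

/-- **the Birkhoff map** -/
noncomputable def B (N : ℕ) (τ : ℝ) (γ : Lp M) : Lp M := Bst L N τ (4 * N) γ

variable {N : ℕ} {T s t : ℝ} {γ : Lp M}

theorem one_div_le_one_N (hN : 0 < N) : (1 : ℝ) / N ≤ 1 := by
  have : (1 : ℝ) ≤ N := by exact_mod_cast hN
  exact div_le_one_of_le₀ this (by positivity)

theorem levDef_Bst (hN : 0 < N) (hT : T * (1 / N) < L.r0) (n : ℕ) :
    LevDef M T (fun p => Bst L N p.1 n p.2) := by
  induction n with
  | zero => exact LevDef.id T
  | succ n ih =>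
    exact (levDef_repA L ((n : ℝ) / (2 * N)) (by positivity) (one_div_le_one_N hN) hT).comp ih

theorem levDef_B (hN : 0 < N) (hT : T * (1 / N) < L.r0) : LevDef M T (fun p => B L N p.1 p.2) :=
  levDef_Bst L hN hT _

theorem Bst_mem (hN : 0 < N) (hs : s * (1 / N) < L.r0) (hγ : γ ∈ X M s) (n : ℕ) :
    Bst L N 1 n γ ∈ X M s :=
  (levDef_Bst L hN hs n).maps s le_rfl 1 ⟨zero_le_one, le_rfl⟩ γ hγ

theorem Bst_succ (n : ℕ) (γ : Lp M) :
    Bst L N 1 (n + 1) γ = repA L ((n : ℝ) / (2 * N)) (1 / N) (Bst L N 1 n γ) := by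
  show repA L ((n : ℝ) / (2 * N)) (1 * (1 / N)) (Bst L N 1 n γ) = _
  rw [one_mul]

/-- tightness goes back in time -/
theorem tight_Bst_back (hN : 0 < N) (hs : s * (1 / N) < L.r0) (hγ : γ ∈ X M s) {c d : ℝ}
    (hcd : c < d) {n m : ℕ} (hmn : m ≤ n)
    (ht : dist (Bst L N 1 n γ c) (Bst L N 1 n γ d) = s * (d - c)) :
    dist (Bst L N 1 m γ c) (Bst L N 1 m γ d) = s * (d - c) := by
  have hN' : (0 : ℝ) < 1 / N := by positivity
  induction n with
  | zero =>
    obtain rfl : m = 0 := by omega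
    exact ht
  | succ n ih =>
    rcases Nat.le_succ_iff.1 hmn with h | h
    · refine ih h ?_
      rw [Bst_succ] at ht
      exact tight_back L (Bst_mem L hN hs hγ n) hN' (one_div_le_one_N hN) hs hcd ht
    · rw [h]; exact ht

/-- all earlier steps are trivial -/
theorem trivial_steps (hN : 0 < N) (hs : s * (1 / N) < L.r0) (hγ : γ ∈ X M s) {c d : ℝ}
    {j : ℕ} (n : ℤ)
    (hov : max c ((j : ℝ) / (2 * N) + n) < min d ((j : ℝ) / (2 * N) + 1 / N + n))
    (ht : dist (Bst L N 1 (j + 1) γ c) (Bst L N 1 (j + 1) γ d) = s * (d - c)) :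
    ∀ m ≤ j, Bst L N 1 m γ = γ ∧
      dist (γ (((m : ℝ) / (2 * N) : ℝ) : UnitAddCircle))
        (γ (((m : ℝ) / (2 * N) + 1 / N : ℝ) : UnitAddCircle)) = s * (1 / N) := by
  have hN' : (0 : ℝ) < 1 / N := by positivity
  have key : ∀ i ≤ j, Bst L N 1 (j - i + 1) γ = Bst L N 1 (j - i) γ ∧
      dist (Bst L N 1 (j - i) γ (((j - i : ℕ) : ℝ) / (2 * N) : ℝ))
        (Bst L N 1 (j - i) γ (((j - i : ℕ) : ℝ) / (2 * N) + 1 / N : ℝ)) = s * (1 / N) := by
    intro i hi
    induction i with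
    | zero =>
      rw [Nat.sub_zero]
      have h1 := ht
      rw [Bst_succ] at h1
      have h2 := tight_overlap L (Bst_mem L hN hs hγ j) hN' (one_div_le_one_N hN) hs n hov h1
      rw [Bst_succ]
      exact h2
    | succ i ih =>
      obtain ⟨g1, g2⟩ := ih (by omega)
      set m := j - (i + 1) with hm
      have hji : j - i = m + 1 := by omega
      rw [hji] at g2
      have e1 : s * (1 / (N : ℝ)) = s * ((((m + 1 : ℕ) : ℝ) / (2 * N) + 1 / N) -
          ((m + 1 : ℕ) : ℝ) / (2 * N)) := by ring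
      rw [e1, Bst_succ] at g2
      have hNr : (0 : ℝ) < N := by exact_mod_cast hN
      have hov' : max (((m + 1 : ℕ) : ℝ) / (2 * N)) ((m : ℝ) / (2 * N) + (0 : ℤ)) <
          min (((m + 1 : ℕ) : ℝ) / (2 * N) + 1 / N) ((m : ℝ) / (2 * N) + 1 / N + (0 : ℤ)) := by
        have e2 : ((m + 1 : ℕ) : ℝ) / (2 * N) = (m : ℝ) / (2 * N) + 1 / (2 * N) := by
          push_cast; ring
        have e3 : (1 : ℝ) / N = 1 / (2 * N) + 1 / (2 * N) := by field_simp; norm_num
        have e4 : (0 : ℝ) < 1 / (2 * N) := by positivity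
        rw [e2, e3, Int.cast_zero, add_zero, add_zero]
        rw [lt_min_iff, max_lt_iff, max_lt_iff]
        refine ⟨⟨?_, ?_⟩, ?_, ?_⟩ <;> linarith
      have h2 := tight_overlap L (Bst_mem L hN hs hγ m) hN' (one_div_le_one_N hN) hs 0 hov' g2
      rw [Bst_succ]
      exact h2
  have h0 : ∀ m ≤ j, Bst L N 1 m γ = γ := by
    intro m hm
    induction m with
    | zero => rfl
    | succ m ih =>
      have h1 := (key (j - m) (by omega)).1
      have e : j - (j - m) = m := by omega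
      rw [e] at h1
      rw [h1, ih (by omega)]
  intro m hm
  refine ⟨h0 m hm, ?_⟩
  have h1 := (key (j - m) (by omega)).2
  have e : j - (j - m) = m := by omega
  rw [e, h0 m hm] at h1
  exact h1

/-- **strict decrease**: full speed on one interval of the grid forces a closed geodesic -/
theorem isGeo_of_tight (hN : 0 < N) (hs : s * (1 / N) < L.r0) (hγ : γ ∈ X M s) {k : ℕ}
    (hk : k < 2 * N)
    (ht : dist (B L N 1 γ (((k : ℝ) / (2 * N) : ℝ) : UnitAddCircle))
      (B L N 1 γ ((((k + 1 : ℕ) : ℝ) / (2 * N) : ℝ) : UnitAddCircle)) = s * (1 / (2 * N))) :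
    ∀ x y : ℝ, |x - y| ≤ 1 / (2 * N) → dist (γ (x : UnitAddCircle)) (γ (y : UnitAddCircle)) =
      s * |x - y| := by
  have hNr : (0 : ℝ) < N := by exact_mod_cast hN
  have hcd : (k : ℝ) / (2 * N) < ((k + 1 : ℕ) : ℝ) / (2 * N) := by
    apply div_lt_div_of_pos_right _ (by positivity)
    push_cast; linarith
  have e1 : ((k + 1 : ℕ) : ℝ) / (2 * N) - (k : ℝ) / (2 * N) = 1 / (2 * N) := by
    push_cast; ring
  have h1 : dist (Bst L N 1 (2 * N + k + 1) γ (((k : ℝ) / (2 * N) : ℝ) : UnitAddCircle))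
      (Bst L N 1 (2 * N + k + 1) γ ((((k + 1 : ℕ) : ℝ) / (2 * N) : ℝ) : UnitAddCircle)) =
      s * (((k + 1 : ℕ) : ℝ) / (2 * N) - (k : ℝ) / (2 * N)) := by
    refine tight_Bst_back L hN hs hγ hcd (n := 4 * N) (by omega) ?_
    rw [e1]; exact ht
  have hov : max ((k : ℝ) / (2 * N)) (((2 * N + k : ℕ) : ℝ) / (2 * N) + ((-1 : ℤ) : ℝ)) <
      min (((k + 1 : ℕ) : ℝ) / (2 * N)) (((2 * N + k : ℕ) : ℝ) / (2 * N) + 1 / N + ((-1 : ℤ) : ℝ)) := by
    have e2 : ((2 * N + k : ℕ) : ℝ) / (2 * N) = 1 + (k : ℝ) / (2 * N) := by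
      push_cast; field_simp
    have e3 : (1 : ℝ) / N = 1 / (2 * N) + 1 / (2 * N) := by field_simp; norm_num
    have e4 : (0 : ℝ) < 1 / (2 * N) := by positivity
    have e5 : ((k + 1 : ℕ) : ℝ) / (2 * N) = (k : ℝ) / (2 * N) + 1 / (2 * N) := by
      push_cast; ring
    rw [e2, e3, e5]
    push_cast
    rw [lt_min_iff, max_lt_iff, max_lt_iff]
    refine ⟨⟨?_, ?_⟩, ?_, ?_⟩ <;> linarith
  have h2 := trivial_steps L hN hs hγ (-1) hov h1
  -- all arcs of the first round are tight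
  have h3 : ∀ m : ℕ, m < 2 * N → dist (γ (((m : ℝ) / (2 * N) : ℝ) : UnitAddCircle))
      (γ (((m : ℝ) / (2 * N) + 1 / N : ℝ) : UnitAddCircle)) = s * (1 / N) := fun m hm =>
    (h2 m (by omega)).2
  have key : ∀ x y : ℝ, x ≤ y → y - x ≤ 1 / (2 * N) →
      dist (γ (x : UnitAddCircle)) (γ (y : UnitAddCircle)) = s * (y - x) := by
    intro x y hxy hd
    -- shift to [0,1)
    set x' := Int.fract x with hx'
    set y' := y - ⌊x⌋ with hy'
    have ex : x' = x - ⌊x⌋ := rfl
    have hx0 := Int.fract_nonneg x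
    have hx1 := Int.fract_lt_one x
    set m := ⌊x' * (2 * N)⌋₊ with hm
    have hm1 : (m : ℝ) ≤ x' * (2 * N) := Nat.floor_le (by positivity)
    have hm2 : x' * (2 * N) < m + 1 := Nat.lt_floor_add_one _
    have hm3 : m < 2 * N := by
      have : (m : ℝ) < ((2 * N : ℕ) : ℝ) := by
        push_cast
        calc (m : ℝ) ≤ x' * (2 * N) := hm1
          _ < 1 * (2 * N) := mul_lt_mul_of_pos_right hx1 (by positivity)
          _ = 2 * N := one_mul _
      exact_mod_cast this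
    have h4 := h3 m hm3
    have e6 : s * (1 / (N : ℝ)) = s * (((m : ℝ) / (2 * N) + 1 / N) - (m : ℝ) / (2 * N)) := by ring
    rw [e6] at h4
    have a1 : (m : ℝ) / (2 * N) ≤ x' := by rw [div_le_iff₀ (by positivity)]; exact hm1
    have a2 : y' ≤ (m : ℝ) / (2 * N) + 1 / N := by
      have b1 : x' < (m : ℝ) / (2 * N) + 1 / (2 * N) := by
        rw [← add_div, lt_div_iff₀ (by positivity)]; exact hm2
      have e3 : (1 : ℝ) / N = 1 / (2 * N) + 1 / (2 * N) := by field_simp; norm_num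
      have b2 : y' - x' = y - x := by rw [hy', ex]; ring
      linarith
    have a3 : x' ≤ y' := by rw [hy', ex]; linarith
    have h5 := tight_sub hγ a1 a3 a2 h4
    rw [hy', ex, coe_sub_int, coe_sub_int] at h5
    rw [h5]; ring
  intro x y hd
  rcases le_total x y with hxy | hxy
  · rw [abs_sub_comm, abs_of_nonneg (by linarith)] at hd ⊢
    exact key x y hxy hd
  · rw [abs_of_nonneg (by linarith)] at hd ⊢
    rw [dist_comm]
    exact key y x hxy hd

end

end Crest.Agent.R231.GLugx576
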