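import Crest.Agent.R231.GSim_449
import Crest.Agent.R231.GCross_449
import Crest.Agent.R231.If_G_651

/-!
# Row 231 (S0357), block G, leaf G3: the literal statement (helper449)

* `exists_push` : on every compact `M` with short geodesics `L` (`L.LocMin`) and for every `T` there is
  a Birkhoff step `P : Push M T` whose homotopy commutes with the half rotation (more generally with the
  rotations by `j/N`).
* `G3_of` : `IfGx651.G3 M s e` for all `0 < s`, `0 < e`.
* `nestedB` : the nested form for the two halves `K true`, `K false` of the critical set, in the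
  language of `IfGx651.IsDef`, with a homotopy commuting with the half rotation.
-/

set_option autoImplicit false

open Set Filter Topology

namespace Crest.Agent.R231.GCrossBx449

open Crest.Agent.R231.GLugx576 Crest.Agent.R231.GCrossx449 Crest.Agent.R231.GSimx449

variable {M : Type*} [MetricSpace M] [CompactSpace M] (L : LUG M)

/-- the speed of `Bs γ` on the `k`-th interval of the grid -/
noncomputable def spd (N K : ℕ) (k : ℕ) (γ : Lp M) : ℝ := 2 * N *
  dist (Bs L N 1 K γ (((k : ℝ) / (2 * N) : ℝ) : UnitAddCircle))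
    (Bs L N 1 K γ ((((k + 1 : ℕ) : ℝ) / (2 * N) : ℝ) : UnitAddCircle))

theorem contOn_spd {N : ℕ} {T : ℝ} (hN : 0 < N) (hT : T * (1 / N) < L.r0) (K k : ℕ) :
    ContinuousOn (spd L N K k) (X M T) := by
  have h1 : ContinuousOn (fun γ : Lp M => Bs L N 1 K γ) (X M T) :=
    (levDef_Bs L hN hT K).cont.comp (continuousOn_const.prodMk continuousOn_id)
      fun γ hγ => ⟨⟨zero_le_one, le_rfl⟩, hγ⟩
  have h2 : ∀ x : UnitAddCircle, ContinuousOn (fun γ : Lp M => Bs L N 1 K γ x) (X M T) := fun x =>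
    (continuous_eval_const x).comp_continuousOn h1
  exact continuousOn_const.mul (continuous_dist.comp_continuousOn ((h2 _).prodMk (h2 _)))

/-- the level of `Bs γ` -/
noncomputable def lamB (N K : ℕ) (γ : Lp M) : ℝ :=
  (Finset.range (2 * N + 1)).sup' ⟨0, Finset.mem_range.2 (Nat.succ_pos _)⟩ (fun k => spd L N K k γ)

/-- **the Birkhoff step as a `Push`** -/
noncomputable def pushB (hL : L.LocMin) {N : ℕ} {T : ℝ} (hN : 0 < N) (hT : T * (1 / N) < L.r0)
    {K : ℕ} (hK : N + 1 ≤ K) : Push M T where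
  H := fun r γ => Bs L N r K γ
  cont := (levDef_Bs L hN hT K).cont
  H0 := (levDef_Bs L hN hT K).zero
  lev := fun t ht g hg r hr => (levDef_Bs L hN hT K).maps t ht r hr g hg
  lam := lamB L N K
  lam_cont := ContinuousOn.finset_sup'_apply _ fun k _ => contOn_spd L hN hT K k
  lam_mem := fun g hg => by
    have hNr : (0 : ℝ) < N := by exact_mod_cast hN
    refine Bs_mem_of_nodes L hN hT hg (by omega) fun k hk => ?_
    have h1 : spd L N K k g ≤ lamB L N K g :=
      Finset.le_sup' (fun k => spd L N K k g) (Finset.mem_range.2 (by omega))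
    have e : lamB L N K g * (1 / (2 * (N : ℝ))) = lamB L N K g / (2 * N) := by ring
    rw [e, le_div_iff₀ (by positivity)]
    unfold spd at h1
    linarith
  dich := fun t ht0 htT g hg => by
    have hNr : (0 : ℝ) < N := by exact_mod_cast hN
    have ht : t * (1 / (N : ℝ)) < L.r0 :=
      lt_of_le_of_lt (mul_le_mul_of_nonneg_right htT (by positivity)) hT
    by_cases h : lamB L N K g < t
    · exact Or.inl h
    · right
      obtain ⟨k, hk, hk2⟩ := Finset.exists_mem_eq_sup' (s := Finset.range (2 * N + 1))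
        ⟨0, Finset.mem_range.2 (Nat.succ_pos _)⟩ (fun k => spd L N K k g)
      have h1 : t ≤ spd L N K k g := by
        rw [← hk2]; exact not_lt.1 h
      have hm := Bs_mem L hN ht hg ⟨zero_le_one, le_rfl⟩ K
      have h2 := hm ((k : ℝ) / (2 * N)) (((k + 1 : ℕ) : ℝ) / (2 * N))
      have h3 : |(k : ℝ) / (2 * N) - ((k + 1 : ℕ) : ℝ) / (2 * N)| = 1 / (2 * N) := by
        rw [grid_succ, abs_sub_comm, add_sub_cancel_left, abs_of_nonneg (by positivity)]
      rw [h3] at h2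
      refine ⟨ht0, 1 / (2 * N), by positivity, Bs_tight L hN ht hg hK (k : ℤ) ?_⟩
      push_cast at h2 ⊢
      refine le_antisymm h2 ?_
      unfold spd at h1
      push_cast at h1
      have e : t * (1 / (2 * (N : ℝ))) = t / (2 * N) := by ring
      rw [e, div_le_iff₀ (by positivity)]
      linarith
  fix := fun t ht g hg r hr => by
    have ht' : t * (1 / (N : ℝ)) < L.r0 :=
      lt_of_le_of_lt (mul_le_mul_of_nonneg_right ht (by positivity)) hT
    exact Bs_geo L hL hN hg (geo_mem hg) ht' hr K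

theorem pushB_H (hL : L.LocMin) {N : ℕ} {T : ℝ} (hN : 0 < N) (hT : T * (1 / N) < L.r0)
    {K : ℕ} (hK : N + 1 ≤ K) (r : ℝ) (γ : Lp M) :
    (pushB L hL hN hT hK).H r γ = Bs L N r K γ := rfl

/-- **an equivariant Birkhoff step** -/
theorem exists_push (hL : L.LocMin) (T : ℝ) : ∃ P : Push M T,
    ∀ g ∈ X M T, ∀ r ∈ Icc (0 : ℝ) 1,
      P.H r (rot GSmithx651.hf g) = rot GSmithx651.hf (P.H r g) := by
  obtain ⟨N, hN, hT⟩ := exists_N L T
  have hNr : (0 : ℝ) < N := by exact_mod_cast hN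
  have h2N : 0 < 2 * N := by omega
  have hr := L.r0_pos
  have hT2 : T * (1 / ((2 * N : ℕ) : ℝ)) < L.r0 := by
    have e : T * (1 / ((2 * N : ℕ) : ℝ)) = (T * (1 / N)) / 2 := by push_cast; field_simp
    rw [e]; linarith
  refine ⟨pushB L hL h2N hT2 (K := 2 * N + 1) le_rfl, fun g hg r hr => ?_⟩
  have h1 := Bs_rot L h2N hT2 hg hr (N : ℤ) (2 * N + 1)
  have e : (((N : ℤ) : ℝ) / ((2 * N : ℕ) : ℝ) : ℝ) = 1 / 2 := by push_cast; field_simp
  rw [e] at h1
  exact h1

/-- the level preserving deformation given by a `Push` -/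
theorem isDef_push {M : Type} [MetricSpace M] [CompactSpace M] {T b : ℝ} (P : Push M T)
    (hb : b ≤ T) : IfGx651.IsDef M b (fun g r => P.H r g) where
  cont := by
    have h1 : ContinuousOn (fun p : Lp M × ℝ => (p.2, p.1)) (X M b ×ˢ Icc (0 : ℝ) 1) :=
      (continuous_snd.prodMk continuous_fst).continuousOn
    exact P.cont.comp h1 fun p hp => ⟨hp.2, X_mono hb hp.1⟩
  zero := fun g hg => P.H0 g (X_mono hb hg)
  level := fun t ht g hg r hr => P.lev t (ht.trans hb) g hg r hr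

/-- **G3, nested form for the two halves of the critical set** -/
theorem nestedB {M : Type} [MetricSpace M] [CompactSpace M] (L : LUG M) (hL : L.LocMin) {s e : ℝ}
    (hs : 0 < s) (he : 0 < e) :
    ∃ F : Lp M → ℝ → Lp M, IfGx651.IsDef M (s + e) F ∧
      (∀ γ ∈ X M (s + e), ∀ r ∈ Icc (0 : ℝ) 1,
          F (rot GSmithx651.hf γ) r = rot GSmithx651.hf (F γ r)) ∧
      (∀ t ≤ s + e, ∀ γ, IsGeo t γ → ∀ r ∈ Icc (0 : ℝ) 1, F γ r = γ) ∧
      ∀ (K O : Bool → Set (Lp M)), (∀ g, IsGeo s g ↔ ∃ ε, g ∈ K ε) → (∀ ε, IsClosed (K ε)) →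
        (∀ ε, ∀ g ∈ K ε, ∀ a, rot a g ∈ K ε) → (∀ ε, ∀ g ∈ K ε, rev g ∈ K (!ε)) →
        (∀ ε, IsOpen (O ε)) → (∀ ε, K ε ⊆ O ε) → ∀ m : ℕ,
        ∃ U : ℕ → Bool → Set (Lp M),
          (∀ k ε, IsOpen (U k ε)) ∧ (∀ k ε, K ε ⊆ U k ε) ∧ (∀ k ε, U (k + 1) ε ⊆ U k ε) ∧
          (∀ k ε, closure (U k ε) ⊆ O ε) ∧ (∀ k < m, ∀ ε, closure (U (k + 1) ε) ⊆ U k ε) ∧
          (∀ k ε, ∀ g ∈ U k ε, ∀ a, rot a g ∈ U k ε) ∧ (∀ k ε, ∀ g ∈ U k ε, rev g ∈ U k (!ε)) ∧
          (∀ k ε, ∀ g ∈ U k ε, g ∈ X M (s + e) → ∀ r ∈ Icc (0 : ℝ) 1, F g r ∈ O ε) ∧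
          (∀ k < m, ∀ ε, ∀ g ∈ U (k + 1) ε, g ∈ X M (s + e) → ∀ r ∈ Icc (0 : ℝ) 1,
            F g r ∈ U k ε) ∧
          ∃ ε₀ > (0 : ℝ), ε₀ ≤ e ∧ ∀ ε, 0 < ε → ε ≤ ε₀ → ∀ g ∈ X M (s + ε),
            F g 1 ∈ X M (s - ε) ∪ (U m true ∪ U m false) := by
  obtain ⟨P, hP⟩ := exists_push L hL (s + e)
  refine ⟨fun g r => P.H r g, isDef_push P le_rfl, fun g hg r hr => hP g hg r hr,
    fun t ht g hg r hr => P.fix t ht g hg r hr, ?_⟩
  intro K O hK hKc hKrot hKrev hO hKO m
  obtain ⟨U, u1, u2, u3, u4, u5, u6, u7, u8, u9, e0, he0, he1, u10⟩ :=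
    P.nested hs (by linarith) hK hKc hKrot hKrev hO hKO m
  refine ⟨fun k => U (m - k), fun k => u1 _, fun k => u2 _, ?_, fun k => u4 _, ?_,
    fun k => u6 _, fun k => u7 _, fun k => u8 _, ?_, e0, he0, by linarith, ?_⟩
  · intro k ε
    show U (m - (k + 1)) ε ⊆ U (m - k) ε
    rcases Nat.lt_or_ge k m with hk | hk
    · have e : m - k = (m - (k + 1)) + 1 := by omega
      rw [e]; exact u3 _ ε
    · have e : m - k = m - (k + 1) := by omega
      rw [e]
  · intro k hk ε
    show closure (U (m - (k + 1)) ε) ⊆ U (m - k) ε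
    have e : m - k = (m - (k + 1)) + 1 := by omega
    rw [e]; exact u5 _ (by omega) ε
  · intro k hk ε g hg hgT r hr
    show P.H r g ∈ U (m - k) ε
    have e : m - k = (m - (k + 1)) + 1 := by omega
    rw [e]; exact u9 _ (by omega) ε g hg hgT r hr
  · intro ε h1 h2 g hg
    show P.H 1 g ∈ X M (s - ε) ∪ (U (m - m) true ∪ U (m - m) false)
    rw [Nat.sub_self]
    exact u10 ε h1 h2 g hg

/-- **G3** in the literal form of `If_G_651` -/
theorem G3_of {M : Type} [MetricSpace M] [CompactSpace M] (L : LUG M) (hL : L.LocMin) {s e : ℝ}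
    (hs : 0 < s) (he : 0 < e) : IfGx651.G3 M s e := by
  intro m O hO hOrot hOc
  obtain ⟨F, hF, hFrot, hFfix, hn⟩ := nestedB L hL hs he
  obtain ⟨P, -⟩ := exists_push L hL (s + e)
  obtain ⟨U, u1, u2, u3, u4, u5, u6, u7, u8, u9, ε₀, he0, he1, u10⟩ :=
    hn (fun _ => {g | IsGeo s g}) (fun _ => O) (fun g => by simp) (fun _ =>
      P.isClosed_geo hs (by linarith)) (fun _ g hg a => geo_rot hg a)
      (fun _ g hg => geo_rev hg) (fun _ => hO) (fun _ g hg => hOc g hg) m
  refine ⟨fun k => U k true ∪ U k false, ε₀, he0, he1, ?_, fun k => (u1 k _).union (u1 k _), ?_,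
    fun k γ hγ => Or.inl (u2 k true hγ), fun k => union_subset_union (u3 k _) (u3 k _), ?_⟩
  · exact union_subset (subset_closure.trans (u4 0 true)) (subset_closure.trans (u4 0 false))
  · rintro k a γ (h | h)
    · exact Or.inl (u6 k _ γ h a)
    · exact Or.inr (u6 k _ γ h a)
  · intro ε h1 h2
    have hle : s + ε ≤ s + e := by linarith
    refine ⟨F, ⟨hF.cont.mono (prod_mono (X_mono hle) le_rfl), fun γ hγ => hF.zero γ (X_mono hle hγ),
      fun t ht => hF.level t (ht.trans hle)⟩, fun γ hγ => u10 ε h1 h2.le γ hγ, ?_,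
      fun γ hγ r hr => hFrot γ (X_mono hle hγ) r hr⟩
    rintro k hk γ ⟨hγ, (h | h)⟩ r hr
    · exact Or.inl (Or.inl (u9 k hk _ γ h (X_mono hle hγ) r hr))
    · exact Or.inl (Or.inr (u9 k hk _ γ h (X_mono hle hγ) r hr))

end Crest.Agent.R231.GCrossBx449
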