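import Crest.Agent.R231.GPolyH_651
import Crest.Agent.R231.GFinB_315
import Crest.Agent.R231.GNon_651
import Crest.Agent.R231.InstB_895
import Crest.Agent.R231.Arc_218
import Crest.Agent.R231.GeoLug_724

/-!
# Row 231, block G: the field `fin` of `BaseHyp` (helper651)

* `g4` : the literal `G4` of `If_G_651`
* `finite_HP` : `H(X t, X 0)` is finite dimensional at non-critical levels
* `retrSG` : `(S^n, g)` is a retract of `ℝ^{n+1} ∖ 0`; `noncrit_SG`, `fin_SG` : the fields `noncrit` and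
  `fin` of `BaseHyp (SG g)`
-/

set_option autoImplicit false
set_option linter.unusedSectionVars false

noncomputable section

open Set Filter Topology

namespace Crest.Agent.R231.GFinXx651

open Crest.Agent.R204 Pairx877 GLugx576 FinDim315 GFinx315 GFinBx315 GPolyHx651 Instx895

section general

variable {M : Type} [MetricSpace M] [CompactSpace M] {V : Type} [NormedAddCommGroup V]
  [NormedSpace ℝ V] (R : Retr M V) (L : LUG M)

include R in
theorem finite_HS : Module.Finite F2 (HS M) :=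
  finite_of_retract R.isOpen ⟨fun x => ⟨R.e x, R.mem x⟩, R.cont_e.subtype_mk _⟩
    ⟨fun z => R.ρ z, continuousOn_iff_continuous_domRestrict.1 R.contOn⟩ R.ρ_e

include R L in
/-- **(G4)**, literal form of `If_G_651` -/
theorem g4 {a b : ℝ} (ha : 0 ≤ a) (hab : a < b) : IfGx651.G4 M a b :=
  G4_iff.2 (frk_X ha hab.le (finite_HS R) (finRk_incl R L hab))

theorem finite_of_frk {E : Type} [TopologicalSpace E] {X' A : Set E} (h : Frk X' A X' A) :
    Module.Finite F2 (HP X' A) := by
  have h1 : FinRk (Hr.inc (d := bdE E) (CS_mono (subset_refl X')) (CS_mono (subset_refl A))) :=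
    (finRk_inc_iff (subset_refl X') (subset_refl A)).2 h
  refine h1.finite_of_injective fun x y hxy => ?_
  rwa [Hr.inc_refl, Hr.inc_refl] at hxy

include R L in
/-- **finite dimension at the non-critical levels** -/
theorem finite_HP (hcf : ∀ T : ℝ, (CritS M ∩ Iic T).Finite) (t : ℝ) (ht : 0 ≤ t)
    (htc : t ∉ CritS M) : Module.Finite F2 (HP (X M t) (X M 0)) := by
  refine finite_of_frk ?_
  rcases ht.eq_or_lt with h | h
  · subst h
    refine ⟨⊥, Submodule.fg_bot, fun c hc => Submodule.mem_sup_left (mem_Bp.2 ⟨0, ?_, ?_⟩)⟩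
    · exact Submodule.zero_mem _
    · rw [map_zero, sub_zero]; exact (mem_Zp.1 hc).1
  · obtain ⟨t', h0, h1, h2⟩ : ∃ t' : ℝ, 0 ≤ t' ∧ t' < t ∧ ∀ s ∈ CritS M, ¬ (t' ≤ s ∧ s ≤ t) := by
      have hc : IsClosed (CritS M ∩ Set.Iic t) := (hcf t).isClosed
      have ho : (CritS M ∩ Set.Iic t)ᶜ ∈ 𝓝 t := hc.isOpen_compl.mem_nhds fun h => htc h.1
      obtain ⟨ε, hε, hb⟩ := Metric.mem_nhds_iff.1 ho
      refine ⟨max 0 (t - ε / 2), le_max_left _ _, max_lt h (by linarith), fun s hs hst => ?_⟩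
      have hmem : s ∈ Metric.ball t ε := ?_
      · exact hb hmem ⟨hs, hst.2⟩
      rw [Metric.mem_ball, Real.dist_eq, abs_sub_comm, abs_of_nonneg (by linarith [hst.2])]
      have := (le_max_right 0 (t - ε / 2)).trans hst.1
      linarith
    exact frk_of_acyclic (X_mono h0) (GNonx651.acyclic L h0 h1.le fun s hs => h2 s hs)
      (G4_iff.1 (g4 R L h0 h1))

end general

section sphere

open GeoBasex724 BiLipx218 Arcx218 GeoLugx724

variable {n : ℕ} [NeZero n] (g : Met n)

/-- `(S^n, g)` is a retract of `ℝ^{n+1} ∖ 0` -/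
def retrSG : Retr (SG g) (Amb n) where
  e := vec
  cont_e := continuous_vec
  O := {z | z ≠ 0}
  isOpen := isOpen_ne
  ρ := nrm g
  contOn := continuousOn_nrm
  mem := vec_ne_zero
  ρ_e := nrm_vec

/-- the field `noncrit` of `BaseHyp (SG g)` -/
theorem noncrit_SG (G : R226.GeoData n (SG g)) (a b : ℝ) (ha : 0 ≤ a) (hab : a ≤ b)
    (h : ∀ s ∈ CritS (SG g), ¬ (a ≤ s ∧ s ≤ b)) :
    Zp (X (SG g) b) (X (SG g) a) ≤ Bp (X (SG g) b) (X (SG g) a) :=
  GNonx651.acyclic (lug G) ha hab fun s hs => h s hs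

/-- **the field `fin` of `BaseHyp (SG g)`** -/
theorem fin_SG (G : R226.GeoData n (SG g)) (hcf : ∀ T : ℝ, (CritS (SG g) ∩ Iic T).Finite) (t : ℝ)
    (ht : 0 ≤ t) (htc : t ∉ CritS (SG g)) :
    Module.Finite F2 (HP (X (SG g) t) (X (SG g) 0)) :=
  finite_HP (retrSG g) (lug G) hcf t ht htc

end sphere

end Crest.Agent.R231.GFinXx651
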