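import Crest.Agent.R231.Pair_877
import Crest.Agent.R231.FinDim_315

/-!
# Row 231 (S0357), block G: finite rank for pairs of subsets (helper315)

`Frk X A X' A'` : the map `H(X, A) → H(X', A')` has finite rank, in the form
`Zp X A ≤ Bp X' A' ⊔ S` with `S` finite dimensional (877's `Zp`, `Bp`, total degree).
* `frk_of_finRk` : from `FinRk (Hm incl)` of `FinDim_315`
* `frk_pair` : pairs from absolute ones
* `frk_of_acyclic` : `H(X, B) = 0`, `Frk B A X A` gives `Frk X A X A`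
-/

set_option autoImplicit false

noncomputable section

open Function Topology

namespace Crest.Agent.R231.GFinx315

open Crest.Agent.R204 Crest.Agent.R204.SpecA Crest.Agent.R204.HA683
open Crest.Agent.R231.Pairx877 Crest.Agent.R231.FinDim315

variable {E : Type} [TopologicalSpace E]

/-- `H(X, A) → H(X', A')` has finite rank -/
def Frk (X A X' A' : Set E) : Prop :=
  ∃ S : Submodule F2 (CE E), S.FG ∧ Zp X A ≤ Bp X' A' ⊔ S

theorem Frk.mono {X A X' A' X₁ A₁ X₂ A₂ : Set E} (h : Frk X A X' A') (h1 : X₁ ⊆ X) (h2 : A₁ ⊆ A)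
    (h3 : X' ⊆ X₂) (h4 : A' ⊆ A₂) : Frk X₁ A₁ X₂ A₂ := by
  obtain ⟨S, hS, h⟩ := h
  exact ⟨S, hS, (Zp_mono h1 h2).trans (h.trans (sup_le_sup_right (Bp_mono h3 h4) S))⟩

theorem mem_Zp_empty {X : Set E} {c : CE E} : c ∈ Zp X ∅ ↔ c ∈ CS X ∧ bdE E c = 0 := by
  rw [mem_Zp, CS_empty, Submodule.mem_bot]

theorem mem_Bp_empty {X : Set E} {c : CE E} : c ∈ Bp X ∅ ↔ ∃ w ∈ CS X, c = bdE E w := by
  rw [mem_Bp, CS_empty]
  simp only [Submodule.mem_bot, sub_eq_zero]

/-- the inclusion of nested subsets -/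
def incl {X X' : Set E} (h : X ⊆ X') : C(X, X') := ⟨Set.inclusion h, continuous_inclusion h⟩

/-- extension of chains of a subset -/
abbrev ext (X : Set E) : CE X →ₗ[F2] CE E := N.map F2 (SS.SingMap (SpecA.inc X))

theorem ext_incl {X X' : Set E} (h : X ⊆ X') (c : CE X) :
    ext X' (N.map F2 (SS.SingMap (incl h)) c) = ext X c := by
  have h1 : ext X' ∘ₗ N.map F2 (SS.SingMap (incl h)) = ext X := by
    refine EZ271.hom_ext fun n σ => ?_
    rw [LinearMap.comp_apply, N.map_sx, N.map_sx, N.map_sx]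
    rfl
  exact LinearMap.congr_fun h1 c

theorem ext_mem {X : Set E} (c : CE X) : ext X c ∈ CS X := by
  rw [CS_eq_range]; exact ⟨c, rfl⟩

theorem bd_ext {X : Set E} (c : CE X) : bdE E (ext X c) = ext X (bdE X c) :=
  (LinearMap.congr_fun (N.map_bd (R := F2) (SS.SingMap (SpecA.inc X))) c).symm

theorem frk_of_finRk {X X' : Set E} (h : X ⊆ X') (hf : FinRk (Hm (incl h))) : Frk X ∅ X' ∅ := by
  have hfg : (LinearMap.range (Hm (incl h))).FG :=
    (Submodule.fg_top _).1 (show Module.Finite F2 (LinearMap.range (Hm (incl h))) from hf).1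
  obtain ⟨n, g, hg⟩ := Submodule.fg_iff_exists_fin_generating_family.1 hfg
  choose z hz hgz using fun i => Hd.mk_surj (N.bd F2 (SS.Sing X')) (g i)
  refine ⟨Submodule.span F2 (Set.range fun i => ext X' (z i)), Submodule.fg_span (Set.finite_range _),
    fun c hc => ?_⟩
  rw [mem_Zp_empty] at hc
  have h0 : bdE X (res X c) = 0 := by rw [bd_res c hc.1, hc.2, map_zero]
  have h1 : Hm (incl h) (Hd.mk _ (res X c) h0) ∈ LinearMap.range (Hm (incl h)) := ⟨_, rfl⟩
  rw [← hg, Submodule.mem_span_range_iff_exists_fun] at h1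
  obtain ⟨a, ha⟩ := h1
  have h2 : bdE X' (N.map F2 (SS.SingMap (incl h)) (res X c)) = 0 := by
    have := LinearMap.congr_fun (N.map_bd (R := F2) (SS.SingMap (incl h))) (res X c)
    simp only [LinearMap.comp_apply] at this
    rw [← this, h0, map_zero]
  have h3 : bdE X' (∑ i, a i • z i) = 0 := by
    rw [map_sum]
    refine Finset.sum_eq_zero fun i _ => ?_
    rw [map_smul, hz i, smul_zero]
  have h4 : Hd.mk (N.bd F2 (SS.Sing X')) _ h2 = Hd.mk _ _ h3 := by
    have e1 : Hd.mk (N.bd F2 (SS.Sing X')) _ h3 = ∑ i, a i • g i := by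
      have e2 : Hd.mk (N.bd F2 (SS.Sing X')) _ h3 = Submodule.mkQ _
          (∑ i, a i • (⟨z i, hz i⟩ : LinearMap.ker (N.bd F2 (SS.Sing X')))) := by
        refine congrArg (Submodule.mkQ _) (Subtype.ext ?_)
        simp
      rw [e2, map_sum]
      refine Finset.sum_congr rfl fun i _ => ?_
      rw [map_smul, hgz i]
      rfl
    rw [e1, ha]
    rfl
  rw [Hd.mk_eq_mk] at h4
  obtain ⟨w, hw⟩ := h4
  have h5 : c = bdE E (ext X' w) + ∑ i, a i • ext X' (z i) := by
    have h6 : ext X' (bdE X' w) = ext X' (N.map F2 (SS.SingMap (incl h)) (res X c)) -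
        ext X' (∑ i, a i • z i) := by rw [← map_sub, ← hw]
    rw [ext_incl, map_inc_res c hc.1] at h6
    rw [bd_ext, h6, map_sum]
    simp only [map_smul]
    abel
  rw [h5]
  refine Submodule.add_mem_sup (mem_Bp_empty.2 ⟨_, ext_mem w, rfl⟩) ?_
  exact Submodule.sum_mem _ fun i _ => Submodule.smul_mem _ _ (Submodule.subset_span ⟨i, rfl⟩)

/-- pairs from absolute ones -/
theorem frk_pair {A A' A'' X X' X'' : Set E} (hA : Frk A ∅ A' ∅) (hX : Frk X' ∅ X'' ∅)
    (h1 : X ⊆ X') (h2 : A' ⊆ X') (h3 : A' ⊆ A'') : Frk X A X'' A'' := by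
  obtain ⟨S, hS, hA⟩ := hA
  obtain ⟨S2, hS2, hX⟩ := hX
  -- the boundary modulo `Bp A' ∅`
  let ψ : Zp X A →ₗ[F2] (CE E ⧸ Bp A' ∅) := (Bp A' ∅).mkQ ∘ₗ bdE E ∘ₗ (Zp X A).subtype
  have hψ : LinearMap.range ψ ≤ S.map (Bp A' ∅).mkQ := by
    rintro _ ⟨c, rfl⟩
    have hc := mem_Zp.1 c.2
    have h4 : bdE E c ∈ Zp A ∅ := mem_Zp_empty.2 ⟨hc.2, bd_bdE _⟩
    obtain ⟨b, hb, s, hs, hbs⟩ := Submodule.mem_sup.1 (hA h4)
    refine ⟨s, hs, ?_⟩
    show (Bp A' ∅).mkQ s = (Bp A' ∅).mkQ (bdE E c)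
    rw [← hbs, map_add, show (Bp A' ∅).mkQ b = 0 from (Submodule.Quotient.mk_eq_zero _).2 hb,
      zero_add]
  have hfg : (LinearMap.range ψ).FG := by
    have h5 : (S.map (Bp A' ∅).mkQ).FG := hS.map _
    have h6 : Module.Finite F2 (S.map (Bp A' ∅).mkQ) := ⟨(Submodule.fg_top _).2 h5⟩
    have h7 : Module.Finite F2 (LinearMap.range ψ) :=
      Module.Finite.of_injective (Submodule.inclusion hψ) (Submodule.inclusion_injective hψ)
    exact (Submodule.fg_top _).1 h7.1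
  obtain ⟨n, g, hg⟩ := Submodule.fg_iff_exists_fin_generating_family.1 hfg
  have hgm : ∀ i, g i ∈ LinearMap.range ψ := fun i => by
    rw [← hg]; exact Submodule.subset_span ⟨i, rfl⟩
  choose z hz using hgm
  refine ⟨Submodule.span F2 (Set.range fun i => (z i : CE E)) ⊔ S2,
    (Submodule.fg_span (Set.finite_range _)).sup hS2, fun c hc => ?_⟩
  have h8 : ψ ⟨c, hc⟩ ∈ LinearMap.range ψ := ⟨_, rfl⟩
  rw [← hg, Submodule.mem_span_range_iff_exists_fun] at h8
  obtain ⟨a, ha⟩ := h8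
  set s : Zp X A := ∑ i, a i • z i with hs
  have h9 : ψ s = ψ ⟨c, hc⟩ := by
    rw [← ha, hs, map_sum]
    exact Finset.sum_congr rfl fun i _ => by rw [map_smul, hz]
  have h10 : ψ (⟨c, hc⟩ - s) = 0 := by rw [map_sub, h9, sub_self]
  have h11 : bdE E (c - s) ∈ Bp A' ∅ := (Submodule.Quotient.mk_eq_zero _).1 h10
  obtain ⟨a', ha', h12⟩ := mem_Bp_empty.1 h11
  have h13 : c - s - a' ∈ Zp X' ∅ := by
    refine mem_Zp_empty.2 ⟨?_, ?_⟩
    · exact Submodule.sub_mem _ (Submodule.sub_mem _ (CS_mono h1 hc.1) (CS_mono h1 s.2.1))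
        (CS_mono h2 ha')
    · rw [map_sub, h12, sub_self]
  obtain ⟨b, hb, s2, hs2, h14⟩ := Submodule.mem_sup.1 (hX h13)
  have h15 : c = (a' + b) + ((s : CE E) + s2) := by
    have : c = (c - s - a') + a' + s := by abel
    rw [this, ← h14]; abel
  rw [h15]
  refine Submodule.add_mem_sup (Submodule.add_mem _ ?_ ?_) (Submodule.add_mem_sup ?_ hs2)
  · exact Submodule.mem_sup_left (CS_mono h3 ha')
  · exact Bp_mono (Set.Subset.refl X'') (Set.empty_subset A'') hb
  · rw [hs, AddSubmonoidClass.coe_finset_sum]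
    exact Submodule.sum_mem _ fun i _ => Submodule.smul_mem _ _ (Submodule.subset_span ⟨i, rfl⟩)

/-- if `H(X, B) = 0` then finiteness passes from `(B, A)` to `(X, A)` -/
theorem frk_of_acyclic {X B A : Set E} (hAB : A ⊆ B) (hacy : Zp X B ≤ Bp X B)
    (h : Frk B A X A) : Frk X A X A := by
  obtain ⟨S, hS, h⟩ := h
  refine ⟨S, hS, fun c hc => ?_⟩
  obtain ⟨w, hw, hb⟩ := mem_Bp.1 (hacy (Zp_mono (Set.Subset.refl X) hAB hc))
  have h1 : c - bdE E w ∈ Zp B A := by
    refine mem_Zp.2 ⟨hb, ?_⟩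
    rw [map_sub, bd_bdE, sub_zero]
    exact hc.2
  have h2 : c = bdE E w + (c - bdE E w) := by abel
  rw [h2]
  refine Submodule.add_mem _ ?_ (h h1)
  exact Submodule.mem_sup_left (mem_Bp.2 ⟨w, hw, by rw [sub_self]; exact Submodule.zero_mem _⟩)

/-- the general step: `H(X, B) → H(X, B)` zero is enough on an intermediate level -/
theorem frk_of_step {X X' B A : Set E} (hXX : X ⊆ X') (hAB : A ⊆ B) (hacy : Zp X B ≤ Bp X' B)
    (h : Frk B A X' A) : Frk X A X' A := by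
  obtain ⟨S, hS, h⟩ := h
  refine ⟨S, hS, fun c hc => ?_⟩
  obtain ⟨w, hw, hb⟩ := mem_Bp.1 (hacy (Zp_mono (Set.Subset.refl X) hAB hc))
  have h1 : c - bdE E w ∈ Zp B A := by
    refine mem_Zp.2 ⟨hb, ?_⟩
    rw [map_sub, bd_bdE, sub_zero]
    exact hc.2
  have h2 : c = bdE E w + (c - bdE E w) := by abel
  rw [h2]
  refine Submodule.add_mem _ ?_ (h h1)
  exact Submodule.mem_sup_left (mem_Bp.2 ⟨w, hw, by rw [sub_self]; exact Submodule.zero_mem _⟩)

theorem mk_sum {M : Type*} [AddCommGroup M] [Module F2 M] {d : M →ₗ[F2] M} {X A : Submodule F2 M}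
    {ι : Type*} [Fintype ι] (a : ι → F2) (z : ι → M) (h1 : ∀ i, z i ∈ X) (h2 : ∀ i, d (z i) ∈ A)
    (h3 : ∑ i, a i • z i ∈ X) (h4 : d (∑ i, a i • z i) ∈ A) :
    Hr.mk d X A (∑ i, a i • z i) h3 h4 = ∑ i, a i • Hr.mk d X A (z i) (h1 i) (h2 i) := by
  have e2 : Hr.mk d X A (∑ i, a i • z i) h3 h4 = Submodule.mkQ _
      (∑ i, a i • (⟨z i, h1 i, h2 i⟩ : Zr d X A)) := by
    refine congrArg (Submodule.mkQ _) (Subtype.ext ?_)
    simp
  rw [e2, map_sum]
  refine Finset.sum_congr rfl fun i _ => ?_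
  rw [map_smul]
  rfl

/-- `Frk` is the finiteness of the rank of the map of `HP` -/
theorem finRk_inc_iff {X A X' A' : Set E} (hX : X ⊆ X') (hA : A ⊆ A') :
    FinRk (Hr.inc (d := bdE E) (CS_mono hX) (CS_mono hA)) ↔ Frk X A X' A' := by
  constructor
  · intro hf
    have hfg : (LinearMap.range (Hr.inc (d := bdE E) (CS_mono hX) (CS_mono hA))).FG :=
      (Submodule.fg_top _).1 (show Module.Finite F2 (LinearMap.range
        (Hr.inc (d := bdE E) (CS_mono hX) (CS_mono hA))) from hf).1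
    obtain ⟨n, g, hg⟩ := Submodule.fg_iff_exists_fin_generating_family.1 hfg
    choose z hz1 hz2 hgz using fun i => Hr.mk_surj (g i)
    refine ⟨Submodule.span F2 (Set.range z), Submodule.fg_span (Set.finite_range _),
      fun c hc => ?_⟩
    have h1 : Hr.inc (CS_mono hX) (CS_mono hA) (Hr.mk (bdE E) (CS X) (CS A) c hc.1 hc.2) ∈
      LinearMap.range (Hr.inc (d := bdE E) (CS_mono hX) (CS_mono hA)) := ⟨_, rfl⟩
    rw [← hg, Submodule.mem_span_range_iff_exists_fun] at h1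
    obtain ⟨a, ha⟩ := h1
    have h3 : ∑ i, a i • z i ∈ CS X' :=
      Submodule.sum_mem _ fun i _ => Submodule.smul_mem _ _ (hz1 i)
    have h4 : bdE E (∑ i, a i • z i) ∈ CS A' := by
      rw [map_sum]
      exact Submodule.sum_mem _ fun i _ => by
        rw [map_smul]; exact Submodule.smul_mem _ _ (hz2 i)
    have h5 : Hr.mk (bdE E) (CS X') (CS A') c (CS_mono hX hc.1) (CS_mono hA hc.2) =
        Hr.mk (bdE E) (CS X') (CS A') (∑ i, a i • z i) h3 h4 := by
      rw [mk_sum a z hz1 hz2 h3 h4]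
      rw [Hr.inc_mk] at ha
      rw [← ha]
      exact Finset.sum_congr rfl fun i _ => by rw [hgz i]
    obtain ⟨w, hw, h6⟩ := Hr.mk_eq_mk.1 h5
    have h7 : c = (c - ∑ i, a i • z i) + ∑ i, a i • z i := by abel
    rw [h7]
    refine Submodule.add_mem_sup (mem_Bp.2 ⟨w, hw, h6⟩) ?_
    exact Submodule.sum_mem _ fun i _ => Submodule.smul_mem _ _ (Submodule.subset_span ⟨i, rfl⟩)
  · rintro ⟨S, hS, h⟩
    let θ : HP X' A' →ₗ[F2] (CE E ⧸ Bp X' A') :=
      Submodule.mapQ _ _ (Zr (bdE E) (CS X') (CS A')).subtype (by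
        intro c hc
        exact hc)
    have hθ : Injective θ := by
      rw [injective_iff_map_eq_zero]
      intro x hx
      obtain ⟨c, h1, h2, rfl⟩ := Hr.mk_surj x
      rw [HP_mk_eq_zero]
      exact (Submodule.Quotient.mk_eq_zero _).1 hx
    have h1 : Module.Finite F2 (S.map (Bp X' A').mkQ) :=
      ⟨(Submodule.fg_top _).2 (hS.map _)⟩
    have h2 : FinRk (θ ∘ₗ Hr.inc (d := bdE E) (CS_mono hX) (CS_mono hA)) := by
      refine finRk_of_le h1 fun x => ?_
      obtain ⟨c, hc1, hc2, rfl⟩ := Hr.mk_surj x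
      obtain ⟨b, hb, s, hs, hbs⟩ := Submodule.mem_sup.1 (h (show c ∈ Zp X A from ⟨hc1, hc2⟩))
      refine ⟨s, hs, ?_⟩
      show (Bp X' A').mkQ s = (Bp X' A').mkQ c
      rw [← hbs, map_add, show (Bp X' A').mkQ b = 0 from (Submodule.Quotient.mk_eq_zero _).2 hb,
        zero_add]
    unfold FinRk at h2 ⊢
    rw [LinearMap.range_comp] at h2
    exact Module.Finite.equiv (Submodule.equivMapOfInjective θ hθ _).symm

end Crest.Agent.R231.GFinx315
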