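import Crest.Agent.R231.If_G_651
import Crest.Agent.R231.GBirk2_576

/-!
# Row 231 (S0357), block G: the leaf `G2` of `If_G_651` (helper576)
-/

set_option autoImplicit false

open Set

namespace Crest.Agent.R231.GLugx576

open Crest.Agent.R231.IfGx651

/-- `LevDef` (this family) is `IsDef` of the interface -/
theorem LevDef.isDef {M : Type} [MetricSpace M] {b : ℝ} {H : ℝ × Lp M → Lp M}
    (h : LevDef M b H) : IsDef M b (fun γ r => H (r, γ)) where
  cont := by
    have h1 : ContinuousOn (fun p : Lp M × ℝ => (p.2, p.1)) (X M b ×ˢ Icc (0 : ℝ) 1) := by fun_prop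
    exact h.cont.comp h1 fun p hp => ⟨hp.2, hp.1⟩
  zero := h.zero
  level := fun t ht γ hγ r hr => h.maps t ht r hr γ hγ

/-- **the leaf `G2`** -/
theorem g2 {M : Type} [MetricSpace M] [CompactSpace M] (L : LUG M) : G2 M := by
  intro a b ha hab hc
  obtain ⟨H, hH, h1⟩ := exists_levDef L ha hab fun s hs _ hcr => hc s hcr ⟨hs.1, hs.2⟩
  exact ⟨_, hH.isDef, h1⟩

end Crest.Agent.R231.GLugx576
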