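import Crest.Agent.R231.GPolyF_943
import Crest.Agent.R231.GFinB_315
import Crest.Agent.R231.GeoBase_724

/-!
# Row 231 (S0357), block G: (G4) closed (helper943)

* `g4 (D : ENR M E) (L : LUG M)` : `IfGx651.G4 M a b` for `0 ≤ a < b`
* `enrSG g` : the sphere with the distance of `g`;  `g4_SG` : `G4 (SG g) a b`
* `finRk_OmX` : `Om`-version, `Frk (Om a) ∅ (Om b) ∅`
-/

set_option autoImplicit false
set_option linter.unusedSectionVars false

noncomputable section

open Set Topology

namespace Crest.Agent.R231.GG4x943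

open GLugx576 GPolyx943 FinDim315 GFinx315 GFinBx315 GeoBasex724
open Crest.Agent.R204

section general

variable {M : Type} [MetricSpace M] [CompactSpace M]
  {E : Type} [NormedAddCommGroup E] [NormedSpace ℝ E]

/-- a compact ENR has finite dimensional homology -/
theorem finite_HS (D : ENR M E) : Module.Finite F2 (HS M) := by
  refine finite_of_retract D.isOpen_U
    (⟨fun x => ⟨D.ι x, D.ι_mem x⟩, D.ι.continuous.subtype_mk _⟩ : C(M, D.U))
    (⟨fun x => D.ρ x, continuousOn_iff_continuous_domRestrict.1 D.contOn⟩ : C(D.U, M)) ?_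
  intro y
  exact D.ρ_ι y

/-- **(G4)** -/
theorem g4 (D : ENR M E) (L : LUG M) {a b : ℝ} (ha : 0 ≤ a) (hab : a < b) : IfGx651.G4 M a b :=
  G4_iff.2 (frk_X ha hab.le (finite_HS D) (finRk_X D L hab))

/-- based loops -/
theorem frk_Om (D : ENR M E) (L : LUG M) {a b : ℝ} (hab : a < b) (p : M) :
    Frk (Om M p a) ∅ (Om M p b) ∅ :=
  frk_of_finRk (Om_mono hab.le) (finRk_base D L hab p)

end general

section sphere

variable {n : ℕ} [NeZero n] (g : Met n)

/-- a point of the sphere -/
def ptS (n : ℕ) : Sph n :=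
  ⟨EuclideanSpace.single 0 1, by rw [mem_sphere_zero_iff_norm, EuclideanSpace.norm_single]; simp⟩

/-- `(S^n, g)` is a Euclidean neighbourhood retract -/
def enrSG : ENR (SG g) (EuclideanSpace ℝ (Fin (n + 1))) :=
  (enrSphere (EuclideanSpace ℝ (Fin (n + 1))) (ptS n)).congr (toSG g)

/-- **(G4) for the sphere** -/
theorem g4_SG (L : LUG (SG g)) {a b : ℝ} (ha : 0 ≤ a) (hab : a < b) : IfGx651.G4 (SG g) a b :=
  g4 (enrSG g) L ha hab

end sphere

end Crest.Agent.R231.GG4x943
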