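import Mathlib

/-!
# Row 231 (S0357), block G: metric spaces with unique short geodesics (helper576)

`LUG M` : radius `r0 > 0` and a map `seg x y s` (`s ∈ [0,1]`), the point at parameter `s` of the
unique minimal geodesic from `x` to `y` (`dist x y < r0`).  Everything else (continuity,
subdivision, reversal) follows from uniqueness and compactness.

Definitions for all blocks:
* `LUG.SegLip`, `LUG.LocMin` : two further properties (true for Riemannian metrics), separate `Prop`s
* `Lp M = C(UnitAddCircle, M)` : free loops;  `X M t` : Lipschitz constant `≤ t`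
* `rot`, `rev`, `itr m`, `dbl` : continuous self-maps of `Lp M`
* `IsGeo s γ` : `γ` is a closed (metric) geodesic of length `s > 0`; `IsCrit M s`
-/

set_option autoImplicit false
set_option linter.unusedSectionVars false

open Set Filter Topology

namespace Crest.Agent.R231.GLugx576

/-- a metric space with unique short geodesics -/
structure LUG (M : Type*) [MetricSpace M] where
  /-- the radius -/
  r0 : ℝ
  r0_pos : 0 < r0
  /-- the geodesic from `x` to `y` -/
  seg : M → M → ℝ → M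
  dist_seg : ∀ {x y : M}, dist x y < r0 → ∀ {s t : ℝ}, s ∈ Icc (0 : ℝ) 1 → t ∈ Icc (0 : ℝ) 1 →
    dist (seg x y s) (seg x y t) = |s - t| * dist x y
  seg_zero : ∀ {x y : M}, dist x y < r0 → seg x y 0 = x
  seg_one : ∀ {x y : M}, dist x y < r0 → seg x y 1 = y
  uniq : ∀ {x y z : M}, dist x y < r0 → ∀ {s : ℝ}, s ∈ Icc (0 : ℝ) 1 →
    dist x z = s * dist x y → dist z y = (1 - s) * dist x y → z = seg x y s

/-- nearby short geodesics: almost convexity of the distance (for Smith neighbourhoods) -/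
def LUG.SegLip {M : Type*} [MetricSpace M] (L : LUG M) : Prop :=
  ∀ ε > (0 : ℝ), ∃ δ > (0 : ℝ), ∀ x y x' y' : M, dist x y < δ → dist x' y' < δ → dist x x' < δ →
    ∀ s ∈ Icc (0 : ℝ) 1, dist (L.seg x y s) (L.seg x' y' s) ≤
      (1 + ε) * ((1 - s) * dist x x' + s * dist y y')

/-- locally minimal curves of length `< r0` are minimal -/
def LUG.LocMin {M : Type*} [MetricSpace M] (L : LUG M) : Prop :=
  ∀ (c : ℝ → M) (a b v δ : ℝ), a ≤ b → 0 < δ → 0 ≤ v → v * (b - a) < L.r0 →
    (∀ x ∈ Icc a b, ∀ y ∈ Icc a b, |x - y| ≤ δ → dist (c x) (c y) = v * |x - y|) →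
    dist (c a) (c b) = v * (b - a)

/-! ### loops -/

/-- free loops -/
abbrev Lp (M : Type*) [TopologicalSpace M] : Type _ := C(UnitAddCircle, M)

/-- loops with Lipschitz constant at most `t` -/
def X (M : Type*) [MetricSpace M] (t : ℝ) : Set (Lp M) :=
  {γ | ∀ x y : ℝ, dist (γ x) (γ y) ≤ t * |x - y|}

/-- rotation: `(rot a γ) x = γ (x + a)` -/
def rot {M : Type*} [TopologicalSpace M] (a : UnitAddCircle) : C(Lp M, Lp M) :=
  ⟨fun γ => γ.comp ⟨fun x => x + a, by fun_prop⟩, ContinuousMap.continuous_precomp _⟩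

/-- reversal: `(rev γ) x = γ (-x)` -/
def rev {M : Type*} [TopologicalSpace M] : C(Lp M, Lp M) :=
  ⟨fun γ => γ.comp ⟨fun x => -x, by fun_prop⟩, ContinuousMap.continuous_precomp _⟩

/-- iteration: `(itr m γ) x = γ (m x)` -/
def itr {M : Type*} [TopologicalSpace M] (m : ℕ) : C(Lp M, Lp M) :=
  ⟨fun γ => γ.comp ⟨fun x => m • x, by fun_prop⟩, ContinuousMap.continuous_precomp _⟩

/-- doubling -/
abbrev dbl {M : Type*} [TopologicalSpace M] : C(Lp M, Lp M) := itr 2

@[simp] theorem rot_apply {M : Type*} [TopologicalSpace M] (a : UnitAddCircle) (γ : Lp M)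
    (x : UnitAddCircle) : rot a γ x = γ (x + a) := rfl

@[simp] theorem rev_apply {M : Type*} [TopologicalSpace M] (γ : Lp M) (x : UnitAddCircle) :
    rev γ x = γ (-x) := rfl

@[simp] theorem itr_apply {M : Type*} [TopologicalSpace M] (m : ℕ) (γ : Lp M)
    (x : UnitAddCircle) : itr m γ x = γ (m • x) := rfl

/-- closed metric geodesics of length `s` -/
def IsGeo {M : Type*} [MetricSpace M] (s : ℝ) (γ : Lp M) : Prop :=
  0 < s ∧ ∃ δ > (0 : ℝ), ∀ x y : ℝ, |x - y| ≤ δ → dist (γ x) (γ y) = s * |x - y|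

/-- critical levels -/
def IsCrit (M : Type*) [MetricSpace M] (s : ℝ) : Prop := ∃ γ : Lp M, IsGeo s γ

namespace LUG

variable {M : Type*} [MetricSpace M] (L : LUG M) {x y z : M} {s t : ℝ}

theorem dist_left (h : dist x y < L.r0) (hs : s ∈ Icc (0 : ℝ) 1) :
    dist x (L.seg x y s) = s * dist x y := by
  have h0 : (0 : ℝ) ∈ Icc (0 : ℝ) 1 := ⟨le_rfl, zero_le_one⟩
  have h1 := L.dist_seg h h0 hs
  rw [L.seg_zero h] at h1
  rw [h1, zero_sub, abs_neg, abs_of_nonneg hs.1]

theorem dist_right (h : dist x y < L.r0) (hs : s ∈ Icc (0 : ℝ) 1) :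
    dist (L.seg x y s) y = (1 - s) * dist x y := by
  have h0 : (1 : ℝ) ∈ Icc (0 : ℝ) 1 := ⟨zero_le_one, le_rfl⟩
  have h1 := L.dist_seg h hs h0
  rw [L.seg_one h] at h1
  rw [h1, abs_sub_comm, abs_of_nonneg (by linarith [hs.2])]

theorem seg_self (x : M) (hs : s ∈ Icc (0 : ℝ) 1) : L.seg x x s = x := by
  have h0 : dist x x < L.r0 := by rw [dist_self]; exact L.r0_pos
  have h1 := L.dist_left h0 hs
  rw [dist_self, mul_zero] at h1
  exact (dist_eq_zero.1 h1).symm

/-- a point with the right distances, inequalities suffice -/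
theorem uniq_le (h : dist x y < L.r0) (hs : s ∈ Icc (0 : ℝ) 1)
    (h1 : dist x z ≤ s * dist x y) (h2 : dist z y ≤ (1 - s) * dist x y) : z = L.seg x y s := by
  have h3 := dist_triangle x z y
  exact L.uniq h hs (by linarith) (by linarith)

/-- reversal -/
theorem seg_symm (h : dist x y < L.r0) (hs : s ∈ Icc (0 : ℝ) 1) :
    L.seg y x s = L.seg x y (1 - s) := by
  have h' : dist y x < L.r0 := by rwa [dist_comm]
  have hs' : 1 - s ∈ Icc (0 : ℝ) 1 := ⟨by linarith [hs.2], by linarith [hs.1]⟩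
  refine L.uniq h hs' ?_ ?_
  · rw [dist_comm, L.dist_right h' hs, dist_comm]
  · rw [dist_comm, L.dist_left h' hs, dist_comm]; ring

/-- the midpoint is symmetric -/
theorem mid_symm (h : dist x y < L.r0) : L.seg y x (1 / 2) = L.seg x y (1 / 2) := by
  rw [L.seg_symm h ⟨by norm_num, by norm_num⟩]; norm_num

/-- sub-segments of geodesics -/
theorem seg_seg (h : dist x y < L.r0) {a b : ℝ} (ha : a ∈ Icc (0 : ℝ) 1) (hb : b ∈ Icc (0 : ℝ) 1)
    (hs : s ∈ Icc (0 : ℝ) 1) :
    L.seg (L.seg x y a) (L.seg x y b) s = L.seg x y (a + s * (b - a)) := by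
  have h0 : dist (L.seg x y a) (L.seg x y b) = |a - b| * dist x y := L.dist_seg h ha hb
  have hab : |a - b| ≤ 1 := by
    rw [abs_le]; constructor <;> linarith [ha.1, ha.2, hb.1, hb.2]
  have h1 : dist (L.seg x y a) (L.seg x y b) < L.r0 := by
    rw [h0]
    refine lt_of_le_of_lt ?_ h
    exact mul_le_of_le_one_left dist_nonneg hab
  have hc : a + s * (b - a) ∈ Icc (0 : ℝ) 1 := by
    have e : a + s * (b - a) = (1 - s) * a + s * b := by ring
    rw [e]
    have h5 : 0 ≤ 1 - s := by linarith [hs.2]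
    refine ⟨add_nonneg (mul_nonneg h5 ha.1) (mul_nonneg hs.1 hb.1), ?_⟩
    have h6 := mul_le_mul_of_nonneg_left ha.2 h5
    have h7 := mul_le_mul_of_nonneg_left hb.2 hs.1
    linarith
  refine (L.uniq h1 hs ?_ ?_).symm
  · rw [L.dist_seg h ha hc, h0]
    have e : a - (a + s * (b - a)) = s * (a - b) := by ring
    rw [e, abs_mul, abs_of_nonneg hs.1, mul_assoc]
  · rw [L.dist_seg h hc hb, h0]
    have e : a + s * (b - a) - b = (1 - s) * (a - b) := by ring
    rw [e, abs_mul, abs_of_nonneg (by linarith [hs.2]), mul_assoc]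

/-- **continuity of the geodesic in the end points and the parameter** -/
theorem continuousOn_seg [CompactSpace M] :
    ContinuousOn (fun p : M × M × ℝ => L.seg p.1 p.2.1 p.2.2)
      {p | dist p.1 p.2.1 < L.r0 ∧ p.2.2 ∈ Icc (0 : ℝ) 1} := by
  intro p hp
  obtain ⟨x, y, s⟩ := p
  simp only [mem_ofPred_eq] at hp
  refine isCompact_univ.tendsto_nhds_of_unique_mapClusterPt (Eventually.of_forall fun _ => trivial)
    fun z _ hz => ?_
  obtain ⟨U, hU, hUz⟩ := mapClusterPt_iff_ultrafilter.1 hz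
  have hUn : (U : Filter (M × M × ℝ)) ≤ 𝓝 (x, y, s) := hU.trans inf_le_left
  have hUs : ∀ᶠ p : M × M × ℝ in (U : Filter (M × M × ℝ)),
      dist p.1 p.2.1 < L.r0 ∧ p.2.2 ∈ Icc (0 : ℝ) 1 := hU (mem_of_superset
        (self_mem_nhdsWithin) fun _ h => h)
  have t0 : Tendsto (fun p : M × M × ℝ => p) U (𝓝 (x, y, s)) := hUn
  have t1 : Tendsto (fun p : M × M × ℝ => p.1) U (𝓝 x) :=
    (continuous_fst.tendsto (x, y, s)).comp t0
  have t2 : Tendsto (fun p : M × M × ℝ => p.2.1) U (𝓝 y) :=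
    ((continuous_fst.comp continuous_snd).tendsto (x, y, s)).comp t0
  have t3 : Tendsto (fun p : M × M × ℝ => p.2.2) U (𝓝 s) :=
    ((continuous_snd.comp continuous_snd).tendsto (x, y, s)).comp t0
  refine L.uniq hp.1 hp.2 ?_ ?_
  · refine tendsto_nhds_unique (t1.dist hUz) ((t3.mul (t1.dist t2)).congr' ?_)
    filter_upwards [hUs] with p hp
    exact (L.dist_left hp.1 hp.2).symm
  · refine tendsto_nhds_unique (hUz.dist t2)
      (((tendsto_const_nhds.sub t3).mul (t1.dist t2)).congr' ?_)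
    filter_upwards [hUs] with p hp
    exact (L.dist_right hp.1 hp.2).symm

/-- continuity along continuous families -/
theorem continuousOn_seg' [CompactSpace M] {α : Type*} [TopologicalSpace α] {S : Set α}
    {f g : α → M} {k : α → ℝ} (hf : ContinuousOn f S) (hg : ContinuousOn g S)
    (hk : ContinuousOn k S) (h1 : ∀ a ∈ S, dist (f a) (g a) < L.r0)
    (h2 : ∀ a ∈ S, k a ∈ Icc (0 : ℝ) 1) : ContinuousOn (fun a => L.seg (f a) (g a) (k a)) S :=
  L.continuousOn_seg.comp (hf.prodMk (hg.prodMk hk)) fun a ha => ⟨h1 a ha, h2 a ha⟩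

/-- equality in the triangle inequality: the middle point is on the geodesic -/
theorem mem_seg (h : dist x y < L.r0) (hs : s ∈ Icc (0 : ℝ) 1)
    (h1 : dist x z = s * dist x y) (h2 : dist z y = (1 - s) * dist x y) : z = L.seg x y s :=
  L.uniq h hs h1 h2

end LUG

end Crest.Agent.R231.GLugx576
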