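import Mathlib

/-!
# Row 231 (S0357), block GM (helper654): the kernels `ker (P ^ m - 1)`

For an endomorphism `P` of a finite dimensional space there is `M > 0` such that
`ker (P ^ m - 1) = ker (P ^ gcd m M - 1)` for all `m`; so all the spaces of `m`-periodic vectors
are among those of the divisors of `M`.
-/

set_option autoImplicit false

open Function

namespace Crest.Agent.R231.GM1x654

variable {K V : Type*} [Ring K] [AddCommGroup V] [Module K V]

/-- vectors fixed by `P ^ m` -/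
def per (P : V →ₗ[K] V) (m : ℕ) : Submodule K V := LinearMap.ker (P ^ m - 1)

theorem mem_per {P : V →ₗ[K] V} {m : ℕ} {v : V} : v ∈ per P m ↔ (P ^ m) v = v := by
  rw [per, LinearMap.mem_ker, LinearMap.sub_apply, Module.End.one_apply, sub_eq_zero]

theorem mem_per' {P : V →ₗ[K] V} {m : ℕ} {v : V} : v ∈ per P m ↔ IsPeriodicPt P m v := by
  rw [mem_per, Module.End.pow_apply]
  rfl

theorem per_mono {P : V →ₗ[K] V} {m m' : ℕ} (h : m ∣ m') : per P m ≤ per P m' := by
  intro v hv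
  rw [mem_per'] at hv ⊢
  obtain ⟨k, rfl⟩ := h
  exact hv.mul_const k

theorem per_inf (P : V →ₗ[K] V) (m m' : ℕ) : per P m ⊓ per P m' = per P (m.gcd m') := by
  apply le_antisymm
  · rintro v ⟨h1, h2⟩
    have h1' : v ∈ per P m := h1
    have h2' : v ∈ per P m' := h2
    rw [mem_per'] at h1' h2' ⊢
    exact h1'.gcd h2'
  · exact le_inf (per_mono (Nat.gcd_dvd_left _ _)) (per_mono (Nat.gcd_dvd_right _ _))

/-- one period catches all periodic vectors -/
theorem exists_period [IsNoetherian K V] (P : V →ₗ[K] V) :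
    ∃ M : ℕ, 0 < M ∧ ∀ m : ℕ, 0 < m → per P m ≤ per P M := by
  obtain ⟨W, ⟨M, hM, rfl⟩, hmax⟩ := set_has_maximal_iff_noetherian.2 (inferInstance :
    IsNoetherian K V) {W | ∃ m : ℕ, 0 < m ∧ per P m = W} ⟨_, 1, one_pos, rfl⟩
  refine ⟨M, hM, fun m hm => ?_⟩
  have h1 : per P M ≤ per P (m * M) := per_mono (dvd_mul_left _ _)
  have h2 : ¬ per P M < per P (m * M) := hmax _ ⟨m * M, Nat.mul_pos hm hM, rfl⟩
  have h3 : per P M = per P (m * M) := by
    by_contra hne
    exact h2 (lt_of_le_of_ne h1 hne)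
  rw [h3]
  exact per_mono (dvd_mul_right _ _)

/-- **finitely many kernels** -/
theorem finite_kernels [IsNoetherian K V] (P : V →ₗ[K] V) :
    ∃ M : ℕ, 0 < M ∧ ∀ m : ℕ, 0 < m → per P m = per P (m.gcd M) := by
  obtain ⟨M, hM, h⟩ := exists_period P
  refine ⟨M, hM, fun m hm => ?_⟩
  rw [← per_inf]
  exact (inf_eq_left.2 (h m hm)).symm

/-- the form used by the iteration of closed geodesics -/
theorem exists_finset [IsNoetherian K V] (P : V →ₗ[K] V) :
    ∃ A : Finset ℕ, (∀ m ∈ A, 0 < m) ∧ ∀ m : ℕ, 0 < m → ∃ m0 ∈ A, m0 ∣ m ∧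
      LinearMap.ker (P ^ m - 1) = LinearMap.ker (P ^ m0 - 1) := by
  obtain ⟨M, hM, h⟩ := finite_kernels P
  refine ⟨M.divisors, fun m hm => Nat.pos_of_mem_divisors hm, fun m hm =>
    ⟨m.gcd M, ?_, Nat.gcd_dvd_left _ _, h m hm⟩⟩
  exact Nat.mem_divisors.2 ⟨Nat.gcd_dvd_right _ _, hM.ne'⟩

end Crest.Agent.R231.GM1x654
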