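import Crest.Agent.R231.GMSliceDefs_654
import Crest.Agent.R231.Front_893
import Crest.Agent.R231.GMGeoB_889
import Crest.Agent.R231.GMDefs_898
import Crest.Agent.R231.GMForm_102

/-!
# Row 231 (S0357), block GM: adapter (helper529)

* `cv c` : the curve of a closed geodesic `c : Cg G` of helper654
* `exists_cg` : every metric closed geodesic `γ : Lp M` of length `s` is the curve of a `c : Cg G` with `c.l = s`
* `Crossing c N` : what `SliceSys` of helper889 needs from the crossing lemma (helper320)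
* `sliceSys c N hN h : SliceSys (lug G) (Sl n)`, with `(sliceSys ..).D = D c N` (rfl)
-/

set_option autoImplicit false
set_option linter.unusedSectionVars false

noncomputable section

open Bundle Set Filter
open scoped Manifold ContDiff Bundle ENNReal Topology
open Crest.GeometryTopology.MTW
open Crest.Agent.R226 Crest.Agent.R226.GeoBasic616
open Crest.Agent.R231.GLugx576 Crest.Agent.R231.GeoLugx724 Crest.Agent.R231.GeoSegx724
open Crest.Agent.R231.GMSlx654 Crest.Agent.R231.GMGeox889 Crest.Agent.R231.GMRedx102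

namespace Crest.Agent.R231.GMAdaptx529

variable {n : ℕ} {M : Type*} [MetricSpace M] [ChartedSpace (EuclideanSpace ℝ (Fin n)) M]
  [IsManifold (𝓡 n) ∞ M]
  [RiemannianBundle (fun p : M => TangentSpace (𝓡 n) p)]

variable {G : GeoData n M}

/-- the curve of a closed geodesic -/
def cv (c : Cg G) (t : ℝ) : M := (G.Flow t c.p0).1

theorem cv_eq (c : Cg G) (t : ℝ) : cv c t = G.ex c.x0 (t • c.u0) := rfl

theorem cv_per (c : Cg G) (t : ℝ) : cv c (t + c.l) = cv c t := by
  unfold cv
  rw [add_comm, ← Flow_add]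
  congr 2
  have := c.per_nat 1
  rwa [Nat.cast_one, one_mul] at this

theorem cv_geo (c : Cg G) (x y : ℝ) (h : |x - y| < G.r₀) : dist (cv c x) (cv c y) = |x - y| := by
  have h1 := G.dist_eq c.x0 c.u0 x y (by rw [c.norm_u0, mul_one]; exact h)
  rw [c.norm_u0, mul_one] at h1
  exact h1

/-- **every metric closed geodesic comes from a `Cg`** -/
theorem exists_cg {γ : Lp M} {s : ℝ} (h : IsGeo s γ) :
    ∃ c : Cg G, c.l = s ∧ ∀ t : ℝ, γ t = cv c (s * t) := by
  have hs := h.1
  obtain ⟨p, -, hp2, hp3, hp4⟩ := exists_line G h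
  have hflow : G.Flow s ⟨p.1, s⁻¹ • p.2⟩ = ⟨p.1, s⁻¹ • p.2⟩ := by
    have h1 := Flow_smul G s s⁻¹ p
    rw [inv_mul_cancel₀ hs.ne', hp3] at h1
    exact h1
  refine ⟨⟨p.1, s⁻¹ • p.2, ?_, s, hs, hflow⟩, rfl, fun t => ?_⟩
  · rw [norm_smul, norm_inv, Real.norm_of_nonneg hs.le, hp2, inv_mul_cancel₀ hs.ne']
  · rw [hp4, cv_eq]
    show _ = G.ex p.1 ((s * t) • (s⁻¹ • p.2))
    rw [smul_smul]
    congr 2
    field_simp

/-- the crossing property (helper320) -/
def Crossing (c : Cg G) (N : ℕ) [NeZero N] : Prop :=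
  ∀ i : ZMod N, ∃ (τ : M × M → ℝ) (w : M × M → Sl n) (O : Set (M × M)), IsOpen O ∧
    (cv c (((i.val : ℝ) - 1 / 2) * c.l / N), cv c (((i.val : ℝ) + 1 / 2) * c.l / N)) ∈ O ∧
    ContinuousOn τ O ∧ ContinuousOn w O ∧
    (∀ p ∈ O, τ p ∈ Ioo (0 : ℝ) 1 ∧ seg G p.1 p.2 (τ p) = sg c N i (w p)) ∧
    τ (cv c (((i.val : ℝ) - 1 / 2) * c.l / N), cv c (((i.val : ℝ) + 1 / 2) * c.l / N)) = 1 / 2 ∧
    w (cv c (((i.val : ℝ) - 1 / 2) * c.l / N), cv c (((i.val : ℝ) + 1 / 2) * c.l / N)) = 0

theorem continuous_sg (c : Cg G) (N : ℕ) (i : ZMod N) : Continuous (sg c N i) := by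
  have h1 : Continuous (fun v : TangentSpace (𝓡 n) (c.pt N i).1 => G.ex (c.pt N i).1 v) :=
    (contMDiff_ex_fibre G (c.pt N i).1).continuous
  exact h1.comp (E (c.pt N i)).continuous

/-- the slice system of helper889 -/
def sliceSys (c : Cg G) (N : ℕ) [NeZero N] (hN : 4 * c.l / N < G.r₀) (h : Crossing c N) :
    SliceSys (lug G) (Sl n) where
  c := cv c
  l := c.l
  N := N
  l_pos := c.l_pos
  per := cv_per c
  geo := cv_geo c
  small := hN
  σ := sg c N
  σ_zero := fun i => by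
    rw [sg_zero, Cg.pt]
    show (G.Flow ((i.val : ℝ) * (c.l / N)) c.p0).1 = (G.Flow ((i.val : ℝ) * c.l / N) c.p0).1
    rw [mul_div_assoc]
  σ_cont := continuous_sg c N
  τ := fun i => Classical.choose (h i)
  w := fun i => Classical.choose (Classical.choose_spec (h i))
  cross := fun i => by
    obtain ⟨O, h1, h2, h3, h4, h5, -⟩ := Classical.choose_spec (Classical.choose_spec (h i))
    exact ⟨O, h1, h2, h3, h4, h5⟩
  τ_mid := fun i => by
    obtain ⟨O, h1, h2, h3, h4, h5, h6, -⟩ := Classical.choose_spec (Classical.choose_spec (h i))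
    exact h6
  w_mid := fun i => by
    obtain ⟨O, h1, h2, h3, h4, h5, h6, h7⟩ := Classical.choose_spec (Classical.choose_spec (h i))
    exact h7

theorem sliceSys_D (c : Cg G) (N : ℕ) [NeZero N] (hN : 4 * c.l / N < G.r₀) (h : Crossing c N) :
    (sliceSys c N hN h).D = D c N := rfl

theorem sliceSys_l (c : Cg G) (N : ℕ) [NeZero N] (hN : 4 * c.l / N < G.r₀) (h : Crossing c N) :
    (sliceSys c N hN h).l = c.l := rfl

end Crest.Agent.R231.GMAdaptx529
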