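import Crest.Agent.R231.GMB1_898
import Crest.Agent.R231.GMB2_898

/-!
# Row 231, block GM-ABS closed: uniform finite local rank of all iterates of an isolated orbit
-/

set_option autoImplicit false

noncomputable section

open Set Filter Topology
open Crest.Agent.R231.GMLinx102 Crest.Agent.R231.GMRedx102 Crest.Agent.R231.GMProdx102
open Crest.Agent.R231.GMFormx102

namespace Crest.Agent.R231.GM898

theorem gmabs {S : Type} [NormedAddCommGroup S] [NormedSpace ℝ S]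
    [FiniteDimensional ℝ S] {N : ℕ} [NeZero N] (D : ZMod N → S × S → ℝ)
    (hD2 : ∀ i, ContDiffAt ℝ 2 (D i) (0, 0))
    (hB : ∀ i x, (∀ w, H2 D i (0, x) (w, 0) = 0) → x = 0)
    (h0 : ∑ i : ZMod N, D i (0, 0) = 0)
    (hiso : ∀ (m : ℕ) [NeZero (N * m)], ∀ᶠ p in 𝓝[≠] (0 : ZMod (N * m) → S),
      fderiv ℝ (Fm D m) p ≠ 0) :
    ∃ C : ℕ, ∀ (m : ℕ) [NeZero (N * m)],
      LB (0 : ZMod (N * m) → S) {p | Fm D m p < 0} C :=
  GMAbsx102.gm_abs b1 b2 D hD2 hB h0 hiso

end Crest.Agent.R231.GM898
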