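import Crest.Agent.R231.GMBrk_889

/-!
# Row 231 (S0357), block GM-GEO (b): broken geodesic loops, part 2 (helper889)

* `BG_on`, `BG_eq`   : values on the pieces; a loop with these values is `BG`
* `contOn_BG`        : joint continuity in break times and vertices
* `BG_mem`           : Lipschitz constant
-/

set_option autoImplicit false
set_option linter.unusedSectionVars false

open Set Filter Topology

noncomputable section

namespace Crest.Agent.R231.GMGeox889

open Crest.Agent.R231.GLugx576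

variable {M : Type*} [MetricSpace M] [Nonempty M] {L : LUG M} {n : ℕ} {e : ℕ → ℝ} {q : ℕ → M}

theorem EE_nonneg (he : ∀ k < n, 0 < e k) {k : ℕ} (hk : k ≤ n) : 0 ≤ EE e k := by
  have := EE_mono he (Nat.zero_le k) hk
  rwa [EE_zero] at this

/-- every `x ∈ [0, E_n]` is in a piece -/
theorem exists_piece (he : ∀ k < n, 0 < e k) (hn : 0 < n) {x : ℝ} (hx : x ∈ Icc 0 (EE e n)) :
    ∃ k < n, x ∈ Icc (EE e k) (EE e (k + 1)) := by
  induction n with
  | zero => omega
  | succ n ih =>
    rcases le_total (EE e n) x with h | h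
    · exact ⟨n, Nat.lt_succ_self n, h, hx.2⟩
    · rcases Nat.eq_zero_or_pos n with rfl | h0
      · refine ⟨0, Nat.lt_succ_self 0, ?_, ?_⟩
        · rw [EE_zero]; exact hx.1
        · rw [EE_zero] at h
          have h1 := EE_succ e 0
          rw [EE_zero] at h1
          rw [h1]
          linarith [he 0 (Nat.lt_succ_self 0)]
      · obtain ⟨k, hk, h1⟩ := ih (fun k hk => he k (by omega)) h0 ⟨hx.1, h⟩
        exact ⟨k, by omega, h1⟩

section

variable [CompactSpace M]

theorem contOn_bg {α : Type*} [TopologicalSpace α] {S : Set α} {e : α → ℕ → ℝ} {q : α → ℕ → M}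
    {x : α → ℝ} (hA : ∀ a ∈ S, Adm L n (e a) (q a)) (hx : ContinuousOn x S)
    (he : ∀ k < n, ContinuousOn (fun a => e a k) S) (hq : ∀ k ≤ n, ContinuousOn (fun a => q a k) S) :
    ContinuousOn (fun a => bg L n (e a) (q a) (x a)) S := by
  rcases S.eq_empty_or_nonempty with rfl | ⟨a, ha⟩
  · exact continuousOn_empty _
  · exact contOn_PL (contOn_TT hx he fun a ha => (hA a ha).e_pos) (hA a ha).n_pos
      (fun a _ => TT_mem _ _ _) hq fun a ha => (hA a ha).short

theorem BG_apply (h : Adm L n e q) {x : ℝ} (hx : x ∈ Icc (0 : ℝ) 1) :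
    BG L n e q (x : UnitAddCircle) = bg L n e q x := by
  refine mkL_apply ?_ ?_ hx
  · exact contOn_bg (S := Icc (0 : ℝ) 1) (e := fun _ => e) (q := fun _ => q) (fun _ _ => h)
      continuousOn_id (fun _ _ => continuousOn_const) fun _ _ => continuousOn_const
  · rw [bg_zero h, bg_one h]

/-- values on the pieces -/
theorem BG_on (h : Adm L n e q) {k : ℕ} (hk : k < n) {x : ℝ}
    (hx : x ∈ Icc (EE e k) (EE e (k + 1))) :
    BG L n e q (x : UnitAddCircle) = L.seg (q k) (q (k + 1)) ((x - EE e k) / e k) := by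
  have h1 : x ∈ Icc (0 : ℝ) 1 := by
    refine ⟨(EE_nonneg h.e_pos hk.le).trans hx.1, hx.2.trans ?_⟩
    rw [← h.sum]
    exact EE_mono h.e_pos (k := n) hk le_rfl
  rw [BG_apply h h1, bg_on h hk hx]

/-- values on the pieces, parameter `u ∈ [0,1]` -/
theorem BG_on' (h : Adm L n e q) {k : ℕ} (hk : k < n) {u : ℝ} (hu : u ∈ Icc (0 : ℝ) 1) :
    BG L n e q ((EE e k + u * e k : ℝ) : UnitAddCircle) = L.seg (q k) (q (k + 1)) u := by
  have hek := h.e_pos k hk
  rw [BG_on h hk ⟨by nlinarith [hu.1], by rw [EE_succ]; nlinarith [hu.2]⟩]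
  congr 1
  field_simp
  ring

/-- a loop with the values of `BG` is `BG` -/
theorem BG_eq (h : Adm L n e q) {g : Lp M}
    (hg : ∀ k < n, ∀ u ∈ Icc (0 : ℝ) 1,
      g ((EE e k + u * e k : ℝ) : UnitAddCircle) = L.seg (q k) (q (k + 1)) u) :
    BG L n e q = g := by
  refine loop_ext fun x hx => ?_
  obtain ⟨k, hk, h1⟩ := exists_piece h.e_pos h.n_pos (x := x) (by rwa [h.sum])
  have hek := h.e_pos k hk
  have h2 : (x - EE e k) / e k ∈ Icc (0 : ℝ) 1 := by
    have h3 := h1.2
    rw [EE_succ] at h3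
    exact ⟨div_nonneg (by linarith [h1.1]) hek.le, (div_le_one hek).2 (by linarith)⟩
  have h4 := hg k hk _ h2
  rw [div_mul_cancel₀ _ hek.ne', add_sub_cancel] at h4
  rw [BG_on h hk h1, h4]

/-- **joint continuity** of the broken geodesic loops -/
theorem contOn_BG {α : Type*} [TopologicalSpace α] {S : Set α} {e : α → ℕ → ℝ} {q : α → ℕ → M}
    (hA : ∀ a ∈ S, Adm L n (e a) (q a)) (he : ∀ k < n, ContinuousOn (fun a => e a k) S)
    (hq : ∀ k ≤ n, ContinuousOn (fun a => q a k) S) :
    ContinuousOn (fun a => BG L n (e a) (q a)) S := by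
  refine contOn_mkL ?_ fun a ha => by rw [bg_zero (hA a ha), bg_one (hA a ha)]
  have h1 : ContinuousOn (fun p : α × ℝ => p.1) (S ×ˢ Icc (0 : ℝ) 1) := continuousOn_fst
  exact contOn_bg (S := S ×ˢ Icc (0 : ℝ) 1) (e := fun p => e p.1) (q := fun p => q p.1)
    (fun p hp => hA p.1 hp.1) continuousOn_snd
    (fun k hk => (he k hk).comp h1 fun p hp => hp.1)
    fun k hk => (hq k hk).comp h1 fun p hp => hp.1

/-- **Lipschitz constant** -/
theorem BG_mem (h : Adm L n e q) {t : ℝ} (ht : ∀ k < n, dist (q k) (q (k + 1)) ≤ t * e k) :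
    BG L n e q ∈ X M t := by
  refine mem_X_of_Icc fun x y hx hxy hy => ?_
  have key := lip_glue (f := fun x : ℝ => BG L n e q (x : UnitAddCircle)) (t := t) (E := EE e)
    (n := n) (fun k hk => by rw [EE_succ]; linarith [h.e_pos k hk]) fun k hk x y h1 h2 h3 => ?_
  · refine key x y (by rwa [EE_zero]) hxy ?_
    rwa [h.sum]
  · have hek := h.e_pos k hk
    have h3' := h3
    rw [EE_succ] at h3'
    have hx1 : (x - EE e k) / e k ∈ Icc (0 : ℝ) 1 :=
      ⟨div_nonneg (by linarith) hek.le, (div_le_one hek).2 (by linarith)⟩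
    have hy1 : (y - EE e k) / e k ∈ Icc (0 : ℝ) 1 :=
      ⟨div_nonneg (by linarith) hek.le, (div_le_one hek).2 (by linarith)⟩
    show dist (BG L n e q (x : UnitAddCircle)) (BG L n e q (y : UnitAddCircle)) ≤ t * (y - x)
    rw [BG_on h hk ⟨h1, h2.trans h3⟩, BG_on h hk ⟨h1.trans h2, h3⟩, L.dist_seg (h.short k) hx1 hy1]
    have e1 : |(x - EE e k) / e k - (y - EE e k) / e k| = (y - x) / e k := by
      rw [← sub_div, abs_div, abs_of_pos hek, abs_sub_comm, abs_of_nonneg (by linarith)]
      congr 1; ring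
    rw [e1]
    have h5 := ht k hk
    calc (y - x) / e k * dist (q k) (q (k + 1)) ≤ (y - x) / e k * (t * e k) :=
          mul_le_mul_of_nonneg_left h5 (div_nonneg (by linarith) hek.le)
      _ = t * (y - x) := by field_simp

end

end Crest.Agent.R231.GMGeox889
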