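import Crest.Agent.R231.GLoop_576

/-!
# Row 231 (S0357), block GM-GEO (b): broken geodesic loops with variable break times (helper889)

* `mkL f`      : the loop with values `f x`, `x ∈ [0,1]`
* `PL q y`     : broken geodesic with vertices `q 0, q 1, …` at the times `0, 1, …`
* `TT n e x`   : piecewise linear time change, `E_k = ∑_{j<k} e_j ↦ k`
* `BG n e q`   : broken geodesic loop with vertices `q k` at the times `E_k` (`∑_{j<n} e_j = 1`)
-/

set_option autoImplicit false
set_option linter.unusedSectionVars false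

open Set Filter Topology

noncomputable section

namespace Crest.Agent.R231.GMGeox889

open Crest.Agent.R231.GLugx576

/-! ### loops from functions on `[0,1]` -/

section mk

variable {M : Type*}

open Classical in
/-- the loop with values `f x`, `x ∈ [0,1]` (junk if `f` is not continuous or `f 0 ≠ f 1`) -/
def mkL [TopologicalSpace M] [Nonempty M] (f : ℝ → M) : Lp M :=
  if h : ContinuousOn f (Icc (0 : ℝ) 1) ∧ f 0 = f 1 then
    ⟨AddCircle.liftIco (1 : ℝ) 0 f, AddCircle.liftIco_continuous (by simpa using h.2)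
      (by simpa using h.1)⟩
  else ContinuousMap.const _ (Classical.arbitrary M)

variable [MetricSpace M] [Nonempty M]

theorem mkL_apply {f : ℝ → M} (h1 : ContinuousOn f (Icc (0 : ℝ) 1)) (h2 : f 0 = f 1)
    {x : ℝ} (hx : x ∈ Icc (0 : ℝ) 1) : mkL f (x : UnitAddCircle) = f x := by
  rw [mkL, dif_pos ⟨h1, h2⟩]
  show AddCircle.liftIco (1 : ℝ) 0 f (x : UnitAddCircle) = f x
  rcases hx.2.eq_or_lt with rfl | h
  · have e : ((1 : ℝ) : UnitAddCircle) = ((0 : ℝ) : UnitAddCircle) := by
      rw [coe_one_circle]; rfl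
    rw [e, AddCircle.liftIco_coe_apply (by constructor <;> norm_num), h2]
  · exact AddCircle.liftIco_coe_apply (by constructor <;> linarith [hx.1])

/-- a loop is determined by its values on `[0,1]` -/
theorem loop_ext {g g' : Lp M} (h : ∀ x ∈ Icc (0 : ℝ) 1, g (x : UnitAddCircle) = g' x) :
    g = g' := by
  ext x
  obtain ⟨u, hu, rfl⟩ := exists_Icc x
  exact h u hu

/-- a loop is determined by its values on `[a, a + 1]` -/
theorem loop_ext' {g g' : Lp M} (a : ℝ) (h : ∀ x ∈ Icc a (a + 1), g (x : UnitAddCircle) = g' x) :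
    g = g' := by
  have h1 : rot (a : UnitAddCircle) g = rot (a : UnitAddCircle) g' := loop_ext fun x hx => by
    have h2 := h (x + a) ⟨by linarith [hx.1], by linarith [hx.2]⟩
    rw [AddCircle.coe_add] at h2
    exact h2
  have h2 := congrArg (rot (-(a : UnitAddCircle))) h1
  rwa [rot_rot, rot_rot, neg_add_cancel, rot_zero, rot_zero] at h2

/-- continuity of a family `mkL (f a)` -/
theorem contOn_mkL {α : Type*} [TopologicalSpace α] {S : Set α} {f : α → ℝ → M}
    (h : ContinuousOn (fun p : α × ℝ => f p.1 p.2) (S ×ˢ Icc (0 : ℝ) 1))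
    (h01 : ∀ a ∈ S, f a 0 = f a 1) : ContinuousOn (fun a => mkL (f a)) S := by
  refine contOn_to_loop (h.congr ?_)
  rintro ⟨a, x⟩ ⟨ha, hx⟩
  refine mkL_apply ?_ (h01 a ha) hx
  exact h.comp (by fun_prop : ContinuousOn (fun x : ℝ => (a, x)) (Icc (0 : ℝ) 1))
    fun x hx => ⟨ha, hx⟩

end mk

/-! ### gluing -/

/-- Lipschitz bounds can be glued -/
theorem lip_glue {M : Type*} [MetricSpace M] {f : ℝ → M} {t : ℝ} {E : ℕ → ℝ} {n : ℕ}
    (hE : ∀ k < n, E k ≤ E (k + 1))
    (h : ∀ k < n, ∀ x y : ℝ, E k ≤ x → x ≤ y → y ≤ E (k + 1) → dist (f x) (f y) ≤ t * (y - x)) :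
    ∀ x y : ℝ, E 0 ≤ x → x ≤ y → y ≤ E n → dist (f x) (f y) ≤ t * (y - x) := by
  induction n with
  | zero =>
    intro x y h1 h2 h3
    have e : x = y := le_antisymm h2 (h3.trans h1)
    rw [e, dist_self, sub_self, mul_zero]
  | succ n ih =>
    have ih' := ih (fun k hk => hE k (by omega)) fun k hk => h k (by omega)
    have hn := h n (by omega)
    intro x y h1 h2 h3
    rcases le_total y (E n) with h4 | h4
    · exact ih' x y h1 h2 h4
    · rcases le_total (E n) x with h5 | h5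
      · exact hn x y h5 h2 h3
      · have h6 := ih' x (E n) h1 h5 le_rfl
        have h7 := hn (E n) y le_rfl h4 h3
        calc dist (f x) (f y) ≤ dist (f x) (f (E n)) + dist (f (E n)) (f y) := dist_triangle _ _ _
          _ ≤ t * (E n - x) + t * (y - E n) := add_le_add h6 h7
          _ = t * (y - x) := by ring

/-- continuity on the pieces `T ∈ [k, k + 1]` -/
theorem cont_pieces {α β : Type*} [TopologicalSpace α] [TopologicalSpace β] {S : Set α} {T : α → ℝ}
    (hT : ContinuousOn T S) {n : ℕ} (hn : 0 < n) (h0 : ∀ a ∈ S, T a ∈ Icc (0 : ℝ) n) {F : α → β}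
    (hF : ∀ k < n, ContinuousOn F {a | a ∈ S ∧ T a ∈ Icc (k : ℝ) (k + 1)}) : ContinuousOn F S := by
  rw [continuousOn_iff_continuous_domRestrict] at hT ⊢
  have hcov : ⋃ k : Fin n, {a : S | T a ∈ Icc ((k : ℕ) : ℝ) ((k : ℕ) + 1)} = univ := by
    refine eq_univ_of_forall fun a => mem_iUnion.2 ?_
    obtain ⟨h1, h2⟩ := h0 a a.2
    rcases h2.lt_or_eq with h3 | h3
    · have h4 : ⌊T a⌋₊ < n := (Nat.floor_lt h1).2 h3
      exact ⟨⟨⌊T a⌋₊, h4⟩, Nat.floor_le h1, (Nat.lt_floor_add_one _).le⟩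
    · refine ⟨⟨n - 1, by omega⟩, ?_⟩
      have e : ((n - 1 : ℕ) : ℝ) + 1 = n := by
        rw [Nat.cast_sub hn]; push_cast; ring
      show T a ∈ Icc (((n - 1 : ℕ) : ℕ) : ℝ) (((n - 1 : ℕ) : ℕ) + 1)
      rw [e, h3]
      exact ⟨by linarith, le_rfl⟩
  refine (locallyFinite_of_finite _).continuous hcov (fun k => ?_) fun k => ?_
  · exact isClosed_Icc.preimage hT
  · have h1 := hF k k.2
    have h2 : ContinuousOn (fun a : S => (a : α)) {a : S | T a ∈ Icc ((k : ℕ) : ℝ) ((k : ℕ) + 1)} :=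
      continuous_subtype_val.continuousOn
    exact h1.comp h2 fun a ha => ⟨a.2, ha⟩

/-! ### polygons -/

section poly

variable {M : Type*} [MetricSpace M] (L : LUG M)

/-- broken geodesic with vertices `q 0, q 1, …` at the times `0, 1, …` -/
def PL (q : ℕ → M) (y : ℝ) : M := L.seg (q ⌊y⌋₊) (q (⌊y⌋₊ + 1)) (y - ⌊y⌋₊)

variable {L}

theorem PL_on {q : ℕ → M} (hq : ∀ j, dist (q j) (q (j + 1)) < L.r0) {k : ℕ} {y : ℝ}
    (hy : y ∈ Icc (k : ℝ) (k + 1)) : PL L q y = L.seg (q k) (q (k + 1)) (y - k) := by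
  have h0 : (0 : ℝ) ≤ y := (Nat.cast_nonneg k).trans hy.1
  rcases hy.2.lt_or_eq with h | h
  · have e : ⌊y⌋₊ = k := (Nat.floor_eq_iff h0).2 ⟨hy.1, h⟩
    rw [PL, e]
  · have e : ⌊y⌋₊ = k + 1 := by
      rw [h]
      have := Nat.floor_natCast (R := ℝ) (k + 1)
      push_cast at this
      exact this
    rw [PL, e, h]
    push_cast
    rw [sub_self, add_sub_cancel_left, L.seg_one (hq k), L.seg_zero (hq _)]

/-- joint continuity of the polygon -/
theorem contOn_PL [CompactSpace M] {α : Type*} [TopologicalSpace α] {S : Set α} {q : α → ℕ → M}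
    {T : α → ℝ} (hT : ContinuousOn T S) {n : ℕ} (hn : 0 < n) (h0 : ∀ a ∈ S, T a ∈ Icc (0 : ℝ) n)
    (hq : ∀ k ≤ n, ContinuousOn (fun a => q a k) S)
    (hr : ∀ a ∈ S, ∀ j, dist (q a j) (q a (j + 1)) < L.r0) :
    ContinuousOn (fun a => PL L (q a) (T a)) S := by
  refine cont_pieces hT hn h0 fun k hk => ?_
  have h1 : ContinuousOn (fun a => L.seg (q a k) (q a (k + 1)) (T a - k))
      {a | a ∈ S ∧ T a ∈ Icc (k : ℝ) (k + 1)} := by
    refine L.continuousOn_seg' ((hq k hk.le).mono fun a ha => ha.1)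
      ((hq (k + 1) hk).mono fun a ha => ha.1) ((hT.mono fun a ha => ha.1).sub continuousOn_const)
      (fun a ha => hr a ha.1 k) fun a ha => ⟨by linarith [ha.2.1], by linarith [ha.2.2]⟩
  exact h1.congr fun a ha => PL_on (hr a ha.1) ha.2

end poly

/-! ### time changes -/

/-- projection to `[0,1]` -/
def cl (x : ℝ) : ℝ := max 0 (min 1 x)

theorem continuous_cl : Continuous cl := by unfold cl; fun_prop

theorem cl_mem (x : ℝ) : cl x ∈ Icc (0 : ℝ) 1 :=
  ⟨le_max_left _ _, max_le zero_le_one (min_le_left _ _)⟩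

theorem cl_of_mem {x : ℝ} (h : x ∈ Icc (0 : ℝ) 1) : cl x = x := by
  unfold cl; rw [min_eq_right h.2, max_eq_right h.1]

theorem cl_of_le {x : ℝ} (h : x ≤ 0) : cl x = 0 := by
  unfold cl; rw [min_eq_right (by linarith), max_eq_left h]

theorem cl_of_ge {x : ℝ} (h : 1 ≤ x) : cl x = 1 := by
  unfold cl; rw [min_eq_left h, max_eq_right zero_le_one]

/-- the break times `E_k = ∑_{j<k} e_j` -/
def EE (e : ℕ → ℝ) (k : ℕ) : ℝ := ∑ j ∈ Finset.range k, e j

@[simp] theorem EE_zero (e : ℕ → ℝ) : EE e 0 = 0 := by simp [EE]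

theorem EE_succ (e : ℕ → ℝ) (k : ℕ) : EE e (k + 1) = EE e k + e k := Finset.sum_range_succ _ _

/-- the piecewise linear time change `E_k ↦ k` -/
def TT (n : ℕ) (e : ℕ → ℝ) (x : ℝ) : ℝ := ∑ k ∈ Finset.range n, cl ((x - EE e k) / e k)

theorem TT_mem (n : ℕ) (e : ℕ → ℝ) (x : ℝ) : TT n e x ∈ Icc (0 : ℝ) n := by
  constructor
  · exact Finset.sum_nonneg fun k _ => (cl_mem _).1
  · refine (Finset.sum_le_sum fun k _ => (cl_mem _).2).trans ?_
    simp

theorem EE_mono {n : ℕ} {e : ℕ → ℝ} (he : ∀ k < n, 0 < e k) {j k : ℕ} (hjk : j ≤ k) (hk : k ≤ n) :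
    EE e j ≤ EE e k := by
  induction k, hjk using Nat.le_induction with
  | base => exact le_rfl
  | succ k hjk ih =>
    rw [EE_succ]
    have := he k (by omega)
    linarith [ih (by omega)]

theorem TT_on {n : ℕ} {e : ℕ → ℝ} (he : ∀ k < n, 0 < e k) {k : ℕ} (hk : k < n) {x : ℝ}
    (hx : x ∈ Icc (EE e k) (EE e (k + 1))) : TT n e x = k + (x - EE e k) / e k := by
  have hek := he k hk
  have h1 : ∀ j ∈ Finset.range n, cl ((x - EE e j) / e j) =
      (if j < k then 1 else 0) + if j = k then (x - EE e k) / e k else 0 := by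
    intro j hj
    rw [Finset.mem_range] at hj
    have hej := he j hj
    rcases lt_trichotomy j k with h | h | h
    · rw [if_pos h, if_neg h.ne, add_zero]
      refine cl_of_ge ?_
      rw [le_div_iff₀ hej]
      have h2 := EE_mono he (j := j + 1) (k := k) h hk.le
      rw [EE_succ] at h2
      linarith [hx.1]
    · subst h
      rw [if_neg (lt_irrefl _), if_pos rfl, zero_add]
      refine cl_of_mem ⟨div_nonneg (by linarith [hx.1]) hek.le, ?_⟩
      rw [div_le_one hek]
      have h2 := hx.2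
      rw [EE_succ] at h2
      linarith
    · rw [if_neg (not_lt.2 h.le), if_neg h.ne', zero_add]
      refine cl_of_le (div_nonpos_of_nonpos_of_nonneg ?_ hej.le)
      have h2 := EE_mono he (j := k + 1) (k := j) h hj.le
      linarith [hx.2]
  rw [TT, Finset.sum_congr rfl h1, Finset.sum_add_distrib, Finset.sum_ite_eq' (Finset.range n),
    if_pos (Finset.mem_range.2 hk)]
  congr 1
  rw [Finset.sum_ite, Finset.sum_const_zero, add_zero, Finset.sum_const, nsmul_eq_mul, mul_one]
  have : (Finset.range n).filter (fun j => j < k) = Finset.range k := by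
    ext j
    simp only [Finset.mem_filter, Finset.mem_range]
    omega
  rw [this, Finset.card_range]

/-- joint continuity of the time change -/
theorem contOn_TT {α : Type*} [TopologicalSpace α] {S : Set α} {n : ℕ} {e : α → ℕ → ℝ}
    {x : α → ℝ} (hx : ContinuousOn x S) (he : ∀ k < n, ContinuousOn (fun a => e a k) S)
    (hpos : ∀ a ∈ S, ∀ k < n, 0 < e a k) : ContinuousOn (fun a => TT n (e a) (x a)) S := by
  unfold TT
  refine continuousOn_finsetSum _ fun k hk => ?_
  rw [Finset.mem_range] at hk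
  refine continuous_cl.comp_continuousOn ((hx.sub ?_).div (he k hk) fun a ha => (hpos a ha k hk).ne')
  unfold EE
  refine continuousOn_finsetSum _ fun j hj => ?_
  rw [Finset.mem_range] at hj
  exact he j (by omega)

/-! ### broken geodesic loops -/

section BG

variable {M : Type*} [MetricSpace M] [Nonempty M] (L : LUG M)

/-- the broken geodesic with vertices `q k` at the times `E_k` -/
def bg (n : ℕ) (e : ℕ → ℝ) (q : ℕ → M) (x : ℝ) : M := PL L q (TT n e x)

/-- the broken geodesic loop -/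
def BG (n : ℕ) (e : ℕ → ℝ) (q : ℕ → M) : Lp M := mkL (bg L n e q)

/-- admissible data -/
structure Adm (n : ℕ) (e : ℕ → ℝ) (q : ℕ → M) : Prop where
  n_pos : 0 < n
  e_pos : ∀ k < n, 0 < e k
  sum : EE e n = 1
  per : ∀ k, q (k + n) = q k
  short : ∀ j, dist (q j) (q (j + 1)) < L.r0

variable {L} {n : ℕ} {e : ℕ → ℝ} {q : ℕ → M}

theorem bg_on (h : Adm L n e q) {k : ℕ} (hk : k < n) {x : ℝ}
    (hx : x ∈ Icc (EE e k) (EE e (k + 1))) :
    bg L n e q x = L.seg (q k) (q (k + 1)) ((x - EE e k) / e k) := by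
  have hek := h.e_pos k hk
  have h1 := TT_on h.e_pos hk hx
  have h2 : (x - EE e k) / e k ∈ Icc (0 : ℝ) 1 := by
    have h3 := hx.2
    rw [EE_succ] at h3
    exact ⟨div_nonneg (by linarith [hx.1]) hek.le, (div_le_one hek).2 (by linarith)⟩
  rw [bg, PL_on h.short (k := k) (by rw [h1]; exact ⟨by linarith [h2.1], by linarith [h2.2]⟩), h1]
  congr 1
  ring

theorem bg_zero (h : Adm L n e q) : bg L n e q 0 = q 0 := by
  have h1 := bg_on h h.n_pos (x := 0) ⟨by simp, by
    rw [EE_succ, EE_zero]; linarith [h.e_pos 0 h.n_pos]⟩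
  rw [h1, EE_zero, sub_zero, zero_div, L.seg_zero (h.short 0)]

theorem bg_one (h : Adm L n e q) : bg L n e q 1 = q 0 := by
  obtain ⟨m, rfl⟩ : ∃ m, n = m + 1 := ⟨n - 1, by have := h.n_pos; omega⟩
  have h1 := bg_on h (Nat.lt_succ_self m) (x := 1) ⟨by
    have := h.sum; rw [EE_succ] at this; linarith [h.e_pos m (Nat.lt_succ_self m)], by
    rw [h.sum]⟩
  have h2 : (1 - EE e m) / e m = 1 := by
    have := h.sum
    rw [EE_succ] at this
    rw [div_eq_one_iff_eq (h.e_pos m (Nat.lt_succ_self m)).ne']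
    linarith
  rw [h1, h2, L.seg_one (h.short m)]
  have h3 := h.per 0
  rwa [zero_add] at h3

end BG

end Crest.Agent.R231.GMGeox889
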