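import Crest.Agent.R226.GeoBasic_616
import Crest.Agent.R226.CutTop_478

/-!
# Row 231 (S0357), block GM (helper654): slices transversal to a closed geodesic

`Cg G` : closed geodesics of unit speed and length `l`;
`pt c N i` : the `N` equally spaced tangent vectors;
`E p` : an isometry of `S = ℝ^(n-1)` onto `p.2ᗮ`; `sg c N i` : the slices;
`D c N i` : distance of points of consecutive slices, minus `l / N`.
-/

set_option autoImplicit false
set_option linter.unusedSectionVars false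

noncomputable section

open MeasureTheory Bundle Set Filter
open scoped Manifold ContDiff Bundle ENNReal Topology
open Crest.GeometryTopology.MTW
open Crest.Agent.R226

namespace Crest.Agent.R231.GMSlx654

variable {n : ℕ} {M : Type*} [MetricSpace M] [ChartedSpace (EuclideanSpace ℝ (Fin n)) M]
  [IsManifold (𝓡 n) ∞ M]
  [RiemannianBundle (fun p : M => TangentSpace (𝓡 n) p)]

/-- closed geodesics of unit speed and length `l` -/
structure Cg (G : GeoData n M) where
  x0 : M
  u0 : TangentSpace (𝓡 n) x0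
  norm_u0 : ‖u0‖ = 1
  l : ℝ
  l_pos : 0 < l
  per : G.Flow l ⟨x0, u0⟩ = ⟨x0, u0⟩

variable {G : GeoData n M}

namespace Cg

/-- the initial vector -/
def p0 (c : Cg G) : TangentBundle (𝓡 n) M := ⟨c.x0, c.u0⟩

theorem per_nat (c : Cg G) (k : ℕ) : G.Flow (k * c.l) c.p0 = c.p0 := by
  induction k with
  | zero => rw [Nat.cast_zero, zero_mul, GeoBasic616.Flow_zero]
  | succ k ih =>
    have h := GeoBasic616.Flow_add G c.l (k * c.l) c.p0
    rw [ih] at h
    have e : ((k + 1 : ℕ) : ℝ) * c.l = k * c.l + c.l := by push_cast; ring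
    rw [e, ← h]
    exact c.per

/-- the vector after the time `i l / N` -/
def pt (c : Cg G) (N : ℕ) (i : ZMod N) : TangentBundle (𝓡 n) M :=
  G.Flow ((i.val : ℝ) * (c.l / N)) c.p0

theorem norm_pt (c : Cg G) (N : ℕ) (i : ZMod N) : ‖(c.pt N i).2‖ = 1 := by
  rw [pt, GeoBasic616.norm_Flow]
  exact c.norm_u0

theorem pt_zero (c : Cg G) (N : ℕ) : c.pt N 0 = c.p0 := by
  rw [pt, ZMod.val_zero, Nat.cast_zero, zero_mul, GeoBasic616.Flow_zero]

theorem pt_succ (c : Cg G) {N : ℕ} [NeZero N] (i : ZMod N) :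
    G.Flow (c.l / N) (c.pt N i) = c.pt N (i + 1) := by
  have hN : (N : ℝ) ≠ 0 := Nat.cast_ne_zero.2 (NeZero.ne N)
  rw [pt, GeoBasic616.Flow_add, pt]
  have hv := ZMod.val_add i (1 : ZMod N)
  have hi := ZMod.val_lt i
  have key : ∃ k : ℕ, i.val + 1 = (i + 1).val + k * N := by
    rcases Nat.lt_or_ge 1 N with h1 | h1
    · have : Fact (1 < N) := ⟨h1⟩
      rw [ZMod.val_one] at hv
      rw [hv]
      exact ⟨(i.val + 1) / N, by rw [mul_comm]; exact (Nat.mod_add_div _ _).symm⟩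
    · have hN1 : N = 1 := le_antisymm h1 (Nat.one_le_iff_ne_zero.2 (NeZero.ne N))
      subst hN1
      exact ⟨1, by
        have h2 := ZMod.val_lt (i + 1)
        omega⟩
  obtain ⟨k, hk⟩ := key
  have e : (i.val : ℝ) * (c.l / N) + c.l / N = k * c.l + ((i + 1).val : ℝ) * (c.l / N) := by
    have h3 : (i.val : ℝ) + 1 = (i + 1).val + k * N := by exact_mod_cast hk
    have h4 : (i.val : ℝ) * (c.l / N) + c.l / N = ((i.val : ℝ) + 1) * (c.l / N) := by ring
    rw [h4, h3]
    field_simp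
    ring
  rw [e, ← GeoBasic616.Flow_add, c.per_nat]

end Cg

/-- the model of the slices -/
abbrev Sl (n : ℕ) : Type := EuclideanSpace ℝ (Fin (n - 1))

theorem exists_E {x : M} {u : TangentSpace (𝓡 n) x} (hu : ‖u‖ = 1) :
    ∃ E : Sl n →ₗᵢ[ℝ] TangentSpace (𝓡 n) x,
      LinearMap.range E.toLinearMap = (Submodule.span ℝ {u})ᗮ := by
  have : FiniteDimensional ℝ (TangentSpace (𝓡 n) x) :=
    inferInstanceAs (FiniteDimensional ℝ (EuclideanSpace ℝ (Fin n)))
  have hu0 : u ≠ 0 := by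
    rintro rfl
    rw [norm_zero] at hu
    exact zero_ne_one hu
  have hfin : Module.finrank ℝ (TangentSpace (𝓡 n) x) = n := by
    have : Module.finrank ℝ (EuclideanSpace ℝ (Fin n)) = n := finrank_euclideanSpace_fin
    exact this
  have h1 : Module.finrank ℝ (Submodule.span ℝ {u}) = 1 := finrank_span_singleton hu0
  have h2 := Submodule.finrank_add_finrank_orthogonal (Submodule.span ℝ {u})
  have h3 : Module.finrank ℝ (Submodule.span ℝ {u})ᗮ = n - 1 := by omega
  let e : Sl n ≃ₗᵢ[ℝ] (Submodule.span ℝ {u})ᗮ :=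
    ((stdOrthonormalBasis ℝ (Submodule.span ℝ {u})ᗮ).reindex (finCongr h3)).repr.symm
  refine ⟨(Submodule.span ℝ {u})ᗮ.subtypeₗᵢ.comp e.toLinearIsometry, ?_⟩
  ext v
  simp only [LinearMap.mem_range, LinearIsometry.coe_toLinearMap, LinearIsometry.coe_comp,
    Submodule.coe_subtypeₗᵢ, Function.comp_apply, Submodule.coe_subtype]
  constructor
  · rintro ⟨y, rfl⟩
    exact (e y).2
  · intro hv
    exact ⟨e.symm ⟨v, hv⟩, by simp⟩

open Classical in
/-- an isometry of `ℝ^(n-1)` onto the orthogonal complement of the unit vector `p.2` -/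
def E (p : TangentBundle (𝓡 n) M) : Sl n →L[ℝ] TangentSpace (𝓡 n) p.1 :=
  if h : ‖p.2‖ = 1 then (Classical.choose (exists_E h)).toContinuousLinearMap else 0

theorem norm_E {p : TangentBundle (𝓡 n) M} (h : ‖p.2‖ = 1) (v : Sl n) : ‖E p v‖ = ‖v‖ := by
  rw [E, dif_pos h]
  exact (Classical.choose (exists_E h)).norm_map v

theorem range_E {p : TangentBundle (𝓡 n) M} (h : ‖p.2‖ = 1) (w : TangentSpace (𝓡 n) p.1) :
    (∃ v, E p v = w) ↔ inner ℝ p.2 w = 0 := by
  rw [E, dif_pos h]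
  have h1 := Classical.choose_spec (exists_E h)
  have h2 : w ∈ LinearMap.range (Classical.choose (exists_E h)).toLinearMap ↔
      w ∈ (Submodule.span ℝ {p.2})ᗮ := by rw [h1]
  rw [Submodule.mem_orthogonal_singleton_iff_inner_right] at h2
  exact h2

theorem inner_E {p : TangentBundle (𝓡 n) M} (h : ‖p.2‖ = 1) (v : Sl n) :
    inner ℝ p.2 (E p v) = 0 := (range_E h _).1 ⟨v, rfl⟩

/-- the slices -/
def sg (c : Cg G) (N : ℕ) (i : ZMod N) (v : Sl n) : M := G.ex (c.pt N i).1 (E (c.pt N i) v)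

/-- distance of points of consecutive slices -/
def D (c : Cg G) (N : ℕ) (i : ZMod N) (q : Sl n × Sl n) : ℝ :=
  dist (sg c N i q.1) (sg c N (i + 1) q.2) - c.l / N

theorem sg_zero (c : Cg G) (N : ℕ) (i : ZMod N) : sg c N i 0 = (c.pt N i).1 := by
  rw [sg, map_zero, G.ex_zero]

theorem dist_pt (c : Cg G) {N : ℕ} [NeZero N] (h : c.l / N < G.r₀) (i : ZMod N) :
    dist (c.pt N i).1 (c.pt N (i + 1)).1 = c.l / N := by
  have hN : (0 : ℝ) < N := Nat.cast_pos.2 (NeZero.pos N)
  have h0 : 0 ≤ c.l / N := div_nonneg c.l_pos.le hN.le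
  rw [← c.pt_succ i]
  have h1 := G.dist_eq (c.pt N i).1 (c.pt N i).2 0 (c.l / N) (by
    rw [c.norm_pt, mul_one, zero_sub, abs_neg, abs_of_nonneg h0]; exact h)
  rw [zero_smul, G.ex_zero, c.norm_pt, mul_one, zero_sub, abs_neg, abs_of_nonneg h0] at h1
  exact h1

theorem D_zero (c : Cg G) {N : ℕ} [NeZero N] (h : c.l / N < G.r₀) (i : ZMod N) :
    D c N i (0, 0) = 0 := by
  rw [D, sg_zero, sg_zero, dist_pt c h, sub_self]

end Crest.Agent.R231.GMSlx654
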