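import Crest.Agent.R226.GeoBasic_616

/-!
# Row 231 (S0357), block G, part G1a (helper724): short geodesics

For a compact Riemannian manifold `M` with its geodesic package `G : GeoData n M` (row 226):

* `lg G x y`   : initial velocity of a minimising geodesic from `x` to `y`
* `seg G x y s` : the point at time `s` of this geodesic
* `seg_ray`    : `seg` between two near points of a geodesic is the geodesic
* `dist_seg`, `seg_zero`, `seg_one`, `seg_self`, `seg_symm`, `seg_uniq`, `seg_seg`
* `exline_of_local` (file `GeoLine_724`): a curve which is locally metrically a geodesic is an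
  `ex`-line
-/

set_option autoImplicit false

noncomputable section

open Bundle Set Filter
open scoped Manifold ContDiff Bundle ENNReal Topology
open Crest.GeometryTopology.MTW
open Crest.Agent.R226 Crest.Agent.R226.GeoBasic616 Crest.Agent.R226.TB616

namespace Crest.Agent.R231.GeoSegx724

variable {n : ℕ} {M : Type*} [MetricSpace M] [ChartedSpace (EuclideanSpace ℝ (Fin n)) M]
  [IsManifold (𝓡 n) ∞ M]
  [RiemannianBundle (fun p : M => TangentSpace (𝓡 n) p)]

variable (G : GeoData n M)

/-- the initial velocity of a minimising geodesic from `x` to `y` -/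
def lg (x y : M) : TangentSpace (𝓡 n) x := Classical.choose (G.surj x y)

theorem ex_lg (x y : M) : G.ex x (lg G x y) = y := (Classical.choose_spec (G.surj x y)).1

theorem norm_lg (x y : M) : ‖lg G x y‖ = dist x y := (Classical.choose_spec (G.surj x y)).2

/-- the minimising geodesic from `x` to `y` -/
def seg (x y : M) (s : ℝ) : M := G.ex x (s • lg G x y)

theorem lg_eq {x y : M} {v : TangentSpace (𝓡 n) x} (hv : ‖v‖ < G.r₀) (h : G.ex x v = y) :
    lg G x y = v := by
  have h1 : dist x y = ‖v‖ := by rw [← h]; exact dist_ex_of_norm_lt G hv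
  exact G.inj x _ _ (by rw [norm_lg, h1]; exact hv) hv ((ex_lg G x y).trans h.symm)

theorem lg_mem_K (x y : M) : lg G x y ∈ G.K x := by
  rw [mem_K, ex_lg, norm_lg]

theorem seg_zero (x y : M) : seg G x y 0 = x := by
  unfold seg
  rw [zero_smul, G.ex_zero]

theorem seg_one (x y : M) : seg G x y 1 = y := by
  unfold seg
  rw [one_smul, ex_lg]

theorem seg_self (x : M) (s : ℝ) : seg G x x s = x := by
  have h : lg G x x = 0 := by
    have h1 := norm_lg G x x
    rw [dist_self] at h1
    exact norm_eq_zero.mp h1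
  unfold seg
  rw [h, smul_zero, G.ex_zero]

theorem dist_seg (x y : M) {s t : ℝ} (hs : s ∈ Icc (0 : ℝ) 1) (ht : t ∈ Icc (0 : ℝ) 1) :
    dist (seg G x y s) (seg G x y t) = |s - t| * dist x y := by
  rw [← norm_lg G x y]
  rcases le_total s t with h | h
  · rw [abs_sub_comm, abs_of_nonneg (by linarith)]
    exact dist_eq_of_mem_K G (lg_mem_K G x y) hs.1 h ht.2
  · rw [abs_of_nonneg (by linarith), dist_comm]
    exact dist_eq_of_mem_K G (lg_mem_K G x y) ht.1 h hs.2

theorem dist_left_seg (x y : M) {s : ℝ} (hs : s ∈ Icc (0 : ℝ) 1) :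
    dist x (seg G x y s) = s * dist x y := by
  have h := dist_seg G x y (s := 0) (t := s) ⟨le_rfl, zero_le_one⟩ hs
  rw [seg_zero, zero_sub, abs_neg, abs_of_nonneg hs.1] at h
  exact h

theorem dist_seg_right (x y : M) {s : ℝ} (hs : s ∈ Icc (0 : ℝ) 1) :
    dist (seg G x y s) y = (1 - s) * dist x y := by
  have h := dist_seg G x y (s := s) (t := 1) hs ⟨zero_le_one, le_rfl⟩
  rw [seg_one, abs_sub_comm, abs_of_nonneg (by linarith [hs.2])] at h
  exact h

/-- `seg` between two near points of a geodesic is the geodesic -/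
theorem seg_ray (z : M) (u : TangentSpace (𝓡 n) z) {s t : ℝ} (h : |t - s| * ‖u‖ < G.r₀) (r : ℝ) :
    seg G (G.ex z (s • u)) (G.ex z (t • u)) r = G.ex z ((s + r * (t - s)) • u) := by
  have h1 : lg G (G.ex z (s • u)) (G.ex z (t • u)) = (t - s) • G.vel z u s := by
    refine lg_eq G ?_ ?_
    · rw [norm_smul, GeoBasic616.norm_vel, Real.norm_eq_abs]
      exact h
    · have h2 := G.flow z u s (t - s)
      rw [show s + (t - s) = t by ring] at h2
      exact h2
  unfold seg
  rw [h1, smul_smul]
  exact G.flow z u s (r * (t - s))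

theorem lg_ray (z : M) (u : TangentSpace (𝓡 n) z) {s t : ℝ} (h : |t - s| * ‖u‖ < G.r₀) :
    lg G (G.ex z (s • u)) (G.ex z (t • u)) = (t - s) • G.vel z u s := by
  refine lg_eq G ?_ ?_
  · rw [norm_smul, GeoBasic616.norm_vel, Real.norm_eq_abs]
    exact h
  · have h2 := G.flow z u s (t - s)
    rw [show s + (t - s) = t by ring] at h2
    exact h2

theorem seg_symm {x y : M} (h : dist x y < G.r₀) (s : ℝ) : seg G y x s = seg G x y (1 - s) := by
  have h1 := seg_ray G x (lg G x y) (s := 1) (t := 0)
    (by rw [norm_lg]; simpa using h) s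
  rw [one_smul, ex_lg, zero_smul, G.ex_zero] at h1
  rw [h1]
  unfold seg
  congr 2
  ring

/-- a piece of a short geodesic is a short geodesic -/
theorem seg_seg {x y : M} {s t : ℝ} (h : |t - s| * dist x y < G.r₀) (r : ℝ) :
    seg G (seg G x y s) (seg G x y t) r = seg G x y (s + r * (t - s)) :=
  seg_ray G x (lg G x y) (by rwa [norm_lg]) r

/-- first variation of the distance -/
theorem hasDerivAt_dist {z : M} {v ξ : TangentSpace (𝓡 n) z} (hv : ‖v‖ < G.r₀) (h0 : v ≠ 0) :
    HasDerivAt (fun t : ℝ => dist (G.ex z (t • ξ)) (G.ex z v)) (-inner ℝ v ξ / ‖v‖) 0 := by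
  have h1 := G.hasDerivAt_cost z v ξ hv
  have hpos : 0 < ‖v‖ := norm_pos_iff.mpr h0
  have hd : dist z (G.ex z v) = ‖v‖ := dist_ex_of_norm_lt G hv
  have hz : G.ex z ((0 : ℝ) • ξ) = z := by rw [zero_smul, G.ex_zero]
  have h2 : (2 * halfDistSq (G.ex z ((0 : ℝ) • ξ)) (G.ex z v)) ≠ 0 := by
    rw [hz]
    unfold halfDistSq
    rw [hd]
    positivity
  have h3 := (h1.const_mul 2).sqrt h2
  have h4 : (fun t : ℝ => Real.sqrt (2 * halfDistSq (G.ex z (t • ξ)) (G.ex z v))) =
      fun t : ℝ => dist (G.ex z (t • ξ)) (G.ex z v) := by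
    funext t
    unfold halfDistSq
    rw [mul_div_cancel₀ _ (two_ne_zero), Real.sqrt_sq dist_nonneg]
  rw [h4] at h3
  convert h3 using 1
  have h5 : Real.sqrt (2 * halfDistSq (G.ex z ((0 : ℝ) • ξ)) (G.ex z v)) = ‖v‖ := by
    have := congrFun h4 0
    exact this.trans (by rw [hz, hd])
  rw [h5]
  field_simp

/-- **no corner**: a point between two near points lies on the short geodesic -/
theorem eq_ex_of_between {x y z : M} (ha : 0 < dist x z) (hb : 0 < dist z y)
    (h : dist x z + dist z y = dist x y) (hr : dist x y < G.r₀) :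
    lg G z x = (-(dist x z / dist z y)) • lg G z y := by
  set a := dist x z with hadef
  set b := dist z y with hbdef
  set v := lg G z y with hvdef
  set w := lg G z x with hwdef
  have hvn : ‖v‖ = b := norm_lg G z y
  have hwn : ‖w‖ = a := by rw [hwdef, norm_lg, dist_comm]
  have hv0 : v ≠ 0 := by
    intro h0
    rw [h0, norm_zero] at hvn
    linarith
  have hw0 : w ≠ 0 := by
    intro h0
    rw [h0, norm_zero] at hwn
    linarith
  have key : ∀ ξ : TangentSpace (𝓡 n) z, inner ℝ v ξ / b + inner ℝ w ξ / a = 0 := by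
    intro ξ
    have h1 := hasDerivAt_dist G (z := z) (v := v) (ξ := ξ) (by rw [hvn]; linarith) hv0
    have h2 := hasDerivAt_dist G (z := z) (v := w) (ξ := ξ) (by rw [hwn]; linarith) hw0
    rw [hvdef, ex_lg] at h1
    rw [hwdef, ex_lg] at h2
    rw [← hvdef] at h1
    rw [← hwdef] at h2
    have h3 := h1.add h2
    have hmin : IsLocalMin (fun t : ℝ => dist (G.ex z (t • ξ)) y + dist (G.ex z (t • ξ)) x) 0 := by
      refine Filter.Eventually.of_forall fun t => ?_
      have hz : G.ex z ((0 : ℝ) • ξ) = z := by rw [zero_smul, G.ex_zero]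
      simp only [hz]
      have h5 := dist_triangle x (G.ex z (t • ξ)) y
      rw [dist_comm z x]
      rw [dist_comm x (G.ex z (t • ξ))] at h5
      linarith
    have h4 := hmin.hasDerivAt_eq_zero h3
    rw [hvn, hwn] at h4
    have h6 : inner ℝ v ξ / b + inner ℝ w ξ / a = -(-inner ℝ v ξ / b + -inner ℝ w ξ / a) := by ring
    rw [h6, h4, neg_zero]
  have h7 : b⁻¹ • v + a⁻¹ • w = 0 := by
    have h8 := key (b⁻¹ • v + a⁻¹ • w)
    have h9 : inner ℝ (b⁻¹ • v + a⁻¹ • w) (b⁻¹ • v + a⁻¹ • w) = 0 := by
      rw [inner_add_left, real_inner_smul_left, real_inner_smul_left]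
      rw [div_eq_inv_mul, div_eq_inv_mul] at h8
      exact h8
    exact inner_self_eq_zero.mp h9
  have h10 : a⁻¹ • w = -(b⁻¹ • v) := by
    rw [add_comm] at h7
    exact eq_neg_of_add_eq_zero_left h7
  have h11 : w = a • (a⁻¹ • w) := by
    rw [smul_smul, mul_inv_cancel₀ (ne_of_gt ha), one_smul]
  rw [h11, h10, smul_neg, smul_smul, neg_smul, div_eq_mul_inv]

/-- **uniqueness** of short geodesics -/
theorem seg_uniq {x y z : M} (hr : dist x y < G.r₀) {s : ℝ}
    (h1 : dist x z = s * dist x y) (h2 : dist z y = (1 - s) * dist x y) : z = seg G x y s := by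
  have hsum : dist x z + dist z y = dist x y := by rw [h1, h2]; ring
  rcases (dist_nonneg (x := x) (y := z)).eq_or_lt with ha | ha
  · have hxz : x = z := dist_eq_zero.mp ha.symm
    rcases (dist_nonneg (x := x) (y := y)).eq_or_lt with hd | hd
    · have hxy : x = y := dist_eq_zero.mp hd.symm
      rw [← hxy, seg_self, hxz]
    · have hs : s = 0 := by
        rw [← ha] at h1
        rcases mul_eq_zero.mp h1.symm with h | h
        · exact h
        · exact absurd h (ne_of_gt hd)
      rw [hs, seg_zero, hxz]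
  rcases (dist_nonneg (x := z) (y := y)).eq_or_lt with hb | hb
  · have hzy : z = y := dist_eq_zero.mp hb.symm
    have hd : 0 < dist x y := by rw [← hzy]; exact ha
    have hs : 1 - s = 0 := by
      rw [← hb] at h2
      rcases mul_eq_zero.mp h2.symm with h | h
      · exact h
      · exact absurd h (ne_of_gt hd)
    rw [show s = 1 by linarith, seg_one, hzy]
  have hw := eq_ex_of_between G ha hb hsum hr
  have hd : 0 < dist x y := by linarith
  have h3 : G.ex z ((-(dist x z / dist z y)) • lg G z y) = x := by rw [← hw, ex_lg]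
  have h4 : G.ex z ((1 : ℝ) • lg G z y) = y := by rw [one_smul, ex_lg]
  have hcond : |1 - (-(dist x z / dist z y))| * ‖lg G z y‖ < G.r₀ := by
    have hq : 0 ≤ dist x z / dist z y := by positivity
    rw [norm_lg, abs_of_nonneg (by linarith)]
    have : (1 - (-(dist x z / dist z y))) * dist z y = dist x y := by
      rw [← hsum]
      field_simp
      ring
    rw [this]
    exact hr
  have h5 := seg_ray G z (lg G z y) hcond s
  rw [h3, h4] at h5
  rw [h5]
  have h6 : -(dist x z / dist z y) + s * (1 - (-(dist x z / dist z y))) = 0 := by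
    have h7 : s * (dist x z + dist z y) = dist x z := by rw [hsum, h1]
    field_simp
    linarith
  rw [h6, zero_smul, G.ex_zero]

end Crest.Agent.R231.GeoSegx724
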