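import Crest.Agent.R231.GMDir_320
import Crest.Agent.R231.GMSliceDefs_654
import Crest.Agent.R231.GeoSeg_724

/-!
# Row 231 (S0357), block GM-GEO (helper320): crossing a slice

`exists_root` : continuous dependence of the root of a strictly increasing function;
`crossing` : short geodesics close to a given one cross the slice at its midpoint at a continuous
time and in a continuous point;
`crossing_slice` : the same for the slices `sg c N i`.
-/

set_option autoImplicit false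
set_option linter.unusedSectionVars false

noncomputable section

open MeasureTheory Bundle Set Filter
open scoped Manifold ContDiff Bundle ENNReal Topology
open Crest.GeometryTopology.MTW
open Crest.Agent.R226

namespace Crest.Agent.R231.GMCrossx320

open Crest.Agent.R226.NearLog90 Crest.Agent.R226.NearLem90 Crest.Agent.R226.GeoBasic616
open Crest.Agent.R226.TB616
open Crest.Agent.R231.GMDirx320 Crest.Agent.R231.GMSlx654

/-- the root of a strictly increasing function depends continuously on parameters -/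
theorem exists_root {X : Type*} [TopologicalSpace X] {V : Set X} (hV : IsOpen V)
    {F : X → ℝ → ℝ} {a b : ℝ} (hab : a < b)
    (hF : ∀ t ∈ Icc a b, ContinuousOn (fun x => F x t) V)
    (hc : ∀ x ∈ V, ContinuousOn (F x) (Icc a b))
    (hm : ∀ x ∈ V, StrictMonoOn (F x) (Icc a b))
    (h1 : ∀ x ∈ V, F x a < 0) (h2 : ∀ x ∈ V, 0 < F x b) :
    ∃ τ : X → ℝ, ContinuousOn τ V ∧ ∀ x ∈ V, τ x ∈ Ioo a b ∧ F x (τ x) = 0 ∧
      ∀ t ∈ Icc a b, F x t = 0 → t = τ x := by
  classical
  have hex : ∀ x, ∃ t, x ∈ V → t ∈ Ioo a b ∧ F x t = 0 := by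
    intro x
    by_cases hx : x ∈ V
    · have h0 : (0 : ℝ) ∈ Ioo (F x a) (F x b) := ⟨h1 x hx, h2 x hx⟩
      obtain ⟨t, ht, h3⟩ := intermediate_value_Ioo hab.le (hc x hx) h0
      exact ⟨t, fun _ => ⟨ht, h3⟩⟩
    · exact ⟨0, fun h => absurd h hx⟩
  choose τ hτ using hex
  refine ⟨τ, ?_, fun x hx => ⟨(hτ x hx).1, (hτ x hx).2, fun t ht h0 => ?_⟩⟩
  · intro x hx
    apply ContinuousAt.continuousWithinAt
    rw [Metric.continuousAt_iff']
    intro ε hε
    obtain ⟨hx1, hx2⟩ := hτ x hx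
    set a' := max a (τ x - ε / 2) with ha'
    set b' := min b (τ x + ε / 2) with hb'
    have haI : a' ∈ Icc a b := ⟨le_max_left _ _, max_le hab.le (by linarith [hx1.2])⟩
    have hbI : b' ∈ Icc a b := ⟨le_min hab.le (by linarith [hx1.1]), min_le_left _ _⟩
    have hτI : τ x ∈ Icc a b := ⟨hx1.1.le, hx1.2.le⟩
    have h3 : F x a' < 0 := by
      rw [← hx2]
      exact hm x hx haI hτI (max_lt hx1.1 (by linarith))
    have h4 : 0 < F x b' := by
      rw [← hx2]
      exact hm x hx hτI hbI (lt_min hx1.2 (by linarith))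
    have c1 : ContinuousAt (fun x => F x a') x := (hF a' haI).continuousAt (hV.mem_nhds hx)
    have c2 : ContinuousAt (fun x => F x b') x := (hF b' hbI).continuousAt (hV.mem_nhds hx)
    filter_upwards [c1.eventually_lt_const h3, c2.eventually_const_lt h4, hV.mem_nhds hx]
      with y hy1 hy2 hyV
    obtain ⟨hy3, hy4⟩ := hτ y hyV
    have hyI : τ y ∈ Icc a b := ⟨hy3.1.le, hy3.2.le⟩
    have h5 : a' < τ y := by
      by_contra hcon
      have := (hm y hyV).monotoneOn hyI haI (not_lt.1 hcon)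
      rw [hy4] at this
      linarith
    have h6 : τ y < b' := by
      by_contra hcon
      have := (hm y hyV).monotoneOn hbI hyI (not_lt.1 hcon)
      rw [hy4] at this
      linarith
    have h7 : τ x - ε / 2 ≤ a' := le_max_right _ _
    have h8 : b' ≤ τ x + ε / 2 := min_le_right _ _
    rw [Real.dist_eq, abs_lt]
    constructor <;> linarith
  · obtain ⟨hx1, hx2⟩ := hτ x hx
    exact (hm x hx).injOn ht ⟨hx1.1.le, hx1.2.le⟩ (by rw [h0, hx2])

variable {n : ℕ} {M : Type*} [MetricSpace M] [ChartedSpace (EuclideanSpace ℝ (Fin n)) M]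
  [IsManifold (𝓡 n) ∞ M]
  [RiemannianBundle (fun p : M => TangentSpace (𝓡 n) p)]
variable {G : GeoData n M}

/-- the two logarithms agree -/
theorem lg_eq {x y : M} (h : dist x y < G.r₀ / 2) :
    NearLog90.lg (nd G) x y = GeoSegx724.lg G x y := by
  symm
  apply GeoSegx724.lg_eq G
  · have h1 : ‖NearLog90.lg (nd G) x y‖ = dist x y := norm_lg (nd G) h
    rw [h1]
    exact lt_trans h (half_lt_self G.r₀_pos)
  · exact e_lg (nd G) h

section
variable [IsContMDiffRiemannianBundle (𝓡 n) ∞ (EuclideanSpace ℝ (Fin n))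
    (fun p : M => TangentSpace (𝓡 n) p)]

theorem continuousAt_fibre {X : Type*} [TopologicalSpace X] {x : M}
    {f : X → TangentSpace (𝓡 n) x} {z : X}
    (h : ContinuousAt (fun z => (⟨x, f z⟩ : TangentBundle (𝓡 n) M)) z) : ContinuousAt f z :=
  (FiberBundle.totalSpaceMk_isInducing (EuclideanSpace ℝ (Fin n)) (TangentSpace (𝓡 n))
    x).continuousAt_iff.2 h

theorem continuousAt_lg_fibre {x y : M} (h : dist x y < G.r₀ / 2) :
    ContinuousAt (fun y' : M => NearLog90.lg (nd G) x y') y :=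
  continuousAt_fibre (contMDiffAt_lg_right (G := G) h).continuousAt

theorem continuousAt_lgT {z : M × M} (h : dist z.1 z.2 < G.r₀ / 2) :
    ContinuousAt (fun z : M × M =>
      (⟨z.1, NearLog90.lg (nd G) z.1 z.2⟩ : TangentBundle (𝓡 n) M)) z :=
  (contMDiffAt_lg (nd G) (x := z.1) (y := z.2) h).continuousAt

theorem continuous_exr : Continuous (fun q : TangentBundle (𝓡 n) M × ℝ =>
    G.ex q.1.1 (q.2 • q.1.2)) := by
  have h1 : ContMDiff ((𝓡 n).tangent.prod 𝓘(ℝ)) (𝓡 n) ∞
      (fun q : TangentBundle (𝓡 n) M × ℝ => G.ex q.1.1 (q.2 • q.1.2)) :=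
    contMDiff_ex_smul G (f := fun q : TangentBundle (𝓡 n) M × ℝ => q.2)
      (s := fun q : TangentBundle (𝓡 n) M × ℝ => q.1) contMDiff_snd contMDiff_fst
  exact h1.continuous

/-- **crossing lemma** -/
theorem crossing {P : TangentBundle (𝓡 n) M} (hP : ‖P.2‖ = 1) {h : ℝ} (h0 : 0 < h)
    (h1 : 2 * h < G.r₀ / 2) :
    ∃ (O : Set (M × M)) (τ : M × M → ℝ) (w : M × M → Sl n), IsOpen O ∧
      (G.ex P.1 ((-h) • P.2), G.ex P.1 (h • P.2)) ∈ O ∧
      ContinuousOn τ O ∧ ContinuousOn w O ∧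
      τ (G.ex P.1 ((-h) • P.2), G.ex P.1 (h • P.2)) = 1 / 2 ∧
      w (G.ex P.1 ((-h) • P.2), G.ex P.1 (h • P.2)) = 0 ∧
      ∀ z ∈ O, dist z.1 z.2 < G.r₀ / 2 ∧ τ z ∈ Ioo (0 : ℝ) 1 ∧
        GeoSegx724.seg G z.1 z.2 (τ z) = G.ex P.1 (E P (w z)) := by
  classical
  set p0 := G.ex P.1 ((-h) • P.2) with hp0
  set q0 := G.ex P.1 (h • P.2) with hq0
  have hr := G.r₀_pos
  -- the segment of the centre
  have hd : dist p0 q0 = 2 * h := by
    have := G.dist_eq P.1 P.2 (-h) h (by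
      rw [hP, mul_one, show -h - h = -(2 * h) by ring, abs_neg, abs_of_pos (by linarith)]
      linarith)
    rw [hP, mul_one, show -h - h = -(2 * h) by ring, abs_neg, abs_of_pos (by linarith)] at this
    exact this
  have hdl : dist p0 q0 < G.r₀ / 2 := by rw [hd]; exact h1
  have hseg : ∀ t : ℝ, G.ex p0 (t • NearLog90.lg (nd G) p0 q0) =
      G.ex P.1 ((-h + 2 * h * t) • P.2) := by
    intro t
    rw [lg_eq hdl]
    have := GeoSegx724.seg_ray G P.1 P.2 (s := -h) (t := h) (by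
      rw [hP, mul_one, show h - -h = 2 * h by ring, abs_of_pos (by linarith)]
      linarith) t
    rw [show h - -h = 2 * h by ring, show -h + t * (2 * h) = -h + 2 * h * t by ring] at this
    exact this
  set Q0 : TangentBundle (𝓡 n) M := ⟨p0, NearLog90.lg (nd G) p0 q0⟩ with hQ0
  -- the height along the central segment
  have hphf : ∀ t : ℝ, |(-h + 2 * h * t)| < G.r₀ / 2 → phf G P (Q0, t) = -h + 2 * h * t := by
    intro t ht
    change ph G P (G.ex p0 (t • NearLog90.lg (nd G) p0 q0)) = _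
    rw [hseg t, ph_ex (by rw [norm_smul, hP, mul_one]; exact ht), inner_smul_left,
      real_inner_self_eq_norm_sq, hP]
    simp
  have hdist : ∀ t : ℝ, |(-h + 2 * h * t)| < G.r₀ / 2 →
      dist P.1 (G.ex Q0.1 (t • Q0.2)) < G.r₀ / 2 := by
    intro t ht
    change dist P.1 (G.ex p0 (t • NearLog90.lg (nd G) p0 q0)) < _
    rw [hseg t]
    have h3 := dist_ex_le G P.1 ((-h + 2 * h * t) • P.2)
    rw [norm_smul, hP, mul_one] at h3
    exact lt_of_le_of_lt h3 ht
  have habs : ∀ t : ℝ, t ∈ Icc (0 : ℝ) 1 → |(-h + 2 * h * t)| < G.r₀ / 2 := by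
    intro t ht
    rw [abs_lt]
    constructor <;> nlinarith [ht.1, ht.2]
  have hdph : dph G P (Q0, 1 / 2) = 2 * h := by
    have e1 : (fun t : ℝ => phf G P (Q0, t)) =ᶠ[𝓝 (1 / 2)] fun t => -h + 2 * h * t := by
      have : ∀ᶠ t : ℝ in 𝓝 (1 / 2), t ∈ Icc (0 : ℝ) 1 :=
        Icc_mem_nhds (by norm_num) (by norm_num)
      filter_upwards [this] with t ht
      exact hphf t (habs t ht)
    change deriv (fun t : ℝ => phf G P (Q0, t)) (1 / 2) = 2 * h
    rw [e1.deriv_eq]
    have := ((hasDerivAt_id (1 / 2 : ℝ)).const_mul (2 * h)).const_add (-h)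
    rw [mul_one] at this
    exact this.deriv
  -- the good neighbourhood
  have hW : ∀ᶠ q in 𝓝 ((Q0, 1 / 2) : TangentBundle (𝓡 n) M × ℝ),
      dist P.1 (G.ex q.1.1 (q.2 • q.1.2)) < G.r₀ / 2 ∧ 0 < dph G P q := by
    have e1 : ∀ᶠ q in 𝓝 ((Q0, 1 / 2) : TangentBundle (𝓡 n) M × ℝ),
        dist P.1 (G.ex q.1.1 (q.2 • q.1.2)) < G.r₀ / 2 := by
      have hc : Continuous (fun q : TangentBundle (𝓡 n) M × ℝ =>
          dist P.1 (G.ex q.1.1 (q.2 • q.1.2))) := continuous_const.dist continuous_exr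
      exact hc.continuousAt.eventually_lt_const
        (hdist (1 / 2) (habs _ ⟨by norm_num, by norm_num⟩))
    have e2 : ∀ᶠ q in 𝓝 ((Q0, 1 / 2) : TangentBundle (𝓡 n) M × ℝ), 0 < dph G P q := by
      have hc := continuousAt_dph (G := G) P (q := (Q0, 1 / 2))
        (hdist (1 / 2) (habs _ ⟨by norm_num, by norm_num⟩))
      exact hc.eventually_const_lt (by rw [hdph]; linarith)
    exact e1.and e2
  rw [nhds_prod_eq, eventually_prod_iff] at hW
  obtain ⟨pU, hpU, pI, hpI, hUI⟩ := hW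
  obtain ⟨δ0, hδ0, hδI⟩ := Metric.eventually_nhds_iff.1 hpI
  set δ : ℝ := min (δ0 / 2) (1 / 4) with hδ
  have hδp : 0 < δ := lt_min (by linarith) (by norm_num)
  have hδ1 : δ ≤ 1 / 4 := min_le_right _ _
  have hδ2 : δ ≤ δ0 / 2 := min_le_left _ _
  have hI : ∀ t ∈ Icc (1 / 2 - δ) (1 / 2 + δ), pI t := by
    intro t ht
    apply hδI
    rw [Real.dist_eq, abs_lt]
    constructor <;> linarith [ht.1, ht.2]
  have hcontF : ∀ t ∈ Icc (1 / 2 - δ) (1 / 2 + δ), ContinuousAt (fun Q => phf G P (Q, t)) Q0 := by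
    intro t ht
    have h3 := (contMDiffAt_phf (G := G) P (q := (Q0, t)) (hdist t (habs t
      ⟨by linarith [ht.1], by linarith [ht.2]⟩))).continuousAt
    exact ContinuousAt.comp (f := fun Q : TangentBundle (𝓡 n) M => (Q, t)) h3
      (continuousAt_id.prodMk continuousAt_const)
  have hneg : ∀ᶠ Q in 𝓝 Q0, phf G P (Q, 1 / 2 - δ) < 0 := by
    refine (hcontF _ ⟨le_rfl, by linarith⟩).eventually_lt_const ?_
    change phf G P (Q0, 1 / 2 - δ) < 0
    rw [hphf _ (habs _ ⟨by linarith, by linarith⟩)]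
    nlinarith
  have hpos : ∀ᶠ Q in 𝓝 Q0, 0 < phf G P (Q, 1 / 2 + δ) := by
    refine (hcontF _ ⟨by linarith, le_rfl⟩).eventually_const_lt ?_
    change 0 < phf G P (Q0, 1 / 2 + δ)
    rw [hphf _ (habs _ ⟨by linarith, by linarith⟩)]
    nlinarith
  obtain ⟨U, hU, hUo, hQU⟩ := mem_nhds_iff.1 ((hpU.and (hneg.and hpos)))
  -- pull back to `M × M`
  set Qv : M × M → TangentBundle (𝓡 n) M := fun z => ⟨z.1, NearLog90.lg (nd G) z.1 z.2⟩ with hQv
  set V0 : Set (M × M) := {z | dist z.1 z.2 < G.r₀ / 2} with hV0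
  have hV0o : IsOpen V0 := isOpen_lt (continuous_fst.dist continuous_snd) continuous_const
  have hQc : ContinuousOn Qv V0 := fun z hz => (continuousAt_lgT hz).continuousWithinAt
  set V : Set (M × M) := V0 ∩ Qv ⁻¹' U with hVdef
  have hVo : IsOpen V := hQc.isOpen_inter_preimage hV0o hUo
  have hcen : (p0, q0) ∈ V := ⟨hdl, hQU⟩
  have hVU : ∀ z ∈ V, pU (Qv z) ∧ phf G P (Qv z, 1 / 2 - δ) < 0 ∧ 0 < phf G P (Qv z, 1 / 2 + δ) :=
    fun z hz => hU hz.2
  have hab : 1 / 2 - δ < 1 / 2 + δ := by linarith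
  have hgood : ∀ z ∈ V, ∀ t ∈ Icc (1 / 2 - δ) (1 / 2 + δ),
      dist P.1 (G.ex (Qv z).1 (t • (Qv z).2)) < G.r₀ / 2 ∧ 0 < dph G P (Qv z, t) :=
    fun z hz t ht => hUI (hVU z hz).1 (hI t ht)
  have hF : ∀ t ∈ Icc (1 / 2 - δ) (1 / 2 + δ),
      ContinuousOn (fun z => phf G P (Qv z, t)) V := by
    intro t ht z hz
    have h3 := (contMDiffAt_phf (G := G) P (q := (Qv z, t)) (hgood z hz t ht).1).continuousAt
    have h4 : ContinuousAt (fun z => (Qv z, t)) z :=
      (continuousAt_lgT hz.1).prodMk continuousAt_const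
    exact (ContinuousAt.comp (f := fun z => (Qv z, t)) h3 h4).continuousWithinAt
  have hder : ∀ z ∈ V, ∀ t ∈ Icc (1 / 2 - δ) (1 / 2 + δ),
      HasDerivAt (fun t : ℝ => phf G P (Qv z, t)) (dph G P (Qv z, t)) t :=
    fun z hz t ht => hasDerivAt_phf (G := G) P (q := (Qv z, t)) (hgood z hz t ht).1
  have hc : ∀ z ∈ V, ContinuousOn (fun t : ℝ => phf G P (Qv z, t))
      (Icc (1 / 2 - δ) (1 / 2 + δ)) :=
    fun z hz t ht => (hder z hz t ht).continuousAt.continuousWithinAt
  have hm : ∀ z ∈ V, StrictMonoOn (fun t : ℝ => phf G P (Qv z, t))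
      (Icc (1 / 2 - δ) (1 / 2 + δ)) := by
    intro z hz
    refine strictMonoOn_of_deriv_pos (convex_Icc _ _) (hc z hz) ?_
    intro t ht
    have ht' := interior_subset ht
    rw [(hder z hz t ht').deriv]
    exact (hgood z hz t ht').2
  obtain ⟨τ, hτc, hτ⟩ := exists_root hVo (F := fun z t => phf G P (Qv z, t)) hab hF hc hm
    (fun z hz => (hVU z hz).2.1) (fun z hz => (hVU z hz).2.2)
  -- the left inverse of `E P`
  have hEinj : Function.Injective (E P : Sl n →L[ℝ] TangentSpace (𝓡 n) P.1) := by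
    intro v v' hvv
    have h3 := norm_E hP (v - v')
    rw [map_sub, hvv, sub_self, norm_zero] at h3
    exact sub_eq_zero.1 (norm_eq_zero.1 h3.symm)
  have : FiniteDimensional ℝ (TangentSpace (𝓡 n) P.1) := finDim P.1
  obtain ⟨Li, hLi⟩ := LinearMap.exists_leftInverse_of_injective
    (E P : Sl n →L[ℝ] TangentSpace (𝓡 n) P.1).toLinearMap (LinearMap.ker_eq_bot.2 hEinj)
  have hLi' : ∀ v, Li (E P v) = v := fun v => LinearMap.congr_fun hLi v
  have hLc : Continuous Li := Li.continuous_of_finiteDimensional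
  set yv : M × M → M := fun z => G.ex (Qv z).1 (τ z • (Qv z).2) with hyv
  have hyd : ∀ z ∈ V, dist P.1 (yv z) < G.r₀ / 2 := fun z hz =>
    (hgood z hz (τ z) ⟨(hτ z hz).1.1.le, (hτ z hz).1.2.le⟩).1
  have hyc : ∀ z ∈ V, ContinuousAt yv z := by
    intro z hz
    have h3 : ContinuousAt (fun z => (Qv z, τ z)) z :=
      (continuousAt_lgT hz.1).prodMk (hτc.continuousAt (hVo.mem_nhds hz))
    exact ContinuousAt.comp (f := fun z => (Qv z, τ z)) (continuous_exr (G := G)).continuousAt h3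
  refine ⟨V, τ, fun z => Li (NearLog90.lg (nd G) P.1 (yv z)), hVo, hcen, hτc, ?_, ?_, ?_, ?_⟩
  · intro z hz
    have h3 : ContinuousAt (fun z => NearLog90.lg (nd G) P.1 (yv z)) z :=
      ContinuousAt.comp (f := yv) (continuousAt_lg_fibre (hyd z hz)) (hyc z hz)
    exact (ContinuousAt.comp (f := fun z => NearLog90.lg (nd G) P.1 (yv z))
      hLc.continuousAt h3).continuousWithinAt
  · -- the crossing time of the centre
    symm
    refine (hτ _ hcen).2.2 (1 / 2) ⟨by linarith, by linarith⟩ ?_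
    change phf G P (Q0, 1 / 2) = 0
    rw [hphf _ (habs _ ⟨by norm_num, by norm_num⟩)]
    ring
  · have h3 : τ (p0, q0) = 1 / 2 := by
      symm
      refine (hτ _ hcen).2.2 (1 / 2) ⟨by linarith, by linarith⟩ ?_
      change phf G P (Q0, 1 / 2) = 0
      rw [hphf _ (habs _ ⟨by norm_num, by norm_num⟩)]
      ring
    have h4 : yv (p0, q0) = P.1 := by
      change G.ex p0 (τ (p0, q0) • NearLog90.lg (nd G) p0 q0) = P.1
      rw [h3, hseg, show -h + 2 * h * (1 / 2) = 0 by ring, zero_smul, G.ex_zero]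
    change Li (NearLog90.lg (nd G) P.1 (yv (p0, q0))) = 0
    rw [h4]
    have h5 : NearLog90.lg (nd G) P.1 P.1 = 0 := by
      have h6 : ‖NearLog90.lg (nd G) P.1 P.1‖ = dist P.1 P.1 :=
        norm_lg (nd G) (by rw [dist_self]; exact half_pos hr)
      rw [dist_self] at h6
      exact norm_eq_zero.1 h6
    rw [h5, map_zero]
  · intro z hz
    obtain ⟨hz1, hz2, -⟩ := hτ z hz
    refine ⟨hz.1, ⟨by linarith [hz1.1], by linarith [hz1.2]⟩, ?_⟩
    have h3 : GeoSegx724.seg G z.1 z.2 (τ z) = yv z := by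
      unfold GeoSegx724.seg
      rw [← lg_eq hz.1]
    rw [h3]
    have h4 : inner ℝ (NearLog90.lg (nd G) P.1 (yv z)) P.2 = 0 := hz2
    have h5 : inner ℝ P.2 (NearLog90.lg (nd G) P.1 (yv z)) = 0 := by
      rw [real_inner_comm]; exact h4
    obtain ⟨v, hv⟩ := (range_E hP _).2 h5
    have h6 : E P (Li (NearLog90.lg (nd G) P.1 (yv z))) = NearLog90.lg (nd G) P.1 (yv z) := by
      rw [← hv, hLi']
    change yv z = G.ex P.1 (E P (Li (NearLog90.lg (nd G) P.1 (yv z))))
    rw [h6]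
    exact (e_lg (nd G) (hyd z hz)).symm

end

end Crest.Agent.R231.GMCrossx320
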