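import Crest.Agent.R226.NearLog_90
import Crest.Agent.R226.GeoBasic_616

/-!
# Row 231 (S0357), block GM-GEO (helper320): directions, transversality, closed orbits

* `nd G` : the `NearDiag` (radius `G.r₀ / 2`) of a `GeoData`;
* `dirv G x y` : the unit vector at `x` pointing to `y`; `flow_dir` : the geodesic flow moves
  `(x, dirv x y)` to `(y, - dirv y x)` in time `dist x y`;
* `ph G P y = ⟪log_{P.1} y, P.2⟫` : the height function of the slice orthogonal to `P`;
* `deriv_ph` : along `Q ↦ (t ↦ ph P (ex Q.1 (t • Q.2)))` the derivative is close to `1` near `P`;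
* `near_orbit` : closed orbits near a point of the tangent bundle.
-/

set_option autoImplicit false
set_option linter.unusedSectionVars false

noncomputable section

open MeasureTheory Bundle Set Filter
open scoped Manifold ContDiff Bundle ENNReal Topology
open Crest.GeometryTopology.MTW
open Crest.Agent.R226

namespace Crest.Agent.R231.GMDirx320

open Crest.Agent.R226.NearLog90 Crest.Agent.R226.NearLem90 Crest.Agent.R226.GeoBasic616
open Crest.Agent.R226.TB616

variable {n : ℕ} {M : Type*} [MetricSpace M] [ChartedSpace (EuclideanSpace ℝ (Fin n)) M]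
  [IsManifold (𝓡 n) ∞ M]
  [RiemannianBundle (fun p : M => TangentSpace (𝓡 n) p)]
variable (G : GeoData n M)

/-- the `NearDiag` of a `GeoData` (half the radius) -/
def nd : NearDiag n M where
  r₀ := G.r₀ / 2
  r₀_pos := half_pos G.r₀_pos
  e := G.ex
  smooth := G.smooth.contMDiffOn
  smooth_cost := G.smooth_cost.mono fun q hq => lt_trans hq (half_lt_self G.r₀_pos)
  e_zero := G.ex_zero
  vel_zero := fun x v _ => G.vel_zero x v
  norm_vel := fun x v _ t _ => G.norm_vel x v t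
  dist_eq := by
    intro x v hv s t hs ht
    apply G.dist_eq
    have h1 : |s - t| ≤ 2 := by
      have := abs_sub s t
      linarith
    nlinarith [norm_nonneg v, abs_nonneg (s - t)]
  surj := by
    intro x y _
    obtain ⟨v, hv, hn⟩ := G.surj x y
    exact ⟨v, hn, hv⟩
  inj := fun x v w hv hw h => G.inj x v w (lt_trans hv (half_lt_self G.r₀_pos))
    (lt_trans hw (half_lt_self G.r₀_pos)) h
  hasDerivAt_cost := fun x v ξ hv _ => G.hasDerivAt_cost x v ξ (lt_trans hv (half_lt_self G.r₀_pos))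

theorem nd_e : (nd G).e = G.ex := rfl

theorem nd_r : (nd G).r₀ = G.r₀ / 2 := rfl

/-- the unit vector at `x` pointing to `y` -/
def dirv (x y : M) : TangentSpace (𝓡 n) x := (dist x y)⁻¹ • lg (nd G) x y

/-- the unit vector at `x` pointing to `y`, in the tangent bundle -/
def dirT (x y : M) : TangentBundle (𝓡 n) M := ⟨x, dirv G x y⟩

variable {G}

theorem norm_dirv {x y : M} (h0 : 0 < dist x y) (h : dist x y < G.r₀ / 2) : ‖dirv G x y‖ = 1 := by
  unfold dirv
  rw [norm_smul, norm_lg (nd G) h, norm_inv, Real.norm_of_nonneg h0.le]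
  exact inv_mul_cancel₀ h0.ne'

theorem dist_smul_dirv {x y : M} (h0 : 0 < dist x y) :
    dist x y • dirv G x y = lg (nd G) x y := by
  unfold dirv
  rw [smul_smul, mul_inv_cancel₀ h0.ne', one_smul]

theorem ex_dirv {x y : M} (h0 : 0 < dist x y) (h : dist x y < G.r₀ / 2) :
    G.ex x (dist x y • dirv G x y) = y := by
  rw [dist_smul_dirv h0]
  exact e_lg (nd G) h

theorem flow_one_lg {x y : M} (h : dist x y < G.r₀ / 2) :
    G.Flow 1 ⟨x, lg (nd G) x y⟩ = ⟨y, -lg (nd G) y x⟩ := by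
  have hv : ‖lg (nd G) x y‖ < (nd G).r₀ := by rw [norm_lg (nd G) h]; exact h
  have h1 := lg_reversal (nd G) hv
  have h2 : (nd G).e x ((1 : ℝ) • lg (nd G) x y) = y := by
    rw [one_smul]; exact e_lg (nd G) h
  have h3 : G.Flow 1 ⟨x, lg (nd G) x y⟩ =
      ⟨(nd G).e x ((1 : ℝ) • lg (nd G) x y),
        -lg (nd G) ((nd G).e x ((1 : ℝ) • lg (nd G) x y)) x⟩ := by
    refine tb_ext rfl ?_
    rw [h1, neg_neg]
    rfl
  rw [h3]
  exact congrArg (fun z : M => (⟨z, -lg (nd G) z x⟩ : TangentBundle (𝓡 n) M)) h2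

/-- the geodesic flow moves `(x, dirv x y)` to `(y, - dirv y x)` in time `dist x y` -/
theorem flow_dir {x y : M} (h0 : 0 < dist x y) (h : dist x y < G.r₀ / 2) :
    G.Flow (dist x y) (dirT G x y) = ⟨y, -dirv G y x⟩ := by
  have h1 := Flow_smul G (dist x y) (dist x y)⁻¹ ⟨x, lg (nd G) x y⟩
  rw [inv_mul_cancel₀ h0.ne', flow_one_lg h] at h1
  refine h1.trans ?_
  change (⟨y, (dist x y)⁻¹ • -lg (nd G) y x⟩ : TangentBundle (𝓡 n) M) = _
  unfold dirv
  rw [smul_neg, dist_comm y x]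

/-! ### closed orbits -/

variable (G) in
/-- a closed orbit -/
def IsPer (Q : TangentBundle (𝓡 n) M) : Prop := ∃ T : ℝ, 0 < T ∧ G.Flow T Q = Q

theorem IsPer.flow {Q : TangentBundle (𝓡 n) M} (h : IsPer G Q) (s : ℝ) : IsPer G (G.Flow s Q) := by
  obtain ⟨T, hT, h⟩ := h
  refine ⟨T, hT, ?_⟩
  rw [Flow_add, add_comm, ← Flow_add, h]

theorem isPer_of_flow {Q : TangentBundle (𝓡 n) M} {s : ℝ} (h : IsPer G (G.Flow s Q)) :
    IsPer G Q := by
  have := h.flow (-s)
  rwa [Flow_neg_Flow] at this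

theorem flow_nat_mul {Q : TangentBundle (𝓡 n) M} {T : ℝ} (h : G.Flow T Q = Q) (k : ℕ) :
    G.Flow (k * T) Q = Q := by
  induction k with
  | zero => rw [Nat.cast_zero, zero_mul, Flow_zero]
  | succ k ih =>
    have : ((k + 1 : ℕ) : ℝ) * T = T + k * T := by push_cast; ring
    rw [this, ← Flow_add, h, ih]

theorem flow_int_mul {Q : TangentBundle (𝓡 n) M} {T : ℝ} (h : G.Flow T Q = Q) (k : ℤ) :
    G.Flow (k * T) Q = Q := by
  rcases Int.eq_nat_or_neg k with ⟨m, rfl | rfl⟩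
  · exact_mod_cast flow_nat_mul h m
  · have h2 := flow_nat_mul h m
    have h3 := Flow_neg_Flow G (m * T) Q
    rw [h2] at h3
    have : (((-(m : ℤ)) : ℤ) : ℝ) * T = -(m * T) := by push_cast; ring
    rw [this, h3]

/-- a periodic orbit is covered by one period -/
theorem exists_mem_Icc {Q : TangentBundle (𝓡 n) M} {T : ℝ} (hT : 0 < T) (h : G.Flow T Q = Q)
    (s : ℝ) : ∃ s' ∈ Icc (0 : ℝ) T, G.Flow s Q = G.Flow s' Q := by
  refine ⟨s - ⌊s / T⌋ * T, ⟨?_, ?_⟩, ?_⟩
  · have := Int.floor_le (s / T)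
    have := (le_div_iff₀ hT).1 this
    linarith
  · have := (Int.lt_floor_add_one (s / T)).le
    have := (div_le_iff₀ hT).1 this
    linarith
  · conv_rhs => rw [← flow_int_mul h ⌊s / T⌋, Flow_add]
    congr 1
    ring

section
variable [IsContMDiffRiemannianBundle (𝓡 n) ∞ (EuclideanSpace ℝ (Fin n))
    (fun p : M => TangentSpace (𝓡 n) p)]

/-- Near `P` every point of finitely many closed orbits is a small time shift of `P`. -/
theorem near_orbit (F : Set (TangentBundle (𝓡 n) M)) (hF : F.Finite)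
    (P : TangentBundle (𝓡 n) M) {δ : ℝ} (hδ : 0 < δ) :
    ∀ᶠ Q in 𝓝 P, (∃ P' ∈ F, IsPer G P' ∧ ∃ s, Q = G.Flow s P') →
      ∃ s, |s| < δ ∧ Q = G.Flow s P := by
  classical
  have key : ∀ P' ∈ F, ∀ᶠ Q in 𝓝 P, (IsPer G P' ∧ ∃ s, Q = G.Flow s P') →
      ∃ s, |s| < δ ∧ Q = G.Flow s P := by
    intro P' _
    by_cases hP : IsPer G P'
    · obtain ⟨T, hT, hTP⟩ := hP
      set A : Set ℝ := {s | ∃ r, |r| < δ ∧ G.Flow s P' = G.Flow r P} with hA
      have hAo : IsOpen A := by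
        rw [Metric.isOpen_iff]
        rintro s ⟨r, hr, hs⟩
        refine ⟨δ - |r|, by linarith, ?_⟩
        intro s' hs'
        refine ⟨r + (s' - s), ?_, ?_⟩
        · rw [Metric.mem_ball, Real.dist_eq] at hs'
          have := abs_add_le r (s' - s)
          linarith
        · rw [← Flow_add G (s' - s) r P, ← hs, Flow_add]
          congr 1; ring
      have hK : IsCompact ((fun s => G.Flow s P') '' (Icc 0 T \ A)) := by
        apply IsCompact.image
        · exact isCompact_Icc.diff hAo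
        · exact (continuous_Flow G).comp (continuous_id.prodMk continuous_const)
      have hP0 : P ∉ (fun s => G.Flow s P') '' (Icc 0 T \ A) := by
        rintro ⟨s, ⟨_, hs⟩, hs2⟩
        exact hs ⟨0, by simpa using hδ, by rw [Flow_zero]; exact hs2⟩
      filter_upwards [hK.isClosed.isOpen_compl.mem_nhds hP0] with Q hQ
      rintro ⟨-, s, hs⟩
      obtain ⟨s', hs', h2⟩ := exists_mem_Icc hT hTP s
      by_contra hcon
      apply hQ
      refine ⟨s', ⟨hs', ?_⟩, ?_⟩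
      · rintro ⟨r, hr, hr2⟩
        exact hcon ⟨r, hr, by rw [hs, h2, hr2]⟩
      · rw [hs, h2]
    · exact Eventually.of_forall fun Q h => absurd h.1 hP
  have h2 := (eventually_all_finite hF).2 key
  filter_upwards [h2] with Q hQ
  rintro ⟨P', hP', h3⟩
  exact hQ P' hP' h3

end

section
variable [IsContMDiffRiemannianBundle (𝓡 n) ∞ (EuclideanSpace ℝ (Fin n))
    (fun p : M => TangentSpace (𝓡 n) p)]

/-! ### the height function of a slice -/

variable (G) in
/-- the height function of the slice orthogonal to `P` -/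
def ph (P : TangentBundle (𝓡 n) M) (y : M) : ℝ := inner ℝ (lg (nd G) P.1 y) P.2

theorem contMDiffAt_lg_right {x y : M} (h : dist x y < G.r₀ / 2) :
    ContMDiffAt (𝓡 n) (𝓡 n).tangent ∞
      (fun y' : M => (⟨x, lg (nd G) x y'⟩ : TangentBundle (𝓡 n) M)) y := by
  have h1 := contMDiffAt_lg (nd G) (x := x) (y := y) h
  have h2 : ContMDiffAt (𝓡 n) ((𝓡 n).prod (𝓡 n)) ∞ (fun y' : M => (x, y')) y :=
    contMDiffAt_const.prodMk contMDiffAt_id
  exact h1.comp y h2

theorem contMDiffAt_ph {P : TangentBundle (𝓡 n) M} {y : M} (h : dist P.1 y < G.r₀ / 2) :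
    ContMDiffAt (𝓡 n) 𝓘(ℝ) ∞ (ph G P) y := by
  have h1 := contMDiffAt_lg_right (G := G) h
  have h2 : ContMDiffAt (𝓡 n) (𝓡 n).tangent ∞
      (fun _ : M => (⟨P.1, P.2⟩ : TangentBundle (𝓡 n) M)) y := contMDiffAt_const
  exact ContMDiffAt.inner_bundle (n := ∞) (IB := 𝓡 n) (F := EuclideanSpace ℝ (Fin n))
    (E := fun p : M => TangentSpace (𝓡 n) p) h1 h2

theorem ph_ex {P : TangentBundle (𝓡 n) M} {v : TangentSpace (𝓡 n) P.1} (hv : ‖v‖ < G.r₀ / 2) :
    ph G P (G.ex P.1 v) = inner ℝ v P.2 := by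
  unfold ph
  rw [show lg (nd G) P.1 (G.ex P.1 v) = v from lg_e (nd G) hv]

variable (G) in
/-- the height along the geodesic with initial vector `Q` -/
def phf (P : TangentBundle (𝓡 n) M) (q : TangentBundle (𝓡 n) M × ℝ) : ℝ :=
  ph G P (G.ex q.1.1 (q.2 • q.1.2))

theorem contMDiffAt_phf (P : TangentBundle (𝓡 n) M) {q : TangentBundle (𝓡 n) M × ℝ}
    (h : dist P.1 (G.ex q.1.1 (q.2 • q.1.2)) < G.r₀ / 2) :
    ContMDiffAt ((𝓡 n).tangent.prod 𝓘(ℝ)) 𝓘(ℝ) ∞ (phf G P) q := by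
  have h1 : ContMDiff ((𝓡 n).tangent.prod 𝓘(ℝ)) (𝓡 n) ∞
      (fun q : TangentBundle (𝓡 n) M × ℝ => G.ex q.1.1 (q.2 • q.1.2)) :=
    contMDiff_ex_smul G (f := fun q : TangentBundle (𝓡 n) M × ℝ => q.2)
      (s := fun q : TangentBundle (𝓡 n) M × ℝ => q.1) contMDiff_snd contMDiff_fst
  exact (contMDiffAt_ph h).comp q h1.contMDiffAt

variable (G) in
/-- derivative of the height along a geodesic -/
def dph (P : TangentBundle (𝓡 n) M) (q : TangentBundle (𝓡 n) M × ℝ) : ℝ :=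
  deriv (fun t : ℝ => phf G P (q.1, t)) q.2

theorem hasDerivAt_phf (P : TangentBundle (𝓡 n) M) {q : TangentBundle (𝓡 n) M × ℝ}
    (h : dist P.1 (G.ex q.1.1 (q.2 • q.1.2)) < G.r₀ / 2) :
    HasDerivAt (fun t : ℝ => phf G P (q.1, t)) (dph G P q) q.2 := by
  have h1 : ContMDiffAt 𝓘(ℝ) ((𝓡 n).tangent.prod 𝓘(ℝ)) ∞
      (fun t : ℝ => ((q.1, t) : TangentBundle (𝓡 n) M × ℝ)) q.2 :=
    contMDiffAt_const.prodMk contMDiffAt_id
  have h2 := (contMDiffAt_phf (G := G) P h).comp q.2 h1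
  have h3 := (contMDiffAt_iff_contDiffAt.1 h2).differentiableAt (by simp)
  exact h3.hasDerivAt

theorem continuousAt_dph (P : TangentBundle (𝓡 n) M) {q : TangentBundle (𝓡 n) M × ℝ}
    (h : dist P.1 (G.ex q.1.1 (q.2 • q.1.2)) < G.r₀ / 2) :
    ContinuousAt (dph G P) q := by
  have h1 : ContMDiffAt (((𝓡 n).tangent.prod 𝓘(ℝ)).prod 𝓘(ℝ)) 𝓘(ℝ) 1
      (Function.uncurry (fun (z : TangentBundle (𝓡 n) M × ℝ) (t : ℝ) => phf G P (z.1, t)))
      (q, q.2) := by
    have h2 : ContMDiffAt (((𝓡 n).tangent.prod 𝓘(ℝ)).prod 𝓘(ℝ)) ((𝓡 n).tangent.prod 𝓘(ℝ)) ∞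
        (fun w : (TangentBundle (𝓡 n) M × ℝ) × ℝ =>
          ((w.1.1, w.2) : TangentBundle (𝓡 n) M × ℝ)) (q, q.2) :=
      (contMDiffAt_fst.comp _ contMDiffAt_fst).prodMk contMDiffAt_snd
    have h3 : ContMDiffAt ((𝓡 n).tangent.prod 𝓘(ℝ)) 𝓘(ℝ) ∞ (phf G P) (q.1, q.2) :=
      contMDiffAt_phf P h
    exact (h3.comp (q, q.2) h2).of_le (by simp)
  have h4 := ContMDiffAt.mfderiv (m := 0) (fun (z : TangentBundle (𝓡 n) M × ℝ) (t : ℝ) =>
    phf G P (z.1, t)) (fun z : TangentBundle (𝓡 n) M × ℝ => z.2) h1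
    (contMDiffAt_snd (I := (𝓡 n).tangent)) (by simp)
  have h7 := inTangentCoordinates_model_space (I := 𝓘(ℝ, ℝ)) (I' := 𝓘(ℝ, ℝ))
    (fun z : TangentBundle (𝓡 n) M × ℝ => z.2)
    (fun z : TangentBundle (𝓡 n) M × ℝ => phf G P (z.1, z.2))
    (fun z : TangentBundle (𝓡 n) M × ℝ =>
      (show ℝ →L[ℝ] ℝ from mfderiv 𝓘(ℝ, ℝ) 𝓘(ℝ, ℝ) (fun t : ℝ => phf G P (z.1, t)) z.2)) q
  have h5 : ContinuousAt (fun z : TangentBundle (𝓡 n) M × ℝ =>
      (show ℝ →L[ℝ] ℝ from mfderiv 𝓘(ℝ, ℝ) 𝓘(ℝ, ℝ) (fun t : ℝ => phf G P (z.1, t)) z.2)) q := by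
    rw [← h7]
    exact h4.continuousAt
  have h6 := h5.clm_apply (continuousAt_const (y := (1 : ℝ)))
  refine h6.congr (Eventually.of_forall fun z => ?_)
  change (mfderiv 𝓘(ℝ, ℝ) 𝓘(ℝ, ℝ) (fun t : ℝ => phf G P (z.1, t)) z.2) (1 : ℝ) = _
  rw [mfderiv_eq_fderiv]
  rfl

/-- the derivative of the height along geodesics close to `P` is close to `1` -/
theorem dph_self {P : TangentBundle (𝓡 n) M} (hP : ‖P.2‖ = 1) : dph G P (P, 0) = 1 := by
  have h1 : (fun t : ℝ => phf G P (P, t)) =ᶠ[𝓝 0] fun t => t := by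
    have : ∀ᶠ t : ℝ in 𝓝 0, |t| < G.r₀ / 2 := by
      have h := (continuous_abs.tendsto (0 : ℝ))
      rw [abs_zero] at h
      exact h.eventually_lt_const (half_pos G.r₀_pos)
    filter_upwards [this] with t ht
    change ph G P (G.ex P.1 (t • P.2)) = t
    rw [ph_ex (by rw [norm_smul, hP, mul_one]; exact ht), inner_smul_left,
      real_inner_self_eq_norm_sq, hP]
    simp
  change deriv (fun t : ℝ => phf G P (P, t)) 0 = 1
  rw [h1.deriv_eq]
  simp

theorem eventually_dph {P : TangentBundle (𝓡 n) M} (hP : ‖P.2‖ = 1) {a : ℝ} (ha : a < 1) :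
    ∀ᶠ q in 𝓝 ((P, 0) : TangentBundle (𝓡 n) M × ℝ), a < dph G P q := by
  have h : dist P.1 (G.ex P.1 ((0 : ℝ) • P.2)) < G.r₀ / 2 := by
    rw [zero_smul, G.ex_zero, dist_self]; exact half_pos G.r₀_pos
  have h1 := continuousAt_dph (G := G) P (q := (P, 0)) h
  have h2 : a < dph G P (P, 0) := by rw [dph_self hP]; exact ha
  exact h1.eventually (lt_mem_nhds h2)

end

end Crest.Agent.R231.GMDirx320
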