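import Crest.Agent.R231.Pair_877

/-!
# Row 231 (helper226): natural subdivision operators on chains with support

`SubOp E` : a pair of operators `S T : CE E → CE E` with `S` a chain map, `z + S z = bd T z + T bd z`,
both preserving `CS A` for EVERY subset `A`.
`exists_small_op` : for a finite set of chains `c ∈ CS X` and sets `U i` covering `X` (in the sense of
neighbourhoods within `X`) there is such a pair with `S c ∈ ⨆ i, CS (X ∩ U i)` for all these chains.
-/

set_option autoImplicit false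

noncomputable section

namespace Crest.Agent.R231.SmallCSx226

open Crest.Agent.R204 Crest.Agent.R204.Exc406 Crest.Agent.R231.Pairx877 Function Topology
  SingAct265 EZ271

variable {E E' : Type} [TopologicalSpace E] [TopologicalSpace E']

theorem add_self' {M : Type*} [AddCommGroup M] [Module F2 M] (x : M) : x + x = 0 := by
  have h : (2 : F2) • x = 0 := by
    have : (2 : F2) = 0 := by decide
    rw [this, zero_smul]
  rwa [two_smul] at h

theorem sub_eq' {M : Type*} [AddCommGroup M] [Module F2 M] (x y : M) : x - y = x + y := by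
  rw [sub_eq_add_neg, neg_eq_of_add_eq_zero_left (add_self' y)]

/-- a natural subdivision operator with its homotopy -/
structure SubOp (E : Type) [TopologicalSpace E] where
  S : CE E →ₗ[F2] CE E
  T : CE E →ₗ[F2] CE E
  bd_S : ∀ z, bdE E (S z) = S (bdE E z)
  htp : ∀ z, z + S z = bdE E (T z) + T (bdE E z)
  S_mem : ∀ (A : Set E), ∀ c ∈ CS A, S c ∈ CS A
  T_mem : ∀ (A : Set E), ∀ c ∈ CS A, T c ∈ CS A

theorem TtN_map {L M : TK} (F : TK.Hom L M) (c : N F2 L.K) :
    TtN M (N.map F2 F.hom c) = N.map F2 F.hom (TtN L c) := by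
  obtain ⟨c, rfl⟩ := Submodule.Quotient.mk_surjective _ c
  rw [N.map_mk, TtN_mk, TtN_mk, N.map_mk, Tt, NatOp.op_map]
  rfl

/-- the basic subdivision -/
def sdE (E : Type) [TopologicalSpace E] : CE E →ₗ[F2] CE E := SdN (TSing E)

/-- the basic homotopy -/
def ttE (E : Type) [TopologicalSpace E] : CE E →ₗ[F2] CE E := TtN (TSing E)

theorem bd_sdE (z : CE E) : bdE E (sdE E z) = sdE E (bdE E z) := bd_SdN (TSing E) z

theorem htp_sdE (z : CE E) : z + sdE E z = bdE E (ttE E z) + ttE E (bdE E z) := by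
  have h : bdE E (ttE E z) = z - ttE E (bdE E z) - sdE E z := bd_TtN (TSing E) z
  rw [h, sub_eq', sub_eq']
  have h2 := add_self' (ttE E (bdE E z))
  calc z + sdE E z = z + (ttE E (bdE E z) + ttE E (bdE E z)) + sdE E z := by rw [h2, add_zero]
    _ = _ := by abel

theorem sdE_map (f : C(E, E')) (c : CE E) :
    sdE E' (N.map F2 (SS.SingMap f) c) = N.map F2 (SS.SingMap f) (sdE E c) :=
  SdN_map (TSingMap f) c

theorem ttE_map (f : C(E, E')) (c : CE E) :
    ttE E' (N.map F2 (SS.SingMap f) c) = N.map F2 (SS.SingMap f) (ttE E c) :=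
  TtN_map (TSingMap f) c

theorem sdE_mem (A : Set E) (c : CE E) (hc : c ∈ CS A) : sdE E c ∈ CS A := by
  rw [CS_eq_range] at hc ⊢
  obtain ⟨c, rfl⟩ := hc
  exact ⟨sdE A c, (sdE_map _ c).symm⟩

theorem ttE_mem (A : Set E) (c : CE E) (hc : c ∈ CS A) : ttE E c ∈ CS A := by
  rw [CS_eq_range] at hc ⊢
  obtain ⟨c, rfl⟩ := hc
  exact ⟨ttE A c, (ttE_map _ c).symm⟩

/-- iterates -/
def sdOp (E : Type) [TopologicalSpace E] : ℕ → SubOp E
  | 0 => ⟨LinearMap.id, 0, fun _ => rfl, fun z => by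
      rw [LinearMap.zero_apply, LinearMap.zero_apply, map_zero, add_zero]
      exact add_self' z, fun _ _ h => h, fun _ _ _ => Submodule.zero_mem _⟩
  | k + 1 =>
    { S := sdE E ∘ₗ (sdOp E k).S
      T := (sdOp E k).T + ttE E ∘ₗ (sdOp E k).S
      bd_S := fun z => by
        rw [LinearMap.comp_apply, LinearMap.comp_apply, bd_sdE, (sdOp E k).bd_S]
      htp := fun z => by
        have h1 := (sdOp E k).htp z
        have h2 := htp_sdE ((sdOp E k).S z)
        rw [(sdOp E k).bd_S] at h2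
        rw [LinearMap.comp_apply, LinearMap.add_apply, LinearMap.add_apply, LinearMap.comp_apply,
          LinearMap.comp_apply, map_add]
        have h3 := add_self' ((sdOp E k).S z)
        calc z + sdE E ((sdOp E k).S z)
            = (z + (sdOp E k).S z) + ((sdOp E k).S z + sdE E ((sdOp E k).S z)) := by
              rw [add_assoc, ← add_assoc ((sdOp E k).S z), h3, zero_add]
          _ = _ := by rw [h1, h2]; abel
      S_mem := fun A c hc => sdE_mem A _ ((sdOp E k).S_mem A c hc)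
      T_mem := fun A c hc => Submodule.add_mem _ ((sdOp E k).T_mem A c hc)
        (ttE_mem A _ ((sdOp E k).S_mem A c hc)) }

theorem sdOp_S (k : ℕ) (c : CE E) : (sdOp E k).S c = (SdN (TSing E))^[k] c := by
  induction k with
  | zero => rfl
  | succ k ih =>
    show sdE E ((sdOp E k).S c) = _
    rw [ih]
    exact (Function.iterate_succ_apply' (SdN (TSing E)) k c).symm

theorem sdOp_map (f : C(E, E')) (k : ℕ) (c : CE E) :
    (sdOp E' k).S (N.map F2 (SS.SingMap f) c) = N.map F2 (SS.SingMap f) ((sdOp E k).S c) := by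
  induction k with
  | zero => rfl
  | succ k ih =>
    show sdE E' ((sdOp E' k).S _) = N.map F2 (SS.SingMap f) (sdE E ((sdOp E k).S c))
    rw [ih, sdE_map]

theorem sdOp_T_map (f : C(E, E')) (k : ℕ) (c : CE E) :
    (sdOp E' k).T (N.map F2 (SS.SingMap f) c) = N.map F2 (SS.SingMap f) ((sdOp E k).T c) := by
  induction k with
  | zero => show (0 : CE E') = N.map F2 (SS.SingMap f) (0 : CE E); rw [map_zero]
  | succ k ih =>
    show (sdOp E' k).T _ + ttE E' ((sdOp E' k).S _) =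
      N.map F2 (SS.SingMap f) ((sdOp E k).T c + ttE E ((sdOp E k).S c))
    rw [ih, sdOp_map, ttE_map, map_add]

/-- a chain of `X` becomes small after finitely many subdivisions -/
theorem exists_small_CS {X : Set E} {ι : Sort*} (U : ι → Set E)
    (h : ∀ x ∈ X, ∃ i, U i ∈ 𝓝[X] x) (c : CE E) (hc : c ∈ CS X) :
    ∃ k₀, ∀ k, k₀ ≤ k → (sdOp E k).S c ∈ ⨆ i, CS (X ∩ U i) := by
  rw [CS_eq_range] at hc
  obtain ⟨c, rfl⟩ := hc
  set 𝒰 : Set (Set X) := Set.range (fun i => (Subtype.val ⁻¹' (U i) : Set X)) with h𝒰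
  have hd : Dense (TSing X) (cov 𝒰) := by
    refine cov_dense 𝒰 fun x => ?_
    obtain ⟨i, hi⟩ := h x.1 x.2
    refine ⟨_, ⟨i, rfl⟩, ?_⟩
    exact preimage_coe_mem_nhds_subtype.2 hi
  obtain ⟨k₀, hk⟩ := exists_small (R := F2) (TSing X) (cov 𝒰) hd c
  refine ⟨k₀, fun k hk' => ?_⟩
  rw [sdOp_map, sdOp_S]
  obtain ⟨c', hc'⟩ := hk k hk'
  let i₁ : SS.Hom (cov 𝒰).tk.K (SS.Sing X) := (cov 𝒰).incl.hom
  have h1 : N.map F2 i₁ c' = (SdN (TSing X))^[k] c := hc'
  rw [← h1, ← N_map_comp]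
  refine Exc406.N_induction (p := (⨆ i, CS (X ∩ U i)).comap
    (N.map F2 ((SS.SingMap (SpecA.inc X)).comp i₁))) ?_ c'
  intro n x
  obtain ⟨W, ⟨i, hi⟩, hσ⟩ := x.2
  have e : N.map F2 ((SS.SingMap (SpecA.inc X)).comp i₁) (N.sx F2 x) =
    N.sx F2 (((SS.SingMap (SpecA.inc X)).comp i₁).app n x) := N.map_sx _ _
  refine (Submodule.mem_comap).2 ?_
  rw [e]
  refine Submodule.mem_iSup_of_mem i (sx_mem_CS fun t => ⟨?_, ?_⟩)
  · exact ((show C(D n, X) from x.1) t).2
  · have := hσ t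
    rw [← hi] at this
    exact this

/-- **small chains**: one operator for finitely many chains and covers -/
theorem exists_op {κ : Type*} (s : Finset κ) (X : κ → Set E) {ι : κ → Sort*}
    (U : ∀ a, ι a → Set E) (h : ∀ a ∈ s, ∀ x ∈ X a, ∃ i, U a i ∈ 𝓝[X a] x) (c : κ → CE E)
    (hc : ∀ a ∈ s, c a ∈ CS (X a)) :
    ∃ O : SubOp E, ∀ a ∈ s, O.S (c a) ∈ ⨆ i, CS (X a ∩ U a i) := by
  classical
  have : ∀ a, ∃ k₀, a ∈ s → ∀ k, k₀ ≤ k → (sdOp E k).S (c a) ∈ ⨆ i, CS (X a ∩ U a i) := by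
    intro a
    by_cases ha : a ∈ s
    · obtain ⟨k₀, hk⟩ := exists_small_CS (U a) (h a ha) (c a) (hc a ha)
      exact ⟨k₀, fun _ => hk⟩
    · exact ⟨0, fun h => (ha h).elim⟩
  choose k₀ hk₀ using this
  refine ⟨sdOp E (s.sup k₀), fun a ha => hk₀ a ha _ (Finset.le_sup ha)⟩

theorem exists_op_one {X : Set E} {ι : Sort*} (U : ι → Set E)
    (h : ∀ x ∈ X, ∃ i, U i ∈ 𝓝[X] x) {c : CE E} (hc : c ∈ CS X) :
    ∃ O : SubOp E, O.S c ∈ ⨆ i, CS (X ∩ U i) := by
  obtain ⟨k₀, hk⟩ := exists_small_CS U h c hc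
  exact ⟨sdOp E k₀, hk k₀ le_rfl⟩

/-- two sets -/
theorem exists_op_two {X W V : Set E} (h : ∀ x ∈ X, W ∈ 𝓝[X] x ∨ V ∈ 𝓝[X] x) {c : CE E}
    (hc : c ∈ CS X) : ∃ O : SubOp E, ∃ c₁ ∈ CS (X ∩ W), ∃ c₂ ∈ CS (X ∩ V), O.S c = c₁ + c₂ := by
  obtain ⟨O, hO⟩ := exists_op_one (X := X) (fun b : Bool => bif b then W else V)
    (fun x hx => by
      rcases h x hx with h | h
      · exact ⟨true, h⟩
      · exact ⟨false, h⟩) hc
  rw [iSup_bool_eq, Submodule.mem_sup] at hO
  obtain ⟨c₁, h₁, c₂, h₂, h₃⟩ := hO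
  exact ⟨O, c₁, h₁, c₂, h₂, h₃.symm⟩

end Crest.Agent.R231.SmallCSx226
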