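import Crest.Agent.R231.Smith_566
import Crest.Agent.R231.Pair_877

/-!
# Row 231, block H/R (helper566): small chains for a family of subsets of a subset of an ambient space

* `cs_In_eq_CS : cs (In X) = CS X` (helper877's `CS`), `cs_InC_eq : cs (InC 𝒰) = ⨆ U ∈ 𝒰, CS U`
* `cs_inf`, `CS_inf : CS S ⊓ CS T = CS (S ∩ T)`
* `small_acyc_sub` : small chains theorem, degreewise relative acyclicity, arbitrary family
* `small_acyc_pair` : the family `{S, T}`, `X = S ∪ T`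
-/

set_option autoImplicit false

noncomputable section

namespace Crest.Agent.R231.Smx566

open Crest.Agent.R204 Crest.Agent.R204.Exc406 Function Topology Finsupp
open Crest.Agent.R231.Pairx877

theorem cs_inf {K : SS} (P Q : ∀ n, K.S n → Prop) : cs P ⊓ cs Q = cs (fun n x => P n x ∧ Q n x) := by
  apply le_antisymm
  · rintro c ⟨h1, h2⟩
    rw [← Smx566.res_of_mem h1]
    have : cs Q ≤ (cs (fun n x => P n x ∧ Q n x)).comap (Smx566.res P) := by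
      refine cs_le fun n x hx => ?_
      rw [Submodule.mem_comap, Smx566.res_sx]
      split_ifs with h
      · exact sx_mem_cs ⟨h, hx⟩
      · exact Submodule.zero_mem _
    exact this h2
  · exact le_inf (cs_mono fun n x h => h.1) (cs_mono fun n x h => h.2)

section top

variable {E : Type} [TopologicalSpace E]

theorem cs_In_eq_CS (X : Set E) : cs (In X) = CS X :=
  le_antisymm (cs_le fun _ _ h => sx_mem_CS h) (CS_le fun _ _ h => sx_mem_cs h)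

theorem CS_inf (S T : Set E) : CS S ⊓ CS T = CS (S ∩ T) := by
  rw [← cs_In_eq_CS, ← cs_In_eq_CS, ← cs_In_eq_CS, cs_inf]
  exact cs_congr fun n x => ⟨fun h t => ⟨h.1 t, h.2 t⟩, fun h => ⟨fun t => (h t).1, fun t => (h t).2⟩⟩

theorem cs_InC_eq (𝒰 : Set (Set E)) : cs (InC 𝒰) = ⨆ U ∈ 𝒰, CS U := by
  apply le_antisymm
  · refine cs_le fun n σ h => ?_
    obtain ⟨U, hU, h⟩ := h
    exact (le_iSup₂ (f := fun U (_ : U ∈ 𝒰) => CS U) U hU) (sx_mem_CS h)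
  · refine iSup₂_le fun U hU => ?_
    rw [← cs_In_eq_CS]
    exact cs_mono fun n x h => ⟨U, hU, h⟩

theorem cs_InC_pair (S T : Set E) : cs (InC {S, T}) = CS S ⊔ CS T := by
  rw [cs_InC_eq, iSup_pair]

/-- the family of preimages -/
def famPre (X : Set E) (𝒰 : Set (Set E)) : Set (Set X) :=
  (fun U => (Subtype.val ⁻¹' U : Set X)) '' 𝒰

theorem cs_InC_eq_map {X : Set E} {𝒰 : Set (Set E)} (h𝒰 : ∀ U ∈ 𝒰, U ⊆ X) :
    cs (InC 𝒰) = (cs (InC (famPre X 𝒰))).map (N.map F2 (SS.SingMap (inc X))) := by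
  apply le_antisymm
  · refine cs_le fun n σ h => ?_
    obtain ⟨U, hU, h⟩ := h
    obtain ⟨τ, rfl⟩ := exists_lift σ (fun t => h𝒰 U hU (h t))
    exact ⟨N.sx F2 τ, sx_mem_cs ⟨_, ⟨U, hU, rfl⟩, h⟩, N.map_sx _ _⟩
  · rintro _ ⟨c, hc, rfl⟩
    refine map_mem_cs _ (fun n x h => ?_) hc
    obtain ⟨_, ⟨U, hU, rfl⟩, h⟩ := h
    exact ⟨U, hU, h⟩

/-- **small chains**, degreewise relative acyclicity, arbitrary family of subsets of `X` whose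
relative interiors cover `X` -/
theorem small_acyc_sub (X : Set E) (𝒰 : Set (Set E)) (h𝒰 : ∀ U ∈ 𝒰, U ⊆ X)
    (h : ∀ x ∈ X, ∃ U ∈ 𝒰, U ∈ 𝓝[X] x) (j : ℕ) (c : N F2 (SS.Sing E))
    (hc : c ∈ N.gr F2 (SS.Sing E) j) (hcX : c ∈ CS X)
    (hd : N.bd F2 _ c ∈ ⨆ U ∈ 𝒰, CS U) :
    ∃ y ∈ N.gr F2 (SS.Sing E) (j + 1), y ∈ CS X ∧ c - N.bd F2 _ y ∈ ⨆ U ∈ 𝒰, CS U := by
  rw [← cs_InC_eq] at hd ⊢
  have hbd : ∀ c, N.map F2 (SS.SingMap (inc X)) (N.bd F2 _ c) =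
      N.bd F2 _ (N.map F2 (SS.SingMap (inc X)) c) :=
    fun c => LinearMap.congr_fun (N.map_bd (R := F2) (SS.SingMap (inc X))) c
  rw [← cs_In_eq_CS, cs_In_eq_range] at hcX
  obtain ⟨c, rfl⟩ := hcX
  have hc0 := mem_gr_of_map _ (map_inc_inj X) hc
  rw [cs_InC_eq_map h𝒰] at hd ⊢
  obtain ⟨b, hb, hbe⟩ := hd
  have hb' : b = N.bd F2 _ c := map_inc_inj X (by rw [hbe, hbd])
  obtain ⟨y, hy, hxy⟩ := small_acyc (famPre X 𝒰) (fun x => by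
    obtain ⟨U, hU, hx⟩ := h x.1 x.2
    refine ⟨_, ⟨U, hU, rfl⟩, ?_⟩
    exact preimage_coe_mem_nhds_subtype.2 hx) j c hc0 (hb' ▸ hb)
  refine ⟨N.map F2 (SS.SingMap (inc X)) y, map_mem_gr _ hy, ?_, _, hxy, ?_⟩
  · rw [← cs_In_eq_CS, cs_In_eq_range]
    exact ⟨_, rfl⟩
  · rw [map_sub, hbd]

/-- small chains for `X = S ∪ T` -/
theorem small_acyc_pair (S T : Set E) (h : ∀ x ∈ S ∪ T, S ∈ 𝓝[S ∪ T] x ∨ T ∈ 𝓝[S ∪ T] x) (j : ℕ)
    (c : N F2 (SS.Sing E)) (hc : c ∈ N.gr F2 (SS.Sing E) j) (hcX : c ∈ CS (S ∪ T))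
    (hd : N.bd F2 _ c ∈ CS S ⊔ CS T) :
    ∃ y ∈ N.gr F2 (SS.Sing E) (j + 1), y ∈ CS (S ∪ T) ∧ c - N.bd F2 _ y ∈ CS S ⊔ CS T := by
  have e : CS S ⊔ CS T = ⨆ U ∈ ({S, T} : Set (Set E)), CS U := by rw [iSup_pair]
  rw [e] at hd ⊢
  refine small_acyc_sub (S ∪ T) {S, T} ?_ ?_ j c hc hcX hd
  · rintro U (rfl | rfl)
    · exact Set.subset_union_left
    · exact Set.subset_union_right
  · intro x hx
    rcases h x hx with h | h
    · exact ⟨S, Or.inl rfl, h⟩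
    · exact ⟨T, Or.inr rfl, h⟩

/-- **Smith localisation** with `CS` -/
theorem smith_CS (γ : C(E, E)) (X V : Set E) (hγX : ∀ x ∈ X, γ x ∈ X)
    (hγ : ∀ x ∈ X, γ (γ x) = x) (hVX : V ⊆ X) (hVo : ∃ O : Set E, IsOpen O ∧ V = X ∩ O)
    (hV : ∀ x ∈ V, γ x ∈ V) (S : Finset (Set E)) (hSo : ∀ U ∈ S, IsOpen U)
    (hS : ∀ U ∈ S, ∀ x ∈ X, x ∈ U → γ x ∉ U)
    (hcov : ∀ x ∈ X, x ∈ V ∨ ∃ U ∈ S, x ∈ U ∨ γ x ∈ U) :
    RA (DD (N.bd F2 (SS.Sing E)) (LinearMap.id + N.map F2 (SS.SingMap γ)))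
      (PP (N.gr F2 (SS.Sing E)) (CS V)) (PP (N.gr F2 (SS.Sing E)) (CS X)) := by
  rw [← cs_In_eq_CS, ← cs_In_eq_CS]
  exact smith_ra_sub γ X V hγX hγ hVX hVo hV S hSo hS hcov

end top

end Crest.Agent.R231.Smx566
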