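import Crest.Agent.R231.GMDefs_898
import Crest.Agent.R231.PairH_877
import Crest.Agent.R231.Small_566
import Crest.Agent.R231.SmallCS_226

/-!
# Row 231, block GM (helper537): calculus of the semilocal rank bound `SR X A K C` (helper898)

* `SR.mono`, `SR.exists_sub`, `SR.empty`
* `SR.dom` : domination (one composite homotopic to the identity)
* `SR.union` : Mayer-Vietoris, `SR (K₁ ∪ K₂) ≤ SR K₁ + SR K₂ + SR (K₁ ∩ K₂)`
* `SR.union_disj` : disjoint closed sets add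
-/

set_option autoImplicit false

noncomputable section

open Topology Set

namespace Crest.Agent.R231.GM898

open Crest.Agent.R204 Crest.Agent.R231.Pairx877 Crest.Agent.R231.Smx566
  Crest.Agent.R231.SmallCSx226

variable {E E' : Type} [TopologicalSpace E] [TopologicalSpace E']

theorem RkLE.sup_right {M : Type*} [AddCommGroup M] [Module (ZMod 2) M]
    {Z B : Submodule (ZMod 2) M} {C : ℕ} (h : RkLE Z B C) : RkLE (Z ⊔ B) B C := by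
  obtain ⟨w, hw⟩ := h
  exact ⟨w, sup_le hw le_sup_right⟩

/-- transport: `ψ ∘ φ` is the identity modulo `B` -/
theorem RkLE.transport {M M' : Type*} [AddCommGroup M] [Module (ZMod 2) M] [AddCommGroup M']
    [Module (ZMod 2) M'] {Z B : Submodule (ZMod 2) M} {Z' B' : Submodule (ZMod 2) M'} {C : ℕ}
    (h : RkLE Z' B' C) (φ : M →ₗ[ZMod 2] M') (ψ : M' →ₗ[ZMod 2] M) (hφ : ∀ z ∈ Z, φ z ∈ Z')
    (hψ : ∀ b ∈ B', ψ b ∈ B) (hid : ∀ z ∈ Z, z - ψ (φ z) ∈ B) : RkLE Z B C := by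
  obtain ⟨w, hw⟩ := h
  refine ⟨fun i => ψ (w i), fun z hz => ?_⟩
  obtain ⟨a, ha, b, hb, hab⟩ := Submodule.mem_sup.1 (hw (hφ z hz))
  have h1 : ψ a ∈ Submodule.span (ZMod 2) (Set.range fun i => ψ (w i)) := by
    have : (Set.range fun i => ψ (w i)) = ψ '' Set.range w := by
      rw [← Set.range_comp]; rfl
    rw [this, ← Submodule.map_span]
    exact ⟨a, ha, rfl⟩
  refine Submodule.mem_sup.2 ⟨ψ a, h1, ψ b + (z - ψ (φ z)), B.add_mem (hψ b hb) (hid z hz), ?_⟩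
  rw [← hab, map_add]; abel

theorem SR.exists_sub {X A K : Set E} {C : ℕ} (h : SR X A K C) {U' N : Set E} (hU' : IsOpen U')
    (hK : K ⊆ U') (hN : IsOpen N) (hKN : K ⊆ N) :
    ∃ U, IsOpen U ∧ K ⊆ U ∧ U ⊆ U' ∧ U ⊆ N ∧
      RkP (U ∩ X) (U ∩ X ∩ A) (U' ∩ X) (U' ∩ X ∩ A) C := by
  obtain ⟨U, hU, hKU, hUU, hr⟩ := h U' hU' hK
  refine ⟨U ∩ N, hU.inter hN, subset_inter hKU hKN, fun x hx => hUU hx.1, inter_subset_right, ?_⟩
  exact hr.mono (inter_subset_inter_left _ inter_subset_left)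
    (inter_subset_inter_left _ (inter_subset_inter_left _ inter_subset_left)) le_rfl le_rfl le_rfl

theorem SR.mono {X A K : Set E} {C C' : ℕ} (h : SR X A K C) (hC : C ≤ C') : SR X A K C' := by
  intro U' hU' hK
  obtain ⟨U, hU, hKU, hUU, hr⟩ := h U' hU' hK
  exact ⟨U, hU, hKU, hUU, hr.mono le_rfl le_rfl le_rfl le_rfl hC⟩

theorem SR.empty (X A : Set E) : SR X A ∅ 0 := by
  intro U' _ _
  refine ⟨∅, isOpen_empty, le_rfl, empty_subset _, rkLE_zero ?_ 0⟩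
  rw [empty_inter, empty_inter]
  intro c hc
  have : c ∈ CS (∅ : Set E) := hc.1
  rw [CS_empty, Submodule.mem_bot] at this
  rw [this]; exact Submodule.zero_mem _

/-- a map continuous on `N ∩ X`, `K ⊆ X`, with values in an open set on `K` -/
theorem exists_open_of_contOn {N X K : Set E} {f : E → E'} (hf : ContinuousOn f (N ∩ X))
    (hN : IsOpen N) (hKN : K ⊆ N) (hKX : K ⊆ X) {W : Set E'} (hW : IsOpen W) (hKW : MapsTo f K W) :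
    ∃ O, IsOpen O ∧ K ⊆ O ∧ O ⊆ N ∧ MapsTo f (O ∩ X) W := by
  obtain ⟨G, hG, hGe⟩ := continuousOn_iff'.1 hf W hW
  refine ⟨G ∩ N, hG.inter hN, fun x hx => ⟨?_, hKN hx⟩, inter_subset_right, ?_⟩
  · have : x ∈ f ⁻¹' W ∩ (N ∩ X) := ⟨hKW hx, hKN hx, hKX hx⟩
    rw [hGe] at this
    exact this.1
  · rintro x ⟨⟨hx1, hx2⟩, hx3⟩
    have : x ∈ G ∩ (N ∩ X) := ⟨hx1, hx2, hx3⟩
    rw [← hGe] at this
    exact this.1

/-- tube lemma for a homotopy -/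
theorem exists_open_of_tube {N X K : Set E} {h : E → ℝ → E'}
    (hh : ContinuousOn (fun p : E × ℝ => h p.1 p.2) ((N ∩ X) ×ˢ Icc (0 : ℝ) 1))
    (hN : IsOpen N) (hKN : K ⊆ N) (hKX : K ⊆ X) {W : Set E'} (hW : IsOpen W)
    (hKW : ∀ x ∈ K, ∀ t ∈ Icc (0 : ℝ) 1, h x t ∈ W) :
    ∃ O, IsOpen O ∧ K ⊆ O ∧ O ⊆ N ∧ ∀ x ∈ O ∩ X, ∀ t ∈ Icc (0 : ℝ) 1, h x t ∈ W := by
  obtain ⟨G, hG, hGe⟩ := continuousOn_iff'.1 hh W hW
  have key : ∀ x ∈ K, ∃ O : Set E, IsOpen O ∧ x ∈ O ∧ O ×ˢ Icc (0 : ℝ) 1 ⊆ G := by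
    intro x hx
    obtain ⟨u, v, hu, _, hxu, hv, huv⟩ := generalized_tube_lemma (s := {x}) isCompact_singleton
      (t := Icc (0 : ℝ) 1) isCompact_Icc hG (by
        rintro ⟨y, t⟩ ⟨hy, ht⟩
        rw [mem_singleton_iff] at hy
        simp only at hy ht
        subst hy
        have : (y, t) ∈ (fun p : E × ℝ => h p.1 p.2) ⁻¹' W ∩ ((N ∩ X) ×ˢ Icc (0 : ℝ) 1) :=
          ⟨hKW y hx t ht, ⟨hKN hx, hKX hx⟩, ht⟩
        rw [hGe] at this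
        exact this.1)
    exact ⟨u, hu, hxu rfl, (prod_mono le_rfl hv).trans huv⟩
  choose! O hO1 hO2 hO3 using key
  refine ⟨(⋃ x ∈ K, O x) ∩ N, (isOpen_biUnion hO1).inter hN, fun x hx =>
    ⟨mem_biUnion hx (hO2 x hx), hKN hx⟩, inter_subset_right, ?_⟩
  rintro x ⟨⟨hx1, hx2⟩, hx3⟩ t ht
  obtain ⟨y, hy, hxy⟩ := mem_iUnion₂.1 hx1
  have h1 : (x, t) ∈ G ∩ ((N ∩ X) ×ˢ Icc (0 : ℝ) 1) := ⟨hO3 y hy ⟨hxy, ht⟩, ⟨hx2, hx3⟩, ht⟩
  rw [← hGe] at h1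
  exact h1.1

/-- **domination** -/
theorem SR.dom {X A K : Set E} {X' A' K' : Set E'} {C : ℕ} (hSR : SR X' A' K' C)
    (hKX : K ⊆ X) (hKX' : K' ⊆ X')
    {N : Set E} (hN : IsOpen N) (hKN : K ⊆ N) {N' : Set E'} (hN' : IsOpen N') (hKN' : K' ⊆ N')
    (φ : E → E') (hφ : ContinuousOn φ (N ∩ X)) (hφK : MapsTo φ K K')
    (hφX : MapsTo φ (N ∩ X) X') (hφA : ∀ x ∈ N ∩ X, x ∈ A → φ x ∈ A')
    (ψ : E' → E) (hψ : ContinuousOn ψ (N' ∩ X')) (hψK : MapsTo ψ K' K)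
    (hψX : MapsTo ψ (N' ∩ X') X) (hψA : ∀ x ∈ N' ∩ X', x ∈ A' → ψ x ∈ A)
    (h : E → ℝ → E) (hh : ContinuousOn (fun p : E × ℝ => h p.1 p.2) ((N ∩ X) ×ˢ Icc (0 : ℝ) 1))
    (hhK : ∀ x ∈ K, ∀ t ∈ Icc (0 : ℝ) 1, h x t ∈ K)
    (h0 : ∀ x ∈ N ∩ X, h x 0 = x) (h1 : ∀ x ∈ N ∩ X, φ x ∈ N' → h x 1 = ψ (φ x))
    (hX : ∀ x ∈ N ∩ X, ∀ t ∈ Icc (0 : ℝ) 1, h x t ∈ X)
    (hA : ∀ x ∈ N ∩ X, x ∈ A → ∀ t ∈ Icc (0 : ℝ) 1, h x t ∈ A) :
    SR X A K C := by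
  intro U' hU' hKU'
  -- choose `W'` with `ψ (W' ∩ X') ⊆ U'`
  obtain ⟨W', hW', hKW', hWN', hψW'⟩ := exists_open_of_contOn hψ hN' hKN' hKX' hU'
    (fun x hx => hKU' (hψK hx))
  obtain ⟨W, hW, hKW, hWW, hrk⟩ := hSR W' hW' hKW'
  obtain ⟨O₁, hO₁, hKO₁, hON₁, hO₁φ⟩ := exists_open_of_contOn hφ hN hKN hKX hW
    (fun x hx => hKW (hφK hx))
  obtain ⟨O₂, hO₂, hKO₂, hON₂, hO₂h⟩ := exists_open_of_tube hh hN hKN hKX hU'
    (fun x hx t ht => hKU' (hhK x hx t ht))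
  set O := U' ∩ O₁ ∩ O₂ with hOdef
  have hO : IsOpen O := (hU'.inter hO₁).inter hO₂
  have hKO : K ⊆ O := fun x hx => ⟨⟨hKU' hx, hKO₁ hx⟩, hKO₂ hx⟩
  have hOU' : O ⊆ U' := fun x hx => hx.1.1
  have hOO₁ : O ⊆ O₁ := fun x hx => hx.1.2
  have hOO₂ : O ⊆ O₂ := fun x hx => hx.2
  have hON : O ⊆ N := fun x hx => hON₁ (hOO₁ hx)
  refine ⟨O, hO, hKO, hOU', ?_⟩
  have hφO : ContinuousOn φ (O ∩ X) := hφ.mono (inter_subset_inter_left _ hON)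
  have hψW : ContinuousOn ψ (W' ∩ X') := hψ.mono (inter_subset_inter_left _ hWN')
  have hφW : MapsTo φ (O ∩ X) (W ∩ X') := fun x hx =>
    ⟨hO₁φ ⟨hOO₁ hx.1, hx.2⟩, hφX ⟨hON hx.1, hx.2⟩⟩
  have hφWB : MapsTo φ (O ∩ X ∩ A) (W ∩ X' ∩ A') := fun x hx =>
    ⟨hφW hx.1, hφA x ⟨hON hx.1.1, hx.1.2⟩ hx.2⟩
  -- the homotopy restricted to `O ∩ X`
  have hhO : ContinuousOn (fun p : E × ℝ => h p.1 p.2) ((O ∩ X) ×ˢ Icc (0 : ℝ) 1) :=
    hh.mono (prod_mono (inter_subset_inter_left _ hON) le_rfl)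
  have c1 : ContinuousOn (fun y => ψ (φ y)) (O ∩ X) :=
    hψW.comp hφO fun x hx => ⟨hWW (hφW hx).1, (hφW hx).2⟩
  have hone : ∀ x ∈ O ∩ X, h x 1 = ψ (φ x) := fun x hx =>
    h1 x ⟨hON hx.1, hx.2⟩ (hWN' (hWW (hφW hx).1))
  refine hrk.transport (push (O ∩ X) φ hφO) (push (W' ∩ X') ψ hψW) ?_ ?_ ?_
  · rintro z ⟨hz1, hz2⟩
    refine ⟨push_mem hφW z hz1, ?_⟩
    show bdE E' _ ∈ CS _
    rw [bd_push z hz1]
    exact push_mem hφWB _ hz2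
  · intro b hb
    obtain ⟨w, hw, hb⟩ := mem_Bp.1 hb
    refine mem_Bp.2 ⟨push (W' ∩ X') ψ hψW w, push_mem ?_ w hw, ?_⟩
    · intro x hx
      exact ⟨hψW' hx, hψX ⟨hWN' hx.1, hx.2⟩⟩
    · rw [bd_push w hw, ← map_sub]
      refine push_mem ?_ _ hb
      intro x hx
      exact ⟨⟨hψW' hx.1, hψX ⟨hWN' hx.1.1, hx.1.2⟩⟩, hψA x ⟨hWN' hx.1.1, hx.1.2⟩ hx.2⟩
  · rintro z ⟨hz1, hz2⟩
    have e1 : push (O ∩ X) (fun y => ψ (φ y)) c1 z =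
        push (W' ∩ X') ψ hψW (push (O ∩ X) φ hφO z) := by
      refine (push_push (l := fun y => ψ (φ y)) (hl := c1) ?_ (fun _ _ => rfl) z hz1).symm
      intro x hx
      exact ⟨hWW (hφW hx).1, (hφW hx).2⟩
    have e2 := bd_prismP (hF := hhO) (f0 := fun y => y)
      (h0 := (continuousOn_id : ContinuousOn (fun y => y) (O ∩ X)))
      (h1 := c1) (fun x hx => h0 x ⟨hON hx.1, hx.2⟩) hone z hz1
    rw [push_id z hz1, e1] at e2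
    have e4 : prismP (O ∩ X) h hhO z ∈ CS (U' ∩ X) := by
      refine prismP_mem ?_ z hz1
      intro y hy t ht
      exact ⟨hO₂h y ⟨hOO₂ hy.1, hy.2⟩ t ht, hX y ⟨hON hy.1, hy.2⟩ t ht⟩
    refine mem_Bp.2 ⟨prismP (O ∩ X) h hhO z, e4, ?_⟩
    have e3 : z - push (W' ∩ X') ψ hψW (push (O ∩ X) φ hφO z) - bdE E (prismP (O ∩ X) h hhO z) =
        prismP (O ∩ X) h hhO (bdE E z) := by
      rw [e2]
      simp only [ZModModule.sub_eq_add]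
      have e : ∀ a b p : CE E, a + b + (a + b + p) = (a + a) + (b + b) + p := fun a b p => by abel
      rw [e, add_self_CE, add_self_CE, zero_add, zero_add]
    rw [e3]
    refine prismP_mem ?_ _ hz2
    intro y hy t ht
    exact ⟨⟨hO₂h y ⟨hOO₂ hy.1.1, hy.1.2⟩ t ht, hX y ⟨hON hy.1.1, hy.1.2⟩ t ht⟩,
      hA y ⟨hON hy.1.1, hy.1.2⟩ hy.2 t ht⟩

/-- a rank bound from a relative cycle on a union of two open sets -/
theorem RkP.union {V₁ V₂ O₁ O₂ O₁₂ U' X A : Set E} {C₁ C₂ C₁₂ : ℕ} (hV₁ : IsOpen V₁)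
    (hV₂ : IsOpen V₂) (h1 : V₁ ⊆ O₁) (h2 : V₂ ⊆ O₂) (h12 : V₁ ∩ V₂ ⊆ O₁₂) (hO₁ : O₁ ⊆ U')
    (hO₂ : O₂ ⊆ U')
    (r1 : RkP (O₁ ∩ X) (O₁ ∩ X ∩ A) (U' ∩ X) (U' ∩ X ∩ A) C₁)
    (r2 : RkP (O₂ ∩ X) (O₂ ∩ X ∩ A) (U' ∩ X) (U' ∩ X ∩ A) C₂)
    (r12 : RkP (O₁₂ ∩ X) (O₁₂ ∩ X ∩ A) (O₁ ∩ O₂ ∩ X) (O₁ ∩ O₂ ∩ X ∩ A) C₁₂) :
    RkP ((V₁ ∪ V₂) ∩ X) ((V₁ ∪ V₂) ∩ X ∩ A) (U' ∩ X) (U' ∩ X ∩ A) (C₁ + C₂ + C₁₂) := by
  -- the linear relation
  let P : Submodule (ZMod 2) (CE E × CE E × CE E × CE E × CE E) :=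
    { carrier := {p | p.2.1 ∈ CS (V₁ ∩ X) ∧ p.2.2.1 ∈ CS (V₂ ∩ X) ∧
        p.2.2.2.1 ∈ CS (V₁ ∩ X ∩ A) ∧ p.2.2.2.2 ∈ CS (V₂ ∩ X ∩ A) ∧
        p.1 + (p.2.1 + p.2.2.1) ∈ Bp (U' ∩ X) (U' ∩ X ∩ A) ∧
        bdE E p.2.1 + p.2.2.2.1 = bdE E p.2.2.1 + p.2.2.2.2}
      zero_mem' := by
        refine ⟨zero_mem _, zero_mem _, zero_mem _, zero_mem _, ?_, ?_⟩
        · simp
        · simp
      add_mem' := by
        rintro ⟨z, a, b, c, d⟩ ⟨z', a', b', c', d'⟩ ⟨e1, e2, e3, e4, e5, e6⟩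
          ⟨f1, f2, f3, f4, f5, f6⟩
        simp only at e1 e2 e3 e4 e5 e6 f1 f2 f3 f4 f5 f6
        refine ⟨add_mem e1 f1, add_mem e2 f2, add_mem e3 f3, add_mem e4 f4, ?_, ?_⟩
        · have := add_mem e5 f5
          show z + z' + (a + a' + (b + b')) ∈ _
          have e : z + z' + (a + a' + (b + b')) = z + (a + b) + (z' + (a' + b')) := by abel
          rw [e]; exact this
        · show bdE E (a + a') + (c + c') = bdE E (b + b') + (d + d')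
          rw [map_add, map_add]
          have e : bdE E a + bdE E a' + (c + c') = (bdE E a + c) + (bdE E a' + c') := by abel
          rw [e, e6, f6]; abel
      smul_mem' := by
        rintro r ⟨z, a, b, c, d⟩ ⟨e1, e2, e3, e4, e5, e6⟩
        simp only at e1 e2 e3 e4 e5 e6
        refine ⟨Submodule.smul_mem _ _ e1, Submodule.smul_mem _ _ e2, Submodule.smul_mem _ _ e3,
          Submodule.smul_mem _ _ e4, ?_, ?_⟩
        · have := Submodule.smul_mem _ r e5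
          show r • z + (r • a + r • b) ∈ _
          rw [← smul_add, ← smul_add]; exact this
        · show bdE E (r • a) + r • c = bdE E (r • b) + r • d
          rw [map_smul, map_smul, ← smul_add, ← smul_add, e6] }
  let S : Submodule (ZMod 2) (CE E × CE E) :=
    P.map (LinearMap.prod (LinearMap.fst _ _ _)
      ((bdE E) ∘ₗ (LinearMap.fst (ZMod 2) (CE E) (CE E × CE E × CE E)) ∘ₗ LinearMap.snd _ _ _ +
        (LinearMap.fst (ZMod 2) (CE E) (CE E)) ∘ₗ (LinearMap.snd (ZMod 2) (CE E) (CE E × CE E)) ∘ₗ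
        (LinearMap.snd (ZMod 2) (CE E) (CE E × CE E × CE E)) ∘ₗ LinearMap.snd _ _ _))
  have memS : ∀ z e, (z, e) ∈ S ↔ ∃ a₁ ∈ CS (V₁ ∩ X), ∃ b₁ ∈ CS (V₂ ∩ X),
      ∃ a ∈ CS (V₁ ∩ X ∩ A), ∃ b ∈ CS (V₂ ∩ X ∩ A),
        z + (a₁ + b₁) ∈ Bp (U' ∩ X) (U' ∩ X ∩ A) ∧ bdE E a₁ + a = e ∧ bdE E b₁ + b = e := by
    intro z e
    constructor
    · rintro ⟨⟨z', a₁, b₁, a, b⟩, ⟨e1, e2, e3, e4, e5, e6⟩, he⟩
      have he1 : z' = z := congrArg Prod.fst he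
      have he2 : bdE E a₁ + a = e := congrArg Prod.snd he
      subst he1
      exact ⟨a₁, e1, b₁, e2, a, e3, b, e4, e5, he2, by rw [← he2]; exact e6.symm⟩
    · rintro ⟨a₁, h1, b₁, h2, a, h3, b, h4, h5, h6, h7⟩
      exact ⟨(z, a₁, b₁, a, b), ⟨h1, h2, h3, h4, h5, h6.trans h7.symm⟩, Prod.ext rfl h6⟩
  have hZ1 : RkLE ((Zp (O₁ ∩ X) (O₁ ∩ X ∩ A) ⊔ Zp (O₂ ∩ X) (O₂ ∩ X ∩ A)) ⊔
      Bp (U' ∩ X) (U' ∩ X ∩ A)) (Bp (U' ∩ X) (U' ∩ X ∩ A)) (C₁ + C₂) :=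
    (RkLE.sup r1 r2).sup_right
  have key : RkP ((V₁ ∪ V₂) ∩ X) ((V₁ ∪ V₂) ∩ X ∩ A) (U' ∩ X) (U' ∩ X ∩ A) (C₁₂ + (C₁ + C₂)) := by
    refine RkLE.add S ?_ ?_ _ ?_ r12 hZ1
    · -- existence of a decomposition
      rintro z ⟨hz1, hz2⟩
      have hz2' : bdE E z ∈ CS ((V₁ ∪ V₂) ∩ X ∩ A) := hz2
      have hcov : ∀ (Q : Set E), ∀ x ∈ (V₁ ∪ V₂) ∩ Q, V₁ ∈ 𝓝[(V₁ ∪ V₂) ∩ Q] x ∨
          V₂ ∈ 𝓝[(V₁ ∪ V₂) ∩ Q] x := by
        rintro Q x ⟨hx | hx, _⟩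
        · exact Or.inl (mem_nhdsWithin_of_mem_nhds (hV₁.mem_nhds hx))
        · exact Or.inr (mem_nhdsWithin_of_mem_nhds (hV₂.mem_nhds hx))
      obtain ⟨Op, hOp⟩ := exists_op (E := E) (κ := Bool) Finset.univ
        (fun i => bif i then (V₁ ∪ V₂) ∩ X else (V₁ ∪ V₂) ∩ X ∩ A) (ι := fun _ => Bool)
        (fun _ j => bif j then V₁ else V₂)
        (by
          intro i _ x hx
          cases i
          · have hx' : x ∈ (V₁ ∪ V₂) ∩ (X ∩ A) := ⟨hx.1.1, hx.1.2, hx.2⟩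
            rcases hcov (X ∩ A) x hx' with h | h
            · refine ⟨true, ?_⟩
              show V₁ ∈ 𝓝[(V₁ ∪ V₂) ∩ X ∩ A] x
              rw [inter_assoc]; exact h
            · refine ⟨false, ?_⟩
              show V₂ ∈ 𝓝[(V₁ ∪ V₂) ∩ X ∩ A] x
              rw [inter_assoc]; exact h
          · rcases hcov X x hx with h | h
            · exact ⟨true, h⟩
            · exact ⟨false, h⟩)
        (fun i => bif i then z else bdE E z)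
        (by
          intro i _
          cases i
          · exact hz2'
          · exact hz1)
      have d1 := hOp true (Finset.mem_univ _)
      have d2 := hOp false (Finset.mem_univ _)
      rw [iSup_bool_eq, Submodule.mem_sup] at d1 d2
      obtain ⟨a₁, ha₁, b₁, hb₁, hab₁⟩ := d1
      obtain ⟨a, ha, b, hb, hab⟩ := d2
      simp only [cond_true, cond_false] at ha₁ hb₁ hab₁ ha hb hab
      have hS1 : (V₁ ∪ V₂) ∩ X ∩ V₁ ⊆ V₁ ∩ X := fun x hx => ⟨hx.2, hx.1.2⟩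
      have hS2 : (V₁ ∪ V₂) ∩ X ∩ V₂ ⊆ V₂ ∩ X := fun x hx => ⟨hx.2, hx.1.2⟩
      have hS3 : (V₁ ∪ V₂) ∩ X ∩ A ∩ V₁ ⊆ V₁ ∩ X ∩ A := fun x hx => ⟨⟨hx.2, hx.1.1.2⟩, hx.1.2⟩
      have hS4 : (V₁ ∪ V₂) ∩ X ∩ A ∩ V₂ ⊆ V₂ ∩ X ∩ A := fun x hx => ⟨⟨hx.2, hx.1.1.2⟩, hx.1.2⟩
      refine ⟨bdE E a₁ + a, (memS _ _).2 ⟨a₁, CS_mono hS1 ha₁, b₁, CS_mono hS2 hb₁, a,
        CS_mono hS3 ha, b, CS_mono hS4 hb, ?_, rfl, ?_⟩⟩
      · rw [hab₁, Op.htp z]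
        have hUX : (V₁ ∪ V₂) ∩ X ⊆ U' ∩ X := inter_subset_inter_left _
          (union_subset (h1.trans hO₁) (h2.trans hO₂))
        refine mem_Bp.2 ⟨Op.T z, CS_mono hUX (Op.T_mem _ z hz1), ?_⟩
        rw [add_sub_cancel_left]
        exact CS_mono (inter_subset_inter_left _ hUX) (Op.T_mem _ _ hz2')
      · -- `∂ a₁ + a = ∂ b₁ + b`
        have e1 : bdE E a₁ + bdE E b₁ = a + b := by
          rw [← map_add, hab₁, Op.bd_S, hab]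
        have e2 : bdE E b₁ = bdE E a₁ + (a + b) := by
          rw [← e1, ← add_assoc, add_self_CE, zero_add]
        rw [e2]
        have e : bdE E a₁ + (a + b) + b = bdE E a₁ + a + (b + b) := by abel
        rw [e, add_self_CE, add_zero]
    · -- the difference is a relative cycle on `V₁ ∩ V₂`
      intro z e hze
      obtain ⟨a₁, ha₁, b₁, hb₁, a, ha, b, hb, _, hea, heb⟩ := (memS _ _).1 hze
      refine ⟨?_, ?_⟩
      · have i1 : e ∈ CS (V₁ ∩ X) := by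
          rw [← hea]
          exact add_mem (bd_mem_CS _ ha₁) (CS_mono inter_subset_left ha)
        have i2 : e ∈ CS (V₂ ∩ X) := by
          rw [← heb]
          exact add_mem (bd_mem_CS _ hb₁) (CS_mono inter_subset_left hb)
        have i3 : e ∈ CS ((V₁ ∩ X) ∩ (V₂ ∩ X)) := by
          rw [← CS_inf]; exact Submodule.mem_inf.2 ⟨i1, i2⟩
        have i4 : (V₁ ∩ X) ∩ (V₂ ∩ X) ⊆ O₁₂ ∩ X := fun x hx => ⟨h12 ⟨hx.1.1, hx.2.1⟩, hx.1.2⟩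
        exact CS_mono i4 i3
      · show bdE E e ∈ CS (O₁₂ ∩ X ∩ A)
        have i1 : bdE E e ∈ CS (V₁ ∩ X ∩ A) := by
          rw [← hea, map_add, bd_bdE, zero_add]
          exact bd_mem_CS _ ha
        have i2 : bdE E e ∈ CS (V₂ ∩ X ∩ A) := by
          rw [← heb, map_add, bd_bdE, zero_add]
          exact bd_mem_CS _ hb
        have i3 : bdE E e ∈ CS ((V₁ ∩ X ∩ A) ∩ (V₂ ∩ X ∩ A)) := by
          rw [← CS_inf]; exact Submodule.mem_inf.2 ⟨i1, i2⟩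
        have i4 : (V₁ ∩ X ∩ A) ∩ (V₂ ∩ X ∩ A) ⊆ O₁₂ ∩ X ∩ A := fun x hx =>
          ⟨⟨h12 ⟨hx.1.1.1, hx.2.1.1⟩, hx.1.1.2⟩, hx.1.2⟩
        exact CS_mono i4 i3
    · -- if the difference bounds then `z` is a sum
      intro z e hze he
      obtain ⟨a₁, ha₁, b₁, hb₁, a, ha, b, hb, hz, hea, heb⟩ := (memS _ _).1 hze
      obtain ⟨f, hf, hg⟩ := mem_Bp.1 he
      -- `e = ∂ f + g`
      have hO1X : (O₁ ∩ O₂) ∩ X ⊆ O₁ ∩ X := inter_subset_inter_left _ inter_subset_left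
      have hO2X : (O₁ ∩ O₂) ∩ X ⊆ O₂ ∩ X := inter_subset_inter_left _ inter_subset_right
      have z1 : a₁ + f ∈ Zp (O₁ ∩ X) (O₁ ∩ X ∩ A) := by
        refine ⟨add_mem (CS_mono (inter_subset_inter_left _ h1) ha₁) (CS_mono hO1X hf), ?_⟩
        show bdE E (a₁ + f) ∈ CS (O₁ ∩ X ∩ A)
        have : bdE E (a₁ + f) = a + (e - bdE E f) := by
          rw [map_add, ← hea, ZModModule.sub_eq_add]
          have e' : a + (bdE E a₁ + a + bdE E f) = bdE E a₁ + bdE E f + (a + a) := by abel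
          rw [e', add_self_CE, add_zero]
        rw [this]
        exact add_mem (CS_mono (inter_subset_inter_left _ (inter_subset_inter_left _ h1)) ha)
          (CS_mono (inter_subset_inter_left _ hO1X) hg)
      have z2 : b₁ + f ∈ Zp (O₂ ∩ X) (O₂ ∩ X ∩ A) := by
        refine ⟨add_mem (CS_mono (inter_subset_inter_left _ h2) hb₁) (CS_mono hO2X hf), ?_⟩
        show bdE E (b₁ + f) ∈ CS (O₂ ∩ X ∩ A)
        have : bdE E (b₁ + f) = b + (e - bdE E f) := by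
          rw [map_add, ← heb, ZModModule.sub_eq_add]
          have e' : b + (bdE E b₁ + b + bdE E f) = bdE E b₁ + bdE E f + (b + b) := by abel
          rw [e', add_self_CE, add_zero]
        rw [this]
        exact add_mem (CS_mono (inter_subset_inter_left _ (inter_subset_inter_left _ h2)) hb)
          (CS_mono (inter_subset_inter_left _ hO2X) hg)
      have hzz : z = ((a₁ + f) + (b₁ + f)) + (z + (a₁ + b₁)) := by
        have e' : ((a₁ + f) + (b₁ + f)) + (z + (a₁ + b₁)) =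
          z + (a₁ + a₁) + (b₁ + b₁) + (f + f) := by abel
        rw [e', add_self_CE, add_self_CE, add_self_CE]; simp
      rw [hzz]
      exact Submodule.add_mem_sup (Submodule.add_mem_sup z1 z2) hz
  exact key.mono le_rfl le_rfl le_rfl le_rfl (by omega)

/-- separation of two closed sets relative to a neighbourhood of their intersection -/
theorem exists_sep [NormalSpace E] {K₁ K₂ O : Set E} (h1 : IsClosed K₁) (h2 : IsClosed K₂)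
    (hO : IsOpen O) (h : K₁ ∩ K₂ ⊆ O) :
    ∃ V₁ V₂ : Set E, IsOpen V₁ ∧ IsOpen V₂ ∧ K₁ ⊆ V₁ ∧ K₂ ⊆ V₂ ∧ V₁ ∩ V₂ ⊆ O := by
  have d1 : Disjoint (K₁ \ O) K₂ := by
    rw [Set.disjoint_left]
    exact fun x hx hx2 => hx.2 (h ⟨hx.1, hx2⟩)
  have d2 : Disjoint (K₂ \ O) K₁ := by
    rw [Set.disjoint_left]
    exact fun x hx hx2 => hx.2 (h ⟨hx2, hx.1⟩)
  obtain ⟨G₁, H₂, hG₁, hH₂, hKG₁, hKH₂, hd1⟩ := normal_separation (h1.sdiff hO) h2 d1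
  obtain ⟨G₂, H₁, hG₂, hH₁, hKG₂, hKH₁, hd2⟩ := normal_separation (h2.sdiff hO) h1 d2
  refine ⟨(G₁ ∪ O) ∩ H₁, (G₂ ∪ O) ∩ H₂, (hG₁.union hO).inter hH₁, (hG₂.union hO).inter hH₂,
    ?_, ?_, ?_⟩
  · intro x hx
    refine ⟨?_, hKH₁ hx⟩
    by_cases hxO : x ∈ O
    · exact Or.inr hxO
    · exact Or.inl (hKG₁ ⟨hx, hxO⟩)
  · intro x hx
    refine ⟨?_, hKH₂ hx⟩
    by_cases hxO : x ∈ O
    · exact Or.inr hxO
    · exact Or.inl (hKG₂ ⟨hx, hxO⟩)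
  · rintro x ⟨⟨hx1 | hx1, hx2⟩, hx3, hx4⟩
    · exact absurd hx4 (Set.disjoint_left.1 hd1 hx1)
    · exact hx1

/-- **Mayer-Vietoris** -/
theorem SR.union [NormalSpace E] {X A K₁ K₂ : Set E} {C₁ C₂ C₁₂ : ℕ} (h1 : IsClosed K₁)
    (h2 : IsClosed K₂) (r1 : SR X A K₁ C₁) (r2 : SR X A K₂ C₂) (r12 : SR X A (K₁ ∩ K₂) C₁₂) :
    SR X A (K₁ ∪ K₂) (C₁ + C₂ + C₁₂) := by
  intro U' hU' hK
  obtain ⟨O₁, hO₁, hKO₁, hOU₁, hr1⟩ := r1 U' hU' (subset_union_left.trans hK)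
  obtain ⟨O₂, hO₂, hKO₂, hOU₂, hr2⟩ := r2 U' hU' (subset_union_right.trans hK)
  obtain ⟨O₁₂, hO₁₂, hKO₁₂, hOU₁₂, hr12⟩ := r12 (O₁ ∩ O₂) (hO₁.inter hO₂)
    (inter_subset_inter hKO₁ hKO₂)
  obtain ⟨V₁, V₂, hV₁, hV₂, hKV₁, hKV₂, hV⟩ := exists_sep h1 h2 hO₁₂ hKO₁₂
  refine ⟨(V₁ ∩ O₁) ∪ (V₂ ∩ O₂), (hV₁.inter hO₁).union (hV₂.inter hO₂),
    union_subset_union (subset_inter hKV₁ hKO₁) (subset_inter hKV₂ hKO₂),
    union_subset (inter_subset_right.trans hOU₁) (inter_subset_right.trans hOU₂), ?_⟩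
  exact RkP.union (hV₁.inter hO₁) (hV₂.inter hO₂) inter_subset_right inter_subset_right
    (fun x hx => hV ⟨hx.1.1, hx.2.1⟩) hOU₁ hOU₂ hr1 hr2 hr12

/-- disjoint closed sets -/
theorem SR.union_disj [NormalSpace E] {X A K₁ K₂ : Set E} {C₁ C₂ : ℕ} (h1 : IsClosed K₁)
    (h2 : IsClosed K₂) (hd : Disjoint K₁ K₂) (r1 : SR X A K₁ C₁) (r2 : SR X A K₂ C₂) :
    SR X A (K₁ ∪ K₂) (C₁ + C₂) := by
  have h := SR.union h1 h2 r1 r2 (C₁₂ := 0) (by rw [hd.inter_eq]; exact SR.empty X A)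
  simpa using h

end Crest.Agent.R231.GM898
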