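import Crest.Agent.R231.GMPoint_529
import Crest.Agent.R231.GMSR_537
import Crest.Agent.R231.GMB2_898

/-!
# Row 231, block GM (helper529): `DomStmt` from the domination lemma of helper537

`domStmt M : DomStmt M`; `point_bound'` : `point_bound` with (B2) and (Dom) discharged.
-/

set_option autoImplicit false

noncomputable section

open Set Filter Topology
open Crest.Agent.R231.GM898 Crest.Agent.R231.GLugx576 Crest.Agent.R231.GMGeox889

namespace Crest.Agent.R231.GMPointx529

theorem domStmt (M : Type) [MetricSpace M] : DomStmt M := by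
  intro Z _ _ F g0 b s C Mp hLB
  rw [lb_iff_SR] at hLB
  have hW0 : (0 : Z) ∈ Mp.W := Mp.mem_W
  have hgX : g0 ∈ X M b := by
    have := Mp.ψ_maps 0 hW0
    rwa [Mp.ψ_zero] at this
  refine SR.dom hLB (X := X M b) (A := XL M s) (K := {g0}) (by rintro x rfl; exact hgX)
    (subset_univ _) Mp.isOpen_U (by rintro x rfl; exact Mp.mem_U) Mp.isOpen_W
    (by rintro x rfl; exact hW0) Mp.φ Mp.φ_cont ?_ (fun _ _ => mem_univ _)
    (fun x hx hxA => Mp.φ_lev x hx hxA) Mp.ψ (Mp.ψ_cont.mono inter_subset_left) ?_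
    (fun x hx => Mp.ψ_maps x hx.1) (fun x hx hxA => Mp.ψ_lev x hx.1 hxA) Mp.h Mp.h_cont ?_
    (fun x hx => Mp.h_zero x hx) (fun x hx _ => Mp.h_one x hx) (fun x hx t ht => Mp.h_maps x hx t ht)
    (fun x hx hxA t ht => Mp.h_lev x hx hxA t ht)
  · rintro x rfl
    exact Mp.φ_zero
  · rintro x rfl
    exact Mp.ψ_zero
  · rintro x rfl t ht
    exact Mp.h_fix t ht

end Crest.Agent.R231.GMPointx529
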