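import Crest.Agent.R231.GArc_576

/-!
# Row 231 (S0357), block GM-GEO (b): replacing all arcs `[θ k, θ k + r (θ (k+1) - θ k)]` (helper889)

* `repN L n θ r g`; `repN_mem`, `repN_zero`, `repN_fix`, `repN_one`, `contOn_repN`
-/

set_option autoImplicit false
set_option linter.unusedSectionVars false

open Set Filter Topology

noncomputable section

namespace Crest.Agent.R231.GMGeox889

open Crest.Agent.R231.GLugx576

variable {M : Type*} [MetricSpace M] [CompactSpace M] (L : LUG M)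

/-- replacement of the arcs `[θ k, θ k + r (θ (k+1) - θ k)]`, `k < n`, one after the other -/
def repN : ℕ → (ℕ → ℝ) → ℝ → Lp M → Lp M
  | 0, _, _, g => g
  | n + 1, θ, r, g => repA L (θ n) (r * (θ (n + 1) - θ n)) (repN n θ r g)

/-- admissible times -/
structure Tim (n : ℕ) (θ : ℕ → ℝ) (t : ℝ) : Prop where
  lt : ∀ k < n, θ k < θ (k + 1)
  last : θ n = θ 0 + 1
  short : ∀ k < n, t * (θ (k + 1) - θ k) < L.r0

variable {L} {n : ℕ} {θ : ℕ → ℝ} {t r : ℝ} {g : Lp M}

theorem Tim.mono (h : Tim L n θ t) {j k : ℕ} (hjk : j ≤ k) (hk : k ≤ n) : θ j ≤ θ k := by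
  induction k, hjk using Nat.le_induction with
  | base => exact le_rfl
  | succ k hjk ih => exact (ih (by omega)).trans (h.lt k (by omega)).le

theorem Tim.len_nonneg (h : Tim L n θ t) (hr : r ∈ Icc (0 : ℝ) 1) {k : ℕ} (hk : k < n) :
    0 ≤ r * (θ (k + 1) - θ k) := mul_nonneg hr.1 (by linarith [h.lt k hk])

theorem Tim.gap_le_one (h : Tim L n θ t) {k : ℕ} (hk : k < n) : θ (k + 1) - θ k ≤ 1 := by
  have h1 := h.mono (Nat.zero_le k) hk.le
  have h2 := h.mono (j := k + 1) hk le_rfl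
  rw [h.last] at h2
  linarith

theorem Tim.len_le (h : Tim L n θ t) (hr : r ∈ Icc (0 : ℝ) 1) {k : ℕ} (hk : k < n) :
    r * (θ (k + 1) - θ k) ≤ θ (k + 1) - θ k :=
  mul_le_of_le_one_left (by linarith [h.lt k hk]) hr.2

theorem Tim.len_le_one (h : Tim L n θ t) (hr : r ∈ Icc (0 : ℝ) 1) {k : ℕ} (hk : k < n) :
    r * (θ (k + 1) - θ k) ≤ 1 := (h.len_le hr hk).trans (h.gap_le_one hk)

theorem Tim.len_short (h : Tim L n θ t) (ht : 0 ≤ t) (hr : r ∈ Icc (0 : ℝ) 1) {k : ℕ} (hk : k < n) :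
    t * (r * (θ (k + 1) - θ k)) < L.r0 :=
  (mul_le_mul_of_nonneg_left (h.len_le hr hk) ht).trans_lt (h.short k hk)

/-- every level is preserved -/
theorem repN_mem (h : Tim L n θ t) (hr : r ∈ Icc (0 : ℝ) 1) {t' : ℝ} (ht' : t' ≤ t)
    (hg : g ∈ X M t') : ∀ j ≤ n, repN L j θ r g ∈ X M t' := by
  intro j
  induction j with
  | zero => intro _; exact hg
  | succ j ih =>
    intro hj
    have h0 := nonneg_of_mem hg
    refine repA_mem L (ih (by omega)) (h.len_nonneg hr hj) (h.len_le_one hr hj) ?_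
    exact (mul_le_mul_of_nonneg_right ht' (h.len_nonneg hr hj)).trans_lt
      (h.len_short (h0.trans ht') hr hj)

/-- nothing is replaced for `r = 0` -/
theorem repN_zero (g : Lp M) : ∀ j, repN L j θ 0 g = g := by
  intro j
  induction j with
  | zero => rfl
  | succ j ih => rw [repN, zero_mul, repA_zero, ih]

/-- loops which are tight on all arcs are not changed -/
theorem repN_fix (h : Tim L n θ t) (hr : r ∈ Icc (0 : ℝ) 1) {s : ℝ} (hs : s ≤ t)
    (hg : g ∈ X M s)
    (ht : ∀ x y : ℝ, x ≤ y → s * (y - x) < L.r0 → dist (g x) (g y) = s * (y - x)) :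
    ∀ j ≤ n, repN L j θ r g = g := by
  intro j
  induction j with
  | zero => intro _; rfl
  | succ j ih =>
    intro hj
    have h0 := nonneg_of_mem hg
    have hl : s * (r * (θ (j + 1) - θ j)) < L.r0 :=
      (mul_le_mul_of_nonneg_right hs (h.len_nonneg hr hj)).trans_lt
        (h.len_short (h0.trans hs) hr hj)
    rw [repN, ih (by omega)]
    refine repA_eq_self L hg (h.len_nonneg hr hj) (h.len_le_one hr hj) hl ?_
    have h1 := ht (θ j) (θ j + r * (θ (j + 1) - θ j)) (by linarith [h.len_nonneg hr hj])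
      (by rwa [add_sub_cancel_left])
    rwa [add_sub_cancel_left] at h1

theorem mem_dom (h : Tim L n θ t) (hr : r ∈ Icc (0 : ℝ) 1) (hg : g ∈ X M t) {j : ℕ} (hj : j < n) :
    (r * (θ (j + 1) - θ j), rot ((θ j : ℝ) : UnitAddCircle) (repN L j θ r g)) ∈ RepDom L :=
  mem_domA (repN_mem h hr le_rfl hg j hj.le) (h.len_nonneg hr hj) (h.len_le_one hr hj)
    (h.len_short (nonneg_of_mem hg) hr hj) _

/-- inside a replaced arc -/
theorem repA_in {a l : ℝ} {γ : Lp M} (hl : 0 < l)
    (hd : (l, rot (a : UnitAddCircle) γ) ∈ RepDom L) {u : ℝ} (hu : u ∈ Icc (0 : ℝ) 1) :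
    repA L a l γ ((a + u * l : ℝ) : UnitAddCircle) =
      L.seg (γ (a : UnitAddCircle)) (γ ((a + l : ℝ) : UnitAddCircle)) u := by
  have h1 : u * l ≤ l := mul_le_of_le_one_left hl.le hu.2
  have h2 : 0 ≤ u * l := mul_nonneg hu.1 hl.le
  rw [repA_coe, add_sub_cancel_left, rep_apply L hd ⟨h2, h1.trans hd.1.2⟩, repF, if_pos h1,
    rot_coe, rot_coe, add_zero, mul_div_cancel_right₀ _ hl.ne']

/-- **the values for `r = 1`** -/
theorem repN_one (h : Tim L n θ t) (hg : g ∈ X M t) : ∀ j ≤ n,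
    (∀ k < j, ∀ u ∈ Icc (0 : ℝ) 1,
      repN L j θ 1 g ((θ k + u * (θ (k + 1) - θ k) : ℝ) : UnitAddCircle) =
        L.seg (g (θ k : UnitAddCircle)) (g (θ (k + 1) : UnitAddCircle)) u) ∧
    ∀ x ∈ Icc (θ j) (θ n), repN L j θ 1 g (x : UnitAddCircle) = g (x : UnitAddCircle) := by
  have h1 : (1 : ℝ) ∈ Icc (0 : ℝ) 1 := ⟨zero_le_one, le_rfl⟩
  intro j
  induction j with
  | zero => intro _; exact ⟨fun k hk => by omega, fun x _ => rfl⟩
  | succ j ih =>
    intro hj
    obtain ⟨ih1, ih2⟩ := ih (by omega)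
    have hd := mem_dom h h1 hg hj
    have hlt := h.lt j hj
    have hn1 : θ (j + 1) ≤ θ n := h.mono hj le_rfl
    have e1 : θ j + 1 * (θ (j + 1) - θ j) = θ (j + 1) := by ring
    have hout : ∀ x ∈ Icc (θ (j + 1)) (θ j + 1), repN L (j + 1) θ 1 g (x : UnitAddCircle) =
        repN L j θ 1 g (x : UnitAddCircle) := fun x hx => by
      rw [repN]
      exact repA_out L hd (by rw [e1]; exact hx)
    constructor
    · intro k hk u hu
      rcases (Nat.lt_succ_iff.1 hk).lt_or_eq with h2 | h2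
      · rw [← ih1 k h2 u hu]
        have h3 := h.mono (j := k + 1) h2 (by omega : j ≤ n)
        have h4 := h.mono (j := 0) (Nat.zero_le k) (by omega)
        have h5 := h.lt k (by omega)
        have h6 : 0 ≤ u * (θ (k + 1) - θ k) := mul_nonneg hu.1 (by linarith)
        have h7 : u * (θ (k + 1) - θ k) ≤ θ (k + 1) - θ k :=
          mul_le_of_le_one_left (by linarith) hu.2
        have h8 := hout (θ k + u * (θ (k + 1) - θ k) + 1)
          ⟨by rw [h.last] at hn1; linarith, by linarith⟩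
        have e : ((θ k + u * (θ (k + 1) - θ k) + 1 : ℝ) : UnitAddCircle) =
            ((θ k + u * (θ (k + 1) - θ k) : ℝ) : UnitAddCircle) := by
          have := coe_add_int (θ k + u * (θ (k + 1) - θ k)) 1
          rwa [Int.cast_one] at this
        rwa [e] at h8
      · subst h2
        have hl : 0 < 1 * (θ (k + 1) - θ k) := by linarith
        have h3 := repA_in hl hd hu
        rw [repN]
        rw [one_mul] at h3 ⊢
        rw [h3]
        have e2 : θ k + (θ (k + 1) - θ k) = θ (k + 1) := by ring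
        rw [e2, ih2 _ ⟨le_rfl, by linarith⟩, ih2 _ ⟨hlt.le, hn1⟩]
    · intro x hx
      rw [hout x ⟨hx.1, ?_⟩]
      · exact ih2 x ⟨hlt.le.trans hx.1, hx.2⟩
      · have h2 := h.mono (j := 0) (Nat.zero_le j) (by omega)
        have h3 := hx.2
        rw [h.last] at h3
        linarith

/-- **joint continuity** -/
theorem contOn_repN {α : Type*} [TopologicalSpace α] {S : Set α} {θ : α → ℕ → ℝ} {r : α → ℝ}
    {g : α → Lp M} {t : ℝ} (hθ : ∀ k ≤ n, ContinuousOn (fun a => θ a k) S)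
    (hr : ContinuousOn r S) (hg : ContinuousOn g S)
    (hT : ∀ a ∈ S, Tim L n (θ a) t) (hr1 : ∀ a ∈ S, r a ∈ Icc (0 : ℝ) 1)
    (hgX : ∀ a ∈ S, g a ∈ X M t) :
    ∀ j ≤ n, ContinuousOn (fun a => repN L j (θ a) (r a) (g a)) S := by
  intro j
  induction j with
  | zero => intro _; exact hg
  | succ j ih =>
    intro hj
    have ih' := ih (by omega)
    have hc : ContinuousOn (fun a => ((θ a j : ℝ) : UnitAddCircle)) S :=
      (AddCircle.continuous_mk' 1).comp_continuousOn (hθ j (by omega))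
    have hc' : ContinuousOn (fun a => ((-θ a j : ℝ) : UnitAddCircle)) S :=
      (AddCircle.continuous_mk' 1).comp_continuousOn (hθ j (by omega)).neg
    have h1 : ContinuousOn (fun a => rot ((θ a j : ℝ) : UnitAddCircle)
        (repN L j (θ a) (r a) (g a))) S :=
      continuous_rot.comp_continuousOn (hc.prodMk ih')
    have h2 : ContinuousOn (fun a => (r a * (θ a (j + 1) - θ a j),
        rot ((θ a j : ℝ) : UnitAddCircle) (repN L j (θ a) (r a) (g a)))) S :=
      (hr.mul ((hθ (j + 1) hj).sub (hθ j (by omega)))).prodMk h1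
    have h3 := (contOn_rep L).comp h2 fun a ha => mem_dom (hT a ha) (hr1 a ha) (hgX a ha) hj
    exact continuous_rot.comp_continuousOn (hc'.prodMk h3)

end Crest.Agent.R231.GMGeox889
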