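import Crest.Agent.R231.GMPush_136
import Crest.Agent.R231.GMRepN_889
import Crest.Agent.R231.GMGeoB_889
import Crest.Agent.R231.GCross_449

/-!
# Row 231, block GM-GEO (d) (helper136): the push theorem for the Lipschitz loops

* `vert`, `lamN`, `polyH` : equally spaced vertices, `lamN N g = N max_k d(g(k/N), g((k+1)/N))`, polygonisation
  homotopy `polyH L N g r = repN L N (k/N) r g`
* `rank_of_SR` : `SR (X M b0) (XL M s) {g | IsGeo s g} C → RkLE (Zp (X M b) (X M a)) (Bp (X M b) (X M a)) C`
-/

set_option autoImplicit false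
set_option linter.unusedSectionVars false

noncomputable section

open Topology Set Filter

namespace Crest.Agent.R231.GMPush136

open Crest.Agent.R204 Crest.Agent.R231.Pairx877 Crest.Agent.R231.GM898
open Crest.Agent.R231.GLugx576 Crest.Agent.R231.GMGeox889 Crest.Agent.R231.GCrossx449

section poly

variable {M : Type} [MetricSpace M] [CompactSpace M] (L : LUG M)

/-- the times `k / N` -/
def ths (N : ℕ) (k : ℕ) : ℝ := k / N

variable {L} in
theorem tim_ths {N : ℕ} (hN : 0 < N) {t : ℝ} (ht : t / N < L.r0) : Tim L N (ths N) t where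
  lt k _ := by
    unfold ths
    have : (0 : ℝ) < N := by exact_mod_cast hN
    push_cast
    gcongr
    linarith
  last := by
    unfold ths
    have : (N : ℝ) ≠ 0 := by positivity
    field_simp; simp
  short k _ := by
    unfold ths
    have : (N : ℝ) ≠ 0 := by positivity
    have e : t * (((k + 1 : ℕ) : ℝ) / N - k / N) = t / N := by push_cast; field_simp; ring
    rw [e]; exact ht

/-- the edge lengths times `N` -/
def edg (N : ℕ) (k : ℕ) (g : Lp M) : ℝ :=
  N * dist (g (ths N k : UnitAddCircle)) (g (ths N (k + 1) : UnitAddCircle))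

/-- the level of the inscribed polygon -/
def lamN (N : ℕ) (g : Lp M) : ℝ :=
  if h : (Finset.range N).Nonempty then (Finset.range N).sup' h (fun k => edg N k g) else 0

theorem edg_le_lamN {N k : ℕ} (hk : k < N) (g : Lp M) : edg N k g ≤ lamN N g := by
  unfold lamN
  rw [dif_pos ⟨k, Finset.mem_range.2 hk⟩]
  exact Finset.le_sup' (fun k => edg N k g) (Finset.mem_range.2 hk)

theorem lamN_le {N : ℕ} (hN : 0 < N) {g : Lp M} {t : ℝ} (h : ∀ k < N, edg N k g ≤ t) :
    lamN N g ≤ t := by
  unfold lamN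
  rw [dif_pos ⟨0, Finset.mem_range.2 hN⟩]
  exact Finset.sup'_le _ _ fun k hk => h k (Finset.mem_range.1 hk)

theorem continuous_edg (N k : ℕ) : Continuous (edg (M := M) N k) := by
  unfold edg
  exact continuous_const.mul ((continuous_eval_const _).dist (continuous_eval_const _))

theorem continuous_lamN (N : ℕ) : Continuous (lamN (M := M) N) := by
  unfold lamN
  split_ifs with h
  · exact Continuous.finset_sup'_apply h fun k _ => continuous_edg N k
  · exact continuous_const

theorem lamN_le_of_mem {N : ℕ} (hN : 0 < N) {g : Lp M} {t : ℝ} (hg : g ∈ X M t) : lamN N g ≤ t := by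
  refine lamN_le hN fun k hk => ?_
  unfold edg ths
  have h1 := hg ((k : ℝ) / N) (((k + 1 : ℕ) : ℝ) / N)
  have hN' : (0 : ℝ) < N := by exact_mod_cast hN
  have e : |(k : ℝ) / N - ((k + 1 : ℕ) : ℝ) / N| = 1 / N := by
    have : (k : ℝ) / N - ((k + 1 : ℕ) : ℝ) / N = -(1 / N) := by push_cast; field_simp; ring
    rw [this, abs_neg, abs_of_nonneg (by positivity)]
  rw [e] at h1
  calc (N : ℝ) * dist _ _ ≤ N * (t * (1 / N)) := mul_le_mul_of_nonneg_left h1 hN'.le
    _ = t := by field_simp

/-- the polygonisation homotopy -/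
def polyH (N : ℕ) (g : Lp M) (r : ℝ) : Lp M := repN L N (ths N) r g

variable {L} {N : ℕ} {t b : ℝ} {r : ℝ}

/-- the vertices are not moved -/
theorem repN_vertex {n : ℕ} {θ : ℕ → ℝ} (h : Tim L n θ t) (hr : r ∈ Icc (0 : ℝ) 1) {g : Lp M}
    (hg : g ∈ X M t) : ∀ j ≤ n, ∀ k ≤ n,
      repN L j θ r g ((θ k : ℝ) : UnitAddCircle) = g ((θ k : ℝ) : UnitAddCircle) := by
  intro j
  induction j with
  | zero => intro _ k _; rfl
  | succ j ih =>
    intro hj k hk
    have hd := mem_dom h hr hg hj
    have hl0 := h.len_nonneg hr hj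
    have hl1 := h.len_le hr hj
    rw [repN]
    rcases lt_trichotomy k j with h1 | h1 | h1
    · -- one period later
      have e : ((θ k : ℝ) : UnitAddCircle) = ((θ k + 1 : ℝ) : UnitAddCircle) := by
        have := coe_add_int (θ k) 1
        rw [Int.cast_one] at this
        exact this.symm
      have h2 := h.mono (Nat.zero_le k) hk
      have h3 := h.mono (j := j + 1) (k := n) hj le_rfl
      have h4 := h.mono h1.le (by omega : j ≤ n)
      rw [h.last] at h3
      rw [← ih (by omega) k hk, e]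
      exact repA_out L hd ⟨by linarith, by linarith⟩
    · subst h1
      rw [repA_left L hd]
      exact ih (by omega) k hk
    · have h2 := h.mono (j := j + 1) (k := k) h1 hk
      have h3 := h.mono hk le_rfl
      have h4 := h.mono (Nat.zero_le j) (by omega : j ≤ n)
      rw [h.last] at h3
      rw [repA_out L hd ⟨by linarith, by linarith⟩]
      exact ih (by omega) k hk

theorem polyH_zero (g : Lp M) : polyH L N g 0 = g := repN_zero g N

theorem polyH_mem (hN : 0 < N) (ht : b / N < L.r0) (hr : r ∈ Icc (0 : ℝ) 1) {t' : ℝ} (ht' : t' ≤ b)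
    {g : Lp M} (hg : g ∈ X M t') : polyH L N g r ∈ X M t' :=
  repN_mem (tim_ths hN ht) hr ht' hg N le_rfl

theorem lamN_polyH (hN : 0 < N) (ht : b / N < L.r0) (hr : r ∈ Icc (0 : ℝ) 1) {g : Lp M}
    (hg : g ∈ X M b) : lamN N (polyH L N g r) = lamN N g := by
  have h := repN_vertex (tim_ths hN ht) hr hg N le_rfl
  have e : ∀ k < N, edg N k (polyH L N g r) = edg N k g := by
    intro k hk
    unfold edg polyH
    rw [h k hk.le, h (k + 1) hk]
  refine le_antisymm (lamN_le hN fun k hk => ?_) (lamN_le hN fun k hk => ?_)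
  · rw [e k hk]; exact edg_le_lamN hk g
  · rw [← e k hk]; exact edg_le_lamN hk _

theorem polyH_one (hN : 0 < N) (ht : b / N < L.r0) {g : Lp M} (hg : g ∈ X M b) {s : ℝ}
    (hs : lamN N g ≤ s) : polyH L N g 1 ∈ X M s := by
  have hN' : (0 : ℝ) < N := by exact_mod_cast hN
  have hT := tim_ths (L := L) hN ht
  have h1 := (repN_one hT hg N le_rfl).1
  have h0 : ths N 0 = 0 := by simp [ths]
  have hlast : ths N N = 1 := by unfold ths; field_simp
  have key := lip_glue (f := fun x : ℝ => polyH L N g 1 (x : UnitAddCircle)) (t := s)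
    (E := ths N) (n := N) (fun k hk => (hT.lt k hk).le) ?_
  · rw [h0, hlast] at key
    exact mem_X_of_Icc key
  · intro k hk x y hx hxy hy
    have hlt := hT.lt k hk
    have hgap : ths N (k + 1) - ths N k = 1 / N := by
      unfold ths; push_cast; field_simp; ring
    -- parameters on the arc
    set u := (x - ths N k) * N with hu
    set v := (y - ths N k) * N with hv
    have ex : x = ths N k + u * (ths N (k + 1) - ths N k) := by
      rw [hgap, hu]; field_simp; ring
    have ey : y = ths N k + v * (ths N (k + 1) - ths N k) := by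
      rw [hgap, hv]; field_simp; ring
    have hu1 : u ∈ Icc (0 : ℝ) 1 := by
      constructor
      · exact mul_nonneg (by linarith) hN'.le
      · rw [hu]
        have : x - ths N k ≤ 1 / N := by linarith
        calc (x - ths N k) * N ≤ 1 / N * N := mul_le_mul_of_nonneg_right this hN'.le
          _ = 1 := by field_simp
    have hv1 : v ∈ Icc (0 : ℝ) 1 := by
      constructor
      · exact mul_nonneg (by linarith) hN'.le
      · rw [hv]
        have : y - ths N k ≤ 1 / N := by linarith
        calc (y - ths N k) * N ≤ 1 / N * N := mul_le_mul_of_nonneg_right this hN'.le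
          _ = 1 := by field_simp
    have hd : dist (g (ths N k : UnitAddCircle)) (g (ths N (k + 1) : UnitAddCircle)) < L.r0 := by
      refine (hg _ _).trans_lt ?_
      have h3 := hT.short k hk
      rwa [abs_sub_comm, abs_of_nonneg (by linarith)]
    have e1 : polyH L N g 1 (x : UnitAddCircle) =
        L.seg (g (ths N k : UnitAddCircle)) (g (ths N (k + 1) : UnitAddCircle)) u := by
      conv_lhs => rw [ex]
      exact h1 k hk u hu1
    have e2 : polyH L N g 1 (y : UnitAddCircle) =
        L.seg (g (ths N k : UnitAddCircle)) (g (ths N (k + 1) : UnitAddCircle)) v := by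
      conv_lhs => rw [ey]
      exact h1 k hk v hv1
    show dist (polyH L N g 1 (x : UnitAddCircle)) (polyH L N g 1 (y : UnitAddCircle)) ≤ s * (y - x)
    rw [e1, e2, L.dist_seg hd hu1 hv1]
    have huv : u ≤ v := mul_le_mul_of_nonneg_right (by linarith) hN'.le
    rw [abs_sub_comm, abs_of_nonneg (by linarith)]
    have e3 : v - u = (y - x) * N := by rw [hu, hv]; ring
    rw [e3]
    have h4 : edg N k g ≤ s := (edg_le_lamN hk g).trans hs
    unfold edg at h4
    calc (y - x) * N * dist (g (ths N k : UnitAddCircle)) (g (ths N (k + 1) : UnitAddCircle))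
        = (y - x) * (N * dist (g (ths N k : UnitAddCircle)) (g (ths N (k + 1) : UnitAddCircle))) := by
          ring
      _ ≤ (y - x) * s := mul_le_mul_of_nonneg_left h4 (by linarith)
      _ = s * (y - x) := by ring

theorem contOn_polyH (hN : 0 < N) (ht : b / N < L.r0) :
    ContinuousOn (fun p : Lp M × ℝ => polyH L N p.1 p.2) (X M b ×ˢ Icc (0 : ℝ) 1) := by
  refine contOn_repN (n := N) (θ := fun _ => ths N) (r := fun p : Lp M × ℝ => p.2)
    (g := fun p : Lp M × ℝ => p.1) (t := b) (fun k _ => continuousOn_const)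
    continuousOn_snd continuousOn_fst (fun _ _ => tim_ths hN ht) (fun a ha => ha.2)
    (fun a ha => ha.1) N le_rfl

theorem polyH_fix (hL : L.LocMin) (hN : 0 < N) (ht : b / N < L.r0) (hr : r ∈ Icc (0 : ℝ) 1) {s : ℝ}
    (hs : s ≤ b) {g : Lp M} (hg : IsGeo s g) : polyH L N g r = g := by
  refine repN_fix (tim_ths hN ht) hr hs (geo_mem hg) (fun x y hxy h => ?_) N le_rfl
  obtain ⟨hs0, δ, hδ, hgeo⟩ := hg
  exact hL (fun x => g (x : UnitAddCircle)) x y s δ hxy hδ hs0.le h
    fun x _ y _ h => hgeo x y h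

end poly

/-- tube lemma: a homotopy of a compact set fixing `K` -/
theorem stable_nhds {E : Type} [TopologicalSpace E] [T2Space E] {Y K : Set E} (hY : IsCompact Y)
    (G : E → ℝ → E) (hG : ContinuousOn (fun p : E × ℝ => G p.1 p.2) (Y ×ˢ Icc 0 1))
    (hfix : ∀ y ∈ K, ∀ r ∈ Icc (0 : ℝ) 1, G y r = y) {U : Set E} (hU : IsOpen U) (hKU : K ⊆ U) :
    ∃ V : Set E, IsOpen V ∧ K ⊆ V ∧ ∀ y ∈ V ∩ Y, ∀ r ∈ Icc (0 : ℝ) 1, G y r ∈ U := by
  set F : Set E := Prod.fst '' ((Y ×ˢ Icc (0 : ℝ) 1) ∩ (fun p : E × ℝ => G p.1 p.2) ⁻¹' Uᶜ) with hF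
  have hcomp : IsCompact (Y ×ˢ Icc (0 : ℝ) 1) := hY.prod isCompact_Icc
  have hFc : IsClosed F := by
    refine IsCompact.isClosed (IsCompact.image ?_ continuous_fst)
    refine hcomp.of_isClosed_subset ?_ inter_subset_left
    exact hG.preimage_isClosed_of_isClosed hcomp.isClosed hU.isClosed_compl
  refine ⟨Fᶜ, hFc.isOpen_compl, fun y hy => ?_, ?_⟩
  · rintro ⟨⟨y', r⟩, ⟨hm, hn⟩, rfl⟩
    apply hn
    show G y' r ∈ U
    rw [hfix y' hy r hm.2]
    exact hKU hy
  · intro y hy r hr
    by_contra hn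
    exact hy.1 ⟨(y, r), ⟨⟨hy.2, hr⟩, hn⟩, rfl⟩

/-- **the push theorem for Lipschitz loops** -/
theorem rank_of_SR {M : Type} [MetricSpace M] [CompactSpace M] {L : LUG M} (hL : L.LocMin)
    {T : ℝ} (P : Push M T) {a s b b0 : ℝ} (ha0 : 0 ≤ a) (has : a < s) (hsb : s < b) (hbb : b ≤ b0)
    (hsT : s < T) {C : ℕ} (hSR : SR (X M b0) (XL M s) {g | IsGeo s g} C)
    (hnc1 : ∀ t, a ≤ t → t < s → Zp (X M t) (X M a) ≤ Bp (X M t) (X M a))
    (hnc2 : ∀ t u, s < t → t ≤ u → u ≤ b0 → Zp (X M u) (X M t) ≤ Bp (X M u) (X M t)) :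
    RkLE (Zp (X M b) (X M a)) (Bp (X M b) (X M a)) C := by
  -- number of vertices
  obtain ⟨N, hN⟩ := exists_nat_gt (b0 / L.r0)
  have hr0 := L.r0_pos
  have hb0 : 0 < b0 := by linarith
  have hNpos : 0 < N := by
    have : (0 : ℝ) < N := lt_of_le_of_lt (by positivity) hN
    exact_mod_cast this
  have hN' : (0 : ℝ) < N := by exact_mod_cast hNpos
  have ht : b0 / N < L.r0 := by
    rw [div_lt_iff₀ hN']
    rw [div_lt_iff₀ hr0] at hN
    linarith [mul_comm (N : ℝ) L.r0]
  set Pset : Set (Lp M) := {g | lamN N g < s} with hP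
  have hPo : IsOpen Pset := isOpen_lt (continuous_lamN N) continuous_const
  have hcont := contOn_polyH (L := L) (b := b0) hNpos ht
  have h1 : (1 : ℝ) ∈ Icc (0 : ℝ) 1 := ⟨zero_le_one, le_rfl⟩
  have hSR' : SR (X M b0) Pset {g | IsGeo s g} C := by
    refine SR_open hSR (fun g r => polyH L N g r) hcont (fun g _ => polyH_zero g)
      (fun g hg r hr => polyH_mem hNpos ht hr le_rfl hg)
      (fun g hg r hr => ?_) ?_ (fun g hg => ?_) (fun U hU hKU => ?_)
    · show lamN N (polyH L N g r) < s
      rw [lamN_polyH hNpos ht hr hg.1]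
      exact hg.2
    · rintro g ⟨-, t, hts, hg⟩
      exact (lamN_le_of_mem hNpos hg).trans_lt hts
    · exact ⟨lamN N g, hg.2, polyH_one hNpos ht hg.1 le_rfl⟩
    · exact stable_nhds (isCompact_X b0) _ hcont
        (fun g hg r hr => polyH_fix hL hNpos ht hr (by linarith) hg) hU hKU
  refine push_rank (X M) (fun _ _ h => X_mono h) has hsb hbb hPo
    (fun t hts g hg => (lamN_le_of_mem hNpos hg).trans_lt hts) hSR' ?_ (fun g r => polyH L N g r)
    hcont (fun g _ => polyH_zero g) (fun t ht' g hg r hr => polyH_mem hNpos ht hr ht' hg)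
    (lamN N) (continuous_lamN N).continuousOn (fun g hg => hg.2)
    (fun g hg t _ _ hl => polyH_one hNpos ht hg hl) hnc1 hnc2
  intro U hU hKU
  obtain ⟨e0, he0, hnear⟩ := P.near (by linarith) hsT hU (fun g hg => hKU hg)
  set e := min (min e0 (s - a)) (min (b - s) (T - s)) with he
  have hepos : 0 < e := lt_min (lt_min he0 (by linarith)) (lt_min (by linarith) (by linarith))
  have he1 : e ≤ e0 := (min_le_left _ _).trans (min_le_left _ _)
  have he2 : e ≤ s - a := (min_le_left _ _).trans (min_le_right _ _)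
  have he3 : e ≤ b - s := (min_le_right _ _).trans (min_le_left _ _)
  have he4 : e ≤ T - s := (min_le_right _ _).trans (min_le_right _ _)
  refine ⟨s - e, s + e, by linarith, by linarith, by linarith, by linarith,
    fun g r => P.H r g, ?_, fun g hg => P.H0 g (X_mono (by linarith) hg),
    fun g hg r hr => P.lev _ (by linarith) g hg r hr,
    fun g hg r hr => P.lev _ (by linarith) g hg r hr, fun g hg => hnear e hepos he1 g hg⟩
  have hswap : ContinuousOn (fun p : Lp M × ℝ => ((p.2, p.1) : ℝ × Lp M))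
      (X M (s + e) ×ˢ Icc (0 : ℝ) 1) := by fun_prop
  exact P.cont.comp hswap fun p hp => ⟨hp.2, X_mono (by linarith) hp.1⟩

end Crest.Agent.R231.GMPush136
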