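import Crest.Agent.R231.Asm_895
import Crest.Agent.R231.GMPoint_529
import Crest.Agent.R231.GMPushX_136
import Crest.Agent.R231.GMSR_537
import Crest.Agent.R231.GNon_651

/-!
# Row 231 (S0357), block GM: the end (helper160)

From ONE constant for all critical points (`point_bound`, helper529), the bound for one critical circle
(`OrbStmt`, helper537), the finite list of critical circles (helper893) and the push theorem (helper136)
to the field `gm : GMW M` of `Asmx895.Outs`.
-/

set_option autoImplicit false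
set_option linter.unusedSectionVars false

noncomputable section

open Set Filter Topology

namespace Crest.Agent.R231.GMEndx160

open Crest.Agent.R204
open Crest.Agent.R231.Pairx877 Crest.Agent.R231.GM898
open Crest.Agent.R231.GLugx576 Crest.Agent.R231.GMGeox889
open Crest.Agent.R231.PrimeGeox893 Crest.Agent.R231.CritPMx893
open Crest.Agent.R231.Instx895 Crest.Agent.R231.Asmx895

/-! ### algebra: from `RkLE` to the length of the homology -/

theorem length_quot_le {V : Type*} [AddCommGroup V] [Module F2 V] {Z B : Submodule F2 V} {C : ℕ}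
    (h : RkLE Z B C) : Module.length F2 (Z ⧸ B.comap Z.subtype) ≤ C := by
  obtain ⟨hf, hr⟩ := RkLE.iff_finrank.1 h
  set f : Z →ₗ[F2] V ⧸ B := B.mkQ ∘ₗ Z.subtype with hfdef
  have hk : LinearMap.ker f = B.comap Z.subtype := by
    rw [hfdef, LinearMap.ker_comp, Submodule.ker_mkQ]
  have hrange : LinearMap.range f = Z.map B.mkQ := by
    rw [hfdef, LinearMap.range_comp, Submodule.range_subtype]
  have e1 : (Z ⧸ B.comap Z.subtype) ≃ₗ[F2] (Z ⧸ LinearMap.ker f) :=
    Submodule.quotEquivOfEq _ _ hk.symm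
  have e2 : (Z ⧸ LinearMap.ker f) ≃ₗ[F2] LinearMap.range f := f.quotKerEquivRange
  have e3 : LinearMap.range f ≃ₗ[F2] (Z.map B.mkQ : Submodule F2 (V ⧸ B)) :=
    LinearEquiv.ofEq _ _ hrange
  rw [((e1.trans e2).trans e3).length_eq, Module.length_eq_finrank]
  exact_mod_cast hr

theorem length_HP_le {E : Type} [TopologicalSpace E] {X A : Set E} {C : ℕ}
    (h : RkLE (Zp X A) (Bp X A) C) : Module.length F2 (HP X A) ≤ C := length_quot_le h

/-! ### unions of circles -/

/-- the circle of rotations of a loop -/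
def circ {M : Type} [MetricSpace M] (g : Lp M) : Set (Lp M) := range fun a : UnitAddCircle => rot a g

theorem isCompact_circ {M : Type} [MetricSpace M] (g : Lp M) : IsCompact (circ g) :=
  isCompact_range (continuous_rot.comp (continuous_id.prodMk continuous_const))

theorem circ_eq_of_mem {M : Type} [MetricSpace M] {g g' : Lp M} (h : g' ∈ circ g) :
    circ g' = circ g := by
  obtain ⟨a, rfl⟩ := h
  ext x
  constructor
  · rintro ⟨b, rfl⟩
    exact ⟨b + a, (rot_rot b a g).symm⟩
  · rintro ⟨b, rfl⟩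
    refine ⟨b - a, ?_⟩
    show rot (b - a) (rot a g) = rot b g
    rw [rot_rot, sub_add_cancel]

theorem circ_eq_or_disjoint {M : Type} [MetricSpace M] (g g' : Lp M) :
    circ g = circ g' ∨ Disjoint (circ g) (circ g') := by
  by_cases h : Disjoint (circ g) (circ g')
  · exact Or.inr h
  · rw [Set.not_disjoint_iff] at h
    obtain ⟨x, h1, h2⟩ := h
    exact Or.inl ((circ_eq_of_mem h1).symm.trans (circ_eq_of_mem h2))

/-- finite unions of circles -/
theorem SR_circles {M : Type} [MetricSpace M] {Y A : Set (Lp M)} {C : ℕ} {ι : Type}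
    (t : Finset ι) (g : ι → Lp M) (h : ∀ i ∈ t, SR Y A (circ (g i)) C) :
    SR Y A (⋃ i ∈ t, circ (g i)) (t.card * C) := by
  classical
  induction t using Finset.induction_on with
  | empty => simpa using SR.empty Y A
  | insert i t hi ih =>
    have h1 := ih fun j hj => h j (Finset.mem_insert_of_mem hj)
    have h2 := h i (Finset.mem_insert_self i t)
    have hcl : IsClosed (⋃ j ∈ t, circ (g j)) :=
      (t.finite_toSet).isClosed_biUnion fun j _ => (isCompact_circ (g j)).isClosed
    rw [Finset.card_insert_of_notMem hi]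
    have e : (⋃ j ∈ insert i t, circ (g j)) = circ (g i) ∪ ⋃ j ∈ t, circ (g j) := by
      simp
    rw [e]
    by_cases hd : Disjoint (circ (g i)) (⋃ j ∈ t, circ (g j))
    · have := SR.union_disj (isCompact_circ (g i)).isClosed hcl hd h2 h1
      exact this.mono (by rw [add_mul, one_mul, add_comm])
    · rw [Set.disjoint_iUnion₂_right] at hd
      push Not at hd
      obtain ⟨j, hj, hdj⟩ := hd
      have e2 : circ (g i) = circ (g j) := (circ_eq_or_disjoint _ _).resolve_right hdj
      have e3 : circ (g i) ∪ (⋃ j ∈ t, circ (g j)) = ⋃ j ∈ t, circ (g j) := by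
        refine union_eq_right.2 ?_
        rw [e2]
        exact subset_biUnion_of_mem (u := fun j => circ (g j)) hj
      rw [e3]
      exact h1.mono (Nat.mul_le_mul_right C (Nat.le_succ _))

variable {M : Type} [MetricSpace M]

variable (M) in
/-- the bound for one critical circle (helper537) -/
def OrbStmt : Prop := ∀ (b s : ℝ) (g : Lp M) (C : ℕ), IsGeo s g → s < b →
  SR (X M b) (XL M s) {g} C → SR (X M b) (XL M s) (circ g) (4 * C)

/-- all critical points of one level -/
theorem SR_level {ι : Type} [Fintype ι] (L : LUG M) (hL : L.LocMin) (nb : NonBr M L.r0)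
    (S : PrimeSys M L.r0 ι) (horb : OrbStmt M) {s b : ℝ} (hsb : s < b) {C : ℕ}
    (h : ∀ g, IsGeo s g → SR (X M b) (XL M s) {g} C) :
    SR (X M b) (XL M s) {g | IsGeo s g} (2 * Fintype.card ι * (4 * C)) := by
  classical
  -- the critical circles
  set t : Finset (ι × Bool) :=
    Finset.univ.filter fun p => 0 < s ∧ ∃ m : ℕ, 0 < m ∧ s = m * S.l p.1 with ht
  have hex : ∀ p : ι × Bool, ∃ g : Lp M, p ∈ t → (IsGeo s g ∧
      {γ : Lp M | up γ ∈ S.orbit p.1 (sgn p.2) s} = circ g) := by
    intro p
    by_cases hp : p ∈ t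
    · have hp' := (Finset.mem_filter.1 hp).2
      obtain ⟨γ, h1, h2⟩ := exists_circle (S := S) L.r0_pos hp'.1 p.1 p.2 hp'.2
      exact ⟨γ, fun _ => ⟨isGeo_of_mem_critP L.r0_pos h1, h2⟩⟩
    · by_cases hne : Nonempty (Lp M)
      · exact ⟨hne.some, fun h => absurd h hp⟩
      · exfalso
        exact hne ⟨(exists_up (g := fun _ => (S.c p.1 0)) continuous_const fun _ => rfl).choose⟩
  choose γ hγ using hex
  have key := SR_circles (Y := X M b) (A := XL M s) (C := 4 * C) t γ fun p hp =>
    horb b s (γ p) C (hγ p hp).1 hsb (h _ (hγ p hp).1)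
  have e : {g : Lp M | IsGeo s g} = ⋃ p ∈ t, circ (γ p) := by
    rw [setOf_isGeo L hL nb (S := S) s]
    ext g
    have h1 : ∀ e : Bool, g ∈ critP S e s ↔ ∃ i, (i, e) ∈ t ∧ g ∈ circ (γ (i, e)) := by
      intro e
      constructor
      · intro hg
        have hs := pos_of_mem_critP hg
        obtain ⟨i, m, hm, he, ho⟩ := hg
        have hi : (i, e) ∈ t := Finset.mem_filter.2 ⟨Finset.mem_univ _, hs, m, hm, he⟩
        refine ⟨i, hi, ?_⟩
        rw [← (hγ _ hi).2]
        exact ho
      · rintro ⟨i, hi, hg⟩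
        rw [← (hγ _ hi).2] at hg
        obtain ⟨-, m, hm, he⟩ := (Finset.mem_filter.1 hi).2
        exact ⟨i, m, hm, he, hg⟩
    constructor
    · rintro (hg | hg)
      · obtain ⟨i, hi, hg⟩ := (h1 true).1 hg
        exact mem_biUnion (x := (i, true)) (t := fun p => circ (γ p)) hi hg
      · obtain ⟨i, hi, hg⟩ := (h1 false).1 hg
        exact mem_biUnion (x := (i, false)) (t := fun p => circ (γ p)) hi hg
    · intro hg
      obtain ⟨⟨i, e⟩, hi, hg⟩ := mem_iUnion₂.1 hg
      cases e with
      | true => exact Or.inl ((h1 true).2 ⟨i, hi, hg⟩)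
      | false => exact Or.inr ((h1 false).2 ⟨i, hi, hg⟩)
  rw [e]
  refine key.mono (Nat.mul_le_mul_right _ ?_)
  refine (Finset.card_le_univ t).trans ?_
  rw [Fintype.card_prod, Fintype.card_bool, Nat.mul_comm]

/-- **(GM)** from one constant for all critical points -/
theorem gmw_of_point [CompactSpace M] {ι : Type} [Finite ι] (L : LUG M) (hL : L.LocMin)
    (nb : NonBr M L.r0) (S : PrimeSys M L.r0 ι)
    (hpush : ∀ T : ℝ, Nonempty (GCrossx449.Push M T)) (horb : OrbStmt M)
    (h : ∃ C : ℕ, ∀ (s : ℝ) (g : Lp M), IsGeo s g → ∀ b : ℝ, s < b → b ≤ 2 * s →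
      SR (X M b) (XL M s) {g} C) : GMW M := by
  classical
  have := Fintype.ofFinite ι
  obtain ⟨C, h⟩ := h
  refine ⟨2 * Fintype.card ι * (4 * C), fun s hs => ?_⟩
  have hspos : 0 < s := by
    obtain ⟨γ, hγ⟩ := hs
    exact hγ.1
  refine ⟨s, hspos, fun a b ha _ has hsb hbs honly => ?_⟩
  obtain ⟨P⟩ := hpush (s + 1)
  have hnon : ∀ a b : ℝ, 0 ≤ a → a ≤ b → (∀ s ∈ CritS M, ¬ (a ≤ s ∧ s ≤ b)) →
      Zp (X M b) (X M a) ≤ Bp (X M b) (X M a) := fun a b h1 h2 h3 => GNonx651.acyclic L h1 h2 h3
  have hSR := SR_level L hL nb S horb hsb fun g hg => h s g hg b hsb (by linarith)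
  refine length_HP_le (GMPush136.rank_of_SR hL P ha has hsb le_rfl (by linarith) hSR ?_ ?_)
  · intro t h1 h2
    refine hnon a t ha h1 fun s' hs' h3 => ?_
    have := honly s' hs' h3.1 (by linarith [h3.2])
    linarith [h3.2]
  · intro t u h1 h2 h3
    refine hnon t u (by linarith) h2 fun s' hs' h4 => ?_
    have := honly s' hs' (by linarith [h4.1]) (by linarith [h4.2])
    linarith [h4.1]

end Crest.Agent.R231.GMEndx160
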