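import Mathlib

/-!
# Row 231, block GM (helper898): the discrete gradient step near an isolated critical point

`GD h R s₀ u e` : `u` is a compactly supported continuous field on the normed space `E`, and the steps
`x ↦ x - t u(x)`, `0 ≤ t ≤ s₀`, decrease `h` by at least `t e(x)`; away from `0` (and inside `ball R`)
`e` is bounded below and dominates a multiple of `‖u‖`.

`exists_GD` : such data exist if `h` is `C²` at `0` and `0` is an isolated critical point.
-/

set_option autoImplicit false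

noncomputable section

open Topology Set Metric

namespace Crest.Agent.R231.GM898

variable {E : Type*} [NormedAddCommGroup E] [NormedSpace ℝ E]

/-- gradient-like steps for `h` near `0` -/
structure GD (h : E → ℝ) (R s₀ : ℝ) (u : E → E) (e : E → ℝ) : Prop where
  R_pos : 0 < R
  s_pos : 0 < s₀
  cont_h : ContinuousOn h (ball 0 (4 * R))
  h_zero : h 0 = 0
  cont_u : Continuous u
  u_zero : ∀ x, 3 * R ≤ ‖x‖ → u x = 0
  bound : ∀ x, s₀ * ‖u x‖ ≤ R
  e_nonneg : ∀ x, 0 ≤ e x
  dec : ∀ x, ‖x‖ < 4 * R → ∀ t, 0 ≤ t → t ≤ s₀ → h (x - t • u x) ≤ h x - t * e x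
  shell : ∀ ρ, 0 < ρ → ∃ μ, 0 < μ ∧ ∀ x, ρ ≤ ‖x‖ → ‖x‖ ≤ R → μ * ‖u x‖ ≤ e x ∧ μ ≤ e x

/-- second order Taylor estimate for a function whose derivative is Lipschitz on a ball -/
theorem taylor_le {h : E → ℝ} {r K : ℝ} (hd : ∀ x ∈ ball (0 : E) r, DifferentiableAt ℝ h x)
    (hK : ∀ x ∈ ball (0 : E) r, ∀ y ∈ ball (0 : E) r, ‖fderiv ℝ h x - fderiv ℝ h y‖ ≤ K * ‖x - y‖)
    (hK0 : 0 ≤ K) {x y : E} (hx : x ∈ ball (0 : E) r) (hy : y ∈ ball (0 : E) r) :
    |h y - h x - fderiv ℝ h x (y - x)| ≤ K * ‖y - x‖ ^ 2 := by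
  have hconv : Convex ℝ (ball (0 : E) r ∩ closedBall x ‖y - x‖) :=
    (convex_ball _ _).inter (convex_closedBall _ _)
  have h1 := hconv.norm_image_sub_le_of_norm_hasFDerivWithin_le' (f := h)
    (f' := fun z => fderiv ℝ h z) (φ := fderiv ℝ h x) (C := K * ‖y - x‖) (x := x) (y := y)
    (fun z hz => (hd z hz.1).hasFDerivAt.hasFDerivWithinAt)
    (fun z hz => by
      refine (hK z hz.1 x hx).trans ?_
      have : ‖z - x‖ ≤ ‖y - x‖ := by rw [← dist_eq_norm]; exact hz.2
      exact mul_le_mul_of_nonneg_left this hK0)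
    ⟨hx, mem_closedBall_self (norm_nonneg _)⟩
    ⟨hy, by rw [mem_closedBall, dist_eq_norm]⟩
  rw [Real.norm_eq_abs] at h1
  calc |h y - h x - fderiv ℝ h x (y - x)| ≤ K * ‖y - x‖ * ‖y - x‖ := h1
    _ = K * ‖y - x‖ ^ 2 := by ring

theorem exists_GD [FiniteDimensional ℝ E] {h : E → ℝ} (hh : ContDiffAt ℝ 2 h 0) (h0 : h 0 = 0)
    (hiso : ∀ᶠ x in 𝓝[≠] (0 : E), fderiv ℝ h x ≠ 0) :
    ∃ (R s₀ : ℝ) (u : E → E) (e : E → ℝ), GD h R s₀ u e := by
  classical
  -- a radius
  have hf1 : ContDiffAt ℝ 1 (fderiv ℝ h) 0 := hh.fderiv_right (by norm_num)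
  obtain ⟨K, W1, hW1, hLip⟩ := hf1.exists_lipschitzOnWith
  have hW2 : ∀ᶠ x in 𝓝 (0 : E), DifferentiableAt ℝ h x := by
    have := hh.eventually (by simp)
    filter_upwards [this] with x hx
    exact hx.differentiableAt (by norm_num)
  have hW3 : ∀ᶠ x in 𝓝 (0 : E), x ≠ 0 → fderiv ℝ h x ≠ 0 := by
    rwa [eventually_nhdsWithin_iff] at hiso
  obtain ⟨r, hr, hball⟩ := Metric.mem_nhds_iff.1 (Filter.inter_mem hW1 (Filter.inter_mem hW2 hW3))
  set R : ℝ := r / 5 with hR
  have hRpos : 0 < R := by positivity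
  have hr5 : r = 5 * R := by rw [hR]; ring
  have hd : ∀ x ∈ ball (0 : E) r, DifferentiableAt ℝ h x := fun x hx => (hball hx).2.1
  have hne : ∀ x ∈ ball (0 : E) r, x ≠ 0 → fderiv ℝ h x ≠ 0 := fun x hx => (hball hx).2.2
  have hK : ∀ x ∈ ball (0 : E) r, ∀ y ∈ ball (0 : E) r,
      ‖fderiv ℝ h x - fderiv ℝ h y‖ ≤ (K : ℝ) * ‖x - y‖ := by
    intro x hx y hy
    have := hLip.dist_le_mul x (hball hx).1 y (hball hy).1
    rwa [dist_eq_norm, dist_eq_norm] at this
  have hcf : ContinuousOn (fderiv ℝ h) (ball (0 : E) r) :=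
    (hLip.mono fun x hx => (hball hx).1).continuousOn
  -- the field
  let b := Module.finBasis ℝ E
  set v : E → E := fun x => ∑ i, (fderiv ℝ h x (b i)) • b i with hv
  set q : E → ℝ := fun x => ∑ i, (fderiv ℝ h x (b i)) ^ 2 with hq
  have hq0 : ∀ x, 0 ≤ q x := fun x => Finset.sum_nonneg fun i _ => sq_nonneg _
  have hDv : ∀ x, fderiv ℝ h x (v x) = q x := by
    intro x
    rw [hv, map_sum]
    simp only [map_smul, smul_eq_mul, hq]
    exact Finset.sum_congr rfl fun i _ => by ring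
  set κ : ℝ := ∑ i, ‖b i‖ ^ 2 with hκ
  have hκ0 : 0 ≤ κ := Finset.sum_nonneg fun i _ => sq_nonneg _
  have hvq : ∀ x, ‖v x‖ ^ 2 ≤ κ * q x := by
    intro x
    have h1 : ‖v x‖ ≤ ∑ i, |fderiv ℝ h x (b i)| * ‖b i‖ := by
      refine (norm_sum_le _ _).trans (le_of_eq ?_)
      exact Finset.sum_congr rfl fun i _ => by rw [norm_smul, Real.norm_eq_abs]
    have h2 : (∑ i, |fderiv ℝ h x (b i)| * ‖b i‖) ^ 2 ≤
        (∑ i, |fderiv ℝ h x (b i)| ^ 2) * ∑ i, ‖b i‖ ^ 2 := Finset.sum_mul_sq_le_sq_mul_sq _ _ _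
    simp only [sq_abs] at h2
    calc ‖v x‖ ^ 2 ≤ (∑ i, |fderiv ℝ h x (b i)| * ‖b i‖) ^ 2 := by
          exact pow_le_pow_left₀ (norm_nonneg _) h1 2
      _ ≤ q x * κ := h2
      _ = κ * q x := by ring
  have hcv : ContinuousOn v (ball (0 : E) r) := by
    refine continuousOn_finset_sum _ fun i _ => ContinuousOn.smul ?_ continuousOn_const
    exact hcf.clm_apply continuousOn_const
  have hcq : ContinuousOn q (ball (0 : E) r) := by
    refine continuousOn_finset_sum _ fun i _ => ContinuousOn.pow ?_ 2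
    exact hcf.clm_apply continuousOn_const
  have hqpos : ∀ x ∈ ball (0 : E) r, x ≠ 0 → 0 < q x := by
    intro x hx hx0
    refine lt_of_le_of_ne (hq0 x) fun hcon => hne x hx hx0 ?_
    have h1 : ∀ i, fderiv ℝ h x (b i) = 0 := by
      intro i
      have h2 := (Finset.sum_eq_zero_iff_of_nonneg (s := Finset.univ)
        (f := fun i => (fderiv ℝ h x (b i)) ^ 2) (fun i _ => sq_nonneg _)).1 hcon.symm i
        (Finset.mem_univ i)
      exact pow_eq_zero_iff (by norm_num) |>.1 h2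
    have h3 : (fderiv ℝ h x : E →ₗ[ℝ] ℝ) = 0 := b.ext fun i => by simpa using h1 i
    ext y
    have := LinearMap.congr_fun h3 y
    simpa using this
  -- the cut-off
  set χ : E → ℝ := fun x => max 0 (min 1 (3 - ‖x‖ / R)) with hχ
  have hχc : Continuous χ := by fun_prop
  have hχ0 : ∀ x, 0 ≤ χ x := fun x => le_max_left _ _
  have hχ1 : ∀ x, χ x ≤ 1 := fun x => max_le zero_le_one (min_le_left _ _)
  have hχz : ∀ x, 3 * R ≤ ‖x‖ → χ x = 0 := by
    intro x hx
    have h1 : 3 ≤ ‖x‖ / R := by rw [le_div_iff₀ hRpos]; exact hx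
    exact max_eq_left ((min_le_right _ _).trans (by linarith))
  have hχo : ∀ x, ‖x‖ ≤ 2 * R → χ x = 1 := by
    intro x hx
    have h1 : ‖x‖ / R ≤ 2 := by rw [div_le_iff₀ hRpos]; exact hx
    have h2 : min 1 (3 - ‖x‖ / R) = 1 := min_eq_left (by linarith)
    rw [hχ]
    show max 0 (min 1 (3 - ‖x‖ / R)) = 1
    rw [h2]
    exact max_eq_right zero_le_one
  set u : E → E := fun x => χ x • v x with hu
  have huz : ∀ x, 3 * R ≤ ‖x‖ → u x = 0 := by
    intro x hx
    show χ x • v x = 0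
    rw [hχz x hx, zero_smul]
  have hcu : Continuous u := by
    rw [continuous_iff_continuousAt]
    intro x
    by_cases hx : ‖x‖ < r
    · have h1 : ContinuousAt v x := hcv.continuousAt (isOpen_ball.mem_nhds (by simpa using hx))
      exact hχc.continuousAt.smul h1
    · have h1 : 3 * R < ‖x‖ := by
        have : r ≤ ‖x‖ := not_lt.1 hx
        linarith
      have h2 : ∀ᶠ y in 𝓝 x, 3 * R < ‖y‖ := (continuous_norm.tendsto x).eventually (lt_mem_nhds h1)
      have h3 : u =ᶠ[𝓝 x] fun _ => 0 := by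
        filter_upwards [h2] with y hy
        exact huz y hy.le
      exact (continuousAt_const (y := (0 : E))).congr h3.symm
  -- a bound for `u`
  obtain ⟨U0, hU0⟩ : ∃ U0, ∀ x, ‖u x‖ ≤ U0 := by
    obtain ⟨C, hC⟩ := (isCompact_closedBall (0 : E) (3 * R)).exists_bound_of_continuousOn
      hcu.continuousOn
    refine ⟨max C 0, fun x => ?_⟩
    by_cases hx : ‖x‖ ≤ 3 * R
    · exact (hC x (by simpa using hx)).trans (le_max_left _ _)
    · rw [huz x (not_le.1 hx).le, norm_zero]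
      exact le_max_right _ _
  have hU0' : 0 ≤ U0 := (norm_nonneg _).trans (hU0 0)
  set s₀ : ℝ := min (R / (U0 + 1)) (1 / (2 * (K * κ + 1))) with hs₀
  have hKκ : 0 ≤ (K : ℝ) * κ := mul_nonneg K.2 hκ0
  have hs₀pos : 0 < s₀ := lt_min (by positivity) (by positivity)
  have hs₀U : ∀ x, s₀ * ‖u x‖ ≤ R := by
    intro x
    have h1 : s₀ ≤ R / (U0 + 1) := min_le_left _ _
    calc s₀ * ‖u x‖ ≤ R / (U0 + 1) * (U0 + 1) :=
          mul_le_mul h1 ((hU0 x).trans (by linarith)) (norm_nonneg _) (by positivity)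
      _ = R := by field_simp
  set e : E → ℝ := fun x => χ x * q x / 2 with he
  refine ⟨R, s₀, u, e, ?_⟩
  refine ⟨hRpos, hs₀pos, ?_, h0, hcu, huz, hs₀U, ?_, ?_, ?_⟩
  · intro x hx
    refine (hd x ?_).continuousAt.continuousWithinAt
    rw [mem_ball_zero_iff] at hx ⊢
    linarith
  · intro x
    exact div_nonneg (mul_nonneg (hχ0 x) (hq0 x)) (by norm_num)
  · intro x hx t ht hts
    by_cases hx3 : 3 * R ≤ ‖x‖
    · have h1 : e x = 0 := by
        show χ x * q x / 2 = 0
        rw [hχz x hx3]; ring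
      rw [huz x hx3, smul_zero, sub_zero, h1, mul_zero, sub_zero]
    · have hx3' : ‖x‖ < 3 * R := not_le.1 hx3
      have hstep : ‖t • u x‖ ≤ R := by
        rw [norm_smul, Real.norm_eq_abs, abs_of_nonneg ht]
        exact (mul_le_mul_of_nonneg_right hts (norm_nonneg _)).trans (hs₀U x)
      have hxr : x ∈ ball (0 : E) r := by rw [mem_ball_zero_iff]; linarith
      have hyr : x - t • u x ∈ ball (0 : E) r := by
        rw [mem_ball_zero_iff]
        have := norm_sub_le x (t • u x)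
        linarith
      have h1 := taylor_le hd hK K.2 hxr hyr
      have h2 : x - t • u x - x = -((t * χ x) • v x) := by
        show x - t • χ x • v x - x = _
        rw [smul_smul]; abel
      rw [h2, map_neg, map_smul, hDv, norm_neg, norm_smul] at h1
      have h3 : (‖t * χ x‖ * ‖v x‖) ^ 2 = (t * χ x) ^ 2 * ‖v x‖ ^ 2 := by
        rw [mul_pow, Real.norm_eq_abs, sq_abs]
      rw [h3, smul_eq_mul] at h1
      have h4 := (abs_le.1 h1).2
      have h5 : (K : ℝ) * ((t * χ x) ^ 2 * ‖v x‖ ^ 2) ≤ (t * χ x) * (q x / 2) := by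
        have h6 : (K : ℝ) * ((t * χ x) ^ 2 * ‖v x‖ ^ 2) ≤ (K : ℝ) * ((t * χ x) ^ 2 * (κ * q x)) :=
          mul_le_mul_of_nonneg_left (mul_le_mul_of_nonneg_left (hvq x) (sq_nonneg _)) K.2
        have h7 : t * χ x ≤ 1 / (2 * (K * κ + 1)) := by
          calc t * χ x ≤ t * 1 := mul_le_mul_of_nonneg_left (hχ1 x) ht
            _ = t := mul_one t
            _ ≤ s₀ := hts
            _ ≤ _ := min_le_right _ _
        have h8 : (t * χ x) * (K * κ) ≤ 1 / 2 := by
          have h9 : (t * χ x) * (K * κ) ≤ 1 / (2 * (K * κ + 1)) * (K * κ) :=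
            mul_le_mul_of_nonneg_right h7 hKκ
          refine h9.trans ?_
          rw [div_mul_eq_mul_div, one_mul, div_le_div_iff₀ (by positivity) (by norm_num)]
          nlinarith
        have h10 : 0 ≤ (t * χ x) * q x := mul_nonneg (mul_nonneg ht (hχ0 x)) (hq0 x)
        calc (K : ℝ) * ((t * χ x) ^ 2 * ‖v x‖ ^ 2) ≤ (K : ℝ) * ((t * χ x) ^ 2 * (κ * q x)) := h6
          _ = ((t * χ x) * (K * κ)) * ((t * χ x) * q x) := by ring
          _ ≤ 1 / 2 * ((t * χ x) * q x) := mul_le_mul_of_nonneg_right h8 h10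
          _ = (t * χ x) * (q x / 2) := by ring
      have h6 : t * e x = (t * χ x) * (q x / 2) := by
        show t * (χ x * q x / 2) = _
        ring
      rw [h6]
      have h7 : (t * χ x) * q x = (t * χ x) * (q x / 2) + (t * χ x) * (q x / 2) := by ring
      linarith
  · intro ρ hρ
    by_cases hne' : (closedBall (0 : E) R ∩ {x | ρ ≤ ‖x‖}).Nonempty
    · have hcomp : IsCompact (closedBall (0 : E) R ∩ {x | ρ ≤ ‖x‖}) :=
        (isCompact_closedBall _ _).inter_right (isClosed_le continuous_const continuous_norm)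
      have hsub : closedBall (0 : E) R ∩ {x | ρ ≤ ‖x‖} ⊆ ball (0 : E) r := by
        intro x hx
        have := hx.1
        rw [mem_closedBall_zero_iff] at this
        rw [mem_ball_zero_iff]; linarith
      obtain ⟨x0, hx0, hmin⟩ := hcomp.exists_isMinOn hne' (hcq.mono hsub)
      have hq1 : 0 < q x0 := by
        refine hqpos x0 (hsub hx0) fun h => ?_
        have := hx0.2
        rw [h] at this
        simp only [mem_setOf_eq, norm_zero] at this
        linarith
      have hmin' : ∀ x, ρ ≤ ‖x‖ → ‖x‖ ≤ R → q x0 ≤ q x := fun x h1 h2 =>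
        hmin ⟨by rw [mem_closedBall_zero_iff]; exact h2, h1⟩
      refine ⟨q x0 / (2 * (U0 + 1)), by positivity, fun x h1 h2 => ?_⟩
      have h3 : e x = q x / 2 := by
        show χ x * q x / 2 = _
        rw [hχo x (by linarith), one_mul]
      have h4 := hmin' x h1 h2
      rw [h3]
      constructor
      · calc q x0 / (2 * (U0 + 1)) * ‖u x‖ ≤ q x0 / (2 * (U0 + 1)) * (U0 + 1) :=
              mul_le_mul_of_nonneg_left ((hU0 x).trans (by linarith)) (by positivity)
          _ = q x0 / 2 := by field_simp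
          _ ≤ q x / 2 := by linarith
      · have h5 : q x0 / (2 * (U0 + 1)) ≤ q x0 / 2 := by
          apply div_le_div_of_nonneg_left hq1.le (by norm_num)
          linarith
        linarith
    · refine ⟨1, one_pos, fun x h1 h2 => ?_⟩
      exact (hne' ⟨x, by rw [mem_closedBall_zero_iff]; exact h2, h1⟩).elim

end Crest.Agent.R231.GM898
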