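import Crest.Agent.R231.GMRank_898
import Crest.Agent.R231.GMStep_898
import Crest.Agent.R231.PairExc_877

/-!
# Row 231, block GM (helper898): (B2), finite rank at an isolated critical point
-/

set_option autoImplicit false

noncomputable section

open Topology Set Metric

namespace Crest.Agent.R231.GM898

open Crest.Agent.R204 Crest.Agent.R231.Pairx877

/-! ## iteration of a map homotopic to the identity -/

section iter

variable {E : Type} [TopologicalSpace E] {T : E → E} {F : E → ℝ → E}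

/-- `c + T_# c` is a relative boundary of a forward invariant pair -/
theorem one_step {Ω A : Set E} (hΩ : ∀ x ∈ Ω, ∀ t ∈ Icc (0 : ℝ) 1, F x t ∈ Ω)
    (hA : ∀ x ∈ A, ∀ t ∈ Icc (0 : ℝ) 1, F x t ∈ A)
    (hF : Continuous fun p : E × ℝ => F p.1 p.2) (hF0 : ∀ x, F x 0 = x) (hF1 : ∀ x, F x 1 = T x)
    (hT : Continuous T) {c : CE E} (hc : c ∈ Zp Ω A) :
    c + push univ T hT.continuousOn c ∈ Bp Ω A := by
  have hcF : ContinuousOn (fun p : E × ℝ => F p.1 p.2) ((univ : Set E) ×ˢ Icc 0 1) :=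
    hF.continuousOn
  have h1 := bd_prismP (X := (univ : Set E)) (F := F) (hF := hcF) (f0 := fun x => x) (f1 := T)
    (h0 := continuousOn_id) (h1 := hT.continuousOn) (fun y _ => hF0 y) (fun y _ => hF1 y) c
    (by rw [CS_univ]; trivial)
  rw [push_id c (by rw [CS_univ]; trivial)] at h1
  rw [mem_Bp]
  refine ⟨prismP univ F hcF c, prismP_mem hΩ c hc.1, ?_⟩
  rw [h1]
  have e : ∀ a p : CE E, a - (a + p) = -p := fun a p => by abel
  rw [e]
  exact Submodule.neg_mem _ (prismP_mem hA _ hc.2)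

theorem push_mem_Zp {f : E → E} (hf : Continuous f) {Ω A Ω' A' : Set E} (h1 : MapsTo f Ω Ω')
    (h2 : MapsTo f A A') {c : CE E} (hc : c ∈ Zp Ω A) :
    push univ f hf.continuousOn c ∈ Zp Ω' A' := by
  refine ⟨push_mem h1 c hc.1, ?_⟩
  show bdE E (push univ f hf.continuousOn c) ∈ CS A'
  rw [bd_push c (by rw [CS_univ]; trivial)]
  exact push_mem h2 _ hc.2

theorem push_mem_Bp {f : E → E} (hf : Continuous f) {Ω A Ω' A' : Set E} (h1 : MapsTo f Ω Ω')
    (h2 : MapsTo f A A') {c : CE E} (hc : c ∈ Bp Ω A) :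
    push univ f hf.continuousOn c ∈ Bp Ω' A' := by
  rw [mem_Bp] at hc ⊢
  obtain ⟨w, hw, h⟩ := hc
  refine ⟨push univ f hf.continuousOn w, push_mem h1 w hw, ?_⟩
  rw [bd_push w (by rw [CS_univ]; trivial), ← map_sub]
  exact push_mem h2 _ h

theorem push_iter (hT : Continuous T) (n : ℕ) (c : CE E) :
    push univ (T^[n + 1]) (hT.iterate (n + 1)).continuousOn c =
      push univ T hT.continuousOn (push univ (T^[n]) (hT.iterate n).continuousOn c) := by
  have h := push_push (X := (univ : Set E)) (Y' := (univ : Set E)) (f := T^[n]) (k := T)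
    (l := T^[n + 1]) (hf := (hT.iterate n).continuousOn) (hk := hT.continuousOn)
    (hl := (hT.iterate (n + 1)).continuousOn) (fun x _ => trivial)
    (fun x _ => (Function.iterate_succ_apply' T n x).symm) c (by rw [CS_univ]; trivial)
  exact h.symm

theorem iter_step {Ω A : Set E} (hΩ : ∀ x ∈ Ω, ∀ t ∈ Icc (0 : ℝ) 1, F x t ∈ Ω)
    (hA : ∀ x ∈ A, ∀ t ∈ Icc (0 : ℝ) 1, F x t ∈ A)
    (hF : Continuous fun p : E × ℝ => F p.1 p.2) (hF0 : ∀ x, F x 0 = x) (hF1 : ∀ x, F x 1 = T x)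
    (hT : Continuous T) (n : ℕ) {c : CE E} (hc : c ∈ Zp Ω A) :
    c + push univ (T^[n]) (hT.iterate n).continuousOn c ∈ Bp Ω A := by
  have hT' : MapsTo T Ω Ω := fun x hx => by rw [← hF1]; exact hΩ x hx 1 ⟨zero_le_one, le_rfl⟩
  have hT'A : MapsTo T A A := fun x hx => by rw [← hF1]; exact hA x hx 1 ⟨zero_le_one, le_rfl⟩
  induction n with
  | zero =>
    have h1 : push univ (T^[0]) (hT.iterate 0).continuousOn c = c :=
      push_id (hi := continuousOn_id) c (by rw [CS_univ]; trivial)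
    rw [h1, add_self_CE]
    exact Submodule.zero_mem _
  | succ n ih =>
    have h2 := one_step hΩ hA hF hF0 hF1 hT
      (push_mem_Zp (hT.iterate n) (hT'.iterate n) (hT'A.iterate n) hc)
    rw [push_iter hT n c]
    have e : ∀ a b d : CE E, a + d = (a + b) + (b + d) := fun a b d => by
      have : (a + b) + (b + d) = a + d + (b + b) := by abel
      rw [this, add_self_CE, add_zero]
    rw [e c (push univ (T^[n]) (hT.iterate n).continuousOn c)]
    exact Submodule.add_mem _ ih h2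

end iter

/-! ## descending lemma -/

/-- if outside `Ω1` every step decreases `h` by at least `δ` and `h ≥ -c` there, then after finitely
many steps everything is in `Ω1` -/
theorem descend {E : Type*} {T : E → E} {h : E → ℝ} {Ω Ω1 : Set E} {δ c H0 : ℝ} (hδ : 0 < δ)
    (h1 : MapsTo T Ω Ω) (h2 : MapsTo T Ω1 Ω1) (h3 : ∀ x ∈ Ω, x ∉ Ω1 → h (T x) ≤ h x - δ)
    (h4 : ∀ x ∈ Ω, x ∉ Ω1 → -c ≤ h x) (h5 : ∀ x ∈ Ω, x ∉ Ω1 → h x ≤ H0) :
    ∃ i : ℕ, MapsTo (T^[i]) Ω Ω1 := by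
  obtain ⟨i, hi⟩ := exists_nat_gt ((H0 + c) / δ)
  refine ⟨i, fun x hx => ?_⟩
  by_contra hcon
  -- all earlier iterates are outside `Ω1`
  have h6 : ∀ j ≤ i, T^[j] x ∉ Ω1 := by
    intro j hj hmem
    apply hcon
    obtain ⟨k, rfl⟩ := Nat.exists_eq_add_of_le hj
    rw [add_comm, Function.iterate_add_apply]
    exact h2.iterate k hmem
  have h7 : ∀ j ≤ i, h (T^[j] x) ≤ H0 - j * δ := by
    intro j
    induction j with
    | zero =>
      intro _
      simpa using h5 x hx (h6 0 (Nat.zero_le _))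
    | succ j ih =>
      intro hj
      have h8 := h3 (T^[j] x) (h1.iterate j hx) (h6 j (by omega))
      rw [Function.iterate_succ_apply']
      have h9 := ih (by omega)
      push_cast
      linarith
  have h8 := h7 i le_rfl
  have h9 := h4 (T^[i] x) (h1.iterate i hx) hcon
  have h10 : H0 + c < i * δ := by
    rw [div_lt_iff₀ hδ] at hi
    exact hi
  linarith

/-! ## the forward invariant sets -/

section sets

variable {E : Type} [NormedAddCommGroup E] [NormedSpace ℝ E]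

/-- low part of a ball -/
def VV (h : E → ℝ) (P c : ℝ) : Set E := {x | ‖x‖ < P ∧ h x < -c}

/-- neighbourhood of `0` in which one can only leave `ball r` at low level -/
def NN (h : E → ℝ) (r ρ μ c : ℝ) : Set E := {x | ‖x‖ < r ∧ h x < -c + μ * (r - max ‖x‖ ρ)}

variable {h : E → ℝ} {R s₀ : ℝ} {u : E → E} {e : E → ℝ} (G : GD h R s₀ u e)

include G in
theorem GD.norm_step {s t : ℝ} (hs : 0 < s) (ht0 : 0 ≤ t) (hts : t ≤ s) {b : ℝ} (hsb : s * R ≤ s₀ * b)
    (x : E) : ‖t • u x‖ ≤ b := by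
  rw [norm_smul, Real.norm_eq_abs, abs_of_nonneg ht0]
  have h1 : t * ‖u x‖ ≤ s * ‖u x‖ := mul_le_mul_of_nonneg_right hts (norm_nonneg _)
  have h2 : s₀ * (s * ‖u x‖) ≤ s₀ * b := by
    calc s₀ * (s * ‖u x‖) = s * (s₀ * ‖u x‖) := by ring
      _ ≤ s * R := mul_le_mul_of_nonneg_left (G.bound x) hs.le
      _ ≤ s₀ * b := hsb
  exact h1.trans (le_of_mul_le_mul_left h2 G.s_pos)

include G in
/-- the balls of radius `≥ 7/2 R` are forward invariant, the function decreases -/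
theorem GD.step_basic {s t : ℝ} (hs : 0 < s) (hs2 : s ≤ s₀ / 2) (ht0 : 0 ≤ t) (hts : t ≤ s) {x : E}
    {P : ℝ} (hP : 7 / 2 * R ≤ P) (hP4 : P ≤ 4 * R) (hx : ‖x‖ < P) :
    ‖x - t • u x‖ < P ∧ h (x - t • u x) ≤ h x - t * e x := by
  have hR := G.R_pos
  have hs0 := G.s_pos
  have h1 : ‖t • u x‖ ≤ R / 2 := G.norm_step hs ht0 hts (by nlinarith) x
  constructor
  · by_cases h3 : 3 * R ≤ ‖x‖
    · rw [G.u_zero x h3, smul_zero, sub_zero]; exact hx
    · have := norm_sub_le x (t • u x)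
      linarith [not_le.1 h3]
  · exact G.dec x (by linarith) t ht0 (by linarith)

include G in
theorem GD.step_VV {s t : ℝ} (hs : 0 < s) (hs2 : s ≤ s₀ / 2) (ht0 : 0 ≤ t) (hts : t ≤ s) {x : E}
    {P c : ℝ} (hP : 7 / 2 * R ≤ P) (hP4 : P ≤ 4 * R) (hx : x ∈ VV h P c) :
    x - t • u x ∈ VV h P c := by
  obtain ⟨h1, h2⟩ := G.step_basic hs hs2 ht0 hts hP hP4 hx.1
  refine ⟨h1, ?_⟩
  have h3 : 0 ≤ t * e x := mul_nonneg ht0 (G.e_nonneg x)
  have := hx.2
  linarith

include G in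
theorem GD.step_neg {s t : ℝ} (hs : 0 < s) (hs2 : s ≤ s₀ / 2) (ht0 : 0 ≤ t) (hts : t ≤ s) {x : E}
    {P a : ℝ} (hP : 7 / 2 * R ≤ P) (hP4 : P ≤ 4 * R) (hxP : ‖x‖ < P) (hx : h x < a) :
    h (x - t • u x) < a := by
  obtain ⟨-, h2⟩ := G.step_basic hs hs2 ht0 hts hP hP4 hxP
  have h3 : 0 ≤ t * e x := mul_nonneg ht0 (G.e_nonneg x)
  linarith

include G in
theorem GD.step_NN {s t : ℝ} (hs : 0 < s) (hs2 : s ≤ s₀ / 2) (ht0 : 0 ≤ t) (hts : t ≤ s) {x : E}
    {P r ρ μ c : ℝ} (hP : 7 / 2 * R ≤ P) (hP4 : P ≤ 4 * R) (hr : r ≤ R) (_hρ : 0 < ρ)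
    (hμ : 0 < μ) (hsρ : s * R ≤ s₀ * (ρ / 2))
    (hshell : ∀ x, ρ / 2 ≤ ‖x‖ → ‖x‖ ≤ R → μ * ‖u x‖ ≤ e x)
    (hx : x ∈ NN h r ρ μ c ∪ VV h P c) : x - t • u x ∈ NN h r ρ μ c ∪ VV h P c := by
  rcases hx with hx | hx
  swap
  · exact Or.inr (G.step_VV hs hs2 ht0 hts hP hP4 hx)
  have hR := G.R_pos
  have hxP : ‖x‖ < P := by have := hx.1; linarith
  obtain ⟨h1, h2⟩ := G.step_basic hs hs2 ht0 hts hP hP4 hxP
  have h3 : ‖t • u x‖ ≤ ρ / 2 := G.norm_step hs ht0 hts hsρ x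
  have h4 : ‖x - t • u x‖ ≤ ‖x‖ + ‖t • u x‖ := norm_sub_le _ _
  have h5 : 0 ≤ t * e x := mul_nonneg ht0 (G.e_nonneg x)
  have claim : μ * max ‖x - t • u x‖ ρ ≤ μ * max ‖x‖ ρ + t * e x := by
    by_cases h6 : max ‖x - t • u x‖ ρ ≤ max ‖x‖ ρ
    · have := mul_le_mul_of_nonneg_left h6 hμ.le
      linarith
    · have h7 := not_le.1 h6
      have h8 : ρ < ‖x - t • u x‖ := by
        by_contra h9
        rw [max_eq_right (not_lt.1 h9)] at h7
        exact absurd h7 (not_lt.2 (le_max_right _ _))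
      have h9 : ρ / 2 ≤ ‖x‖ := by linarith
      have h10 := hshell x h9 (hx.1.le.trans hr)
      have h11 : max ‖x - t • u x‖ ρ = ‖x - t • u x‖ := max_eq_left h8.le
      have h12 : ‖t • u x‖ = t * ‖u x‖ := by
        rw [norm_smul, Real.norm_eq_abs, abs_of_nonneg ht0]
      have h13 : μ * (t * ‖u x‖) ≤ t * e x := by
        calc μ * (t * ‖u x‖) = t * (μ * ‖u x‖) := by ring
          _ ≤ t * e x := mul_le_mul_of_nonneg_left h10 ht0
      rw [h11]
      have h14 : ‖x - t • u x‖ ≤ max ‖x‖ ρ + t * ‖u x‖ := by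
        rw [← h12]; exact h4.trans (add_le_add_left (le_max_left _ _) _)
      calc μ * ‖x - t • u x‖ ≤ μ * (max ‖x‖ ρ + t * ‖u x‖) := mul_le_mul_of_nonneg_left h14 hμ.le
        _ = μ * max ‖x‖ ρ + μ * (t * ‖u x‖) := by ring
        _ ≤ _ := by linarith
  have h6 := hx.2
  by_cases h7 : ‖x - t • u x‖ < r
  · left
    refine ⟨h7, ?_⟩
    have e1 : μ * (r - max ‖x - t • u x‖ ρ) = μ * r - μ * max ‖x - t • u x‖ ρ := by ring
    have e2 : μ * (r - max ‖x‖ ρ) = μ * r - μ * max ‖x‖ ρ := by ring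
    rw [e1]; rw [e2] at h6
    linarith
  · right
    refine ⟨h1, ?_⟩
    have h8 : r ≤ max ‖x - t • u x‖ ρ := (not_lt.1 h7).trans (le_max_left _ _)
    have h9 := mul_le_mul_of_nonneg_left h8 hμ.le
    have e2 : μ * (r - max ‖x‖ ρ) = μ * r - μ * max ‖x‖ ρ := by ring
    rw [e2] at h6
    linarith

include G in
theorem GD.isOpen_sub {P : ℝ} (hP4 : P ≤ 4 * R) (g : E → ℝ) (hg : Continuous g) :
    IsOpen {x | ‖x‖ < P ∧ h x < g x} := by
  have h1 : IsOpen (ball (0 : E) (4 * R) ∩ (fun x => h x - g x) ⁻¹' Iio 0) :=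
    (G.cont_h.sub hg.continuousOn).isOpen_inter_preimage isOpen_ball isOpen_Iio
  have h2 : {x | ‖x‖ < P ∧ h x < g x} =
      {x | ‖x‖ < P} ∩ (ball (0 : E) (4 * R) ∩ (fun x => h x - g x) ⁻¹' Iio 0) := by
    ext x
    constructor
    · rintro ⟨h3, h4⟩
      refine ⟨h3, ?_, ?_⟩
      · rw [mem_ball_zero_iff]; linarith
      · show h x - g x < 0
        linarith
    · rintro ⟨h3, -, h4⟩
      refine ⟨h3, ?_⟩
      have : h x - g x < 0 := h4
      linarith
  rw [h2]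
  exact (isOpen_lt continuous_norm continuous_const).inter h1

include G in
theorem GD.isOpen_VV {P c : ℝ} (hP4 : P ≤ 4 * R) : IsOpen (VV h P c) :=
  G.isOpen_sub hP4 (fun _ => -c) continuous_const

include G in
theorem GD.isOpen_NN {r ρ μ c : ℝ} (hr : r ≤ R) : IsOpen (NN h r ρ μ c) := by
  have hR := G.R_pos
  exact G.isOpen_sub (by linarith) (fun x => -c + μ * (r - max ‖x‖ ρ)) (by fun_prop)

include G in
theorem GD.isCompact_sub [FiniteDimensional ℝ E] {P : ℝ} (hP4 : P < 4 * R) (g : E → ℝ)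
    (hg : Continuous g) : IsCompact {x | ‖x‖ ≤ P ∧ h x ≤ g x} := by
  have h1 : ContinuousOn (fun x => h x - g x) (closedBall (0 : E) P) :=
    (G.cont_h.mono (closedBall_subset_ball hP4)).sub hg.continuousOn
  have h2 : {x | ‖x‖ ≤ P ∧ h x ≤ g x} =
      closedBall (0 : E) P ∩ (fun x => h x - g x) ⁻¹' Iic 0 := by
    ext x
    constructor
    · rintro ⟨h3, h4⟩
      refine ⟨by rw [mem_closedBall_zero_iff]; exact h3, ?_⟩
      show h x - g x ≤ 0
      linarith
    · rintro ⟨h3, h4⟩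
      refine ⟨by rw [mem_closedBall_zero_iff] at h3; exact h3, ?_⟩
      have : h x - g x ≤ 0 := h4
      linarith
  rw [h2]
  exact (isCompact_closedBall _ _).of_isClosed_subset
    (h1.preimage_isClosed_of_isClosed isClosed_closedBall isClosed_Iic) inter_subset_left

include G in
/-- small neighbourhoods of `0`: `|h| < a` near `0` -/
theorem GD.small {a : ℝ} (ha : 0 < a) : ∃ δ, 0 < δ ∧ ∀ x, ‖x‖ < δ → |h x| < a := by
  have h1 : ContinuousAt h 0 := G.cont_h.continuousAt (isOpen_ball.mem_nhds (by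
    rw [mem_ball_zero_iff, norm_zero]; linarith [G.R_pos]))
  rw [Metric.continuousAt_iff] at h1
  obtain ⟨δ, hδ, h2⟩ := h1 a ha
  refine ⟨δ, hδ, fun x hx => ?_⟩
  have h3 := h2 (by rw [dist_zero_right]; exact hx)
  rwa [G.h_zero, Real.dist_eq, sub_zero] at h3

end sets

/-! ## the theorem -/

section main

variable {E : Type} [NormedAddCommGroup E] [NormedSpace ℝ E]

theorem exists_eps {h : E → ℝ} {U : Set E} (hU : ContinuousOn h U) {Z1 : Submodule F2 (CE E)}
    (hfg : Z1.FG) (hZ : Z1 ≤ Zp U (U ∩ {x | h x < 0})) :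
    ∃ s' : ℝ, s' < 0 ∧ ∀ z ∈ Z1, z ∈ Zp U {y | y ∈ U ∧ h y ≤ s'} := by
  classical
  obtain ⟨S, hS⟩ := hfg
  have h1 : ∀ z ∈ Z1, ∃ s' : ℝ, s' < 0 ∧ bdE E z ∈ CS {y | y ∈ U ∧ h y ≤ s'} := by
    intro z hz
    exact mem_CS_lt hU (s := 0) (hZ hz).2
  have h2 : ∀ S' : Finset (CE E), (∀ z ∈ S', z ∈ Z1) → ∃ s' : ℝ, s' < 0 ∧
      ∀ z ∈ S', bdE E z ∈ CS {y | y ∈ U ∧ h y ≤ s'} := by
    intro S'
    induction S' using Finset.induction_on with
    | empty => intro _; exact ⟨-1, by norm_num, fun z hz => absurd hz (Finset.notMem_empty z)⟩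
    | insert a S' ha ih =>
      intro hS'
      obtain ⟨s1, hs1, h3⟩ := ih fun z hz => hS' z (Finset.mem_insert_of_mem hz)
      obtain ⟨s2, hs2, h4⟩ := h1 a (hS' a (Finset.mem_insert_self _ _))
      refine ⟨max s1 s2, max_lt hs1 hs2, fun z hz => ?_⟩
      rcases Finset.mem_insert.1 hz with rfl | hz
      · have e : {y | y ∈ U ∧ h y ≤ s2} ⊆ {y | y ∈ U ∧ h y ≤ max s1 s2} :=
          fun y hy => ⟨hy.1, hy.2.trans (le_max_right _ _)⟩
        exact CS_mono e h4
      · have e : {y | y ∈ U ∧ h y ≤ s1} ⊆ {y | y ∈ U ∧ h y ≤ max s1 s2} :=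
          fun y hy => ⟨hy.1, hy.2.trans (le_max_left _ _)⟩
        exact CS_mono e (h3 z hz)
  obtain ⟨s', hs', h3⟩ := h2 S fun z hz => by rw [← hS]; exact Submodule.subset_span hz
  refine ⟨s', hs', fun z hz => ⟨(hZ hz).1, ?_⟩⟩
  have h4 : Z1 ≤ (CS {y | y ∈ U ∧ h y ≤ s'}).comap (bdE E) := by
    rw [← hS]
    exact Submodule.span_le.2 fun z hz => h3 z hz
  exact h4 hz

variable {h : E → ℝ} {R s₀ : ℝ} {u : E → E} {e : E → ℝ}

theorem GD.lb [FiniteDimensional ℝ E] (G : GD h R s₀ u e) : ∃ C, LB (0 : E) {x | h x < 0} C := by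
  have hR := G.R_pos
  have hs0 := G.s_pos
  -- the fixed pair
  set ρ0 : ℝ := R / 4 with hρ0
  have hρ0pos : 0 < ρ0 := by positivity
  obtain ⟨μ0, hμ0, hsh0⟩ := G.shell (ρ0 / 2) (by positivity)
  set r0 : ℝ := R / 2 with hr0
  set c0 : ℝ := μ0 * R / 8 with hc0
  set c1 : ℝ := μ0 * R / 16 with hc1
  have hc0pos : 0 < c0 := by positivity
  have hc1pos : 0 < c1 := by positivity
  have hc10 : c1 < c0 := by
    rw [hc0, hc1]
    have : 0 < μ0 * R := by positivity
    linarith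
  set P0 : ℝ := 7 / 2 * R with hP0
  set P1 : ℝ := 4 * R with hP1
  have hP01 : P0 < P1 := by rw [hP0, hP1]; linarith
  set Ω0 : Set E := NN h r0 ρ0 μ0 c0 ∪ VV h P0 c0 with hΩ0
  set O0 : Set E := NN h R ρ0 μ0 c1 ∪ VV h P1 c1 with hO0
  set K2 : Set E := {x | ‖x‖ ≤ P0 ∧ h x ≤ -c0} with hK2
  set K1 : Set E := {x | ‖x‖ ≤ r0 ∧ h x ≤ -c0 + μ0 * (r0 - max ‖x‖ ρ0)} with hK1
  have cK2 : IsCompact K2 := G.isCompact_sub (P := P0) (by rw [hP0]; linarith) (fun _ => -c0)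
    continuous_const
  have cK1 : IsCompact K1 := G.isCompact_sub (P := r0) (by rw [hr0]; linarith)
    (fun x => -c0 + μ0 * (r0 - max ‖x‖ ρ0)) (by fun_prop)
  have oO0 : IsOpen O0 := (G.isOpen_NN le_rfl).union (G.isOpen_VV le_rfl)
  have oV0 : IsOpen (VV h P1 c1) := G.isOpen_VV le_rfl
  have sK : K1 ∪ K2 ⊆ O0 := by
    rintro x (hx | hx)
    · left
      refine ⟨lt_of_le_of_lt hx.1 (by rw [hr0]; linarith), ?_⟩
      have h1 : μ0 * (r0 - max ‖x‖ ρ0) ≤ μ0 * (R - max ‖x‖ ρ0) :=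
        mul_le_mul_of_nonneg_left (by rw [hr0]; linarith) hμ0.le
      have := hx.2
      linarith
    · right
      exact ⟨lt_of_le_of_lt hx.1 hP01, by have := hx.2; linarith⟩
  have sL : K2 ⊆ VV h P1 c1 := fun x hx => ⟨lt_of_le_of_lt hx.1 hP01, by have := hx.2; linarith⟩
  obtain ⟨C, hC⟩ := exists_rkP_compact (Y := Ω0) (B := VV h P0 c0) (cK1.union cK2) cK2 oO0 oV0
    (subset_union_right) sK sL
    (by
      rintro x (hx | hx)
      · exact Or.inl ⟨hx.1.le, hx.2.le⟩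
      · exact Or.inr ⟨hx.1.le, hx.2.le⟩)
    (fun x hx => ⟨hx.1.le, hx.2.le⟩)
  refine ⟨C, lb_iff_open.2 fun U' hU' h0U' => ?_⟩
  -- small parameters
  obtain ⟨r1, hr1, hball⟩ := Metric.isOpen_iff.1 hU' 0 h0U'
  set r : ℝ := min r1 (R / 4) with hr
  have hrpos : 0 < r := lt_min hr1 (by positivity)
  have hrR : r ≤ R / 4 := min_le_right _ _
  set ρ : ℝ := r / 2 with hρ
  have hρpos : 0 < ρ := by positivity
  have hρr : ρ < r := by rw [hρ]; linarith
  obtain ⟨μ, hμ, hsh⟩ := G.shell (ρ / 2) (by positivity)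
  set c : ℝ := min (μ * (r - ρ) / 2) c1 with hc
  have hμr : 0 < μ * (r - ρ) := mul_pos hμ (by linarith)
  have hcpos : 0 < c := lt_min (by positivity) hc1pos
  have hcc1 : c ≤ c1 := min_le_right _ _
  have hca : 0 < -c + μ * (r - ρ) := by
    have : c ≤ μ * (r - ρ) / 2 := min_le_left _ _
    linarith
  have hca0 : 0 < -c0 + μ0 * (r0 - ρ0) := by
    rw [hc0, hr0, hρ0]
    have : 0 < μ0 * R := by positivity
    nlinarith
  set s : ℝ := min (s₀ / 2) (s₀ * ρ / (2 * R)) with hs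
  have hspos : 0 < s := lt_min (by positivity) (by positivity)
  have hs2 : s ≤ s₀ / 2 := min_le_left _ _
  have hsρ : s * R ≤ s₀ * (ρ / 2) := by
    have h1 : s ≤ s₀ * ρ / (2 * R) := min_le_right _ _
    calc s * R ≤ s₀ * ρ / (2 * R) * R := mul_le_mul_of_nonneg_right h1 hR.le
      _ = s₀ * (ρ / 2) := by field_simp
  have hsρ0 : s * R ≤ s₀ * (ρ0 / 2) := by
    refine hsρ.trans (mul_le_mul_of_nonneg_left ?_ hs0.le)
    rw [hρ, hρ0]; linarith
  -- the map and the homotopy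
  set T : E → E := fun x => x - s • u x with hT
  set F : E → ℝ → E := fun x t => x - (t * s) • u x with hF
  have cT : Continuous T := continuous_id.sub (G.cont_u.const_smul s)
  have cF : Continuous fun p : E × ℝ => F p.1 p.2 := by
    have h1 : Continuous fun p : E × ℝ => (p.2 * s) • u p.1 :=
      (continuous_snd.mul continuous_const).smul (G.cont_u.comp continuous_fst)
    exact continuous_fst.sub h1
  have F0 : ∀ x, F x 0 = x := fun x => by simp [hF]
  have F1 : ∀ x, F x 1 = T x := fun x => by simp [hF, hT]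
  have ht : ∀ t ∈ Icc (0 : ℝ) 1, 0 ≤ t * s ∧ t * s ≤ s := fun t ht =>
    ⟨mul_nonneg ht.1 hspos.le, by nlinarith [ht.2]⟩
  set Ω1 : Set E := NN h r ρ μ c ∪ VV h P1 c with hΩ1
  -- invariance
  have iΩ0 : ∀ x ∈ Ω0, ∀ t, 0 ≤ t → t ≤ s → x - t • u x ∈ Ω0 := fun x hx t h1 h2 =>
    G.step_NN hspos hs2 h1 h2 (P := P0) le_rfl hP01.le (by rw [hr0]; linarith) hρ0pos hμ0 hsρ0
      (fun y h3 h4 => (hsh0 y h3 h4).1) hx
  have iO0 : ∀ x ∈ O0, ∀ t, 0 ≤ t → t ≤ s → x - t • u x ∈ O0 := fun x hx t h1 h2 =>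
    G.step_NN hspos hs2 h1 h2 (P := P1) hP01.le le_rfl le_rfl hρ0pos hμ0 hsρ0
      (fun y h3 h4 => (hsh0 y h3 h4).1) hx
  have iΩ1 : ∀ x ∈ Ω1, ∀ t, 0 ≤ t → t ≤ s → x - t • u x ∈ Ω1 := fun x hx t h1 h2 =>
    G.step_NN hspos hs2 h1 h2 (P := P1) hP01.le le_rfl (by linarith) hρpos hμ hsρ
      (fun y h3 h4 => (hsh y h3 h4).1) hx
  have nΩ1 : ∀ x ∈ Ω1, ‖x‖ < P1 := by
    rintro x (hx | hx)
    · have := hx.1
      rw [hP1]; linarith
    · exact hx.1
  have nΩ0 : ∀ x ∈ Ω0, ‖x‖ < P0 := by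
    rintro x (hx | hx)
    · have h1 := hx.1
      have h2 : r0 < P0 := by rw [hr0, hP0]; linarith
      exact h1.trans h2
    · exact hx.1
  -- the neighbourhood `U`
  set U : Set E := {x | ‖x‖ < ρ ∧ h x < -c + μ * (r - ρ)} ∩
    {x | ‖x‖ < ρ0 ∧ h x < -c0 + μ0 * (r0 - ρ0)} with hUdef
  have oU : IsOpen U :=
    (G.isOpen_sub (by linarith) (fun _ => -c + μ * (r - ρ)) continuous_const).inter
      (G.isOpen_sub (by linarith) (fun _ => -c0 + μ0 * (r0 - ρ0)) continuous_const)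
  have U0 : (0 : E) ∈ U := by
    refine ⟨⟨by rw [norm_zero]; exact hρpos, by rw [G.h_zero]; exact hca⟩,
      ⟨by rw [norm_zero]; exact hρ0pos, by rw [G.h_zero]; exact hca0⟩⟩
  have UN : U ⊆ NN h r ρ μ c := fun x hx => ⟨hx.1.1.trans hρr, by
    rw [max_eq_right hx.1.1.le]; exact hx.1.2⟩
  have UN0 : U ⊆ NN h r0 ρ0 μ0 c0 := fun x hx => ⟨hx.2.1.trans (by rw [hρ0, hr0]; linarith), by
    rw [max_eq_right hx.2.1.le]; exact hx.2.2⟩
  have NU' : NN h r ρ μ c ⊆ U' := fun x hx => hball (by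
    rw [mem_ball_zero_iff]
    exact lt_of_lt_of_le hx.1 (min_le_left _ _))
  have UU' : U ⊆ U' := UN.trans NU'
  refine ⟨U, oU, U0, UU', ?_⟩
  refine RkLE.of_fg fun Z1 hZ1 hfg => ?_
  have chU : ContinuousOn h U := G.cont_h.mono fun x hx => by
    rw [mem_ball_zero_iff]
    have := hx.2.1
    linarith
  obtain ⟨s', hs', hZs⟩ := exists_eps chU hfg hZ1
  -- step 1: push the low part below `-c0`
  obtain ⟨δ, hδ, hδs⟩ := G.small (a := -s') (by linarith)
  obtain ⟨με, hμε, hshε⟩ := G.shell δ hδ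
  have hj : ∃ j : ℕ, MapsTo (T^[j]) {x | x ∈ Ω0 ∧ h x ≤ s'} (VV h P0 c0) := by
    refine descend (h := h) (δ := s * με) (c := c0) (H0 := 0) (mul_pos hspos hμε) ?_ ?_ ?_ ?_ ?_
    · rintro x ⟨hx, hxs⟩
      refine ⟨iΩ0 x hx s hspos.le le_rfl, ?_⟩
      have h1 := (G.step_basic hspos hs2 hspos.le le_rfl (P := P0) le_rfl hP01.le (nΩ0 x hx)).2
      have h2 : 0 ≤ s * e x := mul_nonneg hspos.le (G.e_nonneg x)
      show h (x - s • u x) ≤ s'
      linarith
    · intro x hx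
      exact G.step_VV hspos hs2 hspos.le le_rfl le_rfl hP01.le hx
    · rintro x ⟨hx, hxs⟩ hnot
      have hx' : x ∈ NN h r0 ρ0 μ0 c0 := by
        rcases hx with hx | hx
        · exact hx
        · exact (hnot hx).elim
      have h1 := (G.step_basic hspos hs2 hspos.le le_rfl (P := P0) le_rfl hP01.le (nΩ0 x hx)).2
      have h2 : δ ≤ ‖x‖ := by
        by_contra h3
        have h4 := hδs x (not_le.1 h3)
        have h5 := (abs_lt.1 h4).1
        linarith
      have h3 := (hshε x h2 (by have := hx'.1; rw [hr0] at this; linarith)).2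
      have h4 := mul_le_mul_of_nonneg_left h3 hspos.le
      show h (x - s • u x) ≤ h x - s * με
      linarith
    · rintro x ⟨hx, hxs⟩ hnot
      by_contra h1
      exact hnot ⟨nΩ0 x hx, not_le.1 h1⟩
    · rintro x ⟨hx, hxs⟩ _
      linarith
  obtain ⟨j, hj⟩ := hj
  -- step 2: push the big set into the small one
  obtain ⟨δ2, hδ2, hδ2s⟩ := G.small hca
  obtain ⟨μ2, hμ2, hsh2⟩ := G.shell (min δ2 ρ) (lt_min hδ2 hρpos)
  have hi : ∃ i : ℕ, MapsTo (T^[i]) O0 Ω1 := by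
    refine descend (h := h) (δ := s * μ2) (c := c) (H0 := -c1 + μ0 * (R - ρ0))
      (mul_pos hspos hμ2) ?_ ?_ ?_ ?_ ?_
    · exact fun x hx => iO0 x hx s hspos.le le_rfl
    · exact fun x hx => iΩ1 x hx s hspos.le le_rfl
    · intro x hx hnot
      have hx' : x ∈ NN h R ρ0 μ0 c1 := by
        rcases hx with hx | hx
        · exact hx
        · exact (hnot (Or.inr ⟨hx.1, by have := hx.2; linarith⟩)).elim
      have hxP : ‖x‖ < P1 := by have := hx'.1; rw [hP1]; linarith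
      have h1 := (G.step_basic hspos hs2 hspos.le le_rfl (P := P1) hP01.le le_rfl hxP).2
      have h2 : min δ2 ρ ≤ ‖x‖ := by
        by_contra h3
        have h3' := not_le.1 h3
        have h4 := hδ2s x (h3'.trans_le (min_le_left _ _))
        have h5 := (abs_lt.1 h4).2
        have h6 : ‖x‖ < ρ := h3'.trans_le (min_le_right _ _)
        exact hnot (Or.inl ⟨h6.trans hρr, by rw [max_eq_right h6.le]; exact h5⟩)
      have h3 := (hsh2 x h2 hx'.1.le).2
      have h4 := mul_le_mul_of_nonneg_left h3 hspos.le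
      show h (x - s • u x) ≤ h x - s * μ2
      linarith
    · intro x hx hnot
      by_contra h1
      refine hnot (Or.inr ⟨?_, not_le.1 h1⟩)
      rcases hx with hx | hx
      · have := hx.1
        rw [hP1]; linarith
      · exact hx.1
    · intro x hx hnot
      have hx' : x ∈ NN h R ρ0 μ0 c1 := by
        rcases hx with hx | hx
        · exact hx
        · exact (hnot (Or.inr ⟨hx.1, by have := hx.2; linarith⟩)).elim
      have h1 := hx'.2.le
      have h2 : μ0 * (R - max ‖x‖ ρ0) ≤ μ0 * (R - ρ0) :=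
        mul_le_mul_of_nonneg_left (by linarith [le_max_right ‖x‖ ρ0]) hμ0.le
      linarith
  obtain ⟨i, hi⟩ := hi
  -- the transport
  have mΩ0 : MapsTo T Ω0 Ω0 := fun x hx => iΩ0 x hx s hspos.le le_rfl
  have mV0 : MapsTo T (VV h P1 c1) (VV h P1 c1) := fun x hx =>
    G.step_VV hspos hs2 hspos.le le_rfl hP01.le le_rfl hx
  have UΩ0 : U ⊆ Ω0 := UN0.trans subset_union_left
  have UΩ1 : U ⊆ Ω1 := UN.trans subset_union_left
  refine RkLE.of_map (push univ (T^[j]) (cT.iterate j).continuousOn) ?_ ?_ hC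
  · intro z hz
    refine push_mem_Zp (cT.iterate j) ((mΩ0.iterate j).mono_left UΩ0) ?_ (hZs z hz)
    exact hj.mono_left fun y hy => ⟨UΩ0 hy.1, hy.2⟩
  · intro z hz hB
    set A : Set E := {x | h x < 0} with hA
    have h1 : push univ (T^[i]) (cT.iterate i).continuousOn
        (push univ (T^[j]) (cT.iterate j).continuousOn z) ∈ Bp Ω1 (VV h P1 c) := by
      refine push_mem_Bp (cT.iterate i) hi ?_ hB
      exact fun x hx => ⟨((mV0.iterate i) hx).1, by
        have := ((mV0.iterate i) hx).2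
        linarith⟩
    have h2 : push univ (T^[i]) (cT.iterate i).continuousOn
        (push univ (T^[j]) (cT.iterate j).continuousOn z) =
        push univ (T^[i + j]) (cT.iterate (i + j)).continuousOn z :=
      push_push (X := (univ : Set E)) (Y' := (univ : Set E)) (f := T^[j]) (k := T^[i])
        (l := T^[i + j]) (hf := (cT.iterate j).continuousOn) (hk := (cT.iterate i).continuousOn)
        (hl := (cT.iterate (i + j)).continuousOn) (fun x _ => trivial)
        (fun x _ => (Function.iterate_add_apply T i j x).symm) z (by rw [CS_univ]; trivial)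
    rw [h2] at h1
    have hVA : VV h P1 c ⊆ Ω1 ∩ A := fun x hx => ⟨Or.inr hx, by
      show h x < 0
      have := hx.2
      linarith⟩
    have hz1 : z ∈ Zp Ω1 (Ω1 ∩ A) := by
      refine Zp_mono UΩ1 ?_ (hZs z hz)
      exact fun y hy => ⟨UΩ1 hy.1, by
        show h y < 0
        have := hy.2
        linarith⟩
    have h3 : z + push univ (T^[i + j]) (cT.iterate (i + j)).continuousOn z ∈ Bp Ω1 (Ω1 ∩ A) := by
      refine iter_step (F := F) (T := T) ?_ ?_ cF F0 F1 cT (i + j) hz1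
      · intro x hx t ht'
        exact iΩ1 x hx (t * s) (ht t ht').1 (ht t ht').2
      · intro x hx t ht'
        refine ⟨iΩ1 x hx.1 (t * s) (ht t ht').1 (ht t ht').2, ?_⟩
        exact G.step_neg hspos hs2 (ht t ht').1 (ht t ht').2 hP01.le le_rfl (nΩ1 x hx.1) hx.2
    have h4 : z ∈ Bp Ω1 (Ω1 ∩ A) := by
      have h5 := Submodule.add_mem _ h3 (Bp_mono (subset_refl Ω1) hVA h1)
      have e5 : z + push univ (T^[i + j]) (cT.iterate (i + j)).continuousOn z +
          push univ (T^[i + j]) (cT.iterate (i + j)).continuousOn z = z := by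
        rw [add_assoc, add_self_CE, add_zero]
      rwa [e5] at h5
    -- excision
    have oN : IsOpen (NN h r ρ μ c) := G.isOpen_NN (by linarith)
    have oΩA : IsOpen (Ω1 ∩ A) := by
      have e6 : Ω1 ∩ A = Ω1 ∩ {x | ‖x‖ < P1 ∧ h x < 0} := by
        ext x
        exact ⟨fun hx => ⟨hx.1, nΩ1 x hx.1, hx.2⟩, fun hx => ⟨hx.1, hx.2.2⟩⟩
      rw [e6]
      exact (oN.union (G.isOpen_VV le_rfl)).inter (G.isOpen_sub le_rfl (fun _ => 0) continuous_const)
    have e7 : NN h r ρ μ c ∪ (Ω1 ∩ A) = Ω1 := by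
      refine Subset.antisymm (union_subset subset_union_left inter_subset_left) ?_
      rintro x (hx | hx)
      · exact Or.inl hx
      · exact Or.inr (hVA hx)
    have h5 := exc_inj (U := NN h r ρ μ c) (V := Ω1 ∩ A) (cov_of_open oN oΩA) (c := z)
      (CS_mono UN (hZs z hz).1) (by rw [e7]; exact h4)
    have e8 : NN h r ρ μ c ∩ (Ω1 ∩ A) ⊆ U' ∩ {x | h x < 0} := fun x hx => ⟨NU' hx.1, hx.2.2⟩
    exact Bp_mono NU' e8 h5

/-- **(B2)** : finite local rank at an isolated critical point -/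
theorem lb_isolated [FiniteDimensional ℝ E] {h : E → ℝ} (hh : ContDiffAt ℝ 2 h 0) (h0 : h 0 = 0)
    (hiso : ∀ᶠ x in 𝓝[≠] (0 : E), fderiv ℝ h x ≠ 0) : ∃ C, LB (0 : E) {x | h x < 0} C := by
  obtain ⟨R, s₀, u, e, G⟩ := exists_GD hh h0 hiso
  exact G.lb

end main

end Crest.Agent.R231.GM898
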