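import Crest.Agent.R231.GMSys_320
import Crest.Agent.R231.GMRed_102

/-!
# Row 231 (S0357), block GM-GEO (helper320): isolatedness of the critical point `0`

`isolated` : if there are only finitely many closed unit speed orbits of the geodesic flow, then
`0` is an isolated critical point of `Fm (D c N) m` for every `m`.
-/

set_option autoImplicit false
set_option linter.unusedSectionVars false

noncomputable section

open MeasureTheory Bundle Set Filter
open scoped Manifold ContDiff Bundle ENNReal Topology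
open Crest.GeometryTopology.MTW
open Crest.Agent.R226

namespace Crest.Agent.R231.GMIsox320

open Crest.Agent.R226.NearLog90 Crest.Agent.R226.NearLem90 Crest.Agent.R226.GeoBasic616
open Crest.Agent.R226.TB616
open Crest.Agent.R231.GMDirx320 Crest.Agent.R231.GMSlx654 Crest.Agent.R231.GMCrossx320
open Crest.Agent.R231.GMSysx320 Crest.Agent.R231.GMRedx102

/-! ### linear algebra: no corner -/

/-- two unit vectors whose sum is orthogonal to a hyperplane not containing their difference -/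
theorem no_corner {V : Type*} [NormedAddCommGroup V] [InnerProductSpace ℝ V]
    [FiniteDimensional ℝ V] (H : Submodule ℝ V)
    (hH : Module.finrank ℝ V ≤ Module.finrank ℝ H + 1) {e e' : V} (he : ‖e‖ = 1) (he' : ‖e'‖ = 1)
    (horth : ∀ h ∈ H, inner ℝ (e + e') h = 0) (hne : e - e' ∉ H) : e = -e' := by
  by_contra hcon
  have hz : e + e' ≠ 0 := fun h => hcon (eq_neg_of_add_eq_zero_left h)
  apply hne
  have h1 : H ≤ (Submodule.span ℝ {e + e'})ᗮ := by
    intro h hh
    rw [Submodule.mem_orthogonal_singleton_iff_inner_right]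
    exact horth h hh
  have h2 := Submodule.finrank_add_finrank_orthogonal (Submodule.span ℝ {e + e'})
  rw [finrank_span_singleton hz] at h2
  have h3 : H = (Submodule.span ℝ {e + e'})ᗮ :=
    Submodule.eq_of_le_of_finrank_le h1 (by omega)
  rw [h3, Submodule.mem_orthogonal_singleton_iff_inner_right, inner_add_left, inner_sub_right,
    inner_sub_right, real_inner_self_eq_norm_sq, real_inner_self_eq_norm_sq, he, he',
    real_inner_comm e e']
  ring

variable {n : ℕ} {M : Type*} [MetricSpace M] [ChartedSpace (EuclideanSpace ℝ (Fin n)) M]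
  [IsManifold (𝓡 n) ∞ M]
  [RiemannianBundle (fun p : M => TangentSpace (𝓡 n) p)]
variable {G : GeoData n M}

/-! ### derivatives -/

variable (n) in
/-- the differential of a map into `M` -/
def Am {E' : Type*} [NormedAddCommGroup E'] [NormedSpace ℝ E'] (σ : E' → M) (a : E') :
    E' →ₗ[ℝ] TangentSpace (𝓡 n) (σ a) :=
  (mfderiv 𝓘(ℝ, E') (𝓡 n) σ a).toLinearMap

/-- chain rule for a real function along a map of a normed space -/
theorem hasFDerivAt_comp_map {E' : Type*} [NormedAddCommGroup E'] [NormedSpace ℝ E']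
    {f : M → ℝ} {σ : E' → M} {a : E'}
    (hf : MDifferentiableAt (𝓡 n) 𝓘(ℝ) f (σ a)) (hσ : MDifferentiableAt 𝓘(ℝ, E') (𝓡 n) σ a) :
    ∃ L : E' →L[ℝ] ℝ, HasFDerivAt (fun a' => f (σ a')) L a ∧
      ∀ v, L v = dL n f (σ a) (Am n σ a v) := by
  have h1 := (hf.hasMFDerivAt).comp a hσ.hasMFDerivAt
  exact ⟨_, h1.hasFDerivAt, fun v => rfl⟩

/-- derivative of the distance to a point along a map -/
theorem hasFDerivAt_dist_map {E' : Type*} [NormedAddCommGroup E'] [NormedSpace ℝ E']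
    {σ : E' → M} {a : E'} {y : M} (hσ : MDifferentiableAt 𝓘(ℝ, E') (𝓡 n) σ a)
    (h0 : 0 < dist (σ a) y) (h : dist (σ a) y < G.r₀ / 2) :
    ∃ L : E' →L[ℝ] ℝ, HasFDerivAt (fun a' => dist (σ a') y) L a ∧
      ∀ v, L v = -inner ℝ (dirv G (σ a) y) (Am n σ a v) := by
  obtain ⟨L1, h1, h1v⟩ := hasFDerivAt_comp_map (n := n) (f := fun x' : M => halfDistSq x' y)
    (σ := σ) (a := a) (mdiffAt_cost_left (nd G) h) hσ
  have h2 : (2 * halfDistSq (σ a) y) ≠ 0 := by
    unfold halfDistSq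
    positivity
  have h3 := (h1.const_mul 2).sqrt h2
  have h4 : (fun a' : E' => Real.sqrt (2 * halfDistSq (σ a') y)) =
      fun a' : E' => dist (σ a') y := by
    funext t
    unfold halfDistSq
    rw [mul_div_cancel₀ _ (two_ne_zero), Real.sqrt_sq dist_nonneg]
  rw [h4] at h3
  refine ⟨_, h3, fun v => ?_⟩
  have h5 : Real.sqrt (2 * halfDistSq (σ a) y) = dist (σ a) y := congrFun h4 a
  rw [h5]
  have h6 : dL n (fun x' : M => halfDistSq x' y) (σ a) (Am n σ a v) =
      -inner ℝ (lg (nd G) (σ a) y) (Am n σ a v) := dL_cost (nd G) h _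
  simp only [smul_apply, smul_eq_mul]
  rw [h1v, h6]
  unfold dirv
  rw [inner_smul_left]
  simp only [conj_trivial]
  field_simp

section
variable [IsContMDiffRiemannianBundle (𝓡 n) ∞ (EuclideanSpace ℝ (Fin n))
    (fun p : M => TangentSpace (𝓡 n) p)]

variable (c : Cg G) (N : ℕ)

theorem contMDiff_sg (i : ZMod N) : ContMDiff 𝓘(ℝ, Sl n) (𝓡 n) ∞ (sg c N i) := by
  have h1 := contMDiff_ex_fibre G (c.pt N i).1
  let L : Sl n →L[ℝ] EuclideanSpace ℝ (Fin n) :=
    ((toFib (c.pt N i).1).symm.toContinuousLinearMap).comp (E (c.pt N i))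
  exact h1.comp L.contDiff.contMDiff

theorem mdiff_sg (i : ZMod N) (a : Sl n) : MDifferentiableAt 𝓘(ℝ, Sl n) (𝓡 n) (sg c N i) a :=
  (contMDiff_sg c N i).mdifferentiableAt (by simp)

/-- joint differentiability -/
theorem differentiableAt_D (i : ZMod N) {q : Sl n × Sl n}
    (h0 : 0 < dist (sg c N i q.1) (sg c N (i + 1) q.2))
    (h : dist (sg c N i q.1) (sg c N (i + 1) q.2) < G.r₀ / 2) :
    DifferentiableAt ℝ (D c N i) q := by
  have h1 : ContMDiffAt 𝓘(ℝ, Sl n × Sl n) ((𝓡 n).prod (𝓡 n)) ∞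
      (fun q : Sl n × Sl n => (sg c N i q.1, sg c N (i + 1) q.2)) q := by
    have e1 : ContMDiff 𝓘(ℝ, Sl n × Sl n) 𝓘(ℝ, Sl n) ∞ (fun q : Sl n × Sl n => q.1) :=
      contDiff_fst.contMDiff
    have e2 : ContMDiff 𝓘(ℝ, Sl n × Sl n) 𝓘(ℝ, Sl n) ∞ (fun q : Sl n × Sl n => q.2) :=
      contDiff_snd.contMDiff
    exact (((contMDiff_sg c N i).comp e1).prodMk ((contMDiff_sg c N (i + 1)).comp e2)) q
  have h2 := (contMDiffAt_cost (nd G) (x := sg c N i q.1) (y := sg c N (i + 1) q.2) h).comp q h1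
  have h3 := (contMDiffAt_iff_contDiffAt.1 h2).differentiableAt (by simp)
  have h4 : (2 * halfDistSq (sg c N i q.1) (sg c N (i + 1) q.2)) ≠ 0 := by
    unfold halfDistSq
    positivity
  have h5 := (h3.const_mul 2).sqrt h4
  have h6 := h5.sub_const (c.l / N)
  refine h6.congr_of_eventuallyEq (Eventually.of_forall fun q => ?_)
  change dist (sg c N i q.1) (sg c N (i + 1) q.2) - c.l / N = _
  change _ = Real.sqrt (2 * halfDistSq (sg c N i q.1) (sg c N (i + 1) q.2)) - c.l / N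
  unfold halfDistSq
  rw [mul_div_cancel₀ _ (two_ne_zero), Real.sqrt_sq dist_nonneg]

theorem fderiv_D_left (i : ZMod N) {q : Sl n × Sl n}
    (h0 : 0 < dist (sg c N i q.1) (sg c N (i + 1) q.2))
    (h : dist (sg c N i q.1) (sg c N (i + 1) q.2) < G.r₀ / 2) (v : Sl n) :
    fderiv ℝ (D c N i) q (v, 0) =
      -inner ℝ (dirv G (sg c N i q.1) (sg c N (i + 1) q.2)) (Am n (sg c N i) q.1 v) := by
  obtain ⟨L, hL, hLv⟩ := hasFDerivAt_dist_map (G := G) (mdiff_sg c N i q.1) h0 h
  have h1 := (differentiableAt_D c N i h0 h).hasFDerivAt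
  have h2 : HasFDerivAt (fun a : Sl n => ((a, q.2) : Sl n × Sl n))
      ((ContinuousLinearMap.id ℝ (Sl n)).prod 0) q.1 :=
    (hasFDerivAt_id q.1).prodMk (hasFDerivAt_const q.2 q.1)
  have h3 := HasFDerivAt.comp (q.1) (f := fun a : Sl n => ((a, q.2) : Sl n × Sl n)) h1 h2
  have h4 := hL.sub_const (c.l / N)
  have h5 := h3.unique h4
  have h6 := congrArg (fun L : Sl n →L[ℝ] ℝ => L v) h5
  exact h6.trans (hLv v)

theorem fderiv_D_right (i : ZMod N) {q : Sl n × Sl n}
    (h0 : 0 < dist (sg c N i q.1) (sg c N (i + 1) q.2))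
    (h : dist (sg c N i q.1) (sg c N (i + 1) q.2) < G.r₀ / 2) (v : Sl n) :
    fderiv ℝ (D c N i) q (0, v) =
      -inner ℝ (dirv G (sg c N (i + 1) q.2) (sg c N i q.1))
        (Am n (sg c N (i + 1)) q.2 v) := by
  have h0' : 0 < dist (sg c N (i + 1) q.2) (sg c N i q.1) := by rwa [dist_comm]
  have h' : dist (sg c N (i + 1) q.2) (sg c N i q.1) < G.r₀ / 2 := by rwa [dist_comm]
  obtain ⟨L, hL, hLv⟩ := hasFDerivAt_dist_map (G := G) (mdiff_sg c N (i + 1) q.2) h0' h'
  have h1 := (differentiableAt_D c N i h0 h).hasFDerivAt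
  have h2 : HasFDerivAt (fun b : Sl n => ((q.1, b) : Sl n × Sl n))
      ((0 : Sl n →L[ℝ] Sl n).prod (ContinuousLinearMap.id ℝ (Sl n))) q.2 :=
    (hasFDerivAt_const q.1 q.2).prodMk (hasFDerivAt_id q.2)
  have h3 := HasFDerivAt.comp (q.2) (f := fun b : Sl n => ((q.1, b) : Sl n × Sl n)) h1 h2
  have h4 := hL.sub_const (c.l / N)
  have h4' : HasFDerivAt (D c N i ∘ fun b : Sl n => ((q.1, b) : Sl n × Sl n)) L q.2 := by
    refine h4.congr_of_eventuallyEq (Eventually.of_forall fun b => ?_)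
    change dist (sg c N i q.1) (sg c N (i + 1) b) - c.l / N =
      dist (sg c N (i + 1) b) (sg c N i q.1) - c.l / N
    rw [dist_comm]
  have h5 := h3.unique h4'
  have h6 := congrArg (fun L : Sl n →L[ℝ] ℝ => L v) h5
  exact h6.trans (hLv v)

/-! ### the tangent spaces of the slices -/

theorem norm_E_pt (i : ZMod N) (a : Sl n) : ‖E (c.pt N i) a‖ = ‖a‖ := norm_E (c.norm_pt N i) a

/-- the height functions along the slice -/
theorem ph_sg (i : ZMod N) {a : Sl n} (ha : ‖a‖ < G.r₀ / 2)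
    (ξ : TangentSpace (𝓡 n) (c.pt N i).1) :
    ph G ⟨(c.pt N i).1, ξ⟩ (sg c N i a) = inner ℝ (E (c.pt N i) a) ξ := by
  unfold sg
  exact ph_ex (P := ⟨(c.pt N i).1, ξ⟩) (by rw [norm_E_pt]; exact ha)

theorem dist_pt_sg (i : ZMod N) {a : Sl n} (ha : ‖a‖ < G.r₀ / 2) :
    dist (c.pt N i).1 (sg c N i a) < G.r₀ / 2 := by
  have := dist_ex_le G (c.pt N i).1 (E (c.pt N i) a)
  rw [norm_E_pt] at this
  exact lt_of_le_of_lt this ha

theorem dL_ph_sg (i : ZMod N) {a : Sl n} (ha : ‖a‖ < G.r₀ / 2)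
    (ξ : TangentSpace (𝓡 n) (c.pt N i).1) (v : Sl n) :
    dL n (ph G ⟨(c.pt N i).1, ξ⟩) (sg c N i a) (Am n (sg c N i) a v) =
      inner ℝ (E (c.pt N i) v) ξ := by
  obtain ⟨L1, h1, h1v⟩ := hasFDerivAt_comp_map (n := n) (f := ph G ⟨(c.pt N i).1, ξ⟩)
    (σ := sg c N i) (a := a)
    ((contMDiffAt_ph (G := G) (P := ⟨(c.pt N i).1, ξ⟩)
      (dist_pt_sg c N i ha)).mdifferentiableAt (by simp)) (mdiff_sg c N i a)
  have hnear : ∀ᶠ a' : Sl n in 𝓝 a, ‖a'‖ < G.r₀ / 2 :=
    (continuous_norm.tendsto a).eventually_lt_const ha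
  -- the explicit form
  let Lξ : Sl n →L[ℝ] ℝ := (innerSL ℝ ξ : TangentSpace (𝓡 n) (c.pt N i).1 →L[ℝ] ℝ).comp
    (E (c.pt N i))
  have h2 : HasFDerivAt (fun a' : Sl n => ph G ⟨(c.pt N i).1, ξ⟩ (sg c N i a')) Lξ a := by
    refine Lξ.hasFDerivAt.congr_of_eventuallyEq ?_
    filter_upwards [hnear] with a' ha'
    rw [ph_sg c N i ha' ξ, real_inner_comm]
    rfl
  have h3 := h1.unique h2
  have h4 := congrArg (fun L : Sl n →L[ℝ] ℝ => L v) h3
  rw [← h1v v]
  refine (Eq.trans h4 ?_)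
  change inner ℝ ξ (E (c.pt N i) v) = _
  exact real_inner_comm _ _

theorem Am_injective (i : ZMod N) {a : Sl n} (ha : ‖a‖ < G.r₀ / 2) :
    Function.Injective (Am n (sg c N i) a) := by
  rw [injective_iff_map_eq_zero]
  intro v hv
  have h1 : ∀ ξ : TangentSpace (𝓡 n) (c.pt N i).1, inner ℝ (E (c.pt N i) v) ξ = 0 := by
    intro ξ
    rw [← dL_ph_sg c N i ha ξ v, hv]
    exact map_zero _
  have h2 := h1 (E (c.pt N i) v)
  have h3 : E (c.pt N i) v = 0 := inner_self_eq_zero.1 h2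
  have h4 := norm_E_pt c N i v
  rw [h3, norm_zero] at h4
  exact norm_eq_zero.1 h4.symm

theorem finrank_range_Am (i : ZMod N) {a : Sl n} (ha : ‖a‖ < G.r₀ / 2) :
    Module.finrank ℝ (TangentSpace (𝓡 n) (sg c N i a)) ≤
      Module.finrank ℝ (LinearMap.range (Am n (sg c N i) a)) + 1 := by
  have h1 : Module.finrank ℝ (LinearMap.range (Am n (sg c N i) a)) = n - 1 := by
    rw [LinearMap.finrank_range_of_inj (Am_injective c N i ha)]
    exact finrank_euclideanSpace_fin
  have h2 : Module.finrank ℝ (TangentSpace (𝓡 n) (sg c N i a)) = n := by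
    have : Module.finrank ℝ (EuclideanSpace ℝ (Fin n)) = n := finrank_euclideanSpace_fin
    exact this
  omega

/-- vectors close to the velocity of `c` are transversal to the slices -/
theorem not_mem_range (i : ZMod N) {a : Sl n} (ha : ‖a‖ < G.r₀ / 2)
    {e e' : TangentSpace (𝓡 n) (sg c N i a)}
    (he : 0 < dph G (c.pt N i) (⟨sg c N i a, e⟩, 0))
    (he' : 0 < dph G (c.pt N i) (⟨sg c N i a, -e'⟩, 0)) :
    e - e' ∉ LinearMap.range (Am n (sg c N i) a) := by
  rintro ⟨v, hv⟩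
  have key : ∀ w : TangentSpace (𝓡 n) (sg c N i a),
      dph G (c.pt N i) (⟨sg c N i a, w⟩, 0) = dL n (ph G (c.pt N i)) (sg c N i a) w := by
    intro w
    have hx : (fun t : ℝ => G.ex (sg c N i a) (t • w)) 0 = sg c N i a := by
      simp only [zero_smul]; exact G.ex_zero _
    have h1 := hasDerivAt_comp_curve (n := n) (f := ph G (c.pt N i)) hx
      ((contMDiffAt_ph (G := G) (P := c.pt N i)
        (dist_pt_sg c N i ha)).mdifferentiableAt (by simp))
      (mdifferentiableAt_ray G (sg c N i a) w 0)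
    have h2 : dph G (c.pt N i) (⟨sg c N i a, w⟩, 0) =
        dL n (ph G (c.pt N i)) (sg c N i a)
          (curveVel n (fun t : ℝ => G.ex (sg c N i a) (t • w)) 0) := h1.deriv
    rw [h2]
    have h3 : curveVel n (fun t : ℝ => G.ex (sg c N i a) (t • w)) 0 = w :=
      G.vel_zero (sg c N i a) w
    exact congrArg _ h3
  rw [key] at he he'
  have h1 := dL_ph_sg c N i ha (c.pt N i).2 v
  have h2 : dL n (ph G (c.pt N i)) (sg c N i a) (e - e') = 0 := by
    rw [← hv]
    refine h1.trans ?_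
    rw [real_inner_comm]
    exact inner_E (c.norm_pt N i) v
  rw [map_sub] at h2
  rw [map_neg] at he'
  linarith

/-! ### corners -/

/-- at a critical vertex there is no corner -/
theorem corner_free (i : ZMod N) {a b d : Sl n} (hb : ‖b‖ < G.r₀ / 2)
    (h0 : 0 < dist (sg c N i a) (sg c N (i + 1) b))
    (h : dist (sg c N i a) (sg c N (i + 1) b) < G.r₀ / 2)
    (h0' : 0 < dist (sg c N (i + 1) b) (sg c N (i + 1 + 1) d))
    (h' : dist (sg c N (i + 1) b) (sg c N (i + 1 + 1) d) < G.r₀ / 2)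
    (hd1 : 0 < dph G (c.pt N (i + 1)) (dirT G (sg c N (i + 1) b) (sg c N (i + 1 + 1) d), 0))
    (hd2 : 0 < dph G (c.pt N (i + 1)) (G.Flow (dist (sg c N i a) (sg c N (i + 1) b))
      (dirT G (sg c N i a) (sg c N (i + 1) b)), 0))
    (hcrit : ∀ v : Sl n, fderiv ℝ (D c N i) (a, b) (0, v) +
      fderiv ℝ (D c N (i + 1)) (b, d) (v, 0) = 0) :
    G.Flow (dist (sg c N i a) (sg c N (i + 1) b)) (dirT G (sg c N i a) (sg c N (i + 1) b)) =
      dirT G (sg c N (i + 1) b) (sg c N (i + 1 + 1) d) := by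
  rw [flow_dir h0 h] at hd2 ⊢
  have : FiniteDimensional ℝ (TangentSpace (𝓡 n) (sg c N (i + 1) b)) := finDim _
  have hs0 : 0 < dist (sg c N (i + 1) b) (sg c N i a) := by rwa [dist_comm]
  have hs : dist (sg c N (i + 1) b) (sg c N i a) < G.r₀ / 2 := by rwa [dist_comm]
  have hkey : dirv G (sg c N (i + 1) b) (sg c N (i + 1 + 1) d) =
      -dirv G (sg c N (i + 1) b) (sg c N i a) := by
    refine no_corner (LinearMap.range (Am n (sg c N (i + 1)) b))
      (finrank_range_Am c N (i + 1) hb) (norm_dirv h0' h') (norm_dirv hs0 hs) ?_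
      (not_mem_range c N (i + 1) hb hd1 hd2)
    rintro _ ⟨v, rfl⟩
    have h1 := hcrit v
    rw [fderiv_D_right c N i (q := (a, b)) h0 h v,
      fderiv_D_left c N (i + 1) (q := (b, d)) h0' h' v] at h1
    simp only at h1
    rw [inner_add_left]
    linarith
  unfold dirT
  rw [hkey]

theorem continuous_scale : Continuous (fun q : ℝ × TangentBundle (𝓡 n) M =>
    (⟨q.2.1, q.1 • q.2.2⟩ : TangentBundle (𝓡 n) M)) :=
  (TB616.contMDiff_smul (I' := 𝓘(ℝ).prod (𝓡 n).tangent)
    (f := fun q : ℝ × TangentBundle (𝓡 n) M => q.1)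
    (s := fun q : ℝ × TangentBundle (𝓡 n) M => q.2) (k := ∞) contMDiff_fst contMDiff_snd).continuous

theorem continuousAt_dirT {z : M × M} (h0 : 0 < dist z.1 z.2) (h : dist z.1 z.2 < G.r₀ / 2) :
    ContinuousAt (fun z : M × M => dirT G z.1 z.2) z := by
  have h1 : ContinuousAt (fun z : M × M => (dist z.1 z.2)⁻¹) z :=
    (continuous_fst.dist continuous_snd).continuousAt.inv₀ h0.ne'
  exact ContinuousAt.comp (f := fun z : M × M => ((dist z.1 z.2)⁻¹,
    (⟨z.1, NearLog90.lg (nd G) z.1 z.2⟩ : TangentBundle (𝓡 n) M)))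
    (continuous_scale (n := n) (M := M)).continuousAt (h1.prodMk (continuousAt_lgT (G := G) h))

variable {N} in
theorem dirT_pt [NeZero N] (hN : c.l / N < G.r₀ / 2) (i : ZMod N) :
    dirT G (c.pt N i).1 (c.pt N (i + 1)).1 = c.pt N i := by
  have hNp : (0 : ℝ) < N := Nat.cast_pos.2 (NeZero.pos N)
  have hl : 0 < c.l / N := div_pos c.l_pos hNp
  have h1 : (c.pt N (i + 1)).1 = G.ex (c.pt N i).1 ((c.l / N) • (c.pt N i).2) := by
    rw [← c.pt_succ i]; rfl
  have h2 : lg (nd G) (c.pt N i).1 (c.pt N (i + 1)).1 = (c.l / N) • (c.pt N i).2 := by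
    rw [h1]
    exact lg_e (nd G) (by rw [norm_smul, c.norm_pt, mul_one, Real.norm_of_nonneg hl.le]; exact hN)
  have h3 := dist_pt c (N := N) (lt_trans hN (half_lt_self G.r₀_pos)) i
  unfold dirT dirv
  rw [h2, h3, smul_smul, inv_mul_cancel₀ hl.ne', one_smul]

/-- all the conditions needed near a vertex -/
def Good (i : ZMod N) (q : Sl n × Sl n) : Prop :=
  ‖q.2‖ < G.r₀ / 2 ∧ 0 < dist (sg c N i q.1) (sg c N (i + 1) q.2) ∧
  dist (sg c N i q.1) (sg c N (i + 1) q.2) < G.r₀ / 2 ∧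
  0 < dph G (c.pt N i) (dirT G (sg c N i q.1) (sg c N (i + 1) q.2), 0) ∧
  0 < dph G (c.pt N (i + 1)) (G.Flow (dist (sg c N i q.1) (sg c N (i + 1) q.2))
      (dirT G (sg c N i q.1) (sg c N (i + 1) q.2)), 0)

theorem continuous_sg (i : ZMod N) : Continuous (sg c N i) := (contMDiff_sg c N i).continuous

theorem continuousAt_edge (i : ZMod N) {q : Sl n × Sl n}
    (h0 : 0 < dist (sg c N i q.1) (sg c N (i + 1) q.2))
    (h : dist (sg c N i q.1) (sg c N (i + 1) q.2) < G.r₀ / 2) :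
    ContinuousAt (fun q : Sl n × Sl n => dirT G (sg c N i q.1) (sg c N (i + 1) q.2)) q := by
  have h1 : Continuous (fun q : Sl n × Sl n => (sg c N i q.1, sg c N (i + 1) q.2)) :=
    ((continuous_sg c N i).comp continuous_fst).prodMk
      ((continuous_sg c N (i + 1)).comp continuous_snd)
  exact ContinuousAt.comp (f := fun q : Sl n × Sl n => (sg c N i q.1, sg c N (i + 1) q.2))
    (g := fun z : M × M => dirT G z.1 z.2) (continuousAt_dirT (G := G) h0 h) h1.continuousAt

variable {N} in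
theorem eventually_good [NeZero N] (hN : c.l / N < G.r₀ / 2) (i : ZMod N) :
    ∀ᶠ q in 𝓝 ((0, 0) : Sl n × Sl n), Good c N i q := by
  have hNp : (0 : ℝ) < N := Nat.cast_pos.2 (NeZero.pos N)
  have hl : 0 < c.l / N := div_pos c.l_pos hNp
  have hdc : Continuous (fun q : Sl n × Sl n => dist (sg c N i q.1) (sg c N (i + 1) q.2)) :=
    ((continuous_sg c N i).comp continuous_fst).dist
      ((continuous_sg c N (i + 1)).comp continuous_snd)
  have hd0 : dist (sg c N i (0 : Sl n)) (sg c N (i + 1) (0 : Sl n)) = c.l / N := by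
    rw [sg_zero, sg_zero]
    exact dist_pt c (N := N) (lt_trans hN (half_lt_self G.r₀_pos)) i
  have hd0p : 0 < dist (sg c N i ((0, 0) : Sl n × Sl n).1) (sg c N (i + 1)
      ((0, 0) : Sl n × Sl n).2) := by rw [hd0]; exact hl
  have hd0l : dist (sg c N i ((0, 0) : Sl n × Sl n).1) (sg c N (i + 1)
      ((0, 0) : Sl n × Sl n).2) < G.r₀ / 2 := by rw [hd0]; exact hN
  have hedge := continuousAt_edge c N i (q := (0, 0)) hd0p hd0l
  have hedge0 : dirT G (sg c N i (0 : Sl n)) (sg c N (i + 1) (0 : Sl n)) = c.pt N i := by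
    rw [sg_zero, sg_zero]
    exact dirT_pt c hN i
  have e1 : ∀ᶠ q in 𝓝 ((0, 0) : Sl n × Sl n), ‖q.2‖ < G.r₀ / 2 := by
    have : Continuous (fun q : Sl n × Sl n => ‖q.2‖) := continuous_snd.norm
    refine this.continuousAt.eventually_lt_const ?_
    simpa using G.r₀_pos
  have e2 := hdc.continuousAt.eventually_const_lt hd0p
  have e3 := hdc.continuousAt.eventually_lt_const hd0l
  have hdist0 : ∀ j : ZMod N, dist (c.pt N j).1 (G.ex (c.pt N j).1 ((0 : ℝ) • (c.pt N j).2)) <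
      G.r₀ / 2 := by
    intro j
    rw [zero_smul, G.ex_zero, dist_self]
    exact half_pos G.r₀_pos
  have e4 : ∀ᶠ q in 𝓝 ((0, 0) : Sl n × Sl n),
      0 < dph G (c.pt N i) (dirT G (sg c N i q.1) (sg c N (i + 1) q.2), 0) := by
    have h1 := continuousAt_dph (G := G) (c.pt N i) (q := (c.pt N i, 0)) (hdist0 i)
    rw [← hedge0] at h1
    have h2 : ContinuousAt (fun q : Sl n × Sl n =>
        dph G (c.pt N i) (dirT G (sg c N i q.1) (sg c N (i + 1) q.2), (0 : ℝ))) (0, 0) := by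
      refine ContinuousAt.comp (f := fun q : Sl n × Sl n =>
        (dirT G (sg c N i q.1) (sg c N (i + 1) q.2), (0 : ℝ))) (g := dph G (c.pt N i)) ?_
        (hedge.prodMk continuousAt_const)
      rw [← hedge0]
      exact h1
    refine h2.eventually_const_lt ?_
    change 0 < dph G (c.pt N i) (dirT G (sg c N i (0 : Sl n)) (sg c N (i + 1) (0 : Sl n)), (0 : ℝ))
    rw [hedge0, dph_self (c.norm_pt N i)]
    exact one_pos
  have e5 : ∀ᶠ q in 𝓝 ((0, 0) : Sl n × Sl n),
      0 < dph G (c.pt N (i + 1)) (G.Flow (dist (sg c N i q.1) (sg c N (i + 1) q.2))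
        (dirT G (sg c N i q.1) (sg c N (i + 1) q.2)), 0) := by
    have hval : G.Flow (dist (sg c N i (0 : Sl n)) (sg c N (i + 1) (0 : Sl n)))
        (dirT G (sg c N i (0 : Sl n)) (sg c N (i + 1) (0 : Sl n))) = c.pt N (i + 1) := by
      rw [hedge0, hd0]
      exact c.pt_succ i
    have h3 : ContinuousAt (fun q : Sl n × Sl n =>
        G.Flow (dist (sg c N i q.1) (sg c N (i + 1) q.2))
        (dirT G (sg c N i q.1) (sg c N (i + 1) q.2))) (0, 0) :=
      ContinuousAt.comp (f := fun q : Sl n × Sl n =>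
        (dist (sg c N i q.1) (sg c N (i + 1) q.2),
          dirT G (sg c N i q.1) (sg c N (i + 1) q.2)))
        (g := fun z : ℝ × TangentBundle (𝓡 n) M => G.Flow z.1 z.2)
        (continuous_Flow G).continuousAt (hdc.continuousAt.prodMk hedge)
    have h1 := continuousAt_dph (G := G) (c.pt N (i + 1)) (q := (c.pt N (i + 1), 0)) (hdist0 (i + 1))
    have h2 : ContinuousAt (fun q : Sl n × Sl n =>
        dph G (c.pt N (i + 1)) (G.Flow (dist (sg c N i q.1) (sg c N (i + 1) q.2))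
        (dirT G (sg c N i q.1) (sg c N (i + 1) q.2)), (0 : ℝ))) (0, 0) := by
      refine ContinuousAt.comp (f := fun q : Sl n × Sl n =>
        (G.Flow (dist (sg c N i q.1) (sg c N (i + 1) q.2))
        (dirT G (sg c N i q.1) (sg c N (i + 1) q.2)), (0 : ℝ))) (g := dph G (c.pt N (i + 1))) ?_
        (h3.prodMk continuousAt_const)
      rw [hval]
      exact h1
    refine h2.eventually_const_lt ?_
    change 0 < dph G (c.pt N (i + 1)) (G.Flow (dist (sg c N i (0 : Sl n)) (sg c N (i + 1) (0 : Sl n)))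
        (dirT G (sg c N i (0 : Sl n)) (sg c N (i + 1) (0 : Sl n))), (0 : ℝ))
    rw [hval, dph_self (c.norm_pt N (i + 1))]
    exact one_pos
  filter_upwards [e1, e2, e3, e4, e5] with q h1 h2 h3 h4 h5
  exact ⟨h1, h2, h3, h4, h5⟩

/-! ### periodic chains -/

theorem flow_chain {K : ℕ} (Q : ZMod K → TangentBundle (𝓡 n) M) (d : ZMod K → ℝ)
    (h : ∀ k, G.Flow (d k) (Q k) = Q (k + 1)) (k : ZMod K) (j : ℕ) :
    G.Flow (∑ i ∈ Finset.range j, d (k + i)) (Q k) = Q (k + j) := by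
  induction j with
  | zero => rw [Finset.sum_range_zero, Flow_zero, Nat.cast_zero, add_zero]
  | succ j ih =>
    rw [Finset.sum_range_succ, ← Flow_add, ih, h]
    push_cast
    rw [add_assoc]

theorem isPer_chain {K : ℕ} [NeZero K] (Q : ZMod K → TangentBundle (𝓡 n) M) (d : ZMod K → ℝ)
    (hd : ∀ k, 0 < d k) (h : ∀ k, G.Flow (d k) (Q k) = Q (k + 1)) (k : ZMod K) :
    IsPer G (Q k) := by
  refine ⟨∑ i ∈ Finset.range K, d (k + i), ?_, ?_⟩
  · exact Finset.sum_pos (fun i _ => hd _) ⟨0, Finset.mem_range.2 (NeZero.pos K)⟩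
  · rw [flow_chain Q d h k K, ZMod.natCast_self, add_zero]

/-! ### the derivative of the action -/

variable {N} in
theorem fderiv_Fm [NeZero N] {m : ℕ} [NeZero (N * m)] {p : ZMod (N * m) → Sl n}
    (hg : ∀ k : ZMod (N * m), Good c N (red N (N * m) (dvd_mul_right N m) k) (p k, p (k + 1)))
    (hcrit : fderiv ℝ (Fm (D c N) m) p = 0) (k : ZMod (N * m)) (v : Sl n) :
    fderiv ℝ (D c N (red N (N * m) (dvd_mul_right N m) k)) (p k, p (k + 1)) (0, v) +
      fderiv ℝ (D c N (red N (N * m) (dvd_mul_right N m) (k + 1))) (p (k + 1), p (k + 1 + 1))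
        (v, 0) = 0 := by
  classical
  set r := red N (N * m) (dvd_mul_right N m) with hr
  have hD : ∀ i : ZMod (N * m), HasFDerivAt (fun p : ZMod (N * m) → Sl n =>
      D c N (r i) (p i, p (i + 1)))
      ((fderiv ℝ (D c N (r i)) (p i, p (i + 1))).comp (ev2 (S := Sl n) i)) p := by
    intro i
    have h1 := (differentiableAt_D c N (r i) (q := (p i, p (i + 1))) (hg i).2.1
      (hg i).2.2.1).hasFDerivAt
    exact HasFDerivAt.comp p (f := fun p : ZMod (N * m) → Sl n => ev2 (S := Sl n) i p) h1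
      (ev2 (S := Sl n) i).hasFDerivAt
  have hsum : HasFDerivAt (Fm (D c N) m)
      (∑ i : ZMod (N * m), (fderiv ℝ (D c N (r i)) (p i, p (i + 1))).comp (ev2 (S := Sl n) i)) p := by
    have := HasFDerivAt.sum (u := (Finset.univ : Finset (ZMod (N * m)))) (fun i _ => hD i)
    refine this.congr_of_eventuallyEq (Eventually.of_forall fun p => ?_)
    simp [Fm, hr]
  have h0 : (∑ i : ZMod (N * m), (fderiv ℝ (D c N (r i)) (p i, p (i + 1))).comp
      (ev2 (S := Sl n) i)) = 0 := hsum.fderiv.symm.trans hcrit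
  set u : ZMod (N * m) → Sl n := Pi.single (k + 1) v with hu
  have h1 := congrArg (fun L : (ZMod (N * m) → Sl n) →L[ℝ] ℝ => L u) h0
  simp only [ContinuousLinearMap.sum_apply, ContinuousLinearMap.comp_apply, ev2_apply,
    ContinuousLinearMap.zero_apply] at h1
  have h2 : ∀ i : ZMod (N * m), fderiv ℝ (D c N (r i)) (p i, p (i + 1)) (u i, u (i + 1)) =
      fderiv ℝ (D c N (r i)) (p i, p (i + 1)) (u i, 0) +
      fderiv ℝ (D c N (r i)) (p i, p (i + 1)) (0, u (i + 1)) := by
    intro i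
    rw [← map_add]
    simp
  rw [Finset.sum_congr rfl (fun i _ => h2 i), Finset.sum_add_distrib] at h1
  have h3 : ∑ i : ZMod (N * m), fderiv ℝ (D c N (r i)) (p i, p (i + 1)) (u i, 0) =
      fderiv ℝ (D c N (r (k + 1))) (p (k + 1), p (k + 1 + 1)) (v, 0) := by
    rw [Finset.sum_eq_single (k + 1)]
    · rw [hu, Pi.single_eq_same]
    · intro i _ hi
      rw [hu, Pi.single_eq_of_ne hi]
      exact map_zero _
    · intro h; exact absurd (Finset.mem_univ _) h
  have h4 : ∑ i : ZMod (N * m), fderiv ℝ (D c N (r i)) (p i, p (i + 1)) (0, u (i + 1)) =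
      fderiv ℝ (D c N (r k)) (p k, p (k + 1)) (0, v) := by
    rw [Finset.sum_eq_single k]
    · rw [hu, Pi.single_eq_same]
    · intro i _ hi
      have : i + 1 ≠ k + 1 := fun h => hi (add_right_cancel h)
      rw [hu, Pi.single_eq_of_ne this]
      exact map_zero _
    · intro h; exact absurd (Finset.mem_univ _) h
  rw [h3, h4] at h1
  rw [add_comm]
  exact h1

/-! ### the theorem -/

variable {N} in
/-- **isolatedness**: `0` is an isolated critical point of `Fm (D c N) m` -/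
theorem isolated [NeZero N] (hN : c.l / N < G.r₀ / 2)
    (hF : ∃ F : Set (TangentBundle (𝓡 n) M), F.Finite ∧ ∀ Q : TangentBundle (𝓡 n) M, ‖Q.2‖ = 1 →
      IsPer G Q → ∃ P ∈ F, ∃ s, Q = G.Flow s P)
    (m : ℕ) [NeZero (N * m)] :
    ∀ᶠ p in 𝓝 (0 : ZMod (N * m) → Sl n), fderiv ℝ (Fm (D c N) m) p = 0 → p = 0 := by
  classical
  obtain ⟨F, hFf, hF⟩ := hF
  have hNp : (0 : ℝ) < N := Nat.cast_pos.2 (NeZero.pos N)
  have hl : 0 < c.l / N := div_pos c.l_pos hNp
  set r := red N (N * m) (dvd_mul_right N m) with hr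
  have hrs : ∀ k, r (k + 1) = r k + 1 := fun k => by rw [map_add, map_one]
  -- near the base vectors the closed orbits are the orbit of `c`
  have horb : ∀ i : ZMod N, ∀ᶠ q in 𝓝 ((0, 0) : Sl n × Sl n),
      (∃ P' ∈ F, IsPer G P' ∧ ∃ s, dirT G (sg c N i q.1) (sg c N (i + 1) q.2) = G.Flow s P') →
      ∃ s, |s| < G.r₀ / 2 ∧ dirT G (sg c N i q.1) (sg c N (i + 1) q.2) = G.Flow s (c.pt N i) := by
    intro i
    have hd0 : dist (sg c N i (0 : Sl n)) (sg c N (i + 1) (0 : Sl n)) = c.l / N := by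
      rw [sg_zero, sg_zero]
      exact dist_pt c (N := N) (lt_trans hN (half_lt_self G.r₀_pos)) i
    have hd0p : 0 < dist (sg c N i ((0, 0) : Sl n × Sl n).1) (sg c N (i + 1)
        ((0, 0) : Sl n × Sl n).2) := by rw [hd0]; exact hl
    have hd0l : dist (sg c N i ((0, 0) : Sl n × Sl n).1) (sg c N (i + 1)
        ((0, 0) : Sl n × Sl n).2) < G.r₀ / 2 := by rw [hd0]; exact hN
    have hedge := continuousAt_edge c N i (q := (0, 0)) hd0p hd0l
    have hedge0 : dirT G (sg c N i (0 : Sl n)) (sg c N (i + 1) (0 : Sl n)) = c.pt N i := by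
      rw [sg_zero, sg_zero]
      exact dirT_pt c hN i
    have h1 := near_orbit (G := G) F hFf (c.pt N i) (half_pos G.r₀_pos)
    rw [← hedge0] at h1
    have h2 := hedge.eventually h1
    rw [hedge0] at h2
    exact h2
  -- pull back to `p`
  have hev : ∀ k : ZMod (N * m), Tendsto (fun p : ZMod (N * m) → Sl n => (p k, p (k + 1)))
      (𝓝 0) (𝓝 ((0, 0) : Sl n × Sl n)) := by
    intro k
    have : Continuous (fun p : ZMod (N * m) → Sl n => (p k, p (k + 1))) :=
      (continuous_apply k).prodMk (continuous_apply (k + 1))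
    exact this.tendsto 0
  have hgood : ∀ᶠ p in 𝓝 (0 : ZMod (N * m) → Sl n), ∀ k : ZMod (N * m),
      Good c N (r k) (p k, p (k + 1)) :=
    eventually_all.2 fun k => (hev k).eventually (eventually_good c hN (r k))
  have horb' : ∀ᶠ p in 𝓝 (0 : ZMod (N * m) → Sl n), ∀ k : ZMod (N * m),
      (∃ P' ∈ F, IsPer G P' ∧ ∃ s, dirT G (sg c N (r k) (p k)) (sg c N (r k + 1) (p (k + 1))) =
        G.Flow s P') →
      ∃ s, |s| < G.r₀ / 2 ∧ dirT G (sg c N (r k) (p k)) (sg c N (r k + 1) (p (k + 1))) =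
        G.Flow s (c.pt N (r k)) :=
    eventually_all.2 fun k => (hev k).eventually (horb (r k))
  have hsmall : ∀ᶠ p in 𝓝 (0 : ZMod (N * m) → Sl n), ∀ k : ZMod (N * m), ‖p k‖ < G.r₀ / 2 := by
    refine eventually_all.2 fun k => ?_
    have : Continuous (fun p : ZMod (N * m) → Sl n => ‖p k‖) := (continuous_apply k).norm
    refine this.continuousAt.eventually_lt_const ?_
    simpa using G.r₀_pos
  filter_upwards [hgood, horb', hsmall] with p hg ho hs hcrit
  -- the chain of vectors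
  have hchain : ∀ k : ZMod (N * m),
      G.Flow (dist (sg c N (r k) (p k)) (sg c N (r k + 1) (p (k + 1))))
        (dirT G (sg c N (r k) (p k)) (sg c N (r k + 1) (p (k + 1)))) =
      dirT G (sg c N (r (k + 1)) (p (k + 1))) (sg c N (r (k + 1) + 1) (p (k + 1 + 1))) := by
    intro k
    have h1 := hg k
    have h2 := hg (k + 1)
    have h3 := fderiv_Fm c (m := m) hg hcrit k
    rw [← hr] at h3
    rw [hrs k] at h2 h3 ⊢
    exact corner_free c N (r k) (a := p k) (b := p (k + 1)) (d := p (k + 1 + 1)) h1.1 h1.2.1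
      h1.2.2.1 h2.2.1 h2.2.2.1 h2.2.2.2.1 h1.2.2.2.2 h3
  funext k
  have hper : IsPer G (dirT G (sg c N (r k) (p k)) (sg c N (r k + 1) (p (k + 1)))) :=
    isPer_chain (fun k => dirT G (sg c N (r k) (p k)) (sg c N (r k + 1) (p (k + 1))))
      (fun k => dist (sg c N (r k) (p k)) (sg c N (r k + 1) (p (k + 1))))
      (fun k => (hg k).2.1) hchain k
  obtain ⟨P', hP', s', hs'⟩ := hF _ (norm_dirv (hg k).2.1 (hg k).2.2.1) hper
  obtain ⟨s, hsl, hs2⟩ := ho k ⟨P', hP', by
    rw [hs'] at hper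
    exact isPer_of_flow hper, s', hs'⟩
  have h1 : sg c N (r k) (p k) = G.ex (c.pt N (r k)).1 (s • (c.pt N (r k)).2) :=
    congrArg (fun q : TangentBundle (𝓡 n) M => q.1) hs2
  have h2 : E (c.pt N (r k)) (p k) = s • (c.pt N (r k)).2 := by
    refine G.inj (c.pt N (r k)).1 _ _ ?_ ?_ h1
    · rw [norm_E_pt]
      exact lt_trans (hs k) (half_lt_self G.r₀_pos)
    · rw [norm_smul, c.norm_pt, mul_one]
      exact lt_trans hsl (half_lt_self G.r₀_pos)
  have h3 := inner_E (c.norm_pt N (r k)) (p k)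
  rw [h2, inner_smul_right, real_inner_self_eq_norm_sq, c.norm_pt] at h3
  have h4 : s = 0 := by simpa using h3
  rw [h4, zero_smul] at h2
  have h5 := norm_E_pt c N (r k) (p k)
  rw [h2, norm_zero] at h5
  exact norm_eq_zero.1 h5.symm

end

end Crest.Agent.R231.GMIsox320
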