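import Mathlib

/-!
# Row 231, block GM: linear algebra of iterates

`ker (P^m - 1)` takes only finitely many values, each one attained at a divisor of `m` taken from
a fixed finite set; and the same statement for periodic solutions of a periodic recursion.
-/

set_option autoImplicit false

namespace Crest.Agent.R231.GMLinx176

open Polynomial

section Poly

variable {K : Type*} [Field K] [CharZero K]

/-- The set of `d > 0` such that the `d`-th cyclotomic polynomial has a factor in common with a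
given non-zero polynomial is finite. -/
theorem finite_not_coprime_cyclotomic (μ : K[X]) (hμ : μ ≠ 0) :
    {d : ℕ | 0 < d ∧ ¬ IsCoprime (cyclotomic d K) μ}.Finite := by
  classical
  let L := AlgebraicClosure K
  have hμL : μ.map (algebraMap K L) ≠ 0 := by
    simpa using hμ
  have : {d : ℕ | 0 < d ∧ ¬ IsCoprime (cyclotomic d K) μ} ⊆
      (fun z : L => orderOf z) '' {z : L | (μ.map (algebraMap K L)).IsRoot z} := by
    rintro d ⟨hd, hc⟩
    have hdL : NeZero (d : L) := ⟨by exact_mod_cast hd.ne'⟩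
    -- a common root
    have hc' : ¬ IsCoprime ((cyclotomic d K).map (algebraMap K L)) (μ.map (algebraMap K L)) := by
      intro h
      exact hc ((Polynomial.isCoprime_map (algebraMap K L)).1 h)
    have hex : ∃ z : L, ((cyclotomic d K).map (algebraMap K L)).IsRoot z ∧
        (μ.map (algebraMap K L)).IsRoot z := by
      by_contra hno
      push Not at hno
      apply hc'
      rw [Polynomial.isCoprime_iff_aeval_ne_zero_of_isAlgClosed (k := L) (K := L)]
      intro z
      by_cases hz : ((cyclotomic d K).map (algebraMap K L)).IsRoot z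
      · right
        simpa [Polynomial.IsRoot] using hno z hz
      · left
        simpa [Polynomial.IsRoot] using hz
    obtain ⟨z, hz1, hz2⟩ := hex
    refine ⟨z, hz2, ?_⟩
    rw [map_cyclotomic] at hz1
    have := (isRoot_cyclotomic_iff (n := d) (R := L)).1 hz1
    exact this.eq_orderOf.symm
  refine Set.Finite.subset (Set.Finite.image _ ?_) this
  exact Polynomial.finite_setOfPred_isRoot hμL

/-- Finitely many `m₀` suffice to describe all the fixed spaces `ker (P ^ m - 1)`. -/
theorem exists_finset_pow_fixed {V : Type*} [AddCommGroup V] [Module K V]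
    [FiniteDimensional K V] (P : Module.End K V) :
    ∃ D : Finset ℕ, (∀ d ∈ D, 0 < d) ∧ ∀ m : ℕ, 0 < m →
      ∃ m₀ ∈ D, m₀ ∣ m ∧ ∀ v : V, (P ^ m) v = v → (P ^ m₀) v = v := by
  classical
  have hμ : minpoly K P ≠ 0 := minpoly.ne_zero (Algebra.IsIntegral.isIntegral P)
  set μ := minpoly K P with hμdef
  let S : Finset ℕ := (finite_not_coprime_cyclotomic μ hμ).toFinset
  have hS : ∀ d, d ∈ S ↔ (0 < d ∧ ¬ IsCoprime (cyclotomic d K) μ) := by
    intro d; simp [S]
  refine ⟨S.powerset.image (fun T => T.lcm id), ?_, ?_⟩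
  · intro d hd
    obtain ⟨T, hT, rfl⟩ := Finset.mem_image.1 hd
    rw [Nat.pos_iff_ne_zero, Ne, Finset.lcm_eq_zero_iff]
    rintro ⟨x, hx, hx0⟩
    have := ((hS x).1 (Finset.mem_powerset.1 hT hx)).1
    simp only [id] at hx0
    omega
  · intro m hm
    let T : Finset ℕ := S.filter (fun d => d ∣ m)
    have hTS : T ⊆ S := Finset.filter_subset _ _
    let m₀ : ℕ := T.lcm id
    have hm₀m : m₀ ∣ m := Finset.lcm_dvd (fun d hd => (Finset.mem_filter.1 hd).2)
    have hm₀ : 0 < m₀ := Nat.pos_of_dvd_of_pos hm₀m hm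
    refine ⟨m₀, Finset.mem_image.2 ⟨T, Finset.mem_powerset.2 hTS, rfl⟩, hm₀m, ?_⟩
    -- factorisation
    let Q : K[X] := ∏ d ∈ m.divisors \ m₀.divisors, cyclotomic d K
    have hfac : (X ^ m - 1 : K[X]) = Q * (X ^ m₀ - 1) := by
      rw [← prod_cyclotomic_eq_X_pow_sub_one hm, ← prod_cyclotomic_eq_X_pow_sub_one hm₀]
      rw [Finset.prod_sdiff]
      exact Nat.divisors_subset_of_dvd hm.ne' hm₀m
    have hQ : IsCoprime Q μ := by
      apply IsCoprime.prod_left
      intro d hd
      obtain ⟨hd1, hd2⟩ := Finset.mem_sdiff.1 hd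
      have hdm : d ∣ m := Nat.dvd_of_mem_divisors hd1
      have hd0 : 0 < d := Nat.pos_of_dvd_of_pos hdm hm
      by_contra hc
      have hdT : d ∈ T := Finset.mem_filter.2 ⟨(hS d).2 ⟨hd0, hc⟩, hdm⟩
      have : d ∣ m₀ := Finset.dvd_lcm (f := id) hdT
      exact hd2 (Nat.mem_divisors.2 ⟨this, hm₀.ne'⟩)
    obtain ⟨a, b, hab⟩ := hQ
    intro v hv
    have h1 : (aeval P Q) (((P ^ m₀) v) - v) = 0 := by
      have h := congrArg (fun q : K[X] => (aeval P q) v) hfac
      simp only [map_sub, map_pow, aeval_X, map_one, map_mul, Module.End.mul_apply,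
        LinearMap.sub_apply, Module.End.one_apply, hv, sub_self] at h
      simpa using h.symm
    have h2 : (aeval P (a * Q + b * μ)) (((P ^ m₀) v) - v) = ((P ^ m₀) v) - v := by
      rw [hab]; simp
    have h3 : (aeval P (a * Q + b * μ)) (((P ^ m₀) v) - v) = 0 := by
      rw [map_add, map_mul, map_mul, hμdef, minpoly.aeval, mul_zero, add_zero,
        Module.End.mul_apply, h1, map_zero]
    exact sub_eq_zero.1 (h2.symm.trans h3)

end Poly

section Per

variable {K : Type*} [Field K] {S : Type*} [AddCommGroup S] [Module K S]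

/-- The shift of a two-sided sequence by `N`. -/
def shift (K : Type*) [Field K] {S : Type*} [AddCommGroup S] [Module K S] (N : ℤ) :
    (ℤ → S) →ₗ[K] (ℤ → S) where
  toFun u := fun i => u (i + N)
  map_add' _ _ := rfl
  map_smul' _ _ := rfl

@[simp] theorem shift_apply (N : ℤ) (u : ℤ → S) (i : ℤ) : shift K N u i = u (i + N) := rfl

/-- Periodic solutions: a finite dimensional shift-invariant space of two-sided sequences. -/
theorem exists_finset_period [CharZero K] (Sol : Submodule K (ℤ → S)) [FiniteDimensional K Sol] (N : ℕ)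
    (hshift : ∀ u ∈ Sol, (fun i => u (i + N)) ∈ Sol) :
    ∃ D : Finset ℕ, (∀ d ∈ D, 0 < d) ∧ ∀ m : ℕ, 0 < m →
      ∃ m₀ ∈ D, m₀ ∣ m ∧ ∀ u ∈ Sol, (∀ i : ℤ, u (i + (N * m : ℕ)) = u i) →
        ∀ i : ℤ, u (i + (N * m₀ : ℕ)) = u i := by
  let P : Module.End K Sol := (shift K (N : ℤ)).restrict (p := Sol) (q := Sol) hshift
  have hP : ∀ (k : ℕ) (u : Sol) (i : ℤ), ((P ^ k) u : ℤ → S) i = (u : ℤ → S) (i + (N * k : ℕ)) := by
    intro k
    induction k with
    | zero => intro u i; simp
    | succ k ih =>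
      intro u i
      rw [pow_succ', Module.End.mul_apply]
      have : ((P ((P ^ k) u) : Sol) : ℤ → S) i = ((P ^ k) u : ℤ → S) (i + N) := rfl
      rw [this, ih]
      have e : i + (N : ℤ) + ((N * k : ℕ) : ℤ) = i + ((N * (k + 1) : ℕ) : ℤ) := by
        push_cast
        ring
      rw [e]
  obtain ⟨D, hD, h⟩ := exists_finset_pow_fixed P
  refine ⟨D, hD, fun m hm => ?_⟩
  obtain ⟨m₀, hm₀, hdvd, hfix⟩ := h m hm
  refine ⟨m₀, hm₀, hdvd, fun u hu hper i => ?_⟩
  have h1 : (P ^ m) ⟨u, hu⟩ = ⟨u, hu⟩ := by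
    apply Subtype.ext
    funext j
    rw [hP]
    exact hper j
  have h2 := congrArg (fun w : Sol => (w : ℤ → S) i) (hfix _ h1)
  simp only [hP] at h2
  exact h2

/-- The space of two-sided solutions of `C i (u (i-1)) + A i (u i) + B i (u (i+1)) = 0`. -/
def solutions (C A B : ℤ → S →ₗ[K] S) : Submodule K (ℤ → S) where
  carrier := {u | ∀ i, C i (u (i - 1)) + A i (u i) + B i (u (i + 1)) = 0}
  add_mem' {u v} hu hv := by
    intro i
    have h1 := hu i
    have h2 := hv i
    simp only [Pi.add_apply, map_add]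
    calc _ = (C i (u (i - 1)) + A i (u i) + B i (u (i + 1))) +
        (C i (v (i - 1)) + A i (v i) + B i (v (i + 1))) := by abel
      _ = 0 := by rw [h1, h2, add_zero]
  zero_mem' := by intro i; simp
  smul_mem' c u hu := by
    intro i
    have h1 := hu i
    simp only [Pi.smul_apply, map_smul, ← smul_add, h1, smul_zero]

theorem mem_solutions (C A B : ℤ → S →ₗ[K] S) (u : ℤ → S) :
    u ∈ solutions C A B ↔ ∀ i, C i (u (i - 1)) + A i (u i) + B i (u (i + 1)) = 0 := Iff.rfl

/-- Two consecutive values determine a solution. -/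
theorem eq_zero_of_two (C A B : ℤ → S →ₗ[K] S) (hC : ∀ i, Function.Injective (C i))
    (hB : ∀ i, Function.Injective (B i)) (u : ℤ → S) (hu : u ∈ solutions C A B)
    (h0 : u 0 = 0) (h1 : u 1 = 0) : u = 0 := by
  have hpos : ∀ n : ℕ, u n = 0 ∧ u (n + 1) = 0 := by
    intro n
    induction n with
    | zero => simpa using ⟨h0, h1⟩
    | succ n ih =>
      obtain ⟨a, b⟩ := ih
      refine ⟨by exact_mod_cast b, ?_⟩
      have h := hu ((n : ℤ) + 1)
      rw [show (n : ℤ) + 1 - 1 = n by ring, a, b, map_zero, map_zero, zero_add, zero_add] at h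
      have := hB _ (h.trans (map_zero _).symm)
      push_cast
      exact this
  have hneg : ∀ n : ℕ, u (-(n : ℤ)) = 0 ∧ u (-(n : ℤ) + 1) = 0 := by
    intro n
    induction n with
    | zero => simpa using ⟨h0, h1⟩
    | succ n ih =>
      obtain ⟨a, b⟩ := ih
      have h := hu (-(n : ℤ))
      rw [a, b, map_zero, map_zero, add_zero, add_zero] at h
      have := hC _ (h.trans (map_zero _).symm)
      refine ⟨?_, ?_⟩
      · have e : (-((n + 1 : ℕ) : ℤ)) = -(n : ℤ) - 1 := by push_cast; ring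
        rw [e]; exact this
      · have e : (-((n + 1 : ℕ) : ℤ)) + 1 = -(n : ℤ) := by push_cast; ring
        rw [e]; exact a
  funext i
  obtain ⟨n, rfl | rfl⟩ := i.eq_nat_or_neg
  · exact (hpos n).1
  · exact (hneg n).1

theorem finiteDimensional_solutions [FiniteDimensional K S] (C A B : ℤ → S →ₗ[K] S)
    (hC : ∀ i, Function.Injective (C i)) (hB : ∀ i, Function.Injective (B i)) :
    FiniteDimensional K (solutions C A B) := by
  let ev : solutions C A B →ₗ[K] S × S :=
    { toFun := fun u => ((u : ℤ → S) 0, (u : ℤ → S) 1)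
      map_add' := fun _ _ => rfl
      map_smul' := fun _ _ => rfl }
  apply FiniteDimensional.of_injective ev
  intro u v huv
  have h0 : (u : ℤ → S) 0 = (v : ℤ → S) 0 := congrArg Prod.fst huv
  have h1 : (u : ℤ → S) 1 = (v : ℤ → S) 1 := congrArg Prod.snd huv
  have := eq_zero_of_two C A B hC hB ((u : ℤ → S) - v) (sub_mem u.2 v.2)
    (by simp [h0]) (by simp [h1])
  exact Subtype.ext (sub_eq_zero.1 this)

/-- **GMLin, recursion form.** -/
theorem exists_finset_period_recursion [CharZero K] [FiniteDimensional K S] (C A B : ℤ → S →ₗ[K] S)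
    (hC : ∀ i, Function.Injective (C i)) (hB : ∀ i, Function.Injective (B i)) (N : ℕ)
    (hCN : ∀ i, C (i + N) = C i) (hAN : ∀ i, A (i + N) = A i) (hBN : ∀ i, B (i + N) = B i) :
    ∃ D : Finset ℕ, (∀ d ∈ D, 0 < d) ∧ ∀ m : ℕ, 0 < m →
      ∃ m₀ ∈ D, m₀ ∣ m ∧ ∀ u : ℤ → S,
        (∀ i, C i (u (i - 1)) + A i (u i) + B i (u (i + 1)) = 0) →
        (∀ i : ℤ, u (i + (N * m : ℕ)) = u i) → ∀ i : ℤ, u (i + (N * m₀ : ℕ)) = u i := by
  have := finiteDimensional_solutions C A B hC hB
  obtain ⟨D, hD, h⟩ := exists_finset_period (solutions C A B) N (by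
    intro u hu i
    have := hu (i + N)
    rw [hCN, hAN, hBN] at this
    simpa [sub_add_eq_add_sub, add_right_comm] using this)
  exact ⟨D, hD, fun m hm => by
    obtain ⟨m₀, h1, h2, h3⟩ := h m hm
    exact ⟨m₀, h1, h2, fun u hu => h3 u hu⟩⟩

end Per

end Crest.Agent.R231.GMLinx176
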