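import Mathlib

/-!
# Row 231, block GM, part (A1) (helper770): linear algebra of periodic three-term recursions

* `exists_dominating` : a family of subspaces monotone for divisibility is dominated by one member.
* `Sol H` : the space of all bi-infinite solutions `u : ℤ → S` of the Euler-Lagrange recursion of
  the periodic family of symmetric forms `H i` on `S × S`; it is finite dimensional when the mixed
  part is non-degenerate (`finiteDimensional_sol`).
* `exists_gcd_period` : there is `M` such that every solution with period `N * m` has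
  period `N * gcd m M`.
-/

set_option autoImplicit false

noncomputable section

namespace Crest.Agent.R231.GMLinx770

open Module

/-- A family of subspaces which is monotone for divisibility is dominated by one member. -/
theorem exists_dominating {V : Type*} [AddCommGroup V] [Module ℝ V] [FiniteDimensional ℝ V]
    (E : ℕ → Submodule ℝ V) (hdvd : ∀ a b, 0 < a → 0 < b → a ∣ b → E a ≤ E b) :
    ∃ M, 0 < M ∧ ∀ m, 0 < m → E m ≤ E M := by
  classical
  -- choose `M > 0` with maximal rank
  have hb : ∃ M, 0 < M ∧ ∀ m, 0 < m → finrank ℝ (E m) ≤ finrank ℝ (E M) := by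
    let P : ℕ → Prop := fun r => ∃ M, 0 < M ∧ finrank ℝ (E M) = r
    have hP : ∃ r, P r := ⟨_, 1, one_pos, rfl⟩
    have hbd : ∀ r, P r → r ≤ finrank ℝ V := by
      rintro r ⟨M, _, rfl⟩
      exact Submodule.finrank_le _
    obtain ⟨r0, hr0⟩ := hP
    have h1 : P (Nat.findGreatest P (finrank ℝ V)) := Nat.findGreatest_spec (hbd r0 hr0) hr0
    obtain ⟨M, hM, hMr⟩ := h1
    refine ⟨M, hM, fun m hm => ?_⟩
    rw [hMr]
    exact Nat.le_findGreatest (hbd _ ⟨m, hm, rfl⟩) ⟨m, hm, rfl⟩
  obtain ⟨M, hM, hmax⟩ := hb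
  refine ⟨M, hM, fun m hm => ?_⟩
  have hmM : 0 < m * M := Nat.mul_pos hm hM
  have h1 : E M ≤ E (m * M) := hdvd _ _ hM hmM (Dvd.intro_left m rfl)
  have h2 : E M = E (m * M) := Submodule.eq_of_le_of_finrank_le h1 (hmax _ hmM)
  rw [h2]
  exact hdvd _ _ hm hmM (Dvd.intro M rfl)

variable {S : Type*} [NormedAddCommGroup S] [NormedSpace ℝ S]

/-- The Euler-Lagrange residual at the place `j` of the bi-infinite sequence `u`, tested with `v`. -/
def res {N : ℕ} (H : ZMod N → (S × S) →L[ℝ] (S × S) →L[ℝ] ℝ) (u : ℤ → S) (j : ℤ) (v : S) : ℝ :=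
  H (j : ZMod N) (u j, u (j + 1)) (v, 0) + H ((j - 1 : ℤ) : ZMod N) (u (j - 1), u j) (0, v)

/-- Solutions of the recursion. -/
def Sol {N : ℕ} (H : ZMod N → (S × S) →L[ℝ] (S × S) →L[ℝ] ℝ) : Submodule ℝ (ℤ → S) where
  carrier := {u | ∀ j v, res H u j v = 0}
  zero_mem' := by
    intro j v
    simp only [res, Pi.zero_apply]
    rw [show ((0 : S), (0 : S)) = 0 from rfl]
    simp
  add_mem' := by
    intro u w hu hw j v
    have h1 := hu j v
    have h2 := hw j v
    simp only [res, Pi.add_apply] at h1 h2 ⊢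
    rw [← Prod.mk_add_mk, ← Prod.mk_add_mk]
    simp only [map_add, add_apply]
    linarith
  smul_mem' := by
    intro c u hu j v
    have h1 := hu j v
    simp only [res, Pi.smul_apply] at h1 ⊢
    rw [← Prod.smul_mk, ← Prod.smul_mk]
    simp only [map_smul, smul_apply, smul_eq_mul]
    rw [← mul_add, h1, mul_zero]

theorem mem_Sol {N : ℕ} {H : ZMod N → (S × S) →L[ℝ] (S × S) →L[ℝ] ℝ} {u : ℤ → S} :
    u ∈ Sol H ↔ ∀ j v, res H u j v = 0 := Iff.rfl

/-- non-degeneracy of the mixed part, transposed -/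
theorem transpose_nondeg [FiniteDimensional ℝ S] (B : (S × S) →L[ℝ] (S × S) →L[ℝ] ℝ)
    (hsym : ∀ x y, B x y = B y x)
    (h : ∀ w, (∀ v, B (0, w) (v, 0) = 0) → w = 0) :
    ∀ w, (∀ v, B (w, 0) (0, v) = 0) → w = 0 := by
  intro w hw
  let T : S →ₗ[ℝ] Module.Dual ℝ S :=
    { toFun := fun w => (B (0, w)).toLinearMap.comp (LinearMap.inl ℝ S S)
      map_add' := by
        intro a b
        have h0 : ((0 : S), a + b) = (0, a) + (0, b) := by rw [Prod.mk_add_mk, add_zero]
        rw [h0, map_add]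
        rfl
      map_smul' := by
        intro c a
        have h0 : ((0 : S), c • a) = c • ((0 : S), a) := by rw [Prod.smul_mk, smul_zero]
        rw [h0, map_smul]
        rfl }
  have hTapp : ∀ a v, T a v = B (0, a) (v, 0) := fun a v => rfl
  have hinj : Function.Injective T := by
    rw [injective_iff_map_eq_zero]
    intro a ha
    refine h a (fun v => ?_)
    rw [← hTapp, ha]
    rfl
  have hfr : finrank ℝ S = finrank ℝ (Module.Dual ℝ S) := (Subspace.dual_finrank_eq).symm
  have hsurj : Function.Surjective T :=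
    (LinearMap.injective_iff_surjective_of_finrank_eq_finrank hfr).1 hinj
  rw [← Module.forall_dual_apply_eq_zero_iff ℝ]
  intro f
  obtain ⟨a, rfl⟩ := hsurj f
  rw [hTapp, hsym]
  exact hw a

section Recursion

variable {N : ℕ} {H : ZMod N → (S × S) →L[ℝ] (S × S) →L[ℝ] ℝ}

theorem sol_zero_of_two [FiniteDimensional ℝ S]
    (hsym : ∀ i x y, H i x y = H i y x)
    (htw : ∀ i w, (∀ v, H i (0, w) (v, 0) = 0) → w = 0)
    {u : ℤ → S} (hu : u ∈ Sol H) (h0 : u 0 = 0) (h1 : u 1 = 0) : u = 0 := by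
  have hfwd : ∀ j : ℤ, u (j - 1) = 0 → u j = 0 → u (j + 1) = 0 := by
    intro j ha hb
    refine htw (j : ZMod N) _ (fun v => ?_)
    have := hu j v
    simp only [res, ha, hb] at this
    rw [show ((0 : S), (0 : S)) = 0 from rfl, map_zero] at this
    simpa using this
  have hbwd : ∀ j : ℤ, u j = 0 → u (j + 1) = 0 → u (j - 1) = 0 := by
    intro j ha hb
    refine transpose_nondeg (H ((j - 1 : ℤ) : ZMod N)) (hsym _) (htw _) _ (fun v => ?_)
    have := hu j v
    simp only [res, ha, hb] at this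
    rw [show ((0 : S), (0 : S)) = 0 from rfl, map_zero] at this
    simpa using this
  have hpos : ∀ n : ℕ, u (n : ℤ) = 0 ∧ u ((n : ℤ) + 1) = 0 := by
    intro n
    induction n with
    | zero => exact ⟨by simpa using h0, by simpa using h1⟩
    | succ n ih =>
      refine ⟨by push_cast; exact ih.2, ?_⟩
      have := hfwd ((n : ℤ) + 1) (by simpa using ih.1) ih.2
      push_cast
      exact this
  have hneg : ∀ n : ℕ, u (-(n : ℤ)) = 0 ∧ u (-(n : ℤ) + 1) = 0 := by
    intro n
    induction n with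
    | zero => exact ⟨by simpa using h0, by simpa using h1⟩
    | succ n ih =>
      have h2 := hbwd (-(n : ℤ)) ih.1 ih.2
      refine ⟨?_, ?_⟩
      · have e : (-((n + 1 : ℕ) : ℤ)) = -(n : ℤ) - 1 := by push_cast; ring
        rw [e]; exact h2
      · have e : (-((n + 1 : ℕ) : ℤ)) + 1 = -(n : ℤ) := by push_cast; ring
        rw [e]; exact ih.1
  funext j
  obtain ⟨n, rfl | rfl⟩ := j.eq_nat_or_neg
  · exact (hpos n).1
  · exact (hneg n).1

/-- The space of solutions is finite dimensional. -/
theorem finiteDimensional_sol [FiniteDimensional ℝ S]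
    (hsym : ∀ i x y, H i x y = H i y x)
    (htw : ∀ i w, (∀ v, H i (0, w) (v, 0) = 0) → w = 0) : FiniteDimensional ℝ (Sol H) := by
  let T : Sol H →ₗ[ℝ] S × S :=
    { toFun := fun u => (u.1 0, u.1 1)
      map_add' := by intro a b; rfl
      map_smul' := by intro c a; rfl }
  have hinj : Function.Injective T := by
    rw [injective_iff_map_eq_zero]
    rintro ⟨u, hu⟩ h
    have h2 : (u 0, u 1) = ((0 : S), (0 : S)) := h
    rw [Prod.mk.injEq] at h2
    exact Subtype.ext (sol_zero_of_two hsym htw hu h2.1 h2.2)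
  exact FiniteDimensional.of_injective T hinj

/-- Solutions of period `K`. -/
def Per (H : ZMod N → (S × S) →L[ℝ] (S × S) →L[ℝ] ℝ) (K : ℕ) : Submodule ℝ (Sol H) where
  carrier := {u | ∀ j : ℤ, u.1 (j + K) = u.1 j}
  zero_mem' := fun j => rfl
  add_mem' := by
    intro a b ha hb j
    change a.1 (j + K) + b.1 (j + K) = a.1 j + b.1 j
    rw [ha j, hb j]
  smul_mem' := by
    intro c a ha j
    change c • a.1 (j + K) = c • a.1 j
    rw [ha j]

theorem per_nat_mul {u : ℤ → S} {K : ℤ} (h : ∀ j : ℤ, u (j + K) = u j) (n : ℤ) :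
    ∀ j, u (j + n * K) = u j := by
  have h' : ∀ j : ℤ, u (j - K) = u j := fun j => by
    have := h (j - K)
    rw [sub_add_cancel] at this
    exact this.symm
  induction n using Int.induction_on with
  | zero => intro j; simp
  | succ n ih =>
    intro j
    have e : j + ((n : ℤ) + 1) * K = (j + n * K) + K := by ring
    rw [e, h, ih]
  | pred n ih =>
    intro j
    have e : j + (-(n : ℤ) - 1) * K = (j + (-n) * K) - K := by ring
    rw [e, h', ih]

theorem per_gcd {u : ℤ → S} {a b : ℕ} (ha : ∀ j : ℤ, u (j + a) = u j)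
    (hb : ∀ j : ℤ, u (j + b) = u j) : ∀ j : ℤ, u (j + (Nat.gcd a b : ℕ)) = u j := by
  intro j
  have hg : ((Nat.gcd a b : ℕ) : ℤ) = Nat.gcdA a b * a + Nat.gcdB a b * b := by
    rw [Nat.gcd_eq_gcd_ab]; ring
  rw [hg, ← add_assoc, per_nat_mul hb, per_nat_mul ha]

/-- **Main statement of the linear algebra part.** There is `M > 0` such that every solution of
period `N * m` has period `N * gcd m M`. -/
theorem exists_gcd_period [FiniteDimensional ℝ S]
    (hsym : ∀ i x y, H i x y = H i y x)
    (htw : ∀ i w, (∀ v, H i (0, w) (v, 0) = 0) → w = 0) :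
    ∃ M, 0 < M ∧ ∀ m, 0 < m → ∀ u ∈ Sol H, (∀ j : ℤ, u (j + (N * m : ℕ)) = u j) →
      ∀ j : ℤ, u (j + (N * Nat.gcd m M : ℕ)) = u j := by
  have := finiteDimensional_sol hsym htw
  obtain ⟨M, hM, hdom⟩ := exists_dominating (fun m => Per H (N * m)) (by
    intro a b _ _ hab u hu j
    obtain ⟨c, rfl⟩ := hab
    have := per_nat_mul hu (c : ℤ) j
    have e : ((N * (a * c) : ℕ) : ℤ) = (c : ℤ) * ((N * a : ℕ) : ℤ) := by push_cast; ring
    rw [e]
    exact this)
  refine ⟨M, hM, fun m hm u hu hper => ?_⟩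
  have h1 : (⟨u, hu⟩ : Sol H) ∈ Per H (N * M) := hdom m hm hper
  have h2 := per_gcd hper h1
  rwa [Nat.gcd_mul_left] at h2

end Recursion

end Crest.Agent.R231.GMLinx770
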