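import Crest.Agent.R231.GMMaps_889
import Crest.Agent.R231.GCross_449

/-!
# Row 231 (S0357), block GM-GEO (b): proof of `SliceDom`, part 2: the centre (helper889)

* `isGeo`, `tight` : the iterate `g0` is a closed geodesic of length `m l`, tight on short arcs
* `pr_centre`, `τ_centre`, `ph_centre`, `cT_centre`, `vq_centre`, `dist_centre`, `len_centre`
* `BG_centre` : `g0` is the polygon with vertices `vq 0` and weights `1/n`
-/

set_option autoImplicit false
set_option linter.unusedSectionVars false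

open Set Filter Topology

noncomputable section

namespace Crest.Agent.R231.GMGeox889

open Crest.Agent.R231.GLugx576 Crest.Agent.R231.GMRedx102 Crest.Agent.R231.GCrossx449

namespace SliceSys

section centre

variable {M : Type*} [MetricSpace M] {L : LUG M}
  {S : Type*} [NormedAddCommGroup S] {A : SliceSys L S} {m : ℕ} {g0 : Lp M}

theorem dvN : Dv A (A.N * m) := by
  unfold Dv
  push_cast
  rw [ZMod.natCast_self, zero_mul]

theorem N_posR : (0 : ℝ) < A.N := by exact_mod_cast Nat.pos_of_ne_zero (NeZero.ne A.N)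

theorem s_pos (A : SliceSys L S) (hm : 0 < m) : 0 < (m : ℝ) * A.l :=
  mul_pos (by exact_mod_cast hm) A.l_pos

theorem dist_IsIt (hm : 0 < m) (h0 : A.IsIt m g0) {x y : ℝ} (h : m * A.l * |x - y| < L.r0) :
    dist (g0 x) (g0 y) = m * A.l * |x - y| := by
  have hs := s_pos A hm
  have e : |m * A.l * x - m * A.l * y| = m * A.l * |x - y| := by
    rw [← mul_sub, abs_mul, abs_of_pos hs]
  rw [h0, h0, A.geo _ _ (by rwa [e]), e]

theorem isGeo (hm : 0 < m) (h0 : A.IsIt m g0) : IsGeo (m * A.l) g0 := by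
  have hs := s_pos A hm
  refine ⟨hs, L.r0 / (2 * (m * A.l)), div_pos L.r0_pos (by linarith), fun x y hxy => ?_⟩
  refine dist_IsIt hm h0 ?_
  rw [le_div_iff₀ (by linarith)] at hxy
  nlinarith [L.r0_pos]

theorem g0_mem (hm : 0 < m) (h0 : A.IsIt m g0) : g0 ∈ X M (m * A.l) := geo_mem (isGeo hm h0)

theorem tight (hm : 0 < m) (h0 : A.IsIt m g0) (x y : ℝ) (hxy : x ≤ y)
    (h : m * A.l * (y - x) < L.r0) : dist (g0 x) (g0 y) = m * A.l * (y - x) := by
  have e : |x - y| = y - x := by rw [abs_sub_comm, abs_of_nonneg (by linarith)]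
  rw [← e] at h ⊢
  exact dist_IsIt hm h0 h

theorem c_per (j : ℕ) (y : ℝ) : A.c (y + j * A.l) = A.c y := by
  induction j with
  | zero => rw [Nat.cast_zero, zero_mul, add_zero]
  | succ j ih =>
    rw [show y + ((j + 1 : ℕ) : ℝ) * A.l = (y + j * A.l) + A.l by push_cast; ring, A.per, ih]

/-- values of `c` at the slices are periodic -/
theorem c_ix (k : ℕ) (a : ℝ) : A.c ((k + a) * A.l / A.N) = A.c (((A.ix k).val + a) * A.l / A.N) := by
  have hN : (0 : ℝ) < A.N := N_posR
  unfold ix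
  rw [ZMod.val_natCast]
  have e : (k : ℝ) = ((k % A.N : ℕ) : ℝ) + A.N * ((k / A.N : ℕ) : ℝ) := by
    exact_mod_cast (Nat.mod_add_div k A.N).symm
  have e2 : ((k : ℝ) + a) * A.l / A.N =
      (((k % A.N : ℕ) : ℝ) + a) * A.l / A.N + ((k / A.N : ℕ) : ℝ) * A.l := by
    rw [e]
    field_simp
    ring
  rw [e2, c_per]

section

variable [NeZero (A.N * m)]

theorem m_pos (A : SliceSys L S) (m : ℕ) [NeZero (A.N * m)] : 0 < m := by
  have := NeZero.ne (A.N * m)
  exact Nat.pos_of_ne_zero fun h => this (by rw [h, mul_zero])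

theorem m_posR (A : SliceSys L S) (m : ℕ) [NeZero (A.N * m)] : (0 : ℝ) < m := by
  exact_mod_cast m_pos A m

theorem g0_at (h0 : A.IsIt m g0) (x : ℝ) :
    g0 ((x / (A.N * m : ℕ) : ℝ) : UnitAddCircle) = A.c (x * A.l / A.N) := by
  have h1 := m_posR A m
  have h2 : (0 : ℝ) < A.N := N_posR
  rw [h0]
  congr 1
  push_cast
  field_simp

theorem pr_centre (h0 : A.IsIt m g0) (k : ℕ) : pr (A.N * m) g0 k =
    (A.c (((A.ix k).val - 1 / 2) * A.l / A.N), A.c (((A.ix k).val + 1 / 2) * A.l / A.N)) := by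
  unfold pr hT
  rw [g0_at h0, g0_at h0]
  refine Prod.ext ?_ ?_
  · show A.c _ = A.c _
    rw [sub_eq_add_neg, c_ix, ← sub_eq_add_neg]
  · show A.c _ = A.c _
    rw [← c_ix]
    congr 1
    push_cast
    ring

theorem τ_centre (h0 : A.IsIt m g0) (k : ℕ) : A.τ (A.ix k) (pr (A.N * m) g0 k) = 1 / 2 := by
  rw [pr_centre h0, A.τ_mid]

theorem cT_centre (h0 : A.IsIt m g0) (k : ℕ) : A.cT (A.N * m) g0 k = k / (A.N * m : ℕ) := by
  unfold cT hT
  rw [τ_centre h0]
  ring

theorem ph_centre (h0 : A.IsIt m g0) : A.ph (A.N * m) g0 = 0 := by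
  funext i
  unfold ph
  rw [pr_centre h0, A.w_mid]
  rfl

theorem vq_centre (k : ℕ) : A.vq (A.N * m) 0 k = A.c (k * A.l / A.N) := by
  unfold vq
  rw [Pi.zero_apply, A.σ_zero]
  have := c_ix (A := A) k 0
  rw [add_zero, add_zero] at this
  exact this.symm

theorem lN_pos (A : SliceSys L S) : 0 < A.l / A.N := div_pos A.l_pos N_posR

theorem lN_lt (A : SliceSys L S) : A.l / A.N < L.r0 := by
  have h1 := A.small
  have h2 := lN_pos A
  rw [mul_div_assoc] at h1
  linarith

theorem dist_centre (k : ℕ) :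
    dist (A.vq (A.N * m) 0 k) (A.vq (A.N * m) 0 (k + 1)) = A.l / A.N := by
  rw [vq_centre, vq_centre]
  have h1 := lN_pos A
  have e : |(k : ℝ) * A.l / A.N - ((k + 1 : ℕ) : ℝ) * A.l / A.N| = A.l / A.N := by
    rw [show (k : ℝ) * A.l / A.N - ((k + 1 : ℕ) : ℝ) * A.l / A.N = -(A.l / A.N) by push_cast; ring,
      abs_neg, abs_of_pos h1]
  rw [A.geo _ _ (by rw [e]; exact lN_lt A), e]

theorem len_centre : A.len (A.N * m) 0 = m * A.l := by
  have h2 : (0 : ℝ) < A.N := N_posR
  unfold len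
  rw [Finset.sum_congr rfl fun k _ => dist_centre k, Finset.sum_const, Finset.card_range,
    nsmul_eq_mul]
  push_cast
  field_simp

theorem ew_centre (k : ℕ) : A.ew (A.N * m) 0 k = 1 / (A.N * m : ℕ) := by
  have h1 := m_posR A m
  have h2 : (0 : ℝ) < A.N := N_posR
  have h3 := A.l_pos
  unfold ew
  rw [dist_centre, len_centre]
  push_cast
  field_simp

theorem Gd_centre : Gd A (A.N * m) 0 := fun k _ => by
  rw [dist_centre]; exact ⟨lN_pos A, lN_lt A⟩

theorem EE_const {e : ℕ → ℝ} {c : ℝ} (he : ∀ k, e k = c) (k : ℕ) : EE e k = k * c := by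
  unfold EE
  rw [Finset.sum_congr rfl fun j _ => he j, Finset.sum_const, Finset.card_range, nsmul_eq_mul]

/-- the centre is the polygon with weights `1/n` -/
theorem BG_centre [Nonempty M] [CompactSpace M] (h0 : A.IsIt m g0) {e : ℕ → ℝ}
    (he : ∀ k, e k = 1 / (A.N * m : ℕ)) : BG L (A.N * m) e (A.vq (A.N * m) 0) = g0 := by
  have hn : (0 : ℝ) < (A.N * m : ℕ) := n_posR
  have h1 := lN_pos A
  have hA : Adm L (A.N * m) e (A.vq (A.N * m) 0) :=
    { n_pos := n_pos
      e_pos := fun k _ => by rw [he]; positivity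
      sum := by rw [EE_const he]; field_simp
      per := vq_per dvN 0
      short := fun k => by rw [dist_centre]; exact lN_lt A }
  refine BG_eq hA fun k _ u hu => ?_
  rw [EE_const he, he]
  have e1 : (k : ℝ) * (1 / (A.N * m : ℕ)) + u * (1 / (A.N * m : ℕ)) = (k + u) / (A.N * m : ℕ) := by
    ring
  rw [e1, g0_at h0]
  have hd := dist_centre (A := A) (m := m) k
  refine L.uniq (by rw [hd]; exact lN_lt A) hu ?_ ?_
  · rw [hd, vq_centre]
    have e2 : |(k : ℝ) * A.l / A.N - (k + u) * A.l / A.N| = u * (A.l / A.N) := by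
      rw [show (k : ℝ) * A.l / A.N - (k + u) * A.l / A.N = -(u * (A.l / A.N)) by ring, abs_neg,
        abs_of_nonneg (mul_nonneg hu.1 h1.le)]
    rw [A.geo _ _ ?_, e2]
    rw [e2]
    exact (mul_le_of_le_one_left h1.le hu.2).trans_lt (lN_lt A)
  · rw [hd, vq_centre]
    have h3 : 0 ≤ 1 - u := by linarith [hu.2]
    have e2 : |(k + u) * A.l / A.N - ((k + 1 : ℕ) : ℝ) * A.l / A.N| = (1 - u) * (A.l / A.N) := by
      rw [show (k + u) * A.l / A.N - ((k + 1 : ℕ) : ℝ) * A.l / A.N = -((1 - u) * (A.l / A.N)) by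
        push_cast; ring, abs_neg, abs_of_nonneg (mul_nonneg h3 h1.le)]
    rw [A.geo _ _ ?_, e2]
    rw [e2]
    exact (mul_le_of_le_one_left h1.le (by linarith [hu.1])).trans_lt (lN_lt A)

/-- `ψ 0 = g0` -/
theorem ps_centre [Nonempty M] [CompactSpace M] (h0 : A.IsIt m g0) : A.ps (A.N * m) 0 = g0 :=
  BG_centre h0 ew_centre

end

end centre

end SliceSys

end Crest.Agent.R231.GMGeox889
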