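import Crest.Agent.R231.GMMaps2_889

/-!
# Row 231 (S0357), block GM-GEO (b): proof of `SliceDom`, part 3: the homotopy (helper889)

* `U1`  : loops whose half time pairs are in the domains of the crossing functions
* `al`  : the polygon with vertices at the half times;  `h1 : id ~ al`
* `be`  : the polygon with vertices at the crossing times;  `h2 : al ~ be`
* `h3`  : `be ~ ψ (φ g)` (change of the break times)
-/

set_option autoImplicit false
set_option linter.unusedSectionVars false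

open Set Filter Topology

noncomputable section

namespace Crest.Agent.R231.GMGeox889

open Crest.Agent.R231.GLugx576 Crest.Agent.R231.GMRedx102 Crest.Agent.R231.GCrossx449

namespace SliceSys

section

variable {M : Type*} [MetricSpace M] {L : LUG M}
  {S : Type*} [NormedAddCommGroup S] (A : SliceSys L S) (n : ℕ)

/-- domain of the crossing functions -/
def Oc (i : ZMod A.N) : Set (M × M) := (A.cross i).choose

theorem isOpen_Oc (i : ZMod A.N) : IsOpen (A.Oc i) := (A.cross i).choose_spec.1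

theorem mem_Oc (i : ZMod A.N) :
    (A.c ((i.val - 1 / 2) * A.l / A.N), A.c ((i.val + 1 / 2) * A.l / A.N)) ∈ A.Oc i :=
  (A.cross i).choose_spec.2.1

theorem contOn_τ (i : ZMod A.N) : ContinuousOn (A.τ i) (A.Oc i) := (A.cross i).choose_spec.2.2.1

theorem contOn_w (i : ZMod A.N) : ContinuousOn (A.w i) (A.Oc i) := (A.cross i).choose_spec.2.2.2.1

theorem τ_mem (i : ZMod A.N) {p : M × M} (hp : p ∈ A.Oc i) : A.τ i p ∈ Ioo (0 : ℝ) 1 :=
  ((A.cross i).choose_spec.2.2.2.2 p hp).1

theorem seg_τ (i : ZMod A.N) {p : M × M} (hp : p ∈ A.Oc i) :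
    L.seg p.1 p.2 (A.τ i p) = A.σ i (A.w i p) := ((A.cross i).choose_spec.2.2.2.2 p hp).2

/-- loops with crossings -/
def U1 : Set (Lp M) := {g | ∀ k ∈ Finset.range n, pr n g k ∈ A.Oc (A.ix k)}

variable {A n}

theorem continuous_pr (k : ℕ) : Continuous fun g : Lp M => pr n g k :=
  (continuous_eval_const _).prodMk (continuous_eval_const _)

theorem isOpen_U1 : IsOpen (A.U1 n) := by
  have e : A.U1 n = ⋂ k ∈ Finset.range n, (fun g : Lp M => pr n g k) ⁻¹' (A.Oc (A.ix k)) := by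
    ext p
    simp only [U1, mem_ofPred_eq, mem_iInter, mem_preimage]
  rw [e]
  exact isOpen_biInter_finset fun k _ => (A.isOpen_Oc _).preimage (continuous_pr k)

variable [NeZero n]

theorem U1_all (h : Dv A n) {g : Lp M} (hg : g ∈ A.U1 n) (k : ℕ) : pr n g k ∈ A.Oc (A.ix k) := by
  have h1 := hg (k % n) (Finset.mem_range.2 (Nat.mod_lt _ n_pos))
  rwa [pr_mod, ix_mod h] at h1

theorem contOn_ph : ContinuousOn (A.ph n) (A.U1 n) :=
  continuousOn_pi.2 fun i => (A.contOn_w _).comp (continuous_pr _).continuousOn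
    fun _ hg => hg _ (Finset.mem_range.2 (ZMod.val_lt i))

theorem contOn_cT (h : Dv A n) (k : ℕ) : ContinuousOn (fun g => A.cT n g k) (A.U1 n) := by
  unfold cT
  refine continuousOn_const.add (ContinuousOn.div_const ?_ _)
  exact (A.contOn_τ _).comp (continuous_pr _).continuousOn fun g hg => U1_all h hg k

/-- the half times are admissible -/
theorem tim_hT {t : ℝ} (ht : t / n < L.r0) : Tim L n (hT n) t where
  lt k _ := by
    rw [hT_succ]
    have : (0 : ℝ) < 1 / n := one_div_pos.2 n_posR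
    linarith
  last := by
    have := hT_add_n (n := n) 0
    rwa [zero_add] at this
  short k _ := by
    rw [hT_succ, add_sub_cancel_left, mul_one_div]
    exact ht

theorem cT_gap (A : SliceSys L S) (n : ℕ) [NeZero n] (g : Lp M) (k : ℕ) :
    A.cT n g (k + 1) - A.cT n g k =
      (1 + A.τ (A.ix (k + 1)) (pr n g (k + 1)) - A.τ (A.ix k) (pr n g k)) / n := by
  unfold cT
  rw [hT_succ]
  ring

theorem cT_lt (h : Dv A n) {g : Lp M} (hg : g ∈ A.U1 n) (k : ℕ) :
    A.cT n g k < A.cT n g (k + 1) := by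
  have h1 := A.τ_mem _ (U1_all h hg k)
  have h2 := A.τ_mem _ (U1_all h hg (k + 1))
  have h3 : 0 < A.cT n g (k + 1) - A.cT n g k := by
    rw [cT_gap]
    exact div_pos (by linarith [h1.2, h2.1]) n_posR
  linarith

/-- the crossing times are admissible -/
theorem tim_cT (h : Dv A n) {t : ℝ} (h0 : 0 ≤ t) (ht : t * (2 / n) < L.r0) {g : Lp M}
    (hg : g ∈ A.U1 n) : Tim L n (A.cT n g) t where
  lt k _ := cT_lt h hg k
  last := by
    have := cT_add_n h g 0
    rwa [zero_add] at this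
  short k _ := by
    have h1 := A.τ_mem _ (U1_all h hg k)
    have h2 := A.τ_mem _ (U1_all h hg (k + 1))
    refine (mul_le_mul_of_nonneg_left ?_ h0).trans_lt ht
    rw [cT_gap]
    exact div_le_div_of_nonneg_right (by linarith [h1.1, h2.2]) n_posR.le

end

/-! ### the three homotopies -/

section

variable {M : Type*} [MetricSpace M] [CompactSpace M] {L : LUG M}
  {S : Type*} [NormedAddCommGroup S] (A : SliceSys L S) (n : ℕ)

/-- straightening on the half time intervals -/
def h1 (L : LUG M) (n : ℕ) (g : Lp M) (r : ℝ) : Lp M := repN L n (hT n) r g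

/-- the polygon with vertices at the half times -/
def al (L : LUG M) (n : ℕ) (g : Lp M) : Lp M := h1 L n g 1

/-- straightening on the crossing intervals -/
def h2 (g : Lp M) (r : ℝ) : Lp M := repN L n (A.cT n g) r (al L n g)

/-- weights -/
def er (g : Lp M) (r : ℝ) (k : ℕ) : ℝ :=
  (1 - r) * (A.cT n g (k + 1) - A.cT n g k) + r * A.ew n (A.ph n g) k

/-- change of break times -/
def h3 [Nonempty M] (g : Lp M) (r : ℝ) : Lp M :=
  rot ((-((1 - r) * A.cT n g 0) : ℝ) : UnitAddCircle) (BG L n (A.er n g r) (A.vq n (A.ph n g)))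

variable {A n} [NeZero n] {b : ℝ} {g : Lp M} {r : ℝ}

theorem nb_short (hb : 0 ≤ b) (hs : b * (2 / n) < L.r0) : b / n < L.r0 := by
  have : (0 : ℝ) < n := n_posR
  refine lt_of_le_of_lt ?_ hs
  rw [← mul_div_assoc]
  exact div_le_div_of_nonneg_right (by linarith) this.le

theorem h1_mem (hb : 0 ≤ b) (hs : b * (2 / n) < L.r0) {t : ℝ} (ht : t ≤ b) (hg : g ∈ X M t)
    (hr : r ∈ Icc (0 : ℝ) 1) : h1 L n g r ∈ X M t :=
  repN_mem (tim_hT (nb_short hb hs)) hr ht hg n le_rfl

theorem al_mem (hb : 0 ≤ b) (hs : b * (2 / n) < L.r0) {t : ℝ} (ht : t ≤ b) (hg : g ∈ X M t) :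
    al L n g ∈ X M t := h1_mem hb hs ht hg ⟨zero_le_one, le_rfl⟩

theorem h2_mem (h : Dv A n) (hb : 0 ≤ b) (hs : b * (2 / n) < L.r0) {t : ℝ} (ht : t ≤ b)
    (hg : g ∈ X M t) (hU : g ∈ A.U1 n) (hr : r ∈ Icc (0 : ℝ) 1) : A.h2 n g r ∈ X M t :=
  repN_mem (tim_cT h hb hs hU) hr ht (al_mem hb hs ht hg) n le_rfl

/-- the polygon passes through the crossing points -/
theorem al_cT (h : Dv A n) (hb : 0 ≤ b) (hs : b * (2 / n) < L.r0) (hg : g ∈ X M b)
    (hU : g ∈ A.U1 n) (k : ℕ) : al L n g (A.cT n g k : UnitAddCircle) = A.vq n (A.ph n g) k := by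
  have key : ∀ k < n, al L n g (A.cT n g k : UnitAddCircle) = A.vq n (A.ph n g) k := by
    intro k hk
    have h1 := A.τ_mem _ (U1_all h hU k)
    have h3 := (repN_one (tim_hT (nb_short hb hs)) hg n le_rfl).1 k hk _ ⟨h1.1.le, h1.2.le⟩
    have h4 : A.cT n g k = hT n k + A.τ (A.ix k) (pr n g k) * (hT n (k + 1) - hT n k) := by
      unfold cT
      rw [hT_succ]
      ring
    rw [← h4] at h3
    rw [vq_ph h, ← A.seg_τ _ (U1_all h hU k)]
    exact h3
  have key2 : ∀ j a : ℕ, al L n g (A.cT n g (a + j * n) : UnitAddCircle) =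
      al L n g (A.cT n g a : UnitAddCircle) := by
    intro j
    induction j with
    | zero => intro a; rw [zero_mul, add_zero]
    | succ j ih =>
      intro a
      rw [show a + (j + 1) * n = a + j * n + n by ring, cT_add_n h, coe_add_one, ih]
  have h5 := key2 (k / n) (k % n)
  rw [mul_comm, Nat.mod_add_div] at h5
  rw [h5, key _ (Nat.mod_lt _ n_pos)]
  exact vq_mod h _ k

/-- the values of the end of `h2` -/
theorem h2_one (h : Dv A n) (hb : 0 ≤ b) (hs : b * (2 / n) < L.r0) (hg : g ∈ X M b)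
    (hU : g ∈ A.U1 n) {k : ℕ} (hk : k < n) {u : ℝ} (hu : u ∈ Icc (0 : ℝ) 1) :
    A.h2 n g 1 ((A.cT n g k + u * (A.cT n g (k + 1) - A.cT n g k) : ℝ) : UnitAddCircle) =
      L.seg (A.vq n (A.ph n g) k) (A.vq n (A.ph n g) (k + 1)) u := by
  have h1 := (repN_one (tim_cT h hb hs hU) (al_mem hb hs le_rfl hg) n le_rfl).1 k hk u hu
  rw [al_cT h hb hs hg hU, al_cT h hb hs hg hU] at h1
  exact h1

/-- the edges of the slice polygon are short -/
theorem edge_le (h : Dv A n) (hb : 0 ≤ b) (hs : b * (2 / n) < L.r0) {t : ℝ} (ht : t ≤ b)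
    (hg : g ∈ X M t) (hU : g ∈ A.U1 n) (k : ℕ) :
    dist (A.vq n (A.ph n g) k) (A.vq n (A.ph n g) (k + 1)) ≤
      t * (A.cT n g (k + 1) - A.cT n g k) := by
  have hg' := X_mono ht hg
  rw [← al_cT h hb hs hg' hU, ← al_cT h hb hs hg' hU]
  refine (al_mem hb hs ht hg _ _).trans_eq ?_
  rw [abs_sub_comm, abs_of_nonneg (by linarith [cT_lt h hU k])]

/-- the length of the slice polygon -/
theorem len_le (h : Dv A n) (hb : 0 ≤ b) (hs : b * (2 / n) < L.r0) {t : ℝ} (ht : t ≤ b)
    (hg : g ∈ X M t) (hU : g ∈ A.U1 n) : A.len n (A.ph n g) ≤ t := by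
  refine (Finset.sum_le_sum fun k _ => edge_le h hb hs ht hg hU k).trans_eq ?_
  rw [← Finset.mul_sum, Finset.sum_range_sub (A.cT n g)]
  have := cT_add_n h g 0
  rw [zero_add] at this
  rw [this, add_sub_cancel_left, mul_one]

theorem er_pos (h : Dv A n) (hU : g ∈ A.U1 n) (hG : Gd A n (A.ph n g)) (hr : r ∈ Icc (0 : ℝ) 1)
    {k : ℕ} (hk : k < n) : 0 < A.er n g r k := by
  have h1 : 0 < A.cT n g (k + 1) - A.cT n g k := by linarith [cT_lt h hU k]
  have h2 : 0 < A.ew n (A.ph n g) k := (hG.adm h).e_pos k hk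
  unfold er
  rcases hr.2.lt_or_eq with h3 | h3
  · have h4 : 0 < (1 - r) * (A.cT n g (k + 1) - A.cT n g k) := mul_pos (by linarith) h1
    have h5 : 0 ≤ r * A.ew n (A.ph n g) k := mul_nonneg hr.1 h2.le
    linarith
  · rw [h3, sub_self, zero_mul, zero_add, one_mul]
    exact h2

theorem EE_er (g : Lp M) (r : ℝ) (k : ℕ) :
    EE (A.er n g r) k = (1 - r) * (A.cT n g k - A.cT n g 0) + r * EE (A.ew n (A.ph n g)) k := by
  unfold EE er
  rw [Finset.sum_add_distrib, ← Finset.mul_sum, ← Finset.mul_sum, Finset.sum_range_sub (A.cT n g)]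

theorem er_adm (h : Dv A n) (hU : g ∈ A.U1 n) (hG : Gd A n (A.ph n g)) (hr : r ∈ Icc (0 : ℝ) 1) :
    Adm L n (A.er n g r) (A.vq n (A.ph n g)) where
  n_pos := n_pos
  e_pos k hk := er_pos h hU hG hr hk
  sum := by
    rw [EE_er, (hG.adm h).sum]
    have := cT_add_n h g 0
    rw [zero_add] at this
    rw [this]
    ring
  per := vq_per h _
  short k := (hG.all h k).2

theorem h3_mem [Nonempty M] (h : Dv A n) (hb : 0 ≤ b) (hs : b * (2 / n) < L.r0) {t : ℝ}
    (ht : t ≤ b) (hg : g ∈ X M t) (hU : g ∈ A.U1 n) (hG : Gd A n (A.ph n g))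
    (hr : r ∈ Icc (0 : ℝ) 1) : A.h3 n g r ∈ X M t := by
  refine rot_mem (BG_mem (er_adm h hU hG hr) fun k _ => ?_) _
  have h1 := edge_le h hb hs ht hg hU k
  have h2 := len_le h hb hs ht hg hU
  have h3 := hG.len_pos
  have h4 : dist (A.vq n (A.ph n g) k) (A.vq n (A.ph n g) (k + 1)) ≤
      t * A.ew n (A.ph n g) k := by
    unfold ew
    rw [← mul_div_assoc, le_div_iff₀ h3, mul_comm]
    exact mul_le_mul_of_nonneg_right h2 dist_nonneg
  have h5 : 0 ≤ 1 - r := by linarith [hr.2]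
  unfold er
  have h6 := mul_le_mul_of_nonneg_left h1 h5
  have h7 := mul_le_mul_of_nonneg_left h4 hr.1
  nlinarith

/-- `h3` starts at the end of `h2` -/
theorem h3_zero [Nonempty M] (h : Dv A n) (hb : 0 ≤ b) (hs : b * (2 / n) < L.r0)
    (hg : g ∈ X M b) (hU : g ∈ A.U1 n) (hG : Gd A n (A.ph n g)) : A.h3 n g 0 = A.h2 n g 1 := by
  have hr : (0 : ℝ) ∈ Icc (0 : ℝ) 1 := ⟨le_rfl, zero_le_one⟩
  have key : BG L n (A.er n g 0) (A.vq n (A.ph n g)) =
      rot ((A.cT n g 0 : ℝ) : UnitAddCircle) (A.h2 n g 1) := by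
    refine BG_eq (er_adm h hU hG hr) fun k hk u hu => ?_
    rw [← h2_one h hb hs hg hU hk hu, rot_coe]
    congr 2
    rw [EE_er]
    unfold er
    ring
  unfold h3
  rw [key, rot_rot, sub_zero, one_mul, AddCircle.coe_neg, neg_add_cancel, rot_zero]

/-- `h3` ends at `ψ (φ g)` -/
theorem h3_one [Nonempty M] (g : Lp M) : A.h3 n g 1 = A.ps n (A.ph n g) := by
  have e : A.er n g 1 = A.ew n (A.ph n g) := by
    funext k
    unfold er
    ring
  unfold h3 ps
  rw [e, sub_self, zero_mul, neg_zero]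
  exact rot_zero _

theorem h2_zero (g : Lp M) : A.h2 n g 0 = al L n g := repN_zero _ _

theorem h1_zero (g : Lp M) : h1 L n g 0 = g := repN_zero _ _

end

end SliceSys

end Crest.Agent.R231.GMGeox889
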