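import Crest.Agent.R231.GMGeoB_889
import Crest.Agent.R231.GMBG_889
import Crest.Agent.R231.GMRepN_889

/-!
# Row 231 (S0357), block GM-GEO (b): proof of `SliceDom`, part 1 (helper889)

* `vq` vertices of slice polygons, `len` their length, `ew` constant speed weights
* `hT` half times, `pr` values at half times, `cT` crossing times, `ph` the slice polygon of a loop
-/

set_option autoImplicit false
set_option linter.unusedSectionVars false

open Set Filter Topology

noncomputable section

namespace Crest.Agent.R231.GMGeox889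

open Crest.Agent.R231.GLugx576 Crest.Agent.R231.GMRedx102

namespace SliceSys

section defs

variable {M : Type*} [MetricSpace M] {L : LUG M}
  {S : Type*} [NormedAddCommGroup S] (A : SliceSys L S) (n : ℕ)

/-- index of the slice `k` -/
def ix (k : ℕ) : ZMod A.N := (k : ZMod A.N)

/-- the vertices of a slice polygon -/
def vq (p : ZMod n → S) (k : ℕ) : M := A.σ (A.ix k) (p (k : ZMod n))

/-- total length -/
def len (p : ZMod n → S) : ℝ := ∑ k ∈ Finset.range n, dist (A.vq n p k) (A.vq n p (k + 1))

/-- constant speed weights -/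
def ew (p : ZMod n → S) (k : ℕ) : ℝ := dist (A.vq n p k) (A.vq n p (k + 1)) / A.len n p

/-- the half times -/
def hT (n k : ℕ) : ℝ := (k - 1 / 2) / n

/-- pair of half time values of `g` around the slice `k` -/
def pr (g : Lp M) (k : ℕ) : M × M :=
  (g ((hT n k : ℝ) : UnitAddCircle), g ((hT n (k + 1) : ℝ) : UnitAddCircle))

/-- the crossing times -/
def cT (g : Lp M) (k : ℕ) : ℝ := hT n k + A.τ (A.ix k) (pr n g k) / n

/-- the slice polygon of `g` -/
def ph (g : Lp M) (i : ZMod n) : S := A.w (A.ix i.val) (pr n g i.val)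

end defs

section

variable {M : Type*} [MetricSpace M] {L : LUG M}
  {S : Type*} [NormedAddCommGroup S] {A : SliceSys L S} {n : ℕ} [NeZero n]

theorem n_pos : 0 < n := Nat.pos_of_ne_zero (NeZero.ne _)

theorem n_posR : (0 : ℝ) < n := by exact_mod_cast (n_pos : 0 < n)

/-- `N` divides `n` -/
abbrev Dv (A : SliceSys L S) (n : ℕ) : Prop := (n : ZMod A.N) = 0

theorem ix_add_n (h : Dv A n) (k : ℕ) : A.ix (k + n) = A.ix k := by
  unfold ix
  push_cast
  rw [h, add_zero]

theorem vq_per (h : Dv A n) (p : ZMod n → S) (k : ℕ) : A.vq n p (k + n) = A.vq n p k := by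
  unfold vq
  rw [ix_add_n h]
  push_cast
  rw [ZMod.natCast_self, add_zero]

omit [NeZero n] in
theorem hT_succ (k : ℕ) : hT n (k + 1) = hT n k + 1 / n := by
  unfold hT
  push_cast
  ring

theorem hT_add_n (k : ℕ) : hT n (k + n) = hT n k + 1 := by
  have h : (0 : ℝ) < n := n_posR
  unfold hT
  push_cast
  field_simp
  ring

theorem coe_add_one (x : ℝ) : ((x + 1 : ℝ) : UnitAddCircle) = (x : UnitAddCircle) := by
  have := coe_add_int x 1
  rwa [Int.cast_one] at this

theorem pr_add_n (g : Lp M) (k : ℕ) : pr n g (k + n) = pr n g k := by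
  unfold pr
  rw [hT_add_n, coe_add_one, show k + n + 1 = (k + 1) + n by ring, hT_add_n, coe_add_one]

theorem cT_add_n (h : Dv A n) (g : Lp M) (k : ℕ) : A.cT n g (k + n) = A.cT n g k + 1 := by
  unfold cT
  rw [hT_add_n, pr_add_n, ix_add_n h]
  ring

theorem pr_mod (g : Lp M) (k : ℕ) : pr n g (k % n) = pr n g k := by
  have key : ∀ j a : ℕ, pr n g (a + j * n) = pr n g a := by
    intro j
    induction j with
    | zero => intro a; rw [zero_mul, add_zero]
    | succ j ih => intro a; rw [show a + (j + 1) * n = a + j * n + n by ring, pr_add_n, ih]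
  have h := key (k / n) (k % n)
  rw [mul_comm, Nat.mod_add_div] at h
  exact h.symm

theorem ix_mod (h : Dv A n) (k : ℕ) : A.ix (k % n) = A.ix k := by
  have h1 : ((k % n + n * (k / n) : ℕ) : ZMod A.N) = (k : ZMod A.N) := by rw [Nat.mod_add_div]
  unfold ix
  rw [← h1]
  push_cast
  rw [h, zero_mul, add_zero]

/-- the vertices of `ph g` -/
theorem vq_ph (h : Dv A n) (g : Lp M) (k : ℕ) :
    A.vq n (A.ph n g) k = A.σ (A.ix k) (A.w (A.ix k) (pr n g k)) := by
  unfold vq ph
  rw [ZMod.val_natCast, ix_mod h, pr_mod]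

/-- the action in terms of the length -/
theorem Fm_eq (m : ℕ) [NeZero (A.N * m)] (p : ZMod (A.N * m) → S) :
    Fm A.D m p = A.len (A.N * m) p - m * A.l := by
  have hN : (0 : ℝ) < A.N := by exact_mod_cast Nat.pos_of_ne_zero (NeZero.ne A.N)
  have hcast : ∀ k ∈ Finset.range (A.N * m),
      A.D (red A.N (A.N * m) (dvd_mul_right A.N m) (k : ZMod (A.N * m)))
        (p (k : ZMod (A.N * m)), p ((k : ZMod (A.N * m)) + 1)) =
      dist (A.vq (A.N * m) p k) (A.vq (A.N * m) p (k + 1)) - A.l / A.N := by
    intro k _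
    unfold D vq ix
    rw [map_natCast]
    push_cast
    rfl
  unfold Fm len
  have h1 : ∑ i : ZMod (A.N * m), A.D (red A.N (A.N * m) (dvd_mul_right A.N m) i) (p i, p (i + 1)) =
      ∑ k ∈ Finset.range (A.N * m),
        A.D (red A.N (A.N * m) (dvd_mul_right A.N m) (k : ZMod (A.N * m)))
        (p (k : ZMod (A.N * m)), p ((k : ZMod (A.N * m)) + 1)) := by
    symm
    refine Finset.sum_bij (fun k _ => (k : ZMod (A.N * m))) (fun _ _ => Finset.mem_univ _) ?_ ?_
      fun _ _ => rfl
    · intro a ha b hb hab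
      rw [Finset.mem_range] at ha hb
      have h2 := congrArg ZMod.val hab
      rwa [ZMod.val_natCast, ZMod.val_natCast, Nat.mod_eq_of_lt ha, Nat.mod_eq_of_lt hb] at h2
    · intro b _
      exact ⟨b.val, Finset.mem_range.2 (ZMod.val_lt b), ZMod.natCast_zmod_val b⟩
  rw [h1, Finset.sum_congr rfl hcast, Finset.sum_sub_distrib, Finset.sum_const, Finset.card_range,
    nsmul_eq_mul]
  push_cast
  field_simp

end

/-! ### the slice polygon side: `ψ` -/

section psi

variable {M : Type*} [MetricSpace M] {L : LUG M}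
  {S : Type*} [NormedAddCommGroup S] (A : SliceSys L S) (n : ℕ) [NeZero n]

/-- good slice polygons: short nondegenerate edges -/
def Gd (p : ZMod n → S) : Prop :=
  ∀ k ∈ Finset.range n, 0 < dist (A.vq n p k) (A.vq n p (k + 1)) ∧
    dist (A.vq n p k) (A.vq n p (k + 1)) < L.r0

variable {A n} {p : ZMod n → S}

theorem vq_mod (h : Dv A n) (p : ZMod n → S) (k : ℕ) : A.vq n p (k % n) = A.vq n p k := by
  unfold vq
  rw [ix_mod h]
  congr 2
  rw [ZMod.natCast_mod]

theorem vq_mod_succ (h : Dv A n) (p : ZMod n → S) (k : ℕ) :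
    A.vq n p (k % n + 1) = A.vq n p (k + 1) := by
  unfold vq
  have e1 : A.ix (k % n + 1) = A.ix (k + 1) := by
    have := ix_mod h k
    unfold ix at this ⊢
    push_cast
    rw [this]
  have e2 : ((k % n + 1 : ℕ) : ZMod n) = ((k + 1 : ℕ) : ZMod n) := by
    push_cast
    rw [ZMod.natCast_mod]
  rw [e1, e2]

theorem Gd.all (hg : Gd A n p) (h : Dv A n) (k : ℕ) :
    0 < dist (A.vq n p k) (A.vq n p (k + 1)) ∧ dist (A.vq n p k) (A.vq n p (k + 1)) < L.r0 := by
  have h1 := hg (k % n) (Finset.mem_range.2 (Nat.mod_lt _ n_pos))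
  rwa [vq_mod h, vq_mod_succ h] at h1

theorem Gd.len_pos (hg : Gd A n p) : 0 < A.len n p :=
  Finset.sum_pos (fun k hk => (hg k hk).1) ⟨0, Finset.mem_range.2 n_pos⟩

/-- constant speed polygons are admissible -/
theorem Gd.adm (hg : Gd A n p) (h : Dv A n) : Adm L n (A.ew n p) (A.vq n p) where
  n_pos := n_pos
  e_pos k hk := div_pos (hg k (Finset.mem_range.2 hk)).1 hg.len_pos
  sum := by
    unfold EE ew
    rw [← Finset.sum_div]
    exact div_self hg.len_pos.ne'
  per := vq_per h p
  short k := (hg.all h k).2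

variable (A n) in
/-- **the constant speed loop through a slice polygon** -/
def ps [Nonempty M] (p : ZMod n → S) : Lp M := BG L n (A.ew n p) (A.vq n p)

theorem Gd.ps_mem [Nonempty M] [CompactSpace M] (hg : Gd A n p) (h : Dv A n) {t : ℝ}
    (ht : A.len n p ≤ t) : A.ps n p ∈ X M t := by
  refine BG_mem (hg.adm h) fun k _ => ?_
  have h1 := hg.len_pos
  unfold ew
  rw [← mul_div_assoc, le_div_iff₀ h1, mul_comm]
  exact mul_le_mul_of_nonneg_right ht dist_nonneg

theorem cont_vq (k : ℕ) : Continuous fun p : ZMod n → S => A.vq n p k :=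
  (A.σ_cont _).comp (continuous_apply _)

theorem cont_len : Continuous (A.len n) :=
  continuous_finsetSum _ fun k _ => (cont_vq k).dist (cont_vq (k + 1))

theorem isOpen_Gd : IsOpen {p : ZMod n → S | Gd A n p} := by
  have e : {p : ZMod n → S | Gd A n p} = ⋂ k ∈ Finset.range n,
      {p | 0 < dist (A.vq n p k) (A.vq n p (k + 1)) ∧
        dist (A.vq n p k) (A.vq n p (k + 1)) < L.r0} := by
    ext p
    simp only [Gd, mem_ofPred_eq, mem_iInter]
  rw [e]
  refine isOpen_biInter_finset fun k _ => ?_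
  have hc := (cont_vq (A := A) (n := n) k).dist (cont_vq (A := A) (n := n) (k + 1))
  exact (isOpen_lt continuous_const hc).inter (isOpen_lt hc continuous_const)

theorem contOn_ps [Nonempty M] [CompactSpace M] (h : Dv A n) :
    ContinuousOn (A.ps n) {p : ZMod n → S | Gd A n p} := by
  refine contOn_BG (fun p hp => Gd.adm hp h) (fun k _ => ?_) fun k _ => (cont_vq k).continuousOn
  exact ((cont_vq k).dist (cont_vq (k + 1))).continuousOn.div cont_len.continuousOn
    fun p hp => (Gd.len_pos hp).ne'

end psi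

end SliceSys

end Crest.Agent.R231.GMGeox889
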