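import Crest.Agent.R231.GMSR_537

/-!
# Row 231, block GM (helper537): from a point to its orbit

`Flow E` : a continuous real flow `R`.  For `X`, `A` invariant and `R 1 c = c`:
* `SR.arc` : arcs of the orbit on which the flow is injective (Tietze)
* `SR.translate`
* `SR.orbit` : `SR X A {c} C → SR X A (orbit c) (4 * C)`
* `SR.orbits` : finitely many orbits
-/

set_option autoImplicit false

noncomputable section

open Topology Set

namespace Crest.Agent.R231.GM898

open Crest.Agent.R204 Crest.Agent.R231.Pairx877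

/-- a continuous real flow -/
structure RFlow (E : Type) [TopologicalSpace E] where
  R : ℝ → E → E
  cont : Continuous (fun p : ℝ × E => R p.1 p.2)
  zero : ∀ x, R 0 x = x
  add : ∀ a b x, R (a + b) x = R a (R b x)

variable {E : Type} [TopologicalSpace E]

namespace RFlow

variable (Φ : RFlow E)

/-- invariant subset -/
def Inv (X : Set E) : Prop := ∀ a, ∀ x ∈ X, Φ.R a x ∈ X

theorem neg_self (a : ℝ) (x : E) : Φ.R (-a) (Φ.R a x) = x := by
  rw [← Φ.add, neg_add_cancel, Φ.zero]

theorem self_neg (a : ℝ) (x : E) : Φ.R a (Φ.R (-a) x) = x := by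
  rw [← Φ.add, add_neg_cancel, Φ.zero]

theorem cont_time (x : E) : Continuous fun a => Φ.R a x :=
  Φ.cont.comp (continuous_id.prodMk continuous_const)

theorem cont_space (a : ℝ) : Continuous (Φ.R a) :=
  Φ.cont.comp (continuous_const.prodMk continuous_id)

/-- the orbit -/
def orb (c : E) : Set E := range fun a => Φ.R a c

/-- an arc of an orbit -/
def arc (c : E) (L : ℝ) : Set E := (fun a => Φ.R a c) '' Icc 0 L

/-- the group of periods -/
def per (c : E) : AddSubgroup ℝ where
  carrier := {a | Φ.R a c = c}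
  zero_mem' := Φ.zero c
  add_mem' := by
    intro a b ha hb
    show Φ.R (a + b) c = c
    rw [Φ.add, show Φ.R b c = c from hb, show Φ.R a c = c from ha]
  neg_mem' := by
    intro a ha
    show Φ.R (-a) c = c
    have h := Φ.neg_self a c
    rwa [show Φ.R a c = c from ha] at h

theorem mem_per {c : E} {a : ℝ} : a ∈ Φ.per c ↔ Φ.R a c = c := Iff.rfl

theorem eq_iff {c : E} {a b : ℝ} : Φ.R a c = Φ.R b c ↔ a - b ∈ Φ.per c := by
  rw [mem_per]
  constructor
  · intro h
    rw [sub_eq_neg_add, Φ.add, h, Φ.neg_self]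
  · intro h
    have h1 : Φ.R b (Φ.R (a - b) c) = Φ.R b c := by rw [h]
    rwa [← Φ.add, add_sub_cancel] at h1

theorem isClosed_per [T2Space E] (c : E) : IsClosed ((Φ.per c : AddSubgroup ℝ) : Set ℝ) :=
  isClosed_eq (Φ.cont_time c) continuous_const

/-- the orbit of a periodic point is constant or has a least period -/
theorem per_cases [T2Space E] {c : E} (h1 : Φ.R 1 c = c) :
    (∀ a, Φ.R a c = c) ∨ ∃ T > 0, ∀ a b, Φ.R a c = Φ.R b c ↔ ∃ k : ℤ, a - b = k * T := by
  rcases (Φ.per c).dense_or_cyclic with h | ⟨T, hT⟩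
  · left
    intro a
    have : a ∈ ((Φ.per c : AddSubgroup ℝ) : Set ℝ) := by
      rw [← (Φ.isClosed_per c).closure_eq, h.closure_eq]; trivial
    exact this
  · right
    have hT0 : T ≠ 0 := by
      rintro rfl
      have : (1 : ℝ) ∈ Φ.per c := h1
      rw [hT, AddSubgroup.mem_closure_singleton] at this
      obtain ⟨n, hn⟩ := this
      simp at hn
    have key : ∀ a b, Φ.R a c = Φ.R b c ↔ ∃ k : ℤ, a - b = k * T := by
      intro a b
      rw [Φ.eq_iff, hT, AddSubgroup.mem_closure_singleton]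
      constructor
      · rintro ⟨n, hn⟩
        exact ⟨n, by rw [← hn, zsmul_eq_mul]⟩
      · rintro ⟨n, hn⟩
        exact ⟨n, by rw [hn, zsmul_eq_mul]⟩
    rcases lt_or_gt_of_ne hT0 with h | h
    · refine ⟨-T, by linarith, fun a b => (key a b).trans ?_⟩
      constructor
      · rintro ⟨k, hk⟩; exact ⟨-k, by rw [hk]; push_cast; ring⟩
      · rintro ⟨k, hk⟩; exact ⟨-k, by rw [hk]; push_cast; ring⟩
    · exact ⟨T, h, key⟩

theorem isCompact_arc (c : E) (L : ℝ) : IsCompact (Φ.arc c L) :=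
  isCompact_Icc.image (Φ.cont_time c)

theorem isClosed_arc [T2Space E] (c : E) (L : ℝ) : IsClosed (Φ.arc c L) :=
  (Φ.isCompact_arc c L).isClosed

theorem orb_eq_image {c : E} (h1 : Φ.R 1 c = c) : Φ.orb c = (fun a => Φ.R a c) '' Icc 0 1 := by
  have hint : ∀ k : ℤ, Φ.R k c = c := fun k => by
    have h : (k : ℝ) ∈ Φ.per c := by
      have := (Φ.per c).zsmul_mem (show (1 : ℝ) ∈ Φ.per c from h1) k
      simpa using this
    exact h
  apply Subset.antisymm
  · rintro _ ⟨a, rfl⟩
    refine ⟨Int.fract a, ⟨Int.fract_nonneg a, (Int.fract_lt_one a).le⟩, ?_⟩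
    show Φ.R (Int.fract a) c = Φ.R a c
    rw [Φ.eq_iff]
    have e : Int.fract a - a = ((-⌊a⌋ : ℤ) : ℝ) := by
      rw [Int.fract]; push_cast; ring
    rw [e]
    exact hint _
  · rintro _ ⟨a, _, rfl⟩
    exact ⟨a, rfl⟩

theorem isCompact_orb {c : E} (h1 : Φ.R 1 c = c) : IsCompact (Φ.orb c) := by
  rw [Φ.orb_eq_image h1]
  exact isCompact_Icc.image (Φ.cont_time c)

theorem mem_orb_self (c : E) : c ∈ Φ.orb c := ⟨0, Φ.zero c⟩

theorem orb_subset {c d : E} (h : d ∈ Φ.orb c) : Φ.orb d ⊆ Φ.orb c := by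
  obtain ⟨a, rfl⟩ := h
  rintro _ ⟨b, rfl⟩
  exact ⟨b + a, Φ.add b a c⟩

theorem orb_eq {c d : E} (h : d ∈ Φ.orb c) : Φ.orb d = Φ.orb c := by
  refine Subset.antisymm (Φ.orb_subset h) (Φ.orb_subset ?_)
  obtain ⟨a, rfl⟩ := h
  exact ⟨-a, Φ.neg_self a c⟩

theorem orb_disjoint {c d : E} (h : c ∉ Φ.orb d) : Disjoint (Φ.orb d) (Φ.orb c) := by
  rw [Set.disjoint_left]
  intro x hx hx'
  apply h
  rw [← Φ.orb_eq hx, Φ.orb_eq hx']
  exact Φ.mem_orb_self c

end RFlow

variable (Φ : RFlow E)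

/-- **arcs** -/
theorem SR.arc [NormalSpace E] [T2Space E] {X A : Set E} {c : E} {C : ℕ} (hX : Φ.Inv X)
    (hA : Φ.Inv A) (hc : c ∈ X) {L : ℝ} (hL : 0 ≤ L)
    (hinj : ∀ a ∈ Icc 0 L, ∀ b ∈ Icc 0 L, Φ.R a c = Φ.R b c → a = b) (h : SR X A {c} C) :
    SR X A (Φ.arc c L) C := by
  -- the parameter on the arc, extended by Tietze
  have he : IsClosedEmbedding (fun a : Icc (0 : ℝ) L => Φ.R a c) := by
    refine Continuous.isClosedEmbedding ((Φ.cont_time c).comp continuous_subtype_val) ?_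
    intro a b hab
    exact Subtype.ext (hinj a a.2 b b.2 hab)
  obtain ⟨g, hg⟩ := ContinuousMap.exists_extension he
    (⟨fun a => (a : ℝ), continuous_subtype_val⟩ : C(Icc (0 : ℝ) L, ℝ))
  have hg' : ∀ a ∈ Icc (0 : ℝ) L, g (Φ.R a c) = a := fun a ha => by
    have := congrArg (fun f : C(Icc (0 : ℝ) L, ℝ) => f ⟨a, ha⟩) hg
    exact this
  have hKX : Φ.arc c L ⊆ X := by
    rintro _ ⟨a, _, rfl⟩
    exact hX a c hc
  have hcK : c ∈ Φ.arc c L := ⟨0, ⟨le_rfl, hL⟩, Φ.zero c⟩
  refine SR.dom h hKX (singleton_subset_iff.2 hc) isOpen_univ (subset_univ _) isOpen_univ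
    (subset_univ _) (fun x => Φ.R (-(g x)) x) ?_ ?_ ?_ ?_ (fun x => x) continuousOn_id ?_ ?_ ?_
    (fun x t => Φ.R (-(t * g x)) x) ?_ ?_ ?_ ?_ ?_ ?_
  · exact (Φ.cont.comp (g.continuous.neg.prodMk continuous_id)).continuousOn
  · rintro _ ⟨a, ha, rfl⟩
    show Φ.R (-(g (Φ.R a c))) (Φ.R a c) = c
    rw [hg' a ha, Φ.neg_self]
  · exact fun x hx => hX _ x hx.2
  · exact fun x _ hx => hA _ x hx
  · rintro x hx
    rw [mem_singleton_iff] at hx
    rw [hx]
    exact hcK
  · exact fun x hx => hx.2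
  · exact fun x _ hx => hx
  · have : Continuous fun p : E × ℝ => Φ.R (-(p.2 * g p.1)) p.1 :=
      Φ.cont.comp (((continuous_snd.mul (g.continuous.comp continuous_fst)).neg).prodMk
        continuous_fst)
    exact this.continuousOn
  · rintro _ ⟨a, ha, rfl⟩ t ht
    show Φ.R (-(t * g (Φ.R a c))) (Φ.R a c) ∈ Φ.arc c L
    rw [hg' a ha, ← Φ.add]
    refine ⟨-(t * a) + a, ⟨?_, ?_⟩, rfl⟩
    · nlinarith [ha.1, ht.1, ht.2]
    · nlinarith [ha.1, ha.2, ht.1, ht.2]
  · intro x _
    show Φ.R (-(0 * g x)) x = x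
    rw [zero_mul, neg_zero, Φ.zero]
  · intro x _ _
    show Φ.R (-(1 * g x)) x = Φ.R (-(g x)) x
    rw [one_mul]
  · exact fun x hx t _ => hX _ x hx.2
  · exact fun x _ hx t _ => hA _ x hx

/-- **translation** -/
theorem SR.translate {X A : Set E} {c : E} {C : ℕ} (hX : Φ.Inv X) (hA : Φ.Inv A) (hc : c ∈ X)
    (h : SR X A {c} C) (a : ℝ) : SR X A {Φ.R a c} C := by
  refine SR.dom h (singleton_subset_iff.2 (hX a c hc)) (singleton_subset_iff.2 hc) isOpen_univ
    (subset_univ _) isOpen_univ (subset_univ _) (Φ.R (-a)) (Φ.cont_space _).continuousOn ?_ ?_ ?_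
    (Φ.R a) (Φ.cont_space _).continuousOn ?_ ?_ ?_
    (fun x _ => x) continuousOn_fst ?_ ?_ ?_ ?_ ?_
  · rintro x hx
    rw [mem_singleton_iff] at hx
    rw [hx, mem_singleton_iff, Φ.neg_self]
  · exact fun x hx => hX _ x hx.2
  · exact fun x _ hx => hA _ x hx
  · rintro x hx
    rw [mem_singleton_iff] at hx
    rw [hx, mem_singleton_iff]
  · exact fun x hx => hX _ x hx.2
  · exact fun x _ hx => hA _ x hx
  · exact fun x hx _ _ => hx
  · exact fun _ _ => rfl
  · exact fun x _ _ => (Φ.self_neg a x).symm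
  · exact fun x hx _ _ => hx.2
  · exact fun x _ hx _ _ => hx

/-- **from a point to its orbit** -/
theorem SR.orbit [NormalSpace E] [T2Space E] {X A : Set E} {c : E} {C : ℕ} (hX : Φ.Inv X)
    (hA : Φ.Inv A) (hc : c ∈ X) (h1 : Φ.R 1 c = c) (h : SR X A {c} C) :
    SR X A (Φ.orb c) (4 * C) := by
  rcases Φ.per_cases h1 with h0 | ⟨T, hT, hper⟩
  · have : Φ.orb c = {c} := by
      ext x
      constructor
      · rintro ⟨a, rfl⟩; exact h0 a
      · rintro hx
        rw [mem_singleton_iff] at hx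
        rw [hx]; exact Φ.mem_orb_self c
    rw [this]
    exact h.mono (by omega)
  · -- two arcs
    set c' := Φ.R (T / 2) c with hc'
    have hc'X : c' ∈ X := hX _ c hc
    have h' : SR X A {c'} C := SR.translate Φ hX hA hc h (T / 2)
    have small : ∀ k : ℤ, |(k : ℝ) * T| < T → k = 0 := by
      intro k hk
      rw [abs_mul, abs_of_pos hT] at hk
      have h2 : |(k : ℝ)| < 1 := by
        by_contra h3
        rw [not_lt] at h3
        nlinarith
      have h3 : |k| < 1 := by exact_mod_cast h2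
      exact Int.abs_lt_one_iff.1 h3
    have inj1 : ∀ a ∈ Icc 0 (T / 2), ∀ b ∈ Icc 0 (T / 2), Φ.R a c = Φ.R b c → a = b := by
      intro a ha b hb hab
      obtain ⟨k, hk⟩ := (hper a b).1 hab
      have hk0 : k = 0 := small k (by
        rw [← hk, abs_lt]
        constructor <;> linarith [ha.1, ha.2, hb.1, hb.2])
      rw [hk0] at hk
      push_cast at hk
      linarith
    have inj2 : ∀ a ∈ Icc 0 (T / 2), ∀ b ∈ Icc 0 (T / 2), Φ.R a c' = Φ.R b c' → a = b := by
      intro a ha b hb hab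
      rw [hc', ← Φ.add, ← Φ.add] at hab
      obtain ⟨k, hk⟩ := (hper _ _).1 hab
      have hk0 : k = 0 := small k (by
        rw [← hk, abs_lt]
        constructor <;> linarith [ha.1, ha.2, hb.1, hb.2])
      rw [hk0] at hk
      push_cast at hk
      linarith
    have s1 := SR.arc Φ hX hA hc (by linarith : (0 : ℝ) ≤ T / 2) inj1 h
    have s2 := SR.arc Φ hX hA hc'X (by linarith : (0 : ℝ) ≤ T / 2) inj2 h'
    have eU : Φ.orb c = Φ.arc c (T / 2) ∪ Φ.arc c' (T / 2) := by
      apply Subset.antisymm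
      · rintro _ ⟨a, rfl⟩
        -- reduce modulo `T`
        set k : ℤ := ⌊a / T⌋ with hk
        have f1 : (k : ℝ) * T ≤ a := by
          have := Int.floor_le (a / T)
          rw [← hk] at this
          calc (k : ℝ) * T ≤ (a / T) * T := by nlinarith
            _ = a := by field_simp
        have f2 : a < ((k : ℝ) + 1) * T := by
          have := Int.lt_floor_add_one (a / T)
          rw [← hk] at this
          calc a = (a / T) * T := by field_simp
            _ < _ := by nlinarith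
        have e : Φ.R a c = Φ.R (a - k * T) c := (hper _ _).2 ⟨k, by ring⟩
        show Φ.R a c ∈ _
        rw [e]
        rcases le_total (a - k * T) (T / 2) with h3 | h3
        · exact Or.inl ⟨a - k * T, ⟨by linarith, h3⟩, rfl⟩
        · refine Or.inr ⟨a - k * T - T / 2, ⟨by linarith, by linarith⟩, ?_⟩
          show Φ.R (a - k * T - T / 2) c' = _
          rw [hc', ← Φ.add]
          congr 1; ring
      · rintro x (⟨a, _, rfl⟩ | ⟨a, _, rfl⟩)
        · exact ⟨a, rfl⟩
        · exact ⟨a + T / 2, by show Φ.R (a + T / 2) c = Φ.R a c'; rw [Φ.add]⟩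
    have eI : Φ.arc c (T / 2) ∩ Φ.arc c' (T / 2) = {c} ∪ {c'} := by
      apply Subset.antisymm
      · rintro x ⟨⟨a, ha, rfl⟩, ⟨b, hb, hab⟩⟩
        have hab' : Φ.R (b + T / 2) c = Φ.R a c := by
          rw [Φ.add]; exact hab
        obtain ⟨k, hk⟩ := (hper _ _).1 hab'
        show Φ.R a c ∈ _
        have hk1 : (k : ℝ) * T ≤ 1 * T := by rw [← hk]; linarith [ha.1, hb.2]
        have hk2 : 0 * T ≤ (k : ℝ) * T := by rw [← hk]; linarith [ha.2, hb.1]
        have hk3 : (k : ℝ) ≤ 1 := le_of_mul_le_mul_right hk1 hT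
        have hk4 : (0 : ℝ) ≤ k := le_of_mul_le_mul_right hk2 hT
        have hk5 : k ≤ 1 := by exact_mod_cast hk3
        have hk6 : 0 ≤ k := by exact_mod_cast hk4
        have hk7 : k = 0 ∨ k = 1 := by omega
        rcases hk7 with rfl | rfl
        · right
          have : a = T / 2 := by
            push_cast at hk
            linarith [ha.2, hb.1]
          rw [this]; rfl
        · left
          have : a = 0 := by
            push_cast at hk
            linarith [ha.1, hb.2]
          rw [this, Φ.zero]; rfl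
      · rintro x (hx | hx)
        · rw [mem_singleton_iff] at hx
          rw [hx]
          refine ⟨⟨0, ⟨le_rfl, by linarith⟩, Φ.zero c⟩, ⟨T / 2, ⟨by linarith, le_rfl⟩, ?_⟩⟩
          show Φ.R (T / 2) c' = c
          rw [hc', ← Φ.add]
          have : Φ.R (T / 2 + T / 2) c = Φ.R 0 c := (hper _ _).2 ⟨1, by push_cast; ring⟩
          rw [this, Φ.zero]
        · rw [mem_singleton_iff] at hx
          rw [hx]
          exact ⟨⟨T / 2, ⟨by linarith, le_rfl⟩, rfl⟩, ⟨0, ⟨le_rfl, by linarith⟩, Φ.zero c'⟩⟩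
    have hne : Disjoint ({c} : Set E) {c'} := by
      rw [disjoint_singleton]
      intro hcc
      have : Φ.R 0 c = Φ.R (T / 2) c := by rw [Φ.zero]; exact hcc
      obtain ⟨k, hk⟩ := (hper _ _).1 this
      have hk0 : k = 0 := small k (by
        rw [← hk, abs_lt]
        constructor <;> linarith)
      rw [hk0] at hk
      push_cast at hk
      linarith
    have s12 : SR X A ({c} ∪ {c'}) (C + C) :=
      SR.union_disj isClosed_singleton isClosed_singleton hne h h'
    rw [eU]
    refine (SR.union (Φ.isClosed_arc c _) (Φ.isClosed_arc c' _) s1 s2 (by rw [eI]; exact s12)).mono ?_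
    omega

/-- **finitely many orbits** -/
theorem SR.orbits [NormalSpace E] [T2Space E] {X A : Set E} (hX : Φ.Inv X)
    (hA : Φ.Inv A) (F : Finset E) (C : E → ℕ) (hF : ∀ c ∈ F, c ∈ X) (h1 : ∀ c ∈ F, Φ.R 1 c = c)
    (h : ∀ c ∈ F, SR X A {c} (C c)) :
    SR X A (⋃ c ∈ F, Φ.orb c) (∑ c ∈ F, 4 * C c) := by
  classical
  induction F using Finset.induction_on with
  | empty => simpa using SR.empty X A
  | insert c F hc ih =>
    have ih' := ih (fun d hd => hF d (Finset.mem_insert_of_mem hd))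
      (fun d hd => h1 d (Finset.mem_insert_of_mem hd))
      (fun d hd => h d (Finset.mem_insert_of_mem hd))
    have hcl : IsClosed (⋃ d ∈ F, Φ.orb d) :=
      (F.isCompact_biUnion fun d hd =>
        Φ.isCompact_orb (h1 d (Finset.mem_insert_of_mem hd))).isClosed
    rw [Finset.set_biUnion_insert, Finset.sum_insert hc]
    by_cases hcF : c ∈ ⋃ d ∈ F, Φ.orb d
    · obtain ⟨d, hd, hcd⟩ := mem_iUnion₂.1 hcF
      have : Φ.orb c ∪ ⋃ d ∈ F, Φ.orb d = ⋃ d ∈ F, Φ.orb d := by
        apply union_eq_self_of_subset_left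
        rw [Φ.orb_eq hcd]
        exact subset_biUnion_of_mem (u := fun d => Φ.orb d) hd
      rw [this]
      exact ih'.mono (by omega)
    · have h1c := h1 c (Finset.mem_insert_self c F)
      refine SR.union_disj (Φ.isCompact_orb h1c).isClosed hcl ?_
        (SR.orbit Φ hX hA (hF c (Finset.mem_insert_self c F)) h1c
          (h c (Finset.mem_insert_self c F))) ih'
      rw [disjoint_comm, disjoint_iUnion₂_left]
      intro d hd
      refine Φ.orb_disjoint fun hcd => hcF ?_
      exact mem_iUnion₂.2 ⟨d, hd, hcd⟩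

end Crest.Agent.R231.GM898
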