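import Crest.Agent.R231.GLoop_576

/-!
# Row 231 (S0357), block GM-GEO: the equivariant phase near an iterated prime loop (helper136)

`c : Lp M` prime (`rot a c = c → a = 0`), `m ≥ 1`, `cit c m θ = itr m (rot θ c)`, i.e. `x ↦ c (m x + θ)`.
`nb c m δ` = loops at distance `< δ` from one of the `cit c m θ` (open, rotation invariant).

* `exists_good` : there is `δ₀ > 0` (independent of `m`) such that for `δ ≤ δ₀` the phase is defined
* `phase` : `nb c m δ → UnitAddCircle`, continuous, `phase (rot a γ) = phase γ + m • a`,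
  `phase (cit c m θ) = θ`
* `dist γ (cit c m (phase γ))` is small when `γ ∈ nb c m δ` and `δ` is small.
-/

set_option autoImplicit false
set_option linter.unusedSectionVars false

open Set Filter Topology MeasureTheory

namespace Crest.Agent.R231.GMPhase136

open GLugx576

noncomputable section

variable {M : Type*} [MetricSpace M]

/-- the loop `x ↦ c (m x + θ)` -/
def cit (c : Lp M) (m : ℕ) (θ : UnitAddCircle) : Lp M := itr m (rot θ c)

@[simp] theorem cit_apply (c : Lp M) (m : ℕ) (θ x : UnitAddCircle) : cit c m θ x = c (m • x + θ) :=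
  rfl

theorem continuous_cit (c : Lp M) (m : ℕ) : Continuous (cit c m) := by
  refine (continuous_itr m).comp ?_
  exact continuous_rot.comp (continuous_id.prodMk continuous_const)

theorem rot_cit (c : Lp M) (m : ℕ) (θ a : UnitAddCircle) :
    rot a (cit c m θ) = cit c m (θ + m • a) := by
  ext x; simp only [rot_apply, cit_apply, smul_add]; congr 1; abel

/-- rotation is an isometry -/
theorem dist_rot (a : UnitAddCircle) (f g : Lp M) : dist (rot a f) (rot a g) = dist f g := by
  refine le_antisymm ?_ ?_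
  · exact (ContinuousMap.dist_le dist_nonneg).2 fun x =>
      ContinuousMap.dist_apply_le_dist (f := f) (g := g) (x + a)
  · refine (ContinuousMap.dist_le dist_nonneg).2 fun x => ?_
    have := ContinuousMap.dist_apply_le_dist (f := rot a f) (g := rot a g) (x - a)
    simpa using this

theorem nsmul_surj {m : ℕ} (hm : 1 ≤ m) (y : UnitAddCircle) : ∃ x : UnitAddCircle, m • x = y := by
  induction y using QuotientAddGroup.induction_on with | _ y => ?_
  refine ⟨((y / m : ℝ) : UnitAddCircle), ?_⟩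
  rw [← AddCircle.coe_nsmul, nsmul_eq_mul]
  have : (m : ℝ) ≠ 0 := by positivity
  show ((m * (y / m) : ℝ) : UnitAddCircle) = (y : UnitAddCircle)
  rw [mul_div_cancel₀ _ this]

/-- iteration is an isometry -/
theorem dist_itr {m : ℕ} (hm : 1 ≤ m) (f g : Lp M) : dist (itr m f) (itr m g) = dist f g := by
  refine le_antisymm ?_ ?_
  · exact (ContinuousMap.dist_le dist_nonneg).2 fun x =>
      ContinuousMap.dist_apply_le_dist (f := f) (g := g) (m • x)
  · refine (ContinuousMap.dist_le dist_nonneg).2 fun x => ?_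
    obtain ⟨y, rfl⟩ := nsmul_surj hm x
    exact ContinuousMap.dist_apply_le_dist (f := itr m f) (g := itr m g) y

theorem dist_cit {m : ℕ} (hm : 1 ≤ m) (c : Lp M) (θ θ' : UnitAddCircle) :
    dist (cit c m θ) (cit c m θ') = dist (rot (θ - θ') c) c := by
  unfold cit
  rw [dist_itr hm, ← dist_rot (-θ') (rot θ c), rot_rot, rot_rot, neg_add_cancel, rot_zero]
  rw [neg_add_eq_sub]

/-- the neighbourhood of the orbit -/
def nb (c : Lp M) (m : ℕ) (δ : ℝ) : Set (Lp M) := {γ | ∃ θ, dist γ (cit c m θ) < δ}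

theorem isOpen_nb (c : Lp M) (m : ℕ) (δ : ℝ) : IsOpen (nb c m δ) := by
  have e : nb c m δ = ⋃ θ, {γ | dist γ (cit c m θ) < δ} := by
    ext γ; simp [nb]
  rw [e]
  exact isOpen_iUnion fun θ => isOpen_lt (continuous_id.dist continuous_const) continuous_const

theorem nb_mono (c : Lp M) (m : ℕ) {δ δ' : ℝ} (h : δ ≤ δ') : nb c m δ ⊆ nb c m δ' :=
  fun _ ⟨θ, hθ⟩ => ⟨θ, hθ.trans_le h⟩

theorem rot_mem_nb {c : Lp M} {m : ℕ} {δ : ℝ} {γ : Lp M} (h : γ ∈ nb c m δ) (a : UnitAddCircle) :
    rot a γ ∈ nb c m δ := by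
  obtain ⟨θ, hθ⟩ := h
  refine ⟨θ + m • a, ?_⟩
  rw [← rot_cit, dist_rot]; exact hθ

theorem cit_mem_nb (c : Lp M) (m : ℕ) {δ : ℝ} (hδ : 0 < δ) (θ : UnitAddCircle) :
    cit c m θ ∈ nb c m δ := ⟨θ, by rwa [dist_self]⟩

/-- every open set containing the orbit contains some `nb` -/
theorem exists_nb_subset (c : Lp M) (m : ℕ) {U : Set (Lp M)} (hU : IsOpen U)
    (h : ∀ θ, cit c m θ ∈ U) : ∃ δ > 0, nb c m δ ⊆ U := by
  have hK : IsCompact (range (cit c m)) := isCompact_range (continuous_cit c m)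
  obtain ⟨δ, hδ, hsub⟩ := hK.exists_thickening_subset_open hU (by rintro _ ⟨θ, rfl⟩; exact h θ)
  refine ⟨δ, hδ, fun γ ⟨θ, hθ⟩ => hsub ?_⟩
  exact Metric.mem_thickening_iff.2 ⟨_, ⟨θ, rfl⟩, hθ⟩

/-- prime loops -/
def Prime (c : Lp M) : Prop := ∀ a : UnitAddCircle, rot a c = c → a = 0

/-- good radii: `δ` is good for `η` if `2δ`-close rotations of `c` differ by less than `η` -/
def Good (c : Lp M) (η δ : ℝ) : Prop := ∀ a : UnitAddCircle, dist (rot a c) c < 2 * δ → ‖a‖ < η

theorem exists_good {c : Lp M} (hc : Prime c) {η : ℝ} (hη : 0 < η) : ∃ δ > 0, Good c η δ := by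
  have hK : IsCompact {a : UnitAddCircle | η ≤ ‖a‖} :=
    (isClosed_le continuous_const continuous_norm).isCompact
  have hcont : Continuous fun a : UnitAddCircle => dist (rot a c) c :=
    (continuous_rot.comp (continuous_id.prodMk continuous_const)).dist continuous_const
  rcases ({a : UnitAddCircle | η ≤ ‖a‖}).eq_empty_or_nonempty with he | hne
  · refine ⟨1, one_pos, fun a _ => ?_⟩
    by_contra h
    have : a ∈ {a : UnitAddCircle | η ≤ ‖a‖} := not_lt.1 h
    rw [he] at this
    exact this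
  · obtain ⟨a₀, ha₀, hmin⟩ := hK.exists_isMinOn hne hcont.continuousOn
    have hpos : 0 < dist (rot a₀ c) c := by
      rw [dist_pos]
      intro h
      have h1 := hc a₀ h
      have h2 : η ≤ ‖a₀‖ := ha₀
      rw [h1, norm_zero] at h2
      linarith
    refine ⟨dist (rot a₀ c) c / 2, by positivity, fun a ha => ?_⟩
    by_contra h
    have h1 := hmin (show a ∈ {a : UnitAddCircle | η ≤ ‖a‖} from not_lt.1 h)
    simp only [mem_ofPred_eq] at h1
    linarith

theorem Good.mono {c : Lp M} {η δ δ' : ℝ} (h : Good c η δ) (hδ : δ' ≤ δ) : Good c η δ' :=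
  fun a ha => h a (ha.trans_le (by linarith))

theorem Good.close {c : Lp M} {m : ℕ} (hm : 1 ≤ m) {η δ : ℝ} (h : Good c η δ) {γ : Lp M}
    {θ θ' : UnitAddCircle} (h1 : dist γ (cit c m θ) < δ) (h2 : dist γ (cit c m θ') < δ) :
    ‖θ - θ'‖ < η := by
  refine h _ ?_
  rw [← dist_cit hm]
  have := dist_triangle_left (cit c m θ) (cit c m θ') γ
  linarith

/-! ### the weight and the averaged exponential -/

/-- weight -/
def wt (c : Lp M) (m : ℕ) (δ : ℝ) (γ : Lp M) (θ : UnitAddCircle) : ℝ :=
  max 0 (δ - dist γ (cit c m θ))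

theorem wt_nonneg (c : Lp M) (m : ℕ) (δ : ℝ) (γ : Lp M) (θ : UnitAddCircle) :
    0 ≤ wt c m δ γ θ := le_max_left _ _

theorem wt_pos_iff {c : Lp M} {m : ℕ} {δ : ℝ} {γ : Lp M} {θ : UnitAddCircle} :
    0 < wt c m δ γ θ ↔ dist γ (cit c m θ) < δ := by
  unfold wt
  rw [lt_max_iff]
  constructor
  · rintro (h | h)
    · exact absurd h (lt_irrefl _)
    · linarith
  · intro h; right; linarith

theorem continuous_wt (c : Lp M) (m : ℕ) (δ : ℝ) :
    Continuous fun p : Lp M × UnitAddCircle => wt c m δ p.1 p.2 := by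
  unfold wt
  exact continuous_const.max (continuous_const.sub
    (continuous_fst.dist ((continuous_cit c m).comp continuous_snd)))

theorem wt_rot (c : Lp M) (m : ℕ) (δ : ℝ) (γ : Lp M) (θ a : UnitAddCircle) :
    wt c m δ (rot a γ) θ = wt c m δ γ (θ - m • a) := by
  unfold wt
  congr 2
  rw [← dist_rot a γ, rot_cit, sub_add_cancel]

/-- the averaged exponential -/
def zz (c : Lp M) (m : ℕ) (δ : ℝ) (γ : Lp M) : ℂ :=
  ∫ θ : UnitAddCircle, (wt c m δ γ θ : ℂ) * fourier 1 θ ∂AddCircle.haarAddCircle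

theorem continuous_zz (c : Lp M) (m : ℕ) (δ : ℝ) : Continuous (zz c m δ) := by
  refine continuous_of_dominated (bound := fun _ => max 0 δ) ?_ ?_ ?_ ?_
  · intro γ
    have h : Continuous fun θ : UnitAddCircle => (wt c m δ γ θ : ℂ) * fourier 1 θ :=
      (Complex.continuous_ofReal.comp ((continuous_wt c m δ).comp
        (continuous_const.prodMk continuous_id))).mul (ContinuousMap.continuous _)
    exact h.aestronglyMeasurable
  · intro γ
    refine Eventually.of_forall fun θ => ?_
    have h1 : ‖(fourier 1 θ : ℂ)‖ = 1 := by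
      rw [fourier_apply]; exact Circle.norm_coe _
    rw [norm_mul, h1, mul_one, Complex.norm_real, Real.norm_of_nonneg (wt_nonneg _ _ _ _ _)]
    exact max_le_max le_rfl (by linarith [dist_nonneg (x := γ) (y := cit c m θ)])
  · exact integrable_const _
  · refine Eventually.of_forall fun θ => ?_
    exact (Complex.continuous_ofReal.comp ((continuous_wt c m δ).comp
      (continuous_id.prodMk continuous_const))).mul continuous_const

theorem zz_rot (c : Lp M) (m : ℕ) (δ : ℝ) (γ : Lp M) (a : UnitAddCircle) :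
    zz c m δ (rot a γ) = fourier 1 (m • a) * zz c m δ γ := by
  unfold zz
  rw [← integral_const_mul]
  have h1 := integral_add_right_eq_self (μ := (AddCircle.haarAddCircle : Measure UnitAddCircle))
    (fun θ : UnitAddCircle => (wt c m δ (rot a γ) θ : ℂ) * fourier 1 θ) (m • a)
  rw [← h1]
  refine integral_congr_ae (Eventually.of_forall fun θ => ?_)
  simp only
  rw [wt_rot, add_sub_cancel_right, fourier_apply, fourier_apply, fourier_apply, one_zsmul,
    one_zsmul, one_zsmul, AddCircle.toCircle_add, Circle.coe_mul]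
  ring

/-- a real lift of a point of the circle of minimal absolute value -/
theorem exists_lift (a : UnitAddCircle) : ∃ x : ℝ, (x : UnitAddCircle) = a ∧ |x| = ‖a‖ := by
  induction a using QuotientAddGroup.induction_on with | _ x => ?_
  refine ⟨x - round x, ?_, ?_⟩
  · rw [AddCircle.coe_sub, coe_int_circle, sub_zero]
  · exact (UnitAddCircle.norm_eq).symm

theorem fourier_coe_one (x : ℝ) : (fourier 1 (x : UnitAddCircle) : ℂ) =
    Complex.exp ((2 * Real.pi * x : ℝ) * Complex.I) := by
  rw [fourier_apply, one_zsmul, AddCircle.toCircle_apply_mk, Circle.coe_exp]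
  simp

theorem re_fourier_pos {a : UnitAddCircle} (h : ‖a‖ < 1 / 4) : 0 < (fourier 1 a : ℂ).re := by
  obtain ⟨x, rfl, hx⟩ := exists_lift a
  rw [fourier_coe_one, Complex.exp_ofReal_mul_I_re]
  rw [← hx, abs_lt] at h
  refine Real.cos_pos_of_mem_Ioo ⟨?_, ?_⟩ <;> nlinarith [Real.pi_pos, h.1, h.2]

theorem norm_fourier_one (a : UnitAddCircle) : ‖(fourier 1 a : ℂ)‖ = 1 := by
  rw [fourier_apply]; exact Circle.norm_coe _

theorem fourier_add_one (a b : UnitAddCircle) :
    (fourier 1 (a + b) : ℂ) = fourier 1 a * fourier 1 b := by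
  rw [fourier_apply, fourier_apply, fourier_apply, one_zsmul, one_zsmul, one_zsmul,
    AddCircle.toCircle_add, Circle.coe_mul]

theorem zz_ne_zero {c : Lp M} {m : ℕ} (hm : 1 ≤ m) {δ : ℝ} (hg : Good c (1 / 4) δ) {γ : Lp M}
    (h : γ ∈ nb c m δ) : zz c m δ γ ≠ 0 := by
  obtain ⟨θ₀, hθ₀⟩ := h
  -- multiply by the inverse of the exponential at `θ₀`
  have key : 0 < (fourier 1 (-θ₀) * zz c m δ γ : ℂ).re := by
    unfold zz
    rw [← integral_const_mul]
    have e : ∀ θ : UnitAddCircle, (fourier 1 (-θ₀) : ℂ) * ((wt c m δ γ θ : ℂ) * fourier 1 θ) =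
        (wt c m δ γ θ : ℂ) * fourier 1 (θ - θ₀) := by
      intro θ
      rw [sub_eq_add_neg, fourier_add_one]; ring
    simp only [e]
    have hcont : Continuous fun θ : UnitAddCircle => (wt c m δ γ θ : ℂ) * fourier 1 (θ - θ₀) :=
      (Complex.continuous_ofReal.comp ((continuous_wt c m δ).comp
        (continuous_const.prodMk continuous_id))).mul
        ((ContinuousMap.continuous _).comp (continuous_id.sub continuous_const))
    have hint : Integrable (fun θ : UnitAddCircle => (wt c m δ γ θ : ℂ) * fourier 1 (θ - θ₀))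
        AddCircle.haarAddCircle := hcont.integrable_of_hasCompactSupport
          (HasCompactSupport.of_compactSpace _)
    have h2 : (∫ θ : UnitAddCircle, (wt c m δ γ θ : ℂ) * fourier 1 (θ - θ₀)
        ∂AddCircle.haarAddCircle).re = ∫ θ : UnitAddCircle,
          ((wt c m δ γ θ : ℂ) * fourier 1 (θ - θ₀)).re ∂AddCircle.haarAddCircle := by
      have := integral_re (𝕜 := ℂ) hint
      simpa using this.symm
    rw [h2]
    have hnn : ∀ θ : UnitAddCircle, 0 ≤ ((wt c m δ γ θ : ℂ) * fourier 1 (θ - θ₀)).re := by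
      intro θ
      rw [Complex.re_ofReal_mul]
      rcases (wt_nonneg c m δ γ θ).eq_or_lt with h | h
      · rw [← h, zero_mul]
      · exact mul_nonneg h.le (re_fourier_pos (hg.close hm (wt_pos_iff.1 h) hθ₀)).le
    refine (Complex.continuous_re.comp hcont).integral_pos_of_hasCompactSupport_nonneg_nonzero
      (HasCompactSupport.of_compactSpace _) hnn (x := θ₀) ?_
    rw [sub_self, Complex.re_ofReal_mul]
    have h3 : (fourier 1 (0 : UnitAddCircle) : ℂ).re = 1 := by
      rw [show (0 : UnitAddCircle) = ((0 : ℝ) : UnitAddCircle) from rfl, fourier_coe_one]; simp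
    rw [h3, mul_one]
    exact (wt_pos_iff.2 hθ₀).ne'
  intro h0
  rw [h0, mul_zero] at key
  exact lt_irrefl _ key

/-- the angle of a complex number in `ℝ/ℤ` -/
def ang (z : ℂ) : UnitAddCircle :=
  AddCircle.homeomorphAddCircle (2 * Real.pi) 1 (by positivity) one_ne_zero
    ((Complex.arg z : ℝ) : Real.Angle)

theorem continuousAt_ang {z : ℂ} (hz : z ≠ 0) : ContinuousAt ang z := by
  unfold ang
  exact (Homeomorph.continuous _).continuousAt.comp (Complex.continuousAt_arg_coe_angle hz)

theorem homeo_add (a b : AddCircle (2 * Real.pi)) :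
    AddCircle.homeomorphAddCircle (2 * Real.pi) 1 (by positivity) one_ne_zero (a + b) =
    AddCircle.homeomorphAddCircle (2 * Real.pi) 1 (by positivity) one_ne_zero a +
    AddCircle.homeomorphAddCircle (2 * Real.pi) 1 (by positivity) one_ne_zero b :=
  (AddCircle.equivAddCircle (2 * Real.pi) 1 (by positivity) one_ne_zero).map_add a b

theorem ang_mul {z w : ℂ} (hz : z ≠ 0) (hw : w ≠ 0) : ang (z * w) = ang z + ang w := by
  unfold ang
  rw [Complex.arg_mul_coe_angle hz hw]
  exact homeo_add _ _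

theorem ang_fourier (a : UnitAddCircle) : ang (fourier 1 a) = a := by
  obtain ⟨x, rfl, -⟩ := exists_lift a
  rw [fourier_coe_one]
  unfold ang
  have h0 : ((Complex.arg (Complex.exp ((2 * Real.pi * x : ℝ) * Complex.I)) : ℝ) : Real.Angle) =
      ((2 * Real.pi * x : ℝ) : Real.Angle) := by
    have h := Complex.arg_cos_add_sin_mul_I_coe_angle ((2 * Real.pi * x : ℝ) : Real.Angle)
    rw [Real.Angle.cos_coe, Real.Angle.sin_coe, Complex.ofReal_cos, Complex.ofReal_sin] at h
    rw [Complex.exp_mul_I]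
    exact h
  rw [h0]
  have h1 := AddCircle.homeomorphAddCircle_apply_mk (p := 2 * Real.pi) (q := 1)
    (by positivity) one_ne_zero (2 * Real.pi * x)
  have h2 : (2 * Real.pi * x * ((2 * Real.pi)⁻¹ * 1) : ℝ) = x := by
    field_simp
  rw [h2] at h1
  exact h1

/-- **the phase** -/
def phase (c : Lp M) (m : ℕ) (δ : ℝ) (γ : Lp M) : UnitAddCircle :=
  ang (zz c m δ γ) - ang (zz c m δ (cit c m 0))

theorem continuousOn_phase {c : Lp M} {m : ℕ} (hm : 1 ≤ m) {δ : ℝ} (hg : Good c (1 / 4) δ) :
    ContinuousOn (phase c m δ) (nb c m δ) := fun _ hγ =>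
  (((continuousAt_ang (zz_ne_zero hm hg hγ)).comp (continuous_zz c m δ).continuousAt).sub
    continuousAt_const).continuousWithinAt

theorem fourier_ne_zero (a : UnitAddCircle) : (fourier 1 a : ℂ) ≠ 0 := by
  rw [← norm_pos_iff, norm_fourier_one]; exact one_pos

/-- **equivariance** -/
theorem phase_rot {c : Lp M} {m : ℕ} (hm : 1 ≤ m) {δ : ℝ} (hg : Good c (1 / 4) δ) {γ : Lp M}
    (h : γ ∈ nb c m δ) (a : UnitAddCircle) :
    phase c m δ (rot a γ) = phase c m δ γ + m • a := by
  unfold phase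
  rw [zz_rot, ang_mul (fourier_ne_zero _) (zz_ne_zero hm hg h), ang_fourier]
  abel

theorem phase_cit {c : Lp M} {m : ℕ} (hm : 1 ≤ m) {δ : ℝ} (hδ : 0 < δ) (hg : Good c (1 / 4) δ)
    (θ : UnitAddCircle) : phase c m δ (cit c m θ) = θ := by
  obtain ⟨a, rfl⟩ := nsmul_surj hm θ
  have h := rot_cit c m 0 a
  rw [zero_add] at h
  rw [← h, phase_rot hm hg (cit_mem_nb c m hδ 0)]
  unfold phase
  rw [sub_self, zero_add]

/-- in small neighbourhoods the loop is close to the iterate with its own phase -/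
theorem exists_close {c : Lp M} {m : ℕ} (hm : 1 ≤ m) {δ : ℝ} (hδ : 0 < δ)
    (hg : Good c (1 / 4) δ) {ε : ℝ} (hε : 0 < ε) :
    ∃ δ' > 0, δ' ≤ δ ∧ ∀ γ ∈ nb c m δ', dist γ (cit c m (phase c m δ γ)) < ε := by
  have hopen : IsOpen (nb c m δ ∩ {γ | dist γ (cit c m (phase c m δ γ)) < ε}) := by
    have h1 : ContinuousOn (fun γ => dist γ (cit c m (phase c m δ γ))) (nb c m δ) :=
      continuous_dist.comp_continuousOn
        (continuousOn_id.prodMk ((continuous_cit c m).comp_continuousOn (continuousOn_phase hm hg)))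
    exact h1.isOpen_inter_preimage (isOpen_nb c m δ) isOpen_Iio
  obtain ⟨δ', h0, h1⟩ := exists_nb_subset c m hopen fun θ =>
    ⟨cit_mem_nb c m hδ θ, by simp only [mem_ofPred_eq]; rw [phase_cit hm hδ hg, dist_self]; exact hε⟩
  refine ⟨min δ δ', lt_min hδ h0, min_le_left _ _, fun γ hγ => ?_⟩
  exact (h1 (nb_mono c m (min_le_right _ _) hγ)).2

end

end Crest.Agent.R231.GMPhase136
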