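import Crest.Agent.R231.Pair_877

/-!
# Row 231, leaf R2 (helper737): strict splitting by small chains

In the language of `Pair_877` (chains `CE E = N F2 (Sing E)`, `CS A` = chains with support in `A`):

* `CS_inf : CS A ⊓ CS B = CS (A ∩ B)`
* `prN_mem_CS`, `CS_sup_homog`
* `small` : if every point of `A ∪ B` has `A` or `B` as a neighbourhood (relative to `A ∪ B`), then
  `c ∈ CS (A ∪ B)`, `∂c ∈ CS A ⊔ CS B` imply `c + ∂w ∈ CS A ⊔ CS B` for some `w ∈ CS (A ∪ B)`.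
* `small_gr` : the graded version;  `small_of_closure` : `A ∪ U`, `A ∪ V` with disjoint closures.
-/

set_option autoImplicit false

noncomputable section

open Function Finsupp Topology
open Crest.Agent.R204 Crest.Agent.R204.EZ271 Crest.Agent.R204.SingAct265
open Crest.Agent.R231.Pairx877

namespace Crest.Agent.R231.SplitR2x737

variable {E : Type} [TopologicalSpace E] {A B U V : Set E}

/-- projection of chains to the simplices contained in `A` -/
def pA (A : Set E) : CE E →ₗ[F2] CE E := N.map F2 (SS.SingMap (SpecA.inc A)) ∘ₗ res A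

theorem pA_sx {n : ℕ} {σ : (SS.Sing E).S n} (h : ∀ t, ev σ t ∈ A) :
    pA A (N.sx F2 σ) = N.sx F2 σ := by
  rw [pA, LinearMap.comp_apply, res_sx h, N.map_sx, map_rs]

theorem pA_sx_neg {n : ℕ} {σ : (SS.Sing E).S n} (h : ¬ ∀ t, ev σ t ∈ A) :
    pA A (N.sx F2 σ) = 0 := by
  rw [pA, LinearMap.comp_apply, res_sx_neg h, map_zero]

theorem pA_of_mem {c : CE E} (hc : c ∈ CS A) : pA A c = c := map_inc_res c hc

theorem pA_mem_inter {c : CE E} (hc : c ∈ CS B) : pA A c ∈ CS (A ∩ B) := by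
  refine map_mem_of_CS (f := pA A) (X := B) (fun n σ hσ => ?_) c hc
  by_cases h : ∀ t, ev σ t ∈ A
  · rw [pA_sx h]; exact sx_mem_CS fun t => ⟨h t, hσ t⟩
  · rw [pA_sx_neg h]; exact Submodule.zero_mem _

theorem pA_mem {c : CE E} (hc : c ∈ CS B) : pA A c ∈ CS B := CS_mono Set.inter_subset_right (pA_mem_inter hc)

theorem CS_inf : CS A ⊓ CS B = CS (A ∩ B) := by
  refine le_antisymm ?_ (le_inf (CS_mono Set.inter_subset_left) (CS_mono Set.inter_subset_right))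
  rintro c ⟨h1, h2⟩
  rw [← pA_of_mem h1]
  exact pA_mem_inter h2

/-! ## degrees -/

theorem prN_mem_CS (j : ℕ) {c : CE E} (hc : c ∈ CS A) : Gr334.prN F2 (SS.Sing E) j c ∈ CS A := by
  refine map_mem_of_CS (f := Gr334.prN F2 (SS.Sing E) j) (X := A) (fun n σ hσ => ?_) c hc
  rw [Gr334.prN_sx]
  split_ifs
  · exact sx_mem_CS hσ
  · exact Submodule.zero_mem _

theorem prN_mem_sup (j : ℕ) {c : CE E} (hc : c ∈ CS A ⊔ CS B) :
    Gr334.prN F2 (SS.Sing E) j c ∈ CS A ⊔ CS B := by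
  obtain ⟨a, ha, b, hb, rfl⟩ := Submodule.mem_sup.1 hc
  rw [map_add]
  exact Submodule.add_mem _ (Submodule.mem_sup_left (prN_mem_CS j ha))
    (Submodule.mem_sup_right (prN_mem_CS j hb))

/-! ## small chains -/

/-- the two members of the cover of the subspace `A ∪ B` -/
def cA (A B : Set E) : Set (Set ↥(A ∪ B)) := {Subtype.val ⁻¹' A, Subtype.val ⁻¹' B}

/-- the small simplices in the ambient space -/
def smallHom (A B : Set E) : SS.Hom (Exc406.cov (cA A B)).tk.K (SS.Sing E) :=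
  (SS.SingMap (SpecA.inc (A ∪ B))).comp (Exc406.cov (cA A B)).incl.hom

theorem smallHom_mem (c : N F2 (Exc406.cov (cA A B)).tk.K) :
    N.map F2 (smallHom A B) c ∈ CS A ⊔ CS B := by
  refine N_induction (p := fun c => N.map F2 (smallHom A B) c ∈ CS A ⊔ CS B) c ?_ ?_ ?_ ?_
  · rw [map_zero]; exact Submodule.zero_mem _
  · intro a b ha hb; rw [map_add]; exact Submodule.add_mem _ ha hb
  · intro r a ha; rw [map_smul]; exact Submodule.smul_mem _ _ ha
  · intro n x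
    rw [N.map_sx]
    obtain ⟨σ, W, hW, h⟩ := x
    rcases hW with rfl | hW
    · exact Submodule.mem_sup_left (sx_mem_CS fun t => h t)
    · have hW' : W = Subtype.val ⁻¹' B := hW
      subst hW'
      exact Submodule.mem_sup_right (sx_mem_CS fun t => h t)

theorem CS_le_range_left : CS A ≤ LinearMap.range (N.map F2 (smallHom A B)) := by
  refine CS_le fun n σ hσ => ?_
  have h' : ∀ t, ev σ t ∈ A ∪ B := fun t => Or.inl (hσ t)
  exact ⟨N.sx F2 (⟨rs (A ∪ B) σ h', Subtype.val ⁻¹' A, Or.inl rfl, hσ⟩ :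
    (Exc406.cov (cA A B)).tk.K.S n), N.map_sx _ _⟩

theorem CS_le_range_right : CS B ≤ LinearMap.range (N.map F2 (smallHom A B)) := by
  refine CS_le fun n σ hσ => ?_
  have h' : ∀ t, ev σ t ∈ A ∪ B := fun t => Or.inr (hσ t)
  exact ⟨N.sx F2 (⟨rs (A ∪ B) σ h', Subtype.val ⁻¹' B, Or.inr rfl, hσ⟩ :
    (Exc406.cov (cA A B)).tk.K.S n), N.map_sx _ _⟩

theorem range_smallHom : LinearMap.range (N.map F2 (smallHom A B)) = CS A ⊔ CS B := by
  refine le_antisymm ?_ (sup_le CS_le_range_left CS_le_range_right)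
  rintro _ ⟨c, rfl⟩
  exact smallHom_mem c

theorem N_map_bd_apply {K L : SS} (f : SS.Hom K L) (x : N F2 K) :
    N.map F2 f (N.bd F2 K x) = N.bd F2 L (N.map F2 f x) :=
  LinearMap.congr_fun (N.map_bd (R := F2) f) x

/-- injective homology isomorphisms have acyclic cokernel -/
theorem rel_of_iso {L K : SS} (i : SS.Hom L K) (hi : ∀ n, Injective (i.app n))
    (hb : Bijective (H.map F2 i)) (c : N F2 K) (e : N F2 L) (he : N.map F2 i e = N.bd F2 K c) :
    ∃ (w : N F2 K) (e' : N F2 L), N.map F2 i e' = c + N.bd F2 K w := by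
  have hinj : Injective (N.map F2 i) := Exc406.map_inj (R := F2) i hi
  have he2 : N.bd F2 _ e = 0 := by
    apply hinj
    rw [N_map_bd_apply, he]
    exact (N.bd_bd c).trans (map_zero _).symm
  have h1 : H.map F2 i (Hd.mk _ e he2) = 0 := by
    rw [H.map, Hd.map_mk, Hd.mk_eq_zero]
    exact ⟨c, he.symm⟩
  have h2 : Hd.mk _ e he2 = 0 := by
    apply hb.1
    rw [h1, map_zero]
  obtain ⟨e', he'⟩ := Hd.mk_eq_zero.1 h2
  have hz : N.bd F2 _ (c - N.map F2 i e') = 0 := by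
    rw [map_sub, ← N_map_bd_apply, he', he, sub_self]
  obtain ⟨u, hu⟩ := hb.2 (Hd.mk _ _ hz)
  obtain ⟨e'', he'', rfl⟩ := Hd.mk_surj _ u
  rw [H.map, Hd.map_mk, Hd.mk_eq_mk] at hu
  obtain ⟨w, hw⟩ := hu
  refine ⟨w, e' + e'', ?_⟩
  rw [hw, map_add]
  abel

/-- **small chains** -/
theorem small (h : ∀ y ∈ A ∪ B, A ∈ 𝓝[A ∪ B] y ∨ B ∈ 𝓝[A ∪ B] y) {c : CE E} (hc : c ∈ CS (A ∪ B))
    (hd : bdE E c ∈ CS A ⊔ CS B) : ∃ w ∈ CS (A ∪ B), c + bdE E w ∈ CS A ⊔ CS B := by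
  have hcov : ∀ y : ↥(A ∪ B), ∃ W ∈ cA A B, W ∈ 𝓝 y := by
    intro y
    rcases h y.1 y.2 with h1 | h1
    · exact ⟨_, Or.inl rfl, preimage_coe_mem_nhds_subtype.2 h1⟩
    · exact ⟨_, Or.inr rfl, preimage_coe_mem_nhds_subtype.2 h1⟩
  have hcomp : ∀ x : N F2 (Exc406.cov (cA A B)).tk.K, N.map F2 (smallHom A B) x =
      N.map F2 (SS.SingMap (SpecA.inc (A ∪ B))) (N.map F2 (Exc406.cov (cA A B)).incl.hom x) :=
    fun x => Exc406.N_map_comp _ _ _
  have hinjY : Injective (N.map F2 (SS.SingMap (SpecA.inc (A ∪ B)))) := fun x y hxy => by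
    rw [← res_map_inc x, ← res_map_inc y, hxy]
  rw [CS_eq_range] at hc
  obtain ⟨c0, rfl⟩ := hc
  rw [← range_smallHom] at hd
  obtain ⟨e, he⟩ := hd
  rw [hcomp] at he
  have he1 : N.map F2 (Exc406.cov (cA A B)).incl.hom e = N.bd F2 (SS.Sing ↥(A ∪ B)) c0 := by
    apply hinjY
    rw [he, N_map_bd_apply]
  obtain ⟨w, e', hw⟩ := rel_of_iso (K := SS.Sing ↥(A ∪ B)) (Exc406.cov (cA A B)).incl.hom
    (Exc406.cov (cA A B)).incl_inj (Exc406.small_cover (cA A B) F2 hcov) c0 e he1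
  refine ⟨N.map F2 (SS.SingMap (SpecA.inc (A ∪ B))) w, ?_, ?_⟩
  · rw [CS_eq_range]; exact ⟨w, rfl⟩
  · rw [← N_map_bd_apply, ← map_add, ← hw]
    exact (hcomp e') ▸ smallHom_mem e'

/-- graded version -/
theorem small_gr (h : ∀ y ∈ A ∪ B, A ∈ 𝓝[A ∪ B] y ∨ B ∈ 𝓝[A ∪ B] y) {j : ℕ} {c : CE E}
    (hj : c ∈ N.gr F2 (SS.Sing E) j) (hc : c ∈ CS (A ∪ B)) (hd : bdE E c ∈ CS A ⊔ CS B) :
    ∃ w ∈ CS (A ∪ B), w ∈ N.gr F2 (SS.Sing E) (j + 1) ∧ c + bdE E w ∈ CS A ⊔ CS B := by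
  obtain ⟨w, hw, hwc⟩ := small h hc hd
  refine ⟨Gr334.prN F2 (SS.Sing E) (j + 1) w, prN_mem_CS _ hw, Gr334.prN_mem _ _, ?_⟩
  have h1 := prN_mem_sup j hwc
  rw [map_add, Gr334.prN_of_mem hj, Gr334.prN_bd] at h1
  exact h1

/-- the hypothesis of `small` for `A ∪ U`, `A ∪ V` where `U`, `V` have disjoint closures -/
theorem cover_of_closure (h : Disjoint (closure U) (closure V)) :
    ∀ y ∈ (A ∪ U) ∪ (A ∪ V), (A ∪ U) ∈ 𝓝[(A ∪ U) ∪ (A ∪ V)] y ∨ (A ∪ V) ∈ 𝓝[(A ∪ U) ∪ (A ∪ V)] y := by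
  intro y _
  by_cases hy : y ∈ closure U
  · left
    have hV : y ∉ closure V := fun h' => Set.disjoint_left.1 h hy h'
    have hn : (closure V)ᶜ ∈ 𝓝 y := isClosed_closure.isOpen_compl.mem_nhds hV
    refine Filter.mem_of_superset (Filter.inter_mem (mem_nhdsWithin_of_mem_nhds hn)
      self_mem_nhdsWithin) ?_
    rintro z ⟨hz, (h1 | h1) | (h1 | h1)⟩
    · exact Or.inl h1
    · exact Or.inr h1
    · exact Or.inl h1
    · exact absurd (subset_closure h1) hz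
  · right
    have hn : (closure U)ᶜ ∈ 𝓝 y := isClosed_closure.isOpen_compl.mem_nhds hy
    refine Filter.mem_of_superset (Filter.inter_mem (mem_nhdsWithin_of_mem_nhds hn)
      self_mem_nhdsWithin) ?_
    rintro z ⟨hz, (h1 | h1) | (h1 | h1)⟩
    · exact Or.inl h1
    · exact absurd (subset_closure h1) hz
    · exact Or.inl h1
    · exact Or.inr h1

/-- **R2** : strict splitting of `C(A ∪ U ∪ V)/C(A)`, `U` and `V` with disjoint closures -/
theorem split_small (h : Disjoint (closure U) (closure V)) {j : ℕ} {c : CE E}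
    (hj : c ∈ N.gr F2 (SS.Sing E) j) (hc : c ∈ CS (A ∪ (U ∪ V)))
    (hd : bdE E c ∈ CS (A ∪ U) ⊔ CS (A ∪ V)) :
    ∃ w ∈ CS (A ∪ (U ∪ V)), w ∈ N.gr F2 (SS.Sing E) (j + 1) ∧
      c + bdE E w ∈ CS (A ∪ U) ⊔ CS (A ∪ V) := by
  have e : A ∪ (U ∪ V) = (A ∪ U) ∪ (A ∪ V) := by
    ext z; simp only [Set.mem_union]; tauto
  rw [e] at hc ⊢
  exact small_gr (cover_of_closure h) hj hc hd

theorem split_inf (h : Disjoint (closure U) (closure V)) : CS (A ∪ U) ⊓ CS (A ∪ V) = CS A := by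
  rw [CS_inf, ← Set.union_inter_distrib_left,
    (Set.disjoint_iff_inter_eq_empty.1 (h.mono subset_closure subset_closure)), Set.union_empty]

end Crest.Agent.R231.SplitR2x737
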