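import Crest.Agent.R231.GMDefs_898
import Crest.Agent.R231.PairH_877
import Crest.Agent.R231.SplitR2_737

/-!
# Row 231, block GM-GEO (d) (helper136): the push theorem

`push_rank` : from the semilocal rank bound `SR (X b0) P K C` (`P` open, `X t ⊆ P` for `t < s`; `K` = critical
set of level `s`) one gets `RkLE (Zp (X b) (X a)) (Bp (X b) (X a)) C` for the pair `(X b, X a)`, `a < s < b ≤ b0`,
i.e. `dim H(X b, X a) ≤ C`.  Inputs (all about one increasing family `X : ℝ → Set E`):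
* `hpush` : for every open `U ⊇ K` some `X b'`, `s < b' ≤ b`, is pushed into `X a' ∪ U`, `a ≤ a' < s`
* `G`, `lam` : polygonisation, `G · 1` maps `P ∩ X b0` into the union of the `X t`, `t < s`
* `hnc1`, `hnc2` : nothing changes between non-critical levels
-/

set_option autoImplicit false

noncomputable section

open Topology Set

namespace Crest.Agent.R231.GMPush136

open Crest.Agent.R204 Crest.Agent.R231.Pairx877 Crest.Agent.R231.GM898
open Crest.Agent.R204.SingAct265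

variable {E : Type} [TopologicalSpace E]

/-- a chain all of whose simplices satisfy `lam < s` is supported in `{lam ≤ t}` for some `t < s` -/
theorem exists_level {Y : Set E} {lam : E → ℝ} {s a : ℝ} (has : a < s) (hlam : ContinuousOn lam Y)
    (hY : ∀ y ∈ Y, lam y < s) {c : CE E} (hc : c ∈ CS Y) :
    ∃ t, a ≤ t ∧ t < s ∧ c ∈ CS (Y ∩ {y | lam y ≤ t}) := by
  have key : CS Y ≤ ⨆ t : {t : ℝ // a ≤ t ∧ t < s}, CS (Y ∩ {y | lam y ≤ t}) := by
    refine CS_le fun n σ hσ => ?_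
    -- the maximum of `lam` on the simplex
    have hcont : Continuous fun t => lam (ev σ t) :=
      hlam.comp_continuous (continuous_ev σ) hσ
    obtain ⟨t0, ht0⟩ : ∃ t0, ∀ t, lam (ev σ t) ≤ lam (ev σ t0) := by
      obtain ⟨t0, -, h⟩ := isCompact_univ.exists_isMaxOn (s := (univ : Set (stdSimplex ℝ (Fin (n + 1)))))
        ⟨stdSimplex.vertex 0, trivial⟩ hcont.continuousOn
      exact ⟨t0, fun t => h trivial⟩
    refine (le_iSup (fun t : {t : ℝ // a ≤ t ∧ t < s} => CS (Y ∩ {y | lam y ≤ t}))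
      ⟨max a (lam (ev σ t0)), le_max_left _ _, max_lt has (hY _ (hσ t0))⟩) ?_
    exact sx_mem_CS fun t => ⟨hσ t, (ht0 t).trans (le_max_right _ _)⟩
  have hdir : Directed (· ≤ ·) fun t : {t : ℝ // a ≤ t ∧ t < s} => CS (Y ∩ {y | lam y ≤ t}) := by
    intro t t'
    refine ⟨⟨max t t', t.2.1.trans (le_max_left _ _), max_lt t.2.2 t'.2.2⟩, ?_, ?_⟩
    · refine CS_mono fun y hy => ⟨hy.1, ?_⟩
      exact le_trans hy.2 (le_max_left (t : ℝ) t')
    · refine CS_mono fun y hy => ⟨hy.1, ?_⟩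
      exact le_trans hy.2 (le_max_right (t : ℝ) t')
  have hne : Nonempty {t : ℝ // a ≤ t ∧ t < s} := ⟨⟨a, le_rfl, has⟩⟩
  obtain ⟨t, ht⟩ := (Submodule.mem_iSup_of_directed _ hdir).1 (key hc)
  exact ⟨t, t.2.1, t.2.2, ht⟩

theorem add_cancel' (x : CE E) : x + x = 0 := ZModModule.add_self x

/-- **the push theorem** -/
theorem push_rank (X : ℝ → Set E) (hX : Monotone X) {a s b b0 : ℝ} (has : a < s) (hsb : s < b)
    (hbb : b ≤ b0) {P K : Set E} (hP : IsOpen P) (hXP : ∀ t < s, X t ⊆ P) {C : ℕ}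
    (hSR : SR (X b0) P K C)
    (hpush : ∀ U : Set E, IsOpen U → K ⊆ U → ∃ a' b' : ℝ, a ≤ a' ∧ a' < s ∧ s < b' ∧ b' ≤ b ∧
      ∃ F : E → ℝ → E, ContinuousOn (fun p : E × ℝ => F p.1 p.2) (X b' ×ˢ Icc 0 1) ∧
        (∀ y ∈ X b', F y 0 = y) ∧ (∀ y ∈ X b', ∀ t ∈ Icc (0 : ℝ) 1, F y t ∈ X b') ∧
        (∀ y ∈ X a', ∀ t ∈ Icc (0 : ℝ) 1, F y t ∈ X a') ∧ (∀ y ∈ X b', F y 1 ∈ X a' ∪ U))
    (G : E → ℝ → E) (hG : ContinuousOn (fun p : E × ℝ => G p.1 p.2) (X b0 ×ˢ Icc 0 1))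
    (hG0 : ∀ y ∈ X b0, G y 0 = y)
    (hGX : ∀ t ≤ b0, ∀ y ∈ X t, ∀ r ∈ Icc (0 : ℝ) 1, G y r ∈ X t)
    (lam : E → ℝ) (hlam : ContinuousOn lam (X b0)) (hlamP : ∀ y ∈ X b0 ∩ P, lam y < s)
    (hG1 : ∀ y ∈ X b0, ∀ t, a ≤ t → t < s → lam y ≤ t → G y 1 ∈ X t)
    (hnc1 : ∀ t, a ≤ t → t < s → Zp (X t) (X a) ≤ Bp (X t) (X a))
    (hnc2 : ∀ t u, s < t → t ≤ u → u ≤ b0 → Zp (X u) (X t) ≤ Bp (X u) (X t)) :
    RkLE (Zp (X b) (X a)) (Bp (X b) (X a)) C := by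
  obtain ⟨U, hU, hKU, -, hr⟩ := hSR univ isOpen_univ (subset_univ _)
  rw [univ_inter] at hr
  obtain ⟨a', b', haa', ha's, hsb', hb'b, F, hF, hF0, hFX, hFA, hF1⟩ := hpush U hU hKU
  -- polygonisation as chain operators
  obtain ⟨φG, PG, hG_1, hG_2, hG_3, hG_4, -, -⟩ := deform (A := X b0) G hG hG0
  -- injectivity of `H(X b, X a) → H(X b0, X b0 ∩ P)`
  have hinj : ∀ z ∈ Zp (X b) (X a), z ∈ Bp (X b0) (X b0 ∩ P) → z ∈ Bp (X b) (X a) := by
    rintro z ⟨hz1, hz2⟩ hzB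
    have hz2' : bdE E z ∈ CS (X a) := hz2
    rw [mem_Bp] at hzB
    obtain ⟨w, hw, hv⟩ := hzB
    set v := z - bdE E w with hvdef
    have hzv : z = v + bdE E w := by rw [hvdef]; abel
    have hz0 : z ∈ CS (X b0) := CS_mono (hX hbb) hz1
    -- push `v`
    obtain ⟨t, hat, hts, hvt⟩ := exists_level has (hlam.mono inter_subset_left) hlamP hv
    have htb0 : t ≤ b0 := by linarith
    have hv1 : φG v ∈ CS (X t) :=
      hG_4 _ _ (fun y hy => hy.1.1) (fun y hy => hG1 y hy.1.1 t hat hts hy.2) v hvt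
    have hw1 : φG w ∈ CS (X b0) :=
      hG_4 _ _ subset_rfl (fun y hy => hGX b0 le_rfl y hy 1 ⟨zero_le_one, le_rfl⟩) w hw
    have hPz : PG z ∈ CS (X b) := hG_3 _ _ (hX hbb) (fun y hy r hr => hGX b hbb y hy r hr) z hz1
    have hPbz : PG (bdE E z) ∈ CS (X a) := hG_3 _ _ (hX (by linarith))
      (fun y hy r hr => hGX a (by linarith) y hy r hr) _ hz2'
    -- `z = φG z + bd (PG z) + PG (bd z)`
    have e1 : z = φG z + bdE E (PG z) + PG (bdE E z) := by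
      rw [hG_1 z hz0]
      have : φG z + (z + φG z + PG (bdE E z)) + PG (bdE E z) =
        z + (φG z + φG z) + (PG (bdE E z) + PG (bdE E z)) := by abel
      rw [this, add_cancel', add_cancel', add_zero, add_zero]
    have e2 : φG z = φG v + bdE E (φG w) := by
      rw [hzv, map_add, hG_2 w hw]
    -- `z = v' + bd w'` with `v' ∈ CS (X t)`, `w' ∈ CS (X b0)`
    set v' := φG v + PG (bdE E z) with hv'
    set w' := φG w + PG z with hw'
    have e3 : z = v' + bdE E w' := by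
      rw [hv', hw', map_add]
      conv_lhs => rw [e1, e2]
      abel
    have hv'm : v' ∈ CS (X t) := add_mem hv1 (CS_mono (hX hat) hPbz)
    have hw'm : w' ∈ CS (X b0) := add_mem hw1 (CS_mono (hX hbb) hPz)
    -- reduce `w'` to level `b`
    have hbw' : bdE E w' ∈ CS (X b) := by
      have : bdE E w' = z - v' := by rw [eq_sub_iff_add_eq']; exact e3.symm
      rw [this]
      exact sub_mem hz1 (CS_mono (hX (by linarith)) hv'm)
    have h5 := hnc2 b b0 hsb hbb le_rfl ⟨hw'm, hbw'⟩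
    rw [mem_Bp] at h5
    obtain ⟨q, -, hq⟩ := h5
    set u := w' - bdE E q with hu
    have e4 : bdE E w' = bdE E u := by
      rw [hu, map_sub, bd_bdE, sub_zero]
    -- reduce `v'` to level `a`
    have hbv' : bdE E v' ∈ CS (X a) := by
      have h := congrArg (bdE E) e3
      rw [map_add, bd_bdE, add_zero] at h
      rw [← h]; exact hz2'
    have h6 := hnc1 t hat hts ⟨hv'm, hbv'⟩
    rw [mem_Bp] at h6
    obtain ⟨q', hq', hv3⟩ := h6
    rw [mem_Bp]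
    refine ⟨q' + u, add_mem (CS_mono (hX (by linarith)) hq') hq, ?_⟩
    have e5 : z - bdE E (q' + u) = v' - bdE E q' := by
      rw [map_add, ← e4, sub_eq_iff_eq_add]
      refine e3.trans ?_
      abel
    rw [e5]
    exact hv3
  -- the linear relation
  obtain ⟨φF, PF, hF_1, hF_2, hF_3, hF_4, -, -⟩ := deform (A := X b') F hF hF0
  have hb'b0 : b' ≤ b0 := hb'b.trans hbb
  let S : Submodule (ZMod 2) (CE E × CE E) :=
    { carrier := {p | p.1 ∈ Zp (X b) (X a) ∧ p.2 ∈ Zp (U ∩ X b0) (U ∩ X b0 ∩ P) ∧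
        p.1 - p.2 ∈ Bp (X b0) (X b0 ∩ P)}
      zero_mem' := ⟨zero_mem _, zero_mem _, by simp⟩
      add_mem' := by
        rintro p q ⟨h1, h2, h3⟩ ⟨h1', h2', h3'⟩
        refine ⟨add_mem h1 h1', add_mem h2 h2', ?_⟩
        have : (p + q).1 - (p + q).2 = p.1 - p.2 + (q.1 - q.2) := by
          simp only [Prod.fst_add, Prod.snd_add]; abel
        rw [this]; exact add_mem h3 h3'
      smul_mem' := by
        rintro c p ⟨h1, h2, h3⟩
        refine ⟨Submodule.smul_mem _ c h1, Submodule.smul_mem _ c h2, ?_⟩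
        have : (c • p).1 - (c • p).2 = c • (p.1 - p.2) := by
          simp only [Prod.smul_fst, Prod.smul_snd, smul_sub]
        rw [this]; exact Submodule.smul_mem _ c h3 }
  refine RkLE.of_rel S ?_ (fun z x h => h.2.1) ?_ hr
  · rintro z ⟨hz1, hz2⟩
    have hz2' : bdE E z ∈ CS (X a) := hz2
    -- step 0 : move to level `b'`
    have hz3 : z ∈ Zp (X b) (X b') := ⟨hz1, CS_mono (hX (by linarith)) hz2'⟩
    have h1 := hnc2 b' b hsb' hb'b hbb hz3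
    rw [mem_Bp] at h1
    obtain ⟨u, hu, hz'⟩ := h1
    set z' := z - bdE E u with hz'def
    have hbz' : bdE E z' = bdE E z := by rw [hz'def, map_sub, bd_bdE, sub_zero]
    have hbz'a : bdE E z' ∈ CS (X a') := by rw [hbz']; exact CS_mono (hX haa') hz2'
    -- step 1 : push
    have hc1 : φF z' ∈ CS ((X b' ∩ P) ∪ (U ∩ X b')) := by
      refine hF_4 _ _ subset_rfl (fun y hy => ?_) z' hz'
      have h2 := hFX y hy 1 ⟨zero_le_one, le_rfl⟩
      rcases hF1 y hy with h | h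
      · exact Or.inl ⟨h2, hXP a' ha's h⟩
      · exact Or.inr ⟨h, h2⟩
    have ha'b' : a' ≤ b' := by linarith
    have hc2 : bdE E (φF z') ∈ CS (X b' ∩ P) := by
      rw [hF_2 z' hz']
      have h3 : φF (bdE E z') ∈ CS (X a') := hF_4 _ _ (hX ha'b')
        (fun y hy => hFA y hy 1 ⟨zero_le_one, le_rfl⟩) _ hbz'a
      have h4 : X a' ⊆ X b' ∩ P := fun y hy => ⟨hX ha'b' hy, hXP a' ha's hy⟩
      exact CS_mono h4 h3
    -- step 2 : small chains
    have hcov : ∀ y ∈ (X b' ∩ P) ∪ (U ∩ X b'),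
        (X b' ∩ P) ∈ 𝓝[(X b' ∩ P) ∪ (U ∩ X b')] y ∨ (U ∩ X b') ∈ 𝓝[(X b' ∩ P) ∪ (U ∩ X b')] y := by
      rintro y (hy | hy)
      · left
        refine mem_nhdsWithin.2 ⟨P, hP, hy.2, ?_⟩
        rintro x ⟨hx, hx' | hx'⟩
        · exact hx'
        · exact ⟨hx'.2, hx⟩
      · right
        refine mem_nhdsWithin.2 ⟨U, hU, hy.1, ?_⟩
        rintro x ⟨hx, hx' | hx'⟩
        · exact ⟨hx, hx'.1⟩
        · exact hx'
    obtain ⟨w, hw, hcw⟩ := SplitR2x737.small hcov hc1 (Submodule.mem_sup_left hc2)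
    obtain ⟨α, hα, β, hβ, hαβ⟩ := Submodule.mem_sup.1 hcw
    have hb'0 : X b' ⊆ X b0 := hX hb'b0
    refine ⟨β, ⟨hz1, hz2⟩, ⟨CS_mono (inter_subset_inter_right _ hb'0) hβ, ?_⟩, ?_⟩
    · -- the boundary of `β`
      have h3 : bdE E β = bdE E (φF z') - bdE E α := by
        have : β = φF z' + bdE E w - α := by rw [← hαβ]; abel
        rw [this, map_sub, map_add, bd_bdE, add_zero]
      have h4 : bdE E β ∈ CS (X b' ∩ P) := by
        rw [h3]; exact sub_mem hc2 (bd_mem_CS _ hα)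
      have h5 : bdE E β ∈ CS (X b' ∩ P) ⊓ CS (U ∩ X b') := ⟨h4, bd_mem_CS _ hβ⟩
      rw [SplitR2x737.CS_inf] at h5
      have h6 : (X b' ∩ P) ∩ (U ∩ X b') ⊆ U ∩ X b0 ∩ P :=
        fun y hy => ⟨⟨hy.2.1, hb'0 hy.1.1⟩, hy.1.2⟩
      exact CS_mono h6 h5
    · -- `z - β` is a relative boundary
      have e1 : z' = φF z' + bdE E (PF z') + PF (bdE E z') := by
        rw [hF_1 z' hz']
        have : φF z' + (z' + φF z' + PF (bdE E z')) + PF (bdE E z') =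
          z' + (φF z' + φF z') + (PF (bdE E z') + PF (bdE E z')) := by abel
        rw [this, add_cancel', add_cancel', add_zero, add_zero]
      have hPz : PF z' ∈ CS (X b') := hF_3 _ _ subset_rfl (fun y hy r hr => hFX y hy r hr) z' hz'
      have hPbz : PF (bdE E z') ∈ CS (X a') :=
        hF_3 _ _ (hX ha'b') (fun y hy r hr => hFA y hy r hr) _ hbz'a
      rw [mem_Bp]
      refine ⟨u + PF z' - w, sub_mem (add_mem (CS_mono (hX hbb) hu) (CS_mono hb'0 hPz))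
        (CS_mono ?_ hw), ?_⟩
      · rintro y (hy | hy)
        · exact hb'0 hy.1
        · exact hb'0 hy.2
      · have e2 : z - β - bdE E (u + PF z' - w) = α + PF (bdE E z') := by
          have h6 : z = z' + bdE E u := by rw [hz'def]; abel
          have h7 : φF z' = α + β - bdE E w := by rw [hαβ]; abel
          have h8 : z = α + β - bdE E w + bdE E (PF z') + PF (bdE E z') + bdE E u := by
            rw [← h7, ← e1]; exact h6
          rw [map_sub, map_add, sub_sub, sub_eq_iff_eq_add]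
          refine h8.trans ?_
          abel
        rw [e2]
        have h8 : X b' ∩ P ⊆ X b0 ∩ P := fun y hy => ⟨hb'0 hy.1, hy.2⟩
        have h9 : X a' ⊆ X b0 ∩ P := fun y hy => ⟨hb'0 (hX ha'b' hy), hXP a' ha's hy⟩
        exact add_mem (CS_mono h8 hα) (CS_mono h9 hPbz)
  · rintro z x ⟨h1, h2, h3⟩ hx
    refine hinj z h1 ?_
    have : z = z - x + x := by abel
    rw [this]
    refine add_mem h3 ?_
    exact Bp_mono subset_rfl subset_rfl hx

/-- **from the level set `XL` (not open) to the open set `P`**: `G` is a homotopy of `Y` into itself which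
preserves `P`, fixes `K` in the weak sense `hst`, and maps `P` into `XL` at time `1`; `XL ⊆ P`. -/
theorem SR_open {Y P XL K : Set E} {C : ℕ} (hSR : SR Y XL K C) (G : E → ℝ → E)
    (hG : ContinuousOn (fun p : E × ℝ => G p.1 p.2) (Y ×ˢ Icc 0 1)) (hG0 : ∀ y ∈ Y, G y 0 = y)
    (hGY : ∀ y ∈ Y, ∀ r ∈ Icc (0 : ℝ) 1, G y r ∈ Y)
    (hGP : ∀ y ∈ Y ∩ P, ∀ r ∈ Icc (0 : ℝ) 1, G y r ∈ P) (hXP : Y ∩ XL ⊆ P)
    (hG1 : ∀ y ∈ Y ∩ P, G y 1 ∈ XL)
    (hst : ∀ U : Set E, IsOpen U → K ⊆ U → ∃ V : Set E, IsOpen V ∧ K ⊆ V ∧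
      ∀ y ∈ V ∩ Y, ∀ r ∈ Icc (0 : ℝ) 1, G y r ∈ U) : SR Y P K C := by
  intro U' hU' hKU'
  obtain ⟨U, hU, hKU, hUU', hr⟩ := hSR U' hU' hKU'
  obtain ⟨V, hV, hKV, hVU⟩ := hst U hU hKU
  have hVU1 : V ∩ Y ⊆ U := fun y hy => by
    have := hVU y hy 0 ⟨le_rfl, zero_le_one⟩
    rwa [hG0 y hy.2] at this
  obtain ⟨φ, Q, h1, h2, h3, h4, -, -⟩ := deform (A := Y) G hG hG0
  refine ⟨V ∩ U', hV.inter hU', subset_inter hKV hKU', inter_subset_right, ?_⟩
  have m1 : V ∩ U' ∩ Y ⊆ Y := inter_subset_right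
  refine RkLE.of_map φ ?_ ?_ hr
  · rintro z ⟨hz1, hz2⟩
    have hz2' : bdE E z ∈ CS (V ∩ U' ∩ Y ∩ P) := hz2
    have k1 : ∀ y ∈ V ∩ U' ∩ Y, G y 1 ∈ U ∩ Y := fun y hy =>
      ⟨hVU y ⟨hy.1.1, hy.2⟩ 1 ⟨zero_le_one, le_rfl⟩, hGY y hy.2 1 ⟨zero_le_one, le_rfl⟩⟩
    have k2 : ∀ y ∈ V ∩ U' ∩ Y ∩ P, G y 1 ∈ U ∩ Y ∩ XL := fun y hy =>
      ⟨k1 y hy.1, hG1 y ⟨hy.1.2, hy.2⟩⟩
    have k3 : bdE E (φ z) ∈ CS (U ∩ Y ∩ XL) := by
      rw [h2 z (CS_mono m1 hz1)]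
      exact h4 _ _ (inter_subset_left.trans m1) k2 _ hz2'
    exact ⟨h4 _ _ m1 k1 z hz1, k3⟩
  · rintro z ⟨hz1, hz2⟩ hB
    have hz2' : bdE E z ∈ CS (V ∩ U' ∩ Y ∩ P) := hz2
    have hzY : z ∈ CS Y := CS_mono m1 hz1
    have e1 : z = φ z + bdE E (Q z) + Q (bdE E z) := by
      rw [h1 z hzY]
      have : φ z + (z + φ z + Q (bdE E z)) + Q (bdE E z) =
        z + (φ z + φ z) + (Q (bdE E z) + Q (bdE E z)) := by abel
      rw [this, add_cancel', add_cancel', add_zero, add_zero]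
    have k1 : ∀ y ∈ V ∩ U' ∩ Y, ∀ r ∈ Icc (0 : ℝ) 1, G y r ∈ U' ∩ Y := fun y hy r hr =>
      ⟨hUU' (hVU y ⟨hy.1.1, hy.2⟩ r hr), hGY y hy.2 r hr⟩
    have k2 : ∀ y ∈ V ∩ U' ∩ Y ∩ P, ∀ r ∈ Icc (0 : ℝ) 1, G y r ∈ U' ∩ Y ∩ P := fun y hy r hr =>
      ⟨k1 y hy.1 r hr, hGP y ⟨hy.1.2, hy.2⟩ r hr⟩
    have hQ : Q z ∈ CS (U' ∩ Y) := h3 _ _ m1 k1 z hz1
    have hQb : Q (bdE E z) ∈ CS (U' ∩ Y ∩ P) := h3 _ _ (inter_subset_left.trans m1) k2 _ hz2'
    have h5 : U' ∩ Y ∩ XL ⊆ U' ∩ Y ∩ P := fun y hy => ⟨hy.1, hXP ⟨hy.1.2, hy.2⟩⟩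
    have h6 : φ z ∈ Bp (U' ∩ Y) (U' ∩ Y ∩ P) := Bp_mono subset_rfl h5 hB
    rw [e1]
    refine add_mem (add_mem h6 ?_) ?_
    · exact Submodule.mem_sup_right ⟨_, hQ, rfl⟩
    · exact Submodule.mem_sup_left hQb


end Crest.Agent.R231.GMPush136
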