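import Crest.Agent.R231.GMDefs_898
import Crest.Agent.R231.FinDim_315

/-!
# Row 231, block GM (helper898): finite rank of pairs, compact inside open

* `rkLE_of_finite_HS` : `H(A)` finite dimensional ⟹ rank bound for the absolute pair
* `rkP_of_finite` : pair `(O, V)` with finite dimensional `H(O)`, `H(V)`
* `exists_rkP_compact` : `Y ⊆ K ⊆ O`, `B ⊆ L ⊆ V ⊆ O`, `K L` compact, `O V` open in a normed space ⟹
  `∃ C, RkP Y B O V C`
-/

set_option autoImplicit false

noncomputable section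

open Topology Set

namespace Crest.Agent.R231.GM898

open Crest.Agent.R204 Crest.Agent.R231.Pairx877 Crest.Agent.R231.FinDim315

variable {E : Type} [TopologicalSpace E]

/-- rank bound from finite dimensionality of the homology of an endomorphism -/
theorem rkLE_ker_range {M : Type*} [AddCommGroup M] [Module F2 M] (d : M →ₗ[F2] M)
    (h : Module.Finite F2 (Hd d)) : ∃ C, RkLE (LinearMap.ker d) (LinearMap.range d) C := by
  refine RkLE.of_finite ?_
  -- a surjection from `Hd d`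
  let f : Hd d →ₗ[F2] ((LinearMap.ker d).map (LinearMap.range d).mkQ) :=
    Submodule.liftQ _ (((LinearMap.range d).mkQ ∘ₗ (LinearMap.ker d).subtype).codRestrict _
      (fun x => ⟨x, x.2, rfl⟩)) (by
        intro x hx
        rw [LinearMap.mem_ker]
        refine Subtype.ext ?_
        show (LinearMap.range d).mkQ (x : M) = 0
        rw [Submodule.mkQ_apply, Submodule.Quotient.mk_eq_zero]
        exact hx)
  refine Module.Finite.of_surjective f ?_
  rintro ⟨_, x, hx, rfl⟩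
  exact ⟨Submodule.Quotient.mk ⟨x, hx⟩, rfl⟩

theorem rkLE_of_finite_HS {A : Set E} (h : Module.Finite F2 (HS A)) :
    ∃ C, RkLE (Zp A (∅ : Set E)) (Bp A ∅) C := by
  obtain ⟨C, hC⟩ := rkLE_ker_range (bdE A) h
  refine ⟨C, RkLE.of_map (res A) ?_ ?_ hC⟩
  · rintro z ⟨hz1, hz2⟩
    have hz3 : bdE E z = 0 := by
      have : bdE E z ∈ CS (∅ : Set E) := hz2
      rw [CS_empty] at this
      exact (Submodule.mem_bot F2).1 this
    rw [LinearMap.mem_ker, bd_res z hz1, hz3, map_zero]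
  · rintro z ⟨hz1, hz2⟩ ⟨w, hw⟩
    rw [mem_Bp]
    have h1 : N.map F2 (SS.SingMap (SpecA.inc A)) w ∈ CS A := by
      rw [CS_eq_range]; exact ⟨w, rfl⟩
    refine ⟨_, h1, ?_⟩
    have h2 : bdE E (N.map F2 (SS.SingMap (SpecA.inc A)) w) =
        N.map F2 (SS.SingMap (SpecA.inc A)) (bdE A w) := by
      have := LinearMap.congr_fun (N.map_bd (R := F2) (SS.SingMap (SpecA.inc A))) w
      exact this.symm
    rw [h2, hw, map_inc_res z hz1, sub_self]
    exact Submodule.zero_mem _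

theorem rkP_of_finite {O V : Set E} (hVO : V ⊆ O) (hO : Module.Finite F2 (HS O))
    (hV : Module.Finite F2 (HS V)) : ∃ C, RkP O V O V C := by
  obtain ⟨C1, h1⟩ := rkLE_of_finite_HS hV
  obtain ⟨C2, h2⟩ := rkLE_of_finite_HS hO
  refine ⟨C1 + C2, ?_⟩
  have h3 : RkLE (CS V ⊔ Zp O (∅ : Set E)) (Bp O V) C2 := by
    obtain ⟨w, hw⟩ := h2
    refine ⟨w, sup_le ?_ ?_⟩
    · exact le_trans (by exact le_sup_left) (le_sup_right (a := Submodule.span (ZMod 2) (Set.range w)))
    · refine hw.trans (sup_le_sup le_rfl ?_)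
      exact Bp_mono subset_rfl (empty_subset _)
  refine RkLE.add (Submodule.map (LinearMap.prod LinearMap.id (bdE E)) (Zp O V))
    (fun z hz => ⟨bdE E z, ⟨z, hz, rfl⟩⟩) ?_ (CS V ⊔ Zp O (∅ : Set E)) ?_ h1 h3
  · rintro z' a ⟨z, hz, e⟩
    have e2 : bdE E z = a := congrArg Prod.snd e
    rw [← e2]
    refine ⟨hz.2, ?_⟩
    show bdE E (bdE E z) ∈ CS (∅ : Set E)
    rw [bd_bdE]; exact Submodule.zero_mem _
  · rintro z' a ⟨z, hz, e⟩ ha
    have e1 : z = z' := congrArg Prod.fst e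
    have e2 : bdE E z = a := congrArg Prod.snd e
    subst e1
    rw [← e2, mem_Bp] at ha
    obtain ⟨w, hw, h4⟩ := ha
    have h5 : bdE E (z - w) = 0 := by
      rw [CS_empty] at h4
      rw [map_sub]
      exact (Submodule.mem_bot F2).1 h4
    have h6 : z = w + (z - w) := by abel
    rw [h6]
    refine Submodule.add_mem_sup hw ⟨Submodule.sub_mem _ hz.1 (CS_mono hVO hw), ?_⟩
    show bdE E (z - w) ∈ CS (∅ : Set E)
    rw [h5]; exact Submodule.zero_mem _

end Crest.Agent.R231.GM898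

namespace Crest.Agent.R231.GM898

open Crest.Agent.R204 Crest.Agent.R231.Pairx877 Crest.Agent.R231.FinDim315

variable {E : Type} [NormedAddCommGroup E] [NormedSpace ℝ E]

/-- **finite rank**, compact pair inside open pair -/
theorem exists_rkP_compact {K L O V Y B : Set E} (hK : IsCompact K) (hL : IsCompact L)
    (hO : IsOpen O) (hV : IsOpen V) (hVO : V ⊆ O) (hKO : K ⊆ O) (hLV : L ⊆ V) (hY : Y ⊆ K)
    (hB : B ⊆ L) : ∃ C, RkP Y B O V C := by
  obtain ⟨L2, b1, b2, b3, b4⟩ := exists_un hL hV hLV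
  obtain ⟨L1, a1, a2, a3, a4⟩ := exists_un hK hO hKO
  have c1 : ∀ U ∈ L1 ++ L2, IsOpen U := fun U hU => by
    rcases List.mem_append.1 hU with h | h
    · exact a1 U h
    · exact b1 U h
  have c2 : ∀ U ∈ L1 ++ L2, Convex ℝ U := fun U hU => by
    rcases List.mem_append.1 hU with h | h
    · exact a2 U h
    · exact b2 U h
  have f1 : Module.Finite F2 (HS (un (L1 ++ L2))) := finite_un _ _ rfl c1 c2
  have f2 : Module.Finite F2 (HS (un L2)) := finite_un _ _ rfl b1 b2
  have s1 : un L2 ⊆ un (L1 ++ L2) := fun x hx => by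
    obtain ⟨U, hU, hx⟩ := mem_un.1 hx
    exact mem_un.2 ⟨U, List.mem_append.2 (Or.inr hU), hx⟩
  have s2 : un L1 ⊆ un (L1 ++ L2) := fun x hx => by
    obtain ⟨U, hU, hx⟩ := mem_un.1 hx
    exact mem_un.2 ⟨U, List.mem_append.2 (Or.inl hU), hx⟩
  have s3 : un (L1 ++ L2) ⊆ O := fun x hx => by
    obtain ⟨U, hU, hx⟩ := mem_un.1 hx
    rcases List.mem_append.1 hU with h | h
    · exact a4 (mem_un.2 ⟨U, h, hx⟩)
    · exact hVO (b4 (mem_un.2 ⟨U, h, hx⟩))
  obtain ⟨C, hC⟩ := rkP_of_finite s1 f1 f2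
  exact ⟨C, hC.mono ((hY.trans a3).trans s2) (hB.trans b3) s3 b4 le_rfl⟩

end Crest.Agent.R231.GM898
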