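import Mathlib

/-!
# Row 231, block GM, leaf B1 (helper888), part A: the analysis of the saddle lemma

`F : X × (ι → ℝ) → ℝ`, `w i = ±1`; `SadBox F w U ρ` says that for `x ∈ U`, `‖y‖ ≤ ρ` the function
`F (x, ·)` is differentiable with `D_yF(x,y) v = ∑ w i * y i * v i + (error ≤ ‖y‖‖v‖/2)`.

* `upper`, `lower` : `F (x,y)` compared with `F (x,0)`;
* `flow_le` : `F` decreases along `y i ↦ exp (- w i * t) * y i`;
* `St R w t` : the clamped flow; `St_neg` : it preserves `{F < 0}`; `push` : it pushes compact subsets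
  of `{F (x,0) < 0} ∪ {∃ i, w i < 0 ∧ y i ≠ 0}` into `{F < 0}`.
-/

set_option autoImplicit false
set_option linter.unusedSectionVars false

noncomputable section

open Set Filter Topology

namespace Crest.Agent.R231.GMSadAx888

variable {X ι : Type} [Fintype ι]

/-- the local hypothesis of the saddle lemma -/
structure SadBox (F : X × (ι → ℝ) → ℝ) (w : ι → ℝ) (U : Set X) (ρ : ℝ) : Prop where
  w_or : ∀ i, w i = -1 ∨ w i = 1
  der : ∀ x ∈ U, ∀ y : ι → ℝ, ‖y‖ ≤ ρ → ∃ G : (ι → ℝ) →L[ℝ] ℝ,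
    HasFDerivAt (fun y => F (x, y)) G y ∧
      ∀ v, |G v - ∑ i, w i * y i * v i| ≤ (1 / 2) * ‖y‖ * ‖v‖

theorem norm_sq_le_sum (y : ι → ℝ) : ‖y‖ * ‖y‖ ≤ ∑ i, y i * y i := by
  rcases isEmpty_or_nonempty ι with h | h
  · have : y = 0 := Subsingleton.elim _ _
    subst this
    simp
  · obtain ⟨i, hi⟩ := exists_norm_apply_eq_norm y
    rw [← hi, Real.norm_eq_abs, abs_mul_abs_self]
    exact Finset.single_le_sum (f := fun i => y i * y i) (fun j _ => mul_self_nonneg (y j))
      (Finset.mem_univ i)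
where
  exists_norm_apply_eq_norm [Nonempty ι] (y : ι → ℝ) : ∃ i, ‖y i‖ = ‖y‖ := by
    obtain ⟨i, -, hi⟩ := Finset.exists_mem_eq_sup' (Finset.univ_nonempty (α := ι)) (fun i => ‖y i‖)
    refine ⟨i, le_antisymm (norm_le_pi_norm y i) ?_⟩
    rw [pi_norm_le_iff_of_nonneg (norm_nonneg _)]
    intro j
    rw [← hi]
    exact Finset.le_sup' (f := fun i => ‖y i‖) (Finset.mem_univ j)

namespace SadBox

variable {F : X × (ι → ℝ) → ℝ} {w : ι → ℝ} {U : Set X} {ρ : ℝ}

theorem w_sq (h : SadBox F w U ρ) (i : ι) : w i * w i = 1 := by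
  rcases h.w_or i with h | h <;> rw [h] <;> norm_num

theorem line (h : SadBox F w U ρ) {x : X} (hx : x ∈ U) {y : ι → ℝ} (hy : ‖y‖ ≤ ρ) {s : ℝ}
    (hs0 : 0 ≤ s) (hs1 : s ≤ 1) : ∃ D : ℝ, HasDerivAt (fun s : ℝ => F (x, s • y)) D s ∧
      |D - s * ∑ i, w i * y i * y i| ≤ (1 / 2) * s * (‖y‖ * ‖y‖) := by
  have hn : ‖s • y‖ ≤ ρ := by
    rw [norm_smul, Real.norm_of_nonneg hs0]
    calc s * ‖y‖ ≤ 1 * ‖y‖ := mul_le_mul_of_nonneg_right hs1 (norm_nonneg _)
      _ ≤ ρ := by rw [one_mul]; exact hy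
  obtain ⟨G, hG, hG'⟩ := h.der x hx (s • y) hn
  refine ⟨G y, ?_, ?_⟩
  · have h1 : HasDerivAt (fun s : ℝ => s • y) y s := by
      simpa using (hasDerivAt_id s).smul_const y
    exact hG.comp_hasDerivAt s h1
  · have h2 := hG' y
    rw [norm_smul, Real.norm_of_nonneg hs0] at h2
    have h3 : ∑ i, w i * (s • y) i * y i = s * ∑ i, w i * y i * y i := by
      rw [Finset.mul_sum]
      refine Finset.sum_congr rfl fun i _ => ?_
      simp only [Pi.smul_apply, smul_eq_mul]; ring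
    rw [h3] at h2
    calc _ ≤ _ := h2
      _ = _ := by ring

theorem upper (h : SadBox F w U ρ) {x : X} (hx : x ∈ U) {y : ι → ℝ} (hy : ‖y‖ ≤ ρ) :
    F (x, y) ≤ F (x, 0) + (1 / 2) * (∑ i, w i * y i * y i + (1 / 2) * (‖y‖ * ‖y‖)) := by
  set K : ℝ := ∑ i, w i * y i * y i + (1 / 2) * (‖y‖ * ‖y‖) with hK
  choose! D hD hD' using fun (s : ℝ) (hs : 0 ≤ s ∧ s ≤ 1) => h.line hx hy hs.1 hs.2
  have h1 : AntitoneOn (fun s : ℝ => F (x, s • y) - s ^ 2 / 2 * K) (Icc (0 : ℝ) 1) := by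
    have hder : ∀ s ∈ Icc (0 : ℝ) 1, HasDerivAt (fun s : ℝ => F (x, s • y) - s ^ 2 / 2 * K)
        (D s - s * K) s := by
      intro s hs
      have h2 : HasDerivAt (fun s : ℝ => s ^ 2 / 2 * K) (s * K) s := by
        have := (((hasDerivAt_id s).pow 2).div_const 2).mul_const K
        refine this.congr_deriv ?_
        simp
      exact (hD s hs).sub h2
    refine antitoneOn_of_deriv_nonpos (convex_Icc _ _)
      (fun s hs => (hder s hs).continuousAt.continuousWithinAt)
      (fun s hs => (hder s (interior_subset hs)).differentiableAt.differentiableWithinAt) ?_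
    intro s hs
    have hs' := interior_subset hs
    rw [(hder s hs').deriv]
    have h3 := (abs_le.1 (hD' s hs')).2
    have h4 : s * K = s * ∑ i, w i * y i * y i + 1 / 2 * s * (‖y‖ * ‖y‖) := by
      rw [hK]; ring
    rw [h4]
    linarith
  have h5 := h1 (left_mem_Icc.2 zero_le_one) (right_mem_Icc.2 zero_le_one) zero_le_one
  simp only [one_smul, zero_smul] at h5
  norm_num at h5
  linarith

theorem lower (h : SadBox F w U ρ) {x : X} (hx : x ∈ U) {y : ι → ℝ} (hy : ‖y‖ ≤ ρ) :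
    F (x, 0) + (1 / 2) * (∑ i, w i * y i * y i - (1 / 2) * (‖y‖ * ‖y‖)) ≤ F (x, y) := by
  set K : ℝ := ∑ i, w i * y i * y i - (1 / 2) * (‖y‖ * ‖y‖) with hK
  choose! D hD hD' using fun (s : ℝ) (hs : 0 ≤ s ∧ s ≤ 1) => h.line hx hy hs.1 hs.2
  have h1 : MonotoneOn (fun s : ℝ => F (x, s • y) - s ^ 2 / 2 * K) (Icc (0 : ℝ) 1) := by
    have hder : ∀ s ∈ Icc (0 : ℝ) 1, HasDerivAt (fun s : ℝ => F (x, s • y) - s ^ 2 / 2 * K)
        (D s - s * K) s := by
      intro s hs
      have h2 : HasDerivAt (fun s : ℝ => s ^ 2 / 2 * K) (s * K) s := by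
        have := (((hasDerivAt_id s).pow 2).div_const 2).mul_const K
        refine this.congr_deriv ?_
        simp
      exact (hD s hs).sub h2
    refine monotoneOn_of_deriv_nonneg (convex_Icc _ _)
      (fun s hs => (hder s hs).continuousAt.continuousWithinAt)
      (fun s hs => (hder s (interior_subset hs)).differentiableAt.differentiableWithinAt) ?_
    intro s hs
    have hs' := interior_subset hs
    rw [(hder s hs').deriv]
    have h3 := (abs_le.1 (hD' s hs')).1
    have h4 : s * K = s * ∑ i, w i * y i * y i - 1 / 2 * s * (‖y‖ * ‖y‖) := by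
      rw [hK]; ring
    rw [h4]
    linarith
  have h5 := h1 (left_mem_Icc.2 zero_le_one) (right_mem_Icc.2 zero_le_one) zero_le_one
  simp only [one_smul, zero_smul] at h5
  norm_num at h5
  linarith

/-- the linear flow -/
def Tt (w : ι → ℝ) (t : ℝ) (y : ι → ℝ) : ι → ℝ := fun i => Real.exp (-w i * t) * y i

theorem flow_le (h : SadBox F w U ρ) {x : X} (hx : x ∈ U) {y : ι → ℝ} {t : ℝ} (ht : 0 ≤ t)
    (hy : ∀ s ∈ Icc 0 t, ‖Tt w s y‖ ≤ ρ) : F (x, Tt w t y) ≤ F (x, y) := by
  choose! G hG hG' using fun (s : ℝ) (hs : s ∈ Icc 0 t) => h.der x hx (Tt w s y) (hy s hs)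
  have hT : ∀ s, HasDerivAt (fun s => Tt w s y) (fun i => -w i * Tt w s y i) s := by
    intro s
    rw [hasDerivAt_pi]
    intro i
    have h1 : HasDerivAt (fun s : ℝ => -w i * s) (-w i) s := by
      simpa using (hasDerivAt_id s).const_mul (-w i)
    have h2 := (h1.exp).mul_const (y i)
    refine h2.congr_deriv ?_
    simp only [Tt]; ring
  have hder : ∀ s ∈ Icc 0 t, HasDerivAt (fun s : ℝ => F (x, Tt w s y))
      (G s (fun i => -w i * Tt w s y i)) s := fun s hs => by
    have h9 := HasFDerivAt.comp_hasDerivAt s (hG s hs) (hT s)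
    exact h9
  have h1 : AntitoneOn (fun s : ℝ => F (x, Tt w s y)) (Icc (0 : ℝ) t) := by
    refine antitoneOn_of_deriv_nonpos (convex_Icc _ _)
      (fun s hs => (hder s hs).continuousAt.continuousWithinAt)
      (fun s hs => (hder s (interior_subset hs)).differentiableAt.differentiableWithinAt) ?_
    intro s hs
    have hs' := interior_subset hs
    rw [(hder s hs').deriv]
    have h3 := (abs_le.1 (hG' s hs' (fun i => -w i * Tt w s y i))).2
    have h4 : ∑ i, w i * Tt w s y i * (-w i * Tt w s y i) = -∑ i, Tt w s y i * Tt w s y i := by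
      rw [← Finset.sum_neg_distrib]
      refine Finset.sum_congr rfl fun i _ => ?_
      have := h.w_sq i
      linear_combination (-(Tt w s y i * Tt w s y i)) * this
    have h5 : ‖(fun i => -w i * Tt w s y i)‖ ≤ ‖Tt w s y‖ := by
      rw [pi_norm_le_iff_of_nonneg (norm_nonneg _)]
      intro i
      have h6 : |w i| = 1 := by rcases h.w_or i with h | h <;> rw [h] <;> simp
      rw [norm_mul, Real.norm_eq_abs, abs_neg, h6, one_mul]
      exact norm_le_pi_norm _ i
    have h7 := norm_sq_le_sum (Tt w s y)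
    have h8 : 1 / 2 * ‖Tt w s y‖ * ‖(fun i => -w i * Tt w s y i)‖ ≤
        1 / 2 * (‖Tt w s y‖ * ‖Tt w s y‖) := by
      have := mul_le_mul_of_nonneg_left h5 (norm_nonneg (Tt w s y))
      nlinarith
    rw [h4] at h3
    nlinarith [norm_nonneg (Tt w s y), mul_self_nonneg ‖Tt w s y‖]
  have h5 := h1 (left_mem_Icc.2 ht) (right_mem_Icc.2 ht) ht
  have h6 : Tt w 0 y = y := by
    funext i; simp [Tt]
  simpa only [h6] using h5

/-- upper bound with a diagonal form -/
theorem upper' (h : SadBox F w U ρ) {x : X} (hx : x ∈ U) {y : ι → ℝ} (hy : ‖y‖ ≤ ρ) :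
    F (x, y) ≤ F (x, 0) + (1 / 2) * ∑ i, (w i + 1 / 2) * (y i * y i) := by
  have h1 := h.upper hx hy
  have h2 := norm_sq_le_sum y
  have h3 : ∑ i, (w i + 1 / 2) * (y i * y i) =
      ∑ i, w i * y i * y i + (1 / 2) * ∑ i, y i * y i := by
    rw [Finset.mul_sum, ← Finset.sum_add_distrib]
    exact Finset.sum_congr rfl fun i _ => by ring
  rw [h3]
  linarith

/-- lower bound with a diagonal form -/
theorem lower' (h : SadBox F w U ρ) {x : X} (hx : x ∈ U) {y : ι → ℝ} (hy : ‖y‖ ≤ ρ) :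
    F (x, 0) + (1 / 2) * ∑ i, (w i - 1 / 2) * (y i * y i) ≤ F (x, y) := by
  have h1 := h.lower hx hy
  have h2 := norm_sq_le_sum y
  have h3 : ∑ i, (w i - 1 / 2) * (y i * y i) =
      ∑ i, w i * y i * y i - (1 / 2) * ∑ i, y i * y i := by
    rw [Finset.mul_sum, ← Finset.sum_sub_distrib]
    exact Finset.sum_congr rfl fun i _ => by ring
  rw [h3]
  linarith

end SadBox

/-- the box -/
def Bx (w : ι → ℝ) (r R : ℝ) : Set (ι → ℝ) := {y | ∀ i, |y i| ≤ if w i < 0 then R else r}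

/-- the clamped flow -/
def St (R : ℝ) (w : ι → ℝ) (t : ℝ) (y : ι → ℝ) : ι → ℝ :=
  fun i => if w i < 0 then max (-R) (min R (Real.exp t * y i)) else Real.exp (-t) * y i

theorem Bx_norm {w : ι → ℝ} {r R ρ : ℝ} (hρ : 0 ≤ ρ) (hr : r ≤ ρ) (hR : R ≤ ρ) {y : ι → ℝ}
    (hy : y ∈ Bx w r R) : ‖y‖ ≤ ρ := by
  rw [pi_norm_le_iff_of_nonneg hρ]
  intro i
  have := hy i
  rw [Real.norm_eq_abs]
  split_ifs at this with h
  · exact this.trans hR
  · exact this.trans hr

theorem abs_clamp_le {R a : ℝ} (hR : 0 ≤ R) : |max (-R) (min R a)| ≤ R := by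
  rw [abs_le]
  exact ⟨le_max_left _ _, max_le (by linarith) (min_le_left _ _)⟩

theorem clamp_of_le {R a : ℝ} (h : |a| ≤ R) : max (-R) (min R a) = a := by
  have := abs_le.1 h
  rw [min_eq_right this.2, max_eq_right this.1]

theorem abs_clamp_of_ge {R a : ℝ} (hR : 0 ≤ R) (h : R ≤ |a|) : |max (-R) (min R a)| = R := by
  rcases le_abs.1 h with h | h
  · rw [min_eq_left h, max_eq_right (by linarith), abs_of_nonneg hR]
  · rw [min_eq_right (by linarith), max_eq_left (by linarith), abs_neg, abs_of_nonneg hR]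

theorem St_continuous (R : ℝ) (w : ι → ℝ) : Continuous fun p : ℝ × (ι → ℝ) => St R w p.1 p.2 := by
  refine continuous_pi fun i => ?_
  unfold St
  by_cases h : w i < 0
  · simp only [h, if_true]
    fun_prop
  · simp only [h, if_false]
    fun_prop

theorem St_zero {R : ℝ} {w : ι → ℝ} {y : ι → ℝ} (hy : ∀ i, w i < 0 → |y i| ≤ R) :
    St R w 0 y = y := by
  funext i
  unfold St
  split_ifs with h
  · rw [Real.exp_zero, one_mul, clamp_of_le (hy i h)]
  · rw [neg_zero, Real.exp_zero, one_mul]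

/-- `St` maps the box to itself -/
theorem St_mem_Bx {w : ι → ℝ} {r R : ℝ} (hR : 0 ≤ R) {y : ι → ℝ} (hy : y ∈ Bx w r R) {t : ℝ}
    (ht : 0 ≤ t) : St R w t y ∈ Bx w r R := by
  intro i
  have h1 := hy i
  unfold St
  split_ifs at h1 ⊢ with h
  · exact abs_clamp_le hR
  · rw [abs_mul, abs_of_pos (Real.exp_pos _)]
    have h2 : Real.exp (-t) ≤ 1 := Real.exp_le_one_iff.2 (by linarith)
    calc _ ≤ 1 * |y i| := mul_le_mul_of_nonneg_right h2 (abs_nonneg _)
      _ ≤ r := by rw [one_mul]; exact h1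

variable {F : X × (ι → ℝ) → ℝ} {w : ι → ℝ} {U : Set X} {ρ : ℝ}

/-- constants of the box -/
structure Consts (ι : Type) [Fintype ι] (ρ r R : ℝ) : Prop where
  r_pos : 0 < r
  R_pos : 0 < R
  r_le : r ≤ ρ
  R_le : R ≤ ρ
  small : 6 * (Fintype.card ι : ℝ) * (r * r) ≤ R * R

theorem exists_consts (ι : Type) [Fintype ι] {ρ : ℝ} (hρ : 0 < ρ) :
    ∃ r, Consts ι ρ r ρ := by
  set c : ℝ := 6 * (Fintype.card ι : ℝ) with hc
  have hc0 : 0 ≤ c := by positivity
  refine ⟨ρ / (c + 1), by positivity, hρ, ?_, le_rfl, ?_⟩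
  · rw [div_le_iff₀ (by positivity)]
    nlinarith
  · rw [← hc]
    have h1 : ρ / (c + 1) * (ρ / (c + 1)) = ρ * ρ / ((c + 1) * (c + 1)) := by
      field_simp
    rw [h1, ← mul_div_assoc, div_le_iff₀ (by positivity)]
    have : c ≤ (c + 1) * (c + 1) := by nlinarith
    nlinarith [mul_self_nonneg ρ]

theorem neg_of_wall (h : SadBox F w U ρ) {r R : ℝ} (C : Consts ι ρ r R) {x : X} (hx : x ∈ U)
    (hF : F (x, 0) < R * R / 8) {y : ι → ℝ} (hy : y ∈ Bx w r R) {i : ι} (hi : w i < 0)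
    (hyi : |y i| = R) : F (x, y) < 0 := by
  classical
  have hρ : 0 ≤ ρ := C.r_pos.le.trans C.r_le
  have h1 := h.upper' hx (Bx_norm hρ C.r_le C.R_le hy)
  have h2 : ∀ j, (w j + 1 / 2) * (y j * y j) ≤
      (3 / 2) * (r * r) - (if j = i then (1 / 2) * (R * R) else 0) := by
    intro j
    have h3 := hy j
    split_ifs with e
    · subst e
      have h4 : w j = -1 := by
        rcases h.w_or j with h | h
        · exact h
        · rw [h] at hi; norm_num at hi
      have h5 : y j * y j = R * R := by rw [← hyi, abs_mul_abs_self]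
      rw [h4, h5]
      nlinarith [mul_self_nonneg r]
    · rcases h.w_or j with h4 | h4
      · rw [h4]
        nlinarith [mul_self_nonneg r, mul_self_nonneg (y j)]
      · rw [h4, if_neg (by norm_num)] at h3
        rw [h4]
        have h5 : y j * y j ≤ r * r := by
          rw [← abs_mul_abs_self (y j)]
          exact mul_self_le_mul_self (abs_nonneg _) h3
        nlinarith
  have h6 : ∑ j, (w j + 1 / 2) * (y j * y j) ≤
      (Fintype.card ι : ℝ) * ((3 / 2) * (r * r)) - (1 / 2) * (R * R) := by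
    calc _ ≤ ∑ j, ((3 / 2) * (r * r) - (if j = i then (1 / 2) * (R * R) else 0)) :=
          Finset.sum_le_sum fun j _ => h2 j
      _ = _ := by
          rw [Finset.sum_sub_distrib, Finset.sum_const, Finset.card_univ, nsmul_eq_mul,
            Finset.sum_ite_eq' Finset.univ i, if_pos (Finset.mem_univ i)]
  have h7 := C.small
  have h8 : 0 < R * R := mul_pos C.R_pos C.R_pos
  nlinarith

/-- **forward invariance** of `{F < 0}` under the clamped flow -/
theorem St_neg (h : SadBox F w U ρ) {r R : ℝ} (C : Consts ι ρ r R) {x : X} (hx : x ∈ U)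
    (hF : F (x, 0) < R * R / 8) {y : ι → ℝ} (hy : y ∈ Bx w r R) {t : ℝ} (ht : 0 ≤ t)
    (hneg : F (x, y) < 0) : F (x, St R w t y) < 0 := by
  by_cases hw : ∃ i, w i < 0 ∧ R ≤ |Real.exp t * y i|
  · obtain ⟨i, hi, hi'⟩ := hw
    refine neg_of_wall h C hx hF (St_mem_Bx C.R_pos.le hy ht) hi ?_
    unfold St
    rw [if_pos hi, abs_clamp_of_ge C.R_pos.le hi']
  · push Not at hw
    have hρ : 0 ≤ ρ := C.r_pos.le.trans C.r_le
    have h1 : St R w t y = SadBox.Tt w t y := by
      funext i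
      unfold St SadBox.Tt
      rcases h.w_or i with h4 | h4
      · have h5 : w i < 0 := by rw [h4]; norm_num
        rw [if_pos h5, clamp_of_le (hw i h5).le, h4, neg_neg, one_mul]
      · have h5 : ¬ w i < 0 := by rw [h4]; norm_num
        rw [if_neg h5, h4]
        norm_num
    rw [h1]
    refine (h.flow_le hx ht fun s hs => ?_).trans_lt hneg
    rw [pi_norm_le_iff_of_nonneg hρ]
    intro i
    unfold SadBox.Tt
    rw [Real.norm_eq_abs, abs_mul, abs_of_pos (Real.exp_pos _)]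
    have h3 := hy i
    rcases h.w_or i with h4 | h4
    · have h5 : w i < 0 := by rw [h4]; norm_num
      have h6 := hw i h5
      rw [abs_mul, abs_of_pos (Real.exp_pos _)] at h6
      rw [h4, neg_neg, one_mul]
      have h7 : Real.exp s ≤ Real.exp t := Real.exp_le_exp.2 hs.2
      calc _ ≤ Real.exp t * |y i| := mul_le_mul_of_nonneg_right h7 (abs_nonneg _)
        _ ≤ ρ := h6.le.trans C.R_le
    · rw [h4, if_neg (by norm_num)] at h3
      rw [h4]
      have h7 : Real.exp (-1 * s) ≤ 1 := Real.exp_le_one_iff.2 (by linarith [hs.1])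
      calc _ ≤ 1 * |y i| := mul_le_mul_of_nonneg_right h7 (abs_nonneg _)
        _ ≤ ρ := by rw [one_mul]; exact h3.trans C.r_le

/-- `{F < 0}` in the box is contained in `{F (x,0) < 0} ∪ {∃ i, w i < 0 ∧ y i ≠ 0}` -/
theorem neg_sub (h : SadBox F w U ρ) {x : X} (hx : x ∈ U) {y : ι → ℝ} (hy : ‖y‖ ≤ ρ)
    (hneg : F (x, y) < 0) : F (x, 0) < 0 ∨ ∃ i, w i < 0 ∧ y i ≠ 0 := by
  by_contra hcon
  push Not at hcon
  obtain ⟨h1, h2⟩ := hcon
  have h3 := h.lower' hx hy
  have h4 : 0 ≤ ∑ i, (w i - 1 / 2) * (y i * y i) := by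
    refine Finset.sum_nonneg fun i _ => ?_
    rcases h.w_or i with h4 | h4
    · rw [h2 i (by rw [h4]; norm_num)]; simp
    · rw [h4]
      have := mul_self_nonneg (y i)
      nlinarith
  linarith

/-- compact subsets of `{F (x,0) < 0} ∪ {∃ i, w i < 0 ∧ y i ≠ 0}` are pushed into `{F < 0}` -/
theorem push [TopologicalSpace X] (h : SadBox F w U ρ) {r R : ℝ} (C : Consts ι ρ r R)
    (hc : ContinuousOn (fun x => F (x, 0)) U) {K : Set (X × (ι → ℝ))} (hK : IsCompact K)
    (hKU : ∀ p ∈ K, p.1 ∈ U) (hKF : ∀ p ∈ K, F (p.1, 0) < R * R / 8)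
    (hM : ∀ p ∈ K, F (p.1, 0) < 0 ∨ ∃ i, w i < 0 ∧ p.2 i ≠ 0) :
    ∃ T0 : ℝ, ∀ t, T0 ≤ t → ∀ p ∈ K, F (p.1, St R w t p.2) < 0 := by
  rcases K.eq_empty_or_nonempty with rfl | hne
  · exact ⟨0, fun t _ p hp => hp.elim⟩
  have hρ : 0 ≤ ρ := C.r_pos.le.trans C.r_le
  -- a bound for `y` on `K`
  obtain ⟨M, hM0, hMb⟩ : ∃ M : ℝ, 0 ≤ M ∧ ∀ p ∈ K, ‖p.2‖ ≤ M := by
    obtain ⟨p0, -, hp0⟩ := hK.exists_isMaxOn hne (f := fun p => ‖p.2‖) (by fun_prop)
    exact ⟨‖p0.2‖, norm_nonneg _, fun p hp => hp0 hp⟩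
  -- a lower bound
  let ng : (ι → ℝ) → (ι → ℝ) := fun y i => if w i < 0 then y i else 0
  have hng : Continuous ng := by
    refine continuous_pi fun i => ?_
    by_cases hi : w i < 0
    · simp only [ng, hi, if_true]; fun_prop
    · simp only [ng, hi, if_false]; fun_prop
  have hφ : ContinuousOn (fun p : X × (ι → ℝ) => max (-F (p.1, 0)) ‖ng p.2‖) K := by
    refine ContinuousOn.sup ?_ ?_
    · exact (hc.comp continuous_fst.continuousOn hKU).neg
    · exact (hng.norm.comp continuous_snd).continuousOn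
  obtain ⟨p0, hp0, hmin⟩ := hK.exists_isMinOn hne hφ
  set δ : ℝ := max (-F (p0.1, 0)) ‖ng p0.2‖ with hδ
  have hδ0 : 0 < δ := by
    rcases hM p0 hp0 with h1 | ⟨i, hi, hi'⟩
    · exact lt_max_of_lt_left (by linarith)
    · refine lt_max_of_lt_right ?_
      have h2 : 0 < ‖ng p0.2 i‖ := by
        simp only [ng, hi, if_true]
        exact norm_pos_iff.2 hi'
      exact h2.trans_le (norm_le_pi_norm _ i)
  -- eventually
  have ht0 : Tendsto (fun t : ℝ => Real.exp (-t) * M) atTop (𝓝 0) := by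
    have := (Real.tendsto_exp_neg_atTop_nhds_zero).mul_const M
    rwa [zero_mul] at this
  have ev1 : ∀ᶠ t : ℝ in atTop, Real.exp (-t) * M < r := ht0.eventually (gt_mem_nhds C.r_pos)
  have ev2 : ∀ᶠ t : ℝ in atTop,
      (Fintype.card ι : ℝ) * ((Real.exp (-t) * M) * (Real.exp (-t) * M)) < δ := by
    have h1 : Tendsto (fun t : ℝ => (Fintype.card ι : ℝ) *
        ((Real.exp (-t) * M) * (Real.exp (-t) * M))) atTop (𝓝 0) := by
      have := (ht0.mul ht0).const_mul (Fintype.card ι : ℝ)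
      simpa using this
    exact h1.eventually (gt_mem_nhds hδ0)
  have ev3 : ∀ᶠ t : ℝ in atTop, R ≤ Real.exp t * δ :=
    (Real.tendsto_exp_atTop.atTop_mul_const hδ0).eventually_ge_atTop R
  obtain ⟨T0, hT0⟩ := eventually_atTop.1 (ev1.and (ev2.and ev3))
  refine ⟨T0, fun t ht p hp => ?_⟩
  obtain ⟨e1, e2, e3⟩ := hT0 t ht
  have hx := hKU p hp
  have hyM : ∀ i, |p.2 i| ≤ M := fun i => (norm_le_pi_norm p.2 i).trans (hMb p hp)
  have hbox : St R w t p.2 ∈ Bx w r R := by
    intro i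
    unfold St
    split_ifs with hi
    · exact abs_clamp_le C.R_pos.le
    · rw [abs_mul, abs_of_pos (Real.exp_pos _)]
      exact (mul_le_mul_of_nonneg_left (hyM i) (Real.exp_pos _).le).trans e1.le
  have hmin' : δ ≤ max (-F (p.1, 0)) ‖ng p.2‖ := hmin hp
  rcases le_max_iff.1 hmin' with h1 | h1
  · have h2 := h.upper' hx (Bx_norm hρ C.r_le C.R_le hbox)
    have h3 : ∑ i, (w i + 1 / 2) * (St R w t p.2 i * St R w t p.2 i) ≤
        (Fintype.card ι : ℝ) * ((3 / 2) * ((Real.exp (-t) * M) * (Real.exp (-t) * M))) := by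
      have h4 : ∀ i ∈ Finset.univ, (w i + 1 / 2) * (St R w t p.2 i * St R w t p.2 i) ≤
          (3 / 2) * ((Real.exp (-t) * M) * (Real.exp (-t) * M)) := by
        intro i _
        have h6 : 0 ≤ (Real.exp (-t) * M) * (Real.exp (-t) * M) := mul_self_nonneg _
        rcases h.w_or i with h5 | h5
        · rw [h5]
          nlinarith [mul_self_nonneg (St R w t p.2 i)]
        · rw [h5]
          have h7 : |St R w t p.2 i| ≤ Real.exp (-t) * M := by
            unfold St
            rw [if_neg (by rw [h5]; norm_num), abs_mul, abs_of_pos (Real.exp_pos _)]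
            exact mul_le_mul_of_nonneg_left (hyM i) (Real.exp_pos _).le
          have h8 : St R w t p.2 i * St R w t p.2 i ≤ (Real.exp (-t) * M) * (Real.exp (-t) * M) := by
            rw [← abs_mul_abs_self (St R w t p.2 i)]
            exact mul_self_le_mul_self (abs_nonneg _) h7
          nlinarith
      have := Finset.sum_le_card_nsmul Finset.univ _ _ h4
      rwa [Finset.card_univ, nsmul_eq_mul] at this
    nlinarith
  · have hpos : 0 < ‖ng p.2‖ := hδ0.trans_le h1
    have : Nonempty ι := by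
      by_contra hemp
      rw [not_nonempty_iff] at hemp
      have : ng p.2 = 0 := Subsingleton.elim _ _
      rw [this, norm_zero] at hpos
      exact lt_irrefl _ hpos
    obtain ⟨i, hi⟩ := norm_sq_le_sum.exists_norm_apply_eq_norm (ng p.2)
    have hwi : w i < 0 := by
      by_contra hwi
      have : ng p.2 i = 0 := by simp only [ng, hwi, if_false]
      rw [this, norm_zero] at hi
      linarith
    have h2 : δ ≤ |p.2 i| := by
      have : ng p.2 i = p.2 i := by simp only [ng, hwi, if_true]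
      rw [this, Real.norm_eq_abs] at hi
      rw [hi]; exact h1
    refine neg_of_wall h C hx (hKF p hp) hbox hwi ?_
    unfold St
    rw [if_pos hwi]
    refine abs_clamp_of_ge C.R_pos.le ?_
    rw [abs_mul, abs_of_pos (Real.exp_pos _)]
    exact e3.trans (mul_le_mul_of_nonneg_left h2 (Real.exp_pos _).le)

/-- compact sets are pushed into the box -/
theorem push_box {r R : ℝ} (hr : 0 < r) (hR : 0 ≤ R) [TopologicalSpace X] {K : Set (X × (ι → ℝ))}
    (hK : IsCompact K) : ∃ T0 : ℝ, ∀ t, T0 ≤ t → ∀ p ∈ K, St R w t p.2 ∈ Bx w r R := by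
  rcases K.eq_empty_or_nonempty with rfl | hne
  · exact ⟨0, fun t _ p hp => hp.elim⟩
  obtain ⟨M, hM0, hMb⟩ : ∃ M : ℝ, 0 ≤ M ∧ ∀ p ∈ K, ‖p.2‖ ≤ M := by
    obtain ⟨p0, -, hp0⟩ := hK.exists_isMaxOn hne (f := fun p => ‖p.2‖) (by fun_prop)
    exact ⟨‖p0.2‖, norm_nonneg _, fun p hp => hp0 hp⟩
  have ht0 : Tendsto (fun t : ℝ => Real.exp (-t) * M) atTop (𝓝 0) := by
    have := (Real.tendsto_exp_neg_atTop_nhds_zero).mul_const M
    rwa [zero_mul] at this
  have ev1 : ∀ᶠ t : ℝ in atTop, Real.exp (-t) * M < r := ht0.eventually (gt_mem_nhds hr)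
  obtain ⟨T0, hT0⟩ := eventually_atTop.1 ev1
  refine ⟨T0, fun t ht p hp i => ?_⟩
  have hyM : |p.2 i| ≤ M := (norm_le_pi_norm p.2 i).trans (hMb p hp)
  unfold St
  split_ifs with hi
  · exact abs_clamp_le hR
  · rw [abs_mul, abs_of_pos (Real.exp_pos _)]
    exact (mul_le_mul_of_nonneg_left hyM (Real.exp_pos _).le).trans (hT0 t ht).le

end Crest.Agent.R231.GMSadAx888
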