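import Crest.Agent.R231.GMDefs_898
import Crest.Agent.R231.Small_566
import Crest.Agent.R231.GMSadA_888
import Crest.Agent.R204.EZHtp_271

/-!
# Row 231, block GM, leaf B1 (helper888), part B: topology of the saddle lemma

* `mp f` : chain map of `f : C(E, E')`, `push_step` : moving a relative cycle along a homotopy
* `exists_compact_supp` : chains have compact support
* `small_pair` : small chains for `S ∪ T` (ungraded form)
* `RkP_susp` : one suspension step; `RkP_prod` : product with `(ℝ^k, ℝ^k - 0)`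
* `LB_of_SadBox` : **the saddle lemma** in coordinates
-/

set_option autoImplicit false
set_option linter.unusedSectionVars false

noncomputable section

open Set Filter Topology
open Crest.Agent.R204 Crest.Agent.R204.SingAct265 Crest.Agent.R204.EZ271
open Crest.Agent.R231.Pairx877 Crest.Agent.R231.GM898 Crest.Agent.R231.GMSadAx888

namespace Crest.Agent.R231.GMSadBx888

variable {E E' E'' : Type} [TopologicalSpace E] [TopologicalSpace E'] [TopologicalSpace E'']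

/-- the chain map of a continuous map -/
abbrev mp (f : C(E, E')) : CE E →ₗ[F2] CE E' := N.map F2 (SS.SingMap f)

theorem mp_mem {f : C(E, E')} {A : Set E} {A' : Set E'} (h : MapsTo f A A') :
    ∀ c ∈ CS A, mp f c ∈ CS A' := by
  refine map_mem_of_CS fun n σ hσ => ?_
  rw [mp, N.map_sx]
  exact sx_mem_CS fun t => h (hσ t)

theorem bd_mp (f : C(E, E')) (c : CE E) : bdE E' (mp f c) = mp f (bdE E c) :=
  (LinearMap.congr_fun (N.map_bd (R := F2) (SS.SingMap f)) c).symm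

theorem mp_eq_of_eqOn {f g : C(E, E')} {A : Set E} (h : EqOn f g A) :
    ∀ c ∈ CS A, mp f c = mp g c :=
  eq_on_CS fun n σ hσ => by
    rw [mp, mp, N.map_sx, N.map_sx]
    congr 1
    exact sing_ext fun t => h (hσ t)

theorem mp_id_of {f : C(E, E)} {A : Set E} (h : ∀ x ∈ A, f x = x) : ∀ c ∈ CS A, mp f c = c :=
  eq_on_CS (f := mp f) (g := LinearMap.id) fun n σ hσ => by
    rw [mp, N.map_sx, LinearMap.id_apply]
    congr 1
    exact sing_ext fun t => h _ (hσ t)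

theorem mp_mp {f : C(E, E')} {g : C(E', E'')} (c : CE E) : mp g (mp f c) = mp (g.comp f) c := by
  have h : mp g ∘ₗ mp f = mp (g.comp f) := by
    refine EZ271.hom_ext fun n σ => ?_
    rw [LinearMap.comp_apply, mp, mp, mp, N.map_sx, N.map_sx, N.map_sx]
    rfl
  exact LinearMap.congr_fun h c

/-! ### homotopies -/

/-- the prism operator of a homotopy -/
def pris (G : C(E × unitInterval, E')) : CE E →ₗ[F2] CE E' := prism F2 (singHtpy G)

theorem pris_mem {G : C(E × unitInterval, E')} {A : Set E} {A' : Set E'}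
    (h : ∀ x ∈ A, ∀ s, G (x, s) ∈ A') : ∀ c ∈ CS A, pris G c ∈ CS A' := by
  intro c hc
  obtain ⟨c, rfl⟩ := CS_eq_range (X := A) ▸ hc
  rw [pris, prism_apply]
  have e1 : sg F2 (N.map F2 (SS.SingMap (SpecA.inc A)) c) =
      N.map F2 (SS.SingMap (SpecA.inc A)) (sg F2 c) := (map_sg F2 _ c).symm
  have e2 : (N.sx F2 (iota 1) : N F2 (SS.std 1)) =
      N.map F2 (SS.Hom.id (SS.std 1)) (N.sx F2 (iota 1)) := by rw [N.map_sx]; rfl
  rw [e1, e2, ← map_cross, EZ271.map_map]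
  refine map_mem_CS _ (fun n x t => ?_) _
  exact h _ (ev x.1 t).2 _

theorem pris_htpy (G : C(E × unitInterval, E')) (f0 f1 : C(E, E')) (h0 : ∀ x, G (x, 0) = f0 x)
    (h1 : ∀ x, G (x, 1) = f1 x) (z : CE E) :
    bdE E' (pris G z) + pris G (bdE E z) = mp f1 z - mp f0 z := by
  have h := prism_homotopy F2 (singHtpy G) z
  have e1 : (singHtpy G).comp (incl (SS.Sing E) 1) = SS.SingMap f1 := by
    apply SS.Hom.ext
    funext n σ
    exact singHtpy_one G f1 h1 σ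
  have e0 : (singHtpy G).comp (incl (SS.Sing E) 0) = SS.SingMap f0 := by
    apply SS.Hom.ext
    funext n σ
    exact singHtpy_zero G f0 h0 σ
  rw [e1, e0] at h
  exact h

/-- **moving a relative cycle**: `h s`, `s ∈ [0, T]`, `h 0 = id` on `X` -/
theorem push_step (h : C(ℝ × E, E)) {T : ℝ} (hT : 0 ≤ T) {X A X' A' : Set E}
    (h0 : ∀ x ∈ X, h (0, x) = x) (hX : ∀ s, 0 ≤ s → s ≤ T → ∀ x ∈ X, h (s, x) ∈ X')
    (hA : ∀ s, 0 ≤ s → s ≤ T → ∀ x ∈ A, h (s, x) ∈ A')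
    {z : CE E} (hz : z ∈ Zp X A)
    (hm : mp (h.comp ((ContinuousMap.const E T).prodMk (ContinuousMap.id E))) z ∈ Bp X' A') :
    z ∈ Bp X' A' := by
  set f1 : C(E, E) := h.comp ((ContinuousMap.const E T).prodMk (ContinuousMap.id E)) with hf1
  set f0 : C(E, E) := h.comp ((ContinuousMap.const E 0).prodMk (ContinuousMap.id E)) with hf0
  let G : C(E × unitInterval, E) := h.comp
    ⟨fun p => (T * (p.2 : ℝ), p.1), by fun_prop⟩
  have e := pris_htpy G f0 f1 (fun x => by simp [G, hf0]) (fun x => by simp [G, hf1]) z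
  have hs : ∀ s : unitInterval, 0 ≤ T * (s : ℝ) ∧ T * (s : ℝ) ≤ T := fun s =>
    ⟨mul_nonneg hT s.2.1, by nlinarith [s.2.2]⟩
  have e0 : mp f0 z = z := mp_id_of (fun x hx => h0 x hx) z hz.1
  have p1 : pris G z ∈ CS X' := pris_mem (fun x hx s => hX _ (hs s).1 (hs s).2 x hx) z hz.1
  have p2 : pris G (bdE E z) ∈ CS A' :=
    pris_mem (fun x hx s => hA _ (hs s).1 (hs s).2 x hx) _ hz.2
  rw [e0] at e
  have e2 : z = mp f1 z - (pris G (bdE E z) + bdE E (pris G z)) := by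
    rw [add_comm, e]; abel
  rw [e2]
  refine Submodule.sub_mem _ hm ?_
  exact Submodule.add_mem_sup p2 ⟨_, p1, rfl⟩

theorem mp_Bp {f : C(E, E')} {X A : Set E} {X' A' : Set E'} (hX : MapsTo f X X')
    (hA : MapsTo f A A') {z : CE E} (hz : z ∈ Bp X A) : mp f z ∈ Bp X' A' := by
  rw [mem_Bp] at hz ⊢
  obtain ⟨w, hw, h⟩ := hz
  refine ⟨mp f w, mp_mem hX w hw, ?_⟩
  rw [bd_mp, ← map_sub]
  exact mp_mem hA _ h

theorem mp_Zp {f : C(E, E')} {X A : Set E} {X' A' : Set E'} (hX : MapsTo f X X')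
    (hA : MapsTo f A A') {z : CE E} (hz : z ∈ Zp X A) : mp f z ∈ Zp X' A' :=
  ⟨mp_mem hX z hz.1, by
    show bdE E' (mp f z) ∈ CS A'
    rw [bd_mp]; exact mp_mem hA _ hz.2⟩

/-! ### compact supports -/

theorem exists_compact_supp {X : Set E} {c : CE E} (hc : c ∈ CS X) :
    ∃ K : Set E, IsCompact K ∧ K ⊆ X ∧ c ∈ CS K := by
  refine Submodule.span_induction (p := fun c _ => ∃ K : Set E, IsCompact K ∧ K ⊆ X ∧ c ∈ CS K)
    ?_ ?_ ?_ ?_ hc
  · rintro _ ⟨n, σ, hσ, rfl⟩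
    refine ⟨Set.range (ev σ), isCompact_range (continuous_ev σ), ?_, ?_⟩
    · rintro _ ⟨t, rfl⟩; exact hσ t
    · exact sx_mem_CS fun t => ⟨t, rfl⟩
  · exact ⟨∅, isCompact_empty, empty_subset _, Submodule.zero_mem _⟩
  · rintro a b _ _ ⟨K, h1, h2, h3⟩ ⟨K', h1', h2', h3'⟩
    exact ⟨K ∪ K', h1.union h1', union_subset h2 h2',
      Submodule.add_mem _ (CS_mono subset_union_left h3) (CS_mono subset_union_right h3')⟩
  · rintro r a _ ⟨K, h1, h2, h3⟩
    exact ⟨K, h1, h2, Submodule.smul_mem _ _ h3⟩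

/-! ### small chains -/

open Crest.Agent.R231.Smx566 in
theorem small_un (𝒰 : Set (Set E)) (h : ∀ y, ∃ U ∈ 𝒰, U ∈ 𝓝 y) (x : N F2 (SS.Sing E))
    (hdx : N.bd F2 _ x ∈ cs (InC 𝒰)) :
    ∃ y, x - N.bd F2 _ y ∈ cs (InC 𝒰) := by
  have hb := covI_bij 𝒰 h
  rw [← range_cov] at hdx ⊢
  obtain ⟨z, hz⟩ := hdx
  have hmb : ∀ c, N.map F2 (covI 𝒰) (N.bd F2 _ c) = N.bd F2 _ (N.map F2 (covI 𝒰) c) :=
    fun c => LinearMap.congr_fun (N.map_bd (R := F2) (covI 𝒰)) c
  have hzc : N.bd F2 _ z = 0 := by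
    apply covI_inj 𝒰
    rw [hmb, hz, map_zero, N.bd_bd]
  obtain ⟨w, hw⟩ : ∃ w, N.bd F2 _ w = z := by
    have h0 : H.map F2 (covI 𝒰) (Hd.mk _ z hzc) = 0 := by
      rw [H.map, Hd.map_mk, Hd.mk_eq_zero]
      exact ⟨x, hz.symm⟩
    have := (injective_iff_map_eq_zero _).1 hb.1 _ h0
    rwa [Hd.mk_eq_zero] at this
  have hc : N.bd F2 _ (x - N.map F2 (covI 𝒰) w) = 0 := by
    rw [map_sub, ← hmb, hw, hz, sub_self]
  obtain ⟨u, hu⟩ := hb.2 (Hd.mk _ _ hc)
  obtain ⟨v, hv, rfl⟩ := Hd.mk_surj _ u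
  rw [H.map, Hd.map_mk, Hd.mk_eq_mk] at hu
  obtain ⟨y, hy⟩ := hu
  refine ⟨-y, w + v, ?_⟩
  rw [map_neg, hy, map_add]
  abel

open Crest.Agent.R231.Smx566 in
/-- small chains for `X = S ∪ T`, ungraded -/
theorem small_pair (S T : Set E) (h : ∀ x ∈ S ∪ T, S ∈ 𝓝[S ∪ T] x ∨ T ∈ 𝓝[S ∪ T] x)
    (c : CE E) (hcX : c ∈ CS (S ∪ T)) (hd : bdE E c ∈ CS S ⊔ CS T) :
    ∃ y ∈ CS (S ∪ T), c - bdE E y ∈ CS S ⊔ CS T := by
  have h𝒰 : ∀ U ∈ ({S, T} : Set (Set E)), U ⊆ S ∪ T := by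
    rintro U (rfl | rfl)
    · exact Set.subset_union_left
    · exact Set.subset_union_right
  rw [← cs_InC_pair] at hd ⊢
  have hbd : ∀ c, N.map F2 (SS.SingMap (inc (S ∪ T))) (N.bd F2 _ c) =
      N.bd F2 _ (N.map F2 (SS.SingMap (inc (S ∪ T))) c) :=
    fun c => LinearMap.congr_fun (N.map_bd (R := F2) (SS.SingMap (inc (S ∪ T)))) c
  rw [← cs_In_eq_CS, cs_In_eq_range] at hcX
  obtain ⟨c, rfl⟩ := hcX
  rw [cs_InC_eq_map h𝒰] at hd ⊢
  obtain ⟨b, hb, hbe⟩ := hd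
  have hb' : b = N.bd F2 _ c := map_inc_inj (S ∪ T) (by rw [hbe]; exact (hbd c).symm)
  obtain ⟨y, hxy⟩ := small_un (famPre (S ∪ T) {S, T}) (fun x => by
    rcases h x.1 x.2 with h | h
    · exact ⟨_, ⟨S, Or.inl rfl, rfl⟩, preimage_coe_mem_nhds_subtype.2 h⟩
    · exact ⟨_, ⟨T, Or.inr rfl, rfl⟩, preimage_coe_mem_nhds_subtype.2 h⟩) c (hb' ▸ hb)
  refine ⟨N.map F2 (SS.SingMap (inc (S ∪ T))) y, ?_, _, hxy, ?_⟩
  · rw [← cs_In_eq_CS, cs_In_eq_range]
    exact ⟨_, rfl⟩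
  · rw [map_sub]
    exact congrArg _ (hbd y)

/-! ### one suspension step -/

/-- translation data -/
structure Trl (h : C(ℝ × E, E)) (φ : C(E, ℝ)) : Prop where
  zero : ∀ x, h (0, x) = x
  add : ∀ s x, φ (h (s, x)) = φ x + s

theorem bddK {φ : C(E, ℝ)} {K : Set E} (hK : IsCompact K) : ∃ M : ℝ, 0 ≤ M ∧ ∀ x ∈ K, |φ x| ≤ M := by
  rcases K.eq_empty_or_nonempty with rfl | hne
  · exact ⟨0, le_rfl, fun x hx => hx.elim⟩
  obtain ⟨p0, -, hp0⟩ := hK.exists_isMaxOn hne (f := fun p => |φ p|)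
    (φ.continuous.abs.continuousOn)
  exact ⟨|φ p0|, abs_nonneg _, fun p hp => hp0 hp⟩

/-- the reversed translation -/
def revT (h : C(ℝ × E, E)) : C(ℝ × E, E) := h.comp ⟨fun p => (-p.1, p.2), by fun_prop⟩

/-- acyclicity: everything can be pushed into the lower set -/
theorem Zp_le_Bp_of_push (h : C(ℝ × E, E)) (h0 : ∀ x, h (0, x) = x) {Ω A : Set E}
    (hΩ : ∀ s, 0 ≤ s → ∀ x ∈ Ω, h (s, x) ∈ Ω) (hA : ∀ s, 0 ≤ s → ∀ x ∈ A, h (s, x) ∈ A)
    (hK : ∀ K : Set E, IsCompact K → K ⊆ Ω → ∃ T : ℝ, 0 ≤ T ∧ ∀ x ∈ K, h (T, x) ∈ A) :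
    Zp Ω A ≤ Bp Ω A := by
  intro z hz
  obtain ⟨K, hKc, hKΩ, hzK⟩ := exists_compact_supp hz.1
  obtain ⟨T, hT, hT'⟩ := hK K hKc hKΩ
  refine push_step h hT (fun x _ => h0 x) (fun s hs _ => hΩ s hs) (fun s hs _ => hA s hs) hz ?_
  refine Submodule.mem_sup_left ?_
  exact mp_mem (fun x hx => hT' x hx) z hzK

/-- the relation of the suspension step -/
def Srel (Ω Mm Np Nm : Set E) : Submodule F2 (CE E × CE E) where
  carrier := {p | p.1 ∈ CS Ω ∧ p.2 ∈ CS Np ∧ ∃ y ∈ CS Mm, ∃ b ∈ CS Nm,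
    bdE E p.1 = p.2 + b + bdE E y}
  zero_mem' := ⟨Submodule.zero_mem _, Submodule.zero_mem _, 0, Submodule.zero_mem _, 0,
    Submodule.zero_mem _, by simp⟩
  add_mem' := by
    rintro ⟨z, a⟩ ⟨z', a'⟩ ⟨h1, h2, y, hy, b, hb, h3⟩ ⟨h1', h2', y', hy', b', hb', h3'⟩
    refine ⟨Submodule.add_mem _ h1 h1', Submodule.add_mem _ h2 h2', y + y',
      Submodule.add_mem _ hy hy', b + b', Submodule.add_mem _ hb hb', ?_⟩
    show bdE E (z + z') = (a + a') + (b + b') + bdE E (y + y')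
    rw [map_add, map_add]
    have e1 : bdE E z = a + b + bdE E y := h3
    have e2 : bdE E z' = a' + b' + bdE E y' := h3'
    rw [e1, e2]; abel
  smul_mem' := by
    rintro r ⟨z, a⟩ ⟨h1, h2, y, hy, b, hb, h3⟩
    refine ⟨Submodule.smul_mem _ _ h1, Submodule.smul_mem _ _ h2, r • y,
      Submodule.smul_mem _ _ hy, r • b, Submodule.smul_mem _ _ hb, ?_⟩
    show bdE E (r • z) = r • a + r • b + bdE E (r • y)
    have e1 : bdE E z = a + b + bdE E y := h3
    rw [map_smul, map_smul, e1, smul_add, smul_add]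

theorem mem_Srel {Ω Mm Np Nm : Set E} {z a : CE E} : (z, a) ∈ Srel Ω Mm Np Nm ↔
    z ∈ CS Ω ∧ a ∈ CS Np ∧ ∃ y ∈ CS Mm, ∃ b ∈ CS Nm, bdE E z = a + b + bdE E y := Iff.rfl

theorem add_self_CE (x : CE E) : x + x = 0 := by
  have : (2 : F2) • x = 0 := by
    have h2 : (2 : F2) = 0 := by decide
    rw [h2, zero_smul]
  rwa [two_smul] at this

/-- **suspension** of a rank bound -/
theorem RkP_susp {h : C(ℝ × E, E)} {φ : C(E, ℝ)} (ht : Trl h φ) {Ω Ω' N : Set E} (hΩΩ' : Ω ⊆ Ω')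
    (hΩ' : ∀ s, ∀ x ∈ Ω', h (s, x) ∈ Ω') (hN : ∀ s, ∀ x ∈ N, h (s, x) ∈ N)
    (hNo : ∀ x ∈ N ∩ Ω, N ∈ 𝓝[Ω] x) {C : ℕ} (hr : RkP Ω (N ∩ Ω) Ω' (N ∩ Ω') C) :
    RkP Ω ((N ∪ {x | φ x ≠ 0}) ∩ Ω) Ω' ((N ∪ {x | φ x ≠ 0}) ∩ Ω') C := by
  set M : Set E := N ∪ {x | φ x ≠ 0} with hM
  set Np : Set E := N ∪ {x | 0 < φ x} with hNp
  set Nm : Set E := N ∪ {x | φ x < 0} with hNm
  have hNpM : Np ⊆ M := union_subset_union_right _ fun x hx => ne_of_gt hx
  have hNmM : Nm ⊆ M := union_subset_union_right _ fun x hx => ne_of_lt hx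
  have hMu : M = Np ∪ Nm := by
    apply subset_antisymm
    · rintro x (hx | hx)
      · exact Or.inl (Or.inl hx)
      · rcases lt_or_gt_of_ne (show φ x ≠ 0 from hx) with h | h
        · exact Or.inr (Or.inr h)
        · exact Or.inl (Or.inr h)
    · exact union_subset hNpM hNmM
  have hinter : (Np ∩ Ω) ∩ (Nm ∩ Ω) = N ∩ Ω := by
    ext x
    constructor
    · rintro ⟨⟨h1 | h1, h2⟩, ⟨h3 | h3, _⟩⟩
      · exact ⟨h1, h2⟩
      · exact ⟨h1, h2⟩
      · exact ⟨h3, h2⟩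
      · exact absurd (show 0 < φ x from h1) (not_lt.2 (le_of_lt (show φ x < 0 from h3)))
    · rintro ⟨h1, h2⟩
      exact ⟨⟨Or.inl h1, h2⟩, Or.inl h1, h2⟩
  refine RkLE.of_rel (Srel Ω (M ∩ Ω) (Np ∩ Ω) (Nm ∩ Ω)) ?_ ?_ ?_ hr
  · -- existence
    intro z hz
    have hun : M ∩ Ω = (Np ∩ Ω) ∪ (Nm ∩ Ω) := by rw [hMu, union_inter_distrib_right]
    have hz2 : bdE E z ∈ CS ((Np ∩ Ω) ∪ (Nm ∩ Ω)) := by rw [← hun]; exact hz.2
    obtain ⟨y, hy, hy'⟩ := small_pair (Np ∩ Ω) (Nm ∩ Ω) (by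
      intro x hx
      rw [← hun] at hx ⊢
      have hsub : 𝓝[M ∩ Ω] x ≤ 𝓝[Ω] x := nhdsWithin_mono _ inter_subset_right
      have hΩx : Ω ∈ 𝓝[M ∩ Ω] x := hsub self_mem_nhdsWithin
      by_cases hxN : x ∈ N
      · left
        have h1 : N ∈ 𝓝[M ∩ Ω] x := hsub (hNo x ⟨hxN, hx.2⟩)
        exact inter_mem (mem_of_superset h1 subset_union_left) hΩx
      · have hφx : φ x ≠ 0 := by
          rcases hx.1 with h | h
          · exact absurd h hxN
          · exact h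
        rcases lt_or_gt_of_ne hφx with h | h
        · right
          have h1 : {x | φ x < 0} ∈ 𝓝[M ∩ Ω] x :=
            mem_nhdsWithin_of_mem_nhds ((isOpen_lt φ.continuous continuous_const).mem_nhds h)
          exact inter_mem (mem_of_superset h1 subset_union_right) hΩx
        · left
          have h1 : {x | 0 < φ x} ∈ 𝓝[M ∩ Ω] x :=
            mem_nhdsWithin_of_mem_nhds ((isOpen_lt continuous_const φ.continuous).mem_nhds h)
          exact inter_mem (mem_of_superset h1 subset_union_right) hΩx) (bdE E z) hz2 (by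
        rw [bd_bdE]; exact Submodule.zero_mem _)
    obtain ⟨a, ha, b, hb, hab⟩ := Submodule.mem_sup.1 hy'
    refine ⟨a, hz.1, ha, y, by rw [hun]; exact hy, b, hb, ?_⟩
    rw [hab]; abel
  · -- the second component is a relative cycle
    rintro z a ⟨h1, h2, y, hy, b, hb, h3⟩
    have h2' : a ∈ CS (Np ∩ Ω) := h2
    have h3' : bdE E z = a + b + bdE E y := h3
    refine ⟨CS_mono inter_subset_right h2', ?_⟩
    show bdE E a ∈ CS (N ∩ Ω)
    have e : bdE E a = -bdE E b := by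
      have := congrArg (bdE E) h3'
      rw [bd_bdE, map_add, map_add, bd_bdE, add_zero] at this
      exact eq_neg_of_add_eq_zero_left this.symm
    rw [← hinter, ← Smx566.CS_inf]
    refine ⟨bd_mem_CS a h2', ?_⟩
    rw [e]
    exact Submodule.neg_mem _ (bd_mem_CS b hb)
  · -- injectivity
    rintro z a ⟨h1, h2, y, hy, b, hb, h3⟩ haB
    have h1' : z ∈ CS Ω := h1
    have h2' : a ∈ CS (Np ∩ Ω) := h2
    have h3' : bdE E z = a + b + bdE E y := h3
    have e : bdE E a = -bdE E b := by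
      have := congrArg (bdE E) h3'
      rw [bd_bdE, map_add, map_add, bd_bdE, add_zero] at this
      exact eq_neg_of_add_eq_zero_left this.symm
    have haZ : bdE E a ∈ CS (N ∩ Ω) := by
      rw [← hinter, ← Smx566.CS_inf]
      refine ⟨bd_mem_CS a h2', ?_⟩
      rw [e]
      exact Submodule.neg_mem _ (bd_mem_CS b hb)
    -- push `a` up
    have hNpT : ∀ s, 0 ≤ s → ∀ x ∈ Np ∩ Ω', h (s, x) ∈ Np ∩ Ω' := by
      rintro s hs x ⟨h4 | h4, h5⟩
      · exact ⟨Or.inl (hN s x h4), hΩ' s x h5⟩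
      · refine ⟨Or.inr ?_, hΩ' s x h5⟩
        show 0 < φ (h (s, x))
        rw [ht.add]
        have : 0 < φ x := h4
        linarith
    have hNT : ∀ s, ∀ x ∈ N ∩ Ω', h (s, x) ∈ N ∩ Ω' := fun s x hx => ⟨hN s x hx.1, hΩ' s x hx.2⟩
    have haB' : a ∈ Bp (Np ∩ Ω') (N ∩ Ω') := by
      rw [mem_Bp] at haB
      obtain ⟨c, hc, hc'⟩ := haB
      obtain ⟨K, hKc, hKΩ, hcK⟩ := exists_compact_supp hc
      obtain ⟨M0, hM0, hMK⟩ := bddK (φ := φ) hKc
      refine push_step h (T := M0 + 1) (by linarith) (fun x _ => ht.zero x)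
        (fun s hs _ => hNpT s hs) (A := N ∩ Ω') (fun s _ _ => hNT s)
        ⟨CS_mono (inter_subset_inter_right _ hΩΩ') h2',
          CS_mono (inter_subset_inter_right _ hΩΩ') haZ⟩ ?_
      set f := h.comp ((ContinuousMap.const E (M0 + 1)).prodMk (ContinuousMap.id E)) with hf
      rw [mem_Bp]
      refine ⟨mp f c, mp_mem (A := K) (fun x hx => ?_) c hcK, ?_⟩
      · refine ⟨Or.inr ?_, hΩ' _ x (hKΩ hx)⟩
        show 0 < φ (h (M0 + 1, x))
        rw [ht.add]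
        have := abs_le.1 (hMK x hx)
        linarith
      · rw [bd_mp, ← map_sub]
        exact mp_mem (fun x hx => hNT _ x hx) _ hc'
    rw [mem_Bp] at haB'
    obtain ⟨c, hc, hc'⟩ := haB'
    -- the rest is pushed down
    have hz' : z - c - y ∈ Zp Ω' (Nm ∩ Ω') := by
      refine ⟨?_, ?_⟩
      · refine Submodule.sub_mem _ (Submodule.sub_mem _ (CS_mono hΩΩ' h1') ?_) ?_
        · exact CS_mono inter_subset_right hc
        · exact CS_mono (inter_subset_right.trans hΩΩ') hy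
      · show bdE E (z - c - y) ∈ CS (Nm ∩ Ω')
        rw [map_sub, map_sub, h3']
        have e3 : a + b + bdE E y - bdE E c - bdE E y = (a - bdE E c) + b := by abel
        rw [e3]
        refine Submodule.add_mem _ ?_ ?_
        · exact CS_mono (inter_subset_inter_left _ subset_union_left) hc'
        · exact CS_mono (inter_subset_inter_right _ hΩΩ') hb
    have hz'' : z - c - y ∈ Bp Ω' (Nm ∩ Ω') := by
      refine Zp_le_Bp_of_push (revT h) (fun x => ?_) ?_ ?_ ?_ hz'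
      · show h (-0, x) = x
        rw [neg_zero]; exact ht.zero x
      · intro s _ x hx
        exact hΩ' (-s) x hx
      · rintro s hs x ⟨h4 | h4, h5⟩
        · exact ⟨Or.inl (hN (-s) x h4), hΩ' _ x h5⟩
        · refine ⟨Or.inr ?_, hΩ' _ x h5⟩
          show φ (h (-s, x)) < 0
          rw [ht.add]
          have : φ x < 0 := h4
          linarith
      · intro K hKc hKΩ
        obtain ⟨M0, hM0, hMK⟩ := bddK (φ := φ) hKc
        refine ⟨M0 + 1, by linarith, fun x hx => ⟨Or.inr ?_, hΩ' _ x (hKΩ hx)⟩⟩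
        show φ (h (-(M0 + 1), x)) < 0
        rw [ht.add]
        have := abs_le.1 (hMK x hx)
        linarith
    have e4 : z = (z - c - y) + (c + y) := by abel
    rw [e4]
    refine Submodule.add_mem _ (Bp_mono subset_rfl (inter_subset_inter_left _ hNmM) hz'') ?_
    refine Submodule.mem_sup_left (Submodule.add_mem _ ?_ ?_)
    · exact CS_mono (inter_subset_inter_left _ hNpM) hc
    · exact CS_mono (inter_subset_inter_right _ hΩΩ') hy

end Crest.Agent.R231.GMSadBx888
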