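import Crest.Agent.R231.GMSadB_888

/-!
# Row 231, block GM, leaf B1 (helper888), part C: the saddle lemma in coordinates

* `RkP_prod` : rank bound for the product with `(ℝ^k, ℝ^k - 0)`
* `LB_of_SadBox` : if `F : X × (ι → ℝ) → ℝ` satisfies `SadBox` near `x0` then
  `LB x0 {x | F (x, 0) < 0} C → LB (x0, 0) {p | F p < 0} C`
-/

set_option autoImplicit false
set_option linter.unusedSectionVars false

noncomputable section

open Set Filter Topology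
open Crest.Agent.R204 Crest.Agent.R204.SingAct265 Crest.Agent.R204.EZ271
open Crest.Agent.R231.Pairx877 Crest.Agent.R231.GM898 Crest.Agent.R231.GMSadAx888
open Crest.Agent.R231.GMSadBx888

namespace Crest.Agent.R231.GMSadCx888

variable {X ι : Type} [TopologicalSpace X] [Fintype ι]

/-- translation in the `i`-th coordinate -/
def trn [DecidableEq ι] (i : ι) : C(ℝ × (X × (ι → ℝ)), X × (ι → ℝ)) :=
  ⟨fun p => (p.2.1, p.2.2 + p.1 • (Pi.single i (1 : ℝ) : ι → ℝ)), by fun_prop⟩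

/-- the `i`-th coordinate -/
def crd (i : ι) : C(X × (ι → ℝ), ℝ) := ⟨fun p => p.2 i, by fun_prop⟩

theorem trl_trn [DecidableEq ι] (i : ι) : Trl (trn (X := X) i) (crd i) where
  zero p := by
    show (p.1, p.2 + (0 : ℝ) • (Pi.single i (1 : ℝ) : ι → ℝ)) = p
    rw [zero_smul, add_zero]
  add s p := by
    show (p.2 + s • (Pi.single i (1 : ℝ) : ι → ℝ)) i = p.2 i + s
    simp

/-- lower set of the product -/
def NJ (g : X → ℝ) (J : Finset ι) : Set (X × (ι → ℝ)) :=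
  {p | g p.1 < 0} ∪ {p | ∃ i ∈ J, p.2 i ≠ 0}

theorem NJ_insert [DecidableEq ι] (g : X → ℝ) (J : Finset ι) (i : ι) :
    NJ g (insert i J) = NJ g J ∪ {p | crd i p ≠ 0} := by
  ext p
  constructor
  · rintro (h | ⟨j, hj, h⟩)
    · exact Or.inl (Or.inl h)
    · rcases Finset.mem_insert.1 hj with rfl | hj
      · exact Or.inr h
      · exact Or.inl (Or.inr ⟨j, hj, h⟩)
  · rintro ((h | ⟨j, hj, h⟩) | h)
    · exact Or.inl h
    · exact Or.inr ⟨j, Finset.mem_insert_of_mem hj, h⟩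
    · exact Or.inr ⟨i, Finset.mem_insert_self _ _, h⟩

/-- projection -/
def prX : C(X × (ι → ℝ), X) := ⟨Prod.fst, continuous_fst⟩
/-- zero section -/
def inX : C(X, X × (ι → ℝ)) := ⟨fun x => (x, 0), by fun_prop⟩
/-- contraction -/
def ctr : C(ℝ × (X × (ι → ℝ)), X × (ι → ℝ)) :=
  ⟨fun p => (p.2.1, (1 - p.1) • p.2.2), by fun_prop⟩

theorem RkP_base {g : X → ℝ} {A0 U0 : Set X} {C : ℕ}
    (h : RkP A0 (A0 ∩ {x | g x < 0}) U0 (U0 ∩ {x | g x < 0}) C) (hAU : A0 ⊆ U0) :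
    RkP (A0 ×ˢ (univ : Set (ι → ℝ))) (NJ g ∅ ∩ A0 ×ˢ univ) (U0 ×ˢ (univ : Set (ι → ℝ)))
      (NJ g ∅ ∩ U0 ×ˢ univ) C := by
  have e0 : NJ (ι := ι) g ∅ = {p | g p.1 < 0} := by
    ext p
    simp [NJ]
  rw [e0]
  refine RkLE.of_map (mp prX) ?_ ?_ h
  · intro z hz
    have m1 : MapsTo (prX (X := X) (ι := ι)) (A0 ×ˢ univ) A0 := fun p hp => hp.1
    have m2 : MapsTo (prX (X := X) (ι := ι)) ({p | g p.1 < 0} ∩ A0 ×ˢ univ)
      (A0 ∩ {x | g x < 0}) := fun p hp => ⟨hp.2.1, hp.1⟩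
    exact mp_Zp m1 m2 hz
  · intro z hz hB
    have hsub : Zp (A0 ×ˢ (univ : Set (ι → ℝ))) ({p | g p.1 < 0} ∩ A0 ×ˢ univ) ≤
        Zp (U0 ×ˢ (univ : Set (ι → ℝ))) ({p | g p.1 < 0} ∩ U0 ×ˢ univ) :=
      Zp_mono (prod_mono hAU subset_rfl) (inter_subset_inter_right _ (prod_mono hAU subset_rfl))
    refine push_step ctr (T := 1) zero_le_one (X := U0 ×ˢ (univ : Set (ι → ℝ)))
      (A := {p | g p.1 < 0} ∩ U0 ×ˢ univ) (fun p _ => ?_) ?_ ?_ (hsub hz) ?_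
    rotate_left
    · rintro s _ _ p hp
      exact ⟨hp.1, trivial⟩
    · rintro s _ _ p hp
      exact ⟨hp.1, hp.2.1, trivial⟩
    rotate_left
    · show (p.1, (1 - (0 : ℝ)) • p.2) = p
      rw [sub_zero, one_smul]
    · have e : mp (ctr.comp ((ContinuousMap.const (X × (ι → ℝ)) 1).prodMk
          (ContinuousMap.id (X × (ι → ℝ))))) z = mp inX (mp prX z) := by
        rw [mp_mp]
        congr 2
        ext p
        · rfl
        · show ((1 - (1 : ℝ)) • p.2) _ = (0 : ι → ℝ) _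
          rw [sub_self, zero_smul]
      rw [e]
      have m1 : MapsTo (inX (X := X) (ι := ι)) U0 (U0 ×ˢ univ) := fun x hx => ⟨hx, trivial⟩
      have m2 : MapsTo (inX (X := X) (ι := ι)) (U0 ∩ {x | g x < 0})
        ({p | g p.1 < 0} ∩ U0 ×ˢ univ) := fun x hx => ⟨hx.2, hx.1, trivial⟩
      exact mp_Bp m1 m2 hB

theorem NJ_nhds {g : X → ℝ} {A0 : Set X} (hg : ContinuousOn g A0) (J : Finset ι)
    {p : X × (ι → ℝ)} (hp : p ∈ NJ g J ∩ A0 ×ˢ univ) : NJ g J ∈ 𝓝[A0 ×ˢ univ] p := by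
  obtain ⟨h | ⟨i, hi, h⟩, hpA⟩ := hp
  · have h1 : ContinuousWithinAt (fun q : X × (ι → ℝ) => g q.1) (A0 ×ˢ univ) p :=
      (hg.comp continuous_fst.continuousOn (fun q hq => hq.1)) p hpA
    exact mem_of_superset (h1.preimage_mem_nhdsWithin (Iio_mem_nhds (show g p.1 < 0 from h)))
      (fun q hq => Or.inl hq)
  · have h1 : IsOpen {q : X × (ι → ℝ) | q.2 i ≠ 0} := isOpen_ne_fun (by fun_prop) (by fun_prop)
    exact mem_of_superset (mem_nhdsWithin_of_mem_nhds (h1.mem_nhds h))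
      (fun q hq => Or.inr ⟨i, hi, hq⟩)

theorem RkP_prod {g : X → ℝ} {A0 U0 : Set X} {C : ℕ} (hg : ContinuousOn g A0)
    (h : RkP A0 (A0 ∩ {x | g x < 0}) U0 (U0 ∩ {x | g x < 0}) C) (hAU : A0 ⊆ U0) (J : Finset ι) :
    RkP (A0 ×ˢ (univ : Set (ι → ℝ))) (NJ g J ∩ A0 ×ˢ univ) (U0 ×ˢ (univ : Set (ι → ℝ)))
      (NJ g J ∩ U0 ×ˢ univ) C := by
  classical
  induction J using Finset.induction_on with
  | empty => exact RkP_base h hAU
  | insert i J hi ih =>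
    rw [NJ_insert]
    refine RkP_susp (trl_trn i) (prod_mono hAU subset_rfl) ?_ ?_ (fun p hp => NJ_nhds hg J hp) ih
    · intro s p hp
      exact ⟨hp.1, trivial⟩
    · rintro s p (h | ⟨j, hj, h⟩)
      · exact Or.inl h
      · refine Or.inr ⟨j, hj, ?_⟩
        show (p.2 + s • (Pi.single i (1 : ℝ) : ι → ℝ)) j ≠ 0
        have hji : j ≠ i := fun e => hi (e ▸ hj)
        rw [Pi.add_apply, Pi.smul_apply, Pi.single_eq_of_ne hji, smul_zero, add_zero]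
        exact h

/-- the clamped flow on the product -/
def Sc (R : ℝ) (w : ι → ℝ) : C(ℝ × (X × (ι → ℝ)), X × (ι → ℝ)) :=
  ⟨fun p => (p.2.1, St R w p.1 p.2.2),
    (continuous_fst.comp continuous_snd).prodMk
      ((St_continuous R w).comp (continuous_fst.prodMk (continuous_snd.comp continuous_snd)))⟩

theorem SadBox.mono {F : X × (ι → ℝ) → ℝ} {w : ι → ℝ} {U U' : Set X} {ρ ρ' : ℝ}
    (h : SadBox F w U ρ) (hU : U' ⊆ U) (hρ : ρ' ≤ ρ) : SadBox F w U' ρ' :=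
  ⟨h.w_or, fun x hx y hy => h.der x (hU hx) y (hy.trans hρ)⟩

theorem Bx_mem_nhds {w : ι → ℝ} {r R : ℝ} (hr : 0 < r) (hR : 0 < R) : Bx w r R ∈ 𝓝 (0 : ι → ℝ) := by
  have h : Metric.closedBall (0 : ι → ℝ) (min r R) ⊆ Bx w r R := by
    intro y hy i
    rw [mem_closedBall_zero_iff] at hy
    have h1 : |y i| ≤ min r R := (norm_le_pi_norm y i).trans hy
    split_ifs
    · exact h1.trans (min_le_right _ _)
    · exact h1.trans (min_le_left _ _)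
  exact mem_of_superset (Metric.closedBall_mem_nhds _ (lt_min hr hR)) h

/-- **the saddle lemma in coordinates** -/
theorem LB_of_SadBox {F : X × (ι → ℝ) → ℝ} {w : ι → ℝ} {U : Set X} {ρ : ℝ} {x0 : X} {C : ℕ}
    (h : SadBox F w U ρ) (hρ : 0 < ρ) (hU : U ∈ 𝓝 x0) (hc : ContinuousOn (fun x => F (x, 0)) U)
    (hF0 : F (x0, 0) = 0) (hL : LB x0 {x | F (x, 0) < 0} C) :
    LB ((x0, 0) : X × (ι → ℝ)) {p | F p < 0} C := by
  intro U' hU'
  -- constants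
  obtain ⟨V, hV, ρ1, hρ1, hρ1ρ, hVU'⟩ : ∃ V ∈ 𝓝 x0, ∃ ρ1 : ℝ, 0 < ρ1 ∧ ρ1 ≤ ρ ∧
      V ×ˢ Metric.closedBall (0 : ι → ℝ) ρ1 ⊆ U' := by
    obtain ⟨V, hV, W, hW, hVW⟩ := mem_nhds_prod_iff.1 hU'
    obtain ⟨ε, hε, hεW⟩ := Metric.nhds_basis_closedBall.mem_iff.1 hW
    refine ⟨V, hV, min ε ρ, lt_min hε hρ, min_le_right _ _, ?_⟩
    exact (prod_mono subset_rfl
      ((Metric.closedBall_subset_closedBall (min_le_left _ _)).trans hεW)).trans hVW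
  have hcx : ContinuousAt (fun x => F (x, 0)) x0 := hc.continuousAt hU
  have hsm : {x | F (x, 0) < ρ1 * ρ1 / 8} ∈ 𝓝 x0 :=
    hcx.preimage_mem_nhds (Iio_mem_nhds (by
      show F (x0, 0) < ρ1 * ρ1 / 8
      rw [hF0]; positivity))
  set U1 : Set X := U ∩ V ∩ {x | F (x, 0) < ρ1 * ρ1 / 8} with hU1
  have hU1n : U1 ∈ 𝓝 x0 := inter_mem (inter_mem hU hV) hsm
  obtain ⟨A0, hA0, hA0U, hr⟩ := hL U1 hU1n
  obtain ⟨r, hC⟩ := exists_consts ι hρ1
  have hbox : SadBox F w U1 ρ1 := SadBox.mono h (fun x hx => hx.1.1) hρ1ρ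
  have hcU1 : ContinuousOn (fun x => F (x, 0)) U1 := hc.mono fun x hx => hx.1.1
  have hU1U' : U1 ×ˢ Bx w r ρ1 ⊆ U' := by
    rintro ⟨x, y⟩ ⟨hx, hy⟩
    refine hVU' ⟨hx.1.2, ?_⟩
    rw [mem_closedBall_zero_iff]
    exact Bx_norm hρ1.le hC.r_le le_rfl hy
  have hA0U' : A0 ×ˢ Bx w r ρ1 ⊆ U' := (prod_mono hA0U subset_rfl).trans hU1U'
  refine ⟨A0 ×ˢ Bx w r ρ1, prod_mem_nhds hA0 (Bx_mem_nhds hC.r_pos hρ1), hA0U', ?_⟩
  set J : Finset ι := Finset.univ.filter fun i => w i < 0 with hJ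
  have hprod := RkP_prod (ι := ι) (g := fun x => F (x, 0)) (hcU1.mono hA0U) hr hA0U J
  have hMJ : ∀ p : X × (ι → ℝ), p ∈ NJ (fun x => F (x, 0)) J ↔
      (F (p.1, 0) < 0 ∨ ∃ i, w i < 0 ∧ p.2 i ≠ 0) := by
    intro p
    simp [NJ, hJ]
  refine RkLE.of_map LinearMap.id ?_ ?_ hprod
  · rintro z hz
    refine Zp_mono (prod_mono subset_rfl (subset_univ _)) ?_ hz
    rintro p ⟨hp, hpF⟩
    refine ⟨(hMJ p).2 ?_, hp.1, trivial⟩
    exact neg_sub hbox (hA0U hp.1) (Bx_norm hρ1.le hC.r_le le_rfl hp.2) hpF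
  · intro z hz hB
    rw [LinearMap.id_apply, mem_Bp] at hB
    obtain ⟨c, hc1, hc2⟩ := hB
    obtain ⟨Kc, hKc, hKcU, hcK⟩ := exists_compact_supp hc1
    obtain ⟨Ka, hKa, hKaU, haK⟩ := exists_compact_supp hc2
    obtain ⟨T1, hT1⟩ := push hbox hC hcU1 hKa (fun p hp => (hKaU hp).2.1)
      (fun p hp => (hKaU hp).2.1.2) (fun p hp => (hMJ p).1 (hKaU hp).1)
    obtain ⟨T2, hT2⟩ := push_box (w := w) hC.r_pos hρ1.le (hKa.union hKc)
    set T : ℝ := max 0 (max T1 T2) with hT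
    have hT0 : 0 ≤ T := le_max_left _ _
    have hTT1 : T1 ≤ T := (le_max_left _ _).trans (le_max_right _ _)
    have hTT2 : T2 ≤ T := (le_max_right _ _).trans (le_max_right _ _)
    refine push_step (Sc ρ1 w) hT0 (X := A0 ×ˢ Bx w r ρ1)
      (A := A0 ×ˢ Bx w r ρ1 ∩ {p | F p < 0}) ?_ ?_ ?_ hz ?_
    · rintro ⟨x, y⟩ ⟨hx, hy⟩
      show (x, St ρ1 w 0 y) = (x, y)
      rw [St_zero]
      intro i hi
      have := hy i
      rwa [if_pos hi] at this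
    · rintro s hs _ ⟨x, y⟩ ⟨hx, hy⟩
      exact hA0U' ⟨hx, St_mem_Bx hρ1.le hy hs⟩
    · rintro s hs _ ⟨x, y⟩ ⟨⟨hx, hy⟩, hxy⟩
      exact ⟨hA0U' ⟨hx, St_mem_Bx hρ1.le hy hs⟩,
        St_neg hbox hC (hA0U hx) (hA0U hx).2 hy hs hxy⟩
    · set f := (Sc (X := X) ρ1 w).comp ((ContinuousMap.const (X × (ι → ℝ)) T).prodMk
        (ContinuousMap.id (X × (ι → ℝ)))) with hf
      rw [mem_Bp]
      refine ⟨mp f c, mp_mem (A := Kc) (fun p hp => ?_) c hcK, ?_⟩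
      · exact hU1U' ⟨(hKcU hp).1, hT2 T hTT2 p (Or.inr hp)⟩
      · rw [bd_mp, ← map_sub]
        refine mp_mem (A := Ka) (fun p hp => ?_) _ haK
        exact ⟨hU1U' ⟨(hKaU hp).2.1, hT2 T hTT2 p (Or.inl hp)⟩, hT1 T hTT1 p hp⟩

end Crest.Agent.R231.GMSadCx888
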