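import Crest.Agent.R231.GMSadC_888

/-!
# Row 231, block GM, leaf B1 (helper888): THE SADDLE LEMMA

`saddle` : `f : X × Y → ℝ` of class `C²` at `(0,0)`, `f (0,0) = 0`, `∂_y f (x, 0) = 0` for `x` near `0`,
Hessian in `y` at `(0,0)` nondegenerate. Then `LB 0 {x | f (x, 0) < 0} C → LB (0,0) {p | f p < 0} C`.
No finite dimensionality of `X` is needed.
-/

set_option autoImplicit false

noncomputable section

open Set Filter Topology
open Crest.Agent.R204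
open Crest.Agent.R231.Pairx877 Crest.Agent.R231.GM898 Crest.Agent.R231.GMSadAx888
open Crest.Agent.R231.GMSadBx888 Crest.Agent.R231.GMSadCx888

namespace Crest.Agent.R231.GMSadx888

/-- diagonalisation of a nondegenerate symmetric bilinear form -/
theorem exists_diag {Y : Type} [NormedAddCommGroup Y] [NormedSpace ℝ Y] [FiniteDimensional ℝ Y]
    (B : Y →L[ℝ] Y →L[ℝ] ℝ) (hs : ∀ v w, B v w = B w v) (hn : ∀ v, v ≠ 0 → ∃ w, B v w ≠ 0) :
    ∃ (n : ℕ) (w : Fin n → ℝ) (e : Y ≃L[ℝ] (Fin n → ℝ)), (∀ i, w i = -1 ∨ w i = 1) ∧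
      ∀ u v, B u v = ∑ i, w i * e u i * e v i := by
  let B' : LinearMap.BilinMap ℝ Y ℝ := LinearMap.mk₂ ℝ (fun u v => B u v)
    (fun a b c => by simp) (fun a b c => by simp) (fun a b c => by simp) (fun a b c => by simp)
  have hB' : ∀ u v, B' u v = B u v := fun u v => rfl
  let Q : QuadraticForm ℝ Y := B'.toQuadraticMap
  have hQ : (QuadraticMap.associated (R := ℝ) Q) = B' :=
    QuadraticMap.associated_left_inverse ℝ (fun x y => hs x y)
  have hsep : (QuadraticMap.associated (R := ℝ) Q).SeparatingLeft := by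
    rw [hQ]
    intro v hv
    by_contra hv0
    obtain ⟨w, hw⟩ := hn v hv0
    exact hw (hv w)
  obtain ⟨w, hw, ⟨e⟩⟩ := QuadraticForm.equivalent_one_neg_one_weighted_sum_squared Q hsep
  refine ⟨_, w, e.toLinearEquiv.toContinuousLinearEquiv, hw, ?_⟩
  have hQe : ∀ v, B v v = ∑ i, w i * (e v i * e v i) := by
    intro v
    have h1 := e.map_app v
    rw [QuadraticMap.weightedSumSquares_apply] at h1
    have h2 : Q v = B v v := rfl
    rw [← h2, ← h1]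
    exact Finset.sum_congr rfl fun i _ => by rw [smul_eq_mul]
  intro u v
  have h1 := hQe (u + v)
  have h2 := hQe u
  have h3 := hQe v
  have h4 : B (u + v) (u + v) = B u u + B v v + 2 * B u v := by
    simp only [map_add, add_apply]
    rw [hs v u]; ring
  have h5 : ∑ i, w i * (e (u + v) i * e (u + v) i) = ∑ i, w i * (e u i * e u i) +
      ∑ i, w i * (e v i * e v i) + 2 * ∑ i, w i * e u i * e v i := by
    rw [Finset.mul_sum, ← Finset.sum_add_distrib, ← Finset.sum_add_distrib]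
    refine Finset.sum_congr rfl fun i _ => ?_
    have : e (u + v) = e u + e v := map_add e.toLinearEquiv u v
    rw [this, Pi.add_apply]; ring
  have h6 : B u v = ∑ i, w i * e u i * e v i := by linarith
  exact h6

/-- partial derivative -/
theorem hasFDerivAt_part {X Y : Type} [NormedAddCommGroup X] [NormedSpace ℝ X]
    [NormedAddCommGroup Y] [NormedSpace ℝ Y] {f : X × Y → ℝ} {x : X} {y : Y}
    {f' : X × Y →L[ℝ] ℝ} (hp : HasFDerivAt f f' (x, y)) :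
    HasFDerivAt (fun y => f (x, y)) (f'.comp (ContinuousLinearMap.inr ℝ X Y)) y :=
  hp.comp y (hasFDerivAt_prodMk_right x y)

/-- restriction of a bilinear map -/
def restr {X Y : Type} [NormedAddCommGroup X] [NormedSpace ℝ X]
    [NormedAddCommGroup Y] [NormedSpace ℝ Y] (D2 : X × Y →L[ℝ] X × Y →L[ℝ] ℝ) :
    Y →L[ℝ] Y →L[ℝ] ℝ :=
  ((ContinuousLinearMap.compL ℝ Y (X × Y) ℝ).flip (ContinuousLinearMap.inr ℝ X Y)).comp
    (D2.comp (ContinuousLinearMap.inr ℝ X Y))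

theorem restr_apply {X Y : Type} [NormedAddCommGroup X] [NormedSpace ℝ X]
    [NormedAddCommGroup Y] [NormedSpace ℝ Y] (D2 : X × Y →L[ℝ] X × Y →L[ℝ] ℝ) (u v : Y) :
    restr D2 u v = D2 (0, u) (0, v) := by
  unfold restr
  simp

theorem second_part {X Y : Type} [NormedAddCommGroup X] [NormedSpace ℝ X]
    [NormedAddCommGroup Y] [NormedSpace ℝ Y] {f : X × Y → ℝ}
    (hdiff : ∀ᶠ p in 𝓝 ((0, 0) : X × Y), HasFDerivAt f (fderiv ℝ f p) p)
    {D2 : X × Y →L[ℝ] X × Y →L[ℝ] ℝ}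
    (h : HasFDerivAt (fderiv ℝ f) D2 (0, 0)) :
    fderiv ℝ (fderiv ℝ (fun y => f ((0 : X), y))) 0 = restr D2 := by
  have h3 : (fderiv ℝ (fun y => f ((0 : X), y))) =ᶠ[𝓝 0]
      fun y => (fderiv ℝ f (0, y)).comp (ContinuousLinearMap.inr ℝ X Y) := by
    have h4 : Tendsto (fun y : Y => ((0 : X), y)) (𝓝 0) (𝓝 (0, 0)) :=
      Continuous.tendsto' (by fun_prop) _ _ rfl
    filter_upwards [h4.eventually hdiff] with y hy
    exact (hasFDerivAt_part hy).fderiv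
  rw [h3.fderiv_eq]
  have h5 : HasFDerivAt (fun y : Y => fderiv ℝ f ((0 : X), y))
      (D2.comp (ContinuousLinearMap.inr ℝ X Y)) 0 :=
    HasFDerivAt.comp (0 : Y) h (hasFDerivAt_prodMk_right (0 : X) (0 : Y))
  have h6 := HasFDerivAt.comp (0 : Y)
    (((ContinuousLinearMap.compL ℝ Y (X × Y) ℝ).flip
      (ContinuousLinearMap.inr ℝ X Y)).hasFDerivAt) h5
  exact h6.fderiv

/-- the local box -/
theorem exists_box {X Y : Type} [NormedAddCommGroup X] [NormedSpace ℝ X]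
    [NormedAddCommGroup Y] [NormedSpace ℝ Y] {f : X × Y → ℝ}
    (hdiff : ∀ᶠ p in 𝓝 ((0, 0) : X × Y), HasFDerivAt f (fderiv ℝ f p) p)
    {D2 : X × Y →L[ℝ] X × Y →L[ℝ] ℝ}
    (hstrict : HasStrictFDerivAt (fderiv ℝ f) D2 (0, 0))
    (h1 : ∀ᶠ x in 𝓝 (0 : X), fderiv ℝ (fun y => f (x, y)) 0 = 0) {ε : ℝ} (hε0 : 0 < ε) :
    ∃ U ∈ 𝓝 (0 : X), ∃ δ : ℝ, 0 < δ ∧ ∀ x ∈ U, ContinuousAt (fun x => f (x, 0)) x ∧
      ∀ y : Y, ‖y‖ ≤ δ → ∃ G : Y →L[ℝ] ℝ, HasFDerivAt (fun y => f (x, y)) G y ∧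
        ∀ v, |G v - D2 (0, y) (0, v)| ≤ ε * ‖y‖ * ‖v‖ := by
  obtain ⟨V, hV, hVp⟩ := hstrict.approximates_deriv_on_nhds (c := ⟨ε, hε0.le⟩) (Or.inr hε0)
  obtain ⟨U0, hU0, W, hW, hUW⟩ := mem_nhds_prod_iff.1 (inter_mem hV hdiff)
  obtain ⟨δ, hδ, hδW⟩ := Metric.nhds_basis_closedBall.mem_iff.1 hW
  refine ⟨U0 ∩ {x | fderiv ℝ (fun y => f (x, y)) 0 = 0}, inter_mem hU0 h1, δ, hδ, ?_⟩
  rintro x ⟨hx0, hx1⟩
  have hx1' : fderiv ℝ (fun y => f (x, y)) 0 = 0 := hx1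
  have hm0 : ((x, 0) : X × Y) ∈ V ∩ {p | HasFDerivAt f (fderiv ℝ f p) p} :=
    hUW ⟨hx0, hδW (by rw [mem_closedBall_zero_iff, norm_zero]; exact hδ.le)⟩
  have hm0d : HasFDerivAt f (fderiv ℝ f (x, 0)) (x, 0) := hm0.2
  refine ⟨?_, ?_⟩
  · exact ContinuousAt.comp (f := fun x : X => (x, (0 : Y))) (g := f) hm0d.continuousAt
      (Continuous.continuousAt (by fun_prop))
  intro y hy
  have hm1 : ((x, y) : X × Y) ∈ V ∩ {p | HasFDerivAt f (fderiv ℝ f p) p} :=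
    hUW ⟨hx0, hδW (by rw [mem_closedBall_zero_iff]; exact hy)⟩
  have hm1d : HasFDerivAt f (fderiv ℝ f (x, y)) (x, y) := hm1.2
  have hz : ∀ v : Y, fderiv ℝ f (x, 0) (0, v) = 0 := by
    intro v
    have h3 := (hasFDerivAt_part hm0d).fderiv
    rw [hx1'] at h3
    have h6 := congrArg (fun L : Y →L[ℝ] ℝ => L v) h3
    simpa using h6.symm
  refine ⟨_, hasFDerivAt_part hm1d, fun v => ?_⟩
  have h3 : ‖fderiv ℝ f (x, y) - fderiv ℝ f (x, 0) - D2 ((x, y) - (x, 0))‖ ≤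
      ε * ‖((x, y) : X × Y) - (x, 0)‖ := hVp _ hm1.1 _ hm0.1
  have h4 : ((x, y) : X × Y) - (x, 0) = (0, y) := by simp
  rw [h4] at h3
  have h5 : ∀ u : Y, ‖((0 : X), u)‖ = ‖u‖ := fun u => by
    rw [Prod.norm_def, norm_zero, max_eq_right (norm_nonneg _)]
  rw [h5] at h3
  have h6 := (fderiv ℝ f (x, y) - fderiv ℝ f (x, 0) - D2 (0, y)).le_of_opNorm_le h3 ((0 : X), v)
  rw [h5] at h6
  simp only [sub_apply] at h6
  rw [hz, sub_zero, Real.norm_eq_abs] at h6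
  simpa using h6

/-- **the saddle lemma** -/
theorem saddle {X Y : Type} [NormedAddCommGroup X] [NormedSpace ℝ X]
    [NormedAddCommGroup Y] [NormedSpace ℝ Y] [FiniteDimensional ℝ Y]
    (f : X × Y → ℝ) (hf : ContDiffAt ℝ 2 f (0, 0))
    (h1 : ∀ᶠ x in 𝓝 (0 : X), fderiv ℝ (fun y => f (x, y)) 0 = 0)
    (h2 : ∀ v : Y, v ≠ 0 → ∃ w : Y,
      (fderiv ℝ (fderiv ℝ (fun y => f ((0 : X), y))) 0) v w ≠ 0)
    (h0 : f (0, 0) = 0) (C : ℕ) (hL : LB (0 : X) {x | f (x, 0) < 0} C) :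
    LB ((0, 0) : X × Y) {p | f p < 0} C := by
  -- first derivatives
  have hdiff : ∀ᶠ p in 𝓝 ((0, 0) : X × Y), HasFDerivAt f (fderiv ℝ f p) p := by
    have h3 : ∀ᶠ p in 𝓝 ((0, 0) : X × Y), ContDiffAt ℝ 2 f p :=
      hf.eventually (by simp)
    filter_upwards [h3] with p hp
    exact (hp.differentiableAt two_ne_zero).hasFDerivAt
  have hf1 : ContDiffAt ℝ 1 (fderiv ℝ f) (0, 0) := hf.fderiv_right (by norm_num)
  have hstrict := hf1.hasStrictFDerivAt one_ne_zero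
  have hsymm := hf.isSymmSndFDerivAt (by simp [minSmoothness_of_isRCLikeNormedField])
  have hsec := second_part hdiff hstrict.hasFDerivAt
  rw [hsec] at h2
  have hsy : ∀ u v, restr (fderiv ℝ (fderiv ℝ f) ((0, 0) : X × Y)) u v =
      restr (fderiv ℝ (fderiv ℝ f) ((0, 0) : X × Y)) v u := by
    intro u v
    rw [restr_apply, restr_apply]
    exact hsymm.eq _ _
  generalize fderiv ℝ (fderiv ℝ f) ((0, 0) : X × Y) = D2 at hstrict h2 hsec hsy
  obtain ⟨n, w, e, hw, he⟩ := exists_diag (restr D2) hsy h2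
  have hκe : ∀ y, ‖e.symm y‖ ≤ ‖(e.symm : (Fin n → ℝ) →L[ℝ] Y)‖ * ‖y‖ := fun y =>
    (e.symm : (Fin n → ℝ) →L[ℝ] Y).le_opNorm y
  have hκ0 : 0 ≤ ‖(e.symm : (Fin n → ℝ) →L[ℝ] Y)‖ := norm_nonneg _
  generalize ‖(e.symm : (Fin n → ℝ) →L[ℝ] Y)‖ = κ at hκe hκ0
  have hε0 : 0 < 1 / (2 * (κ * κ + 1)) := by positivity
  obtain ⟨U, hUn, δ, hδ, hU⟩ := exists_box hdiff hstrict h1 hε0
  have hρ0 : 0 < δ / (κ + 1) := by positivity
  have hbox : SadBox (fun p : X × (Fin n → ℝ) => f (p.1, e.symm p.2)) w U (δ / (κ + 1)) := by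
    refine ⟨hw, ?_⟩
    intro x hx y hy
    have hy' : ‖e.symm y‖ ≤ δ := by
      refine (hκe y).trans ?_
      calc κ * ‖y‖ ≤ κ * (δ / (κ + 1)) := mul_le_mul_of_nonneg_left hy hκ0
        _ ≤ δ := by
          rw [mul_div_assoc', div_le_iff₀ (by positivity)]
          nlinarith
    obtain ⟨G, hG, hG'⟩ := (hU x hx).2 (e.symm y) hy'
    refine ⟨G.comp (e.symm : (Fin n → ℝ) →L[ℝ] Y), ?_, ?_⟩
    · exact HasFDerivAt.comp y hG (e.symm : (Fin n → ℝ) →L[ℝ] Y).hasFDerivAt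
    · intro v
      have h3 := hG' (e.symm v)
      have h9 := he (e.symm y) (e.symm v)
      rw [restr_apply] at h9
      simp only [ContinuousLinearEquiv.apply_symm_apply] at h9
      rw [h9] at h3
      refine h3.trans ?_
      have h9 := hκe y
      have h10 := hκe v
      have h11 : 1 / (2 * (κ * κ + 1)) * ‖e.symm y‖ * ‖e.symm v‖ ≤
          1 / (2 * (κ * κ + 1)) * (κ * ‖y‖) * (κ * ‖v‖) := by
        gcongr
      refine h11.trans ?_
      have h12 : 1 / (2 * (κ * κ + 1)) * (κ * κ) ≤ 1 / 2 := by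
        rw [one_div_mul_eq_div, div_le_div_iff₀ (by positivity) (by norm_num)]
        nlinarith
      calc 1 / (2 * (κ * κ + 1)) * (κ * ‖y‖) * (κ * ‖v‖) =
          (1 / (2 * (κ * κ + 1)) * (κ * κ)) * (‖y‖ * ‖v‖) := by ring
        _ ≤ (1 / 2) * (‖y‖ * ‖v‖) := by gcongr
        _ = 1 / 2 * ‖y‖ * ‖v‖ := by ring
  -- the coordinate version
  have hF0 : ∀ x : X, f (x, e.symm 0) = f (x, 0) := fun x => by rw [map_zero]
  have hLF : LB ((0, 0) : X × (Fin n → ℝ)) {p | f (p.1, e.symm p.2) < 0} C := by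
    refine LB_of_SadBox (F := fun p : X × (Fin n → ℝ) => f (p.1, e.symm p.2)) hbox hρ0 hUn ?_ ?_ ?_
    · show ContinuousOn (fun x : X => f (x, e.symm 0)) U
      have h3 : (fun x : X => f (x, e.symm 0)) = fun x => f (x, 0) := funext hF0
      rw [h3]
      exact fun x hx => (hU x hx).1.continuousWithinAt
    · show f (0, e.symm 0) = 0
      rw [hF0]; exact h0
    · show LB (0 : X) {x | f (x, e.symm 0) < 0} C
      have h3 : {x : X | f (x, e.symm 0) < 0} = {x | f (x, 0) < 0} := by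
        ext x; rw [mem_setOf_eq, mem_setOf_eq, hF0]
      rw [h3]; exact hL
  refine LB.of_inv hLF (W := univ) (W' := univ) univ_mem univ_mem
    (φ := fun p : X × Y => (p.1, e p.2)) (ψ := fun p : X × (Fin n → ℝ) => (p.1, e.symm p.2))
    (Continuous.continuousOn (by fun_prop)) (Continuous.continuousOn (by fun_prop))
    (by simp) (by simp) ?_ ?_ ?_
  · rintro ⟨x, y⟩ _
    simp
  · rintro ⟨x, y⟩ _ hp
    show f (x, e.symm (e y)) < 0
    rw [ContinuousLinearEquiv.symm_apply_apply]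
    exact hp
  · rintro ⟨x, y⟩ _ hp
    exact hp

end Crest.Agent.R231.GMSadx888
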