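import Crest.Agent.R231.GPoly_943
import Crest.Agent.R231.FinDim_315

/-!
# Row 231 (S0357), block G, part G4a (helper943): finite dimensional approximation

* `ENR M E` : `M` is a retract of an open subset of the normed space `E`
* `factor_gen` : abstract form
* `factor_X`, `factor_base` : for `a < b`, `b/N < r0`, the inclusion `X M a → X M b` (of based loops)
  factors up to homotopy through a map into an open subset of `Fin N → E` with image in a compact
  subset; `finRk_X`, `finRk_base` : finite rank in homology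
* `enrSphere` : the unit sphere;  `ENR.congr` : transport along a homeomorphism
-/

set_option autoImplicit false
set_option linter.unusedSectionVars false

open Set Filter Topology

namespace Crest.Agent.R231.GPolyx943

open GLugx576 FinDim315

/-- Euclidean neighbourhood retracts -/
structure ENR (M E : Type*) [TopologicalSpace M] [TopologicalSpace E] where
  /-- the embedding -/
  ι : C(M, E)
  /-- the open set -/
  U : Set E
  isOpen_U : IsOpen U
  /-- the retraction -/
  ρ : E → M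
  contOn : ContinuousOn ρ U
  ι_mem : ∀ x, ι x ∈ U
  ρ_ι : ∀ x, ρ (ι x) = x

/-- transport along a homeomorphism -/
def ENR.congr {M M' E : Type*} [TopologicalSpace M] [TopologicalSpace M'] [TopologicalSpace E]
    (D : ENR M E) (e : M ≃ₜ M') : ENR M' E where
  ι := D.ι.comp (e.symm : C(M', M))
  U := D.U
  isOpen_U := D.isOpen_U
  ρ x := e (D.ρ x)
  contOn := e.continuous.comp_continuousOn D.contOn
  ι_mem x := D.ι_mem _
  ρ_ι x := by
    show e (D.ρ (D.ι (e.symm x))) = x
    rw [D.ρ_ι]; simp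

open Classical in
/-- radial projection to the unit sphere -/
noncomputable def rhoS {V : Type*} [NormedAddCommGroup V] [NormedSpace ℝ V]
    (v0 : Metric.sphere (0 : V) 1) (x : V) : Metric.sphere (0 : V) 1 :=
  if h : x = 0 then v0 else
    ⟨‖x‖⁻¹ • x, by
      rw [mem_sphere_zero_iff_norm, norm_smul, norm_inv, norm_norm,
        inv_mul_cancel₀ (norm_ne_zero_iff.2 h)]⟩

theorem rhoS_coe {V : Type*} [NormedAddCommGroup V] [NormedSpace ℝ V]
    (v0 : Metric.sphere (0 : V) 1) {x : V} (h : x ≠ 0) : (rhoS v0 x : V) = ‖x‖⁻¹ • x := by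
  unfold rhoS
  rw [dif_neg h]

/-- the unit sphere -/
noncomputable def enrSphere (V : Type*) [NormedAddCommGroup V] [NormedSpace ℝ V]
    (v0 : Metric.sphere (0 : V) 1) : ENR (Metric.sphere (0 : V) 1) V where
  ι := ⟨Subtype.val, continuous_subtype_val⟩
  U := {0}ᶜ
  isOpen_U := isOpen_compl_singleton
  ρ := rhoS v0
  contOn := by
    rw [continuousOn_iff_continuous_domRestrict]
    refine continuous_induced_rng.2 ?_
    have h1 : Continuous (fun x : (({0} : Set V)ᶜ : Set V) => ‖(x : V)‖⁻¹ • (x : V)) := by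
      refine Continuous.smul (Continuous.inv₀ (continuous_norm.comp continuous_subtype_val) ?_)
        continuous_subtype_val
      intro x
      exact norm_ne_zero_iff.2 x.2
    refine h1.congr fun x => ?_
    exact (rhoS_coe v0 x.2).symm
  ι_mem x := by
    show (x : V) ≠ 0
    intro h
    have h2 := x.2
    rw [h, mem_sphere_zero_iff_norm, norm_zero] at h2
    exact zero_ne_one h2
  ρ_ι x := by
    have h0 : (x : V) ≠ 0 := by
      intro h
      have h2 := x.2
      rw [h, mem_sphere_zero_iff_norm, norm_zero] at h2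
      exact zero_ne_one h2
    refine Subtype.ext ?_
    have h3 : ‖(x : V)‖ = 1 := mem_sphere_zero_iff_norm.1 x.2
    refine (rhoS_coe v0 h0).trans ?_
    rw [h3, inv_one, one_smul]

/-- based loops -/
def Om (M : Type*) [MetricSpace M] (p : M) (t : ℝ) : Set (Lp M) := {γ | γ ∈ X M t ∧ γ 0 = p}

theorem Om_mono {M : Type*} [MetricSpace M] {p : M} {s t : ℝ} (h : s ≤ t) :
    Om M p s ⊆ Om M p t := fun _ hγ => ⟨X_mono h hγ.1, hγ.2⟩

variable {M : Type} [MetricSpace M] {L : LUG M} {N : ℕ}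

/-- the admissible set of node vectors -/
def OO {E' : Type} (O1 : Set E') (nd : E' → ℕ → M) (N : ℕ) (r : ℝ) : Set E' :=
  O1 ∩ ⋂ i : Fin N, {x | dist (nd x i) (nd x (i + 1)) < r}

theorem isOpen_OO {E' : Type} [TopologicalSpace E'] {O1 : Set E'} (hO : IsOpen O1)
    {nd : E' → ℕ → M} (hnd : ∀ i ≤ N, ContinuousOn (fun x => nd x i) O1) (r : ℝ) :
    IsOpen (OO O1 nd N r) := by
  have e : OO O1 nd N r = O1 ∩ ⋂ i : Fin N, (O1 ∩ {x | dist (nd x i) (nd x (i + 1)) < r}) := by
    ext x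
    simp only [OO, mem_inter_iff, mem_iInter, mem_ofPred_eq]
    constructor
    · rintro ⟨h1, h2⟩; exact ⟨h1, fun i => ⟨h1, h2 i⟩⟩
    · rintro ⟨h1, h2⟩; exact ⟨h1, fun i => (h2 i).2⟩
  rw [e]
  refine hO.inter (isOpen_iInter_of_finite fun i => ?_)
  have h1 : ContinuousOn (fun x => dist (nd x i) (nd x (i + 1))) O1 :=
    continuous_dist.comp_continuousOn ((hnd _ i.2.le).prodMk (hnd _ i.2))
  exact h1.isOpen_inter_preimage hO isOpen_Iio

/-- **abstract factorisation** -/
theorem factor_gen [CompactSpace M] {E' : Type} [TopologicalSpace E'] {O1 : Set E'}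
    (hO : IsOpen O1) {nd : E' → ℕ → M} (hnd : ∀ i ≤ N, ContinuousOn (fun x => nd x i) O1)
    (hper : ∀ x ∈ O1, nd x N = nd x 0) {b : ℝ} (hN : 0 < N) (hb : b / N < L.r0)
    {Sa Sb : Set (Lp M)} (hSa : IsCompact Sa) (hab : Sa ⊆ Sb) (hSb : Sb ⊆ X M b)
    (hst : Stab L N Sb) {samp : Lp M → E'} (hs : Continuous samp) (hs1 : ∀ γ ∈ Sa, samp γ ∈ O1)
    (hs2 : ∀ γ ∈ Sa, ∀ i ≤ N, nd (samp γ) i = nodes N γ i)
    (hs3 : ∀ γ ∈ Sa, ∀ i < N, dist (nodes N γ i) (nodes N γ (i + 1)) < b / N)
    (hpol : ∀ x ∈ OO O1 nd N (b / N), pol L N (nd x) ∈ Sb) :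
    ∃ K O : Set E', IsCompact K ∧ IsOpen O ∧ K ⊆ O ∧ ∃ (f : C(Sa, O)) (g : C(O, Sb)),
      (∀ x, (f x : E') ∈ K) ∧
      (⟨inclusion hab, continuous_inclusion hab⟩ : C(Sa, Sb)).Homotopic (g.comp f) := by
  have hgood : ∀ x ∈ OO O1 nd N (b / N), Good L N (nd x) := fun x hx =>
    ⟨hN, hper x hx.1, fun i hi => (mem_iInter.1 hx.2 ⟨i, hi⟩).trans hb⟩
  have hmem : ∀ γ ∈ Sa, samp γ ∈ OO O1 nd N (b / N) := fun γ hγ => by
    refine ⟨hs1 γ hγ, mem_iInter.2 fun i => ?_⟩
    show dist (nd (samp γ) i) (nd (samp γ) (i + 1)) < b / N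
    rw [hs2 γ hγ _ i.2.le, hs2 γ hγ _ i.2]
    exact hs3 γ hγ i i.2
  have hcp : ContinuousOn (fun x => pol L N (nd x)) (OO O1 nd N (b / N)) :=
    contOn_pol (fun i hi => (hnd i hi).mono inter_subset_left) hgood
  let f : C(Sa, OO O1 nd N (b / N)) :=
    ⟨fun γ => ⟨samp γ, hmem γ γ.2⟩, (hs.comp continuous_subtype_val).subtype_mk _⟩
  let g : C(OO O1 nd N (b / N), Sb) :=
    ⟨fun x => ⟨pol L N (nd x), hpol x x.2⟩,
      (continuousOn_iff_continuous_domRestrict.1 hcp).subtype_mk _⟩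
  refine ⟨samp '' Sa, OO O1 nd N (b / N), hSa.image hs, isOpen_OO hO hnd _, ?_, f, g, ?_, ?_⟩
  · rintro _ ⟨γ, hγ, rfl⟩
    exact hmem γ hγ
  · intro γ
    exact ⟨γ, γ.2, rfl⟩
  · obtain ⟨G, hG, hh⟩ := homotopic_pol (L := L) hN hb hSb hst
      (⟨inclusion hab, continuous_inclusion hab⟩ : C(Sa, Sb))
    have e : G = g.comp f := by
      ext1 γ
      refine Subtype.ext ?_
      rw [hG]
      show pol L N (nodes N (γ : Lp M)) = pol L N (nd (samp γ))
      have h1 : Good L N (nodes N (γ : Lp M)) := good_nodes hN (hSb (hab γ.2)) hb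
      have h2 := hgood _ (hmem γ γ.2)
      ext x
      obtain ⟨u, hu, rfl⟩ := exists_Icc x
      obtain ⟨i, hi, hx⟩ := exists_arc hN hu
      rw [pol_apply h1 hi hx, pol_apply h2 hi hx, hs2 γ γ.2 _ hi.le, hs2 γ γ.2 _ hi]
    rw [← e]
    exact hh

/-! ### the node maps -/

section nodes

variable {E : Type} [NormedAddCommGroup E] [NormedSpace ℝ E] (D : ENR M E)

/-- reduction mod `N` -/
def ix (hN : 0 < N) (i : ℕ) : Fin N := ⟨i % N, Nat.mod_lt _ hN⟩

/-- nodes of a vector, free loops -/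
def ndF (hN : 0 < N) (x : Fin N → E) (i : ℕ) : M := D.ρ (x (ix hN i))

/-- nodes of a vector, based loops -/
def ndB (hN : 0 < N) (p : M) (x : Fin N → E) (i : ℕ) : M :=
  if i % N = 0 then p else D.ρ (x (ix hN i))

/-- sampling -/
noncomputable def samp (N : ℕ) (γ : Lp M) : Fin N → E := fun i => D.ι (nodes N γ i)

theorem continuous_samp : Continuous (samp (N := N) D) :=
  continuous_pi fun i => D.ι.continuous.comp (continuous_nodes i)

theorem samp_mem (γ : Lp M) : samp (N := N) D γ ∈ Set.univ.pi fun _ : Fin N => D.U :=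
  fun _ _ => D.ι_mem _

theorem isOpen_pi : IsOpen (Set.univ.pi fun _ : Fin N => D.U) :=
  isOpen_set_pi finite_univ fun _ _ => D.isOpen_U

theorem contOn_ndF (hN : 0 < N) (i : ℕ) :
    ContinuousOn (fun x => ndF D hN x i) (Set.univ.pi fun _ : Fin N => D.U) := by
  refine D.contOn.comp (continuous_apply _).continuousOn ?_
  intro x hx
  exact hx _ trivial

theorem contOn_ndB (hN : 0 < N) (p : M) (i : ℕ) :
    ContinuousOn (fun x => ndB D hN p x i) (Set.univ.pi fun _ : Fin N => D.U) := by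
  unfold ndB
  split_ifs
  · exact continuousOn_const
  · exact contOn_ndF D hN i

theorem ndF_samp (hN : 0 < N) (γ : Lp M) (i : ℕ) : ndF D hN (samp D N γ) i = nodes N γ i := by
  unfold ndF samp
  rw [D.ρ_ι]
  exact nodes_mod hN γ i

theorem ndB_samp (hN : 0 < N) {p : M} {γ : Lp M} (hγ : γ 0 = p) (i : ℕ) :
    ndB D hN p (samp D N γ) i = nodes N γ i := by
  unfold ndB
  split_ifs with h
  · rw [← nodes_mod hN, h, nodes_zero, hγ]
  · exact ndF_samp D hN γ i

theorem ndF_per (hN : 0 < N) (x : Fin N → E) : ndF D hN x N = ndF D hN x 0 := by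
  unfold ndF ix; simp

theorem ndB_per (hN : 0 < N) (p : M) (x : Fin N → E) : ndB D hN p x N = ndB D hN p x 0 := by
  unfold ndB ix; simp

variable [CompactSpace M]

/-- **finite dimensional approximation of the free loops** -/
theorem factor_X (D : ENR M E) {a b : ℝ} (hab : a < b) (hN : 0 < N) (hb : b / N < L.r0) :
    ∃ K O : Set (Fin N → E), IsCompact K ∧ IsOpen O ∧ K ⊆ O ∧
      ∃ (f : C(X M a, O)) (g : C(O, X M b)), (∀ x, (f x : Fin N → E) ∈ K) ∧
      (⟨inclusion (X_mono hab.le), continuous_inclusion (X_mono hab.le)⟩ :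
        C(X M a, X M b)).Homotopic (g.comp f) := by
  have hN' : (0 : ℝ) < N := by exact_mod_cast hN
  refine factor_gen (L := L) (isOpen_pi D) (fun i _ => contOn_ndF D hN i)
    (fun x _ => ndF_per D hN x) hN hb (isCompact_X a) (X_mono hab.le) (Subset.refl _)
    (stab_X hN hb) (continuous_samp D) (fun γ _ => samp_mem D γ)
    (fun γ _ i _ => ndF_samp D hN γ i) ?_ ?_
  · intro γ hγ i _
    exact (dist_nodes hγ i).trans_lt (by gcongr)
  · intro x hx
    have h1 : ∀ i < N, dist (ndF D hN x i) (ndF D hN x (i + 1)) < b / N := fun i hi =>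
      mem_iInter.1 hx.2 ⟨i, hi⟩
    exact pol_mem ⟨hN, ndF_per D hN x, fun i hi => (h1 i hi).trans hb⟩ fun i hi => (h1 i hi).le

/-- **finite dimensional approximation of the based loops** -/
theorem factor_base (D : ENR M E) {a b : ℝ} (hab : a < b) (hN : 0 < N) (hb : b / N < L.r0) (p : M) :
    ∃ K O : Set (Fin N → E), IsCompact K ∧ IsOpen O ∧ K ⊆ O ∧
      ∃ (f : C(Om M p a, O)) (g : C(O, Om M p b)),
      (∀ x, (f x : Fin N → E) ∈ K) ∧
      (⟨inclusion (Om_mono hab.le), continuous_inclusion (Om_mono hab.le)⟩ :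
        C(Om M p a, Om M p b)).Homotopic (g.comp f) := by
  have hN' : (0 : ℝ) < N := by exact_mod_cast hN
  have hcl : IsClosed {γ : Lp M | γ 0 = p} :=
    isClosed_eq (continuous_eval_const _) continuous_const
  refine factor_gen (L := L) (isOpen_pi D) (fun i _ => contOn_ndB D hN p i)
    (fun x _ => ndB_per D hN p x) hN hb ((isCompact_X a).inter_right hcl)
    (Om_mono hab.le) (fun _ h => h.1)
    (stab_base hN hb p) (continuous_samp D) (fun γ _ => samp_mem D γ)
    (fun γ hγ i _ => ndB_samp D hN hγ.2 i) ?_ ?_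
  · intro γ hγ i _
    exact (dist_nodes hγ.1 i).trans_lt (by gcongr)
  · intro x hx
    have h1 : ∀ i < N, dist (ndB D hN p x i) (ndB D hN p x (i + 1)) < b / N := fun i hi =>
      mem_iInter.1 hx.2 ⟨i, hi⟩
    have h2 : Good L N (ndB D hN p x) := ⟨hN, ndB_per D hN p x, fun i hi => (h1 i hi).trans hb⟩
    refine ⟨pol_mem h2 fun i hi => (h1 i hi).le, ?_⟩
    have h3 := pol_zero h2
    have e0 : ((0 : ℝ) : UnitAddCircle) = 0 := rfl
    rw [e0] at h3
    rw [h3]
    unfold ndB; simp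

/-- a suitable number of arcs -/
theorem exists_N (L : LUG M) (b : ℝ) : ∃ N : ℕ, 0 < N ∧ b / N < L.r0 := by
  obtain ⟨N, hN⟩ := exists_nat_gt (b / L.r0)
  refine ⟨N + 1, Nat.succ_pos N, ?_⟩
  have h1 := L.r0_pos
  rw [div_lt_iff₀ h1] at hN
  rw [div_lt_iff₀ (by positivity)]
  push_cast
  nlinarith

/-- **finite rank for the free loops** -/
theorem finRk_X (D : ENR M E) (L : LUG M) {a b : ℝ} (hab : a < b) :
    FinRk (Crest.Agent.R204.SpecA.Hm (⟨inclusion (X_mono hab.le),
      continuous_inclusion (X_mono hab.le)⟩ : C(X M a, X M b))) := by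
  obtain ⟨N, hN, hb⟩ := exists_N L b
  obtain ⟨K, O, hK, hO, hKO, f, g, hf, hh⟩ := factor_X (L := L) D hab hN hb
  exact finRk_of_factor hK hO hKO f hf g _ hh

/-- **finite rank for the based loops** -/
theorem finRk_base (D : ENR M E) (L : LUG M) {a b : ℝ} (hab : a < b) (p : M) :
    FinRk (Crest.Agent.R204.SpecA.Hm (⟨inclusion (Om_mono hab.le), continuous_inclusion (Om_mono hab.le)⟩ :
      C(Om M p a, Om M p b))) := by
  obtain ⟨N, hN, hb⟩ := exists_N L b
  obtain ⟨K, O, hK, hO, hKO, f, g, hf, hh⟩ := factor_base (L := L) D hab hN hb p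
  exact finRk_of_factor hK hO hKO f hf g _ hh

end nodes

end Crest.Agent.R231.GPolyx943
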