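import Crest.Agent.R231.GLoop_576

/-!
# Row 231 (S0357), block G/GM: loops of closed polygons with arbitrary break points (helper610)

`L : LUG M` a metric space with unique short geodesics (576).

* `Adm L K b T t` : `b 0, …, b K = b 0` is a closed polygon with short edges, `T 0 ≤ … ≤ T K = T 0 + 1`
  are break points and `dist (b i) (b (i+1)) ≤ t * (T (i+1) - T i)`
* `tp L K b T : Lp M` : the loop with `tp (T i + s (T (i+1) - T i)) = seg (b i) (b (i+1)) s`
  (degenerate edges are allowed)
* `tp_spec`, `tp_ext`, `tp_mem` (`∈ X M t`), `continuousOn_tp` : continuity in `(b, T)`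
* `Adm.convex`, `Adm.mono_level`, `tp_refine`, `tp_of_geo`
* `al b T0` : arclength break points, `Adm_al`, `continuousOn_al`
-/

set_option autoImplicit false
set_option linter.unusedSectionVars false

open Set Filter Topology

namespace Crest.Agent.R231.KGonx610

open Crest.Agent.R231.GLugx576

variable {M : Type*} [MetricSpace M]

/-- admissible data of a closed `K`-gon with break points `T` at level `t` -/
structure Adm (L : LUG M) (K : ℕ) (b : ℕ → M) (T : ℕ → ℝ) (t : ℝ) : Prop where
  closed : b K = b 0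
  period : T K = T 0 + 1
  mono : ∀ i < K, T i ≤ T (i + 1)
  lip : ∀ i < K, dist (b i) (b (i + 1)) ≤ t * (T (i + 1) - T i)
  short : ∀ i < K, dist (b i) (b (i + 1)) < L.r0

section basic

variable {L : LUG M} {K : ℕ} {b : ℕ → M} {T : ℕ → ℝ} {t : ℝ}

theorem Adm.T_le (h : Adm L K b T t) {i j : ℕ} (hij : i ≤ j) (hj : j ≤ K) : T i ≤ T j := by
  induction j, hij using Nat.le_induction with
  | base => exact le_rfl
  | succ j hij ih => exact (ih (by omega)).trans (h.mono j (by omega))

theorem Adm.dist_le (h : Adm L K b T t) {i j : ℕ} (hij : i ≤ j) (hj : j ≤ K) :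
    dist (b i) (b j) ≤ t * (T j - T i) := by
  induction j, hij using Nat.le_induction with
  | base => simp
  | succ j hij ih =>
    have h1 := ih (by omega)
    have h2 := h.lip j (by omega)
    have h3 := dist_triangle (b i) (b j) (b (j + 1))
    linarith

theorem Adm.pos (h : Adm L K b T t) : 0 < K := by
  rcases Nat.eq_zero_or_pos K with h0 | h0
  · have := h.period
    rw [h0] at this
    linarith
  · exact h0

theorem Adm.level_nonneg (h : Adm L K b T t) : 0 ≤ t := by
  have h1 := h.dist_le (Nat.zero_le K) le_rfl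
  rw [h.period, h.closed, dist_self] at h1
  linarith

theorem Adm.eq_of_T_eq (h : Adm L K b T t) {i j : ℕ} (hij : i ≤ j) (hj : j ≤ K)
    (hT : T i = T j) : b i = b j := by
  have h1 := h.dist_le hij hj
  rw [hT, sub_self, mul_zero] at h1
  exact dist_le_zero.1 h1

/-- the index of a time -/
theorem Adm.exists_index (h : Adm L K b T t) {x : ℝ} (h0 : T 0 ≤ x) (h1 : x ≤ T K) :
    ∃ i < K, T i ≤ x ∧ x ≤ T (i + 1) := by
  have key : ∀ j, j ≤ K → x ≤ T j → ∃ i < K, T i ≤ x ∧ x ≤ T (i + 1) := by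
    intro j
    induction j with
    | zero =>
      intro _ hx
      exact ⟨0, h.pos, h0, hx.trans (h.mono 0 h.pos)⟩
    | succ j ih =>
      intro hj hx
      rcases le_total x (T j) with hx' | hx'
      · exact ih (by omega) hx'
      · exact ⟨j, by omega, hx', hx⟩
  exact key K le_rfl h1

/-- the parameter of a time in an interval -/
theorem exists_param {u v x : ℝ} (h0 : u ≤ x) (h1 : x ≤ v) :
    ∃ s ∈ Icc (0 : ℝ) 1, x = u + s * (v - u) := by
  rcases h0.eq_or_lt with h | h
  · exact ⟨0, ⟨le_rfl, zero_le_one⟩, by rw [zero_mul, add_zero, h]⟩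
  · have hv : 0 < v - u := by linarith
    refine ⟨(x - u) / (v - u), ⟨div_nonneg (by linarith) hv.le, ?_⟩, ?_⟩
    · rw [div_le_one hv]; linarith
    · field_simp
      ring

theorem Adm.exists_rep (h : Adm L K b T t) {x : ℝ} (h0 : T 0 ≤ x) (h1 : x ≤ T K) :
    ∃ i < K, ∃ s ∈ Icc (0 : ℝ) 1, x = T i + s * (T (i + 1) - T i) := by
  obtain ⟨i, hi, h2, h3⟩ := h.exists_index h0 h1
  obtain ⟨s, hs, hx⟩ := exists_param h2 h3
  exact ⟨i, hi, s, hs, hx⟩

/-- the polygonal path -/
noncomputable def pw (L : LUG M) (K : ℕ) (b : ℕ → M) (T : ℕ → ℝ) (x : ℝ) : M := by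
  classical
  exact L.seg (b (Nat.findGreatest (fun i => T i ≤ x) (K - 1)))
    (b (Nat.findGreatest (fun i => T i ≤ x) (K - 1) + 1))
    ((x - T (Nat.findGreatest (fun i => T i ≤ x) (K - 1))) /
      (T (Nat.findGreatest (fun i => T i ≤ x) (K - 1) + 1) -
        T (Nat.findGreatest (fun i => T i ≤ x) (K - 1))))

theorem pw_spec (h : Adm L K b T t) {i : ℕ} (hi : i < K) {s : ℝ} (hs : s ∈ Icc (0 : ℝ) 1) :
    pw L K b T (T i + s * (T (i + 1) - T i)) = L.seg (b i) (b (i + 1)) s := by
  classical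
  set x := T i + s * (T (i + 1) - T i) with hx
  have hd : 0 ≤ T (i + 1) - T i := by linarith [h.mono i hi]
  have hx0 : T i ≤ x := by
    have := mul_nonneg hs.1 hd
    linarith
  have hx1 : x ≤ T (i + 1) := by
    have := mul_le_mul_of_nonneg_right hs.2 hd
    linarith
  unfold pw
  set j := Nat.findGreatest (fun i => T i ≤ x) (K - 1) with hj
  have hij : i ≤ j := Nat.le_findGreatest (by omega) hx0
  have hjK : j ≤ K - 1 := Nat.findGreatest_le _
  have hTj : T j ≤ x := Nat.findGreatest_spec (P := fun i => T i ≤ x) (m := i) (by omega) hx0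
  have hpos := h.pos
  rcases hij.eq_or_lt with he | hlt
  · rw [← he]
    rcases hd.eq_or_lt with h0 | h0
    · have hb : b i = b (i + 1) := h.eq_of_T_eq (by omega) (by omega) (by linarith)
      rw [← hb, L.seg_self _ hs, ← h0, div_zero]
      exact L.seg_self _ ⟨le_rfl, zero_le_one⟩
    · congr 1
      rw [hx]
      field_simp
      ring
  · have h1 : T (i + 1) ≤ T j := h.T_le hlt (by omega)
    have h2 : T j = x := le_antisymm hTj (hx1.trans h1)
    have h3 : T (i + 1) = T j := le_antisymm h1 (by rw [h2]; exact hx1)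
    have hb : b (i + 1) = b j := h.eq_of_T_eq hlt (by omega) h3
    have hshj := h.short j (by omega)
    have hshi := h.short i hi
    rw [← h2, sub_self, zero_div, L.seg_zero hshj, ← hb]
    have h4 : (1 - s) * (T (i + 1) - T i) = 0 := by
      have : x = T (i + 1) := by rw [h3, h2]
      rw [hx] at this
      linarith
    rcases mul_eq_zero.1 h4 with h5 | h5
    · have : s = 1 := by linarith
      rw [this, L.seg_one hshi]
    · have hb' : b i = b (i + 1) := h.eq_of_T_eq (by omega) (by omega) (by linarith)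
      rw [hb', L.seg_self _ hs]

theorem pw_T (h : Adm L K b T t) {i : ℕ} (hi : i ≤ K) : pw L K b T (T i) = b i := by
  rcases hi.eq_or_lt with he | hlt
  · have hp := h.pos
    obtain ⟨k, hk⟩ : ∃ k, K = k + 1 := ⟨K - 1, by omega⟩
    have h1 := pw_spec h (i := k) (by omega) (s := 1) ⟨zero_le_one, le_rfl⟩
    rw [one_mul, add_sub_cancel, L.seg_one (h.short k (by omega))] at h1
    rw [he, hk] at *
    exact h1
  · have h1 := pw_spec h hlt (s := 0) ⟨le_rfl, zero_le_one⟩
    rwa [zero_mul, add_zero, L.seg_zero (h.short i hlt)] at h1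

theorem pw_lip (h : Adm L K b T t) {x y : ℝ} (h0 : T 0 ≤ x) (hxy : x ≤ y) (h1 : y ≤ T K) :
    dist (pw L K b T x) (pw L K b T y) ≤ t * (y - x) := by
  obtain ⟨i, hi, s, hs, hx⟩ := h.exists_rep h0 (hxy.trans h1)
  obtain ⟨j, hj, s', hs', hy⟩ := h.exists_rep (h0.trans hxy) h1
  have hdi : 0 ≤ T (i + 1) - T i := by linarith [h.mono i hi]
  have hdj : 0 ≤ T (j + 1) - T j := by linarith [h.mono j hj]
  have ht := h.level_nonneg
  have same : ∀ k < K, ∀ u ∈ Icc (0 : ℝ) 1, ∀ v ∈ Icc (0 : ℝ) 1,
      x = T k + u * (T (k + 1) - T k) → y = T k + v * (T (k + 1) - T k) →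
      dist (pw L K b T x) (pw L K b T y) ≤ t * (y - x) := by
    intro k hk u hu v hv hxk hyk
    rw [hxk, hyk, pw_spec h hk hu, pw_spec h hk hv, L.dist_seg (h.short k hk) hu hv]
    have hd : 0 ≤ T (k + 1) - T k := by linarith [h.mono k hk]
    have e : t * (T k + v * (T (k + 1) - T k) - (T k + u * (T (k + 1) - T k))) =
        (v - u) * (t * (T (k + 1) - T k)) := by ring
    rw [e]
    rcases hd.eq_or_lt with h2 | h2
    · have h3 := h.lip k hk
      rw [← h2, mul_zero] at h3
      have h4 : dist (b k) (b (k + 1)) = 0 := le_antisymm h3 dist_nonneg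
      rw [h4, ← h2, mul_zero, mul_zero, mul_zero]
    · have huv : u ≤ v := by
        have h3 : u * (T (k + 1) - T k) ≤ v * (T (k + 1) - T k) := by linarith
        exact le_of_mul_le_mul_right h3 h2
      rw [abs_sub_comm, abs_of_nonneg (by linarith)]
      exact mul_le_mul_of_nonneg_left (h.lip k hk) (by linarith)
  rcases lt_trichotomy i j with hij | hij | hij
  · have e1 : dist (pw L K b T x) (b (i + 1)) ≤ t * (T (i + 1) - x) := by
      rw [hx, pw_spec h hi hs, L.dist_right (h.short i hi) hs]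
      have h2 := mul_le_mul_of_nonneg_left (h.lip i hi) (by linarith [hs.2] : 0 ≤ 1 - s)
      refine h2.trans (le_of_eq ?_)
      ring
    have e2 : dist (b (i + 1)) (b j) ≤ t * (T j - T (i + 1)) := h.dist_le hij (by omega)
    have e3 : dist (b j) (pw L K b T y) ≤ t * (y - T j) := by
      rw [hy, pw_spec h hj hs', L.dist_left (h.short j hj) hs']
      have h2 := mul_le_mul_of_nonneg_left (h.lip j hj) hs'.1
      refine h2.trans (le_of_eq ?_)
      ring
    have e4 := dist_triangle4 (pw L K b T x) (b (i + 1)) (b j) (pw L K b T y)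
    linarith
  · subst hij
    exact same i hi s hs s' hs' hx hy
  · -- `y ≤ T (j+1) ≤ T i ≤ x`, so `x = y`
    have h2 : y ≤ T (j + 1) := by
      rw [hy]
      have := mul_le_mul_of_nonneg_right hs'.2 hdj
      linarith
    have h3 : T i ≤ x := by
      rw [hx]
      have := mul_nonneg hs.1 hdi
      linarith
    have h4 := h.T_le (i := j + 1) (j := i) hij (by omega)
    have h5 : x = y := by linarith
    rw [h5, dist_self, sub_self, mul_zero]

theorem continuousOn_pw (h : Adm L K b T t) : ContinuousOn (pw L K b T) (Icc (T 0) (T 0 + 1)) := by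
  have h1 : LipschitzOnWith t.toNNReal (pw L K b T) (Icc (T 0) (T 0 + 1)) := by
    refine LipschitzOnWith.of_dist_le_mul fun x hx y hy => ?_
    rw [Real.coe_toNNReal _ h.level_nonneg, Real.dist_eq]
    rcases le_total x y with hxy | hxy
    · rw [abs_sub_comm, abs_of_nonneg (by linarith)]
      exact pw_lip h hx.1 hxy (by rw [h.period]; exact hy.2)
    · rw [dist_comm, abs_of_nonneg (by linarith)]
      exact pw_lip h hy.1 hxy (by rw [h.period]; exact hx.2)
  exact h1.continuousOn

theorem continuous_lift (h : Adm L K b T t) :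
    Continuous (AddCircle.liftIco (1 : ℝ) (T 0) (pw L K b T)) := by
  refine AddCircle.liftIco_continuous ?_ (continuousOn_pw h)
  rw [← h.period, pw_T h (Nat.zero_le K), pw_T h le_rfl, h.closed]

open Classical in
/-- the loop of a closed polygon with break points `T` -/
noncomputable def tp (L : LUG M) (K : ℕ) (b : ℕ → M) (T : ℕ → ℝ) : Lp M :=
  if h : ∃ t, Adm L K b T t then
    ⟨AddCircle.liftIco (1 : ℝ) (T 0) (pw L K b T), continuous_lift h.choose_spec⟩
  else ContinuousMap.const _ (b 0)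

theorem tp_coe (h : Adm L K b T t) {x : ℝ} (h0 : T 0 ≤ x) (h1 : x ≤ T 0 + 1) :
    tp L K b T (x : UnitAddCircle) = pw L K b T x := by
  have hex : ∃ t, Adm L K b T t := ⟨t, h⟩
  unfold tp
  rw [dif_pos hex]
  show AddCircle.liftIco (1 : ℝ) (T 0) (pw L K b T) (x : UnitAddCircle) = _
  rcases h1.eq_or_lt with h2 | h2
  · have e : (x : UnitAddCircle) = ((T 0 : ℝ) : UnitAddCircle) := by
      have := coe_add_int (T 0) 1
      rw [h2, ← this]
      norm_num
    rw [e, AddCircle.liftIco_coe_apply ⟨le_rfl, by linarith⟩, h2, ← h.period,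
      pw_T h (Nat.zero_le K), pw_T h le_rfl, h.closed]
  · exact AddCircle.liftIco_coe_apply ⟨h0, h2⟩

theorem Adm.mem_Icc (h : Adm L K b T t) {i : ℕ} (hi : i < K) {s : ℝ} (hs : s ∈ Icc (0 : ℝ) 1) :
    T i ≤ T i + s * (T (i + 1) - T i) ∧ T i + s * (T (i + 1) - T i) ≤ T (i + 1) := by
  have hd : 0 ≤ T (i + 1) - T i := by linarith [h.mono i hi]
  have h1 := mul_nonneg hs.1 hd
  have h2 := mul_le_mul_of_nonneg_right hs.2 hd
  constructor <;> linarith

/-- **characterisation** of the loop, values -/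
theorem tp_spec (h : Adm L K b T t) {i : ℕ} (hi : i < K) {s : ℝ} (hs : s ∈ Icc (0 : ℝ) 1) :
    tp L K b T ((T i + s * (T (i + 1) - T i) : ℝ) : UnitAddCircle) =
      L.seg (b i) (b (i + 1)) s := by
  obtain ⟨h1, h2⟩ := h.mem_Icc hi hs
  have h3 := h.T_le (Nat.zero_le i) hi.le
  have h4 := h.T_le (i := i + 1) (j := K) hi le_rfl
  rw [h.period] at h4
  rw [tp_coe h (h3.trans h1) (h2.trans h4), pw_spec h hi hs]

theorem tp_T (h : Adm L K b T t) {i : ℕ} (hi : i ≤ K) :
    tp L K b T ((T i : ℝ) : UnitAddCircle) = b i := by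
  have h3 := h.T_le (Nat.zero_le i) hi
  have h4 := h.T_le hi le_rfl
  rw [h.period] at h4
  rw [tp_coe h h3 h4, pw_T h hi]

/-- two loops which agree on an interval of length one are equal -/
theorem loop_ext (a : ℝ) {γ γ' : Lp M}
    (h : ∀ x : ℝ, a ≤ x → x ≤ a + 1 → γ (x : UnitAddCircle) = γ' (x : UnitAddCircle)) :
    γ = γ' := by
  ext x
  induction x using QuotientAddGroup.induction_on with | _ x => ?_
  have h1 : (x : UnitAddCircle) = ((x + (⌈a - x⌉ : ℤ) : ℝ) : UnitAddCircle) :=
    (coe_add_int x _).symm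
  show γ (x : UnitAddCircle) = γ' (x : UnitAddCircle)
  rw [h1]
  refine h _ ?_ ?_
  · have := Int.le_ceil (a - x)
    linarith
  · have := Int.ceil_lt_add_one (a - x)
    linarith

/-- **characterisation** of the loop, uniqueness -/
theorem tp_ext (h : Adm L K b T t) {γ : Lp M}
    (hγ : ∀ i < K, ∀ s ∈ Icc (0 : ℝ) 1,
      γ ((T i + s * (T (i + 1) - T i) : ℝ) : UnitAddCircle) = L.seg (b i) (b (i + 1)) s) :
    γ = tp L K b T := by
  refine loop_ext (T 0) fun x h0 h1 => ?_
  rw [← h.period] at h1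
  obtain ⟨i, hi, s, hs, hx⟩ := h.exists_rep h0 h1
  rw [hx, hγ i hi s hs, tp_spec h hi hs]

/-- a Lipschitz bound on an interval of length one is enough -/
theorem mem_X_of_Icc' (a : ℝ) {γ : Lp M}
    (h : ∀ x y : ℝ, a ≤ x → x ≤ y → y ≤ a + 1 → dist (γ x) (γ y) ≤ t * (y - x)) :
    γ ∈ X M t := by
  rw [← rot_mem_iff (a := ((a : ℝ) : UnitAddCircle))]
  refine mem_X_of_Icc fun x y h0 hxy h1 => ?_
  rw [rot_apply, rot_apply, ← AddCircle.coe_add, ← AddCircle.coe_add]
  refine (h (x + a) (y + a) (by linarith) (by linarith) (by linarith)).trans (le_of_eq ?_)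
  congr 1
  ring

/-- **level** -/
theorem tp_mem (h : Adm L K b T t) : tp L K b T ∈ X M t := by
  refine mem_X_of_Icc' (T 0) fun x y h0 hxy h1 => ?_
  rw [tp_coe h h0 (hxy.trans h1), tp_coe h (h0.trans hxy) h1]
  exact pw_lip h h0 hxy (by rw [h.period]; exact h1)

/-! ### changing the data -/

theorem Adm.mono_level (h : Adm L K b T t) {t' : ℝ} (htt : t ≤ t') : Adm L K b T t' where
  closed := h.closed
  period := h.period
  mono := h.mono
  lip i hi := (h.lip i hi).trans
    (mul_le_mul_of_nonneg_right htt (by linarith [h.mono i hi]))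
  short := h.short

/-- the admissible break points of a polygon form a **convex** set -/
theorem Adm.convex {T' : ℕ → ℝ} (h : Adm L K b T t) (h' : Adm L K b T' t) {r : ℝ}
    (hr : r ∈ Icc (0 : ℝ) 1) : Adm L K b (fun i => (1 - r) * T i + r * T' i) t where
  closed := h.closed
  period := by
    simp only [h.period, h'.period]
    ring
  mono i hi := by
    have h1 := mul_le_mul_of_nonneg_left (h.mono i hi) (by linarith [hr.2] : 0 ≤ 1 - r)
    have h2 := mul_le_mul_of_nonneg_left (h'.mono i hi) hr.1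
    show (1 - r) * T i + r * T' i ≤ (1 - r) * T (i + 1) + r * T' (i + 1)
    linarith
  lip i hi := by
    have h1 := mul_le_mul_of_nonneg_left (h.lip i hi) (by linarith [hr.2] : 0 ≤ 1 - r)
    have h2 := mul_le_mul_of_nonneg_left (h'.lip i hi) hr.1
    show dist (b i) (b (i + 1)) ≤
      t * ((1 - r) * T (i + 1) + r * T' (i + 1) - ((1 - r) * T i + r * T' i))
    have e : dist (b i) (b (i + 1)) =
        (1 - r) * dist (b i) (b (i + 1)) + r * dist (b i) (b (i + 1)) := by ring
    rw [e]
    refine (add_le_add h1 h2).trans (le_of_eq ?_)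
    ring
  short := h.short

theorem Adm.shift (h : Adm L K b T t) (a : ℝ) : Adm L K b (fun i => T i + a) t where
  closed := h.closed
  period := by simp only [h.period]; ring
  mono i hi := by
    have := h.mono i hi
    show T i + a ≤ T (i + 1) + a
    linarith
  lip i hi := by
    refine (h.lip i hi).trans (le_of_eq ?_)
    ring
  short := h.short

theorem Adm.congr {b' : ℕ → M} {T' : ℕ → ℝ} (h : Adm L K b T t) (hb : ∀ i ≤ K, b' i = b i)
    (hT : ∀ i ≤ K, T' i = T i) : Adm L K b' T' t where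
  closed := by rw [hb K le_rfl, hb 0 (Nat.zero_le K), h.closed]
  period := by rw [hT K le_rfl, hT 0 (Nat.zero_le K), h.period]
  mono i hi := by rw [hT i hi.le, hT (i + 1) hi]; exact h.mono i hi
  lip i hi := by
    rw [hT i hi.le, hT (i + 1) hi, hb i hi.le, hb (i + 1) hi]; exact h.lip i hi
  short i hi := by rw [hb i hi.le, hb (i + 1) hi]; exact h.short i hi

theorem tp_congr {b' : ℕ → M} {T' : ℕ → ℝ} (h : Adm L K b T t) (hb : ∀ i ≤ K, b' i = b i)
    (hT : ∀ i ≤ K, T' i = T i) : tp L K b' T' = tp L K b T := by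
  symm
  refine tp_ext (h.congr hb hT) fun i hi s hs => ?_
  rw [hT i hi.le, hT (i + 1) hi, hb i hi.le, hb (i + 1) hi]
  exact tp_spec h hi hs

/-- **refinement**: a polygon inscribed in a polygonal loop, all of whose vertices are vertices,
defines the same loop -/
theorem tp_refine {K' : ℕ} {b' : ℕ → M} {T' : ℕ → ℝ} {t' : ℝ} (h : Adm L K b T t)
    (h' : Adm L K' b' T' t')
    (hb : ∀ j ≤ K', b' j = tp L K b T ((T' j : ℝ) : UnitAddCircle))
    (hsub : ∀ j < K', ∃ i < K, T i ≤ T' j ∧ T' (j + 1) ≤ T (i + 1)) :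
    tp L K' b' T' = tp L K b T := by
  symm
  refine tp_ext h' fun j hj s hs => ?_
  obtain ⟨i, hi, h1, h2⟩ := hsub j hj
  have h3 := h'.mono j hj
  obtain ⟨u, hu, hxu⟩ := exists_param h1 (h3.trans h2)
  obtain ⟨v, hv, hxv⟩ := exists_param (h1.trans h3) h2
  have e : T' j + s * (T' (j + 1) - T' j) =
      T i + (u + s * (v - u)) * (T (i + 1) - T i) := by
    rw [hxv, hxu]; ring
  have huv : u + s * (v - u) ∈ Icc (0 : ℝ) 1 := by
    have e2 : u + s * (v - u) = (1 - s) * u + s * v := by ring
    rw [e2]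
    have h5 : 0 ≤ 1 - s := by linarith [hs.2]
    refine ⟨add_nonneg (mul_nonneg h5 hu.1) (mul_nonneg hs.1 hv.1), ?_⟩
    have h6 := mul_le_mul_of_nonneg_left hu.2 h5
    have h7 := mul_le_mul_of_nonneg_left hv.2 hs.1
    linarith
  rw [e, tp_spec h hi huv, hb j hj.le, hb (j + 1) hj, hxu, hxv, tp_spec h hi hu, tp_spec h hi hv,
    L.seg_seg (h.short i hi) hu hv hs]

/-- a loop whose restrictions to the intervals of `T` are geodesics of speed `v` -/
theorem tp_of_geo {γ : Lp M} {v : ℝ} (h : Adm L K (fun i => γ ((T i : ℝ) : UnitAddCircle)) T t)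
    (hγ : ∀ i < K, ∀ x y : ℝ, T i ≤ x → x ≤ y → y ≤ T (i + 1) →
      dist (γ (x : UnitAddCircle)) (γ (y : UnitAddCircle)) = v * (y - x)) :
    tp L K (fun i => γ ((T i : ℝ) : UnitAddCircle)) T = γ := by
  symm
  refine tp_ext h fun i hi s hs => ?_
  obtain ⟨h1, h2⟩ := h.mem_Icc hi hs
  have h3 := hγ i hi (T i) (T (i + 1)) le_rfl (h.mono i hi) le_rfl
  refine L.uniq (h.short i hi) hs ?_ ?_
  · rw [hγ i hi _ _ le_rfl h1 h2, h3]; ring
  · rw [hγ i hi _ _ h1 h2 le_rfl, h3]; ring

end basic

/-! ### continuity -/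

section cont

variable {L : LUG M} {K : ℕ} {t : ℝ} [CompactSpace M] {α : Type*} [TopologicalSpace α] {S : Set α}
  {b : α → ℕ → M} {T : α → ℕ → ℝ}

/-- **continuity** of the loop in the polygon and the break points -/
theorem continuousOn_tp (hb : ∀ i ≤ K, ContinuousOn (fun a => b a i) S)
    (hT : ∀ i ≤ K, ContinuousOn (fun a => T a i) S) (h : ∀ a ∈ S, Adm L K (b a) (T a) t) :
    ContinuousOn (fun a => tp L K (b a) (T a)) S := by
  intro a ha
  have hX : ∀ᶠ a' in 𝓝[S] a, tp L K (b a') (T a') ∈ X M t := by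
    filter_upwards [self_mem_nhdsWithin] with a' ha'
    exact tp_mem (h a' ha')
  refine (isCompact_X t).tendsto_nhds_of_unique_mapClusterPt hX fun γ _ hγ => ?_
  obtain ⟨U, hU, hUγ⟩ := mapClusterPt_iff_ultrafilter.1 hγ
  have hUS : ∀ᶠ a' in (U : Filter α), a' ∈ S := hU self_mem_nhdsWithin
  refine tp_ext (h a ha) fun i hi s hs => ?_
  have t1 : Tendsto (fun a' => T a' i) U (𝓝 (T a i)) := (hT i hi.le a ha).mono_left hU
  have t2 : Tendsto (fun a' => T a' (i + 1)) U (𝓝 (T a (i + 1))) := (hT (i + 1) hi a ha).mono_left hU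
  have t3 : Tendsto (fun a' => T a' i + s * (T a' (i + 1) - T a' i)) U
      (𝓝 (T a i + s * (T a (i + 1) - T a i))) := t1.add ((t2.sub t1).const_mul s)
  have t4 : Tendsto (fun a' => tp L K (b a') (T a')
      ((T a' i + s * (T a' (i + 1) - T a' i) : ℝ) : UnitAddCircle)) U
      (𝓝 (γ ((T a i + s * (T a (i + 1) - T a i) : ℝ) : UnitAddCircle))) :=
    (continuous_evalR.tendsto (γ, T a i + s * (T a (i + 1) - T a i))).comp
      (hUγ.prodMk_nhds t3)
  have t5 : Tendsto (fun a' => L.seg (b a' i) (b a' (i + 1)) s) U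
      (𝓝 (L.seg (b a i) (b a (i + 1)) s)) := by
    have c1 : ContinuousOn (fun a' => L.seg (b a' i) (b a' (i + 1)) s) S :=
      L.continuousOn_seg' (hb i hi.le) (hb (i + 1) hi) continuousOn_const
        (fun a' ha' => (h a' ha').short i hi) (fun _ _ => hs)
    exact (c1 a ha).mono_left hU
  refine tendsto_nhds_unique (t4.congr' ?_) t5
  filter_upwards [hUS] with a' ha'
  exact tp_spec (h a' ha') hi hs

end cont

/-! ### arclength -/

/-- length of the first `i` edges -/
noncomputable def len (b : ℕ → M) (i : ℕ) : ℝ := ∑ j ∈ Finset.range i, dist (b j) (b (j + 1))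

/-- arclength break points -/
noncomputable def al (K : ℕ) (b : ℕ → M) (T0 : ℝ) (i : ℕ) : ℝ := T0 + len b i / len b K

theorem len_zero (b : ℕ → M) : len b 0 = 0 := by simp [len]

theorem len_succ (b : ℕ → M) (i : ℕ) : len b (i + 1) = len b i + dist (b i) (b (i + 1)) := by
  unfold len
  rw [Finset.sum_range_succ]

theorem len_nonneg (b : ℕ → M) (i : ℕ) : 0 ≤ len b i := Finset.sum_nonneg fun _ _ => dist_nonneg

theorem len_mono (b : ℕ → M) {i j : ℕ} (h : i ≤ j) : len b i ≤ len b j := by
  induction j, h using Nat.le_induction with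
  | base => exact le_rfl
  | succ j _ ih =>
    rw [len_succ]
    linarith [dist_nonneg (x := b j) (y := b (j + 1))]

theorem al_zero (K : ℕ) (b : ℕ → M) (T0 : ℝ) : al K b T0 0 = T0 := by
  simp [al, len_zero]

theorem al_succ_sub (K : ℕ) (b : ℕ → M) (T0 : ℝ) (i : ℕ) :
    al K b T0 (i + 1) - al K b T0 i = dist (b i) (b (i + 1)) / len b K := by
  unfold al
  rw [len_succ]
  ring

/-- the **arclength** break points are admissible at the level `len b K` -/
theorem Adm_al {L : LUG M} {K : ℕ} {b : ℕ → M} (T0 : ℝ) (hc : b K = b 0)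
    (hs : ∀ i < K, dist (b i) (b (i + 1)) < L.r0) (hl : 0 < len b K) :
    Adm L K b (al K b T0) (len b K) where
  closed := hc
  period := by
    rw [al_zero]
    unfold al
    rw [div_self hl.ne']
  mono i _ := by
    have h1 := al_succ_sub K b T0 i
    have h2 : 0 ≤ dist (b i) (b (i + 1)) / len b K := div_nonneg dist_nonneg hl.le
    linarith
  lip i _ := by
    rw [al_succ_sub, mul_div_cancel₀ _ hl.ne']
  short := hs

theorem len_le_of_adm {L : LUG M} {K : ℕ} {b : ℕ → M} {T : ℕ → ℝ} {t : ℝ} (h : Adm L K b T t) :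
    len b K ≤ t := by
  have key : ∀ i, i ≤ K → len b i ≤ t * (T i - T 0) := by
    intro i
    induction i with
    | zero => intro _; simp [len_zero]
    | succ i ih =>
      intro hi
      have h1 := ih (by omega)
      have h2 := h.lip i (by omega)
      rw [len_succ]
      linarith
  have h1 := key K le_rfl
  rw [h.period] at h1
  linarith

/-- the arclength loop of a closed polygon, `b 0` at the time `T0` -/
noncomputable def arc (L : LUG M) (K : ℕ) (b : ℕ → M) (T0 : ℝ) : Lp M := tp L K b (al K b T0)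

theorem arc_mem {L : LUG M} {K : ℕ} {b : ℕ → M} (T0 : ℝ) (hc : b K = b 0)
    (hs : ∀ i < K, dist (b i) (b (i + 1)) < L.r0) (hl : 0 < len b K) {t : ℝ} (ht : len b K ≤ t) :
    arc L K b T0 ∈ X M t := tp_mem ((Adm_al T0 hc hs hl).mono_level ht)

section cont2

variable {K : ℕ} {α : Type*} [TopologicalSpace α] {S : Set α}
  {b : α → ℕ → M}

theorem continuousOn_len (hb : ∀ i ≤ K, ContinuousOn (fun a => b a i) S) {i : ℕ} (hi : i ≤ K) :
    ContinuousOn (fun a => len (b a) i) S := by
  unfold len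
  refine continuousOn_finsetSum _ fun j hj => ?_
  have hj' : j < i := Finset.mem_range.1 hj
  have h1 : ContinuousOn (fun a => b a j) S := hb j (by omega)
  have h2 : ContinuousOn (fun a => b a (j + 1)) S := hb (j + 1) (by omega)
  exact continuous_dist.comp_continuousOn (h1.prodMk h2)

theorem continuousOn_al (hb : ∀ i ≤ K, ContinuousOn (fun a => b a i) S) {T0 : α → ℝ}
    (hT : ContinuousOn T0 S) (hl : ∀ a ∈ S, 0 < len (b a) K) {i : ℕ} (hi : i ≤ K) :
    ContinuousOn (fun a => al K (b a) (T0 a) i) S := by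
  unfold al
  exact hT.add ((continuousOn_len hb hi).div (continuousOn_len hb le_rfl)
    fun a ha => (hl a ha).ne')

/-- **continuity** of the arclength loop -/
theorem continuousOn_arc {L : LUG M} [CompactSpace M]
    (hb : ∀ i ≤ K, ContinuousOn (fun a => b a i) S) {T0 : α → ℝ} (hT : ContinuousOn T0 S)
    (hc : ∀ a ∈ S, b a K = b a 0)
    (hs : ∀ a ∈ S, ∀ i < K, dist (b a i) (b a (i + 1)) < L.r0)
    (hl : ∀ a ∈ S, 0 < len (b a) K) {t : ℝ} (ht : ∀ a ∈ S, len (b a) K ≤ t) :
    ContinuousOn (fun a => arc L K (b a) (T0 a)) S :=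
  continuousOn_tp hb (fun _ hi => continuousOn_al hb hT hl hi)
    fun a ha => (Adm_al (T0 a) (hc a ha) (hs a ha) (hl a ha)).mono_level (ht a ha)

end cont2

end Crest.Agent.R231.KGonx610
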