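import Crest.Agent.R231.GFin_315
import Crest.Agent.R231.KGon_610
import Crest.Agent.R231.GMRepN_889
import Crest.Agent.R231.GBirk2_576

/-!
# Row 231, block G, leaf G4a: the inclusion `X a → X b` has finite rank (helper651)

`M` compact with a `LUG`, and a retract of an open subset of a normed space (`Retr M V`).
`finRk_incl` : for `a < b` the map `H(X a) → H(X b)` has finite rank: it factors up to homotopy
through `N`-gons, `X a → K ⊆ O → X b`, `O` open in `V^N`.
-/

set_option autoImplicit false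
set_option linter.unusedSectionVars false

noncomputable section

open Set Filter Topology

namespace Crest.Agent.R231.GPolyHx651

open GLugx576 KGonx610 GMGeox889 FinDim315 GFinx315
open Crest.Agent.R204.SpecA (Hm)

variable {M : Type} [MetricSpace M]

/-- `M` is a retract of an open subset of a normed space -/
structure Retr (M : Type) [MetricSpace M] (V : Type) [NormedAddCommGroup V] where
  e : M → V
  cont_e : Continuous e
  O : Set V
  isOpen : IsOpen O
  ρ : V → M
  contOn : ContinuousOn ρ O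
  mem : ∀ x, e x ∈ O
  ρ_e : ∀ x, ρ (e x) = x

variable {V : Type} [NormedAddCommGroup V] [NormedSpace ℝ V] (R : Retr M V)

section poly

variable {N : ℕ} [NeZero N]

/-- the vertices -/
def vt (z : Fin N → V) (i : ℕ) : M := R.ρ (z (Fin.ofNat N i))

/-- equally spaced times -/
def tm (N : ℕ) (i : ℕ) : ℝ := i / N

/-- the vertices of a loop -/
def sm (γ : Lp M) : Fin N → V := fun i => R.e (γ ((tm N i : ℝ) : UnitAddCircle))

theorem coe_tm_mod (i : ℕ) : ((tm N (i % N) : ℝ) : UnitAddCircle) = ((tm N i : ℝ) : UnitAddCircle) := by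
  have hN : (N : ℝ) ≠ 0 := Nat.cast_ne_zero.2 (NeZero.ne N)
  have h : tm N i = tm N (i % N) + (((i / N : ℕ) : ℤ) : ℝ) := by
    unfold tm
    have h1 : (i : ℝ) = (i % N : ℕ) + N * (i / N : ℕ) := by
      exact_mod_cast (Nat.mod_add_div i N).symm
    rw [div_eq_iff hN, add_mul, div_mul_cancel₀ _ hN, Int.cast_natCast, mul_comm _ (N : ℝ)]
    exact h1
  rw [h, coe_add_int]

theorem vt_sm (γ : Lp M) (i : ℕ) : vt R (sm (N := N) R γ) i = γ ((tm N i : ℝ) : UnitAddCircle) := by
  unfold vt sm
  rw [R.ρ_e, Fin.val_ofNat, coe_tm_mod]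

theorem continuous_sm : Continuous (sm (N := N) R) := by
  refine continuous_pi fun i => R.cont_e.comp ?_
  exact continuous_eval_const _

/-- the open set of polygons -/
def OP (N : ℕ) [NeZero N] (b : ℝ) : Set (Fin N → V) :=
  {z | (∀ i, z i ∈ R.O) ∧ ∀ i : Fin N, dist (vt R z i) (vt R z (i + 1)) < b * (1 / N)}

theorem continuousOn_vt (i : ℕ) : ContinuousOn (fun z : Fin N → V => vt R z i) {z | ∀ i, z i ∈ R.O} :=
  R.contOn.comp (continuous_apply _).continuousOn fun _ hz => hz _

theorem isOpen_OP (b : ℝ) : IsOpen (OP R N b) := by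
  have h1 : IsOpen {z : Fin N → V | ∀ i, z i ∈ R.O} := by
    have : {z : Fin N → V | ∀ i, z i ∈ R.O} = ⋂ i, (fun z : Fin N → V => z i) ⁻¹' R.O := by
      ext z; simp
    rw [this]
    exact isOpen_iInter_of_finite fun i => R.isOpen.preimage (continuous_apply i)
  have h2 : OP R N b = ⋂ i : Fin N, ({z : Fin N → V | ∀ i, z i ∈ R.O} ∩
      (fun z => dist (vt R z i) (vt R z (i + 1))) ⁻¹' Iio (b * (1 / N))) := by
    ext z
    simp only [OP, mem_ofPred_eq, mem_iInter, mem_inter_iff, mem_preimage, mem_Iio]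
    exact ⟨fun h i => ⟨h.1, h.2 i⟩, fun h => ⟨(h 0).1, fun i => (h i).2⟩⟩
  rw [h2]
  refine isOpen_iInter_of_finite fun i => ?_
  exact (continuous_dist.comp_continuousOn
    ((continuousOn_vt R i).prodMk (continuousOn_vt R (i + 1)))).isOpen_inter_preimage h1 isOpen_Iio

theorem adm {L : LUG M} {b : ℝ} (hb : b * (1 / N) < L.r0) {z : Fin N → V} (hz : z ∈ OP R N b) :
    Adm L N (vt R z) (tm N) b where
  closed := by
    unfold vt
    congr 2
    ext
    simp
  period := by
    have hN : (N : ℝ) ≠ 0 := Nat.cast_ne_zero.2 (NeZero.ne N)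
    unfold tm
    rw [div_self hN]; simp
  mono i _ := by
    unfold tm
    push_cast
    gcongr
    linarith
  lip i hi := by
    have h := (hz.2 ⟨i, hi⟩).le
    have e : tm N (i + 1) - tm N i = 1 / N := by
      unfold tm; push_cast; ring
    rw [e]
    exact h
  short i hi := (hz.2 ⟨i, hi⟩).trans hb

theorem tim {L : LUG M} {b : ℝ} (hb : b * (1 / N) < L.r0) : Tim L N (tm N) b where
  lt k _ := by
    have hN : (0 : ℝ) < N := Nat.cast_pos.2 (NeZero.pos N)
    unfold tm
    push_cast
    gcongr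
    linarith
  last := by
    have hN : (N : ℝ) ≠ 0 := Nat.cast_ne_zero.2 (NeZero.ne N)
    unfold tm
    rw [div_self hN]; simp
  short k _ := by
    have e : tm N (k + 1) - tm N k = 1 / N := by
      unfold tm; push_cast; ring
    rwa [e]

theorem sm_mem {a b : ℝ} (hab : a < b) {γ : Lp M} (hγ : γ ∈ X M a) : sm R γ ∈ OP R N b := by
  refine ⟨fun i => R.mem _, fun i => ?_⟩
  rw [vt_sm, vt_sm]
  refine (hγ _ _).trans_lt ?_
  have hN : (0 : ℝ) < N := Nat.cast_pos.2 (NeZero.pos N)
  have e : |tm N i - tm N (i + 1)| = 1 / N := by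
    have : tm N i - tm N (i + 1) = -(1 / N) := by unfold tm; push_cast; ring
    rw [this, abs_neg, abs_of_pos (by positivity)]
  rw [e]
  exact mul_lt_mul_of_pos_right hab (by positivity)

end poly

variable [CompactSpace M]

include R in
/-- **finite rank of `H(X a) → H(X b)`** -/
theorem finRk_incl (L : LUG M) {a b : ℝ} (hab : a < b) :
    FinRk (Hm (incl (X_mono (M := M) hab.le))) := by
  obtain ⟨N, hN, hb⟩ := exists_N L b
  have : NeZero N := ⟨hN.ne'⟩
  -- the compact set
  have hK : IsCompact (sm (N := N) R '' X M a) := (isCompact_X a).image (continuous_sm R)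
  have hKO : sm (N := N) R '' X M a ⊆ OP R N b := by
    rintro _ ⟨γ, hγ, rfl⟩
    exact sm_mem R hab hγ
  let f : C(X M a, OP R N b) :=
    ⟨fun γ => ⟨sm R γ.1, sm_mem R hab γ.2⟩, ((continuous_sm R).comp continuous_subtype_val).subtype_mk _⟩
  have hvt : ∀ i, ContinuousOn (fun z : Fin N → V => vt R z i) (OP R N b) := fun i =>
    (continuousOn_vt R i).mono fun z hz => hz.1
  have hg : ContinuousOn (fun z : Fin N → V => tp L N (vt R z) (tm N)) (OP R N b) :=
    continuousOn_tp (t := b) (T := fun _ => tm N) (fun i _ => hvt i) (fun i _ => continuousOn_const)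
      fun z hz => adm R hb hz
  let g : C(OP R N b, X M b) :=
    ⟨fun z => ⟨tp L N (vt R z.1) (tm N), tp_mem (adm R hb z.2)⟩,
      (continuousOn_iff_continuous_domRestrict.1 hg).subtype_mk _⟩
  refine finRk_of_factor hK (isOpen_OP R b) hKO f (fun γ => ⟨γ.1, γ.2, rfl⟩) g _ ?_
  -- the homotopy
  have hT : Tim L N (tm N) b := tim hb
  have hc : ContinuousOn (fun p : ℝ × Lp M => repN L N (tm N) p.1 p.2) (Icc (0 : ℝ) 1 ×ˢ X M b) :=
    contOn_repN (θ := fun _ => tm N) (r := fun p : ℝ × Lp M => p.1) (g := fun p => p.2) (t := b)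
      (fun k _ => continuousOn_const) continuousOn_fst continuousOn_snd (fun _ _ => hT)
      (fun p hp => hp.1) (fun p hp => hp.2) N le_rfl
  refine ⟨⟨⟨fun p => ⟨repN L N (tm N) (p.1 : ℝ) p.2.1, ?_⟩, ?_⟩, ?_, ?_⟩⟩
  · exact repN_mem hT p.1.2 le_rfl (X_mono hab.le p.2.2) N le_rfl
  · refine Continuous.subtype_mk ?_ _
    exact hc.comp_continuous (f := fun p : unitInterval × X M a => ((p.1 : ℝ), (p.2 : Lp M)))
      (by fun_prop) fun p => ⟨p.1.2, X_mono hab.le p.2.2⟩
  · intro γ
    refine Subtype.ext ?_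
    exact repN_zero _ _
  · intro γ
    refine Subtype.ext ?_
    have hγ : (γ : Lp M) ∈ X M b := X_mono hab.le γ.2
    show repN L N (tm N) 1 (γ : Lp M) = tp L N (vt R (sm R (γ : Lp M))) (tm N)
    refine tp_ext (adm R hb (sm_mem R hab γ.2)) fun i hi s hs => ?_
    rw [(repN_one hT hγ N le_rfl).1 i hi s hs, vt_sm, vt_sm]

end Crest.Agent.R231.GPolyHx651
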