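import Crest.Agent.R231.GArc_576

/-!
# Row 231 (S0357), block G, part G4a (helper943): geodesic polygons

* `pol L N m` : the closed polygon with nodes `m 0, …, m N = m 0` (`dist (m i) (m (i+1)) < r0`)
* `pol_apply`, `pol_node`, `pol_mem`, `continuous_pol`
* `nodes N γ i = γ (i/N)`
* `RR L N k γ` : the arcs `[0,1/N], …, [(k-1)/N, k/N]` replaced one after the other;
  `RR_eq_pol` : `RR L N N γ = pol L N (nodes N γ)`
* `Stab L N S` : `S` is stable under the partial replacements of the arcs; `stab_X`, `stab_base`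
* `homotopic_RR` : on a stable set contained in `X M t`, `t/N < r0`, the identity is homotopic to
  `RR L N N`
-/

set_option autoImplicit false
set_option linter.unusedSectionVars false

open Set Filter Topology

namespace Crest.Agent.R231.GPolyx943

open GLugx576

variable {M : Type*} [MetricSpace M] (L : LUG M)

/-! ### polygons -/

/-- the index of the arc of `x ∈ [0,1]` -/
noncomputable def arc (N : ℕ) (x : ℝ) : ℕ := min ⌊(N : ℝ) * x⌋₊ (N - 1)

/-- the polygon on `[0,1]` -/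
noncomputable def polF (N : ℕ) (m : ℕ → M) (x : ℝ) : M :=
  L.seg (m (arc N x)) (m (arc N x + 1)) ((N : ℝ) * x - arc N x)

/-- admissible nodes -/
structure Good (N : ℕ) (m : ℕ → M) : Prop where
  pos : 0 < N
  per : m N = m 0
  lt : ∀ i < N, dist (m i) (m (i + 1)) < L.r0

variable {L} {N : ℕ} {m : ℕ → M}

theorem local_mem {N i : ℕ} (hN : 0 < N) {x : ℝ} (hx : x ∈ Icc ((i : ℝ) / N) ((i + 1 : ℝ) / N)) :
    (N : ℝ) * x - i ∈ Icc (0 : ℝ) 1 := by
  have hN' : (0 : ℝ) < N := by exact_mod_cast hN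
  have h1 := (div_le_iff₀' hN').1 hx.1
  have h2 := (le_div_iff₀' hN').1 hx.2
  constructor <;> linarith

/-- the formula on the closed arc -/
theorem polF_eq (h : Good L N m) {i : ℕ} (hi : i < N) {x : ℝ}
    (hx : x ∈ Icc ((i : ℝ) / N) ((i + 1 : ℝ) / N)) :
    polF L N m x = L.seg (m i) (m (i + 1)) ((N : ℝ) * x - i) := by
  have hN' : (0 : ℝ) < N := by exact_mod_cast h.pos
  have hl := local_mem h.pos hx
  have hx0 : 0 ≤ (N : ℝ) * x := by have := hl.1; have : (0 : ℝ) ≤ i := Nat.cast_nonneg i; linarith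
  rcases hl.2.eq_or_lt with h1 | h1
  · -- the right end point
    have hfl : ⌊(N : ℝ) * x⌋₊ = i + 1 := by
      rw [Nat.floor_eq_iff hx0]
      push_cast
      constructor <;> linarith
    rcases Nat.lt_or_ge (i + 1) N with h2 | h2
    · have ha : arc N x = i + 1 := by
        unfold arc; rw [hfl]; exact min_eq_left (by omega)
      unfold polF
      rw [ha, h1, L.seg_one (h.lt i hi)]
      have : (N : ℝ) * x - ((i + 1 : ℕ) : ℝ) = 0 := by push_cast; linarith
      rw [this, L.seg_zero (h.lt _ h2)]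
    · have ha : arc N x = i := by
        unfold arc; rw [hfl]; omega
      unfold polF
      rw [ha]
  · have hfl : ⌊(N : ℝ) * x⌋₊ = i := by
      rw [Nat.floor_eq_iff hx0]
      have := hl.1
      constructor <;> linarith
    have ha : arc N x = i := by
      unfold arc; rw [hfl]; exact min_eq_left (by omega)
    unfold polF
    rw [ha]

theorem exists_arc (hN : 0 < N) {x : ℝ} (hx : x ∈ Icc (0 : ℝ) 1) :
    ∃ i < N, x ∈ Icc ((i : ℝ) / N) ((i + 1 : ℝ) / N) := by
  have hN' : (0 : ℝ) < N := by exact_mod_cast hN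
  have h0 : 0 ≤ (N : ℝ) * x := mul_nonneg hN'.le hx.1
  rcases hx.2.eq_or_lt with h1 | h1
  · refine ⟨N - 1, by omega, ?_⟩
    rw [h1]
    have e : ((N - 1 : ℕ) : ℝ) = (N : ℝ) - 1 := by
      rw [Nat.cast_sub hN, Nat.cast_one]
    rw [e]
    constructor
    · rw [div_le_iff₀ hN']; linarith
    · rw [le_div_iff₀ hN']; linarith
  · refine ⟨⌊(N : ℝ) * x⌋₊, ?_, ?_⟩
    · rw [Nat.floor_lt h0]
      nlinarith
    · constructor
      · rw [div_le_iff₀' hN']; exact Nat.floor_le h0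
      · rw [le_div_iff₀' hN']; exact (Nat.lt_floor_add_one _).le

theorem arc_sub {i : ℕ} (hi : i < N) :
    Icc ((i : ℝ) / N) ((i + 1 : ℝ) / N) ⊆ Icc (0 : ℝ) 1 := by
  have hN' : (0 : ℝ) < N := by exact_mod_cast (Nat.zero_lt_of_lt hi)
  intro x hx
  refine ⟨le_trans (by positivity) hx.1, hx.2.trans ?_⟩
  rw [div_le_one hN']
  exact_mod_cast hi

theorem left_mem (i : ℕ) : (i : ℝ) / N ∈ Icc ((i : ℝ) / N) ((i + 1 : ℝ) / N) :=
  ⟨le_rfl, by gcongr; linarith⟩

theorem right_mem (i : ℕ) : ((i : ℝ) + 1) / N ∈ Icc ((i : ℝ) / N) ((i + 1 : ℝ) / N) :=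
  ⟨by gcongr; linarith, le_rfl⟩

theorem polF_zero (h : Good L N m) : polF L N m 0 = m 0 := by
  have h1 := polF_eq h (i := 0) h.pos (x := 0) ⟨by simp, by positivity⟩
  rw [h1]
  simp only [mul_zero, Nat.cast_zero, sub_zero]
  exact L.seg_zero (h.lt 0 h.pos)

theorem polF_one (h : Good L N m) : polF L N m 1 = m 0 := by
  have hN' : (0 : ℝ) < N := by exact_mod_cast h.pos
  have e : ((N - 1 : ℕ) : ℝ) = (N : ℝ) - 1 := by
    rw [Nat.cast_sub h.pos, Nat.cast_one]
  have h1 := polF_eq h (i := N - 1) (by have := h.pos; omega) (x := 1) (by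
    rw [e]
    constructor
    · rw [div_le_iff₀ hN']; linarith
    · rw [le_div_iff₀ hN']; linarith)
  have e2 : N - 1 + 1 = N := by have := h.pos; omega
  rw [h1, e, e2, show (N : ℝ) * 1 - ((N : ℝ) - 1) = 1 by ring, ← h.per]
  have h2 := h.lt (N - 1) (by have := h.pos; omega)
  rw [e2] at h2
  exact L.seg_one h2

/-- joint continuity of a family of polygons -/
theorem contOn_polF [CompactSpace M] {α : Type*} [TopologicalSpace α] {f : α → ℕ → M} {S : Set α}
    (hf : ∀ i ≤ N, ContinuousOn (fun a => f a i) S) (hg : ∀ a ∈ S, Good L N (f a)) :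
    ContinuousOn (fun q : α × ℝ => polF L N (f q.1) q.2) (S ×ˢ Icc (0 : ℝ) 1) := by
  rcases S.eq_empty_or_nonempty with hS | ⟨a0, ha0⟩
  · subst hS
    rw [empty_prod]
    exact continuousOn_empty _
  have hN := (hg a0 ha0).pos
  rw [continuousOn_iff_continuous_domRestrict]
  let F : Fin N → Set ↥(S ×ˢ Icc (0 : ℝ) 1) := fun i =>
    {q | (q : α × ℝ).2 ∈ Icc ((i : ℝ) / N) ((i + 1 : ℝ) / N)}
  have hcov : ⋃ i, F i = univ := by
    refine eq_univ_of_forall fun q => mem_iUnion.2 ?_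
    obtain ⟨i, hi, hx⟩ := exists_arc hN q.2.2
    exact ⟨⟨i, hi⟩, hx⟩
  refine (locallyFinite_of_finite F).continuous hcov ?_ ?_
  · intro i
    have hc : Continuous fun q : ↥(S ×ˢ Icc (0 : ℝ) 1) => (q : α × ℝ).2 :=
      continuous_snd.comp continuous_subtype_val
    exact isClosed_Icc.preimage hc
  · intro i
    have h1 : ContinuousOn (fun q : ↥(S ×ˢ Icc (0 : ℝ) 1) =>
        L.seg (f (q : α × ℝ).1 i) (f (q : α × ℝ).1 (i + 1)) ((N : ℝ) * (q : α × ℝ).2 - (i : ℕ)))
        (F i) := by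
      have hcf : ∀ j ≤ N, ContinuousOn (fun q : ↥(S ×ˢ Icc (0 : ℝ) 1) => f (q : α × ℝ).1 j) (F i) := by
        intro j hj
        have hc1 : ContinuousOn (fun q : ↥(S ×ˢ Icc (0 : ℝ) 1) => (q : α × ℝ).1) (F i) :=
          (continuous_fst.comp continuous_subtype_val).continuousOn
        exact (hf j hj).comp hc1 fun q _ => q.2.1
      refine L.continuousOn_seg' (hcf _ i.2.le) (hcf _ i.2) ?_ ?_ ?_
      · have hc : Continuous fun q : ↥(S ×ˢ Icc (0 : ℝ) 1) => (N : ℝ) * (q : α × ℝ).2 - (i : ℕ) := by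
          fun_prop
        exact hc.continuousOn
      · intro q _
        exact (hg _ q.2.1).lt i i.2
      · intro q hq
        exact local_mem hN hq
    refine h1.congr fun q hq => ?_
    exact polF_eq (hg _ q.2.1) i.2 hq

variable (L) in
open Classical in
/-- **the closed polygon** with nodes `m 0, …, m N = m 0` -/
noncomputable def pol [CompactSpace M] (N : ℕ) (m : ℕ → M) : Lp M :=
  if h : Good L N m then
    ⟨AddCircle.liftIco 1 0 (polF L N m), by
      refine AddCircle.liftIco_continuous ?_ ?_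
      · rw [zero_add, polF_zero h, polF_one h]
      · rw [zero_add]
        have h1 : ContinuousOn (fun x : ℝ => (((), x) : Unit × ℝ)) (Icc 0 1) := by fun_prop
        have h2 := contOn_polF (L := L) (N := N) (f := fun _ : Unit => m) (S := univ)
          (fun i _ => continuousOn_const) fun _ _ => h
        exact h2.comp h1 fun x hx => ⟨trivial, hx⟩⟩
  else ContinuousMap.const _ (m 0)

theorem pol_coe [CompactSpace M] (h : Good L N m) {x : ℝ} (hx : x ∈ Icc (0 : ℝ) 1) :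
    pol L N m (x : UnitAddCircle) = polF L N m x := by
  rw [pol, dif_pos h]
  show AddCircle.liftIco 1 0 (polF L N m) (x : UnitAddCircle) = _
  rcases hx.2.eq_or_lt with h1 | h1
  · subst h1
    rw [coe_one_circle, polF_one h, ← polF_zero h]
    exact AddCircle.liftIco_coe_apply (p := 1) (a := 0) ⟨le_rfl, by norm_num⟩
  · exact AddCircle.liftIco_coe_apply (p := 1) (a := 0) ⟨hx.1, by simpa using h1⟩

/-- the polygon on the arc `i` -/
theorem pol_apply [CompactSpace M] (h : Good L N m) {i : ℕ} (hi : i < N) {x : ℝ}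
    (hx : x ∈ Icc ((i : ℝ) / N) ((i + 1 : ℝ) / N)) :
    pol L N m (x : UnitAddCircle) = L.seg (m i) (m (i + 1)) ((N : ℝ) * x - i) := by
  rw [pol_coe h (arc_sub hi hx), polF_eq h hi hx]

theorem pol_node [CompactSpace M] (h : Good L N m) {i : ℕ} (hi : i ≤ N) :
    pol L N m (((i : ℝ) / N : ℝ) : UnitAddCircle) = m i := by
  have hN' : (0 : ℝ) < N := by exact_mod_cast h.pos
  rcases hi.eq_or_lt with h1 | h1
  · subst h1
    rw [div_self hN'.ne', pol_coe h ⟨zero_le_one, le_rfl⟩, polF_one h, h.per]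
  · rw [pol_apply h h1 (left_mem i), mul_div_cancel₀ _ hN'.ne', sub_self]
    exact L.seg_zero (h.lt i h1)

theorem pol_zero [CompactSpace M] (h : Good L N m) :
    pol L N m ((0 : ℝ) : UnitAddCircle) = m 0 := by
  rw [pol_coe h ⟨le_rfl, zero_le_one⟩, polF_zero h]

/-- **continuity of a family of polygons** -/
theorem contOn_pol [CompactSpace M] {α : Type*} [TopologicalSpace α] {f : α → ℕ → M} {S : Set α}
    (hf : ∀ i ≤ N, ContinuousOn (fun a => f a i) S) (hg : ∀ a ∈ S, Good L N (f a)) :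
    ContinuousOn (fun a => pol L N (f a)) S := by
  refine contOn_to_loop ?_
  exact (contOn_polF hf hg).congr fun q hq => pol_coe (hg _ hq.1) hq.2

/-- a bound on the arcs is enough -/
theorem chain_le {f : ℝ → M} {t : ℝ} (hN : 0 < N)
    (h : ∀ i < N, ∀ x y : ℝ, (i : ℝ) / N ≤ x → x ≤ y → y ≤ ((i : ℝ) + 1) / N →
      dist (f x) (f y) ≤ t * (y - x)) {x y : ℝ} (hx : 0 ≤ x) (hxy : x ≤ y) (hy : y ≤ 1) :
    dist (f x) (f y) ≤ t * (y - x) := by
  have hN' : (0 : ℝ) < N := by exact_mod_cast hN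
  obtain ⟨i, hi, hxi⟩ := exists_arc hN ⟨hx, hxy.trans hy⟩
  have key : ∀ k : ℕ, i + k < N → ∀ y : ℝ, y ∈ Icc (((i + k : ℕ) : ℝ) / N) ((((i + k : ℕ) : ℝ) + 1) / N) →
      x ≤ y → dist (f x) (f y) ≤ t * (y - x) := by
    intro k
    induction k with
    | zero =>
      intro _ y hy hxy
      exact h i hi x y hxi.1 hxy (by simpa using hy.2)
    | succ k ih =>
      intro hk y hy hxy
      rcases le_total y ((((i + k : ℕ) : ℝ) + 1) / N) with h1 | h1
      · rcases le_total (((i + k : ℕ) : ℝ) / N) y with h2 | h2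
        · exact ih (by omega) y ⟨h2, h1⟩ hxy
        · have h3 := hy.1
          have h4 : ((i + k : ℕ) : ℝ) / N < ((i + (k + 1) : ℕ) : ℝ) / N := by
            gcongr; linarith
          linarith
      · set z := (((i + k : ℕ) : ℝ) + 1) / N with hz
        have hxz : x ≤ z := by
          refine hxi.2.trans ?_
          rw [hz]; gcongr; linarith [(Nat.cast_nonneg k : (0 : ℝ) ≤ k)]
        have h2 := ih (by omega) z ⟨by rw [hz]; gcongr; linarith, le_rfl⟩ hxz
        have e : z = ((i + (k + 1) : ℕ) : ℝ) / N := by rw [hz]; push_cast; ring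
        have h3 := h (i + (k + 1)) hk z y (by rw [e]) h1 hy.2
        refine (dist_triangle _ (f z) _).trans ?_
        calc _ ≤ t * (z - x) + t * (y - z) := add_le_add h2 h3
          _ = t * (y - x) := by ring
  obtain ⟨j, hj, hyj⟩ := exists_arc hN ⟨hx.trans hxy, hy⟩
  rcases le_total i j with hij | hij
  · obtain ⟨k, rfl⟩ := Nat.exists_eq_add_of_le hij
    exact key k hj y hyj hxy
  · -- then both are in the arc `i`
    refine h i hi x y hxi.1 hxy (hyj.2.trans ?_)
    have : (j : ℝ) ≤ i := by exact_mod_cast hij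
    gcongr

/-- **Lipschitz constant of a polygon** -/
theorem pol_mem [CompactSpace M] (h : Good L N m) {t : ℝ}
    (ht : ∀ i < N, dist (m i) (m (i + 1)) ≤ t / N) : pol L N m ∈ X M t := by
  have hN' : (0 : ℝ) < N := by exact_mod_cast h.pos
  refine mem_X_of_Icc fun x y hx hxy hy => ?_
  refine chain_le (f := fun x : ℝ => pol L N m (x : UnitAddCircle)) h.pos ?_ hx hxy hy
  intro i hi x y hx hxy hy
  have hxi : x ∈ Icc ((i : ℝ) / N) ((i + 1 : ℝ) / N) := ⟨hx, hxy.trans hy⟩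
  have hyi : y ∈ Icc ((i : ℝ) / N) ((i + 1 : ℝ) / N) := ⟨hx.trans hxy, hy⟩
  show dist (pol L N m (x : UnitAddCircle)) (pol L N m (y : UnitAddCircle)) ≤ _
  rw [pol_apply h hi hxi, pol_apply h hi hyi,
    L.dist_seg (h.lt i hi) (local_mem h.pos hxi) (local_mem h.pos hyi)]
  have e : |(N : ℝ) * x - i - ((N : ℝ) * y - i)| = N * (y - x) := by
    rw [show (N : ℝ) * x - i - ((N : ℝ) * y - i) = -(N * (y - x)) by ring, abs_neg, abs_of_nonneg]
    exact mul_nonneg hN'.le (by linarith)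
  rw [e]
  calc (N : ℝ) * (y - x) * dist (m i) (m (i + 1)) ≤ N * (y - x) * (t / N) := by
        refine mul_le_mul_of_nonneg_left (ht i hi) (mul_nonneg hN'.le (by linarith))
    _ = t * (y - x) := by field_simp

/-! ### nodes of a loop -/

/-- the values at `i/N` -/
noncomputable def nodes (N : ℕ) (γ : Lp M) (i : ℕ) : M := γ (((i : ℝ) / N : ℝ) : UnitAddCircle)

theorem nodes_per (hN : 0 < N) (γ : Lp M) (i : ℕ) : nodes N γ (i + N) = nodes N γ i := by
  have hN' : (N : ℝ) ≠ 0 := by exact_mod_cast hN.ne'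
  unfold nodes
  have e : ((i + N : ℕ) : ℝ) / N = (i : ℝ) / N + (1 : ℤ) := by
    push_cast; field_simp
  rw [e, coe_add_int]

theorem nodes_mod (hN : 0 < N) (γ : Lp M) (i : ℕ) : nodes N γ (i % N) = nodes N γ i := by
  conv_rhs => rw [← Nat.mod_add_div i N]
  generalize i / N = k
  induction k with
  | zero => simp
  | succ k ih =>
    rw [ih, Nat.mul_succ, ← add_assoc, nodes_per hN]

theorem nodes_zero (γ : Lp M) : nodes N γ 0 = γ 0 := by
  unfold nodes
  simp

theorem nodes_N (hN : 0 < N) (γ : Lp M) : nodes N γ N = nodes N γ 0 := by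
  have := nodes_per hN γ 0
  rwa [zero_add] at this

theorem dist_nodes {γ : Lp M} {t : ℝ} (h : γ ∈ X M t) (i : ℕ) :
    dist (nodes N γ i) (nodes N γ (i + 1)) ≤ t / N := by
  have h1 := h ((i : ℝ) / N) (((i + 1 : ℕ) : ℝ) / N)
  refine h1.trans (le_of_eq ?_)
  rw [← sub_div, show (i : ℝ) - ((i + 1 : ℕ) : ℝ) = -1 by push_cast; ring, abs_div, abs_neg, abs_one,
    abs_of_nonneg (Nat.cast_nonneg N)]
  ring

theorem good_nodes {γ : Lp M} {t : ℝ} (hN : 0 < N) (h : γ ∈ X M t) (ht : t / N < L.r0) :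
    Good L N (nodes N γ) :=
  ⟨hN, nodes_N hN γ, fun i _ => (dist_nodes h i).trans_lt ht⟩

theorem continuous_nodes (i : ℕ) : Continuous (fun γ : Lp M => nodes N γ i) :=
  continuous_eval_const _

/-! ### successive replacement of all arcs -/

variable (L) in
/-- the arc `[j/N, (j+s)/N]` replaced -/
noncomputable def rj [CompactSpace M] (N j : ℕ) (s : ℝ) (γ : Lp M) : Lp M :=
  repA L ((j : ℝ) / N) (s / N) γ

variable (L) in
/-- the first `k` arcs replaced -/
noncomputable def RR [CompactSpace M] (N : ℕ) : ℕ → Lp M → Lp M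
  | 0, γ => γ
  | k + 1, γ => rj L N k 1 (RR N k γ)

section rep

variable [CompactSpace M] {t s : ℝ} {γ : Lp M} {j k : ℕ}

theorem arc_len (hN : 0 < N) (hs : s ∈ Icc (0 : ℝ) 1) (ht0 : 0 ≤ t) (ht : t / N < L.r0) :
    0 ≤ s / N ∧ s / N ≤ 1 ∧ t * (s / N) < L.r0 := by
  have hN' : (1 : ℝ) ≤ N := by exact_mod_cast hN
  refine ⟨div_nonneg hs.1 (by linarith), ?_, ?_⟩
  · rw [div_le_one (by linarith)]; linarith [hs.2]
  · refine lt_of_le_of_lt ?_ ht
    rw [mul_div_assoc', mul_comm]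
    gcongr
    nlinarith [hs.2]

theorem rj_mem (hN : 0 < N) (hγ : γ ∈ X M t) (ht : t / N < L.r0) (hs : s ∈ Icc (0 : ℝ) 1) (j : ℕ) :
    rj L N j s γ ∈ X M t := by
  obtain ⟨h1, h2, h3⟩ := arc_len (L := L) hN hs (nonneg_of_mem hγ) ht
  exact repA_mem L hγ h1 h2 h3

theorem rj_dom (hN : 0 < N) (hγ : γ ∈ X M t) (ht : t / N < L.r0) (hs : s ∈ Icc (0 : ℝ) 1) (j : ℕ) :
    (s / N, rot (((j : ℝ) / N : ℝ) : UnitAddCircle) γ) ∈ RepDom L := by
  obtain ⟨h1, h2, h3⟩ := arc_len (L := L) hN hs (nonneg_of_mem hγ) ht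
  exact mem_domA hγ h1 h2 h3 _

theorem rj_zero (N j : ℕ) (γ : Lp M) : rj L N j 0 γ = γ := by
  unfold rj; rw [zero_div, repA_zero]

/-- the nodes are fixed -/
theorem rj_node (hN : 0 < N) (hγ : γ ∈ X M t) (ht : t / N < L.r0) (hs : s ∈ Icc (0 : ℝ) 1)
    (j i : ℕ) : rj L N j s γ (((i : ℝ) / N : ℝ) : UnitAddCircle) =
      γ (((i : ℝ) / N : ℝ) : UnitAddCircle) := by
  have hN' : (0 : ℝ) < N := by exact_mod_cast hN
  have hd := rj_dom (L := L) hN hγ ht hs j
  obtain ⟨n, hn1, hn2⟩ := exists_shift ((j : ℝ) / N) ((i : ℝ) / N)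
  rw [← coe_sub_int ((i : ℝ) / N) n]
  -- `i - n N - j` is an integer in `[0, N)`
  have e1 : (i : ℝ) / N - n = ((i - n * N - j : ℤ) : ℝ) / N + (j : ℝ) / N := by
    push_cast; field_simp; ring
  have h1 : (0 : ℤ) ≤ i - n * N - j := by
    have : (0 : ℝ) ≤ ((i - n * N - j : ℤ) : ℝ) / N := by rw [e1] at hn1; linarith
    have h5 := mul_nonneg this hN'.le
    rw [div_mul_cancel₀ _ hN'.ne'] at h5
    exact_mod_cast h5
  rcases h1.eq_or_lt with h2 | h2
  · have e2 : (i : ℝ) / N - n = (j : ℝ) / N := by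
      rw [e1, ← h2]; simp
    rw [e2]
    exact repA_left L hd
  · refine repA_out L hd ⟨?_, hn2.le⟩
    have h3 : (1 : ℝ) ≤ ((i - n * N - j : ℤ) : ℝ) := by exact_mod_cast h2
    rw [e1, add_comm]
    gcongr
    linarith [hs.2]

theorem rj_base (hN : 0 < N) (hγ : γ ∈ X M t) (ht : t / N < L.r0) (hs : s ∈ Icc (0 : ℝ) 1)
    (j : ℕ) : rj L N j s γ 0 = γ 0 := by
  have := rj_node (L := L) hN hγ ht hs j 0
  simpa using this

/-- the other arcs are not changed -/
theorem rj_other (hN : 0 < N) (hγ : γ ∈ X M t) (ht : t / N < L.r0) (hs : s ∈ Icc (0 : ℝ) 1)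
    (hj : j < N) {i : ℕ} (hi : i < N) (hij : i ≠ j) {x : ℝ}
    (hx : x ∈ Icc ((i : ℝ) / N) ((i + 1 : ℝ) / N)) :
    rj L N j s γ (x : UnitAddCircle) = γ (x : UnitAddCircle) := by
  have hN' : (0 : ℝ) < N := by exact_mod_cast hN
  have hd := rj_dom (L := L) hN hγ ht hs j
  have hx1 := (div_le_iff₀' hN').1 hx.1
  have hx2 := (le_div_iff₀' hN').1 hx.2
  rcases lt_or_gt_of_ne hij with h1 | h1
  · have hc : (i : ℝ) + 1 ≤ j := by exact_mod_cast h1
    have hc2 : (j : ℝ) + 1 ≤ N := by exact_mod_cast hj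
    have hi0 : (0 : ℝ) ≤ i := Nat.cast_nonneg i
    rw [← coe_add_int x 1]
    refine repA_out L hd ⟨?_, ?_⟩
    · rw [← add_div, div_le_iff₀ hN']
      push_cast
      nlinarith [hs.2]
    · have : x ≤ (j : ℝ) / N := by rw [le_div_iff₀ hN']; nlinarith
      push_cast; linarith
  · have hc : (j : ℝ) + 1 ≤ i := by exact_mod_cast h1
    have hc2 : (i : ℝ) + 1 ≤ N := by exact_mod_cast hi
    have hj0 : (0 : ℝ) ≤ j := Nat.cast_nonneg j
    refine repA_out L hd ⟨?_, ?_⟩
    · rw [← add_div, div_le_iff₀ hN']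
      nlinarith [hs.2]
    · have h2 : x ≤ 1 := by nlinarith
      have h3 : 0 ≤ (j : ℝ) / N := by positivity
      linarith

/-- the replaced arc -/
theorem rj_self (hN : 0 < N) (hγ : γ ∈ X M t) (ht : t / N < L.r0) {x : ℝ}
    (hx : x ∈ Icc ((j : ℝ) / N) ((j + 1 : ℝ) / N)) :
    rj L N j 1 γ (x : UnitAddCircle) =
      L.seg (nodes N γ j) (nodes N γ (j + 1)) ((N : ℝ) * x - j) := by
  have hN' : (0 : ℝ) < N := by exact_mod_cast hN
  have h01 : (1 : ℝ) ∈ Icc (0 : ℝ) 1 := ⟨zero_le_one, le_rfl⟩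
  have hd := rj_dom (L := L) hN hγ ht h01 j
  obtain ⟨h1, h2, -⟩ := arc_len (L := L) hN h01 (nonneg_of_mem hγ) ht
  have e0 : ((j : ℝ) + 1) / N = (j : ℝ) / N + 1 / N := by ring
  have hx' : x - (j : ℝ) / N ∈ Icc (0 : ℝ) (1 / N) := by
    have := hx.1
    have := hx.2
    constructor <;> linarith
  unfold rj
  rw [repA_coe, rep_apply L hd ⟨hx'.1, hx'.2.trans h2⟩, repF, if_pos hx'.2, rot_coe, rot_coe,
    add_zero]
  have e1 : (x - (j : ℝ) / N) / (1 / N) = N * x - j := by field_simp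
  have e2 : (j : ℝ) / N + 1 / N = ((j + 1 : ℕ) : ℝ) / N := by push_cast; ring
  rw [e1, e2]
  rfl

theorem RR_mem (hN : 0 < N) (hγ : γ ∈ X M t) (ht : t / N < L.r0) (k : ℕ) :
    RR L N k γ ∈ X M t := by
  induction k with
  | zero => exact hγ
  | succ k ih => exact rj_mem hN ih ht ⟨zero_le_one, le_rfl⟩ k

theorem RR_nodes (hN : 0 < N) (hγ : γ ∈ X M t) (ht : t / N < L.r0) (k i : ℕ) :
    nodes N (RR L N k γ) i = nodes N γ i := by
  induction k with
  | zero => rfl
  | succ k ih =>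
    rw [← ih]
    exact rj_node hN (RR_mem hN hγ ht k) ht ⟨zero_le_one, le_rfl⟩ k i

theorem RR_arc (hN : 0 < N) (hγ : γ ∈ X M t) (ht : t / N < L.r0) (k : ℕ) (hk : k ≤ N) {i : ℕ}
    (hi : i < k) {x : ℝ} (hx : x ∈ Icc ((i : ℝ) / N) ((i + 1 : ℝ) / N)) :
    RR L N k γ (x : UnitAddCircle) =
      L.seg (nodes N γ i) (nodes N γ (i + 1)) ((N : ℝ) * x - i) := by
  induction k with
  | zero => omega
  | succ k ih =>
    have hm := RR_mem (L := L) hN hγ ht k
    rcases Nat.lt_succ_iff_lt_or_eq.1 hi with h1 | h1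
    · show rj L N k 1 (RR L N k γ) (x : UnitAddCircle) = _
      rw [rj_other hN hm ht ⟨zero_le_one, le_rfl⟩ (by omega) (by omega) h1.ne hx]
      exact ih (by omega) h1
    · subst h1
      show rj L N i 1 (RR L N i γ) (x : UnitAddCircle) = _
      rw [rj_self hN hm ht hx, RR_nodes hN hγ ht, RR_nodes hN hγ ht]

/-- **all arcs replaced: the polygon** -/
theorem RR_eq_pol (hN : 0 < N) (hγ : γ ∈ X M t) (ht : t / N < L.r0) :
    RR L N N γ = pol L N (nodes N γ) := by
  ext x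
  obtain ⟨u, hu, rfl⟩ := exists_Icc x
  obtain ⟨i, hi, hx⟩ := exists_arc hN hu
  rw [RR_arc hN hγ ht N le_rfl hi hx, pol_apply (good_nodes hN hγ ht) hi hx]

end rep

/-! ### homotopies -/

variable (L) in
/-- stability under the partial replacements of the arcs -/
def Stab [CompactSpace M] (N : ℕ) (S : Set (Lp M)) : Prop :=
  ∀ γ ∈ S, ∀ j < N, ∀ s ∈ Icc (0 : ℝ) 1, rj L N j s γ ∈ S

theorem stab_X [CompactSpace M] {t : ℝ} (hN : 0 < N) (ht : t / N < L.r0) : Stab L N (X M t) :=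
  fun _ hγ j _ _ hs => rj_mem hN hγ ht hs j

/-- based loops -/
theorem stab_base [CompactSpace M] {t : ℝ} (hN : 0 < N) (ht : t / N < L.r0) (p : M) :
    Stab L N {γ | γ ∈ X M t ∧ γ 0 = p} :=
  fun _ hγ j _ _ hs => ⟨rj_mem hN hγ.1 ht hs j, by rw [rj_base hN hγ.1 ht hs j, hγ.2]⟩

/-- joint continuity of the replacement of one arc -/
theorem contOn_rj [CompactSpace M] {t : ℝ} (hN : 0 < N) (ht : t / N < L.r0) (j : ℕ) :
    ContinuousOn (fun p : ℝ × Lp M => rj L N j p.1 p.2) (Icc (0 : ℝ) 1 ×ˢ X M t) := by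
  have h1 : ContinuousOn (fun p : ℝ × Lp M =>
      (p.1 / N, rot (((j : ℝ) / N : ℝ) : UnitAddCircle) p.2)) (Icc (0 : ℝ) 1 ×ˢ X M t) := by
    refine Continuous.continuousOn ?_
    exact (continuous_fst.div_const _).prodMk ((rot _).continuous.comp continuous_snd)
  have h2 : ContinuousOn (fun p : ℝ × Lp M =>
      rep L (p.1 / N) (rot (((j : ℝ) / N : ℝ) : UnitAddCircle) p.2)) (Icc (0 : ℝ) 1 ×ˢ X M t) :=
    (contOn_rep L).comp h1 fun p hp => rj_dom hN hp.2 ht hp.1 j
  exact (rot ((-((j : ℝ) / N) : ℝ) : UnitAddCircle)).continuous.comp_continuousOn h2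

variable (L) in
/-- the map `rj` on a stable set -/
noncomputable def rjm [CompactSpace M] {S : Set (Lp M)} {t : ℝ} (hN : 0 < N) (ht : t / N < L.r0)
    (hS : S ⊆ X M t) (hst : Stab L N S) {j : ℕ} (hj : j < N) : C(S, S) where
  toFun γ := ⟨rj L N j 1 γ, hst γ γ.2 j hj 1 ⟨zero_le_one, le_rfl⟩⟩
  continuous_toFun := by
    refine Continuous.subtype_mk ?_ _
    have h1 : Continuous (fun γ : S => ((1 : ℝ), (γ : Lp M))) := by fun_prop
    exact (contOn_rj hN ht j).comp_continuous h1 fun γ => ⟨⟨zero_le_one, le_rfl⟩, hS γ.2⟩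

theorem homotopic_rjm [CompactSpace M] {S : Set (Lp M)} {t : ℝ} (hN : 0 < N) (ht : t / N < L.r0)
    (hS : S ⊆ X M t) (hst : Stab L N S) {j : ℕ} (hj : j < N) :
    (ContinuousMap.id S).Homotopic (rjm L hN ht hS hst hj) := by
  refine ⟨⟨⟨fun q : unitInterval × S => ⟨rj L N j q.1 q.2, hst q.2 q.2.2 j hj q.1 q.1.2⟩, ?_⟩, ?_, ?_⟩⟩
  · refine Continuous.subtype_mk ?_ _
    have h1 : Continuous (fun q : unitInterval × S => ((q.1 : ℝ), (q.2 : Lp M))) := by fun_prop
    exact (contOn_rj hN ht j).comp_continuous h1 fun q => ⟨q.1.2, hS q.2.2⟩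
  · intro γ
    refine Subtype.ext ?_
    show rj L N j ((0 : unitInterval) : ℝ) γ = γ
    rw [Set.Icc.coe_zero]
    exact rj_zero N j (γ : Lp M)
  · intro γ
    refine Subtype.ext ?_
    show rj L N j ((1 : unitInterval) : ℝ) γ = rj L N j 1 γ
    rw [Set.Icc.coe_one]

/-- **the identity of a stable set is homotopic to the replacement of all arcs** -/
theorem homotopic_RR [CompactSpace M] {S : Set (Lp M)} {t : ℝ} (hN : 0 < N) (ht : t / N < L.r0)
    (hS : S ⊆ X M t) (hst : Stab L N S) : ∀ k ≤ N, ∃ F : C(S, S),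
      (∀ γ : S, (F γ : Lp M) = RR L N k γ) ∧ (ContinuousMap.id S).Homotopic F := by
  intro k
  induction k with
  | zero => exact fun _ => ⟨ContinuousMap.id S, fun _ => rfl, ContinuousMap.Homotopic.refl _⟩
  | succ k ih =>
    intro hk
    obtain ⟨F, hF, hh⟩ := ih (by omega)
    refine ⟨(rjm L hN ht hS hst (show k < N by omega)).comp F, fun γ => ?_, ?_⟩
    · show rj L N k 1 (F γ : Lp M) = rj L N k 1 (RR L N k γ)
      rw [hF]
    · have h2 := ContinuousMap.Homotopic.comp (homotopic_rjm hN ht hS hst (show k < N by omega)) hh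
      rwa [ContinuousMap.id_comp] at h2

/-- the same for a map into a stable set -/
theorem homotopic_pol [CompactSpace M] {S : Set (Lp M)} {t : ℝ} (hN : 0 < N) (ht : t / N < L.r0)
    (hS : S ⊆ X M t) (hst : Stab L N S) {A : Type*} [TopologicalSpace A] (φ : C(A, S)) :
    ∃ G : C(A, S), (∀ a, (G a : Lp M) = pol L N (nodes N (φ a))) ∧ φ.Homotopic G := by
  obtain ⟨F, hF, hh⟩ := homotopic_RR hN ht hS hst N le_rfl
  refine ⟨F.comp φ, fun a => ?_, ?_⟩
  · show (F (φ a) : Lp M) = _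
    rw [hF, RR_eq_pol hN (hS (φ a).2) ht]
  · have h2 := ContinuousMap.Homotopic.comp hh (ContinuousMap.Homotopic.refl φ)
    rwa [ContinuousMap.id_comp] at h2

end Crest.Agent.R231.GPolyx943
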