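import Crest.Agent.R231.GLoop_576

/-!
# Row 231 (S0357), block G: replacing an arc of a loop by the short geodesic (helper576)

* `rep L l γ` : `γ` replaced on `[0,l]` by the short geodesic (`0 ≤ l ≤ 1`,
  `dist (γ 0) (γ l) < r0`); jointly continuous, preserves every `X t`
* `repA L a l` : the same on the arc `[a, a + l]`
* `tight` arguments: equality in the Lipschitz bound
-/

set_option autoImplicit false
set_option linter.unusedSectionVars false

open Set Filter Topology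

namespace Crest.Agent.R231.GLugx576

variable {M : Type*} [MetricSpace M] (L : LUG M)

/-- the replaced loop on `[0,1]` -/
noncomputable def repF (l : ℝ) (γ : Lp M) (x : ℝ) : M :=
  if x ≤ l then L.seg (γ ((0 : ℝ) : UnitAddCircle)) (γ (l : UnitAddCircle)) (x / l)
  else γ (x : UnitAddCircle)

/-- the domain of `rep` -/
def RepDom : Set (ℝ × Lp M) := {p | p.1 ∈ Icc (0 : ℝ) 1 ∧
  dist (p.2 ((0 : ℝ) : UnitAddCircle)) (p.2 (p.1 : UnitAddCircle)) < L.r0}

theorem repF_self_param {l : ℝ} {γ : Lp M} (h : (l, γ) ∈ RepDom L) :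
    L.seg (γ ((0 : ℝ) : UnitAddCircle)) (γ (l : UnitAddCircle)) (l / l) = γ (l : UnitAddCircle) := by
  rcases eq_or_ne l 0 with h0 | h0
  · subst h0
    rw [div_zero]
    exact L.seg_zero h.2
  · rw [div_self h0]
    exact L.seg_one h.2

theorem div_mem_Icc {l x : ℝ} (hx : 0 ≤ x) (hxl : x ≤ l) : x / l ∈ Icc (0 : ℝ) 1 := by
  refine ⟨div_nonneg hx (hx.trans hxl), ?_⟩
  exact div_le_one_of_le₀ hxl (hx.trans hxl)

/-- joint continuity of the formula -/
theorem contOn_repF [CompactSpace M] :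
    ContinuousOn (fun q : (ℝ × Lp M) × ℝ => repF L q.1.1 q.1.2 q.2)
      (RepDom L ×ˢ Icc (0 : ℝ) 1) := by
  set A : Set ((ℝ × Lp M) × ℝ) := (RepDom L ×ˢ Icc (0 : ℝ) 1) ∩ {q | q.2 ≤ q.1.1} with hA
  set C : Set ((ℝ × Lp M) × ℝ) := (RepDom L ×ˢ Icc (0 : ℝ) 1) ∩ {q | q.1.1 ≤ q.2} with hC
  have cγ0 : Continuous (fun q : (ℝ × Lp M) × ℝ => q.1.2 ((0 : ℝ) : UnitAddCircle)) :=
    continuous_evalR.comp (continuous_fst.snd.prodMk continuous_const)
  have cγl : Continuous (fun q : (ℝ × Lp M) × ℝ => q.1.2 (q.1.1 : UnitAddCircle)) :=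
    continuous_evalR.comp (continuous_fst.snd.prodMk continuous_fst.fst)
  have cγx : Continuous (fun q : (ℝ × Lp M) × ℝ => q.1.2 (q.2 : UnitAddCircle)) :=
    continuous_evalR.comp (continuous_fst.snd.prodMk continuous_snd)
  -- the first formula
  have h1 : ContinuousOn (fun q : (ℝ × Lp M) × ℝ =>
      L.seg (q.1.2 ((0 : ℝ) : UnitAddCircle)) (q.1.2 (q.1.1 : UnitAddCircle)) (q.2 / q.1.1)) A := by
    intro q0 hq0
    rcases eq_or_ne q0.1.1 0 with h0 | h0
    · -- the degenerate case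
      have hx0 : q0.2 = 0 := le_antisymm (by have := hq0.2; simp only [mem_ofPred_eq] at this; linarith) hq0.1.2.1
      have e0 : L.seg (q0.1.2 ((0 : ℝ) : UnitAddCircle)) (q0.1.2 (q0.1.1 : UnitAddCircle))
          (q0.2 / q0.1.1) = q0.1.2 ((0 : ℝ) : UnitAddCircle) := by
        rw [hx0, zero_div]
        exact L.seg_zero hq0.1.1.2
      rw [ContinuousWithinAt, e0]
      refine tendsto_iff_dist_tendsto_zero.2 ?_
      have hlim : Tendsto (fun q : (ℝ × Lp M) × ℝ =>
          dist (q.1.2 ((0 : ℝ) : UnitAddCircle)) (q.1.2 (q.1.1 : UnitAddCircle)) +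
          dist (q.1.2 ((0 : ℝ) : UnitAddCircle)) (q0.1.2 ((0 : ℝ) : UnitAddCircle)))
          (𝓝[A] q0) (𝓝 0) := by
        have hc : Continuous (fun q : (ℝ × Lp M) × ℝ =>
            dist (q.1.2 ((0 : ℝ) : UnitAddCircle)) (q.1.2 (q.1.1 : UnitAddCircle)) +
            dist (q.1.2 ((0 : ℝ) : UnitAddCircle)) (q0.1.2 ((0 : ℝ) : UnitAddCircle))) :=
          (cγ0.dist cγl).add (cγ0.dist continuous_const)
        have := (hc.tendsto q0).mono_left (inf_le_left : 𝓝[A] q0 ≤ 𝓝 q0)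
        rw [h0, dist_self, add_zero] at this
        exact this
      refine squeeze_zero' (Eventually.of_forall fun _ => dist_nonneg) ?_ hlim
      filter_upwards [self_mem_nhdsWithin] with q hq
      have hd := div_mem_Icc hq.1.2.1 hq.2
      have h5 := L.dist_left hq.1.1.2 hd
      have h6 : dist (L.seg (q.1.2 ((0 : ℝ) : UnitAddCircle)) (q.1.2 (q.1.1 : UnitAddCircle))
          (q.2 / q.1.1)) (q.1.2 ((0 : ℝ) : UnitAddCircle)) ≤
          dist (q.1.2 ((0 : ℝ) : UnitAddCircle)) (q.1.2 (q.1.1 : UnitAddCircle)) := by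
        rw [dist_comm, h5]
        exact mul_le_of_le_one_left dist_nonneg hd.2
      exact (dist_triangle _ (q.1.2 ((0 : ℝ) : UnitAddCircle)) _).trans (by gcongr)
    · have hk : ContinuousWithinAt (fun q : (ℝ × Lp M) × ℝ => q.2 / q.1.1) A q0 :=
        (continuous_snd.continuousWithinAt).div (continuous_fst.fst.continuousWithinAt) h0
      have hp : ContinuousWithinAt (fun q : (ℝ × Lp M) × ℝ =>
          (q.1.2 ((0 : ℝ) : UnitAddCircle), q.1.2 (q.1.1 : UnitAddCircle), q.2 / q.1.1)) A q0 :=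
        cγ0.continuousWithinAt.prodMk (cγl.continuousWithinAt.prodMk hk)
      refine ContinuousWithinAt.comp (t := {p : M × M × ℝ | dist p.1 p.2.1 < L.r0 ∧
        p.2.2 ∈ Icc (0 : ℝ) 1}) (g := fun p : M × M × ℝ => L.seg p.1 p.2.1 p.2.2) ?_ hp ?_
      · exact L.continuousOn_seg _ ⟨hq0.1.1.2, div_mem_Icc hq0.1.2.1 hq0.2⟩
      · intro q hq
        exact ⟨hq.1.1.2, div_mem_Icc hq.1.2.1 hq.2⟩
  have hAF : ContinuousOn (fun q : (ℝ × Lp M) × ℝ => repF L q.1.1 q.1.2 q.2) A :=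
    h1.congr fun q hq => if_pos hq.2
  have hCF : ContinuousOn (fun q : (ℝ × Lp M) × ℝ => repF L q.1.1 q.1.2 q.2) C := by
    refine cγx.continuousOn.congr fun q hq => ?_
    have hq2 : q.1.1 ≤ q.2 := hq.2
    rcases hq2.eq_or_lt with he | hlt
    · show repF L q.1.1 q.1.2 q.2 = _
      rw [repF, if_pos (by rw [he]), ← he]
      exact (repF_self_param L hq.1.1).trans (by show _ = q.1.2 (q.2 : UnitAddCircle); rw [he])
    · exact if_neg (not_le.2 hlt)
  have hcA : IsClosed {q : (ℝ × Lp M) × ℝ | q.2 ≤ q.1.1} :=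
    isClosed_le continuous_snd continuous_fst.fst
  have hcC : IsClosed {q : (ℝ × Lp M) × ℝ | q.1.1 ≤ q.2} :=
    isClosed_le continuous_fst.fst continuous_snd
  intro q0 hq0
  -- glue
  have hU : RepDom L ×ˢ Icc (0 : ℝ) 1 = A ∪ C := by
    rw [hA, hC, ← inter_union_distrib_left]
    refine (inter_eq_left.2 fun q _ => ?_).symm
    exact le_total q.2 q.1.1
  rw [hU]
  refine ContinuousWithinAt.union ?_ ?_
  · by_cases h : q0.2 ≤ q0.1.1
    · exact hAF q0 ⟨hq0, h⟩
    · refine continuousWithinAt_of_notMem_closure fun hcl => h ?_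
      have := closure_mono (inter_subset_right : A ⊆ {q | q.2 ≤ q.1.1}) hcl
      rwa [hcA.closure_eq] at this
  · by_cases h : q0.1.1 ≤ q0.2
    · exact hCF q0 ⟨hq0, h⟩
    · refine continuousWithinAt_of_notMem_closure fun hcl => h ?_
      have := closure_mono (inter_subset_right : C ⊆ {q | q.1.1 ≤ q.2}) hcl
      rwa [hcC.closure_eq] at this

theorem repF_endpoints {l : ℝ} {γ : Lp M} (h : (l, γ) ∈ RepDom L) :
    repF L l γ 0 = repF L l γ 1 := by
  have hl := h.1
  simp only at hl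
  have e0 : repF L l γ 0 = γ ((0 : ℝ) : UnitAddCircle) := by
    rw [repF, if_pos hl.1, zero_div]
    exact L.seg_zero h.2
  rw [e0]
  have e1 : γ ((0 : ℝ) : UnitAddCircle) = γ ((1 : ℝ) : UnitAddCircle) := by
    rw [coe_one_circle]; rfl
  rcases hl.2.eq_or_lt with h1 | h1
  · have h2 := repF_self_param L h
    rw [repF, if_pos (by rw [h1])]
    rw [h1] at h2 ⊢
    rw [h2, ← e1]
  · rw [repF, if_neg (not_le.2 h1), ← e1]

/-- **replacement of the arc `[0,l]`** -/
noncomputable def rep [CompactSpace M] (l : ℝ) (γ : Lp M) : Lp M :=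
  open Classical in
  if h : (l, γ) ∈ RepDom L then
    ⟨AddCircle.liftIco 1 0 (repF L l γ), by
      refine AddCircle.liftIco_continuous ?_ ?_
      · rw [zero_add]; exact repF_endpoints L h
      · rw [zero_add]
        have h1 : ContinuousOn (fun x : ℝ => (((l, γ), x) : (ℝ × Lp M) × ℝ)) (Icc 0 1) := by
          fun_prop
        exact (contOn_repF L).comp h1 fun x hx => ⟨h, hx⟩⟩
  else γ

theorem rep_apply [CompactSpace M] {l : ℝ} {γ : Lp M} (h : (l, γ) ∈ RepDom L) {x : ℝ}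
    (hx : x ∈ Icc (0 : ℝ) 1) : rep L l γ (x : UnitAddCircle) = repF L l γ x := by
  rw [rep, dif_pos h]
  show AddCircle.liftIco 1 0 (repF L l γ) (x : UnitAddCircle) = _
  rcases hx.2.eq_or_lt with h1 | h1
  · subst h1
    rw [coe_one_circle, ← repF_endpoints L h]
    exact AddCircle.liftIco_coe_apply (p := 1) (a := 0) ⟨le_rfl, by norm_num⟩
  · exact AddCircle.liftIco_coe_apply (p := 1) (a := 0) ⟨hx.1, by simpa using h1⟩

/-- **joint continuity** -/
theorem contOn_rep [CompactSpace M] :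
    ContinuousOn (fun p : ℝ × Lp M => rep L p.1 p.2) (RepDom L) := by
  refine contOn_to_loop ?_
  exact (contOn_repF L).congr fun q hq => rep_apply L hq.1 hq.2

variable {L} in
theorem mem_RepDom {t l : ℝ} {γ : Lp M} (hγ : γ ∈ X M t) (h0 : 0 ≤ l) (h1 : l ≤ 1)
    (h : t * l < L.r0) : (l, γ) ∈ RepDom L := by
  refine ⟨⟨h0, h1⟩, ?_⟩
  have := hγ 0 l
  rw [zero_sub, abs_neg, abs_of_nonneg h0] at this
  exact this.trans_lt h

/-- points of the replaced arc -/
theorem rep_dist [CompactSpace M] {l : ℝ} {γ : Lp M} (h : (l, γ) ∈ RepDom L) {x y : ℝ}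
    (hx : x ∈ Icc (0 : ℝ) l) (hy : y ∈ Icc (0 : ℝ) l) :
    dist (rep L l γ x) (rep L l γ y) =
      |x / l - y / l| * dist (γ ((0 : ℝ) : UnitAddCircle)) (γ (l : UnitAddCircle)) := by
  rw [rep_apply L h ⟨hx.1, hx.2.trans h.1.2⟩, rep_apply L h ⟨hy.1, hy.2.trans h.1.2⟩,
    repF, repF, if_pos hx.2, if_pos hy.2]
  exact L.dist_seg h.2 (div_mem_Icc hx.1 hx.2) (div_mem_Icc hy.1 hy.2)

theorem rep_right [CompactSpace M] {l : ℝ} {γ : Lp M} (h : (l, γ) ∈ RepDom L) {x : ℝ}
    (hx : x ∈ Icc l 1) : rep L l γ x = γ (x : UnitAddCircle) := by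
  rw [rep_apply L h ⟨h.1.1.trans hx.1, hx.2⟩]
  rcases hx.1.eq_or_lt with he | hlt
  · rw [repF, if_pos (by rw [he]), ← he]
    exact repF_self_param L h
  · exact if_neg (not_le.2 hlt)

theorem rep_zero_pt [CompactSpace M] {l : ℝ} {γ : Lp M} (h : (l, γ) ∈ RepDom L) :
    rep L l γ ((0 : ℝ) : UnitAddCircle) = γ ((0 : ℝ) : UnitAddCircle) := by
  rw [rep_apply L h ⟨le_rfl, zero_le_one⟩, repF, if_pos h.1.1, zero_div]
  exact L.seg_zero h.2

/-- **the replacement preserves the Lipschitz constant** -/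
theorem rep_mem [CompactSpace M] {t l : ℝ} {γ : Lp M} (hγ : γ ∈ X M t) (h0 : 0 ≤ l) (h1 : l ≤ 1)
    (h : t * l < L.r0) : rep L l γ ∈ X M t := by
  have hd := mem_RepDom (L := L) hγ h0 h1 h
  have ht := nonneg_of_mem hγ
  have key1 : ∀ x y : ℝ, 0 ≤ x → x ≤ y → y ≤ l →
      dist (rep L l γ x) (rep L l γ y) ≤ t * (y - x) := by
    intro x y hx hxy hy
    rw [rep_dist L hd ⟨hx, hxy.trans hy⟩ ⟨hx.trans hxy, hy⟩]
    rcases h0.eq_or_lt with h00 | h00
    · subst h00
      have : x = 0 := le_antisymm (hxy.trans hy) hx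
      have : y = 0 := le_antisymm hy (hx.trans hxy)
      subst_vars
      simp
    · have h2 := hγ 0 l
      rw [zero_sub, abs_neg, abs_of_nonneg h0] at h2
      rw [← sub_div, abs_div, abs_of_nonneg h0, abs_sub_comm, abs_of_nonneg (by linarith)]
      calc (y - x) / l * dist (γ ((0 : ℝ) : UnitAddCircle)) (γ (l : UnitAddCircle))
          ≤ (y - x) / l * (t * l) :=
            mul_le_mul_of_nonneg_left h2 (div_nonneg (by linarith) h0)
        _ = t * (y - x) := by field_simp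
  have key2 : ∀ x y : ℝ, l ≤ x → x ≤ y → y ≤ 1 →
      dist (rep L l γ x) (rep L l γ y) ≤ t * (y - x) := by
    intro x y hx hxy hy
    rw [rep_right L hd ⟨hx, hxy.trans hy⟩, rep_right L hd ⟨hx.trans hxy, hy⟩]
    have := hγ x y
    rwa [abs_sub_comm, abs_of_nonneg (by linarith)] at this
  refine mem_X_of_Icc fun x y hx hxy hy => ?_
  rcases le_total y l with hyl | hyl
  · exact key1 x y hx hxy hyl
  · rcases le_total x l with hxl | hxl
    · refine (dist_triangle _ (rep L l γ l) _).trans ?_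
      have a1 := key1 x l hx hxl le_rfl
      have a2 := key2 l y le_rfl hyl hy
      calc _ ≤ t * (l - x) + t * (y - l) := add_le_add a1 a2
        _ = t * (y - x) := by ring
    · exact key2 x y hxl hxy hy

/-- nothing is replaced for `l = 0` -/
theorem rep_zero [CompactSpace M] (γ : Lp M) : rep L 0 γ = γ := by
  have h : ((0 : ℝ), γ) ∈ RepDom L := ⟨⟨le_rfl, zero_le_one⟩, by
    show dist (γ ((0 : ℝ) : UnitAddCircle)) (γ ((0 : ℝ) : UnitAddCircle)) < L.r0
    rw [dist_self]; exact L.r0_pos⟩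
  ext x
  obtain ⟨u, hu, rfl⟩ := exists_Icc x
  exact rep_right L h hu

/-- everything is replaced for `l = 1` -/
theorem rep_one [CompactSpace M] (γ : Lp M) (x : UnitAddCircle) : rep L 1 γ x = γ 0 := by
  have e1 : γ ((1 : ℝ) : UnitAddCircle) = γ ((0 : ℝ) : UnitAddCircle) := by
    rw [coe_one_circle]; rfl
  have h : ((1 : ℝ), γ) ∈ RepDom L := ⟨⟨zero_le_one, le_rfl⟩, by
    show dist (γ ((0 : ℝ) : UnitAddCircle)) (γ ((1 : ℝ) : UnitAddCircle)) < L.r0
    rw [e1, dist_self]; exact L.r0_pos⟩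
  obtain ⟨u, hu, rfl⟩ := exists_Icc x
  rw [rep_apply L h hu, repF, if_pos hu.2, e1, L.seg_self _ (by rwa [div_one])]
  rfl

/-- a tight arc is not changed -/
theorem rep_eq_self [CompactSpace M] {s l : ℝ} {γ : Lp M} (hγ : γ ∈ X M s) (h0 : 0 ≤ l)
    (h1 : l ≤ 1) (h : s * l < L.r0)
    (ht : dist (γ ((0 : ℝ) : UnitAddCircle)) (γ (l : UnitAddCircle)) = s * l) : rep L l γ = γ := by
  rcases h0.eq_or_lt with h00 | h00
  · subst h00; exact rep_zero L γ
  have hd := mem_RepDom (L := L) hγ h0 h1 h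
  ext x
  obtain ⟨u, hu, rfl⟩ := exists_Icc x
  rcases le_total u l with hul | hul
  · rw [rep_apply L hd hu, repF, if_pos hul]
    refine (L.uniq_le hd.2 (div_mem_Icc hu.1 hul) ?_ ?_).symm
    · have := hγ 0 u
      rw [zero_sub, abs_neg, abs_of_nonneg hu.1] at this
      rw [ht]
      refine this.trans (le_of_eq ?_)
      field_simp
    · have := hγ u l
      rw [abs_sub_comm, abs_of_nonneg (by linarith)] at this
      rw [ht]
      refine this.trans (le_of_eq ?_)
      field_simp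
  · exact rep_right L hd ⟨hul, hu.2⟩

end Crest.Agent.R231.GLugx576
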