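import Crest.Agent.R231.GBirk2_576

/-!
# Row 231 (S0357), block G: simultaneous replacement, the equivariant Birkhoff map (helper449)

`L : LUG M`, `M` compact.

* `Sim L N a τ γ` : all arcs `[a + i/N, a + (i + τ)/N]`, `i < N`, replaced by short geodesics.
  `Sim_apply` (evaluation on the `i`-th arc, `i : ℤ`), `levDef_Sim`, `Sim_rot` : commutes with the
  rotations by `j/N`; `Sim_dbl`: compatible with doubling.
* `Bs L N τ K γ` : `K` rounds with the offsets `n/2N`, `n < K`; `levDef_Bs`, `Bs_rot`,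
  `Bs_tight` : if `N + 1 ≤ K`, `γ ∈ X s` and `Bs L N 1 K γ` has full speed `s` on an interval of the grid,
  then `γ` is a closed geodesic of length `s`.
-/

set_option autoImplicit false
set_option linter.unusedSectionVars false

open Set Filter Topology

namespace Crest.Agent.R231.GSimx449

open Crest.Agent.R231.GLugx576

variable {M : Type*} [MetricSpace M] (L : LUG M)

section

variable [CompactSpace M]

/-- replacement of the arcs `[a + i/N, a + (i+τ)/N]`, `i < n` -/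
noncomputable def Sst (N : ℕ) (a τ : ℝ) : ℕ → Lp M → Lp M
  | 0, γ => γ
  | n + 1, γ => repA L (a + (n : ℝ) / N) (τ * (1 / N)) (Sst N a τ n γ)

/-- **simultaneous replacement** of the arcs `[a + i/N, a + (i+τ)/N]`, `i < N` -/
noncomputable def Sim (N : ℕ) (a τ : ℝ) (γ : Lp M) : Lp M := Sst L N a τ N γ

variable {N : ℕ} {T s t : ℝ} {γ : Lp M}

theorem levDef_Sst (hN : 0 < N) (hT : T * (1 / N) < L.r0) (a : ℝ) (n : ℕ) :
    LevDef M T (fun p => Sst L N a p.1 n p.2) := by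
  induction n with
  | zero => exact LevDef.id T
  | succ n ih =>
    exact (levDef_repA L (a + (n : ℝ) / N) (by positivity) (one_div_le_one_N hN) hT).comp ih

theorem levDef_Sim (hN : 0 < N) (hT : T * (1 / N) < L.r0) (a : ℝ) :
    LevDef M T (fun p => Sim L N a p.1 p.2) := levDef_Sst L hN hT a N

/-- `repA` on its own period: formula -/
theorem repA_formula {a l : ℝ} (hd : (l, rot (a : UnitAddCircle) γ) ∈ RepDom L) {x : ℝ}
    (hx : x ∈ Icc a (a + 1)) : repA L a l γ x =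
      if x - a ≤ l then L.seg (γ (a : UnitAddCircle)) (γ ((a + l : ℝ) : UnitAddCircle)) ((x - a) / l)
      else γ (x : UnitAddCircle) := by
  rw [repA_coe, rep_apply L hd ⟨by linarith [hx.1], by linarith [hx.2]⟩, repF, rot_coe, rot_coe,
    rot_coe, add_zero]
  congr 3
  ring

theorem repA_add_int (a l : ℝ) (q : ℤ) : repA L (a + q) l γ = repA L a l γ := by
  unfold repA
  rw [coe_add_int, neg_add, ← Int.cast_neg, coe_add_int]

theorem repA_rot (a b l : ℝ) : repA L a l (rot (b : UnitAddCircle) γ) =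
    rot (b : UnitAddCircle) (repA L (a + b) l γ) := by
  unfold repA
  rw [rot_rot, rot_rot, ← AddCircle.coe_add, ← AddCircle.coe_add]
  congr 2
  ring_nf

variable {L} in
theorem par_bound {τ : ℝ} (hN : 0 < N) (hT : T * (1 / N) < L.r0) (hγ : γ ∈ X M T)
    (hτ : τ ∈ Icc (0 : ℝ) 1) :
    0 ≤ τ * (1 / N) ∧ τ * (1 / (N : ℝ)) ≤ 1 / N ∧ τ * (1 / (N : ℝ)) ≤ 1 ∧
      T * (τ * (1 / N)) < L.r0 := by
  have hN' : (0 : ℝ) < 1 / N := by positivity
  have ht0 := nonneg_of_mem hγ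
  have a1 : τ * (1 / (N : ℝ)) ≤ 1 / N := mul_le_of_le_one_left hN'.le hτ.2
  refine ⟨mul_nonneg hτ.1 hN'.le, a1, a1.trans (one_div_le_one_N hN), lt_of_le_of_lt ?_ hT⟩
  exact mul_le_mul_of_nonneg_left a1 ht0

/-- evaluation after `n` steps -/
theorem Sst_apply (hN : 0 < N) (hT : T * (1 / N) < L.r0) (hγ : γ ∈ X M T) {τ : ℝ}
    (hτ : τ ∈ Icc (0 : ℝ) 1) (a : ℝ) (n : ℕ) (hn : n ≤ N) :
    ∀ i < N, ∀ x ∈ Icc (a + (i : ℝ) / N) (a + ((i + 1 : ℕ) : ℝ) / N),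
      Sst L N a τ n γ x = if i < n then repA L (a + (i : ℝ) / N) (τ * (1 / N)) γ x else γ x := by
  have hNr : (0 : ℝ) < N := by exact_mod_cast hN
  obtain ⟨b0, b1, b2, b3⟩ := par_bound hN hT hγ hτ
  induction n with
  | zero => intro i _ x _; rw [if_neg (Nat.not_lt_zero i)]; rfl
  | succ n ih =>
    intro i hi x hx
    have ih' := ih (by omega)
    set g := Sst L N a τ n γ with hg
    have hgm : g ∈ X M T := (levDef_Sst L hN hT a n).maps T le_rfl τ hτ γ hγ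
    have hd : ∀ b : ℝ, (τ * (1 / (N : ℝ)), rot (b : UnitAddCircle) g) ∈ RepDom L :=
      fun b => mem_domA hgm b0 b2 b3 b
    have hdγ : ∀ b : ℝ, (τ * (1 / (N : ℝ)), rot (b : UnitAddCircle) γ) ∈ RepDom L :=
      fun b => mem_domA hγ b0 b2 b3 b
    show repA L (a + (n : ℝ) / N) (τ * (1 / N)) g x = _
    have e1 : ∀ k : ℕ, ((k + 1 : ℕ) : ℝ) / N = (k : ℝ) / N + 1 / N := fun k => by
      push_cast; ring
    have hle : ∀ k m : ℕ, k ≤ m → (k : ℝ) / N ≤ (m : ℝ) / N := fun k m h => by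
      apply div_le_div_of_nonneg_right _ hNr.le
      exact_mod_cast h
    have hNN : (N : ℝ) / N = 1 := div_self hNr.ne'
    rcases lt_trichotomy i n with h | h | h
    · -- earlier arc
      rw [if_pos (by omega), ← coe_add_int x 1]
      have h1 := hle (i + 1) n h
      have h2 := hle (n + 1) N (by omega)
      have h3 : (0 : ℝ) ≤ (i : ℝ) / N := by positivity
      rw [hNN] at h2
      rw [repA_out L (hd _) ⟨?_, ?_⟩, coe_add_int, ih' i hi x hx, if_pos h]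
      · rw [e1] at h2
        push_cast; linarith [hx.1]
      · push_cast; linarith [hx.2]
    · subst h
      rw [if_pos (Nat.lt_succ_self i)]
      have hx' : x ∈ Icc (a + (i : ℝ) / N) (a + (i : ℝ) / N + 1) := by
        refine ⟨hx.1, hx.2.trans ?_⟩
        rw [e1]; linarith [one_div_le_one_N hN]
      have hval : ∀ y ∈ Icc (a + (i : ℝ) / N) (a + ((i + 1 : ℕ) : ℝ) / N),
          g (y : UnitAddCircle) = γ (y : UnitAddCircle) := fun y hy => by
        rw [ih' i hi y hy, if_neg (lt_irrefl i)]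
      rw [repA_formula L (hd _) hx', repA_formula L (hdγ _) hx', hval x hx,
        hval (a + (i : ℝ) / N) ⟨le_rfl, by rw [e1]; linarith [one_div_pos.2 hNr]⟩,
        hval (a + (i : ℝ) / N + τ * (1 / N)) ⟨by linarith, by rw [e1]; linarith⟩]
    · -- later arc
      rw [if_neg (by omega)]
      have h1 := hle (n + 1) i h
      have h2 := hle (i + 1) N hi
      rw [hNN] at h2
      have h3 : (0 : ℝ) ≤ (n : ℝ) / N := by positivity
      rw [repA_out L (hd _) ⟨?_, ?_⟩, ih' i hi x hx, if_neg (by omega)]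
      · rw [e1] at h1; linarith [hx.1]
      · linarith [hx.2]

/-- **evaluation of the simultaneous replacement** on the `i`-th arc, `i : ℤ` -/
theorem Sim_apply (hN : 0 < N) (hT : T * (1 / N) < L.r0) (hγ : γ ∈ X M T) {τ : ℝ}
    (hτ : τ ∈ Icc (0 : ℝ) 1) (a : ℝ) (i : ℤ) {x : ℝ}
    (hx : x ∈ Icc (a + (i : ℝ) / N) (a + ((i + 1 : ℤ) : ℝ) / N)) :
    Sim L N a τ γ x = repA L (a + (i : ℝ) / N) (τ * (1 / N)) γ x := by
  have hNr : (0 : ℝ) < N := by exact_mod_cast hN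
  have hNz : (0 : ℤ) < N := by exact_mod_cast hN
  set q : ℤ := i / N with hq
  set k : ℤ := i % N with hk
  have hik : i = k + N * q := (Int.emod_add_mul_ediv i N).symm
  have hk0 : 0 ≤ k := Int.emod_nonneg _ hNz.ne'
  have hk1 : k < N := Int.emod_lt_of_pos _ hNz
  obtain ⟨m, hm⟩ := Int.eq_ofNat_of_zero_le hk0
  have hmN : m < N := by exact_mod_cast hm ▸ hk1
  have e1 : (i : ℝ) / N = (m : ℝ) / N + q := by
    have h2 : (i : ℝ) = m + N * q := by
      have := hik; rw [hm] at this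
      exact_mod_cast this
    rw [h2]; field_simp
  have e2 : ((i + 1 : ℤ) : ℝ) / N = ((m + 1 : ℕ) : ℝ) / N + q := by
    push_cast; rw [add_div, e1]; ring
  rw [e1, ← add_assoc, repA_add_int, ← coe_sub_int x q]
  have h3 := Sst_apply L hN hT hγ hτ a N le_rfl m hmN (x - q)
    ⟨by linarith [hx.1], by linarith [hx.2]⟩
  rw [if_pos hmN] at h3
  exact h3

/-- every real number lies in one of the arcs -/
theorem exists_arc (hN : 0 < N) (a x : ℝ) :
    ∃ i : ℤ, x ∈ Icc (a + (i : ℝ) / N) (a + ((i + 1 : ℤ) : ℝ) / N) := by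
  have hNr : (0 : ℝ) < N := by exact_mod_cast hN
  refine ⟨⌊(x - a) * N⌋, ?_, ?_⟩
  · have h1 := Int.floor_le ((x - a) * N)
    have : (⌊(x - a) * N⌋ : ℝ) / N ≤ x - a := by rw [div_le_iff₀ hNr]; exact h1
    linarith
  · have h1 := (Int.lt_floor_add_one ((x - a) * N)).le
    have : x - a ≤ ((⌊(x - a) * N⌋ + 1 : ℤ) : ℝ) / N := by
      rw [le_div_iff₀ hNr]; push_cast; exact h1
    linarith

theorem Sim_mem (hN : 0 < N) (hs : s * (1 / N) < L.r0) (hγ : γ ∈ X M s) {τ : ℝ}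
    (hτ : τ ∈ Icc (0 : ℝ) 1) (a : ℝ) : Sim L N a τ γ ∈ X M s :=
  (levDef_Sim L hN hs a).maps s le_rfl τ hτ γ hγ

/-- **equivariance** under the rotations by `j/N` -/
theorem Sim_rot (hN : 0 < N) (hT : T * (1 / N) < L.r0) (hγ : γ ∈ X M T) {τ : ℝ}
    (hτ : τ ∈ Icc (0 : ℝ) 1) (a : ℝ) (j : ℤ) :
    Sim L N a τ (rot (((j : ℝ) / N : ℝ) : UnitAddCircle) γ) =
      rot (((j : ℝ) / N : ℝ) : UnitAddCircle) (Sim L N a τ γ) := by
  ext x
  induction x using QuotientAddGroup.induction_on with | _ x => ?_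
  show Sim L N a τ (rot (((j : ℝ) / N : ℝ) : UnitAddCircle) γ) (x : UnitAddCircle) =
    rot (((j : ℝ) / N : ℝ) : UnitAddCircle) (Sim L N a τ γ) (x : UnitAddCircle)
  obtain ⟨i, hi⟩ := exists_arc hN a x
  have e : ∀ i : ℤ, ((i + j : ℤ) : ℝ) / N = (i : ℝ) / N + (j : ℝ) / N := fun i => by
    push_cast; ring
  rw [Sim_apply L hN hT (rot_mem hγ _) hτ a i hi, repA_rot, rot_coe, rot_coe,
    Sim_apply L hN hT hγ hτ a (i + j) ⟨?_, ?_⟩, e, ← add_assoc]
  · rw [e]; linarith [hi.1]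
  · have e3 : i + j + 1 = (i + 1) + j := by ring
    rw [e3, e]; linarith [hi.2]

/-! ### tight arcs -/

/-- the replaced loop has constant speed on the arcs -/
theorem Sim_dist (hN : 0 < N) (hs : s * (1 / N) < L.r0) (hγ : γ ∈ X M s) (a : ℝ) (i : ℤ) {x y : ℝ}
    (hx : x ∈ Icc (a + (i : ℝ) / N) (a + ((i + 1 : ℤ) : ℝ) / N))
    (hy : y ∈ Icc (a + (i : ℝ) / N) (a + ((i + 1 : ℤ) : ℝ) / N)) :
    dist (Sim L N a 1 γ x) (Sim L N a 1 γ y) = N * |x - y| *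
      dist (γ ((a + (i : ℝ) / N : ℝ) : UnitAddCircle))
        (γ ((a + ((i + 1 : ℤ) : ℝ) / N : ℝ) : UnitAddCircle)) := by
  have hNr : (0 : ℝ) < N := by exact_mod_cast hN
  have h01 : (1 : ℝ) ∈ Icc (0 : ℝ) 1 := ⟨zero_le_one, le_rfl⟩
  have e1 : a + ((i + 1 : ℤ) : ℝ) / N = a + (i : ℝ) / N + 1 * (1 / N) := by push_cast; ring
  obtain ⟨b0, b1, b2, b3⟩ := par_bound hN hs hγ h01
  rw [Sim_apply L hN hs hγ h01 a i hx, Sim_apply L hN hs hγ h01 a i hy]
  rw [e1] at hx hy ⊢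
  rw [repA_dist L (mem_domA hγ b0 b2 b3 _) hx hy]
  congr 1
  rw [← sub_div, abs_div, abs_of_nonneg b0]
  have e : x - (a + (i : ℝ) / N) - (y - (a + (i : ℝ) / N)) = x - y := by ring
  rw [e]; field_simp

/-- **a tight piece of the replaced loop**: the arc was tight and nothing has been replaced on it -/
theorem Sim_tight (hN : 0 < N) (hs : s * (1 / N) < L.r0) (hγ : γ ∈ X M s) (a : ℝ) (i : ℤ) {c d : ℝ}
    (hc : a + (i : ℝ) / N ≤ c) (hcd : c < d) (hd : d ≤ a + ((i + 1 : ℤ) : ℝ) / N)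
    (ht : dist (Sim L N a 1 γ c) (Sim L N a 1 γ d) = s * (d - c)) :
    dist (γ ((a + (i : ℝ) / N : ℝ) : UnitAddCircle))
        (γ ((a + ((i + 1 : ℤ) : ℝ) / N : ℝ) : UnitAddCircle)) = s * (1 / N) ∧
      ∀ x ∈ Icc (a + (i : ℝ) / N) (a + ((i + 1 : ℤ) : ℝ) / N), Sim L N a 1 γ x = γ x := by
  have hNr : (0 : ℝ) < N := by exact_mod_cast hN
  have h01 : (1 : ℝ) ∈ Icc (0 : ℝ) 1 := ⟨zero_le_one, le_rfl⟩
  have hcd' : 0 < d - c := by linarith
  have h1 := Sim_dist L hN hs hγ a i ⟨hc, hcd.le.trans hd⟩ ⟨hc.trans hcd.le, hd⟩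
  rw [ht, abs_sub_comm, abs_of_pos hcd'] at h1
  have h2 : dist (γ ((a + (i : ℝ) / N : ℝ) : UnitAddCircle))
        (γ ((a + ((i + 1 : ℤ) : ℝ) / N : ℝ) : UnitAddCircle)) = s * (1 / N) := by
    have h3 : (N * (d - c)) * dist (γ ((a + (i : ℝ) / N : ℝ) : UnitAddCircle))
        (γ ((a + ((i + 1 : ℤ) : ℝ) / N : ℝ) : UnitAddCircle)) = (N * (d - c)) * (s * (1 / N)) := by
      rw [← h1]; field_simp
    exact mul_left_cancel₀ (by positivity) h3
  refine ⟨h2, fun x hx => ?_⟩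
  rw [Sim_apply L hN hs hγ h01 a i hx]
  have e1 : a + ((i + 1 : ℤ) : ℝ) / N = a + (i : ℝ) / N + 1 * (1 / N) := by push_cast; ring
  obtain ⟨b0, b1, b2, b3⟩ := par_bound hN hs hγ h01
  rw [repA_eq_self L hγ b0 b2 b3 (by rw [← e1, h2, one_mul])]

/-- nothing happens to a loop all of whose arcs are tight -/
theorem Sim_eq_self (hN : 0 < N) (hs : s * (1 / N) < L.r0) (hγ : γ ∈ X M s) {τ : ℝ}
    (hτ : τ ∈ Icc (0 : ℝ) 1) (a : ℝ)
    (ht : ∀ i : ℤ, dist (γ ((a + (i : ℝ) / N : ℝ) : UnitAddCircle))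
        (γ ((a + ((i + 1 : ℤ) : ℝ) / N : ℝ) : UnitAddCircle)) = s * (1 / N)) :
    Sim L N a τ γ = γ := by
  have hNr : (0 : ℝ) < N := by exact_mod_cast hN
  ext x
  induction x using QuotientAddGroup.induction_on with | _ x => ?_
  show Sim L N a τ γ (x : UnitAddCircle) = γ (x : UnitAddCircle)
  obtain ⟨i, hi⟩ := exists_arc hN a x
  obtain ⟨b0, b1, b2, b3⟩ := par_bound hN hs hγ hτ
  rw [Sim_apply L hN hs hγ hτ a i hi]
  have e1 : a + ((i + 1 : ℤ) : ℝ) / N = a + (i : ℝ) / N + 1 / N := by push_cast; ring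
  have e2 : s * (1 / (N : ℝ)) = s * ((a + (i : ℝ) / N + 1 / N) - (a + (i : ℝ) / N)) := by ring
  have h1 := ht i
  rw [e1, e2] at h1
  have h2 := tight_sub hγ le_rfl (by linarith) (by linarith : a + (i : ℝ) / N + τ * (1 / N) ≤ _) h1
  rw [repA_eq_self L hγ b0 b2 b3 (by rw [h2]; ring)]

/-! ### several rounds -/

/-- `K` rounds, the `n`-th one with offset `n/2N` -/
noncomputable def Bs (N : ℕ) (τ : ℝ) : ℕ → Lp M → Lp M
  | 0, γ => γ
  | n + 1, γ => Sim L N ((n : ℝ) / (2 * N)) τ (Bs N τ n γ)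

theorem levDef_Bs (hN : 0 < N) (hT : T * (1 / N) < L.r0) (K : ℕ) :
    LevDef M T (fun p => Bs L N p.1 K p.2) := by
  induction K with
  | zero => exact LevDef.id T
  | succ n ih => exact (levDef_Sim L hN hT ((n : ℝ) / (2 * N))).comp ih

theorem Bs_mem (hN : 0 < N) (hs : s * (1 / N) < L.r0) (hγ : γ ∈ X M s) {τ : ℝ}
    (hτ : τ ∈ Icc (0 : ℝ) 1) (K : ℕ) : Bs L N τ K γ ∈ X M s :=
  (levDef_Bs L hN hs K).maps s le_rfl τ hτ γ hγ

/-- **equivariance** -/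
theorem Bs_rot (hN : 0 < N) (hT : T * (1 / N) < L.r0) (hγ : γ ∈ X M T) {τ : ℝ}
    (hτ : τ ∈ Icc (0 : ℝ) 1) (j : ℤ) (K : ℕ) :
    Bs L N τ K (rot (((j : ℝ) / N : ℝ) : UnitAddCircle) γ) =
      rot (((j : ℝ) / N : ℝ) : UnitAddCircle) (Bs L N τ K γ) := by
  induction K with
  | zero => rfl
  | succ K ih =>
    show Sim L N _ τ (Bs L N τ K _) = _
    rw [ih, Sim_rot L hN hT (Bs_mem L hN hT hγ hτ K) hτ]
    rfl

/-- `γ` is tight on `[j/2N, (j+2)/2N]` -/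
def Tj (N : ℕ) (s : ℝ) (γ : Lp M) (j : ℤ) : Prop :=
  dist (γ (((j : ℝ) / (2 * N) : ℝ) : UnitAddCircle))
    (γ (((j : ℝ) / (2 * N) + 1 / N : ℝ) : UnitAddCircle)) = s * (1 / N)

/-- one round, translated to the grid `1/2N`: arcs with the parity of the offset -/
theorem Tj_of_tight (hN : 0 < N) (hs : s * (1 / N) < L.r0) (hγ : γ ∈ X M s) (p i : ℤ) {c d : ℝ}
    (hc : ((p + 2 * i : ℤ) : ℝ) / (2 * N) ≤ c) (hcd : c < d)
    (hd : d ≤ ((p + 2 * i : ℤ) : ℝ) / (2 * N) + 1 / N)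
    (ht : dist (Sim L N ((p : ℝ) / (2 * N)) 1 γ c) (Sim L N ((p : ℝ) / (2 * N)) 1 γ d) =
      s * (d - c)) :
    Tj N s γ (p + 2 * i) ∧ ∀ x ∈ Icc (((p + 2 * i : ℤ) : ℝ) / (2 * N))
      (((p + 2 * i : ℤ) : ℝ) / (2 * N) + 1 / N), Sim L N ((p : ℝ) / (2 * N)) 1 γ x = γ x := by
  have hNr : (0 : ℝ) < N := by exact_mod_cast hN
  have e1 : ((p + 2 * i : ℤ) : ℝ) / (2 * N) = (p : ℝ) / (2 * N) + (i : ℝ) / N := by
    push_cast; field_simp
  have e2 : ((p + 2 * i : ℤ) : ℝ) / (2 * N) + 1 / N = (p : ℝ) / (2 * N) + ((i + 1 : ℤ) : ℝ) / N := by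
    push_cast; field_simp; ring
  unfold Tj
  rw [e2] at hd ⊢
  rw [e1] at hc ⊢
  exact Sim_tight L hN hs hγ _ i hc hcd hd ht

/-- **backward propagation**: one round -/
theorem Tj_step (hN : 0 < N) (hs : s * (1 / N) < L.r0) (hγ : γ ∈ X M s) (p A B : ℤ) (hAB : A ≤ B)
    (hA : ∃ i, A - 1 = p + 2 * i) (hB : ∃ i, B + 1 = p + 2 * i)
    (ht : ∀ j, A ≤ j → j ≤ B → Tj N s (Sim L N ((p : ℝ) / (2 * N)) 1 γ) j) :
    ∀ j, A - 1 ≤ j → j ≤ B + 1 → Tj N s γ j := by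
  have hNr : (0 : ℝ) < N := by exact_mod_cast hN
  have h01 : (1 : ℝ) ∈ Icc (0 : ℝ) 1 := ⟨zero_le_one, le_rfl⟩
  set g := Sim L N ((p : ℝ) / (2 * N)) 1 γ with hg
  have hgm : g ∈ X M s := Sim_mem L hN hs hγ h01 _
  obtain ⟨iA, hiA⟩ := hA
  obtain ⟨iB, hiB⟩ := hB
  have h2 : (1 : ℝ) / N = 1 / (2 * N) + 1 / (2 * N) := grid_len hN
  have hpos : (0 : ℝ) < 1 / (2 * N) := by positivity
  have hsucc : ∀ j : ℤ, ((j + 1 : ℤ) : ℝ) / (2 * N) = (j : ℝ) / (2 * N) + 1 / (2 * N) := fun j => by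
    push_cast; ring
  -- the arcs with the parity of `p`
  have key : ∀ i : ℤ, A - 1 ≤ p + 2 * i → p + 2 * i ≤ B + 1 →
      Tj N s γ (p + 2 * i) ∧ ∀ x ∈ Icc (((p + 2 * i : ℤ) : ℝ) / (2 * N))
      (((p + 2 * i : ℤ) : ℝ) / (2 * N) + 1 / N), g x = γ x := by
    intro i h3 h4
    rcases le_or_gt (p + 2 * i + 1) B with h5 | h5
    · -- overlap with the next arc
      have h6 := ht (p + 2 * i + 1) (by omega) h5
      unfold Tj at h6
      have e3 : s * (1 / (N : ℝ)) = s * ((((p + 2 * i + 1 : ℤ) : ℝ) / (2 * N) + 1 / N) -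
        ((p + 2 * i + 1 : ℤ) : ℝ) / (2 * N)) := by ring
      rw [e3] at h6
      have h7 := tight_sub hgm le_rfl (show ((p + 2 * i + 1 : ℤ) : ℝ) / (2 * N) ≤
        ((p + 2 * i + 1 : ℤ) : ℝ) / (2 * N) + 1 / (2 * N) by linarith) (by linarith) h6
      refine Tj_of_tight L hN hs hγ p i ?_ ?_ ?_ h7
      · rw [hsucc]; linarith
      · linarith
      · rw [hsucc]; linarith
    · -- overlap with the previous arc
      have h5' : p + 2 * i - 1 ≤ B := by omega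
      have h5'' : A ≤ p + 2 * i - 1 := by omega
      have h6 := ht (p + 2 * i - 1) h5'' h5'
      unfold Tj at h6
      have e3 : s * (1 / (N : ℝ)) = s * ((((p + 2 * i - 1 : ℤ) : ℝ) / (2 * N) + 1 / N) -
        ((p + 2 * i - 1 : ℤ) : ℝ) / (2 * N)) := by ring
      rw [e3] at h6
      have e4 : ((p + 2 * i : ℤ) : ℝ) / (2 * N) = ((p + 2 * i - 1 : ℤ) : ℝ) / (2 * N) + 1 / (2 * N) := by
        have := hsucc (p + 2 * i - 1)
        rwa [sub_add_cancel] at this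
      have h7 := tight_sub hgm (show ((p + 2 * i - 1 : ℤ) : ℝ) / (2 * N) ≤
        ((p + 2 * i - 1 : ℤ) : ℝ) / (2 * N) + 1 / (2 * N) by linarith) (by linarith)
        (by linarith : ((p + 2 * i - 1 : ℤ) : ℝ) / (2 * N) + 1 / N ≤ _) h6
      refine Tj_of_tight L hN hs hγ p i ?_ ?_ ?_ h7
      · rw [e4]
      · linarith
      · rw [e4]; linarith
  intro j hj1 hj2
  by_cases hpar : ∃ i, j = p + 2 * i
  · obtain ⟨i, rfl⟩ := hpar
    exact (key i hj1 hj2).1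
  · -- the other parity
    have h3 : A ≤ j := by
      by_contra h
      exact hpar ⟨iA, by omega⟩
    have h4 : j ≤ B := by
      by_contra h
      exact hpar ⟨iB, by omega⟩
    have h5 : ∃ i, j = p + 2 * i + 1 := by
      refine ⟨(j - p) / 2, ?_⟩
      have h6 : ¬ (j - p) % 2 = 0 := fun h => hpar ⟨(j - p) / 2, by omega⟩
      omega
    obtain ⟨i, rfl⟩ := h5
    have k1 := (key i (by omega) (by omega)).2
    have k2 := (key (i + 1) (by omega) (by omega)).2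
    have h6 := ht _ h3 h4
    unfold Tj at h6 ⊢
    have e5 : ((p + 2 * (i + 1) : ℤ) : ℝ) / (2 * N) =
        ((p + 2 * i + 1 : ℤ) : ℝ) / (2 * N) + 1 / (2 * N) := by
      rw [← hsucc]; congr 2; ring
    rw [k1 (((p + 2 * i + 1 : ℤ) : ℝ) / (2 * N)) ⟨by rw [hsucc]; linarith, by rw [hsucc]; linarith⟩,
      k2 (((p + 2 * i + 1 : ℤ) : ℝ) / (2 * N) + 1 / N) ⟨by rw [e5]; linarith, by rw [e5]; linarith⟩]
      at h6
    exact h6

/-- **backward propagation**: all rounds -/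
theorem Tj_Bs (hN : 0 < N) (hs : s * (1 / N) < L.r0) (hγ : γ ∈ X M s) (K : ℕ) (j0 : ℤ)
    (hpar : ∃ i, j0 = (K : ℤ) + 2 * i) (m : ℕ) (hm : m ≤ K)
    (ht : Tj N s (Bs L N 1 K γ) j0) :
    ∀ j, j0 - m ≤ j → j ≤ j0 + m → Tj N s (Bs L N 1 (K - m) γ) j := by
  obtain ⟨i0, hi0⟩ := hpar
  induction m with
  | zero =>
    intro j h1 h2
    have : j = j0 := by push_cast at h1 h2; omega
    rw [this]
    exact ht
  | succ m ih =>
    have ih' := ih (by omega)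
    have h01 : (1 : ℝ) ∈ Icc (0 : ℝ) 1 := ⟨zero_le_one, le_rfl⟩
    have e1 : K - m = (K - (m + 1)) + 1 := by omega
    rw [e1] at ih'
    have e2 : Bs L N 1 ((K - (m + 1)) + 1) γ =
        Sim L N (((K - (m + 1) : ℕ) : ℝ) / (2 * N)) 1 (Bs L N 1 (K - (m + 1)) γ) := rfl
    rw [e2] at ih'
    have e3 : (((K - (m + 1) : ℕ) : ℤ) : ℝ) = ((K - (m + 1) : ℕ) : ℝ) := by norm_cast
    rw [← e3] at ih'
    have h4 := Tj_step L hN hs (Bs_mem L hN hs hγ h01 (K - (m + 1))) ((K - (m + 1) : ℕ) : ℤ)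
      (j0 - m) (j0 + m) (by omega) ⟨i0, by omega⟩ ⟨i0 + m + 1, by omega⟩ ih'
    intro j h5 h6
    exact h4 j (by push_cast at h5; omega) (by push_cast at h6; omega)

/-- tightness is periodic -/
theorem Tj_add (hN : 0 < N) (j q : ℤ) : Tj N s γ (j + 2 * N * q) ↔ Tj N s γ j := by
  have hNr : (0 : ℝ) < N := by exact_mod_cast hN
  unfold Tj
  have e1 : ((j + 2 * N * q : ℤ) : ℝ) / (2 * N) = (j : ℝ) / (2 * N) + q := by
    push_cast; field_simp
  have e2 : (j : ℝ) / (2 * N) + q + 1 / N = (j : ℝ) / (2 * N) + 1 / N + q := by ring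
  rw [e1, e2, coe_add_int, coe_add_int]

/-- all arcs of the grid tight -/
theorem geo_of_Tj (hN : 0 < N) (hγ : γ ∈ X M s) (h : ∀ j, Tj N s γ j) :
    ∀ x y : ℝ, |x - y| ≤ 1 / (2 * N) → dist (γ (x : UnitAddCircle)) (γ (y : UnitAddCircle)) =
      s * |x - y| := by
  have hNr : (0 : ℝ) < N := by exact_mod_cast hN
  have key : ∀ x y : ℝ, x ≤ y → y - x ≤ 1 / (2 * N) →
      dist (γ (x : UnitAddCircle)) (γ (y : UnitAddCircle)) = s * (y - x) := by
    intro x y hxy hd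
    set j := ⌊x * (2 * N)⌋ with hj
    have h1 : (j : ℝ) ≤ x * (2 * N) := Int.floor_le _
    have h2 : x * (2 * N) < j + 1 := Int.lt_floor_add_one _
    have h3 := h j
    unfold Tj at h3
    have e1 : s * (1 / (N : ℝ)) = s * (((j : ℝ) / (2 * N) + 1 / N) - (j : ℝ) / (2 * N)) := by ring
    rw [e1] at h3
    refine tight_sub hγ ?_ hxy ?_ h3
    · rw [div_le_iff₀ (by positivity)]; exact h1
    · have b1 : x < (j : ℝ) / (2 * N) + 1 / (2 * N) := by
        rw [← add_div, lt_div_iff₀ (by positivity)]; exact h2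
      rw [grid_len hN]; linarith
  intro x y hd
  rcases le_total x y with hxy | hxy
  · rw [abs_sub_comm, abs_of_nonneg (by linarith)] at hd ⊢
    exact key x y hxy hd
  · rw [abs_of_nonneg (by linarith)] at hd ⊢
    rw [dist_comm]
    exact key y x hxy hd

/-- **strict decrease**: full speed on one interval of the grid after `N + 1 ≤ K` rounds forces a
closed geodesic -/
theorem Bs_tight (hN : 0 < N) (hs : s * (1 / N) < L.r0) (hγ : γ ∈ X M s) {K : ℕ} (hK : N + 1 ≤ K)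
    (k : ℤ)
    (ht : dist (Bs L N 1 K γ (((k : ℝ) / (2 * N) : ℝ) : UnitAddCircle))
      (Bs L N 1 K γ ((((k + 1 : ℤ) : ℝ) / (2 * N) : ℝ) : UnitAddCircle)) = s * (1 / (2 * N))) :
    ∀ x y : ℝ, |x - y| ≤ 1 / (2 * N) → dist (γ (x : UnitAddCircle)) (γ (y : UnitAddCircle)) =
      s * |x - y| := by
  have hNr : (0 : ℝ) < N := by exact_mod_cast hN
  have h01 : (1 : ℝ) ∈ Icc (0 : ℝ) 1 := ⟨zero_le_one, le_rfl⟩
  refine geo_of_Tj hN hγ ?_
  obtain ⟨K', rfl⟩ : ∃ K', K = K' + 1 := ⟨K - 1, by omega⟩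
  have hpos : (0 : ℝ) < 1 / (2 * N) := by positivity
  have hsucc : ∀ j : ℤ, ((j + 1 : ℤ) : ℝ) / (2 * N) = (j : ℝ) / (2 * N) + 1 / (2 * N) := fun j => by
    push_cast; ring
  have h2 : (1 : ℝ) / N = 1 / (2 * N) + 1 / (2 * N) := grid_len hN
  -- the last round
  have hlast : ∃ i : ℤ, Tj N s (Bs L N 1 K' γ) ((K' : ℤ) + 2 * i) := by
    have e1 : Bs L N 1 (K' + 1) γ = Sim L N (((K' : ℤ) : ℝ) / (2 * N)) 1 (Bs L N 1 K' γ) := rfl
    rw [e1] at ht
    have hm := Bs_mem L hN hs hγ h01 K'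
    have e2 : s * (1 / (2 * (N : ℝ))) = s * (((k + 1 : ℤ) : ℝ) / (2 * N) - (k : ℝ) / (2 * N)) := by
      rw [hsucc]; ring
    rw [e2] at ht
    rcases Int.even_or_odd (k - K') with ⟨r, hr⟩ | ⟨r, hr⟩
    · have hk : k = (K' : ℤ) + 2 * r := by omega
      refine ⟨r, (Tj_of_tight L hN hs hm (K' : ℤ) r (c := (k : ℝ) / (2 * N))
        (d := ((k + 1 : ℤ) : ℝ) / (2 * N)) ?_ ?_ ?_ ht).1⟩
      · rw [← hk]
      · rw [hsucc]; linarith
      · rw [← hk, hsucc]; linarith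
    · have hk : k = (K' : ℤ) + 2 * r + 1 := by omega
      have e3 : (k : ℝ) / (2 * N) = (((K' : ℤ) + 2 * r : ℤ) : ℝ) / (2 * N) + 1 / (2 * N) := by
        rw [← hsucc, ← hk]
      refine ⟨r, (Tj_of_tight L hN hs hm (K' : ℤ) r (c := (k : ℝ) / (2 * N))
        (d := ((k + 1 : ℤ) : ℝ) / (2 * N)) ?_ ?_ ?_ ht).1⟩
      · rw [e3]; linarith
      · rw [hsucc]; linarith
      · rw [hsucc, e3]; linarith
  obtain ⟨i, hi⟩ := hlast
  have h3 := Tj_Bs L hN hs hγ K' _ ⟨i, rfl⟩ K' le_rfl hi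
  rw [Nat.sub_self] at h3
  -- all residues modulo `2N`
  intro j
  have h2N : (0 : ℤ) < 2 * N := by
    have : (0 : ℤ) < N := by exact_mod_cast hN
    linarith
  set c : ℤ := (K' : ℤ) + 2 * i - K' with hc
  set q : ℤ := (j - c) / (2 * N) with hq
  set r : ℤ := (j - c) % (2 * N) with hr
  have e4 : j - c = r + 2 * N * q := (Int.emod_add_mul_ediv (j - c) (2 * N)).symm
  have hr0 : 0 ≤ r := Int.emod_nonneg _ h2N.ne'
  have hr1 : r < 2 * N := Int.emod_lt_of_pos _ h2N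
  have e5 : j = (c + r) + 2 * N * q := by linarith
  rw [e5, Tj_add hN]
  refine h3 (c + r) (by omega) ?_
  have hKN : (N : ℤ) ≤ K' := by exact_mod_cast (by omega : N ≤ K')
  omega

/-! ### closed geodesics are fixed -/

/-- closed geodesics are tight on all arcs of length `l` with `s * l < r0` -/
theorem geo_arc (hL : L.LocMin) {g : Lp M} (hg : IsGeo s g) {l : ℝ} (hl : 0 ≤ l)
    (hs : s * l < L.r0) (a : ℝ) :
    dist (g (a : UnitAddCircle)) (g ((a + l : ℝ) : UnitAddCircle)) = s * l := by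
  obtain ⟨h0, δ, hδ, h⟩ := hg
  have h1 := hL (fun x : ℝ => g (x : UnitAddCircle)) a (a + l) s δ (by linarith) hδ h0.le
    (by rwa [add_sub_cancel_left]) (fun x _ y _ hxy => h x y hxy)
  rwa [add_sub_cancel_left] at h1

theorem Sim_geo (hL : L.LocMin) (hN : 0 < N) {g : Lp M} (hg : IsGeo s g) (hgm : g ∈ X M s)
    (hs : s * (1 / N) < L.r0) {τ : ℝ} (hτ : τ ∈ Icc (0 : ℝ) 1) (a : ℝ) : Sim L N a τ g = g := by
  refine Sim_eq_self L hN hs hgm hτ a fun i => ?_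
  have e1 : a + ((i + 1 : ℤ) : ℝ) / N = a + (i : ℝ) / N + 1 / N := by push_cast; ring
  rw [e1]
  exact geo_arc L hL hg (by positivity) hs _

theorem Bs_geo (hL : L.LocMin) (hN : 0 < N) {g : Lp M} (hg : IsGeo s g) (hgm : g ∈ X M s)
    (hs : s * (1 / N) < L.r0) {τ : ℝ} (hτ : τ ∈ Icc (0 : ℝ) 1) (K : ℕ) : Bs L N τ K g = g := by
  induction K with
  | zero => rfl
  | succ K ih =>
    show Sim L N _ τ (Bs L N τ K g) = g
    rw [ih]
    exact Sim_geo L hL hN hg hgm hs hτ _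

/-! ### the level of `Bs` is read off on the grid -/

/-- constant speed on the intervals of the grid after at least one round -/
theorem Bs_PL (hN : 0 < N) (hs : s * (1 / N) < L.r0) (hγ : γ ∈ X M s) {K : ℕ} (hK : 1 ≤ K)
    (k : ℕ) : PL N (Bs L N 1 K γ) k := by
  have hNr : (0 : ℝ) < N := by exact_mod_cast hN
  have h01 : (1 : ℝ) ∈ Icc (0 : ℝ) 1 := ⟨zero_le_one, le_rfl⟩
  obtain ⟨K', rfl⟩ : ∃ K', K = K' + 1 := ⟨K - 1, by omega⟩
  have hm := Bs_mem L hN hs hγ h01 K'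
  have hpos : (0 : ℝ) < 1 / (2 * N) := by positivity
  -- the arc of the last round
  obtain ⟨i, hi1, hi2⟩ : ∃ i : ℤ, (K' : ℤ) + 2 * i ≤ k ∧ (k : ℤ) + 1 ≤ (K' : ℤ) + 2 * (i + 1) :=
    ⟨((k : ℤ) - K') / 2, by omega, by omega⟩
  have e0 : ∀ j : ℤ, (K' : ℝ) / (2 * N) + (j : ℝ) / N = (((K' : ℤ) + 2 * j : ℤ) : ℝ) / (2 * N) := by
    intro j; push_cast; field_simp
  have hsub : Icc ((k : ℝ) / (2 * N)) (((k + 1 : ℕ) : ℝ) / (2 * N)) ⊆
      Icc ((K' : ℝ) / (2 * N) + (i : ℝ) / N) ((K' : ℝ) / (2 * N) + ((i + 1 : ℤ) : ℝ) / N) := by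
    rw [e0, e0]
    refine Icc_subset_Icc ?_ ?_
    · apply div_le_div_of_nonneg_right _ (by positivity)
      exact_mod_cast hi1
    · apply div_le_div_of_nonneg_right _ (by positivity)
      exact_mod_cast hi2
  have hk : (k : ℝ) / (2 * N) ≤ ((k + 1 : ℕ) : ℝ) / (2 * N) := by rw [grid_succ]; linarith
  intro x hx y hy
  show dist (Sim L N ((K' : ℝ) / (2 * N)) 1 (Bs L N 1 K' γ) (x : UnitAddCircle))
    (Sim L N ((K' : ℝ) / (2 * N)) 1 (Bs L N 1 K' γ) (y : UnitAddCircle)) = 2 * N * |x - y| *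
    dist (Sim L N ((K' : ℝ) / (2 * N)) 1 (Bs L N 1 K' γ) _)
      (Sim L N ((K' : ℝ) / (2 * N)) 1 (Bs L N 1 K' γ) _)
  rw [Sim_dist L hN hs hm _ i (hsub hx) (hsub hy),
    Sim_dist L hN hs hm _ i (hsub ⟨le_rfl, hk⟩) (hsub ⟨hk, le_rfl⟩)]
  have e : |(k : ℝ) / (2 * N) - ((k + 1 : ℕ) : ℝ) / (2 * N)| = 1 / (2 * N) := by
    rw [grid_succ, abs_sub_comm, add_sub_cancel_left, abs_of_nonneg (by positivity)]
  rw [e]; field_simp

/-- the Lipschitz constant of `Bs γ` is read off on the nodes -/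
theorem Bs_mem_of_nodes (hN : 0 < N) (hs : s * (1 / N) < L.r0) (hγ : γ ∈ X M s) {K : ℕ}
    (hK : 1 ≤ K) {v : ℝ}
    (hv : ∀ k < 2 * N, dist (Bs L N 1 K γ (((k : ℝ) / (2 * N) : ℝ) : UnitAddCircle))
      (Bs L N 1 K γ ((((k + 1 : ℕ) : ℝ) / (2 * N) : ℝ) : UnitAddCircle)) ≤ v * (1 / (2 * N))) :
    Bs L N 1 K γ ∈ X M v := by
  have hNr : (0 : ℝ) < N := by exact_mod_cast hN
  refine mem_X_of_grid hN fun k hk x hx y hy hxy => ?_
  have h1 := Bs_PL L hN hs hγ hK k x hx y hy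
  have h2 := hv k hk
  rw [h1, abs_sub_comm, abs_of_nonneg (by linarith)]
  calc _ ≤ 2 * N * (y - x) * (v * (1 / (2 * N))) := by
        refine mul_le_mul_of_nonneg_left h2 ?_
        exact mul_nonneg (by positivity) (by linarith)
    _ = v * (y - x) := by field_simp

/-! ### compatibility with doubling -/

/-- `repA` of a doubled loop, on the arc -/
theorem Sim_dbl (hN : 0 < N) (hT : T * (1 / N) < L.r0) (hγ : γ ∈ X M T) {τ : ℝ}
    (hτ : τ ∈ Icc (0 : ℝ) 1) (a : ℝ) :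
    Sim L (2 * N) a τ (dbl γ) = dbl (Sim L N (2 * a) τ γ) := by
  have hNr : (0 : ℝ) < N := by exact_mod_cast hN
  have h2N : 0 < 2 * N := by omega
  have hd2 : (dbl γ : Lp M) ∈ X M (2 * T) := by
    have := itr_mem hγ 2
    exact_mod_cast this
  have hT2 : (2 * T) * (1 / ((2 * N : ℕ) : ℝ)) < L.r0 := by
    have e : (2 * T) * (1 / ((2 * N : ℕ) : ℝ)) = T * (1 / N) := by push_cast; field_simp
    rwa [e]
  obtain ⟨b0, b1, b2, b3⟩ := par_bound hN hT hγ hτ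
  obtain ⟨c0, c1, c2, c3⟩ := par_bound h2N hT2 hd2 hτ
  have ecoe : ∀ y : ℝ, (dbl γ : Lp M) (y : UnitAddCircle) = γ ((2 * y : ℝ) : UnitAddCircle) := fun y => by
    have := itr_coe 2 γ y
    exact_mod_cast this
  ext x
  induction x using QuotientAddGroup.induction_on with | _ x => ?_
  show Sim L (2 * N) a τ (dbl γ) (x : UnitAddCircle) = dbl (Sim L N (2 * a) τ γ) (x : UnitAddCircle)
  have e0 : (dbl (Sim L N (2 * a) τ γ) : Lp M) (x : UnitAddCircle) =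
      Sim L N (2 * a) τ γ ((2 * x : ℝ) : UnitAddCircle) := by
    have := itr_coe 2 (Sim L N (2 * a) τ γ) x
    exact_mod_cast this
  obtain ⟨i, hi⟩ := exists_arc h2N a x
  have e2 : ∀ i : ℤ, 2 * (a + (i : ℝ) / ((2 * N : ℕ) : ℝ)) = 2 * a + (i : ℝ) / N := fun i => by
    push_cast; field_simp
  have hi' : 2 * x ∈ Icc (2 * a + (i : ℝ) / N) (2 * a + ((i + 1 : ℤ) : ℝ) / N) := by
    rw [← e2, ← e2]; exact ⟨by linarith [hi.1], by linarith [hi.2]⟩
  rw [e0, Sim_apply L h2N hT2 hd2 hτ a i hi, Sim_apply L hN hT hγ hτ (2 * a) i hi']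
  have e3 : (((i + 1 : ℤ) : ℝ)) / ((2 * N : ℕ) : ℝ) = (i : ℝ) / ((2 * N : ℕ) : ℝ) +
    1 / ((2 * N : ℕ) : ℝ) := by push_cast; ring
  have e4 : (((i + 1 : ℤ) : ℝ)) / (N : ℝ) = (i : ℝ) / (N : ℝ) + 1 / (N : ℝ) := by push_cast; ring
  rw [repA_formula L (mem_domA hd2 c0 c2 c3 _) ⟨hi.1, by
      have := one_div_le_one_N h2N; rw [e3] at hi; linarith [hi.2]⟩,
    repA_formula L (mem_domA hγ b0 b2 b3 _) ⟨hi'.1, by
      have := one_div_le_one_N hN; rw [e4] at hi'; linarith [hi'.2]⟩]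
  rw [ecoe, ecoe, ecoe, e2]
  have e5 : 2 * (a + (i : ℝ) / ((2 * N : ℕ) : ℝ) + τ * (1 / ((2 * N : ℕ) : ℝ))) =
      2 * a + (i : ℝ) / N + τ * (1 / N) := by rw [mul_add, e2]; push_cast; field_simp
  rw [e5]
  have e6 : 2 * x - (2 * a + (i : ℝ) / N) = 2 * (x - (a + (i : ℝ) / ((2 * N : ℕ) : ℝ))) := by
    rw [← e2]; ring
  have e7 : τ * (1 / (N : ℝ)) = 2 * (τ * (1 / ((2 * N : ℕ) : ℝ))) := by push_cast; field_simp
  rw [e6, e7, mul_div_mul_left _ _ (two_ne_zero)]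
  have e8 : (2 * (x - (a + (i : ℝ) / ((2 * N : ℕ) : ℝ))) ≤ 2 * (τ * (1 / ((2 * N : ℕ) : ℝ)))) ↔
      (x - (a + (i : ℝ) / ((2 * N : ℕ) : ℝ)) ≤ τ * (1 / ((2 * N : ℕ) : ℝ))) := by
    constructor <;> intro h <;> linarith
  simp only [e8]

/-- **doubling**: `Bs (2N) ∘ dbl = dbl ∘ Bs N` (same number of rounds) -/
theorem Bs_dbl (hN : 0 < N) (hT : T * (1 / N) < L.r0) (hγ : γ ∈ X M T) {τ : ℝ}
    (hτ : τ ∈ Icc (0 : ℝ) 1) (K : ℕ) : Bs L (2 * N) τ K (dbl γ) = dbl (Bs L N τ K γ) := by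
  induction K with
  | zero => rfl
  | succ K ih =>
    have hNr : (0 : ℝ) < N := by exact_mod_cast hN
    show Sim L (2 * N) ((K : ℝ) / (2 * ((2 * N : ℕ) : ℝ))) τ (Bs L (2 * N) τ K (dbl γ)) =
      dbl (Sim L N ((K : ℝ) / (2 * N)) τ (Bs L N τ K γ))
    rw [ih, Sim_dbl L hN hT (Bs_mem L hN hT hγ hτ K) hτ]
    congr 2
    push_cast; field_simp

end

end Crest.Agent.R231.GSimx449
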