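import Crest.Agent.R231.GeoLug_724
import Crest.Agent.R226.LoeperUnif_128

/-!
# Row 231 (S0357), block G, part G6b (helper724): short geodesics are almost convex

* `calc_diag` : a `C²` function `F(a,v,w) ≥ 0` with `F(a,v,v) = 0` satisfies
  `|F(a,v,w) - F(a,0,w-v)| ≤ ε ‖w-v‖²` near `(a₀,0,0)`
* `near_isometry` : for every `ε` there is `δ` such that
  `|dist (exp_x v) (exp_x w)² - ‖w-v‖²| ≤ ε ‖w-v‖²` for `‖v‖, ‖w‖ < δ`, all `x`
* `segLip : (lug G).SegLip`
-/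

set_option autoImplicit false
set_option linter.unusedSectionVars false

noncomputable section

open Bundle Set Filter
open scoped Manifold ContDiff Bundle ENNReal Topology
open Crest.GeometryTopology.MTW
open Crest.Agent.R226 Crest.Agent.R226.GeoBasic616 Crest.Agent.R226.TB616
open Crest.Agent.R226.TMSmooth771 Crest.Agent.R226.LoeperUnif128
open Crest.Agent.R231.GeoSegx724 Crest.Agent.R231.GLugx576 Crest.Agent.R231.GeoLugx724

namespace Crest.Agent.R231.GeoSegLipx724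

section calculus

variable {A V : Type*} [NormedAddCommGroup A] [NormedSpace ℝ A] [NormedAddCommGroup V]
  [NormedSpace ℝ V]

theorem calc_diag {F : A × V × V → ℝ} {a₀ : A} (hF : ContDiffAt ℝ 2 F (a₀, 0, 0))
    (h0 : ∀ z, 0 ≤ F z) (hd : ∀ a v, F (a, v, v) = 0) {ε : ℝ} (hε : 0 < ε) :
    ∃ δ > 0, ∀ (a : A) (v w : V), dist a a₀ < δ → ‖v‖ < δ → ‖w‖ < δ →
      |F (a, v, w) - F (a, 0, w - v)| ≤ ε * ‖w - v‖ ^ 2 := by
  -- strict derivative of the derivative
  have h1 : ContDiffAt ℝ 1 (fderiv ℝ F) (a₀, 0, 0) := hF.fderiv_right (by norm_num)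
  have h2 := h1.hasStrictFDerivAt (by norm_num)
  set L := fderiv ℝ (fderiv ℝ F) (a₀, (0 : V), (0 : V)) with hL
  have h3 := (Asymptotics.isLittleO_iff.1 h2.isLittleO) (half_pos hε)
  have h4 : ∀ᶠ z in 𝓝 (a₀, (0 : V), (0 : V)), DifferentiableAt ℝ F z := by
    have := hF.eventually (by simp)
    filter_upwards [this] with z hz
    exact hz.differentiableAt (by norm_num)
  obtain ⟨δ₁, hδ₁, h3'⟩ := Metric.eventually_nhds_iff.1 h3
  obtain ⟨δ₂, hδ₂, h4'⟩ := Metric.eventually_nhds_iff.1 h4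
  set δ : ℝ := min δ₁ δ₂ / 2 with hδ
  have hδ0 : 0 < δ := by have := lt_min hδ₁ hδ₂; positivity
  have hδ1 : 2 * δ ≤ δ₁ := by
    have := min_le_left δ₁ δ₂
    linarith
  have hδ2 : 2 * δ ≤ δ₂ := by
    have := min_le_right δ₁ δ₂
    linarith
  refine ⟨δ, hδ0, fun a v w ha hv hw => ?_⟩
  set u : V := w - v with hu
  have hmem : ∀ x y : V, ‖x‖ < 2 * δ → ‖y‖ < 2 * δ →
      dist (a, x, y) (a₀, (0 : V), (0 : V)) < 2 * δ := by
    intro x y hx hy
    rw [Prod.dist_eq, Prod.dist_eq]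
    simp only [dist_zero_right]
    exact max_lt (by linarith) (max_lt hx hy)
  -- the derivative along the last variable vanishes on the diagonal
  have hdiag : ∀ x : V, ‖x‖ < 2 * δ → fderiv ℝ F (a, x, x) (0, 0, u) = 0 := by
    intro x hx
    have hdiff : DifferentiableAt ℝ F (a, x, x) := h4' ((hmem x x hx hx).trans_le hδ2)
    have hline : HasDerivAt (fun t : ℝ => ((a, x, x + t • u) : A × V × V)) (0, 0, u) 0 := by
      have e : HasDerivAt (fun t : ℝ => x + t • u) u 0 := by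
        simpa using ((hasDerivAt_id (0 : ℝ)).smul_const u).const_add x
      exact (hasDerivAt_const _ _).prodMk ((hasDerivAt_const _ _).prodMk e)
    have hdiff' : HasFDerivAt F (fderiv ℝ F (a, x, x)) (a, x, x + (0 : ℝ) • u) := by
      rw [zero_smul, add_zero]; exact hdiff.hasFDerivAt
    have hcomp := hdiff'.comp_hasDerivAt (0 : ℝ) hline
    have hmin : IsLocalMin (F ∘ fun t : ℝ => ((a, x, x + t • u) : A × V × V)) 0 := by
      refine Filter.Eventually.of_forall fun t => ?_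
      simp only [Function.comp_apply, zero_smul, add_zero, hd]
      exact h0 _
    exact hmin.hasDerivAt_eq_zero hcomp
  -- comparison of the derivative along the last variable
  have key : ∀ x : V, ‖x‖ < 2 * δ → ∀ t : ℝ, 0 ≤ t → t ≤ 1 → ‖x + t • u‖ < 2 * δ →
      |fderiv ℝ F (a, x, x + t • u) (0, 0, u) - L (0, 0, t • u) (0, 0, u)| ≤
        ε / 2 * ‖u‖ ^ 2 := by
    intro x hx t ht0 ht1 hxt
    have hp : dist (((a, x, x + t • u), (a, x, x)) : (A × V × V) × (A × V × V))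
        ((a₀, (0 : V), (0 : V)), (a₀, (0 : V), (0 : V))) < δ₁ := by
      rw [Prod.dist_eq]
      exact max_lt ((hmem _ _ hx hxt).trans_le hδ1) ((hmem _ _ hx hx).trans_le hδ1)
    have h5 := h3' hp
    simp only [Prod.mk_sub_mk, sub_self, add_sub_cancel_left] at h5
    have h6 : ‖((0, 0, t • u) : A × V × V)‖ ≤ ‖u‖ := by
      rw [Prod.norm_def, Prod.norm_def]
      simp only [norm_zero]
      refine max_le (norm_nonneg _) (max_le (norm_nonneg _) ?_)
      rw [norm_smul, Real.norm_of_nonneg ht0]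
      exact mul_le_of_le_one_left (norm_nonneg _) ht1
    have h7 : ‖((0, 0, u) : A × V × V)‖ ≤ ‖u‖ := by
      rw [Prod.norm_def, Prod.norm_def]
      simp
    have h8 := ContinuousLinearMap.le_opNorm
      (fderiv ℝ F (a, x, x + t • u) - fderiv ℝ F (a, x, x) - L (0, 0, t • u)) (0, 0, u)
    rw [sub_apply, sub_apply, hdiag x hx, sub_zero] at h8
    rw [← Real.norm_eq_abs]
    refine h8.trans ?_
    calc _ ≤ (ε / 2 * ‖u‖) * ‖u‖ := by
          refine mul_le_mul (h5.trans ?_) h7 (norm_nonneg _) (by positivity)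
          exact mul_le_mul_of_nonneg_left h6 (by positivity)
      _ = ε / 2 * ‖u‖ ^ 2 := by ring
  -- the function on the segment
  have hseg : ∀ t : ℝ, 0 ≤ t → t ≤ 1 → ‖v + t • u‖ < 2 * δ ∧ ‖(0 : V) + t • u‖ < 2 * δ := by
    intro t ht0 ht1
    have e : v + t • u = (1 - t) • v + t • w := by
      rw [hu, smul_sub, sub_smul, one_smul]; abel
    have hvw : ‖v‖ < δ ∧ ‖w‖ < δ := ⟨hv, hw⟩
    constructor
    · rw [e]
      refine (norm_add_le _ _).trans_lt ?_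
      rw [norm_smul, norm_smul, Real.norm_of_nonneg (by linarith), Real.norm_of_nonneg ht0]
      nlinarith [norm_nonneg v, norm_nonneg w]
    · rw [zero_add, norm_smul, Real.norm_of_nonneg ht0]
      have h9 : ‖u‖ < 2 * δ := by
        rw [hu]
        exact (norm_sub_le _ _).trans_lt (by linarith)
      exact (mul_le_of_le_one_left (norm_nonneg _) ht1).trans_lt h9
  have hψ : ∀ t ∈ Icc (0 : ℝ) 1, HasDerivWithinAt
      (fun t : ℝ => F (a, v, v + t • u) - F (a, 0, 0 + t • u))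
      (fderiv ℝ F (a, v, v + t • u) (0, 0, u) - fderiv ℝ F (a, 0, 0 + t • u) (0, 0, u))
      (Icc (0 : ℝ) 1) t := by
    intro t ht
    have gen : ∀ x : V, ‖x‖ < 2 * δ → ‖x + t • u‖ < 2 * δ →
        HasDerivAt (fun t : ℝ => F (a, x, x + t • u)) (fderiv ℝ F (a, x, x + t • u) (0, 0, u)) t := by
      intro x hx hxt
      have hline : HasDerivAt (fun t : ℝ => ((a, x, x + t • u) : A × V × V)) (0, 0, u) t := by
        have e : HasDerivAt (fun t : ℝ => x + t • u) u t := by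
          simpa using ((hasDerivAt_id t).smul_const u).const_add x
        exact (hasDerivAt_const _ _).prodMk ((hasDerivAt_const _ _).prodMk e)
      have hdiff : DifferentiableAt ℝ F (a, x, x + t • u) := h4' ((hmem _ _ hx hxt).trans_le hδ2)
      exact hdiff.hasFDerivAt.comp_hasDerivAt t hline
    obtain ⟨h5, h6⟩ := hseg t ht.1 ht.2
    exact ((gen v (by linarith) h5).sub (gen 0 (by rw [norm_zero]; linarith) h6)).hasDerivWithinAt
  have hbound : ∀ t ∈ Ico (0 : ℝ) 1,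
      ‖fderiv ℝ F (a, v, v + t • u) (0, 0, u) - fderiv ℝ F (a, 0, 0 + t • u) (0, 0, u)‖ ≤
        ε * ‖u‖ ^ 2 := by
    intro t ht
    obtain ⟨h5, h6⟩ := hseg t ht.1 ht.2.le
    have k1 := key v (by linarith) t ht.1 ht.2.le h5
    have k2 := key 0 (by rw [norm_zero]; linarith) t ht.1 ht.2.le h6
    rw [Real.norm_eq_abs]
    rw [abs_le] at k1 k2 ⊢
    constructor <;> linarith [k1.1, k1.2, k2.1, k2.2]
  have hfin := norm_image_sub_le_of_norm_deriv_le_segment_01' hψ hbound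
  simp only [one_smul, zero_smul, add_zero, zero_add, hd, sub_zero] at hfin
  have e : v + u = w := by rw [hu]; abel
  rw [e, Real.norm_eq_abs] at hfin
  exact hfin

end calculus

variable {n : ℕ} {M : Type*} [MetricSpace M] [ChartedSpace (EuclideanSpace ℝ (Fin n)) M]
  [IsManifold (𝓡 n) ∞ M]
  [RiemannianBundle (fun p : M => TangentSpace (𝓡 n) p)]
  [IsContMDiffRiemannianBundle (𝓡 n) ∞ (EuclideanSpace ℝ (Fin n))
    (fun p : M => TangentSpace (𝓡 n) p)]

variable (G : GeoData n M)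

omit [IsContMDiffRiemannianBundle (𝓡 n) ∞ (EuclideanSpace ℝ (Fin n))
  (fun p : M => TangentSpace (𝓡 n) p)] in
/-- the cost in bundle coordinates, near the diagonal -/
theorem contDiffAt_F (y : M) :
    ContDiffAt ℝ ∞ (fun z : EE n × EE n × EE n =>
      halfDistSq (exT G (tmci y (z.1, z.2.1))) (exT G (tmci y (z.1, z.2.2))))
      (extChartAt (𝓡 n) y y, 0, 0) := by
  have hy : (⟨y, 0⟩ : TangentBundle (𝓡 n) M).1 ∈ (chartAt (EuclideanSpace ℝ (Fin n)) y).source :=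
    mem_chart_source _ y
  have hyt : extChartAt (𝓡 n) y y ∈ (extChartAt (𝓡 n) y).target :=
    (extChartAt (𝓡 n) y).map_source (mem_extChartAt_source y)
  have e0 : tmci y (extChartAt (𝓡 n) y y, 0) = (⟨y, 0⟩ : TangentBundle (𝓡 n) M) := by
    have := tmci_tmc (x₀ := y) (p := (⟨y, 0⟩ : TangentBundle (𝓡 n) M)) hy
    unfold tmc at this
    simp only [map_zero] at this
    exact this
  have h1 : ContMDiffAt 𝓘(ℝ, EE n × EE n × EE n) 𝓘(ℝ, EE n × EE n) ∞
      (fun z : EE n × EE n × EE n => (z.1, z.2.1)) (extChartAt (𝓡 n) y y, 0, 0) := by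
    apply ContDiffAt.contMDiffAt
    fun_prop
  have h2 : ContMDiffAt 𝓘(ℝ, EE n × EE n × EE n) 𝓘(ℝ, EE n × EE n) ∞
      (fun z : EE n × EE n × EE n => (z.1, z.2.2)) (extChartAt (𝓡 n) y y, 0, 0) := by
    apply ContDiffAt.contMDiffAt
    fun_prop
  have h3 := ContMDiffAt.comp (extChartAt (𝓡 n) y y, (0 : EE n), (0 : EE n))
    (contMDiffAt_tmci (x₀ := y) (q := (extChartAt (𝓡 n) y y, (0 : EE n))) hyt) h1
  have h4 := ContMDiffAt.comp (extChartAt (𝓡 n) y y, (0 : EE n), (0 : EE n))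
    (contMDiffAt_tmci (x₀ := y) (q := (extChartAt (𝓡 n) y y, (0 : EE n))) hyt) h2
  have hex : ContMDiff (𝓡 n).tangent (𝓡 n) ∞ (exT G) := G.smooth
  have h5 := (hex.contMDiffAt).comp (extChartAt (𝓡 n) y y, (0 : EE n), (0 : EE n)) h3
  have h6 := (hex.contMDiffAt).comp (extChartAt (𝓡 n) y y, (0 : EE n), (0 : EE n)) h4
  have h7 := h5.prodMk h6
  have h8 : ContMDiffAt ((𝓡 n).prod (𝓡 n)) 𝓘(ℝ) ∞ (fun q : M × M => halfDistSq q.1 q.2) (y, y) :=
    G.smooth_cost.contMDiffAt ((isOpen_lt (continuous_fst.dist continuous_snd)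
      continuous_const).mem_nhds (by
        show dist y y < G.r₀
        rw [dist_self]; exact G.r₀_pos))
  have h9 : ContMDiffAt ((𝓡 n).prod (𝓡 n)) 𝓘(ℝ) ∞ (fun q : M × M => halfDistSq q.1 q.2)
      ((fun z : EE n × EE n × EE n =>
        (exT G (tmci y (z.1, z.2.1)), exT G (tmci y (z.1, z.2.2))))
        (extChartAt (𝓡 n) y y, (0 : EE n), (0 : EE n))) := by
    simp only [e0]
    have e2 : exT G (⟨y, 0⟩ : TangentBundle (𝓡 n) M) = y := G.ex_zero y
    rw [e2]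
    exact h8
  exact contMDiffAt_iff_contDiffAt.1
    (ContMDiffAt.comp (extChartAt (𝓡 n) y y, (0 : EE n), (0 : EE n)) h9 h7)

/-- `exp_x` is almost isometric near `0`, for `x` near `y` -/
theorem near_local (y : M) {ε : ℝ} (hε : 0 < ε) : ∃ δ > 0, ∀ᶠ x in 𝓝 y,
    ∀ v w : TangentSpace (𝓡 n) x, ‖v‖ < δ → ‖w‖ < δ →
      |dist (G.ex x v) (G.ex x w) ^ 2 - ‖w - v‖ ^ 2| ≤ ε * ‖w - v‖ ^ 2 := by
  obtain ⟨C, hC, hb⟩ := dphi_bounds (n := n) y
  have hr := G.r₀_pos
  obtain ⟨δ₁, hδ₁, h1⟩ := calc_diag (F := fun z : EE n × EE n × EE n =>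
      halfDistSq (exT G (tmci y (z.1, z.2.1))) (exT G (tmci y (z.1, z.2.2))))
      (a₀ := extChartAt (𝓡 n) y y)
      ((contDiffAt_F G y).of_le (WithTop.coe_le_coe.2 le_top))
      (fun z => by unfold halfDistSq; positivity)
      (fun a v => by
        show halfDistSq (exT G (tmci y (a, v))) (exT G (tmci y (a, v))) = 0
        unfold halfDistSq
        rw [dist_self]; ring)
      (ε := ε / (2 * C ^ 2)) (by positivity)
  have h2 : ∀ᶠ x in 𝓝 y, dist (extChartAt (𝓡 n) y x) (extChartAt (𝓡 n) y y) < δ₁ :=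
    (continuousAt_extChartAt (I := 𝓡 n) y).tendsto.eventually (Metric.ball_mem_nhds _ hδ₁)
  refine ⟨min (δ₁ / C) (G.r₀ / 2), lt_min (by positivity) (by positivity), ?_⟩
  filter_upwards [hb, h2] with x hx hx2 v w hv hw
  obtain ⟨hxs, hxb⟩ := hx
  have hv1 := hv.trans_le (min_le_left _ _)
  have hv2 := hv.trans_le (min_le_right _ _)
  have hw1 := hw.trans_le (min_le_left _ _)
  have hw2 := hw.trans_le (min_le_right _ _)
  rw [lt_div_iff₀ hC] at hv1 hw1
  have h3 := h1 (extChartAt (𝓡 n) y x) (dphi y x v) (dphi y x w) hx2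
    ((hxb v).1.trans_lt (by linarith)) ((hxb w).1.trans_lt (by linarith))
  have e1 : ∀ u : TangentSpace (𝓡 n) x,
      tmci y (extChartAt (𝓡 n) y x, dphi y x u) = (⟨x, u⟩ : TangentBundle (𝓡 n) M) :=
    fun u => tmci_tmc (x₀ := y) (p := (⟨x, u⟩ : TangentBundle (𝓡 n) M)) hxs
  have e2 : dphi y x w - dphi y x v = dphi y x (w - v) := (map_sub _ _ _).symm
  have e3 : tmci y (extChartAt (𝓡 n) y x, (0 : EE n)) = (⟨x, 0⟩ : TangentBundle (𝓡 n) M) := by
    rw [← e1 0, map_zero]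
  simp only [e2, e1, e3] at h3
  have hwv : ‖w - v‖ < G.r₀ := (norm_sub_le _ _).trans_lt (by linarith)
  have e4 : halfDistSq (exT G (⟨x, 0⟩ : TangentBundle (𝓡 n) M))
      (exT G (⟨x, w - v⟩ : TangentBundle (𝓡 n) M)) = ‖w - v‖ ^ 2 / 2 := by
    have e5 : exT G (⟨x, 0⟩ : TangentBundle (𝓡 n) M) = x := G.ex_zero x
    have e6 : exT G (⟨x, w - v⟩ : TangentBundle (𝓡 n) M) = G.ex x (w - v) := rfl
    unfold halfDistSq
    rw [e5, e6, dist_ex_of_norm_lt G hwv]
  rw [e4] at h3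
  have e7 : halfDistSq (exT G (⟨x, v⟩ : TangentBundle (𝓡 n) M))
      (exT G (⟨x, w⟩ : TangentBundle (𝓡 n) M)) = dist (G.ex x v) (G.ex x w) ^ 2 / 2 := rfl
  rw [e7] at h3
  have h4 : ‖dphi y x (w - v)‖ ^ 2 ≤ C ^ 2 * ‖w - v‖ ^ 2 := by
    rw [← mul_pow]
    exact pow_le_pow_left₀ (norm_nonneg _) (hxb _).1 2
  have h5 : ε / (2 * C ^ 2) * ‖dphi y x (w - v)‖ ^ 2 ≤ ε / 2 * ‖w - v‖ ^ 2 := by
    refine (mul_le_mul_of_nonneg_left h4 (by positivity)).trans (le_of_eq ?_)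
    field_simp
  have h6 := h3.trans h5
  rw [abs_le] at h6 ⊢
  constructor <;> linarith [h6.1, h6.2]

/-- **`exp_x` is almost isometric near `0`, uniformly in `x`** -/
theorem near_isometry [CompactSpace M] {ε : ℝ} (hε : 0 < ε) : ∃ δ > 0, ∀ (x : M)
    (v w : TangentSpace (𝓡 n) x), ‖v‖ < δ → ‖w‖ < δ →
      |dist (G.ex x v) (G.ex x w) ^ 2 - ‖w - v‖ ^ 2| ≤ ε * ‖w - v‖ ^ 2 := by
  have key : ∃ δ > 0, ∀ x ∈ (univ : Set M), ∀ v w : TangentSpace (𝓡 n) x, ‖v‖ < δ → ‖w‖ < δ →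
      |dist (G.ex x v) (G.ex x w) ^ 2 - ‖w - v‖ ^ 2| ≤ ε * ‖w - v‖ ^ 2 := by
    refine (isCompact_univ (X := M)).induction_on (p := fun S => ∃ δ > 0, ∀ x ∈ S,
      ∀ v w : TangentSpace (𝓡 n) x, ‖v‖ < δ → ‖w‖ < δ →
      |dist (G.ex x v) (G.ex x w) ^ 2 - ‖w - v‖ ^ 2| ≤ ε * ‖w - v‖ ^ 2) ?_ ?_ ?_ ?_
    · exact ⟨1, one_pos, fun x hx => absurd hx (notMem_empty _)⟩
    · rintro S T hST ⟨δ, hδ, h⟩
      exact ⟨δ, hδ, fun x hx => h x (hST hx)⟩
    · rintro S T ⟨δ, hδ, h⟩ ⟨δ', hδ', h'⟩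
      refine ⟨min δ δ', lt_min hδ hδ', ?_⟩
      rintro x (hx | hx) v w hv hw
      · exact h x hx v w (hv.trans_le (min_le_left _ _)) (hw.trans_le (min_le_left _ _))
      · exact h' x hx v w (hv.trans_le (min_le_right _ _)) (hw.trans_le (min_le_right _ _))
    · rintro y -
      obtain ⟨δ, hδ, h⟩ := near_local G y hε
      exact ⟨_, mem_nhdsWithin_of_mem_nhds h, δ, hδ, fun x hx => hx⟩
  obtain ⟨δ, hδ, h⟩ := key
  exact ⟨δ, hδ, fun x => h x (mem_univ x)⟩

/-- two short geodesics with a common end point -/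
theorem seg_cmp [CompactSpace M] {ε : ℝ} (hε : 0 < ε) : ∃ δ > 0, ∀ x y y' : M,
    dist x y < δ → dist x y' < δ → ∀ s ∈ Icc (0 : ℝ) 1,
      dist (seg G x y s) (seg G x y' s) ≤ (1 + ε) * (s * dist y y') := by
  set ε₁ : ℝ := ε / (1 + ε) with hε₁
  have h1 : 0 < ε₁ := by positivity
  have h2 : ε₁ < 1 := by rw [hε₁, div_lt_one (by positivity)]; linarith
  have h3 : 1 + ε₁ ≤ (1 + ε) ^ 2 * (1 - ε₁) := by
    have e : ε₁ * (1 + ε) = ε := by rw [hε₁]; field_simp
    nlinarith [sq_nonneg ε, mul_nonneg (sq_nonneg ε) (by linarith : (0 : ℝ) ≤ 1 - ε₁)]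
  obtain ⟨δ, hδ, h⟩ := near_isometry G h1
  refine ⟨δ, hδ, fun x y y' hy hy' s hs => ?_⟩
  set v := lg G x y with hv
  set w := lg G x y' with hw
  have hvn : ‖v‖ < δ := by rw [hv, norm_lg]; exact hy
  have hwn : ‖w‖ < δ := by rw [hw, norm_lg]; exact hy'
  have hsn : ∀ u : TangentSpace (𝓡 n) x, ‖u‖ < δ → ‖s • u‖ < δ := by
    intro u hu
    rw [norm_smul, Real.norm_of_nonneg hs.1]
    exact (mul_le_of_le_one_left (norm_nonneg _) hs.2).trans_lt hu
  have h4 := h x v w hvn hwn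
  have h5 := h x (s • v) (s • w) (hsn v hvn) (hsn w hwn)
  rw [← smul_sub, norm_smul, Real.norm_of_nonneg hs.1] at h5
  have e1 : G.ex x v = y := ex_lg G x y
  have e2 : G.ex x w = y' := ex_lg G x y'
  rw [e1, e2] at h4
  have e3 : seg G x y s = G.ex x (s • v) := rfl
  have e4 : seg G x y' s = G.ex x (s • w) := rfl
  rw [e3, e4]
  set D := dist (G.ex x (s • v)) (G.ex x (s • w)) with hD
  have hD0 : 0 ≤ D := dist_nonneg
  rw [abs_le] at h4 h5
  have h6 : D ^ 2 ≤ (1 + ε₁) * (s ^ 2 * ‖w - v‖ ^ 2) := by nlinarith [h5.2]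
  have h7 : (1 - ε₁) * ‖w - v‖ ^ 2 ≤ dist y y' ^ 2 := by linarith [h4.1]
  have h8 : (1 - ε₁) * D ^ 2 ≤ (1 - ε₁) * ((1 + ε) * (s * dist y y')) ^ 2 := by
    have a1 : (1 - ε₁) * D ^ 2 ≤ (1 - ε₁) * ((1 + ε₁) * (s ^ 2 * ‖w - v‖ ^ 2)) :=
      mul_le_mul_of_nonneg_left h6 (by linarith)
    have a2 : (1 - ε₁) * ((1 + ε₁) * (s ^ 2 * ‖w - v‖ ^ 2)) =
        (1 + ε₁) * s ^ 2 * ((1 - ε₁) * ‖w - v‖ ^ 2) := by ring
    have a3 : (1 + ε₁) * s ^ 2 * ((1 - ε₁) * ‖w - v‖ ^ 2) ≤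
        (1 + ε₁) * s ^ 2 * dist y y' ^ 2 := mul_le_mul_of_nonneg_left h7 (by positivity)
    have a4 : (1 + ε₁) * s ^ 2 * dist y y' ^ 2 ≤
        (1 + ε) ^ 2 * (1 - ε₁) * (s ^ 2 * dist y y' ^ 2) := by
      rw [mul_assoc]
      exact mul_le_mul_of_nonneg_right h3 (by positivity)
    have a5 : (1 - ε₁) * ((1 + ε) * (s * dist y y')) ^ 2 =
      (1 + ε) ^ 2 * (1 - ε₁) * (s ^ 2 * dist y y' ^ 2) := by ring
    rw [a5]
    linarith
  have h9 : D ^ 2 ≤ ((1 + ε) * (s * dist y y')) ^ 2 :=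
    le_of_mul_le_mul_left h8 (by linarith)
  have h10 : 0 ≤ (1 + ε) * (s * dist y y') :=
    mul_nonneg (by linarith) (mul_nonneg hs.1 dist_nonneg)
  exact (pow_le_pow_iff_left₀ hD0 h10 two_ne_zero).1 h9

/-- **short geodesics are almost convex** -/
theorem segLip [CompactSpace M] : (lug G).SegLip := by
  intro ε hε
  obtain ⟨δ, hδ, h⟩ := seg_cmp G hε
  have hr := G.r₀_pos
  refine ⟨min δ G.r₀ / 2, by have := lt_min hδ hr; positivity, fun x y x' y' h1 h2 h3 s hs => ?_⟩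
  have m1 := min_le_left δ G.r₀
  have m2 := min_le_right δ G.r₀
  have hxy' : dist x y' < min δ G.r₀ := (dist_triangle x x' y').trans_lt (by linarith)
  have k1 := h x y y' (by linarith) (by linarith) s hs
  have k2 := h y' x x' (by rw [dist_comm]; linarith) (by rw [dist_comm]; linarith) (1 - s)
    ⟨by linarith [hs.2], by linarith [hs.1]⟩
  have e1 : seg G y' x (1 - s) = seg G x y' s := by
    rw [seg_symm G (x := x) (y := y') (by linarith)]
    congr 1; ring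
  have e2 : seg G y' x' (1 - s) = seg G x' y' s := by
    rw [seg_symm G (x := x') (y := y') (by linarith)]
    congr 1; ring
  rw [e1, e2] at k2
  show dist (seg G x y s) (seg G x' y' s) ≤ _
  have k3 := dist_triangle (seg G x y s) (seg G x y' s) (seg G x' y' s)
  calc _ ≤ _ := k3
    _ ≤ (1 + ε) * (s * dist y y') + (1 + ε) * ((1 - s) * dist x x') := add_le_add k1 k2
    _ = _ := by ring

end Crest.Agent.R231.GeoSegLipx724
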