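import Crest.Agent.R231.GSmith_651
import Crest.Agent.R231.InstA_895
import Crest.Agent.R231.PairH_877

/-!
# Row 231 (helper432): halving of loops fixed by the rotation by `1/2`

* `hlv γ` : for `rot hf γ = γ` the loop with `dbl (hlv γ) = γ`; `hlv (dbl γ) = γ`
* `contOn_hlv : ContinuousOn hlv Fx`, `Fx = {γ | rot hf γ = γ}`
* `hlv_mem : γ ∈ X M t → hlv γ ∈ X M (t / 2)` on `Fx`
* chains: `psiN_hv` (`ψ (hv c) = c` on `CS Fx`), `hv_psiN` (`hv (ψ c) = c`), `psiN_inj`,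
  `CS_Fx_eq : CS (Fx ∩ X M t) = (CS (X M (t/2))).map ψ`, `psiN_mem_zero`
* graded: `psiC_inj`, `im_psiC : (FF M (t/2) j).map (psiC M j) = gs (CS (Fx ∩ X M t)) j`
-/

set_option autoImplicit false

noncomputable section

open Function Topology
open Crest.Agent.R204

namespace Crest.Agent.R231.Halvex432

open SingAct265 EZ271 EZ847 Pairx877 GLugx576 TActx569 TCx569 IfAx978 GSmithx651 Instx895

section loops

variable {M : Type} [MetricSpace M]

/-- loops fixed by the half rotation -/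
def Fx (M : Type) [MetricSpace M] : Set (Lp M) := {γ | rot hf γ = γ}

theorem period {γ : Lp M} (h : γ ∈ Fx M) :
    Function.Periodic (fun u : ℝ => γ ((u / 2 : ℝ) : UnitAddCircle)) 1 := by
  intro u
  have h1 : rot hf γ ((u / 2 : ℝ) : UnitAddCircle) = γ ((u / 2 : ℝ) : UnitAddCircle) := by
    rw [show rot hf γ = γ from h]
  show γ (((u + 1) / 2 : ℝ) : UnitAddCircle) = γ ((u / 2 : ℝ) : UnitAddCircle)
  rw [← h1, rot_apply, add_div]
  rfl

/-- the halved loop -/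
def hlv (γ : Lp M) : Lp M := by
  classical
  exact if h : γ ∈ Fx M then ⟨(period h).lift, Continuous.quotient_liftOn'
    (γ.continuous.comp ((AddCircle.continuous_mk' (1 : ℝ)).comp (continuous_id.div_const 2))) _⟩
    else γ

theorem hlv_coe {γ : Lp M} (h : γ ∈ Fx M) (u : ℝ) :
    hlv γ (u : UnitAddCircle) = γ ((u / 2 : ℝ) : UnitAddCircle) := by
  unfold hlv
  rw [dif_pos h]
  rfl

theorem dbl_mem_Fx (γ : Lp M) : dbl γ ∈ Fx M := by
  show rot hf (dbl γ) = dbl γ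
  ext x
  rw [rot_apply, itr_apply, itr_apply, smul_add, two_nsmul hf, hf_add_hf, add_zero]

theorem dbl_hlv {γ : Lp M} (h : γ ∈ Fx M) : dbl (hlv γ) = γ := by
  ext x
  obtain ⟨u, rfl⟩ : ∃ u : ℝ, (u : UnitAddCircle) = x := QuotientAddGroup.mk_surjective x
  rw [itr_coe, hlv_coe h]
  congr 2
  push_cast
  ring

theorem hlv_dbl (γ : Lp M) : hlv (dbl γ) = γ := by
  ext x
  obtain ⟨u, rfl⟩ : ∃ u : ℝ, (u : UnitAddCircle) = x := QuotientAddGroup.mk_surjective x
  rw [hlv_coe (dbl_mem_Fx γ), itr_coe]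
  congr 2
  push_cast
  ring

theorem dist_hlv {γ γ' : Lp M} (h : γ ∈ Fx M) (h' : γ' ∈ Fx M) : dist (hlv γ) (hlv γ') = dist γ γ' := by
  apply le_antisymm
  · rw [ContinuousMap.dist_le dist_nonneg]
    intro x
    obtain ⟨u, rfl⟩ : ∃ u : ℝ, (u : UnitAddCircle) = x := QuotientAddGroup.mk_surjective x
    rw [hlv_coe h, hlv_coe h']
    exact ContinuousMap.dist_apply_le_dist _
  · rw [ContinuousMap.dist_le dist_nonneg]
    intro x
    have e1 : γ x = hlv γ (2 • x) := by rw [← itr_apply, dbl_hlv h]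
    have e2 : γ' x = hlv γ' (2 • x) := by rw [← itr_apply, dbl_hlv h']
    rw [e1, e2]
    exact ContinuousMap.dist_apply_le_dist _

theorem contOn_hlv : ContinuousOn (hlv (M := M)) (Fx M) := by
  rw [Metric.continuousOn_iff]
  intro b hb ε hε
  exact ⟨ε, hε, fun a ha hab => by rw [dist_hlv ha hb]; exact hab⟩

theorem hlv_mem {t : ℝ} {γ : Lp M} (h : γ ∈ Fx M) (ht : γ ∈ X M t) : hlv γ ∈ X M (t / 2) := by
  intro x y
  rw [hlv_coe h, hlv_coe h]
  refine (ht _ _).trans (le_of_eq ?_)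
  rw [← sub_div, abs_div, abs_of_pos (two_pos : (0 : ℝ) < 2)]
  ring

theorem X_zero_Fx : X M 0 ⊆ Fx M := by
  intro γ h
  show rot hf γ = γ
  ext x
  rw [rot_apply, mem_X_zero.1 h, mem_X_zero.1 h x]

theorem hlv_zero {γ : Lp M} (h : γ ∈ X M 0) : hlv γ ∈ X M 0 := by
  have := hlv_mem (X_zero_Fx h) h
  rwa [zero_div] at this

theorem mem_Fx_iff {t : ℝ} {γ : Lp M} : γ ∈ Fx M ∩ X M t ↔ ∃ β ∈ X M (t / 2), dbl β = γ := by
  constructor
  · rintro ⟨h, ht⟩
    exact ⟨hlv γ, hlv_mem h ht, dbl_hlv h⟩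
  · rintro ⟨β, hβ, rfl⟩
    refine ⟨dbl_mem_Fx β, ?_⟩
    have := itr_mem hβ 2
    push_cast at this
    rwa [mul_div_cancel₀ t (two_ne_zero)] at this

end loops

/-! ### chains -/

section chains

variable (M : Type) [MetricSpace M]

/-- halving on chains -/
def hv : CE (Lp M) →ₗ[F2] CE (Lp M) := push (Fx M) hlv contOn_hlv

variable {M}

theorem psiN_push (c : CE (Lp M)) : psiN M c = push Set.univ (fun γ => dbl γ)
    (dbl (M := M)).continuous.continuousOn c := by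
  have h : ∀ c ∈ CS (Set.univ : Set (Lp M)), psiN M c = push Set.univ (fun γ => dbl γ)
      (dbl (M := M)).continuous.continuousOn c := by
    refine eq_on_CS fun n σ hσ => ?_
    rw [push_sx hσ, psiN, N.map_sx]
    congr 1
  exact h c (by rw [CS_univ]; trivial)

theorem hv_psiN (c : CE (Lp M)) : hv M (psiN M c) = c := by
  rw [psiN_push, hv, push_push (l := fun γ => γ) (hl := continuousOn_id)
    (fun γ _ => dbl_mem_Fx γ) (fun γ _ => hlv_dbl γ) c (by rw [CS_univ]; trivial)]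
  exact push_id c (by rw [CS_univ]; trivial)

theorem psiN_inj : Injective (psiN M) := fun a b h => by
  rw [← hv_psiN a, h, hv_psiN]

theorem psiN_hv : ∀ c ∈ CS (Fx M), psiN M (hv M c) = c := by
  intro c hc
  rw [psiN_push, hv, push_push (l := fun γ => γ) (hl := continuousOn_id)
    (fun γ _ => Set.mem_univ _) (fun γ h => dbl_hlv h) c hc]
  exact push_id c hc

theorem hv_mem {t : ℝ} : ∀ c ∈ CS (Fx M ∩ X M t), hv M c ∈ CS (X M (t / 2)) :=
  push_mem fun _ h => hlv_mem h.1 h.2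

theorem hv_mem_zero : ∀ c ∈ CS (X M 0), hv M c ∈ CS (X M 0) := push_mem fun _ h => hlv_zero h

theorem psiN_mem_Fx {t : ℝ} : ∀ c ∈ CS (X M (t / 2)), psiN M c ∈ CS (Fx M ∩ X M t) :=
  psiN_mem_CS fun β hβ => mem_Fx_iff.2 ⟨β, hβ, rfl⟩

theorem CS_Fx_eq (t : ℝ) : CS (Fx M ∩ X M t) = (CS (X M (t / 2))).map (psiN M) := by
  apply le_antisymm
  · intro c hc
    exact ⟨hv M c, hv_mem c hc, psiN_hv c (CS_mono Set.inter_subset_left hc)⟩
  · rintro _ ⟨c, hc, rfl⟩
    exact psiN_mem_Fx c hc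

theorem psiN_mem_zero {c : CE (Lp M)} (h : psiN M c ∈ CS (X M 0)) : c ∈ CS (X M 0) := by
  rw [← hv_psiN c]
  exact hv_mem_zero _ h

theorem CS_zero_le {t : ℝ} (ht : 0 ≤ t) : CS (X M 0) ≤ CS (Fx M ∩ X M t) :=
  CS_mono fun _ h => ⟨X_zero_Fx h, X_mono ht h⟩

/-! ### graded form -/

theorem psiC_inj (j : ℕ) : Injective (psiC M j) := fun a b h => by
  apply vl_inj j
  apply psiN_inj
  have := congrArg (vl (M := M) j) h
  rwa [vl_psi, vl_psi] at this

theorem im_psiC (t : ℝ) (j : ℕ) :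
    (FF M (t / 2) j).map (psiC M j) = gs (CS (Fx M ∩ X M t)) j := by
  apply le_antisymm
  · rintro _ ⟨x, hx, rfl⟩
    exact psiN_mem_Fx (vl j x) hx
  · intro x hx
    have hx' : vl j x ∈ CS (Fx M ∩ X M t) := hx
    have h1 := hv_mem _ hx'
    have h2 : hv M (vl j x) ∈ N.gr F2 (SS.Sing (Lp M)) j := push_gr (vl_mem_gr x)
    refine ⟨Instx895.mk (hv M (vl j x)) h2 (CS_le_CL _ h1), h1, ?_⟩
    apply vl_inj j
    rw [vl_psi, vl_mk]
    exact psiN_hv _ (CS_mono Set.inter_subset_left hx')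

theorem psiC_mem_zero {j : ℕ} {x : (Instx895.mix M).C j} (h : psiC M j x ∈ FF M 0 j) :
    x ∈ FF M 0 j := psiN_mem_zero (c := vl j x) h

/-- `Fx ∩ X_t` is rotation invariant -/
theorem rotInv_Fx (t : ℝ) : RotInv (Fx M ∩ X M t) := by
  intro a γ h
  refine ⟨?_, rot_mem h.2 a⟩
  show rot hf (rot a γ) = rot a γ
  rw [rot_rot, add_comm, ← rot_rot, show rot hf γ = γ from h.1]

end chains

end Crest.Agent.R231.Halvex432
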