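import Crest.Agent.R231.PairH_877
import Crest.Agent.R231.CapCS_780

/-!
# Row 231 (S0357), Wang package: LITERAL INTERFACE (helper525)

`WangGeo B E` : the geometric data (owner helper694 for `E = Lp (SG g)`, `B = SG g`; also usable for Moore
loops).  `D ∪ D' = B`; base point `p ∈ D`, `p ∉ D'`; second point `q ∈ D'`, `q ∉ D`.
`X t` = free loops of level `t`, `O t` = based loops (at `p`) of level `t`, all inside one space `E`.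

`Kun D D' U` : the Kuenneth input (owner helper667): `U` = cocycle of `B` which vanishes on `D`,
evaluates to 1 on the fundamental class of `(D', D ∩ D')`.
-/

set_option autoImplicit false

noncomputable section

open Set Topology
open Crest.Agent.R204

namespace Crest.Agent.R231.IfWangx525

open Pairx877 Capx226 CapCSx780

variable {B E : Type} [TopologicalSpace B] [TopologicalSpace E]

/-- chain map of a continuous map -/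
abbrev mp {E E' : Type} [TopologicalSpace E] [TopologicalSpace E'] (f : C(E, E')) : CE E →ₗ[F2] CE E' :=
  N.map F2 (SS.SingMap f)

/-- pull back of a cochain along a continuous map -/
abbrev pb {E E' : Type} [TopologicalSpace E] [TopologicalSpace E'] (f : C(E, E')) (U : Co (SS.Sing E')) :
    Co (SS.Sing E) := pull (SS.SingMap f) U

/-- the projections -/
abbrev pr1 (B E : Type) [TopologicalSpace B] [TopologicalSpace E] : C(B × E, B) := ⟨Prod.fst, continuous_fst⟩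
abbrev pr2 (B E : Type) [TopologicalSpace B] [TopologicalSpace E] : C(B × E, E) := ⟨Prod.snd, continuous_snd⟩

/-- the Kuenneth input for the pair `(D', D ∩ D')` and the set `O` -/
def Kun (D D' : Set B) (U : Co (SS.Sing B)) (O : Set E) : Prop :=
  ∀ y ∈ Zp (D' ×ˢ O) ((D' ∩ D) ×ˢ O), mp (pr2 B E) (cap (pb (pr1 B E) U) y) ∈ Bp O ∅ →
    y ∈ Bp (D' ×ˢ O) ((D' ∩ D) ×ˢ O)

/-- a point cocycle: vanishes on the simplices of `D`, is a cocycle -/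
structure PtCo (D : Set B) (U : Co (SS.Sing B)) : Prop where
  zero : ∀ z ∈ CS D, U z = 0
  cocycle : ∀ z : CE B, U (bdE B z) = 0

/-- the geometric data of the Wang package -/
structure WangGeo (B E : Type) [TopologicalSpace B] [TopologicalSpace E] where
  /-- evaluation at time `0` -/
  e : C(E, B)
  D : Set B
  D' : Set B
  isOpen_D : IsOpen D
  isOpen_D' : IsOpen D'
  cov : ∀ b, b ∈ D ∨ b ∈ D'
  /-- free loops of level `t` -/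
  X : ℝ → Set E
  /-- based loops of level `t` -/
  O : ℝ → Set E
  X_mono : ∀ {s t : ℝ}, s ≤ t → X s ⊆ X t
  O_mono : ∀ {s t : ℝ}, s ≤ t → O s ⊆ O t
  O_sub : ∀ t, O t ⊆ X t ∩ e ⁻¹' D
  /-- loss of level -/
  c : ℝ
  c_nonneg : 0 ≤ c
  /-- OVER `D` : the homotopy `hn t γ u`, `u ∈ [0,1]`, from `γ` to the based loop
  `[p → γ 0] γ [γ 0 → p]` -/
  hn : ℝ → E → ℝ → E
  hn_cont : ∀ t, 0 ≤ t → ContinuousOn (fun x : E × ℝ => hn t x.1 x.2) ((X t ∩ e ⁻¹' D) ×ˢ Icc 0 1)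
  hn_zero : ∀ t, 0 ≤ t → ∀ γ ∈ X t ∩ e ⁻¹' D, hn t γ 0 = γ
  hn_mem : ∀ t, 0 ≤ t → ∀ γ ∈ X t ∩ e ⁻¹' D, ∀ u ∈ Icc (0 : ℝ) 1, hn t γ u ∈ X (t + c)
  hn_one : ∀ t, 0 ≤ t → ∀ γ ∈ X t ∩ e ⁻¹' D, hn t γ 1 ∈ O (t + c)
  /-- for a BASED loop the end map `hn t · 1` is homotopic to the identity through based loops -/
  ho : ℝ → E → ℝ → E
  ho_cont : ∀ t, 0 ≤ t → ContinuousOn (fun x : E × ℝ => ho t x.1 x.2) (O t ×ˢ Icc 0 1)
  ho_zero : ∀ t, 0 ≤ t → ∀ γ ∈ O t, ho t γ 0 = γ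
  ho_one : ∀ t, 0 ≤ t → ∀ γ ∈ O t, ho t γ 1 = hn t γ 1
  ho_mem : ∀ t, 0 ≤ t → ∀ γ ∈ O t, ∀ u ∈ Icc (0 : ℝ) 1, ho t γ u ∈ O (t + c)
  /-- OVER `D'` : `cn t γ = [p → q → γ 0] γ [γ 0 → q → p]` -/
  cn : ℝ → E → E
  cn_cont : ∀ t, 0 ≤ t → ContinuousOn (cn t) (X t ∩ e ⁻¹' D')
  cn_mem : ∀ t, 0 ≤ t → ∀ γ ∈ X t ∩ e ⁻¹' D', cn t γ ∈ O (t + c)
  /-- `un t (b, γ) = [b → q → p] γ [p → q → b]` for a based loop `γ` and `b ∈ D'` -/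
  un : ℝ → B × E → E
  un_cont : ∀ t, 0 ≤ t → ContinuousOn (un t) (D' ×ˢ O t)
  un_mem : ∀ t, 0 ≤ t → ∀ b ∈ D', ∀ γ ∈ O t, un t (b, γ) ∈ X (t + c)
  un_e : ∀ t, 0 ≤ t → ∀ b ∈ D', ∀ γ ∈ O t, e (un t (b, γ)) = b
  /-- homotopy over `D'` from `γ` to `un (e γ, cn γ)`; it preserves the evaluation -/
  hn' : ℝ → E → ℝ → E
  hn'_cont : ∀ t, 0 ≤ t →
    ContinuousOn (fun x : E × ℝ => hn' t x.1 x.2) ((X t ∩ e ⁻¹' D') ×ˢ Icc 0 1)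
  hn'_zero : ∀ t, 0 ≤ t → ∀ γ ∈ X t ∩ e ⁻¹' D', hn' t γ 0 = γ
  hn'_one : ∀ t, 0 ≤ t → ∀ γ ∈ X t ∩ e ⁻¹' D', hn' t γ 1 = un (t + c) (e γ, cn t γ)
  hn'_mem : ∀ t, 0 ≤ t → ∀ γ ∈ X t ∩ e ⁻¹' D', ∀ u ∈ Icc (0 : ℝ) 1, hn' t γ u ∈ X (t + c + c)
  hn'_e : ∀ t, 0 ≤ t → ∀ γ ∈ X t ∩ e ⁻¹' D', ∀ u ∈ Icc (0 : ℝ) 1, e (hn' t γ u) = e γ
  /-- change of the level (of the time ratio): `cn s ~ cn t` on `X s` through based loops -/
  rc : ℝ → ℝ → E → ℝ → E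
  rc_cont : ∀ s t, 0 ≤ s → s ≤ t →
    ContinuousOn (fun x : E × ℝ => rc s t x.1 x.2) ((X s ∩ e ⁻¹' D') ×ˢ Icc 0 1)
  rc_zero : ∀ s t, 0 ≤ s → s ≤ t → ∀ γ ∈ X s ∩ e ⁻¹' D', rc s t γ 0 = cn s γ
  rc_one : ∀ s t, 0 ≤ s → s ≤ t → ∀ γ ∈ X s ∩ e ⁻¹' D', rc s t γ 1 = cn t γ
  rc_mem : ∀ s t, 0 ≤ s → s ≤ t → ∀ γ ∈ X s ∩ e ⁻¹' D', ∀ u ∈ Icc (0 : ℝ) 1,
    rc s t γ u ∈ O (t + c)

end Crest.Agent.R231.IfWangx525
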