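import Crest.Agent.R231.LCap_226

/-!
# Row 231, block P, leaf Q3 (helper226): localised cap with a GLOBAL cocycle, evaluation, duality

* `lcapG hc h : HS Y → HS V` for `h : GCo W u` (`u` a cocycle on `Y`, zero on `W`)
* `lcapG_nat`, `lcapG_gr`, `lcapG_cx_right`, `lcapG_cx_left`, `snd_lcapG_cx`
* `evH u hu : HS Y → F2` (evaluation), `ep_lcapG`
* `exists_GCo` : `x ∈ H_q(Y)` not in the image of `H(W)` : there is `u` with `GCo W u`, `Deg q u`,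
  `evH u x = 1`
-/

set_option autoImplicit false

noncomputable section

namespace Crest.Agent.R231.LCapGx226

open Crest.Agent.R204 Crest.Agent.R204.HA683 Crest.Agent.R204.Exc406 Crest.Agent.R231.Capx226
open Function Topology SpecA Crest.Agent.R231.FinDim315 Crest.Agent.R231.CapCSx780
  Crest.Agent.R231.CrossCSx780 Crest.Agent.R231.Pairx877 Crest.Agent.R231.MVBx226
  Crest.Agent.R231.CXx780 Crest.Agent.R231.LCapx226

variable {Y Z Z' : Type} [TopologicalSpace Y] [TopologicalSpace Z] [TopologicalSpace Z']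
  {W V : Set Y} {W' V' : Set Z}

/-- localised cap with a global cocycle -/
def lcapG (hc : ∀ y, W ∈ 𝓝 y ∨ V ∈ 𝓝 y) {u : Co (SS.Sing Y)} (h : GCo W u) : HS Y →ₗ[F2] HS V :=
  lcapA hc (h.lco (V := V))

/-- naturality -/
theorem lcapG_nat (hc : ∀ y, W ∈ 𝓝 y ∨ V ∈ 𝓝 y) (hc' : ∀ y, W' ∈ 𝓝 y ∨ V' ∈ 𝓝 y)
    (f : C(Y, Z)) (hW : Set.MapsTo f W W') (hV : Set.MapsTo f V V') {u : Co (SS.Sing Y)}
    (h : GCo W u) {u' : Co (SS.Sing Z)} (h' : GCo W' u') (e : pull (SS.SingMap f) u' = u) (x : HS Y) :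
    lcapG hc' h' (Hm f x) = Hm (cr f hV) (lcapG hc h x) := by
  subst e
  refine lcapA_nat hc hc' f hW hV _ _ ?_ x
  rw [pull_pull, pull_pull]
  rfl

theorem lcapG_gr (hc : ∀ y, W ∈ 𝓝 y ∨ V ∈ 𝓝 y) {u : Co (SS.Sing Y)} (h : GCo W u) {q : ℕ}
    (hd : Deg q u) {n : ℕ} {x : HS Y} (hx : x ∈ hg Y (q + n)) : lcapG hc h x ∈ hg V n :=
  lcapA_gr hc _ (hd.pull _) hx

theorem lcapG_gr_zero (hc : ∀ y, W ∈ 𝓝 y ∨ V ∈ 𝓝 y) {u : Co (SS.Sing Y)} (h : GCo W u) {q : ℕ}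
    (hd : Deg q u) {n : ℕ} (hn : n < q) {x : HS Y} (hx : x ∈ hg Y n) : lcapG hc h x = 0 :=
  lcapA_gr_zero hc _ (hd.pull _) hn hx

/-- any decomposition computes the localised cap -/
theorem lcapG_mk (hc : ∀ y, W ∈ 𝓝 y ∨ V ∈ 𝓝 y) {u : Co (SS.Sing Y)} (h : GCo W u)
    (z : N F2 (SS.Sing Y)) (hz : N.bd F2 _ z = 0) (z₂ : N F2 (SS.Sing V)) (w : N F2 (SS.Sing W))
    (e : N F2 (SS.Sing Y)) (hd : z = N.map F2 (SS.SingMap (inc V)) z₂ + N.bd F2 _ e +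
      N.map F2 (SS.SingMap (inc W)) w) :
    ∃ h0 : N.bd F2 _ (cap (pull (SS.SingMap (inc V)) u) z₂) = 0,
      lcapG hc h (Hd.mk _ z hz) = Hd.mk _ (cap (pull (SS.SingMap (inc V)) u) z₂) h0 :=
  lcapA_mk hc (h.lco (V := V)) z hz z₂ w e hd

theorem _root_.Crest.Agent.R231.LCapx226.GCo.fst {u : Co (SS.Sing Y)} (h : GCo W u) :
    GCo (Prod.fst ⁻¹' W : Set (Y × Z)) (pull (SS.SingMap (fstC Y Z)) u) :=
  h.pull (fstC Y Z) fun _ hx => hx

theorem _root_.Crest.Agent.R231.LCapx226.GCo.snd {u : Co (SS.Sing Y)} (h : GCo W u) :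
    GCo (Prod.snd ⁻¹' W : Set (Z × Y)) (pull (SS.SingMap (sndC Z Y)) u) :=
  h.pull (sndC Z Y) fun _ hx => hx

theorem lcapA_congr (hc : ∀ y, W ∈ 𝓝 y ∨ V ∈ 𝓝 y) {u u' : Co (SS.Sing V)} (e : u = u')
    (h : LCo W V u) (h' : LCo W V u') (x : HS Y) : lcapA hc h x = lcapA hc h' x := by
  subst e; rfl

/-- **`lcap (y × a) = lcap y × a`** -/
theorem lcapG_cx_right (hc : ∀ y, W ∈ 𝓝 y ∨ V ∈ 𝓝 y) {u : Co (SS.Sing Y)} (h : GCo W u)
    (y : HS Y) (a : HS Z) :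
    lcapG (nhds_fst hc) (h.fst (Z := Z)) (cx y a) = Hm (jR V Z) (cx (lcapG hc h y) a) := by
  refine (lcapA_congr (nhds_fst hc) ?_ _ _ _).trans (lcapA_cx_right hc (h.lco (V := V)) y a)
  rw [pull_pull, pull_pull]; rfl

/-- **`lcap (a × y) = a × lcap y`** -/
theorem lcapG_cx_left (hc : ∀ y, W ∈ 𝓝 y ∨ V ∈ 𝓝 y) {u : Co (SS.Sing Y)} (h : GCo W u)
    (a : HS Z) (y : HS Y) :
    lcapG (nhds_snd hc) (h.snd (Z := Z)) (cx a y) = Hm (jL V Z) (cx a (lcapG hc h y)) := by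
  refine (lcapA_congr (nhds_snd hc) ?_ _ _ _).trans (lcapA_cx_left hc (h.lco (V := V)) a y)
  rw [pull_pull, pull_pull]; rfl

/-- **`B = 0`** -/
theorem snd_lcapG_cx (hc : ∀ y, W ∈ 𝓝 y ∨ V ∈ 𝓝 y) {c : Co (SS.Sing (Z × Y))}
    (h : GCo (Prod.snd ⁻¹' W) c) {p q : ℕ} (hpq : q < p) (hd : Deg q c)
    {a : HS Z} (ha : a ∈ hg Z p) (y : HS Y) :
    Hm (fL V Z) (lcapG (nhds_snd hc) h (cx a y)) = 0 :=
  snd_lcapA_cx hc _ hpq (hd.pull _) ha y

/-! ### evaluation -/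

/-- evaluation of a cocycle on homology -/
def evH (u : Co (SS.Sing Y)) (hu : cobd u = 0) : HS Y →ₗ[F2] F2 :=
  Submodule.liftQ _ (u ∘ₗ (LinearMap.ker (N.bd F2 (SS.Sing Y))).subtype) (by
    rintro ⟨z, hz⟩ hz'
    simp only [Submodule.mem_comap, Submodule.subtype_apply, LinearMap.mem_range] at hz'
    obtain ⟨v, rfl⟩ := hz'
    exact LinearMap.congr_fun hu v)

theorem evH_mk (u : Co (SS.Sing Y)) (hu : cobd u = 0) (z : N F2 (SS.Sing Y)) (hz) :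
    evH u hu (Hd.mk _ z hz) = u z := rfl

theorem evH_Hm (u : Co (SS.Sing Z)) (hu : cobd u = 0) (f : C(Y, Z)) (hu') (x : HS Y) :
    evH u hu (Hm f x) = evH (pull (SS.SingMap f) u) hu' x := by
  obtain ⟨z, hz, rfl⟩ := Hd.mk_surj _ x
  rw [Hm_mk _ _ (bd_map_cyc _ hz), evH_mk, evH_mk, pull_apply]

theorem evH_deg {u : Co (SS.Sing Y)} (hu : cobd u = 0) {q : ℕ} (hd : Deg q u) :
    DegF q (evH u hu) := by
  intro n hn x hx
  obtain ⟨z, hz, hz', rfl⟩ := HA498.mem_grHd.1 hx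
  exact hd n hn z hz

theorem ep_mk (z : N F2 (SS.Sing Y)) (hz : N.bd F2 _ z = 0) :
    ep (Hd.mk (N.bd F2 (SS.Sing Y)) z hz) = EZ271.aug F2 z := by
  show Coalg847.nAug _ z = _
  have : Coalg847.nAug (SS.Sing Y) = EZ271.aug F2 := by
    refine Gr334.N_ext fun n x => ?_
    rcases n with _ | n
    · rw [Coalg847.nAug_sx_zero, EZ271.aug_sx_zero]
    · rw [Coalg847.nAug_gr (Nat.succ_ne_zero n) (Gr334.sx_mem_gr x), EZ271.aug_sx_succ]
  rw [this]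

theorem aug_cap {K : SS} (u : Co K) (z : N F2 K) : EZ271.aug F2 (cap u z) = u z := by
  rw [← cup_apply, cup_aug_right]

/-- the augmentation of the localised cap is the evaluation -/
theorem ep_lcapG (hc : ∀ y, W ∈ 𝓝 y ∨ V ∈ 𝓝 y) {u : Co (SS.Sing Y)} (h : GCo W u) (x : HS Y) :
    ep (lcapG hc h x) = evH u h.cyc x := by
  obtain ⟨z, hz, rfl⟩ := Hd.mk_surj _ x
  obtain ⟨z₂, w, e, hd⟩ := exists_dec hc z hz
  obtain ⟨h0, h1⟩ := lcapG_mk hc h z hz z₂ w e hd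
  rw [h1, ep_mk, aug_cap, evH_mk, hd, map_add, map_add, pull_apply]
  have h2 : u (N.bd F2 _ e) = 0 := LinearMap.congr_fun h.cyc e
  have h3 : u (N.map F2 (SS.SingMap (inc W)) w) = 0 := LinearMap.congr_fun h.van w
  rw [h2, h3, add_zero, add_zero]

/-! ### duality -/

/-- a homogeneous class which does not come from `W` is detected by a homogeneous cocycle which
vanishes on `W` -/
theorem exists_GCo {q : ℕ} {x : HS Y} (hx : x ∈ hg Y q) (hW : x ∉ LinearMap.range (Hm (inc W))) :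
    ∃ (u : Co (SS.Sing Y)) (h : GCo W u), Deg q u ∧ evH u h.cyc x = 1 := by
  obtain ⟨z, hzg, hz, rfl⟩ := HA498.mem_grHd.1 hx
  set P : Submodule F2 (N F2 (SS.Sing Y)) :=
    LinearMap.range (N.map F2 (SS.SingMap (inc W))) ⊔ LinearMap.range (N.bd F2 (SS.Sing Y)) with hP
  have hzP : z ∉ P := by
    intro h
    obtain ⟨_, ⟨w, rfl⟩, _, ⟨e, rfl⟩, h⟩ := Submodule.mem_sup.1 h
    apply hW
    have hw : N.bd F2 _ w = 0 := by
      apply N_map_injective F2 (sinj_inc W)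
      rw [N_map_bd_apply, map_zero]
      have := congrArg (N.bd F2 _) h
      rw [map_add, N.bd_bd, add_zero, hz] at this
      exact this
    refine ⟨Hd.mk _ w hw, ?_⟩
    rw [Hm_mk _ _ (bd_map_cyc _ hw), Hd.mk_eq_mk]
    refine ⟨e, ?_⟩
    rw [← h, sub_eq, ← add_assoc, add_self, zero_add]
  obtain ⟨f, hf, hfP⟩ := Submodule.exists_le_ker_of_notMem hzP
  have h1 : ∀ w : N F2 (SS.Sing W), f (N.map F2 (SS.SingMap (inc W)) w) = 0 := fun w =>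
    hfP (Submodule.mem_sup_left ⟨w, rfl⟩)
  have h2 : ∀ e : N F2 (SS.Sing Y), f (N.bd F2 _ e) = 0 := fun e =>
    hfP (Submodule.mem_sup_right ⟨e, rfl⟩)
  refine ⟨f ∘ₗ Gr334.prN F2 _ q, ⟨?_, ?_⟩, ?_, ?_⟩
  · refine LinearMap.ext fun c => ?_
    rw [cobd_apply, LinearMap.comp_apply, Gr334.prN_bd, h2]; rfl
  · refine LinearMap.ext fun c => ?_
    rw [pull_apply, LinearMap.comp_apply, Gr334.prN_map, h1]; rfl
  · intro n hn c hc
    rw [LinearMap.comp_apply, Gr334.prN_of_mem_ne hn hc, map_zero]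
  · rw [evH_mk, LinearMap.comp_apply, Gr334.prN_of_mem hzg]
    have h3 : ∀ a : F2, a ≠ 0 → a = 1 := by decide
    exact h3 _ hf

end Crest.Agent.R231.LCapGx226
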