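import Crest.Agent.R231.MVB_226
import Crest.Agent.R231.CX_780

/-!
# Row 231, block P, leaf Q2a/Q3 (helper226): the localised cap product, type level

`W V : Set Y` with interiors covering `Y`; `u` a cocycle on `V` which vanishes on `W ∩ V`.

* `lcap W V hc u hu hv : HR W → HS V`, `lcapA = lcap ∘ pr W : HS Y → HS V`
* `lcap_rcl`, `lcap_nat`, `lcapA_nat`, degrees, `lcapA_cx_right`, `lcapA_cx_left`, `snd_lcapA_cx` (B = 0)
* `lcapG` : the same for a cocycle `u` on `Y` which vanishes on `W`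
-/

set_option autoImplicit false

noncomputable section

namespace Crest.Agent.R231.LCapx226

open Crest.Agent.R204 Crest.Agent.R204.HA683 Crest.Agent.R204.Exc406 Crest.Agent.R231.Capx226
open Function Topology SpecA Crest.Agent.R231.FinDim315 Crest.Agent.R231.CapCSx780
  Crest.Agent.R231.CrossCSx780 Crest.Agent.R231.Pairx877 Crest.Agent.R231.MVBx226
  Crest.Agent.R231.CXx780

variable {Y Z Z' : Type} [TopologicalSpace Y] [TopologicalSpace Z] [TopologicalSpace Z']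
  {W V : Set Y} {W' V' : Set Z}

/-- a cocycle on `V` which vanishes on `W ∩ V` -/
structure LCo (W V : Set Y) (u : Co (SS.Sing V)) : Prop where
  cyc : cobd u = 0
  van : pull (SS.SingMap (inc₂ (Set.inter_subset_right : W ∩ V ⊆ V))) u = 0

theorem LCo.cap_map {u : Co (SS.Sing V)} (h : LCo W V u) (y : N F2 (SS.Sing (W ∩ V : Set Y))) :
    cap u (N.map F2 (SS.SingMap (inc₂ (Set.inter_subset_right : W ∩ V ⊆ V))) y) = 0 := by
  rw [← map_cap, h.van, cap_zero_left, map_zero]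

theorem LCo.bd_cap {u : Co (SS.Sing V)} (h : LCo W V u) {z : N F2 (SS.Sing V)}
    {y : N F2 (SS.Sing (W ∩ V : Set Y))}
    (h1 : N.map F2 (SS.SingMap (inc₂ (Set.inter_subset_right : W ∩ V ⊆ V))) y = N.bd F2 _ z) :
    N.bd F2 _ (cap u z) = 0 := by
  rw [bd_cap_cocycle h.cyc, ← h1, h.cap_map]

/-- cap product `H(V, W ∩ V) → H(V)` -/
def capRel {u : Co (SS.Sing V)} (h : LCo W V u) : HRi W V →ₗ[F2] HS V :=
  Hd.map (Submodule.liftQ _ (cap u) (by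
    rintro _ ⟨y, rfl⟩
    exact h.cap_map y)) (by
    refine LinearMap.ext fun x => ?_
    obtain ⟨z, rfl⟩ := NRel.pi_surj F2 _ x
    show cap u (N.bd F2 _ z) = N.bd F2 _ (cap u z)
    rw [bd_cap_cocycle h.cyc])

/-- **localised cap product** -/
def lcap (hc : ∀ y, W ∈ 𝓝 y ∨ V ∈ 𝓝 y) {u : Co (SS.Sing V)} (h : LCo W V u) : HR W →ₗ[F2] HS V :=
  capRel h ∘ₗ exInv W V hc

theorem lcap_rcl (hc : ∀ y, W ∈ 𝓝 y ∨ V ∈ 𝓝 y) {u : Co (SS.Sing V)} (h : LCo W V u)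
    (z : N F2 (SS.Sing V)) (y : N F2 (SS.Sing (W ∩ V : Set Y)))
    (h1 : N.map F2 (SS.SingMap (inc₂ (Set.inter_subset_right : W ∩ V ⊆ V))) y = N.bd F2 _ z)
    (h2) : lcap hc h (rcl W (N.map F2 (SS.SingMap (inc V)) z) h2) =
      Hd.mk _ (cap u z) (h.bd_cap h1) := by
  rw [lcap, LinearMap.comp_apply, exInv_rcl hc z y h1]
  rfl

theorem rcl_aux (z : N F2 (SS.Sing V)) (y : N F2 (SS.Sing (W ∩ V : Set Y)))
    (h1 : N.map F2 (SS.SingMap (inc₂ (Set.inter_subset_right : W ∩ V ⊆ V))) y = N.bd F2 _ z) :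
    ∃ y : N F2 (SS.Sing W), N.map F2 (SS.SingMap (inc W)) y =
      N.bd F2 _ (N.map F2 (SS.SingMap (inc V)) z) :=
  ⟨N.map F2 (SS.SingMap (inc₂ (Set.inter_subset_left : W ∩ V ⊆ W))) y, by
    rw [← (sqVW W V).N_map, h1, N_map_bd_apply]⟩

theorem Hm_mk (f : C(Y, Z)) {z : N F2 (SS.Sing Y)} (hz : N.bd F2 _ z = 0)
    (h : N.bd F2 _ (N.map F2 (SS.SingMap f) z) = 0) :
    Hm f (Hd.mk _ z hz) = Hd.mk _ (N.map F2 (SS.SingMap f) z) h := rfl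

theorem bd_map_cyc (f : C(Y, Z)) {z : N F2 (SS.Sing Y)} (hz : N.bd F2 _ z = 0) :
    N.bd F2 _ (N.map F2 (SS.SingMap f) z) = 0 := by rw [← N_map_bd_apply, hz, map_zero]

theorem mk_congr' {z z' : N F2 (SS.Sing Y)} (h : z = z') (hz) (hz') :
    Hd.mk (N.bd F2 (SS.Sing Y)) z hz = Hd.mk _ z' hz' := by subst h; rfl

/-- naturality -/
theorem lcap_nat (hc : ∀ y, W ∈ 𝓝 y ∨ V ∈ 𝓝 y) (hc' : ∀ y, W' ∈ 𝓝 y ∨ V' ∈ 𝓝 y)
    (f : C(Y, Z)) (hW : Set.MapsTo f W W') (hV : Set.MapsTo f V V') {u : Co (SS.Sing V)}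
    (h : LCo W V u) {u' : Co (SS.Sing V')} (h' : LCo W' V' u')
    (e : pull (SS.SingMap (cr f hV)) u' = u) (x : HR W) :
    lcap hc' h' (HRm f hW x) = Hm (cr f hV) (lcap hc h x) := by
  subst e
  obtain ⟨z, y, hy, h1, h2, rfl, -⟩ := rcl_surj_V' hc x
  rw [lcap_rcl hc h z y h1]
  have e1 : N.map F2 (SS.SingMap f) (N.map F2 (SS.SingMap (inc V)) z) =
      N.map F2 (SS.SingMap (inc V')) (N.map F2 (SS.SingMap (cr f hV)) z) := (sqM f hV).N_map z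
  have sq2 : Sq (SS.SingMap (inc₂ (Set.inter_subset_right : W ∩ V ⊆ V)))
      (SS.SingMap (inc₂ (Set.inter_subset_right : W' ∩ V' ⊆ V')))
      (SS.SingMap (cr f (mapsTo_inter hW hV))) (SS.SingMap (cr f hV)) := ⟨fun _ _ => rfl⟩
  have e2 : N.map F2 (SS.SingMap (inc₂ (Set.inter_subset_right : W' ∩ V' ⊆ V')))
      (N.map F2 (SS.SingMap (cr f (mapsTo_inter hW hV))) y) =
      N.bd F2 _ (N.map F2 (SS.SingMap (cr f hV)) z) := by
    rw [← sq2.N_map, h1, N_map_bd_apply]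
  rw [HRm_rcl, rcl_congr e1 _ (rcl_aux _ _ e2), lcap_rcl hc' h' _ _ e2]
  rw [Hm_mk _ _ (bd_map_cyc _ (h.bd_cap h1))]
  exact mk_congr' (map_cap _ _ _).symm _ _

theorem lcap_gr (hc : ∀ y, W ∈ 𝓝 y ∨ V ∈ 𝓝 y) {u : Co (SS.Sing V)} (h : LCo W V u) {q : ℕ}
    (hd : Deg q u) {n : ℕ} {x : HR W} (hx : x ∈ HRel.gr F2 (SS.SingMap (inc W)) (q + n)) :
    lcap hc h x ∈ H.gr F2 _ n := by
  obtain ⟨z, y, hy, h1, h2, rfl, -⟩ := rcl_surj_V' hc x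
  have h4 := rcl_proj hx
  have e : ∃ y' : N F2 (SS.Sing (W ∩ V : Set Y)), N.map F2 (SS.SingMap (inc₂
      (Set.inter_subset_right : W ∩ V ⊆ V))) y' = N.bd F2 _ (Gr334.prN F2 _ (q + n) z) := by
    rcases hm : q + n with _ | m
    · exact ⟨0, by rw [map_zero, Gr334.bd_gr_zero (Gr334.prN_mem _ _)]⟩
    · exact ⟨Gr334.prN F2 _ m y, by rw [← Gr334.prN_map, h1, Gr334.prN_bd]⟩
  obtain ⟨y', e⟩ := e
  rw [h4, rcl_congr (Gr334.prN_map _ _ _) _ (rcl_aux _ _ e), lcap_rcl hc h _ _ e]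
  exact HA498.mk_mem_grHd (cap_mem_gr hd (Gr334.prN_mem _ _)) _

theorem lcap_gr_zero (hc : ∀ y, W ∈ 𝓝 y ∨ V ∈ 𝓝 y) {u : Co (SS.Sing V)} (h : LCo W V u) {q : ℕ}
    (hd : Deg q u) {n : ℕ} (hn : n < q) {x : HR W} (hx : x ∈ HRel.gr F2 (SS.SingMap (inc W)) n) :
    lcap hc h x = 0 := by
  obtain ⟨z, y, hy, h1, h2, rfl, -⟩ := rcl_surj_V' hc x
  have h4 := rcl_proj hx
  have e : ∃ y' : N F2 (SS.Sing (W ∩ V : Set Y)), N.map F2 (SS.SingMap (inc₂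
      (Set.inter_subset_right : W ∩ V ⊆ V))) y' = N.bd F2 _ (Gr334.prN F2 _ n z) := by
    rcases n with _ | m
    · exact ⟨0, by rw [map_zero, Gr334.bd_gr_zero (Gr334.prN_mem _ _)]⟩
    · exact ⟨Gr334.prN F2 _ m y, by rw [← Gr334.prN_map, h1, Gr334.prN_bd]⟩
  obtain ⟨y', e⟩ := e
  rw [h4, rcl_congr (Gr334.prN_map _ _ _) _ (rcl_aux _ _ e), lcap_rcl hc h _ _ e]
  refine Hd.mk_eq_zero.2 ⟨0, ?_⟩
  rw [map_zero, cap_gr_eq_zero hd hn (Gr334.prN_mem _ _)]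

/-! ### absolute classes -/

/-- localised cap of an absolute class -/
def lcapA (hc : ∀ y, W ∈ 𝓝 y ∨ V ∈ 𝓝 y) {u : Co (SS.Sing V)} (h : LCo W V u) : HS Y →ₗ[F2] HS V :=
  lcap hc h ∘ₗ pr W

/-- **any** decomposition `z = z₂ + w + ∂ e` (`z₂` in `V`, `w` in `W`) computes the localised cap -/
theorem lcapA_mk (hc : ∀ y, W ∈ 𝓝 y ∨ V ∈ 𝓝 y) {u : Co (SS.Sing V)} (h : LCo W V u)
    (z : N F2 (SS.Sing Y)) (hz : N.bd F2 _ z = 0) (z₂ : N F2 (SS.Sing V)) (w : N F2 (SS.Sing W))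
    (e : N F2 (SS.Sing Y)) (hd : z = N.map F2 (SS.SingMap (inc V)) z₂ + N.bd F2 _ e +
      N.map F2 (SS.SingMap (inc W)) w) :
    ∃ h0 : N.bd F2 _ (cap u z₂) = 0, lcapA hc h (Hd.mk _ z hz) = Hd.mk _ (cap u z₂) h0 := by
  have h1 : N.map F2 (SS.SingMap (inc W)) (N.bd F2 _ w) =
      N.map F2 (SS.SingMap (inc V)) (N.bd F2 _ z₂) := by
    rw [N_map_bd_apply, N_map_bd_apply]
    have := congrArg (N.bd F2 _) hd
    rw [hz, map_add, map_add, N.bd_bd, add_zero] at this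
    exact (eq_of_add this.symm).symm
  obtain ⟨c, hc1, hc2⟩ := inter_chain W V h1
  refine ⟨h.bd_cap hc2, ?_⟩
  have h3 : pr W (Hd.mk _ z hz) = rcl W (N.map F2 (SS.SingMap (inc V)) z₂) (rcl_aux _ _ hc2) := by
    have : pr W (Hd.mk _ z hz) = rcl W z ⟨0, by rw [hz, map_zero]⟩ := rfl
    rw [this, rcl_eq_rcl]
    exact ⟨e, w, hd⟩
  rw [lcapA, LinearMap.comp_apply, h3, lcap_rcl hc h _ _ hc2]

/-- every cycle has such a decomposition -/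
theorem exists_dec (hc : ∀ y, W ∈ 𝓝 y ∨ V ∈ 𝓝 y) (z : N F2 (SS.Sing Y)) (hz : N.bd F2 _ z = 0) :
    ∃ (z₂ : N F2 (SS.Sing V)) (w : N F2 (SS.Sing W)) (e : N F2 (SS.Sing Y)),
      z = N.map F2 (SS.SingMap (inc V)) z₂ + N.bd F2 _ e + N.map F2 (SS.SingMap (inc W)) w := by
  obtain ⟨z₂, y, h1, h2⟩ := rcl_surj_V hc (pr W (Hd.mk _ z hz))
  have : pr W (Hd.mk _ z hz) = rcl W z ⟨0, by rw [hz, map_zero]⟩ := rfl
  rw [this, rcl_eq_rcl] at h2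
  obtain ⟨e, w, h3⟩ := h2
  exact ⟨z₂, w, e, h3⟩

theorem lcapA_nat (hc : ∀ y, W ∈ 𝓝 y ∨ V ∈ 𝓝 y) (hc' : ∀ y, W' ∈ 𝓝 y ∨ V' ∈ 𝓝 y)
    (f : C(Y, Z)) (hW : Set.MapsTo f W W') (hV : Set.MapsTo f V V') {u : Co (SS.Sing V)}
    (h : LCo W V u) {u' : Co (SS.Sing V')} (h' : LCo W' V' u')
    (e : pull (SS.SingMap (cr f hV)) u' = u) (x : HS Y) :
    lcapA hc' h' (Hm f x) = Hm (cr f hV) (lcapA hc h x) := by
  rw [lcapA, lcapA, LinearMap.comp_apply, LinearMap.comp_apply, ← pr_nat f hW,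
    lcap_nat hc hc' f hW hV h h' e]

theorem pr_gr {n : ℕ} {x : HS Y} (hx : x ∈ hg Y n) :
    pr W x ∈ HRel.gr F2 (SS.SingMap (inc W)) n := pi_gr F2 _ hx

theorem lcapA_gr (hc : ∀ y, W ∈ 𝓝 y ∨ V ∈ 𝓝 y) {u : Co (SS.Sing V)} (h : LCo W V u) {q : ℕ}
    (hd : Deg q u) {n : ℕ} {x : HS Y} (hx : x ∈ hg Y (q + n)) : lcapA hc h x ∈ hg V n :=
  lcap_gr hc h hd (pr_gr hx)

theorem lcapA_gr_zero (hc : ∀ y, W ∈ 𝓝 y ∨ V ∈ 𝓝 y) {u : Co (SS.Sing V)} (h : LCo W V u) {q : ℕ}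
    (hd : Deg q u) {n : ℕ} (hn : n < q) {x : HS Y} (hx : x ∈ hg Y n) : lcapA hc h x = 0 :=
  lcap_gr_zero hc h hd hn (pr_gr hx)

/-! ### products -/

/-- `V × Z → fst⁻¹ V` -/
def jR (V : Set Y) (Z : Type) [TopologicalSpace Z] : C(V × Z, (Prod.fst ⁻¹' V : Set (Y × Z))) :=
  ⟨fun p => ⟨(p.1.1, p.2), p.1.2⟩, by fun_prop⟩

/-- `Z × V → snd⁻¹ V` -/
def jL (V : Set Y) (Z : Type) [TopologicalSpace Z] : C(Z × V, (Prod.snd ⁻¹' V : Set (Z × Y))) :=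
  ⟨fun p => ⟨(p.1, p.2.1), p.2.2⟩, by fun_prop⟩

/-- first projection on `fst⁻¹ V` -/
def fR (V : Set Y) (Z : Type) [TopologicalSpace Z] : C((Prod.fst ⁻¹' V : Set (Y × Z)), V) :=
  ⟨fun p => ⟨p.1.1, p.2⟩, by fun_prop⟩

/-- second projection on `snd⁻¹ V` -/
def fL (V : Set Y) (Z : Type) [TopologicalSpace Z] : C((Prod.snd ⁻¹' V : Set (Z × Y)), V) :=
  ⟨fun p => ⟨p.1.2, p.2⟩, by fun_prop⟩

theorem nhds_fst (hc : ∀ y, W ∈ 𝓝 y ∨ V ∈ 𝓝 y) (p : Y × Z) :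
    (Prod.fst ⁻¹' W : Set (Y × Z)) ∈ 𝓝 p ∨ (Prod.fst ⁻¹' V : Set (Y × Z)) ∈ 𝓝 p := by
  rcases hc p.1 with h | h
  · exact Or.inl (continuous_fst.continuousAt.preimage_mem_nhds h)
  · exact Or.inr (continuous_fst.continuousAt.preimage_mem_nhds h)

theorem nhds_snd (hc : ∀ y, W ∈ 𝓝 y ∨ V ∈ 𝓝 y) (p : Z × Y) :
    (Prod.snd ⁻¹' W : Set (Z × Y)) ∈ 𝓝 p ∨ (Prod.snd ⁻¹' V : Set (Z × Y)) ∈ 𝓝 p := by
  rcases hc p.2 with h | h
  · exact Or.inl (continuous_snd.continuousAt.preimage_mem_nhds h)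
  · exact Or.inr (continuous_snd.continuousAt.preimage_mem_nhds h)

theorem pull_pull {K L J : SS} (f : SS.Hom K L) (g : SS.Hom L J) (u : Co J) :
    pull f (pull g u) = pull (g.comp f) u := by
  refine LinearMap.ext fun z => ?_
  rw [pull_apply, pull_apply, pull_apply, N_map_comp]

theorem LCo.fst {u : Co (SS.Sing V)} (h : LCo W V u) :
    LCo (Prod.fst ⁻¹' W : Set (Y × Z)) (Prod.fst ⁻¹' V) (pull (SS.SingMap (fR V Z)) u) where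
  cyc := by rw [← pull_cobd, h.cyc]; rfl
  van := by
    have e : (SS.SingMap (fR V Z)).comp (SS.SingMap (inc₂ (Set.inter_subset_right :
        (Prod.fst ⁻¹' W : Set (Y × Z)) ∩ Prod.fst ⁻¹' V ⊆ Prod.fst ⁻¹' V))) =
        (SS.SingMap (inc₂ (Set.inter_subset_right : W ∩ V ⊆ V))).comp
          (SS.SingMap (⟨fun p => ⟨p.1.1, p.2⟩, by fun_prop⟩ :
            C(((Prod.fst ⁻¹' W : Set (Y × Z)) ∩ Prod.fst ⁻¹' V : Set (Y × Z)), (W ∩ V : Set Y)))) := rfl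
    rw [pull_pull, e, ← pull_pull, h.van]
    rfl

theorem LCo.snd {u : Co (SS.Sing V)} (h : LCo W V u) :
    LCo (Prod.snd ⁻¹' W : Set (Z × Y)) (Prod.snd ⁻¹' V) (pull (SS.SingMap (fL V Z)) u) where
  cyc := by rw [← pull_cobd, h.cyc]; rfl
  van := by
    have e : (SS.SingMap (fL V Z)).comp (SS.SingMap (inc₂ (Set.inter_subset_right :
        (Prod.snd ⁻¹' W : Set (Z × Y)) ∩ Prod.snd ⁻¹' V ⊆ Prod.snd ⁻¹' V))) =
        (SS.SingMap (inc₂ (Set.inter_subset_right : W ∩ V ⊆ V))).comp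
          (SS.SingMap (⟨fun p => ⟨p.1.2, p.2⟩, by fun_prop⟩ :
            C(((Prod.snd ⁻¹' W : Set (Z × Y)) ∩ Prod.snd ⁻¹' V : Set (Z × Y)), (W ∩ V : Set Y)))) := rfl
    rw [pull_pull, e, ← pull_pull, h.van]
    rfl

/-- decomposition of `z × a` -/
theorem dec_right {z : N F2 (SS.Sing Y)} {z₂ : N F2 (SS.Sing V)} {w : N F2 (SS.Sing W)}
    {e : N F2 (SS.Sing Y)} (hd : z = N.map F2 (SS.SingMap (inc V)) z₂ + N.bd F2 _ e +
      N.map F2 (SS.SingMap (inc W)) w) {a : N F2 (SS.Sing Z)} (ha : N.bd F2 _ a = 0) :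
    crE z a = N.map F2 (SS.SingMap (inc (Prod.fst ⁻¹' V))) (N.map F2 (SS.SingMap (jR V Z)) (crE z₂ a)) +
      N.bd F2 _ (crE e a) + N.map F2 (SS.SingMap (inc (Prod.fst ⁻¹' W)))
        (N.map F2 (SS.SingMap (jR W Z)) (crE w a)) := by
  have h1 : ∀ (A : Set Y) (y : N F2 (SS.Sing A)), N.map F2 (SS.SingMap (inc (Prod.fst ⁻¹' A)))
      (N.map F2 (SS.SingMap (jR A Z)) (crE y a)) = crE (N.map F2 (SS.SingMap (inc A)) y) a := by
    intro A y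
    rw [← N_map_comp]
    have e1 : (SS.SingMap (inc (Prod.fst ⁻¹' A))).comp (SS.SingMap (jR A Z)) =
        SS.SingMap ((inc A).prodMap (ContinuousMap.id Z)) := rfl
    rw [e1, crE_map]
    have e2 : SS.SingMap (ContinuousMap.id Z) = SS.Hom.id _ := rfl
    rw [e2]
    congr 1
    have h3 : N.map F2 (SS.Hom.id (SS.Sing Z)) = LinearMap.id :=
      Gr334.N_ext (fun n x => by rw [N.map_sx]; rfl)
    rw [h3]; rfl
  have h2 : N.bd F2 _ (crE e a) = crE (N.bd F2 _ e) a := by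
    have := bd_crE e a
    rw [ha, map_zero, add_zero] at this
    exact this
  rw [h1, h1, h2, hd, map_add, map_add, LinearMap.add_apply, LinearMap.add_apply]

/-- decomposition of `a × z` -/
theorem dec_left {z : N F2 (SS.Sing Y)} {z₂ : N F2 (SS.Sing V)} {w : N F2 (SS.Sing W)}
    {e : N F2 (SS.Sing Y)} (hd : z = N.map F2 (SS.SingMap (inc V)) z₂ + N.bd F2 _ e +
      N.map F2 (SS.SingMap (inc W)) w) {a : N F2 (SS.Sing Z)} (ha : N.bd F2 _ a = 0) :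
    crE a z = N.map F2 (SS.SingMap (inc (Prod.snd ⁻¹' V))) (N.map F2 (SS.SingMap (jL V Z)) (crE a z₂)) +
      N.bd F2 _ (crE a e) + N.map F2 (SS.SingMap (inc (Prod.snd ⁻¹' W)))
        (N.map F2 (SS.SingMap (jL W Z)) (crE a w)) := by
  have h1 : ∀ (A : Set Y) (y : N F2 (SS.Sing A)), N.map F2 (SS.SingMap (inc (Prod.snd ⁻¹' A)))
      (N.map F2 (SS.SingMap (jL A Z)) (crE a y)) = crE a (N.map F2 (SS.SingMap (inc A)) y) := by
    intro A y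
    rw [← N_map_comp]
    have e1 : (SS.SingMap (inc (Prod.snd ⁻¹' A))).comp (SS.SingMap (jL A Z)) =
        SS.SingMap ((ContinuousMap.id Z).prodMap (inc A)) := rfl
    rw [e1, crE_map]
    have e2 : SS.SingMap (ContinuousMap.id Z) = SS.Hom.id _ := rfl
    rw [e2]
    have h3 : N.map F2 (SS.Hom.id (SS.Sing Z)) = LinearMap.id :=
      Gr334.N_ext (fun n x => by rw [N.map_sx]; rfl)
    rw [h3]; rfl
  have h2 : N.bd F2 _ (crE a e) = crE a (N.bd F2 _ e) := by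
    have := bd_crE a e
    rw [ha, map_zero, LinearMap.zero_apply, zero_add] at this
    exact this
  rw [h1, h1, h2, hd, map_add, map_add]

theorem bd_crE_cyc {z : N F2 (SS.Sing Y)} (hz : N.bd F2 _ z = 0) {a : N F2 (SS.Sing Z)}
    (ha : N.bd F2 _ a = 0) : N.bd F2 _ (crE z a) = 0 := by
  have := bd_crE z a
  rw [show bdE Y z = 0 from hz, show bdE Z a = 0 from ha, map_zero, map_zero,
    LinearMap.zero_apply, add_zero] at this
  exact this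

theorem cx_mk' {z : N F2 (SS.Sing Y)} (hz : N.bd F2 _ z = 0) {a : N F2 (SS.Sing Z)}
    (ha : N.bd F2 _ a = 0) :
    cx (Hd.mk _ z hz) (Hd.mk _ a ha) = Hd.mk _ (crE z a) (bd_crE_cyc hz ha) :=
  cx_mk z hz a ha _

/-- **`lcap (y × a) = lcap y × a`** -/
theorem lcapA_cx_right (hc : ∀ y, W ∈ 𝓝 y ∨ V ∈ 𝓝 y) {u : Co (SS.Sing V)} (h : LCo W V u)
    (y : HS Y) (a : HS Z) :
    lcapA (nhds_fst hc) h.fst (cx y a) = Hm (jR V Z) (cx (lcapA hc h y) a) := by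
  obtain ⟨z, hz, rfl⟩ := Hd.mk_surj _ y
  obtain ⟨a, ha, rfl⟩ := Hd.mk_surj _ a
  obtain ⟨z₂, w, e, hd⟩ := exists_dec hc z hz
  obtain ⟨h0, h1⟩ := lcapA_mk hc h z hz z₂ w e hd
  rw [h1, cx_mk' hz ha]
  obtain ⟨h2, h3⟩ := lcapA_mk (nhds_fst hc) (h.fst (Z := Z)) (crE z a) (bd_crE_cyc hz ha) _ _ _
    (dec_right hd ha)
  refine Eq.trans h3 ?_
  rw [cx_mk' h0 ha, Hm_mk _ _ (bd_map_cyc _ (bd_crE_cyc h0 ha))]
  refine mk_congr' ?_ _ _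
  rw [← map_cap, pull_pull]
  have e1 : (SS.SingMap (fR V Z)).comp (SS.SingMap (jR V Z)) =
      SS.SingMap ⟨Prod.fst, continuous_fst⟩ := rfl
  rw [e1, cap_crE_fst]

/-- **`lcap (a × y) = a × lcap y`** -/
theorem lcapA_cx_left (hc : ∀ y, W ∈ 𝓝 y ∨ V ∈ 𝓝 y) {u : Co (SS.Sing V)} (h : LCo W V u)
    (a : HS Z) (y : HS Y) :
    lcapA (nhds_snd hc) h.snd (cx a y) = Hm (jL V Z) (cx a (lcapA hc h y)) := by
  obtain ⟨z, hz, rfl⟩ := Hd.mk_surj _ y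
  obtain ⟨a, ha, rfl⟩ := Hd.mk_surj _ a
  obtain ⟨z₂, w, e, hd⟩ := exists_dec hc z hz
  obtain ⟨h0, h1⟩ := lcapA_mk hc h z hz z₂ w e hd
  rw [h1, cx_mk' ha hz]
  obtain ⟨h2, h3⟩ := lcapA_mk (nhds_snd hc) (h.snd (Z := Z)) (crE a z) (bd_crE_cyc ha hz) _ _ _
    (dec_left hd ha)
  refine Eq.trans h3 ?_
  rw [cx_mk' ha h0, Hm_mk _ _ (bd_map_cyc _ (bd_crE_cyc ha h0))]
  refine mk_congr' ?_ _ _
  rw [← map_cap, pull_pull]
  have e1 : (SS.SingMap (fL V Z)).comp (SS.SingMap (jL V Z)) =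
      SS.SingMap ⟨Prod.snd, continuous_snd⟩ := rfl
  rw [e1, cap_crE_snd]

/-- **`B = 0`** : `pr₂_* lcap c (a × y) = 0` if `deg c < deg a` -/
theorem snd_lcapA_cx (hc : ∀ y, W ∈ 𝓝 y ∨ V ∈ 𝓝 y)
    {c : Co (SS.Sing (Prod.snd ⁻¹' V : Set (Z × Y)))}
    (h : LCo (Prod.snd ⁻¹' W) (Prod.snd ⁻¹' V) c) {p q : ℕ} (hpq : q < p) (hd : Deg q c)
    {a : HS Z} (ha : a ∈ hg Z p) (y : HS Y) :
    Hm (fL V Z) (lcapA (nhds_snd hc) h (cx a y)) = 0 := by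
  obtain ⟨z, hz, rfl⟩ := Hd.mk_surj _ y
  obtain ⟨a, hag, ha', rfl⟩ := HA498.mem_grHd.1 ha
  obtain ⟨z₂, w, e, hdd⟩ := exists_dec hc z hz
  rw [cx_mk' ha' hz]
  obtain ⟨h2, h3⟩ := lcapA_mk (nhds_snd hc) h (crE a z) (bd_crE_cyc ha' hz) _ _ _
    (dec_left hdd ha')
  refine (congrArg (Hm (fL V Z)) h3).trans ?_
  rw [Hm_mk _ _ (bd_map_cyc _ h2)]
  refine Hd.mk_eq_zero.2 ⟨0, ?_⟩
  rw [map_zero]
  symm
  rw [← map_cap, ← N_map_comp]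
  have e1 : (SS.SingMap (fL V Z)).comp (SS.SingMap (jL V Z)) =
      SS.SingMap ⟨Prod.snd, continuous_snd⟩ := rfl
  rw [e1]
  exact snd_cap_crE_eq_zero hpq (hd.pull _) hag z₂

/-! ### global cocycles -/

/-- a cocycle on `Y` which vanishes on `W` -/
structure GCo (W : Set Y) (u : Co (SS.Sing Y)) : Prop where
  cyc : cobd u = 0
  van : pull (SS.SingMap (inc W)) u = 0

theorem GCo.lco {u : Co (SS.Sing Y)} (h : GCo W u) : LCo W V (pull (SS.SingMap (inc V)) u) where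
  cyc := by rw [← pull_cobd, h.cyc]; rfl
  van := by
    have e : (SS.SingMap (inc V)).comp (SS.SingMap (inc₂ (Set.inter_subset_right : W ∩ V ⊆ V))) =
        (SS.SingMap (inc W)).comp (SS.SingMap (inc₂ (Set.inter_subset_left : W ∩ V ⊆ W))) := rfl
    rw [pull_pull, e, ← pull_pull, h.van]
    rfl

theorem GCo.pull {u : Co (SS.Sing Z)} (h : GCo W' u) (f : C(Y, Z)) (hf : Set.MapsTo f W W') :
    GCo W (pull (SS.SingMap f) u) where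
  cyc := by rw [← pull_cobd, h.cyc]; rfl
  van := by
    have e : (SS.SingMap f).comp (SS.SingMap (inc W)) =
        (SS.SingMap (inc W')).comp (SS.SingMap (cr f hf)) := rfl
    rw [pull_pull, e, ← pull_pull, h.van]
    rfl

end Crest.Agent.R231.LCapx226
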