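import Crest.Agent.R231.PrimeGeo_893
import Crest.Agent.R226.HopfRinow_114

/-!
# R231, leaf G2, part 2 (helper893): local geodesics of a compact Riemannian manifold

With a `GeoCore n M` (R226) the curves `IsLG r₀ c` are exactly `t ↦ ex x (t v)`, `‖v‖ = 1`;
consequently `NonBr M r₀`.
-/

set_option autoImplicit false
set_option linter.unusedSectionVars false

open Set Filter Topology Bundle
open scoped Manifold ContDiff Bundle
open Crest.GeometryTopology.MTW Crest.Agent.R226

namespace Crest.Agent.R231.LGCorex893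

open Crest.Agent.R231.PrimeGeox893

variable {n : ℕ} {M : Type*} [MetricSpace M] [ChartedSpace (EuclideanSpace ℝ (Fin n)) M]
  [IsManifold (𝓡 n) ∞ M] [RiemannianBundle (fun p : M => TangentSpace (𝓡 n) p)]

variable (P : GeoCore n M)

/-- unit speed rays are local geodesics -/
theorem isLG_ray (x : M) (v : TangentSpace (𝓡 n) x) (hv : ‖v‖ = 1) :
    IsLG P.r₀ (fun t : ℝ => P.ex x (t • v)) := by
  intro s t hst
  have := P.dist_eq x v s t (by rw [hv, mul_one]; exact hst)
  rw [this, hv, mul_one]

/-- a local geodesic is a unit speed ray on `[a, a + r₀)` -/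
theorem exists_vel_local {c : ℝ → M} (h : IsLG P.r₀ c) (a : ℝ) {x : M} (hx : c a = x) :
    ∃ v : TangentSpace (𝓡 n) x, ‖v‖ = 1 ∧ ∀ t, 0 ≤ t → t < P.r₀ → c (a + t) = P.ex x (t • v) := by
  subst hx
  have hr := P.r₀_pos
  -- for every `T ∈ (0, r₀)` a unit vector
  have hT : ∀ T, 0 < T → T < P.r₀ → ∃ v : TangentSpace (𝓡 n) (c a), ‖v‖ = 1 ∧
      ∀ t, 0 < t → t ≤ T → c (a + t) = P.ex (c a) (t • v) := by
    intro T hT0 hT1
    have hd : dist (c a) (c (a + T)) = T := by
      have := h a (a + T) (by
        rw [show a - (a + T) = -T by ring, abs_neg, abs_of_pos hT0]; exact hT1)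
      rw [this, show a - (a + T) = -T by ring, abs_neg, abs_of_pos hT0]
    obtain ⟨w, hwn, hw⟩ := P.surj_near (c a) (c (a + T)) (by rw [hd]; exact hT1)
    rw [hd] at hwn
    refine ⟨T⁻¹ • w, ?_, fun t ht0 htT => ?_⟩
    · rw [norm_smul, Real.norm_of_nonneg (inv_nonneg.2 hT0.le), hwn]
      field_simp
    · rcases htT.eq_or_lt with e | hlt
      · subst e
        rw [smul_smul, mul_inv_cancel₀ ht0.ne', one_smul, hw]
      · have h1 : dist (c a) (c (a + t)) = t / T * dist (c a) (c (a + T)) := by
          have := h a (a + t) (by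
            rw [show a - (a + t) = -t by ring, abs_neg, abs_of_pos ht0]; linarith)
          rw [this, show a - (a + t) = -t by ring, abs_neg, abs_of_pos ht0, hd]
          field_simp
        have h2 : dist (c (a + t)) (c (a + T)) = (1 - t / T) * dist (c a) (c (a + T)) := by
          have := h (a + t) (a + T) (by
            rw [show a + t - (a + T) = -(T - t) by ring, abs_neg, abs_of_pos (by linarith)]
            linarith)
          rw [this, show a + t - (a + T) = -(T - t) by ring, abs_neg, abs_of_pos (by linarith), hd]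
          field_simp
        have := HopfRinow114.geoCore_mid_unique P (c a) (c (a + T)) (c (a + t)) (t / T) (div_pos ht0 hT0)
          ((div_lt_one hT0).2 hlt) (by rw [hd]; exact hT1) h1 h2 w hw (by rw [hwn]; exact hT1)
        rw [this, smul_smul, div_eq_mul_inv]
  obtain ⟨v, hv1, hv⟩ := hT (P.r₀ / 2) (by linarith) (by linarith)
  refine ⟨v, hv1, fun t ht0 ht1 => ?_⟩
  rcases ht0.eq_or_lt with e | hpos
  · rw [← e]
    simp [P.ex_zero]
  rcases le_or_gt t (P.r₀ / 2) with hle | hgt
  · exact hv t hpos hle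
  · obtain ⟨v', hv1', hv'⟩ := hT t hpos ht1
    have e1 := hv (P.r₀ / 2) (by linarith) le_rfl
    have e2 := hv' (P.r₀ / 2) (by linarith) hgt.le
    have hn : ∀ u : TangentSpace (𝓡 n) (c a), ‖u‖ = 1 → ‖(P.r₀ / 2) • u‖ < P.r₀ := by
      intro u hu
      rw [norm_smul, Real.norm_of_nonneg (by linarith), hu]
      linarith
    have e3 := P.inj (c a) _ _ (hn v hv1) (hn v' hv1') (e1.symm.trans e2)
    have e4 : v = v' := by
      have hne : P.r₀ / 2 ≠ 0 := by linarith
      exact smul_right_injective _ hne e3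
    rw [e4]
    exact hv' t hpos le_rfl

/-- two unit vectors with the same short ray are equal -/
theorem vel_unique {x : M} {v v' : TangentSpace (𝓡 n) x} (hv : ‖v‖ = 1) (hv' : ‖v'‖ = 1) {t : ℝ}
    (ht0 : 0 < t) (ht : t < P.r₀) (h : P.ex x (t • v) = P.ex x (t • v')) : v = v' := by
  have hn : ∀ u : TangentSpace (𝓡 n) x, ‖u‖ = 1 → ‖t • u‖ < P.r₀ := by
    intro u hu
    rw [norm_smul, Real.norm_of_nonneg ht0.le, hu, mul_one]
    exact ht
  exact smul_right_injective _ ht0.ne' (P.inj x _ _ (hn v hv) (hn v' hv') h)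

/-- a local geodesic is a ray in positive time -/
theorem exists_vel_pos {c : ℝ → M} (h : IsLG P.r₀ c) (a : ℝ) {x : M} (hx : c a = x) :
    ∃ v : TangentSpace (𝓡 n) x, ‖v‖ = 1 ∧ ∀ t, 0 ≤ t → c (a + t) = P.ex x (t • v) := by
  have hr := P.r₀_pos
  obtain ⟨v, hv1, hv⟩ := exists_vel_local P h a hx
  refine ⟨v, hv1, ?_⟩
  -- induction on the number of steps of size `r₀ / 2`
  have key : ∀ k : ℕ, ∀ t, 0 ≤ t → t < (k + 1) * (P.r₀ / 2) → c (a + t) = P.ex x (t • v) := by
    intro k
    induction k with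
    | zero =>
      intro t ht0 ht1
      exact hv t ht0 (by norm_num at ht1; linarith)
    | succ k ih =>
      intro t ht0 ht1
      rcases lt_or_ge t ((k + 1) * (P.r₀ / 2)) with hlt | hge
      · exact ih t ht0 hlt
      · -- base point
        set b : ℝ := (k + 1) * (P.r₀ / 2) - P.r₀ / 4 with hb
        have hb0 : 0 ≤ b := by
          rw [hb]
          have : (0 : ℝ) ≤ k := Nat.cast_nonneg k
          nlinarith
        have hbl : b < (k + 1) * (P.r₀ / 2) := by rw [hb]; linarith
        have hcb : c (a + b) = P.ex x (b • v) := ih b hb0 hbl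
        obtain ⟨w, hw1, hw⟩ := exists_vel_local P h (a + b) hcb
        set u := curveVel n (fun s : ℝ => P.ex x (s • v)) b with hu
        have hun : ‖u‖ = 1 := by rw [hu, P.norm_vel x v b, hv1]
        have hwu : w = u := by
          apply vel_unique P hw1 hun (t := P.r₀ / 8) (by linarith) (by linarith)
          rw [← hw (P.r₀ / 8) (by linarith) (by linarith)]
          have e1 : a + b + P.r₀ / 8 = a + (b + P.r₀ / 8) := by ring
          rw [e1, ih (b + P.r₀ / 8) (by linarith) (by rw [hb]; linarith)]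
          exact (P.flow x v b (P.r₀ / 8)).symm
        have hts : t - b < P.r₀ := by
          rw [hb]
          push_cast at ht1
          linarith
        have h0 : 0 ≤ t - b := by linarith
        have e2 : a + t = a + b + (t - b) := by ring
        rw [e2, hw (t - b) h0 hts, hwu]
        have := P.flow x v b (t - b)
        rw [← hu] at this
        rw [this]
        congr 2
        ring
  intro t ht
  obtain ⟨k, hk⟩ := exists_nat_gt (t / (P.r₀ / 2))
  refine key k t ht ?_
  rw [div_lt_iff₀ (by linarith)] at hk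
  nlinarith

/-- a local geodesic is a unit speed ray -/
theorem exists_vel {c : ℝ → M} (h : IsLG P.r₀ c) (a : ℝ) {x : M} (hx : c a = x) :
    ∃ v : TangentSpace (𝓡 n) x, ‖v‖ = 1 ∧ ∀ t, c (a + t) = P.ex x (t • v) := by
  have hr := P.r₀_pos
  obtain ⟨v, hv1, hv⟩ := exists_vel_pos P h a hx
  refine ⟨v, hv1, fun t => ?_⟩
  rcases le_or_gt 0 t with ht | ht
  · exact hv t ht
  · obtain ⟨w, hw1, hw⟩ := exists_vel_pos P h (a + t) rfl
    have hx' : x = P.ex (c (a + t)) ((-t) • w) := by
      rw [← hx, ← hw (-t) (by linarith)]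
      congr 1
      ring
    subst hx'
    set u := curveVel n (fun s : ℝ => P.ex (c (a + t)) (s • w)) (-t) with hu
    have hun : ‖u‖ = 1 := by rw [hu, P.norm_vel, hw1]
    have hvu : v = u := by
      apply vel_unique P hv1 hun (t := P.r₀ / 2) (by linarith) (by linarith)
      rw [← hv (P.r₀ / 2) (by linarith)]
      have e1 : a + P.r₀ / 2 = a + t + (-t + P.r₀ / 2) := by ring
      rw [e1, hw (-t + P.r₀ / 2) (by linarith)]
      exact (P.flow (c (a + t)) w (-t) (P.r₀ / 2)).symm
    rw [hvu]
    have := P.flow (c (a + t)) w (-t) t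
    rw [← hu] at this
    rw [this]
    have := hw 0 le_rfl
    rw [add_zero] at this
    rw [show -t + t = 0 by ring, ← this]

/-- **non-branching** -/
theorem nonBr : NonBr M P.r₀ := by
  intro c c' h h' a b hab hag
  have hr := P.r₀_pos
  set m := (a + b) / 2 with hm
  have hmI : m ∈ Ioo a b := ⟨by rw [hm]; linarith, by rw [hm]; linarith⟩
  obtain ⟨v, hv1, hv⟩ := exists_vel P h m rfl
  obtain ⟨v', hv1', hv'⟩ := exists_vel P h' m (hag m hmI).symm
  set η := min (P.r₀ / 2) ((b - a) / 4) with hη
  have hη0 : 0 < η := lt_min (by linarith) (by linarith)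
  have hη1 : η < P.r₀ := (min_le_left _ _).trans_lt (by linarith)
  have hη2 : m + η ∈ Ioo a b := by
    have := min_le_right (P.r₀ / 2) ((b - a) / 4)
    exact ⟨by linarith [hmI.1], by rw [hm]; linarith⟩
  have hvv : v = v' := by
    apply vel_unique P hv1 hv1' hη0 hη1
    rw [← hv η, ← hv' η]
    exact hag _ hη2
  funext t
  have e1 := hv (t - m)
  have e2 := hv' (t - m)
  rw [show m + (t - m) = t by ring] at e1 e2
  rw [e1, e2, hvv]

/-- a loop geodesic is a closed ray -/
theorem exists_vel_loop {γ : ℝ → M} {L : ℝ} (hL : 0 < L) (h : IsLoopG P.r₀ L γ) (a : ℝ) {x : M}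
    (hx : γ a = x) : ∃ v : TangentSpace (𝓡 n) x, ‖v‖ = L ∧ ∀ t, γ (a + t) = P.ex x (t • v) := by
  obtain ⟨v, hv1, hv⟩ := exists_vel P (h.unit hL).1 (L * a) (x := x) (by
    show γ (L * a / L) = x
    rw [mul_div_cancel_left₀ _ hL.ne', hx])
  refine ⟨L • v, ?_, fun t => ?_⟩
  · rw [norm_smul, Real.norm_of_nonneg hL.le, hv1, mul_one]
  · have := hv (L * t)
    change γ ((L * a + L * t) / L) = _ at this
    rw [← mul_add, mul_div_cancel_left₀ _ hL.ne'] at this
    rw [this, smul_smul, mul_comm]

/-- closed rays are loop geodesics -/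
theorem isLoopG_ray {x : M} {v : TangentSpace (𝓡 n) x}
    (hper : Function.Periodic (fun t : ℝ => P.ex x (t • v)) 1) :
    IsLoopG P.r₀ ‖v‖ (fun t : ℝ => P.ex x (t • v)) := by
  refine ⟨hper, fun s t hst => ?_⟩
  rw [P.dist_eq x v s t (by rw [mul_comm]; exact hst), mul_comm]

end Crest.Agent.R231.LGCorex893
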