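import Crest.Agent.R231.Moore_725
import Crest.Agent.R231.GLoop_576

/-!
# Row 231 (S0357), block P, leaf Q8, part 1: free Moore loops and Lipschitz loops (helper733)

* `La M t` : 1-Lipschitz curves `ℝ → M` which are constant outside `[0, t]`, with equal ends;
* `mkL c g` : the loop `u ↦ g (u c)` of `Lp M`; `continuous_mkL`;
* `laX t : La M t ≃ₜ X M t` (`0 ≤ t`);
* `incL : C(La M s, La M t)`, `incX : C(X M s, X M t)`, `incL_laX_homotopic`.
-/

set_option autoImplicit false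
set_option linter.unusedSectionVars false

open Set Filter Topology

noncomputable section

namespace Crest.Agent.R231.LaDefx733

open Moorex725 GLugx576

/-- free 1-Lipschitz Moore loops of length at most `t` -/
def La (M : Type*) [PseudoMetricSpace M] (t : ℝ) : Set (ℝ → M) :=
  {g | g ∈ LL M ∧ (∀ s, s ≤ 0 → g s = g 0) ∧ ∀ s, t ≤ s → g s = g 0}

section la

variable {M : Type*} [PseudoMetricSpace M]

theorem mem_La {t : ℝ} {g : ℝ → M} :
    g ∈ La M t ↔ g ∈ LL M ∧ (∀ s, s ≤ 0 → g s = g 0) ∧ ∀ s, t ≤ s → g s = g 0 := Iff.rfl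

theorem La_mono {s t : ℝ} (h : s ≤ t) : La M s ⊆ La M t :=
  fun _ hg => ⟨hg.1, hg.2.1, fun r hr => hg.2.2 r (h.trans hr)⟩

theorem MP_subset_La (p : M) (t : ℝ) : MP p p t ⊆ La M t := fun g hg => by
  have h0 : g 0 = p := hg.2.1 0 le_rfl
  exact ⟨hg.1, fun s hs => by rw [h0]; exact hg.2.1 s hs,
    fun s hs => by rw [h0]; exact hg.2.2 s hs⟩

theorem Om_subset_La (p : M) (t : ℝ) : Om p t ⊆ La M t := MP_subset_La p t

theorem mem_Om_iff {p : M} {t : ℝ} {g : ℝ → M} : g ∈ Om p t ↔ g ∈ La M t ∧ g 0 = p := by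
  constructor
  · intro h
    exact ⟨Om_subset_La p t h, h.2.1 0 le_rfl⟩
  · rintro ⟨h, h0⟩
    exact ⟨h.1, fun s hs => by rw [h.2.1 s hs, h0], fun s hs => by rw [h.2.2 s hs, h0]⟩

theorem const_mem_La (p : M) (t : ℝ) : (fun _ => p) ∈ La M t :=
  Om_subset_La p t (const_mem_Om p t)

/-- the inclusion `La s → La t` -/
def incL {s t : ℝ} (h : s ≤ t) : C(La M s, La M t) where
  toFun g := ⟨g.1, La_mono h g.2⟩
  continuous_toFun := continuous_subtype_val.subtype_mk _

@[simp] theorem incL_val {s t : ℝ} (h : s ≤ t) (g : La M s) : (incL h g).1 = g.1 := rfl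

theorem incL_incL {a b c : ℝ} (h : a ≤ b) (h' : b ≤ c) :
    (incL (M := M) h').comp (incL h) = incL (h.trans h') := rfl

theorem incL_id {a : ℝ} (h : a ≤ a) : incL (M := M) h = ContinuousMap.id _ := rfl

/-- evaluation at the base point -/
def evL (M : Type*) [PseudoMetricSpace M] (t : ℝ) : C(La M t, M) :=
  ⟨fun g => g.1 0, (continuous_apply 0).comp continuous_subtype_val⟩

@[simp] theorem evL_apply {t : ℝ} (g : La M t) : evL M t g = g.1 0 := rfl

/-- constant loops -/
def cstL (M : Type*) [PseudoMetricSpace M] (t : ℝ) : C(M, La M t) :=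
  ⟨fun p => ⟨fun _ => p, const_mem_La p t⟩,
    (continuous_pi fun _ => continuous_id).subtype_mk _⟩

@[simp] theorem cstL_apply {t : ℝ} (p : M) : (cstL M t p).1 = fun _ => p := rfl

theorem evL_cstL (t : ℝ) : (evL M t).comp (cstL M t) = ContinuousMap.id M := rfl

theorem incL_cstL {s t : ℝ} (h : s ≤ t) : (incL h).comp (cstL M s) = cstL M t := rfl

theorem evL_incL {s t : ℝ} (h : s ≤ t) : (evL M t).comp (incL h) = evL M s := rfl

end la

/-! ### from curves to loops -/

section loops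

variable {M : Type*} [MetricSpace M]

theorem LL_continuous {g : ℝ → M} (h : g ∈ LL M) : Continuous g := by
  have hL : LipschitzWith 1 g := LipschitzWith.of_dist_le_mul fun x y => by
    have := h x y
    rw [Real.dist_eq, NNReal.coe_one, one_mul]
    exact this
  exact hL.continuous

/-- the loop `u ↦ g (u c)`, `0 ≤ u ≤ 1`, for a curve `g` with `g c = g 0` -/
def mkL (c : ℝ) (g : ℝ → M) (hg : g ∈ LL M) (h : g c = g 0) : Lp M :=
  ⟨AddCircle.liftIco 1 0 fun u => g (u * c), by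
    refine AddCircle.liftIco_continuous ?_
      ((LL_continuous hg).comp (continuous_id.mul continuous_const)).continuousOn
    simp [h]⟩

theorem mkL_coe {c : ℝ} {g : ℝ → M} (hg : g ∈ LL M) (h : g c = g 0) {u : ℝ} (h0 : 0 ≤ u)
    (h1 : u ≤ 1) : mkL c g hg h (u : UnitAddCircle) = g (u * c) := by
  have key : ∀ r : ℝ, 0 ≤ r → r < 1 → mkL c g hg h (r : UnitAddCircle) = g (r * c) := fun r a b =>
    AddCircle.liftIco_coe_apply (p := (1 : ℝ)) (a := (0 : ℝ)) (f := fun u => g (u * c))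
      ⟨a, by simpa using b⟩
  rcases h1.eq_or_lt with rfl | h1
  · have h2 := key 0 le_rfl zero_lt_one
    rw [coe_one_circle, one_mul, h]
    rw [zero_mul] at h2
    exact h2
  · exact key u h0 h1

theorem mkL_zero {c : ℝ} {g : ℝ → M} (hg : g ∈ LL M) (h : g c = g 0) :
    mkL c g hg h 0 = g 0 := by
  have := mkL_coe hg h (u := 0) le_rfl zero_le_one
  rw [zero_mul] at this
  exact this

theorem mkL_mem {c t : ℝ} {g : ℝ → M} (hg : g ∈ LL M) (h : g c = g 0) (hc : 0 ≤ c)
    (hct : c ≤ t) : mkL c g hg h ∈ X M t := by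
  refine mem_X_of_Icc fun x y hx hxy hy => ?_
  rw [mkL_coe hg h hx (hxy.trans hy), mkL_coe hg h (hx.trans hxy) hy]
  refine (hg _ _).trans ?_
  have e : x * c - y * c = -((y - x) * c) := by ring
  rw [e, abs_neg, abs_of_nonneg (mul_nonneg (by linarith) hc), mul_comm]
  exact mul_le_mul_of_nonneg_right hct (by linarith)

/-- continuity of a family of loops -/
theorem continuous_mkL {Z : Type*} [TopologicalSpace Z] {g : Z → ℝ → M} {c : Z → ℝ}
    (hg : Continuous g) (hL : ∀ z, g z ∈ LL M) (hc : Continuous c)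
    (h : ∀ z, g z (c z) = g z 0) : Continuous fun z => mkL (c z) (g z) (hL z) (h z) := by
  refine cont_to_loop ?_
  have e : (fun q : Z × Icc (0 : ℝ) 1 =>
      mkL (c q.1) (g q.1) (hL q.1) (h q.1) ((q.2 : ℝ) : UnitAddCircle)) =
      fun q => g q.1 ((q.2 : ℝ) * c q.1) := by
    funext q
    exact mkL_coe _ _ q.2.2.1 q.2.2.2
  rw [e]
  exact continuous_eval (g := fun q : Z × Icc (0 : ℝ) 1 => g q.1)
    (hg.comp continuous_fst) (fun q => hL q.1)
    ((continuous_subtype_val.comp continuous_snd).mul (hc.comp continuous_fst))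

/-! ### from loops to curves -/

/-- projection of `ℝ` to `[0, 1]` -/
def cl (x : ℝ) : ℝ := max (min x 1) 0

theorem cl_nonneg (x : ℝ) : 0 ≤ cl x := le_max_right _ _
theorem cl_le_one (x : ℝ) : cl x ≤ 1 := max_le (min_le_right _ _) zero_le_one
theorem cl_of_mem {x : ℝ} (h0 : 0 ≤ x) (h1 : x ≤ 1) : cl x = x := by
  rw [cl, min_eq_left h1, max_eq_left h0]
theorem cl_of_le {x : ℝ} (h : x ≤ 0) : cl x = 0 := by
  rw [cl, min_eq_left (h.trans zero_le_one), max_eq_right h]
theorem cl_of_ge {x : ℝ} (h : 1 ≤ x) : cl x = 1 := by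
  rw [cl, min_eq_right h, max_eq_left zero_le_one]
theorem cl_lip (x y : ℝ) : |cl x - cl y| ≤ |x - y| :=
  (abs_max_sub_max_le_abs _ _ _).trans
    (by simpa using abs_min_sub_min_le_max x 1 y 1)
theorem continuous_cl : Continuous cl := by
  unfold cl; fun_prop

/-- the curve `s ↦ γ (cl (s / t))` -/
def ofX (t : ℝ) (γ : Lp M) : ℝ → M := fun s => γ ((cl (s / t) : ℝ) : UnitAddCircle)

theorem ofX_zero (t : ℝ) (γ : Lp M) : ofX t γ 0 = γ 0 := by
  unfold ofX
  rw [zero_div, cl_of_le le_rfl]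
  rfl

theorem ofX_mem {t : ℝ} {γ : Lp M} (h : γ ∈ X M t) : ofX t γ ∈ La M t := by
  have ht := nonneg_of_mem h
  refine ⟨fun x y => ?_, fun s hs => ?_, fun s hs => ?_⟩
  · refine (h _ _).trans ?_
    refine (mul_le_mul_of_nonneg_left (cl_lip _ _) ht).trans ?_
    rw [← sub_div, abs_div, abs_of_nonneg ht]
    rcases ht.eq_or_lt with rfl | ht'
    · simp
    · rw [mul_div_cancel₀ _ ht'.ne']
  · rw [ofX_zero]
    unfold ofX
    rw [cl_of_le (div_nonpos_of_nonpos_of_nonneg hs ht)]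
    rfl
  · rw [ofX_zero]
    unfold ofX
    rcases ht.eq_or_lt with rfl | ht'
    · rw [div_zero, cl_of_le le_rfl]; rfl
    · rw [cl_of_ge ((one_le_div ht').2 hs), coe_one_circle]

theorem continuous_ofX (t : ℝ) : Continuous (ofX (M := M) t) := by
  rw [continuous_pi_iff]
  intro s
  exact continuous_eval_const _

theorem La_clamp {t : ℝ} (ht : 0 ≤ t) {g : ℝ → M} (h : g ∈ La M t) (s : ℝ) :
    g (cl (s / t) * t) = g s := by
  rcases ht.eq_or_lt with rfl | ht'
  · rw [mul_zero]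
    rcases le_total 0 s with hs | hs
    · exact (h.2.2 s hs).symm
    · exact (h.2.1 s hs).symm
  · rcases le_total s 0 with hs | hs
    · rw [cl_of_le (div_nonpos_of_nonpos_of_nonneg hs ht), zero_mul, h.2.1 s hs]
    · rcases le_total t s with hs' | hs'
      · rw [cl_of_ge ((one_le_div ht').2 hs'), one_mul, h.2.2 s hs', h.2.2 t le_rfl]
      · rw [cl_of_mem (div_nonneg hs ht) ((div_le_one ht').2 hs'), div_mul_cancel₀ _ ht'.ne']

/-- `g ↦ (u ↦ g (u t))` as a map `La M t → Lp M` -/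
def toLp (t : ℝ) (g : La M t) : Lp M := mkL t g.1 g.2.1 (g.2.2.2 t le_rfl)

theorem continuous_toLp (t : ℝ) : Continuous (toLp (M := M) t) :=
  continuous_mkL (c := fun _ => t) continuous_subtype_val (fun g => g.2.1) continuous_const _

theorem toLp_mem {t : ℝ} (ht : 0 ≤ t) (g : La M t) : toLp t g ∈ X M t := mkL_mem _ _ ht le_rfl

theorem toLp_coe {t : ℝ} (g : La M t) {u : ℝ} (h0 : 0 ≤ u) (h1 : u ≤ 1) :
    toLp t g (u : UnitAddCircle) = g.1 (u * t) := mkL_coe _ _ h0 h1

theorem toLp_zero {t : ℝ} (g : La M t) : toLp t g 0 = g.1 0 := mkL_zero _ _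

/-- **free Moore loops of length `≤ t` are the `t`-Lipschitz loops** -/
def laX {t : ℝ} (ht : 0 ≤ t) : La M t ≃ₜ X M t where
  toFun g := ⟨toLp t g, toLp_mem ht g⟩
  invFun γ := ⟨ofX t γ.1, ofX_mem γ.2⟩
  left_inv g := by
    refine Subtype.ext (funext fun s => ?_)
    show toLp t g ((cl (s / t) : ℝ) : UnitAddCircle) = g.1 s
    rw [toLp_coe g (cl_nonneg _) (cl_le_one _), La_clamp ht g.2]
  right_inv γ := by
    refine Subtype.ext (ContinuousMap.ext fun x => ?_)
    obtain ⟨u, hu, rfl⟩ := exists_Icc x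
    show toLp t ⟨ofX t γ.1, ofX_mem γ.2⟩ (u : UnitAddCircle) = _
    rw [toLp_coe _ hu.1 hu.2]
    show γ.1 ((cl (u * t / t) : ℝ) : UnitAddCircle) = γ.1 (u : UnitAddCircle)
    rcases ht.eq_or_lt with rfl | ht'
    · rw [mem_X_zero.1 γ.2, mem_X_zero.1 γ.2 (u : UnitAddCircle)]
    · rw [mul_div_cancel_right₀ _ ht'.ne', cl_of_mem hu.1 hu.2]
  continuous_toFun := (continuous_toLp t).subtype_mk _
  continuous_invFun := ((continuous_ofX t).comp continuous_subtype_val).subtype_mk _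

theorem laX_val {t : ℝ} (ht : 0 ≤ t) (g : La M t) : (laX ht g).1 = toLp t g := rfl

theorem laX_zero {t : ℝ} (ht : 0 ≤ t) (g : La M t) : (laX ht g).1 0 = g.1 0 := toLp_zero g

theorem laX_coe {t : ℝ} (ht : 0 ≤ t) (g : La M t) {u : ℝ} (h0 : 0 ≤ u) (h1 : u ≤ 1) :
    (laX ht g).1 (u : UnitAddCircle) = g.1 (u * t) := toLp_coe g h0 h1

theorem laX_symm_val {t : ℝ} (ht : 0 ≤ t) (γ : X M t) : ((laX ht).symm γ).1 = ofX t γ.1 := rfl

/-- the inclusion `X s → X t` -/
def incX {s t : ℝ} (h : s ≤ t) : C(X M s, X M t) where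
  toFun g := ⟨g.1, X_mono h g.2⟩
  continuous_toFun := continuous_subtype_val.subtype_mk _

@[simp] theorem incX_val {s t : ℝ} (h : s ≤ t) (g : X M s) : (incX h g).1 = g.1 := rfl

theorem incX_incX {a b c : ℝ} (h : a ≤ b) (h' : b ≤ c) :
    (incX (M := M) h').comp (incX h) = incX (h.trans h') := rfl

/-- evaluation at the base point -/
def evX (M : Type*) [MetricSpace M] (t : ℝ) : C(X M t, M) :=
  ⟨fun g => g.1 0, (continuous_eval_const _).comp continuous_subtype_val⟩

@[simp] theorem evX_apply {t : ℝ} (g : X M t) : evX M t g = g.1 0 := rfl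

theorem evX_laX {t : ℝ} (ht : 0 ≤ t) : (evX M t).comp (laX (M := M) ht : C(La M t, X M t)) =
    evL M t := ContinuousMap.ext fun g => laX_zero ht g

/-- **naturality of `laX` up to homotopy** -/
theorem laX_natural {s t : ℝ} (hs : 0 ≤ s) (h : s ≤ t) :
    ((laX (M := M) (hs.trans h) : C(La M t, X M t)).comp (incL h)).Homotopic
      ((incX h).comp (laX (M := M) hs : C(La M s, X M s))) := by
  -- `c r = t - r (t - s)`
  have hc0 : ∀ r : unitInterval, s ≤ t - (r : ℝ) * (t - s) := fun r => by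
    have h1 : (r : ℝ) * (t - s) ≤ 1 * (t - s) :=
      mul_le_mul_of_nonneg_right r.2.2 (by linarith)
    linarith
  have hc1 : ∀ r : unitInterval, t - (r : ℝ) * (t - s) ≤ t := fun r => by
    have h1 : 0 ≤ (r : ℝ) * (t - s) := mul_nonneg r.2.1 (by linarith)
    linarith
  have hg : ∀ z : unitInterval × La M s, z.2.1 ∈ LL M := fun z => z.2.2.1
  have hh : ∀ z : unitInterval × La M s, z.2.1 (t - (z.1 : ℝ) * (t - s)) = z.2.1 0 := fun z =>
    z.2.2.2.2 _ (hc0 z.1)
  have hcont : Continuous fun z : unitInterval × La M s =>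
      mkL (t - (z.1 : ℝ) * (t - s)) z.2.1 (hg z) (hh z) :=
    continuous_mkL (g := fun z : unitInterval × La M s => z.2.1)
      (c := fun z => t - (z.1 : ℝ) * (t - s))
      (continuous_subtype_val.comp continuous_snd) hg (by fun_prop) hh
  refine ⟨⟨⟨fun z => ⟨mkL (t - (z.1 : ℝ) * (t - s)) z.2.1 (hg z) (hh z),
    mkL_mem _ _ (hs.trans (hc0 z.1)) (hc1 z.1)⟩, hcont.subtype_mk _⟩, fun g => ?_, fun g => ?_⟩⟩
  · refine Subtype.ext (ContinuousMap.ext fun x => ?_)
    obtain ⟨u, hu, rfl⟩ := exists_Icc x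
    show mkL _ _ (hg (0, g)) (hh (0, g)) (u : UnitAddCircle) =
      toLp t (incL h g) (u : UnitAddCircle)
    rw [toLp_coe _ hu.1 hu.2, mkL_coe _ _ hu.1 hu.2]
    simp
  · refine Subtype.ext (ContinuousMap.ext fun x => ?_)
    obtain ⟨u, hu, rfl⟩ := exists_Icc x
    show mkL _ _ (hg (1, g)) (hh (1, g)) (u : UnitAddCircle) = toLp s g (u : UnitAddCircle)
    rw [toLp_coe _ hu.1 hu.2, mkL_coe _ _ hu.1 hu.2]
    simp

end loops

end Crest.Agent.R231.LaDefx733
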