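import Crest.Agent.R231.FinDim_315

/-!
# Row 231 (S0357), block P, Q6: natural Mayer-Vietoris sequence of spaces (helper637)

`HS Y = H F2 (SS.Sing Y)`, all degrees together.  For `U V : Set Y` with `Cov U V`
(`∀ y, U ∈ 𝓝 y ∨ V ∈ 𝓝 y`):

* `dMV h : HS Y →ₗ[F2] HS (U ∩ V : Set Y)` : the Mayer-Vietoris boundary;
* `jU u + jV v = z` iff `dMV h z = 0` (`dMV_eq_zero_iff`);
* `iU w = 0 ∧ iV w = 0` iff `w` is a boundary (`exists_dMV`, `iU_dMV`, `iV_dMV`);
* `jU u = jV v` iff `(u, v)` comes from `U ∩ V` (`exists_inter`, `jU_iU`);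
* degrees: `dMV_gr`, `dMV_gr_zero`; chain level characterisation `dMV_mk`, representatives `exists_rep`;
* naturality `dMV_nat` for `f : C(Y, Y')`, `f U ⊆ U'`, `f V ⊆ V'`;
* uniqueness `dMV_unique` of `w` with a chain level description is `dMV_mk`;
* `dMV_swap` : exchanging `U` and `V` gives the same boundary.
-/

set_option autoImplicit false

noncomputable section

open Function Topology

namespace Crest.Agent.R231.MVnx637

open Crest.Agent.R204 Crest.Agent.R204.SpecA Crest.Agent.R204.HA683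
open Crest.Agent.R231.FinDim315 Crest.Agent.R204.Exc406

variable {Y Y' Y'' : Type} [TopologicalSpace Y] [TopologicalSpace Y'] [TopologicalSpace Y'']

/-- the interiors of `U` and `V` cover `Y` -/
def Cov (U V : Set Y) : Prop := ∀ y, U ∈ 𝓝 y ∨ V ∈ 𝓝 y

theorem Cov.of_isOpen {U V : Set Y} (hU : IsOpen U) (hV : IsOpen V) (h : ∀ y, y ∈ U ∨ y ∈ V) :
    Cov U V := fun y => (h y).imp hU.mem_nhds hV.mem_nhds

theorem Cov.symm {U V : Set Y} (h : Cov U V) : Cov V U := fun y => (h y).symm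

theorem Cov.preimage {U V : Set Y'} (h : Cov U V) (f : C(Y, Y')) : Cov (f ⁻¹' U) (f ⁻¹' V) :=
  fun y => (h (f y)).imp (fun h => f.continuous.continuousAt h) fun h => f.continuous.continuousAt h

/-- restriction of a continuous map to subsets -/
def rmap (f : C(Y, Y')) {A : Set Y} {A' : Set Y'} (h : Set.MapsTo f A A') : C(A, A') :=
  ⟨h.restrict f A A', (f.continuous.comp continuous_subtype_val).subtype_mk _⟩

@[simp] theorem rmap_apply (f : C(Y, Y')) {A : Set Y} {A' : Set Y'} (h : Set.MapsTo f A A')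
    (y : A) : (rmap f h y : Y') = f y := rfl

omit [TopologicalSpace Y] [TopologicalSpace Y'] in
theorem mapsTo_inter {f : Y → Y'} {U V : Set Y} {U' V' : Set Y'} (hU : Set.MapsTo f U U')
    (hV : Set.MapsTo f V V') : Set.MapsTo f (U ∩ V) (U' ∩ V') :=
  fun _ h => ⟨hU h.1, hV h.2⟩

variable {U V : Set Y} {U' V' : Set Y'}

/-- `U ∩ V → U` -/
abbrev cU (U V : Set Y) : C((U ∩ V : Set Y), U) := inc₂ Set.inter_subset_left
/-- `U ∩ V → V` -/
abbrev cV (U V : Set Y) : C((U ∩ V : Set Y), V) := inc₂ Set.inter_subset_right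

/-- `H(U ∩ V) → H(U)` -/
abbrev iU (U V : Set Y) : HS (U ∩ V : Set Y) →ₗ[F2] HS U := Hm (cU U V)
/-- `H(U ∩ V) → H(V)` -/
abbrev iV (U V : Set Y) : HS (U ∩ V : Set Y) →ₗ[F2] HS V := Hm (cV U V)
/-- `H(U) → H(Y)` -/
abbrev jU (U : Set Y) : HS U →ₗ[F2] HS Y := Hm (inc U)

theorem jU_iU (w : HS (U ∩ V : Set Y)) : jU U (iU U V w) = jU V (iV U V w) := by
  rw [← Hm_comp_apply, ← Hm_comp_apply]
  rfl

theorem neg_F2 {M : Type*} [AddCommGroup M] [Module F2 M] (x : M) : -x = x := by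
  have h : x + x = 0 := by
    have h2 : ((1 : F2) + 1) • x = 0 := by
      have : (1 : F2) + 1 = 0 := by decide
      rw [this, zero_smul]
    rwa [add_smul, one_smul] at h2
  exact neg_eq_of_add_eq_zero_left h

theorem mk_congr {M : Type*} [AddCommGroup M] [Module F2 M] {d : M →ₗ[F2] M} {z z' : M}
    (hz : d z = 0) (hz' : d z' = 0) (e : z = z') : Hd.mk d z hz = Hd.mk d z' hz' := by
  subst e; rfl

/-- **representatives** : every class of `Y` is the sum of a chain `a` of `U` and a chain `b` of `V`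
whose boundaries are the same cycle `c` of `U ∩ V` -/
theorem exists_rep (h : Cov U V) (x : HS Y) :
    ∃ (a : N F2 (SS.Sing U)) (b : N F2 (SS.Sing V)) (c : N F2 (SS.Sing (U ∩ V : Set Y)))
      (_ : N.bd F2 _ c = 0)
      (hz : N.bd F2 _ (N.map F2 (SS.SingMap (SpecA.inc U)) a +
        N.map F2 (SS.SingMap (SpecA.inc V)) b) = 0),
      N.map F2 (SS.SingMap (cU U V)) c = N.bd F2 _ a ∧
      N.map F2 (SS.SingMap (cV U V)) c = N.bd F2 _ b ∧
      x = Hd.mk (N.bd F2 (SS.Sing Y)) _ hz := by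
  have hs : Bijective (H.map F2 (cov {U, V}).incl.hom) := by
    refine small_cover {U, V} F2 fun y => ?_
    rcases h y with h | h
    · exact ⟨U, by simp, h⟩
    · exact ⟨V, by simp, h⟩
  obtain ⟨u, rfl⟩ := hs.2 x
  have ses := mv_ses F2 (mvSq U V)
  obtain ⟨⟨a, b⟩, c, hm, hc, e, rfl⟩ := ses.exists_rep u
  have e1 : N.map F2 (SS.SingMap (cU U V)) c = N.bd F2 _ a := congrArg Prod.fst e
  have e2 : -N.map F2 (SS.SingMap (cV U V)) c = N.bd F2 _ b := congrArg Prod.snd e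
  rw [neg_F2] at e2
  have key : N.map F2 (cov {U, V}).incl.hom
      ((N.map F2 (subHom U (by simp : U ∈ ({U, V} : Set (Set Y))))).coprod
        (N.map F2 (subHom V (by simp : V ∈ ({U, V} : Set (Set Y))))) (a, b)) =
      N.map F2 (SS.SingMap (SpecA.inc U)) a + N.map F2 (SS.SingMap (SpecA.inc V)) b := by
    rw [LinearMap.coprod_apply, map_add, ← N_map_comp, ← N_map_comp]
    rfl
  have hz : N.bd F2 _ (N.map F2 (SS.SingMap (SpecA.inc U)) a +
        N.map F2 (SS.SingMap (SpecA.inc V)) b) = 0 := by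
    rw [← key]
    exact (N_map_bd_apply (cov {U, V}).incl.hom _).symm.trans
      ((congrArg (N.map F2 (cov {U, V}).incl.hom) hm).trans (map_zero _))
  exact ⟨a, b, c, hc, hz, e1, e2, mk_congr (d := N.bd F2 (SS.Sing Y)) _ _ key⟩

/-- the Mayer-Vietoris boundary -/
def dMV (h : Cov U V) : HS Y →ₗ[F2] HS (U ∩ V : Set Y) := (mayerVietoris U V F2 h).choose

theorem dMV_mk (h : Cov U V) (a : N F2 (SS.Sing U)) (b : N F2 (SS.Sing V))
    (c : N F2 (SS.Sing (U ∩ V : Set Y))) (z : N F2 (SS.Sing Y)) (hc : N.bd F2 _ c = 0)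
    (hz : N.bd F2 _ z = 0) (ha : N.map F2 (SS.SingMap (cU U V)) c = N.bd F2 _ a)
    (hb : N.map F2 (SS.SingMap (cV U V)) c = N.bd F2 _ b)
    (hab : N.map F2 (SS.SingMap (SpecA.inc U)) a + N.map F2 (SS.SingMap (SpecA.inc V)) b = z) :
    dMV h (Hd.mk (N.bd F2 (SS.Sing Y)) z hz) = Hd.mk _ c hc :=
  (mayerVietoris U V F2 h).choose_spec.2.2.2.2.2 a b c z hc hz ha (by rw [neg_F2]; exact hb) hab

theorem dMV_gr (h : Cov U V) {n : ℕ} {x : HS Y} (hx : x ∈ H.gr F2 (SS.Sing Y) (n + 1)) :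
    dMV h x ∈ H.gr F2 (SS.Sing (U ∩ V : Set Y)) n :=
  (mayerVietoris U V F2 h).choose_spec.2.2.2.1 n x hx

theorem dMV_gr_zero (h : Cov U V) {x : HS Y} (hx : x ∈ H.gr F2 (SS.Sing Y) 0) : dMV h x = 0 :=
  (mayerVietoris U V F2 h).choose_spec.2.2.2.2.1 x hx

/-- exactness at `H(Y)` -/
theorem dMV_eq_zero_iff (h : Cov U V) (z : HS Y) :
    dMV h z = 0 ↔ ∃ u v, z = jU U u + jU V v := by
  have := (mayerVietoris U V F2 h).choose_spec.2.1 z
  rw [dMV, this]
  constructor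
  · rintro ⟨⟨u, v⟩, rfl⟩
    exact ⟨u, v, rfl⟩
  · rintro ⟨u, v, rfl⟩
    exact ⟨(u, v), rfl⟩

@[simp] theorem dMV_jU (h : Cov U V) (u : HS U) : dMV h (jU U u) = 0 :=
  (dMV_eq_zero_iff h _).2 ⟨u, 0, by rw [map_zero, add_zero]⟩

@[simp] theorem dMV_jV (h : Cov U V) (v : HS V) : dMV h (jU V v) = 0 :=
  (dMV_eq_zero_iff h _).2 ⟨0, v, by rw [map_zero, zero_add]⟩

/-- exactness at `H(U ∩ V)` -/
theorem exists_dMV_iff (h : Cov U V) (w : HS (U ∩ V : Set Y)) :
    (iU U V w = 0 ∧ iV U V w = 0) ↔ ∃ z, dMV h z = w := by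
  have := (mayerVietoris U V F2 h).choose_spec.2.2.1 w
  refine Iff.trans ?_ this
  constructor
  · rintro ⟨h1, h2⟩
    exact Prod.ext h1 (neg_eq_zero.2 h2)
  · intro h0
    exact ⟨congrArg Prod.fst h0, neg_eq_zero.1 (congrArg Prod.snd h0)⟩

theorem exists_dMV (h : Cov U V) {w : HS (U ∩ V : Set Y)} (h1 : iU U V w = 0)
    (h2 : iV U V w = 0) : ∃ z, dMV h z = w := (exists_dMV_iff h w).1 ⟨h1, h2⟩

@[simp] theorem iU_dMV (h : Cov U V) (z : HS Y) : iU U V (dMV h z) = 0 :=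
  ((exists_dMV_iff h _).2 ⟨z, rfl⟩).1

@[simp] theorem iV_dMV (h : Cov U V) (z : HS Y) : iV U V (dMV h z) = 0 :=
  ((exists_dMV_iff h _).2 ⟨z, rfl⟩).2

/-- exactness at `H(U) × H(V)` -/
theorem exists_inter (h : Cov U V) {u : HS U} {v : HS V} (e : jU U u = jU V v) :
    ∃ w, iU U V w = u ∧ iV U V w = v := by
  have := (mayerVietoris U V F2 h).choose_spec.1 (u, v)
  have h0 : ((H.map F2 (SS.SingMap (SpecA.inc U))).coprod
      (H.map F2 (SS.SingMap (SpecA.inc V)))) (u, v) = 0 := by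
    rw [LinearMap.coprod_apply]
    show jU U u + jU V v = 0
    rw [e]
    exact (neg_eq_iff_add_eq_zero).1 (neg_F2 _)
  obtain ⟨w, hw⟩ := this.1 h0
  refine ⟨w, congrArg Prod.fst hw, ?_⟩
  have h2 : -iV U V w = v := congrArg Prod.snd hw
  rwa [neg_F2] at h2

/-- **naturality** -/
theorem dMV_nat (h : Cov U V) (h' : Cov U' V') (f : C(Y, Y')) (hU : Set.MapsTo f U U')
    (hV : Set.MapsTo f V V') (z : HS Y) :
    dMV h' (Hm f z) = Hm (rmap f (mapsTo_inter hU hV)) (dMV h z) := by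
  obtain ⟨a, b, c, hc, hz, ha, hb, rfl⟩ := exists_rep h z
  rw [dMV_mk h a b c _ hc hz ha hb rfl]
  show dMV h' (H.map F2 (SS.SingMap f) _) = H.map F2 (SS.SingMap _) _
  rw [H.map, H.map, Hd.map_mk, Hd.map_mk]
  refine dMV_mk h' (N.map F2 (SS.SingMap (rmap f hU)) a) (N.map F2 (SS.SingMap (rmap f hV)) b)
    (N.map F2 (SS.SingMap (rmap f (mapsTo_inter hU hV))) c) _ _ _ ?_ ?_ ?_
  · rw [← N_map_bd_apply, ← ha, ← N_map_comp, ← N_map_comp]
    rfl
  · rw [← N_map_bd_apply, ← hb, ← N_map_comp, ← N_map_comp]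
    rfl
  · rw [map_add, ← N_map_comp, ← N_map_comp, ← N_map_comp, ← N_map_comp]
    rfl

/-- naturality for the identity (enlarging the sets of the cover) -/
theorem dMV_mono {U₁ V₁ : Set Y} (h : Cov U V) (h₁ : Cov U₁ V₁) (hU : U ⊆ U₁) (hV : V ⊆ V₁)
    (z : HS Y) :
    dMV h₁ z = Hm (inc₂ (Set.inter_subset_inter hU hV)) (dMV h z) := by
  have := dMV_nat h h₁ (ContinuousMap.id Y) (fun _ hy => hU hy) (fun _ hy => hV hy) z
  rw [Hm_id] at this
  rw [this]
  rfl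

/-- exchanging `U` and `V` -/
theorem dMV_swap (h : Cov U V) (z : HS Y) :
    dMV h.symm z = Hm (inc₂ (Set.inter_comm U V).le) (dMV h z) := by
  obtain ⟨a, b, c, hc, hz, ha, hb, rfl⟩ := exists_rep h z
  rw [dMV_mk h a b c _ hc hz ha hb rfl]
  show _ = H.map F2 (SS.SingMap _) _
  rw [H.map, Hd.map_mk]
  refine dMV_mk h.symm b a (N.map F2 (SS.SingMap (inc₂ (Set.inter_comm U V).le)) c) _ _ _ ?_ ?_
    (add_comm _ _)
  · rw [← hb, ← N_map_comp]
    rfl
  · rw [← ha, ← N_map_comp]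
    rfl

end Crest.Agent.R231.MVnx637
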