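import Crest.Agent.R231.LaDef_733
import Crest.Agent.R231.OmSp_725
import Crest.Agent.R231.MVn_637

/-!
# Row 231 (S0357), block P, leaf Q6: free Moore loops over a tether (helper826)

`La M t` (733) : 1-Lipschitz free Moore loops of length at most `t` (subset of `ℝ → M`).
For a tether `B` at `p` (paths `T y` from `y ∈ V` to `p`, length `L`):

* `sl B u r g = (T|[0,r])⁻¹ . g . T|[0,r]`, `cnj B u g = T⁻¹ . g . T` (a loop at `p`);
* `unc B u z w = T z . w . (T z)⁻¹`, `back B u u' r g = T|[0,r] . sl . (T|[0,r])⁻¹`;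
* as continuous maps on types: `ιL`, `ιO`, `ιS`, `jO`, `cj`, `ka`, `up`;
* homotopies: `hom_slide : ι ∘ inc ≃ jO ∘ cj`, `hom_back : up ∘ (id × ι) ∘ ka ≃ ιS`,
  `hom_cj`, `hom_ka` (change of the time), `hom_const` (`T p` constant).
-/

set_option autoImplicit false

noncomputable section

open Set Topology NNReal
open Crest.Agent.R204 Crest.Agent.R204.SpecA Crest.Agent.R231.Moorex725
open Crest.Agent.R231.CutMx725 Crest.Agent.R231.FinDim315 Crest.Agent.R231.LaDefx733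
open Crest.Agent.R231.OmSpx725 Crest.Agent.R231.MVnx637

namespace Crest.Agent.R231.LaSpx826

variable {M : Type} [PseudoMetricSpace M]

theorem toMP {t : ℝ} {g : ℝ → M} (h : g ∈ La M t) : g ∈ MP (g 0) (g 0) t := h

theorem La_LL {t : ℝ} {g : ℝ → M} (h : g ∈ La M t) : g ∈ LL M := h.1

theorem mem_La_of_MP {q : M} {t : ℝ} {g : ℝ → M} (h : g ∈ MP q q t) : g ∈ La M t :=
  MP_subset_La q t h

theorem La_end {t s : ℝ} {g : ℝ → M} (h : g ∈ La M t) (hs : t ≤ s) : g s = g 0 := h.2.2 s hs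

/-! ## formulas -/

section formulas

variable {p : M} (B : Tether p)

/-- slide of the base point of the free loop `g` (length `u`) along the tether up to time `r` -/
def sl (u r : ℝ) (g : ℝ → M) : ℝ → M :=
  cc r (rev r (head r (B.T (g 0)))) (cc u g (head r (B.T (g 0))))

/-- the free loop conjugated to a loop at `p` -/
def cnj (u : ℝ) (g : ℝ → M) : ℝ → M := cc B.L (rev B.L (B.T (g 0))) (cc u g (B.T (g 0)))

/-- the based loop conjugated to a loop at `z` -/
def unc (u : ℝ) (z : M) (w : ℝ → M) : ℝ → M := cc B.L (B.T z) (cc u w (rev B.L (B.T z)))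

/-- `T|[0,r] . sl . (T|[0,r])⁻¹` -/
def back (u u' r : ℝ) (g : ℝ → M) : ℝ → M :=
  cc r (head r (B.T (g 0))) (cc u' (sl B u r g) (rev r (head r (B.T (g 0)))))

variable {B}

theorem sl_mem {u r : ℝ} {g : ℝ → M} (hg : g ∈ La M u) (hu : 0 ≤ u) (hr : 0 ≤ r)
    (hV : g 0 ∈ B.V) : sl B u r g ∈ MP (B.T (g 0) r) (B.T (g 0) r) (u + 2 * r) := by
  have h1 := head_mem (B.mem _ hV) (s := r)
  have h2 := cc_mem (rev_mem h1) (cc_mem hg h1 hu hr) hr (add_nonneg hu hr)
  have e : r + (u + r) = u + 2 * r := by ring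
  rwa [e] at h2

theorem sl_zero {u : ℝ} {g : ℝ → M} (hg : g ∈ La M u) (hV : g 0 ∈ B.V) :
    sl B u 0 g = g := by
  have e1 : head 0 (B.T (g 0)) = fun _ => g 0 := head_of_le (B.mem _ hV) le_rfl
  have e2 : rev 0 (head 0 (B.T (g 0))) = fun _ => g 0 := by rw [e1]; rfl
  have hg' := toMP hg
  rw [sl, e2, e1, cc_const_right hg', cc_const_left hg']

theorem sl_full {u : ℝ} {g : ℝ → M} (hV : g 0 ∈ B.V) : sl B u B.L g = cnj B u g := by
  rw [sl, cnj, head_of_ge (B.mem _ hV) le_rfl]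

theorem cnj_mem {u : ℝ} {g : ℝ → M} (hg : g ∈ La M u) (hu : 0 ≤ u) (hV : g 0 ∈ B.V) :
    cnj B u g ∈ Om p (u + 2 * B.L) := by
  rw [← sl_full hV]
  have h := sl_mem hg hu B.L_nonneg hV
  have e : B.T (g 0) B.L = p := (B.mem _ hV).2.2 _ le_rfl
  rwa [e] at h

theorem unc_mem {u : ℝ} {z : M} {w : ℝ → M} (hw : w ∈ Om p u) (hu : 0 ≤ u) (hV : z ∈ B.V) :
    unc B u z w ∈ MP z z (u + 2 * B.L) := by
  have h1 := B.mem _ hV
  have h2 := cc_mem h1 (cc_mem hw (rev_mem h1) hu B.L_nonneg) B.L_nonneg (add_nonneg hu B.L_nonneg)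
  have e : B.L + (u + B.L) = u + 2 * B.L := by ring
  rwa [e] at h2

theorem back_mem {u u' r : ℝ} {g : ℝ → M} (hg : g ∈ La M u) (hu : 0 ≤ u) (hr : 0 ≤ r)
    (hu' : u + 2 * r ≤ u') (hV : g 0 ∈ B.V) : back B u u' r g ∈ MP (g 0) (g 0) (u' + 2 * r) := by
  have h0 : 0 ≤ u' := by linarith
  have h1 := head_mem (B.mem _ hV) (s := r)
  have h2 := MP_mono _ _ hu' (sl_mem hg hu hr hV)
  have h3 := cc_mem h1 (cc_mem h2 (rev_mem h1) h0 hr) hr (add_nonneg h0 hr)
  have e : r + (u' + r) = u' + 2 * r := by ring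
  rwa [e] at h3

theorem back_zero {u u' : ℝ} {g : ℝ → M} (hg : g ∈ La M u) (hu' : u ≤ u')
    (hV : g 0 ∈ B.V) : back B u u' 0 g = g := by
  have e1 : head 0 (B.T (g 0)) = fun _ => g 0 := head_of_le (B.mem _ hV) le_rfl
  have e2 : rev 0 (head 0 (B.T (g 0))) = fun _ => g 0 := by rw [e1]; rfl
  have hg' := toMP (La_mono hu' hg)
  rw [back, e2, e1, sl_zero hg hV, cc_const_right hg', cc_const_left hg']

theorem back_full {u u' : ℝ} {g : ℝ → M} (hV : g 0 ∈ B.V) :
    back B u u' B.L g = unc B u' (g 0) (cnj B u g) := by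
  rw [back, unc, sl_full hV, head_of_ge (B.mem _ hV) le_rfl]

/-! ### continuity -/

section cont

variable {X : Type*} [TopologicalSpace X] {g : X → ℝ → M} {u u' r : X → ℝ}

theorem continuous_T0 (hg : Continuous g) (hV : ∀ x, g x 0 ∈ B.V) :
    Continuous fun x => B.T (g x 0) :=
  B.cont.comp_continuous ((continuous_apply 0).comp hg) hV

theorem head_zero_val {y : M} (hy : y ∈ B.V) {r : ℝ} (hr : 0 ≤ r) : head r (B.T y) 0 = y := by
  rw [head, min_eq_left hr]
  exact (B.mem _ hy).2.1 0 le_rfl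

theorem continuous_sl (hg : Continuous g) (hm : ∀ x, g x ∈ La M (u x)) (hu : Continuous u)
    (hr : Continuous r) (hu0 : ∀ x, 0 ≤ u x) (hr0 : ∀ x, 0 ≤ r x) (hV : ∀ x, g x 0 ∈ B.V) :
    Continuous fun x => sl B (u x) (r x) (g x) := by
  have cT := continuous_T0 hg hV
  have lT : ∀ x, B.T (g x 0) ∈ LL M := fun x => (B.mem _ (hV x)).1
  have h1 : Continuous fun x => head (r x) (B.T (g x 0)) := continuous_head cT lT hr
  have l1 : ∀ x, head (r x) (B.T (g x 0)) ∈ LL M := fun x => head_LL (lT x) _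
  have h2 : Continuous fun x => rev (r x) (head (r x) (B.T (g x 0))) := continuous_rev h1 l1 hr
  have z1 : ∀ x, head (r x) (B.T (g x 0)) 0 = g x 0 := fun x => head_zero_val (hV x) (hr0 x)
  have j1 : ∀ x, g x (u x) = head (r x) (B.T (g x 0)) 0 := fun x => by
    rw [z1, La_end (hm x) le_rfl]
  have h3 : Continuous fun x => cc (u x) (g x) (head (r x) (B.T (g x 0))) :=
    continuous_cc hg h1 hu l1 j1
  refine continuous_cc h2 h3 hr (fun x => cc_lip (La_LL (hm x)) (l1 x) (j1 x)) fun x => ?_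
  rw [rev, sub_self, z1, cc_of_le _ _ (hu0 x)]

theorem continuous_cnj (hg : Continuous g) (hm : ∀ x, g x ∈ La M (u x)) (hu : Continuous u)
    (hu0 : ∀ x, 0 ≤ u x) (hV : ∀ x, g x 0 ∈ B.V) :
    Continuous fun x => cnj B (u x) (g x) := by
  have h := continuous_sl (r := fun _ => B.L) hg hm hu continuous_const hu0
    (fun _ => B.L_nonneg) hV
  refine h.congr fun x => ?_
  exact sl_full (hV x)

theorem continuous_unc {z : X → M} {w : X → ℝ → M} (hz : Continuous z) (hw : Continuous w)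
    (hu : Continuous u) (hu0 : ∀ x, 0 ≤ u x) (hV : ∀ x, z x ∈ B.V) (hm : ∀ x, w x ∈ Om p (u x)) :
    Continuous fun x => unc B (u x) (z x) (w x) := by
  have cT : Continuous fun x => B.T (z x) := B.cont.comp_continuous hz hV
  have lT : ∀ x, B.T (z x) ∈ LL M := fun x => (B.mem _ (hV x)).1
  have h2 : Continuous fun x => rev B.L (B.T (z x)) := continuous_rev cT lT continuous_const
  have l2 : ∀ x, rev B.L (B.T (z x)) ∈ LL M := fun x => rev_LL (lT x) _
  have j1 : ∀ x, w x (u x) = rev B.L (B.T (z x)) 0 := fun x => by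
    rw [rev, sub_zero, (hm x).2.2 _ le_rfl, (B.mem _ (hV x)).2.2 _ le_rfl]
  have h3 : Continuous fun x => cc (u x) (w x) (rev B.L (B.T (z x))) :=
    continuous_cc hw h2 hu l2 j1
  refine continuous_cc (c := fun _ => B.L) cT h3 continuous_const
    (fun x => cc_lip (hm x).1 (l2 x) (j1 x)) fun x => ?_
  rw [cc_of_le _ _ (hu0 x), (hm x).2.1 _ le_rfl, (B.mem _ (hV x)).2.2 _ le_rfl]

theorem continuous_back (hg : Continuous g) (hm : ∀ x, g x ∈ La M (u x)) (hu : Continuous u)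
    (hu' : Continuous u') (hr : Continuous r) (hu0 : ∀ x, 0 ≤ u x) (hr0 : ∀ x, 0 ≤ r x)
    (huu : ∀ x, u x + 2 * r x ≤ u' x) (hV : ∀ x, g x 0 ∈ B.V) :
    Continuous fun x => back B (u x) (u' x) (r x) (g x) := by
  have cT := continuous_T0 hg hV
  have lT : ∀ x, B.T (g x 0) ∈ LL M := fun x => (B.mem _ (hV x)).1
  have h1 : Continuous fun x => head (r x) (B.T (g x 0)) := continuous_head cT lT hr
  have l1 : ∀ x, head (r x) (B.T (g x 0)) ∈ LL M := fun x => head_LL (lT x) _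
  have h2 : Continuous fun x => rev (r x) (head (r x) (B.T (g x 0))) := continuous_rev h1 l1 hr
  have l2 : ∀ x, rev (r x) (head (r x) (B.T (g x 0))) ∈ LL M := fun x => rev_LL (l1 x) _
  have hs := continuous_sl hg hm hu hr hu0 hr0 hV
  have ms := fun x => MP_mono _ _ (huu x) (sl_mem (hm x) (hu0 x) (hr0 x) (hV x))
  have j1 : ∀ x, sl B (u x) (r x) (g x) (u' x) = rev (r x) (head (r x) (B.T (g x 0))) 0 := by
    intro x
    rw [(ms x).2.2 _ le_rfl, rev, sub_zero, head, min_self]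
  have h3 : Continuous fun x => cc (u' x) (sl B (u x) (r x) (g x))
      (rev (r x) (head (r x) (B.T (g x 0)))) := continuous_cc hs h2 hu' l2 j1
  refine continuous_cc h1 h3 hr (fun x => cc_lip (ms x).1 (l2 x) (j1 x)) fun x => ?_
  have h0 : 0 ≤ u' x := by linarith [hu0 x, hr0 x, huu x]
  rw [cc_of_le _ _ h0, (ms x).2.1 _ le_rfl, head, min_self]

end cont

end formulas

/-! ## continuous maps -/

section maps

variable {p : M}

/-- loops starting in `S` -/
def LaS (S : Set M) (t : ℝ) : Set (La M t) := {g | g.1 0 ∈ S}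

theorem isOpen_LaS {S : Set M} (hS : IsOpen S) (t : ℝ) : IsOpen (LaS S t) :=
  hS.preimage (evL M t).continuous

theorem cov_LaS {U V : Set M} (hU : IsOpen U) (hV : IsOpen V) (h : U ∪ V = univ) (t : ℝ) :
    Cov (LaS U t) (LaS V t) :=
  Cov.of_isOpen (isOpen_LaS hU t) (isOpen_LaS hV t) fun y => by
    have h1 : y.1 0 ∈ U ∪ V := by rw [h]; trivial
    exact h1

theorem mapsTo_LaS (S : Set M) {s t : ℝ} (h : s ≤ t) : MapsTo (incL h) (LaS S s) (LaS S t) :=
  fun _ hx => hx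

/-- conjugation along the tether -/
def cj (B : Tether p) {t : ℝ} {u : ℝ≥0} (ht : 0 ≤ t) (hu : t + 2 * B.L ≤ u) {R : Set (La M t)}
    (hR : R ⊆ LaS B.V t) : C(R, OmT p u) where
  toFun x := ⟨cnj B t x.1.1, Om_mono p hu (cnj_mem x.1.2 ht (hR x.2))⟩
  continuous_toFun := Continuous.subtype_mk
    (continuous_cnj (g := fun x : R => x.1.1) (u := fun _ => t)
      (continuous_subtype_val.comp continuous_subtype_val)
      (fun x => x.1.2) continuous_const (fun _ => ht) fun x => hR x.2) _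

/-- the base point -/
def bp {t : ℝ} {S : Set M} {R : Set (La M t)} (hS : R ⊆ LaS S t) : C(R, S) where
  toFun x := ⟨x.1.1 0, hS x.2⟩
  continuous_toFun := Continuous.subtype_mk
    ((continuous_apply 0).comp (continuous_subtype_val.comp continuous_subtype_val)) _

/-- the trivialisation `κ = (conj, e)` -/
def ka (B : Tether p) {t : ℝ} {u : ℝ≥0} (ht : 0 ≤ t) (hu : t + 2 * B.L ≤ u) {R : Set (La M t)}
    (hR : R ⊆ LaS B.V t) {S : Set M} (hS : R ⊆ LaS S t) : C(R, OmT p u × S) :=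
  (cj B ht hu hR).prodMk (bp hS)

theorem unc_zero {B : Tether p} {u : ℝ} {z : M} {w : ℝ → M} (hw : w ∈ Om p u) (hu : 0 ≤ u)
    (hV : z ∈ B.V) : unc B u z w 0 = z := (unc_mem hw hu hV).2.1 0 le_rfl

/-- the inverse of the trivialisation -/
def up (B : Tether p) {u : ℝ≥0} {s : ℝ} (hs : (u : ℝ) + 2 * B.L ≤ s) {S : Set M} (hS : S ⊆ B.V)
    {R : Set (La M s)} (hR : LaS S s ⊆ R) : C(OmT p u × S, R) where
  toFun x := ⟨⟨unc B u x.2.1 x.1.1, La_mono hs (mem_La_of_MP (unc_mem x.1.2 u.2 (hS x.2.2)))⟩, hR (by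
    change unc B u x.2.1 x.1.1 0 ∈ S
    rw [unc_zero x.1.2 u.2 (hS x.2.2)]
    exact x.2.2)⟩
  continuous_toFun := Continuous.subtype_mk (Continuous.subtype_mk
    (continuous_unc (z := fun x : OmT p u × S => x.2.1) (w := fun x : OmT p u × S => x.1.1)
      (u := fun _ => (u : ℝ)) (continuous_subtype_val.comp continuous_snd)
      (continuous_subtype_val.comp continuous_fst) continuous_const (fun _ => u.2)
      (fun x => hS x.2.2) fun x => x.1.2) _) _

/-- based loops as free loops -/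
def js (p : M) {u : ℝ≥0} {s : ℝ} (h : (u : ℝ) ≤ s) : C(OmT p u, La M s) where
  toFun w := ⟨w.1, La_mono h (Om_subset_La p u w.2)⟩
  continuous_toFun := Continuous.subtype_mk continuous_subtype_val _

/-- based loops as free loops, in a subset -/
def jsR (p : M) {u : ℝ≥0} {s : ℝ} (h : (u : ℝ) ≤ s) {R : Set (La M s)} (hR : LaS {p} s ⊆ R) :
    C(OmT p u, R) where
  toFun w := ⟨js p h w, hR (w.2.2.1 0 le_rfl)⟩
  continuous_toFun := Continuous.subtype_mk (js p h).continuous _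

@[simp] theorem cj_val (B : Tether p) {t : ℝ} {u : ℝ≥0} (ht : 0 ≤ t) (hu : t + 2 * B.L ≤ u)
    {R : Set (La M t)} (hR : R ⊆ LaS B.V t) (x : R) : (cj B ht hu hR x).1 = cnj B t x.1.1 := rfl

/-! ### homotopies -/

/-- change of the time of the second leg -/
theorem hom_cj (B : Tether p) {t s : ℝ} {u v : ℝ≥0} (ht : 0 ≤ t) (hts : t ≤ s)
    (hu : t + 2 * B.L ≤ u) (hv : s + 2 * B.L ≤ v) (huv : u ≤ v) {R : Set (La M t)}
    {R' : Set (La M s)} (hR : R ⊆ LaS B.V t) (hR' : R' ⊆ LaS B.V s) (hm : MapsTo (incL hts) R R') :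
    ((OmSpx725.inc huv).comp (cj B ht hu hR)).Homotopic
      ((cj B (ht.trans hts) hv hR').comp (rmap (incL hts) hm)) := by
  have h1 : ∀ r : unitInterval, t ≤ t + (r : ℝ) * (s - t) := fun r => by
    have := mul_nonneg r.2.1 (by linarith : 0 ≤ s - t)
    linarith
  have h2 : ∀ r : unitInterval, t + (r : ℝ) * (s - t) ≤ s := fun r => by
    have := mul_le_mul_of_nonneg_right r.2.2 (by linarith : 0 ≤ s - t)
    linarith
  have hc : Continuous fun z : unitInterval × R => cnj B (t + (z.1 : ℝ) * (s - t)) z.2.1.1 :=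
    continuous_cnj (g := fun z : unitInterval × R => z.2.1.1)
      (u := fun z => t + (z.1 : ℝ) * (s - t))
      (continuous_subtype_val.comp (continuous_subtype_val.comp continuous_snd))
      (fun z => La_mono (h1 z.1) z.2.1.2) (by fun_prop) (fun z => ht.trans (h1 z.1))
      fun z => hR z.2.2
  refine ⟨⟨⟨fun z => ⟨cnj B (t + (z.1 : ℝ) * (s - t)) z.2.1.1, Om_mono p (by linarith [h2 z.1])
    (cnj_mem (La_mono (h1 z.1) z.2.1.2) (ht.trans (h1 z.1)) (hR z.2.2))⟩,
    Continuous.subtype_mk hc _⟩, fun x => ?_, fun x => ?_⟩⟩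
  · refine Subtype.ext ?_
    change cnj B (t + ((0 : unitInterval) : ℝ) * (s - t)) x.1.1 = cnj B t x.1.1
    simp
  · refine Subtype.ext ?_
    change cnj B (t + ((1 : unitInterval) : ℝ) * (s - t)) x.1.1 = cnj B s x.1.1
    simp

theorem hom_ka (B : Tether p) {t s : ℝ} {u v : ℝ≥0} (ht : 0 ≤ t) (hts : t ≤ s)
    (hu : t + 2 * B.L ≤ u) (hv : s + 2 * B.L ≤ v) (huv : u ≤ v) {R : Set (La M t)}
    {R' : Set (La M s)} (hR : R ⊆ LaS B.V t) (hR' : R' ⊆ LaS B.V s) {S : Set M}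
    (hS : R ⊆ LaS S t) (hS' : R' ⊆ LaS S s) (hm : MapsTo (incL hts) R R') :
    (((OmSpx725.inc huv).prodMap (ContinuousMap.id S)).comp (ka B ht hu hR hS)).Homotopic
      ((ka B (ht.trans hts) hv hR' hS').comp (rmap (incL hts) hm)) :=
  (hom_cj B ht hts hu hv huv hR hR' hm).prodMk (ContinuousMap.Homotopic.refl (bp hS))

/-- sliding the base point along the tether -/
theorem hom_slide (B : Tether p) {t v : ℝ} {u : ℝ≥0} (ht : 0 ≤ t) (hu : t + 2 * B.L ≤ u)
    (hv : (u : ℝ) ≤ v) (htv : t ≤ v) {R : Set (La M t)} (hR : R ⊆ LaS B.V t) :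
    ((js p hv).comp (cj B ht hu hR)).Homotopic ((incL htv).comp (SpecA.inc R)) := by
  have h1 : ∀ r : unitInterval, 0 ≤ (1 - (r : ℝ)) * B.L := fun r =>
    mul_nonneg (by linarith [r.2.2]) B.L_nonneg
  have h2 : ∀ r : unitInterval, (1 - (r : ℝ)) * B.L ≤ B.L := fun r => by
    have := mul_nonneg r.2.1 B.L_nonneg
    linarith
  have hc : Continuous fun z : unitInterval × R => sl B t ((1 - (z.1 : ℝ)) * B.L) z.2.1.1 :=
    continuous_sl (g := fun z : unitInterval × R => z.2.1.1)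
      (u := fun _ => t) (r := fun z => (1 - (z.1 : ℝ)) * B.L)
      (continuous_subtype_val.comp (continuous_subtype_val.comp continuous_snd))
      (fun z => z.2.1.2) continuous_const (by fun_prop) (fun _ => ht) (fun z => h1 z.1)
      fun z => hR z.2.2
  refine ⟨⟨⟨fun z => ⟨sl B t ((1 - (z.1 : ℝ)) * B.L) z.2.1.1, La_mono (by linarith [h2 z.1])
    (mem_La_of_MP (sl_mem z.2.1.2 ht (h1 z.1) (hR z.2.2)))⟩,
    Continuous.subtype_mk hc _⟩, fun x => ?_, fun x => ?_⟩⟩
  · refine Subtype.ext ?_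
    change sl B t ((1 - ((0 : unitInterval) : ℝ)) * B.L) x.1.1 = cnj B t x.1.1
    rw [← sl_full (hR x.2)]
    simp
  · refine Subtype.ext ?_
    change sl B t ((1 - ((1 : unitInterval) : ℝ)) * B.L) x.1.1 = x.1.1
    have e : (1 - ((1 : unitInterval) : ℝ)) * B.L = 0 := by simp
    rw [e, sl_zero x.1.2 (hR x.2)]

/-- `unc ∘ (conj, e) ≃ inclusion`, over the base point -/
theorem hom_back (B : Tether p) {t s : ℝ} {u : ℝ≥0} (ht : 0 ≤ t) (hu : t + 2 * B.L ≤ u)
    (hs : (u : ℝ) + 2 * B.L ≤ s) (hts : t ≤ s) {R : Set (La M t)} {R' : Set (La M s)}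
    (hR : R ⊆ LaS B.V t) {S : Set M} (hSV : S ⊆ B.V) (hS : R ⊆ LaS S t) (hS' : LaS S s ⊆ R')
    (hm : MapsTo (incL hts) R R') :
    ((up B hs hSV hS').comp (ka B ht hu hR hS)).Homotopic (rmap (incL hts) hm) := by
  have h1 : ∀ r : unitInterval, 0 ≤ (1 - (r : ℝ)) * B.L := fun r =>
    mul_nonneg (by linarith [r.2.2]) B.L_nonneg
  have h2 : ∀ r : unitInterval, (1 - (r : ℝ)) * B.L ≤ B.L := fun r => by
    have := mul_nonneg r.2.1 B.L_nonneg
    linarith
  have hc : Continuous fun z : unitInterval × R => back B t u ((1 - (z.1 : ℝ)) * B.L) z.2.1.1 :=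
    continuous_back (g := fun z : unitInterval × R => z.2.1.1)
      (u := fun _ => t) (u' := fun _ => (u : ℝ)) (r := fun z => (1 - (z.1 : ℝ)) * B.L)
      (continuous_subtype_val.comp (continuous_subtype_val.comp continuous_snd))
      (fun z => z.2.1.2) continuous_const continuous_const (by fun_prop) (fun _ => ht)
      (fun z => h1 z.1) (fun z => by linarith [h2 z.1]) fun z => hR z.2.2
  have hb : ∀ z : unitInterval × R, back B t u ((1 - (z.1 : ℝ)) * B.L) z.2.1.1 ∈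
      MP (z.2.1.1 0) (z.2.1.1 0) ((u : ℝ) + 2 * ((1 - (z.1 : ℝ)) * B.L)) := fun z =>
    back_mem z.2.1.2 ht (h1 z.1) (by linarith [h2 z.1]) (hR z.2.2)
  refine ⟨⟨⟨fun z => ⟨⟨back B t u ((1 - (z.1 : ℝ)) * B.L) z.2.1.1, La_mono (by linarith [h2 z.1])
    (mem_La_of_MP (hb z))⟩, hS' (by
      change back B t u ((1 - (z.1 : ℝ)) * B.L) z.2.1.1 0 ∈ S
      rw [(hb z).2.1 0 le_rfl]
      exact hS z.2.2)⟩,
    Continuous.subtype_mk (Continuous.subtype_mk hc _) _⟩, fun x => ?_, fun x => ?_⟩⟩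
  · refine Subtype.ext (Subtype.ext ?_)
    change back B t u ((1 - ((0 : unitInterval) : ℝ)) * B.L) x.1.1 =
      unc B u (x.1.1 0) (cnj B t x.1.1)
    rw [← back_full (hR x.2)]
    simp
  · refine Subtype.ext (Subtype.ext ?_)
    change back B t u ((1 - ((1 : unitInterval) : ℝ)) * B.L) x.1.1 = x.1.1
    have e : (1 - ((1 : unitInterval) : ℝ)) * B.L = 0 := by simp
    rw [e, back_zero x.1.2 (by linarith [B.L_nonneg]) (hR x.2)]

/-- conjugation of based loops by a constant tether -/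
theorem hom_const (B : Tether p) (hT : B.T p = fun _ => p) {t : ℝ} {t0 u : ℝ≥0}
    (h0 : (t0 : ℝ) ≤ t) (ht : 0 ≤ t) (hu : t + 2 * B.L ≤ u) (h0u : t0 ≤ u) {R : Set (La M t)}
    (hR : R ⊆ LaS B.V t) (hR' : LaS {p} t ⊆ R) :
    ((cj B ht hu hR).comp (jsR p h0 hR')).Homotopic (OmSpx725.inc h0u) := by
  have h1 : ∀ r : unitInterval, 0 ≤ (1 - (r : ℝ)) * B.L := fun r =>
    mul_nonneg (by linarith [r.2.2]) B.L_nonneg
  have h2 : ∀ r : unitInterval, (1 - (r : ℝ)) * B.L ≤ B.L := fun r => by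
    have := mul_nonneg r.2.1 B.L_nonneg
    linarith
  have hL := B.L_nonneg
  have hc : Continuous fun z : unitInterval × OmT p t0 =>
      cc ((1 - (z.1 : ℝ)) * B.L) (fun _ => p) z.2.1 :=
    continuous_cc (a := fun _ => fun _ => p) (b := fun z : unitInterval × OmT p t0 => z.2.1)
      (c := fun z => (1 - (z.1 : ℝ)) * B.L) continuous_const
      (continuous_subtype_val.comp continuous_snd) (by fun_prop) (fun z => z.2.2.1)
      fun z => (z.2.2.2.1 0 le_rfl).symm
  refine ⟨⟨⟨fun z => ⟨cc ((1 - (z.1 : ℝ)) * B.L) (fun _ => p) z.2.1,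
    Om_mono p (by linarith [h2 z.1, h1 z.1]) (cc_mem_Om (const_mem_Om p _) z.2.2 (h1 z.1) t0.2)⟩,
    Continuous.subtype_mk hc _⟩, fun x => ?_, fun x => ?_⟩⟩
  · refine Subtype.ext ?_
    change cc ((1 - ((0 : unitInterval) : ℝ)) * B.L) (fun _ => p) x.1 = cnj B t x.1
    have hx0 : x.1 0 = p := x.2.2.1 0 le_rfl
    have e : (1 - ((0 : unitInterval) : ℝ)) * B.L = B.L := by simp
    have e2 : rev B.L (fun _ : ℝ => p) = fun _ => p := rfl
    rw [e, cnj, hx0, hT, e2, cc_const_right (Om_mono p h0 x.2)]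
  · refine Subtype.ext ?_
    change cc ((1 - ((1 : unitInterval) : ℝ)) * B.L) (fun _ => p) x.1 = x.1
    have e : (1 - ((1 : unitInterval) : ℝ)) * B.L = 0 := by simp
    rw [e, cc_const_left x.2]

end maps

end Crest.Agent.R231.LaSpx826
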