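import Mathlib

/-!
# Row 231, leaf Q5 (helper969): formal algebra of levels ⟹ strong bounded bars `BD(Ω)`

Text: helper490 note 1871, helper200 note DECISION-P (crossing exchange in swapped form).
All levels are in `ℝ≥0`; every map lands at an ARBITRARY level `u` with a hypothesis (no casts).
`A t = H(Ω_t)`, `A2 T = H(Ω²_T)`, `Ω²_T = {(F,S,r)}`; `D = n - 1`.
-/

set_option autoImplicit false

open scoped NNReal

namespace Crest.Agent.R231.Levx969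

/-- the levelled algebra `A` and the levelled composition algebra `A2`. -/
structure LevA (D : ℕ) where
  A : ℝ≥0 → Type
  A2 : ℝ≥0 → Type
  [ac : ∀ t, AddCommGroup (A t)]
  [mo : ∀ t, Module (ZMod 2) (A t)]
  [ac2 : ∀ t, AddCommGroup (A2 t)]
  [mo2 : ∀ t, Module (ZMod 2) (A2 t)]
  /-- degrees -/
  gr : ∀ t, ℕ → Submodule (ZMod 2) (A t)
  gr2 : ∀ t, ℕ → Submodule (ZMod 2) (A2 t)
  /-- inclusions `Ω_s ⊆ Ω_t`, `Ω²_s ⊆ Ω²_t` -/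
  inc : ∀ {s t : ℝ≥0}, s ≤ t → A s →ₗ[ZMod 2] A t
  inc_self : ∀ {t} (y : A t), inc le_rfl y = y
  inc_inc : ∀ {s t u : ℝ≥0} (h1 : s ≤ t) (h2 : t ≤ u) (h3 : s ≤ u) (y : A s),
    inc h2 (inc h1 y) = inc h3 y
  inc_gr : ∀ {s t : ℝ≥0} (h : s ≤ t) (j : ℕ) (y : A s), y ∈ gr s j → inc h y ∈ gr t j
  /-- in `Ω_0` (constant loops) there is no homology of positive degree -/
  gr_zero : ∀ (j : ℕ) (y : A 0), y ∈ gr 0 (j + 1) → y = 0
  inc2 : ∀ {s t : ℝ≥0}, s ≤ t → A2 s →ₗ[ZMod 2] A2 t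
  inc2_gr : ∀ {s t : ℝ≥0} (h : s ≤ t) (j : ℕ) (y : A2 s), y ∈ gr2 s j → inc2 h y ∈ gr2 t j
  /-- augmentation and unit -/
  eps : ∀ {t}, A t →ₗ[ZMod 2] ZMod 2
  eps_inc : ∀ {s t : ℝ≥0} (h : s ≤ t) (y : A s), eps (inc h y) = eps y
  eps_gr : ∀ {t} (j : ℕ) (y : A t), y ∈ gr t (j + 1) → eps y = 0
  one : ∀ t, A t
  one_inc : ∀ {s t : ℝ≥0} (h : s ≤ t), inc h (one s) = one t
  one_gr : ∀ t, one t ∈ gr t 0
  eps_one : ∀ t, eps (one t) = 1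
  /-- concatenation -/
  m : ∀ {s t u : ℝ≥0}, s + t ≤ u → A s →ₗ[ZMod 2] A t →ₗ[ZMod 2] A u
  m_gr : ∀ {s t u : ℝ≥0} (h : s + t ≤ u) (i j : ℕ) (a : A s) (b : A t), a ∈ gr s i → b ∈ gr t j →
    m h a b ∈ gr u (i + j)
  inc_m : ∀ {s t u v : ℝ≥0} (h : s + t ≤ u) (h1 : u ≤ v) (h2 : s + t ≤ v) (a : A s) (b : A t),
    inc h1 (m h a b) = m h2 a b
  m_inc_l : ∀ {s s' t u : ℝ≥0} (h1 : s ≤ s') (h : s' + t ≤ u) (h2 : s + t ≤ u) (a : A s) (b : A t),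
    m h (inc h1 a) b = m h2 a b
  m_inc_r : ∀ {s t t' u : ℝ≥0} (h1 : t ≤ t') (h : s + t' ≤ u) (h2 : s + t ≤ u) (a : A s) (b : A t),
    m h a (inc h1 b) = m h2 a b
  one_m : ∀ {s t u : ℝ≥0} (h : s + t ≤ u) (h1 : t ≤ u) (b : A t), m h (one s) b = inc h1 b
  m_one : ∀ {s t u : ℝ≥0} (h : s + t ≤ u) (h1 : s ≤ u) (a : A s), m h a (one t) = inc h1 a
  /-- `i1 y = (y, 1)`, `i2 y = (1, y)` -/
  i1 : ∀ {t u : ℝ≥0}, t ≤ u → A t →ₗ[ZMod 2] A2 u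
  i2 : ∀ {t u : ℝ≥0}, t ≤ u → A t →ₗ[ZMod 2] A2 u
  /-- composition `(F,S) ∘ (F',S') = (F F', S' S)` -/
  o : ∀ {s t u : ℝ≥0}, s + t ≤ u → A2 s →ₗ[ZMod 2] A2 t →ₗ[ZMod 2] A2 u
  inc2_o : ∀ {s t u v : ℝ≥0} (h : s + t ≤ u) (h1 : u ≤ v) (h2 : s + t ≤ v) (a : A2 s) (b : A2 t),
    inc2 h1 (o h a b) = o h2 a b
  o_inc_l : ∀ {s s' t u : ℝ≥0} (h1 : s ≤ s') (h : s' + t ≤ u) (h2 : s + t ≤ u) (a : A2 s)
    (b : A2 t), o h (inc2 h1 a) b = o h2 a b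
  o_inc_r : ∀ {s t t' u : ℝ≥0} (h1 : t ≤ t') (h : s + t' ≤ u) (h2 : s + t ≤ u) (a : A2 s)
    (b : A2 t), o h a (inc2 h1 b) = o h2 a b
  o_assoc : ∀ {r s t p q u : ℝ≥0} (h1 : r + s ≤ p) (h2 : p + t ≤ u) (h3 : s + t ≤ q)
    (h4 : r + q ≤ u) (a : A2 r) (b : A2 s) (c : A2 t), o h2 (o h1 a b) c = o h4 a (o h3 b c)
  /-- the swap `(F,S) ↦ (S,F)` -/
  sw : ∀ {t}, A2 t →ₗ[ZMod 2] A2 t
  sw_gr : ∀ {t} (j : ℕ) (w : A2 t), w ∈ gr2 t j → sw w ∈ gr2 t j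
  sw_sw : ∀ {t} (w : A2 t), sw (sw w) = w
  sw_i1 : ∀ {t u : ℝ≥0} (h : t ≤ u) (y : A t), sw (i1 h y) = i2 h y
  sw_i2 : ∀ {t u : ℝ≥0} (h : t ≤ u) (y : A t), sw (i2 h y) = i1 h y
  sw_o : ∀ {s t u : ℝ≥0} (h : s + t ≤ u) (h' : t + s ≤ u) (a : A2 s) (b : A2 t),
    sw (o h a b) = o h' (sw b) (sw a)
  /-- `S_* : (F,S) ↦ S` -/
  Sm : ∀ {t u : ℝ≥0}, t ≤ u → A2 t →ₗ[ZMod 2] A u
  Sm_gr : ∀ {t u : ℝ≥0} (h : t ≤ u) (j : ℕ) (w : A2 t), w ∈ gr2 t j → Sm h w ∈ gr u j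
  Sm_inc2 : ∀ {s t u : ℝ≥0} (h1 : s ≤ t) (h2 : t ≤ u) (h3 : s ≤ u) (w : A2 s),
    Sm h2 (inc2 h1 w) = Sm h3 w
  inc_Sm : ∀ {s t u : ℝ≥0} (h1 : s ≤ t) (h2 : t ≤ u) (h3 : s ≤ u) (w : A2 s),
    inc h2 (Sm h1 w) = Sm h3 w
  Sm_i1 : ∀ {t u v : ℝ≥0} (h : t ≤ u) (h' : u ≤ v) (y : A t), Sm h' (i1 h y) = eps y • one v
  Sm_i2 : ∀ {t u v : ℝ≥0} (h : t ≤ u) (h' : u ≤ v) (h'' : t ≤ v) (y : A t),
    Sm h' (i2 h y) = inc h'' y
  Sm_o_i1 : ∀ {s t t' u v : ℝ≥0} (h1 : t ≤ t') (h : s + t' ≤ u) (h' : u ≤ v) (h'' : s ≤ v)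
    (w : A2 s) (a : A t), Sm h' (o h w (i1 h1 a)) = eps a • Sm h'' w
  Sm_o_i2 : ∀ {s t t' u v p : ℝ≥0} (h1 : t ≤ t') (h : s + t' ≤ u) (h' : u ≤ v) (h'' : s ≤ p)
    (h''' : t + p ≤ v) (w : A2 s) (a : A t), Sm h' (o h w (i2 h1 a)) = m h''' a (Sm h'' w)
  /-- the cut `D` -/
  cD : ℝ≥0
  Dc : ∀ {t u : ℝ≥0}, t + cD ≤ u → A t →ₗ[ZMod 2] A2 u
  Dc_gr : ∀ {t u : ℝ≥0} (h : t + cD ≤ u) (j : ℕ) (y : A t), y ∈ gr t (j + D) → Dc h y ∈ gr2 u j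
  Dc_lt : ∀ {t u : ℝ≥0} (h : t + cD ≤ u) (j : ℕ) (y : A t), y ∈ gr t j → j < D → Dc h y = 0
  Dc_inc : ∀ {s t u : ℝ≥0} (h1 : s ≤ t) (h : t + cD ≤ u) (h2 : s + cD ≤ u) (y : A s),
    Dc h (inc h1 y) = Dc h2 y
  inc2_Dc : ∀ {t u v : ℝ≥0} (h : t + cD ≤ u) (h1 : u ≤ v) (h2 : t + cD ≤ v) (y : A t),
    inc2 h1 (Dc h y) = Dc h2 y
  /-- the class `x` -/
  cx : ℝ≥0
  x : A cx
  x_gr : x ∈ gr cx D
  x_ne : ∀ {u : ℝ≥0} (h : cx ≤ u), inc h x ≠ 0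
  /-- relation (R) -/
  cR : ℝ≥0
  cR_le : cD + cx ≤ cR
  R : ∀ {t u p q : ℝ≥0} (_ : t + cR ≤ u) (h1 : t ≤ u) (h2 : t + cD ≤ p) (h3 : cx ≤ q)
    (h4 : p + q ≤ u) (y : A t), i1 h1 y + i2 h1 y = o h4 (Dc h2 y) (i1 h3 x + i2 h3 x)
  /-- one-sided Leibniz rule, after `S_*` -/
  cL : ℝ≥0
  leib : ∀ {s t p q v w u : ℝ≥0} (_ : s + t + cL ≤ u) (h1 : s + t ≤ p) (h2 : p + cD ≤ q)
    (h3 : q ≤ u) (h4 : s + cD ≤ v) (h5 : v + t ≤ u) (h6 : t + cD ≤ w) (h7 : w ≤ u)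
    (a : A s) (b : A t),
    Sm h3 (Dc h2 (m h1 a b)) = m h5 (Sm le_rfl (Dc h4 a)) b + eps a • Sm h7 (Dc h6 b)
  /-- level loss of `Th` -/
  c3 : ℝ≥0

attribute [instance] LevA.ac LevA.mo LevA.ac2 LevA.mo2

variable {D : ℕ} (K : LevA D)

/-- two classes are equal at some level -/
def LevA.Eqv {s t : ℝ≥0} (a : K.A s) (b : K.A t) : Prop :=
  ∃ (u : ℝ≥0) (h1 : s ≤ u) (h2 : t ≤ u), K.inc h1 a = K.inc h2 b

/-- a class which is `0` at some level -/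
def LevA.Fin {s : ℝ≥0} (a : K.A s) : Prop := ∃ (u : ℝ≥0) (h1 : s ≤ u), K.inc h1 a = 0

/-- OUTPUT of leaf Q3: `Th w = S_*(w ∩ F^*ω)`, `ω` a `q`-cocycle which vanishes on `Ω_{s'}` and
is `1` on `xh`. -/
structure ThData (q : ℕ) (s' : ℝ≥0) {t0 : ℝ≥0} (xh : K.A t0) where
  Th : ∀ {T u : ℝ≥0}, T + K.c3 ≤ u + s' → K.A2 T →ₗ[ZMod 2] K.A u
  gr : ∀ {T u : ℝ≥0} (h : T + K.c3 ≤ u + s') (j : ℕ) (w : K.A2 T), w ∈ K.gr2 T (j + q) →
    Th h w ∈ K.gr u j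
  lt : ∀ {T u : ℝ≥0} (h : T + K.c3 ≤ u + s') (j : ℕ) (w : K.A2 T), w ∈ K.gr2 T j → j < q →
    Th h w = 0
  inc : ∀ {T u v : ℝ≥0} (h : T + K.c3 ≤ u + s') (h1 : u ≤ v) (h2 : T + K.c3 ≤ v + s')
    (w : K.A2 T), K.inc h1 (Th h w) = Th h2 w
  inc2 : ∀ {T T' u : ℝ≥0} (h1 : T ≤ T') (h : T' + K.c3 ≤ u + s') (h2 : T + K.c3 ≤ u + s')
    (w : K.A2 T), Th h (K.inc2 h1 w) = Th h2 w
  /-- `Th (F z, S) = 0` if `deg z > q` -/
  o_i1 : ∀ {s t t' T u : ℝ≥0} (h1 : t ≤ t') (h : s + t' ≤ T) (h2 : T + K.c3 ≤ u + s') (i : ℕ)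
    (w : K.A2 s) (z : K.A t), z ∈ K.gr t i → q < i → Th h2 (K.o h w (K.i1 h1 z)) = 0
  /-- `Th (y F, S) = 0` if `deg y > q` -/
  i1_o : ∀ {s t t' T u : ℝ≥0} (h1 : t ≤ t') (h : t' + s ≤ T) (h2 : T + K.c3 ≤ u + s') (i : ℕ)
    (w : K.A2 s) (y : K.A t), y ∈ K.gr t i → q < i → Th h2 (K.o h (K.i1 h1 y) w) = 0
  /-- `Th (F, z S) = z · Th (F, S)` -/
  o_i2 : ∀ {s t t' T u v : ℝ≥0} (h1 : t ≤ t') (h : s + t' ≤ T) (h2 : T + K.c3 ≤ u + s')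
    (h3 : s + K.c3 ≤ v + s') (h4 : t + v ≤ u) (w : K.A2 s) (z : K.A t),
    Th h2 (K.o h w (K.i2 h1 z)) = K.m h4 z (Th h3 w)
  /-- `Th (F, S y) = Th (F, S) · y` -/
  i2_o : ∀ {s t t' T u v : ℝ≥0} (h1 : t ≤ t') (h : t' + s ≤ T) (h2 : T + K.c3 ≤ u + s')
    (h3 : s + K.c3 ≤ v + s') (h4 : v + t ≤ u) (w : K.A2 s) (y : K.A t),
    Th h2 (K.o h (K.i2 h1 y) w) = K.m h4 (Th h3 w) y
  /-- `Th (F, z S) = 0` if the level of `(F, S)` is `≤ s'` (then `ω(F) = 0`) -/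
  small : ∀ {s t t' T u : ℝ≥0} (h1 : t ≤ t') (h : s + t' ≤ T) (h2 : T + K.c3 ≤ u + s')
    (_ : s ≤ s') (w : K.A2 s) (z : K.A t), Th h2 (K.o h w (K.i2 h1 z)) = 0
  /-- `ε (Th w) = ω(F_* w)` -/
  eps : ∀ {T T' u : ℝ≥0} (h : T + K.c3 ≤ u + s') (h' : T ≤ T') (w : K.A2 T), w ∈ K.gr2 T q →
    K.Eqv (K.Sm h' (K.sw w)) xh → K.eps (Th h w) = 1

/-- OUTPUT of leaf Q3 (existence): if `xh` is equal to no class of `Ω_{s'}`, there is a `q`-cocycle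
`ω` which vanishes on `Ω_{s'}` and is `1` on `xh`, hence `Th`. -/
def LevA.HasTh : Prop :=
  ∀ (q : ℕ) (s' t0 : ℝ≥0) (xh : K.A t0), 1 ≤ q → xh ∈ K.gr t0 q →
    (∀ y ∈ K.gr s' q, ¬ K.Eqv y xh) → Nonempty (ThData K q s' xh)

variable {K}

theorem z2 {M : Type*} [AddCommGroup M] [Module (ZMod 2) M] (x : M) : x + x = 0 := by
  have : (2 : ZMod 2) • x = 0 := by
    rw [show (2 : ZMod 2) = 0 from rfl, zero_smul]
  rwa [two_smul] at this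

theorem eq_of_add {M : Type*} [AddCommGroup M] [Module (ZMod 2) M] {a b : M} (h : a + b = 0) :
    a = b := by
  have h2 : a + b + b = b := by rw [h, zero_add]
  rwa [add_assoc, z2, add_zero] at h2

theorem zmod_cases (e : ZMod 2) : e = 0 ∨ e = 1 := by
  revert e
  decide

theorem LevA.Eqv.refl {s : ℝ≥0} (a : K.A s) : K.Eqv a a := ⟨s, le_rfl, le_rfl, rfl⟩

theorem LevA.Eqv.symm {s t : ℝ≥0} {a : K.A s} {b : K.A t} (h : K.Eqv a b) : K.Eqv b a := by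
  obtain ⟨u, h1, h2, h⟩ := h
  exact ⟨u, h2, h1, h.symm⟩

theorem LevA.Eqv.trans {s t r : ℝ≥0} {a : K.A s} {b : K.A t} {c : K.A r} (h : K.Eqv a b)
    (h' : K.Eqv b c) : K.Eqv a c := by
  obtain ⟨u, h1, h2, h⟩ := h
  obtain ⟨v, h3, h4, h'⟩ := h'
  refine ⟨max u v, h1.trans (le_max_left _ _), h4.trans (le_max_right _ _), ?_⟩
  rw [← K.inc_inc h1 (le_max_left u v), h, K.inc_inc h2 (le_max_left u v) (h2.trans (le_max_left _ _)),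
    ← K.inc_inc h3 (le_max_right u v) (h2.trans (le_max_left _ _)), h',
    K.inc_inc h4 (le_max_right u v)]

theorem LevA.Eqv.of_inc {s t : ℝ≥0} (h : s ≤ t) (a : K.A s) : K.Eqv (K.inc h a) a :=
  ⟨t, le_rfl, h, K.inc_self _⟩

theorem LevA.Eqv.fin {s t : ℝ≥0} {a : K.A s} {b : K.A t} (h : K.Eqv a b) (hb : K.Fin b) :
    K.Fin a := by
  obtain ⟨u, h1, h2, h⟩ := h
  obtain ⟨v, h3, h4⟩ := hb
  refine ⟨max u v, h1.trans (le_max_left _ _), ?_⟩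
  rw [← K.inc_inc h1 (le_max_left u v), h, K.inc_inc h2 (le_max_left u v) (h2.trans (le_max_left _ _)),
    ← K.inc_inc h3 (le_max_right u v) (h2.trans (le_max_left _ _)), h4, map_zero]

theorem LevA.Fin.inc {s t : ℝ≥0} {a : K.A s} (ha : K.Fin a) (h : s ≤ t) : K.Fin (K.inc h a) :=
  (LevA.Eqv.of_inc h a).fin ha

theorem LevA.Fin.of_inc {s t : ℝ≥0} {a : K.A s} {h : s ≤ t} (ha : K.Fin (K.inc h a)) : K.Fin a :=
  (LevA.Eqv.of_inc h a).symm.fin ha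

/-- `S_* D` respects `~` -/
theorem LevA.Eqv.SD {s t p p' u u' : ℝ≥0} {a : K.A s} {b : K.A t} (h : K.Eqv a b)
    (h1 : s + K.cD ≤ p) (h2 : p ≤ u) (h1' : t + K.cD ≤ p') (h2' : p' ≤ u') :
    K.Eqv (K.Sm h2 (K.Dc h1 a)) (K.Sm h2' (K.Dc h1' b)) := by
  obtain ⟨v, h3, h4, h⟩ := h
  set w : ℝ≥0 := max (v + K.cD) (max u u') with hw
  have hv : v + K.cD ≤ w := le_max_left _ _
  have hu : u ≤ w := (le_max_left _ _).trans (le_max_right _ _)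
  have hu' : u' ≤ w := (le_max_right _ _).trans (le_max_right _ _)
  refine ⟨w, hu, hu', ?_⟩
  rw [K.inc_Sm h2 hu (h2.trans hu), K.inc_Sm h2' hu' (h2'.trans hu'),
    ← K.Sm_inc2 (h2.trans hu) le_rfl (h2.trans hu), ← K.Sm_inc2 (h2'.trans hu') le_rfl (h2'.trans hu'),
    K.inc2_Dc h1 (h2.trans hu) (h1.trans (h2.trans hu)),
    K.inc2_Dc h1' (h2'.trans hu') (h1'.trans (h2'.trans hu')),
    ← K.Dc_inc h3 hv (h1.trans (h2.trans hu)), ← K.Dc_inc h4 hv (h1'.trans (h2'.trans hu')), h]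

/-- (1), left form: `y = ε(y) 1 + x · S_* D y`. -/
theorem one_rel (hD : 1 ≤ D) {t u : ℝ≥0} (h : t + K.cR ≤ u) (h1 : t ≤ u)
    (h2 : K.cx + (t + K.cD) ≤ u) (y : K.A t) :
    K.inc h1 y = K.eps y • K.one u + K.m h2 K.x (K.Sm le_rfl (K.Dc le_rfl y)) := by
  have h4 : (t + K.cD) + K.cx ≤ u := by rwa [add_comm] at h2
  have hR := K.R h h1 (le_refl (t + K.cD)) (le_refl K.cx) h4 y
  have := congrArg (K.Sm (le_refl u)) hR
  rw [map_add, map_add, map_add] at this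
  rw [K.Sm_i1 h1 le_rfl, K.Sm_i2 h1 le_rfl h1] at this
  rw [K.Sm_o_i1 le_rfl h4 le_rfl (le_trans le_self_add h4),
    K.Sm_o_i2 le_rfl h4 le_rfl le_rfl h2] at this
  have hx : K.eps K.x = 0 := by
    obtain ⟨j, rfl⟩ : ∃ j, D = j + 1 := ⟨D - 1, by omega⟩
    exact K.eps_gr j _ K.x_gr
  rw [hx, zero_smul, zero_add] at this
  rw [← this, ← add_assoc, z2, zero_add]

theorem cx_add_le {t u : ℝ≥0} (h : t + K.cR ≤ u) : K.cx + (t + K.cD) ≤ u := by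
  refine le_trans ?_ h
  calc K.cx + (t + K.cD) = t + (K.cD + K.cx) := by ring
    _ ≤ t + K.cR := by gcongr; exact K.cR_le

/-- classes of degree `0` -/
theorem deg0 (hD : 1 ≤ D) {t u : ℝ≥0} (h : t + K.cR ≤ u) (h1 : t ≤ u) (y : K.A t)
    (hy : y ∈ K.gr t 0) : K.inc h1 y = K.eps y • K.one u := by
  rw [one_rel hD h h1 (cx_add_le h) y, K.Dc_lt le_rfl 0 y hy (by omega), map_zero, map_zero, add_zero]

/-- classes of degree `0 < j < D` -/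
theorem deg_lt (hD : 1 ≤ D) {t u : ℝ≥0} (h : t + K.cR ≤ u) (h1 : t ≤ u) (y : K.A t) (j : ℕ)
    (hj0 : 0 < j) (hj : j < D) (hy : y ∈ K.gr t j) : K.inc h1 y = 0 := by
  obtain ⟨i, rfl⟩ : ∃ i, j = i + 1 := ⟨j - 1, by omega⟩
  rw [one_rel hD h h1 (cx_add_le h) y, K.Dc_lt le_rfl _ y hy hj, map_zero, map_zero, add_zero,
    K.eps_gr i y hy, zero_smul]

/-- classes of degree `D` -/
theorem deg_D (hD : 1 ≤ D) {t u : ℝ≥0} (h : t + (K.cR + K.cR) ≤ u) (h1 : t ≤ u) (y : K.A t)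
    (hy : y ∈ K.gr t D) (hxu : K.cx ≤ u) :
    ∃ e : ZMod 2, e = K.eps (K.Sm le_rfl (K.Dc le_rfl y)) ∧ K.inc h1 y = e • K.inc hxu K.x := by
  have hR : t + K.cR ≤ u := le_trans (by gcongr; exact le_self_add) h
  have hy' : y ∈ K.gr t (0 + D) := by rwa [zero_add]
  have hw := K.Dc_gr (le_refl (t + K.cD)) 0 y hy'
  have hS := K.Sm_gr (le_refl (t + K.cD)) 0 _ hw
  have hcD : K.cD ≤ K.cR := le_trans le_self_add K.cR_le
  set v : ℝ≥0 := (t + K.cD) + K.cR with hv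
  have h5 : K.cx + v ≤ u := by
    refine le_trans ?_ h
    calc K.cx + v = t + ((K.cD + K.cx) + K.cR) := by rw [hv]; ring
      _ ≤ t + (K.cR + K.cR) := by gcongr; exact K.cR_le
  refine ⟨_, rfl, ?_⟩
  rw [one_rel hD hR h1 (cx_add_le hR) y]
  have he : K.eps y = 0 := by
    obtain ⟨j, rfl⟩ : ∃ j, D = j + 1 := ⟨D - 1, by omega⟩
    exact K.eps_gr j _ hy
  rw [he, zero_smul, zero_add,
    ← K.m_inc_r (show t + K.cD ≤ v from le_self_add) h5 (cx_add_le hR),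
    deg0 hD (le_refl v) le_self_add _ hS, map_smul, K.m_one h5 hxu]

/-- `ε (S_* D x) = 1` -/
theorem eps_SDx (hD : 1 ≤ D) : K.eps (K.Sm le_rfl (K.Dc le_rfl K.x)) = 1 := by
  obtain ⟨e, he, h⟩ := deg_D hD (le_refl _) le_self_add K.x K.x_gr
    (show K.cx ≤ K.cx + (K.cR + K.cR) from le_self_add)
  rcases zmod_cases e with h0 | h0
  · rw [h0, zero_smul] at h
    exact absurd h (K.x_ne _)
  · rw [← he, h0]

variable (K) in
/-- the powers `x^k` -/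
noncomputable def xp : ∀ k : ℕ, K.A ((k : ℝ≥0) * K.cx)
  | 0 => K.one _
  | (k + 1) => K.m (s := K.cx) (t := (k : ℝ≥0) * K.cx) (by push_cast; rw [add_mul, one_mul, add_comm])
      K.x (xp k)

theorem xp_gr : ∀ k : ℕ, xp K k ∈ K.gr _ (k * D)
  | 0 => by simpa [xp] using K.one_gr _
  | (k + 1) => by
    have := K.m_gr (s := K.cx) (t := (k : ℝ≥0) * K.cx) (u := ((k + 1 : ℕ) : ℝ≥0) * K.cx)
      (by push_cast; rw [add_mul, one_mul, add_comm]) D (k * D) K.x (xp K k) K.x_gr (xp_gr k)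
    rw [show (k + 1) * D = D + k * D by ring]
    exact this

/-- `S_* D (x b) = b` in the limit -/
theorem SD_mx (hD : 1 ≤ D) {t p q u : ℝ≥0} (h1 : K.cx + t ≤ p) (h2 : p + K.cD ≤ q) (h3 : q ≤ u)
    (b : K.A t) : K.Eqv (K.Sm h3 (K.Dc h2 (K.m h1 K.x b))) b := by
  have hx : K.eps K.x = 0 := by
    obtain ⟨j, rfl⟩ : ∃ j, D = j + 1 := ⟨D - 1, by omega⟩
    exact K.eps_gr j _ K.x_gr
  -- a large level
  set v : ℝ≥0 := (K.cx + K.cD) + K.cR with hv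
  set w : ℝ≥0 := max u ((K.cx + t + K.cL) + (v + t) + (t + K.cD)) with hw
  have huw : u ≤ w := le_max_left _ _
  have hbig : (K.cx + t + K.cL) + (v + t) + (t + K.cD) ≤ w := le_max_right _ _
  have e1 : K.cx + t + K.cL ≤ w := le_trans (le_trans le_self_add le_self_add) hbig
  have e2 : v + t ≤ w := le_trans (le_trans le_add_self le_self_add) hbig
  have e3 : t + K.cD ≤ w := le_trans le_add_self hbig
  have e4 : (K.cx + K.cD) + t ≤ w :=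
    le_trans (add_le_add (show K.cx + K.cD ≤ v from le_self_add) le_rfl) e2
  have e5 : t ≤ w := le_trans le_self_add e3
  refine ⟨w, huw, e5, ?_⟩
  rw [K.inc_Sm h3 huw (h3.trans huw),
    K.leib e1 h1 h2 (h3.trans huw) (le_refl (K.cx + K.cD)) e4 (le_refl (t + K.cD)) e3, hx, zero_smul,
    add_zero]
  have hS : K.Sm (le_refl (K.cx + K.cD)) (K.Dc (le_refl (K.cx + K.cD)) K.x) ∈ K.gr _ 0 :=
    K.Sm_gr _ 0 _ (K.Dc_gr _ 0 _ (by rw [zero_add]; exact K.x_gr))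
  rw [← K.m_inc_l (show K.cx + K.cD ≤ v from le_self_add) e2 e4,
    deg0 hD (le_refl v) le_self_add _ hS, eps_SDx hD, one_smul, K.one_m e2 e5]

theorem SD_xp (hD : 1 ≤ D) (k : ℕ) {p u : ℝ≥0} (h1 : ((k + 1 : ℕ) : ℝ≥0) * K.cx + K.cD ≤ p)
    (h2 : p ≤ u) : K.Eqv (K.Sm h2 (K.Dc h1 (xp K (k + 1)))) (xp K k) :=
  SD_mx hD _ h1 h2 (xp K k)

theorem fin_iff {s : ℝ≥0} (a : K.A s) : K.Fin a ↔ K.Eqv a (0 : K.A s) := by
  constructor
  · rintro ⟨u, h, h'⟩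
    exact ⟨u, h, h, by rw [h', map_zero]⟩
  · rintro ⟨u, h, h', h''⟩
    exact ⟨u, h, by rw [h'', map_zero]⟩

theorem LevA.Fin.SD {s p u : ℝ≥0} {a : K.A s} (h : K.Fin a) (h1 : s + K.cD ≤ p) (h2 : p ≤ u) :
    K.Fin (K.Sm h2 (K.Dc h1 a)) := by
  have := LevA.Eqv.SD ((fin_iff a).1 h) h1 h2 h1 h2
  rw [map_zero, map_zero] at this
  exact (fin_iff _).2 this

theorem xp_ne (hD : 1 ≤ D) : ∀ k : ℕ, ¬ K.Fin (xp K k)
  | 0 => by
    rintro ⟨u, h, h'⟩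
    have h2 := congrArg K.eps h'
    rw [K.eps_inc, map_zero] at h2
    have : K.eps (xp K 0) = 1 := K.eps_one _
    rw [this] at h2
    exact absurd h2 (by decide)
  | (k + 1) => fun h => xp_ne hD k
      ((SD_xp hD k (le_refl _) (le_refl _)).symm.fin (h.SD (le_refl _) (le_refl _)))

variable (K) in
/-- the level of `x^k` -/
noncomputable def sg (k : ℕ) : ℝ≥0 := sInf {t | ∃ z ∈ K.gr t (k * D), K.Eqv z (xp K k)}

theorem sg_le {k : ℕ} {t : ℝ≥0} {z : K.A t} (hz : z ∈ K.gr t (k * D)) (h : K.Eqv z (xp K k)) :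
    sg K k ≤ t := csInf_le (OrderBot.bddBelow _) ⟨z, hz, h⟩

theorem exists_near (k : ℕ) {ε : ℝ≥0} (hε : 0 < ε) :
    ∃ (t : ℝ≥0) (_ : t < sg K k + ε) (z : K.A t), z ∈ K.gr t (k * D) ∧ K.Eqv z (xp K k) := by
  have hne : {t | ∃ z ∈ K.gr t (k * D), K.Eqv z (xp K k)}.Nonempty :=
    ⟨_, xp K k, xp_gr k, LevA.Eqv.refl _⟩
  obtain ⟨t, ⟨z, hz, hz'⟩, ht⟩ := exists_lt_of_csInf_lt hne (lt_add_of_pos_right (sg K k) hε)
  exact ⟨t, ht, z, hz, hz'⟩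

theorem LevA.Eqv.mx {k : ℕ} {t : ℝ≥0} {z : K.A t} (h : K.Eqv z (xp K k)) :
    K.Eqv (K.m (le_refl (K.cx + t)) K.x z) (xp K (k + 1)) := by
  obtain ⟨v, h1, h2, h⟩ := h
  have e1 : K.cx + t ≤ K.cx + v := by gcongr
  have e2 : K.cx + (k : ℝ≥0) * K.cx ≤ K.cx + v := by gcongr
  have e3 : ((k + 1 : ℕ) : ℝ≥0) * K.cx ≤ K.cx + v := by
    refine le_trans (le_of_eq ?_) e2
    push_cast
    ring
  refine ⟨K.cx + v, e1, e3, ?_⟩
  rw [K.inc_m (le_refl (K.cx + t)) e1 e1]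
  show _ = K.inc e3 (K.m _ K.x (xp K k))
  rw [K.inc_m _ e3 e2, ← K.m_inc_r h1 (le_refl _) e1, ← K.m_inc_r h2 (le_refl _) e2, h]

theorem sg_succ (k : ℕ) : sg K (k + 1) ≤ sg K k + K.cx := by
  refine le_of_forall_pos_le_add fun ε hε => ?_
  obtain ⟨t, ht, z, hz, hz'⟩ := exists_near (K := K) k hε
  have h1 := K.m_gr (le_refl (K.cx + t)) D (k * D) K.x z K.x_gr hz
  have h2 : D + k * D = (k + 1) * D := by ring
  rw [h2] at h1
  have h3 := sg_le h1 hz'.mx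
  calc sg K (k + 1) ≤ K.cx + t := h3
    _ ≤ K.cx + (sg K k + ε) := by gcongr
    _ = sg K k + K.cx + ε := by ring

/-- the swapped relation (R) -/
theorem Rsw {t u p q : ℝ≥0} (hR : t + K.cR ≤ u) (h1 : t ≤ u) (h2 : t + K.cD ≤ p) (h3 : K.cx ≤ q)
    (h4 : q + p ≤ u) (z : K.A t) :
    K.i1 h1 z + K.i2 h1 z = K.o h4 (K.i1 h3 K.x + K.i2 h3 K.x) (K.sw (K.Dc h2 z)) := by
  have h4' : p + q ≤ u := by rwa [add_comm] at h4
  have h := congrArg K.sw (K.R hR h1 h2 h3 h4' z)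
  rw [map_add, K.sw_i1, K.sw_i2, K.sw_o h4' h4, map_add, K.sw_i1, K.sw_i2] at h
  rw [add_comm, h, add_comm (K.i2 h3 K.x)]

/-- the crossing exchange (K2') -/
theorem crossing {t τ u : ℝ≥0} (h1 : (t + K.cD) + (τ + K.cR) ≤ u)
    (h2 : (t + K.cR) + (τ + K.cD) ≤ u) (y : K.A t) (z : K.A τ) :
    K.o h1 (K.Dc le_rfl y) (K.i1 le_self_add z + K.i2 le_self_add z) =
      K.o h2 (K.i1 le_self_add y + K.i2 le_self_add y) (K.sw (K.Dc le_rfl z)) := by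
  have a1 : K.cx + (τ + K.cD) ≤ τ + K.cR := cx_add_le le_rfl
  have a2 : (t + K.cD) + K.cx ≤ t + K.cR := by rw [add_comm]; exact cx_add_le le_rfl
  rw [Rsw (le_refl (τ + K.cR)) le_self_add (le_refl (τ + K.cD)) (le_refl K.cx) a1 z,
    ← K.o_assoc a2 h2 a1 h1, ← K.R (le_refl (t + K.cR)) le_self_add (le_refl _) (le_refl _) a2 y]

/-- the total loss -/
noncomputable def cT (K : LevA D) : ℝ≥0 :=
  K.cx + 2 + K.cD + K.c3 + K.cR + K.cR + K.cD + K.cR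

/-- **main step**: degrees `(k-1)D < j ≤ kD`, `k ≥ 2`. -/
theorem step (hD : 1 ≤ D) (hT : K.HasTh) {k j : ℕ} (hk : 2 ≤ k) (hj1 : (k - 1) * D < j)
    (hj2 : j ≤ k * D) {t u : ℝ≥0} (hu : t + cT K ≤ u) (h : t ≤ u) (y : K.A t)
    (hy : y ∈ K.gr t j) :
    K.inc h y = 0 ∨ (j = k * D ∧ ∃ (τ : ℝ≥0) (hτ : τ ≤ u) (z : K.A τ), z ∈ K.gr τ (k * D) ∧
      K.Eqv z (xp K k) ∧ K.inc h y = K.inc hτ z) := by
  obtain ⟨k, rfl⟩ : ∃ k', k = k' + 1 := ⟨k - 1, by omega⟩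
  have hk1 : 1 ≤ k := by omega
  rw [Nat.add_sub_cancel] at hj1
  have hq1 : 1 ≤ k * D := Nat.one_le_iff_ne_zero.2 (Nat.mul_ne_zero (by omega) (by omega))
  -- the class `z`
  obtain ⟨τ, hτ, z, hz, hz'⟩ := exists_near (K := K) (k + 1) one_pos
  -- the level `s'`
  obtain ⟨s', hs1, hs2, hs3⟩ : ∃ s' : ℝ≥0, τ ≤ s' + K.cx + 2 ∧
      (∀ w ∈ K.gr s' (k * D), ¬ K.Eqv w (xp K k)) ∧ True := by
    refine ⟨sg K k - 1, ?_, ?_, trivial⟩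
    · have h1 := sg_succ (K := K) k
      have h2 : sg K k ≤ sg K k - 1 + 1 := le_tsub_add
      calc τ ≤ sg K (k + 1) + 1 := hτ.le
        _ ≤ (sg K k + K.cx) + 1 := by gcongr
        _ ≤ ((sg K k - 1 + 1) + K.cx) + 1 := by gcongr
        _ = sg K k - 1 + K.cx + 2 := by ring
    · rcases le_total (sg K k) 1 with h1 | h1
      · rw [tsub_eq_zero_of_le h1]
        intro w hw hE
        obtain ⟨i, hi⟩ : ∃ i, k * D = i + 1 := ⟨k * D - 1, by omega⟩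
        rw [hi] at hw
        have : w = 0 := K.gr_zero i w hw
        subst this
        exact xp_ne hD k ((fin_iff _).2 (hE.symm.trans
          ((fin_iff (0 : K.A 0)).1 ⟨0, le_rfl, map_zero _⟩ |> fun _ => by
            refine ⟨max 0 ((k : ℝ≥0) * K.cx), le_max_left _ _, le_max_right _ _, ?_⟩
            rw [map_zero, map_zero])))
      · intro w hw hE
        have h2 := sg_le hw hE
        have h3 : sg K k - 1 < sg K k := tsub_lt_self (lt_of_lt_of_le one_pos h1) one_pos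
        exact absurd h2 (not_le.2 h3)
  obtain ⟨Θ⟩ := hT (k * D) s' _ (xp K k) hq1 (xp_gr k) hs2
  -- levels
  have hcT : cT K = K.cx + 2 + K.cD + K.c3 + K.cR + K.cR + K.cD + K.cR := rfl
  set v1 : ℝ≥0 := K.cx + 2 + K.cD + K.c3 with hv1
  have L1 : (τ + K.cD) + K.c3 ≤ v1 + s' := by
    calc (τ + K.cD) + K.c3 ≤ ((s' + K.cx + 2) + K.cD) + K.c3 := by gcongr
      _ = v1 + s' := by rw [hv1]; ring
  have L2 : v1 + K.cR + t ≤ u := by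
    refine le_trans ?_ hu
    rw [hcT]
    calc v1 + K.cR + t ≤ v1 + K.cR + t + (K.cR + K.cD + K.cR) := le_self_add
      _ = t + (K.cx + 2 + K.cD + K.c3 + K.cR + K.cR + K.cD + K.cR) := by rw [hv1]; ring
  have L2' : v1 + t ≤ u := le_trans (by
    calc v1 + t ≤ v1 + t + K.cR := le_self_add
      _ = v1 + K.cR + t := by ring) L2
  set u0 : ℝ≥0 := t + τ + K.cR + K.cD with hu0
  have L3 : u0 + K.c3 ≤ u + s' := by
    calc u0 + K.c3 = t + τ + K.cR + K.cD + K.c3 := by rw [hu0]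
      _ ≤ t + (s' + K.cx + 2) + K.cR + K.cD + K.c3 := by gcongr
      _ ≤ t + (s' + K.cx + 2) + K.cR + K.cD + K.c3 + (K.cR + K.cD + K.cR) := le_self_add
      _ = (t + cT K) + s' := by rw [hcT]; ring
      _ ≤ u + s' := by gcongr
  have L4 : (t + K.cD) + (τ + K.cR) ≤ u0 := le_of_eq (by rw [hu0]; ring)
  have L5 : (t + K.cR) + (τ + K.cD) ≤ u0 := le_of_eq (by rw [hu0]; ring)
  -- `V = sw (D z)` and `U = Th V`
  set V : K.A2 (τ + K.cD) := K.sw (K.Dc le_rfl z) with hV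
  have hDz : K.Dc (le_refl (τ + K.cD)) z ∈ K.gr2 _ (k * D) :=
    K.Dc_gr _ _ _ (by rw [show k * D + D = (k + 1) * D by ring]; exact hz)
  have hVgr : V ∈ K.gr2 _ (k * D) := K.sw_gr _ _ hDz
  have hUgr : Θ.Th L1 V ∈ K.gr _ 0 := Θ.gr L1 0 V (by rw [zero_add]; exact hVgr)
  have hUeps : K.eps (Θ.Th L1 V) = 1 := by
    refine Θ.eps L1 le_rfl V hVgr ?_
    rw [hV, K.sw_sw]
    exact (LevA.Eqv.SD hz' (le_refl _) (le_refl _) (le_refl _) (le_refl _)).trans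
      (SD_xp hD k (le_refl _) (le_refl _))
  have hUy : K.m L2' (Θ.Th L1 V) y = K.inc h y := by
    rw [← K.m_inc_l (show v1 ≤ v1 + K.cR from le_self_add) L2 L2',
      deg0 hD (le_refl (v1 + K.cR)) le_self_add _ hUgr, hUeps, one_smul, K.one_m L2 h]
  -- apply `Th` to the crossing exchange
  have hcr := congrArg (Θ.Th L3) (crossing L4 L5 y z)
  rw [map_add, map_add (K.o L5), LinearMap.add_apply, map_add, map_add] at hcr
  rw [Θ.o_i1 le_self_add L4 L3 ((k + 1) * D) _ z hz (by nlinarith), zero_add,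
    Θ.i1_o le_self_add L5 L3 j V y hy hj1, zero_add,
    Θ.i2_o le_self_add L5 L3 L1 L2' V y, hUy] at hcr
  -- `hcr : Th (D y ∘ i2 z) = inc h y`
  by_cases hsmall : t + K.cD ≤ s'
  · left
    rw [← hcr, Θ.small le_self_add L4 L3 hsmall]
  push Not at hsmall
  set v3 : ℝ≥0 := t + K.cD + K.c3 - s' with hv3
  have L6 : (t + K.cD) + K.c3 ≤ v3 + s' := le_tsub_add
  have hs' : s' ≤ t + K.cD + K.c3 := hsmall.le.trans le_self_add
  have L7 : τ + (v3 + K.cR) ≤ u := by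
    calc τ + (v3 + K.cR) ≤ (s' + K.cx + 2) + (v3 + K.cR) := by gcongr
      _ = (v3 + s') + K.cx + 2 + K.cR := by ring
      _ = (t + K.cD + K.c3) + K.cx + 2 + K.cR := by rw [hv3, tsub_add_cancel_of_le hs']
      _ ≤ (t + K.cD + K.c3) + K.cx + 2 + K.cR + (K.cR + K.cD + K.cR) := le_self_add
      _ = t + cT K := by rw [hcT]; ring
      _ ≤ u := hu
  have L7' : τ + v3 ≤ u := le_trans (by gcongr; exact le_self_add) L7
  rw [Θ.o_i2 le_self_add L4 L3 L6 L7' _ z] at hcr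
  by_cases hj : j = (k + 1) * D
  · -- top degree
    have hDy : K.Dc (le_refl (t + K.cD)) y ∈ K.gr2 _ (k * D) :=
      K.Dc_gr _ _ _ (by rw [show k * D + D = (k + 1) * D by ring, ← hj]; exact hy)
    have hTgr : Θ.Th L6 (K.Dc le_rfl y) ∈ K.gr _ 0 := Θ.gr L6 0 _ (by rw [zero_add]; exact hDy)
    have hτu : τ ≤ u := le_trans le_self_add L7'
    rw [← K.m_inc_r (show v3 ≤ v3 + K.cR from le_self_add) L7 L7',
      deg0 hD (le_refl (v3 + K.cR)) le_self_add _ hTgr, map_smul, K.m_one L7 hτu] at hcr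
    rcases zmod_cases (K.eps (Θ.Th L6 (K.Dc le_rfl y))) with h0 | h0
    · left
      rw [← hcr, h0, zero_smul]
    · right
      exact ⟨hj, τ, hτu, z, hz, hz', by rw [← hcr, h0, one_smul]⟩
  · left
    have hjD : D ≤ j := by nlinarith
    have hDy : K.Dc (le_refl (t + K.cD)) y ∈ K.gr2 _ (j - D) :=
      K.Dc_gr _ _ _ (by rw [Nat.sub_add_cancel hjD]; exact hy)
    have hlt : j - D < k * D := by
      have : (k + 1) * D = k * D + D := by ring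
      omega
    rw [← hcr, Θ.lt L6 (j - D) _ hDy hlt, map_zero]

/-- **strong bounded bars**: every class of degree `(k-1)D < j ≤ kD` and level `t` is, at level
`t + C`, zero or (if `j = kD`) a class over `x^k`. -/
theorem strong (hD : 1 ≤ D) (hT : K.HasTh) {k j : ℕ} (hk : 1 ≤ k) (hj1 : (k - 1) * D < j)
    (hj2 : j ≤ k * D) {t u : ℝ≥0} (hu : t + (cT K + K.cx + K.cx) ≤ u) (h : t ≤ u) (y : K.A t)
    (hy : y ∈ K.gr t j) :
    K.inc h y = 0 ∨ (j = k * D ∧ ∃ (τ : ℝ≥0) (hτ : τ ≤ u) (z : K.A τ), z ∈ K.gr τ (k * D) ∧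
      K.Eqv z (xp K k) ∧ K.inc h y = K.inc hτ z) := by
  rcases Nat.lt_or_ge k 2 with h1 | h1
  · obtain rfl : k = 1 := by omega
    simp only [Nat.sub_self, zero_mul, one_mul] at hj1 hj2 ⊢
    have hcT : cT K = K.cx + 2 + K.cD + K.c3 + K.cR + K.cR + K.cD + K.cR := rfl
    have e1 : t + (K.cR + K.cR) ≤ u := by
      refine le_trans ?_ hu
      rw [hcT]
      calc t + (K.cR + K.cR) ≤ t + (K.cR + K.cR) +
            (K.cx + 2 + K.cD + K.c3 + K.cD + K.cR + K.cx + K.cx) := le_self_add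
        _ = _ := by ring
    have e2 : t + K.cR ≤ u := le_trans (by gcongr; exact le_self_add) e1
    rcases Nat.lt_or_ge j D with h2 | h2
    · exact Or.inl (deg_lt hD e2 h y j hj1 h2 hy)
    · obtain rfl : j = D := by omega
      have e3 : K.cx ≤ u := le_trans (le_trans le_add_self le_add_self) hu
      obtain ⟨e, _, he⟩ := deg_D hD e1 h y hy e3
      rcases zmod_cases e with h0 | h0
      · left
        rw [he, h0, zero_smul]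
      · right
        refine ⟨rfl, K.cx, e3, K.x, K.x_gr, ?_, by rw [he, h0, one_smul]⟩
        -- `x ~ x^1`
        have e4 : ((1 : ℕ) : ℝ≥0) * K.cx ≤ K.cx := by simp
        refine ⟨K.cx, le_rfl, e4, ?_⟩
        show _ = K.inc e4 (K.m _ K.x (K.one _))
        rw [K.inc_m _ e4 (by simp), K.m_one _ le_rfl]
  · exact step hD hT h1 hj1 hj2 (le_trans (by
      gcongr
      exact le_trans le_self_add le_self_add) hu) h y hy

theorem exists_k {D : ℕ} (hD : 1 ≤ D) {j : ℕ} (hj : 1 ≤ j) :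
    ∃ k, 1 ≤ k ∧ (k - 1) * D < j ∧ j ≤ k * D := by
  have hex : ∃ k : ℕ, j ≤ k * D := ⟨j, by nlinarith⟩
  refine ⟨Nat.find hex, ?_, ?_, Nat.find_spec hex⟩
  · by_contra h0
    have h0' : Nat.find hex = 0 := by omega
    have := Nat.find_spec hex
    rw [h0', zero_mul] at this
    omega
  · have h0 : 1 ≤ Nat.find hex := by
      by_contra h0
      have h0' : Nat.find hex = 0 := by omega
      have := Nat.find_spec hex
      rw [h0', zero_mul] at this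
      omega
    have := Nat.find_min hex (show Nat.find hex - 1 < Nat.find hex by omega)
    omega

/-- **BD(Ω)**: there is a uniform `C` such that every finite class of level `t` dies at level
`t + C`. -/
theorem bd (hD : 1 ≤ D) (hT : K.HasTh) : ∃ C : ℝ≥0, ∀ (j : ℕ) (t u : ℝ≥0) (h : t ≤ u) (y : K.A t),
    t + C ≤ u → y ∈ K.gr t j → K.Fin y → K.inc h y = 0 := by
  refine ⟨cT K + K.cx + K.cx, fun j t u h y hu hy hfin => ?_⟩
  rcases Nat.eq_zero_or_pos j with rfl | hj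
  · have hcT : cT K = K.cx + 2 + K.cD + K.c3 + K.cR + K.cR + K.cD + K.cR := rfl
    have e2 : t + K.cR ≤ u := by
      refine le_trans ?_ hu
      rw [hcT]
      calc t + K.cR ≤ t + K.cR +
            (K.cR + K.cx + 2 + K.cD + K.c3 + K.cD + K.cR + K.cx + K.cx) := le_self_add
        _ = _ := by ring
    rw [deg0 hD e2 h y hy]
    obtain ⟨v, h1, h2⟩ := hfin
    have := congrArg K.eps h2
    rw [K.eps_inc, map_zero] at this
    rw [this, zero_smul]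
  · obtain ⟨k, hk, h1, h2⟩ := exists_k hD hj
    rcases strong hD hT hk h1 h2 hu h y hy with h3 | ⟨_, τ, hτ, z, _, hz', h3⟩
    · exact h3
    · exfalso
      have h4 : K.Fin (K.inc hτ z) := h3 ▸ hfin.inc h
      exact xp_ne hD k (hz'.symm.fin h4.of_inc)

/-- **`H_j(Ω_∞) = F x^k` if `j = k D`, else `0`** (`j ≥ 1`) -/
theorem basis (hD : 1 ≤ D) (hT : K.HasTh) (j : ℕ) (hj : 1 ≤ j) (t : ℝ≥0) (y : K.A t)
    (hy : y ∈ K.gr t j) : K.Fin y ∨ ∃ k, j = k * D ∧ K.Eqv y (xp K k) := by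
  obtain ⟨k, hk, h1, h2⟩ := exists_k hD hj
  rcases strong hD hT hk h1 h2 (le_refl _) le_self_add y hy with h3 | ⟨h4, τ, hτ, z, _, hz', h3⟩
  · exact Or.inl ⟨_, _, h3⟩
  · refine Or.inr ⟨k, h4, ?_⟩
    exact (LevA.Eqv.of_inc _ y).symm.trans ((show K.Eqv (K.inc _ y) z from
      h3 ▸ LevA.Eqv.of_inc hτ z).trans hz')

end Crest.Agent.R231.Levx969
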