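import Crest.Agent.R231.Q8_733
import Crest.Agent.R231.Lev_969

/-!
# Row 231 (S0357), block P: the output of leaf Q6 over 969's `LevA` (helper733)

`LamSys M K` : `K : LevA D` (levelled algebra of the based loops), `HS (La M t)` the free Moore loops
(`t : ℝ≥0`), `js : A t → HS (La M t)` (`j_*`), `jr : HS (La M t) → A u` (`j_!`), and the two
exactness statements (W1), (W2).
-/

set_option autoImplicit false

noncomputable section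

open Function Topology Set
open Crest.Agent.R204
open scoped NNReal

namespace Crest.Agent.R231.LamSysx733

open FinDim315 LaDefx733 Q8x733 Levx969 SpecA

/-- inclusion of levels in homology, `NNReal` levels -/
abbrev hL (M : Type) [MetricSpace M] {s t : ℝ≥0} (h : s ≤ t) :
    HS (La M (s : ℝ)) →ₗ[F2] HS (La M (t : ℝ)) := Hm (incL (NNReal.coe_le_coe.2 h))

/-- degree `j` part of `H(La t)` -/
abbrev gL (M : Type) [MetricSpace M] (t : ℝ≥0) (j : ℕ) : Submodule F2 (HS (La M (t : ℝ))) :=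
  H.gr F2 (SS.Sing (La M (t : ℝ))) j

/-- **OUTPUT of leaf Q6** (`n = D + 1`) -/
structure LamSys (M : Type) [MetricSpace M] {D : ℕ} (K : LevA D) where
  /-- `j_* : H(Ω_t) → H(Λ_t)` -/
  js : ∀ t : ℝ≥0, K.A t →ₗ[F2] HS (La M (t : ℝ))
  js_gr : ∀ {t : ℝ≥0} (j : ℕ) (y : K.A t), y ∈ K.gr t j → js t y ∈ gL M t j
  js_inc : ∀ {s t : ℝ≥0} (h : s ≤ t) (y : K.A s), js t (K.inc h y) = hL M h (js s y)
  /-- the evaluation is constant on the based loops -/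
  ev_js : ∀ {t : ℝ≥0} (j : ℕ) (y : K.A t), y ∈ K.gr t (j + 1) → Hm (evL M (t : ℝ)) (js t y) = 0
  /-- loss -/
  k : ℝ≥0
  /-- `j_! : H(Λ_t) → H(Ω_u)` -/
  jr : ∀ {t u : ℝ≥0}, t + k ≤ u → HS (La M (t : ℝ)) →ₗ[F2] K.A u
  jr_gr : ∀ {t u : ℝ≥0} (h : t + k ≤ u) (j : ℕ) (z : HS (La M (t : ℝ))), z ∈ gL M t (j + D + 1) →
    jr h z ∈ K.gr u j
  jr_low : ∀ {t u : ℝ≥0} (h : t + k ≤ u) (j : ℕ) (z : HS (La M (t : ℝ))), z ∈ gL M t j →
    j < D + 1 → jr h z = 0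
  jr_inc : ∀ {s t u : ℝ≥0} (h1 : s ≤ t) (h : t + k ≤ u) (h2 : s + k ≤ u) (z : HS (La M (s : ℝ))),
    jr h (hL M h1 z) = jr h2 z
  inc_jr : ∀ {t u v : ℝ≥0} (h : t + k ≤ u) (h1 : u ≤ v) (h2 : t + k ≤ v)
    (z : HS (La M (t : ℝ))), K.inc h1 (jr h z) = jr h2 z
  /-- (W1) coarse exactness -/
  w1 : ∀ {t u : ℝ≥0} (h : t + k ≤ u) (h1 : t ≤ u + k) (j : ℕ) (z : HS (La M (t : ℝ))),
    z ∈ gL M t j → jr h z = 0 → ∃ y ∈ K.gr (u + k) j, js (u + k) y = hL M h1 z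
  /-- (W2) kernel of `j_*` -/
  w2 : ∀ {t : ℝ≥0} (j : ℕ) (y : K.A t), y ∈ K.gr t j →
    (∃ (T : ℝ≥0) (h : t ≤ T), hL M h (js t y) = 0) →
    ∃ (b u : ℝ≥0) (h : t ≤ u) (h1 : K.cx + b ≤ u) (h2 : b + K.cx ≤ u) (i : ℕ) (w : K.A b),
      w ∈ K.gr b i ∧ K.inc h y = K.m h1 K.x w + K.m h2 w K.x

end Crest.Agent.R231.LamSysx733
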