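import Crest.Agent.R231.LamLev_989
import Crest.Agent.R231.LamSys_733

/-!
# Row 231, block P, leaf (VIII), concrete form (helper989)

`LamSys M K` (733, output of leaf Q6 over 969's `LevA`), `1 ≤ D`, `K.HasTh` ⟹
* `bdh_of : BDH M` (bounded bars of the free Moore loops),
* `steph_of : StepH M D`,
* `pout_of : IfPTx200.POut n M` for `D = n - 1`, `2 ≤ n`  (through 733's `POut_of`).
-/

set_option autoImplicit false

noncomputable section

open Function Topology Set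
open Crest.Agent.R204
open scoped NNReal

namespace Crest.Agent.R231.LamConx989

open FinDim315 LaDefx733 Q8x733 Levx969 SpecA LamSysx733 LamLevx989

variable {M : Type} [MetricSpace M] {D : ℕ} {K : LevA D}

theorem hL_hL {s t u : ℝ≥0} (h1 : s ≤ t) (h2 : t ≤ u) (h3 : s ≤ u) (z : HS (La M (s : ℝ))) :
    hL M h2 (hL M h1 z) = hL M h3 z := by
  show Hm _ (Hm _ z) = Hm _ z
  rw [← Hm_comp_apply]
  rfl

/-- the abstract system of `LamLev_989` -/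
def ops (S : LamSys M K) : LamOps K where
  La t := HS (La M (t : ℝ))
  gr := gL M
  inc := hL M
  inc_inc := hL_hL
  js := S.js
  js_inc := S.js_inc
  c := S.k
  Dr := S.jr
  Dr_gr := S.jr_gr
  Dr_lt := S.jr_low
  Dr_inc := S.jr_inc
  inc_Dr := S.inc_jr
  w1 := by
    intro t s u h hu htu j z hz h0
    have h1 : t ≤ s + S.k := le_trans (le_trans le_self_add h) le_self_add
    obtain ⟨y, hy, e⟩ := S.w1 h h1 j z hz h0
    refine ⟨K.inc hu y, K.inc_gr _ _ _ hy, ?_⟩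
    rw [S.js_inc, e, hL_hL h1 hu htu]
  w2 := by
    intro t s h j y hy h0
    obtain ⟨b, u, h', h1, h2, i, w, hw, e⟩ := S.w2 j y hy ⟨s, h, h0⟩
    refine Or.inr ⟨b, u, h1, h2, i, w, hw, ?_⟩
    rw [← e]
    exact (LevA.Eqv.of_inc h' y).symm

/-- **bounded bars of the free Moore loops** -/
theorem bdh_of (S : LamSys M K) (hD : 1 ≤ D) (hT : K.HasTh) : BDH M := by
  obtain ⟨C, hC⟩ := bdh (ops S) hD hT
  refine ⟨C, C.2, ?_⟩
  intro t ht j z hz hs h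
  obtain ⟨s, h', hs⟩ := hs
  exact hC j ⟨t, ht⟩ ⟨t + C, add_nonneg ht C.2⟩ h z (le_refl _) hz
    ⟨⟨s, ht.trans h'⟩, h', hs⟩

/-- the step, `ℝ≥0` levels -/
theorem steph_nn (S : LamSys M K) (hD : 1 ≤ D) (hT : K.HasTh) : ∃ C : ℝ≥0, ∀ (k : ℕ) (t u : ℝ≥0)
    (z : HS (La M (t : ℝ))), t + C ≤ u → 1 ≤ k → z ∈ gL M t (k * D) →
    (∀ (s : ℝ≥0) (h : t ≤ s), hL M h z ≠ 0) →
    ∃ y ∈ gL M u ((k + 2) * D), Hm (evL M (u : ℝ)) y = 0 ∧
      ∀ (s : ℝ≥0) (h : u ≤ s), hL M h y ≠ 0 := by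
  obtain ⟨C, hC⟩ := steph (ops S) hD hT
  refine ⟨C, fun k t u z hu hk hz hs => ?_⟩
  obtain ⟨y, hy, -, hy'⟩ := hC k t u z hu hk hz hs
  refine ⟨S.js u y, S.js_gr _ y hy, ?_, hy'⟩
  obtain ⟨i, hi⟩ : ∃ i, (k + 2) * D = i + 1 := ⟨(k + 2) * D - 1, by
    have : 1 ≤ (k + 2) * D := by nlinarith
    omega⟩
  rw [hi] at hy
  exact S.ev_js i y hy

/-- **the step** -/
theorem steph_of (S : LamSys M K) (hD : 1 ≤ D) (hT : K.HasTh) : StepH M D := by
  obtain ⟨C, hC⟩ := steph_nn S hD hT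
  refine ⟨C, C.2, ?_⟩
  rintro t ht k hk - ⟨z, hz, -, hs⟩
  have h0 : 0 ≤ t + (C : ℝ) := add_nonneg ht C.2
  obtain ⟨y, hy, he, hy'⟩ := hC k ⟨t, ht⟩ ⟨t + C, h0⟩ z (le_refl _) hk hz
    (fun s h => hs (s : ℝ) h)
  exact ⟨y, hy, he, fun s h => hy' ⟨s, h0.trans h⟩ h⟩

/-- **OUTPUT OF BLOCK P** from 969's algebra and 826's Q6 -/
theorem pout_of {n : ℕ} (hn : 2 ≤ n) {K : LevA (n - 1)} (S : LamSys M K) (hT : K.HasTh) :
    IfPTx200.POut n M :=
  POut_of hn (bdh_of S (by omega) hT) (steph_of S (by omega) hT)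

end Crest.Agent.R231.LamConx989
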