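import Crest.Agent.R231.LevInstB_969
import Crest.Agent.R231.LamCon_989
import Crest.Agent.R231.CW_826

/-!
# Row 231 (S0357), block P: the instance of `LamSys` (helper733)

`lamSys : LamSys M (C.lev c3)` from 969's `CutH p D` (`LevInstB_969`), 826's `FD p D` (`CW_826`) and
`PsiX F C` (`Ψ_*(E × σ) = x E + E x` after a loss).
-/

set_option autoImplicit false

noncomputable section

open Set NNReal
open Crest.Agent.R204 Crest.Agent.R204.SpecA Crest.Agent.R231.Moorex725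
open Crest.Agent.R231.CutMx725 Crest.Agent.R231.FinDim315 Crest.Agent.R231.LaDefx733
open Crest.Agent.R231.OmSpx725 Crest.Agent.R231.LaSpx826 Crest.Agent.R231.CWx826
open Crest.Agent.R231.CXx780 Crest.Agent.R231.Levx969 Crest.Agent.R231.LevInstx969
open Crest.Agent.R231.LamSysx733

namespace Crest.Agent.R231.LamInstx733

section pr
variable {X Y : Type} [TopologicalSpace X] [TopologicalSpace Y]

/-- projection to degree `j` -/
abbrev pr (X : Type) [TopologicalSpace X] (j : ℕ) : HS X →ₗ[F2] HS X :=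
  Gr334.prH F2 (SS.Sing X) j

theorem pr_shift (f : HS X →ₗ[F2] HS Y) (d : ℕ)
    (hf : ∀ (k : ℕ) (a : HS X), a ∈ hg X k → f a ∈ hg Y (d + k)) (j : ℕ) (a : HS X) :
    pr Y (d + j) (f a) = f (pr X j a) := by
  refine hg_induction (p := fun a => pr Y (d + j) (f a) = f (pr X j a)) a ?_ ?_
  · intro a b ha hb
    rw [map_add, map_add, map_add, map_add, ha, hb]
  · intro k a ha
    rcases eq_or_ne k j with h | h
    · subst h
      rw [Gr334.prH_of_mem (hf _ _ ha), Gr334.prH_of_mem ha]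
    · rw [Gr334.prH_of_mem_ne h ha, Gr334.prH_of_mem_ne (by omega) (hf _ _ ha), map_zero]

theorem pr_low (f : HS X →ₗ[F2] HS Y) (d : ℕ)
    (hf : ∀ (k : ℕ) (a : HS X), a ∈ hg X k → f a ∈ hg Y (d + k)) (j : ℕ) (hj : j < d) (a : HS X) :
    pr Y j (f a) = 0 := by
  refine hg_induction (p := fun a => pr Y j (f a) = 0) a ?_ ?_
  · intro a b ha hb
    rw [map_add, map_add, ha, hb, add_zero]
  · intro k a ha
    rw [Gr334.prH_of_mem_ne (by omega) (hf _ _ ha)]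

end pr

variable {M : Type} [MetricSpace M] {p : M} {D : ℕ}

/-- **`Ψ_*(E × σ) = x E + E x`** after a bounded loss -/
def PsiX (F : FD p D) (C : CutH p D) : Prop :=
  ∀ (u v : ℝ≥0) (hv : (u : ℝ) + 2 * F.B.L + 2 * F.C.L ≤ v) (E : HS (OmT p u)),
    ∃ (w : ℝ≥0) (h : v ≤ w) (h1 : C.cx' + u ≤ w) (h2 : u + C.cx' ≤ w),
      incA h (Hm (F.Psi hv) (cx E F.D.σ)) = mA h1 C.x E + mA h2 E C.x

variable (F : FD p D) (C : CutH p D)

/-- the loss -/
def kk : ℝ≥0 := ⟨4 * F.B.L + 4 * F.C.L,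
  add_nonneg (mul_nonneg (by norm_num) F.B.L_nonneg) (mul_nonneg (by norm_num) F.C.L_nonneg)⟩

theorem coe_kk : ((kk F : ℝ≥0) : ℝ) = 4 * F.B.L + 4 * F.C.L := rfl

theorem le1 {t u : ℝ≥0} (h : t + kk F ≤ u) : (t : ℝ) + 2 * F.B.L ≤ (u : ℝ) := by
  have h1 : ((t + kk F : ℝ≥0) : ℝ) ≤ (u : ℝ) := NNReal.coe_le_coe.2 h
  rw [NNReal.coe_add, coe_kk] at h1
  have hB := F.B.L_nonneg
  have hC := F.C.L_nonneg
  linarith

theorem mAx_mem {s t u : ℝ≥0} (h : s + t ≤ u) {x : HS (OmT p s)} {d : ℕ} (hx : x ∈ hg (OmT p s) d)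
    (k : ℕ) (a : HS (OmT p t)) (ha : a ∈ hg (OmT p t) k) : mA h x a ∈ hg (OmT p u) (d + k) :=
  Hm_mem_hg _ (cx_mem hx ha)

theorem xmA_mem {s t u : ℝ≥0} (h : t + s ≤ u) {x : HS (OmT p s)} {d : ℕ} (hx : x ∈ hg (OmT p s) d)
    (k : ℕ) (a : HS (OmT p t)) (ha : a ∈ hg (OmT p t) k) :
    (mA h).flip x a ∈ hg (OmT p u) (d + k) := by
  rw [LinearMap.flip_apply, add_comm]
  exact Hm_mem_hg _ (cx_mem ha hx)

theorem incA_mem {s t : ℝ≥0} (h : s ≤ t) {j : ℕ} {y : HS (OmT p s)} (hy : y ∈ hg (OmT p s) j) :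
    incA h y ∈ hg (OmT p t) j := Hm_mem_hg _ hy

theorem ev_jst {t : ℝ≥0} (j : ℕ) (y : HS (OmT p t)) (hy : y ∈ hg (OmT p t) (j + 1)) :
    Hm (evL M (t : ℝ)) (FD.jst p (le_refl (t : ℝ)) y) = 0 := by
  have e : Hm (evL M (t : ℝ)) (FD.jst p (le_refl (t : ℝ)) y) =
      Hm (ContinuousMap.const (OmT p t) p) y := by
    rw [FD.jst, ← Hm_comp_apply]
    exact Hm_ext' (fun x => x.2.2.1 0 le_rfl) y
  rw [e, Hm_const, ep_eq_zero (Nat.succ_ne_zero j) hy, zero_smul]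

section irr

attribute [local irreducible] mA incA

/-- homogeneous part of the relation -/
theorem homog {b t w : ℝ≥0} (h0 : t ≤ w) (h1 : C.cx' + b ≤ w) (h2 : b + C.cx' ≤ w) (j : ℕ)
    (y : HS (OmT p t)) (hy : y ∈ hg (OmT p t) j) (E : HS (OmT p b))
    (e0 : incA h0 y = mA h1 C.x E + mA h2 E C.x) :
    ∃ (i : ℕ) (w : HS (OmT p b)), w ∈ hg (OmT p b) i ∧ incA h0 y = mA h1 C.x w + mA h2 w C.x := by
  have ey : pr _ j (incA h0 y) = incA h0 y := Gr334.prH_of_mem (incA_mem h0 hy)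
  have e1 : incA h0 y = pr _ j (mA h1 C.x E) + pr _ j ((mA h2).flip C.x E) := by
    rw [LinearMap.flip_apply, ← map_add, ← e0, ey]
  by_cases hj : j < D
  · refine ⟨0, 0, Submodule.zero_mem _, ?_⟩
    rw [e1, pr_low _ D (mAx_mem h1 C.x_gr) j hj E, pr_low _ D (xmA_mem h2 C.x_gr) j hj E,
      map_zero, map_zero, LinearMap.zero_apply]
  · obtain ⟨i, rfl⟩ : ∃ i, j = D + i := ⟨j - D, by omega⟩
    refine ⟨i, pr _ i E, Gr334.prH_mem _ _, ?_⟩
    have e2 : pr _ (D + i) ((mA h2).flip C.x E) = mA h2 (pr _ i E) C.x :=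
      (pr_shift _ D (xmA_mem h2 C.x_gr) i E).trans (LinearMap.flip_apply _ _ _)
    exact e1.trans (congrArg₂ (· + ·) (pr_shift _ D (mAx_mem h1 C.x_gr) i E) e2)

end irr

theorem w2' (hP : PsiX F C) {t : ℝ≥0} (j : ℕ) (y : HS (OmT p t)) (hy : y ∈ hg (OmT p t) j)
    (hT : ∃ (T : ℝ≥0) (h : t ≤ T), hL M h (FD.jst p (le_refl (t : ℝ)) y) = 0) :
    ∃ (b u : ℝ≥0) (h : t ≤ u) (h1 : C.cx' + b ≤ u) (h2 : b + C.cx' ≤ u) (i : ℕ)
      (w : HS (OmT p b)), w ∈ hg (OmT p b) i ∧ incA h y = mA h1 C.x w + mA h2 w C.x := by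
  obtain ⟨T, h, hz⟩ := hT
  have hB := F.B.L_nonneg
  have hC := F.C.L_nonneg
  have h0 : (t : ℝ) ≤ (T : ℝ) := NNReal.coe_le_coe.2 h
  have hz' : FD.jst p h0 y = 0 := (FD.incL_jst (le_refl (t : ℝ)) h0 h0 y).symm.trans hz
  have hu : (T : ℝ) + 2 * F.B.L ≤ ((T + kk F : ℝ≥0) : ℝ) := by
    rw [NNReal.coe_add, coe_kk]; linarith
  have hv : ((T + kk F : ℝ≥0) : ℝ) + 2 * F.B.L + 2 * F.C.L ≤ ((T + kk F + kk F : ℝ≥0) : ℝ) := by
    rw [NNReal.coe_add (T + kk F), coe_kk]; linarith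
  have h0v : t ≤ T + kk F + kk F := h.trans (le_self_add.trans le_self_add)
  obtain ⟨E, hE⟩ := F.w2 h0 hu hv h0v y hz'
  obtain ⟨w, hw, h1, h2, hw'⟩ := hP _ _ hv E
  have e0 : incA (h0v.trans hw) y = mA h1 C.x E + mA h2 E C.x :=
    ((incA_incA h0v hw (h0v.trans hw) y).symm.trans (congrArg (incA hw) hE)).trans hw'
  obtain ⟨i, w', hw1, hw2⟩ := homog C (h0v.trans hw) h1 h2 j y hy E e0
  exact ⟨T + kk F, w, h0v.trans hw, h1, h2, i, w', hw1, hw2⟩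

/-- **the instance of Q6's output** -/
def lamSys (c3 : ℝ≥0) (hP : PsiX F C) : LamSys M (C.lev c3) where
  js t := FD.jst p (le_refl (t : ℝ))
  js_gr j y hy := Hm_mem_hg _ hy
  js_inc {s t} h y := by
    have h0 : (s : ℝ) ≤ (t : ℝ) := NNReal.coe_le_coe.2 h
    exact (FD.jst_inc h h0 (le_refl (t : ℝ)) y).trans (FD.incL_jst (le_refl (s : ℝ)) h0 h0 y).symm
  ev_js {t} j y hy := ev_jst j y hy
  k := kk F
  jr {t u} h := F.jr t.2 (le1 F h)
  jr_gr {t u} h j z hz := F.jr_mem t.2 (le1 F h) hz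
  jr_low {t u} h j z hz hj := F.jr_low t.2 (le1 F h) hj hz
  jr_inc {s t u} h1 h h2 z := by
    have h0 : (s : ℝ) ≤ (t : ℝ) := NNReal.coe_le_coe.2 h1
    have := F.jr_inc s.2 t.2 h0 (le1 F h2) (le1 F h) le_rfl z
    rw [inc_id, Hm_id] at this
    exact this.symm
  inc_jr {t u v} h h1 h2 z := F.jr_inc' t.2 (le1 F h) (le1 F h2) h1 z
  w1 {t u} h h1 j z hz h0 := by
    have hB := F.B.L_nonneg
    have hC := F.C.L_nonneg
    have hwB : (u : ℝ) + 2 * F.B.L + 2 * F.B.L ≤ ((u + kk F : ℝ≥0) : ℝ) := by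
      rw [NNReal.coe_add, coe_kk]; linarith
    have hwC : (u : ℝ) + 2 * F.B.L + 2 * F.C.L ≤ ((u + kk F : ℝ≥0) : ℝ) := by
      rw [NNReal.coe_add, coe_kk]; linarith
    exact F.w1_gr t.2 (le1 F h) hwB hwC le_rfl (NNReal.coe_le_coe.2 h1) hz h0
  w2 {t} j y hy h := w2' F C hP j y hy h

/-- **OUTPUT OF BLOCK P** from the leaves (II)–(V) and Q6 -/
theorem pout {n : ℕ} (hn : 2 ≤ n) (F : FD p (n - 1)) (C : CutH p (n - 1)) (c3 : ℝ≥0)
    (hP : PsiX F C) (hT : (C.lev c3).HasTh) : IfPTx200.POut n M :=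
  LamConx989.pout_of hn (lamSys F C c3 hP) hT

end Crest.Agent.R231.LamInstx733
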