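import Crest.Agent.R231.Lev_969

/-!
# Row 231, block P, leaf (VIII) over `Lev_969` (helper989)

`LamOps K` = the output of Q6 (helper826's `Q6Out`) over the levelled algebra `K : LevA D` of
helper969 (`A t = H(Ω_t)`, `D = n - 1`), all levels in `ℝ≥0`, arbitrary target levels.
Results (`1 ≤ D`, `K.HasTh`):
* `mx_xp`, `comm_fin` : `x` is central in the limit (no associativity of `m` needed);
* `js_inj` : `i_* : A t → H(Λ_t)` is injective in the limit;
* `bdh` : bounded bars of `Λ`;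
* `steph` : the step `x^K ↦ x^{K+2}` (every `K ≥ 1`, every `D ≥ 1`, no parity condition).
-/

set_option autoImplicit false

open scoped NNReal

namespace Crest.Agent.R231.LamLevx989

open Levx969

variable {D : ℕ} {K : LevA D}

/-! ### products and `~` -/

theorem eqv_m_l {s s' t u u' : ℝ≥0} {a : K.A s} {a' : K.A s'} (e : K.Eqv a a') (b : K.A t)
    (h : s + t ≤ u) (h' : s' + t ≤ u') : K.Eqv (K.m h a b) (K.m h' a' b) := by
  obtain ⟨v, h1, h2, e⟩ := e
  have hw1 : v + t ≤ max (v + t) (max u u') := le_max_left _ _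
  have hw2 : u ≤ max (v + t) (max u u') := (le_max_left _ _).trans (le_max_right _ _)
  have hw3 : u' ≤ max (v + t) (max u u') := (le_max_right _ _).trans (le_max_right _ _)
  refine ⟨_, hw2, hw3, ?_⟩
  rw [K.inc_m h hw2 (h.trans hw2), K.inc_m h' hw3 (h'.trans hw3),
    ← K.m_inc_l h1 hw1 (h.trans hw2), ← K.m_inc_l h2 hw1 (h'.trans hw3), e]

theorem eqv_m_r {s t t' u u' : ℝ≥0} (a : K.A s) {b : K.A t} {b' : K.A t'} (e : K.Eqv b b')
    (h : s + t ≤ u) (h' : s + t' ≤ u') : K.Eqv (K.m h a b) (K.m h' a b') := by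
  obtain ⟨v, h1, h2, e⟩ := e
  have hw1 : s + v ≤ max (s + v) (max u u') := le_max_left _ _
  have hw2 : u ≤ max (s + v) (max u u') := (le_max_left _ _).trans (le_max_right _ _)
  have hw3 : u' ≤ max (s + v) (max u u') := (le_max_right _ _).trans (le_max_right _ _)
  refine ⟨_, hw2, hw3, ?_⟩
  rw [K.inc_m h hw2 (h.trans hw2), K.inc_m h' hw3 (h'.trans hw3),
    ← K.m_inc_r h1 hw1 (h.trans hw2), ← K.m_inc_r h2 hw1 (h'.trans hw3), e]

theorem fin_m_l {s t u : ℝ≥0} {a : K.A s} (ha : K.Fin a) (b : K.A t) (h : s + t ≤ u) :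
    K.Fin (K.m h a b) := by
  have := eqv_m_l ((fin_iff a).1 ha) b h h
  rw [map_zero, LinearMap.zero_apply] at this
  exact (fin_iff _).2 this

theorem fin_m_r {s t u : ℝ≥0} (a : K.A s) {b : K.A t} (hb : K.Fin b) (h : s + t ≤ u) :
    K.Fin (K.m h a b) := by
  have := eqv_m_r a ((fin_iff b).1 hb) h h
  rw [map_zero] at this
  exact (fin_iff _).2 this

theorem fin_add {s : ℝ≥0} {a b : K.A s} (ha : K.Fin a) (hb : K.Fin b) : K.Fin (a + b) := by
  obtain ⟨u, h1, h2⟩ := ha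
  obtain ⟨v, h3, h4⟩ := hb
  refine ⟨max u v, h1.trans (le_max_left _ _), ?_⟩
  rw [map_add, ← K.inc_inc h1 (le_max_left u v), h2, ← K.inc_inc h3 (le_max_right u v)
    (h1.trans (le_max_left _ _)), h4, map_zero, map_zero, add_zero]

/-- two classes which are equal in the limit have a finite sum -/
theorem fin_of_eqv {s : ℝ≥0} {a b : K.A s} (h : K.Eqv a b) : K.Fin (a + b) := by
  obtain ⟨u, h1, h2, h⟩ := h
  exact ⟨u, h1, by rw [map_add, h, z2]⟩

/-- classes of degree `0` in the limit -/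
theorem eqv_deg0 (hD : 1 ≤ D) {t : ℝ≥0} (y : K.A t) (hy : y ∈ K.gr t 0) :
    K.Eqv y (K.eps y • K.one t) := by
  refine ⟨t + K.cR, le_self_add, le_self_add, ?_⟩
  rw [deg0 hD le_rfl le_self_add y hy, map_smul, K.one_inc]

/-- `x^k x ~ x^{k+1}` -/
theorem mx_xp (hD : 1 ≤ D) (hT : K.HasTh) : ∀ (k : ℕ) {p u : ℝ≥0} (h : p + K.cx ≤ u)
    (b : K.A p), b ∈ K.gr p (k * D) → K.Eqv b (xp K k) → K.Eqv (K.m h b K.x) (xp K (k + 1))
  | 0, p, u, h, b, hb, e => by
    have e1 : K.Eqv (K.m h b K.x) (K.m (t := K.cx) (show (0 : ℝ≥0) + K.cx ≤ K.cx by rw [zero_add])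
        (K.one 0) K.x) := by
      refine eqv_m_l (e.trans ?_) K.x _ _
      show K.Eqv (K.one _) (K.one 0)
      exact ⟨_, le_rfl, zero_le, by rw [K.one_inc, K.one_inc]⟩
    refine e1.trans ?_
    rw [K.one_m _ le_rfl, K.inc_self]
    have e4 : ((0 + 1 : ℕ) : ℝ≥0) * K.cx ≤ K.cx := by simp
    refine ⟨K.cx, le_rfl, e4, ?_⟩
    show _ = K.inc e4 (K.m _ K.x (K.one _))
    rw [K.inc_m _ e4 (by simp), K.m_one _ le_rfl]
  | (k + 1), p, u, h, b, hb, e => by
    have hg : K.m h b K.x ∈ K.gr u ((k + 1) * D + D) := K.m_gr h _ _ b K.x hb K.x_gr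
    rcases basis hD hT _ (by nlinarith) u _ hg with hf | ⟨k', hk', e'⟩
    · exfalso
      -- the level
      set v : ℝ≥0 := p + K.cD with hv
      have hfd := hf.SD (le_refl (u + K.cD)) (show u + K.cD ≤ (u + K.cD) + (p + K.cx + K.cL) +
        (v + K.cx) + (K.cx + K.cD) by rw [add_assoc, add_assoc]; exact le_self_add)
      rw [K.leib (show p + K.cx + K.cL ≤ _ by
          exact le_trans le_add_self (le_trans le_self_add le_self_add)) h (le_refl (u + K.cD)) _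
        (le_refl (p + K.cD)) (show p + K.cD + K.cx ≤ _ from le_trans le_add_self le_self_add)
        (le_refl (K.cx + K.cD)) le_add_self] at hfd
      have hb0 : K.eps b = 0 := by
        obtain ⟨i, hi⟩ : ∃ i, (k + 1) * D = i + 1 := ⟨(k + 1) * D - 1, by
          have : 1 ≤ (k + 1) * D := by nlinarith
          omega⟩
        rw [hi] at hb
        exact K.eps_gr i b hb
      rw [hb0, zero_smul, add_zero] at hfd
      have hSg : K.Sm le_rfl (K.Dc (le_refl (p + K.cD)) b) ∈ K.gr _ (k * D) :=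
        K.Sm_gr _ _ _ (K.Dc_gr _ _ _ (by rw [show k * D + D = (k + 1) * D by ring]; exact hb))
      have hSe : K.Eqv (K.Sm le_rfl (K.Dc (le_refl (p + K.cD)) b)) (xp K k) :=
        (LevA.Eqv.SD e (le_refl _) (le_refl _) (le_refl _) (le_refl _)).trans
          (SD_xp hD k (le_refl _) (le_refl _))
      exact xp_ne hD (k + 1) ((mx_xp hD hT k _ _ hSg hSe).symm.fin hfd)
    · have hkk : k' = k + 1 + 1 := by
        have h1 : (k + 1 + 1) * D = k' * D := by rw [← hk']; ring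
        exact (Nat.eq_of_mul_eq_mul_right (by omega) h1).symm
      rw [hkk] at e'
      exact e'

/-- `x b ~ x^{k+1}` if `b ~ x^k` -/
theorem xm_xp {k : ℕ} {p u : ℝ≥0} (h : K.cx + p ≤ u) {b : K.A p} (e : K.Eqv b (xp K k)) :
    K.Eqv (K.m h K.x b) (xp K (k + 1)) :=
  (eqv_m_r K.x (LevA.Eqv.refl b) h (le_refl _)).trans e.mx

/-- **`x` is central in the limit** -/
theorem comm_fin (hD : 1 ≤ D) (hT : K.HasTh) {i : ℕ} {p u : ℝ≥0} (h1 : K.cx + p ≤ u)
    (h2 : p + K.cx ≤ u) (w : K.A p) (hw : w ∈ K.gr p i) :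
    K.Fin (K.m h1 K.x w + K.m h2 w K.x) := by
  rcases Nat.eq_zero_or_pos i with rfl | hi
  · refine fin_of_eqv ?_
    have e := eqv_deg0 hD w hw
    refine (eqv_m_r K.x e h1 h1).trans (LevA.Eqv.trans ?_ (eqv_m_l e K.x h2 h2).symm)
    rw [map_smul, map_smul, LinearMap.smul_apply, K.m_one h1 (le_trans le_self_add h1),
      K.one_m h2 (le_trans le_add_self h2)]
    exact LevA.Eqv.refl _
  · rcases basis hD hT i hi p w hw with hf | ⟨k, hk, e⟩
    · exact fin_add (fin_m_r _ hf h1) (fin_m_l hf _ h2)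
    · subst hk
      exact fin_of_eqv ((xm_xp h1 e).trans (mx_xp hD hT k h2 w hw e).symm)

/-! ### the free loops -/

variable (K) in
/-- OUTPUT of Q6 -/
structure LamOps where
  La : ℝ≥0 → Type
  [al : ∀ t, AddCommGroup (La t)]
  [ml : ∀ t, Module (ZMod 2) (La t)]
  gr : ∀ t, ℕ → Submodule (ZMod 2) (La t)
  inc : ∀ {s t : ℝ≥0}, s ≤ t → La s →ₗ[ZMod 2] La t
  inc_inc : ∀ {s t u : ℝ≥0} (h1 : s ≤ t) (h2 : t ≤ u) (h3 : s ≤ u) (z : La s),
    inc h2 (inc h1 z) = inc h3 z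
  /-- `i_* : H(Ω_t) → H(Λ_t)` -/
  js : ∀ t, K.A t →ₗ[ZMod 2] La t
  js_inc : ∀ {s t : ℝ≥0} (h : s ≤ t) (y : K.A s), js t (K.inc h y) = inc h (js s y)
  /-- the Wang map -/
  c : ℝ≥0
  Dr : ∀ {t u : ℝ≥0}, t + c ≤ u → La t →ₗ[ZMod 2] K.A u
  Dr_gr : ∀ {t u : ℝ≥0} (h : t + c ≤ u) (j : ℕ) (z : La t), z ∈ gr t (j + (D + 1)) →
    Dr h z ∈ K.gr u j
  Dr_lt : ∀ {t u : ℝ≥0} (h : t + c ≤ u) (j : ℕ) (z : La t), z ∈ gr t j → j < D + 1 → Dr h z = 0
  Dr_inc : ∀ {s t u : ℝ≥0} (h1 : s ≤ t) (h : t + c ≤ u) (h2 : s + c ≤ u) (z : La s),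
    Dr h (inc h1 z) = Dr h2 z
  inc_Dr : ∀ {t u v : ℝ≥0} (h : t + c ≤ u) (h1 : u ≤ v) (h2 : t + c ≤ v) (z : La t),
    K.inc h1 (Dr h z) = Dr h2 z
  w1 : ∀ {t s u : ℝ≥0} (h : t + c ≤ s) (_ : s + c ≤ u) (htu : t ≤ u) (j : ℕ) (z : La t),
    z ∈ gr t j → Dr h z = 0 → ∃ y ∈ K.gr u j, inc htu z = js u y
  w2 : ∀ {t s : ℝ≥0} (h : t ≤ s) (j : ℕ) (y : K.A t), y ∈ K.gr t j → inc h (js t y) = 0 →
    K.Fin y ∨ ∃ (p u : ℝ≥0) (h1 : K.cx + p ≤ u) (h2 : p + K.cx ≤ u) (i : ℕ) (w : K.A p),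
      w ∈ K.gr p i ∧ K.Eqv y (K.m h1 K.x w + K.m h2 w K.x)

attribute [instance] LamOps.al LamOps.ml

variable (L : LamOps K)

/-- `i_*` is injective in the limit -/
theorem js_inj (hD : 1 ≤ D) (hT : K.HasTh) {t s : ℝ≥0} (h : t ≤ s) {j : ℕ} {y : K.A t}
    (hy : y ∈ K.gr t j) (h0 : L.inc h (L.js t y) = 0) : K.Fin y := by
  rcases L.w2 h j y hy h0 with hf | ⟨p, u, h1, h2, i, w, hw, e⟩
  · exact hf
  · exact e.fin (comm_fin hD hT h1 h2 w hw)

/-- **bounded bars of `Λ`** -/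
theorem bdh (hD : 1 ≤ D) (hT : K.HasTh) : ∃ C : ℝ≥0, ∀ (j : ℕ) (t u : ℝ≥0) (h : t ≤ u)
    (z : L.La t), t + C ≤ u → z ∈ L.gr t j → (∃ (s : ℝ≥0) (h' : t ≤ s), L.inc h' z = 0) →
    L.inc h z = 0 := by
  obtain ⟨C, hC⟩ := bd hD hT
  refine ⟨L.c + C + L.c + C, fun j t u h z hu hz hs => ?_⟩
  obtain ⟨s, h', hs⟩ := hs
  -- the Wang map
  have hp : t + L.c ≤ t + L.c + C := le_self_add
  have hD0 : L.Dr hp z = 0 := by
    rcases lt_or_ge j (D + 1) with hj | hj
    · exact L.Dr_lt hp j z hz hj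
    · rw [← L.inc_Dr (le_refl (t + L.c)) hp hp z]
      refine hC (j - (D + 1)) _ _ hp _ le_rfl (L.Dr_gr _ _ _ (by rwa [Nat.sub_add_cancel hj])) ?_
      have hsc : t + L.c ≤ s + L.c := by gcongr
      exact ⟨s + L.c, hsc, by
        rw [L.inc_Dr (le_refl _) hsc hsc z, ← L.Dr_inc h' (le_refl _) hsc z, hs, map_zero]⟩
  have hq : t ≤ t + L.c + C + L.c := by
    rw [add_assoc, add_assoc]; exact le_self_add
  obtain ⟨y, hy, hzy⟩ := L.w1 hp (le_refl _) hq j z hz hD0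
  -- `y` is finite
  have hyf : K.Fin y := by
    have hm : t + L.c + C + L.c ≤ max (t + L.c + C + L.c) s := le_max_left _ _
    refine js_inj L hD hT hm hy ?_
    rw [← hzy, L.inc_inc hq hm (hq.trans hm), ← L.inc_inc h' (le_max_right _ _) (hq.trans hm), hs,
      map_zero]
  have hu' : t + L.c + C + L.c + C ≤ u := by
    refine le_trans (le_of_eq ?_) hu
    ring
  have hu'' : t + L.c + C + L.c ≤ u := le_trans le_self_add hu'
  rw [← L.inc_inc hq hu'' h, hzy, ← L.js_inc, hC j _ _ hu'' y hu' hy hyf, map_zero]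

/-- raising the power -/
theorem raise {k : ℕ} {p u : ℝ≥0} (hu : p + K.cx ≤ u) (b : K.A p) (hb : b ∈ K.gr p (k * D))
    (e : K.Eqv b (xp K k)) : ∃ b' ∈ K.gr u ((k + 1) * D), K.Eqv b' (xp K (k + 1)) := by
  have h : K.cx + p ≤ u := by rwa [add_comm]
  refine ⟨K.m h K.x b, ?_, xm_xp h e⟩
  have := K.m_gr h D (k * D) K.x b K.x_gr hb
  rw [show D + k * D = (k + 1) * D by ring] at this
  exact this

/-- **the step**: if a class of degree `k D` of `Λ_t` survives for ever, then there is a class over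
`x^{k+2}` in `Ω_u`, `u ≥ t + C`, and its image survives for ever. -/
theorem steph (hD : 1 ≤ D) (hT : K.HasTh) : ∃ C : ℝ≥0, ∀ (k : ℕ) (t u : ℝ≥0) (z : L.La t),
    t + C ≤ u → 1 ≤ k → z ∈ L.gr t (k * D) → (∀ (s : ℝ≥0) (h : t ≤ s), L.inc h z ≠ 0) →
    ∃ y ∈ K.gr u ((k + 2) * D), K.Eqv y (xp K (k + 2)) ∧
      ∀ (s : ℝ≥0) (h : u ≤ s), L.inc h (L.js u y) ≠ 0 := by
  obtain ⟨C, hC⟩ := bd hD hT
  refine ⟨L.c + C + L.c + 4 * K.cx + K.cR, fun k t u z hu hk hz hs => ?_⟩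
  -- it suffices to find `y ~ x^{k+2}`
  suffices H : ∃ y ∈ K.gr u ((k + 2) * D), K.Eqv y (xp K (k + 2)) by
    obtain ⟨y, hy, e⟩ := H
    exact ⟨y, hy, e, fun s h h0 => xp_ne hD (k + 2) (e.symm.fin (js_inj L hD hT h hy h0))⟩
  -- raising
  have up : ∀ (m i : ℕ) (p v : ℝ≥0) (b : K.A p), b ∈ K.gr p (i * D) → K.Eqv b (xp K i) →
      p + (m : ℝ≥0) * K.cx ≤ v → ∃ b' ∈ K.gr v ((i + m) * D), K.Eqv b' (xp K (i + m)) := by
    intro m
    induction m with
    | zero =>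
      intro i p v b hb e hv
      have hv' : p ≤ v := le_trans le_self_add hv
      exact ⟨K.inc hv' b, K.inc_gr _ _ _ hb, (LevA.Eqv.of_inc hv' b).trans e⟩
    | succ m ih =>
      intro i p v b hb e hv
      obtain ⟨b', hb', e'⟩ := ih i p (p + (m : ℝ≥0) * K.cx) b hb e le_rfl
      exact raise (k := i + m) (by
        refine le_trans (le_of_eq ?_) hv
        push_cast
        ring) b' hb' e'
  by_cases hfin : K.Fin (L.Dr (le_refl (t + L.c)) z)
  · -- case B: `D z` dies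
    have hp : t + L.c ≤ t + L.c + C := le_self_add
    have hD0 : L.Dr hp z = 0 := by
      rcases lt_or_ge (k * D) (D + 1) with hj | hj
      · exact L.Dr_lt hp _ z hz hj
      · rw [← L.inc_Dr (le_refl (t + L.c)) hp hp z]
        exact hC (k * D - (D + 1)) _ _ hp _ le_rfl (L.Dr_gr _ _ _ (by
          rwa [Nat.sub_add_cancel hj])) hfin
    have hq : t ≤ t + L.c + C + L.c := by
      rw [add_assoc, add_assoc]; exact le_self_add
    obtain ⟨y, hy, hzy⟩ := L.w1 hp (le_refl _) hq _ z hz hD0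
    rcases basis hD hT (k * D) (by nlinarith) _ y hy with hf | ⟨k', hk', e⟩
    · exfalso
      obtain ⟨v, h1, h2⟩ := hf
      refine hs v (hq.trans h1) ?_
      rw [← L.inc_inc hq h1, hzy, ← L.js_inc, h2, map_zero]
    · obtain rfl : k' = k := (Nat.eq_of_mul_eq_mul_right (by omega) hk').symm
      refine up 2 k' _ u y hy e ?_
      refine le_trans ?_ hu
      calc t + L.c + C + L.c + ((2 : ℕ) : ℝ≥0) * K.cx
          ≤ t + L.c + C + L.c + ((2 : ℕ) : ℝ≥0) * K.cx + (2 * K.cx + K.cR) := le_self_add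
        _ = t + (L.c + C + L.c + 4 * K.cx + K.cR) := by push_cast; ring
  · -- case A: `D z` survives; then `D = 1` and `D z ~ x^{k-2}`
    have hj : D + 1 ≤ k * D := by
      by_contra hj
      push Not at hj
      refine hfin ⟨_, le_rfl, ?_⟩
      rw [L.Dr_lt _ _ z hz hj, map_zero]
    have hg : L.Dr (le_refl (t + L.c)) z ∈ K.gr _ (k * D - (D + 1)) :=
      L.Dr_gr _ _ _ (by rwa [Nat.sub_add_cancel hj])
    -- the power
    obtain ⟨i, hi, e⟩ : ∃ i, k * D - (D + 1) = i * D ∧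
        K.Eqv (L.Dr (le_refl (t + L.c)) z) (xp K i) := by
      rcases Nat.eq_zero_or_pos (k * D - (D + 1)) with h0 | h0
      · rw [h0] at hg
        refine ⟨0, by rw [h0, zero_mul], ?_⟩
        have e := eqv_deg0 hD _ hg
        rcases zmod_cases (K.eps (L.Dr (le_refl (t + L.c)) z)) with h1 | h1
        · rw [h1, zero_smul] at e
          exact absurd ((fin_iff _).2 e) hfin
        · rw [h1, one_smul] at e
          refine e.trans ?_
          show K.Eqv (K.one _) (K.one _)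
          exact ⟨max (t + L.c) (((0 : ℕ) : ℝ≥0) * K.cx), le_max_left _ _, le_max_right _ _, by
            rw [K.one_inc, K.one_inc]⟩
      · rcases basis hD hT _ h0 _ _ hg with hf | h1
        · exact absurd hf hfin
        · exact h1
    -- `D = 1`
    have hD1 : D = 1 := by
      have h1 : k * D = i * D + D + 1 := by omega
      have h2 : D ∣ 1 := by
        have h3 : D ∣ i * D + D + 1 := h1 ▸ Dvd.intro_left k rfl
        have h4 : D ∣ i * D + D := ⟨i + 1, by ring⟩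
        exact (Nat.dvd_add_right h4).1 h3
      exact Nat.dvd_one.1 h2
    have hki : i + 4 = k + 2 := by
      subst hD1
      omega
    rw [hi] at hg
    have := up 4 i _ u _ hg e (by
      refine le_trans ?_ hu
      calc t + L.c + ((4 : ℕ) : ℝ≥0) * K.cx
          ≤ t + L.c + ((4 : ℕ) : ℝ≥0) * K.cx + (C + L.c + K.cR) := le_self_add
        _ = t + (L.c + C + L.c + 4 * K.cx + K.cR) := by push_cast; ring)
    rw [hki] at this
    exact this

end Crest.Agent.R231.LamLevx989
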