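import Crest.Agent.R231.OmSp_725

/-!
# Composition at the mark and the swap (row 231, block P, leaf Q1)

* `cmp p T T' : Om2T T × Om2T T' → Om2T (T + T')`, `(F,S,r),(F',S',r') ↦ (F.F', S'.S, r + r')`;
* `sw p T : Om2T T → Om2T T`, `(F,S,r) ↦ (S,F,T-r)`.
-/

namespace Crest.Agent.R231.OmSpx725

open Set Topology NNReal Crest.Agent.R231.Moorex725 Crest.Agent.R231.CutMx725
  Crest.Agent.R231.SlideMx725

set_option linter.unusedSectionVars false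
set_option linter.unusedVariables false

variable {M : Type*} [PseudoMetricSpace M] {p : M}

/-- swap the two pieces -/
def sw (p : M) (T : ℝ≥0) : C(Om2T p T, Om2T p T) where
  toFun x := ⟨(x.1.2.1, x.1.1, (T : ℝ) - x.1.2.2), x.2.2.1, by
    have e : (T : ℝ) - ((T : ℝ) - x.1.2.2) = x.1.2.2 := by ring
    rw [e]; exact x.2.1, by linarith [x.2.2.2.2], by linarith [x.2.2.2.1]⟩
  continuous_toFun := Continuous.subtype_mk
    (continuous_S.prodMk (continuous_F.prodMk (continuous_const.sub continuous_r))) _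

@[simp] theorem sw_val (T : ℝ≥0) (x : Om2T p T) :
    (sw p T x).1 = (x.1.2.1, x.1.1, (T : ℝ) - x.1.2.2) := rfl

theorem sw_sw (T : ℝ≥0) (x : Om2T p T) : sw p T (sw p T x) = x :=
  Om2T_ext rfl rfl (by
    change (T : ℝ) - ((T : ℝ) - x.1.2.2) = x.1.2.2
    ring)

/-- composition at the mark -/
noncomputable def cmp (p : M) (T T' : ℝ≥0) : C(Om2T p T × Om2T p T', Om2T p (T + T')) where
  toFun x := ⟨(cc x.1.1.2.2 x.1.1.1 x.2.1.1, cc ((T' : ℝ) - x.2.1.2.2) x.2.1.2.1 x.1.1.2.1,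
      x.1.1.2.2 + x.2.1.2.2),
      cc_mem_Om x.1.2.1 x.2.2.1 x.1.2.2.2.1 x.2.2.2.2.1, by
      have h := cc_mem_Om x.2.2.2.1 x.1.2.2.1 (by linarith [x.2.2.2.2.2])
        (by linarith [x.1.2.2.2.2])
      have e : ((T + T' : ℝ≥0) : ℝ) - (x.1.1.2.2 + x.2.1.2.2) =
        (T' : ℝ) - x.2.1.2.2 + ((T : ℝ) - x.1.1.2.2) := by push_cast; ring
      rw [e]; exact h, add_nonneg x.1.2.2.2.1 x.2.2.2.2.1, by
      have h1 := x.1.2.2.2.2
      have h2 := x.2.2.2.2.2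
      push_cast; linarith⟩
  continuous_toFun := by
    have cF1 : Continuous fun x : Om2T p T × Om2T p T' => x.1.1.1 := continuous_F.comp continuous_fst
    have cF2 : Continuous fun x : Om2T p T × Om2T p T' => x.2.1.1 := continuous_F.comp continuous_snd
    have cS1 : Continuous fun x : Om2T p T × Om2T p T' => x.1.1.2.1 :=
      continuous_S.comp continuous_fst
    have cS2 : Continuous fun x : Om2T p T × Om2T p T' => x.2.1.2.1 :=
      continuous_S.comp continuous_snd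
    have cr1 : Continuous fun x : Om2T p T × Om2T p T' => x.1.1.2.2 :=
      continuous_r.comp continuous_fst
    have cr2 : Continuous fun x : Om2T p T × Om2T p T' => x.2.1.2.2 :=
      continuous_r.comp continuous_snd
    refine Continuous.subtype_mk ((continuous_cc cF1 cF2 cr1 (fun x => x.2.2.1.1) fun x => ?_).prodMk
      ((continuous_cc cS2 cS1 (continuous_const.sub cr2) (fun x => x.1.2.2.1.1) fun x => ?_).prodMk
        (cr1.add cr2))) _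
    · exact (x.1.2.1.2.2 _ le_rfl).trans (x.2.2.1.2.1 _ le_rfl).symm
    · exact (x.2.2.2.1.2.2 _ le_rfl).trans (x.1.2.2.1.2.1 _ le_rfl).symm

@[simp] theorem cmp_val (T T' : ℝ≥0) (x : Om2T p T × Om2T p T') :
    (cmp p T T' x).1 = (cc x.1.1.2.2 x.1.1.1 x.2.1.1,
      cc ((T' : ℝ) - x.2.1.2.2) x.2.1.2.1 x.1.1.2.1, x.1.1.2.2 + x.2.1.2.2) := rfl

theorem cmp_i1 (T t : ℝ≥0) (x : Om2T p T) (z : OmT p t) :
    cmp p T t (x, i1 p t z) = mid1 p T t (x, z) :=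
  Om2T_ext rfl (by
    change cc ((t : ℝ) - t) (fun _ => p) x.1.2.1 = x.1.2.1
    rw [sub_self, cc_const_left x.2.2.1]) rfl

theorem cmp_i2 (T t : ℝ≥0) (x : Om2T p T) (z : OmT p t) :
    cmp p T t (x, i2 p t z) = mid2 p T t (x, z) :=
  Om2T_ext (cc_const_right x.2.1) (by
    change cc ((t : ℝ) - 0) z.1 x.1.2.1 = cc (t : ℝ) z.1 x.1.2.1
    rw [sub_zero]) (by
    change x.1.2.2 + 0 = x.1.2.2
    rw [add_zero])

theorem i1_cmp (t T : ℝ≥0) (x : Om2T p T) (z : OmT p t) :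
    cmp p t T (i1 p t z, x) = lm p t T (z, x) :=
  Om2T_ext rfl (cc_const_right x.2.2.1) rfl

theorem i2_cmp (t T : ℝ≥0) {T' : ℝ≥0} (h : t + T ≤ T') (h' : T + t ≤ T') (x : Om2T p T)
    (z : OmT p t) : inc2 h (cmp p t T (i2 p t z, x)) = inc2 h' (rm p T t (x, z)) :=
  Om2T_ext (cc_const_left x.2.1) rfl (by
    change 0 + x.1.2.2 = x.1.2.2
    rw [zero_add])

theorem cmp_pair (T a b : ℝ≥0) {T' : ℝ≥0} (h : T + (a + b) ≤ T') (h' : T + a + b ≤ T')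
    (x : Om2T p T) (y : OmT p a × OmT p b) :
    inc2 h (cmp p T (a + b) (x, pair p a b y)) = inc2 h' (midd p T a b (x, y)) :=
  Om2T_ext rfl (by
    change cc (((a + b : ℝ≥0) : ℝ) - a) y.2.1 x.1.2.1 = cc (b : ℝ) y.2.1 x.1.2.1
    have e : ((a + b : ℝ≥0) : ℝ) - a = b := by push_cast; ring
    rw [e]) rfl

theorem cmp_assoc (a b c : ℝ≥0) {T : ℝ≥0} (h : a + b + c ≤ T) (h' : a + (b + c) ≤ T)
    (x : Om2T p a) (y : Om2T p b) (z : Om2T p c) :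
    inc2 h (cmp p (a + b) c (cmp p a b (x, y), z)) =
      inc2 h' (cmp p a (b + c) (x, cmp p b c (y, z))) := by
  refine Om2T_ext (cc_assoc _ _ _ y.2.2.2.1) ?_ (by
    change x.1.2.2 + y.1.2.2 + z.1.2.2 = x.1.2.2 + (y.1.2.2 + z.1.2.2)
    ring)
  change cc ((c : ℝ) - z.1.2.2) z.1.2.1 (cc ((b : ℝ) - y.1.2.2) y.1.2.1 x.1.2.1) =
    cc (((b + c : ℝ≥0) : ℝ) - (y.1.2.2 + z.1.2.2))
      (cc ((c : ℝ) - z.1.2.2) z.1.2.1 y.1.2.1) x.1.2.1
  have e : ((b + c : ℝ≥0) : ℝ) - (y.1.2.2 + z.1.2.2) =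
    (c : ℝ) - z.1.2.2 + ((b : ℝ) - y.1.2.2) := by push_cast; ring
  rw [e, cc_assoc _ _ _ (by linarith [y.2.2.2.2])]

theorem sw_cmp (a b : ℝ≥0) {T : ℝ≥0} (h : a + b ≤ T) (h' : b + a ≤ T)
    (x : Om2T p a) (y : Om2T p b) :
    inc2 h (sw p (a + b) (cmp p a b (x, y))) =
      inc2 h' (cmp p b a (sw p b y, sw p a x)) := by
  refine Om2T_ext rfl ?_ ?_
  · change cc x.1.2.2 x.1.1 y.1.1 = cc ((a : ℝ) - ((a : ℝ) - x.1.2.2)) x.1.1 y.1.1
    rw [sub_sub_cancel]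
  · change ((a + b : ℝ≥0) : ℝ) - (x.1.2.2 + y.1.2.2) = (b : ℝ) - y.1.2.2 + ((a : ℝ) - x.1.2.2)
    push_cast; ring

theorem sw_i1 (t : ℝ≥0) (g : OmT p t) : sw p t (i1 p t g) = i2 p t g :=
  Om2T_ext rfl rfl (by
    change (t : ℝ) - t = 0
    ring)

theorem sw_i2 (t : ℝ≥0) (g : OmT p t) : sw p t (i2 p t g) = i1 p t g :=
  Om2T_ext rfl rfl (by
    change (t : ℝ) - 0 = t
    ring)

theorem sw_mid1 (T a : ℝ≥0) (x : Om2T p T) (w : OmT p a) :
    sw p (T + a) (mid1 p T a (x, w)) = rm p T a (sw p T x, w) :=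
  Om2T_ext rfl (by
    change cc x.1.2.2 x.1.1 w.1 = cc ((T : ℝ) - ((T : ℝ) - x.1.2.2)) x.1.1 w.1
    rw [sub_sub_cancel]) (by
    change ((T + a : ℝ≥0) : ℝ) - (x.1.2.2 + a) = (T : ℝ) - x.1.2.2
    push_cast; ring)

theorem sw_mid2 (T a : ℝ≥0) {T' : ℝ≥0} (h : T + a ≤ T') (h' : a + T ≤ T') (x : Om2T p T)
    (w : OmT p a) :
    inc2 h (sw p (T + a) (mid2 p T a (x, w))) = inc2 h' (lm p a T (w, sw p T x)) :=
  Om2T_ext rfl rfl (by
    change ((T + a : ℝ≥0) : ℝ) - x.1.2.2 = (a : ℝ) + ((T : ℝ) - x.1.2.2)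
    push_cast; ring)

theorem sw_lm (a T : ℝ≥0) {T' : ℝ≥0} (h : a + T ≤ T') (h' : T + a ≤ T') (x : Om2T p T)
    (w : OmT p a) :
    inc2 h (sw p (a + T) (lm p a T (w, x))) = inc2 h' (mid2 p T a (sw p T x, w)) :=
  Om2T_ext rfl rfl (by
    change ((a + T : ℝ≥0) : ℝ) - (a + x.1.2.2) = (T : ℝ) - x.1.2.2
    push_cast; ring)

theorem sw_rm (T a : ℝ≥0) (x : Om2T p T) (w : OmT p a) :
    sw p (T + a) (rm p T a (x, w)) = mid1 p T a (sw p T x, w) :=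
  Om2T_ext rfl rfl (by
    change ((T + a : ℝ≥0) : ℝ) - x.1.2.2 = (T : ℝ) - x.1.2.2 + a
    push_cast; ring)

theorem sw_pair (a b : ℝ≥0) {T : ℝ≥0} (h : a + b ≤ T) (h' : b + a ≤ T) (x : OmT p a)
    (y : OmT p b) :
    inc2 h (sw p (a + b) (pair p a b (x, y))) = inc2 h' (pair p b a (y, x)) :=
  Om2T_ext rfl rfl (by
    change ((a + b : ℝ≥0) : ℝ) - a = b
    push_cast; ring)

theorem fsF_sw (T : ℝ≥0) (x : Om2T p T) : fsF p T (sw p T x) = fsS p T x := rfl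

theorem fsS_sw (T : ℝ≥0) (x : Om2T p T) : fsS p T (sw p T x) = fsF p T x := rfl

theorem cat_sw (T : ℝ≥0) (x : Om2T p T) : cat p T (sw p T x) = tac p T x := rfl

theorem tac_sw (T : ℝ≥0) (x : Om2T p T) : tac p T (sw p T x) = cat p T x :=
  OmT_ext (by
    change cc ((T : ℝ) - ((T : ℝ) - x.1.2.2)) x.1.1 x.1.2.1 = cc x.1.2.2 x.1.1 x.1.2.1
    rw [sub_sub_cancel])

theorem sw_one2 (T : ℝ≥0) : sw p T (one2 p T) = i1 p T (one p T) :=
  Om2T_ext rfl rfl (by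
    change (T : ℝ) - 0 = T
    ring)

theorem fsS_mid2 (T b : ℝ≥0) {T' : ℝ≥0} (h : T + b ≤ T') (h' : b + T ≤ T') (w : OmT p b)
    (x : Om2T p T) :
    inc h (fsS p (T + b) (mid2 p T b (x, w))) = inc h' (mul p b T (w, fsS p T x)) :=
  OmT_ext rfl

theorem cmp_inc2_left {T T2 : ℝ≥0} (T' : ℝ≥0) (h : T ≤ T2) (x : Om2T p T) (y : Om2T p T') :
    cmp p T2 T' (inc2 h x, y) = inc2 (add_le_add h le_rfl) (cmp p T T' (x, y)) := rfl

theorem one2_inc2 {T T' : ℝ≥0} (h : T ≤ T') : inc2 h (one2 p T) = one2 p T' := rfl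

theorem one_inc {T T' : ℝ≥0} (h : T ≤ T') : inc h (one p T) = one p T' := rfl

theorem cmp_one2_left (T T' : ℝ≥0) {U : ℝ≥0} (h : T + T' ≤ U) (h' : T' ≤ U)
    (x : Om2T p T') : inc2 h (cmp p T T' (one2 p T, x)) = inc2 h' x :=
  Om2T_ext (cc_const_left x.2.1) (cc_const_right x.2.2.1) (by
    change 0 + x.1.2.2 = x.1.2.2
    rw [zero_add])

theorem cmp_one2_right (T : ℝ≥0) {U : ℝ≥0} (h : T + 0 ≤ U) (h' : T ≤ U)
    (x : Om2T p T) : inc2 h (cmp p T 0 (x, one2 p 0)) = inc2 h' x :=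
  Om2T_ext (cc_const_right x.2.1) (by
    change cc (((0 : ℝ≥0) : ℝ) - 0) (fun _ => p) x.1.2.1 = x.1.2.1
    rw [NNReal.coe_zero, sub_zero, cc_const_left x.2.2.1]) (by
    change x.1.2.2 + 0 = x.1.2.2
    rw [add_zero])

end Crest.Agent.R231.OmSpx725
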