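import Crest.Agent.R231.Lev_969
import Crest.Agent.R231.CX_780
import Crest.Agent.R231.OmCmp_725

/-!
# Row 231, block P: the instance of `LevA` on 725's spaces (helper969)

`A t = HS (OmT p t)`, `A2 T = HS (Om2T p T)`.  `Hts p` = the five homotopies used.
-/

set_option autoImplicit false

noncomputable section

open Set NNReal

namespace Crest.Agent.R231.LevInstx969

open Crest.Agent.R204 Crest.Agent.R231.FinDim315 Crest.Agent.R231.CXx780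
  Crest.Agent.R231.Moorex725 Crest.Agent.R231.CutMx725 Crest.Agent.R231.OmSpx725
  Crest.Agent.R231.Levx969
open Crest.Agent.R204.SpecA hiding inc

section general
variable {X Y Z X' Y' : Type} [TopologicalSpace X] [TopologicalSpace Y] [TopologicalSpace Z]
  [TopologicalSpace X'] [TopologicalSpace Y']

theorem Hm_cx2 (f : C(X' × Y', Z)) (φ : C(X, X')) (ψ : C(Y, Y')) (a : HS X) (b : HS Y) :
    Hm f (cx (Hm φ a) (Hm ψ b)) = Hm (f.comp (φ.prodMap ψ)) (cx a b) := by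
  rw [Hm_comp_apply, Hm_cx]

theorem Hm_cxl (f : C(X' × Y, Z)) (φ : C(X, X')) (a : HS X) (b : HS Y) :
    Hm f (cx (Hm φ a) b) = Hm (f.comp (φ.prodMap (ContinuousMap.id Y))) (cx a b) := by
  rw [Hm_comp_apply, Hm_cx_left]

theorem Hm_cxr (f : C(X × Y', Z)) (ψ : C(Y, Y')) (a : HS X) (b : HS Y) :
    Hm f (cx a (Hm ψ b)) = Hm (f.comp ((ContinuousMap.id X).prodMap ψ)) (cx a b) := by
  rw [Hm_comp_apply, Hm_cx_right]

theorem Hm_ext' {f g : C(X, Y)} (h : ∀ x, f x = g x) (a : HS X) : Hm f a = Hm g a := by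
  rw [ContinuousMap.ext h]

theorem Hm_htp {f g : C(X, Y)} (h : f.Homotopic g) (a : HS X) : Hm f a = Hm g a := by
  rw [Hm_homotopic h]

theorem Hm_const (y : Y) (a : HS X) : Hm (ContinuousMap.const X y) a = ep a • ptc y := by
  rw [← Hm_snd_cx, cx_ptc, ← Hm_comp_apply]
  rfl

end general

variable {M : Type} [PseudoMetricSpace M] (p : M)

/-- the homotopies -/
structure Hts : Prop where
  mul_inc_left : ∀ {s s' t u : ℝ≥0} (h : s ≤ s') (h1 : s' + t ≤ u) (h2 : s + t ≤ u),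
    (((inc h1).comp (mul p s' t)).comp ((inc h).prodMap (ContinuousMap.id _))).Homotopic
      ((inc h2).comp (mul p s t))
  one_mul : ∀ {s t u : ℝ≥0} (h : s + t ≤ u) (h1 : t ≤ u),
    (((inc h).comp (mul p s t)).comp (atL (OmT p t) (one p s))).Homotopic (inc h1)
  cmp_inc2_right : ∀ {s t t' u : ℝ≥0} (h : t ≤ t') (h1 : s + t' ≤ u) (h2 : s + t ≤ u),
    (((inc2 h1).comp (cmp p s t')).comp ((ContinuousMap.id _).prodMap (inc2 h))).Homotopic
      ((inc2 h2).comp (cmp p s t))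
  sw_inc2 : ∀ {s t : ℝ≥0} (h : s ≤ t),
    ((sw p t).comp (inc2 h)).Homotopic ((inc2 h).comp (sw p s))
  fsS_rm : ∀ (s t : ℝ≥0), ((fsS p (s + t)).comp (rm p s t)).Homotopic
    ((mul p s t).comp ((fsS p s).prodMap (ContinuousMap.id _)))

variable {p}

/-- inclusion -/
def incA {s t : ℝ≥0} (h : s ≤ t) : HS (OmT p s) →ₗ[F2] HS (OmT p t) := Hm (inc h)
def inc2A {s t : ℝ≥0} (h : s ≤ t) : HS (Om2T p s) →ₗ[F2] HS (Om2T p t) := Hm (inc2 h)
/-- concatenation -/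
def mA {s t u : ℝ≥0} (h : s + t ≤ u) : HS (OmT p s) →ₗ[F2] HS (OmT p t) →ₗ[F2] HS (OmT p u) :=
  cx.compr₂ (Hm ((inc h).comp (mul p s t)))
def i1A {t u : ℝ≥0} (h : t ≤ u) : HS (OmT p t) →ₗ[F2] HS (Om2T p u) := Hm ((inc2 h).comp (i1 p t))
def i2A {t u : ℝ≥0} (h : t ≤ u) : HS (OmT p t) →ₗ[F2] HS (Om2T p u) := Hm ((inc2 h).comp (i2 p t))
def oA {s t u : ℝ≥0} (h : s + t ≤ u) : HS (Om2T p s) →ₗ[F2] HS (Om2T p t) →ₗ[F2] HS (Om2T p u) :=
  cx.compr₂ (Hm ((inc2 h).comp (cmp p s t)))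
def swA {t : ℝ≥0} : HS (Om2T p t) →ₗ[F2] HS (Om2T p t) := Hm (sw p t)
def SmA {t u : ℝ≥0} (h : t ≤ u) : HS (Om2T p t) →ₗ[F2] HS (OmT p u) := Hm ((inc h).comp (fsS p t))

theorem mA_apply {s t u : ℝ≥0} (h : s + t ≤ u) (a : HS (OmT p s)) (b : HS (OmT p t)) :
    mA h a b = Hm ((inc h).comp (mul p s t)) (cx a b) := rfl

theorem oA_apply {s t u : ℝ≥0} (h : s + t ≤ u) (a : HS (Om2T p s)) (b : HS (Om2T p t)) :
    oA h a b = Hm ((inc2 h).comp (cmp p s t)) (cx a b) := rfl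

theorem mA_eq {s t u : ℝ≥0} (h : s + t ≤ u) (a : HS (OmT p s)) (b : HS (OmT p t)) :
    mA h a b = incA h (Hm (mul p s t) (cx a b)) :=
  Hm_comp_apply (inc h) (mul p s t) (cx a b)

theorem oA_eq {s t u : ℝ≥0} (h : s + t ≤ u) (a : HS (Om2T p s)) (b : HS (Om2T p t)) :
    oA h a b = inc2A h (Hm (cmp p s t) (cx a b)) :=
  Hm_comp_apply (inc2 h) (cmp p s t) (cx a b)

theorem incA_incA {s t u : ℝ≥0} (h1 : s ≤ t) (h2 : t ≤ u) (h3 : s ≤ u) (y : HS (OmT p s)) :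
    incA h2 (incA h1 y) = incA h3 y := by
  rw [incA, incA, ← Hm_comp_apply]; rfl

theorem inc_mA {s t u v : ℝ≥0} (h : s + t ≤ u) (h1 : u ≤ v) (h2 : s + t ≤ v) (a : HS (OmT p s))
    (b : HS (OmT p t)) : incA h1 (mA h a b) = mA h2 a b := by
  rw [mA_apply, mA_apply, incA, ← Hm_comp_apply]; rfl

theorem mA_inc_r {s t t' u : ℝ≥0} (h1 : t ≤ t') (h : s + t' ≤ u) (h2 : s + t ≤ u)
    (a : HS (OmT p s)) (b : HS (OmT p t)) : mA h a (incA h1 b) = mA h2 a b := by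
  rw [mA_apply, mA_apply, incA, Hm_cxr]; rfl

theorem mA_inc_l (ht : Hts p) {s s' t u : ℝ≥0} (h1 : s ≤ s') (h : s' + t ≤ u) (h2 : s + t ≤ u)
    (a : HS (OmT p s)) (b : HS (OmT p t)) : mA h (incA h1 a) b = mA h2 a b := by
  rw [mA_apply, mA_apply, incA, Hm_cxl]
  exact Hm_htp (ht.mul_inc_left h1 h h2) _

theorem one_mA (ht : Hts p) {s t u : ℝ≥0} (h : s + t ≤ u) (h1 : t ≤ u) (b : HS (OmT p t)) :
    mA h (ptc (one p s)) b = incA h1 b := by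
  rw [mA_apply, ptc_cx, ← Hm_comp_apply]
  exact Hm_htp (ht.one_mul h h1) _

theorem mA_one {s t u : ℝ≥0} (h : s + t ≤ u) (h1 : s ≤ u) (a : HS (OmT p s)) :
    mA h a (ptc (one p t)) = incA h1 a := by
  rw [mA_apply, cx_ptc, ← Hm_comp_apply, incA]
  exact Hm_ext' (fun x => OmT_ext (cc_const_right x.2)) _

theorem inc2_oA {s t u v : ℝ≥0} (h : s + t ≤ u) (h1 : u ≤ v) (h2 : s + t ≤ v)
    (a : HS (Om2T p s)) (b : HS (Om2T p t)) : inc2A h1 (oA h a b) = oA h2 a b := by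
  rw [oA_apply, oA_apply, inc2A, ← Hm_comp_apply]; rfl

theorem oA_inc_l {s s' t u : ℝ≥0} (h1 : s ≤ s') (h : s' + t ≤ u) (h2 : s + t ≤ u)
    (a : HS (Om2T p s)) (b : HS (Om2T p t)) : oA h (inc2A h1 a) b = oA h2 a b := by
  rw [oA_apply, oA_apply, inc2A, Hm_cxl]; rfl

theorem oA_inc_r (ht : Hts p) {s t t' u : ℝ≥0} (h1 : t ≤ t') (h : s + t' ≤ u) (h2 : s + t ≤ u)
    (a : HS (Om2T p s)) (b : HS (Om2T p t)) : oA h a (inc2A h1 b) = oA h2 a b := by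
  rw [oA_apply, oA_apply, inc2A, Hm_cxr]
  exact Hm_htp (ht.cmp_inc2_right h1 h h2) _

theorem oA_assoc {r s t q v u : ℝ≥0} (h1 : r + s ≤ q) (h2 : q + t ≤ u) (h3 : s + t ≤ v)
    (h4 : r + v ≤ u) (ht : Hts p) (a : HS (Om2T p r)) (b : HS (Om2T p s)) (c : HS (Om2T p t)) :
    oA h2 (oA h1 a b) c = oA h4 a (oA h3 b c) := by
  have e1 : (r + s) + t ≤ u := le_trans (add_le_add h1 le_rfl) h2
  have e2 : r + (s + t) ≤ u := le_trans (add_le_add le_rfl h3) h4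
  have s1 : oA h2 (oA h1 a b) c = oA e1 (Hm (cmp p r s) (cx a b)) c :=
    (congrArg (fun z => oA h2 z c) (oA_eq h1 a b)).trans (oA_inc_l h1 h2 e1 _ c)
  have s2 : oA h4 a (oA h3 b c) = oA e2 a (Hm (cmp p s t) (cx b c)) :=
    (congrArg (fun z => oA h4 a z) (oA_eq h3 b c)).trans (oA_inc_r ht h3 h4 e2 a _)
  refine s1.trans (Eq.trans ?_ s2.symm)
  calc oA e1 (Hm (cmp p r s) (cx a b)) c
      = Hm (((inc2 e1).comp (cmp p (r + s) t)).comp
          ((cmp p r s).prodMap (ContinuousMap.id (Om2T p t)))) (cx (cx a b) c) :=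
        Hm_cxl ((inc2 e1).comp (cmp p (r + s) t)) (cmp p r s) (cx a b) c
    _ = Hm ((((inc2 e2).comp (cmp p r (s + t))).comp
          ((ContinuousMap.id (Om2T p r)).prodMap (cmp p s t))).comp
            (assC (Om2T p r) (Om2T p s) (Om2T p t))) (cx (cx a b) c) :=
        Hm_ext' (fun x => cmp_assoc r s t e1 e2 x.1.1 x.1.2 x.2) _
    _ = Hm (((inc2 e2).comp (cmp p r (s + t))).comp
          ((ContinuousMap.id (Om2T p r)).prodMap (cmp p s t)))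
            (Hm (assC (Om2T p r) (Om2T p s) (Om2T p t)) (cx (cx a b) c)) := Hm_comp_apply _ _ _
    _ = Hm (((inc2 e2).comp (cmp p r (s + t))).comp
          ((ContinuousMap.id (Om2T p r)).prodMap (cmp p s t))) (cx a (cx b c)) :=
        congrArg _ (cx_assoc a b c)
    _ = oA e2 a (Hm (cmp p s t) (cx b c)) :=
        (Hm_cxr ((inc2 e2).comp (cmp p r (s + t))) (cmp p s t) a (cx b c)).symm

theorem swA_oA (ht : Hts p) {s t u : ℝ≥0} (h : s + t ≤ u) (h' : t + s ≤ u) (a : HS (Om2T p s))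
    (b : HS (Om2T p t)) : swA (oA h a b) = oA h' (swA b) (swA a) := by
  calc swA (oA h a b) = Hm ((sw p u).comp (inc2 h)) (Hm (cmp p s t) (cx a b)) := by
        rw [oA_eq]
        exact (Hm_comp_apply (sw p u) (inc2 h) _).symm
    _ = Hm ((inc2 h).comp (sw p (s + t))) (Hm (cmp p s t) (cx a b)) :=
        Hm_htp (ht.sw_inc2 h) _
    _ = Hm (((inc2 h).comp (sw p (s + t))).comp (cmp p s t)) (cx a b) := (Hm_comp_apply _ _ _).symm
    _ = Hm ((((inc2 h').comp (cmp p t s)).comp ((sw p t).prodMap (sw p s))).comp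
          (swC (Om2T p s) (Om2T p t))) (cx a b) :=
        Hm_ext' (fun x => sw_cmp s t h h' x.1 x.2) _
    _ = Hm (((inc2 h').comp (cmp p t s)).comp ((sw p t).prodMap (sw p s)))
          (Hm (swC (Om2T p s) (Om2T p t)) (cx a b)) := Hm_comp_apply _ _ _
    _ = Hm (((inc2 h').comp (cmp p t s)).comp ((sw p t).prodMap (sw p s))) (cx b a) :=
        congrArg _ (cx_swap a b)
    _ = oA h' (swA b) (swA a) :=
        (Hm_cx2 ((inc2 h').comp (cmp p t s)) (sw p t) (sw p s) b a).symm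

theorem swA_i1A (ht : Hts p) {t u : ℝ≥0} (h : t ≤ u) (y : HS (OmT p t)) :
    swA (i1A h y) = i2A h y := by
  have e : swA (i1A h y) = Hm ((inc2 h).comp (sw p t)) (Hm (i1 p t) y) := by
    rw [show i1A h y = Hm (inc2 h) (Hm (i1 p t) y) from Hm_comp_apply _ _ _]
    exact (Hm_comp_apply (sw p u) (inc2 h) _).symm.trans (Hm_htp (ht.sw_inc2 h) _)
  rw [e, i2A, ← Hm_comp_apply]
  refine Hm_ext' (fun x => ?_) _
  show inc2 h (sw p t (i1 p t x)) = _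
  rw [sw_i1]
  rfl

theorem swA_swA {t : ℝ≥0} (w : HS (Om2T p t)) : swA (swA w) = w := by
  rw [swA, ← Hm_comp_apply, show (sw p t).comp (sw p t) = ContinuousMap.id _ from
    ContinuousMap.ext fun x => sw_sw t x, Hm_id]

theorem swA_i2A (ht : Hts p) {t u : ℝ≥0} (h : t ≤ u) (y : HS (OmT p t)) :
    swA (i2A h y) = i1A h y := by
  rw [← swA_i1A ht, swA_swA]

theorem SmA_inc2 {s t u : ℝ≥0} (h1 : s ≤ t) (h2 : t ≤ u) (h3 : s ≤ u) (w : HS (Om2T p s)) :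
    SmA h2 (inc2A h1 w) = SmA h3 w := by
  rw [SmA, SmA, inc2A, ← Hm_comp_apply]; rfl

theorem inc_SmA {s t u : ℝ≥0} (h1 : s ≤ t) (h2 : t ≤ u) (h3 : s ≤ u) (w : HS (Om2T p s)) :
    incA h2 (SmA h1 w) = SmA h3 w := by
  rw [SmA, SmA, incA, ← Hm_comp_apply]; rfl

theorem SmA_i1 {t u v : ℝ≥0} (h : t ≤ u) (h' : u ≤ v) (y : HS (OmT p t)) :
    SmA h' (i1A h y) = ep y • ptc (one p v) := by
  rw [SmA, i1A, ← Hm_comp_apply, ← Hm_const]; rfl

theorem SmA_i2 {t u v : ℝ≥0} (h : t ≤ u) (h' : u ≤ v) (h'' : t ≤ v) (y : HS (OmT p t)) :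
    SmA h' (i2A h y) = incA h'' y := by
  rw [SmA, i2A, incA, ← Hm_comp_apply]; rfl

theorem i1A_eq {t u : ℝ≥0} (h : t ≤ u) (y : HS (OmT p t)) : i1A h y = inc2A h (Hm (i1 p t) y) := by
  rw [i1A, inc2A, ← Hm_comp_apply]

theorem i2A_eq {t u : ℝ≥0} (h : t ≤ u) (y : HS (OmT p t)) : i2A h y = inc2A h (Hm (i2 p t) y) := by
  rw [i2A, inc2A, ← Hm_comp_apply]

theorem oA_i1 (ht : Hts p) {s t t' u : ℝ≥0} (h1 : t ≤ t') (h : s + t' ≤ u) (h2 : s + t ≤ u)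
    (w : HS (Om2T p s)) (a : HS (OmT p t)) :
    oA h w (i1A h1 a) = Hm ((inc2 h2).comp (mid1 p s t)) (cx w a) := by
  rw [i1A_eq, oA_inc_r ht h1 h h2, oA_apply, Hm_cxr]
  refine Hm_ext' (fun x => ?_) _
  show inc2 h2 (cmp p s t (x.1, i1 p t x.2)) = _
  rw [cmp_i1]
  rfl

theorem oA_i2 (ht : Hts p) {s t t' u : ℝ≥0} (h1 : t ≤ t') (h : s + t' ≤ u) (h2 : s + t ≤ u)
    (w : HS (Om2T p s)) (a : HS (OmT p t)) :
    oA h w (i2A h1 a) = Hm ((inc2 h2).comp (mid2 p s t)) (cx w a) := by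
  rw [i2A_eq, oA_inc_r ht h1 h h2, oA_apply, Hm_cxr]
  refine Hm_ext' (fun x => ?_) _
  show inc2 h2 (cmp p s t (x.1, i2 p t x.2)) = _
  rw [cmp_i2]
  rfl

theorem i1_oA {s t t' u : ℝ≥0} (h1 : t ≤ t') (h : t' + s ≤ u) (h2 : t + s ≤ u)
    (w : HS (Om2T p s)) (a : HS (OmT p t)) :
    oA h (i1A h1 a) w = Hm ((inc2 h2).comp (lm p t s)) (cx a w) := by
  rw [i1A_eq, oA_inc_l h1 h h2, oA_apply, Hm_cxl]
  refine Hm_ext' (fun x => ?_) _
  show inc2 h2 (cmp p t s (i1 p t x.1, x.2)) = _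
  rw [i1_cmp]
  rfl

theorem i2_oA {s t t' u : ℝ≥0} (h1 : t ≤ t') (h : t' + s ≤ u) (h2 : s + t ≤ u)
    (w : HS (Om2T p s)) (a : HS (OmT p t)) :
    oA h (i2A h1 a) w = Hm ((inc2 h2).comp (rm p s t)) (cx w a) := by
  have h3 : t + s ≤ u := by rwa [add_comm]
  rw [i2A_eq, oA_inc_l h1 h h3, oA_apply, Hm_cxl, ← cx_swap w a, ← Hm_comp_apply]
  refine Hm_ext' (fun x => ?_) _
  exact i2_cmp t s h3 h2 x.1 x.2

theorem SmA_oA_i1 (ht : Hts p) {s t t' u v : ℝ≥0} (h1 : t ≤ t') (h : s + t' ≤ u) (h' : u ≤ v)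
    (h'' : s ≤ v) (w : HS (Om2T p s)) (a : HS (OmT p t)) :
    SmA h' (oA h w (i1A h1 a)) = ep a • SmA h'' w := by
  have h2 : s + t ≤ u := le_trans (add_le_add le_rfl h1) h
  rw [oA_i1 ht h1 h h2, SmA, ← Hm_comp_apply, SmA, ← map_smul, ← Hm_fst_cx, ← Hm_comp_apply]
  refine Hm_ext' (fun x => ?_) _
  rfl

theorem SmA_oA_i2 (ht : Hts p) {s t t' u v q : ℝ≥0} (h1 : t ≤ t') (h : s + t' ≤ u) (h' : u ≤ v)
    (h'' : s ≤ q) (h4 : t + q ≤ v) (w : HS (Om2T p s)) (a : HS (OmT p t)) :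
    SmA h' (oA h w (i2A h1 a)) = mA h4 a (SmA h'' w) := by
  have h2 : s + t ≤ u := le_trans (add_le_add le_rfl h1) h
  rw [oA_i2 ht h1 h h2, SmA, ← Hm_comp_apply, mA_apply, SmA, Hm_cxr, ← cx_swap w a,
    ← Hm_comp_apply]
  refine Hm_ext' (fun x => ?_) _
  rfl

theorem OmT_zero_eq (x : OmT p 0) : x = one p 0 := by
  refine OmT_ext (funext fun s => ?_)
  rcases le_total s 0 with h | h
  · exact x.2.2.1 s h
  · exact x.2.2.2 s (by simpa using h)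

theorem gr_zeroA (j : ℕ) (y : HS (OmT p 0)) (hy : y ∈ hg (OmT p 0) (j + 1)) : y = 0 := by
  have h1 : ContinuousMap.id (OmT p 0) = ContinuousMap.const _ (one p 0) :=
    ContinuousMap.ext fun x => OmT_zero_eq x
  have h2 : y = ep y • ptc (one p 0) := by
    rw [← Hm_const, ← h1, Hm_id]
  rw [h2, ep_eq_zero (by omega) hy, zero_smul]

end Crest.Agent.R231.LevInstx969
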