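import Crest.Agent.R231.CXb_780
import Crest.Agent.R231.SmallCS_226
import Crest.Agent.R231.PairH_877

/-!
# Row 231, block P, leaf Q3, part A (helper682, shadow of 607): the localised cap product

`LD Y` : a cover `Y = W ∪ V` (every point has `W` or `V` as a neighbourhood) and a cocycle `u` which
vanishes on the chains of `W`.
* `LD.lc : HS Y →ₗ HS V`, `[z] ↦ [u ∩ z]` for `z` small;
* naturality `LD.lc_nat`; products `lc_prodR`, `lc_prodL`; degrees `lc_mem`, `lc_eq_zero`;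
* `ep_lc` : `ε (lc x) = u x`;
* the `B = 0` lemma `lc_B`, `lc_B'`.
-/

set_option autoImplicit false

noncomputable section

namespace Crest.Agent.R231.LocSlx682

open Crest.Agent.R204 Crest.Agent.R204.SpecA Crest.Agent.R231.Capx226 SingAct265 EZ271 FinDim315
  CapCSx780 CrossCSx780 Pairx877 SmallCSx226 CXx780 Topology Set

variable {Y Y' Z B B' : Type} [TopologicalSpace Y] [TopologicalSpace Y'] [TopologicalSpace Z]
  [TopologicalSpace B] [TopologicalSpace B']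

/-- chain of a cycle for a cocycle, as a functional on homology -/
def evH (u : Co (SS.Sing Y)) (hu : cobd u = 0) : HS Y →ₗ[F2] F2 :=
  Submodule.liftQ _ (u ∘ₗ (LinearMap.ker (N.bd F2 (SS.Sing Y))).subtype) (by
    rintro ⟨z, hz⟩ ⟨w, hw⟩
    rw [LinearMap.mem_ker, LinearMap.comp_apply, ← hw]
    exact LinearMap.congr_fun hu w)

theorem evH_mk (u : Co (SS.Sing Y)) (hu : cobd u = 0) (z : CE Y) (hz : bdE Y z = 0) :
    evH u hu (Hd.mk _ z hz) = u z := rfl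

/-- localisation data -/
structure LD (Y : Type) [TopologicalSpace Y] where
  W : Set Y
  V : Set Y
  hc : ∀ y, W ∈ 𝓝 y ∨ V ∈ 𝓝 y
  u : Co (SS.Sing Y)
  hu : cobd u = 0
  hW : ∀ z ∈ CS W, u z = 0

namespace LD

variable (D : LD Y)

/-- small chains -/
def Sm : Submodule F2 (CE Y) := CS D.W ⊔ CS D.V

theorem bd_Sm {z : CE Y} (hz : z ∈ D.Sm) : bdE Y z ∈ D.Sm := by
  obtain ⟨a, ha, b, hb, rfl⟩ := Submodule.mem_sup.1 hz
  rw [map_add]
  exact Submodule.add_mem_sup (bd_mem_CS a ha) (bd_mem_CS b hb)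

theorem S_Sm (O : SubOp Y) {z : CE Y} (hz : z ∈ D.Sm) : O.S z ∈ D.Sm := by
  obtain ⟨a, ha, b, hb, rfl⟩ := Submodule.mem_sup.1 hz
  rw [map_add]
  exact Submodule.add_mem_sup (O.S_mem _ a ha) (O.S_mem _ b hb)

theorem T_Sm (O : SubOp Y) {z : CE Y} (hz : z ∈ D.Sm) : O.T z ∈ D.Sm := by
  obtain ⟨a, ha, b, hb, rfl⟩ := Submodule.mem_sup.1 hz
  rw [map_add]
  exact Submodule.add_mem_sup (O.T_mem _ a ha) (O.T_mem _ b hb)

theorem prN_Sm (n : ℕ) {z : CE Y} (hz : z ∈ D.Sm) : Gr334.prN F2 _ n z ∈ D.Sm := by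
  obtain ⟨a, ha, b, hb, rfl⟩ := Submodule.mem_sup.1 hz
  rw [map_add]
  exact Submodule.add_mem_sup (prN_mem_CS n a ha) (prN_mem_CS n b hb)

theorem exists_Sm (z : CE Y) : ∃ O : SubOp Y, O.S z ∈ D.Sm := by
  obtain ⟨O, c₁, h₁, c₂, h₂, h⟩ := exists_op_two (X := univ) (W := D.W) (V := D.V) (c := z)
    (fun x _ => by rw [nhdsWithin_univ]; exact D.hc x) (by rw [CS_univ]; trivial)
  rw [univ_inter] at h₁ h₂
  exact ⟨O, by rw [h]; exact Submodule.add_mem_sup h₁ h₂⟩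

theorem cap_mem {z : CE Y} (hz : z ∈ D.Sm) : cap D.u z ∈ CS D.V := cap_small D.hW hz

/-- the chain level operator -/
def kap : CE Y →ₗ[F2] CE D.V := res D.V ∘ₗ cap D.u

theorem kap_apply (z : CE Y) : D.kap z = res D.V (cap D.u z) := rfl

theorem inc_kap {z : CE Y} (hz : z ∈ D.Sm) :
    N.map F2 (SS.SingMap (SpecA.inc D.V)) (D.kap z) = cap D.u z :=
  map_inc_res _ (D.cap_mem hz)

theorem bd_kap {z : CE Y} (hz : z ∈ D.Sm) : bdE D.V (D.kap z) = D.kap (bdE Y z) := by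
  rw [kap_apply, kap_apply, bd_res _ (D.cap_mem hz), bd_cap_cocycle D.hu]

theorem kap_bd {z e : CE Y} (hz : z ∈ D.Sm) (he : bdE Y e = z) : ∃ w, bdE D.V w = D.kap z := by
  obtain ⟨O, hO⟩ := D.exists_Sm e
  refine ⟨D.kap (O.S e) + D.kap (O.T z), ?_⟩
  have h0 : bdE Y z = 0 := by rw [← he]; exact bd_bdE e
  have h1 := O.htp z
  rw [h0, map_zero, add_zero] at h1
  have h2 : bdE Y (O.S e) = O.S z := by rw [O.bd_S, he]
  rw [map_add, D.bd_kap hO, D.bd_kap (D.T_Sm O hz), h2, ← map_add, ← h1]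
  congr 1
  rw [add_comm z, ← add_assoc, Capx226.add_self, zero_add]

/-- small cycles -/
def Zs : Submodule F2 (CE Y) := D.Sm ⊓ LinearMap.ker (bdE Y)

/-- class of a small cycle -/
def toH : D.Zs →ₗ[F2] HS Y :=
  Submodule.mkQ _ ∘ₗ Submodule.inclusion (inf_le_right : D.Zs ≤ LinearMap.ker (bdE Y))

theorem Zs_bd {z : CE Y} (h : z ∈ D.Zs) : bdE Y z = 0 :=
  LinearMap.mem_ker.1 (Submodule.mem_inf.1 h).2

theorem mem_Zs {z : CE Y} (hz : z ∈ D.Sm) (h : bdE Y z = 0) : z ∈ D.Zs :=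
  Submodule.mem_inf.2 ⟨hz, LinearMap.mem_ker.2 h⟩

theorem toH_apply (z : CE Y) (h : z ∈ D.Zs) : D.toH ⟨z, h⟩ = Hd.mk _ z (D.Zs_bd h) := rfl

theorem toH_surj : Function.Surjective D.toH := by
  intro x
  obtain ⟨z, hz, rfl⟩ := Hd.mk_surj _ x
  obtain ⟨O, hO⟩ := D.exists_Sm z
  have hb : bdE Y (O.S z) = 0 := by
    rw [O.bd_S]
    have : bdE Y z = 0 := hz
    rw [this, map_zero]
  refine ⟨⟨O.S z, D.mem_Zs hO hb⟩, ?_⟩
  refine Hd.mk_eq_mk.2 ⟨O.T z, ?_⟩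
  have h1 := O.htp z
  have h0 : bdE Y z = 0 := hz
  rw [h0, map_zero, add_zero] at h1
  rw [sub_eq, add_comm]
  exact h1.symm

/-- class of `u ∩ z` -/
def toV : D.Zs →ₗ[F2] HS D.V :=
  Submodule.mkQ _ ∘ₗ LinearMap.codRestrict (LinearMap.ker (N.bd F2 (SS.Sing D.V)))
    (D.kap ∘ₗ D.Zs.subtype) (fun z => by
      rw [LinearMap.mem_ker]
      show bdE D.V (D.kap z.1) = 0
      rw [D.bd_kap z.2.1]
      have : bdE Y z.1 = 0 := z.2.2
      rw [this, map_zero])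

theorem kap_cyc {z : CE Y} (hz : z ∈ D.Sm) (h : bdE Y z = 0) : bdE D.V (D.kap z) = 0 := by
  rw [D.bd_kap hz, h, map_zero]

theorem toV_apply (z : CE Y) (h : z ∈ D.Zs) :
    D.toV ⟨z, h⟩ = Hd.mk _ (D.kap z) (D.kap_cyc (Submodule.mem_inf.1 h).1 (D.Zs_bd h)) := rfl

theorem toV_ker : LinearMap.ker D.toH ≤ LinearMap.ker D.toV := by
  rintro ⟨z, h⟩ hz
  rw [LinearMap.mem_ker, toH_apply] at hz
  obtain ⟨e, he⟩ := Hd.mk_eq_zero.1 hz
  rw [LinearMap.mem_ker, toV_apply]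
  exact Hd.mk_eq_zero.2 (D.kap_bd (Submodule.mem_inf.1 h).1 he)

/-- **the localised cap product** -/
def lc : HS Y →ₗ[F2] HS D.V :=
  (LinearMap.ker D.toH).liftQ D.toV D.toV_ker ∘ₗ
    (D.toH.quotKerEquivOfSurjective D.toH_surj).symm.toLinearMap

theorem lc_mk {z : CE Y} (hz : z ∈ D.Sm) (h : bdE Y z = 0) :
    D.lc (Hd.mk _ z h) = Hd.mk _ (D.kap z) (D.kap_cyc hz h) := by
  have e : (D.toH.quotKerEquivOfSurjective D.toH_surj).symm (Hd.mk _ z h) =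
      Submodule.Quotient.mk ⟨z, D.mem_Zs hz h⟩ := by
    rw [LinearEquiv.symm_apply_eq]
    rfl
  rw [lc, LinearMap.comp_apply, LinearEquiv.coe_coe, e]
  rfl

theorem exists_rep (x : HS Y) : ∃ z ∈ D.Sm, ∃ h : bdE Y z = 0, x = Hd.mk _ z h := by
  obtain ⟨⟨z, h⟩, rfl⟩ := D.toH_surj x
  exact ⟨z, (Submodule.mem_inf.1 h).1, D.Zs_bd h, rfl⟩

theorem exists_rep_gr {n : ℕ} {x : HS Y} (hx : x ∈ hg Y n) :
    ∃ z ∈ D.Sm, z ∈ N.gr F2 (SS.Sing Y) n ∧ ∃ h : bdE Y z = 0, x = Hd.mk _ z h := by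
  obtain ⟨z, hz, h, rfl⟩ := D.exists_rep x
  refine ⟨Gr334.prN F2 _ n z, D.prN_Sm n hz, Gr334.prN_mem _ _, Gr334.bd_prN_eq_zero h n, ?_⟩
  have := Gr334.prH_of_mem hx
  rw [← this]
  exact Gr334.prH_mk n z h

/-! ### degrees, augmentation -/

theorem lc_mem {q n : ℕ} (hq : Deg q D.u) {x : HS Y} (hx : x ∈ hg Y (q + n)) :
    D.lc x ∈ hg D.V n := by
  obtain ⟨z, hz, hn, h, rfl⟩ := D.exists_rep_gr hx
  rw [D.lc_mk hz h]
  exact Gr334.mk_mem_gr (res_gr (cap_mem_gr hq hn)) _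

theorem lc_eq_zero {q n : ℕ} (hq : Deg q D.u) (hn : n < q) {x : HS Y} (hx : x ∈ hg Y n) :
    D.lc x = 0 := by
  obtain ⟨z, hz, hn', h, rfl⟩ := D.exists_rep_gr hx
  rw [D.lc_mk hz h, Hd.mk_eq_zero]
  refine ⟨0, ?_⟩
  rw [map_zero, kap_apply, cap_gr_eq_zero hq hn hn', map_zero]

/-- nothing is left if `W` is everything -/
theorem lc_univ (h : D.W = univ) (x : HS Y) : D.lc x = 0 := by
  obtain ⟨z, hz, h', rfl⟩ := D.exists_rep x
  rw [D.lc_mk hz h', Hd.mk_eq_zero]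
  refine ⟨0, ?_⟩
  have hz' : z ∈ CS D.W := by rw [h, CS_univ]; trivial
  rw [map_zero, kap_apply, cap_eq_zero_CS D.hW z hz', map_zero]

theorem aug_cap (u : Co (SS.Sing Y)) (z : CE Y) : aug F2 (cap u z) = u z := by
  rw [← cup_apply, cup_aug_right]

theorem ep_mk {X : Type} [TopologicalSpace X] (z : CE X) (hz : bdE X z = 0) :
    ep (Hd.mk _ z hz) = aug F2 z := by
  rw [ep, Coalg847.eps_mk]
  have : Coalg847.nAug (SS.Sing X) = EZ271.aug F2 := by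
    refine Gr334.N_ext fun n x => ?_
    rcases n with _ | n
    · rw [Coalg847.nAug_sx_zero, aug_sx_zero]
    · rw [Coalg847.nAug_gr (Nat.succ_ne_zero n) (Gr334.sx_mem_gr x), aug_sx_succ]
  rw [this]

theorem ep_lc (x : HS Y) : ep (D.lc x) = evH D.u D.hu x := by
  obtain ⟨z, hz, h, rfl⟩ := D.exists_rep x
  rw [D.lc_mk hz h, evH_mk, ep_mk, ← aug_cap D.u z, ← D.inc_kap hz, aug_map]

/-! ### naturality -/

section nat

variable {D} {D' : LD Y'}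

/-- restriction of a continuous map to subsets -/
def cr (f : C(Y, Z)) {V : Set Y} {V' : Set Z} (h : MapsTo f V V') : C(V, V') :=
  ⟨h.restrict f V V', f.continuous.restrict h⟩

@[simp] theorem cr_apply (f : C(Y, Z)) {V : Set Y} {V' : Set Z} (h : MapsTo f V V') (x : V) :
    (cr f h x : Z) = f x := rfl

theorem map_CS {f : C(Y, Z)} {V : Set Y} {V' : Set Z} (h : MapsTo f V V') {z : CE Y}
    (hz : z ∈ CS V) : N.map F2 (SS.SingMap f) z ∈ CS V' := by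
  rw [CS_eq_range] at hz ⊢
  obtain ⟨y, rfl⟩ := hz
  refine ⟨N.map F2 (SS.SingMap (cr f h)) y, ?_⟩
  rw [map_map, map_map]
  rfl

theorem res_map {f : C(Y, Z)} {V : Set Y} {V' : Set Z} (h : MapsTo f V V') {z : CE Y}
    (hz : z ∈ CS V) : res V' (N.map F2 (SS.SingMap f) z) = N.map F2 (SS.SingMap (cr f h)) (res V z) := by
  rw [CS_eq_range] at hz
  obtain ⟨y, rfl⟩ := hz
  rw [res_map_inc, map_map]
  have e : (SS.SingMap f).comp (SS.SingMap (SpecA.inc V)) =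
      (SS.SingMap (SpecA.inc V')).comp (SS.SingMap (cr f h)) := rfl
  rw [e, ← map_map, res_map_inc]

theorem map_Sm {f : C(Y, Y')} (hW : MapsTo f D.W D'.W) (hV : MapsTo f D.V D'.V) {z : CE Y}
    (hz : z ∈ D.Sm) : N.map F2 (SS.SingMap f) z ∈ D'.Sm := by
  obtain ⟨a, ha, b, hb, rfl⟩ := Submodule.mem_sup.1 hz
  rw [map_add]
  exact Submodule.add_mem_sup (map_CS hW ha) (map_CS hV hb)

theorem kap_map {f : C(Y, Y')} (hV : MapsTo f D.V D'.V)
    (hu : D.u = pull (SS.SingMap f) D'.u) {z : CE Y} (hz : z ∈ D.Sm) :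
    D'.kap (N.map F2 (SS.SingMap f) z) = N.map F2 (SS.SingMap (cr f hV)) (D.kap z) := by
  rw [kap_apply, kap_apply, ← map_cap, ← hu, res_map hV (D.cap_mem hz)]

/-- **naturality** -/
theorem lc_nat (f : C(Y, Y')) (hW : MapsTo f D.W D'.W) (hV : MapsTo f D.V D'.V)
    (hu : D.u = pull (SS.SingMap f) D'.u) (x : HS Y) :
    D'.lc (Hm f x) = Hm (cr f hV) (D.lc x) := by
  obtain ⟨z, hz, h, rfl⟩ := D.exists_rep x
  have h' : bdE Y' (N.map F2 (SS.SingMap f) z) = 0 := by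
    rw [← map_bd', h, map_zero]
  have e1 : Hm f (Hd.mk _ z h) = Hd.mk _ (N.map F2 (SS.SingMap f) z) h' := rfl
  rw [e1, D'.lc_mk (map_Sm hW hV hz) h', D.lc_mk hz h]
  have e2 : Hm (cr f hV) (Hd.mk _ (D.kap z) (D.kap_cyc hz h)) =
      Hd.mk _ (N.map F2 (SS.SingMap (cr f hV)) (D.kap z)) (by
        rw [← map_bd', D.kap_cyc hz h, map_zero]) := rfl
  rw [e2]
  congr 1
  exact kap_map hV hu hz

end nat

/-! ### products -/

/-- `D × Z` -/
def prodR (Z : Type) [TopologicalSpace Z] : LD (Y × Z) where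
  W := Prod.fst ⁻¹' D.W
  V := Prod.fst ⁻¹' D.V
  hc y := by
    rcases D.hc y.1 with h | h
    · exact Or.inl (continuous_fst.continuousAt.preimage_mem_nhds h)
    · exact Or.inr (continuous_fst.continuousAt.preimage_mem_nhds h)
  u := pull (SS.SingMap (fstC Y Z)) D.u
  hu := by rw [← pull_cobd, D.hu]; rfl
  hW z hz := D.hW _ (map_CS (f := fstC Y Z) (fun _ h => h) hz)

/-- `Z × D` -/
def prodL (Z : Type) [TopologicalSpace Z] : LD (Z × Y) where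
  W := Prod.snd ⁻¹' D.W
  V := Prod.snd ⁻¹' D.V
  hc y := by
    rcases D.hc y.2 with h | h
    · exact Or.inl (continuous_snd.continuousAt.preimage_mem_nhds h)
    · exact Or.inr (continuous_snd.continuousAt.preimage_mem_nhds h)
  u := pull (SS.SingMap (sndC Z Y)) D.u
  hu := by rw [← pull_cobd, D.hu]; rfl
  hW z hz := D.hW _ (map_CS (f := sndC Z Y) (fun _ h => h) hz)

/-- `V × Z → (V × Z ⊆ Y × Z)` -/
def jR (Z : Type) [TopologicalSpace Z] : C(D.V × Z, (D.prodR Z).V) :=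
  ⟨fun p => ⟨(p.1.1, p.2), p.1.2⟩, by fun_prop⟩

/-- `Z × V → (Z × V ⊆ Z × Y)` -/
def jL (Z : Type) [TopologicalSpace Z] : C(Z × D.V, (D.prodL Z).V) :=
  ⟨fun p => ⟨(p.1, p.2.1), p.2.2⟩, by fun_prop⟩

theorem lc_prodR (x : HS Y) (a : HS Z) :
    (D.prodR Z).lc (cx x a) = Hm (D.jR Z) (cx (D.lc x) a) := by
  obtain ⟨z, hz, h, rfl⟩ := D.exists_rep x
  obtain ⟨b, hb, rfl⟩ := Hd.mk_surj _ a
  have hs : crE z b ∈ (D.prodR Z).Sm := by
    obtain ⟨z1, h1, z2, h2, rfl⟩ := Submodule.mem_sup.1 hz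
    rw [map_add, LinearMap.add_apply]
    refine Submodule.add_mem_sup ?_ ?_
    · exact CS_mono (fun p hp => hp.1) (crE_mem (B := univ) h1 (by rw [CS_univ]; trivial))
    · exact CS_mono (fun p hp => hp.1) (crE_mem (B := univ) h2 (by rw [CS_univ]; trivial))
  rw [cx_crE z h b hb, (D.prodR Z).lc_mk hs, D.lc_mk hz h, cx_crE _ _ b hb]
  have e2 : Hm (D.jR Z) (Hd.mk _ (crE (D.kap z) b) (crE_cyc (D.kap_cyc hz h) hb)) =
      Hd.mk _ (N.map F2 (SS.SingMap (D.jR Z)) (crE (D.kap z) b)) (by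
        rw [← map_bd', crE_cyc (D.kap_cyc hz h) hb, map_zero]) := rfl
  rw [e2]
  congr 1
  rw [kap_apply]
  show res _ (cap (pull (SS.SingMap ⟨Prod.fst, continuous_fst⟩) D.u) (crE z b)) = _
  rw [cap_crE_fst, ← D.inc_kap hz]
  have e3 : crE (N.map F2 (SS.SingMap (SpecA.inc D.V)) (D.kap z)) b =
      N.map F2 (SS.SingMap (SpecA.inc (D.prodR Z).V))
        (N.map F2 (SS.SingMap (D.jR Z)) (crE (D.kap z) b)) := by
    have := crE_map (SpecA.inc D.V) (ContinuousMap.id Z) (D.kap z) b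
    have hid : N.map F2 (SS.SingMap (ContinuousMap.id Z)) b = b := by
      have : SS.SingMap (ContinuousMap.id Z) = SS.Hom.id _ := rfl
      rw [this, map_idHom]
    rw [hid] at this
    rw [← this, map_map]
    rfl
  rw [e3, res_map_inc]

theorem lc_prodL (a : HS Z) (x : HS Y) :
    (D.prodL Z).lc (cx a x) = Hm (D.jL Z) (cx a (D.lc x)) := by
  obtain ⟨z, hz, h, rfl⟩ := D.exists_rep x
  obtain ⟨b, hb, rfl⟩ := Hd.mk_surj _ a
  have hs : crE b z ∈ (D.prodL Z).Sm := by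
    obtain ⟨z1, h1, z2, h2, rfl⟩ := Submodule.mem_sup.1 hz
    rw [map_add]
    refine Submodule.add_mem_sup ?_ ?_
    · exact CS_mono (fun p hp => hp.2) (crE_mem (A := univ) (by rw [CS_univ]; trivial) h1)
    · exact CS_mono (fun p hp => hp.2) (crE_mem (A := univ) (by rw [CS_univ]; trivial) h2)
  rw [cx_crE b hb z h, (D.prodL Z).lc_mk hs, D.lc_mk hz h, cx_crE b hb]
  have e2 : Hm (D.jL Z) (Hd.mk _ (crE b (D.kap z)) (crE_cyc hb (D.kap_cyc hz h))) =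
      Hd.mk _ (N.map F2 (SS.SingMap (D.jL Z)) (crE b (D.kap z))) (by
        rw [← map_bd', crE_cyc hb (D.kap_cyc hz h), map_zero]) := rfl
  rw [e2]
  congr 1
  rw [kap_apply]
  show res _ (cap (pull (SS.SingMap ⟨Prod.snd, continuous_snd⟩) D.u) (crE b z)) = _
  rw [cap_crE_snd, ← D.inc_kap hz]
  have e3 : crE b (N.map F2 (SS.SingMap (SpecA.inc D.V)) (D.kap z)) =
      N.map F2 (SS.SingMap (SpecA.inc (D.prodL Z).V))
        (N.map F2 (SS.SingMap (D.jL Z)) (crE b (D.kap z))) := by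
    have := crE_map (ContinuousMap.id Z) (SpecA.inc D.V) b (D.kap z)
    have hid : N.map F2 (SS.SingMap (ContinuousMap.id Z)) b = b := by
      have : SS.SingMap (ContinuousMap.id Z) = SS.Hom.id _ := rfl
      rw [this, map_idHom]
    rw [hid] at this
    rw [← this, map_map]
    rfl
  rw [e3, res_map_inc]

/-! ### the `B = 0` lemma -/

/-- **`B = 0`** : `a × x`, `a` of degree bigger than the degree of the cochain, pushed by a map which
forgets `a` -/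
theorem lc_B (W₀ V₀ : Set Y) (hc₀ : ∀ y, W₀ ∈ 𝓝 y ∨ V₀ ∈ 𝓝 y) {D' : LD Y'} {q p : ℕ}
    (hq : Deg q D'.u) (hqp : q < p) (f : C(Z × Y, Y'))
    (hfW : ∀ a, ∀ y ∈ W₀, f (a, y) ∈ D'.W) (hfV : ∀ a, ∀ y ∈ V₀, f (a, y) ∈ D'.V)
    (g' : C(D'.V, B)) (g₀ : C(V₀, B))
    (hgg : ∀ (a : Z) (y : V₀), g' ⟨f (a, y), hfV a y y.2⟩ = g₀ y)
    {a : HS Z} (ha : a ∈ hg Z p) (x : HS Y) : Hm g' (D'.lc (Hm f (cx a x))) = 0 := by
  obtain ⟨z, hz, h, rfl⟩ := (LD.mk W₀ V₀ hc₀ 0 rfl (fun _ _ => rfl)).exists_rep x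
  obtain ⟨b, hbp, hb, rfl⟩ := Gr334.mem_H_gr.1 ha
  obtain ⟨z1, h1, z2, h2, rfl⟩ := Submodule.mem_sup.1 hz
  have h1' : crE b z1 ∈ CS (Prod.snd ⁻¹' W₀ : Set (Z × Y)) :=
    CS_mono (fun p hp => hp.2) (crE_mem (A := univ) (by rw [CS_univ]; trivial) h1)
  have h2' : crE b z2 ∈ CS (Prod.snd ⁻¹' V₀ : Set (Z × Y)) :=
    CS_mono (fun p hp => hp.2) (crE_mem (A := univ) (by rw [CS_univ]; trivial) h2)
  have mW : MapsTo f (Prod.snd ⁻¹' W₀ : Set (Z × Y)) D'.W := fun p hp => hfW p.1 p.2 hp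
  have mV : MapsTo f (Prod.snd ⁻¹' V₀ : Set (Z × Y)) D'.V := fun p hp => hfV p.1 p.2 hp
  have hs : N.map F2 (SS.SingMap f) (crE b (z1 + z2)) ∈ D'.Sm := by
    rw [map_add, map_add]
    exact Submodule.add_mem_sup (map_CS mW h1') (map_CS mV h2')
  have hcyc : bdE Y' (N.map F2 (SS.SingMap f) (crE b (z1 + z2))) = 0 := by
    rw [← map_bd', crE_cyc hb h, map_zero]
  have e1 : Hm f (cx (Hd.mk _ b hb) (Hd.mk _ (z1 + z2) h)) =
      Hd.mk _ (N.map F2 (SS.SingMap f) (crE b (z1 + z2))) hcyc := by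
    rw [cx_crE b hb _ h]; rfl
  rw [e1, D'.lc_mk hs hcyc]
  refine Hd.mk_eq_zero.2 ⟨0, ?_⟩
  rw [map_zero]
  symm
  show N.map F2 (SS.SingMap g') (D'.kap (N.map F2 (SS.SingMap f) (crE b (z1 + z2)))) = 0
  rw [kap_apply, ← map_cap, map_add (crE b), map_add (cap _)]
  have c1 : cap (pull (SS.SingMap f) D'.u) (crE b z1) = 0 :=
    cap_eq_zero_CS (A := Prod.snd ⁻¹' W₀) (fun w hw => D'.hW _ (map_CS mW hw)) _ h1'
  rw [c1, zero_add, res_map mV (cap_mem_CS _ _ h2'), map_map]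
  have mS : MapsTo (sndC Z Y) (Prod.snd ⁻¹' V₀ : Set (Z × Y)) V₀ := fun _ h => h
  have e2 : (SS.SingMap g').comp (SS.SingMap (cr f mV)) =
      (SS.SingMap g₀).comp (SS.SingMap (cr (sndC Z Y) mS)) := by
    rw [← SingMap_comp, ← SingMap_comp]
    congr 1
    exact ContinuousMap.ext fun p => hgg p.1.1 ⟨p.1.2, p.2⟩
  rw [e2, ← map_map, ← res_map mS (cap_mem_CS _ _ h2')]
  have e3 : N.map F2 (SS.SingMap (sndC Z Y)) (cap (pull (SS.SingMap f) D'.u) (crE b z2)) = 0 :=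
    snd_cap_crE_eq_zero hqp (hq.pull _) hbp z2
  rw [e3, map_zero, map_zero]

/-- the same with the forgotten factor on the right -/
theorem lc_B' (W₀ V₀ : Set Y) (hc₀ : ∀ y, W₀ ∈ 𝓝 y ∨ V₀ ∈ 𝓝 y) {D' : LD Y'} {q p : ℕ}
    (hq : Deg q D'.u) (hqp : q < p) (f : C(Y × Z, Y'))
    (hfW : ∀ a, ∀ y ∈ W₀, f (y, a) ∈ D'.W) (hfV : ∀ a, ∀ y ∈ V₀, f (y, a) ∈ D'.V)
    (g' : C(D'.V, B)) (g₀ : C(V₀, B))
    (hgg : ∀ (a : Z) (y : V₀), g' ⟨f (y, a), hfV a y y.2⟩ = g₀ y)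
    (x : HS Y) {a : HS Z} (ha : a ∈ hg Z p) : Hm g' (D'.lc (Hm f (cx x a))) = 0 := by
  have h := lc_B W₀ V₀ hc₀ hq hqp (f.comp (swC Z Y)) hfW hfV g' g₀ hgg ha x
  rwa [Hm_comp_apply, cx_swap] at h

end LD

end Crest.Agent.R231.LocSlx682
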