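import Crest.Agent.R231.FinDim_315
import Crest.Agent.R231.CrossCS_780
import Crest.Agent.R204.Cartan_888

/-!
# Row 231, block P, leaf Q2a (helper226): excision, Mayer-Vietoris boundary, localised cap product

Types and continuous maps, homology level (`HS Y = H F2 (SS.Sing Y)`, `Hm f` of `FinDim_315`).

* `HR W` : relative homology of `W : Set Y`; `HRm f h : HR W → HR W'`; `dl`, `pr`, exactness
* `excision`
* `mvb W V hc : HR W → HS ↥(W ∩ V)`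
* `lcap`
-/

set_option autoImplicit false

noncomputable section

namespace Crest.Agent.R231.MVBx226

open Crest.Agent.R204 Crest.Agent.R204.HA683 Crest.Agent.R204.Exc406 Crest.Agent.R231.Capx226
open Function Topology SpecA Crest.Agent.R231.FinDim315 Crest.Agent.R231.CapCSx780
  Crest.Agent.R231.CrossCSx780 Crest.Agent.R231.Pairx877

variable {Y Z Z' : Type} [TopologicalSpace Y] [TopologicalSpace Z] [TopologicalSpace Z']

/-- relative singular homology of a subset -/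
abbrev HR (W : Set Y) : Type := HRel F2 (SS.SingMap (inc W))

theorem sinj_of_inj {f : C(Y, Z)} (hf : Injective f) : SInj (SS.SingMap f) := SingMap_inj f hf

theorem sinj_inc (W : Set Y) : SInj (SS.SingMap (inc W)) := sinj_of_inj Subtype.val_injective

theorem sinj_inc₂ {A B : Set Y} (h : A ⊆ B) : SInj (SS.SingMap (inc₂ h)) :=
  sinj_of_inj (Set.inclusion_injective h)

/-- restriction of a continuous map to subsets -/
def cr (f : C(Y, Z)) {W : Set Y} {W' : Set Z} (h : Set.MapsTo f W W') : C(W, W') :=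
  ⟨h.restrict f W W', f.continuous.restrict h⟩

@[simp] theorem cr_apply (f : C(Y, Z)) {W : Set Y} {W' : Set Z} (h : Set.MapsTo f W W') (x : W) :
    (cr f h x : Z) = f x := rfl

/-! ### relative homology -/

section rel

variable {W : Set Y} {W' : Set Z} {W'' : Set Z'}

theorem sqM (f : C(Y, Z)) (h : Set.MapsTo f W W') :
    Sq (SS.SingMap (inc W)) (SS.SingMap (inc W')) (SS.SingMap (cr f h)) (SS.SingMap f) :=
  ⟨fun _ _ => rfl⟩

/-- the map of relative homology -/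
def HRm (f : C(Y, Z)) (h : Set.MapsTo f W W') : HR W →ₗ[F2] HR W' := HRel.map (sqM f h)

/-- class of a relative cycle -/
def rcl (W : Set Y) (z : N F2 (SS.Sing Y))
    (hz : ∃ y : N F2 (SS.Sing W), N.map F2 (SS.SingMap (inc W)) y = N.bd F2 _ z) : HR W :=
  Hd.mk _ (NRel.pi F2 _ z) (by
    rw [NRel.bd_pi]
    exact (NRel.pi_eq_zero F2 _).2 hz)

theorem rcl_surj (x : HR W) : ∃ z hz, x = rcl W z hz := by
  obtain ⟨z, hz, rfl⟩ := Hd.mk_surj _ x
  obtain ⟨z, rfl⟩ := NRel.pi_surj F2 _ z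
  rw [NRel.bd_pi] at hz
  exact ⟨z, (NRel.pi_eq_zero F2 _).1 hz, rfl⟩

theorem HRm_rcl (f : C(Y, Z)) (h : Set.MapsTo f W W') (z : N F2 (SS.Sing Y)) (hz) :
    HRm f h (rcl W z hz) = rcl W' (N.map F2 (SS.SingMap f) z) (by
      obtain ⟨y, hy⟩ := hz
      refine ⟨N.map F2 (SS.SingMap (cr f h)) y, ?_⟩
      rw [← (sqM f h).N_map, hy, N_map_bd_apply]) := rfl

theorem rcl_eq_rcl {z z' : N F2 (SS.Sing Y)} {hz hz'} :
    rcl W z hz = rcl W z' hz' ↔ ∃ (e : N F2 (SS.Sing Y)) (y : N F2 (SS.Sing W)),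
      z = z' + N.bd F2 _ e + N.map F2 (SS.SingMap (inc W)) y := by
  rw [rcl, rcl, Hd.mk_eq_mk]
  constructor
  · rintro ⟨e, he⟩
    obtain ⟨e, rfl⟩ := NRel.pi_surj F2 _ e
    rw [NRel.bd_pi, ← map_sub] at he
    have h1 : NRel.pi F2 (SS.SingMap (inc W)) (z - z' - N.bd F2 _ e) = 0 := by
      rw [map_sub, he, sub_self]
    obtain ⟨y, hy⟩ := (NRel.pi_eq_zero F2 _).1 h1
    exact ⟨e, y, by rw [hy]; abel⟩
  · rintro ⟨e, y, h⟩
    refine ⟨NRel.pi F2 _ e, ?_⟩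
    rw [NRel.bd_pi, ← map_sub]
    have h1 : NRel.pi F2 (SS.SingMap (inc W)) (z - z' - N.bd F2 _ e) = 0 := by
      rw [NRel.pi_eq_zero]
      exact ⟨y, by rw [h]; abel⟩
    rw [map_sub, sub_eq_zero] at h1
    exact h1.symm

theorem rcl_add {z z' : N F2 (SS.Sing Y)} (hz hz' h) :
    rcl W (z + z') h = rcl W z hz + rcl W z' hz' := rfl

theorem rcl_congr {w w' : N F2 (SS.Sing Y)} (h : w = w') (hw) (hw') :
    rcl W w hw = rcl W w' hw' := by subst h; rfl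

theorem HRm_comp_apply (g : C(Z, Z')) (f : C(Y, Z)) (h : Set.MapsTo f W W')
    (h' : Set.MapsTo g W' W'') (h'' : Set.MapsTo (g.comp f) W W'') (x : HR W) :
    HRm g h' (HRm f h x) = HRm (g.comp f) h'' x := by
  obtain ⟨z, hz, rfl⟩ := rcl_surj x
  rw [HRm_rcl, HRm_rcl, HRm_rcl]
  rw [rcl_eq_rcl]
  refine ⟨0, 0, ?_⟩
  rw [map_zero, map_zero, add_zero, add_zero, SingMap_comp]
  exact (N_map_comp _ _ _).symm

theorem HRm_id_apply (h : Set.MapsTo (ContinuousMap.id Y) W W) (x : HR W) :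
    HRm (ContinuousMap.id Y) h x = x := by
  obtain ⟨z, hz, rfl⟩ := rcl_surj x
  rw [HRm_rcl, rcl_eq_rcl]
  refine ⟨0, 0, ?_⟩
  rw [map_zero, map_zero, add_zero, add_zero]
  have h1 : N.map F2 (SS.SingMap (ContinuousMap.id Y)) = LinearMap.id :=
    Gr334.N_ext (fun n x => by rw [N.map_sx]; rfl)
  rw [h1]; rfl

/-- the projection -/
def pr (W : Set Y) : HS Y →ₗ[F2] HR W := HRel.pi F2 _

/-- the connecting map -/
def dl (W : Set Y) : HR W →ₗ[F2] HS W := HRel.delta F2 (sinj_inc W)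

theorem exact_inc_pr (W : Set Y) : Exact (Hm (inc W)) (pr W) := exact_i_pi F2 (sinj_inc W)
theorem exact_pr_dl (W : Set Y) : Exact (pr W) (dl W) := exact_pi_delta F2 (sinj_inc W)
theorem exact_dl_inc (W : Set Y) : Exact (dl W) (Hm (inc W)) := exact_delta_i F2 (sinj_inc W)

theorem dl_rcl (z : N F2 (SS.Sing Y)) (y : N F2 (SS.Sing W)) (hy : N.bd F2 _ y = 0)
    (e : N.map F2 (SS.SingMap (inc W)) y = N.bd F2 _ z) :
    dl W (rcl W z ⟨y, e⟩) = Hd.mk _ y hy := delta_rel_mk F2 (sinj_inc W) z y _ hy e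

theorem dl_nat (f : C(Y, Z)) (h : Set.MapsTo f W W') (x : HR W) :
    dl W' (HRm f h x) = Hm (cr f h) (dl W x) :=
  delta_map (sqM f h) (sinj_inc W) (sinj_inc W') x

theorem pr_nat (f : C(Y, Z)) (h : Set.MapsTo f W W') (x : HS Y) :
    HRm f h (pr W x) = pr W' (Hm f x) := HRel.map_pi (sqM f h) x

theorem rcl_gr {z : N F2 (SS.Sing Y)} {hz} {n : ℕ} (h : z ∈ N.gr F2 _ n) :
    rcl W z hz ∈ HRel.gr F2 (SS.SingMap (inc W)) n :=
  HA498.mk_mem_grHd (⟨z, h, rfl⟩ : NRel.pi F2 (SS.SingMap (inc W)) z ∈ NRel.gr F2 _ n) _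

/-- a homogeneous relative class has a homogeneous representative -/
theorem rcl_surj_gr {n : ℕ} {x : HR W} (hx : x ∈ HRel.gr F2 (SS.SingMap (inc W)) n) :
    ∃ z ∈ N.gr F2 (SS.Sing Y) n, ∃ hz, x = rcl W z hz := by
  obtain ⟨z, ⟨m, hm, rfl⟩, hz, rfl⟩ := HA498.mem_grHd.1 hx
  rw [NRel.bd_pi] at hz
  exact ⟨m, hm, (NRel.pi_eq_zero F2 _).1 hz, rfl⟩

theorem rcl_proj_aux {z : N F2 (SS.Sing Y)}
    (hz : ∃ y : N F2 (SS.Sing W), N.map F2 (SS.SingMap (inc W)) y = N.bd F2 _ z) {n : ℕ} :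
    ∃ y : N F2 (SS.Sing W), N.map F2 (SS.SingMap (inc W)) y = N.bd F2 _ (Gr334.prN F2 _ n z) := by
  obtain ⟨y, hy⟩ := hz
  rcases n with _ | n
  · exact ⟨0, by rw [map_zero, Gr334.bd_gr_zero (Gr334.prN_mem _ _)]⟩
  · exact ⟨Gr334.prN F2 _ n y, by rw [← Gr334.prN_map, hy, Gr334.prN_bd]⟩

/-- projection of a representative of a homogeneous class -/
theorem rcl_proj {n : ℕ} {z : N F2 (SS.Sing Y)} {hz}
    (hx : rcl W z hz ∈ HRel.gr F2 (SS.SingMap (inc W)) n) :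
    rcl W z hz = rcl W (Gr334.prN F2 _ n z) (rcl_proj_aux hz) := by
  obtain ⟨z', hz', hz'', h5⟩ := rcl_surj_gr hx
  rw [h5, rcl_eq_rcl]
  obtain ⟨e, w, h6⟩ := rcl_eq_rcl.1 h5
  refine ⟨Gr334.prN F2 _ (n + 1) e, Gr334.prN F2 _ n w, ?_⟩
  rw [h6, map_add, map_add, Gr334.prN_of_mem hz', Gr334.prN_bd, Gr334.prN_map]
  have h7 := add_self (N.bd F2 _ (Gr334.prN F2 _ (n + 1) e))
  have h8 := add_self (N.map F2 (SS.SingMap (inc W)) (Gr334.prN F2 _ n w))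
  calc z' = z' + (N.bd F2 _ (Gr334.prN F2 _ (n + 1) e) + N.bd F2 _ (Gr334.prN F2 _ (n + 1) e)) +
        (N.map F2 (SS.SingMap (inc W)) (Gr334.prN F2 _ n w) +
          N.map F2 (SS.SingMap (inc W)) (Gr334.prN F2 _ n w)) := by rw [h7, h8, add_zero, add_zero]
    _ = _ := by abel

theorem dl_gr_succ {n : ℕ} {x : HR W} (hx : x ∈ HRel.gr F2 (SS.SingMap (inc W)) (n + 1)) :
    dl W x ∈ H.gr F2 _ n := delta_gr_succ F2 (sinj_inc W) hx

theorem dl_gr_zero {x : HR W} (hx : x ∈ HRel.gr F2 (SS.SingMap (inc W)) 0) : dl W x = 0 :=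
  delta_gr_zero F2 (sinj_inc W) hx

end rel

/-! ### excision -/

section exc

variable (W V : Set Y)

theorem sqVW : Sq (SS.SingMap (inc₂ (Set.inter_subset_right : W ∩ V ⊆ V))) (SS.SingMap (inc W))
    (SS.SingMap (inc₂ (Set.inter_subset_left : W ∩ V ⊆ W))) (SS.SingMap (inc V)) :=
  ⟨fun _ _ => rfl⟩

theorem relHomeo : RelHomeo (SS.SingMap (inc₂ (Set.inter_subset_right : W ∩ V ⊆ V)))
    (subHom (𝒰 := {W, V}) W (by simp))
    (SS.SingMap (inc₂ (Set.inter_subset_left : W ∩ V ⊆ W)))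
    (subHom (𝒰 := {W, V}) V (by simp)) where
  sq n x := ((mvSq W V).comm n x).symm
  cover n y := (mvSq W V).cup n y
  disj n x b h := by
    have h' : ∀ t : D n, (((show C(D n, V) from x) t : V) : Y) = ((show C(D n, W) from b) t : W) :=
      fun t => congrArg (fun ρ => (show C(D n, Y) from ρ) t) (congrArg Subtype.val h)
    refine ⟨(⟨fun t : D n => ⟨((show C(D n, V) from x) t : Y),
      by rw [h' t]; exact ((show C(D n, W) from b) t).2, ((show C(D n, V) from x) t).2⟩, ?_⟩ :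
      C(D n, (W ∩ V : Set Y))), ?_⟩
    · exact Continuous.subtype_mk
        (continuous_subtype_val.comp (show C(D n, V) from x).continuous) _
    · exact ContinuousMap.ext fun t => rfl
  inj n x x' h := Or.inl (subHom_inj V (by simp) n h)

/-- inclusion of the small simplices -/
def incC (𝒰 : Set (Set Y)) : SS.Hom (cov 𝒰).tk.K (SS.Sing Y) := (cov 𝒰).incl.hom

theorem sqCov : Sq (subHom (𝒰 := {W, V}) W (by simp)) (SS.SingMap (inc W))
    (SS.Hom.id _) (incC {W, V}) := ⟨fun _ _ => rfl⟩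

theorem H_map_id_bijective (K : SS) : Bijective (H.map F2 (SS.Hom.id K)) := by
  have : H.map F2 (SS.Hom.id K) = LinearMap.id := LinearMap.ext fun u => HZ76.H_map_id F2 u
  rw [this]
  exact bijective_id

/-- homology of the pair `(V, W ∩ V)` -/
abbrev HRi (W V : Set Y) : Type := HRel F2 (SS.SingMap (inc₂ (Set.inter_subset_right : W ∩ V ⊆ V)))

/-- **excision** -/
theorem excision (hc : ∀ y, W ∈ 𝓝 y ∨ V ∈ 𝓝 y) :
    Bijective (HRel.map (R := F2) (sqVW W V)) := by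
  have h1 := HRel_map_bijective (R := F2) (relHomeo W V)
  have h2 : Bijective (HRel.map (R := F2) (sqCov W V)) := by
    refine HRel_bijective_of (sqCov W V) (subHom_inj W (by simp)) (sinj_inc W)
      (H_map_id_bijective _) ?_
    refine small_cover {W, V} F2 fun y => ?_
    rcases hc y with h | h
    · exact ⟨W, by simp, h⟩
    · exact ⟨V, by simp, h⟩
  have h3 : ∀ x, HRel.map (R := F2) (sqVW W V) x =
      HRel.map (R := F2) (sqCov W V) (HRel.map (R := F2) (relHomeo W V).toSq x) := by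
    intro x
    obtain ⟨z, hz, rfl⟩ := Hd.mk_surj _ x
    obtain ⟨z, rfl⟩ := NRel.pi_surj F2 _ z
    unfold HRel.map
    rw [Hd.map_mk, Hd.map_mk, Hd.map_mk, Hd.mk_eq_mk]
    refine ⟨0, ?_⟩
    rw [map_zero]
    symm
    rw [sub_eq_zero, NRel.map_pi, NRel.map_pi, NRel.map_pi]
    congr 1
    exact N_map_comp (subHom (𝒰 := {W, V}) V (by simp)) (incC {W, V}) z
  have h4 : (HRel.map (R := F2) (sqVW W V) : _ → _) =
      (HRel.map (R := F2) (sqCov W V)) ∘ (HRel.map (R := F2) (relHomeo W V).toSq) := funext h3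
  rw [h4]
  exact h2.comp h1

/-- two chains of `W` and `V` with the same image come from `W ∩ V` -/
theorem inter_chain {a : N F2 (SS.Sing W)} {b : N F2 (SS.Sing V)}
    (h : N.map F2 (SS.SingMap (inc W)) a = N.map F2 (SS.SingMap (inc V)) b) :
    ∃ c : N F2 (SS.Sing (W ∩ V : Set Y)),
      N.map F2 (SS.SingMap (inc₂ (Set.inter_subset_left : W ∩ V ⊆ W))) c = a ∧
      N.map F2 (SS.SingMap (inc₂ (Set.inter_subset_right : W ∩ V ⊆ V))) c = b := by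
  have h1 : N.map F2 (subHom (𝒰 := {W, V}) W (by simp)) a +
      N.map F2 (subHom (𝒰 := {W, V}) V (by simp)) b = 0 := by
    have hi : Injective (N.map F2 (incC ({W, V} : Set (Set Y)))) :=
      map_inj _ (cov {W, V}).incl_inj
    apply hi
    have e1 := N_map_comp (R := F2) (subHom (𝒰 := {W, V}) W (by simp)) (incC {W, V}) a
    have e2 := N_map_comp (R := F2) (subHom (𝒰 := {W, V}) V (by simp)) (incC {W, V}) b
    rw [map_add, map_zero, ← e1, ← e2]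
    show N.map F2 (SS.SingMap (inc W)) a + N.map F2 (SS.SingMap (inc V)) b = 0
    rw [h, add_self]
  obtain ⟨c, hc, hc'⟩ := mv_exact (mvSq W V) a b h1
  exact ⟨c, hc, by rw [← hc', neg_eq]⟩

variable {W V}

/-- every relative class of `(Y, W)` comes from `V` -/
theorem rcl_surj_V (hc : ∀ y, W ∈ 𝓝 y ∨ V ∈ 𝓝 y) (x : HR W) :
    ∃ (z : N F2 (SS.Sing V)) (y : N F2 (SS.Sing (W ∩ V : Set Y)))
      (h1 : N.map F2 (SS.SingMap (inc₂ (Set.inter_subset_right : W ∩ V ⊆ V))) y = N.bd F2 _ z),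
      x = rcl W (N.map F2 (SS.SingMap (inc V)) z)
        ⟨N.map F2 (SS.SingMap (inc₂ (Set.inter_subset_left : W ∩ V ⊆ W))) y, by
          rw [← (sqVW W V).N_map, h1, N_map_bd_apply]⟩ := by
  obtain ⟨w, rfl⟩ := (excision W V hc).2 x
  obtain ⟨z, hz, rfl⟩ := Hd.mk_surj _ w
  obtain ⟨z, rfl⟩ := NRel.pi_surj F2 _ z
  have hz' := hz
  rw [NRel.bd_pi] at hz'
  obtain ⟨y, hy⟩ := (NRel.pi_eq_zero F2 _).1 hz'
  exact ⟨z, y, hy, rfl⟩

variable (W V)

/-- the inverse of excision -/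
def exInv (hc : ∀ y, W ∈ 𝓝 y ∨ V ∈ 𝓝 y) : HR W →ₗ[F2] HRi W V :=
  (LinearEquiv.ofBijective _ (excision W V hc)).symm.toLinearMap

variable {W V}

theorem exInv_map (hc : ∀ y, W ∈ 𝓝 y ∨ V ∈ 𝓝 y) (x : HRi W V) :
    exInv W V hc (HRel.map (R := F2) (sqVW W V) x) = x :=
  (LinearEquiv.ofBijective _ (excision W V hc)).symm_apply_apply x

theorem map_exInv (hc : ∀ y, W ∈ 𝓝 y ∨ V ∈ 𝓝 y) (x : HR W) :
    HRel.map (R := F2) (sqVW W V) (exInv W V hc x) = x :=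
  (LinearEquiv.ofBijective _ (excision W V hc)).apply_symm_apply x

theorem exInv_rcl (hc : ∀ y, W ∈ 𝓝 y ∨ V ∈ 𝓝 y) (z : N F2 (SS.Sing V))
    (y : N F2 (SS.Sing (W ∩ V : Set Y)))
    (h1 : N.map F2 (SS.SingMap (inc₂ (Set.inter_subset_right : W ∩ V ⊆ V))) y = N.bd F2 _ z)
    (h2) : exInv W V hc (rcl W (N.map F2 (SS.SingMap (inc V)) z) h2) =
      Hd.mk _ (NRel.pi F2 _ z) (by rw [NRel.bd_pi]; exact (NRel.pi_eq_zero F2 _).2 ⟨y, h1⟩) :=
  exInv_map hc (Hd.mk _ (NRel.pi F2 _ z) (by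
    rw [NRel.bd_pi]; exact (NRel.pi_eq_zero F2 _).2 ⟨y, h1⟩))

end exc

/-! ### the Mayer-Vietoris boundary -/

section mvb

variable (W V : Set Y)

/-- **Mayer-Vietoris boundary** `H(Y, W) ≅ H(V, W ∩ V) → H(W ∩ V)` -/
def mvb (hc : ∀ y, W ∈ 𝓝 y ∨ V ∈ 𝓝 y) : HR W →ₗ[F2] HS (W ∩ V : Set Y) :=
  HRel.delta F2 (sinj_inc₂ Set.inter_subset_right) ∘ₗ exInv W V hc

variable {W V}

/-- value on a relative cycle of `V` -/
theorem mvb_rcl (hc : ∀ y, W ∈ 𝓝 y ∨ V ∈ 𝓝 y) (z : N F2 (SS.Sing V))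
    (y : N F2 (SS.Sing (W ∩ V : Set Y))) (hy : N.bd F2 _ y = 0)
    (h1 : N.map F2 (SS.SingMap (inc₂ (Set.inter_subset_right : W ∩ V ⊆ V))) y = N.bd F2 _ z)
    (h2) : mvb W V hc (rcl W (N.map F2 (SS.SingMap (inc V)) z) h2) = Hd.mk _ y hy := by
  rw [mvb, LinearMap.comp_apply, exInv_rcl hc z y h1]
  exact delta_rel_mk F2 _ z y _ hy h1

/-- every relative class has a representative in `V` with an explicit boundary -/
theorem rcl_surj_V' (hc : ∀ y, W ∈ 𝓝 y ∨ V ∈ 𝓝 y) (x : HR W) :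
    ∃ (z : N F2 (SS.Sing V)) (y : N F2 (SS.Sing (W ∩ V : Set Y))) (hy : N.bd F2 _ y = 0)
      (h1 : N.map F2 (SS.SingMap (inc₂ (Set.inter_subset_right : W ∩ V ⊆ V))) y = N.bd F2 _ z)
      (h2 : _), x = rcl W (N.map F2 (SS.SingMap (inc V)) z) h2 ∧ mvb W V hc x = Hd.mk _ y hy := by
  obtain ⟨z, y, h1, rfl⟩ := rcl_surj_V hc x
  have hy : N.bd F2 _ y = 0 := by
    apply N_map_injective F2 (sinj_inc₂ (Set.inter_subset_right : W ∩ V ⊆ V))
    rw [N_map_bd_apply, h1, N.bd_bd, map_zero]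
  exact ⟨z, y, hy, h1, _, rfl, mvb_rcl hc z y hy h1 _⟩

theorem mvb_left (hc : ∀ y, W ∈ 𝓝 y ∨ V ∈ 𝓝 y) (x : HR W) :
    Hm (inc₂ (Set.inter_subset_left : W ∩ V ⊆ W)) (mvb W V hc x) = dl W x := by
  obtain ⟨z, y, hy, h1, h2, rfl, h3⟩ := rcl_surj_V' hc x
  rw [h3]
  have e : N.map F2 (SS.SingMap (inc W)) (N.map F2 (SS.SingMap (inc₂ (Set.inter_subset_left :
      W ∩ V ⊆ W))) y) = N.bd F2 _ (N.map F2 (SS.SingMap (inc V)) z) := by
    rw [← (sqVW W V).N_map, h1, N_map_bd_apply]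
  have hy' : N.bd F2 _ (N.map F2 (SS.SingMap (inc₂ (Set.inter_subset_left : W ∩ V ⊆ W))) y) = 0 := by
    rw [← N_map_bd_apply, hy, map_zero]
  exact (dl_rcl _ _ hy' e).symm

theorem mvb_right (hc : ∀ y, W ∈ 𝓝 y ∨ V ∈ 𝓝 y) (x : HR W) :
    Hm (inc₂ (Set.inter_subset_right : W ∩ V ⊆ V)) (mvb W V hc x) = 0 :=
  (exact_delta_i F2 (sinj_inc₂ (Set.inter_subset_right : W ∩ V ⊆ V)) _).2 ⟨_, rfl⟩

theorem mapsTo_inter {f : C(Y, Z)} {W' V' : Set Z} (hW : Set.MapsTo f W W') (hV : Set.MapsTo f V V') :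
    Set.MapsTo f (W ∩ V) (W' ∩ V') := fun _ h => ⟨hW h.1, hV h.2⟩

/-- naturality -/
theorem mvb_nat {W' V' : Set Z} (hc : ∀ y, W ∈ 𝓝 y ∨ V ∈ 𝓝 y) (hc' : ∀ y, W' ∈ 𝓝 y ∨ V' ∈ 𝓝 y)
    (f : C(Y, Z)) (hW : Set.MapsTo f W W') (hV : Set.MapsTo f V V') (x : HR W) :
    mvb W' V' hc' (HRm f hW x) = Hm (cr f (mapsTo_inter hW hV)) (mvb W V hc x) := by
  obtain ⟨z, y, hy, h1, h2, rfl, h3⟩ := rcl_surj_V' hc x
  rw [h3]
  have e1 : N.map F2 (SS.SingMap f) (N.map F2 (SS.SingMap (inc V)) z) =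
      N.map F2 (SS.SingMap (inc V')) (N.map F2 (SS.SingMap (cr f hV)) z) := (sqM f hV).N_map z
  have sq2 : Sq (SS.SingMap (inc₂ (Set.inter_subset_right : W ∩ V ⊆ V)))
      (SS.SingMap (inc₂ (Set.inter_subset_right : W' ∩ V' ⊆ V')))
      (SS.SingMap (cr f (mapsTo_inter hW hV))) (SS.SingMap (cr f hV)) := ⟨fun _ _ => rfl⟩
  have e2 : N.map F2 (SS.SingMap (inc₂ (Set.inter_subset_right : W' ∩ V' ⊆ V')))
      (N.map F2 (SS.SingMap (cr f (mapsTo_inter hW hV))) y) =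
      N.bd F2 _ (N.map F2 (SS.SingMap (cr f hV)) z) := by
    rw [← sq2.N_map, h1, N_map_bd_apply]
  have hy' : N.bd F2 _ (N.map F2 (SS.SingMap (cr f (mapsTo_inter hW hV))) y) = 0 := by
    rw [← N_map_bd_apply, hy, map_zero]
  have h4 := mvb_rcl hc' (N.map F2 (SS.SingMap (cr f hV)) z) _ hy' e2 (by
    refine ⟨N.map F2 (SS.SingMap (inc₂ (Set.inter_subset_left : W' ∩ V' ⊆ W')))
      (N.map F2 (SS.SingMap (cr f (mapsTo_inter hW hV))) y), ?_⟩
    rw [← (sqVW W' V').N_map, e2, N_map_bd_apply])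
  rw [HRm_rcl, rcl_congr e1 _ (by rw [← e1]; exact (by
    obtain ⟨q, hq⟩ := h2
    exact ⟨N.map F2 (SS.SingMap (cr f hW)) q, by rw [← (sqM f hW).N_map, hq, N_map_bd_apply]⟩)), h4]
  rfl

/-- degrees -/
theorem mvb_gr (hc : ∀ y, W ∈ 𝓝 y ∨ V ∈ 𝓝 y) {n : ℕ} {x : HR W}
    (hx : x ∈ HRel.gr F2 (SS.SingMap (inc W)) (n + 1)) : mvb W V hc x ∈ H.gr F2 _ n := by
  obtain ⟨z, y, hy, h1, h2, rfl, -⟩ := rcl_surj_V' hc x
  have h4 := rcl_proj hx
  have e : N.map F2 (SS.SingMap (inc₂ (Set.inter_subset_right : W ∩ V ⊆ V)))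
      (Gr334.prN F2 _ n y) = N.bd F2 _ (Gr334.prN F2 _ (n + 1) z) := by
    rw [← Gr334.prN_map, h1, Gr334.prN_bd]
  have hy' : N.bd F2 _ (Gr334.prN F2 _ n y) = 0 := by
    rcases n with _ | n
    · exact Gr334.bd_gr_zero (Gr334.prN_mem _ _)
    · rw [← Gr334.prN_bd, hy, map_zero]
  rw [h4, rcl_congr (Gr334.prN_map _ _ _) _ (by rw [← Gr334.prN_map]; exact rcl_proj_aux h2),
    mvb_rcl hc _ _ hy' e]
  exact HA498.mk_mem_grHd (Gr334.prN_mem _ _) _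

theorem mvb_gr_zero (hc : ∀ y, W ∈ 𝓝 y ∨ V ∈ 𝓝 y) {x : HR W}
    (hx : x ∈ HRel.gr F2 (SS.SingMap (inc W)) 0) : mvb W V hc x = 0 := by
  obtain ⟨z, y, hy, h1, h2, rfl, -⟩ := rcl_surj_V' hc x
  have h4 := rcl_proj hx
  have e : N.map F2 (SS.SingMap (inc₂ (Set.inter_subset_right : W ∩ V ⊆ V)))
      (0 : N F2 (SS.Sing (W ∩ V : Set Y))) = N.bd F2 _ (Gr334.prN F2 _ 0 z) := by
    rw [map_zero, Gr334.bd_gr_zero (Gr334.prN_mem _ _)]
  rw [h4, rcl_congr (Gr334.prN_map _ _ _) _ (by rw [← Gr334.prN_map]; exact rcl_proj_aux h2),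
    mvb_rcl hc _ _ (map_zero _) e]
  rfl

end mvb

end Crest.Agent.R231.MVBx226
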