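import Mathlib

/-!
# Row 231, block P: the space layer (helper609)

`Mo M` = 1-Lipschitz Moore paths `(len, fn)` in a (pseudo)metric space `M`, `fn : ℝ → M` constant on
`(-∞,0]` and on `[len,∞)`, with the POINTWISE topology.  All path operations are total, strict
(strictly associative, strict units) and jointly continuous.

* `Mo.continuous_iff`        : `f : X → Mo M` is continuous iff `len` and all evaluations are
* `Mo.cont_eval`             : `(w,x) ↦ w x` is jointly continuous
* `Mo.cat w w' h`            : concatenation (`h : w.fin = w'.start`)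
* `Mo.pre w s`, `Mo.suf w s` : `w|[0,s]`, `w|[s,len]` (`s` is clamped to `[0,len]`)
* `Mo.rev w`, `Mo.cst q`, `Mo.wait q l`
* `Mo.rot w s h`             : rotation of a loop `w|[s,len] · w|[0,s]`
* `Om p t`, `La t`           : based / free loops of length `≤ t`
-/

set_option autoImplicit false

namespace Crest.Agent.R231.Moorex609

open Set Topology

/-- 1-Lipschitz Moore paths -/
@[ext] structure Mo (M : Type) [PseudoMetricSpace M] where
  len : ℝ
  fn : ℝ → M
  len_nonneg : 0 ≤ len
  lip : ∀ x y, dist (fn x) (fn y) ≤ |x - y|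
  left : ∀ x, x ≤ 0 → fn x = fn 0
  right : ∀ x, len ≤ x → fn x = fn len

namespace Mo

variable {M : Type} [PseudoMetricSpace M]

instance : CoeFun (Mo M) (fun _ => ℝ → M) := ⟨fun w => w.fn⟩

/-- starting point -/
def start (w : Mo M) : M := w.fn 0
/-- end point -/
def fin (w : Mo M) : M := w.fn w.len

instance : TopologicalSpace (Mo M) :=
  TopologicalSpace.induced (fun w => (w.len, w.fn)) (inferInstance : TopologicalSpace (ℝ × (ℝ → M)))

theorem inducing : IsInducing (fun w : Mo M => ((w.len, w.fn) : ℝ × (ℝ → M))) := ⟨rfl⟩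

theorem injective_pair : Function.Injective (fun w : Mo M => ((w.len, w.fn) : ℝ × (ℝ → M))) := by
  intro w w' h
  have h1 : w.len = w'.len := congrArg Prod.fst h
  have h2 : w.fn = w'.fn := congrArg Prod.snd h
  exact Mo.ext h1 h2

theorem embedding : IsEmbedding (fun w : Mo M => ((w.len, w.fn) : ℝ × (ℝ → M))) :=
  ⟨inducing, injective_pair⟩

theorem continuous_iff {X : Type*} [TopologicalSpace X] {f : X → Mo M} :
    Continuous f ↔ Continuous (fun x => (f x).len) ∧ ∀ s : ℝ, Continuous (fun x => (f x).fn s) := by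
  rw [inducing.continuous_iff]
  constructor
  · intro h
    exact ⟨h.fst, fun s => (continuous_apply s).comp h.snd⟩
  · rintro ⟨h1, h2⟩
    exact h1.prodMk (continuous_pi h2)

theorem cont_len : Continuous (fun w : Mo M => w.len) := (continuous_iff.1 continuous_id).1

theorem cont_fn (s : ℝ) : Continuous (fun w : Mo M => w.fn s) := (continuous_iff.1 continuous_id).2 s

/-- joint continuity of the evaluation -/
theorem cont_eval : Continuous (fun p : Mo M × ℝ => p.1.fn p.2) := by
  rw [Metric.continuous_iff']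
  rintro ⟨w0, s0⟩ ε hε
  have h1 : ∀ᶠ p : Mo M × ℝ in 𝓝 (w0, s0), dist (p.1.fn s0) (w0.fn s0) < ε / 2 := by
    have hc : Continuous (fun p : Mo M × ℝ => p.1.fn s0) := (cont_fn s0).comp continuous_fst
    exact (Metric.continuous_iff'.1 hc) (w0, s0) (ε / 2) (by positivity)
  have h2 : ∀ᶠ p : Mo M × ℝ in 𝓝 (w0, s0), |p.2 - s0| < ε / 2 := by
    have hc : Continuous (fun p : Mo M × ℝ => p.2) := continuous_snd
    have := (Metric.continuous_iff'.1 hc) (w0, s0) (ε / 2) (by positivity)
    simpa [Real.dist_eq] using this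
  filter_upwards [h1, h2] with p hp1 hp2
  calc dist (p.1.fn p.2) (w0.fn s0) ≤ dist (p.1.fn p.2) (p.1.fn s0) + dist (p.1.fn s0) (w0.fn s0) :=
        dist_triangle _ _ _
    _ ≤ |p.2 - s0| + dist (p.1.fn s0) (w0.fn s0) := by gcongr; exact p.1.lip _ _
    _ < ε / 2 + ε / 2 := by linarith
    _ = ε := by ring

theorem _root_.Continuous.mo_eval {X : Type*} [TopologicalSpace X] {f : X → Mo M} {g : X → ℝ}
    (hf : Continuous f) (hg : Continuous g) : Continuous (fun x => (f x).fn (g x)) :=
  cont_eval.comp (hf.prodMk hg)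

theorem _root_.Continuous.mo_len {X : Type*} [TopologicalSpace X] {f : X → Mo M}
    (hf : Continuous f) : Continuous (fun x => (f x).len) := cont_len.comp hf

theorem cont_start : Continuous (fun w : Mo M => w.start) := cont_fn 0

theorem cont_fin : Continuous (fun w : Mo M => w.fin) := continuous_id.mo_eval cont_len

theorem continuous_fn (w : Mo M) : Continuous w.fn :=
  (continuous_const (y := w)).mo_eval continuous_id

theorem fn_of_le {w : Mo M} {x : ℝ} (h : x ≤ 0) : w.fn x = w.start := w.left x h
theorem fn_of_ge {w : Mo M} {x : ℝ} (h : w.len ≤ x) : w.fn x = w.fin := w.right x h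

/-! ### constant paths -/

/-- constant path of length `l` -/
def wait (q : M) (l : ℝ) (hl : 0 ≤ l) : Mo M where
  len := l
  fn := fun _ => q
  len_nonneg := hl
  lip := fun x y => by simp
  left := fun _ _ => rfl
  right := fun _ _ => rfl

/-- constant path of length `0` -/
def cst (q : M) : Mo M := wait q 0 le_rfl

@[simp] theorem wait_len (q : M) (l : ℝ) (hl : 0 ≤ l) : (wait q l hl).len = l := rfl
@[simp] theorem wait_fn (q : M) (l : ℝ) (hl : 0 ≤ l) (x : ℝ) : (wait q l hl).fn x = q := rfl
@[simp] theorem wait_start (q : M) (l : ℝ) (hl : 0 ≤ l) : (wait q l hl).start = q := rfl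
@[simp] theorem wait_fin (q : M) (l : ℝ) (hl : 0 ≤ l) : (wait q l hl).fin = q := rfl
@[simp] theorem cst_len (q : M) : (cst q).len = 0 := rfl
@[simp] theorem cst_fn (q : M) (x : ℝ) : (cst q).fn x = q := rfl
@[simp] theorem cst_start (q : M) : (cst q).start = q := rfl
@[simp] theorem cst_fin (q : M) : (cst q).fin = q := rfl

theorem _root_.Continuous.mo_wait {X : Type*} [TopologicalSpace X] {q : X → M} {l : X → ℝ}
    (hq : Continuous q) (hl : Continuous l) (h : ∀ x, 0 ≤ l x) :
    Continuous (fun x => wait (q x) (l x) (h x)) :=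
  continuous_iff.2 ⟨hl, fun _ => hq⟩

/-! ### concatenation -/

/-- concatenation -/
noncomputable def cat (w w' : Mo M) (h : w.fin = w'.start) : Mo M where
  len := w.len + w'.len
  fn := fun x => if x ≤ w.len then w.fn x else w'.fn (x - w.len)
  len_nonneg := add_nonneg w.len_nonneg w'.len_nonneg
  lip := by
    have key : ∀ x y, x ≤ w.len → w.len ≤ y → dist (w.fn x) (w'.fn (y - w.len)) ≤ |x - y| := by
      intro x y hx hy
      have e : w.fn w.len = w'.fn 0 := h
      calc dist (w.fn x) (w'.fn (y - w.len)) ≤ dist (w.fn x) (w.fn w.len) +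
            dist (w'.fn 0) (w'.fn (y - w.len)) := by
              have := dist_triangle (w.fn x) (w.fn w.len) (w'.fn (y - w.len))
              rwa [e] at this ⊢
        _ ≤ |x - w.len| + |0 - (y - w.len)| := add_le_add (w.lip _ _) (w'.lip _ _)
        _ = |x - y| := by
              rw [abs_of_nonpos (by linarith), abs_of_nonpos (by linarith),
                abs_of_nonpos (by linarith)]
              ring
    intro x y
    by_cases hx : x ≤ w.len
    · by_cases hy : y ≤ w.len
      · simp only [hx, hy, if_true]; exact w.lip _ _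
      · simp only [hx, hy, if_true, if_false]
        exact key x y hx (le_of_not_ge hy)
    · by_cases hy : y ≤ w.len
      · simp only [hx, hy, if_true, if_false]
        rw [dist_comm, abs_sub_comm]
        exact key y x hy (le_of_not_ge hx)
      · simp only [hx, hy, if_false]
        have := w'.lip (x - w.len) (y - w.len)
        rwa [sub_sub_sub_cancel_right] at this
  left := fun x hx => by
    have h0 := w.len_nonneg
    simp only [hx.trans h0, h0, if_true]
    exact w.left x hx
  right := fun x hx => by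
    have h0 := w'.len_nonneg
    by_cases hx' : x ≤ w.len
    · have e : w'.len = 0 := by linarith
      have e2 : x = w.len := by linarith
      simp only [e, e2, add_zero, le_refl, if_true]
    · rw [if_neg hx']
      by_cases h1 : w.len + w'.len ≤ w.len
      · have e : w'.len = 0 := by linarith
        rw [if_pos h1, e, add_zero]
        have e3 : w'.fn (x - w.len) = w'.fn w'.len := w'.right _ (by linarith)
        rw [e3, e]
        exact h.symm
      · rw [if_neg h1]
        have : w.len + w'.len - w.len = w'.len := by ring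
        rw [this]
        exact w'.right _ (by linarith)

@[simp] theorem cat_len (w w' : Mo M) (h : w.fin = w'.start) : (cat w w' h).len = w.len + w'.len := rfl

theorem cat_fn (w w' : Mo M) (h : w.fin = w'.start) (x : ℝ) :
    (cat w w' h).fn x = if x ≤ w.len then w.fn x else w'.fn (x - w.len) := rfl

theorem cat_fn_le {w w' : Mo M} {h : w.fin = w'.start} {x : ℝ} (hx : x ≤ w.len) :
    (cat w w' h).fn x = w.fn x := by rw [cat_fn, if_pos hx]

theorem cat_fn_ge {w w' : Mo M} {h : w.fin = w'.start} {x : ℝ} (hx : w.len ≤ x) :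
    (cat w w' h).fn x = w'.fn (x - w.len) := by
  rw [cat_fn]
  split_ifs with h1
  · have e : x = w.len := le_antisymm h1 hx
    rw [e, sub_self]; exact h
  · rfl

@[simp] theorem cat_start (w w' : Mo M) (h : w.fin = w'.start) : (cat w w' h).start = w.start := by
  show (cat w w' h).fn 0 = w.fn 0
  rw [cat_fn_le w.len_nonneg]

@[simp] theorem cat_fin (w w' : Mo M) (h : w.fin = w'.start) : (cat w w' h).fin = w'.fin := by
  show (cat w w' h).fn (w.len + w'.len) = w'.fn w'.len
  rw [cat_fn_ge (by linarith [w'.len_nonneg])]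
  congr 1; ring

/-- strict associativity -/
theorem cat_assoc (a b c : Mo M) (h1 : a.fin = b.start) (h2 : b.fin = c.start) :
    cat (cat a b h1) c (by rw [cat_fin]; exact h2) = cat a (cat b c h2) (by rw [cat_start]; exact h1) := by
  refine Mo.ext (by simp [add_assoc]) ?_
  funext x
  have ha := a.len_nonneg
  have hb := b.len_nonneg
  by_cases hx : x ≤ a.len
  · rw [cat_fn_le (by simp; linarith), cat_fn_le hx, cat_fn_le hx]
  · have hx' := le_of_not_ge hx
    by_cases hy : x ≤ a.len + b.len
    · rw [cat_fn_le (by simpa using hy), cat_fn_ge hx', cat_fn_ge hx', cat_fn_le (by linarith)]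
    · have hy' := le_of_not_ge hy
      rw [cat_fn_ge (by simpa using hy'), cat_fn_ge hx', cat_fn_ge (by linarith)]
      simp only [cat_len]
      congr 1; ring

/-- strict right unit -/
theorem cat_cst (w : Mo M) (q : M) (h : w.fin = (cst q).start) : cat w (cst q) h = w := by
  refine Mo.ext (by simp) ?_
  funext x
  by_cases hx : x ≤ w.len
  · rw [cat_fn_le hx]
  · have hx' := le_of_not_ge hx
    rw [cat_fn_ge hx', fn_of_ge hx']
    exact h.symm

/-- strict left unit -/
theorem cst_cat (w : Mo M) (q : M) (h : (cst q).fin = w.start) : cat (cst q) w h = w := by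
  refine Mo.ext (by simp) ?_
  funext x
  by_cases hx : x ≤ 0
  · rw [cat_fn_le (by simpa using hx), w.left x hx]; exact h
  · rw [cat_fn_ge (by simpa using le_of_not_ge hx)]
    simp

theorem _root_.Continuous.mo_cat {X : Type*} [TopologicalSpace X] {f g : X → Mo M}
    (hf : Continuous f) (hg : Continuous g) (h : ∀ x, (f x).fin = (g x).start) :
    Continuous (fun x => cat (f x) (g x) (h x)) := by
  refine continuous_iff.2 ⟨hf.mo_len.add hg.mo_len, fun s => ?_⟩
  simp only [cat_fn]
  refine Continuous.if_le (hf.mo_eval continuous_const)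
    (hg.mo_eval (continuous_const.sub hf.mo_len)) continuous_const hf.mo_len ?_
  intro x hx
  rw [hx, sub_self]
  exact h x

/-! ### initial and final pieces -/

/-- `s` clamped to `[0, len]` -/
noncomputable def cl (w : Mo M) (s : ℝ) : ℝ := max 0 (min s w.len)

theorem cl_nonneg (w : Mo M) (s : ℝ) : 0 ≤ w.cl s := le_max_left _ _
theorem cl_le (w : Mo M) (s : ℝ) : w.cl s ≤ w.len := max_le w.len_nonneg (min_le_right _ _)
theorem cl_eq {w : Mo M} {s : ℝ} (h0 : 0 ≤ s) (h1 : s ≤ w.len) : w.cl s = s := by
  rw [cl, min_eq_left h1, max_eq_right h0]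
theorem cl_of_le {w : Mo M} {s : ℝ} (h : s ≤ 0) : w.cl s = 0 := by
  rw [cl, max_eq_left ((min_le_left _ _).trans h)]
theorem cl_of_ge {w : Mo M} {s : ℝ} (h : w.len ≤ s) : w.cl s = w.len := by
  rw [cl, min_eq_right h, max_eq_right w.len_nonneg]
theorem fn_cl (w : Mo M) (s : ℝ) : w.fn (w.cl s) = w.fn s := by
  rcases le_total s 0 with h | h
  · rw [cl_of_le h, w.left s h]
  · rcases le_total s w.len with h' | h'
    · rw [cl_eq h h']
    · rw [cl_of_ge h', w.right s h']

theorem _root_.Continuous.mo_cl {X : Type*} [TopologicalSpace X] {f : X → Mo M} {g : X → ℝ}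
    (hf : Continuous f) (hg : Continuous g) : Continuous (fun x => (f x).cl (g x)) :=
  continuous_const.max (hg.min hf.mo_len)

/-- `w|[0,s]` -/
noncomputable def pre (w : Mo M) (s : ℝ) : Mo M where
  len := w.cl s
  fn := fun x => w.fn (min x (w.cl s))
  len_nonneg := w.cl_nonneg s
  lip := fun x y => (w.lip _ _).trans (by
    have := abs_min_sub_min_le_max x (w.cl s) y (w.cl s)
    rwa [sub_self, abs_zero, max_eq_left (abs_nonneg _)] at this)
  left := fun x hx => by
    rw [min_eq_left (hx.trans (w.cl_nonneg s)), min_eq_left (w.cl_nonneg s)]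
    exact w.left x hx
  right := fun x hx => by rw [min_eq_right hx, min_self]

/-- `w|[s,len]` -/
noncomputable def suf (w : Mo M) (s : ℝ) : Mo M where
  len := w.len - w.cl s
  fn := fun x => w.fn (w.cl s + max x 0)
  len_nonneg := sub_nonneg.2 (w.cl_le s)
  lip := fun x y => by
    refine (w.lip _ _).trans ?_
    rw [add_sub_add_left_eq_sub]
    exact abs_max_sub_max_le_abs x y 0
  left := fun x hx => by rw [max_eq_right hx, max_self]
  right := fun x hx => by
    have h1 := w.cl_le s
    rw [max_eq_left (le_trans (by linarith) hx), max_eq_left (sub_nonneg.2 h1)]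
    rw [w.right (w.cl s + x) (by linarith)]
    congr 1; ring

@[simp] theorem pre_len (w : Mo M) (s : ℝ) : (w.pre s).len = w.cl s := rfl
@[simp] theorem suf_len (w : Mo M) (s : ℝ) : (w.suf s).len = w.len - w.cl s := rfl
theorem pre_fn (w : Mo M) (s x : ℝ) : (w.pre s).fn x = w.fn (min x (w.cl s)) := rfl
theorem suf_fn (w : Mo M) (s x : ℝ) : (w.suf s).fn x = w.fn (w.cl s + max x 0) := rfl
@[simp] theorem pre_start (w : Mo M) (s : ℝ) : (w.pre s).start = w.start := by
  show w.fn (min 0 (w.cl s)) = w.fn 0
  rw [min_eq_left (w.cl_nonneg s)]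
@[simp] theorem pre_fin (w : Mo M) (s : ℝ) : (w.pre s).fin = w.fn s := by
  show w.fn (min (w.cl s) (w.cl s)) = w.fn s
  rw [min_self, fn_cl]
@[simp] theorem suf_start (w : Mo M) (s : ℝ) : (w.suf s).start = w.fn s := by
  show w.fn (w.cl s + max 0 0) = w.fn s
  rw [max_self, add_zero, fn_cl]
@[simp] theorem suf_fin (w : Mo M) (s : ℝ) : (w.suf s).fin = w.fin := by
  show w.fn (w.cl s + max (w.len - w.cl s) 0) = w.fn w.len
  rw [max_eq_left (sub_nonneg.2 (w.cl_le s))]
  congr 1; ring

theorem _root_.Continuous.mo_pre {X : Type*} [TopologicalSpace X] {f : X → Mo M} {g : X → ℝ}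
    (hf : Continuous f) (hg : Continuous g) : Continuous (fun x => (f x).pre (g x)) :=
  continuous_iff.2 ⟨hf.mo_cl hg, fun _ => hf.mo_eval (continuous_const.min (hf.mo_cl hg))⟩

theorem _root_.Continuous.mo_suf {X : Type*} [TopologicalSpace X] {f : X → Mo M} {g : X → ℝ}
    (hf : Continuous f) (hg : Continuous g) : Continuous (fun x => (f x).suf (g x)) :=
  continuous_iff.2 ⟨hf.mo_len.sub (hf.mo_cl hg),
    fun _ => hf.mo_eval ((hf.mo_cl hg).add continuous_const)⟩

/-- cutting and gluing back -/
theorem cat_pre_suf (w : Mo M) (s : ℝ) : cat (w.pre s) (w.suf s) (by simp) = w := by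
  refine Mo.ext (by simp) ?_
  funext x
  by_cases hx : x ≤ w.cl s
  · rw [cat_fn_le (by simpa using hx), pre_fn, min_eq_left hx]
  · have hx' := le_of_not_ge hx
    rw [cat_fn_ge (by simpa using hx'), suf_fn]
    simp only [pre_len]
    rw [max_eq_left (by linarith)]
    congr 1; ring

theorem pre_of_ge {w : Mo M} {s : ℝ} (h : w.len ≤ s) : w.pre s = w := by
  refine Mo.ext (by simp [cl_of_ge h]) ?_
  funext x
  rw [pre_fn, cl_of_ge h]
  rcases le_total x w.len with h' | h'
  · rw [min_eq_left h']
  · rw [min_eq_right h', w.right x h']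

theorem pre_of_le {w : Mo M} {s : ℝ} (h : s ≤ 0) : w.pre s = cst w.start := by
  refine Mo.ext (by simp [cl_of_le h]) ?_
  funext x
  rw [pre_fn, cl_of_le h, cst_fn]
  exact w.left _ (min_le_right _ _)

theorem suf_of_le {w : Mo M} {s : ℝ} (h : s ≤ 0) : w.suf s = w := by
  refine Mo.ext (by simp [cl_of_le h]) ?_
  funext x
  rw [suf_fn, cl_of_le h, zero_add]
  rcases le_total x 0 with h' | h'
  · rw [max_eq_right h', w.left x h']
  · rw [max_eq_left h']

theorem suf_of_ge {w : Mo M} {s : ℝ} (h : w.len ≤ s) : w.suf s = cst w.fin := by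
  refine Mo.ext (by simp [cl_of_ge h]) ?_
  funext x
  rw [suf_fn, cl_of_ge h, cst_fn]
  exact w.right _ (by linarith [le_max_right x 0])

theorem cat_cl_le {w w' : Mo M} {h : w.fin = w'.start} {s : ℝ} (hs : s ≤ w.len) :
    (cat w w' h).cl s = w.cl s := by
  have := w'.len_nonneg
  rw [cl, cl, cat_len, min_eq_left (by linarith), min_eq_left hs]

theorem cat_cl_ge {w w' : Mo M} {h : w.fin = w'.start} {s : ℝ} (hs : w.len ≤ s) :
    (cat w w' h).cl s = w.len + w'.cl (s - w.len) := by
  have h0 := w.len_nonneg
  have h1 := w'.len_nonneg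
  rcases le_total s (w.len + w'.len) with h2 | h2
  · rw [cl_eq (by linarith) (by simpa using h2), cl_eq (by linarith) (by linarith)]; ring
  · rw [cl_of_ge (by simpa using h2), cl_of_ge (by linarith)]; simp

/-- `(w · w')|[0,s] = w|[0,s]` for `s ≤ len w` -/
theorem pre_cat_le (w w' : Mo M) (h : w.fin = w'.start) {s : ℝ} (hs : s ≤ w.len) :
    (cat w w' h).pre s = w.pre s := by
  refine Mo.ext (by simp [cat_cl_le hs]) ?_
  funext x
  rw [pre_fn, pre_fn, cat_cl_le hs, cat_fn_le ((min_le_right _ _).trans (w.cl_le s))]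

/-- `(w · w')|[0,s] = w · w'|[0,s - len w]` for `s ≥ len w` -/
theorem pre_cat_ge (w w' : Mo M) (h : w.fin = w'.start) {s : ℝ} (hs : w.len ≤ s) :
    (cat w w' h).pre s = cat w (w'.pre (s - w.len)) (by rw [pre_start]; exact h) := by
  refine Mo.ext (by simp [cat_cl_ge hs]) ?_
  funext x
  have h0 := w'.cl_nonneg (s - w.len)
  rw [pre_fn, cat_cl_ge hs]
  by_cases hx : x ≤ w.len
  · rw [min_eq_left (by linarith), cat_fn_le hx, cat_fn_le hx]
  · have hx' := le_of_not_ge hx
    rw [cat_fn_ge (w := w) (w' := w'.pre (s - w.len)) hx', pre_fn,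
      cat_fn_ge (le_min hx' (by linarith))]
    congr 1
    rw [← min_sub_sub_right]
    congr 1; ring

/-- `(w · w')|[s,len] = w|[s,len] · w'` for `s ≤ len w` -/
theorem suf_cat_le (w w' : Mo M) (h : w.fin = w'.start) {s : ℝ} (hs : s ≤ w.len) :
    (cat w w' h).suf s = cat (w.suf s) w' (by rw [suf_fin]; exact h) := by
  refine Mo.ext (by simp [cat_cl_le hs]; ring) ?_
  funext x
  have h0 := w.cl_le s
  have h1 := w.cl_nonneg s
  rw [suf_fn, cat_cl_le hs]
  by_cases hx : x ≤ w.len - w.cl s
  · rw [cat_fn_le (w := w.suf s) (by simpa using hx), suf_fn]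
    rw [cat_fn_le]
    rcases le_total x 0 with h' | h'
    · rw [max_eq_right h']; linarith
    · rw [max_eq_left h']; linarith
  · have hx' := le_of_not_ge hx
    rw [cat_fn_ge (w := w.suf s) (by simpa using hx')]
    have hx0 : 0 ≤ x := by linarith
    rw [max_eq_left hx0, cat_fn_ge (by linarith)]
    simp only [suf_len]
    congr 1; ring

/-- `(w · w')|[s,len] = w'|[s - len w, len]` for `s ≥ len w` -/
theorem suf_cat_ge (w w' : Mo M) (h : w.fin = w'.start) {s : ℝ} (hs : w.len ≤ s) :
    (cat w w' h).suf s = w'.suf (s - w.len) := by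
  refine Mo.ext (by simp [cat_cl_ge hs]) ?_
  funext x
  have h0 := w'.cl_nonneg (s - w.len)
  rw [suf_fn, suf_fn, cat_cl_ge hs, cat_fn_ge (by linarith [le_max_right x 0])]
  congr 1; ring

end Mo

end Crest.Agent.R231.Moorex609
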