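import Mathlib

/-!
# Moore paths that are 1-Lipschitz, as functions `ℝ → M` (row 231, block P)

Everything is a subset of the function type `ℝ → M` with the topology of pointwise
convergence.

* `LL` : the 1-Lipschitz curves;
* `MP p q a` : the curves equal to `p` on `(-∞,0]` and to `q` on `[a,∞)`;
* `Om p t = MP p p t` : based loops of length at most `t`;
* `cc c a b` : concatenation at time `c`;  `head`, `tail`, `rev`.
-/

namespace Crest.Agent.R231.Moorex725

open Set Topology

set_option linter.unusedSectionVars false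

variable {M : Type*} [PseudoMetricSpace M]

/-- The 1-Lipschitz curves. -/
def LL (M : Type*) [PseudoMetricSpace M] : Set (ℝ → M) :=
  {g | ∀ x y, dist (g x) (g y) ≤ |x - y|}

/-- 1-Lipschitz Moore paths from `p` to `q` of length at most `a`. -/
def MP (p q : M) (a : ℝ) : Set (ℝ → M) :=
  {g | (∀ x y, dist (g x) (g y) ≤ |x - y|) ∧ (∀ s, s ≤ 0 → g s = p) ∧ ∀ s, a ≤ s → g s = q}

/-- Based 1-Lipschitz Moore loops of length at most `t`. -/
def Om (p : M) (t : ℝ) : Set (ℝ → M) := MP p p t

theorem lipOf {p q : M} {a : ℝ} {g : ℝ → M} (h : g ∈ MP p q a) : g ∈ LL M := h.1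

theorem leftOf {p q : M} {a : ℝ} {g : ℝ → M} (h : g ∈ MP p q a) {s : ℝ} (hs : s ≤ 0) :
    g s = p := h.2.1 s hs

theorem rightOf {p q : M} {a : ℝ} {g : ℝ → M} (h : g ∈ MP p q a) {s : ℝ} (hs : a ≤ s) :
    g s = q := h.2.2 s hs

theorem MP_subset_LL (p q : M) (a : ℝ) : MP p q a ⊆ LL M := fun _ h => h.1

theorem MP_mono (p q : M) {a b : ℝ} (h : a ≤ b) : MP p q a ⊆ MP p q b :=
  fun _ hg => ⟨hg.1, hg.2.1, fun s hs => hg.2.2 s (h.trans hs)⟩

theorem Om_mono (p : M) {a b : ℝ} (h : a ≤ b) : Om p a ⊆ Om p b := MP_mono p p h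

theorem const_mem_MP (p : M) (a : ℝ) : (fun _ => p) ∈ MP p p a :=
  ⟨fun x y => by simp, fun _ _ => rfl, fun _ _ => rfl⟩

theorem const_mem_Om (p : M) (a : ℝ) : (fun _ => p) ∈ Om p a := const_mem_MP p a

/-- Constant paths are the only ones of length `0`. -/
theorem MP_eq_const {p q : M} {g : ℝ → M} {a : ℝ} (h : g ∈ MP p q a) (ha : a ≤ 0) :
    g = fun _ => p := by
  funext s
  rcases le_total s 0 with hs | hs
  · exact h.2.1 _ hs
  · rw [h.2.2 _ (ha.trans hs), ← h.2.2 _ ha, h.2.1 _ le_rfl]

/-- Concatenation at time `c`. -/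
noncomputable def cc (c : ℝ) (a b : ℝ → M) : ℝ → M := fun s => if s ≤ c then a s else b (s - c)

theorem cc_of_le {c s : ℝ} (a b : ℝ → M) (h : s ≤ c) : cc c a b s = a s := if_pos h

theorem cc_of_lt {c s : ℝ} (a b : ℝ → M) (h : c < s) : cc c a b s = b (s - c) :=
  if_neg (not_le.2 h)

theorem cc_of_ge {c s : ℝ} {a b : ℝ → M} (hab : a c = b 0) (h : c ≤ s) :
    cc c a b s = b (s - c) := by
  rcases h.lt_or_eq with h | h
  · exact cc_of_lt a b h
  · subst h; rw [cc_of_le a b le_rfl, sub_self, hab]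

theorem cc_lip {c : ℝ} {a b : ℝ → M} (ha : a ∈ LL M) (hb : b ∈ LL M) (hab : a c = b 0) :
    cc c a b ∈ LL M := by
  have key : ∀ x y, x ≤ y → dist (cc c a b x) (cc c a b y) ≤ |x - y| := by
    intro x y hxy
    rcases le_total y c with hy | hy
    · rw [cc_of_le a b hy, cc_of_le a b (hxy.trans hy)]; exact ha x y
    · rcases le_total x c with hx | hx
      · rw [cc_of_ge hab hy, cc_of_le a b hx]
        have h1 := ha x c
        have h2 := hb 0 (y - c)
        have h3 := dist_triangle (a x) (a c) (b (y - c))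
        rw [hab] at h3 h1
        rw [abs_of_nonpos (by linarith : x - c ≤ 0)] at h1
        rw [abs_of_nonpos (by linarith : 0 - (y - c) ≤ 0)] at h2
        rw [abs_of_nonpos (by linarith : x - y ≤ 0)]
        linarith
      · rw [cc_of_ge hab hx, cc_of_ge hab hy]
        have h1 := hb (x - c) (y - c)
        have : x - c - (y - c) = x - y := by ring
        rwa [this] at h1
  intro x y
  rcases le_total x y with h | h
  · exact key x y h
  · rw [dist_comm, abs_sub_comm]; exact key y x h

theorem cc_mem {p q r : M} {c d : ℝ} {a b : ℝ → M} (ha : a ∈ MP p q c) (hb : b ∈ MP q r d)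
    (hc : 0 ≤ c) (hd : 0 ≤ d) : cc c a b ∈ MP p r (c + d) := by
  have hab : a c = b 0 := by rw [ha.2.2 _ le_rfl, hb.2.1 _ le_rfl]
  refine ⟨cc_lip ha.1 hb.1 hab, fun s hs => ?_, fun s hs => ?_⟩
  · rw [cc_of_le a b (hs.trans hc), ha.2.1 _ hs]
  · rw [cc_of_ge hab (by linarith), hb.2.2 _ (by linarith)]

theorem cc_mem_Om {p : M} {c d : ℝ} {a b : ℝ → M} (ha : a ∈ Om p c) (hb : b ∈ Om p d)
    (hc : 0 ≤ c) (hd : 0 ≤ d) : cc c a b ∈ Om p (c + d) := cc_mem ha hb hc hd

/-- Concatenation at a time `e` after the length `c` of the first path. -/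
theorem cc_mem' {p q r : M} {c d e : ℝ} {a b : ℝ → M} (ha : a ∈ MP p q c) (hb : b ∈ MP q r d)
    (hce : c ≤ e) (he : 0 ≤ e) (hd : 0 ≤ d) : cc e a b ∈ MP p r (e + d) :=
  cc_mem (MP_mono p q hce ha) hb he hd

theorem cc_assoc {c d : ℝ} (a b x : ℝ → M) (hd : 0 ≤ d) :
    cc (c + d) (cc c a b) x = cc c a (cc d b x) := by
  funext s
  rcases le_or_gt s c with h | h
  · rw [cc_of_le _ _ (by linarith), cc_of_le _ _ h, cc_of_le _ _ h]
  · rw [cc_of_lt a _ h]
    rcases le_or_gt s (c + d) with h' | h'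
    · rw [cc_of_le _ _ h', cc_of_lt _ _ h, cc_of_le _ _ (by linarith)]
    · rw [cc_of_lt _ _ h', cc_of_lt _ _ (by linarith)]
      congr 1; ring

theorem cc_assoc' {c e : ℝ} (a b x : ℝ → M) (hd : c ≤ e) :
    cc e (cc c a b) x = cc c a (cc (e - c) b x) := by
  have := cc_assoc (c := c) (d := e - c) a b x (by linarith)
  rwa [add_sub_cancel] at this

/-- The unit law on the left. -/
theorem cc_const_left {p q : M} {d : ℝ} {b : ℝ → M} (hb : b ∈ MP p q d) :
    cc 0 (fun _ => p) b = b := by
  funext s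
  rcases le_or_gt s 0 with h | h
  · rw [cc_of_le _ _ h, hb.2.1 _ h]
  · rw [cc_of_lt _ _ h, sub_zero]

/-- The unit law on the right. -/
theorem cc_const_right {p q : M} {c : ℝ} {a : ℝ → M} (ha : a ∈ MP p q c) :
    cc c a (fun _ => q) = a := by
  funext s
  rcases le_or_gt s c with h | h
  · rw [cc_of_le _ _ h]
  · rw [cc_of_lt _ _ h, ha.2.2 _ h.le]

/-- The unit law on the right, at a later time. -/
theorem cc_const_right' {p q : M} {c e : ℝ} {a : ℝ → M} (ha : a ∈ MP p q c) (h : c ≤ e) :
    cc e a (fun _ => q) = a := cc_const_right (MP_mono p q h ha)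

/-! ### Heads and tails -/

/-- The part of `g` on `(-∞, s]`, then constant. -/
noncomputable def head (s : ℝ) (g : ℝ → M) : ℝ → M := fun r => g (min r s)

/-- The part of `g` on `[s, ∞)`, shifted to start at time `0`. -/
noncomputable def tail (s : ℝ) (g : ℝ → M) : ℝ → M := fun r => g (max r 0 + s)

/-- The reversed path. -/
def rev (a : ℝ) (g : ℝ → M) : ℝ → M := fun r => g (a - r)

theorem head_LL {g : ℝ → M} (hg : g ∈ LL M) (s : ℝ) : head s g ∈ LL M := fun x y =>
  (hg _ _).trans (by simpa using abs_min_sub_min_le_max x s y s)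

theorem tail_LL {g : ℝ → M} (hg : g ∈ LL M) (s : ℝ) : tail s g ∈ LL M := fun x y =>
  (hg _ _).trans (by
    have : max x 0 + s - (max y 0 + s) = max x 0 - max y 0 := by ring
    rw [this]
    simpa using abs_max_sub_max_le_max x 0 y 0)

theorem rev_LL {g : ℝ → M} (hg : g ∈ LL M) (a : ℝ) : rev a g ∈ LL M := fun x y =>
  (hg _ _).trans (by
    have : a - x - (a - y) = -(x - y) := by ring
    rw [this, abs_neg])

theorem head_mem {p q : M} {a s : ℝ} {g : ℝ → M} (hg : g ∈ MP p q a) :
    head s g ∈ MP p (g s) s :=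
  ⟨head_LL hg.1 s, fun r hr => hg.2.1 _ ((min_le_left _ _).trans hr), fun r hr => by
    rw [head, min_eq_right hr]⟩

theorem tail_mem {p q : M} {a s : ℝ} {g : ℝ → M} (hg : g ∈ MP p q a) (hs : s ≤ a) :
    tail s g ∈ MP (g s) q (a - s) :=
  ⟨tail_LL hg.1 s, fun r hr => by rw [tail, max_eq_right hr, zero_add], fun r hr => by
    rw [tail, max_eq_left (by linarith)]; exact hg.2.2 _ (by linarith)⟩

theorem tail_mem' {p q : M} {a s b : ℝ} {g : ℝ → M} (hg : g ∈ MP p q a) (hb : 0 ≤ b)
    (hs : a ≤ b + s) : tail s g ∈ MP (g s) q b :=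
  ⟨tail_LL hg.1 s, fun r hr => by rw [tail, max_eq_right hr, zero_add], fun r hr => by
    rw [tail, max_eq_left (by linarith)]; exact hg.2.2 _ (by linarith)⟩

theorem rev_mem {p q : M} {a : ℝ} {g : ℝ → M} (hg : g ∈ MP p q a) : rev a g ∈ MP q p a :=
  ⟨rev_LL hg.1 a, fun r hr => hg.2.2 _ (by linarith), fun r hr => hg.2.1 _ (by linarith)⟩

theorem rev_rev (a : ℝ) (g : ℝ → M) : rev a (rev a g) = g := by
  funext r; simp [rev]

theorem rev_apply (a : ℝ) (g : ℝ → M) (r : ℝ) : rev a g r = g (a - r) := rfl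

theorem cc_head_tail (s : ℝ) (g : ℝ → M) : cc s (head s g) (tail s g) = g := by
  funext r
  rcases le_or_gt r s with h | h
  · rw [cc_of_le _ _ h, head, min_eq_left h]
  · rw [cc_of_lt _ _ h, tail, max_eq_left (by linarith), sub_add_cancel]

theorem rev_cc {p q r : M} {c d : ℝ} {a b : ℝ → M} (ha : a ∈ MP p q c) (hb : b ∈ MP q r d) :
    rev (c + d) (cc c a b) = cc d (rev d b) (rev c a) := by
  have hab : a c = b 0 := by rw [ha.2.2 _ le_rfl, hb.2.1 _ le_rfl]
  funext s
  rcases le_or_gt s d with h | h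
  · rw [rev, cc_of_le _ _ h, cc_of_ge hab (by linarith), rev]
    congr 1; ring
  · rw [rev, cc_of_lt _ _ h, cc_of_le _ _ (by linarith), rev]
    congr 1; ring

theorem head_of_ge {p q : M} {a s : ℝ} {g : ℝ → M} (hg : g ∈ MP p q a) (h : a ≤ s) :
    head s g = g := by
  funext r
  rcases le_total r s with h' | h'
  · rw [head, min_eq_left h']
  · rw [head, min_eq_right h', hg.2.2 _ h, hg.2.2 _ (h.trans h')]

theorem tail_zero {p q : M} {a : ℝ} {g : ℝ → M} (hg : g ∈ MP p q a) :
    tail 0 g = g := by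
  funext r
  rw [tail, add_zero]
  rcases le_total r 0 with h' | h'
  · rw [max_eq_right h', hg.2.1 _ le_rfl, hg.2.1 _ h']
  · rw [max_eq_left h']

theorem tail_of_ge {p q : M} {a s : ℝ} {g : ℝ → M} (hg : g ∈ MP p q a) (h : a ≤ s) :
    tail s g = fun _ => q := by
  funext r
  exact hg.2.2 _ (by have := le_max_right r 0; linarith)

theorem head_of_le {p q : M} {a s : ℝ} {g : ℝ → M} (hg : g ∈ MP p q a) (h : s ≤ 0) :
    head s g = fun _ => p := by
  funext r
  exact hg.2.1 _ ((min_le_right _ _).trans h)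

/-! ### Heads and tails of a concatenation -/

theorem cc_apply_le {c s : ℝ} {a b : ℝ → M} (h : s ≤ c) : cc c a b s = a s := cc_of_le a b h

theorem head_cc_of_le {c s : ℝ} (a b : ℝ → M) (h : s ≤ c) : head s (cc c a b) = head s a := by
  funext r
  rw [head, head, cc_of_le _ _ ((min_le_right _ _).trans h)]

theorem tail_cc_of_ge {c s : ℝ} {a b : ℝ → M} (hab : a c = b 0) (h : c ≤ s) :
    tail s (cc c a b) = tail (s - c) b := by
  funext r
  rw [tail, tail, cc_of_ge hab (by have := le_max_right r 0; linarith)]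
  congr 1; ring

theorem tail_cc_of_le {c s : ℝ} (a b : ℝ → M) (h : s ≤ c) :
    tail s (cc c a b) = cc (c - s) (tail s a) b := by
  funext r
  rcases le_or_gt r (c - s) with h' | h'
  · rw [cc_of_le _ _ h', tail, tail, cc_of_le]
    rcases le_total r 0 with h0 | h0
    · rw [max_eq_right h0]; linarith
    · rw [max_eq_left h0]; linarith
  · rw [cc_of_lt _ _ h', tail, max_eq_left (by linarith), cc_of_lt _ _ (by linarith)]
    congr 1; ring

theorem head_cc_of_ge {c s : ℝ} {a b : ℝ → M} (hab : a c = b 0) (h : c ≤ s) :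
    head s (cc c a b) = cc c a (head (s - c) b) := by
  funext r
  rcases le_or_gt r c with h' | h'
  · rw [cc_of_le _ _ h', head, min_eq_left (h'.trans h), cc_of_le _ _ h']
  · rw [cc_of_lt _ _ h', head, head]
    rcases le_total r s with hr | hr
    · rw [min_eq_left hr, cc_of_lt _ _ h', min_eq_left (by linarith)]
    · rw [min_eq_right hr, min_eq_right (by linarith), cc_of_ge hab h]

theorem head_head (s r : ℝ) (g : ℝ → M) : head s (head r g) = head (min s r) g := by
  funext x; simp [head, min_assoc]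

/-! ### Continuity -/

section cont

variable {X : Type*} [TopologicalSpace X]

theorem continuous_eval {g : X → ℝ → M} {s : X → ℝ} (hg : Continuous g) (hL : ∀ x, g x ∈ LL M)
    (hs : Continuous s) : Continuous fun x => g x (s x) := by
  rw [continuous_iff_continuousAt]
  intro x0
  rw [ContinuousAt, tendsto_iff_dist_tendsto_zero]
  have h1 : Filter.Tendsto (fun x => |s x - s x0| + dist (g x (s x0)) (g x0 (s x0))) (𝓝 x0)
      (𝓝 0) := by
    have a1 : Continuous fun x => |s x - s x0| + dist (g x (s x0)) (g x0 (s x0)) := by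
      have := (continuous_apply (s x0)).comp hg
      exact ((hs.sub continuous_const).abs).add (this.dist continuous_const)
    have := a1.tendsto x0
    simpa using this
  refine squeeze_zero (fun _ => dist_nonneg) (fun x => ?_) h1
  exact (dist_triangle _ (g x (s x0)) _).trans (add_le_add (hL x _ _) le_rfl)

theorem continuous_cc {a b : X → ℝ → M} {c : X → ℝ} (ha : Continuous a) (hb : Continuous b)
    (hc : Continuous c) (hbL : ∀ x, b x ∈ LL M)
    (hab : ∀ x, a x (c x) = b x 0) : Continuous fun x => cc (c x) (a x) (b x) := by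
  rw [continuous_pi_iff]
  intro r
  refine Continuous.if_le ((continuous_apply r).comp ha)
    (continuous_eval hb hbL (continuous_const.sub hc)) continuous_const hc fun x hx => ?_
  subst hx
  simpa using hab x

theorem continuous_head {g : X → ℝ → M} {s : X → ℝ} (hg : Continuous g) (hL : ∀ x, g x ∈ LL M)
    (hs : Continuous s) : Continuous fun x => head (s x) (g x) := by
  rw [continuous_pi_iff]
  intro r
  exact continuous_eval (g := g) (s := fun x => min r (s x)) hg hL (continuous_const.min hs)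

theorem continuous_tail {g : X → ℝ → M} {s : X → ℝ} (hg : Continuous g) (hL : ∀ x, g x ∈ LL M)
    (hs : Continuous s) : Continuous fun x => tail (s x) (g x) := by
  rw [continuous_pi_iff]
  intro r
  exact continuous_eval (g := g) (s := fun x => max r 0 + s x) hg hL (continuous_const.add hs)

theorem continuous_rev {g : X → ℝ → M} {s : X → ℝ} (hg : Continuous g) (hL : ∀ x, g x ∈ LL M)
    (hs : Continuous s) : Continuous fun x => rev (s x) (g x) := by
  rw [continuous_pi_iff]
  intro r
  exact continuous_eval (g := g) (s := fun x => s x - r) hg hL (hs.sub continuous_const)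

end cont

end Crest.Agent.R231.Moorex725
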