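import Crest.Agent.R231.AlgDef_978

/-!
# Row 231, (A4): splitting of leading terms from a FINITE NESTED family of neighbourhoods (helper737)

`NSp M W A B` : nested splitting of the pair `(B, A)` by chains `W k ε` (`k ≤ M`) of increasing
neighbourhoods of the two halves of the critical set.  `spl_LT`: if `S` is split at the half level,
the leading terms `LT psi A B S` are split (with respect to the smallest neighbourhoods `W 0`).
-/

set_option autoImplicit false

namespace Crest.Agent.R231.Nestx737

open Crest.Agent.R231.IfAx978 Crest.Agent.R231.AlgDefx978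

theorem add_self' {V : Type*} [AddCommGroup V] [Module (ZMod 2) V] (x : V) : x + x = 0 := by
  rw [← two_smul (ZMod 2) x, show (2 : ZMod 2) = 0 from rfl, zero_smul]

variable {X : Mix}

/-! ## `DD` on single chains, `DD ∘ DD = 0` -/

theorem DD_DD (c : ∀ j, X.C j) : DD (DD c) = 0 := by
  funext i
  rcases i with _ | _ | i
  · show X.d 0 (DD c 1) = 0
    rw [DD_succ', map_add, X.dd, X.dDe0, add_zero]
  · show X.d 1 (X.d 2 (c 3) + X.De 1 (c 1)) + X.De 0 (X.d 0 (c 1)) = (0 : X.C 1)
    rw [map_add, X.dd 1 (c 3), X.dDe 0 (c 1)]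
    exact (congrArg (· + _) (zero_add _)).trans (add_self' _)
  · show X.d (i + 2) (DD c (i + 3)) + X.De (i + 1) (DD c (i + 1)) = 0
    rw [DD_succ', DD_succ', map_add, map_add, X.dd, X.dDe, X.DeDe, zero_add, add_zero, add_self']

/-- components of `DD (single k x)` -/
theorem DD_single_pred (k : ℕ) (x : X.C (k + 1)) : DD (Pi.single (k + 1) x : ∀ j, X.C j) k = X.d k x := by
  rcases k with _ | k
  · rw [DD_zero', Pi.single_eq_same]
  · rw [DD_succ', Pi.single_eq_same, Pi.single_eq_of_ne (by omega), map_zero, add_zero]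

theorem DD_single_of_lt {k i : ℕ} (h : i + 1 < k) (x : X.C k) : DD (Pi.single k x : ∀ j, X.C j) i = 0 := by
  rcases i with _ | i
  · rw [DD_zero', Pi.single_eq_of_ne (by omega), map_zero]
  · rw [DD_succ', Pi.single_eq_of_ne (by omega), Pi.single_eq_of_ne (by omega), map_zero, map_zero,
      add_zero]

theorem DD_single_self (k : ℕ) (x : X.C k) : DD (Pi.single k x : ∀ j, X.C j) k = 0 := by
  rcases k with _ | k
  · rw [DD_zero', Pi.single_eq_of_ne (by omega), map_zero]
  · rw [DD_succ', Pi.single_eq_of_ne (by omega), Pi.single_eq_of_ne (by omega), map_zero, map_zero,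
      add_zero]

theorem single_mem {B : GS X} {k : ℕ} {x : X.C k} (hx : x ∈ B k) (i : ℕ) :
    (Pi.single k x : ∀ j, X.C j) i ∈ B i := by
  rcases eq_or_ne i k with rfl | h
  · rw [Pi.single_eq_same]; exact hx
  · rw [Pi.single_eq_of_ne h]; exact (B i).zero_mem

theorem DD_mem {B : GS X} (hB : Stab B) {c : ∀ j, X.C j} (hc : ∀ j, c j ∈ B j) (i : ℕ) :
    DD c i ∈ B i := by
  rcases i with _ | i
  · exact hB.d _ _ (hc 1)
  · exact (B _).add_mem (hB.d _ _ (hc _)) (hB.De _ _ (hc _))

/-- `DD c` in degree `i` is a relative boundary if `c` is in `A` below -/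
theorem DD_mem_Bd {A B : GS X} (hA : Stab A) {c : ∀ j, X.C j} (hc : ∀ j, c j ∈ B j) (i : ℕ)
    (hlow : ∀ k, k < i → c k ∈ A k) : DD c i ∈ Bd A B i := by
  rcases i with _ | i
  · exact Submodule.mem_sup_left (Submodule.mem_map_of_mem (hc 1))
  · exact Submodule.add_mem _ (Submodule.mem_sup_left (Submodule.mem_map_of_mem (hc _)))
      (Submodule.mem_sup_right (hA.De _ _ (hlow i (by omega))))

/-- `d` of the lowest component -/
theorem d_mem_of_DD {A : GS X} (hA : Stab A) {c : ∀ j, X.C j} (i : ℕ)
    (hD : DD c i ∈ A i) (hlow : ∀ k, k < i → c k ∈ A k) : X.d i (c (i + 1)) ∈ A i := by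
  rcases i with _ | i
  · exact hD
  · have h := (A (i + 1)).sub_mem hD (hA.De _ _ (hlow i (by omega)))
    rwa [DD_succ', add_sub_cancel_right] at h

theorem mem_Zc_succ {A B : GS X} {j : ℕ} {x : X.C (j + 1)} :
    x ∈ Zc A B (j + 1) ↔ x ∈ B (j + 1) ∧ X.d j x ∈ A j := Iff.rfl

theorem mem_Zc_zero {A B : GS X} {x : X.C 0} : x ∈ Zc A B 0 ↔ x ∈ B 0 := Iff.rfl

theorem mem_Bd {A B : GS X} {j : ℕ} {x : X.C j} :
    x ∈ Bd A B j ↔ ∃ w ∈ B (j + 1), x + X.d j w ∈ A j := by
  constructor
  · intro h
    obtain ⟨y, hy, a, ha, rfl⟩ := Submodule.mem_sup.1 h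
    obtain ⟨w, hw, rfl⟩ := hy
    refine ⟨w, hw, ?_⟩
    have e : X.d j w + a + X.d j w = a := by
      rw [add_comm (X.d j w) a, add_assoc, add_self', add_zero]
    rw [e]; exact ha
  · rintro ⟨w, hw, h⟩
    have e : x = X.d j w + (x + X.d j w) := by
      rw [add_comm x, ← add_assoc, add_self', zero_add]
    rw [e]
    exact Submodule.add_mem _ (Submodule.mem_sup_left (Submodule.mem_map_of_mem hw))
      (Submodule.mem_sup_right h)

/-! ## nested splittings -/

/-- nested splitting of the homology of the pair `(B, A)`: `W k ε`, `k = 0, …, M` are (chains of)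
increasing neighbourhoods; cycles come from `W 0`, and a sum of cycles of `W k true`, `W k false` that
bounds in `(B, A)` bounds separately in `W (k+1) true`, `W (k+1) false`. -/
structure NSp (M : ℕ) (W : ℕ → Bool → GS X) (A B : GS X) : Prop where
  mono : ∀ k ε j, W k ε j ≤ W (k + 1) ε j
  stab : ∀ k ε, Stab (W k ε)
  surj : ∀ j, ∀ z ∈ Zc A B j, ∃ zp zm : X.C j, zp ∈ W 0 true j ∧ zp ∈ Zc A B j ∧
    zm ∈ W 0 false j ∧ zm ∈ Zc A B j ∧ z + zp + zm ∈ Bd A B j
  inj : ∀ k, k < M → ∀ j, ∀ zp zm : X.C j, zp ∈ W k true j → zp ∈ Zc A B j →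
    zm ∈ W k false j → zm ∈ Zc A B j → zp + zm ∈ Bd A B j →
    (∃ w ∈ W (k + 1) true (j + 1) ⊓ B (j + 1), zp + X.d j w ∈ A j) ∧
    (∃ w ∈ W (k + 1) false (j + 1) ⊓ B (j + 1), zm + X.d j w ∈ A j)

theorem NSp.mono0 {M : ℕ} {W : ℕ → Bool → GS X} {A B : GS X} (h : NSp M W A B) (k : ℕ) (ε : Bool)
    (j : ℕ) : W 0 ε j ≤ W k ε j := by
  induction k with
  | zero => exact le_rfl
  | succ k ih => exact ih.trans (h.mono k ε j)

/-- **the nested lemma** -/
theorem nest {M : ℕ} {W : ℕ → Bool → GS X} {A B : GS X} (hA : Stab A) (hB : Stab B)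
    (h : NSp M W A B) (ep em c : ∀ i, X.C i)
    (hep : ∀ i, ep i ∈ W 0 true i ⊓ B i) (hem : ∀ i, em i ∈ W 0 false i ⊓ B i)
    (hDp : ∀ i, DD ep i ∈ A i) (hDm : ∀ i, DD em i ∈ A i)
    (hc : ∀ i, c i ∈ B i) (j : ℕ) (hj : j < M) (hlow : ∀ i, i < j → ep i + em i + DD c i ∈ A i) :
    ∃ cp cm : ∀ i, X.C i, (∀ i, cp i ∈ W (j + 1) true i ⊓ B i) ∧
      (∀ i, cm i ∈ W (j + 1) false i ⊓ B i) ∧
      (∀ i, i < j → ep i + DD cp i ∈ A i) ∧ (∀ i, i < j → em i + DD cm i ∈ A i) ∧
      (ep j + em j + DD c j) + (ep j + DD cp j) + (em j + DD cm j) ∈ Bd A B j := by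
  -- induction
  have key : ∀ k, k ≤ j + 1 → ∃ cp cm et : ∀ i, X.C i, (∀ i, cp i ∈ W k true i ⊓ B i) ∧
      (∀ i, cm i ∈ W k false i ⊓ B i) ∧ (∀ i, et i ∈ B i) ∧
      (∀ i, i < k → c i + cp i + cm i + DD et i ∈ A i) ∧
      (∀ i, i + 1 < k → ep i + DD cp i ∈ A i) ∧ (∀ i, i + 1 < k → em i + DD cm i ∈ A i) := by
    intro k
    induction k with
    | zero =>
      intro _
      refine ⟨0, 0, 0, fun i => Submodule.zero_mem _, fun i => Submodule.zero_mem _,
        fun i => Submodule.zero_mem _, fun i hi => absurd hi (by omega),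
        fun i hi => absurd hi (by omega), fun i hi => absurd hi (by omega)⟩
    | succ k ih =>
      intro hk
      obtain ⟨cp, cm, et, hcp, hcm, het, h1, h2, h3⟩ := ih (by omega)
      -- `β = c + cp + cm + DD et`
      set β : ∀ i, X.C i := c + cp + cm + DD et with hβ
      have hβB : ∀ i, β i ∈ B i := fun i => by
        refine (B i).add_mem ((B i).add_mem ((B i).add_mem (hc i) (hcp i).2) (hcm i).2) ?_
        exact DD_mem hB het i
      have hβA : ∀ i, i < k → β i ∈ A i := fun i hi => h1 i hi
      -- the correction in degree `k` (from the injectivity in degree `k - 1`)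
      have hu : ∃ up um : X.C k, up ∈ W (k + 1) true k ⊓ B k ∧ um ∈ W (k + 1) false k ⊓ B k ∧
          β k + up + um ∈ Zc A B k ∧
          (∀ i, i + 1 = k → ∀ (hi : i + 1 = k), ep i + DD cp i + X.d i (hi ▸ up) ∈ A i ∧
            em i + DD cm i + X.d i (hi ▸ um) ∈ A i) := by
        rcases k with _ | k
        · refine ⟨0, 0, Submodule.zero_mem _, Submodule.zero_mem _, ?_, fun i hi => absurd hi (by omega)⟩
          rw [add_zero, add_zero]
          exact hβB 0
        · -- the cycles `ζ_± = e_± + DD c_±` in degree `k`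
          have hζp : ep k + DD cp k ∈ W (k + 1) true k :=
            (W (k + 1) true k).add_mem (h.mono0 _ _ _ (hep k).1)
              (DD_mem (h.stab _ _) (fun i => (hcp i).1) k)
          have hζm : em k + DD cm k ∈ W (k + 1) false k :=
            (W (k + 1) false k).add_mem (h.mono0 _ _ _ (hem k).1)
              (DD_mem (h.stab _ _) (fun i => (hcm i).1) k)
          have hζpB : ep k + DD cp k ∈ B k :=
            (B k).add_mem (hep k).2 (DD_mem hB (fun i => (hcp i).2) k)
          have hζmB : em k + DD cm k ∈ B k :=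
            (B k).add_mem (hem k).2 (DD_mem hB (fun i => (hcm i).2) k)
          have hζpZ : ep k + DD cp k ∈ Zc A B k := by
            rcases k with _ | k
            · exact hζpB
            · refine ⟨hζpB, ?_⟩
              have hD : DD (ep + DD cp) k ∈ A k := by
                rw [map_add, DD_DD, add_zero]; exact hDp k
              exact d_mem_of_DD hA k hD (fun i hi => h2 i (by omega))
          have hζmZ : em k + DD cm k ∈ Zc A B k := by
            rcases k with _ | k
            · exact hζmB
            · refine ⟨hζmB, ?_⟩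
              have hD : DD (em + DD cm) k ∈ A k := by
                rw [map_add, DD_DD, add_zero]; exact hDm k
              exact d_mem_of_DD hA k hD (fun i hi => h3 i (by omega))
          have hDβ : DD β k = DD c k + DD cp k + DD cm k := by
            rw [hβ, map_add, map_add, map_add, DD_DD, add_zero]; rfl
          have hsum : (ep k + DD cp k) + (em k + DD cm k) = (ep k + em k + DD c k) + DD β k := by
            rw [hDβ]
            have : ep k + em k + DD c k + (DD c k + DD cp k + DD cm k) =
              (ep k + DD cp k) + (em k + DD cm k) + (DD c k + DD c k) := by abel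
            rw [this, add_self', add_zero]
          have hbd : (ep k + DD cp k) + (em k + DD cm k) ∈ Bd A B k := by
            rw [hsum]
            refine Submodule.add_mem _ (Submodule.mem_sup_right (hlow k (by omega))) ?_
            exact DD_mem_Bd hA hβB k (fun i hi => hβA i (by omega))
          obtain ⟨⟨up, hup, hup'⟩, um, hum, hum'⟩ :=
            h.inj (k + 1) (by omega) k _ _ hζp hζpZ hζm hζmZ hbd
          refine ⟨up, um, hup, hum, ?_, ?_⟩
          · refine ⟨(B _).add_mem ((B _).add_mem (hβB _) hup.2) hum.2, ?_⟩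
            -- `d (β + up + um) ∈ A`
            have e1 : DD β k + ((ep k + DD cp k) + (em k + DD cm k)) ∈ A k := by
              rw [hsum]
              have : DD β k + (ep k + em k + DD c k + DD β k) =
                (ep k + em k + DD c k) + (DD β k + DD β k) := by abel
              rw [this, add_self', add_zero]
              exact hlow k (by omega)
            have e2 : X.d k (β (k + 1)) + DD β k ∈ A k := by
              rcases k with _ | k
              · rw [DD_zero', add_self']; exact Submodule.zero_mem _
              · rw [DD_succ', ← add_assoc, add_self', zero_add]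
                exact hA.De _ _ (hβA k (by omega))
            show X.d k (β (k + 1) + up + um) ∈ A k
            have e3 := (A k).add_mem e2 ((A k).add_mem e1 ((A k).add_mem hup' hum'))
            have : X.d k (β (k + 1)) + DD β k + (DD β k + ((ep k + DD cp k) + (em k + DD cm k)) +
              ((ep k + DD cp k) + X.d k up + ((em k + DD cm k) + X.d k um))) =
              X.d k (β (k + 1)) + X.d k up + X.d k um + (DD β k + DD β k) +
              ((ep k + DD cp k) + (ep k + DD cp k)) + ((em k + DD cm k) + (em k + DD cm k)) := by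
              abel
            rw [this, add_self', add_self', add_self', add_zero, add_zero, add_zero] at e3
            rw [map_add, map_add]
            exact e3
          · intro i _ hi
            obtain rfl : i = k := by omega
            exact ⟨hup', hum'⟩
      obtain ⟨up, um, hup, hum, hz, hend⟩ := hu
      obtain ⟨vp, vm, hvp, hvpZ, hvm, hvmZ, hv⟩ := h.surj k _ hz
      obtain ⟨w, hw, hwA⟩ := mem_Bd.1 hv
      have hZB : ∀ {x : X.C k}, x ∈ Zc A B k → x ∈ B k := by
        intro x hx
        rcases k with _ | k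
        · exact hx
        · exact hx.1
      refine ⟨cp + Pi.single k (up + vp), cm + Pi.single k (um + vm), et + Pi.single (k + 1) w,
        ?_, ?_, ?_, ?_, ?_, ?_⟩
      · intro i
        refine Submodule.add_mem _ ⟨h.mono _ _ _ (hcp i).1, (hcp i).2⟩ ?_
        exact single_mem (B := fun i => W (k + 1) true i ⊓ B i)
          (Submodule.add_mem _ hup ⟨h.mono0 _ _ _ hvp, hZB hvpZ⟩) i
      · intro i
        refine Submodule.add_mem _ ⟨h.mono _ _ _ (hcm i).1, (hcm i).2⟩ ?_
        exact single_mem (B := fun i => W (k + 1) false i ⊓ B i)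
          (Submodule.add_mem _ hum ⟨h.mono0 _ _ _ hvm, hZB hvmZ⟩) i
      · intro i
        exact (B i).add_mem (het i) (single_mem (B := B) hw i)
      · intro i hi
        simp only [map_add, Pi.add_apply]
        rcases Nat.lt_or_ge i k with hik | hik
        · rw [Pi.single_eq_of_ne (by omega), Pi.single_eq_of_ne (by omega),
            DD_single_of_lt (by omega), add_zero, add_zero, add_zero]
          exact h1 i hik
        · obtain rfl : i = k := by omega
          rw [Pi.single_eq_same, Pi.single_eq_same, DD_single_pred]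
          have : c i + (cp i + (up + vp)) + (cm i + (um + vm)) + (DD et i + X.d i w) =
            β i + up + um + vp + vm + X.d i w := by
            rw [hβ]; simp only [Pi.add_apply]; abel
          rw [this]
          exact hwA
      · intro i hi
        simp only [map_add, Pi.add_apply]
        rcases Nat.lt_or_ge (i + 1) k with hik | hik
        · rw [DD_single_of_lt hik, add_zero]
          exact h2 i hik
        · obtain rfl : k = i + 1 := by omega
          rw [DD_single_pred, map_add]
          have e := (A i).add_mem (hend i rfl rfl).1 hvpZ.2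
          rw [← add_assoc, ← add_assoc]
          exact e
      · intro i hi
        simp only [map_add, Pi.add_apply]
        rcases Nat.lt_or_ge (i + 1) k with hik | hik
        · rw [DD_single_of_lt hik, add_zero]
          exact h3 i hik
        · obtain rfl : k = i + 1 := by omega
          rw [DD_single_pred, map_add]
          have e := (A i).add_mem (hend i rfl rfl).2 hvmZ.2
          rw [← add_assoc, ← add_assoc]
          exact e
  obtain ⟨cp, cm, et, hcp, hcm, het, h1, h2, h3⟩ := key (j + 1) le_rfl
  refine ⟨cp, cm, hcp, hcm, fun i hi => h2 i (by omega), fun i hi => h3 i (by omega), ?_⟩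
  have hDβ : DD (c + cp + cm + DD et) j = DD c j + DD cp j + DD cm j := by
    rw [map_add, map_add, map_add, DD_DD, add_zero]; rfl
  have hmem := DD_mem_Bd (B := B) hA (c := c + cp + cm + DD et)
    (fun i => (B i).add_mem ((B i).add_mem ((B i).add_mem (hc i) (hcp i).2) (hcm i).2)
      (DD_mem hB het i)) j (fun i hi => h1 i (by omega))
  rw [hDβ] at hmem
  have : ep j + em j + DD c j + (ep j + DD cp j) + (em j + DD cm j) =
    DD c j + DD cp j + DD cm j + (ep j + ep j) + (em j + em j) := by abel
  rw [this, add_self', add_self', add_zero, add_zero]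
  exact hmem

end Crest.Agent.R231.Nestx737
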