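import Crest.Agent.R231.LaDef_733
import Crest.Agent.R231.OmSp_725
import Crest.Agent.R231.ArcSys_694

/-!
# Row 231 (S0357), block P: based Moore loops and based Lipschitz loops (helper475)

* `omX t : OmT p t ≃ₜ ArcSysx694.Om p t` (`g ↦ (u ↦ g (u t))`);
* `omX_natural` : naturality in the level, up to homotopy inside `Om p t`.
-/

set_option autoImplicit false
set_option linter.unusedSectionVars false

open Set Filter Topology NNReal

noncomputable section

namespace Crest.Agent.R231.OmXx475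

open Moorex725 GLugx576 LaDefx733 OmSpx725

variable {M : Type*} [MetricSpace M] {p : M}

/-- **based Moore loops of length `≤ t` are the based `t`-Lipschitz loops** -/
def omX (p : M) (t : ℝ≥0) : OmT p t ≃ₜ ↥(ArcSysx694.Om p (t : ℝ)) where
  toFun g := ⟨(laX t.2 ⟨g.1, Om_subset_La p _ g.2⟩).1, (laX t.2 ⟨g.1, Om_subset_La p _ g.2⟩).2, by
    rw [laX_zero]; exact g.2.2.1 0 le_rfl⟩
  invFun γ := ⟨ofX (t : ℝ) γ.1, mem_Om_iff.2 ⟨ofX_mem γ.2.1, by rw [ofX_zero]; exact γ.2.2⟩⟩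
  left_inv g := by
    have h := congrArg Subtype.val ((laX (M := M) t.2).left_inv ⟨g.1, Om_subset_La p _ g.2⟩)
    exact Subtype.ext h
  right_inv γ := by
    have h := congrArg Subtype.val ((laX (M := M) t.2).right_inv ⟨γ.1, γ.2.1⟩)
    exact Subtype.ext h
  continuous_toFun := by
    refine Continuous.subtype_mk (continuous_subtype_val.comp ((laX t.2).continuous.comp ?_)) _
    exact continuous_subtype_val.subtype_mk _
  continuous_invFun := ((continuous_ofX _).comp continuous_subtype_val).subtype_mk _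

theorem omX_coe (t : ℝ≥0) (g : OmT p t) {u : ℝ} (h0 : 0 ≤ u) (h1 : u ≤ 1) :
    (omX p t g).1 (u : UnitAddCircle) = g.1 (u * t) := laX_coe t.2 _ h0 h1

/-- the inclusion of based Lipschitz loops -/
def incOm (p : M) {s t : ℝ} (h : s ≤ t) : C(↥(ArcSysx694.Om p s), ↥(ArcSysx694.Om p t)) :=
  ⟨Set.inclusion (ArcSysx694.Om_mono h), continuous_inclusion (ArcSysx694.Om_mono h)⟩

/-- **naturality of `omX` up to homotopy** -/
theorem omX_natural {s t : ℝ≥0} (h : s ≤ t) :
    ((omX p t : C(OmT p t, ↥(ArcSysx694.Om p (t : ℝ)))).comp (inc h)).Homotopic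
      ((incOm p (NNReal.coe_le_coe.2 h)).comp (omX p s : C(OmT p s, ↥(ArcSysx694.Om p (s : ℝ))))) := by
  have hs : (0 : ℝ) ≤ s := s.2
  have h' : (s : ℝ) ≤ t := NNReal.coe_le_coe.2 h
  have hc0 : ∀ r : unitInterval, (s : ℝ) ≤ t - (r : ℝ) * (t - s) := fun r => by
    have h1 : (r : ℝ) * (t - s) ≤ 1 * (t - s) :=
      mul_le_mul_of_nonneg_right r.2.2 (by linarith)
    linarith
  have hc1 : ∀ r : unitInterval, (t : ℝ) - (r : ℝ) * (t - s) ≤ t := fun r => by
    have h1 : 0 ≤ (r : ℝ) * (t - s) := mul_nonneg r.2.1 (by linarith)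
    linarith
  have hg : ∀ z : unitInterval × OmT p s, z.2.1 ∈ LL M := fun z => z.2.2.1
  have hh : ∀ z : unitInterval × OmT p s, z.2.1 ((t : ℝ) - (z.1 : ℝ) * (t - s)) = z.2.1 0 :=
    fun z => by rw [z.2.2.2.2 _ (hc0 z.1), z.2.2.2.1 0 le_rfl]
  have hcont : Continuous fun z : unitInterval × OmT p s =>
      mkL ((t : ℝ) - (z.1 : ℝ) * (t - s)) z.2.1 (hg z) (hh z) :=
    continuous_mkL (g := fun z : unitInterval × OmT p s => z.2.1)
      (c := fun z => (t : ℝ) - (z.1 : ℝ) * (t - s))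
      (continuous_subtype_val.comp continuous_snd) hg (by fun_prop) hh
  refine ⟨⟨⟨fun z => ⟨mkL ((t : ℝ) - (z.1 : ℝ) * (t - s)) z.2.1 (hg z) (hh z),
    mkL_mem _ _ (hs.trans (hc0 z.1)) (hc1 z.1), by
      rw [mkL_zero]; exact z.2.2.2.1 0 le_rfl⟩, hcont.subtype_mk _⟩, fun g => ?_, fun g => ?_⟩⟩
  · refine Subtype.ext (ContinuousMap.ext fun x => ?_)
    obtain ⟨u, hu, rfl⟩ := exists_Icc x
    show mkL _ _ (hg (0, g)) (hh (0, g)) (u : UnitAddCircle) =
      (omX p t (inc h g)).1 (u : UnitAddCircle)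
    rw [omX_coe _ _ hu.1 hu.2, mkL_coe _ _ hu.1 hu.2]
    simp
  · refine Subtype.ext (ContinuousMap.ext fun x => ?_)
    obtain ⟨u, hu, rfl⟩ := exists_Icc x
    show mkL _ _ (hg (1, g)) (hh (1, g)) (u : UnitAddCircle) = (omX p s g).1 (u : UnitAddCircle)
    rw [omX_coe _ _ hu.1 hu.2, mkL_coe _ _ hu.1 hu.2]
    simp

end Crest.Agent.R231.OmXx475
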