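import Crest.Agent.R231.YOut_475
import Crest.Agent.R231.ClS_475
import Crest.Agent.R231.OmX_475

/-!
# Row 231 (S0357), block P: the comparison of `H(OmT p t)` with the chains of `Om p t` (helper475)

`cmpOf K φ : Cmp K (ArcSysx694.Om p)` for a levelled algebra `K : LevA D` with
`φ t : HS (OmT p t) ≃ₗ K.A t` compatible with degrees and inclusions.
-/

set_option autoImplicit false
set_option linter.unusedSectionVars false

noncomputable section

open Set Topology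
open scoped NNReal
open Crest.Agent.R204

namespace Crest.Agent.R231.OmCmpx475

open SpecA (Hm)
open Pairx877 SingAct265 EZ271 BDAx969 Levx969 YLcx475 YOutx475 ClSx475 OmXx475 OmSpx725 FinDim315
  GLugx576 LaDefx733 Gr334

/-! ### simplices in a point -/

section pt

variable {E : Type} [TopologicalSpace E]

theorem sx_eq_zero_of_subsingleton {S : Set E} (hS : S.Subsingleton) {n : ℕ}
    {σ : (SS.Sing E).S (n + 1)} (h : ∀ t, ev σ t ∈ S) : N.sx F2 σ = 0 := by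
  have e : σ = (SS.Sing E).act (Op.dgn 0) ((SS.Sing E).act (Op.face 0) σ) := by
    refine sing_ext fun y => hS (h y) ?_
    exact h _
  rw [e]
  exact N.sx_dgn _ _

theorem eq_zero_of_subsingleton {S : Set E} (hS : S.Subsingleton) {j : ℕ} {c : CE E}
    (hc : c ∈ CS S) (hg : c ∈ N.gr F2 (SS.Sing E) (j + 1)) : c = 0 := by
  have h := map_mem_of_CS (X := S) (f := prN F2 (SS.Sing E) (j + 1)) (P := ⊥) (fun n σ hσ => by
    rw [prN_sx]
    split_ifs with h
    · subst h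
      rw [sx_eq_zero_of_subsingleton hS hσ]
      exact Submodule.zero_mem _
    · exact Submodule.zero_mem _) c hc
  rw [prN_of_mem hg] at h
  exact (Submodule.mem_bot F2).1 h

end pt

variable {M : Type} [MetricSpace M] {p : M} {D : ℕ}

theorem Om_zero_subsingleton : (ArcSysx694.Om p 0).Subsingleton := by
  rintro γ ⟨h1, h2⟩ γ' ⟨h1', h2'⟩
  refine ContinuousMap.ext fun x => ?_
  rw [mem_X_zero.1 h1 x, mem_X_zero.1 h1' x, h2, h2']

theorem Om_neg {t : ℝ} (h : t < 0) : ArcSysx694.Om p t = ∅ :=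
  eq_empty_of_forall_notMem fun _ hγ => absurd (nonneg_of_mem hγ.1) (not_le.2 h)

/-- `H(Om p t) → H(OmT p t)` -/
def toOm (p : M) (t : ℝ≥0) : HS ↥(ArcSysx694.Om p (t : ℝ)) →ₗ[F2] HS (OmT p t) :=
  Hm ((omX p t).symm : C(↥(ArcSysx694.Om p (t : ℝ)), OmT p t))

/-- `H(OmT p t) → H(Om p t)` -/
def frOm (p : M) (t : ℝ≥0) : HS (OmT p t) →ₗ[F2] HS ↥(ArcSysx694.Om p (t : ℝ)) :=
  Hm (omX p t : C(OmT p t, ↥(ArcSysx694.Om p (t : ℝ))))

theorem toOm_frOm (t : ℝ≥0) (y : HS (OmT p t)) : toOm p t (frOm p t y) = y := by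
  unfold toOm frOm
  rw [← Hm_comp_apply]
  have e : ((omX p t).symm : C(↥(ArcSysx694.Om p (t : ℝ)), OmT p t)).comp
      (omX p t : C(OmT p t, ↥(ArcSysx694.Om p (t : ℝ)))) = ContinuousMap.id _ :=
    ContinuousMap.ext fun g => (omX p t).left_inv g
  rw [e, Hm_id]

theorem frOm_toOm (t : ℝ≥0) (y : HS ↥(ArcSysx694.Om p (t : ℝ))) : frOm p t (toOm p t y) = y := by
  unfold toOm frOm
  rw [← Hm_comp_apply]
  have e : (omX p t : C(OmT p t, ↥(ArcSysx694.Om p (t : ℝ)))).comp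
      ((omX p t).symm : C(↥(ArcSysx694.Om p (t : ℝ)), OmT p t)) = ContinuousMap.id _ :=
    ContinuousMap.ext fun g => (omX p t).right_inv g
  rw [e, Hm_id]

theorem frOm_inc {s t : ℝ≥0} (h : s ≤ t) (y : HS (OmT p s)) :
    frOm p t (Hm (inc h) y) =
      Hm (incO (ArcSysx694.Om_mono (p := p) (NNReal.coe_le_coe.2 h))) (frOm p s y) := by
  unfold frOm
  rw [← Hm_comp_apply, ← Hm_comp_apply, Hm_homotopic (omX_natural h)]
  rfl

theorem toOm_inc {s t : ℝ≥0} (h : s ≤ t) (y : HS ↥(ArcSysx694.Om p (s : ℝ))) :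
    toOm p t (Hm (incO (ArcSysx694.Om_mono (p := p) (NNReal.coe_le_coe.2 h))) y) =
      Hm (inc h) (toOm p s y) := by
  conv_lhs => rw [← frOm_toOm s y, ← frOm_inc h, toOm_frOm]

theorem Hm_gr {X Y : Type} [TopologicalSpace X] [TopologicalSpace Y] (f : C(X, Y)) {j : ℕ}
    {x : HS X} (hx : x ∈ H.gr F2 (SS.Sing X) j) : Hm f x ∈ H.gr F2 (SS.Sing Y) j := by
  obtain ⟨⟨z, hz⟩, hzj, rfl⟩ := hx
  have hz' : N.bd F2 (SS.Sing X) z = 0 := LinearMap.mem_ker.1 hz
  have h := LinearMap.congr_fun (N.map_bd (R := F2) (SS.SingMap f)) z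
  rw [LinearMap.comp_apply, LinearMap.comp_apply, hz', map_zero] at h
  exact ⟨⟨N.map F2 (SS.SingMap f) z, LinearMap.mem_ker.2 h.symm⟩, map_mem_gr _ hzj, rfl⟩

/-- **the comparison for the based loops** -/
def cmpOf (K : LevA D) (φ : ∀ t : ℝ≥0, HS (OmT p t) ≃ₗ[F2] K.A t)
    (φ_gr : ∀ (t : ℝ≥0) (j : ℕ) (y : HS (OmT p t)), φ t y ∈ K.gr t j ↔
      y ∈ H.gr F2 (SS.Sing (OmT p t)) j)
    (φ_inc : ∀ {s t : ℝ≥0} (h : s ≤ t) (y : HS (OmT p s)), φ t (Hm (inc h) y) = K.inc h (φ s y)) :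
    Cmp K (ArcSysx694.Om p) where
  mono _ _ h := ArcSysx694.Om_mono h
  neg _ h := Om_neg h
  zero j c hc hg := eq_zero_of_subsingleton Om_zero_subsingleton hc hg
  θ t c hc hb := φ t (toOm p t (clS c hc hb))
  θ_add t c c' hc hb hc' hb' h1 h2 := by rw [← map_add, ← map_add, ← clS_add]
  θ_zero t c hc hb := by
    rw [LinearEquiv.map_eq_zero_iff, ← clS_eq_zero (hc := hc) (hb := hb)]
    constructor
    · intro h
      rw [← frOm_toOm t (clS c hc hb), h, map_zero]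
    · intro h
      rw [h, map_zero]
  θ_gr t c hc hb j hg := (φ_gr _ _ _).2 (Hm_gr _ (clS_gr hg))
  θ_surj t j y hy := by
    obtain ⟨y', rfl⟩ := (φ t).surjective y
    obtain ⟨c, hc, hb, hg, h⟩ := clS_gr_surj (Hm_gr (omX p t : C(OmT p t, ↥(ArcSysx694.Om p (t : ℝ))))
      ((φ_gr _ _ _).1 hy))
    refine ⟨c, hc, hb, hg, ?_⟩
    rw [h]
    exact congrArg (φ t) (toOm_frOm t y')
  θ_inc {s t} h c hc hc' hb := by
    rw [← φ_inc, ← toOm_inc h, Hm_incO_clS]

end Crest.Agent.R231.OmCmpx475
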