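import Crest.Agent.R231.CrossCS_780
import Crest.Agent.R231.SmallCS_226
import Crest.Agent.R231.Small_566
import Crest.Agent.R204.KSurj_271

/-!
# Row 231, block P, hedge (helper817), file A : chain tools

* `ph f` : push forward of chains along an arbitrary function (a simplex `σ` with `f ∘ σ` not
  continuous is sent to `0`); no domain occurs in the term.
* `CG X j` : homogeneous chains with support in `X`; `Hq X a b` : `a + b = ∂ w`, `w ∈ CS X`.
* `MV` : Mayer-Vietoris boundary as a relation; existence, uniqueness, naturality, products.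
* `LC` : localisation relation.
-/

set_option autoImplicit false

noncomputable section

open Function Topology Set

namespace Crest.Agent.R231.P490x817

open Crest.Agent.R204 Capx226 EZ271 Pairx877 SingAct265 CapCSx780 CrossCSx780

variable {E E' E'' F F' : Type} [TopologicalSpace E] [TopologicalSpace E'] [TopologicalSpace E'']
  [TopologicalSpace F] [TopologicalSpace F']

/-! ## push forward along functions -/

open Classical in
/-- push forward along a function -/
def ph (f : E → F) : CE E →ₗ[F2] CE F :=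
  liftN (fun _ σ => if h : Continuous (fun t => f (ev σ t)) then N.sx F2 (mkS _ h) else 0) (by
    intro n j y
    split_ifs with h
    · have e1 : (SS.Sing E).act (Op.face j.castSucc) ((SS.Sing E).act (Op.dgn j) y) = y := by
        rw [← (SS.Sing E).act_comp, Ch.face_dgn_eq _ _ (Or.inl rfl), (SS.Sing E).act_id]
      have hy : Continuous (fun t => f (ev y t)) := by
        have e2 : (fun t => f (ev y t)) = (fun t => f (ev ((SS.Sing E).act (Op.dgn j) y) t)) ∘
            (stdSimplex.map (Op.face j.castSucc)) := by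
          funext t
          conv_lhs => rw [← e1]
          rfl
        rw [e2]
        exact h.comp (stdSimplex.continuous_map _)
      have e3 : (mkS _ h : (SS.Sing F).S (n + 1)) = (SS.Sing F).act (Op.dgn j) (mkS _ hy) := rfl
      rw [e3, N.sx_dgn]
    · rfl)

theorem ph_sx {f : E → F} {n : ℕ} {σ : (SS.Sing E).S n} (h : Continuous (fun t => f (ev σ t))) :
    ph f (N.sx F2 σ) = N.sx F2 (mkS (fun t => f (ev σ t)) h) := by
  rw [ph, liftN_sx, dif_pos h]

theorem ph_sx_neg {f : E → F} {n : ℕ} {σ : (SS.Sing E).S n}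
    (h : ¬ Continuous (fun t => f (ev σ t))) : ph f (N.sx F2 σ) = 0 := by
  rw [ph, liftN_sx, dif_neg h]

variable {X A V : Set E} {Y B W : Set E'}

theorem cont_ev {f : E → F} (hf : ContinuousOn f X) {n : ℕ} {σ : (SS.Sing E).S n}
    (h : ∀ t, ev σ t ∈ X) : Continuous (fun t => f (ev σ t)) :=
  hf.comp_continuous (continuous_ev σ) h

theorem ph_eq_push {f : E → F} (hf : ContinuousOn f X) {c : CE E} (hc : c ∈ CS X) :
    ph f c = push X f hf c :=
  eq_on_CS (f := ph f) (g := push X f hf) (fun n σ h => by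
    rw [push_sx h, ph_sx (cont_ev hf h)]; rfl) c hc

theorem bd_ph {f : E → F} (hf : ContinuousOn f X) {c : CE E} (hc : c ∈ CS X) :
    bdE F (ph f c) = ph f (bdE E c) := by
  rw [ph_eq_push hf hc, ph_eq_push hf (bd_mem_CS c hc), bd_push c hc]

theorem ph_mem {f : E → F} {Z : Set F} (hf : ContinuousOn f X) (hm : MapsTo f X Z) {c : CE E}
    (hc : c ∈ CS X) : ph f c ∈ CS Z := by
  rw [ph_eq_push hf hc]; exact push_mem hm c hc

theorem ph_gr {f : E → F} {n : ℕ} {c : CE E} (hc : c ∈ N.gr F2 (SS.Sing E) n) :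
    ph f c ∈ N.gr F2 (SS.Sing F) n := by
  rw [Gr334.N_gr_eq_span] at hc
  refine Submodule.span_induction (p := fun z _ => ph f z ∈ N.gr F2 (SS.Sing F) n)
    ?_ ?_ ?_ ?_ hc
  · rintro _ ⟨x, rfl⟩
    by_cases h : Continuous (fun t => f (ev x t))
    · rw [ph_sx h]; exact Gr334.sx_mem_gr _
    · rw [ph_sx_neg h]; exact Submodule.zero_mem _
  · rw [map_zero]; exact Submodule.zero_mem _
  · intro a b _ _ ha hb; rw [map_add]; exact Submodule.add_mem _ ha hb
  · intro r a _ ha; rw [map_smul]; exact Submodule.smul_mem _ _ ha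

theorem ph_ph {f : E → F} {g : F → F'} (hf : ContinuousOn f X) {c : CE E} (hc : c ∈ CS X) :
    ph g (ph f c) = ph (fun x => g (f x)) c :=
  eq_on_CS (f := ph g ∘ₗ ph f) (g := ph (fun x => g (f x))) (fun n σ h => by
    have h1 := cont_ev hf h
    rw [LinearMap.comp_apply, ph_sx h1]
    by_cases h2 : Continuous (fun t => g (f (ev σ t)))
    · rw [ph_sx (f := g) (σ := mkS _ h1) h2, ph_sx (f := fun x => g (f x)) h2]
      rfl
    · rw [ph_sx_neg (f := g) (σ := mkS _ h1) h2, ph_sx_neg (f := fun x => g (f x)) h2]) c hc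

theorem ph_congr {f g : E → F} (h : EqOn f g X) {c : CE E} (hc : c ∈ CS X) : ph f c = ph g c :=
  eq_on_CS (f := ph f) (g := ph g) (fun n σ hσ => by
    have e : (fun t => f (ev σ t)) = (fun t => g (ev σ t)) := funext fun t => h (hσ t)
    by_cases h2 : Continuous (fun t => f (ev σ t))
    · rw [ph_sx h2, ph_sx (f := g) (e ▸ h2)]
      congr 1
      exact sing_ext fun t => h (hσ t)
    · rw [ph_sx_neg h2, ph_sx_neg (f := g) (e ▸ h2)]) c hc

theorem mem_CS_univ (c : CE E) : c ∈ CS (Set.univ : Set E) := by rw [CS_univ]; trivial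

theorem ph_id (c : CE E) : ph (fun x : E => x) c = c := by
  have h : ph (fun x : E => x) = LinearMap.id := by
    refine hom_ext fun n σ => ?_
    rw [ph_sx (f := fun x : E => x) (continuous_ev σ)]
    rfl
  rw [h]; rfl

theorem ph_map (f : C(E, F)) (c : CE E) : ph f c = N.map F2 (SS.SingMap f) c := by
  have h : ph f = N.map F2 (SS.SingMap f) := by
    refine hom_ext fun n σ => ?_
    rw [ph_sx (f := f) (f.continuous.comp (continuous_ev σ)), N.map_sx]
    rfl
  rw [h]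

theorem ph_vE (f : E → F) (x : E) : ph f (vE x) = vE (f x) := by
  have h : Continuous (fun t : stdSimplex ℝ (Fin (0 + 1)) =>
      f (ev (mkS (fun _ : stdSimplex ℝ (Fin (0 + 1)) => x) continuous_const) t)) := by
    have : (fun t : stdSimplex ℝ (Fin (0 + 1)) =>
      f (ev (mkS (fun _ : stdSimplex ℝ (Fin (0 + 1)) => x) continuous_const) t)) =
      fun _ => f x := rfl
    rw [this]; exact continuous_const
  rw [vE, ph_sx h]
  rfl

theorem aug_ph {f : E → F} (hf : ContinuousOn f X) {c : CE E} (hc : c ∈ CS X) :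
    aug F2 (ph f c) = aug F2 c := by
  rw [ph_eq_push hf hc, CS_eq_range] at *
  obtain ⟨c, rfl⟩ := hc
  rw [push, LinearMap.comp_apply, res_map_inc, aug_map, aug_map]

/-- chains of positive dimension die under constant maps -/
theorem ph_const_pos (y : F) {n : ℕ} {c : CE E} (hc : c ∈ N.gr F2 (SS.Sing E) (n + 1)) :
    ph (fun _ : E => y) c = 0 := by
  refine const_mem_CS (n := n) (x := y) ?_ (ph_gr hc)
  refine ph_mem (X := (univ : Set E)) (Z := ({y} : Set F)) continuousOn_const ?_ (mem_CS_univ c)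
  intro _ _
  exact Set.mem_singleton _

/-! ## products -/

theorem ph_crE {f : E → F} {g : E' → F'} (hf : ContinuousOn f X) (hg : ContinuousOn g Y)
    {a : CE E} {b : CE E'} (ha : a ∈ CS X) (hb : b ∈ CS Y) :
    ph (fun p : E × E' => (f p.1, g p.2)) (crE a b) = crE (ph f a) (ph g b) := by
  have hfg : ContinuousOn (fun p : E × E' => (f p.1, g p.2)) (X ×ˢ Y) :=
    (hf.comp continuousOn_fst fun p hp => hp.1).prodMk (hg.comp continuousOn_snd fun p hp => hp.2)
  rw [ph_eq_push hfg (crE_mem ha hb), push_crE (hf := hf) (hg := hg) ha hb, ph_eq_push hf ha,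
    ph_eq_push hg hb]

theorem ph_crE_left {f : E → F} (hf : ContinuousOn f X) {a : CE E} {b : CE E'} (ha : a ∈ CS X) :
    ph (fun p : E × E' => (f p.1, p.2)) (crE a b) = crE (ph f a) b := by
  have := ph_crE (g := fun y : E' => y) hf (continuousOn_id) ha (mem_CS_univ b)
  rwa [ph_id] at this

theorem ph_crE_right {g : E' → F'} (hg : ContinuousOn g Y) {a : CE E} {b : CE E'} (hb : b ∈ CS Y) :
    ph (fun p : E × E' => (p.1, g p.2)) (crE a b) = crE a (ph g b) := by
  have := ph_crE (f := fun x : E => x) (continuousOn_id) hg (mem_CS_univ a) hb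
  rwa [ph_id] at this

theorem ph_fst_crE (a : CE E) (b : CE E') : ph Prod.fst (crE a b) = aug F2 b • a := by
  have := ph_map (⟨Prod.fst, continuous_fst⟩ : C(E × E', E)) (crE a b)
  rw [fst_crE] at this
  exact this

theorem ph_snd_crE (a : CE E) (b : CE E') : ph Prod.snd (crE a b) = aug F2 a • b := by
  have := ph_map (⟨Prod.snd, continuous_snd⟩ : C(E × E', E')) (crE a b)
  rw [snd_crE] at this
  exact this

theorem ph_swap_crE (a : CE E) (b : CE E') : ph Prod.swap (crE a b) = crE b a := by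
  have := ph_map (⟨Prod.swap, continuous_swap⟩ : C(E × E', E' × E)) (crE a b)
  rw [swap_crE] at this
  exact this

theorem ph_assoc_crE (a : CE E) (b : CE E') (c : CE E'') :
    ph (fun p : (E × E') × E'' => (p.1.1, (p.1.2, p.2))) (crE (crE a b) c) = crE a (crE b c) := by
  have := ph_map (⟨fun p : (E × E') × E'' => (p.1.1, (p.1.2, p.2)), by fun_prop⟩ :
    C((E × E') × E'', E × E' × E'')) (crE (crE a b) c)
  rw [assoc_crE] at this
  exact this

theorem ph_assoc_crE' (a : CE E) (b : CE E') (c : CE E'') :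
    ph (fun p : E × E' × E'' => ((p.1, p.2.1), p.2.2)) (crE a (crE b c)) = crE (crE a b) c := by
  have h1 : ContinuousOn (fun p : (E × E') × E'' => (p.1.1, (p.1.2, p.2))) univ :=
    Continuous.continuousOn (by fun_prop)
  rw [← ph_assoc_crE, ph_ph h1 (mem_CS_univ _)]
  exact ph_id _

theorem crE_vE_right' (a : CE E) (y : E') : crE a (vE y) = ph (fun x => (x, y)) a := by
  rw [crE_vE_right]
  exact (ph_map (⟨fun x : E => (x, y), by fun_prop⟩ : C(E, E × E')) a).symm

theorem crE_vE_left' (x : E) (b : CE E') : crE (vE x) b = ph (fun y => (x, y)) b := by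
  rw [crE_vE_left]
  exact (ph_map (⟨fun y : E' => (x, y), by fun_prop⟩ : C(E', E × E')) b).symm

/-! ## two and three variable push forwards -/

/-- `f_*(a × b)` -/
def op2 (f : E × E' → F) (a : CE E) (b : CE E') : CE F := ph f (crE a b)

theorem op2_def (f : E × E' → F) (a : CE E) (b : CE E') : op2 f a b = ph f (crE a b) := rfl

theorem op2_add_left (f : E × E' → F) (a a' : CE E) (b : CE E') :
    op2 f (a + a') b = op2 f a b + op2 f a' b := by
  rw [op2, op2, op2, map_add, LinearMap.add_apply, map_add]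

theorem op2_add_right (f : E × E' → F) (a : CE E) (b b' : CE E') :
    op2 f a (b + b') = op2 f a b + op2 f a b' := by
  rw [op2, op2, op2, map_add, map_add]

theorem op2_zero_left (f : E × E' → F) (b : CE E') : op2 f 0 b = 0 := by
  rw [op2, map_zero, LinearMap.zero_apply, map_zero]

theorem op2_zero_right (f : E × E' → F) (a : CE E) : op2 f a (0 : CE E') = 0 := by
  rw [op2, map_zero, map_zero]

theorem op2_smul_left (f : E × E' → F) (r : F2) (a : CE E) (b : CE E') :
    op2 f (r • a) b = r • op2 f a b := by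
  rw [op2, op2, map_smul, LinearMap.smul_apply, map_smul]

theorem op2_smul_right (f : E × E' → F) (r : F2) (a : CE E) (b : CE E') :
    op2 f a (r • b) = r • op2 f a b := by
  rw [op2, op2, map_smul, map_smul]

theorem op2_mem {f : E × E' → F} {Z : Set F} (hf : ContinuousOn f (X ×ˢ Y))
    (hm : MapsTo f (X ×ˢ Y) Z) {a : CE E} {b : CE E'} (ha : a ∈ CS X) (hb : b ∈ CS Y) :
    op2 f a b ∈ CS Z := ph_mem hf hm (crE_mem ha hb)

theorem op2_gr {f : E × E' → F} {m n : ℕ} {a : CE E} {b : CE E'}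
    (ha : a ∈ N.gr F2 (SS.Sing E) m) (hb : b ∈ N.gr F2 (SS.Sing E') n) :
    op2 f a b ∈ N.gr F2 (SS.Sing F) (m + n) := ph_gr (crE_mem_gr ha hb)

theorem bd_op2 {f : E × E' → F} (hf : ContinuousOn f (X ×ˢ Y)) {a : CE E} {b : CE E'}
    (ha : a ∈ CS X) (hb : b ∈ CS Y) :
    bdE F (op2 f a b) = op2 f (bdE E a) b + op2 f a (bdE E' b) := by
  rw [op2, bd_ph hf (crE_mem ha hb), bd_crE, map_add]; rfl

theorem op2_congr {f g : E × E' → F} (h : EqOn f g (X ×ˢ Y)) {a : CE E} {b : CE E'}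
    (ha : a ∈ CS X) (hb : b ∈ CS Y) : op2 f a b = op2 g a b := ph_congr h (crE_mem ha hb)

/-- substitution in the first variable -/
theorem op2_ph_left {g : E → F} {f : F × E' → F'} (hg : ContinuousOn g X) {a : CE E} {b : CE E'}
    (ha : a ∈ CS X) : op2 f (ph g a) b = op2 (fun p : E × E' => f (g p.1, p.2)) a b := by
  rw [op2, ← ph_crE_left (b := b) hg ha, ph_ph (X := X ×ˢ univ) ?_ (crE_mem ha (mem_CS_univ b))]
  · rfl
  · exact (hg.comp continuousOn_fst fun p hp => hp.1).prodMk continuousOn_snd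

theorem op2_ph_right {g : E' → F'} {f : E × F' → F} (hg : ContinuousOn g Y) {a : CE E} {b : CE E'}
    (hb : b ∈ CS Y) : op2 f a (ph g b) = op2 (fun p : E × E' => f (p.1, g p.2)) a b := by
  rw [op2, ← ph_crE_right (a := a) hg hb, ph_ph (X := univ ×ˢ Y) ?_ (crE_mem (mem_CS_univ a) hb)]
  · rfl
  · exact continuousOn_fst.prodMk (hg.comp continuousOn_snd fun p hp => hp.2)

theorem ph_op2 {f : E × E' → F} {g : F → F'} (hf : ContinuousOn f (X ×ˢ Y)) {a : CE E} {b : CE E'}
    (ha : a ∈ CS X) (hb : b ∈ CS Y) :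
    ph g (op2 f a b) = op2 (fun p => g (f p)) a b := ph_ph hf (crE_mem ha hb)

theorem op2_swap {f : E × E' → F} {a : CE E} {b : CE E'} :
    op2 f a b = op2 (fun p : E' × E => f (p.2, p.1)) b a := by
  rw [op2, op2, ← ph_swap_crE b a, ph_ph (X := univ) continuous_swap.continuousOn (mem_CS_univ _)]
  rfl

/-- `f_*(a × (b × c))` -/
def op3 (f : E × E' × E'' → F) (a : CE E) (b : CE E') (c : CE E'') : CE F := ph f (crE a (crE b c))

theorem op2_op2_left {g : E × E' → F} {f : F × E'' → F'}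
    (hg : ContinuousOn g (X ×ˢ Y)) {a : CE E} {b : CE E'} {c : CE E''} (ha : a ∈ CS X)
    (hb : b ∈ CS Y) : op2 f (op2 g a b) c =
      op3 (fun p : E × E' × E'' => f (g (p.1, p.2.1), p.2.2)) a b c := by
  rw [op2_def g, op2_ph_left (X := X ×ˢ Y) hg (crE_mem ha hb), op2, ← ph_assoc_crE', ph_ph
    (X := univ) (Continuous.continuousOn (by fun_prop)) (mem_CS_univ _)]
  rfl

theorem op2_op2_right {Z : Set E''} {g : E' × E'' → F} {f : E × F → F'}
    (hg : ContinuousOn g (Y ×ˢ Z)) {a : CE E} {b : CE E'} {c : CE E''}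
    (hb : b ∈ CS Y) (hc : c ∈ CS Z) : op2 f a (op2 g b c) =
      op3 (fun p : E × E' × E'' => f (p.1, g p.2)) a b c := by
  rw [op2_def g, op2_ph_right (Y := Y ×ˢ Z) hg (crE_mem hb hc), op2, op3]

theorem op3_congr {Z : Set E''} {f g : E × E' × E'' → F} (h : EqOn f g (X ×ˢ (Y ×ˢ Z))) {a : CE E}
    {b : CE E'} {c : CE E''} (ha : a ∈ CS X) (hb : b ∈ CS Y) (hc : c ∈ CS Z) :
    op3 f a b c = op3 g a b c := ph_congr h (crE_mem ha (crE_mem hb hc))

/-! ## homologous chains -/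

/-- `a` and `b` are homologous in `X` -/
def Hq (X : Set E) (a b : CE E) : Prop := ∃ w ∈ CS X, bdE E w = a + b

theorem Hq.refl (X : Set E) (a : CE E) : Hq X a a :=
  ⟨0, Submodule.zero_mem _, by rw [map_zero, add_self]⟩

theorem Hq.of_eq {a b : CE E} (h : a = b) : Hq X a b := h ▸ Hq.refl X a

theorem Hq.symm {a b : CE E} (h : Hq X a b) : Hq X b a := by
  obtain ⟨w, hw, e⟩ := h
  exact ⟨w, hw, by rw [e, add_comm]⟩

theorem Hq.trans {a b c : CE E} (h : Hq X a b) (h' : Hq X b c) : Hq X a c := by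
  obtain ⟨w, hw, e⟩ := h
  obtain ⟨w', hw', e'⟩ := h'
  refine ⟨w + w', Submodule.add_mem _ hw hw', ?_⟩
  rw [map_add, e, e']
  have := add_self b
  calc a + b + (b + c) = a + (b + b) + c := by abel
    _ = a + c := by rw [this, add_zero]

theorem Hq.add {a b a' b' : CE E} (h : Hq X a b) (h' : Hq X a' b') : Hq X (a + a') (b + b') := by
  obtain ⟨w, hw, e⟩ := h
  obtain ⟨w', hw', e'⟩ := h'
  refine ⟨w + w', Submodule.add_mem _ hw hw', ?_⟩
  rw [map_add, e, e']; abel

theorem Hq.smul {a b : CE E} (r : F2) (h : Hq X a b) : Hq X (r • a) (r • b) := by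
  obtain ⟨w, hw, e⟩ := h
  exact ⟨r • w, Submodule.smul_mem _ _ hw, by rw [map_smul, e, smul_add]⟩

theorem Hq.mono {X' : Set E} (hX : X ⊆ X') {a b : CE E} (h : Hq X a b) : Hq X' a b := by
  obtain ⟨w, hw, e⟩ := h
  exact ⟨w, CS_mono hX hw, e⟩

/-- moving summands -/
theorem Hq.move {a b c : CE E} (h : Hq X (a + b) c) : Hq X a (b + c) := by
  obtain ⟨w, hw, e⟩ := h
  exact ⟨w, hw, by rw [e]; abel⟩

theorem Hq.move' {a b c : CE E} (h : Hq X a (b + c)) : Hq X (a + b) c := by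
  obtain ⟨w, hw, e⟩ := h
  exact ⟨w, hw, by rw [e]; abel⟩

theorem Hq.bd {w : CE E} (hw : w ∈ CS X) : Hq X (bdE E w) 0 := ⟨w, hw, by rw [add_zero]⟩

theorem Hq.ph {f : E → F} {Z : Set F} (hf : ContinuousOn f X) (hm : MapsTo f X Z) {a b : CE E}
    (h : Hq X a b) : Hq Z (ph f a) (ph f b) := by
  obtain ⟨w, hw, e⟩ := h
  exact ⟨P490x817.ph f w, ph_mem hf hm hw, by rw [bd_ph hf hw, e, map_add]⟩

theorem Hq.crE_left {a a' : CE E} {b : CE E'} (h : Hq X a a') (hb : b ∈ CS Y)
    (hb0 : bdE E' b = 0) : Hq (X ×ˢ Y) (crE a b) (crE a' b) := by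
  obtain ⟨w, hw, e⟩ := h
  exact ⟨crE w b, crE_mem hw hb, by
    rw [bd_crE, hb0, map_zero, add_zero, e, map_add, LinearMap.add_apply]⟩

theorem Hq.crE_right {a : CE E} {b b' : CE E'} (h : Hq Y b b') (ha : a ∈ CS X)
    (ha0 : bdE E a = 0) : Hq (X ×ˢ Y) (crE a b) (crE a b') := by
  obtain ⟨w, hw, e⟩ := h
  exact ⟨crE a w, crE_mem ha hw, by
    rw [bd_crE, ha0, map_zero, LinearMap.zero_apply, zero_add, e, map_add]⟩

theorem Hq.op2_left {f : E × E' → F} {Z : Set F} (hf : ContinuousOn f (X ×ˢ Y))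
    (hm : MapsTo f (X ×ˢ Y) Z) {a a' : CE E} {b : CE E'} (h : Hq X a a') (hb : b ∈ CS Y)
    (hb0 : bdE E' b = 0) : Hq Z (op2 f a b) (op2 f a' b) :=
  (h.crE_left hb hb0).ph hf hm

theorem Hq.op2_right {f : E × E' → F} {Z : Set F} (hf : ContinuousOn f (X ×ˢ Y))
    (hm : MapsTo f (X ×ˢ Y) Z) {a : CE E} {b b' : CE E'} (h : Hq Y b b') (ha : a ∈ CS X)
    (ha0 : bdE E a = 0) : Hq Z (op2 f a b) (op2 f a b') :=
  (h.crE_right ha ha0).ph hf hm

/-- homotopy formula -/
theorem bd_ph_cyl {H : E × ℝ → F} (hH : ContinuousOn H (X ×ˢ Icc 0 1)) {f g : E → F}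
    (h0 : ∀ x ∈ X, H (x, 0) = f x) (h1 : ∀ x ∈ X, H (x, 1) = g x) {z : CE E} (hz : z ∈ CS X) :
    bdE F (ph H (cyl 0 1 z)) = ph H (cyl 0 1 (bdE E z)) + (ph g z + ph f z) := by
  have hf : ContinuousOn f X := by
    refine (hH.comp (f := fun x => (x, (0 : ℝ))) (Continuous.continuousOn (by fun_prop))
      fun x hx => ⟨hx, le_rfl, zero_le_one⟩).congr fun x hx => (h0 x hx).symm
  have hg : ContinuousOn g X := by
    refine (hH.comp (f := fun x => (x, (1 : ℝ))) (Continuous.continuousOn (by fun_prop))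
      fun x hx => ⟨hx, zero_le_one, le_rfl⟩).congr fun x hx => (h1 x hx).symm
  rw [ph_eq_push hH (cyl_mem zero_le_one hz), bd_push_cyl (hf := hf) (hg := hg) h0 h1 hz,
    ← ph_eq_push hH (cyl_mem zero_le_one (bd_mem_CS z hz)), ← ph_eq_push hf hz,
    ← ph_eq_push hg hz]

/-- homotopic maps -/
theorem Hq.htpy {H : E × ℝ → F} {Z : Set F} (hH : ContinuousOn H (X ×ˢ Icc 0 1))
    (hm : MapsTo H (X ×ˢ Icc 0 1) Z) {f g : E → F}
    (h0 : ∀ x ∈ X, H (x, 0) = f x) (h1 : ∀ x ∈ X, H (x, 1) = g x) {z : CE E} (hz : z ∈ CS X)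
    (hz0 : bdE E z = 0) : Hq Z (P490x817.ph f z) (P490x817.ph g z) := by
  refine ⟨P490x817.ph H (cyl 0 1 z), ph_mem hH hm (cyl_mem zero_le_one hz), ?_⟩
  rw [bd_ph_cyl hH h0 h1 hz, hz0]
  have : cyl 0 1 (0 : CE E) = 0 := by rw [cyl, map_zero, LinearMap.zero_apply]
  rw [this, map_zero, zero_add, add_comm]

/-! ## homogeneous chains with support -/

/-- homogeneous chains with support in `X` -/
def CG (X : Set E) (j : ℕ) : Submodule F2 (CE E) := CS X ⊓ N.gr F2 (SS.Sing E) j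

theorem mem_CG {j : ℕ} {c : CE E} : c ∈ CG X j ↔ c ∈ CS X ∧ c ∈ N.gr F2 (SS.Sing E) j := Iff.rfl

theorem CG_mono {X' : Set E} (h : X ⊆ X') (j : ℕ) : CG X j ≤ CG X' j :=
  fun _ hc => ⟨CS_mono h hc.1, hc.2⟩

theorem bd_CG {j : ℕ} {c : CE E} (hc : c ∈ CG X (j + 1)) : bdE E c ∈ CG X j :=
  ⟨bd_mem_CS c hc.1, Gr334.bd_mem_gr hc.2⟩

theorem bd_CG_zero {c : CE E} (hc : c ∈ CG X 0) : bdE E c = 0 := Gr334.bd_gr_zero hc.2

theorem prN_mem_CS (n : ℕ) {c : CE E} (hc : c ∈ CS X) :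
    Gr334.prN F2 (SS.Sing E) n c ∈ CS X := by
  refine map_mem_of_CS (f := Gr334.prN F2 (SS.Sing E) n) (fun m σ h => ?_) c hc
  rw [Gr334.prN_sx]
  split_ifs
  · exact sx_mem_CS h
  · exact Submodule.zero_mem _

theorem prN_mem_CG (n : ℕ) {c : CE E} (hc : c ∈ CS X) :
    Gr334.prN F2 (SS.Sing E) n c ∈ CG X n := ⟨prN_mem_CS n hc, Gr334.prN_mem n c⟩

theorem ph_CG {f : E → F} {Z : Set F} (hf : ContinuousOn f X) (hm : MapsTo f X Z) {j : ℕ}
    {c : CE E} (hc : c ∈ CG X j) : ph f c ∈ CG Z j := ⟨ph_mem hf hm hc.1, ph_gr hc.2⟩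

theorem crE_CG {m n : ℕ} {a : CE E} {b : CE E'} (ha : a ∈ CG X m) (hb : b ∈ CG Y n) :
    crE a b ∈ CG (X ×ˢ Y) (m + n) := ⟨crE_mem ha.1 hb.1, crE_mem_gr ha.2 hb.2⟩

theorem op2_CG {f : E × E' → F} {Z : Set F} (hf : ContinuousOn f (X ×ˢ Y))
    (hm : MapsTo f (X ×ˢ Y) Z) {m n : ℕ} {a : CE E} {b : CE E'} (ha : a ∈ CG X m)
    (hb : b ∈ CG Y n) : op2 f a b ∈ CG Z (m + n) := ph_CG hf hm (crE_CG ha hb)

/-- homogeneous homologies -/
theorem Hq.gr {j : ℕ} {a b : CE E} (h : Hq X a b) (ha : a ∈ N.gr F2 (SS.Sing E) j)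
    (hb : b ∈ N.gr F2 (SS.Sing E) j) : ∃ w ∈ CG X (j + 1), bdE E w = a + b := by
  obtain ⟨w, hw, e⟩ := h
  refine ⟨Gr334.prN F2 _ (j + 1) w, prN_mem_CG _ hw, ?_⟩
  rw [← Gr334.prN_bd, e, map_add, Gr334.prN_of_mem ha, Gr334.prN_of_mem hb]

theorem vE_CG {x : E} (h : x ∈ X) : vE x ∈ CG X 0 := ⟨vE_mem h, vE_mem_gr x⟩

/-- augmentation of a boundary -/
theorem aug_Hq {a b : CE E} (h : Hq X a b) : aug F2 a = aug F2 b := by
  obtain ⟨w, _, e⟩ := h
  have h1 : aug F2 (bdE E w) = 0 := aug_bd F2 w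
  rw [e, map_add] at h1
  exact eq_of_add h1

end Crest.Agent.R231.P490x817
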