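import Crest.Agent.R231.P490A_817

/-!
# Row 231, block P, hedge (helper817), file B : Mayer-Vietoris boundary, localisation, Kuenneth
-/

set_option autoImplicit false
set_option linter.unusedSectionVars false
set_option linter.unusedVariables false

noncomputable section

open Function Topology Set

namespace Crest.Agent.R231.P490x817

open Crest.Agent.R204 Capx226 EZ271 Pairx877 SingAct265 CapCSx780 CrossCSx780

variable {E E' E'' F F' : Type} [TopologicalSpace E] [TopologicalSpace E'] [TopologicalSpace E'']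
  [TopologicalSpace F] [TopologicalSpace F']

variable {X A V : Set E} {Y B W : Set E'}

/-! ## small chains -/

/-- a relatively open cover by two sets -/
structure Cov (Q QU QV : Set E) : Prop where
  subU : QU ⊆ Q
  subV : QV ⊆ Q
  cov : ∀ x ∈ Q, QU ∈ 𝓝[Q] x ∨ QV ∈ 𝓝[Q] x

theorem Cov.of_open {Q U V : Set E} (hU : IsOpen U) (hV : IsOpen V) (h : ∀ x ∈ Q, x ∈ U ∨ x ∈ V) :
    Cov Q (Q ∩ U) (Q ∩ V) where
  subU := inter_subset_left
  subV := inter_subset_left
  cov x hx := by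
    rcases h x hx with h | h
    · exact Or.inl (Filter.inter_mem self_mem_nhdsWithin (mem_nhdsWithin_of_mem_nhds (hU.mem_nhds h)))
    · exact Or.inr (Filter.inter_mem self_mem_nhdsWithin (mem_nhdsWithin_of_mem_nhds (hV.mem_nhds h)))

theorem split_gr {QU QV : Set E} {j : ℕ} {c : CE E} (hc : c ∈ N.gr F2 (SS.Sing E) j)
    (h : c ∈ CS QU ⊔ CS QV) : ∃ cu ∈ CG QU j, ∃ cv ∈ CG QV j, c = cu + cv := by
  obtain ⟨cu, hu, cv, hv, rfl⟩ := Submodule.mem_sup.1 h
  refine ⟨_, prN_mem_CG j hu, _, prN_mem_CG j hv, ?_⟩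
  rw [← map_add, Gr334.prN_of_mem hc]

theorem small {Q QU QV : Set E} (hC : Cov Q QU QV) {j : ℕ} {c : CE E} (hc : c ∈ CG Q j)
    (hb : bdE E c ∈ CS QU ⊔ CS QV) :
    ∃ e ∈ CG Q (j + 1), ∃ cu ∈ CG QU j, ∃ cv ∈ CG QV j, c + bdE E e = cu + cv := by
  have e1 : CS QU ⊔ CS QV = ⨆ U ∈ ({QU, QV} : Set (Set E)), CS U := by rw [iSup_pair]
  obtain ⟨y, hy, hyQ, h⟩ := Smx566.small_acyc_sub Q {QU, QV} (by
    rintro U (rfl | rfl)
    · exact hC.subU
    · exact hC.subV) (by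
    intro x hx
    rcases hC.cov x hx with h | h
    · exact ⟨QU, Or.inl rfl, h⟩
    · exact ⟨QV, Or.inr rfl, h⟩) j c hc.2 hc.1 (by rw [← e1]; exact hb)
  rw [← e1, sub_eq] at h
  obtain ⟨cu, hu, cv, hv, e⟩ := split_gr
    (Submodule.add_mem _ hc.2 (Gr334.bd_mem_gr hy)) h
  exact ⟨y, ⟨hyQ, hy⟩, cu, hu, cv, hv, e⟩

theorem mem_inter {QU QV : Set E} {c : CE E} (h1 : c ∈ CS QU) (h2 : c ∈ CS QV) :
    c ∈ CS (QU ∩ QV) := by rw [← Smx566.CS_inf]; exact ⟨h1, h2⟩

/-! ## the Mayer-Vietoris boundary -/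

/-- `m` is a Mayer-Vietoris boundary (of degree `j`) of the chain `Y` of `Q` -/
def MV (Q QU QV : Set E) (j : ℕ) (Y m : CE E) : Prop :=
  ∃ e ∈ CG Q (j + 2), ∃ zu ∈ CG QU (j + 1), ∃ zv ∈ CG QV (j + 1),
    Y + bdE E e = zu + zv ∧ m = bdE E zv

section MV

variable {Q QU QV : Set E} {j : ℕ} {y y' m m' : CE E}

theorem MV.exists (hC : Cov Q QU QV) (hy : y ∈ CG Q (j + 1)) (hb : bdE E y ∈ CS QU) :
    ∃ m, MV Q QU QV j y m := by
  obtain ⟨e, he, cu, hu, cv, hv, h⟩ := small hC hy (Submodule.mem_sup_left hb)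
  exact ⟨bdE E cv, e, he, cu, hu, cv, hv, h, rfl⟩

theorem MV.bd (h : MV Q QU QV j y m) : bdE E m = 0 := by
  obtain ⟨e, he, zu, hu, zv, hv, h1, rfl⟩ := h
  exact bd_bdE _

/-- the other expression of the boundary -/
theorem MV.eqU (h : MV Q QU QV j y m) : ∃ zu ∈ CG QU (j + 1), m = bdE E y + bdE E zu := by
  obtain ⟨e, he, zu, hu, zv, hv, h1, rfl⟩ := h
  refine ⟨zu, hu, ?_⟩
  have h2 := congrArg (bdE E) h1
  rw [map_add, map_add, bd_bdE, add_zero] at h2
  rw [h2, add_comm (bdE E zu), add_assoc, add_self, add_zero]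

theorem MV.eqV (h : MV Q QU QV j y m) : ∃ zv ∈ CG QV (j + 1), m = bdE E zv := by
  obtain ⟨e, he, zu, hu, zv, hv, h1, rfl⟩ := h
  exact ⟨zv, hv, rfl⟩

theorem MV.mem (h : MV Q QU QV j y m) (hb : bdE E y ∈ CS QU) : m ∈ CG (QU ∩ QV) j := by
  obtain ⟨zu, hu, e1⟩ := h.eqU
  obtain ⟨zv, hv, e2⟩ := h.eqV
  have h1 : m ∈ CG QV j := by rw [e2]; exact bd_CG hv
  refine ⟨mem_inter ?_ h1.1, h1.2⟩
  rw [e1]; exact Submodule.add_mem _ hb (bd_mem_CS _ hu.1)

theorem MV.add (h : MV Q QU QV j y m) (h' : MV Q QU QV j y' m') :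
    MV Q QU QV j (y + y') (m + m') := by
  obtain ⟨e, he, zu, hu, zv, hv, h1, rfl⟩ := h
  obtain ⟨e', he', zu', hu', zv', hv', h1', rfl⟩ := h'
  refine ⟨e + e', Submodule.add_mem _ he he', zu + zu', Submodule.add_mem _ hu hu', zv + zv',
    Submodule.add_mem _ hv hv', ?_, by rw [map_add]⟩
  rw [map_add]
  calc y + y' + (bdE E e + bdE E e') = (y + bdE E e) + (y' + bdE E e') := by abel
    _ = _ := by rw [h1, h1']; abel

theorem MV.uniq (hC : Cov Q QU QV) (h : MV Q QU QV j y m) (h' : MV Q QU QV j y' m')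
    {f g : CE E} (hf : f ∈ CG Q (j + 2)) (hg : g ∈ CS QU) (e0 : y + y' = bdE E f + g) :
    Hq (QU ∩ QV) m m' := by
  obtain ⟨e, he, zu, hu, zv, hv, h1, rfl⟩ := h
  obtain ⟨e', he', zu', hu', zv', hv', h1', rfl⟩ := h'
  have hE : bdE E (e + e' + f) = (zu + zu' + g) + (zv + zv') := by
    have a1 : bdE E e = y + (zu + zv) := by
      rw [← h1, ← add_assoc, add_self, zero_add]
    have a2 : bdE E e' = y' + (zu' + zv') := by
      rw [← h1', ← add_assoc, add_self, zero_add]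
    have a3 : bdE E f = (y + y') + g := by
      rw [e0, add_assoc, add_self, add_zero]
    rw [map_add, map_add, a1, a2, a3]
    have b1 := add_self y
    have b2 := add_self y'
    calc y + (zu + zv) + (y' + (zu' + zv')) + (y + y' + g)
        = (y + y) + (y' + y') + ((zu + zu' + g) + (zv + zv')) := by abel
      _ = _ := by rw [b1, b2, zero_add, zero_add]
  have hu2 : zu + zu' + g ∈ CS QU :=
    Submodule.add_mem _ (Submodule.add_mem _ hu.1 hu'.1) hg
  have hv2 : zv + zv' ∈ CS QV := Submodule.add_mem _ hv.1 hv'.1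
  obtain ⟨e2, he2, cu, hcu, cv, hcv, h2⟩ := small hC
    (Submodule.add_mem _ (Submodule.add_mem _ he he') hf)
    (by rw [hE]; exact Submodule.add_mem_sup hu2 hv2)
  have h3 := congrArg (bdE E) h2
  rw [map_add, bd_bdE, add_zero, hE, map_add] at h3
  -- `zv + zv' + bd cv = zu + zu' + g + bd cu`
  have h4 : zv + zv' + bdE E cv = zu + zu' + g + bdE E cu := by
    have b1 := add_self (zu + zu' + g)
    have b2 := add_self (bdE E cv)
    calc zv + zv' + bdE E cv
        = ((zu + zu' + g) + (zu + zu' + g)) + (zv + zv') + bdE E cv := by rw [b1, zero_add]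
      _ = (zu + zu' + g) + ((zu + zu' + g) + (zv + zv')) + bdE E cv := by abel
      _ = (zu + zu' + g) + (bdE E cu + bdE E cv) + bdE E cv := by rw [h3]
      _ = (zu + zu' + g) + bdE E cu + (bdE E cv + bdE E cv) := by abel
      _ = _ := by rw [b2, add_zero]
  refine ⟨zv + zv' + bdE E cv, mem_inter ?_ ?_, ?_⟩
  · rw [h4]; exact Submodule.add_mem _ hu2 (bd_mem_CS _ hcu.1)
  · exact Submodule.add_mem _ hv2 (bd_mem_CS _ hcv.1)
  · rw [map_add, bd_bdE, add_zero, map_add]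

theorem MV.uniq' (hC : Cov Q QU QV) (h : MV Q QU QV j y m) (h' : MV Q QU QV j y m') :
    Hq (QU ∩ QV) m m' :=
  h.uniq hC h' (f := 0) (g := 0) (Submodule.zero_mem _) (Submodule.zero_mem _)
    (by rw [add_self, map_zero, add_zero])

theorem MV.mono {Q' QU' QV' : Set E} (h : MV Q QU QV j y m) (h1 : Q ⊆ Q') (h2 : QU ⊆ QU')
    (h3 : QV ⊆ QV') : MV Q' QU' QV' j y m := by
  obtain ⟨e, he, zu, hu, zv, hv, h4, h5⟩ := h
  exact ⟨e, CG_mono h1 _ he, zu, CG_mono h2 _ hu, zv, CG_mono h3 _ hv, h4, h5⟩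

theorem MV.map {Q1 U1 V1 : Set F} {f : E → F} (hf : ContinuousOn f Q) (h1 : MapsTo f Q Q1)
    (h2 : MapsTo f QU U1) (h3 : MapsTo f QV V1) (hUQ : QU ⊆ Q) (hVQ : QV ⊆ Q)
    (h : MV Q QU QV j y m) : MV Q1 U1 V1 j (ph f y) (ph f m) := by
  obtain ⟨e, he, zu, hu, zv, hv, h4, rfl⟩ := h
  refine ⟨ph f e, ph_CG hf h1 he, ph f zu, ph_CG (hf.mono hUQ) h2 hu, ph f zv,
    ph_CG (hf.mono hVQ) h3 hv, ?_, ?_⟩
  · rw [bd_ph hf he.1, ← map_add, h4, map_add]
  · rw [bd_ph (hf.mono hVQ) hv.1]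

theorem MV.crL {Q QU QV : Set E'} {y m : CE E'} {a : CE E} {i : ℕ} (ha : a ∈ CG A i)
    (ha0 : bdE E a = 0) (h : MV Q QU QV j y m) :
    MV (A ×ˢ Q) (A ×ˢ QU) (A ×ˢ QV) (i + j) (crE a y) (crE a m) := by
  obtain ⟨e, he, zu, hu, zv, hv, h4, rfl⟩ := h
  refine ⟨crE a e, ?_, crE a zu, ?_, crE a zv, ?_, ?_, ?_⟩
  · have := crE_CG ha he
    rwa [show i + (j + 2) = i + j + 2 by omega] at this
  · have := crE_CG ha hu
    rwa [show i + (j + 1) = i + j + 1 by omega] at this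
  · have := crE_CG ha hv
    rwa [show i + (j + 1) = i + j + 1 by omega] at this
  · rw [bd_crE, ha0, map_zero, LinearMap.zero_apply, zero_add, ← map_add, h4, map_add]
  · rw [bd_crE, ha0, map_zero, LinearMap.zero_apply, zero_add]

theorem MV.crR {b : CE E'} {i : ℕ} (hb : b ∈ CG B i) (hb0 : bdE E' b = 0)
    (h : MV Q QU QV j y m) :
    MV (Q ×ˢ B) (QU ×ˢ B) (QV ×ˢ B) (j + i) (crE y b) (crE m b) := by
  obtain ⟨e, he, zu, hu, zv, hv, h4, rfl⟩ := h
  refine ⟨crE e b, ?_, crE zu b, ?_, crE zv b, ?_, ?_, ?_⟩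
  · have := crE_CG he hb
    rwa [show j + 2 + i = j + i + 2 by omega] at this
  · have := crE_CG hu hb
    rwa [show j + 1 + i = j + i + 1 by omega] at this
  · have := crE_CG hv hb
    rwa [show j + 1 + i = j + i + 1 by omega] at this
  · rw [bd_crE, hb0, map_zero, add_zero, ← LinearMap.add_apply, ← map_add, h4, map_add,
      LinearMap.add_apply]
  · rw [bd_crE, hb0, map_zero, add_zero]

end MV

/-! ## localisation -/

/-- `z` is the part of `Y` in `V`, up to chains of `W` and boundaries -/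
def LC (Q W V : Set E) (j : ℕ) (Y z : CE E) : Prop :=
  z ∈ CG V j ∧ ∃ e ∈ CG Q (j + 1), ∃ w ∈ CG W j, Y + bdE E e = w + z

/-- an operator which is defined by localisation at `V` away from `W` -/
structure LOp (W V : Set E) (P : CE E →ₗ[F2] CE F) (X : Set F) : Prop where
  zero : ∀ c ∈ CS W, P c = 0
  mem : ∀ c ∈ CS V, P c ∈ CS X
  comm : ∀ c ∈ CS V, bdE F (P c) = P (bdE E c)

section LC

variable {Q W V : Set E} {j : ℕ} {y y' z z' : CE E} {P : CE E →ₗ[F2] CE F} {X : Set F}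

theorem LC.exists (hC : Cov Q W V) (hy : y ∈ CG Q j) (hb : bdE E y = 0) :
    ∃ z, LC Q W V j y z := by
  obtain ⟨e, he, cu, hu, cv, hv, h⟩ := small hC hy (by rw [hb]; exact Submodule.zero_mem _)
  exact ⟨cv, hv, e, he, cu, hu, h⟩

theorem LC.bd (hP : LOp W V P X) (h : LC Q W V j y z) (hb : bdE E y = 0) :
    bdE F (P z) = 0 := by
  obtain ⟨hz, e, he, w, hw, h1⟩ := h
  have h2 := congrArg (bdE E) h1
  rw [map_add, bd_bdE, add_zero, hb, map_add] at h2
  have h3 : bdE E z = bdE E w := (eq_of_add h2.symm).symm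
  rw [hP.comm z hz.1, h3]
  exact hP.zero _ (bd_mem_CS _ hw.1)

theorem LC.uniq (hC : Cov Q W V) (hP : LOp W V P X) (h : LC Q W V j y z) (h' : LC Q W V j y' z')
    (hyy : ∃ f ∈ CG Q (j + 1), bdE E f = y + y') : Hq X (P z) (P z') := by
  obtain ⟨hz, e, he, w, hw, h1⟩ := h
  obtain ⟨hz', e', he', w', hw', h1'⟩ := h'
  obtain ⟨f, hf, e0⟩ := hyy
  have hE : bdE E (e + e' + f) = (w + w') + (z + z') := by
    have a1 : bdE E e = y + (w + z) := by
      rw [← h1, ← add_assoc, add_self, zero_add]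
    have a2 : bdE E e' = y' + (w' + z') := by
      rw [← h1', ← add_assoc, add_self, zero_add]
    rw [map_add, map_add, a1, a2, e0]
    have b1 := add_self y
    have b2 := add_self y'
    calc y + (w + z) + (y' + (w' + z')) + (y + y')
        = (y + y) + (y' + y') + ((w + w') + (z + z')) := by abel
      _ = _ := by rw [b1, b2, zero_add, zero_add]
  have hu2 : w + w' ∈ CS W := Submodule.add_mem _ hw.1 hw'.1
  have hv2 : z + z' ∈ CS V := Submodule.add_mem _ hz.1 hz'.1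
  obtain ⟨e2, he2, cu, hcu, cv, hcv, h2⟩ := small hC
    (Submodule.add_mem _ (Submodule.add_mem _ he he') hf)
    (by rw [hE]; exact Submodule.add_mem_sup hu2 hv2)
  have h3 := congrArg (bdE E) h2
  rw [map_add, bd_bdE, add_zero, hE, map_add] at h3
  have h4 : z + z' + bdE E cv = w + w' + bdE E cu := by
    have b1 := add_self (w + w')
    have b2 := add_self (bdE E cv)
    calc z + z' + bdE E cv
        = ((w + w') + (w + w')) + (z + z') + bdE E cv := by rw [b1, zero_add]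
      _ = (w + w') + ((w + w') + (z + z')) + bdE E cv := by abel
      _ = (w + w') + (bdE E cu + bdE E cv) + bdE E cv := by rw [h3]
      _ = (w + w') + bdE E cu + (bdE E cv + bdE E cv) := by abel
      _ = _ := by rw [b2, add_zero]
  have h5 : P (z + z' + bdE E cv) = 0 := by
    rw [h4]; exact hP.zero _ (Submodule.add_mem _ hu2 (bd_mem_CS _ hcu.1))
  refine ⟨P cv, hP.mem _ hcv.1, ?_⟩
  rw [hP.comm _ hcv.1]
  rw [map_add, map_add] at h5
  exact (eq_of_add h5).symm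

end LC

/-! ## cap products and push forwards -/

theorem cap_ph {f : E → F} (hf : ContinuousOn f X) (c : Co (SS.Sing F)) {z : CE E}
    (hz : z ∈ CS X) : cap c (ph f z) = ph f (cap (c ∘ₗ ph f) z) := by
  rw [ph_eq_push hf hz, ← push_cap (hf := hf) c z hz, ph_eq_push hf (cap_mem_CS _ z hz)]
  congr 1
  refine cap_congr_CS (X := X) (fun w hw => ?_) z hz
  rw [LinearMap.comp_apply, LinearMap.comp_apply, ph_eq_push hf hw]

theorem aug_cap (u : Co (SS.Sing E)) (z : CE E) : aug F2 (cap u z) = u z := by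
  rw [← cup_apply, cup_aug_right]

theorem cap_crE_fst' (u : Co (SS.Sing E)) (a : CE E) (b : CE E') :
    cap (u ∘ₗ ph Prod.fst) (crE a b) = crE (cap u a) b := by
  rw [← cap_crE_fst]
  refine cap_congr_CS (X := univ) (fun w _ => ?_) _ (mem_CS_univ _)
  rw [LinearMap.comp_apply, pull_apply]
  congr 1
  exact ph_map (⟨Prod.fst, continuous_fst⟩ : C(E × E', E)) w

theorem cap_crE_snd' (v : Co (SS.Sing E')) (a : CE E) (b : CE E') :
    cap (v ∘ₗ ph Prod.snd) (crE a b) = crE a (cap v b) := by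
  rw [← cap_crE_snd]
  refine cap_congr_CS (X := univ) (fun w _ => ?_) _ (mem_CS_univ _)
  rw [LinearMap.comp_apply, pull_apply]
  congr 1
  exact ph_map (⟨Prod.snd, continuous_snd⟩ : C(E × E', E')) w

/-! ## Kuenneth with a homology sphere -/

/-- a subset with the homology of a `k`-sphere, with the dual cocycle `v` -/
structure SH (S : Set E') (k : ℕ) (z0 : E') (s : CE E') (v : Co (SS.Sing E')) : Prop where
  pos : 1 ≤ k
  z0_mem : z0 ∈ S
  s_mem : s ∈ CG S k
  s_bd : bdE E' s = 0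
  v_deg : Deg k v
  v_bd : ∀ w ∈ CS S, v (bdE E' w) = 0
  v_s : v s = 1
  gen : ∀ j, ∀ b ∈ CG S j, bdE E' b = 0 → ∃ α β : F2, Hq S b (α • vE z0 + β • s) ∧
    (j ≠ 0 → α = 0) ∧ (j ≠ k → β = 0)

/-- slant product with a cochain of the second factor -/
def Dv (v : Co (SS.Sing E')) : CE (E × E') →ₗ[F2] CE E :=
  ph Prod.fst ∘ₗ cap (v ∘ₗ ph Prod.snd)

theorem Dv_crE (v : Co (SS.Sing E')) (a : CE E) (b : CE E') : Dv v (crE a b) = v b • a := by
  rw [Dv, LinearMap.comp_apply, cap_crE_snd', ph_fst_crE, aug_cap]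

theorem Dv_mem (v : Co (SS.Sing E')) {w : CE (E × E')} (hw : w ∈ CS (A ×ˢ B)) :
    Dv v w ∈ CS A :=
  ph_mem (X := (A ×ˢ B : Set (E × E'))) continuousOn_fst (fun _ hp => hp.1) (cap_mem_CS _ w hw)

theorem Dv_bd {v : Co (SS.Sing E')} (hv : ∀ w ∈ CS B, v (bdE E' w) = 0) {w : CE (E × E')}
    (hw : w ∈ CS (A ×ˢ B)) : bdE E (Dv v w) = Dv v (bdE _ w) := by
  rw [Dv, LinearMap.comp_apply, LinearMap.comp_apply, bd_ph (X := A ×ˢ B) continuousOn_fst
    (cap_mem_CS _ w hw), bd_cap_CS (X := A ×ˢ B) ?_ w hw]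
  intro z hz
  rw [LinearMap.comp_apply, ← bd_ph (X := A ×ˢ B) continuousOn_snd hz]
  exact hv _ (ph_mem (X := A ×ˢ B) continuousOn_snd (fun p hp => hp.2) hz)

theorem Deg_comp_ph {k : ℕ} {v : Co (SS.Sing F)} (hv : Deg k v) (f : E → F) :
    Deg k (v ∘ₗ ph f) := fun n hn _ hz => hv n hn _ (ph_gr hz)

theorem Dv_gr {v : Co (SS.Sing E')} {k j : ℕ} (hv : Deg k v) {w : CE (E × E')}
    (hw : w ∈ N.gr F2 (SS.Sing (E × E')) (k + j)) : Dv v w ∈ N.gr F2 (SS.Sing E) j :=
  ph_gr (cap_mem_gr (Deg_comp_ph hv _) hw)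

theorem Dv_gr_zero {v : Co (SS.Sing E')} {k j : ℕ} (hv : Deg k v) (hj : j < k) {w : CE (E × E')}
    (hw : w ∈ N.gr F2 (SS.Sing (E × E')) j) : Dv v w = 0 := by
  rw [Dv, LinearMap.comp_apply, cap_gr_eq_zero (Deg_comp_ph hv _) hj hw, map_zero]

/-- naturality in the first factor -/
theorem Dv_ph {f : E → F} (hf : ContinuousOn f A) (v : Co (SS.Sing E')) {w : CE (E × E')}
    (hw : w ∈ CS (A ×ˢ B)) :
    Dv v (ph (fun p : E × E' => (f p.1, p.2)) w) = ph f (Dv v w) := by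
  have h1 : ContinuousOn (fun p : E × E' => (f p.1, p.2)) (A ×ˢ B) :=
    (hf.comp continuousOn_fst fun p hp => hp.1).prodMk continuousOn_snd
  have h2 : cap ((v ∘ₗ ph Prod.snd) ∘ₗ ph (fun p : E × E' => (f p.1, p.2))) w =
      cap (v ∘ₗ ph Prod.snd) w := by
    refine cap_congr_CS (X := A ×ˢ B) (fun z hz => ?_) w hw
    rw [LinearMap.comp_apply, LinearMap.comp_apply, LinearMap.comp_apply, ph_ph h1 hz]
  have h3 : Dv v w = ph Prod.fst (cap (v ∘ₗ ph Prod.snd) w) := rfl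
  have h4 : Dv v (ph (fun p : E × E' => (f p.1, p.2)) w) = ph Prod.fst (cap (v ∘ₗ ph Prod.snd)
      (ph (fun p : E × E' => (f p.1, p.2)) w)) := rfl
  rw [h3, h4, cap_ph h1 _ hw, h2, ph_ph h1 (cap_mem_CS _ w hw),
    ph_ph (X := (A ×ˢ B : Set (E × E'))) continuousOn_fst (cap_mem_CS _ w hw)]

/-- cycles of a product of two subsets are sums of products of cycles -/
theorem kspan {S : Set E'} {j : ℕ} {w : CE (E × E')} (hw : w ∈ CG (A ×ˢ S) j)
    (h0 : bdE _ w = 0) : ∃ b ∈ CG (A ×ˢ S) (j + 1), w + bdE _ b ∈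
      Submodule.span F2 {t | ∃ (p q : ℕ) (a : CE E) (b : CE E'), p + q = j ∧ a ∈ CG A p ∧
        bdE E a = 0 ∧ b ∈ CG S q ∧ bdE E' b = 0 ∧ t = crE a b} := by
  -- the isomorphism `Sing A × Sing S → Sing (A ×ˢ S) → Sing (E × E')`
  set φ : SS.Hom ((SS.Sing A).prod (SS.Sing S)) (SS.Sing (E × E')) :=
    (singPair E E').comp (SS.prodMap (SS.SingMap (SpecA.inc A)) (SS.SingMap (SpecA.inc S))) with hφ
  have hinj : ∀ n, Injective (φ.app n) := by
    intro n x y h
    have h1 : ∀ t, ((ev (Y := A) x.1 t : A) : E) = ((ev (Y := A) y.1 t : A) : E) := fun t =>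
      congrArg (fun σ => (ev (Y := E × E') σ t).1) h
    have h2 : ∀ t, ((ev (Y := S) x.2 t : S) : E') = ((ev (Y := S) y.2 t : S) : E') := fun t =>
      congrArg (fun σ => (ev (Y := E × E') σ t).2) h
    exact Prod.ext (sing_ext fun t => Subtype.ext (h1 t)) (sing_ext fun t => Subtype.ext (h2 t))
  have hcr : ∀ (a : CE A) (b : CE S), N.map F2 φ (cross F2 a b) =
      crE (N.map F2 (SS.SingMap (SpecA.inc A)) a) (N.map F2 (SS.SingMap (SpecA.inc S)) b) := by
    intro a b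
    rw [crE_apply, ← map_cross, map_map]
  have hsurj : ∀ c ∈ CS (A ×ˢ S : Set (E × E')), ∃ c', N.map F2 φ c' = c := by
    intro c hc
    have : CS (A ×ˢ S : Set (E × E')) ≤ LinearMap.range (N.map F2 φ) := CS_le fun n σ h => by
      refine ⟨N.sx F2 (K := (SS.Sing A).prod (SS.Sing S))
        ((mkS (fun t => (⟨(ev σ t).1, (h t).1⟩ : A)) (by
            exact (continuous_fst.comp (continuous_ev σ)).subtype_mk _),
          mkS (fun t => (⟨(ev σ t).2, (h t).2⟩ : S)) (by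
            exact (continuous_snd.comp (continuous_ev σ)).subtype_mk _)) :
          ((SS.Sing A).prod (SS.Sing S)).S n), ?_⟩
      exact (N.map_sx (R := F2) φ _).trans rfl
    exact this hc
  obtain ⟨w', rfl⟩ := hsurj w hw.1
  have hNinj : Injective (N.map F2 φ) := Exc406.map_inj φ hinj
  have hw'0 : N.bd F2 _ w' = 0 := by
    apply hNinj
    rw [map_bd', map_zero]; exact h0
  have hw'g : w' ∈ N.gr F2 _ j := Exc406.mem_gr_of_map φ hNinj hw.2
  have hmem : ∀ c, N.map F2 φ c ∈ CS (A ×ˢ S : Set (E × E')) := fun c =>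
    map_mem_CS φ (fun n x t => by
      have h1 : ((ev (Y := A) x.1 t : A) : E) ∈ A := (ev (Y := A) x.1 t).2
      have h2 : ((ev (Y := S) x.2 t : S) : E') ∈ S := (ev (Y := S) x.2 t).2
      exact Set.mk_mem_prod h1 h2) c
  obtain ⟨b, hb, h⟩ := cross_surj_span j w' hw'g hw'0
  refine ⟨N.map F2 φ b, ⟨hmem b, Gr334.map_mem_gr φ hb⟩, ?_⟩
  have e1 : N.map F2 φ w' + bdE _ (N.map F2 φ b) = N.map F2 φ (w' + N.bd F2 _ b) := by
    rw [map_add, map_bd']
  rw [e1]
  refine Submodule.span_induction (p := fun t _ => N.map F2 φ t ∈ Submodule.span F2 {t |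
    ∃ (p q : ℕ) (a : CE E) (b : CE E'), p + q = j ∧ a ∈ CG A p ∧ bdE E a = 0 ∧ b ∈ CG S q ∧
      bdE E' b = 0 ∧ t = crE a b}) ?_ ?_ ?_ ?_ h
  · rintro _ ⟨p, q, a, b, hpq, ha, hb, ha0, hb0, rfl⟩
    refine Submodule.subset_span ⟨p, q, _, _, hpq, ⟨?_, Gr334.map_mem_gr _ ha⟩, ?_,
      ⟨?_, Gr334.map_mem_gr _ hb⟩, ?_, hcr a b⟩
    · exact CS_eq_range (X := A) ▸ ⟨a, rfl⟩
    · show N.bd F2 _ (N.map F2 _ a) = 0
      rw [← map_bd', ha0, map_zero]
    · exact CS_eq_range (X := S) ▸ ⟨b, rfl⟩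
    · show N.bd F2 _ (N.map F2 _ b) = 0
      rw [← map_bd', hb0, map_zero]
  · rw [map_zero]; exact Submodule.zero_mem _
  · intro x y _ _ hx hy; rw [map_add]; exact Submodule.add_mem _ hx hy
  · intro r x _ hx; rw [map_smul]; exact Submodule.smul_mem _ _ hx

variable {S : Set E'} {k : ℕ} {z0 : E'} {s : CE E'} {v : Co (SS.Sing E')}

theorem SH.aug_s (H : SH S k z0 s v) : aug F2 s = 0 := by
  have := H.pos
  obtain ⟨n, rfl⟩ : ∃ n, k = n + 1 := ⟨k - 1, by omega⟩
  have hs := H.s_mem.2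
  rw [Gr334.N_gr_eq_span] at hs
  refine Submodule.span_induction (p := fun t _ => aug F2 t = 0) ?_ ?_ ?_ ?_ hs
  · rintro _ ⟨x, rfl⟩; exact aug_sx_succ _ _
  · exact map_zero _
  · intro x y _ _ hx hy; rw [map_add, hx, hy, add_zero]
  · intro r x _ hx; rw [map_smul, hx, smul_zero]

theorem SH.v_z0 (H : SH S k z0 s v) : v (vE z0) = 0 :=
  H.v_deg 0 (by have := H.pos; omega) _ (vE_mem_gr z0)

/-- **Kuenneth** for `A × S` -/
theorem SH.kun (H : SH S k z0 s v) {j : ℕ} {w : CE (E × E')} (hw : w ∈ CG (A ×ˢ S) j)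
    (h0 : bdE _ w = 0) :
    Hq (A ×ˢ S) w (crE (ph Prod.fst w) (vE z0) + crE (Dv v w) s) := by
  obtain ⟨b, hb, h⟩ := kspan hw h0
  have key : ∀ t ∈ Submodule.span F2 {t | ∃ (p q : ℕ) (a : CE E) (b : CE E'), p + q = j ∧
      a ∈ CG A p ∧ bdE E a = 0 ∧ b ∈ CG S q ∧ bdE E' b = 0 ∧ t = crE a b},
      Hq (A ×ˢ S) t (crE (ph Prod.fst t) (vE z0) + crE (Dv v t) s) := by
    intro t ht
    refine Submodule.span_induction (p := fun t _ => Hq (A ×ˢ S) t
      (crE (ph Prod.fst t) (vE z0) + crE (Dv v t) s)) ?_ ?_ ?_ ?_ ht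
    · rintro _ ⟨p, q, a, b, hpq, ha, ha0, hb, hb0, rfl⟩
      obtain ⟨α, β, h1, -, -⟩ := H.gen q b hb hb0
      have h2 := h1.crE_right ha.1 ha0
      have e1 : aug F2 b = α := by
        rw [aug_Hq h1, map_add, map_smul, map_smul, aug_vE, H.aug_s]; simp
      have e2 : v b = β := by
        obtain ⟨c, hc, e⟩ := h1
        have := H.v_bd c hc
        rw [e, map_add, map_add, map_smul, map_smul, H.v_z0, H.v_s] at this
        have h3 : v b = β := by
          rw [smul_zero, zero_add, smul_eq_mul, mul_one] at this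
          exact eq_of_add this
        exact h3
      rw [ph_fst_crE, Dv_crE, e1, e2]
      rw [map_add, map_smul, map_smul] at h2
      simpa only [map_smul, LinearMap.smul_apply] using h2
    · rw [map_zero, map_zero, map_zero, LinearMap.zero_apply, zero_add, map_zero,
        LinearMap.zero_apply]
      exact Hq.refl _ _
    · intro x y _ _ hx hy
      have := hx.add hy
      simp only [map_add, LinearMap.add_apply]
      refine this.trans (Hq.of_eq ?_)
      abel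
    · intro r x _ hx
      have := hx.smul r
      simpa only [map_smul, LinearMap.smul_apply, smul_add] using this
  have h1 := key _ h
  -- remove the boundary
  have h2 : Hq (A ×ˢ S) (bdE _ b) (crE (ph Prod.fst (bdE _ b)) (vE z0) +
      crE (Dv v (bdE _ b)) s) := by
    have c1 : Hq (A ×ˢ S) (bdE _ b) 0 := Hq.bd hb.1
    have c2 : Hq (A ×ˢ S) (crE (ph Prod.fst (bdE _ b)) (vE z0)) 0 := by
      have : crE (ph Prod.fst (bdE _ b)) (vE z0) =
          bdE _ (crE (ph Prod.fst b) (vE z0)) := by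
        rw [bd_crE, bd_vE, map_zero, add_zero, bd_ph (X := A ×ˢ S) continuousOn_fst hb.1]
      rw [this]
      exact Hq.bd (crE_mem (ph_mem (X := A ×ˢ S) continuousOn_fst (fun p hp => hp.1) hb.1)
        (vE_mem H.z0_mem))
    have c3 : Hq (A ×ˢ S) (crE (Dv v (bdE _ b)) s) 0 := by
      have : crE (Dv v (bdE _ b)) s = bdE _ (crE (Dv v b) s) := by
        rw [bd_crE, H.s_bd, map_zero, add_zero, Dv_bd H.v_bd hb.1]
      rw [this]
      exact Hq.bd (crE_mem (Dv_mem v hb.1) H.s_mem.1)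
    have := c1.trans (c2.add c3).symm
    simpa using this
  have h3 := h1.add h2
  have e1 : w + bdE _ b + bdE _ b = w := by rw [add_assoc, add_self, add_zero]
  rw [e1] at h3
  refine h3.trans (Hq.of_eq ?_)
  simp only [map_add, LinearMap.add_apply]
  have b1 := add_self (crE (ph Prod.fst (bdE _ b)) (vE z0))
  have b2 := add_self (crE (Dv v (bdE _ b)) s)
  calc _ = crE (ph Prod.fst w) (vE z0) + crE (Dv v w) s +
        ((crE (ph Prod.fst (bdE _ b)) (vE z0)) + (crE (ph Prod.fst (bdE _ b)) (vE z0))) +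
        ((crE (Dv v (bdE _ b)) s) + (crE (Dv v (bdE _ b)) s)) := by abel
    _ = _ := by rw [b1, b2, add_zero, add_zero]

/-- the diagonal of the sphere class -/
theorem SH.diag (H : SH S k z0 s v) :
    Hq (S ×ˢ S) (ph (fun z : E' => (z, z)) s) (crE s (vE z0) + crE (vE z0) s) := by
  have hc : ContinuousOn (fun z : E' => (z, z)) S := Continuous.continuousOn (by fun_prop)
  have hm : MapsTo (fun z : E' => (z, z)) S (S ×ˢ S) := fun z hz => ⟨hz, hz⟩
  have h1 := H.kun (A := S) (ph_CG hc hm H.s_mem) (by rw [bd_ph hc H.s_mem.1, H.s_bd, map_zero])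
  have e1 : ph Prod.fst (ph (fun z : E' => (z, z)) s) = s := by
    rw [ph_ph hc H.s_mem.1]; exact ph_id s
  have e2 : Dv v (ph (fun z : E' => (z, z)) s) = cap v s := by
    rw [Dv, LinearMap.comp_apply, cap_ph hc _ H.s_mem.1, ph_ph hc (cap_mem_CS _ _ H.s_mem.1)]
    have : cap ((v ∘ₗ ph Prod.snd) ∘ₗ ph (fun z : E' => (z, z))) s = cap v s := by
      refine cap_congr_CS (X := S) (fun z hz => ?_) s H.s_mem.1
      rw [LinearMap.comp_apply, LinearMap.comp_apply, ph_ph hc hz]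
      congr 1
      exact ph_id z
    rw [this]; exact ph_id _
  have h2 : cap v s ∈ CG S 0 := ⟨cap_mem_CS _ _ H.s_mem.1, cap_mem_gr H.v_deg
    (by rw [add_zero]; exact H.s_mem.2)⟩
  obtain ⟨α, β, h3, -, h4⟩ := H.gen 0 _ h2 (bd_CG_zero h2)
  have hβ : β = 0 := h4 (by have := H.pos; omega)
  have hα : α = 1 := by
    have := aug_Hq h3
    rw [aug_cap, H.v_s, hβ, zero_smul, add_zero, map_smul, aug_vE] at this
    rw [smul_eq_mul, mul_one] at this; exact this.symm
  rw [hα, hβ, one_smul, zero_smul, add_zero] at h3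
  rw [e1, e2] at h1
  exact h1.trans ((Hq.refl _ _).add (h3.crE_left H.s_mem.1 H.s_bd))

end Crest.Agent.R231.P490x817
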