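import Crest.Agent.R231.CutM_725
import Crest.Agent.R231.P490B_817

/-!
# Row 231, block P, hedge (helper817), file C : Moore loops with exact length, and their maps

A loop is a pair `(g, l) : (ℝ → M) × ℝ` with `g` 1-Lipschitz, `g = p` outside `[0, l]`.
-/

set_option autoImplicit false
set_option linter.unusedSectionVars false
set_option linter.unusedVariables false

noncomputable section

open Function Topology Set

namespace Crest.Agent.R231.P490x817

open Crest.Agent.R231.Moorex725 Crest.Agent.R231.CutMx725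

/-! ## continuity on subsets -/

section cont

variable {M : Type} [PseudoMetricSpace M] {Z : Type} [TopologicalSpace Z] {D : Set Z}

theorem contOn_eval {g : Z → ℝ → M} {s : Z → ℝ} (hg : ContinuousOn g D)
    (hL : ∀ x ∈ D, g x ∈ LL M) (hs : ContinuousOn s D) : ContinuousOn (fun x => g x (s x)) D := by
  rw [continuousOn_iff_continuous_domRestrict] at *
  exact continuous_eval hg (fun x => hL x.1 x.2) hs

theorem contOn_cc {a b : Z → ℝ → M} {c : Z → ℝ} (ha : ContinuousOn a D) (hb : ContinuousOn b D)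
    (hc : ContinuousOn c D) (hbL : ∀ x ∈ D, b x ∈ LL M) (hab : ∀ x ∈ D, a x (c x) = b x 0) :
    ContinuousOn (fun x => cc (c x) (a x) (b x)) D := by
  rw [continuousOn_iff_continuous_domRestrict] at *
  exact continuous_cc ha hb hc (fun x => hbL x.1 x.2) (fun x => hab x.1 x.2)

theorem contOn_head {g : Z → ℝ → M} {s : Z → ℝ} (hg : ContinuousOn g D)
    (hL : ∀ x ∈ D, g x ∈ LL M) (hs : ContinuousOn s D) :
    ContinuousOn (fun x => head (s x) (g x)) D := by
  rw [continuousOn_iff_continuous_domRestrict] at *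
  exact continuous_head hg (fun x => hL x.1 x.2) hs

theorem contOn_tail {g : Z → ℝ → M} {s : Z → ℝ} (hg : ContinuousOn g D)
    (hL : ∀ x ∈ D, g x ∈ LL M) (hs : ContinuousOn s D) :
    ContinuousOn (fun x => tail (s x) (g x)) D := by
  rw [continuousOn_iff_continuous_domRestrict] at *
  exact continuous_tail hg (fun x => hL x.1 x.2) hs

theorem contOn_rev {g : Z → ℝ → M} {s : Z → ℝ} (hg : ContinuousOn g D)
    (hL : ∀ x ∈ D, g x ∈ LL M) (hs : ContinuousOn s D) :
    ContinuousOn (fun x => rev (s x) (g x)) D := by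
  rw [continuousOn_iff_continuous_domRestrict] at *
  exact continuous_rev hg (fun x => hL x.1 x.2) hs

end cont

variable {M : Type} [PseudoMetricSpace M]

/-- loops with length: the ambient space -/
abbrev LP (M : Type) : Type := (ℝ → M) × ℝ

/-- all based Moore loops -/
def OmA (p : M) : Set (LP M) := {x | x.1 ∈ MP p p x.2 ∧ 0 ≤ x.2}

/-- based Moore loops of length at most `t` -/
def OmL (p : M) (t : ℝ) : Set (LP M) := {x | x ∈ OmA p ∧ x.2 ≤ t}

/-- pairs of loops of total length at most `t` -/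
def A2 (p : M) (t : ℝ) : Set (LP M × LP M) := {x | x.1 ∈ OmA p ∧ x.2 ∈ OmA p ∧ x.1.2 + x.2.2 ≤ t}

/-- all pairs -/
def A2A (p : M) : Set (LP M × LP M) := OmA p ×ˢ OmA p

variable {p : M}

theorem OmL_sub (t : ℝ) : OmL p t ⊆ OmA p := fun _ h => h.1

theorem OmL_mono {t t' : ℝ} (h : t ≤ t') : OmL p t ⊆ OmL p t' := fun _ hx => ⟨hx.1, hx.2.trans h⟩

theorem A2_mono {t t' : ℝ} (h : t ≤ t') : A2 p t ⊆ A2 p t' :=
  fun _ hx => ⟨hx.1, hx.2.1, hx.2.2.trans h⟩

theorem A2_sub (t : ℝ) : A2 p t ⊆ A2A p := fun _ h => ⟨h.1, h.2.1⟩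

/-- the trivial loop -/
def oneL (p : M) : LP M := (fun _ => p, 0)

/-- the constant loop of length `r` -/
def kap (p : M) (r : ℝ) : LP M := (fun _ => p, r)

theorem oneL_mem : oneL p ∈ OmA p := ⟨const_mem_MP p 0, le_rfl⟩

theorem kap_mem {r : ℝ} (h : 0 ≤ r) : kap p r ∈ OmA p := ⟨const_mem_MP p r, h⟩

theorem kap_zero : kap p 0 = oneL p := rfl

theorem oneL_mem_L {t : ℝ} (h : 0 ≤ t) : oneL p ∈ OmL p t := ⟨oneL_mem, h⟩

/-- concatenation -/
def mulM (x : LP M × LP M) : LP M := (cc x.1.2 x.1.1 x.2.1, x.1.2 + x.2.2)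

theorem mulM_mem {x y : LP M} (hx : x ∈ OmA p) (hy : y ∈ OmA p) : mulM (x, y) ∈ OmA p :=
  ⟨cc_mem hx.1 hy.1 hx.2 hy.2, add_nonneg hx.2 hy.2⟩

theorem mulM_mem_L {x y : LP M} {t t' : ℝ} (hx : x ∈ OmL p t) (hy : y ∈ OmL p t') :
    mulM (x, y) ∈ OmL p (t + t') :=
  ⟨mulM_mem hx.1 hy.1, add_le_add hx.2 hy.2⟩

theorem mulM_snd (x : LP M × LP M) : (mulM x).2 = x.1.2 + x.2.2 := rfl

theorem mulM_assoc {x y z : LP M} (hy : 0 ≤ y.2) :
    mulM (mulM (x, y), z) = mulM (x, mulM (y, z)) := by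
  refine Prod.ext ?_ ?_
  · exact cc_assoc _ _ _ hy
  · show x.2 + y.2 + z.2 = x.2 + (y.2 + z.2)
    ring

theorem one_mulM {x : LP M} (hx : x ∈ OmA p) : mulM (oneL p, x) = x := by
  refine Prod.ext ?_ ?_
  · exact cc_const_left hx.1
  · show 0 + x.2 = x.2
    ring

theorem mulM_kap {x : LP M} (hx : x ∈ OmA p) (r : ℝ) : mulM (x, kap p r) = (x.1, x.2 + r) := by
  refine Prod.ext ?_ rfl
  exact cc_const_right hx.1

theorem mulM_one {x : LP M} (hx : x ∈ OmA p) : mulM (x, oneL p) = x := by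
  rw [← kap_zero, mulM_kap hx, add_zero]

theorem contOn_mulM {Z : Type} [TopologicalSpace Z] {D : Set Z} {a b : Z → LP M}
    (ha : ContinuousOn a D) (hb : ContinuousOn b D) (ha' : ∀ x ∈ D, a x ∈ OmA p)
    (hb' : ∀ x ∈ D, b x ∈ OmA p) : ContinuousOn (fun x => mulM (a x, b x)) D := by
  have a1 : ContinuousOn (fun x => (a x).1) D := continuous_fst.comp_continuousOn ha
  have a2 : ContinuousOn (fun x => (a x).2) D := continuous_snd.comp_continuousOn ha
  have b1 : ContinuousOn (fun x => (b x).1) D := continuous_fst.comp_continuousOn hb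
  have b2 : ContinuousOn (fun x => (b x).2) D := continuous_snd.comp_continuousOn hb
  refine (contOn_cc a1 b1 a2 (fun x hx => (hb' x hx).1.1) fun x hx => ?_).prodMk (a2.add b2)
  rw [(ha' x hx).1.2.2 _ le_rfl, (hb' x hx).1.2.1 _ le_rfl]

/-! ## maps on pairs -/

/-- `(F, S), a ↦ (F a, S)` -/
def in1M (x : (LP M × LP M) × LP M) : LP M × LP M := (mulM (x.1.1, x.2), x.1.2)
/-- `(F, S), a ↦ (F, a S)` -/
def in2M (x : (LP M × LP M) × LP M) : LP M × LP M := (x.1.1, mulM (x.2, x.1.2))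
/-- `a, (F, S) ↦ (a F, S)` -/
def outLM (x : LP M × (LP M × LP M)) : LP M × LP M := (mulM (x.1, x.2.1), x.2.2)
/-- `(F, S), a ↦ (F, S a)` -/
def outRM (x : (LP M × LP M) × LP M) : LP M × LP M := (x.1.1, mulM (x.1.2, x.2))
/-- `(F, S), a ↦ F a S` -/
def insM (x : (LP M × LP M) × LP M) : LP M := mulM (x.1.1, mulM (x.2, x.1.2))
/-- `(F, S), a ↦ S a F` -/
def rotM (x : (LP M × LP M) × LP M) : LP M := mulM (x.1.2, mulM (x.2, x.1.1))
/-- `(F, S) ↦ S F` -/
def sfM (x : LP M × LP M) : LP M := mulM (x.2, x.1)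

theorem contOn_in1M : ContinuousOn (in1M (M := M)) (A2A p ×ˢ OmA p) :=
  (contOn_mulM (p := p) (Continuous.continuousOn (by fun_prop)) (Continuous.continuousOn (by fun_prop))
    (fun _ h => h.1.1) (fun _ h => h.2)).prodMk (Continuous.continuousOn (by fun_prop))

theorem contOn_in2M : ContinuousOn (in2M (M := M)) (A2A p ×ˢ OmA p) :=
  ContinuousOn.prodMk (Continuous.continuousOn (by fun_prop))
    (contOn_mulM (p := p) (Continuous.continuousOn (by fun_prop))
      (Continuous.continuousOn (by fun_prop)) (fun _ h => h.2) (fun _ h => h.1.2))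

theorem contOn_outLM : ContinuousOn (outLM (M := M)) (OmA p ×ˢ A2A p) :=
  (contOn_mulM (p := p) (Continuous.continuousOn (by fun_prop)) (Continuous.continuousOn (by fun_prop))
    (fun _ h => h.1) (fun _ h => h.2.1)).prodMk (Continuous.continuousOn (by fun_prop))

theorem contOn_outRM : ContinuousOn (outRM (M := M)) (A2A p ×ˢ OmA p) :=
  ContinuousOn.prodMk (Continuous.continuousOn (by fun_prop))
    (contOn_mulM (p := p) (Continuous.continuousOn (by fun_prop))
      (Continuous.continuousOn (by fun_prop)) (fun _ h => h.1.2) (fun _ h => h.2))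

theorem contOn_insM : ContinuousOn (insM (M := M)) (A2A p ×ˢ OmA p) :=
  contOn_mulM (p := p) (Continuous.continuousOn (by fun_prop))
    (contOn_mulM (p := p) (Continuous.continuousOn (by fun_prop))
      (Continuous.continuousOn (by fun_prop)) (fun _ h => h.2) (fun _ h => h.1.2))
    (fun _ h => h.1.1) (fun _ h => mulM_mem h.2 h.1.2)

theorem contOn_rotM : ContinuousOn (rotM (M := M)) (A2A p ×ˢ OmA p) :=
  contOn_mulM (p := p) (Continuous.continuousOn (by fun_prop))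
    (contOn_mulM (p := p) (Continuous.continuousOn (by fun_prop))
      (Continuous.continuousOn (by fun_prop)) (fun _ h => h.2) (fun _ h => h.1.1))
    (fun _ h => h.1.2) (fun _ h => mulM_mem h.2 h.1.1)

theorem contOn_sfM : ContinuousOn (sfM (M := M)) (A2A p) :=
  contOn_mulM (p := p) (Continuous.continuousOn (by fun_prop))
    (Continuous.continuousOn (by fun_prop)) (fun _ h => h.2) (fun _ h => h.1)

theorem contOn_mulM' : ContinuousOn (mulM (M := M)) (OmA p ×ˢ OmA p) :=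
  contOn_mulM (p := p) (Continuous.continuousOn (by fun_prop))
    (Continuous.continuousOn (by fun_prop)) (fun _ h => h.1) (fun _ h => h.2)

/-! ## the cut space -/

/-- loops of length `≤ t` with a time -/
def Qt (p : M) (t : ℝ) : Set (LP M × ℝ) := {x | x.1 ∈ OmL p t ∧ 0 ≤ x.2 ∧ x.2 ≤ x.1.2}

/-- all of them -/
def QA (p : M) : Set (LP M × ℝ) := {x | x.1 ∈ OmA p ∧ 0 ≤ x.2 ∧ x.2 ≤ x.1.2}

/-- evaluation -/
def evQ (x : LP M × ℝ) : M := x.1.1 x.2

/-- the part over a subset of `M` -/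
def QS (V : Set M) (p : M) (t : ℝ) : Set (LP M × ℝ) := {x | x ∈ Qt p t ∧ evQ x ∈ V}

theorem Qt_sub (t : ℝ) : Qt p t ⊆ QA p := fun _ h => ⟨h.1.1, h.2⟩

theorem QS_sub (V : Set M) (t : ℝ) : QS V p t ⊆ Qt p t := fun _ h => h.1

theorem QS_inter (U V : Set M) (t : ℝ) : QS U p t ∩ QS V p t = QS (U ∩ V) p t := by
  ext x; exact ⟨fun h => ⟨h.1.1, h.1.2, h.2.2⟩, fun h => ⟨⟨h.1, h.2.1⟩, ⟨h.1, h.2.2⟩⟩⟩

theorem Qt_mono {t t' : ℝ} (h : t ≤ t') : Qt p t ⊆ Qt p t' := fun _ hx => ⟨OmL_mono h hx.1, hx.2⟩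

theorem QS_mono {V : Set M} {t t' : ℝ} (h : t ≤ t') : QS V p t ⊆ QS V p t' :=
  fun _ hx => ⟨Qt_mono h hx.1, hx.2⟩

theorem contOn_evQ : ContinuousOn (evQ (M := M)) (QA p) :=
  contOn_eval (Continuous.continuousOn (by fun_prop)) (fun _ h => h.1.1.1)
    (Continuous.continuousOn (by fun_prop))

theorem evQ_nhds {V : Set M} (hV : IsOpen V) {t : ℝ} {x : LP M × ℝ} (hx : x ∈ Qt p t)
    (h : evQ x ∈ V) : QS V p t ∈ 𝓝[Qt p t] x := by
  have h1 : ContinuousWithinAt (evQ (M := M)) (Qt p t) x := (contOn_evQ.mono (Qt_sub t)) x hx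
  have h2 := h1 (hV.mem_nhds h)
  exact Filter.inter_mem self_mem_nhdsWithin h2

/-- the cut -/
def GG (W : Tether p) (x : LP M × ℝ) : LP M × LP M :=
  ((Fc W x.2 x.1.1, x.2 + W.L), (Sc W x.2 x.1.1, W.L + (x.1.2 - x.2)))

theorem GG_memA (W : Tether p) {x : LP M × ℝ} (hx : x ∈ QA p) (hV : evQ x ∈ W.V) :
    GG W x ∈ A2A p := by
  refine ⟨⟨Fc_mem hx.1.1 hx.2.1 hV, add_nonneg hx.2.1 W.L_nonneg⟩,
    ⟨Sc_mem hx.1.1 hx.2.2 hV, ?_⟩⟩
  have h1 := W.L_nonneg
  have h2 := hx.2.2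
  show 0 ≤ W.L + (x.1.2 - x.2)
  linarith

theorem GG_mem (W : Tether p) {t : ℝ} {x : LP M × ℝ} (hx : x ∈ QS W.V p t) :
    GG W x ∈ A2 p (t + 2 * W.L) := by
  have h := GG_memA W (Qt_sub t hx.1) hx.2
  refine ⟨h.1, h.2, ?_⟩
  have h2 := hx.1.1.2
  show x.2 + W.L + (W.L + (x.1.2 - x.2)) ≤ t + 2 * W.L
  linarith

theorem contOn_GG (W : Tether p) : ContinuousOn (GG W) {x | x ∈ QA p ∧ evQ x ∈ W.V} := by
  set D : Set (LP M × ℝ) := {x | x ∈ QA p ∧ evQ x ∈ W.V} with hD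
  have hg : ContinuousOn (fun x : LP M × ℝ => x.1.1) D := Continuous.continuousOn (by fun_prop)
  have hL : ∀ x ∈ D, x.1.1 ∈ LL M := fun x hx => hx.1.1.1.1
  have hs : ContinuousOn (fun x : LP M × ℝ => x.2) D := Continuous.continuousOn (by fun_prop)
  have hl : ContinuousOn (fun x : LP M × ℝ => x.1.2) D := Continuous.continuousOn (by fun_prop)
  have hT : ContinuousOn (fun x : LP M × ℝ => W.T (x.1.1 x.2)) D :=
    W.cont.comp (contOn_eval hg hL hs) fun x hx => hx.2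
  refine ContinuousOn.prodMk ?_ ?_
  · refine ContinuousOn.prodMk ?_ (hs.add continuousOn_const)
    refine contOn_cc (contOn_head hg hL hs) hT hs (fun x hx => (W.mem _ hx.2).1) fun x hx => ?_
    rw [head, min_self]
    exact ((W.mem _ hx.2).2.1 0 le_rfl).symm
  · refine ContinuousOn.prodMk ?_ (continuousOn_const.add (hl.sub hs))
    refine contOn_cc (c := fun _ => W.L) ?_ (contOn_tail hg hL hs) continuousOn_const
      (fun x hx => tail_LL (hL x hx) _) fun x hx => ?_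
    · exact contOn_rev (s := fun _ => W.L) hT (fun x hx => (W.mem _ hx.2).1) continuousOn_const
    · rw [rev, sub_self, tail, max_self, zero_add]
      exact (W.mem _ hx.2).2.1 0 le_rfl

/-! ## detours -/

/-- `P . h|[0,r] . h|[0,r]⁻¹ . Q`, the first path ending at time `l` -/
def bt (l r : ℝ) (P h Q : ℝ → M) : ℝ → M :=
  cc l P (cc r (head r h) (cc r (rev r (head r h)) Q))

theorem bt_mem {x y z w : M} {l r c d : ℝ} {P h Q : ℝ → M} (hP : P ∈ MP x y l) (hl : 0 ≤ l)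
    (hh : h ∈ MP y w c) (hr : 0 ≤ r) (hQ : Q ∈ MP y z d) (hd : 0 ≤ d) :
    bt l r P h Q ∈ MP x z (l + (r + (r + d))) :=
  cc_mem hP (cc_mem (head_mem hh) (cc_mem (rev_mem (head_mem hh)) hQ hr hd) hr (by linarith))
    hl (by linarith)

theorem bt_zero {x y z w : M} {l c d : ℝ} {P h Q : ℝ → M} (hP : P ∈ MP x y l)
    (hh : h ∈ MP y w c) (hQ : Q ∈ MP y z d) : bt l 0 P h Q = cc l P Q := by
  have e1 : head 0 h = fun _ => y := head_of_le hh le_rfl
  have e2 : rev 0 (head 0 h) = fun _ => y := by rw [e1]; rfl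
  rw [bt, e2, e1, cc_const_left hQ, cc_const_left hQ]

theorem bt_full {y w : M} {l c : ℝ} {P h Q : ℝ → M} (hh : h ∈ MP y w c) :
    bt l c P h Q = cc l P (cc c h (cc c (rev c h) Q)) := by
  rw [bt, head_of_ge hh le_rfl]

theorem contOn_bt {Z : Type} [TopologicalSpace Z] {D : Set Z} {l r : Z → ℝ} {P h Q : Z → ℝ → M}
    {y : Z → M} (hl : ContinuousOn l D) (hr : ContinuousOn r D) (hP : ContinuousOn P D)
    (hh : ContinuousOn h D) (hQ : ContinuousOn Q D) (r0 : ∀ x ∈ D, 0 ≤ r x)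
    (hPy : ∀ x ∈ D, P x (l x) = y x) (hhL : ∀ x ∈ D, h x ∈ LL M) (hh0 : ∀ x ∈ D, h x 0 = y x)
    (hQL : ∀ x ∈ D, Q x ∈ LL M) (hQ0 : ∀ x ∈ D, Q x 0 = y x) :
    ContinuousOn (fun x => bt (l x) (r x) (P x) (h x) (Q x)) D := by
  have h1 : ContinuousOn (fun x => head (r x) (h x)) D := contOn_head hh hhL hr
  have h1L : ∀ x ∈ D, head (r x) (h x) ∈ LL M := fun x hx => head_LL (hhL x hx) _
  have h2 : ContinuousOn (fun x => rev (r x) (head (r x) (h x))) D := contOn_rev h1 h1L hr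
  have h2L : ∀ x ∈ D, rev (r x) (head (r x) (h x)) ∈ LL M := fun x hx => rev_LL (h1L x hx) _
  have e1 : ∀ x ∈ D, rev (r x) (head (r x) (h x)) (r x) = Q x 0 := by
    intro x hx
    rw [rev, sub_self, head, min_eq_left (r0 x hx), hh0 x hx, hQ0 x hx]
  have h3 := contOn_cc h2 hQ hr hQL e1
  have h3L : ∀ x ∈ D, cc (r x) (rev (r x) (head (r x) (h x))) (Q x) ∈ LL M := fun x hx =>
    cc_lip (h2L x hx) (hQL x hx) (e1 x hx)
  have e2 : ∀ x ∈ D, head (r x) (h x) (r x) =
      cc (r x) (rev (r x) (head (r x) (h x))) (Q x) 0 := by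
    intro x hx
    rw [cc_of_le _ _ (r0 x hx), rev, sub_zero]
  have h4 := contOn_cc h1 h3 hr h3L e2
  have h4L : ∀ x ∈ D, cc (r x) (head (r x) (h x)) (cc (r x) (rev (r x) (head (r x) (h x)))
      (Q x)) ∈ LL M := fun x hx => cc_lip (h1L x hx) (h3L x hx) (e2 x hx)
  refine contOn_cc hP h4 hl h4L fun x hx => ?_
  rw [cc_of_le _ _ (r0 x hx), head, min_eq_left (r0 x hx), hh0 x hx, hPy x hx]

end Crest.Agent.R231.P490x817
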