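import Crest.Agent.R231.P490C_817

/-!
# Row 231, block P, hedge (helper817), file D : the cut operator and relation (R)
-/

set_option autoImplicit false
set_option linter.unusedSectionVars false
set_option linter.unusedVariables false

noncomputable section

open Function Topology Set

namespace Crest.Agent.R231.P490x817

open Crest.Agent.R204 Capx226 EZ271 Pairx877 SingAct265 CapCSx780 CrossCSx780
open Crest.Agent.R231.Moorex725 Crest.Agent.R231.CutMx725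

/-- the data: two tethers to `p` whose domains cover `M`, and whose intersection is a homology
sphere -/
structure Dat (M : Type) [PseudoMetricSpace M] where
  p : M
  WU : Tether p
  WV : Tether p
  pU : p ∈ WU.V
  cov : ∀ z, z ∈ WU.V ∨ z ∈ WV.V
  cp : WU.T p = fun _ => p
  k : ℕ
  z0 : M
  s : CE M
  v : Co (SS.Sing M)
  H : SH (WU.V ∩ WV.V) k z0 s v

variable {M : Type} [PseudoMetricSpace M]

/-- rescaled time -/
def lamM (x : LP M × ℝ) : LP M × ℝ := (x.1, x.2 * x.1.2)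

theorem continuous_lamM : Continuous (lamM (M := M)) := by unfold lamM; fun_prop

/-- the family of all cut times -/
def Ych (y : CE (LP M)) : CE (LP M × ℝ) := op2 lamM y (seg 0 1)

theorem Ych_add (y y' : CE (LP M)) : Ych (y + y') = Ych y + Ych y' := op2_add_left _ _ _ _

theorem lamM_mapsTo {p : M} {t : ℝ} : MapsTo (lamM (M := M)) (OmL p t ×ˢ Icc 0 1) (Qt p t) := by
  rintro ⟨x, u⟩ ⟨hx, hu0, hu1⟩
  refine ⟨hx, mul_nonneg hu0 hx.1.2, ?_⟩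
  calc u * x.2 ≤ 1 * x.2 := mul_le_mul_of_nonneg_right hu1 hx.1.2
    _ = x.2 := one_mul _

theorem seg01_mem : seg 0 1 ∈ CG (Icc (0 : ℝ) 1) 1 :=
  ⟨seg_mem (convex_Icc 0 1) ⟨le_rfl, zero_le_one⟩ ⟨zero_le_one, le_rfl⟩, seg_mem_gr 0 1⟩

theorem Ych_mem {p : M} {t : ℝ} {j : ℕ} {y : CE (LP M)} (hy : y ∈ CG (OmL p t) j) :
    Ych y ∈ CG (Qt p t) (j + 1) :=
  op2_CG continuous_lamM.continuousOn lamM_mapsTo hy seg01_mem

theorem op2_vE_right {E E' F : Type} [TopologicalSpace E] [TopologicalSpace E']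
    [TopologicalSpace F] (f : E × E' → F) (a : CE E) (y : E') :
    op2 f a (vE y) = ph (fun x => f (x, y)) a := by
  rw [op2, crE_vE_right', ph_ph (X := univ) (Continuous.continuousOn (by fun_prop))
    (mem_CS_univ a)]

theorem op2_vE_left {E E' F : Type} [TopologicalSpace E] [TopologicalSpace E']
    [TopologicalSpace F] (f : E × E' → F) (x : E) (b : CE E') :
    op2 f (vE x) b = ph (fun y => f (x, y)) b := by
  rw [op2, crE_vE_left', ph_ph (X := univ) (Continuous.continuousOn (by fun_prop))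
    (mem_CS_univ b)]

theorem bd_Ych' (y : CE (LP M)) : bdE _ (Ych y) = Ych (bdE _ y) +
    (ph (fun x : LP M => (x, x.2)) y + ph (fun x : LP M => (x, (0 : ℝ))) y) := by
  rw [Ych, bd_op2 (X := univ) (Y := univ) continuous_lamM.continuousOn (mem_CS_univ _)
    (mem_CS_univ _), bd_seg, op2_add_right, op2_vE_right, op2_vE_right]
  have e1 : (fun x : LP M => lamM (x, 1)) = fun x => (x, x.2) := by
    funext x; simp [lamM]
  have e2 : (fun x : LP M => lamM (x, 0)) = fun x => (x, 0) := by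
    funext x; simp [lamM]
  rw [e1, e2]; rfl

variable (d : Dat M)

namespace Dat

/-- the sphere -/
def S : Set M := d.WU.V ∩ d.WV.V

theorem HS : SH d.S d.k d.z0 d.s d.v := d.H

/-- the bound for the length of the arcs -/
def C : ℝ := d.WU.L + d.WV.L

theorem C_nonneg : 0 ≤ d.C := add_nonneg d.WU.L_nonneg d.WV.L_nonneg

theorem LU_le : d.WU.L ≤ d.C := le_add_of_nonneg_right d.WV.L_nonneg

theorem LV_le : d.WV.L ≤ d.C := le_add_of_nonneg_left d.WU.L_nonneg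

theorem covQ (t : ℝ) : Cov (Qt d.p t) (QS d.WU.V d.p t) (QS d.WV.V d.p t) where
  subU := QS_sub _ _
  subV := QS_sub _ _
  cov x hx := by
    rcases d.cov (evQ x) with h | h
    · exact Or.inl (evQ_nhds d.WU.isOpen hx h)
    · exact Or.inr (evQ_nhds d.WV.isOpen hx h)

theorem top_mem {t : ℝ} {x : LP M} (hx : x ∈ OmL d.p t) : (x, x.2) ∈ QS d.WU.V d.p t :=
  ⟨⟨hx, hx.1.2, le_rfl⟩, by
    show x.1 x.2 ∈ d.WU.V
    rw [hx.1.1.2.2 _ le_rfl]; exact d.pU⟩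

theorem bot_mem {t : ℝ} {x : LP M} (hx : x ∈ OmL d.p t) : (x, (0 : ℝ)) ∈ QS d.WU.V d.p t :=
  ⟨⟨hx, le_rfl, hx.1.2⟩, by
    show x.1 0 ∈ d.WU.V
    rw [hx.1.1.2.1 _ le_rfl]; exact d.pU⟩

theorem ends_mem {t : ℝ} {y : CE (LP M)} (hy : y ∈ CS (OmL d.p t)) :
    ph (fun x : LP M => (x, x.2)) y + ph (fun x : LP M => (x, (0 : ℝ))) y ∈
      CS (QS d.WU.V d.p t) :=
  Submodule.add_mem _
    (ph_mem (Continuous.continuousOn (by fun_prop)) (fun x hx => d.top_mem hx) hy)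
    (ph_mem (Continuous.continuousOn (by fun_prop)) (fun x hx => d.bot_mem hx) hy)

/-- the operator `chains over S → chains of pairs` -/
def Dop : CE (LP M × ℝ) →ₗ[F2] CE (LP M × LP M) :=
  ph (GG d.WV) ∘ₗ cap (d.v ∘ₗ ph evQ)

theorem QS_subA (V : Set M) (t : ℝ) {p : M} :
    QS V p t ⊆ {x | x ∈ QA p ∧ evQ x ∈ V} := fun _ h => ⟨Qt_sub t h.1, h.2⟩

theorem contGU (t : ℝ) : ContinuousOn (GG d.WU) (QS d.WU.V d.p t) :=
  (contOn_GG d.WU).mono (QS_subA _ t)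

theorem contGV (t : ℝ) : ContinuousOn (GG d.WV) (QS d.WV.V d.p t) :=
  (contOn_GG d.WV).mono (QS_subA _ t)

theorem QS_S_subV (t : ℝ) : QS d.S d.p t ⊆ QS d.WV.V d.p t := fun _ h => ⟨h.1, h.2.2⟩

theorem QS_S_subU (t : ℝ) : QS d.S d.p t ⊆ QS d.WU.V d.p t := fun _ h => ⟨h.1, h.2.1⟩

theorem contEv (V : Set M) (t : ℝ) : ContinuousOn (evQ (M := M)) (QS V d.p t) :=
  contOn_evQ.mono fun _ h => Qt_sub t h.1

theorem om_bd {t : ℝ} {w : CE (LP M × ℝ)} (hw : w ∈ CS (QS d.S d.p t)) :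
    (d.v ∘ₗ ph evQ) (bdE _ w) = 0 := by
  rw [LinearMap.comp_apply, ← bd_ph (d.contEv _ t) hw]
  exact d.HS.v_bd _ (ph_mem (d.contEv _ t) (fun x hx => hx.2) hw)

theorem Dop_mem {t : ℝ} {w : CE (LP M × ℝ)} (hw : w ∈ CS (QS d.S d.p t)) :
    d.Dop w ∈ CS (A2 d.p (t + 2 * d.WV.L)) :=
  ph_mem ((d.contGV t).mono (d.QS_S_subV t)) (fun x hx => GG_mem d.WV (d.QS_S_subV t hx))
    (cap_mem_CS _ w hw)

theorem Dop_bd {t : ℝ} {w : CE (LP M × ℝ)} (hw : w ∈ CS (QS d.S d.p t)) :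
    bdE _ (d.Dop w) = d.Dop (bdE _ w) := by
  rw [Dop, LinearMap.comp_apply, LinearMap.comp_apply,
    bd_ph ((d.contGV t).mono (d.QS_S_subV t)) (cap_mem_CS _ w hw),
    bd_cap_CS (X := QS d.S d.p t) (fun z hz => d.om_bd hz) w hw]

theorem Dop_gr {j : ℕ} {w : CE (LP M × ℝ)} (hw : w ∈ N.gr F2 (SS.Sing (LP M × ℝ)) (d.k + j)) :
    d.Dop w ∈ N.gr F2 (SS.Sing (LP M × LP M)) j :=
  ph_gr (cap_mem_gr (Deg_comp_ph d.HS.v_deg _) hw)

theorem Dop_zero {j : ℕ} (hj : j < d.k) {w : CE (LP M × ℝ)}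
    (hw : w ∈ N.gr F2 (SS.Sing (LP M × ℝ)) j) : d.Dop w = 0 := by
  rw [Dop, LinearMap.comp_apply, cap_gr_eq_zero (Deg_comp_ph d.HS.v_deg _) hj hw, map_zero]

/-- **the cut** -/
def DD (t : ℝ) (j : ℕ) (y : CE (LP M)) (W : CE (LP M × LP M)) : Prop :=
  ∃ m, MV (Qt d.p t) (QS d.WU.V d.p t) (QS d.WV.V d.p t) j (Ych y) m ∧ W = d.Dop m

variable {d} {t : ℝ} {j : ℕ} {y : CE (LP M)} {W : CE (LP M × LP M)}

theorem bd_Ych (hy : y ∈ CG (OmL d.p t) j) (hy0 : bdE _ y = 0) :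
    bdE _ (Ych y) = ph (fun x : LP M => (x, x.2)) y + ph (fun x : LP M => (x, (0 : ℝ))) y := by
  rw [bd_Ych', hy0]
  have : Ych (0 : CE (LP M)) = 0 := op2_zero_left _ _
  rw [this, zero_add]

theorem bd_Ych_mem (hy : y ∈ CG (OmL d.p t) j) (hy0 : bdE _ y = 0) :
    bdE _ (Ych y) ∈ CS (QS d.WU.V d.p t) := by
  rw [bd_Ych hy hy0]; exact d.ends_mem hy.1

theorem DD.exists (hy : y ∈ CG (OmL d.p t) j) (hy0 : bdE _ y = 0) : ∃ W, d.DD t j y W := by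
  obtain ⟨m, hm⟩ := MV.exists (d.covQ t) (Ych_mem hy) (bd_Ych_mem hy hy0)
  exact ⟨_, m, hm, rfl⟩

theorem mS (hy : y ∈ CG (OmL d.p t) j) (hy0 : bdE _ y = 0) {m : CE (LP M × ℝ)}
    (hm : MV (Qt d.p t) (QS d.WU.V d.p t) (QS d.WV.V d.p t) j (Ych y) m) :
    m ∈ CG (QS d.S d.p t) j := by
  have := hm.mem (bd_Ych_mem hy hy0)
  rwa [QS_inter] at this

theorem DD.mem (hy : y ∈ CG (OmL d.p t) j) (hy0 : bdE _ y = 0) (h : d.DD t j y W) :
    W ∈ CS (A2 d.p (t + 2 * d.WV.L)) := by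
  obtain ⟨m, hm, rfl⟩ := h
  exact d.Dop_mem (mS hy hy0 hm).1

theorem DD.gr {i : ℕ} (hy : y ∈ CG (OmL d.p t) (d.k + i)) (hy0 : bdE _ y = 0)
    (h : d.DD t (d.k + i) y W) : W ∈ CG (A2 d.p (t + 2 * d.WV.L)) i := by
  refine ⟨h.mem hy hy0, ?_⟩
  obtain ⟨m, hm, rfl⟩ := h
  exact d.Dop_gr (mS hy hy0 hm).2

theorem DD.zero (hj : j < d.k) (hy : y ∈ CG (OmL d.p t) j) (hy0 : bdE _ y = 0)
    (h : d.DD t j y W) : W = 0 := by
  obtain ⟨m, hm, rfl⟩ := h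
  exact d.Dop_zero hj (mS hy hy0 hm).2

theorem DD.bd (hy : y ∈ CG (OmL d.p t) j) (hy0 : bdE _ y = 0) (h : d.DD t j y W) :
    bdE _ W = 0 := by
  obtain ⟨m, hm, rfl⟩ := h
  rw [d.Dop_bd (mS hy hy0 hm).1, hm.bd, map_zero]

theorem Dop_Hq {m m' : CE (LP M × ℝ)} (h : Hq (QS d.S d.p t) m m') :
    Hq (A2 d.p (t + 2 * d.WV.L)) (d.Dop m) (d.Dop m') := by
  obtain ⟨w, hw, e⟩ := h
  exact ⟨d.Dop w, d.Dop_mem hw, by rw [d.Dop_bd hw, e, map_add]⟩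

/-- homology invariance of the cut (with change of level) -/
theorem DD.uniq {t t' T : ℝ} {y y' : CE (LP M)} {W W' : CE (LP M × LP M)} (ht : t ≤ T)
    (ht' : t' ≤ T) (hy : y ∈ CG (OmL d.p t) j) (hy' : y' ∈ CG (OmL d.p t') j)
    (hyy : Hq (OmL d.p T) y y') (h : d.DD t j y W) (h' : d.DD t' j y' W') :
    Hq (A2 d.p (T + 2 * d.WV.L)) W W' := by
  obtain ⟨m, hm, rfl⟩ := h
  obtain ⟨m', hm', rfl⟩ := h'
  refine Dop_Hq ?_
  obtain ⟨w, hw, e⟩ := hyy.gr hy.2 hy'.2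
  have h1 := hm.mono (Qt_mono ht) (QS_mono ht) (QS_mono ht)
  have h2 := hm'.mono (Qt_mono ht') (QS_mono ht') (QS_mono ht')
  have := h1.uniq (d.covQ T) h2 (f := Ych w) (g := ph (fun x : LP M => (x, x.2)) w +
    ph (fun x : LP M => (x, (0 : ℝ))) w) (Ych_mem hw) (d.ends_mem hw.1) (by
      rw [bd_Ych', e, Ych_add, add_assoc, add_self, add_zero])
  rwa [QS_inter] at this

theorem DD.add {y' : CE (LP M)} {W' : CE (LP M × LP M)} (h : d.DD t j y W)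
    (h' : d.DD t j y' W') : d.DD t j (y + y') (W + W') := by
  obtain ⟨m, hm, rfl⟩ := h
  obtain ⟨m', hm', rfl⟩ := h'
  exact ⟨m + m', by rw [Ych_add]; exact hm.add hm', by rw [map_add]⟩

theorem DD.level {t' : ℝ} (ht : t ≤ t') (h : d.DD t j y W) : d.DD t' j y W := by
  obtain ⟨m, hm, rfl⟩ := h
  exact ⟨m, hm.mono (Qt_mono ht) (QS_mono ht) (QS_mono ht), rfl⟩

/-! ### the sphere family -/

variable (d)

/-- `v_z = b_z⁻¹ c_z` -/
def vl (z : M) : LP M :=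
  (cc d.WV.L (rev d.WV.L (d.WV.T z)) (d.WU.T z), d.WV.L + d.WU.L)

/-- its inverse -/
def vr (z : M) : LP M :=
  (cc d.WU.L (rev d.WU.L (d.WU.T z)) (d.WV.T z), d.WU.L + d.WV.L)

theorem vl_mem {z : M} (hz : z ∈ d.S) : d.vl z ∈ OmL d.p d.C :=
  ⟨⟨cc_mem (rev_mem (d.WV.mem z hz.2)) (d.WU.mem z hz.1) d.WV.L_nonneg d.WU.L_nonneg,
    add_nonneg d.WV.L_nonneg d.WU.L_nonneg⟩, (add_comm _ _).le⟩

theorem vr_mem {z : M} (hz : z ∈ d.S) : d.vr z ∈ OmL d.p d.C :=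
  ⟨⟨cc_mem (rev_mem (d.WU.mem z hz.1)) (d.WV.mem z hz.2) d.WU.L_nonneg d.WV.L_nonneg,
    add_nonneg d.WU.L_nonneg d.WV.L_nonneg⟩, le_rfl⟩

theorem contTU : ContinuousOn d.WU.T d.S := d.WU.cont.mono inter_subset_left

theorem contTV : ContinuousOn d.WV.T d.S := d.WV.cont.mono inter_subset_right

theorem contOn_vl : ContinuousOn d.vl d.S := by
  refine ContinuousOn.prodMk ?_ continuousOn_const
  refine contOn_cc (c := fun _ => d.WV.L) ?_ d.contTU continuousOn_const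
    (fun x hx => (d.WU.mem _ hx.1).1) fun x hx => ?_
  · exact contOn_rev (s := fun _ => d.WV.L) d.contTV (fun x hx => (d.WV.mem _ hx.2).1)
      continuousOn_const
  · rw [rev, sub_self, (d.WV.mem _ hx.2).2.1 0 le_rfl, (d.WU.mem _ hx.1).2.1 0 le_rfl]

theorem contOn_vr : ContinuousOn d.vr d.S := by
  refine ContinuousOn.prodMk ?_ continuousOn_const
  refine contOn_cc (c := fun _ => d.WU.L) ?_ d.contTV continuousOn_const
    (fun x hx => (d.WV.mem _ hx.2).1) fun x hx => ?_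
  · exact contOn_rev (s := fun _ => d.WU.L) d.contTU (fun x hx => (d.WU.mem _ hx.1).1)
      continuousOn_const
  · rw [rev, sub_self, (d.WV.mem _ hx.2).2.1 0 le_rfl, (d.WU.mem _ hx.1).2.1 0 le_rfl]

/-- the generator of degree `k` -/
def xL : CE (LP M) := ph d.vl d.s

/-- its reversal -/
def xR : CE (LP M) := ph d.vr d.s

theorem xL_mem : d.xL ∈ CG (OmL d.p d.C) d.k :=
  ph_CG d.contOn_vl (fun z hz => d.vl_mem hz) d.HS.s_mem

theorem xR_mem : d.xR ∈ CG (OmL d.p d.C) d.k :=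
  ph_CG d.contOn_vr (fun z hz => d.vr_mem hz) d.HS.s_mem

theorem bd_xL : bdE _ d.xL = 0 := by rw [xL, bd_ph d.contOn_vl d.HS.s_mem.1, d.HS.s_bd, map_zero]

theorem bd_xR : bdE _ d.xR = 0 := by rw [xR, bd_ph d.contOn_vr d.HS.s_mem.1, d.HS.s_bd, map_zero]

/-- `(F, S), z ↦ (F v_z, v_z⁻¹ S)` -/
def muM (x : (LP M × LP M) × M) : LP M × LP M := (mulM (x.1.1, d.vl x.2), mulM (d.vr x.2, x.1.2))

theorem muM_mapsTo (t : ℝ) : MapsTo d.muM (A2 d.p t ×ˢ d.S) (A2 d.p (t + 2 * d.C)) := by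
  rintro ⟨⟨F, S'⟩, z⟩ ⟨⟨h1, h2, h3⟩, hz⟩
  have a := d.vl_mem hz
  have b := d.vr_mem hz
  refine ⟨mulM_mem h1 a.1, mulM_mem b.1 h2, ?_⟩
  have := a.2
  have := b.2
  show F.2 + (d.vl z).2 + ((d.vr z).2 + S'.2) ≤ t + 2 * d.C
  have h4 : F.2 + S'.2 ≤ t := h3
  linarith

theorem contOn_muM : ContinuousOn d.muM (A2A d.p ×ˢ d.S) :=
  (contOn_mulM (p := d.p) (Continuous.continuousOn (by fun_prop))
    (d.contOn_vl.comp continuousOn_snd fun x hx => hx.2) (fun _ h => h.1.1)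
    (fun _ h => (d.vl_mem h.2).1)).prodMk
  (contOn_mulM (p := d.p) (d.contOn_vr.comp continuousOn_snd fun x hx => hx.2)
    (Continuous.continuousOn (by fun_prop)) (fun _ h => (d.vr_mem h.2).1) (fun _ h => h.1.2))

/-- the homotopy from `G_c` to `μ ∘ (G_b, ev)` -/
def hGM (x : (LP M × ℝ) × ℝ) : LP M × LP M :=
  ((bt x.1.2 (x.2 * d.WV.L) (head x.1.2 x.1.1.1) (d.WV.T (evQ x.1)) (d.WU.T (evQ x.1)),
      x.1.2 + (x.2 * d.WV.L + (x.2 * d.WV.L + d.WU.L))),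
    (bt d.WU.L (x.2 * d.WV.L) (rev d.WU.L (d.WU.T (evQ x.1))) (d.WV.T (evQ x.1))
      (tail x.1.2 x.1.1.1),
      d.WU.L + (x.2 * d.WV.L + (x.2 * d.WV.L + (x.1.1.2 - x.1.2)))))

theorem contOn_hGM (t : ℝ) : ContinuousOn d.hGM (QS d.S d.p t ×ˢ Icc 0 1) := by
  set D : Set ((LP M × ℝ) × ℝ) := QS d.S d.p t ×ˢ Icc 0 1 with hD
  have hg : ContinuousOn (fun x : (LP M × ℝ) × ℝ => x.1.1.1) D :=
    Continuous.continuousOn (by fun_prop)
  have hL : ∀ x ∈ D, x.1.1.1 ∈ LL M := fun x hx => hx.1.1.1.1.1.1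
  have hs : ContinuousOn (fun x : (LP M × ℝ) × ℝ => x.1.2) D :=
    Continuous.continuousOn (by fun_prop)
  have hl : ContinuousOn (fun x : (LP M × ℝ) × ℝ => x.1.1.2) D :=
    Continuous.continuousOn (by fun_prop)
  have hr : ContinuousOn (fun x : (LP M × ℝ) × ℝ => x.2 * d.WV.L) D :=
    Continuous.continuousOn (by fun_prop)
  have he : ContinuousOn (fun x : (LP M × ℝ) × ℝ => evQ x.1) D :=
    (d.contEv _ t).comp continuousOn_fst fun x hx => hx.1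
  have hU : ContinuousOn (fun x : (LP M × ℝ) × ℝ => d.WU.T (evQ x.1)) D :=
    d.contTU.comp he fun x hx => hx.1.2
  have hV : ContinuousOn (fun x : (LP M × ℝ) × ℝ => d.WV.T (evQ x.1)) D :=
    d.contTV.comp he fun x hx => hx.1.2
  have hUm : ∀ x ∈ D, d.WU.T (evQ x.1) ∈ MP (evQ x.1) d.p d.WU.L := fun x hx =>
    d.WU.mem _ hx.1.2.1
  have hVm : ∀ x ∈ D, d.WV.T (evQ x.1) ∈ MP (evQ x.1) d.p d.WV.L := fun x hx =>
    d.WV.mem _ hx.1.2.2
  have hr0 : ∀ x ∈ D, 0 ≤ x.2 * d.WV.L := fun x hx => mul_nonneg hx.2.1 d.WV.L_nonneg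
  refine ContinuousOn.prodMk ?_ ?_
  · refine ContinuousOn.prodMk ?_ (hs.add (hr.add (hr.add continuousOn_const)))
    refine contOn_bt (y := fun x => evQ x.1) hs hr (contOn_head hg hL hs) hV hU hr0 ?_
      (fun x hx => (hVm x hx).1) (fun x hx => (hVm x hx).2.1 0 le_rfl)
      (fun x hx => (hUm x hx).1) (fun x hx => (hUm x hx).2.1 0 le_rfl)
    intro x hx
    rw [head, min_self]; rfl
  · refine ContinuousOn.prodMk ?_ (continuousOn_const.add (hr.add (hr.add (hl.sub hs))))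
    refine contOn_bt (l := fun _ => d.WU.L) (y := fun x => evQ x.1) continuousOn_const hr
      (contOn_rev (s := fun _ => d.WU.L) hU (fun x hx => (hUm x hx).1) continuousOn_const) hV
      (contOn_tail hg hL hs) hr0 ?_ (fun x hx => (hVm x hx).1)
      (fun x hx => (hVm x hx).2.1 0 le_rfl) (fun x hx => tail_LL (hL x hx) _) ?_
    · intro x hx
      rw [rev, sub_self]
      exact (hUm x hx).2.1 0 le_rfl
    · intro x hx
      rw [tail, max_self, zero_add]; rfl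

theorem hGM_mapsTo (t : ℝ) : MapsTo d.hGM (QS d.S d.p t ×ˢ Icc 0 1)
    (A2 d.p (t + 2 * d.WV.L + 2 * d.C)) := by
  rintro x ⟨⟨⟨⟨⟨hg, hl0⟩, hlt⟩, hs0, hsl⟩, hS⟩, hr0, hr1⟩
  have hU := d.WU.mem _ hS.1
  have hV := d.WV.mem _ hS.2
  have hr : 0 ≤ x.2 * d.WV.L := mul_nonneg hr0 d.WV.L_nonneg
  have hr' : x.2 * d.WV.L ≤ d.WV.L := by
    calc x.2 * d.WV.L ≤ 1 * d.WV.L := mul_le_mul_of_nonneg_right hr1 d.WV.L_nonneg
      _ = _ := one_mul _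
  have h1 := d.WU.L_nonneg
  have h2 := d.WV.L_nonneg
  refine ⟨⟨bt_mem (head_mem hg) hs0 hV hr hU h1, ?_⟩,
    ⟨bt_mem (rev_mem hU) h1 hV hr (tail_mem hg hsl) (sub_nonneg.2 hsl), ?_⟩, ?_⟩
  · show 0 ≤ x.1.2 + (x.2 * d.WV.L + (x.2 * d.WV.L + d.WU.L)); linarith
  · show 0 ≤ d.WU.L + (x.2 * d.WV.L + (x.2 * d.WV.L + (x.1.1.2 - x.1.2))); linarith
  · show x.1.2 + (x.2 * d.WV.L + (x.2 * d.WV.L + d.WU.L)) +
      (d.WU.L + (x.2 * d.WV.L + (x.2 * d.WV.L + (x.1.1.2 - x.1.2)))) ≤ _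
    unfold C
    linarith

theorem hGM_zero {x : LP M × ℝ} (hx : x ∈ QS d.S d.p t) : d.hGM (x, 0) = GG d.WU x := by
  have hU := d.WU.mem _ hx.2.1
  have hV := d.WV.mem _ hx.2.2
  have e0 : (0 : ℝ) * d.WV.L = 0 := zero_mul _
  refine Prod.ext (Prod.ext ?_ ?_) (Prod.ext ?_ ?_)
  · show bt x.2 (0 * d.WV.L) _ _ _ = _
    rw [e0, bt_zero (head_mem hx.1.1.1.1) hV hU]; rfl
  · show x.2 + (0 * d.WV.L + (0 * d.WV.L + d.WU.L)) = x.2 + d.WU.L
    rw [e0]; ring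
  · show bt d.WU.L (0 * d.WV.L) _ _ _ = _
    rw [e0, bt_zero (rev_mem hU) hV (tail_mem hx.1.1.1.1 hx.1.2.2)]; rfl
  · show d.WU.L + (0 * d.WV.L + (0 * d.WV.L + (x.1.2 - x.2))) = d.WU.L + (x.1.2 - x.2)
    rw [e0]; ring

theorem hGM_one {x : LP M × ℝ} (hx : x ∈ QS d.S d.p t) :
    d.hGM (x, 1) = d.muM (GG d.WV x, evQ x) := by
  have hU := d.WU.mem _ hx.2.1
  have hV := d.WV.mem _ hx.2.2
  have e0 : (1 : ℝ) * d.WV.L = d.WV.L := one_mul _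
  refine Prod.ext (Prod.ext ?_ ?_) (Prod.ext ?_ ?_)
  · show bt x.2 (1 * d.WV.L) _ _ _ = cc (x.2 + d.WV.L) (cc x.2 (head x.2 x.1.1)
      (d.WV.T (evQ x))) (cc d.WV.L (rev d.WV.L (d.WV.T (evQ x))) (d.WU.T (evQ x)))
    rw [e0, bt_full hV, cc_assoc _ _ _ d.WV.L_nonneg]
  · show x.2 + (1 * d.WV.L + (1 * d.WV.L + d.WU.L)) = x.2 + d.WV.L + (d.WV.L + d.WU.L)
    rw [e0]; ring
  · show bt d.WU.L (1 * d.WV.L) _ _ _ = cc (d.WU.L + d.WV.L)
      (cc d.WU.L (rev d.WU.L (d.WU.T (evQ x))) (d.WV.T (evQ x)))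
      (cc d.WV.L (rev d.WV.L (d.WV.T (evQ x))) (tail x.2 x.1.1))
    rw [e0, bt_full hV, cc_assoc _ _ _ d.WV.L_nonneg]
  · show d.WU.L + (1 * d.WV.L + (1 * d.WV.L + (x.1.2 - x.2))) =
      d.WU.L + d.WV.L + (d.WV.L + (x.1.2 - x.2))
    rw [e0]; ring

end Dat

end Crest.Agent.R231.P490x817
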