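import Crest.Agent.R231.P490D_817

/-!
# Row 231, block P, hedge (helper817), file E : relation (R)

`ι₁ y + ι₂ y ~ D(y) *₁ x + D(y) *₂ x` in `A2 (t + 12 C)`.
-/

set_option autoImplicit false
set_option linter.unusedSectionVars false
set_option linter.unusedVariables false

noncomputable section

open Function Topology Set

namespace Crest.Agent.R231.P490x817

open Crest.Agent.R204 Capx226 EZ271 Pairx877 SingAct265 CapCSx780 CrossCSx780
open Crest.Agent.R231.Moorex725 Crest.Agent.R231.CutMx725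

theorem ph_const_zero {E F : Type} [TopologicalSpace E] [TopologicalSpace F] (y : F) {c : CE E}
    (hc : c ∈ N.gr F2 (SS.Sing E) 0) : ph (fun _ : E => y) c = aug F2 c • vE y := by
  rw [Gr334.N_gr_eq_span] at hc
  refine Submodule.span_induction (p := fun z _ => ph (fun _ : E => y) z = aug F2 z • vE y)
    ?_ ?_ ?_ ?_ hc
  · rintro _ ⟨x, rfl⟩
    have h : Continuous (fun t : stdSimplex ℝ (Fin (0 + 1)) => (fun _ : E => y) (ev x t)) :=
      continuous_const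
    rw [ph_sx h, aug_sx_zero, one_smul]; rfl
  · rw [map_zero, map_zero, zero_smul]
  · intro a b _ _ ha hb; rw [map_add, map_add, ha, hb, add_smul]
  · intro r a _ ha; rw [map_smul, map_smul, ha, smul_smul]; rfl

theorem aug_pos {E : Type} [TopologicalSpace E] {n : ℕ} {c : CE E}
    (hc : c ∈ N.gr F2 (SS.Sing E) (n + 1)) : aug F2 c = 0 := by
  rw [Gr334.N_gr_eq_span] at hc
  refine Submodule.span_induction (p := fun t _ => aug F2 t = 0) ?_ ?_ ?_ ?_ hc
  · rintro _ ⟨x, rfl⟩; exact aug_sx_succ _ _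
  · exact map_zero _
  · intro x y _ _ hx hy; rw [map_add, hx, hy, add_zero]
  · intro r x _ hx; rw [map_smul, hx, smul_zero]

variable {M : Type} [PseudoMetricSpace M] (d : Dat M)

namespace Dat

variable {d} {t : ℝ} {j : ℕ} {y : CE (LP M)} {W : CE (LP M × LP M)}

/-- first form: Kuenneth and the pushed relation -/
theorem R_core (hy : y ∈ CG (OmL d.p t) j) (hy0 : bdE _ y = 0) (h : d.DD t j y W) :
    Hq (A2 d.p (t + 4 * d.C)) (ph (GG d.WU) (bdE _ (Ych y))) (op2 d.muM W d.s) := by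
  obtain ⟨m, hm, rfl⟩ := h
  have hmS := mS hy hy0 hm
  have hC := d.C_nonneg
  have hLU := d.LU_le
  have hLV := d.LV_le
  have hLU0 := d.WU.L_nonneg
  have hLV0 := d.WV.L_nonneg
  set T : ℝ := t + 2 * d.WV.L with hT
  set f : LP M × ℝ → (LP M × LP M) × M := fun q => (GG d.WV q, evQ q) with hf
  have cf : ContinuousOn f (QS d.S d.p t) :=
    ((d.contGV t).mono (d.QS_S_subV t)).prodMk (d.contEv _ t)
  have mf : MapsTo f (QS d.S d.p t) (A2 d.p T ×ˢ d.S) := fun q hq =>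
    ⟨GG_mem d.WV (d.QS_S_subV t hq), hq.2⟩
  have hw : ph f m ∈ CG (A2 d.p T ×ˢ d.S) j := ph_CG cf mf hmS
  have hw0 : bdE _ (ph f m) = 0 := by rw [bd_ph cf hmS.1, hm.bd, map_zero]
  have h1 := d.HS.kun (A := A2 d.p T) hw hw0
  have e1 : Dv d.v (ph f m) = d.Dop m := by
    have h3 : Dv d.v (ph f m) = ph Prod.fst (cap (d.v ∘ₗ ph Prod.snd) (ph f m)) := rfl
    rw [h3, cap_ph cf _ hmS.1, ph_ph cf (cap_mem_CS _ m hmS.1), Dop, LinearMap.comp_apply]
    congr 1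
    refine cap_congr_CS (X := QS d.S d.p t) (fun z hz => ?_) m hmS.1
    rw [LinearMap.comp_apply, LinearMap.comp_apply, LinearMap.comp_apply, ph_ph cf hz]
  have e2 : Hq (A2 d.p T ×ˢ d.S) (crE (ph Prod.fst (ph f m)) (vE d.z0)) 0 := by
    obtain ⟨zv, hzv, ezv⟩ := hm.eqV
    rw [ph_ph cf hmS.1]
    have e3 : ph (fun q => (f q).1) m = bdE _ (ph (GG d.WV) zv) := by
      rw [bd_ph (d.contGV t) hzv.1, ← ezv]
    rw [e3]
    have e4 : crE (bdE _ (ph (GG d.WV) zv)) (vE d.z0) =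
        bdE _ (crE (ph (GG d.WV) zv) (vE d.z0)) := by
      rw [bd_crE, bd_vE, map_zero, add_zero]
    rw [e4]
    exact Hq.bd (crE_mem (ph_mem (d.contGV t) (fun q hq => GG_mem d.WV hq) hzv.1)
      (vE_mem d.HS.z0_mem))
  rw [e1] at h1
  have h2 : Hq (A2 d.p T ×ˢ d.S) (ph f m) (crE (d.Dop m) d.s) := by
    refine h1.trans ((e2.add (Hq.refl _ _)).trans (Hq.of_eq (zero_add _)))
  -- push by `μ`
  have cmu : ContinuousOn d.muM (A2 d.p T ×ˢ d.S) :=
    d.contOn_muM.mono (prod_mono (A2_sub _) le_rfl)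
  have h3 := h2.ph cmu (d.muM_mapsTo T)
  rw [ph_ph cf hmS.1] at h3
  -- the homotopy
  have h4 : Hq (A2 d.p (t + 2 * d.WV.L + 2 * d.C)) (ph (GG d.WU) m)
      (ph (fun q => d.muM (f q)) m) :=
    Hq.htpy (d.contOn_hGM t) (d.hGM_mapsTo t) (fun x hx => d.hGM_zero hx)
      (fun x hx => d.hGM_one hx) hmS.1 hm.bd
  -- the other side
  obtain ⟨zu, hzu, ezu⟩ := hm.eqU
  have h5 : Hq (A2 d.p (t + 2 * d.WU.L)) (ph (GG d.WU) (bdE _ (Ych y))) (ph (GG d.WU) m) := by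
    refine ⟨ph (GG d.WU) zu, ph_mem (d.contGU t) (fun q hq => GG_mem d.WU hq) hzu.1, ?_⟩
    rw [bd_ph (d.contGU t) hzu.1, ezu, map_add, ← add_assoc, add_self, zero_add]
  refine (h5.mono (A2_mono (by linarith))).trans ?_
  refine (h4.mono (A2_mono (by linarith))).trans ?_
  exact h3.mono (A2_mono (by linarith))

/-! ### the ends -/

/-- `(x, constant loop of length r)` -/
def i1M (p : M) (x : LP M × ℝ) : LP M × LP M := ((x.1.1, x.1.2 + x.2), kap p x.2)
/-- `(constant loop of length r, x)` -/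
def i2M (p : M) (x : LP M × ℝ) : LP M × LP M := (kap p x.2, mulM (kap p x.2, x.1))

theorem GU_top {x : LP M} (hx : x ∈ OmA d.p) : GG d.WU (x, x.2) = i1M d.p (x, d.WU.L) := by
  have h1 : x.1 x.2 = d.p := hx.1.2.2 _ le_rfl
  refine Prod.ext (Prod.ext ?_ rfl) (Prod.ext ?_ ?_)
  · show cc x.2 (head x.2 x.1) (d.WU.T (x.1 x.2)) = x.1
    rw [h1, d.cp, head_of_ge hx.1 le_rfl, cc_const_right hx.1]
  · show cc d.WU.L (rev d.WU.L (d.WU.T (x.1 x.2))) (tail x.2 x.1) = fun _ => d.p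
    rw [h1, d.cp, tail_of_ge hx.1 le_rfl]
    funext s
    unfold cc rev
    split_ifs <;> rfl
  · show d.WU.L + (x.2 - x.2) = d.WU.L
    ring

theorem GU_bot {x : LP M} (hx : x ∈ OmA d.p) : GG d.WU (x, 0) = i2M d.p (x, d.WU.L) := by
  have h1 : x.1 0 = d.p := hx.1.2.1 _ le_rfl
  refine Prod.ext (Prod.ext ?_ ?_) (Prod.ext ?_ ?_)
  · show cc 0 (head 0 x.1) (d.WU.T (x.1 0)) = fun _ => d.p
    rw [h1, d.cp, head_of_le hx.1 le_rfl]
    funext s
    unfold cc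
    split_ifs <;> rfl
  · show 0 + d.WU.L = d.WU.L
    ring
  · show cc d.WU.L (rev d.WU.L (d.WU.T (x.1 0))) (tail 0 x.1) = cc d.WU.L (fun _ => d.p) x.1
    rw [h1, d.cp, tail_zero hx.1]
    rfl
  · show d.WU.L + (x.2 - 0) = d.WU.L + x.2
    ring

theorem contOn_i1M (p : M) : Continuous (i1M p) := by unfold i1M kap; fun_prop

theorem contOn_i2M (p : M) : ContinuousOn (i2M p) (OmA p ×ˢ Ici 0) := by
  refine ContinuousOn.prodMk (Continuous.continuousOn (by unfold kap; fun_prop))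
    (contOn_mulM (p := p) (Continuous.continuousOn (by unfold kap; fun_prop))
    (Continuous.continuousOn (by fun_prop)) (fun x hx => kap_mem hx.2) (fun x hx => hx.1))

theorem ends_one (hy : y ∈ CG (OmL d.p t) j) (hy0 : bdE _ y = 0) :
    Hq (A2 d.p (t + 2 * d.C)) (ph (fun x => (x, oneL d.p)) y + ph (fun x => (oneL d.p, x)) y)
      (ph (GG d.WU) (bdE _ (Ych y))) := by
  have hLU0 := d.WU.L_nonneg
  have hLU := d.LU_le
  rw [bd_Ych hy hy0, map_add, ph_ph (X := univ) (Continuous.continuousOn (by fun_prop))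
    (mem_CS_univ y), ph_ph (X := univ) (Continuous.continuousOn (by fun_prop)) (mem_CS_univ y)]
  have hr : ∀ r ∈ Icc (0 : ℝ) 1, 0 ≤ r * d.WU.L ∧ r * d.WU.L ≤ d.WU.L := fun r hr =>
    ⟨mul_nonneg hr.1 hLU0, by
      calc r * d.WU.L ≤ 1 * d.WU.L := mul_le_mul_of_nonneg_right hr.2 hLU0
        _ = _ := one_mul _⟩
  refine Hq.add ?_ ?_
  · refine Hq.htpy (H := fun x : LP M × ℝ => i1M d.p (x.1, x.2 * d.WU.L)) (X := OmL d.p t)
      ((contOn_i1M d.p).comp (by fun_prop : Continuous fun x : LP M × ℝ =>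
        ((x.1, x.2 * d.WU.L) : LP M × ℝ))).continuousOn ?_ ?_ ?_ hy.1 hy0
    · rintro ⟨x, r⟩ ⟨hx, hrr⟩
      obtain ⟨h1, h2⟩ := hr r hrr
      have h3 : x.2 ≤ t := hx.2
      have h4 : 0 ≤ x.2 := hx.1.2
      refine ⟨⟨MP_mono _ _ ?_ hx.1.1, ?_⟩, kap_mem h1, ?_⟩
      · show x.2 ≤ x.2 + r * d.WU.L; linarith
      · show 0 ≤ x.2 + r * d.WU.L; linarith
      · show x.2 + r * d.WU.L + r * d.WU.L ≤ t + 2 * d.C; linarith
    · intro x hx
      show ((x.1, x.2 + 0 * d.WU.L), kap d.p (0 * d.WU.L)) = (x, oneL d.p)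
      rw [zero_mul, add_zero]; rfl
    · intro x hx
      show i1M d.p (x, 1 * d.WU.L) = GG d.WU (x, x.2)
      rw [one_mul, GU_top hx.1]
  · refine Hq.htpy (H := fun x : LP M × ℝ => i2M d.p (x.1, x.2 * d.WU.L)) (X := OmL d.p t)
      ((contOn_i2M d.p).comp (Continuous.continuousOn (by fun_prop : Continuous
        fun x : LP M × ℝ => ((x.1, x.2 * d.WU.L) : LP M × ℝ))) ?_) ?_ ?_ ?_ hy.1 hy0
    · rintro ⟨x, r⟩ ⟨hx, hrr⟩
      exact ⟨hx.1, (hr r hrr).1⟩
    · rintro ⟨x, r⟩ ⟨hx, hrr⟩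
      obtain ⟨h1, h2⟩ := hr r hrr
      have h3 : x.2 ≤ t := hx.2
      have h4 : 0 ≤ x.2 := hx.1.2
      refine ⟨kap_mem h1, mulM_mem (kap_mem h1) hx.1, ?_⟩
      show r * d.WU.L + (r * d.WU.L + x.2) ≤ t + 2 * d.C; linarith
    · intro x hx
      show (kap d.p (0 * d.WU.L), mulM (kap d.p (0 * d.WU.L), x)) = (oneL d.p, x)
      rw [zero_mul, kap_zero, one_mulM hx.1]
    · intro x hx
      show i2M d.p (x, 1 * d.WU.L) = GG d.WU (x, 0)
      rw [one_mul, GU_bot hx.1]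

/-- relation (R), first form -/
theorem R0 (hy : y ∈ CG (OmL d.p t) j) (hy0 : bdE _ y = 0) (h : d.DD t j y W) :
    Hq (A2 d.p (t + 4 * d.C)) (ph (fun x => (x, oneL d.p)) y + ph (fun x => (oneL d.p, x)) y)
      (op2 d.muM W d.s) := by
  have hC := d.C_nonneg
  exact ((ends_one hy hy0).mono (A2_mono (by linarith))).trans (R_core hy hy0 h)

/-! ### degree zero -/

theorem fst_mapsTo (t : ℝ) {p : M} : MapsTo (Prod.fst : LP M × LP M → LP M) (A2 p t) (OmL p t) :=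
  fun x hx => ⟨hx.1, by have h1 := hx.2.2; have h2 : 0 ≤ x.2.2 := hx.2.1.2; linarith⟩

theorem snd_mapsTo (t : ℝ) {p : M} : MapsTo (Prod.snd : LP M × LP M → LP M) (A2 p t) (OmL p t) :=
  fun x hx => ⟨hx.2.1, by have h1 := hx.2.2; have h2 : 0 ≤ x.1.2 := hx.1.2; linarith⟩

/-- `fst_*` of the left side of (R) -/
theorem fst_ends (y : CE (LP M)) : ph Prod.fst (ph (fun x => (x, oneL d.p)) y +
    ph (fun x => (oneL d.p, x)) y) = y + ph (fun _ => oneL d.p) y := by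
  rw [map_add, ph_ph (X := univ) (Continuous.continuousOn (by fun_prop)) (mem_CS_univ y),
    ph_ph (X := univ) (Continuous.continuousOn (by fun_prop)) (mem_CS_univ y)]
  congr 1
  exact ph_id y

/-- the loop space is connected, with a bounded loss of level -/
theorem conn (hy : y ∈ CG (OmL d.p t) 0) :
    Hq (OmL d.p (t + 4 * d.C)) y (aug F2 y • vE (oneL d.p)) := by
  have hy0 := bd_CG_zero hy
  obtain ⟨W, hW⟩ := DD.exists hy hy0
  have hW0 : W = 0 := hW.zero d.HS.pos hy hy0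
  have h1 := (R0 hy hy0 hW).ph (X := A2 d.p (t + 4 * d.C)) (f := Prod.fst) continuousOn_fst
    (fst_mapsTo _)
  rw [fst_ends, hW0, op2_zero_left, map_zero, ph_const_zero _ hy.2] at h1
  refine h1.move.trans (Hq.of_eq (add_zero _))

theorem conn_pt {w : LP M} (hw : w ∈ OmL d.p t) :
    Hq (OmL d.p (t + 4 * d.C)) (vE w) (vE (oneL d.p)) := by
  have := conn (vE_CG hw)
  rwa [aug_vE, one_smul] at this

/-! ### the primitive class -/

theorem contOn_vlr : ContinuousOn (fun z => (d.vl z, d.vr z)) d.S := d.contOn_vl.prodMk d.contOn_vr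

theorem prim : Hq (OmL d.p (5 * d.C) ×ˢ OmL d.p (5 * d.C)) (ph (fun z => (d.vl z, d.vr z)) d.s)
    (crE d.xL (vE (oneL d.p)) + crE (vE (oneL d.p)) d.xR) := by
  have hC := d.C_nonneg
  have h1 := d.HS.diag
  have cf : ContinuousOn (fun x : M × M => (d.vl x.1, d.vr x.2)) (d.S ×ˢ d.S) :=
    (d.contOn_vl.comp continuousOn_fst fun x hx => hx.1).prodMk
      (d.contOn_vr.comp continuousOn_snd fun x hx => hx.2)
  have h2 := h1.ph (Z := OmL d.p (5 * d.C) ×ˢ OmL d.p (5 * d.C)) cf (fun x hx =>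
    ⟨OmL_mono (by linarith) (d.vl_mem hx.1), OmL_mono (by linarith) (d.vr_mem hx.2)⟩)
  rw [ph_ph (X := d.S) (Continuous.continuousOn (by fun_prop)) d.HS.s_mem.1, map_add,
    ph_crE d.contOn_vl d.contOn_vr d.HS.s_mem.1 (vE_mem d.HS.z0_mem),
    ph_crE d.contOn_vl d.contOn_vr (vE_mem d.HS.z0_mem) d.HS.s_mem.1, ph_vE, ph_vE] at h2
  refine h2.trans (Hq.add ?_ ?_)
  · refine Hq.crE_right ?_ (CS_mono (OmL_mono (by linarith)) d.xL_mem.1) d.bd_xL
    refine (conn_pt (d.vr_mem d.HS.z0_mem)).mono (OmL_mono (by linarith))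
  · refine Hq.crE_left ?_ (CS_mono (OmL_mono (by linarith)) d.xR_mem.1) d.bd_xR
    refine (conn_pt (d.vl_mem d.HS.z0_mem)).mono (OmL_mono (by linarith))

theorem mulM_mapsTo {p : M} (a b : ℝ) : MapsTo (mulM (M := M)) (OmL p a ×ˢ OmL p b)
    (OmL p (a + b)) := fun x hx => mulM_mem_L hx.1 hx.2

theorem contOn_mulML {p : M} (a b : ℝ) : ContinuousOn (mulM (M := M)) (OmL p a ×ˢ OmL p b) :=
  contOn_mulM'.mono (prod_mono (OmL_sub _) (OmL_sub _))

variable (d) in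
/-- homotopy from `b⁻¹ b` to `v v⁻¹` -/
def hA (x : M × ℝ) : LP M :=
  (bt d.WV.L (x.2 * d.WU.L) (rev d.WV.L (d.WV.T x.1)) (d.WU.T x.1) (d.WV.T x.1),
    d.WV.L + (x.2 * d.WU.L + (x.2 * d.WU.L + d.WV.L)))

variable (d) in
/-- homotopy from the constant to `b⁻¹ b` -/
def hB (x : M × ℝ) : LP M :=
  (bt 0 (x.2 * d.WV.L) (fun _ => d.p) (rev d.WV.L (d.WV.T x.1)) (fun _ => d.p),
    0 + (x.2 * d.WV.L + (x.2 * d.WV.L + 0)))

/-- `v v⁻¹ ~ 1` -/
theorem vv_one : Hq (OmL d.p (4 * d.C)) (ph (fun z => mulM (d.vl z, d.vr z)) d.s) 0 := by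
  have hC := d.C_nonneg
  have hLU := d.LU_le
  have hLV := d.LV_le
  have hLU0 := d.WU.L_nonneg
  have hLV0 := d.WV.L_nonneg
  have hr : ∀ L : ℝ, 0 ≤ L → ∀ r ∈ Icc (0 : ℝ) 1, 0 ≤ r * L ∧ r * L ≤ L := fun L hL r hr =>
    ⟨mul_nonneg hr.1 hL, by
      calc r * L ≤ 1 * L := mul_le_mul_of_nonneg_right hr.2 hL
        _ = _ := one_mul _⟩
  have hU : ∀ z ∈ d.S, d.WU.T z ∈ MP z d.p d.WU.L := fun z hz => d.WU.mem _ hz.1
  have hV : ∀ z ∈ d.S, d.WV.T z ∈ MP z d.p d.WV.L := fun z hz => d.WV.mem _ hz.2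
  have cU : ContinuousOn (fun x : M × ℝ => d.WU.T x.1) (d.S ×ˢ Icc 0 1) :=
    d.contTU.comp continuousOn_fst fun x hx => hx.1
  have cV : ContinuousOn (fun x : M × ℝ => d.WV.T x.1) (d.S ×ˢ Icc 0 1) :=
    d.contTV.comp continuousOn_fst fun x hx => hx.1
  have cVr : ContinuousOn (fun x : M × ℝ => rev d.WV.L (d.WV.T x.1)) (d.S ×ˢ Icc 0 1) :=
    contOn_rev (s := fun _ => d.WV.L) cV (fun x hx => (hV _ hx.1).1) continuousOn_const
  -- first homotopy
  have h1 : Hq (OmL d.p (4 * d.C))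
      (ph (fun z => (cc d.WV.L (rev d.WV.L (d.WV.T z)) (d.WV.T z), d.WV.L + d.WV.L)) d.s)
      (ph (fun z => mulM (d.vl z, d.vr z)) d.s) := by
    refine Hq.htpy (H := d.hA) (X := d.S) ?_ ?_ ?_ ?_ d.HS.s_mem.1 d.HS.s_bd
    · refine ContinuousOn.prodMk ?_ (Continuous.continuousOn (by fun_prop))
      refine contOn_bt (l := fun _ => d.WV.L) (y := fun x => x.1) continuousOn_const
        (Continuous.continuousOn (by fun_prop)) cVr cU cV
        (fun x hx => (hr _ hLU0 _ hx.2).1) ?_ (fun x hx => (hU _ hx.1).1)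
        (fun x hx => (hU _ hx.1).2.1 0 le_rfl) (fun x hx => (hV _ hx.1).1)
        (fun x hx => (hV _ hx.1).2.1 0 le_rfl)
      intro x hx
      rw [rev, sub_self]; exact (hV _ hx.1).2.1 0 le_rfl
    · rintro ⟨z, r⟩ ⟨hz, hrr⟩
      obtain ⟨a1, a2⟩ := hr _ hLU0 r hrr
      refine ⟨⟨bt_mem (rev_mem (hV z hz)) hLV0 (hU z hz) a1 (hV z hz) hLV0, ?_⟩, ?_⟩
      · show 0 ≤ d.WV.L + (r * d.WU.L + (r * d.WU.L + d.WV.L)); linarith
      · show d.WV.L + (r * d.WU.L + (r * d.WU.L + d.WV.L)) ≤ 4 * d.C; linarith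
    · intro z hz
      refine Prod.ext ?_ ?_
      · show bt _ (0 * d.WU.L) _ _ _ = _
        rw [zero_mul, bt_zero (rev_mem (hV z hz)) (hU z hz) (hV z hz)]
      · show d.WV.L + (0 * d.WU.L + (0 * d.WU.L + d.WV.L)) = d.WV.L + d.WV.L
        ring
    · intro z hz
      refine Prod.ext ?_ ?_
      · show bt _ (1 * d.WU.L) _ _ _ = cc (d.WV.L + d.WU.L) (cc d.WV.L (rev d.WV.L (d.WV.T z))
          (d.WU.T z)) (cc d.WU.L (rev d.WU.L (d.WU.T z)) (d.WV.T z))
        rw [one_mul, bt_full (hU z hz), cc_assoc _ _ _ hLU0]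
      · show d.WV.L + (1 * d.WU.L + (1 * d.WU.L + d.WV.L)) =
          d.WV.L + d.WU.L + (d.WU.L + d.WV.L)
        ring
  -- second homotopy
  have h2 : Hq (OmL d.p (4 * d.C)) (ph (fun _ => oneL d.p) d.s)
      (ph (fun z => (cc d.WV.L (rev d.WV.L (d.WV.T z)) (d.WV.T z), d.WV.L + d.WV.L)) d.s) := by
    refine Hq.htpy (H := d.hB) (X := d.S) ?_ ?_ ?_ ?_ d.HS.s_mem.1 d.HS.s_bd
    · refine ContinuousOn.prodMk ?_ (Continuous.continuousOn (by fun_prop))
      refine contOn_bt (l := fun _ => 0) (P := fun _ _ => d.p) (Q := fun _ _ => d.p)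
        (y := fun _ => d.p) continuousOn_const
        (Continuous.continuousOn (by fun_prop)) continuousOn_const cVr continuousOn_const
        (fun x hx => (hr _ hLV0 _ hx.2).1) (fun _ _ => rfl) (fun x hx => (rev_mem (hV _ hx.1)).1)
        (fun x hx => (rev_mem (hV _ hx.1)).2.1 0 le_rfl) (fun x hx => (const_mem_MP d.p 0).1)
        (fun x hx => rfl)
    · rintro ⟨z, r⟩ ⟨hz, hrr⟩
      obtain ⟨a1, a2⟩ := hr _ hLV0 r hrr
      refine ⟨⟨bt_mem (const_mem_MP d.p 0) le_rfl (rev_mem (hV z hz)) a1 (const_mem_MP d.p 0)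
        le_rfl, ?_⟩, ?_⟩
      · show 0 ≤ 0 + (r * d.WV.L + (r * d.WV.L + 0)); linarith
      · show 0 + (r * d.WV.L + (r * d.WV.L + 0)) ≤ 4 * d.C; linarith
    · intro z hz
      refine Prod.ext ?_ ?_
      · show bt 0 (0 * d.WV.L) _ _ _ = fun _ => d.p
        rw [zero_mul, bt_zero (const_mem_MP d.p 0) (rev_mem (hV z hz)) (const_mem_MP d.p 0),
          cc_const_left (const_mem_MP d.p 0)]
      · show 0 + (0 * d.WV.L + (0 * d.WV.L + 0)) = 0
        ring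
    · intro z hz
      refine Prod.ext ?_ ?_
      · show bt 0 (1 * d.WV.L) _ _ _ = _
        rw [one_mul, bt_full (rev_mem (hV z hz)), rev_rev, cc_const_right (hV z hz)]
        exact cc_const_left (cc_mem (rev_mem (hV z hz)) (hV z hz) hLV0 hLV0)
      · show 0 + (1 * d.WV.L + (1 * d.WV.L + 0)) = d.WV.L + d.WV.L
        ring
  have h3 : ph (fun _ : M => oneL d.p) d.s = 0 := by
    obtain ⟨n, hn⟩ : ∃ n, d.k = n + 1 := ⟨d.k - 1, by have := d.HS.pos; omega⟩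
    exact ph_const_pos (n := n) (oneL d.p) (hn ▸ d.HS.s_mem.2)
  rw [h3] at h2
  exact (h2.trans h1).symm

/-- the class `x` is its own reversal -/
theorem xL_xR : Hq (OmL d.p (10 * d.C)) d.xL d.xR := by
  have hC := d.C_nonneg
  have h1 := (prim (d := d)).ph (contOn_mulML _ _) (mulM_mapsTo _ _)
  rw [ph_ph contOn_vlr d.HS.s_mem.1, map_add] at h1
  have e1 : ph mulM (crE d.xL (vE (oneL d.p))) = d.xL := by
    rw [← op2_def, op2_vE_right]
    have : ph (fun x : LP M => mulM (x, oneL d.p)) d.xL = ph (fun x => x) d.xL :=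
      ph_congr (X := OmL d.p d.C) (fun x hx => mulM_one hx.1) d.xL_mem.1
    rw [this, ph_id]
  have e2 : ph mulM (crE (vE (oneL d.p)) d.xR) = d.xR := by
    rw [← op2_def, op2_vE_left]
    have : ph (fun x : LP M => mulM (oneL d.p, x)) d.xR = ph (fun x => x) d.xR :=
      ph_congr (X := OmL d.p d.C) (fun x hx => one_mulM hx.1) d.xR_mem.1
    rw [this, ph_id]
  rw [e1, e2] at h1
  have h2 := ((vv_one (d := d)).mono (OmL_mono (by linarith : 4 * d.C ≤ 10 * d.C)))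
  have h3 := (h1.mono (OmL_mono (by linarith : 5 * d.C + 5 * d.C ≤ 10 * d.C))).symm.trans h2
  exact h3.move.trans (Hq.of_eq (add_zero _))

end Dat

end Crest.Agent.R231.P490x817
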