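import Crest.Agent.R231.PsiX_733
import Crest.Agent.R231.CutS_969

/-!
# Row 231 (S0357), block P closed: `POut n (SG g)` and the infinitude (helper733)
-/

set_option autoImplicit false

noncomputable section

open Set NNReal

namespace Crest.Agent.R231.POutSx733

open Crest.Agent.R204 Crest.Agent.R231.FinDim315 Crest.Agent.R231.GeoBasex724
  Crest.Agent.R231.SphQx543 Crest.Agent.R231.Levx969 Crest.Agent.R231.LevInstx969
  Crest.Agent.R231.CutIx969 Crest.Agent.R231.RelRx749 Crest.Agent.R231.CutSx969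

variable {n : ℕ} [NeZero n]

/-- `Ψ_*(E × σ) = x E + E x` on the sphere -/
theorem psiS (hn : 2 ≤ n) (g : Met n) :
    LamInstx733.PsiX (PsiXx733.fd (tdS hn g)) (cutS hn g) :=
  PsiXx733.psiX (tdS hn g) (cutS hn g) ⟨(tdS hn g).a, le_rfl, le_rfl, rfl⟩

/-- **BLOCK P** -/
theorem pout_SG (hn : 2 ≤ n) (g : Met n) : IfPTx200.POut n (SG g) :=
  LamInstx733.pout hn (PsiXx733.fd (tdS hn g)) (cutS hn g) 1 (psiS hn g) (hasThS hn g)

end Crest.Agent.R231.POutSx733
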