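import Crest.Agent.R231.End2_475
import Crest.Agent.R231.CutS_969

/-!
# Row 231 (S0357): output `POuts` of block P for the spheres, from the coarse Wang sequence (helper475)
-/

set_option autoImplicit false
set_option linter.unusedSectionVars false

noncomputable section

open Crest.Agent.R204

namespace Crest.Agent.R231.POutsSx475

open CutSx969 SphQx543 GeoBasex724 BDAx969 Instx895 Asmx895 WgOutx525 End2x475

variable {n : ℕ} [NeZero n]

/-- **output of block P for the spheres** -/
def poutsS (hn : 2 ≤ n) (g : Met n)
    (W : WangOut (YO (M := SG g) (pp g)) (mix (SG g)) (FF (SG g)) (n - 1 + 1) (iO (pp g))) :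
    POuts (SG g) (n - 1) :=
  pouts_of (by omega) (cutS hn g) 1 (hasThS hn g) W

end Crest.Agent.R231.POutsSx475
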