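import Crest.Agent.R231.CrossCS_780
import Crest.Agent.R231.SplitR2_737
import Crest.Agent.R231.FinDim_315
import Crest.Agent.R231.PairH_877

/-!
# Row 231, block P, leaf Q3 (helper607): localised cap product on absolute homology

`LCap Y Z` : a space `Y` covered by `W` and `V`, a cochain `u` on `Y` which vanishes on `W` and is a
cocycle on `V`, and a map `S : V → Z`.  `L.phi : HS Y → HS Z`, `[z] ↦ S_*[cap u z]` for small `z`.

* `phi_mk` : value on small cycles; `phi_nat` : naturality;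
* `phi_crE_right` : compatibility with `× b`; `phi_crE_left_eq_zero` : vanishing on `b × w` if
  `deg u < deg b`;
* `phi_mem_gr`, `phi_gr_eq_zero` : degrees; `aug_phi` : the value in degree `0`.
-/

set_option autoImplicit false

noncomputable section

namespace Crest.Agent.R231.PhiMkx607

open Crest.Agent.R204 Capx226 EZ271 Pairx877 SingAct265 CapCSx780 CrossCSx780 FinDim315 SpecA
open Function Topology

/-- data of a localised cap product -/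
structure LCap (Y Z : Type) [TopologicalSpace Y] [TopologicalSpace Z] where
  W : Set Y
  V : Set Y
  cov : ∀ y, W ∈ 𝓝 y ∨ V ∈ 𝓝 y
  u : Co (SS.Sing Y)
  cyc : ∀ z ∈ CS V, u (bdE Y z) = 0
  van : ∀ z ∈ CS W, u z = 0
  S : C(V, Z)

namespace LCap

variable {Y Z Y' Z' A : Type} [TopologicalSpace Y] [TopologicalSpace Z] [TopologicalSpace Y']
  [TopologicalSpace Z'] [TopologicalSpace A] (L : LCap Y Z)

/-- small chains -/
def sm : Submodule F2 (CE Y) := CS L.W ⊔ CS L.V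

theorem bd_sm {z : CE Y} (hz : z ∈ L.sm) : bdE Y z ∈ L.sm := by
  obtain ⟨a, ha, b, hb, rfl⟩ := Submodule.mem_sup.1 hz
  rw [map_add]
  exact Submodule.mem_sup.2 ⟨_, bd_mem_CS a ha, _, bd_mem_CS b hb, rfl⟩

theorem union_eq : L.W ∪ L.V = Set.univ := by
  refine Set.eq_univ_of_forall fun y => ?_
  rcases L.cov y with h | h
  · exact Or.inl (mem_of_mem_nhds h)
  · exact Or.inr (mem_of_mem_nhds h)

theorem exists_small {c : CE Y} (hd : bdE Y c ∈ L.sm) : ∃ w, c + bdE Y w ∈ L.sm := by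
  have hc : c ∈ CS (L.W ∪ L.V) := by rw [L.union_eq, CS_univ]; trivial
  obtain ⟨w, _, hw⟩ := SplitR2x737.small (fun y _ => (L.cov y).imp mem_nhdsWithin_of_mem_nhds
    mem_nhdsWithin_of_mem_nhds) hc hd
  exact ⟨w, hw⟩

/-- the chain level operator -/
def op : CE Y →ₗ[F2] CE Z := N.map F2 (SS.SingMap L.S) ∘ₗ res L.V ∘ₗ cap L.u

theorem op_apply (z : CE Y) : L.op z = N.map F2 (SS.SingMap L.S) (res L.V (cap L.u z)) := rfl

theorem cap_mem {z : CE Y} (hz : z ∈ L.sm) : cap L.u z ∈ CS L.V := cap_small L.van hz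

theorem bd_op {z : CE Y} (hz : z ∈ L.sm) : bdE Z (L.op z) = L.op (bdE Y z) := by
  rw [op_apply, op_apply, ← bd_cap_small L.van L.cyc hz, ← bd_res _ (L.cap_mem hz)]
  exact (LinearMap.congr_fun (N.map_bd (R := F2) (SS.SingMap L.S)) _).symm

theorem exists_rep (x : HS Y) : ∃ z, ∃ hz : bdE Y z = 0, z ∈ L.sm ∧ x = Hd.mk _ z hz := by
  obtain ⟨z, hz, rfl⟩ := Hd.mk_surj _ x
  obtain ⟨w, hw⟩ := L.exists_small (c := z) (by
    have : bdE Y z = 0 := hz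
    rw [this]; exact Submodule.zero_mem _)
  have h2 : bdE Y (z + bdE Y w) = 0 := by
    rw [map_add, bd_bdE, add_zero]; exact hz
  refine ⟨z + bdE Y w, h2, hw, Hd.mk_eq_mk.2 ⟨w, ?_⟩⟩
  rw [sub_eq, ← add_assoc, add_self, zero_add]

theorem op_cyc {z : CE Y} (hz : bdE Y z = 0) (hs : z ∈ L.sm) : bdE Z (L.op z) = 0 := by
  rw [L.bd_op hs, hz, map_zero]

theorem op_wd {z z' : CE Y} (hz : bdE Y z = 0) (hs : z ∈ L.sm) (hz' : bdE Y z' = 0)
    (hs' : z' ∈ L.sm) (h : Hd.mk (N.bd F2 (SS.Sing Y)) z hz = Hd.mk _ z' hz') :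
    Hd.mk (N.bd F2 (SS.Sing Z)) (L.op z) (L.op_cyc hz hs) = Hd.mk _ (L.op z') (L.op_cyc hz' hs') := by
  obtain ⟨w, hw⟩ := Hd.mk_eq_mk.1 h
  have hw' : bdE Y w = z - z' := hw
  obtain ⟨e, he⟩ := L.exists_small (c := w) (by rw [hw']; exact Submodule.sub_mem _ hs hs')
  refine Hd.mk_eq_mk.2 ⟨L.op (w + bdE Y e), ?_⟩
  have h1 := L.bd_op he
  have h2 : bdE Y (w + bdE Y e) = z - z' := by rw [map_add, bd_bdE, add_zero, hw']
  rw [h2, map_sub] at h1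
  exact h1

/-- a small representative -/
def rep (x : HS Y) : CE Y := (L.exists_rep x).choose

theorem rep_cyc (x : HS Y) : bdE Y (L.rep x) = 0 := (L.exists_rep x).choose_spec.choose

theorem rep_sm (x : HS Y) : L.rep x ∈ L.sm := (L.exists_rep x).choose_spec.choose_spec.1

theorem rep_mk (x : HS Y) : x = Hd.mk _ (L.rep x) (L.rep_cyc x) :=
  (L.exists_rep x).choose_spec.choose_spec.2

/-- the localised cap product -/
def phi0 (x : HS Y) : HS Z := Hd.mk _ (L.op (L.rep x)) (L.op_cyc (L.rep_cyc x) (L.rep_sm x))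

theorem phi0_mk {z : CE Y} (hz : bdE Y z = 0) (hs : z ∈ L.sm) :
    L.phi0 (Hd.mk _ z hz) = Hd.mk _ (L.op z) (L.op_cyc hz hs) :=
  L.op_wd (L.rep_cyc _) (L.rep_sm _) hz hs (L.rep_mk (Hd.mk _ z hz)).symm

/-- the localised cap product -/
def phi : HS Y →ₗ[F2] HS Z where
  toFun := L.phi0
  map_add' x y := by
    have h : x + y = Hd.mk _ (L.rep x + L.rep y)
        (by rw [map_add, L.rep_cyc x, L.rep_cyc y, add_zero]) := by
      conv_lhs => rw [L.rep_mk x, L.rep_mk y]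
      rfl
    rw [h, L.phi0_mk _ (Submodule.add_mem _ (L.rep_sm x) (L.rep_sm y))]
    refine Hd.mk_eq_mk.2 ⟨0, ?_⟩
    rw [map_zero, map_add, sub_self]
  map_smul' r x := by
    have h : r • x = Hd.mk _ (r • L.rep x) (by rw [map_smul, L.rep_cyc x, smul_zero]) := by
      conv_lhs => rw [L.rep_mk x]
      rfl
    rw [h, L.phi0_mk _ (Submodule.smul_mem _ r (L.rep_sm x))]
    refine Hd.mk_eq_mk.2 ⟨0, ?_⟩
    rw [map_zero, map_smul]
    exact (sub_self _).symm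

theorem phi_mk {z : CE Y} (hz : bdE Y z = 0) (hs : z ∈ L.sm) :
    L.phi (Hd.mk _ z hz) = Hd.mk _ (L.op z) (L.op_cyc hz hs) := L.phi0_mk hz hs

/-- the part of the operator with values in `V` -/
def op1 : CE Y →ₗ[F2] CE L.V := res L.V ∘ₗ cap L.u

theorem op_eq (z : CE Y) : L.op z = N.map F2 (SS.SingMap L.S) (L.op1 z) := rfl

theorem op1_cyc {z : CE Y} (hz : bdE Y z = 0) (hs : z ∈ L.sm) : bdE L.V (L.op1 z) = 0 := by
  rw [op1, LinearMap.comp_apply, bd_res _ (L.cap_mem hs), bd_cap_small L.van L.cyc hs, hz,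
    map_zero, map_zero]

theorem phi_mk' {z : CE Y} (hz : bdE Y z = 0) (hs : z ∈ L.sm) :
    L.phi (Hd.mk _ z hz) = Hm L.S (Hd.mk _ (L.op1 z) (L.op1_cyc hz hs)) := L.phi_mk hz hs

/-! ### naturality -/

theorem map_bdE (f : C(Y, Y')) (z : CE Y) :
    bdE Y' (N.map F2 (SS.SingMap f) z) = N.map F2 (SS.SingMap f) (bdE Y z) :=
  (LinearMap.congr_fun (N.map_bd (R := F2) (SS.SingMap f)) z).symm

theorem map_CS (f : C(Y, Y')) {X : Set Y} {X' : Set Y'} (h : ∀ y ∈ X, f y ∈ X') :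
    ∀ c ∈ CS X, N.map F2 (SS.SingMap f) c ∈ CS X' := by
  refine map_mem_of_CS fun n σ hσ => ?_
  rw [N.map_sx]
  exact sx_mem_CS fun t => h _ (hσ t)

theorem map_sm (L' : LCap Y' Z') (f : C(Y, Y')) (hW : ∀ y ∈ L.W, f y ∈ L'.W)
    (hV : ∀ y ∈ L.V, f y ∈ L'.V) {z : CE Y} (hz : z ∈ L.sm) :
    N.map F2 (SS.SingMap f) z ∈ L'.sm := by
  obtain ⟨a, ha, b, hb, rfl⟩ := Submodule.mem_sup.1 hz
  rw [map_add]
  exact Submodule.mem_sup.2 ⟨_, map_CS f hW a ha, _, map_CS f hV b hb, rfl⟩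

/-- the map induced on the `V`s -/
def mapV (L' : LCap Y' Z') (f : C(Y, Y')) (hV : ∀ y ∈ L.V, f y ∈ L'.V) : C(L.V, L'.V) :=
  ⟨fun y => ⟨f y.1, hV y.1 y.2⟩, by fun_prop⟩

theorem map_res (L' : LCap Y' Z') (f : C(Y, Y')) (hV : ∀ y ∈ L.V, f y ∈ L'.V) :
    ∀ c ∈ CS L.V, res L'.V (N.map F2 (SS.SingMap f) c) =
      N.map F2 (SS.SingMap (L.mapV L' f hV)) (res L.V c) := by
  intro c hc
  rw [CS_eq_range] at hc
  obtain ⟨c, rfl⟩ := hc
  rw [res_map_inc, map_map]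
  have : (SS.SingMap f).comp (SS.SingMap (SpecA.inc L.V)) =
      (SS.SingMap (SpecA.inc L'.V)).comp (SS.SingMap (L.mapV L' f hV)) := rfl
  rw [this, ← map_map, res_map_inc]

theorem op1_nat (L' : LCap Y' Z') (f : C(Y, Y')) (hW : ∀ y ∈ L.W, f y ∈ L'.W)
    (hV : ∀ y ∈ L.V, f y ∈ L'.V)
    (hu : ∀ z ∈ CS L.V, L'.u (N.map F2 (SS.SingMap f) z) = L.u z) {z : CE Y} (hs : z ∈ L.sm) :
    L'.op1 (N.map F2 (SS.SingMap f) z) = N.map F2 (SS.SingMap (L.mapV L' f hV)) (L.op1 z) := by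
  have h1 : cap (pull (SS.SingMap f) L'.u) z = cap L.u z := by
    obtain ⟨a, ha, b, hb, rfl⟩ := Submodule.mem_sup.1 hs
    rw [map_add, map_add, cap_eq_zero_CS L.van a ha,
      cap_eq_zero_CS (c := pull (SS.SingMap f) L'.u) (fun z hz => L'.van _ (map_CS f hW z hz)) a ha,
      cap_congr_CS (c := pull (SS.SingMap f) L'.u) (c' := L.u) hu b hb]
  rw [op1, LinearMap.comp_apply, ← map_cap, h1, L.map_res L' f hV _ (L.cap_mem hs)]
  rfl

/-- **naturality** -/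
theorem phi_nat (L' : LCap Y' Z') (f : C(Y, Y')) (g : C(Z, Z')) (hW : ∀ y ∈ L.W, f y ∈ L'.W)
    (hV : ∀ y ∈ L.V, f y ∈ L'.V)
    (hu : ∀ z ∈ CS L.V, L'.u (N.map F2 (SS.SingMap f) z) = L.u z)
    (hS : (g.comp L.S).Homotopic (L'.S.comp (L.mapV L' f hV))) (x : HS Y) :
    Hm g (L.phi x) = L'.phi (Hm f x) := by
  obtain ⟨z, hz, hs, rfl⟩ := L.exists_rep x
  have hz' : bdE Y' (N.map F2 (SS.SingMap f) z) = 0 := by rw [map_bdE, hz, map_zero]
  have e1 : Hm f (Hd.mk _ z hz) = Hd.mk _ (N.map F2 (SS.SingMap f) z) hz' := rfl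
  rw [e1, L'.phi_mk' hz' (L.map_sm L' f hW hV hs), L.phi_mk' hz hs, ← Hm_comp_apply,
    Hm_homotopic hS, Hm_comp_apply]
  congr 1
  have h2 := L.op1_nat L' f hW hV hu hs
  refine Hd.mk_eq_mk.2 ⟨0, ?_⟩
  rw [map_zero, h2]
  exact (sub_self _).symm

/-! ### products -/

/-- product with a space on the right -/
def prodR (A : Type) [TopologicalSpace A] : LCap (Y × A) (Z × A) where
  W := L.W ×ˢ Set.univ
  V := L.V ×ˢ Set.univ
  cov p := (L.cov p.1).imp (fun h => prod_mem_nhds h Filter.univ_mem)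
    fun h => prod_mem_nhds h Filter.univ_mem
  u := pull (SS.SingMap ⟨Prod.fst, continuous_fst⟩) L.u
  cyc z hz := by
    rw [pull_apply, ← map_bdE]
    exact L.cyc _ (map_CS _ (fun p hp => hp.1) z hz)
  van z hz := L.van _ (map_CS _ (fun p hp => hp.1) z hz)
  S := ⟨fun p => (L.S ⟨p.1.1, p.2.1⟩, p.1.2), by fun_prop⟩

theorem crE_sm {z : CE Y} (hz : z ∈ L.sm) (b : CE A) : crE z b ∈ (L.prodR A).sm := by
  have hb : b ∈ CS (Set.univ : Set A) := by rw [CS_univ]; trivial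
  obtain ⟨a, ha, c, hc, rfl⟩ := Submodule.mem_sup.1 hz
  rw [map_add, LinearMap.add_apply]
  exact Submodule.mem_sup.2 ⟨_, crE_mem ha hb, _, crE_mem hc hb, rfl⟩

theorem op_prodR {z : CE Y} (hz : z ∈ L.sm) (b : CE A) :
    (L.prodR A).op (crE z b) = crE (L.op z) b := by
  have h1 : cap (L.prodR A).u (crE z b) = crE (cap L.u z) b := cap_crE_fst _ _ _
  have hc := L.cap_mem hz
  rw [CS_eq_range] at hc
  obtain ⟨c, hc⟩ := hc
  have h2 : L.op z = N.map F2 (SS.SingMap L.S) c := by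
    rw [op_apply, ← hc, res_map_inc]
  rw [op_apply, h1, h2, ← hc]
  have h3 : crE (N.map F2 (SS.SingMap (SpecA.inc L.V)) c) b =
      N.map F2 (SS.SingMap ((SpecA.inc L.V).prodMap (ContinuousMap.id A))) (crE c b) := by
    rw [crE_map]
    have : SS.SingMap (ContinuousMap.id A) = SS.Hom.id _ := by ext n σ; rfl
    rw [this, map_idHom]
  have h4 : crE (N.map F2 (SS.SingMap L.S) c) b =
      N.map F2 (SS.SingMap (L.S.prodMap (ContinuousMap.id A))) (crE c b) := by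
    rw [crE_map]
    have : SS.SingMap (ContinuousMap.id A) = SS.Hom.id _ := by ext n σ; rfl
    rw [this, map_idHom]
  rw [h3, h4]
  let I : C(L.V × A, (L.prodR A).V) := ⟨fun p => ⟨(p.1.1, p.2), p.1.2, trivial⟩, by fun_prop⟩
  have e1 : SS.SingMap ((SpecA.inc L.V).prodMap (ContinuousMap.id A)) =
      (SS.SingMap (SpecA.inc (L.prodR A).V)).comp (SS.SingMap I) := rfl
  rw [e1, ← map_map, res_map_inc, map_map]
  rfl

/-- **compatibility with products on the right** -/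
theorem phi_prodR {z : CE Y} (hs : z ∈ L.sm) {b : CE A}
    (hzb : bdE (Y × A) (crE z b) = 0) (hzb' : bdE (Z × A) (crE (L.op z) b) = 0) :
    (L.prodR A).phi (Hd.mk _ (crE z b) hzb) = Hd.mk _ (crE (L.op z) b) hzb' := by
  rw [phi_mk _ hzb (L.crE_sm hs b)]
  refine Hd.mk_eq_mk.2 ⟨0, ?_⟩
  rw [map_zero, L.op_prodR hs b, sub_self]

/-- data for the vanishing theorem -/
def leftL (W0 V0 : Set Y') (cov0 : ∀ y, W0 ∈ 𝓝 y ∨ V0 ∈ 𝓝 y) (μ : C(A × Y', Y))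
    (hW : ∀ a, ∀ y ∈ W0, μ (a, y) ∈ L.W) (hV : ∀ a, ∀ y ∈ V0, μ (a, y) ∈ L.V)
    (s : C(V0, Z)) : LCap (A × Y') Z where
  W := Set.univ ×ˢ W0
  V := Set.univ ×ˢ V0
  cov p := (cov0 p.2).imp (fun h => prod_mem_nhds Filter.univ_mem h)
    fun h => prod_mem_nhds Filter.univ_mem h
  u := pull (SS.SingMap μ) L.u
  cyc z hz := by
    rw [pull_apply, ← map_bdE]
    exact L.cyc _ (map_CS _ (fun p hp => hV p.1 p.2 hp.2) z hz)
  van z hz := L.van _ (map_CS _ (fun p hp => hW p.1 p.2 hp.2) z hz)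
  S := ⟨fun p => s ⟨p.1.2, p.2.2⟩, by fun_prop⟩

theorem op_left_zero (W0 V0 : Set Y') (cov0 : ∀ y, W0 ∈ 𝓝 y ∨ V0 ∈ 𝓝 y) (μ : C(A × Y', Y))
    (hW : ∀ a, ∀ y ∈ W0, μ (a, y) ∈ L.W) (hV : ∀ a, ∀ y ∈ V0, μ (a, y) ∈ L.V)
    (s : C(V0, Z)) {q m : ℕ} (hq : Deg q L.u) (hqm : q < m) {z : CE A}
    (hz : z ∈ N.gr F2 (SS.Sing A) m) {w : CE Y'} (hw : w ∈ CS W0 ⊔ CS V0) :
    (L.leftL W0 V0 cov0 μ hW hV s).op (crE z w) = 0 := by
  set L0 := L.leftL W0 V0 cov0 μ hW hV s with hL0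
  have hzu : z ∈ CS (Set.univ : Set A) := by rw [CS_univ]; trivial
  have hsm : crE z w ∈ L0.sm := by
    obtain ⟨a, ha, c, hc, rfl⟩ := Submodule.mem_sup.1 hw
    rw [map_add]
    exact Submodule.mem_sup.2 ⟨_, crE_mem hzu ha, _, crE_mem hzu hc, rfl⟩
  have hc := L0.cap_mem hsm
  rw [CS_eq_range] at hc
  obtain ⟨c, hc⟩ := hc
  rw [op_apply, ← hc, res_map_inc]
  -- the projection to `V0`
  let r : C(L0.V, V0) := ⟨fun p => ⟨p.1.2, p.2.2⟩, by fun_prop⟩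
  have e1 : SS.SingMap L0.S = (SS.SingMap s).comp (SS.SingMap r) := rfl
  rw [e1, ← map_map]
  have e2 : N.map F2 (SS.SingMap (SpecA.inc V0)) (N.map F2 (SS.SingMap r) c) = 0 := by
    rw [map_map]
    have e3 : (SS.SingMap (SpecA.inc V0)).comp (SS.SingMap r) =
        (SS.SingMap (⟨Prod.snd, continuous_snd⟩ : C(A × Y', Y'))).comp
          (SS.SingMap (SpecA.inc L0.V)) := rfl
    rw [e3, ← map_map, hc]
    exact snd_cap_crE_eq_zero hqm (hq.pull _) hz w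
  have e4 : N.map F2 (SS.SingMap r) c = 0 := by
    rw [← res_map_inc (N.map F2 (SS.SingMap r) c), e2, map_zero]
  rw [e4, map_zero]

/-- **vanishing on products with a class of large degree on the left** -/
theorem phi_left_zero (W0 V0 : Set Y') (cov0 : ∀ y, W0 ∈ 𝓝 y ∨ V0 ∈ 𝓝 y) (μ : C(A × Y', Y))
    (hW : ∀ a, ∀ y ∈ W0, μ (a, y) ∈ L.W) (hV : ∀ a, ∀ y ∈ V0, μ (a, y) ∈ L.V)
    (s : C(V0, Z))
    (hS : (L.leftL W0 V0 cov0 μ hW hV s).S.Homotopic (L.S.comp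
      ((L.leftL W0 V0 cov0 μ hW hV s).mapV L μ fun p hp => hV p.1 p.2 hp.2)))
    {q m : ℕ} (hq : Deg q L.u) (hqm : q < m) {z : CE A}
    (hz : bdE A z = 0) (hzm : z ∈ N.gr F2 (SS.Sing A) m) {w : CE Y'} (hw : bdE Y' w = 0)
    (hzw : bdE (A × Y') (crE z w) = 0) :
    L.phi (Hm μ (Hd.mk _ (crE z w) hzw)) = 0 := by
  set L0 := L.leftL W0 V0 cov0 μ hW hV s with hL0
  have hnat := L0.phi_nat L μ (ContinuousMap.id Z) (fun p hp => hW p.1 p.2 hp.2)
    (fun p hp => hV p.1 p.2 hp.2) (fun _ _ => rfl) hS (Hd.mk _ (crE z w) hzw)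
  rw [← hnat, Hm_id]
  -- a small representative of `w`
  let D : LCap Y' PUnit := ⟨W0, V0, cov0, 0, fun _ _ => rfl, fun _ _ => rfl,
    ContinuousMap.const _ PUnit.unit⟩
  obtain ⟨e, he⟩ := D.exists_small (c := w) (by rw [hw]; exact Submodule.zero_mem _)
  have he' : w + bdE Y' e ∈ CS W0 ⊔ CS V0 := he
  have hcyc : bdE Y' (w + bdE Y' e) = 0 := by rw [map_add, bd_bdE, hw, add_zero]
  have hcyc' : bdE (A × Y') (crE z (w + bdE Y' e)) = 0 := by
    rw [bd_crE, hz, hcyc, map_zero, map_zero, LinearMap.zero_apply, add_zero]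
  have hmk : (Hd.mk (N.bd F2 (SS.Sing (A × Y'))) (crE z w) hzw) =
      Hd.mk _ (crE z (w + bdE Y' e)) hcyc' := by
    refine Hd.mk_eq_mk.2 ⟨crE z e, ?_⟩
    have : bdE (A × Y') (crE z e) = crE z (bdE Y' e) := by
      rw [bd_crE, hz, map_zero, LinearMap.zero_apply, zero_add]
    refine this.trans ?_
    rw [map_add, sub_eq, ← add_assoc, add_self, zero_add]
  have hsm : crE z (w + bdE Y' e) ∈ L0.sm := by
    have hzu : z ∈ CS (Set.univ : Set A) := by rw [CS_univ]; trivial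
    obtain ⟨a, ha, c, hc, hac⟩ := Submodule.mem_sup.1 he'
    rw [← hac, map_add]
    exact Submodule.mem_sup.2 ⟨_, crE_mem hzu ha, _, crE_mem hzu hc, rfl⟩
  rw [hmk, L0.phi_mk hcyc' hsm]
  refine Hd.mk_eq_zero.2 ⟨0, ?_⟩
  rw [map_zero, L.op_left_zero W0 V0 cov0 μ hW hV s hq hqm hzm he']

/-! ### degrees and augmentation -/

theorem exists_rep_gr {n : ℕ} {x : HS Y} (hx : x ∈ H.gr F2 (SS.Sing Y) n) :
    ∃ z, ∃ hz : bdE Y z = 0, z ∈ L.sm ∧ z ∈ N.gr F2 (SS.Sing Y) n ∧ x = Hd.mk _ z hz := by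
  obtain ⟨z, hzn, hz, rfl⟩ := Gr334.mem_H_gr.1 hx
  have hc : z ∈ CS (L.W ∪ L.V) := by rw [L.union_eq, CS_univ]; trivial
  have hz' : bdE Y z = 0 := hz
  obtain ⟨w, _, hwn, hw⟩ := SplitR2x737.small_gr (fun y _ => (L.cov y).imp mem_nhdsWithin_of_mem_nhds
    mem_nhdsWithin_of_mem_nhds) hzn hc (by rw [hz']; exact Submodule.zero_mem _)
  have h2 : bdE Y (z + bdE Y w) = 0 := by
    rw [map_add, bd_bdE, add_zero]; exact hz
  refine ⟨z + bdE Y w, h2, hw, Submodule.add_mem _ hzn (Gr334.bd_mem_gr hwn),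
    Hd.mk_eq_mk.2 ⟨w, ?_⟩⟩
  rw [sub_eq, ← add_assoc, add_self, zero_add]

theorem op_mem_gr {q n : ℕ} (hq : Deg q L.u) {z : CE Y} (hz : z ∈ N.gr F2 (SS.Sing Y) (q + n)) :
    L.op z ∈ N.gr F2 (SS.Sing Z) n := by
  rw [op_apply]
  exact Gr334.map_mem_gr _ (Pairx877.res_gr (cap_mem_gr hq hz))

theorem phi_mem_gr {q n : ℕ} (hq : Deg q L.u) {x : HS Y} (hx : x ∈ H.gr F2 (SS.Sing Y) (q + n)) :
    L.phi x ∈ H.gr F2 (SS.Sing Z) n := by
  obtain ⟨z, hz, hs, hzn, rfl⟩ := L.exists_rep_gr hx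
  rw [L.phi_mk hz hs]
  exact Gr334.mk_mem_gr (L.op_mem_gr hq hzn) _

theorem phi_gr_eq_zero {q n : ℕ} (hq : Deg q L.u) (hn : n < q) {x : HS Y}
    (hx : x ∈ H.gr F2 (SS.Sing Y) n) : L.phi x = 0 := by
  obtain ⟨z, hz, hs, hzn, rfl⟩ := L.exists_rep_gr hx
  rw [L.phi_mk hz hs]
  refine Hd.mk_eq_zero.2 ⟨0, ?_⟩
  rw [map_zero, op_apply, cap_gr_eq_zero hq hn hzn, map_zero, map_zero]

end LCap

end Crest.Agent.R231.PhiMkx607
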