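import Crest.Agent.R231.CX_780
import Crest.Agent.R231.SphH_543

/-!
# Row 231 (S0357), block P, leaf Q2c (helper720): the primitive class in the language of `CX_780`

* `toSphLike : HSph S m → SphLike S m` (543 → 780), `s₀ = z0`, `σ = fs`;
* `diag_σ` : `Δ_* σ = σ × pt + pt × σ`;
* `pair_σ` : `(f, g)_* σ = f_* σ × pt + pt × g_* σ`;
* `rel_σ` : if `μ ∘ (f, g)` is homotopic to a constant then `μ(·, g s₀)_* f_* σ = μ(f s₀, ·)_* g_* σ`.
-/

set_option autoImplicit false

noncomputable section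

namespace Crest.Agent.R231.PrimCXx720

open Crest.Agent.R204 Crest.Agent.R204.SpecA FinDim315 CXx780

variable {S X Y Y' Z : Type} [TopologicalSpace S] [TopologicalSpace X] [TopologicalSpace Y]
  [TopologicalSpace Y'] [TopologicalSpace Z] {m : ℕ}

theorem ptc_eq_543 (z : S) : SphQx543.ptc z = ptc z := rfl

/-! ## from `HSph` to `SphLike` -/

theorem f2_ne_zero {a : F2} (h : a ≠ 0) : a = 1 := by
  revert a; decide

theorem exists_fun {V : Type} [AddCommGroup V] [Module F2 V] {a : V} (ha : a ≠ 0) :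
    ∃ f : V →ₗ[F2] F2, f a = 1 := by
  obtain ⟨f, h1, -⟩ := Submodule.exists_le_ker_of_notMem (p := (⊥ : Submodule F2 V)) (v := a)
    (by simpa using ha)
  exact ⟨f, f2_ne_zero h1⟩

/-- the functional of the fundamental class -/
def phi (h : SphQx543.HSph S m) : HS S →ₗ[F2] F2 :=
  (exists_fun h.fs_ne).choose ∘ₗ Gr334.prH F2 (SS.Sing S) m

theorem phi_fs (h : SphQx543.HSph S m) : phi h h.fs = 1 := by
  rw [phi, LinearMap.comp_apply, Gr334.prH_of_mem h.fs_mem]
  exact (exists_fun h.fs_ne).choose_spec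

theorem phi_deg (h : SphQx543.HSph S m) : DegF m (phi h) := by
  intro n hn b hb
  rw [phi, LinearMap.comp_apply, Gr334.prH_of_mem_ne hn hb, map_zero]

/-- 543's `HSph` is 780's `SphLike` -/
def toSphLike (h : SphQx543.HSph S m) : SphLike S m where
  s₀ := h.z0
  σ := h.fs
  φ := phi h
  σ_mem := h.fs_mem
  pos := Nat.pos_of_ne_zero h.m_ne
  φ_deg := phi_deg h
  φ_σ := phi_fs h
  decomp a := by
    refine hg_induction (p := fun a => a = ep a • ptc h.z0 + phi h a • h.fs) a ?_ ?_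
    · intro a b ha hb
      conv_lhs => rw [ha, hb]
      rw [map_add, map_add, add_smul, add_smul]
      abel
    · intro n a ha
      by_cases h0 : n = 0
      · subst h0
        obtain ⟨r, hr⟩ := h.gr_zero a ha
        rw [phi_deg h 0 (fun e => h.m_ne e.symm) a ha, zero_smul, add_zero]
        have : ep a = r := by
          rw [hr, map_smul, ptc_eq_543, ep_ptc, smul_eq_mul, mul_one]
        rw [this]; exact hr
      · rw [ep_eq_zero h0 ha, zero_smul, zero_add]
        by_cases hm : n = m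
        · subst hm
          obtain ⟨r, hr⟩ := h.gr_m a ha
          rw [hr, map_smul, phi_fs, smul_eq_mul, mul_one]
        · have h1 : a ∈ (⊥ : Submodule F2 (HS S)) := by
            rw [← h.gr_other n h0 hm]; exact ha
          rw [(Submodule.mem_bot F2).1 h1, map_zero, zero_smul]

@[simp] theorem toSphLike_s₀ (h : SphQx543.HSph S m) : (toSphLike h).s₀ = h.z0 := rfl
@[simp] theorem toSphLike_σ (h : SphQx543.HSph S m) : (toSphLike h).σ = h.fs := rfl

/-! ## the primitive class -/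

/-- the diagonal -/
def diagC (S : Type) [TopologicalSpace S] : C(S, S × S) := ⟨fun s => (s, s), by fun_prop⟩

/-- **primitivity** -/
theorem diag_σ (D : SphLike S m) :
    Hm (diagC S) D.σ = cx D.σ (ptc D.s₀) + cx (ptc D.s₀) D.σ := by
  have hm := D.pos
  have h0 : m ≠ 0 := by omega
  have e1 : Hm (fstC S S) (Hm (diagC S) D.σ) = D.σ := by
    rw [← Hm_comp_apply]; exact Hm_id _
  have e2 : Hm (sndC S S) (Hm (diagC S) D.σ) = D.σ := by
    rw [← Hm_comp_apply]; exact Hm_id _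
  have h1 := D.cx_decomp (Hm (diagC S) D.σ)
  rw [e1] at h1
  have h2 : Hm (diagC S) D.σ ∈ hg (S × S) (0 + m) := by
    rw [zero_add]; exact Hm_mem_hg _ D.σ_mem
  have h3 : sl D.φ (Hm (diagC S) D.σ) ∈ hg S 0 := sl_mem D.φ_deg h2
  have h4 : sl D.φ (Hm (diagC S) D.σ) = ep (sl D.φ (Hm (diagC S) D.σ)) • ptc D.s₀ := by
    conv_lhs => rw [D.decomp (sl D.φ (Hm (diagC S) D.σ))]
    rw [D.φ_deg 0 (Ne.symm h0) _ h3, zero_smul, add_zero]
  have h5 := congrArg (Hm (sndC S S)) h1
  rw [e2, map_add, Hm_snd_cx, Hm_snd_cx, D.ep_σ, zero_smul, zero_add] at h5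
  have h6 : ep (sl D.φ (Hm (diagC S) D.σ)) = 1 := by
    have h7 := congrArg D.φ h5
    rw [map_smul, D.φ_σ, smul_eq_mul, mul_one] at h7
    exact h7.symm
  rw [h6, one_smul] at h4
  rw [h4] at h1
  exact h1

/-- **the primitive class**: `(f, g)_* σ = f_* σ × pt + pt × g_* σ` -/
theorem pair_σ (D : SphLike S m) (f : C(S, Y)) (g : C(S, Y')) :
    Hm (f.prodMk g) D.σ = cx (Hm f D.σ) (ptc (g D.s₀)) + cx (ptc (f D.s₀)) (Hm g D.σ) := by
  have e : f.prodMk g = (f.prodMap g).comp (diagC S) := rfl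
  rw [e, Hm_comp_apply, diag_σ, map_add, Hm_cx, Hm_cx, Hm_ptc, Hm_ptc]

/-- the same for `HSph` -/
theorem pair_fs (h : SphQx543.HSph S m) (f : C(S, Y)) (g : C(S, Y')) :
    Hm (f.prodMk g) h.fs = cx (Hm f h.fs) (ptc (g h.z0)) + cx (ptc (f h.z0)) (Hm g h.fs) :=
  pair_σ (toSphLike h) f g

theorem Hm_const' (D : SphLike S m) (c : Y) : Hm (ContinuousMap.const S c) D.σ = 0 := by
  have e : ContinuousMap.const S c = (ContinuousMap.const PUnit c).comp
      (ContinuousMap.const S PUnit.unit) := rfl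
  rw [e, Hm_comp_apply]
  have h1 : Hm (ContinuousMap.const S PUnit.unit) D.σ =
      ep (Hm (ContinuousMap.const S PUnit.unit) D.σ) • ptc PUnit.unit := eq_ep_ptc _ _
  rw [ep_Hm, D.ep_σ, zero_smul] at h1
  rw [h1, map_zero]

/-- if `μ ∘ (f, g)` is homotopic to a constant, `μ(·, g s₀)_* f_* σ = μ(f s₀, ·)_* g_* σ` -/
theorem rel_σ (D : SphLike S m) (f : C(S, Y)) (g : C(S, Y')) (μ : C(Y × Y', Z)) {c : Z}
    (h : (μ.comp (f.prodMk g)).Homotopic (ContinuousMap.const S c)) :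
    Hm (μ.comp (atR Y (g D.s₀))) (Hm f D.σ) = Hm (μ.comp (atL Y' (f D.s₀))) (Hm g D.σ) := by
  have h1 := congrArg (Hm μ) (pair_σ D f g)
  rw [← Hm_comp_apply, Hm_homotopic h, Hm_const', map_add, cx_ptc, ptc_cx,
    ← Hm_comp_apply μ (atR Y (g D.s₀)), ← Hm_comp_apply μ (atL Y' (f D.s₀))] at h1
  have h2 : ∀ x y : HS Z, 0 = x + y → x = y := fun x y hxy => by
    have : x = -y := eq_neg_of_add_eq_zero_left hxy.symm
    rw [this, neg_eq_of_add_eq_zero_left (SphQx543.add_self_F2 y)]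
  exact h2 _ _ h1

end Crest.Agent.R231.PrimCXx720
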