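import Crest.Agent.R204.KSurj_271
import Crest.Agent.R204.CrsX_718
import Crest.Agent.R204.Prd_328
import Crest.Agent.R204.HZ_76
import Crest.Agent.R231.CrossCS_780

/-!
# Row 231 (S0357), block P (note 1871): the primitive class  (helper720)

`K` a simplicial set whose mod 2 homology in degrees `< k` is that of a point (`1 ≤ k`):
* `diag_prim` : `Δ_* s = s × pt + pt × s` for `s` homogeneous of degree `k`;
* `pair_prim` : `(f, g)_* s = f_* s × g(pt) + f(pt) × g_* s`.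
Spaces (`S` path connected, `H_j(S) = 0` for `0 < j < k`, `1 ≤ k`), maps `v : C(S, X)`, `w : C(S, Y)`:
* `prim_chain` : chain form with `crE`, `vE` of `CrossCS_780`;
* `prim_H` : homology form, `cxH : H X → H Y → H (X × Y)`, `ptH y` = class of a point.
-/

set_option autoImplicit false

noncomputable section

namespace Crest.Agent.R231.Primx720

open Crest.Agent.R204 Crest.Agent.R204.Prd328
open Crest.Agent.R204.EZ271 (aug aug_sx_zero aug_sx_succ aug_map aug_bd)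

variable {K L J : SS}

/-- homology in degrees `< k` is that of a point -/
structure Pt (K : SS) (v0 : K.S 0) (k : ℕ) : Prop where
  pos : 1 ≤ k
  zero : ∀ x ∈ H.gr F2 K 0, x = 0 ∨ x = vt F2 v0
  mid : ∀ j, 0 < j → j < k → ∀ x ∈ H.gr F2 K j, x = 0

theorem f2_cases (r : F2) : r = 0 ∨ r = 1 := by
  revert r; decide

theorem aug_gr_pos {j : ℕ} (hj : 0 < j) {z : N F2 K} (hz : z ∈ N.gr F2 K j) : aug F2 z = 0 := by
  refine Gr334.gr_induction (p := fun z => aug F2 z = 0) hz (map_zero _) ?_ ?_ ?_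
  · intro a b ha hb; rw [map_add, ha, hb, add_zero]
  · intro r a ha; rw [map_smul, ha, smul_zero]
  · intro x; obtain ⟨i, rfl⟩ : ∃ i, j = i + 1 := ⟨j - 1, by omega⟩
    simp

/-- first projection of a product with a class of positive degree -/
theorem fst_crossH_pos {j : ℕ} (hj : 0 < j) (x : H F2 K) {y : H F2 L} (hy : y ∈ H.gr F2 L j) :
    H.map F2 (SS.fst K L) (crossH F2 x y) = 0 := by
  obtain ⟨a, ha, rfl⟩ := Hd.mk_surj _ x
  obtain ⟨b, hb, hb', rfl⟩ := Gr334.mem_H_gr.1 hy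
  rw [crossH_mk, H_map_mk, Hd.mk_eq_zero]
  exact ⟨0, by rw [map_zero, Pont718.map_fst_cross, aug_gr_pos hj hb, zero_smul]⟩

theorem snd_crossH_pos {j : ℕ} (hj : 0 < j) {x : H F2 K} (hx : x ∈ H.gr F2 K j) (y : H F2 L) :
    H.map F2 (SS.snd K L) (crossH F2 x y) = 0 := by
  obtain ⟨b, hb, rfl⟩ := Hd.mk_surj _ y
  obtain ⟨a, ha, ha', rfl⟩ := Gr334.mem_H_gr.1 hx
  rw [crossH_mk, H_map_mk, Hd.mk_eq_zero]
  exact ⟨0, by rw [map_zero, Pont718.map_snd_cross, aug_gr_pos hj ha, zero_smul]⟩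

theorem fst_crossH_vt (x : H F2 K) (v : L.S 0) :
    H.map F2 (SS.fst K L) (crossH F2 x (vt F2 v)) = x := by
  obtain ⟨a, ha, rfl⟩ := Hd.mk_surj _ x
  rw [vt, crossH_mk, H_map_mk, Hd.mk_eq_mk]
  exact ⟨0, by rw [map_zero, Pont718.map_fst_cross]; simp⟩

theorem snd_crossH_vt (v : K.S 0) (y : H F2 L) :
    H.map F2 (SS.snd K L) (crossH F2 (vt F2 v) y) = y := by
  obtain ⟨b, hb, rfl⟩ := Hd.mk_surj _ y
  rw [vt, crossH_mk, H_map_mk, Hd.mk_eq_mk]
  exact ⟨0, by rw [map_zero, Pont718.map_snd_cross]; simp⟩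

/-- every class of degree `k` of a product `K × K'` with both factors `Pt` is
`β × pt + pt × α` -/
theorem exists_split {K' : SS} {v0 : K.S 0} {v1 : K'.S 0} {k : ℕ} (hK : Pt K v0 k) (hK' : Pt K' v1 k)
    {w : H F2 (K.prod K')} (hw : w ∈ H.gr F2 (K.prod K') k) :
    ∃ β ∈ H.gr F2 K k, ∃ α ∈ H.gr F2 K' k,
      w = crossH F2 β (vt F2 v1) + crossH F2 (vt F2 v0) α := by
  obtain ⟨z, hz, hz0, rfl⟩ := Gr334.mem_H_gr.1 hw
  obtain ⟨s, Y, Z, p, q, h, b, -, hb⟩ := EZ271.cross_surj K K' k z hz hz0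
  have e1 : ∀ i, ∃ β ∈ H.gr F2 K k, ∃ α ∈ H.gr F2 K' k,
      crossH F2 (Hd.mk _ (Y i) (h i).2.2.2.1) (Hd.mk _ (Z i) (h i).2.2.2.2) =
        crossH F2 β (vt F2 v1) + crossH F2 (vt F2 v0) α := by
    intro i
    obtain ⟨hpq, hY, hZ, hY0, hZ0⟩ := h i
    have mY : Hd.mk _ (Y i) hY0 ∈ H.gr F2 K (p i) := Gr334.mem_H_gr.2 ⟨_, hY, hY0, rfl⟩
    have mZ : Hd.mk _ (Z i) hZ0 ∈ H.gr F2 K' (q i) := Gr334.mem_H_gr.2 ⟨_, hZ, hZ0, rfl⟩
    rcases Nat.eq_zero_or_pos (p i) with hp | hp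
    · rw [hp] at mY
      have hq : q i = k := by omega
      rw [hq] at mZ
      rcases hK.zero _ mY with h0 | h0
      · exact ⟨0, Submodule.zero_mem _, 0, Submodule.zero_mem _, by rw [h0]; simp⟩
      · exact ⟨0, Submodule.zero_mem _, _, mZ, by rw [h0]; simp⟩
    · rcases Nat.eq_zero_or_pos (q i) with hq | hq
      · rw [hq] at mZ
        have hp' : p i = k := by omega
        rw [hp'] at mY
        rcases hK'.zero _ mZ with h0 | h0
        · exact ⟨0, Submodule.zero_mem _, 0, Submodule.zero_mem _, by rw [h0]; simp⟩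
        · exact ⟨_, mY, 0, Submodule.zero_mem _, by rw [h0]; simp⟩
      · have h0 := hK.mid (p i) hp (by omega) _ mY
        exact ⟨0, Submodule.zero_mem _, 0, Submodule.zero_mem _, by rw [h0]; simp⟩
  choose β hβ α hα hi using e1
  refine ⟨∑ i, β i, Submodule.sum_mem _ fun i _ => hβ i, ∑ i, α i,
    Submodule.sum_mem _ fun i _ => hα i, ?_⟩
  rw [map_sum, map_sum, LinearMap.sum_apply, ← Finset.sum_add_distrib,
    ← Finset.sum_congr rfl fun i _ => hi i]
  have e2 : ∀ i, crossH F2 (Hd.mk _ (Y i) (h i).2.2.2.1) (Hd.mk _ (Z i) (h i).2.2.2.2) =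
      Hd.mk _ (EZ271.cross F2 (Y i) (Z i)) (cross_cyc F2 (h i).2.2.2.1 (h i).2.2.2.2) :=
    fun i => rfl
  simp only [e2]
  rw [← Gr334.mk_sum Finset.univ (fun i => EZ271.cross F2 (Y i) (Z i))
    (fun i => cross_cyc F2 (h i).2.2.2.1 (h i).2.2.2.2)
    (by rw [map_sum]; exact Finset.sum_eq_zero fun i _ => cross_cyc F2 (h i).2.2.2.1 (h i).2.2.2.2)]
  rw [Hd.mk_eq_mk]
  refine ⟨b, ?_⟩
  rw [← hb, QC134.sub_eq']

/-- **primitivity** of the lowest positive classes -/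
theorem diag_prim {v0 : K.S 0} {k : ℕ} (hK : Pt K v0 k) {s : H F2 K} (hs : s ∈ H.gr F2 K k) :
    H.map F2 (SS.diag K) s = crossH F2 s (vt F2 v0) + crossH F2 (vt F2 v0) s := by
  obtain ⟨β, hβ, α, hα, h⟩ := exists_split hK hK (Gr334.H_map_mem_gr (SS.diag K) hs)
  have h1 : s = β := by
    have := congrArg (H.map F2 (SS.fst K K)) h
    rw [map_add, fst_crossH_vt, fst_crossH_pos hK.pos _ hα, add_zero, map_comp] at this
    rw [← this]
    exact (map_idH F2 s).symm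
  have h2 : s = α := by
    have := congrArg (H.map F2 (SS.snd K K)) h
    rw [map_add, snd_crossH_vt, snd_crossH_pos hK.pos hβ _, zero_add, map_comp] at this
    rw [← this]
    exact (map_idH F2 s).symm
  rw [h, ← h1, ← h2]

/-- `(f, g)_* s = f_* s × g(pt) + f(pt) × g_* s` -/
theorem pair_prim {v0 : K.S 0} {k : ℕ} (hK : Pt K v0 k) {s : H F2 K} (hs : s ∈ H.gr F2 K k)
    (f : SS.Hom K L) (g : SS.Hom K J) :
    H.map F2 (SS.pair f g) s =
      crossH F2 (H.map F2 f s) (vt F2 (g.app 0 v0)) + crossH F2 (vt F2 (f.app 0 v0)) (H.map F2 g s) := by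
  have e : SS.pair f g = (SS.prodMap f g).comp (SS.diag K) := rfl
  rw [e, ← map_comp, diag_prim hK hs, map_add, map_crossH, map_crossH, map_vt, map_vt]

/-! ## spaces -/

section spaces

open SingAct265 CrossCSx780 Pairx877

variable {S X Y Z W : Type} [TopologicalSpace S] [TopologicalSpace X] [TopologicalSpace Y]
  [TopologicalSpace Z] [TopologicalSpace W]

/-- the class of a point -/
def ptH (y : Y) : H F2 (SS.Sing Y) := Hd.mk (N.bd F2 (SS.Sing Y)) (vE y) (bd_vE y)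

theorem ptH_eq (y : Y) : ptH y = vt F2 (K := SS.Sing Y)
    (mkS (fun _ : stdSimplex ℝ (Fin (0 + 1)) => y) continuous_const) := rfl

theorem ptH_mem (y : Y) : ptH y ∈ H.gr F2 (SS.Sing Y) 0 := vt_mem_gr F2 _

theorem map_ptH (f : C(X, Y)) (x : X) : H.map F2 (SS.SingMap f) (ptH x) = ptH (f x) := by
  rw [ptH_eq, map_vt]; rfl

/-- points in the same path component have the same class -/
theorem ptH_eq_of_joined {x y : Y} (h : Joined x y) : ptH x = ptH y := by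
  obtain ⟨γ⟩ := h
  have hh : (ContinuousMap.const PUnit x).Homotopic (ContinuousMap.const PUnit y) :=
    ⟨⟨⟨fun p => γ p.1, by fun_prop⟩, fun _ => by simp, fun _ => by simp⟩⟩
  have h1 := LinearMap.congr_fun (HZ76.topHomotopyInv F2 PUnit Y _ _ hh) (ptH PUnit.unit)
  have e : ∀ u : Y, SpecA.Hm (ContinuousMap.const PUnit u) (ptH PUnit.unit) = ptH u := fun u =>
    map_ptH (ContinuousMap.const PUnit u) PUnit.unit
  rw [e, e] at h1
  exact h1

/-- cross product `H X → H Y → H (X × Y)` -/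
def cxH : H F2 (SS.Sing X) →ₗ[F2] H F2 (SS.Sing Y) →ₗ[F2] H F2 (SS.Sing (X × Y)) :=
  (crossH F2).compr₂ (H.map F2 (singPair X Y))

theorem cxH_mk {a : CE X} {b : CE Y} (ha : bdE X a = 0) (hb : bdE Y b = 0) :
    cxH (Hd.mk (N.bd F2 (SS.Sing X)) a ha) (Hd.mk (N.bd F2 (SS.Sing Y)) b hb) =
      Hd.mk (N.bd F2 (SS.Sing (X × Y))) (crE a b) (by
        have := bd_crE a b
        rw [ha, hb, map_zero, map_zero, LinearMap.zero_apply, add_zero] at this
        exact this) := rfl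

/-- naturality of `cxH` -/
theorem map_cxH (f : C(X, Z)) (g : C(Y, W)) (x : H F2 (SS.Sing X)) (y : H F2 (SS.Sing Y)) :
    H.map F2 (SS.SingMap (f.prodMap g)) (cxH x y) =
      cxH (H.map F2 (SS.SingMap f) x) (H.map F2 (SS.SingMap g) y) := by
  obtain ⟨a, ha, rfl⟩ := Hd.mk_surj _ x
  obtain ⟨b, hb, rfl⟩ := Hd.mk_surj _ y
  rw [cxH_mk ha hb, H_map_mk, H_map_mk, H_map_mk, cxH_mk, Hd.mk_eq_mk]
  exact ⟨0, by rw [map_zero, crE_map, sub_self]⟩

theorem pt_of_space [PathConnectedSpace S] {k : ℕ} (hk : 1 ≤ k)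
    (h : ∀ j, 0 < j → j < k → ∀ x ∈ H.gr F2 (SS.Sing S) j, x = 0) (s0 : S) :
    Pt (SS.Sing S) (mkS (fun _ : stdSimplex ℝ (Fin (0 + 1)) => s0) continuous_const) k where
  pos := hk
  zero x hx := by
    obtain ⟨⟨z, hz⟩, hz', rfl⟩ := hx
    obtain ⟨w, -, hw⟩ := HZ76.exists_bd F2 s0 z hz'
    rcases f2_cases (aug F2 z) with e | e
    · left
      rw [e, zero_smul, sub_zero] at hw
      exact Hd.mk_eq_zero.2 ⟨w, hw⟩
    · right
      rw [e, one_smul] at hw
      exact Hd.mk_eq_mk.2 ⟨w, hw⟩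
  mid := h

/-- **the primitive class, homology form** -/
theorem prim_H [PathConnectedSpace S] {k : ℕ} (hk : 1 ≤ k)
    (h : ∀ j, 0 < j → j < k → ∀ x ∈ H.gr F2 (SS.Sing S) j, x = 0)
    {s : H F2 (SS.Sing S)} (hs : s ∈ H.gr F2 (SS.Sing S) k) (v : C(S, X)) (w : C(S, Y)) (s0 : S) :
    H.map F2 (SS.SingMap (v.prodMk w)) s =
      cxH (H.map F2 (SS.SingMap v) s) (ptH (w s0)) + cxH (ptH (v s0)) (H.map F2 (SS.SingMap w) s) := by
  have e : SS.SingMap (v.prodMk w) = (singPair X Y).comp (SS.pair (SS.SingMap v) (SS.SingMap w)) := rfl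
  rw [e, ← map_comp, pair_prim (pt_of_space hk h s0) hs, map_add]
  rfl

theorem mk_add {M : Type} [AddCommGroup M] [Module F2 M] {d : M →ₗ[F2] M} {z z' : M} (hz : d z = 0)
    (hz' : d z' = 0) : Hd.mk d z hz + Hd.mk d z' hz' =
      Hd.mk d (z + z') (by rw [map_add, hz, hz', add_zero]) := rfl

/-- **the primitive class, chain form** -/
theorem prim_chain [PathConnectedSpace S] {k : ℕ} (hk : 1 ≤ k)
    (h : ∀ j, 0 < j → j < k → ∀ x ∈ H.gr F2 (SS.Sing S) j, x = 0)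
    {z : CE S} (hz : z ∈ N.gr F2 (SS.Sing S) k) (hz0 : bdE S z = 0) (v : C(S, X)) (w : C(S, Y))
    (s0 : S) : ∃ b ∈ N.gr F2 (SS.Sing (X × Y)) (k + 1),
      N.map F2 (SS.SingMap (v.prodMk w)) z =
        crE (N.map F2 (SS.SingMap v) z) (vE (w s0)) + crE (vE (v s0)) (N.map F2 (SS.SingMap w) z) +
          bdE (X × Y) b := by
  have h1 := prim_H hk h (Gr334.mem_H_gr.2 ⟨z, hz, hz0, rfl⟩) v w s0
  have hv : bdE X (N.map F2 (SS.SingMap v) z) = 0 := by
    rw [show bdE X (N.map F2 (SS.SingMap v) z) = N.map F2 (SS.SingMap v) (bdE S z) from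
      (EZ271.map_bd' _ _ _).symm, hz0, map_zero]
  have hw : bdE Y (N.map F2 (SS.SingMap w) z) = 0 := by
    rw [show bdE Y (N.map F2 (SS.SingMap w) z) = N.map F2 (SS.SingMap w) (bdE S z) from
      (EZ271.map_bd' _ _ _).symm, hz0, map_zero]
  rw [H_map_mk, H_map_mk, H_map_mk, ptH, ptH, cxH_mk hv (bd_vE _), cxH_mk (bd_vE _) hw] at h1
  have e1 : N.bd F2 (SS.Sing (X × Y)) (crE (N.map F2 (SS.SingMap v) z) (vE (w s0))) = 0 := by
    have := bd_crE (N.map F2 (SS.SingMap v) z) (vE (w s0))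
    rw [hv, bd_vE, map_zero, map_zero, LinearMap.zero_apply, add_zero] at this
    exact this
  have e2 : N.bd F2 (SS.Sing (X × Y)) (crE (vE (v s0)) (N.map F2 (SS.SingMap w) z)) = 0 := by
    have := bd_crE (vE (v s0)) (N.map F2 (SS.SingMap w) z)
    rw [hw, bd_vE, map_zero, map_zero, LinearMap.zero_apply, add_zero] at this
    exact this
  have h1' := h1.trans (mk_add e1 e2)
  have g1 : N.map F2 (SS.SingMap (v.prodMk w)) z ∈ N.gr F2 (SS.Sing (X × Y)) k := Gr334.map_mem_gr _ hz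
  have g2 : crE (N.map F2 (SS.SingMap v) z) (vE (w s0)) +
      crE (vE (v s0)) (N.map F2 (SS.SingMap w) z) ∈ N.gr F2 (SS.Sing (X × Y)) k := by
    refine Submodule.add_mem _ ?_ ?_
    · have := crE_mem_gr (Gr334.map_mem_gr (SS.SingMap v) hz) (vE_mem_gr (w s0))
      rwa [add_zero] at this
    · have := crE_mem_gr (vE_mem_gr (v s0)) (Gr334.map_mem_gr (SS.SingMap w) hz)
      rwa [zero_add] at this
  obtain ⟨b, hb, hb'⟩ := (Gr334.mk_gr_eq_mk g1 g2).1 h1'
  refine ⟨b, hb, ?_⟩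
  rw [show bdE (X × Y) b = _ from hb']
  abel

end spaces

end Crest.Agent.R231.Primx720
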