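import Crest.Agent.R231.LamInst_733
import Crest.Agent.R231.RelR_749

/-!
# Row 231 (S0357), block P, leaf Q6: `Ψ_*(E × σ) = x E + E x` (helper733)

`W : TD p m` (749).  `fd W : FD p m` (826's data).  `Ψ (w, z) = v'_z . w . v_z` exactly (`Psi_eq`);
`psiX : PsiX (fd W) C` when `C.x` and `W.x` agree at some level.
-/

set_option autoImplicit false

noncomputable section

open Set NNReal
open Crest.Agent.R204 Crest.Agent.R231.Moorex725
open Crest.Agent.R231.CutMx725 Crest.Agent.R231.FinDim315 Crest.Agent.R231.LaDefx733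
open Crest.Agent.R231.OmSpx725 Crest.Agent.R231.LaSpx826 Crest.Agent.R231.CWx826
open Crest.Agent.R231.CXx780 Crest.Agent.R231.LevInstx969
open Crest.Agent.R231.LamInstx733 Crest.Agent.R231.RelRx749
open Crest.Agent.R204.SpecA hiding inc

namespace Crest.Agent.R231.PsiXx733

section gen

variable {M : Type} [PseudoMetricSpace M] {p : M} {m : ℕ}

/-- conjugation by two tethers is `v⁻¹ . w . v` -/
theorem conj_eq {q : M} {bL cL u : ℝ} {b c w : ℝ → M} (hb : b ∈ MP q p bL) (hc : c ∈ MP q p cL)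
    (hbL : 0 ≤ bL) (hu : 0 ≤ u) :
    cc cL (rev cL c) (cc (u + 2 * bL) (cc bL b (cc u w (rev bL b))) c) =
      cc (bL + cL) (rev (bL + cL) (cc bL (rev bL b) c)) (cc u w (cc bL (rev bL b) c)) := by
  rw [rev_cc (rev_mem hb) hc, rev_rev, add_comm bL cL, cc_assoc _ _ _ hbL]
  have e : u + 2 * bL = bL + (u + bL) := by ring
  rw [e, cc_assoc _ _ _ (add_nonneg hu hbL), cc_assoc _ _ _ hbL]

/-- 826's data from 749's -/
def fd (W : TD p m) : FD p m where
  B := W.Wb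
  C := W.Wc
  cover := Set.eq_univ_of_forall W.cov
  hp := W.hp
  hT := W.cp
  D := W.sph

variable (W : TD p m)

/-- `(w, (g, h)) ↦ g . w . h` -/
def G3 (u a : ℝ≥0) : C(OmT p u × (OmT p a × OmT p a), OmT p (a + (u + a))) :=
  (mul p a (u + a)).comp ⟨fun x => (x.2.1, mul p u a (x.1, x.2.2)), by fun_prop⟩

theorem coe_a : ((W.a : ℝ≥0) : ℝ) = W.Wb.L + W.Wc.L := by
  unfold TD.a
  rw [NNReal.coe_add, coe_ell, coe_ell]

theorem le_a {u v : ℝ≥0} (hv : (u : ℝ) + 2 * (fd W).B.L + 2 * (fd W).C.L ≤ v) :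
    W.a + (u + W.a) ≤ v := by
  rw [← NNReal.coe_le_coe, NNReal.coe_add, NNReal.coe_add, coe_a]
  change (u : ℝ) + 2 * W.Wb.L + 2 * W.Wc.L ≤ v at hv
  linarith

theorem Psi_eq {u v : ℝ≥0} (hv : (u : ℝ) + 2 * (fd W).B.L + 2 * (fd W).C.L ≤ v)
    (h : W.a + (u + W.a) ≤ v) :
    (fd W).Psi hv = ((inc h).comp (G3 u W.a)).comp
      ((ContinuousMap.id (OmT p u)).prodMap (W.v'.prodMk W.v)) := by
  refine ContinuousMap.ext fun x => OmT_ext ?_
  have h0 : unc W.Wb u x.2.1 x.1.1 0 = x.2.1 := unc_zero x.1.2 u.2 x.2.2.2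
  change cc W.Wc.L (rev W.Wc.L (W.Wc.T (unc W.Wb u x.2.1 x.1.1 0)))
    (cc ((u : ℝ) + 2 * W.Wb.L) (unc W.Wb u x.2.1 x.1.1) (W.Wc.T (unc W.Wb u x.2.1 x.1.1 0))) =
    cc ((W.a : ℝ≥0) : ℝ) (rev ((W.a : ℝ≥0) : ℝ) (cc W.Wb.L (rev W.Wb.L (W.Wb.T x.2.1))
      (W.Wc.T x.2.1))) (cc (u : ℝ) x.1.1 (cc W.Wb.L (rev W.Wb.L (W.Wb.T x.2.1)) (W.Wc.T x.2.1)))
  rw [h0, coe_a]
  exact conj_eq (W.Wb.mem _ x.2.2.2) (W.Wc.mem _ x.2.2.1) W.Wb.L_nonneg u.2

theorem G3_right {u a v : ℝ≥0} (h : a + (u + a) ≤ v) (h' : a + u ≤ v) (E : HS (OmT p u))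
    (y : HS (OmT p a)) :
    Hm ((inc h).comp (G3 u a)) (cx E (cx y (ptc (one p a)))) =
      Hm ((inc h').comp (mul p a u)) (cx y E) := by
  have e : ((inc h).comp (G3 u a)).comp ((ContinuousMap.id (OmT p u)).prodMap
      (atR (OmT p a) (one p a))) = ((inc h').comp (mul p a u)).comp (swC (OmT p u) (OmT p a)) := by
    refine ContinuousMap.ext fun x => OmT_ext ?_
    change cc (a : ℝ) x.2.1 (cc (u : ℝ) x.1.1 (fun _ => p)) = cc (a : ℝ) x.2.1 x.1.1
    rw [cc_const_right x.1.2]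
  rw [cx_ptc, ← Hm_cx_right, ← Hm_comp_apply, e, Hm_comp_apply, cx_swap]

theorem G3_left {u a v : ℝ≥0} (h : a + (u + a) ≤ v) (h' : u + a ≤ v) (E : HS (OmT p u))
    (y : HS (OmT p a)) :
    Hm ((inc h).comp (G3 u a)) (cx E (cx (ptc (one p a)) y)) =
      Hm ((inc h').comp (mul p u a)) (cx E y) := by
  have e1 := (one_mul_htp (p := p) h h').comp (ContinuousMap.Homotopic.refl (mul p u a))
  have e2 := LinearMap.congr_fun (Hm_homotopic e1) (cx E y)
  rw [ptc_cx, ← Hm_cx_right, ← Hm_comp_apply]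
  exact e2

theorem Hm_comp_cx {A S Y Z : Type} [TopologicalSpace A] [TopologicalSpace S] [TopologicalSpace Y]
    [TopologicalSpace Z] (G : C(A × Y, Z)) (g : C(S, Y)) (E : HS A) (s : HS S) :
    Hm (G.comp ((ContinuousMap.id A).prodMap g)) (cx E s) = Hm G (cx E (Hm g s)) := by
  rw [Hm_comp_apply, Hm_cx_right]

theorem Psi_cx {u v : ℝ≥0} (hv : (u : ℝ) + 2 * (fd W).B.L + 2 * (fd W).C.L ≤ v)
    (h1 : W.a + u ≤ v) (h2 : u + W.a ≤ v) (E : HS (OmT p u)) :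
    Hm ((fd W).Psi hv) (cx E (fd W).D.σ) =
      Hm ((inc h1).comp (mul p W.a u)) (cx W.x' E) +
      Hm ((inc h2).comp (mul p u W.a)) (cx E W.x) := by
  have h := le_a W hv
  have e : Hm (W.v'.prodMk W.v) W.sph.σ =
      cx W.x' (ptc (one p W.a)) + cx (ptc (one p W.a)) W.x := by
    refine (PrimCXx720.pair_σ W.sph W.v' W.v).trans ?_
    congr 1
    · exact congrArg (cx W.x') W.ptc_v
    · exact congrArg (fun z => cx z W.x) W.ptc_v'
  have e2 : Hm ((fd W).Psi hv) (cx E (fd W).D.σ) = Hm ((inc h).comp (G3 u W.a))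
      (cx E (Hm (W.v'.prodMk W.v) W.sph.σ)) :=
    (congrArg (fun f => Hm f (cx E W.sph.σ)) (Psi_eq W hv h)).trans
      (Hm_comp_cx ((inc h).comp (G3 u W.a)) (W.v'.prodMk W.v) E W.sph.σ)
  refine e2.trans ?_
  rw [e, map_add, map_add, G3_right h h1, G3_left h h2]

theorem mA_congr_l {s s' T t w : ℝ≥0} {x : HS (OmT p s)} {x' : HS (OmT p s')} (h : s ≤ T)
    (h' : s' ≤ T) (e : incA h x = incA h' x') (hT : T + t ≤ w) (h1 : s + t ≤ w) (h2 : s' + t ≤ w)
    (E : HS (OmT p t)) : mA h1 x E = mA h2 x' E :=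
  ((mA_inc_l hts h hT h1 x E).symm.trans (congrArg (fun z => mA hT z E) e)).trans
    (mA_inc_l hts h' hT h2 x' E)

theorem mA_congr_r {s s' T t w : ℝ≥0} {x : HS (OmT p s)} {x' : HS (OmT p s')} (h : s ≤ T)
    (h' : s' ≤ T) (e : incA h x = incA h' x') (hT : t + T ≤ w) (h1 : t + s ≤ w) (h2 : t + s' ≤ w)
    (E : HS (OmT p t)) : mA h1 E x = mA h2 E x' :=
  ((mA_inc_r h hT h1 E x).symm.trans (congrArg (fun z => mA hT E z) e)).trans
    (mA_inc_r h' hT h2 E x')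

end gen

variable {M : Type} [MetricSpace M] {p : M} {m : ℕ}

/-- **`Ψ_*(E × σ) = x E + E x`** -/
theorem psiX (W : TD p m) (C : CutH p m)
    (hx : ∃ (T : ℝ≥0) (h : C.cx' ≤ T) (h' : W.a ≤ T), incA h C.x = incA h' W.x) :
    PsiX (fd W) C := by
  intro u v hv E
  obtain ⟨T, hT, hT', e⟩ := hx
  have ha := le_a W hv
  have g1 : W.a + u ≤ v := le_trans (add_le_add le_rfl le_self_add) ha
  have g2 : u + W.a ≤ v := le_trans le_add_self ha
  set T2 : ℝ≥0 := T + (W.a + W.a) with hT2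
  have b1 : C.cx' ≤ T2 := hT.trans le_self_add
  have b2 : W.a ≤ T2 := hT'.trans le_self_add
  have b3 : W.a + W.a ≤ T2 := le_add_self
  have b4 : u ≤ v + (T2 + u) := le_trans le_add_self le_add_self
  have c1 : T2 + u ≤ v + (T2 + u) := le_add_self
  have c2 : u + T2 ≤ v + (T2 + u) := by rw [add_comm u]; exact le_add_self
  have d1 : C.cx' + u ≤ v + (T2 + u) := le_trans (add_le_add b1 le_rfl) c1
  have d2 : u + C.cx' ≤ v + (T2 + u) := le_trans (add_le_add le_rfl b1) c2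
  have d3 : W.a + u ≤ v + (T2 + u) := g1.trans le_self_add
  have d4 : u + W.a ≤ v + (T2 + u) := g2.trans le_self_add
  -- the classes agree at level `T2`
  have f1 : incA b1 C.x = incA b2 W.x := by
    have := congrArg (incA (le_self_add : T ≤ T2)) e
    exact ((incA_incA hT le_self_add b1 C.x).symm.trans this).trans
      (incA_incA hT' le_self_add b2 W.x)
  have f2 : incA b2 W.x' = incA b2 W.x := (W.x_eq b3 b2).symm
  refine ⟨v + (T2 + u), le_self_add, d1, d2, ?_⟩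
  have k0 : Hm ((fd W).Psi hv) (cx E (fd W).D.σ) = mA g1 W.x' E + mA g2 E W.x :=
    Psi_cx W hv g1 g2 E
  have k1 : incA le_self_add (mA g1 W.x' E) = mA d3 W.x' E := inc_mA g1 le_self_add d3 _ _
  have k2 : incA le_self_add (mA g2 E W.x) = mA d4 E W.x := inc_mA g2 le_self_add d4 _ _
  have k3 : mA d3 W.x' E = mA d1 C.x E := mA_congr_l b2 b1 (f2.trans f1.symm) c1 d3 d1 E
  have k4 : mA d4 E W.x = mA d2 E C.x := mA_congr_r b2 b1 f1.symm c2 d4 d2 E
  have k5 : incA (le_self_add : v ≤ v + (T2 + u)) (mA g1 W.x' E + mA g2 E W.x) =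
      incA le_self_add (mA g1 W.x' E) + incA le_self_add (mA g2 E W.x) := map_add _ _ _
  exact ((congrArg (incA (le_self_add : v ≤ v + (T2 + u))) k0).trans k5).trans
    (congrArg₂ (· + ·) (k1.trans k3) (k2.trans k4))

end Crest.Agent.R231.PsiXx733
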