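import Crest.Agent.R231.LaDef_733
import Crest.Agent.R231.PairGr_877
import Crest.Agent.R231.FinDim_315
import Crest.Agent.R231.InstC_895
import Crest.Agent.R231.IfPT_200

/-!
# Row 231 (S0357), block P, leaf Q8, part 2: from `HS (La M t)` to chains of `X M t` (helper733)

* `hc S c` : the class in `HS S` of a cycle `c` with support in `S`; `hc_eq_zero`, `hc_inc`,
  `hc_map`, `hc_surj_gr`
* `Hm_laX_natural`
* `BDH M` : bounded bars for the free Moore loops; `bdX_of : BDH M → …` chains of `X M t`;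
  `bdc_of_BDH : BDH M → BDC M` (the field `BD` of `IfPTx200.POut`)
* `NZ M j t` : a class of `H_j(La t)`, zero in `H_j(M)`, which survives;
  `not_lowP_iff : ¬ LowP M j t ↔ NZ M j t`
* `StepH M D`, `POut_of : BDH M → StepH M (n - 1) → IfPTx200.POut n M`
-/

set_option autoImplicit false
set_option linter.unusedSectionVars false

noncomputable section

open Function Topology Set
open Crest.Agent.R204

namespace Crest.Agent.R231.Q8x733

open SingAct265 EZ271 Pairx877 HtpInv334 Gr334 FinDim315 LaDefx733 Moorex725 GLugx576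
open SpecA

/-! ## classes of cycles of subsets -/

section cls

variable {E E' : Type} [TopologicalSpace E] [TopologicalSpace E'] {S T : Set E} {T' : Set E'}

theorem res_cyc {c : CE E} (h1 : c ∈ CS S) (h2 : bdE E c = 0) :
    N.bd F2 (SS.Sing S) (res S c) = 0 := by
  show bdE S (res S c) = 0
  rw [bd_res c h1, h2, map_zero]

/-- the class in `HS S` of a cycle with support in `S` -/
def hc (S : Set E) (c : CE E) (h1 : c ∈ CS S) (h2 : bdE E c = 0) : HS S :=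
  Hd.mk (N.bd F2 (SS.Sing S)) (res S c) (res_cyc h1 h2)

theorem hc_eq_zero {c : CE E} {h1 : c ∈ CS S} {h2 : bdE E c = 0} :
    hc S c h1 h2 = 0 ↔ ∃ w ∈ CS S, bdE E w = c := by
  unfold hc
  rw [Hd.mk_eq_zero]
  constructor
  · rintro ⟨w, hw⟩
    refine ⟨N.map F2 (SS.SingMap (SpecA.inc S)) w, by rw [CS_eq_range]; exact ⟨w, rfl⟩, ?_⟩
    rw [← map_bd', hw, map_inc_res c h1]
  · rintro ⟨w, hw, h⟩
    refine ⟨res S w, ?_⟩
    show bdE S (res S w) = res S c
    rw [bd_res w hw, h]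

theorem hc_add {c c' : CE E} (h1 : c ∈ CS S) (h2 : bdE E c = 0) (h1' : c' ∈ CS S)
    (h2' : bdE E c' = 0) :
    hc S (c + c') (Submodule.add_mem _ h1 h1') (by rw [map_add, h2, h2', add_zero]) =
      hc S c h1 h2 + hc S c' h1' h2' := by
  show Hd.mk _ (res S (c + c')) _ = Hd.mk _ (res S c + res S c') _
  congr 1
  exact map_add _ _ _

theorem hc_congr {c c' : CE E} {h1 : c ∈ CS S} {h2 : bdE E c = 0} {h1' : c' ∈ CS S}
    {h2' : bdE E c' = 0} (h : c = c') : hc S c h1 h2 = hc S c' h1' h2' := by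
  subst h; rfl

theorem hc_gr {j : ℕ} {c : CE E} {h1 : c ∈ CS S} {h2 : bdE E c = 0} (hc' : c ∈ gE E j) :
    hc S c h1 h2 ∈ H.gr F2 (SS.Sing S) j := mk_mem_gr (res_gr hc') _

theorem hc_surj_gr {j : ℕ} {z : HS S} (hz : z ∈ H.gr F2 (SS.Sing S) j) :
    ∃ c ∈ gE E j, ∃ (h1 : c ∈ CS S) (h2 : bdE E c = 0), z = hc S c h1 h2 := by
  obtain ⟨w, hw, hw', rfl⟩ := mem_H_gr.1 hz
  refine ⟨N.map F2 (SS.SingMap (SpecA.inc S)) w, map_mem_gr _ hw,
    by rw [CS_eq_range]; exact ⟨w, rfl⟩, by rw [← map_bd', hw', map_zero], ?_⟩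
  unfold hc
  congr 1
  exact (res_map_inc w).symm

theorem hc_surj (z : HS S) :
    ∃ (c : CE E) (h1 : c ∈ CS S) (h2 : bdE E c = 0), z = hc S c h1 h2 := by
  obtain ⟨w, hw', rfl⟩ := Hd.mk_surj _ z
  refine ⟨N.map F2 (SS.SingMap (SpecA.inc S)) w,
    by rw [CS_eq_range]; exact ⟨w, rfl⟩, by rw [← map_bd', hw', map_zero], ?_⟩
  unfold hc
  congr 1
  exact (res_map_inc w).symm

/-- the chain map of a continuous map between subsets -/
def psh (k : C(S, T')) : CE E →ₗ[F2] CE E' :=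
  N.map F2 (SS.SingMap ((SpecA.inc T').comp k)) ∘ₗ res S

theorem psh_mem (k : C(S, T')) (c : CE E) : psh k c ∈ CS T' :=
  map_mem_CS _ (fun _ x t => (k (ev x t)).2) _

theorem bd_psh (k : C(S, T')) {c : CE E} (hc : c ∈ CS S) :
    bdE E' (psh k c) = psh k (bdE E c) := by
  unfold psh
  rw [LinearMap.comp_apply, LinearMap.comp_apply, ← bd_res c hc]
  exact (map_bd' _ _ _).symm

theorem bd_psh_zero (k : C(S, T')) {c : CE E} (h1 : c ∈ CS S) (h2 : bdE E c = 0) :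
    bdE E' (psh k c) = 0 := by rw [bd_psh k h1, h2, map_zero]

theorem psh_gr (k : C(S, T')) {j : ℕ} {c : CE E} (hc : c ∈ gE E j) : psh k c ∈ gE E' j :=
  map_mem_gr _ (res_gr hc)

theorem hc_map (k : C(S, T')) {c : CE E} (h1 : c ∈ CS S) (h2 : bdE E c = 0) :
    Hm k (hc S c h1 h2) = hc T' (psh k c) (psh_mem k c) (bd_psh_zero k h1 h2) := by
  show Hd.mk _ (N.map F2 (SS.SingMap k) (res S c)) _ = Hd.mk _ (res T' (psh k c)) _
  congr 1
  unfold psh
  rw [LinearMap.comp_apply, SingMap_comp, ← map_map, res_map_inc]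

theorem psh_inc (k : C(S, T)) (hk : ∀ x : S, (k x : E) = x) {c : CE E} (hc : c ∈ CS S) :
    psh k c = c := by
  have : (SpecA.inc T).comp k = SpecA.inc S := ContinuousMap.ext hk
  rw [psh, this, LinearMap.comp_apply, map_inc_res c hc]

theorem hc_inc (k : C(S, T)) (hk : ∀ x : S, (k x : E) = x) {c : CE E} (h1 : c ∈ CS S)
    (h2 : bdE E c = 0) (h1' : c ∈ CS T) : Hm k (hc S c h1 h2) = hc T c h1' h2 := by
  rw [hc_map k h1 h2]
  exact hc_congr (psh_inc k hk h1)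

/-- maps to a space -/
theorem Hm_hc (k : C(S, E')) {c : CE E} (h1 : c ∈ CS S) (h2 : bdE E c = 0)
    {f : C(E, E')} (hf : ∀ x : S, k x = f x) :
    Hm k (hc S c h1 h2) = Hd.mk _ (N.map F2 (SS.SingMap f) c)
      (by rw [← map_bd', h2, map_zero]) := by
  show Hd.mk _ (N.map F2 (SS.SingMap k) (res S c)) _ = _
  congr 1
  have : k = f.comp (SpecA.inc S) := ContinuousMap.ext hf
  rw [this, SingMap_comp, ← map_map, map_inc_res c h1]

end cls

/-! ## the comparison maps in homology -/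

section comp

variable {M : Type} [MetricSpace M]

/-- `H(La t) → H(X t)` -/
abbrev lx {t : ℝ} (ht : 0 ≤ t) : HS (La M t) →ₗ[F2] HS (X M t) :=
  Hm (laX (M := M) ht : C(La M t, X M t))

theorem lx_bijective {t : ℝ} (ht : 0 ≤ t) : Bijective (lx (M := M) ht) :=
  Hm_bijective_of_homeo (laX ht)

theorem lx_gr {t : ℝ} (ht : 0 ≤ t) {j : ℕ} {z : HS (La M t)}
    (hz : z ∈ H.gr F2 (SS.Sing (La M t)) j) : lx ht z ∈ H.gr F2 (SS.Sing (X M t)) j :=
  H_map_mem_gr _ hz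

theorem lx_surj_gr {t : ℝ} (ht : 0 ≤ t) {j : ℕ} {y : HS (X M t)}
    (hy : y ∈ H.gr F2 (SS.Sing (X M t)) j) :
    ∃ z ∈ H.gr F2 (SS.Sing (La M t)) j, lx ht z = y := by
  refine ⟨Hm ((laX (M := M) ht).symm : C(X M t, La M t)) y, H_map_mem_gr _ hy, ?_⟩
  rw [← Hm_comp_apply]
  have : ((laX (M := M) ht : C(La M t, X M t)).comp
      ((laX (M := M) ht).symm : C(X M t, La M t))) = ContinuousMap.id _ := by
    ext x; simp
  rw [this, Hm_id]

/-- naturality -/
theorem lx_inc {s t : ℝ} (hs : 0 ≤ s) (h : s ≤ t) (z : HS (La M s)) :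
    lx (hs.trans h) (Hm (incL h) z) = Hm (incX h) (lx hs z) := by
  rw [← Hm_comp_apply, ← Hm_comp_apply, Hm_homotopic (laX_natural hs h)]

theorem evX_lx {t : ℝ} (ht : 0 ≤ t) (z : HS (La M t)) :
    Hm (evX M t) (lx ht z) = Hm (evL M t) z := by
  rw [← Hm_comp_apply, evX_laX]

/-! ### bounded bars -/

variable (M) in
/-- **bounded bars for the free Moore loops** -/
def BDH : Prop := ∃ C : ℝ, 0 ≤ C ∧ ∀ t : ℝ, 0 ≤ t → ∀ (j : ℕ) (z : HS (La M t)),
  z ∈ H.gr F2 (SS.Sing (La M t)) j → (∃ (s : ℝ) (h : t ≤ s), Hm (incL h) z = 0) →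
  ∀ h : t ≤ t + C, Hm (incL h) z = 0

/-- chain form: a cycle of `X t` which bounds in some `X s` bounds in `X (t + C)` -/
theorem bdX_of (hB : BDH M) : ∃ C : ℝ, 0 ≤ C ∧ ∀ t : ℝ, 0 ≤ t → ∀ c ∈ CS (X M t),
    (∃ (s : ℝ), ∃ w ∈ CS (X M s), bdE (Lp M) w = c) →
    ∃ w ∈ CS (X M (t + C)), bdE (Lp M) w = c := by
  obtain ⟨C, hC, hB⟩ := hB
  refine ⟨C, hC, fun t ht => ?_⟩
  -- homogeneous chains
  have key : ∀ j : ℕ, ∀ c ∈ gE (Lp M) j, c ∈ CS (X M t) →
      (∃ (s : ℝ), ∃ w ∈ CS (X M s), bdE (Lp M) w = c) →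
      ∃ w ∈ CS (X M (t + C)), bdE (Lp M) w = c := by
    rintro j c hj hc ⟨s0, w, hw, hwc⟩
    have hcyc : bdE (Lp M) c = 0 := by rw [← hwc, bd_bdE]
    obtain ⟨z, hz, hzx⟩ := lx_surj_gr ht (hc_gr (h1 := hc) (h2 := hcyc) hj)
    have hts : t ≤ max t s0 := le_max_left _ _
    have hC' : t ≤ t + C := by linarith
    have h1 : Hm (incL hts) z = 0 := by
      refine (lx_bijective (ht.trans hts)).1 ?_
      rw [map_zero, lx_inc ht hts, hzx, hc_inc (incX hts) (fun _ => rfl) hc hcyc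
        (CS_mono (X_mono hts) hc), hc_eq_zero]
      exact ⟨w, CS_mono (X_mono (le_max_right _ _)) hw, hwc⟩
    have h2 := hB t ht j z hz ⟨_, hts, h1⟩ hC'
    have h3 : Hm (incX hC') (lx ht z) = 0 := by rw [← lx_inc ht hC', h2, map_zero]
    rw [hzx, hc_inc (incX hC') (fun _ => rfl) hc hcyc (CS_mono (X_mono hC') hc),
      hc_eq_zero] at h3
    exact h3
  rintro c hc ⟨s, w, hw, hwc⟩
  obtain ⟨n, -, hn⟩ := exists_sum_prN c
  have hcyc : bdE (Lp M) c = 0 := by rw [← hwc, bd_bdE]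
  have hm : ∀ m : ℕ, pE (Lp M) m c ∈ (CS (X M (t + C))).map (bdE (Lp M)) := by
    intro m
    obtain ⟨v, hv, hv'⟩ := key m (pE (Lp M) m c) (prN_mem _ _) (prN_mem_CS _ _ hc)
      ⟨s, pE (Lp M) (m + 1) w, prN_mem_CS _ _ hw, by rw [← pE_bd, hwc]⟩
    exact ⟨v, hv, hv'⟩
  have : c ∈ (CS (X M (t + C))).map (bdE (Lp M)) := mem_of_pE hm
  obtain ⟨v, hv, hv'⟩ := this
  exact ⟨v, hv, hv'⟩

theorem bdp_of_BDH (hB : BDH M) : Instx895.BDP M := by
  obtain ⟨C, hC, h⟩ := bdX_of hB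
  refine ⟨C, hC, fun t ht z hz hzb => ?_⟩
  obtain ⟨s, hs⟩ := Instx895.mem_Binf0.1 hzb
  obtain ⟨w, hw, hw'⟩ := mem_Bp.1 hs
  -- `z = d w + c0`
  set c0 := z - bdE (Lp M) w with hc0
  have h1 : z - c0 ∈ CS (X M t) := Submodule.sub_mem _ hz (CS_mono (X_mono ht) hw')
  obtain ⟨v, hv, hv'⟩ := h t ht (z - c0) h1 ⟨s, w, hw, by rw [hc0]; abel⟩
  refine mem_Bp.2 ⟨v, hv, ?_⟩
  rw [hv', sub_sub_cancel]
  exact hw'

/-- **`BD` for `X M t`, literally the field `BD` of `IfPTx200.POut`** -/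
theorem bdc_of_BDH (hB : BDH M) : Instx895.BDC M := Instx895.bdc_of (bdp_of_BDH hB)

/-! ### surviving classes -/

variable (M) in
/-- there is a class of degree `j` of `La t`, zero in `H(M)`, which survives in all `La s` -/
def NZ (j : ℕ) (t : ℝ) : Prop := ∃ z : HS (La M t), z ∈ H.gr F2 (SS.Sing (La M t)) j ∧
  Hm (evL M t) z = 0 ∧ ∀ (s : ℝ) (h : t ≤ s), Hm (incL h) z ≠ 0

/-- constant loops -/
def cstC (M : Type) [MetricSpace M] : C(M, Lp M) := ⟨fun p => ContinuousMap.const _ p, by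
  exact ContinuousMap.continuous_const'⟩

/-- evaluation at `0` -/
def evC (M : Type) [MetricSpace M] : C(Lp M, M) := ⟨fun γ => γ 0, continuous_eval_const _⟩

theorem cstC_mem (p : M) {t : ℝ} (ht : 0 ≤ t) : cstC M p ∈ X M t := const_mem ht p

theorem cstC_evC {γ : Lp M} (h : γ ∈ X M 0) : cstC M (evC M γ) = γ := by
  ext x
  exact (mem_X_zero.1 h x).symm

/-- the retraction of chains to the chains of constant loops -/
def rho (M : Type) [MetricSpace M] : CE (Lp M) →ₗ[F2] CE (Lp M) :=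
  N.map F2 (SS.SingMap ((cstC M).comp (evC M)))

theorem rho_mem (c : CE (Lp M)) : rho M c ∈ CS (X M 0) :=
  map_mem_CS _ (fun _ _ _ => cstC_mem _ le_rfl) _

theorem rho_of_mem : ∀ c ∈ CS (X M 0), rho M c = c := by
  refine eq_on_CS (f := rho M) (g := LinearMap.id) fun n σ h => ?_
  rw [rho, N.map_sx, LinearMap.id_apply]
  congr 1
  exact sing_ext fun t => cstC_evC (h t)

theorem bd_rho (c : CE (Lp M)) : bdE (Lp M) (rho M c) = rho M (bdE (Lp M) c) :=
  (map_bd' _ _ _).symm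

theorem rho_gr {j : ℕ} {c : CE (Lp M)} (hc : c ∈ gE (Lp M) j) : rho M c ∈ gE (Lp M) j :=
  map_mem_gr _ hc

theorem ev_rho (c : CE (Lp M)) :
    N.map F2 (SS.SingMap (evC M)) (rho M c) = N.map F2 (SS.SingMap (evC M)) c := by
  rw [rho, map_map, ← SingMap_comp]
  have : (evC M).comp ((cstC M).comp (evC M)) = evC M := rfl
  rw [this]

theorem rho_eq (c : CE (Lp M)) :
    rho M c = N.map F2 (SS.SingMap (cstC M)) (N.map F2 (SS.SingMap (evC M)) c) := by
  rw [rho, map_map, ← SingMap_comp]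

theorem cst_mem {t : ℝ} (ht : 0 ≤ t) (c : CE M) :
    N.map F2 (SS.SingMap (cstC M)) c ∈ CS (X M t) :=
  map_mem_CS _ (fun _ _ _ => cstC_mem _ ht) _

theorem add_self_C (c : CE (Lp M)) : c + c = 0 := ZModModule.add_self c

/-- **relative and absolute survival agree** -/
theorem not_lowP_iff {j : ℕ} {t : ℝ} (ht : 0 ≤ t) : ¬ Instx895.LowP M j t ↔ NZ M j t := by
  rw [Instx895.lowP_iff]
  constructor
  · intro h
    push Not at h
    obtain ⟨x, hj, ⟨hx1, hx2⟩, hxn⟩ := h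
    replace hx2 : bdE (Lp M) x ∈ CS (X M 0) := hx2
    set y := x + rho M x with hy
    have hyt : y ∈ CS (X M t) := Submodule.add_mem _ hx1 (CS_mono (X_mono ht) (rho_mem x))
    have hyc : bdE (Lp M) y = 0 := by
      rw [hy, map_add, bd_rho, rho_of_mem _ hx2, add_self_C]
    have hyj : y ∈ gE (Lp M) j := Submodule.add_mem _ hj (rho_gr hj)
    obtain ⟨z, hz, hzx⟩ := lx_surj_gr ht (hc_gr (h1 := hyt) (h2 := hyc) hyj)
    refine ⟨z, hz, ?_, fun s h hs => hxn ?_⟩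
    · rw [← evX_lx ht, hzx, Hm_hc (evX M t) hyt hyc (f := evC M) fun _ => rfl]
      refine Hd.mk_eq_zero.2 ⟨0, ?_⟩
      rw [map_zero, hy, map_add, ev_rho]
      exact (ZModModule.add_self _).symm
    · have h1 : Hm (incX h) (lx ht z) = 0 := by rw [← lx_inc ht h, hs, map_zero]
      rw [hzx, hc_inc (incX h) (fun _ => rfl) hyt hyc (CS_mono (X_mono h) hyt), hc_eq_zero] at h1
      obtain ⟨w, hw, hwy⟩ := h1
      refine Instx895.mem_Binf0.2 ⟨s, mem_Bp.2 ⟨w, hw, ?_⟩⟩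
      rw [hwy, hy]
      have : x - (x + rho M x) = - rho M x := by abel
      rw [this]
      exact Submodule.neg_mem _ (rho_mem x)
  · rintro ⟨z, hz, hze, hzn⟩ hlow
    obtain ⟨y, hyj, hyt, hyc, hyz⟩ := hc_surj_gr (lx_gr ht hz)
    have h1 : y ∈ Zp (X M t) (X M 0) := ⟨hyt, by
      show bdE (Lp M) y ∈ CS (X M 0)
      rw [hyc]; exact Submodule.zero_mem _⟩
    obtain ⟨s, hs⟩ := Instx895.mem_Binf0.1 (hlow y hyj h1)
    obtain ⟨w, hw, hw'⟩ := mem_Bp.1 hs
    -- `e_* y = d v`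
    rw [← evX_lx ht, hyz, Hm_hc (evX M t) hyt hyc (f := evC M) (fun _ => rfl),
      Hd.mk_eq_zero] at hze
    obtain ⟨v, hv⟩ := hze
    have hts : t ≤ max t s := le_max_left _ _
    have h0s : 0 ≤ max t s := ht.trans hts
    apply hzn _ hts
    refine (lx_bijective h0s).1 ?_
    rw [map_zero, lx_inc ht hts, hyz, hc_inc (incX hts) (fun _ => rfl) hyt hyc
      (CS_mono (X_mono hts) hyt), hc_eq_zero]
    -- `y = d w + c0`, `c0 = rho c0`
    set c0 := y - bdE (Lp M) w with hc0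
    have e0 : rho M c0 = c0 := rho_of_mem _ hw'
    have e1 : rho M c0 = bdE (Lp M) (N.map F2 (SS.SingMap (cstC M)) v + rho M w) := by
      have e2 : rho M y = bdE (Lp M) (N.map F2 (SS.SingMap (cstC M)) v) := by
        rw [rho_eq, ← hv]
        exact map_bd' _ _ _
      rw [hc0, map_sub, e2, ← bd_rho, map_add, sub_eq_add_neg, ← map_neg]
      congr 1
      rw [← neg_one_smul F2, show (-1 : F2) = 1 from rfl, one_smul]
    refine ⟨w + (N.map F2 (SS.SingMap (cstC M)) v + rho M w),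
      Submodule.add_mem _ (CS_mono (X_mono (le_max_right _ _)) hw)
        (Submodule.add_mem _ (cst_mem h0s v) (CS_mono (X_mono h0s) (rho_mem w))), ?_⟩
    rw [map_add, ← e1, e0, hc0]
    abel

variable (M) in
/-- **the step at homology level** -/
def StepH (D : ℕ) : Prop := ∃ C : ℝ, 0 ≤ C ∧ ∀ t : ℝ, 0 ≤ t → ∀ K : ℕ, 1 ≤ K →
  (D = 1 → K % 2 = 1) → NZ M (K * D) t → NZ M ((K + 2) * D) (t + C)

/-- the step for relative chains -/
theorem step_of {D : ℕ} (h : StepH M D) : ∃ C : ℝ, 0 ≤ C ∧ ∀ t : ℝ, 0 ≤ t → ∀ K : ℕ, 1 ≤ K →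
    (D = 1 → K % 2 = 1) → ¬ Instx895.LowP M (K * D) t →
    ¬ Instx895.LowP M ((K + 2) * D) (t + C) := by
  obtain ⟨C, hC, h⟩ := h
  refine ⟨C, hC, fun t ht K h1 h2 hl => ?_⟩
  rw [not_lowP_iff ht] at hl
  rw [not_lowP_iff (by linarith)]
  exact h t ht K h1 h2 hl

/-- **OUTPUT OF BLOCK P from the homology level** -/
theorem POut_of {n : ℕ} (hn : 2 ≤ n) (hB : BDH M) (hS : StepH M (n - 1)) :
    IfPTx200.POut n M where
  BD := bdc_of_BDH hB
  step := by
    obtain ⟨C, hC, h⟩ := step_of hS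
    refine ⟨C, hC, fun t ht i hl => ?_⟩
    have h1 := IfPTx200.KK_pos n i
    have h2 : n - 1 = 1 → IfPTx200.KK n i % 2 = 1 := by
      intro h
      unfold IfPTx200.KK
      have : n % 2 = 0 := by omega
      rw [if_pos this]
      omega
    rw [IfPTx200.ee_add_one hn] at hl ⊢
    rw [IfPTx200.KK_succ]
    exact h t ht _ h1 h2 hl

end comp

end Crest.Agent.R231.Q8x733
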