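import Crest.Agent.R231.Q8_733
import Crest.Agent.R231.OmSp_725

/-!
# Row 231 (S0357), block P, leaf Q8, part 3: the based loops (helper733)

* `Ob p t = {γ ∈ X M t | γ 0 = p}`;
* `omX : Om p t ≃ₜ Ob p t` (`0 ≤ t`), `incOm`, `incOb`, `omX_natural`
* `iL : C(Om p t, La M t)`, `iX : C(Ob p t, X M t)`, `laX_iL` (strict)
* `ox : HS (Om p t) → HS (Ob p t)`, `ox_bijective`, `ox_gr`, `ox_surj_gr`, `ox_inc`, `lx_iL`
* chain form: `om_rep`, `om_zero_iff`
* `OmT p t` of `OmSp_725` is `Om p (t : ℝ)` as a type, `OmSpx725.inc = incOm`.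
-/

set_option autoImplicit false
set_option linter.unusedSectionVars false

noncomputable section

open Function Topology Set
open Crest.Agent.R204

namespace Crest.Agent.R231.Q8x733

open SingAct265 EZ271 Pairx877 HtpInv334 Gr334 FinDim315 LaDefx733 Moorex725 GLugx576
open SpecA

section based

variable {M : Type} [MetricSpace M]

/-- `t`-Lipschitz loops based at `p` -/
def Ob (p : M) (t : ℝ) : Set (Lp M) := {γ | γ ∈ X M t ∧ γ 0 = p}

theorem Ob_subset (p : M) (t : ℝ) : Ob p t ⊆ X M t := fun _ h => h.1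

theorem Ob_mono (p : M) {s t : ℝ} (h : s ≤ t) : Ob p s ⊆ Ob p t := fun _ hg => ⟨X_mono h hg.1, hg.2⟩

variable {p : M}

/-- the inclusion `Om s → Om t` -/
def incOm {s t : ℝ} (h : s ≤ t) : C(Om p s, Om p t) where
  toFun g := ⟨g.1, Om_mono p h g.2⟩
  continuous_toFun := continuous_subtype_val.subtype_mk _

/-- the inclusion `Ob s → Ob t` -/
def incOb {s t : ℝ} (h : s ≤ t) : C(Ob p s, Ob p t) where
  toFun g := ⟨g.1, Ob_mono p h g.2⟩
  continuous_toFun := continuous_subtype_val.subtype_mk _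

@[simp] theorem incOm_val {s t : ℝ} (h : s ≤ t) (g : Om p s) : (incOm h g).1 = g.1 := rfl
@[simp] theorem incOb_val {s t : ℝ} (h : s ≤ t) (g : Ob p s) : (incOb h g).1 = g.1 := rfl

theorem inc_eq_incOm {s t : NNReal} (h : s ≤ t) :
    OmSpx725.inc (p := p) h = incOm (NNReal.coe_le_coe.2 h) := rfl

/-- based loops as free loops -/
def iL (p : M) (t : ℝ) : C(Om p t, La M t) where
  toFun g := ⟨g.1, Om_subset_La p t g.2⟩
  continuous_toFun := continuous_subtype_val.subtype_mk _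

/-- based loops as free loops -/
def iX (p : M) (t : ℝ) : C(Ob p t, X M t) where
  toFun g := ⟨g.1, g.2.1⟩
  continuous_toFun := continuous_subtype_val.subtype_mk _

@[simp] theorem iL_val (t : ℝ) (g : Om p t) : (iL p t g).1 = g.1 := rfl
@[simp] theorem iX_val (t : ℝ) (g : Ob p t) : (iX p t g).1 = g.1 := rfl

theorem iL_incOm {s t : ℝ} (h : s ≤ t) : (iL p t).comp (incOm h) = (incL h).comp (iL p s) := rfl
theorem iX_incOb {s t : ℝ} (h : s ≤ t) : (iX p t).comp (incOb h) = (incX h).comp (iX p s) := rfl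

theorem evL_iL (t : ℝ) : (evL M t).comp (iL p t) = ContinuousMap.const _ p :=
  ContinuousMap.ext fun g => g.2.2.1 0 le_rfl

theorem evX_iX (t : ℝ) : (evX M t).comp (iX p t) = ContinuousMap.const _ p :=
  ContinuousMap.ext fun g => g.2.2

/-- **based Moore loops of length `≤ t` are the based `t`-Lipschitz loops** -/
def omX (p : M) {t : ℝ} (ht : 0 ≤ t) : Om p t ≃ₜ Ob p t where
  toFun g := ⟨(laX ht (iL p t g)).1, (laX ht (iL p t g)).2, by
    rw [laX_zero]; exact g.2.2.1 0 le_rfl⟩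
  invFun γ := ⟨((laX ht).symm (iX p t γ)).1, mem_Om_iff.2 ⟨((laX ht).symm (iX p t γ)).2, by
    rw [laX_symm_val, ofX_zero]; exact γ.2.2⟩⟩
  left_inv g := by
    have h := congrArg Subtype.val ((laX ht).symm_apply_apply (iL p t g))
    exact Subtype.ext h
  right_inv γ := by
    have h := congrArg Subtype.val ((laX ht).apply_symm_apply (iX p t γ))
    exact Subtype.ext h
  continuous_toFun := (continuous_subtype_val.comp
    ((laX ht).continuous.comp (iL p t).continuous)).subtype_mk _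
  continuous_invFun := (continuous_subtype_val.comp
    ((laX ht).symm.continuous.comp (iX p t).continuous)).subtype_mk _

theorem omX_coe {t : ℝ} (ht : 0 ≤ t) (g : Om p t) {u : ℝ} (h0 : 0 ≤ u) (h1 : u ≤ 1) :
    (omX p ht g).1 (u : UnitAddCircle) = g.1 (u * t) := laX_coe ht _ h0 h1

/-- strict compatibility with the inclusions in the free loops -/
theorem laX_iL {t : ℝ} (ht : 0 ≤ t) : (laX (M := M) ht : C(La M t, X M t)).comp (iL p t) =
    (iX p t).comp (omX p ht : C(Om p t, Ob p t)) := rfl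

/-- **naturality of `omX` up to homotopy** -/
theorem omX_natural {s t : ℝ} (hs : 0 ≤ s) (h : s ≤ t) :
    ((omX p (hs.trans h) : C(Om p t, Ob p t)).comp (incOm h)).Homotopic
      ((incOb h).comp (omX p hs : C(Om p s, Ob p s))) := by
  have hc0 : ∀ r : unitInterval, s ≤ t - (r : ℝ) * (t - s) := fun r => by
    have h1 : (r : ℝ) * (t - s) ≤ 1 * (t - s) :=
      mul_le_mul_of_nonneg_right r.2.2 (by linarith)
    linarith
  have hc1 : ∀ r : unitInterval, t - (r : ℝ) * (t - s) ≤ t := fun r => by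
    have h1 : 0 ≤ (r : ℝ) * (t - s) := mul_nonneg r.2.1 (by linarith)
    linarith
  have hg : ∀ z : unitInterval × Om p s, z.2.1 ∈ LL M := fun z => z.2.2.1
  have h0 : ∀ z : unitInterval × Om p s, z.2.1 0 = p := fun z => z.2.2.2.1 0 le_rfl
  have hh : ∀ z : unitInterval × Om p s, z.2.1 (t - (z.1 : ℝ) * (t - s)) = z.2.1 0 := fun z => by
    rw [h0]; exact z.2.2.2.2 _ (hc0 z.1)
  have hcont : Continuous fun z : unitInterval × Om p s =>
      mkL (t - (z.1 : ℝ) * (t - s)) z.2.1 (hg z) (hh z) :=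
    continuous_mkL (g := fun z : unitInterval × Om p s => z.2.1)
      (c := fun z => t - (z.1 : ℝ) * (t - s))
      (continuous_subtype_val.comp continuous_snd) hg (by fun_prop) hh
  refine ⟨⟨⟨fun z => ⟨mkL (t - (z.1 : ℝ) * (t - s)) z.2.1 (hg z) (hh z),
    mkL_mem _ _ (hs.trans (hc0 z.1)) (hc1 z.1), by rw [mkL_zero, h0]⟩, hcont.subtype_mk _⟩,
    fun g => ?_, fun g => ?_⟩⟩
  · refine Subtype.ext (ContinuousMap.ext fun x => ?_)
    obtain ⟨u, hu, rfl⟩ := exists_Icc x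
    show mkL _ _ (hg (0, g)) (hh (0, g)) (u : UnitAddCircle) =
      (omX p (hs.trans h) (incOm h g)).1 (u : UnitAddCircle)
    rw [omX_coe _ _ hu.1 hu.2, mkL_coe _ _ hu.1 hu.2]
    simp
  · refine Subtype.ext (ContinuousMap.ext fun x => ?_)
    obtain ⟨u, hu, rfl⟩ := exists_Icc x
    show mkL _ _ (hg (1, g)) (hh (1, g)) (u : UnitAddCircle) =
      (omX p hs g).1 (u : UnitAddCircle)
    rw [omX_coe _ _ hu.1 hu.2, mkL_coe _ _ hu.1 hu.2]
    simp

/-! ### homology -/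

/-- `H(Om t) → H(Ob t)` -/
abbrev ox (p : M) {t : ℝ} (ht : 0 ≤ t) : HS (Om p t) →ₗ[F2] HS (Ob p t) :=
  Hm (omX p ht : C(Om p t, Ob p t))

theorem ox_bijective {t : ℝ} (ht : 0 ≤ t) : Bijective (ox p ht) := Hm_bijective_of_homeo (omX p ht)

theorem ox_gr {t : ℝ} (ht : 0 ≤ t) {j : ℕ} {z : HS (Om p t)}
    (hz : z ∈ H.gr F2 (SS.Sing (Om p t)) j) : ox p ht z ∈ H.gr F2 (SS.Sing (Ob p t)) j :=
  H_map_mem_gr _ hz

theorem ox_surj_gr {t : ℝ} (ht : 0 ≤ t) {j : ℕ} {y : HS (Ob p t)}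
    (hy : y ∈ H.gr F2 (SS.Sing (Ob p t)) j) :
    ∃ z ∈ H.gr F2 (SS.Sing (Om p t)) j, ox p ht z = y := by
  refine ⟨Hm ((omX p ht).symm : C(Ob p t, Om p t)) y, H_map_mem_gr _ hy, ?_⟩
  rw [← Hm_comp_apply]
  have : ((omX p ht : C(Om p t, Ob p t)).comp
      ((omX p ht).symm : C(Ob p t, Om p t))) = ContinuousMap.id _ := by
    ext x; simp
  rw [this, Hm_id]

/-- naturality -/
theorem ox_inc {s t : ℝ} (hs : 0 ≤ s) (h : s ≤ t) (z : HS (Om p s)) :
    ox p (hs.trans h) (Hm (incOm h) z) = Hm (incOb h) (ox p hs z) := by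
  rw [← Hm_comp_apply, ← Hm_comp_apply, Hm_homotopic (omX_natural hs h)]

/-- compatibility with the free loops -/
theorem lx_iL {t : ℝ} (ht : 0 ≤ t) (z : HS (Om p t)) :
    lx ht (Hm (iL p t) z) = Hm (iX p t) (ox p ht z) := by
  rw [← Hm_comp_apply, ← Hm_comp_apply, laX_iL]

/-! ### chain forms -/

/-- every class of `HS (Om p t)` is the class of a cycle with support in `Ob p t` -/
theorem om_rep {t : ℝ} (ht : 0 ≤ t) {j : ℕ} {z : HS (Om p t)}
    (hz : z ∈ H.gr F2 (SS.Sing (Om p t)) j) :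
    ∃ c ∈ gE (Lp M) j, ∃ (h1 : c ∈ CS (Ob p t)) (h2 : bdE (Lp M) c = 0),
      ox p ht z = hc (Ob p t) c h1 h2 := hc_surj_gr (ox_gr ht hz)

/-- every homogeneous cycle with support in `Ob p t` comes from `HS (Om p t)` -/
theorem om_of_cyc {t : ℝ} (ht : 0 ≤ t) {j : ℕ} {c : CE (Lp M)} (hj : c ∈ gE (Lp M) j)
    (h1 : c ∈ CS (Ob p t)) (h2 : bdE (Lp M) c = 0) :
    ∃ z ∈ H.gr F2 (SS.Sing (Om p t)) j, ox p ht z = hc (Ob p t) c h1 h2 :=
  ox_surj_gr ht (hc_gr hj)

/-- the class of `c` dies at level `s` iff `c` bounds in `Ob p s` -/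
theorem om_zero_iff {t s : ℝ} (ht : 0 ≤ t) (h : t ≤ s) {c : CE (Lp M)}
    {h1 : c ∈ CS (Ob p t)} {h2 : bdE (Lp M) c = 0} {z : HS (Om p t)}
    (hz : ox p ht z = hc (Ob p t) c h1 h2) :
    Hm (incOm h) z = 0 ↔ ∃ w ∈ CS (Ob p s), bdE (Lp M) w = c := by
  rw [← hc_eq_zero (h1 := CS_mono (Ob_mono p h) h1) (h2 := h2),
    ← hc_inc (incOb h) (fun _ => rfl) h1 h2, ← hz, ← ox_inc ht h]
  constructor
  · intro h; rw [h, map_zero]
  · intro h'
    exact (ox_bijective (ht.trans h)).1 (by rw [h', map_zero])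

/-- two classes agree at level `s` iff the cycles are homologous in `Ob p s` -/
theorem om_eq_iff {t t' s : ℝ} (ht : 0 ≤ t) (ht' : 0 ≤ t') (h : t ≤ s) (h' : t' ≤ s)
    {c c' : CE (Lp M)} {h1 : c ∈ CS (Ob p t)} {h2 : bdE (Lp M) c = 0} {z : HS (Om p t)}
    {h1' : c' ∈ CS (Ob p t')} {h2' : bdE (Lp M) c' = 0} {z' : HS (Om p t')}
    (hz : ox p ht z = hc (Ob p t) c h1 h2) (hz' : ox p ht' z' = hc (Ob p t') c' h1' h2') :
    Hm (incOm h) z = Hm (incOm h') z' ↔ ∃ w ∈ CS (Ob p s), bdE (Lp M) w = c + c' := by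
  have e1 : ox p (ht.trans h) (Hm (incOm h) z) =
      hc (Ob p s) c (CS_mono (Ob_mono p h) h1) h2 := by
    rw [ox_inc ht h, hz, hc_inc (incOb h) (fun _ => rfl) h1 h2]
  have e2 : ox p (ht.trans h) (Hm (incOm h') z') =
      hc (Ob p s) c' (CS_mono (Ob_mono p h') h1') h2' := by
    have := ox_inc (p := p) ht' h' z'
    rw [hz', hc_inc (incOb h') (fun _ => rfl) h1' h2' (CS_mono (Ob_mono p h') h1')] at this
    exact this
  rw [← hc_eq_zero (h1 := Submodule.add_mem _ (CS_mono (Ob_mono p h) h1)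
    (CS_mono (Ob_mono p h') h1')) (h2 := by rw [map_add, h2, h2', add_zero]),
    hc_add (CS_mono (Ob_mono p h) h1) h2 (CS_mono (Ob_mono p h') h1') h2', ← e1, ← e2, ← map_add]
  constructor
  · intro h; rw [h, ZModModule.add_self, map_zero]
  · intro h'
    have := (ox_bijective (ht.trans h)).1 (h'.trans (map_zero _).symm)
    exact sub_eq_zero.1 (by rw [ZModModule.sub_eq_add]; exact this)

end based

end Crest.Agent.R231.Q8x733
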