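import Crest.Agent.R231.EqvTC_937
import Crest.Agent.R231.TMap_569
import Crest.Agent.R231.A4Of_125
import Crest.Agent.R231.SplitR2_737

/-!
# Row 231, block R (helper125): `RK` from a homotopy of loops, acyclicity of strict pairs

* `rk_of` : a homotopy `F` of `X_b` commuting with the half rotation gives the data `RK`
* `acy_of` : `Acy (gs (CS (A ∪ U)) ⊔ gs (CS (A ∪ V))) (gs (CS (A ∪ (U ∪ V))))` if `U`, `V` have disjoint
  closures;  `strict_of`.
-/

set_option autoImplicit false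

noncomputable section

open Function Topology Set
open Crest.Agent.R204

namespace Crest.Agent.R231.RKGeox125

open SingAct265 EZ271 EZ847 Pairx877 GLugx576 TActx569 TCx569 IfAx978 Gr334 Instx895 SplitAlgx125
open A4Ofx125 Eqvx937

/-! ## naturality of the prism operator -/

section nat

variable {K K' L L' : SS}

theorem pr_nat {G : SS.Hom (K.prod (SS.std 1)) L} {G' : SS.Hom (K'.prod (SS.std 1)) L'}
    (f : SS.Hom K K') (f' : SS.Hom L L')
    (h : ∀ (n : ℕ) (x : K.S n) (e : (SS.std 1).S n), G'.app n (f.app n x, e) = f'.app n (G.app n (x, e)))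
    (z : N F2 K) : pr G' (N.map F2 f z) = N.map F2 f' (pr G z) := by
  rw [pr_apply, pr_apply]
  have e2 : cross F2 (N.map F2 f z) (N.sx F2 (iota 1)) =
      N.map F2 (SS.prodMap f (SS.Hom.id (SS.std 1))) (cross F2 z (N.sx F2 (iota 1))) := by
    rw [map_cross, EZ271.map_idHom]
  rw [e2, map_map, map_map]
  congr 1
  have e3 : G'.comp (SS.prodMap f (SS.Hom.id (SS.std 1))) = f'.comp G :=
    SS.Hom.ext (funext fun n => funext fun x => h n x.1 x.2)
  rw [e3]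

end nat

section top

variable {E E' : Type} [TopologicalSpace E] [TopologicalSpace E'] {V : Set E}

/-- restriction of a continuous map to an invariant subset -/
def rsC (ρ : C(E, E)) (hV : ∀ x ∈ V, ρ x ∈ V) : C(V, V) :=
  ⟨fun x => ⟨ρ x.1, hV _ x.2⟩, by fun_prop⟩

theorem res_map (ρ : C(E, E)) (hV : ∀ x ∈ V, ρ x ∈ V) :
    ∀ z ∈ CS V, res V (N.map F2 (SS.SingMap ρ) z) = N.map F2 (SS.SingMap (rsC ρ hV)) (res V z) := by
  refine eq_on_CS (f := res V ∘ₗ N.map F2 (SS.SingMap ρ))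
    (g := N.map F2 (SS.SingMap (rsC ρ hV)) ∘ₗ res V) fun n σ hσ => ?_
  rw [LinearMap.comp_apply, LinearMap.comp_apply, N.map_sx, res_sx hσ, N.map_sx]
  have h1 : ∀ t, ev ((SS.SingMap ρ).app n σ) t ∈ V := fun t => hV _ (hσ t)
  rw [res_sx h1]
  rfl

variable {F : E → ℝ → E'} {hF : ContinuousOn (fun p : E × ℝ => F p.1 p.2) (V ×ˢ Set.Icc (0 : ℝ) 1)}

/-- the prism operator commutes with a symmetry of the homotopy -/
theorem prV_map (ρ : C(E, E)) (ρ' : C(E', E')) (hV : ∀ x ∈ V, ρ x ∈ V)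
    (hE : ∀ x ∈ V, ∀ r ∈ Set.Icc (0 : ℝ) 1, F (ρ x) r = ρ' (F x r)) :
    ∀ z ∈ CS V, prV V F hF (N.map F2 (SS.SingMap ρ) z) = N.map F2 (SS.SingMap ρ') (prV V F hF z) := by
  intro z hz
  rw [prV_apply, prV_apply, res_map ρ hV z hz]
  refine pr_nat _ _ (fun n x e => ?_) _
  refine sing_ext fun t => ?_
  exact hE _ (ev x t).2 _ (bar e t).2

theorem push_map {f : E → E'} {hf : ContinuousOn f V} (ρ : C(E, E)) (ρ' : C(E', E'))
    (hV : ∀ x ∈ V, ρ x ∈ V) (hE : ∀ x ∈ V, f (ρ x) = ρ' (f x)) :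
    ∀ z ∈ CS V, push V f hf (N.map F2 (SS.SingMap ρ) z) = N.map F2 (SS.SingMap ρ') (push V f hf z) := by
  intro z hz
  rw [push, LinearMap.comp_apply, LinearMap.comp_apply, res_map ρ hV z hz, map_map, map_map]
  congr 1
  have e : (SS.SingMap (⟨V.domRestrict f, hf.domRestrict⟩ : C(V, E'))).comp (SS.SingMap (rsC ρ hV)) =
      (SS.SingMap ρ').comp (SS.SingMap ⟨V.domRestrict f, hf.domRestrict⟩) :=
    SS.Hom.ext (funext fun n => funext fun σ => sing_ext fun t => hE _ (ev σ t).2)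
  rw [e]

theorem push_mem' {f : E → E'} {hf : ContinuousOn f V} {A : Set E} {Y' : Set E'}
    (h : ∀ x ∈ A, x ∈ V → f x ∈ Y') : ∀ c ∈ CS A, push V f hf c ∈ CS Y' := by
  refine map_mem_of_CS fun n σ hσ => ?_
  by_cases hx : ∀ t, ev σ t ∈ V
  · rw [push_sx hx]
    exact sx_mem_CS fun t => h _ (hσ t) (hx t)
  · rw [push_sx_neg hx]; exact Submodule.zero_mem _

theorem push_mem_self {f : E → E'} {hf : ContinuousOn f V} {Y' : Set E'}
    (h : ∀ x ∈ V, f x ∈ Y') (c : CE E) : push V f hf c ∈ CS Y' := by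
  have h1 : c ∈ CS (Set.univ : Set E) := by rw [CS_univ]; trivial
  exact push_mem' (A := Set.univ) (fun x _ hx => h x hx) c h1

end top

/-! ## `RK` -/

section rk

variable {M : Type} [MetricSpace M]

/-- the half rotation -/
abbrev hfm (M : Type) [MetricSpace M] : C(Lp M, Lp M) := GLugx576.rot ((1 / 2 : ℝ) : UnitAddCircle)

variable {a b : ℝ} {F : Lp M → ℝ → Lp M} {Y1 Y2 : Set (Lp M)}

/-- **`RK` from a homotopy** -/
theorem rk_of (hab : a ≤ b)
    (hF : ContinuousOn (fun p : Lp M × ℝ => F p.1 p.2) (X M b ×ˢ Set.Icc (0 : ℝ) 1))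
    (h0 : ∀ γ ∈ X M b, F γ 0 = γ)
    (hE : ∀ γ ∈ X M b, ∀ r ∈ Set.Icc (0 : ℝ) 1, F (hfm M γ) r = hfm M (F γ r))
    (ha : ∀ γ ∈ X M a, ∀ r ∈ Set.Icc (0 : ℝ) 1, F γ r ∈ X M a)
    (hb : ∀ γ ∈ X M b, ∀ r ∈ Set.Icc (0 : ℝ) 1, F γ r ∈ X M b)
    (h1 : ∀ γ ∈ X M b, F γ 1 ∈ Y2) (h2b : Y2 ⊆ X M b)
    (h21 : ∀ γ ∈ Y2, ∀ r ∈ Set.Icc (0 : ℝ) 1, F γ r ∈ Y1) :
    ∃ (r : ∀ j, (TL M).C j →ₗ[F2] (TL M).C j) (K : ∀ j, (TL M).C j →ₗ[F2] (TL M).C (j + 1)),
      RK (X := TL M) (FF M a) (FF M b) (gs (CS Y2)) (gs (CS Y1)) r K := by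
  have i0 : (0 : ℝ) ∈ Set.Icc (0 : ℝ) 1 := Set.left_mem_Icc.2 zero_le_one
  have i1 : (1 : ℝ) ∈ Set.Icc (0 : ℝ) 1 := Set.right_mem_Icc.2 zero_le_one
  have c0 : ContinuousOn (fun γ => F γ 0) (X M b) := contAt i0 hF
  have c1 : ContinuousOn (fun γ => F γ 1) (X M b) := contAt i1 hF
  have hWL : ∀ {Y : Set (Lp M)}, Y ⊆ X M b → CS Y ≤ WL M := fun h => CS_le_CL' h
  have hXab : X M a ⊆ X M b := X_mono hab
  have hrot : ∀ γ ∈ X M b, hfm M γ ∈ X M b := fun γ hγ => rot_mem hγ _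
  have hid : ∀ z ∈ CS (X M b), push (X M b) (fun γ => F γ 0) c0 z = z := by
    intro z hz
    rw [push_congr (g := fun x => x) (hg := continuousOn_id) h0]
    exact push_id z hz
  have hht : ∀ z ∈ CS (X M b), bdE (Lp M) (prV (X M b) F hF z) + prV (X M b) F hF (bdE (Lp M) z) =
      z + push (X M b) (fun γ => F γ 1) c1 z := by
    intro z hz
    rw [bd_prV c0 c1 z hz, hid z hz, add_comm]
  have mr : ∀ j, ∀ x ∈ N.gr F2 (SS.Sing (Lp M)) j ⊓ WL M,
      push (X M b) (fun γ => F γ 1) c1 x ∈ N.gr F2 (SS.Sing (Lp M)) j ⊓ WL M := fun j x hx =>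
    ⟨push_mem_gr hx.1, hWL h2b (push_mem_self h1 x)⟩
  have mK : ∀ j, ∀ x ∈ N.gr F2 (SS.Sing (Lp M)) j ⊓ WL M,
      prV (X M b) F hF x ∈ N.gr F2 (SS.Sing (Lp M)) (j + 1) ⊓ WL M := fun j x hx =>
    ⟨prV_mem_gr hx.1, CS_le_CL b (prV_mem_self hb x)⟩
  refine ⟨fun j => (push (X M b) (fun γ => F γ 1) c1).restrict (mr j),
    fun j => (prV (X M b) F hF).restrict (mK j), ?_⟩
  exact {
    r_d := fun j x hx => Subtype.ext (bd_push (hf := c1) _ hx)
    r_g := fun j x hx => Subtype.ext (by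
      change (LA M).gN (push (X M b) (fun γ => F γ 1) c1 x.1) =
        push (X M b) (fun γ => F γ 1) c1 ((LA M).gN x.1)
      rw [gN_LA, gN_LA]
      exact (push_map (hfm M) (hfm M) hrot (fun γ hγ => hE γ hγ 1 i1) _ hx).symm)
    K_g := fun j x hx => Subtype.ext (by
      change (LA M).gN (prV (X M b) F hF x.1) = prV (X M b) F hF ((LA M).gN x.1)
      rw [gN_LA, gN_LA]
      exact (prV_map (hfm M) (hfm M) hrot hE _ hx).symm)
    hK0 := fun x hx => Subtype.ext (by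
      have h := hht _ hx
      have e0 : bdE (Lp M) x.1 = 0 := Exc406.bd_gr_zero x.2.1
      have h' : bdE (Lp M) (prV (X M b) F hF x.1) + prV (X M b) F hF (bdE (Lp M) x.1) =
        x.1 + push (X M b) (fun γ => F γ 1) c1 x.1 := h
      rw [e0, map_zero, add_zero] at h'
      exact h')
    hK := fun j x hx => Subtype.ext (hht _ hx)
    r_A := fun j x hx => push_mem' (hf := c1) (A := X M a) (fun γ hγ _ => ha γ hγ 1 i1) _ hx
    K_A := fun j x hx => prV_mem (hF := hF) (A := X M a) (fun γ hγ r hr => ha γ hγ.1 r hr) _ hx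
    r_B := fun j x hx => push_mem_self (hf := c1) h1 _
    K_B := fun j x hx => prV_mem_self (hF := hF) hb _
    K_S := fun j x hx => prV_mem (hF := hF) (A := Y2) (fun γ hγ r hr => h21 γ hγ.1 r hr) _ hx }

end rk

/-! ## acyclicity and strictness -/

section acy

variable {M : Type} [MetricSpace M]

/-- elements of a supremum of graded submodules -/
theorem mem_gs_sup {P Q : Submodule F2 (CE (Lp M))} (hP : Homog P) (hQ : Homog Q) (hPL : P ≤ WL M)
    (hQL : Q ≤ WL M) {j : ℕ} {x : (mix M).C j} (h : vl j x ∈ P ⊔ Q) : x ∈ (gs P ⊔ gs Q) j := by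
  obtain ⟨p, hp, q, hq, hpq⟩ := Submodule.mem_sup.1 h
  have h1 := congrArg (prN F2 (SS.Sing (Lp M)) j) hpq
  rw [map_add, prN_of_mem (vl_mem_gr x)] at h1
  refine Submodule.mem_sup.2 ⟨mk (prN F2 (SS.Sing (Lp M)) j p) (prN_mem j p) (hPL (hP j p hp)),
    hP j p hp, mk (prN F2 (SS.Sing (Lp M)) j q) (prN_mem j q) (hQL (hQ j q hq)), hQ j q hq, ?_⟩
  refine vl_inj j ?_
  rw [map_add, vl_mk, vl_mk]
  exact h1

theorem gs_sup_le {P Q : Submodule F2 (CE (Lp M))} {j : ℕ} {x : (mix M).C j}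
    (h : x ∈ (gs P ⊔ gs Q) j) : vl j x ∈ P ⊔ Q := by
  obtain ⟨p, hp, q, hq, rfl⟩ := Submodule.mem_sup.1 (show x ∈ gs P j ⊔ gs Q j from h)
  rw [map_add]
  exact Submodule.add_mem_sup hp hq

/-- **acyclicity of the strict pair** -/
theorem acy_of {A U V : Set (Lp M)} {t : ℝ} (h : Disjoint (closure U) (closure V))
    (hA : A ⊆ X M t) (hU : U ⊆ X M t) (hV : V ⊆ X M t) :
    Acy (X := TL M) (gs (CS (A ∪ U)) ⊔ gs (CS (A ∪ V))) (gs (CS (A ∪ (U ∪ V)))) := by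
  intro j x hx
  have hx1 : vl j x ∈ CS (A ∪ (U ∪ V)) := Zt_le hx
  have hx2 : bdE (Lp M) (vl j x) ∈ CS (A ∪ U) ⊔ CS (A ∪ V) := by
    cases j with
    | zero =>
      have e0 : bdE (Lp M) (vl 0 x) = 0 := Exc406.bd_gr_zero (vl_mem_gr x)
      rw [e0]; exact Submodule.zero_mem _
    | succ j => exact gs_sup_le (M := M) (P := CS (A ∪ U)) (Q := CS (A ∪ V)) hx.2
  obtain ⟨w, hw, hwg, hw2⟩ := SplitR2x737.split_small h (vl_mem_gr x) hx1 hx2
  have hWL : CS (A ∪ (U ∪ V)) ≤ WL M := CS_le_CL' (union_subset hA (union_subset hU hV))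
  refine mem_Bt.2 ⟨mk w hwg (hWL hw), hw, ?_⟩
  refine mem_gs_sup (homog_CS _) (homog_CS _) (CS_le_CL' (union_subset hA hU))
    (CS_le_CL' (union_subset hA hV)) ?_
  exact hw2

theorem strict_of {A U V : Set (Lp M)} (h : Disjoint (closure U) (closure V)) :
    Strict (X := TL M) (gs (CS A)) (gs (CS (A ∪ U))) (gs (CS (A ∪ V))) where
  p j := gs_mono (CS_mono subset_union_left) j
  m j := gs_mono (CS_mono subset_union_left) j
  inf j := by
    intro x hx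
    have h1 : vl j x ∈ CS (A ∪ U) ⊓ CS (A ∪ V) := hx
    rw [SplitR2x737.split_inf h] at h1
    exact h1

theorem st_of {Y : Set (Lp M)} (hY : ∀ γ ∈ Y, ∀ v : UnitAddCircle, GLugx576.rot v γ ∈ Y) :
    St (X := TL M) (gs (CS Y)) where
  d _ _ hx := bd_mem_CS _ hx
  g _ _ hx := by
    have h := stb_CS (ptAct_LA (M := M)) (fun v γ hγ => hY γ hγ v)
    exact h.g _ hx
  h _ _ hx := by
    have h := stb_CS (ptAct_LA (M := M)) (fun v γ hγ => hY γ hγ v)
    exact h.h _ hx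

end acy

end Crest.Agent.R231.RKGeox125
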