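import Crest.Agent.R231.CutW_749
import Crest.Agent.R231.CX_780
import Crest.Agent.R231.PrimCX_720

/-!
# Row 231, block P (helper749): the cut operator and relation (R), abstractly

`CD Q Z B S U V` : a cylinder `Q` over `Z` covered by `U`, `V`, a map `Gb : V → B`, a map
`ev : U ∩ V → S`.  If `H(S) = ⟨pt, σ⟩` (`SphLike S m`, helper780) the cut operator `D : H(Z) → H(B)` is
defined by `(Gb, ev)_* (cut y) = D y × σ` (`D_spec`, `D_unique`).

* `rel_mu` : `Gc : U → B'`, `μ : B × S → B'`, `Gc ~ μ (Gb, ev)` on `U ∩ V` ⟹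
  `(Gc i0)_* y + (Gc i1)_* y = μ_* (D y × σ)`;
* `rel_nu` : the same for `μ (b, z) = ν (b, (v z, v' z))`, with the diagonal formula for `σ`.
* `map_D`, `D_mem` (degrees), `ev_cut`.
-/

set_option autoImplicit false
set_option maxHeartbeats 200000

noncomputable section

open Function Topology

namespace Crest.Agent.R231.RelAx749

open Crest.Agent.R204 Crest.Agent.R204.SpecA Crest.Agent.R231.FinDim315 CutWx749 CXx780

/-- homogeneous part -/
def pr {X : Type} [TopologicalSpace X] (k : ℕ) : HS X →ₗ[F2] HS X := Gr334.prH F2 (SS.Sing X) k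

theorem pr_of_mem {X : Type} [TopologicalSpace X] {k : ℕ} {a : HS X} (ha : a ∈ hg X k) :
    pr k a = a := Gr334.prH_of_mem ha

theorem pr_mem {X : Type} [TopologicalSpace X] (k : ℕ) (a : HS X) : pr k a ∈ hg X k :=
  Gr334.prH_mem k a

theorem pr_Hm {X Y : Type} [TopologicalSpace X] [TopologicalSpace Y] (f : C(X, Y)) (k : ℕ)
    (a : HS X) : Hm f (pr k a) = pr k (Hm f a) := (Gr334.prH_map (SS.SingMap f) k a).symm

/-- the cut class of a homogeneous class is homogeneous -/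
theorem cut_mem {Q Z : Type} [TopologicalSpace Q] [TopologicalSpace Z] {U V : Set Q}
    (c : Cyl Z U V) {k : ℕ} {y : HS Z} (hy : y ∈ hg Z k) :
    c.cut y ∈ hg (U ∩ V : Set Q) k := by
  have h : pr k (c.cut y) = c.cut y := by
    refine c.unique (α := c.bdry y) ⟨?_, ?_⟩ (c.isW_cut y)
    · rw [pr_Hm, (c.isW_cut y).1]
      refine pr_of_mem ?_
      rw [c.bdry_apply]
      exact Submodule.add_mem _ (Hm_mem_hg _ hy) (Hm_mem_hg _ hy)
    · rw [pr_Hm, (c.isW_cut y).2, map_zero]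
  rw [← h]
  exact pr_mem k _

/-- cut data -/
structure CD {Q : Type} [TopologicalSpace Q] (Z B S : Type) [TopologicalSpace Z]
    [TopologicalSpace B] [TopologicalSpace S] (U V : Set Q) where
  cyl : Cyl Z U V
  Gb : C(V, B)
  ev : C((U ∩ V : Set Q), S)

namespace CD

variable {Q Z B S : Type} [TopologicalSpace Q] [TopologicalSpace Z] [TopologicalSpace B]
  [TopologicalSpace S] {U V : Set Q} (c : CD Z B S U V) {m : ℕ} (hS : SphLike S m)

/-- `(Gb, ev)` -/
def bc : C((U ∩ V : Set Q), B × S) := (c.Gb.comp (ir U V)).prodMk c.ev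

@[simp] theorem bc_apply (x : (U ∩ V : Set Q)) : c.bc x = (c.Gb (ir U V x), c.ev x) := rfl

theorem fst_bc : (fstC B S).comp c.bc = c.Gb.comp (ir U V) := rfl

theorem snd_bc : (sndC B S).comp c.bc = c.ev := rfl

theorem bc_eq {α : HS U} {w : HS (U ∩ V : Set Q)} (hw : IsW (il U V) (ir U V) α w) :
    Hm c.bc w = cx (sl hS.φ (Hm c.bc w)) hS.σ := by
  refine hS.eq_cx_of_fst ?_
  rw [← Hm_comp_apply, c.fst_bc, Hm_comp_apply, hw.2, map_zero]

/-- **the cut operator** -/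
def D : HS Z →ₗ[F2] HS B := sl hS.φ ∘ₗ Hm c.bc ∘ₗ c.cyl.cut

theorem D_apply (y : HS Z) : c.D hS y = sl hS.φ (Hm c.bc (c.cyl.cut y)) := rfl

theorem D_spec (y : HS Z) : Hm c.bc (c.cyl.cut y) = cx (c.D hS y) hS.σ :=
  c.bc_eq hS (c.cyl.isW_cut y)

theorem D_unique {y : HS Z} {w : HS (U ∩ V : Set Q)}
    (hw : IsW (il U V) (ir U V) (c.cyl.bdry y) w) {D' : HS B} (h : Hm c.bc w = cx D' hS.σ) :
    c.D hS y = D' := by
  refine hS.cx_σ_inj ?_
  rw [← c.D_spec, ← h, c.cyl.unique hw (c.cyl.isW_cut y)]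

theorem D_eq_sl {y : HS Z} {w : HS (U ∩ V : Set Q)}
    (hw : IsW (il U V) (ir U V) (c.cyl.bdry y) w) : c.D hS y = sl hS.φ (Hm c.bc w) :=
  c.D_unique hS hw (c.bc_eq hS hw)

/-- `D` has degree `-m` -/
theorem D_mem {j : ℕ} {y : HS Z} (hy : y ∈ hg Z (j + m)) : c.D hS y ∈ hg B j := by
  have h1 := Hm_mem_hg c.bc (cut_mem c.cyl hy)
  rw [D_apply]
  exact sl_mem (q := m) hS.φ_deg (n := j) h1

theorem D_low {j : ℕ} {y : HS Z} (hy : y ∈ hg Z j) (hj : j < m) : c.D hS y = 0 := by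
  have h1 := Hm_mem_hg c.bc (cut_mem c.cyl hy)
  rw [D_apply]
  exact sl_eq_zero (q := m) hS.φ_deg (n := j) hj h1

theorem ev_cut (y : HS Z) : Hm c.ev (c.cyl.cut y) = ep (c.D hS y) • hS.σ := by
  rw [← c.snd_bc, Hm_comp_apply, c.D_spec hS, Hm_snd_cx]

/-- **relation (R)**, first form -/
theorem rel_mu {B' : Type} [TopologicalSpace B'] (Gc : C(U, B')) (μ : C(B × S, B'))
    (h : (Gc.comp (il U V)).Homotopic (μ.comp c.bc)) (y : HS Z) :
    Hm Gc (Hm c.cyl.i0 y) + Hm Gc (Hm c.cyl.i1 y) = Hm μ (cx (c.D hS y) hS.σ) := by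
  rw [← map_add, ← c.cyl.cut_l, ← Hm_comp_apply, Hm_homotopic h, Hm_comp_apply, c.D_spec hS]

/-- **relation (R)**, second form -/
theorem rel_nu {B' O O' : Type} [TopologicalSpace B'] [TopologicalSpace O]
    [TopologicalSpace O'] (Gc : C(U, B')) (v : C(S, O)) (v' : C(S, O')) (ν : C(B × (O × O'), B'))
    (h : (Gc.comp (il U V)).Homotopic
      ((ν.comp ((ContinuousMap.id B).prodMap (v.prodMk v'))).comp c.bc)) (y : HS Z) :
    Hm Gc (Hm c.cyl.i0 y) + Hm Gc (Hm c.cyl.i1 y) =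
      Hm ν (cx (c.D hS y) (cx (Hm v hS.σ) (ptc (v' hS.s₀)))) +
      Hm ν (cx (c.D hS y) (cx (ptc (v hS.s₀)) (Hm v' hS.σ))) := by
  rw [c.rel_mu hS Gc _ h, Hm_comp_apply, Hm_cx, Hm_id, PrimCXx720.pair_σ, map_add, map_add]

/-- naturality of the cut operator -/
theorem map_D {Q' Z' B' : Type} [TopologicalSpace Q'] [TopologicalSpace Z'] [TopologicalSpace B']
    {U' V' : Set Q'} (c' : CD Z' B' S U' V') (f : C(Q, Q')) (hU : Set.MapsTo f U U')
    (hV : Set.MapsTo f V V') (g : C(B, B')) {y : HS Z} {y' : HS Z'}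
    (hy : Hm (rmap f hU) (c.cyl.bdry y) = c'.cyl.bdry y')
    (h : (c'.bc.comp (rmap f (hU.inter_inter hV))).Homotopic
      ((g.prodMap (ContinuousMap.id S)).comp c.bc)) :
    c'.D hS y' = Hm g (c.D hS y) := by
  refine c'.D_unique hS (w := Hm (rmap f (hU.inter_inter hV)) (c.cyl.cut y)) ?_ ?_
  · rw [← hy]
    exact (c.cyl.isW_cut y).rmap f hU hV
  · rw [← Hm_comp_apply, Hm_homotopic h, Hm_comp_apply, c.D_spec hS, Hm_cx, Hm_id]

end CD

end Crest.Agent.R231.RelAx749
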