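import Crest.Agent.R231.RelR_749
import Crest.Agent.R231.LevInst_969

/-!
# Row 231, block P, leaf Q4a (helper749): the fields `Dc`, `R` of `LevA` (helper969's `LevInst_969`)
-/

set_option autoImplicit false
set_option maxHeartbeats 200000

noncomputable section

open Function Topology NNReal

namespace Crest.Agent.R231.RelRx749

open Set Crest.Agent.R204 Crest.Agent.R231.FinDim315 CutWx749 CXx780 RelAx749
  Moorex725 CutMx725 OmSpx725 LevInstx969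

open Crest.Agent.R204.SpecA hiding inc

namespace TD

variable {M : Type} [PseudoMetricSpace M] {p : M} {m : ℕ} (W : TD p m)

/-- the cut operator with values at any level -/
def Dc {t u : ℝ≥0} (h : t + W.b ≤ u) : HS (OmT p t) →ₗ[F2] HS (Om2T p u) := inc2A h ∘ₗ W.D t

theorem Dc_apply {t u : ℝ≥0} (h : t + W.b ≤ u) (y : HS (OmT p t)) :
    W.Dc h y = inc2A h (W.D t y) := rfl

theorem inc2A_inc2A {s t u : ℝ≥0} (h1 : s ≤ t) (h2 : t ≤ u) (h3 : s ≤ u) (y : HS (Om2T p s)) :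
    inc2A h2 (inc2A h1 y) = inc2A h3 y := by
  rw [inc2A, inc2A, ← Hm_comp_apply]; rfl

theorem Dc_gr {t u : ℝ≥0} (h : t + W.b ≤ u) (j : ℕ) (y : HS (OmT p t))
    (hy : y ∈ hg (OmT p t) (j + m)) : W.Dc h y ∈ hg (Om2T p u) j :=
  Hm_mem_hg (inc2 h) (W.D_mem hy)

theorem Dc_lt {t u : ℝ≥0} (h : t + W.b ≤ u) (j : ℕ) (y : HS (OmT p t))
    (hy : y ∈ hg (OmT p t) j) (hj : j < m) : W.Dc h y = 0 := by
  rw [Dc_apply, W.D_low hy hj, map_zero]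

theorem Dc_inc {s t u : ℝ≥0} (h1 : s ≤ t) (h : t + W.b ≤ u) (h2 : s + W.b ≤ u)
    (y : HS (OmT p s)) : W.Dc h (incA h1 y) = W.Dc h2 y := by
  have h3 : s + W.b ≤ t + W.b := add_le_add h1 le_rfl
  have e : W.D t (incA h1 y) = inc2A h3 (W.D s y) := W.D_inc h1 h3 y
  rw [Dc_apply, Dc_apply, e, inc2A_inc2A h3 h h2]

theorem inc2_Dc {t u v : ℝ≥0} (h : t + W.b ≤ u) (h1 : u ≤ v) (h2 : t + W.b ≤ v)
    (y : HS (OmT p t)) : inc2A h1 (W.Dc h y) = W.Dc h2 y := by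
  rw [Dc_apply, Dc_apply, inc2A_inc2A h h1 h2]

/-- the loss of relation (R) -/
def cR : ℝ≥0 := W.b + (W.a + W.a) + 2 * ell W.Wc

theorem cR_le : W.b + W.a ≤ W.cR := by
  unfold cR
  calc W.b + W.a ≤ W.b + (W.a + W.a) := add_le_add le_rfl le_self_add
    _ ≤ _ := le_self_add

theorem le_of_cR {t u : ℝ≥0} (h : t + W.cR ≤ u) :
    t + 2 * ell W.Wc ≤ u ∧ t + W.b + (W.a + W.a) ≤ u ∧ t + W.b + W.a ≤ u := by
  have h1 : (t : ℝ) + ((W.b + (W.a + W.a)) + 2 * ell W.Wc : ℝ≥0) ≤ u := by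
    exact_mod_cast h
  have ha : (0 : ℝ) ≤ W.a := W.a.2
  have hb : (0 : ℝ) ≤ W.b := W.b.2
  have hc : (0 : ℝ) ≤ (ell W.Wc : ℝ≥0) := (ell W.Wc).2
  refine ⟨?_, ?_, ?_⟩ <;>
  · rw [← NNReal.coe_le_coe]
    push_cast at h1 ⊢
    linarith

theorem oA_mid1 (ht : Hts p) {t u v q a b : ℝ≥0} (h2 : t + b ≤ v) (h3 : a ≤ q)
    (h4 : v + q ≤ u) (k3 : t + b + a ≤ u) (d : HS (Om2T p (t + b))) (x : HS (OmT p a)) :
    oA h4 (inc2A h2 d) (i1A h3 x) = Hm (inc2 k3) (Hm (mid1 p (t + b) a) (cx d x)) := by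
  have h5 : t + b + q ≤ u := (add_le_add h2 le_rfl).trans h4
  rw [oA_inc_l h2 h4 h5, oA_i1 ht h3 h5 k3, Hm_comp_apply]

theorem oA_mid2 (ht : Hts p) {t u v q a b : ℝ≥0} (h2 : t + b ≤ v) (h3 : a ≤ q)
    (h4 : v + q ≤ u) (k3 : t + b + a ≤ u) (d : HS (Om2T p (t + b))) (x : HS (OmT p a)) :
    oA h4 (inc2A h2 d) (i2A h3 x) = Hm (inc2 k3) (Hm (mid2 p (t + b) a) (cx d x)) := by
  have h5 : t + b + q ≤ u := (add_le_add h2 le_rfl).trans h4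
  rw [oA_inc_l h2 h4 h5, oA_i2 ht h3 h5 k3, Hm_comp_apply]

/-- **relation (R)**, in the form of `LevA` -/
theorem R (ht : Hts p) {t u v q : ℝ≥0} (h : t + W.cR ≤ u) (h1 : t ≤ u) (h2 : t + W.b ≤ v)
    (h3 : W.a ≤ q) (h4 : v + q ≤ u) (y : HS (OmT p t)) :
    i1A h1 y + i2A h1 y = oA h4 (W.Dc h2 y) (i1A h3 W.x + i2A h3 W.x) := by
  obtain ⟨k1, k2, k3⟩ := W.le_of_cR h
  have e0 : oA h4 (W.Dc h2 y) (i1A h3 W.x + i2A h3 W.x) =
      oA h4 (W.Dc h2 y) (i1A h3 W.x) + oA h4 (W.Dc h2 y) (i2A h3 W.x) := LinearMap.map_add _ _ _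
  exact (add_eq (W.rel t h1 k1 k2 k3 y) (i1A_eq h1 y).symm (i2A_eq h1 y).symm
    (oA_mid1 ht h2 h3 h4 k3 (W.D t y) W.x).symm
    (oA_mid2 ht h2 h3 h4 k3 (W.D t y) W.x).symm).trans e0.symm

end TD

end Crest.Agent.R231.RelRx749
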