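import Mathlib

/-!
# Row 231, block GM (helper898): rank bounds for subquotients, over `F_2`

`RkLE Z B C` : the image of `Z` in `M ⧸ B` has dimension `≤ C`.
For a pair of pairs of subsets, `Z` = relative cycles of the small pair, `B` = relative boundaries of the
big pair, `RkLE Z B C` says that the map in homology has rank `≤ C`.

* `RkLE.mono`, `RkLE.of_rel` (transport along a linear relation), `RkLE.add`
* `rkLE_iff_finrank`, `RkLE.of_finite`
-/

set_option autoImplicit false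

noncomputable section

namespace Crest.Agent.R231.GM898

variable {M M' : Type*} [AddCommGroup M] [Module (ZMod 2) M] [AddCommGroup M'] [Module (ZMod 2) M']

/-- the image of `Z` in `M ⧸ B` has dimension `≤ C` -/
def RkLE (Z B : Submodule (ZMod 2) M) (C : ℕ) : Prop :=
  ∃ w : Fin C → M, Z ≤ Submodule.span (ZMod 2) (Set.range w) ⊔ B

theorem RkLE.mono {Z B Z' B' : Submodule (ZMod 2) M} {C C' : ℕ} (h : RkLE Z B C) (hZ : Z' ≤ Z)
    (hB : B ≤ B') (hC : C ≤ C') : RkLE Z' B' C' := by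
  obtain ⟨w, hw⟩ := h
  refine ⟨fun i => if h : (i : ℕ) < C then w ⟨i, h⟩ else 0, ?_⟩
  refine hZ.trans (hw.trans (sup_le_sup (Submodule.span_le.2 ?_) hB))
  rintro _ ⟨i, rfl⟩
  refine Submodule.subset_span ⟨⟨i, i.2.trans_le hC⟩, ?_⟩
  simp

theorem RkLE.mono_left {Z B Z' : Submodule (ZMod 2) M} {C : ℕ} (h : RkLE Z B C) (hZ : Z' ≤ Z) :
    RkLE Z' B C := h.mono hZ le_rfl le_rfl

theorem RkLE.mono_right {Z B B' : Submodule (ZMod 2) M} {C : ℕ} (h : RkLE Z B C) (hB : B ≤ B') :
    RkLE Z B' C := h.mono le_rfl hB le_rfl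

theorem RkLE.mono_C {Z B : Submodule (ZMod 2) M} {C C' : ℕ} (h : RkLE Z B C) (hC : C ≤ C') :
    RkLE Z B C' := h.mono le_rfl le_rfl hC

theorem rkLE_zero {Z B : Submodule (ZMod 2) M} (h : Z ≤ B) (C : ℕ) : RkLE Z B C :=
  ⟨fun _ => 0, h.trans le_sup_right⟩

/-- a spanning finite dimensional subspace gives a rank bound -/
theorem RkLE.of_sup {Z B W : Submodule (ZMod 2) M} [hW : Module.Finite (ZMod 2) W] {C : ℕ}
    (hC : Module.finrank (ZMod 2) W ≤ C) (h : Z ≤ W ⊔ B) : RkLE Z B C := by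
  let b := Module.finBasis (ZMod 2) W
  have h1 : RkLE Z B (Module.finrank (ZMod 2) W) := by
    refine ⟨fun i => (b i : M), h.trans (sup_le_sup ?_ le_rfl)⟩
    intro x hx
    have h2 : (⟨x, hx⟩ : W) ∈ Submodule.span (ZMod 2) (Set.range b) := by
      rw [b.span_eq]; trivial
    have h3 := Submodule.mem_map_of_mem (f := W.subtype) h2
    rw [Submodule.map_span] at h3
    have h4 : (W.subtype '' Set.range b) = Set.range (fun i => (b i : M)) := by
      rw [← Set.range_comp]; rfl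
    rw [h4] at h3
    exact h3
  exact h1.mono_C hC

/-- `RkLE` in terms of the finrank of the image in the quotient -/
theorem RkLE.iff_finrank {Z B : Submodule (ZMod 2) M} {C : ℕ} :
    RkLE Z B C ↔ Module.Finite (ZMod 2) (Z.map B.mkQ) ∧ Module.finrank (ZMod 2) (Z.map B.mkQ) ≤ C := by
  constructor
  · rintro ⟨w, hw⟩
    have h1 : Z.map B.mkQ ≤ Submodule.span (ZMod 2) (Set.range fun i => B.mkQ (w i)) := by
      refine (Submodule.map_mono hw).trans ?_
      rw [Submodule.map_sup, Submodule.map_span, ← Set.range_comp, sup_le_iff]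
      refine ⟨le_rfl, ?_⟩
      rintro _ ⟨x, hx, rfl⟩
      have : B.mkQ x = 0 := by simpa using hx
      rw [this]; exact zero_mem _
    have h2 : Module.Finite (ZMod 2) (Submodule.span (ZMod 2) (Set.range fun i => B.mkQ (w i))) :=
      Module.Finite.span_of_finite _ (Set.finite_range _)
    refine ⟨Module.Finite.of_injective (Submodule.inclusion h1) (Submodule.inclusion_injective h1), ?_⟩
    refine (Submodule.finrank_mono h1).trans ?_
    refine (finrank_range_le_card (R := ZMod 2) (fun i => B.mkQ (w i))).trans ?_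
    simp
  · rintro ⟨h1, h2⟩
    -- choose lifts of a basis
    let b := Module.finBasis (ZMod 2) (Z.map B.mkQ)
    have h3 : ∀ i, ∃ z : M, z ∈ Z ∧ B.mkQ z = (b i : M ⧸ B) := fun i => by
      obtain ⟨z, hz, e⟩ := (b i).2
      exact ⟨z, hz, e⟩
    choose z hz hze using h3
    have h4 : RkLE Z B (Module.finrank (ZMod 2) (Z.map B.mkQ)) := by
      refine ⟨z, ?_⟩
      intro x hx
      have h5 : (⟨B.mkQ x, ⟨x, hx, rfl⟩⟩ : Z.map B.mkQ) ∈ Submodule.span (ZMod 2) (Set.range b) := by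
        rw [b.span_eq]; trivial
      have h6 := Submodule.mem_map_of_mem (f := (Z.map B.mkQ).subtype) h5
      rw [Submodule.map_span, ← Set.range_comp] at h6
      have h7 : ((Z.map B.mkQ).subtype ∘ b) = B.mkQ ∘ z := by
        funext i
        exact (hze i).symm
      rw [h7, Set.range_comp, ← Submodule.map_span] at h6
      obtain ⟨y, hy, hyx⟩ := h6
      have h8 : B.mkQ y = B.mkQ x := hyx
      have h9 : x - y ∈ B := by
        rw [← Submodule.Quotient.mk_eq_zero, Submodule.Quotient.mk_sub]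
        exact sub_eq_zero.2 h8.symm
      have h10 : x = y + (x - y) := by abel
      rw [h10]
      exact Submodule.add_mem_sup hy h9
    exact h4.mono_C h2

/-- transport of a rank bound along a linear relation `S` -/
theorem RkLE.of_rel {Z B : Submodule (ZMod 2) M} {Z' B' : Submodule (ZMod 2) M'} {C : ℕ}
    (S : Submodule (ZMod 2) (M × M')) (h1 : ∀ z ∈ Z, ∃ a, (z, a) ∈ S) (h2 : ∀ z a, (z, a) ∈ S → a ∈ Z')
    (h3 : ∀ z a, (z, a) ∈ S → a ∈ B' → z ∈ B) (h : RkLE Z' B' C) : RkLE Z B C := by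
  rw [RkLE.iff_finrank] at h
  obtain ⟨hf, hr⟩ := h
  -- the image of `S` in `M' ⧸ B'`
  set θ : S →ₗ[ZMod 2] (M' ⧸ B') := B'.mkQ ∘ₗ LinearMap.snd (ZMod 2) M M' ∘ₗ S.subtype with hθ
  have e1 : LinearMap.range θ ≤ Z'.map B'.mkQ := by
    rintro _ ⟨⟨⟨z, a⟩, hs⟩, rfl⟩
    exact ⟨a, h2 z a hs, rfl⟩
  have hfin : Module.Finite (ZMod 2) (LinearMap.range θ) :=
    Module.Finite.of_injective (Submodule.inclusion e1) (Submodule.inclusion_injective e1)
  have hrk : Module.finrank (ZMod 2) (LinearMap.range θ) ≤ C := (Submodule.finrank_mono e1).trans hr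
  let b := Module.finBasis (ZMod 2) (LinearMap.range θ)
  have e2 : ∀ i, ∃ s : S, θ s = b i := fun i => (b i).2
  choose s hs using e2
  have h4 : RkLE Z B (Module.finrank (ZMod 2) (LinearMap.range θ)) := by
    refine ⟨fun i => (s i).1.1, ?_⟩
    intro z hz
    obtain ⟨a, ha⟩ := h1 z hz
    have h5 : (⟨θ ⟨(z, a), ha⟩, ⟨_, rfl⟩⟩ : LinearMap.range θ) ∈
        Submodule.span (ZMod 2) (Set.range b) := by
      rw [b.span_eq]; trivial
    have h6 := Submodule.mem_map_of_mem (f := (LinearMap.range θ).subtype) h5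
    rw [Submodule.map_span, ← Set.range_comp] at h6
    have h7 : ((LinearMap.range θ).subtype ∘ b) = θ ∘ s := by
      funext i
      exact (hs i).symm
    rw [h7, Set.range_comp, ← Submodule.map_span] at h6
    obtain ⟨y, hy, hyx⟩ := h6
    have h8 : θ (⟨(z, a), ha⟩ - y) = 0 := by
      rw [map_sub]
      exact sub_eq_zero.2 hyx.symm
    have h9 : ((⟨(z, a), ha⟩ : S) - y).1.2 ∈ B' := by
      have : B'.mkQ ((⟨(z, a), ha⟩ : S) - y).1.2 = 0 := h8
      rwa [Submodule.mkQ_apply, Submodule.Quotient.mk_eq_zero] at this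
    have h10 : ((⟨(z, a), ha⟩ : S) - y).1.1 ∈ B := by
      refine h3 _ _ ?_ h9
      exact ((⟨(z, a), ha⟩ : S) - y).2
    have h11 : y.1.1 ∈ Submodule.span (ZMod 2) (Set.range fun i => (s i).1.1) := by
      have h12 := Submodule.mem_map_of_mem
        (f := LinearMap.fst (ZMod 2) M M' ∘ₗ S.subtype) hy
      rw [Submodule.map_span, ← Set.range_comp] at h12
      exact h12
    have h12 : z = y.1.1 + ((⟨(z, a), ha⟩ : S) - y).1.1 := by
      have : ((⟨(z, a), ha⟩ : S) - y).1.1 = z - y.1.1 := rfl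
      rw [this]; abel
    rw [h12]
    exact Submodule.add_mem_sup h11 h10
  exact h4.mono_C hrk

/-- rank bound in two steps: `Z → M ⧸ B` restricted to the kernel of a second map -/
theorem RkLE.add {Z B : Submodule (ZMod 2) M} {Z' B' : Submodule (ZMod 2) M'} {C C' : ℕ}
    (S : Submodule (ZMod 2) (M × M')) (h1 : ∀ z ∈ Z, ∃ a, (z, a) ∈ S) (h2 : ∀ z a, (z, a) ∈ S → a ∈ Z')
    (Z1 : Submodule (ZMod 2) M) (h3 : ∀ z a, (z, a) ∈ S → a ∈ B' → z ∈ Z1)
    (h : RkLE Z' B' C) (h' : RkLE Z1 B C') : RkLE Z B (C + C') := by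
  obtain ⟨w, hw⟩ := RkLE.of_rel S h1 h2 h3 h
  obtain ⟨w', hw'⟩ := h'
  refine ⟨Fin.append w w', ?_⟩
  have e : Set.range (Fin.append w w') = Set.range w ∪ Set.range w' := by
    ext x
    constructor
    · rintro ⟨i, rfl⟩
      refine Fin.addCases (fun i => ?_) (fun i => ?_) i
      · exact Or.inl ⟨i, by simp⟩
      · exact Or.inr ⟨i, by simp⟩
    · rintro (⟨i, rfl⟩ | ⟨i, rfl⟩)
      · exact ⟨Fin.castAdd C' i, by simp⟩
      · exact ⟨Fin.natAdd C i, by simp⟩
  rw [e, Submodule.span_union, sup_assoc]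
  exact hw.trans (sup_le_sup le_rfl hw')

/-- the sum of two subspaces -/
theorem RkLE.sup {Z Z' B : Submodule (ZMod 2) M} {C C' : ℕ} (h : RkLE Z B C) (h' : RkLE Z' B C') :
    RkLE (Z ⊔ Z') B (C + C') := by
  obtain ⟨w, hw⟩ := h
  obtain ⟨w', hw'⟩ := h'
  refine ⟨Fin.append w w', ?_⟩
  have e : Set.range (Fin.append w w') = Set.range w ∪ Set.range w' := by
    ext x
    constructor
    · rintro ⟨i, rfl⟩
      refine Fin.addCases (fun i => ?_) (fun i => ?_) i
      · exact Or.inl ⟨i, by simp⟩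
      · exact Or.inr ⟨i, by simp⟩
    · rintro (⟨i, rfl⟩ | ⟨i, rfl⟩)
      · exact ⟨Fin.castAdd C' i, by simp⟩
      · exact ⟨Fin.natAdd C i, by simp⟩
  rw [e, Submodule.span_union]
  refine sup_le ?_ ?_
  · exact hw.trans (sup_le_sup le_sup_left le_rfl)
  · exact hw'.trans (sup_le_sup le_sup_right le_rfl)

/-- push forward by a linear map -/
theorem RkLE.map {Z B : Submodule (ZMod 2) M} {C : ℕ} (h : RkLE Z B C) (f : M →ₗ[ZMod 2] M') :
    RkLE (Z.map f) (B.map f) C := by
  obtain ⟨w, hw⟩ := h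
  refine ⟨f ∘ w, ?_⟩
  refine (Submodule.map_mono hw).trans ?_
  rw [Submodule.map_sup, Submodule.map_span, ← Set.range_comp]

/-- a finite dimensional quotient gives some rank bound -/
theorem RkLE.of_finite {Z B : Submodule (ZMod 2) M} (h : Module.Finite (ZMod 2) (Z.map B.mkQ)) :
    ∃ C, RkLE Z B C :=
  ⟨_, RkLE.iff_finrank.2 ⟨h, le_rfl⟩⟩

end Crest.Agent.R231.GM898
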