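import Crest.Agent.R231.A4Of_125
import Crest.Agent.R231.SplitR2_737
import Crest.Agent.R231.PairH_877
import Crest.Agent.R231.GCross_449
import Crest.Agent.R231.GSmith_651

/-!
# Row 231, block R, leaf R5 (helper737): existence of the splitting data at a critical level

* `YY a b V = X_a ∪ (V ∩ X_b)`, `GG a b V` = its chains in `TL M`
* `Equi P` : the Birkhoff step `P : Push M T` (GCross_449) commutes with the half turn
* `sd_of` : `SD` data (SplitRK_125) at levels `a ≤ b ≤ T` from neighbourhoods `V ε ⊆ W ε`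
* `tau_GG`, `psi_GG` : compatibility with reversal and doubling
-/

set_option autoImplicit false
set_option linter.unusedSectionVars false

noncomputable section

open Function Topology Set
open Crest.Agent.R204

namespace Crest.Agent.R231.SDexx737

open SingAct265 EZ271 EZ847 Pairx877 GLugx576 TActx569 TCx569 IfAx978 Gr334 Instx895 SplitAlgx125
open GCrossx449 (Push)
open A4Ofx125 (YY)
open GSmithx651 (hf)

/-! ## chains: supports of `push` and `prismP` -/

section chains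

variable {E E' : Type} [TopologicalSpace E] [TopologicalSpace E'] {Y : Set E}

theorem push_mem_all {Y' : Set E'} {f : E → E'} {hf : ContinuousOn f Y} (h : MapsTo f Y Y')
    (c : CE E) : push Y f hf c ∈ CS Y' := by
  have hc : c ∈ CS (univ : Set E) := by rw [CS_univ]; trivial
  refine map_mem_of_CS (X := univ) (fun n σ _ => ?_) c hc
  by_cases hx : ∀ t, ev σ t ∈ Y
  · exact push_mem h _ (sx_mem_CS hx)
  · rw [push_sx_neg hx]; exact zero_mem _

theorem prismP_mem_all {Y' : Set E'} {F : E → ℝ → E'}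
    {hF : ContinuousOn (fun p : E × ℝ => F p.1 p.2) (Y ×ˢ Icc 0 1)}
    (h : ∀ y ∈ Y, ∀ t ∈ Icc (0 : ℝ) 1, F y t ∈ Y') (c : CE E) : prismP Y F hF c ∈ CS Y' := by
  have hc : c ∈ CS (univ : Set E) := by rw [CS_univ]; trivial
  refine map_mem_of_CS (X := univ) (fun n σ _ => ?_) c hc
  by_cases hx : ∀ t, ev σ t ∈ Y
  · exact prismP_mem h _ (sx_mem_CS hx)
  · rw [prismP_sx_neg hx]; exact zero_mem _

/-- a continuous map on chains of a subset -/
theorem map_eq_push (φ : C(E, E')) {hf : ContinuousOn φ Y} :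
    ∀ c ∈ CS Y, N.map F2 (SS.SingMap φ) c = push Y φ hf c := by
  refine eq_on_CS fun n σ h => ?_
  rw [N.map_sx, push_sx h]
  rfl

end chains

variable {M : Type} [MetricSpace M]

/-! ## the sets -/

/-- the chains of `X_a ∪ (V ∩ X_b)` -/
abbrev GG (a b : ℝ) (V : Set (Lp M)) : GT (TL M) := GSL M (CS (YY a b V))

theorem YY_mono {a b : ℝ} {V W : Set (Lp M)} (h : V ⊆ W) : YY a b V ⊆ YY a b W :=
  union_subset_union_right _ (inter_subset_inter_left _ h)

theorem X_subset_YY (a b : ℝ) (V : Set (Lp M)) : X M a ⊆ YY a b V := subset_union_left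

theorem YY_subset_X {a b : ℝ} (hab : a ≤ b) (V : Set (Lp M)) : YY a b V ⊆ X M b :=
  union_subset (X_mono hab) inter_subset_right

theorem YY_union (a b : ℝ) (V W : Set (Lp M)) :
    YY a b (V ∪ W) = X M a ∪ ((V ∩ X M b) ∪ (W ∩ X M b)) := by
  unfold YY
  rw [union_inter_distrib_right]

theorem rotInv_YY {a b : ℝ} {V : Set (Lp M)} (hV : RotInv V) : RotInv (YY a b V) := by
  rintro v γ (h | h)
  · exact Or.inl (rot_mem h v)
  · exact Or.inr ⟨hV v γ h.1, rot_mem h.2 v⟩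

theorem rotInv_union {V W : Set (Lp M)} (hV : RotInv V) (hW : RotInv W) : RotInv (V ∪ W) := by
  rintro v γ (h | h)
  · exact Or.inl (hV v γ h)
  · exact Or.inr (hW v γ h)

/-! ## graded submodules -/

/-- underlying chain (`vl` with the type `(TL M).C j`) -/
def vT (j : ℕ) : (TL M).C j →ₗ[F2] CE (Lp M) := (LA M).sval (stb_WL M) j

theorem vT_inj (j : ℕ) : Injective (vT (M := M) j) := (LA M).sval_inj (stb_WL M) j
theorem vT_mem_gr {j : ℕ} (x : (TL M).C j) : vT j x ∈ N.gr F2 (SS.Sing (Lp M)) j :=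
  (LA M).sval_mem (stb_WL M) x

/-- a chain as an element of `TL M` -/
def mT {j : ℕ} (z : CE (Lp M)) (h1 : z ∈ N.gr F2 (SS.Sing (Lp M)) j) (h2 : z ∈ WL M) :
    (TL M).C j := (LA M).smk (stb_WL M) z h1 h2

theorem vT_mT {j : ℕ} (z : CE (Lp M)) (h1 : z ∈ N.gr F2 (SS.Sing (Lp M)) j) (h2 : z ∈ WL M) :
    vT j (mT z h1 h2) = z := rfl

theorem vT_d (j : ℕ) (x : (TL M).C (j + 1)) : vT j ((TL M).d j x) = bdE (Lp M) (vT (j + 1) x) := rfl
theorem vT_g (j : ℕ) (x : (TL M).C j) : vT j ((TL M).g j x) = (LA M).gN (vT j x) := rfl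

theorem st_of {Y : Set (Lp M)} (hY : RotInv Y) : St (X := TL M) (GSL M (CS Y)) where
  d _ _ hx := bd_mem_CS _ hx
  g _ _ hx := gN_mem_CS hY _ hx
  h _ _ hx := hN_mem_CS hY _ hx

theorem gs_le {Y Z : Set (Lp M)} (h : Y ⊆ Z) : (GSL M (CS Y) : GT (TL M)) ≤ GSL M (CS Z) :=
  fun _ _ hx => CS_mono h hx

/-- homogeneous sums -/
theorem mem_sup_iff {Y Z : Set (Lp M)} {t : ℝ} (hY : Y ⊆ X M t) (hZ : Z ⊆ X M t) {j : ℕ}
    {x : (TL M).C j} :
    x ∈ ((GSL M (CS Y) : GT (TL M)) ⊔ GSL M (CS Z)) j ↔ vT j x ∈ CS Y ⊔ CS Z := by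
  constructor
  · intro h
    obtain ⟨a, ha, b, hb, rfl⟩ := Submodule.mem_sup.1 h
    rw [map_add]
    exact Submodule.add_mem_sup ha hb
  · intro h
    obtain ⟨a, ha, b, hb, h⟩ := Submodule.mem_sup.1 h
    have ha' := SplitR2x737.prN_mem_CS j ha
    have hb' := SplitR2x737.prN_mem_CS j hb
    refine Submodule.mem_sup.2 ⟨mT _ (prN_mem j a) (CS_le_CL' hY ha'), ha',
      mT _ (prN_mem j b) (CS_le_CL' hZ hb'), hb', vT_inj j ?_⟩
    rw [map_add, vT_mT, vT_mT, ← map_add, h]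
    exact prN_of_mem (vT_mem_gr x)

/-- small chains -/
theorem acy_of {A U V : Set (Lp M)} {t : ℝ} (hA : A ⊆ X M t) (hU : U ⊆ X M t) (hV : V ⊆ X M t)
    (h : Disjoint (closure U) (closure V)) :
    Acy (X := TL M) ((GSL M (CS (A ∪ U)) : GT (TL M)) ⊔ GSL M (CS (A ∪ V)))
      (GSL M (CS (A ∪ (U ∪ V)))) := by
  intro j x hx
  have hx1 : vT j x ∈ CS (A ∪ (U ∪ V)) := Zt_le hx
  have hx2 : bdE (Lp M) (vT j x) ∈ CS (A ∪ U) ⊔ CS (A ∪ V) := by
    cases j with
    | zero =>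
      have h0 : bdE (Lp M) (vT 0 x) = 0 := bd_gr_zero (vT_mem_gr x)
      rw [h0]; exact zero_mem _
    | succ j =>
      exact (mem_sup_iff (union_subset hA hU) (union_subset hA hV)).1 hx.2
  obtain ⟨w, hw1, hw2, hw3⟩ := SplitR2x737.split_small h (vT_mem_gr x) hx1 hx2
  have hX : A ∪ (U ∪ V) ⊆ X M t := union_subset hA (union_subset hU hV)
  refine mem_Bt.2 ⟨mT w hw2 (CS_le_CL' hX hw1), hw1, ?_⟩
  rw [mem_sup_iff (union_subset hA hU) (union_subset hA hV), map_add, vT_d, vT_mT]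
  exact hw3

theorem strict_of {A U V : Set (Lp M)} (h : Disjoint (closure U) (closure V)) :
    Strict (X := TL M) (GSL M (CS A)) (GSL M (CS (A ∪ U))) (GSL M (CS (A ∪ V))) where
  p := gs_le subset_union_left
  m := gs_le subset_union_left
  inf := fun j x hx => by
    have h1 := SplitR2x737.split_inf (A := A) h
    have h2 : vT j x ∈ CS (A ∪ U) ⊓ CS (A ∪ V) := hx
    rw [h1] at h2
    exact h2

/-! ## the deformation on chains -/

/-- `P` commutes with the half turn -/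
def Equi {T : ℝ} (P : Push M T) : Prop :=
  ∀ g ∈ X M T, ∀ r ∈ Icc (0 : ℝ) 1, P.H r (rot hf g) = rot hf (P.H r g)

section ops

variable {T : ℝ} (P : Push M T) {b : ℝ}

theorem contF (hb : b ≤ T) :
    ContinuousOn (fun p : Lp M × ℝ => P.H p.2 p.1) (X M b ×ˢ Icc (0 : ℝ) 1) := by
  have h1 : ContinuousOn (fun p : Lp M × ℝ => ((p.2, p.1) : ℝ × Lp M)) (X M b ×ˢ Icc (0 : ℝ) 1) :=
    (continuous_snd.prodMk continuous_fst).continuousOn
  exact P.cont.comp h1 fun p hp => ⟨hp.2, X_mono hb hp.1⟩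

theorem contH1 (hb : b ≤ T) : ContinuousOn (fun y => P.H 1 y) (X M b) :=
  contOn_end (F := fun y r => P.H r y) (contF P hb) (t := 1) ⟨zero_le_one, le_rfl⟩

/-- chain map of the end of the deformation -/
def rN (hb : b ≤ T) : CE (Lp M) →ₗ[F2] CE (Lp M) :=
  push (X M b) (fun y => P.H 1 y) (contH1 P hb)

/-- prism operator of the deformation -/
def KN (hb : b ≤ T) : CE (Lp M) →ₗ[F2] CE (Lp M) :=
  prismP (X M b) (fun y r => P.H r y) (contF P hb)

theorem rN_mem_all (hb : b ≤ T) (c : CE (Lp M)) : rN P hb c ∈ CS (X M b) :=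
  push_mem_all (fun y hy => P.lev b hb y hy 1 ⟨zero_le_one, le_rfl⟩) c

theorem KN_mem_all (hb : b ≤ T) (c : CE (Lp M)) : KN P hb c ∈ CS (X M b) :=
  prismP_mem_all (fun y hy r hr => P.lev b hb y hy r hr) c

theorem rN_mem (hb : b ≤ T) {A Y' : Set (Lp M)} (h : ∀ y ∈ A, P.H 1 y ∈ Y') :
    ∀ c ∈ CS A, rN P hb c ∈ CS Y' := push_mem h

theorem KN_mem (hb : b ≤ T) {A Y' : Set (Lp M)} (h : ∀ y ∈ A, ∀ r ∈ Icc (0 : ℝ) 1, P.H r y ∈ Y') :
    ∀ c ∈ CS A, KN P hb c ∈ CS Y' := prismP_mem h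

theorem bd_rN (hb : b ≤ T) : ∀ c ∈ CS (X M b), bdE (Lp M) (rN P hb c) = rN P hb (bdE (Lp M) c) :=
  bd_push

theorem bd_KN (hb : b ≤ T) : ∀ c ∈ CS (X M b),
    bdE (Lp M) (KN P hb c) = c + rN P hb c + KN P hb (bdE (Lp M) c) := by
  intro c hc
  rw [KN, bd_prismP (f0 := fun y => y) (f1 := fun y => P.H 1 y) (h0 := continuousOn_id)
    (h1 := contH1 P hb) (fun y hy => P.H0 y (X_mono hb hy))
    (fun _ _ => rfl) c hc, push_id c hc]
  rfl

theorem contRot (Y : Set (Lp M)) : ContinuousOn (rot hf : Lp M → Lp M) Y :=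
  (rotC (rho M) hf).continuous.continuousOn

theorem gN_eq_push {Y : Set (Lp M)} : ∀ c ∈ CS Y, (LA M).gN c = push Y (rot hf) (contRot Y) c := by
  intro c hc
  have h1 : (LA M).gN c = N.map F2 (SS.SingMap (rotC (rho M) hf)) c := by
    rw [TAct.gN, ← TAct.rot_sing]
    rfl
  rw [h1]
  exact map_eq_push (rotC (rho M) hf) c hc

theorem g_rN (hb : b ≤ T) (hP : Equi P) : ∀ c ∈ CS (X M b),
    (LA M).gN (rN P hb c) = rN P hb ((LA M).gN c) := by
  intro c hc
  have m1 : MapsTo (fun y => P.H 1 y) (X M b) (X M b) :=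
    fun y hy => P.lev b hb y hy 1 ⟨zero_le_one, le_rfl⟩
  have m2 : MapsTo (rot hf : Lp M → Lp M) (X M b) (X M b) := fun y hy => rot_mem hy hf
  have c2 : ContinuousOn (fun y : Lp M => rot hf (P.H 1 y)) (X M b) :=
    (contRot (X M b)).comp (contH1 P hb) m1
  rw [rN, gN_eq_push _ (push_mem m1 c hc), gN_eq_push c hc]
  rw [push_push (hl := c2) m1 (fun _ _ => rfl) c hc,
    push_push (hl := c2) m2 (fun y hy => hP y (X_mono hb hy) 1 ⟨zero_le_one, le_rfl⟩) c hc]

theorem g_KN (hb : b ≤ T) (hP : Equi P) : ∀ c ∈ CS (X M b),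
    (LA M).gN (KN P hb c) = KN P hb ((LA M).gN c) := by
  intro c hc
  have m1 : ∀ y ∈ X M b, ∀ t ∈ Icc (0 : ℝ) 1, P.H t y ∈ X M b := fun y hy r hr => P.lev b hb y hy r hr
  have m2 : MapsTo (rot hf : Lp M → Lp M) (X M b) (X M b) := fun y hy => rot_mem hy hf
  have c2 : ContinuousOn (fun p : Lp M × ℝ => rot hf (P.H p.2 p.1)) (X M b ×ˢ Icc (0 : ℝ) 1) :=
    (contRot (X M b)).comp (contF P hb) fun p hp => m1 p.1 hp.1 p.2 hp.2
  rw [KN, gN_eq_push _ (prismP_mem m1 c hc), gN_eq_push c hc]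
  rw [push_prismP (G := fun y r => rot hf (P.H r y)) (hG := c2) m1 (fun _ _ _ _ => rfl) c hc,
    prismP_push (G := fun y r => rot hf (P.H r y)) (hG := c2) m2
      (fun y hy r hr => hP y (X_mono hb hy) r hr) c hc]

/-- chain map on `TL M` -/
def rT (hb : b ≤ T) (j : ℕ) : (TL M).C j →ₗ[F2] (TL M).C j :=
  (rN P hb).restrict (p := N.gr F2 (SS.Sing (Lp M)) j ⊓ WL M)
    (q := N.gr F2 (SS.Sing (Lp M)) j ⊓ WL M)
    fun _ hx => ⟨push_gr hx.1, CS_le_CL b (rN_mem_all P hb _)⟩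

/-- homotopy on `TL M` -/
def KT (hb : b ≤ T) (j : ℕ) : (TL M).C j →ₗ[F2] (TL M).C (j + 1) :=
  (KN P hb).restrict (p := N.gr F2 (SS.Sing (Lp M)) j ⊓ WL M)
    (q := N.gr F2 (SS.Sing (Lp M)) (j + 1) ⊓ WL M)
    fun _ hx => ⟨prismP_gr hx.1, CS_le_CL b (KN_mem_all P hb _)⟩

theorem vT_rT (hb : b ≤ T) (j : ℕ) (x : (TL M).C j) : vT j (rT P hb j x) = rN P hb (vT j x) := rfl
theorem vT_KT (hb : b ≤ T) (j : ℕ) (x : (TL M).C j) :
    vT (j + 1) (KT P hb j x) = KN P hb (vT j x) := rfl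

theorem rk_of (hb : b ≤ T) (hP : Equi P) {a : ℝ} (hab : a ≤ b) {V W : Set (Lp M)}
    (hH : ∀ g ∈ V, g ∈ X M b → ∀ r ∈ Icc (0 : ℝ) 1, P.H r g ∈ W)
    (h1 : ∀ g ∈ X M b, P.H 1 g ∈ X M a ∪ V) :
    RK (X := TL M) (FL M a) (FL M b) (GG a b V) (GG a b W) (rT P hb) (KT P hb) where
  r_d j x hx := vT_inj j (bd_rN P hb _ hx)
  r_g j x hx := vT_inj j (g_rN P hb hP _ hx)
  K_g j x hx := vT_inj (j + 1) (g_KN P hb hP _ hx)
  hK0 x hx := vT_inj 0 (by
    have h2 := bd_KN P hb _ hx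
    have h0 : bdE (Lp M) (vT 0 x) = 0 := bd_gr_zero (vT_mem_gr x)
    change bdE (Lp M) (KN P hb (vT 0 x)) = vT 0 x + rN P hb (vT 0 x)
    change bdE (Lp M) (KN P hb (vT 0 x)) = vT 0 x + rN P hb (vT 0 x) +
      KN P hb (bdE (Lp M) (vT 0 x)) at h2
    rw [h2, h0, map_zero, add_zero])
  hK j x hx := vT_inj (j + 1) (by
    have h2 := bd_KN P hb _ hx
    change bdE (Lp M) (KN P hb (vT (j + 1) x)) + KN P hb (bdE (Lp M) (vT (j + 1) x)) =
      vT (j + 1) x + rN P hb (vT (j + 1) x)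
    change bdE (Lp M) (KN P hb (vT (j + 1) x)) = vT (j + 1) x + rN P hb (vT (j + 1) x) +
      KN P hb (bdE (Lp M) (vT (j + 1) x)) at h2
    rw [h2, add_assoc, TC.add_self, add_zero])
  r_A j x hx := rN_mem P hb (fun y hy => P.lev a (hab.trans hb) y hy 1 ⟨zero_le_one, le_rfl⟩) _ hx
  K_A j x hx := KN_mem P hb (fun y hy r hr => P.lev a (hab.trans hb) y hy r hr) _ hx
  r_B j x hx := rN_mem P hb (Y' := YY a b V) (fun y hy => by
    rcases h1 y hy with h | h
    · exact Or.inl h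
    · exact Or.inr ⟨h, P.lev b hb y hy 1 ⟨zero_le_one, le_rfl⟩⟩) _ hx
  K_B j x _ := KN_mem_all P hb _
  K_S j x hx := KN_mem P hb (Y' := YY a b W) (fun y hy r hr => by
    rcases hy with h | h
    · exact Or.inl (P.lev a (hab.trans hb) y h r hr)
    · exact Or.inr ⟨hH y h.1 h.2 r hr, P.lev b hb y h.2 r hr⟩) _ hx

/-- **the splitting data** -/
theorem sd_of (hb : b ≤ T) (hP : Equi P) {a : ℝ} (hab : a ≤ b) {V W : Bool → Set (Lp M)}
    (hVW : ∀ ε, V ε ⊆ W ε) (hVr : ∀ ε, RotInv (V ε)) (hWr : ∀ ε, RotInv (W ε))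
    (hd : Disjoint (closure (W true)) (closure (W false)))
    (hH : ∀ ε, ∀ g ∈ V ε, g ∈ X M b → ∀ r ∈ Icc (0 : ℝ) 1, P.H r g ∈ W ε)
    (h1 : ∀ g ∈ X M b, P.H 1 g ∈ X M a ∪ (V true ∪ V false)) :
    SD (X := TL M) (FL M a) (FL M b) (GG a b (W true ∪ W false)) (GG a b (V true ∪ V false))
      (GG a b (W true)) (GG a b (W false)) (GG a b (V true)) (GG a b (V false))
      (rT P hb) (KT P hb) where
  stA := st_of (rotInv_X a)
  stB := st_of (rotInv_X b)
  stS1 := st_of (rotInv_YY (rotInv_union (hWr _) (hWr _)))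
  stS2 := st_of (rotInv_YY (rotInv_union (hVr _) (hVr _)))
  stSp1 := st_of (rotInv_YY (hWr _))
  stSm1 := st_of (rotInv_YY (hWr _))
  stSp2 := st_of (rotInv_YY (hVr _))
  stSm2 := st_of (rotInv_YY (hVr _))
  S1B := gs_le (YY_subset_X hab _)
  S21 := gs_le (YY_mono (union_subset_union (hVW _) (hVW _)))
  p1 := gs_le (YY_mono subset_union_left)
  m1 := gs_le (YY_mono subset_union_right)
  p2 := gs_le (YY_mono subset_union_left)
  m2 := gs_le (YY_mono subset_union_right)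
  p21 := gs_le (YY_mono (hVW _))
  m21 := gs_le (YY_mono (hVW _))
  strict1 := strict_of (hd.mono (closure_mono inter_subset_left) (closure_mono inter_subset_left))
  strict2 := strict_of (hd.mono (closure_mono (inter_subset_left.trans (hVW _)))
    (closure_mono (inter_subset_left.trans (hVW _))))
  acy1 := by
    have h := acy_of (A := X M a) (U := W true ∩ X M b) (V := W false ∩ X M b) (X_mono hab)
      inter_subset_right inter_subset_right
      (hd.mono (closure_mono inter_subset_left) (closure_mono inter_subset_left))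
    rw [← YY_union] at h
    exact h
  acy2 := by
    have h := acy_of (A := X M a) (U := V true ∩ X M b) (V := V false ∩ X M b) (X_mono hab)
      inter_subset_right inter_subset_right
      (hd.mono (closure_mono (inter_subset_left.trans (hVW _)))
        (closure_mono (inter_subset_left.trans (hVW _))))
    rw [← YY_union] at h
    exact h
  rk := rk_of P hb hP hab (fun g hg hgb r hr => by
    rcases hg with h | h
    · exact Or.inl (hH _ g h hgb r hr)
    · exact Or.inr (hH _ g h hgb r hr)) h1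

end ops

end Crest.Agent.R231.SDexx737
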