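import Crest.Agent.R231.Lev_969

/-!
# Row 231 (S0357), block P: subadditivity of the levels of `x^k` (helper475)

Over the abstract levelled algebra `LevA` of Lev_969: the product of a class over `x^m` and a class
over `x^l` is a class over `x^(m+l)` (no associativity used), hence `sg (m + l) ≤ sg m + sg l`.
-/

set_option autoImplicit false

open scoped NNReal

namespace Crest.Agent.R231.SgAddx475

open Levx969

variable {D : ℕ} {K : LevA D}

theorem eps_eqv {s t : ℝ≥0} {a : K.A s} {b : K.A t} (h : K.Eqv a b) : K.eps a = K.eps b := by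
  obtain ⟨u, h1, h2, h⟩ := h
  rw [← K.eps_inc h1, h, K.eps_inc h2]

theorem mul_not_fin (hD : 1 ≤ D) (l : ℕ) : ∀ (m : ℕ) (s t u : ℝ≥0) (h : s + t ≤ u) (a : K.A s)
    (b : K.A t), a ∈ K.gr s (m * D) → K.Eqv a (xp K m) → K.Eqv b (xp K l) →
    ¬ K.Fin (K.m h a b)
  | 0 => by
    rintro s t u h a b ha ha' hb' ⟨w, h1, h2⟩
    rw [zero_mul] at ha
    set W : ℝ≥0 := w + ((s + K.cR) + t) with hW
    have e1 : w ≤ W := le_self_add
    have e2 : (s + K.cR) + t ≤ W := le_add_self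
    have e3 : s + t ≤ W := le_trans (by gcongr; exact le_self_add) e2
    have e4 : t ≤ W := le_trans le_add_self e2
    have h3 : K.m e3 a b = 0 := by
      rw [← K.inc_m h (h1.trans e1) e3, ← K.inc_inc h1 e1, h2, map_zero]
    rw [← K.m_inc_l (show s ≤ s + K.cR from le_self_add) e2 e3,
      deg0 hD (le_refl (s + K.cR)) le_self_add a ha, eps_eqv ha'] at h3
    have h4 : K.eps (xp K 0) = 1 := K.eps_one _
    rw [h4, one_smul, K.one_m e2 e4] at h3
    exact xp_ne hD l (hb'.symm.fin ⟨W, e4, h3⟩)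
  | (m + 1) => by
    intro s t u h a b ha ha' hb' hfin
    have h1 := hfin.SD (le_refl (u + K.cD)) (le_refl (u + K.cD))
    set U : ℝ≥0 := (s + t + K.cL) + (u + K.cD) + ((s + K.cD) + t) + (t + K.cD) with hU
    have e1 : s + t + K.cL ≤ U := le_trans (le_trans le_self_add le_self_add) le_self_add
    have e2 : u + K.cD ≤ U := le_trans (le_trans le_add_self le_self_add) le_self_add
    have e3 : (s + K.cD) + t ≤ U := le_trans le_add_self le_self_add
    have e4 : t + K.cD ≤ U := le_add_self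
    have h2 := K.leib e1 h (le_refl (u + K.cD)) e2 (le_refl (s + K.cD)) e3 (le_refl (t + K.cD)) e4 a b
    have he : K.eps a = 0 := by
      obtain ⟨j, hj⟩ : ∃ j, (m + 1) * D = j + 1 := ⟨(m + 1) * D - 1, by
        have : 1 ≤ (m + 1) * D := Nat.one_le_iff_ne_zero.2 (Nat.mul_ne_zero (by omega) (by omega))
        omega⟩
      rw [hj] at ha
      exact K.eps_gr j a ha
    rw [he, zero_smul, add_zero, ← K.inc_Sm (le_refl (u + K.cD)) e2 e2] at h2
    refine mul_not_fin hD l m _ _ _ e3 _ b ?_ ?_ hb' (h2 ▸ h1.inc e2)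
    · exact K.Sm_gr _ _ _ (K.Dc_gr _ _ _ (by rw [show m * D + D = (m + 1) * D by ring]; exact ha))
    · exact (LevA.Eqv.SD ha' (le_refl _) (le_refl _) (le_refl _) (le_refl _)).trans
        (SD_xp hD m (le_refl _) (le_refl _))

theorem mul_eqv (hD : 1 ≤ D) (hT : K.HasTh) {m l : ℕ} (hml : 1 ≤ m + l) {s t u : ℝ≥0}
    (h : s + t ≤ u) {a : K.A s} {b : K.A t} (ha : a ∈ K.gr s (m * D)) (ha' : K.Eqv a (xp K m))
    (hb : b ∈ K.gr t (l * D)) (hb' : K.Eqv b (xp K l)) :
    K.m h a b ∈ K.gr u ((m + l) * D) ∧ K.Eqv (K.m h a b) (xp K (m + l)) := by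
  have hg : K.m h a b ∈ K.gr u ((m + l) * D) := by
    rw [add_mul]
    exact K.m_gr h _ _ a b ha hb
  refine ⟨hg, ?_⟩
  have h1 : 1 ≤ (m + l) * D := Nat.one_le_iff_ne_zero.2 (Nat.mul_ne_zero (by omega) (by omega))
  rcases basis hD hT _ h1 u _ hg with h2 | ⟨k, hk, h2⟩
  · exact absurd h2 (mul_not_fin hD l m _ _ _ h a b ha ha' hb')
  · rwa [Nat.eq_of_mul_eq_mul_right (by omega) hk]

theorem sg_zero : sg K 0 = 0 := by
  refine le_antisymm (sg_le (z := K.one 0) ?_ ?_) zero_le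
  · rw [zero_mul]
    exact K.one_gr 0
  · exact ⟨((0 : ℕ) : ℝ≥0) * K.cx, by simp, le_rfl, by
      rw [K.one_inc]
      exact (K.inc_self _).symm⟩

/-- **subadditivity of the levels** -/
theorem sg_add (hD : 1 ≤ D) (hT : K.HasTh) (m l : ℕ) : sg K (m + l) ≤ sg K m + sg K l := by
  rcases Nat.eq_zero_or_pos (m + l) with h0 | h0
  · obtain ⟨rfl, rfl⟩ : m = 0 ∧ l = 0 := by omega
    simp [sg_zero]
  · refine le_of_forall_pos_le_add fun ε hε => ?_
    obtain ⟨s, hs, a, ha, ha'⟩ := exists_near (K := K) m (half_pos hε)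
    obtain ⟨t, ht, b, hb, hb'⟩ := exists_near (K := K) l (half_pos hε)
    obtain ⟨h1, h2⟩ := mul_eqv hD hT h0 (le_refl (s + t)) ha ha' hb hb'
    calc sg K (m + l) ≤ s + t := sg_le h1 h2
      _ ≤ (sg K m + ε / 2) + (sg K l + ε / 2) := by gcongr
      _ = sg K m + sg K l + (ε / 2 + ε / 2) := by ring
      _ = sg K m + sg K l + ε := by rw [add_halves]

end Crest.Agent.R231.SgAddx475
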