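import Crest.Agent.R231.CutM_725

/-!
# Slides and insertions of Moore loops (row 231, block P, identity (iii))

`Arcs M` : a continuous choice of paths `A x y` of fixed length `D` for `(x, y)` in an open set
`O` of `M × M`.

* `rotc W a r z = T⁻¹ . z|[r,a] . z|[0,r] . T` : the loop `z` started at time `r`, tethered;
* `slide K a z g r s = g|[0,s] . A . z|[r,a] . z|[0,r] . A . g|[s,t]`;
* `insf K a w g s = g|[0,s] . A . w . A . g|[s,t]` : insertion of a free loop `w`;
* `ins e a w g = g|[0,e] . w . g|[e,t]` : insertion at a passage through the base point.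
-/

namespace Crest.Agent.R231.SlideMx725

open Set Topology Crest.Agent.R231.Moorex725 Crest.Agent.R231.CutMx725

set_option linter.unusedSectionVars false
set_option linter.unusedVariables false

variable {M : Type*} [PseudoMetricSpace M]

/-- A continuous choice of connecting paths of fixed length `D` on an open set `O`. -/
structure Arcs (M : Type*) [PseudoMetricSpace M] where
  O : Set (M × M)
  isOpen : IsOpen O
  D : ℝ
  D_nonneg : 0 ≤ D
  A : M → M → ℝ → M
  mem : ∀ x y, (x, y) ∈ O → A x y ∈ MP x y D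
  cont : ContinuousOn (fun z : M × M => A z.1 z.2) O
  symm : ∀ x y, (x, y) ∈ O → (y, x) ∈ O

namespace Arcs

variable (K : Arcs M)

/-- The tether with `V = {y | (y, p) ∈ O}`. -/
noncomputable def toTether (p : M) : Tether p where
  V := {y | (y, p) ∈ K.O}
  isOpen := K.isOpen.preimage (by fun_prop)
  L := K.D
  L_nonneg := K.D_nonneg
  T y := K.A y p
  mem y hy := K.mem y p hy
  cont := K.cont.comp (f := fun y => (y, p)) (by fun_prop) fun y hy => hy

/-- The tether with a fixed path `e` from `p'` to `p` behind the arc from `y` to `p'`. -/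
noncomputable def toTether' {p p' : M} {l : ℝ} {e : ℝ → M} (he : e ∈ MP p' p l) (hl : 0 ≤ l) :
    Tether p where
  V := {y | (y, p') ∈ K.O}
  isOpen := K.isOpen.preimage (by fun_prop)
  L := K.D + l
  L_nonneg := add_nonneg K.D_nonneg hl
  T y := cc K.D (K.A y p') e
  mem y hy := cc_mem (K.mem y p' hy) he K.D_nonneg hl
  cont := by
    have h0 : ContinuousOn (fun y => K.A y p') {y | (y, p') ∈ K.O} :=
      K.cont.comp (f := fun y => (y, p')) (by fun_prop) fun y hy => hy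
    rw [continuousOn_iff_continuous_domRestrict] at h0 ⊢
    exact continuous_cc (c := fun _ => K.D) (b := fun _ => e) h0 continuous_const
      continuous_const (fun _ => he.1) fun x => by
        rw [he.2.1 0 le_rfl]
        exact (K.mem x.1 p' x.2).2.2 _ le_rfl

end Arcs

/-! ### The rotated, tethered loop -/

section rotc

variable {p : M} (W : Tether p)

/-- `T (z r)⁻¹ . z|[r,a] . z|[0,r] . T (z r)`. -/
noncomputable def rotc (a r : ℝ) (z : ℝ → M) : ℝ → M :=
  cc (W.L + (a - r)) (Sc W r z) (Fc W r z)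

variable {W}

theorem rotc_mem {q : M} {a r : ℝ} {z : ℝ → M} (hz : z ∈ MP q q a) (h0 : 0 ≤ r) (h1 : r ≤ a)
    (hV : z r ∈ W.V) : rotc W a r z ∈ Om p (a + 2 * W.L) := by
  have h := cc_mem (Sc_mem hz h1 hV) (Fc_mem hz h0 hV)
    (add_nonneg W.L_nonneg (by linarith)) (add_nonneg h0 W.L_nonneg)
  have e : W.L + (a - r) + (r + W.L) = a + 2 * W.L := by ring
  rwa [e] at h

/-- the normal form -/
theorem rotc_eq {a r : ℝ} (z : ℝ → M) (h1 : r ≤ a) (h0 : 0 ≤ r) :
    rotc W a r z = cc W.L (rev W.L (W.T (z r)))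
      (cc (a - r) (tail r z) (cc r (head r z) (W.T (z r)))) := by
  rw [rotc, Sc, Fc, cc_assoc _ _ _ (by linarith)]

theorem continuous_rotc {X : Type*} [TopologicalSpace X] {q : X → M} {z : X → ℝ → M}
    {a r : X → ℝ} (hz : Continuous z) (hr : Continuous r) (ha : Continuous a)
    (hm : ∀ x, z x ∈ MP (q x) (q x) (a x)) (h0 : ∀ x, 0 ≤ r x) (h1 : ∀ x, r x ≤ a x)
    (hV : ∀ x, z x (r x) ∈ W.V) : Continuous fun x => rotc W (a x) (r x) (z x) := by
  refine continuous_cc (c := fun x => W.L + (a x - r x))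
    (continuous_Sc hz (fun x => (hm x).1) hr hV) (continuous_Fc hz (fun x => (hm x).1) hr hV)
    (continuous_const.add (ha.sub hr)) (fun x => (Fc_mem (hm x) (h0 x) (hV x)).1) fun x => ?_
  rw [(Sc_mem (hm x) (h1 x) (hV x)).2.2 _ le_rfl, (Fc_mem (hm x) (h0 x) (hV x)).2.1 _ le_rfl]

end rotc

/-! ### Insertion of a free loop -/

section insf

variable (K : Arcs M)

/-- Insert the (free) loop `w` of length `a` into `g` at time `s`:
`g|[0,s] . A (g s) (w 0) . w . A (w 0) (g s) . g|[s,t]`. -/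
noncomputable def insf (a s : ℝ) (w g : ℝ → M) : ℝ → M :=
  cc s (head s g) (cc K.D (K.A (g s) (w 0)) (cc a w (cc K.D (K.A (w 0) (g s)) (tail s g))))

variable {K}

theorem insf_mem {x y q : M} {a s t : ℝ} {w g : ℝ → M} (hw : w ∈ MP q q a) (ha : 0 ≤ a)
    (hg : g ∈ MP x y t) (h0 : 0 ≤ s) (h1 : s ≤ t) (hO : (g s, w 0) ∈ K.O) :
    insf K a s w g ∈ MP x y (t + a + 2 * K.D) := by
  have hw0 : w 0 = q := hw.2.1 0 le_rfl
  rw [hw0] at hO
  have e1 : cc K.D (K.A q (g s)) (tail s g) ∈ MP q y (K.D + (t - s)) :=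
    cc_mem (K.mem _ _ (K.symm _ _ hO)) (tail_mem hg h1) K.D_nonneg (by linarith)
  have e2 := cc_mem hw e1 ha (add_nonneg K.D_nonneg (by linarith))
  have e3 := cc_mem (K.mem _ _ hO) e2 K.D_nonneg
    (add_nonneg ha (add_nonneg K.D_nonneg (by linarith)))
  have e4 := cc_mem (head_mem hg (s := s)) e3 h0
    (add_nonneg K.D_nonneg (add_nonneg ha (add_nonneg K.D_nonneg (by linarith))))
  rw [insf, hw0]
  have e : s + (K.D + (a + (K.D + (t - s)))) = t + a + 2 * K.D := by ring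
  rwa [e] at e4

/-- the loop `A . w . A⁻¹` based at `p` -/
noncomputable def teth (K : Arcs M) (p : M) (a : ℝ) (w : ℝ → M) : ℝ → M :=
  cc K.D (K.A p (w 0)) (cc a w (K.A (w 0) p))

theorem teth_mem {p q : M} {a : ℝ} {w : ℝ → M} (hw : w ∈ MP q q a) (ha : 0 ≤ a)
    (hO : (p, w 0) ∈ K.O) : teth K p a w ∈ Om p (a + 2 * K.D) := by
  have hw0 : w 0 = q := hw.2.1 0 le_rfl
  rw [hw0] at hO
  have h := cc_mem (K.mem _ _ hO) (cc_mem hw (K.mem _ _ (K.symm _ _ hO)) ha K.D_nonneg)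
    K.D_nonneg (add_nonneg ha K.D_nonneg)
  rw [teth, hw0]
  have e : K.D + (a + K.D) = a + 2 * K.D := by ring
  rwa [e] at h

theorem insf_zero {p y : M} {a t : ℝ} {w g : ℝ → M} {q : M} (hw : w ∈ MP q q a) (ha : 0 ≤ a)
    (hg : g ∈ MP p y t) (h1 : 0 ≤ t) (hO : (p, w 0) ∈ K.O) :
    insf K a 0 w g = cc (a + 2 * K.D) (teth K p a w) g := by
  have hg0 : g 0 = p := hg.2.1 0 le_rfl
  have hw0 : w 0 = q := hw.2.1 0 le_rfl
  rw [hw0] at hO
  have e1 := cc_mem (K.mem _ _ (K.symm _ _ hO)) hg K.D_nonneg h1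
  have e2 := cc_mem hw e1 ha (add_nonneg K.D_nonneg h1)
  have e3 := cc_mem (K.mem _ _ hO) e2 K.D_nonneg (add_nonneg ha (add_nonneg K.D_nonneg h1))
  rw [insf, teth, hg0, hw0, head_of_le hg le_rfl, tail_zero hg, cc_const_left e3]
  have e : a + 2 * K.D = K.D + (a + K.D) := by ring
  rw [e, cc_assoc _ _ _ (add_nonneg ha K.D_nonneg), cc_assoc _ _ _ K.D_nonneg]

theorem insf_end {x p : M} {a t : ℝ} {w g : ℝ → M} {q : M} (hw : w ∈ MP q q a) (ha : 0 ≤ a)
    (hg : g ∈ MP x p t) (hO : (p, w 0) ∈ K.O) :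
    insf K a t w g = cc t g (teth K p a w) := by
  have hg0 : g t = p := hg.2.2 t le_rfl
  have hw0 : w 0 = q := hw.2.1 0 le_rfl
  rw [hw0] at hO
  rw [insf, teth, hg0, hw0, head_of_ge hg le_rfl, tail_of_ge hg le_rfl,
    cc_const_right (K.mem _ _ (K.symm _ _ hO))]

theorem continuous_insf {X : Type*} [TopologicalSpace X] {w g : X → ℝ → M} {q : X → M}
    {a s : X → ℝ} (hw : Continuous w) (hg : Continuous g) (hs : Continuous s)
    (ha : Continuous a) (ha0 : ∀ x, 0 ≤ a x) (hwm : ∀ x, w x ∈ MP (q x) (q x) (a x))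
    (hgL : ∀ x, g x ∈ LL M) (hO : ∀ x, (g x (s x), w x 0) ∈ K.O) :
    Continuous fun x => insf K (a x) (s x) (w x) (g x) := by
  have cw0 : Continuous fun x => w x 0 := (continuous_apply 0).comp hw
  have cgs : Continuous fun x => g x (s x) := continuous_eval hg hgL hs
  have cA : Continuous fun x => K.A (g x (s x)) (w x 0) :=
    K.cont.comp_continuous (f := fun x => (g x (s x), w x 0)) (cgs.prodMk cw0) hO
  have cB : Continuous fun x => K.A (w x 0) (g x (s x)) :=
    K.cont.comp_continuous (f := fun x => (w x 0, g x (s x))) (cw0.prodMk cgs)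
      fun x => K.symm _ _ (hO x)
  have mA : ∀ x, K.A (g x (s x)) (w x 0) ∈ MP (g x (s x)) (w x 0) K.D := fun x =>
    K.mem _ _ (hO x)
  have mB : ∀ x, K.A (w x 0) (g x (s x)) ∈ MP (w x 0) (g x (s x)) K.D := fun x =>
    K.mem _ _ (K.symm _ _ (hO x))
  have hq : ∀ x, w x 0 = q x := fun x => (hwm x).2.1 0 le_rfl
  have c1 : Continuous fun x => cc K.D (K.A (w x 0) (g x (s x))) (tail (s x) (g x)) :=
    continuous_cc (c := fun _ => K.D) cB (continuous_tail hg hgL hs) continuous_const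
      (fun x => tail_LL (hgL x) _) fun x => by
        rw [(mB x).2.2 _ le_rfl, tail, max_self, zero_add]
  have l1 : ∀ x, cc K.D (K.A (w x 0) (g x (s x))) (tail (s x) (g x)) ∈ LL M := fun x =>
    cc_lip (mB x).1 (tail_LL (hgL x) _) (by rw [(mB x).2.2 _ le_rfl, tail, max_self, zero_add])
  have z1 : ∀ x, cc K.D (K.A (w x 0) (g x (s x))) (tail (s x) (g x)) 0 = q x := fun x => by
    rw [cc_of_le _ _ K.D_nonneg, (mB x).2.1 _ le_rfl, hq]
  have c2 : Continuous fun x => cc (a x) (w x)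
      (cc K.D (K.A (w x 0) (g x (s x))) (tail (s x) (g x))) :=
    continuous_cc hw c1 ha l1 fun x => by rw [z1, (hwm x).2.2 _ le_rfl]
  have l2 : ∀ x, cc (a x) (w x)
      (cc K.D (K.A (w x 0) (g x (s x))) (tail (s x) (g x))) ∈ LL M := fun x =>
    cc_lip (hwm x).1 (l1 x) (by rw [z1, (hwm x).2.2 _ le_rfl])
  have z2 : ∀ x, cc (a x) (w x)
      (cc K.D (K.A (w x 0) (g x (s x))) (tail (s x) (g x))) 0 = q x := fun x => by
    rw [cc_of_le _ _ (ha0 x), hq]
  have c3 : Continuous fun x => cc K.D (K.A (g x (s x)) (w x 0)) (cc (a x) (w x)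
      (cc K.D (K.A (w x 0) (g x (s x))) (tail (s x) (g x)))) :=
    continuous_cc (c := fun _ => K.D) cA c2 continuous_const l2 fun x => by
      rw [z2, (mA x).2.2 _ le_rfl, hq]
  have l3 : ∀ x, cc K.D (K.A (g x (s x)) (w x 0)) (cc (a x) (w x)
      (cc K.D (K.A (w x 0) (g x (s x))) (tail (s x) (g x)))) ∈ LL M := fun x =>
    cc_lip (mA x).1 (l2 x) (by rw [z2, (mA x).2.2 _ le_rfl, hq])
  refine continuous_cc (continuous_head hg hgL hs) c3 hs l3 fun x => ?_
  rw [cc_of_le _ _ K.D_nonneg, (mA x).2.1 _ le_rfl, head, min_self]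

end insf

/-! ### The cyclically rotated based loop, and the slide -/

section slide

/-- The free loop `z|[r,a] . z|[0,r]` (based at `z r`). -/
noncomputable def rotl (a r : ℝ) (z : ℝ → M) : ℝ → M := cc (a - r) (tail r z) (head r z)

theorem rotl_mem {q : M} {a r : ℝ} {z : ℝ → M} (hz : z ∈ MP q q a) (h0 : 0 ≤ r) (h1 : r ≤ a) :
    rotl a r z ∈ MP (z r) (z r) a := by
  have h := cc_mem (tail_mem hz h1) (head_mem hz (s := r)) (by linarith) h0
  rwa [sub_add_cancel] at h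

theorem rotl_zero {q : M} {a : ℝ} {z : ℝ → M} (hz : z ∈ MP q q a) : rotl a 0 z = z := by
  rw [rotl, tail_zero hz, head_of_le hz le_rfl, sub_zero, cc_const_right hz]

theorem rotl_end {q : M} {a : ℝ} {z : ℝ → M} (hz : z ∈ MP q q a) : rotl a a z = z := by
  rw [rotl, sub_self, tail_of_ge hz le_rfl, head_of_ge hz le_rfl, cc_const_left hz]

theorem rotl_apply_zero {q : M} {a r : ℝ} {z : ℝ → M} (hz : z ∈ MP q q a) (h0 : 0 ≤ r)
    (h1 : r ≤ a) : rotl a r z 0 = z r := (rotl_mem hz h0 h1).2.1 0 le_rfl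

theorem continuous_rotl {X : Type*} [TopologicalSpace X] {z : X → ℝ → M} {q : X → M}
    {a r : X → ℝ} (hz : Continuous z) (hr : Continuous r) (ha : Continuous a)
    (hm : ∀ x, z x ∈ MP (q x) (q x) (a x)) (h0 : ∀ x, 0 ≤ r x) (h1 : ∀ x, r x ≤ a x) :
    Continuous fun x => rotl (a x) (r x) (z x) :=
  continuous_cc (c := fun x => a x - r x) (continuous_tail hz (fun x => (hm x).1) hr)
    (continuous_head hz (fun x => (hm x).1) hr) (ha.sub hr)
    (fun x => head_LL (hm x).1 _) fun x => by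
      rw [(tail_mem (hm x) (h1 x)).2.2 _ le_rfl, (head_mem (hm x) (s := r x)).2.1 _ le_rfl]

/-- Insert `z`, cut open at time `r`, into `g` at time `s`. -/
noncomputable def slide (K : Arcs M) (a r s : ℝ) (z g : ℝ → M) : ℝ → M :=
  insf K a s (rotl a r z) g

variable {K : Arcs M} {p : M} {a r s t : ℝ} {z g : ℝ → M}

theorem slide_mem {q x y : M} (hz : z ∈ MP q q a) (hr0 : 0 ≤ r) (hr1 : r ≤ a)
    (hg : g ∈ MP x y t) (h0 : 0 ≤ s) (h1 : s ≤ t) (hO : (g s, z r) ∈ K.O) :
    slide K a r s z g ∈ MP x y (t + a + 2 * K.D) :=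
  insf_mem (rotl_mem hz hr0 hr1) (hr0.trans hr1) hg h0 h1
    (by rwa [rotl_apply_zero hz hr0 hr1])

/-- The tethered rotated loop. -/
theorem teth_rotl {q : M} (hz : z ∈ MP q q a) (hr0 : 0 ≤ r) (hr1 : r ≤ a) :
    teth K p a (rotl a r z) = cc (K.D + (a - r)) (cc K.D (K.A p (z r)) (tail r z))
      (cc r (head r z) (K.A (z r) p)) := by
  rw [teth, rotl_apply_zero hz hr0 hr1, cc_assoc _ _ _ (by linarith : (0 : ℝ) ≤ a - r), rotl,
    cc_assoc' _ _ _ (by linarith : a - r ≤ a), sub_sub_cancel]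

theorem slide_face_s0 {q y : M} (hz : z ∈ MP q q a) (hr0 : 0 ≤ r) (hr1 : r ≤ a)
    (hg : g ∈ MP p y t) (h1 : 0 ≤ t) (hO : (p, z r) ∈ K.O) :
    slide K a r 0 z g = cc (a + 2 * K.D) (teth K p a (rotl a r z)) g :=
  insf_zero (rotl_mem hz hr0 hr1) (hr0.trans hr1) hg h1 (by rwa [rotl_apply_zero hz hr0 hr1])

theorem slide_face_s1 {q x : M} (hz : z ∈ MP q q a) (hr0 : 0 ≤ r) (hr1 : r ≤ a)
    (hg : g ∈ MP x p t) (hO : (p, z r) ∈ K.O) :
    slide K a r t z g = cc t g (teth K p a (rotl a r z)) :=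
  insf_end (rotl_mem hz hr0 hr1) (hr0.trans hr1) hg (by rwa [rotl_apply_zero hz hr0 hr1])

theorem slide_face_r {q : M} (hz : z ∈ MP q q a) (s : ℝ) (g : ℝ → M) :
    slide K a 0 s z g = slide K a a s z g := by
  rw [slide, slide, rotl_zero hz, rotl_end hz]

theorem continuous_slide {X : Type*} [TopologicalSpace X] {z g : X → ℝ → M} {q : X → M}
    {a r s : X → ℝ} (hz : Continuous z) (hg : Continuous g) (hr : Continuous r)
    (hs : Continuous s) (ha : Continuous a) (hm : ∀ x, z x ∈ MP (q x) (q x) (a x))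
    (h0 : ∀ x, 0 ≤ r x) (h1 : ∀ x, r x ≤ a x) (hgL : ∀ x, g x ∈ LL M)
    (hO : ∀ x, (g x (s x), z x (r x)) ∈ K.O) :
    Continuous fun x => slide K (a x) (r x) (s x) (z x) (g x) :=
  continuous_insf (q := fun x => z x (r x)) (continuous_rotl hz hr ha hm h0 h1) hg hs ha
    (fun x => (h0 x).trans (h1 x)) (fun x => rotl_mem (hm x) (h0 x) (h1 x)) hgL fun x => by
      rw [rotl_apply_zero (hm x) (h0 x) (h1 x)]; exact hO x

end slide

/-! ### Insertion at a passage through the base point -/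

section ins

/-- `F . w . S` where `F` has length `c` and `w` has length `a`. -/
noncomputable def ins (c a : ℝ) (F w S : ℝ → M) : ℝ → M := cc c F (cc a w S)

theorem ins_mem {x y z q : M} {c a d : ℝ} {F w S : ℝ → M} (hF : F ∈ MP x y c)
    (hw : w ∈ MP y z a) (hS : S ∈ MP z q d) (hc : 0 ≤ c) (ha : 0 ≤ a) (hd : 0 ≤ d) :
    ins c a F w S ∈ MP x q (c + a + d) := by
  have h := cc_mem hF (cc_mem hw hS ha hd) hc (add_nonneg ha hd)
  rwa [← add_assoc] at h

theorem ins_eq {c a : ℝ} (F w S : ℝ → M) (ha : 0 ≤ a) :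
    ins c a F w S = cc (c + a) (cc c F w) S := (cc_assoc _ _ _ ha).symm

theorem continuous_ins {X : Type*} [TopologicalSpace X] {F w S : X → ℝ → M} {c a : X → ℝ}
    (hF : Continuous F) (hw : Continuous w) (hS : Continuous S) (hc : Continuous c)
    (ha : Continuous a) (ha0 : ∀ x, 0 ≤ a x) (hwL : ∀ x, w x ∈ LL M) (hSL : ∀ x, S x ∈ LL M)
    (h1 : ∀ x, F x (c x) = w x 0) (h2 : ∀ x, w x (a x) = S x 0) :
    Continuous fun x => ins (c x) (a x) (F x) (w x) (S x) :=
  continuous_cc hF (continuous_cc hw hS ha hSL h2) hc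
    (fun x => cc_lip (hwL x) (hSL x) (h2 x)) fun x => by rw [h1, cc_of_le _ _ (ha0 x)]

end ins

end Crest.Agent.R231.SlideMx725
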