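import Crest.Agent.R231.Smith_566

/-!
# Row 231, block H, leaf H7 (helper609): algebra of the end of the Smith theorem

Everything inside one module `C` (566's language: `PP gr A` completed products, `DD d e` the
differential `d + e`, `RA D P Q` relative acyclicity of `Q / P`).

* `up h` : the degree `+1` operator on sequences
* `ra_six` : 2-out-of-6: acyclicity of `(V, Y)` from `(X, V)`, `(X', X)`, `(Y', Y)` and an equivariant
  homotopy `V × I → X'` from the inclusion to a map `V → Y'` which fixes `Y`.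
* `smith_surj`, `smith_inj` : from the `Z/2`-form `RA (d + 1 + g)` of `(X, Y)`, `g = 1` on `Y`, to the
  `T`-form (differential `d + Δ`, `Δ = (1+g)h`).
-/

set_option autoImplicit false

noncomputable section

namespace Crest.Agent.R231.SmAx609

open Crest.Agent.R204 Crest.Agent.R231.Smx566

variable {C : Type*} [AddCommGroup C] [Module F2 C]

/-- the underlying function of `up` -/
def upF (h : C →ₗ[F2] C) (x : ℕ → C) : ℕ → C
  | 0 => 0
  | j + 1 => h (x j)

/-- degree `+1` operator on sequences -/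
def up (h : C →ₗ[F2] C) : (ℕ → C) →ₗ[F2] (ℕ → C) where
  toFun x := upF h x
  map_add' x y := by
    funext j
    cases j with
    | zero => simp [upF]
    | succ j => simp [upF]
  map_smul' r x := by
    funext j
    cases j with
    | zero => simp [upF]
    | succ j => simp [upF]

@[simp] theorem up_zero (h : C →ₗ[F2] C) (x : ℕ → C) : up h x 0 = 0 := rfl
@[simp] theorem up_succ (h : C →ₗ[F2] C) (x : ℕ → C) (j : ℕ) : up h x (j + 1) = h (x j) := rfl

/-- a degree `0` operator on sequences -/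
def zr (r : C →ₗ[F2] C) : (ℕ → C) →ₗ[F2] (ℕ → C) where
  toFun x j := r (x j)
  map_add' x y := by funext j; simp
  map_smul' c x := by funext j; simp

@[simp] theorem zr_apply (r : C →ₗ[F2] C) (x : ℕ → C) (j : ℕ) : zr r x j = r (x j) := rfl

theorem add_self {M : Type*} [AddCommGroup M] [Module F2 M] (x : M) : x + x = 0 := by
  rw [← two_smul F2 x, show (2 : F2) = 0 from rfl, zero_smul]

theorem neg_self {M : Type*} [AddCommGroup M] [Module F2 M] (x : M) : -x = x :=
  neg_eq_of_add_eq_zero_left (add_self x)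

theorem sub_add {M : Type*} [AddCommGroup M] [Module F2 M] (x y : M) : x - y = x + y := by
  rw [sub_eq_add_neg, neg_self]

theorem eq_of_add {M : Type*} [AddCommGroup M] [Module F2 M] {x y : M} (h : x + y = 0) : x = y := by
  have := eq_neg_of_add_eq_zero_left h
  rwa [neg_self] at this

theorem up_mem {h : C →ₗ[F2] C} {gr : ℕ → Submodule F2 C} {A B : Submodule F2 C}
    (hgr : ∀ j, ∀ x ∈ gr j, h x ∈ gr (j + 1)) (hA : ∀ x ∈ A, h x ∈ B) {x : ℕ → C}
    (hx : x ∈ PP gr A) : up h x ∈ PP gr B := by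
  intro j
  cases j with
  | zero => exact ⟨(gr 0).zero_mem, B.zero_mem⟩
  | succ j => exact ⟨hgr j _ (hx j).1, hA _ (hx j).2⟩

theorem zr_mem {r : C →ₗ[F2] C} {gr : ℕ → Submodule F2 C} {A B : Submodule F2 C}
    (hgr : ∀ j, ∀ x ∈ gr j, r x ∈ gr j) (hA : ∀ x ∈ A, r x ∈ B) {x : ℕ → C}
    (hx : x ∈ PP gr A) : zr r x ∈ PP gr B := fun j => ⟨hgr j _ (hx j).1, hA _ (hx j).2⟩

/-- homotopy formula on the completed product -/
theorem DD_up {d g r K : C →ₗ[F2] C} {gr : ℕ → Submodule F2 C} {V : Submodule F2 C}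
    (hd0 : ∀ x ∈ gr 0, d x = 0) (hKg : ∀ x ∈ V, g (K x) = K (g x))
    (hK : ∀ x ∈ V, d (K x) + K (d x) = x + r x) {x : ℕ → C} (hx : x ∈ PP gr V) :
    DD d (LinearMap.id + g) (up K x) + up K (DD d (LinearMap.id + g) x) = x + zr r x := by
  funext j
  cases j with
  | zero =>
    have h1 := hK _ (hx 0).2
    rw [hd0 _ (hx 0).1, map_zero, add_zero] at h1
    show d (K (x 0)) + (LinearMap.id + g : C →ₗ[F2] C) 0 + 0 = x 0 + r (x 0)
    rw [map_zero, add_zero, add_zero, h1]
  | succ j =>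
    show d (K (x (j + 1))) + (K (x j) + g (K (x j))) + K (d (x (j + 1)) + (x j + g (x j))) =
      x (j + 1) + r (x (j + 1))
    rw [map_add, map_add, ← hK _ (hx (j + 1)).2, hKg _ (hx j).2]
    have h1 : d (K (x (j + 1))) + (K (x j) + K (g (x j))) + (K (d (x (j + 1))) +
        (K (x j) + K (g (x j)))) = d (K (x (j + 1))) + K (d (x (j + 1))) +
        ((K (x j) + K (g (x j))) + (K (x j) + K (g (x j)))) := by abel
    rw [h1, add_self, add_zero]

/-- **2-out-of-6** for relative acyclicity, `Z/2`-Tate form -/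
theorem ra_six {d g r K : C →ₗ[F2] C} {gr : ℕ → Submodule F2 C} {Y V X Y' X' : Submodule F2 C}
    (hdd : ∀ x, d (d x) = 0) (hgg : ∀ x, g (g x) = x) (hdg : ∀ x, d (g x) = g (d x))
    (hd0 : ∀ x ∈ gr 0, d x = 0)
    (hYV : Y ≤ V) (hVX : V ≤ X) (hYX' : Y' ≤ X')
    (hrV : ∀ x ∈ V, r x ∈ Y') (hrgr : ∀ j, ∀ x ∈ gr j, r x ∈ gr j) (hrY : ∀ x ∈ Y, r x = x)
    (hrd : ∀ x ∈ V, d (r x) = r (d x)) (hrg : ∀ x ∈ V, g (r x) = r (g x))
    (hKX : ∀ x ∈ V, K x ∈ X') (hKgr : ∀ j, ∀ x ∈ gr j, K x ∈ gr (j + 1))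
    (hKg : ∀ x ∈ V, g (K x) = K (g x)) (hK : ∀ x ∈ V, d (K x) + K (d x) = x + r x)
    (h1 : RA (DD d (LinearMap.id + g)) (PP gr V) (PP gr X))
    (h2 : RA (DD d (LinearMap.id + g)) (PP gr X) (PP gr X'))
    (h3 : RA (DD d (LinearMap.id + g)) (PP gr Y) (PP gr Y')) :
    RA (DD d (LinearMap.id + g)) (PP gr Y) (PP gr V) := by
  have he : ∀ x, (LinearMap.id + g : C →ₗ[F2] C) ((LinearMap.id + g : C →ₗ[F2] C) x) = 0 := by
    intro x
    simp only [LinearMap.add_apply, LinearMap.id_apply, map_add, hgg]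
    have : x + g x + (g x + x) = (x + g x) + (x + g x) := by abel
    rw [this, add_self]
  have hde : ∀ x, d ((LinearMap.id + g : C →ₗ[F2] C) x) = (LinearMap.id + g : C →ₗ[F2] C) (d x) := by
    intro x
    simp only [LinearMap.add_apply, LinearMap.id_apply, map_add, hdg]
  have hDD : ∀ x : ℕ → C, DD d (LinearMap.id + g) (DD d (LinearMap.id + g) x) = 0 :=
    DD_DD hdd he hde
  intro x hx hDx
  set D := DD d (LinearMap.id + g) with hD
  -- `D (r x) = D x`
  have hrx : D (zr r x) = D x := by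
    funext j
    have e1 : D x j ∈ Y := (hDx j).2
    have e2 : r (D x j) = D x j := hrY _ e1
    rw [← e2]
    show d (r (x (j + 1))) + (r (x j) + g (r (x j))) = r (d (x (j + 1)) + (x j + g (x j)))
    rw [hrd _ (hx (j + 1)).2, hrg _ (hx j).2, map_add, map_add]
  have hrxY : zr r x ∈ PP gr Y' := zr_mem hrgr hrV hx
  obtain ⟨z, hz, hw⟩ := h3 (zr r x) hrxY (by rw [hrx]; exact hDx)
  set w := zr r x - D z with hwdef
  have hDw : D w = D x := by rw [hwdef, map_sub, hDD, sub_zero, hrx]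
  set u := x - w with hudef
  have huV : u ∈ PP gr V := (PP gr V).sub_mem hx (PP_mono gr hYV hw)
  have hDu : D u = 0 := by rw [hudef, map_sub, hDw, sub_self]
  have hru : zr r u = D z := by
    have e1 : zr r w = w := by
      funext j
      exact hrY _ (hw j).2
    rw [hudef, map_sub, e1, hwdef]
    abel
  have hq : D (up K u + z) = u := by
    have e1 := DD_up (g := g) hd0 hKg hK huV
    rw [← hD, hDu, map_zero, add_zero, hru] at e1
    rw [map_add, e1, add_assoc, add_self, add_zero]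
  have hqX : up K u + z ∈ PP gr X' :=
    (PP gr X').add_mem (up_mem hKgr hKX huV) (PP_mono gr hYX' hz)
  obtain ⟨b, hb, hb'⟩ := h2 (up K u + z) hqX (by
    rw [hq]; exact PP_mono gr hVX huV)
  have hDb : D (up K u + z - D b) = u := by rw [map_sub, hDD, sub_zero, hq]
  obtain ⟨b', hb1, hb2⟩ := h1 (up K u + z - D b) hb' (by rw [hDb]; exact huV)
  refine ⟨_, hb2, ?_⟩
  have : D (up K u + z - D b - D b') = u := by rw [map_sub, hDD, sub_zero, hDb]
  rw [this, hudef, sub_sub_cancel]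
  exact hw

/-! ## from the `Z/2`-form to the `T`-form -/

section tform

variable {d g h : C →ₗ[F2] C} {gr : ℕ → Submodule F2 C}

/-- the `T`-Tate differential `d + (1+g)h` on sequences -/
def DTs (d g h : C →ₗ[F2] C) : (ℕ → C) →ₗ[F2] (ℕ → C) :=
  DD d 0 + up ((LinearMap.id + g) ∘ₗ h)

theorem DTs_zero (d g h : C →ₗ[F2] C) (x : ℕ → C) : DTs d g h x 0 = d (x 1) := by
  show d (x 1) + 0 + 0 = d (x 1)
  rw [add_zero, add_zero]

theorem DTs_succ (d g h : C →ₗ[F2] C) (x : ℕ → C) (j : ℕ) :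
    DTs d g h x (j + 1) = d (x (j + 2)) + (h (x j) + g (h (x j))) := by
  show d (x (j + 2)) + 0 + (h (x j) + g (h (x j))) = _
  rw [add_zero]

/-- conjugation by `1 + h` -/
def cj (h : C →ₗ[F2] C) : (ℕ → C) →ₗ[F2] (ℕ → C) := LinearMap.id + up h

theorem cj_zero (h : C →ₗ[F2] C) (x : ℕ → C) : cj h x 0 = x 0 := by
  show x 0 + 0 = x 0
  rw [add_zero]

theorem cj_succ (h : C →ₗ[F2] C) (x : ℕ → C) (j : ℕ) : cj h x (j + 1) = x (j + 1) + h (x j) := rfl

theorem cj_cj (hh : ∀ x, h (h x) = 0) (x : ℕ → C) : cj h (cj h x) = x := by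
  funext j
  rcases j with _ | _ | j
  · rw [cj_zero, cj_zero]
  · rw [cj_succ, cj_succ, cj_zero, add_assoc, add_self, add_zero]
  · rw [cj_succ, cj_succ, cj_succ, map_add, hh, add_zero, add_assoc, add_self, add_zero]

theorem cj_mem {A : Submodule F2 C} (hgr : ∀ j, ∀ x ∈ gr j, h x ∈ gr (j + 1))
    (hA : ∀ x ∈ A, h x ∈ A) {x : ℕ → C} (hx : x ∈ PP gr A) : cj h x ∈ PP gr A :=
  (PP gr A).add_mem hx (up_mem hgr hA hx)

/-- `(1+h)(d+Δ) = (d+1+g)(1+h)` -/
theorem cj_DTs (hh : ∀ x, h (h x) = 0) (hg : ∀ x, h (g x) = g (h x))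
    (hdh : ∀ x, d (h x) + h (d x) = x + g x) {x : ℕ → C} (hx : d (x 0) = 0) :
    cj h (DTs d g h x) = DD d (LinearMap.id + g) (cj h x) := by
  funext j
  have key : ∀ y, d (h y) = y + g y + h (d y) := by
    intro y
    rw [← hdh y, add_assoc, add_self, add_zero]
  cases j with
  | zero =>
    rw [cj_zero, DTs_zero, DD_apply, cj_succ, cj_zero]
    show d (x 1) = d (x 1 + h (x 0)) + (x 0 + g (x 0))
    rw [map_add, key, hx, map_zero, add_zero]
    have : d (x 1) + (x 0 + g (x 0)) + (x 0 + g (x 0)) =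
        d (x 1) + ((x 0 + g (x 0)) + (x 0 + g (x 0))) := by abel
    rw [this, add_self, add_zero]
  | succ j =>
    rw [cj_succ, DTs_succ, DD_apply, cj_succ, cj_succ]
    show d (x (j + 2)) + (h (x j) + g (h (x j))) + h (DTs d g h x j) =
      d (x (j + 2) + h (x (j + 1))) + ((x (j + 1) + h (x j)) + g (x (j + 1) + h (x j)))
    have e1 : h (DTs d g h x j) = h (d (x (j + 1))) := by
      cases j with
      | zero => rw [DTs_zero]
      | succ j =>
        rw [DTs_succ, map_add, map_add, hg, hh, map_zero, add_zero, add_zero]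
    rw [e1, map_add, map_add, key]
    have : d (x (j + 2)) + (x (j + 1) + g (x (j + 1)) + h (d (x (j + 1)))) +
        (x (j + 1) + h (x j) + (g (x (j + 1)) + g (h (x j)))) =
        d (x (j + 2)) + (h (x j) + g (h (x j))) + h (d (x (j + 1))) +
        (x (j + 1) + x (j + 1)) + (g (x (j + 1)) + g (x (j + 1))) := by abel
    rw [this, add_self, add_self, add_zero, add_zero]

theorem cj_DD (hh : ∀ x, h (h x) = 0) (hg : ∀ x, h (g x) = g (h x))
    (hdh : ∀ x, d (h x) + h (d x) = x + g x) {x : ℕ → C} (hx : d (x 0) = 0) :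
    cj h (DD d (LinearMap.id + g) x) = DTs d g h (cj h x) := by
  have h0 : d (cj h x 0) = 0 := by rw [cj_zero]; exact hx
  have h1 := cj_DTs (d := d) (g := g) hh hg hdh h0
  rw [cj_cj hh] at h1
  rw [← h1, cj_cj hh]

/-- on sequences in a submodule where `g = 1`: `d(1+h) = (1+h)d`, and `DD = d` -/
theorem DD_of_fix {x : ℕ → C} (hx : ∀ j, g (x j) = x j) (j : ℕ) :
    DD d (LinearMap.id + g) x j = d (x (j + 1)) := by
  show d (x (j + 1)) + (x j + g (x j)) = d (x (j + 1))
  rw [hx, add_self, add_zero]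

variable {F0 Y X : Submodule F2 C}

/-- **surjectivity of the Smith map, `T`-form** -/
theorem smith_surj (hd0 : ∀ x ∈ gr 0, d x = 0) (hhgr : ∀ j, ∀ x ∈ gr j, h x ∈ gr (j + 1))
    (hh : ∀ x, h (h x) = 0) (hg : ∀ x, h (g x) = g (h x))
    (hdh : ∀ x, d (h x) + h (d x) = x + g x)
    (hF0Y : F0 ≤ Y) (hF0h : ∀ x ∈ F0, h x ∈ F0) (hYh : ∀ x ∈ Y, h x ∈ Y) (hXh : ∀ x ∈ X, h x ∈ X)
    (hYg : ∀ x ∈ Y, g x = x) (hgg : ∀ x, g (g x) = x) (hdg : ∀ x, d (g x) = g (d x))
    (hdd : ∀ x, d (d x) = 0)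
    (hra : RA (DD d (LinearMap.id + g)) (PP gr Y) (PP gr X)) {v : ℕ → C} (hv : v ∈ PP gr X)
    (hDv : DTs d g h v ∈ PP gr F0) :
    ∃ y ∈ PP gr Y, (∀ j, d (y (j + 1)) ∈ F0) ∧ ∃ c ∈ PP gr X, v + y + DTs d g h c = 0 := by
  have he : ∀ x, (LinearMap.id + g : C →ₗ[F2] C) ((LinearMap.id + g : C →ₗ[F2] C) x) = 0 := by
    intro x
    simp only [LinearMap.add_apply, LinearMap.id_apply, map_add, hgg]
    have : x + g x + (g x + x) = (x + g x) + (x + g x) := by abel
    rw [this, add_self]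
  have hde : ∀ x, d ((LinearMap.id + g : C →ₗ[F2] C) x) = (LinearMap.id + g : C →ₗ[F2] C) (d x) := by
    intro x
    simp only [LinearMap.add_apply, LinearMap.id_apply, map_add, hdg]
  have hDD : ∀ x : ℕ → C, DD d (LinearMap.id + g) (DD d (LinearMap.id + g) x) = 0 :=
    DD_DD hdd he hde
  have hv0 : d (v 0) = 0 := hd0 _ (hv 0).1
  have h1 : DD d (LinearMap.id + g) (cj h v) ∈ PP gr F0 := by
    rw [← cj_DTs hh hg hdh hv0]
    exact cj_mem hhgr hF0h hDv
  have hcv : cj h v ∈ PP gr X := cj_mem hhgr hXh hv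
  obtain ⟨c, hc, hy⟩ := hra (cj h v) hcv (PP_mono gr hF0Y h1)
  set y' := cj h v - DD d (LinearMap.id + g) c with hy'
  have hDy' : DD d (LinearMap.id + g) y' = DD d (LinearMap.id + g) (cj h v) := by
    rw [hy', map_sub, hDD, sub_zero]
  have hfix : ∀ j, g (y' j) = y' j := fun j => hYg _ (hy j).2
  have hdy' : ∀ j, d (y' (j + 1)) ∈ F0 := by
    intro j
    rw [← DD_of_fix (d := d) hfix j, hDy']
    exact (h1 j).2
  have hy0 : d (y' 0) = 0 := hd0 _ (hy 0).1
  refine ⟨cj h y', cj_mem hhgr hYh hy, ?_, cj h c, cj_mem hhgr hXh hc, ?_⟩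
  · intro j
    rw [cj_succ, map_add]
    refine F0.add_mem (hdy' j) ?_
    have e1 : d (h (y' j)) = h (d (y' j)) := by
      have := hdh (y' j)
      rw [hfix j, add_self] at this
      exact eq_of_add this
    rw [e1]
    cases j with
    | zero => rw [hy0, map_zero]; exact F0.zero_mem
    | succ j => exact hF0h _ (hdy' j)
  · rw [← cj_DD hh hg hdh (hd0 _ (hc 0).1), hy', map_sub, cj_cj hh]
    have : v + (v - cj h (DD d (LinearMap.id + g) c)) + cj h (DD d (LinearMap.id + g) c) = v + v := by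
      abel
    rw [this, add_self]

/-- **injectivity of the Smith map, `T`-form** -/
theorem smith_inj (hd0 : ∀ x ∈ gr 0, d x = 0) (hhgr : ∀ j, ∀ x ∈ gr j, h x ∈ gr (j + 1))
    (hh : ∀ x, h (h x) = 0) (hg : ∀ x, h (g x) = g (h x))
    (hdh : ∀ x, d (h x) + h (d x) = x + g x)
    (hF0Y : F0 ≤ Y) (hF0h : ∀ x ∈ F0, h x ∈ F0) (hYh : ∀ x ∈ Y, h x ∈ Y) (hXh : ∀ x ∈ X, h x ∈ X)
    (hYg : ∀ x ∈ Y, g x = x) (hgg : ∀ x, g (g x) = x) (hdg : ∀ x, d (g x) = g (d x))
    (hdd : ∀ x, d (d x) = 0)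
    (hra : RA (DD d (LinearMap.id + g)) (PP gr Y) (PP gr X)) {y c : ℕ → C} (hy : y ∈ PP gr Y)
    (hc : c ∈ PP gr X) (hyc : y + DTs d g h c ∈ PP gr F0) :
    ∃ e ∈ PP gr Y, ∀ j, y j + d (e (j + 1)) ∈ F0 := by
  have he : ∀ x, (LinearMap.id + g : C →ₗ[F2] C) ((LinearMap.id + g : C →ₗ[F2] C) x) = 0 := by
    intro x
    simp only [LinearMap.add_apply, LinearMap.id_apply, map_add, hgg]
    have : x + g x + (g x + x) = (x + g x) + (x + g x) := by abel
    rw [this, add_self]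
  have hde : ∀ x, d ((LinearMap.id + g : C →ₗ[F2] C) x) = (LinearMap.id + g : C →ₗ[F2] C) (d x) := by
    intro x
    simp only [LinearMap.add_apply, LinearMap.id_apply, map_add, hdg]
  have hDD : ∀ x : ℕ → C, DD d (LinearMap.id + g) (DD d (LinearMap.id + g) x) = 0 :=
    DD_DD hdd he hde
  have hcc : cj h c ∈ PP gr X := cj_mem hhgr hXh hc
  have h1 : cj h y + DD d (LinearMap.id + g) (cj h c) ∈ PP gr F0 := by
    have := cj_mem hhgr hF0h hyc
    rwa [map_add, cj_DTs hh hg hdh (hd0 _ (hc 0).1)] at this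
  have hcy : cj h y ∈ PP gr Y := cj_mem hhgr hYh hy
  have h2 : DD d (LinearMap.id + g) (cj h c) ∈ PP gr Y := by
    have e1 : DD d (LinearMap.id + g) (cj h c) =
        (cj h y + DD d (LinearMap.id + g) (cj h c)) - cj h y := by abel
    rw [e1]
    exact (PP gr Y).sub_mem (PP_mono gr hF0Y h1) hcy
  obtain ⟨b, _, hb⟩ := hra (cj h c) hcc h2
  set e' := cj h c - DD d (LinearMap.id + g) b with he'
  have hDe' : DD d (LinearMap.id + g) e' = DD d (LinearMap.id + g) (cj h c) := by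
    rw [he', map_sub, hDD, sub_zero]
  have hfix : ∀ j, g (e' j) = e' j := fun j => hYg _ (hb j).2
  refine ⟨cj h e', cj_mem hhgr hYh hb, ?_⟩
  -- the sequence `f := cj y + d e'` is in `F0`; apply `cj`
  have h3 : ∀ j, cj h y j + d (e' (j + 1)) ∈ F0 := by
    intro j
    rw [← DD_of_fix (d := d) hfix j, hDe']
    exact (h1 j).2
  have key : ∀ j, d (h (e' j)) = h (d (e' j)) := by
    intro j
    have := hdh (e' j)
    rw [hfix j, add_self] at this
    exact eq_of_add this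
  intro j
  cases j with
  | zero =>
    have e1 := h3 0
    rw [cj_zero] at e1
    rw [cj_succ, map_add, key 0, hd0 _ (hb 0).1, map_zero, add_zero]
    exact e1
  | succ j =>
    have e1 := h3 (j + 1)
    have e2 := hF0h _ (h3 j)
    have e3 := F0.add_mem e1 e2
    rw [map_add] at e3
    have e4 : h (cj h y j) = h (y j) := by
      cases j with
      | zero => rw [cj_zero]
      | succ j => rw [cj_succ, map_add, hh, add_zero]
    rw [e4, cj_succ, ← key (j + 1)] at e3
    rw [cj_succ, map_add]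
    have e5 : y (j + 1) + h (y j) + d (e' (j + 1 + 1)) + (h (y j) + d (h (e' (j + 1)))) =
        y (j + 1) + (d (e' (j + 1 + 1)) + d (h (e' (j + 1)))) + (h (y j) + h (y j)) := by abel
    rw [e5, add_self, add_zero] at e3
    exact e3

end tform

end Crest.Agent.R231.SmAx609
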