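import Crest.Agent.R231.SmithA_609
import Crest.Agent.R231.Pair_877
import Crest.Agent.R204.EZSym_847

/-!
# Row 231, block H, leaf H7 (helper609): chain operators of an equivariant homotopy

`E` a space, `V : Set E`, `H : C(V × unitInterval, E)`:
* `KV H : CE E →ₗ CE E` (prism operator, zero on the simplices which are not in `V`), `rV k` (push forward)
* degrees, supports, `d K + K d = 1 + r`, commutation with an involution `γ : C(E, E)`
* `cs_In` : 566's `cs (In X)` is 877's `CS X`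
* `CS_image` : `CS (φ '' A)` for an embedding `φ`
* `AcP X A` : degreewise relative acyclicity; `AcP.image`
-/

set_option autoImplicit false

noncomputable section

namespace Crest.Agent.R231.SmBx609

open Crest.Agent.R204 Crest.Agent.R204.Exc406 Function Topology
open Crest.Agent.R231.Pairx877 Crest.Agent.R231.Smx566 Crest.Agent.R231.SmAx609
open SingAct265

variable {E : Type} [TopologicalSpace E]

/-- 566's chains with support in `V` are 877's -/
theorem cs_In (V : Set E) : cs (In V) = CS V := by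
  refine le_antisymm (cs_le fun n σ h => ?_) (CS_le fun n σ h => ?_)
  · exact Pairx877.sx_mem_CS (fun t => h t)
  · exact sx_mem_cs (fun t => h t)

/-- degreewise relative acyclicity of a pair of subsets -/
def AcP (X A : Set E) : Prop :=
  ∀ j, ∀ x ∈ N.gr F2 (SS.Sing E) j, x ∈ CS X → bdE E x ∈ CS A →
    ∃ y ∈ N.gr F2 (SS.Sing E) (j + 1), y ∈ CS X ∧ x - bdE E y ∈ CS A

/-- the graded projections preserve supports -/
theorem prN_mem_CS {X : Set E} (j : ℕ) : ∀ c ∈ CS X, prN F2 (SS.Sing E) j c ∈ CS X := by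
  refine map_mem_of_CS fun n σ h => ?_
  by_cases hn : n = j
  · subst hn
    rw [prN_of_mem_gr n (Smx566.sx_mem_gr σ)]
    exact Pairx877.sx_mem_CS h
  · have : prN F2 (SS.Sing E) j (N.sx F2 σ) = 0 := by
      rw [N.sx, prN_mk, proj_single, if_neg hn]
      rfl
    rw [this]
    exact Submodule.zero_mem _

/-! ### restriction and push forward -/

theorem res_mem_gr {V : Set E} {j : ℕ} {x : CE E} (hx : x ∈ N.gr F2 (SS.Sing E) j) :
    Pairx877.res V x ∈ N.gr F2 (SS.Sing V) j := by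
  have : N.gr F2 (SS.Sing E) j ≤ (N.gr F2 (SS.Sing V) j).comap (Pairx877.res V) := by
    refine gr_le fun σ => ?_
    rw [Submodule.mem_comap]
    by_cases h : ∀ t, ev σ t ∈ V
    · rw [Pairx877.res_sx h]
      exact Smx566.sx_mem_gr _
    · rw [res_sx_neg h]
      exact Submodule.zero_mem _
  exact this hx

/-- push forward of chains of `V` along `k : V → E` -/
def rV {V : Set E} (k : C(V, E)) : CE E →ₗ[F2] CE E := N.map F2 (SS.SingMap k) ∘ₗ Pairx877.res V

section rv

variable {V : Set E} (k : C(V, E))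

theorem rV_sx {n : ℕ} {σ : (SS.Sing E).S n} (h : ∀ t, ev σ t ∈ V) :
    rV k (N.sx F2 σ) = N.sx F2 ((SS.SingMap k).app n (rs V σ h)) := by
  rw [rV, LinearMap.comp_apply, Pairx877.res_sx h, N.map_sx]

theorem rV_gr (j : ℕ) (x : CE E) (hx : x ∈ N.gr F2 (SS.Sing E) j) :
    rV k x ∈ N.gr F2 (SS.Sing E) j := map_mem_gr _ (res_mem_gr hx)

theorem rV_mem {Y : Set E} (h : ∀ v : V, k v ∈ Y) (x : CE E) : rV k x ∈ CS Y :=
  map_mem_CS _ (fun _ _ _ => h _) _

theorem rV_fix {A : Set E} (hA : A ⊆ V) (h : ∀ v : V, (v : E) ∈ A → k v = v) :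
    ∀ x ∈ CS A, rV k x = x := by
  refine eq_on_CS (f := rV k) (g := LinearMap.id) fun n σ hσ => ?_
  rw [rV_sx k fun t => hA (hσ t)]
  exact congrArg _ (sing_ext fun t => h _ (hσ t))

theorem rV_bd : ∀ x ∈ CS V, bdE E (rV k x) = rV k (bdE E x) := by
  intro x hx
  have h := LinearMap.congr_fun (N.map_bd (R := F2) (SS.SingMap k)) (Pairx877.res V x)
  simp only [LinearMap.comp_apply] at h
  rw [rV, LinearMap.comp_apply, LinearMap.comp_apply, ← h, bd_res x hx]

/-- the restriction of an involution -/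
def resC (γ : C(E, E)) (hγ : ∀ v ∈ V, γ v ∈ V) : C(V, V) :=
  ⟨fun v => ⟨γ v, hγ v v.2⟩, (γ.continuous.comp continuous_subtype_val).subtype_mk _⟩

theorem res_map (γ : C(E, E)) (hγ : ∀ v ∈ V, γ v ∈ V) : ∀ x ∈ CS V,
    Pairx877.res V (N.map F2 (SS.SingMap γ) x) =
      N.map F2 (SS.SingMap (resC γ hγ)) (Pairx877.res V x) := by
  refine eq_on_CS (f := Pairx877.res V ∘ₗ N.map F2 (SS.SingMap γ))
    (g := N.map F2 (SS.SingMap (resC γ hγ)) ∘ₗ Pairx877.res V) fun n σ hσ => ?_
  rw [LinearMap.comp_apply, LinearMap.comp_apply, N.map_sx, Pairx877.res_sx hσ, N.map_sx,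
    Pairx877.res_sx (σ := (SS.SingMap γ).app n σ) (fun t => hγ _ (hσ t))]
  rfl

theorem rV_map (γ : C(E, E)) (hγ : ∀ v ∈ V, γ v ∈ V)
    (hk : ∀ v : V, k ⟨γ v, hγ v v.2⟩ = γ (k v)) : ∀ x ∈ CS V,
    N.map F2 (SS.SingMap γ) (rV k x) = rV k (N.map F2 (SS.SingMap γ) x) := by
  intro x hx
  rw [rV, LinearMap.comp_apply, LinearMap.comp_apply, res_map γ hγ x hx, ← N_map_comp,
    ← N_map_comp]
  congr 2
  refine SS.Hom.ext (funext fun n => funext fun σ => ?_)
  exact sing_ext fun t => (hk _).symm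

end rv

/-! ### the prism operator -/

/-- prism operator of a homotopy `V × I → E` -/
def KV {V : Set E} (H : C(V × unitInterval, E)) : CE E →ₗ[F2] CE E :=
  HtpInv334.prism (singHtpy H) ∘ₗ Pairx877.res V

section kv

variable {V : Set E} (H : C(V × unitInterval, E))

theorem KV_apply (x : CE E) : KV H x = N.map F2 (singHtpy H)
    (EZ271.cross F2 (Pairx877.res V x) (HtpInv334.iota1 F2)) := rfl

theorem KV_gr (j : ℕ) (x : CE E) (hx : x ∈ N.gr F2 (SS.Sing E) j) :
    KV H x ∈ N.gr F2 (SS.Sing E) (j + 1) := by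
  rw [KV_apply]
  exact map_mem_gr _ (EZ847.cross_mem_gr F2 (res_mem_gr hx) (Smx566.sx_mem_gr _))

theorem KV_mem {Y : Set E} (h : ∀ p, H p ∈ Y) (x : CE E) : KV H x ∈ CS Y :=
  map_mem_CS _ (fun _ _ _ => h _) _

theorem KV_map (γ : C(E, E)) (hγ : ∀ v ∈ V, γ v ∈ V)
    (hH : ∀ (v : V) (s : unitInterval), H (⟨γ v, hγ v v.2⟩, s) = γ (H (v, s))) : ∀ x ∈ CS V,
    N.map F2 (SS.SingMap γ) (KV H x) = KV H (N.map F2 (SS.SingMap γ) x) := by
  intro x hx
  rw [KV_apply, KV_apply, res_map γ hγ x hx]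
  have h1 := EZ271.map_cross F2 (SS.SingMap (resC γ hγ)) (SS.Hom.id (SS.std 1))
    (Pairx877.res V x) (HtpInv334.iota1 F2)
  rw [EZ271.map_idHom] at h1
  rw [← h1, ← N_map_comp, ← N_map_comp]
  congr 2
  refine SS.Hom.ext (funext fun n => funext fun p => ?_)
  exact sing_ext fun t => (hH _ _).symm

theorem KV_bd (k : C(V, E)) (h0 : ∀ v, H (v, 0) = v) (h1 : ∀ v, H (v, 1) = k v) : ∀ x ∈ CS V,
    bdE E (KV H x) + KV H (bdE E x) = x + rV k x := by
  intro x hx
  have e := HtpInv334.bd_prism (R := F2) (singHtpy H) (Pairx877.res V x)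
  rw [EZ847.sg_F2, bd_res x hx] at e
  have e0 : SS.Hom.comp (singHtpy H) (SpecA.endMap (SS.Sing V) 0) = SS.SingMap (SpecA.inc V) := by
    refine SS.Hom.ext (funext fun n => funext fun σ => ?_)
    exact singHtpy_zero H (SpecA.inc V) h0 σ
  have e1 : SS.Hom.comp (singHtpy H) (SpecA.endMap (SS.Sing V) 1) = SS.SingMap k := by
    refine SS.Hom.ext (funext fun n => funext fun σ => ?_)
    exact singHtpy_one H k h1 σ
  rw [e0, e1, map_inc_res x hx] at e
  have e2 : bdE E (KV H x) = KV H (bdE E x) + (rV k x - x) := e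
  rw [e2, SmAx609.sub_add]
  have : KV H (bdE E x) + (rV k x + x) + KV H (bdE E x) =
      x + rV k x + (KV H (bdE E x) + KV H (bdE E x)) := by abel
  rw [this, SmAx609.add_self, add_zero]

end kv

/-! ### embeddings -/

section emb

variable {E' : Type} [TopologicalSpace E'] (φ : C(E', E))

theorem map_app_inj (hφ : IsEmbedding φ) (n : ℕ) : Injective ((SS.SingMap φ).app n) := by
  intro σ τ h
  refine sing_ext fun t => hφ.injective ?_
  exact congrArg (fun ρ => ev ρ t) h

theorem N_map_inj (hφ : IsEmbedding φ) : Injective (N.map F2 (SS.SingMap φ)) :=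
  map_inj _ (map_app_inj φ hφ)

theorem map_CS (A : Set E') : ∀ c ∈ CS A, N.map F2 (SS.SingMap φ) c ∈ CS (φ '' A) :=
  map_mem_of_CS fun n σ h => by
    rw [N.map_sx]
    exact Pairx877.sx_mem_CS fun t => ⟨_, h t, rfl⟩

theorem CS_image (hφ : IsEmbedding φ) (A : Set E') :
    CS (φ '' A) = (CS A).map (N.map F2 (SS.SingMap φ)) := by
  refine le_antisymm (CS_le fun n σ h => ?_) ?_
  · choose τ hτ hτ' using h
    have hc : Continuous τ := by
      rw [hφ.continuous_iff]
      have : (φ ∘ τ) = fun t => ev σ t := funext hτ'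
      rw [this]
      exact continuous_ev σ
    refine ⟨N.sx F2 (mkS τ hc : (SS.Sing E').S n), Pairx877.sx_mem_CS hτ, ?_⟩
    rw [N.map_sx]
    exact congrArg _ (sing_ext fun t => hτ' t)
  · rintro _ ⟨c, hc, rfl⟩
    exact map_CS φ A c hc

theorem mem_of_map_CS (hφ : IsEmbedding φ) {A : Set E'} {c : CE E'}
    (h : N.map F2 (SS.SingMap φ) c ∈ CS (φ '' A)) : c ∈ CS A := by
  rw [CS_image φ hφ] at h
  obtain ⟨c', hc', e⟩ := h
  rwa [N_map_inj φ hφ e] at hc'

theorem map_bd (c : CE E') : N.map F2 (SS.SingMap φ) (bdE E' c) = bdE E (N.map F2 (SS.SingMap φ) c) :=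
  LinearMap.congr_fun (N.map_bd (R := F2) (SS.SingMap φ)) c

/-- acyclicity of the image of a pair under an embedding -/
theorem AcP.image (hφ : IsEmbedding φ) {X A : Set E'} (h : AcP X A) : AcP (φ '' X) (φ '' A) := by
  intro j x hx hxX hxA
  rw [CS_image φ hφ] at hxX
  obtain ⟨c, hc, rfl⟩ := hxX
  have hcg := mem_gr_of_map _ (N_map_inj φ hφ) hx
  rw [← map_bd] at hxA
  obtain ⟨y, hy, hyX, hyA⟩ := h j c hcg hc (mem_of_map_CS φ hφ hxA)
  refine ⟨N.map F2 (SS.SingMap φ) y, map_mem_gr _ hy, map_CS φ X y hyX, ?_⟩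
  rw [← map_bd, ← map_sub]
  exact map_CS φ A _ hyA

end emb

end Crest.Agent.R231.SmBx609
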