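import Crest.Agent.R231.SmithB_609
import Crest.Agent.R231.GSmith_651

/-!
# Row 231, block H, leaf H7 (helper609): Smith theorem for loops, `Z/2`-form

`M` compact, `D : LUG M` with `SegLip`, `YS M t` = loops of period `1/2` in `X M t`.
* `YS_eq` : `YS M t = dbl '' X M (t / 2)`; `isometry_dbl`
* `smithZ` : for `0 ≤ t < t'` with `(X t', X t)` and `(X (t'/2), X (t/2))` acyclic, the completed
  product of `C(X t) / C(YS t)` with `d + 1 + g` is acyclic.
-/

set_option autoImplicit false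

noncomputable section

namespace Crest.Agent.R231.SmEndx609

open Crest.Agent.R204 Crest.Agent.R204.Exc406 Function Topology Set
open Crest.Agent.R231.Pairx877 Crest.Agent.R231.Smx566 Crest.Agent.R231.SmAx609
open Crest.Agent.R231.SmBx609
open Crest.Agent.R231.GLugx576 Crest.Agent.R231.GSmithx651

variable {M : Type} [MetricSpace M]

/-- loops of period `1/2` in `X M t` -/
def YS (M : Type) [MetricSpace M] (t : ℝ) : Set (Lp M) := {γ | γ ∈ X M t ∧ rot hf γ = γ}

theorem YS_sub (t : ℝ) : YS M t ⊆ X M t := fun _ h => h.1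

theorem YS_mono {s t : ℝ} (h : s ≤ t) : YS M s ⊆ YS M t := fun _ hγ => ⟨X_mono h hγ.1, hγ.2⟩

theorem YS_zero : X M 0 = YS M 0 := by
  refine Subset.antisymm (fun γ hγ => ⟨hγ, ?_⟩) (YS_sub 0)
  have h := mem_X_zero.1 hγ
  ext x
  rw [rot_apply, h, h x]

theorem dbl_apply (γ : Lp M) (x : Ci) : dbl γ x = γ (x + x) := by
  rw [itr_apply, two_nsmul]

theorem exists_double (x : Ci) : ∃ y : Ci, y + y = x := by
  induction x using QuotientAddGroup.induction_on with | _ x => ?_
  refine ⟨((x / 2 : ℝ) : Ci), ?_⟩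
  rw [← AddCircle.coe_add, add_halves]

theorem isometry_dbl : Isometry (dbl : Lp M → Lp M) := by
  refine Isometry.of_dist_eq fun f g => le_antisymm ?_ ?_
  · refine (ContinuousMap.dist_le dist_nonneg).2 fun u => ?_
    rw [dbl_apply, dbl_apply]
    exact ContinuousMap.dist_apply_le_dist _
  · refine (ContinuousMap.dist_le dist_nonneg).2 fun x => ?_
    obtain ⟨y, rfl⟩ := exists_double x
    have h := ContinuousMap.dist_apply_le_dist (f := dbl f) (g := dbl g) y
    rwa [dbl_apply, dbl_apply] at h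

theorem isEmbedding_dbl : IsEmbedding (dbl : C(Lp M, Lp M)) := isometry_dbl.isEmbedding

theorem rot_dbl (γ : Lp M) : rot hf (dbl γ) = dbl γ := by
  ext x
  rw [rot_apply, dbl_apply, dbl_apply]
  congr 1
  rw [add_add_add_comm, hf_add_hf, add_zero]

theorem dbl_mem {t : ℝ} {γ : Lp M} (h : γ ∈ X M t) : dbl γ ∈ X M (2 * t) := by
  have := itr_mem h 2
  simpa using this

/-- a loop of period `1/2` is a doubled loop -/
theorem exists_half {γ : Lp M} (h : rot hf γ = γ) : ∃ η : Lp M, dbl η = γ := by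
  have hp : Function.Periodic (fun u : ℝ => γ (((u / 2 : ℝ)) : Ci)) 1 := by
    intro u
    have h1 := DFunLike.congr_fun h (((u / 2 : ℝ)) : Ci)
    rw [rot_apply] at h1
    show γ ((((u + 1) / 2 : ℝ)) : Ci) = γ (((u / 2 : ℝ)) : Ci)
    rw [← h1]
    congr 1
    rw [add_div, AddCircle.coe_add]
    rfl
  refine ⟨⟨hp.lift, ?_⟩, ?_⟩
  · have hc : Continuous (hp.lift ∘ (QuotientAddGroup.mk : ℝ → Ci)) := by
      have : (hp.lift ∘ (QuotientAddGroup.mk : ℝ → Ci)) = fun u : ℝ => γ (((u / 2 : ℝ)) : Ci) := by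
        funext u
        exact hp.lift_coe u
      rw [this]
      exact γ.continuous.comp ((AddCircle.continuous_mk' 1).comp (continuous_id.div_const 2))
    exact QuotientAddGroup.isOpenQuotientMap_mk.continuous_comp_iff.1 hc
  · ext x
    induction x using QuotientAddGroup.induction_on with | _ x => ?_
    rw [dbl_apply]
    have e1 : ((x : ℝ) : Ci) + ((x : ℝ) : Ci) = ((x + x : ℝ) : Ci) := (AddCircle.coe_add 1 x x).symm
    show hp.lift (((x : ℝ) : Ci) + ((x : ℝ) : Ci)) = γ ((x : ℝ) : Ci)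
    rw [e1]
    refine (hp.lift_coe (x + x)).trans ?_
    show γ ((((x + x) / 2 : ℝ)) : Ci) = γ ((x : ℝ) : Ci)
    congr 2
    ring

theorem YS_eq (t : ℝ) : YS M t = dbl '' X M (t / 2) := by
  ext γ
  constructor
  · rintro ⟨h1, h2⟩
    obtain ⟨η, rfl⟩ := exists_half h2
    refine ⟨η, ?_, rfl⟩
    intro x y
    have h3 := h1 (x / 2) (y / 2)
    rw [dbl_apply, dbl_apply, ← AddCircle.coe_add, ← AddCircle.coe_add, add_halves, add_halves] at h3
    refine h3.trans (le_of_eq ?_)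
    rw [← sub_div, abs_div, abs_two]
    ring
  · rintro ⟨η, hη, rfl⟩
    refine ⟨?_, rot_dbl η⟩
    have := dbl_mem hη
    rwa [mul_div_cancel₀ t two_ne_zero] at this

theorem rot_mem_YS {t : ℝ} {γ : Lp M} (h : γ ∈ YS M t) (a : Ci) : rot a γ ∈ YS M t := by
  refine ⟨rot_mem h.1 a, ?_⟩
  rw [rot_rot, add_comm, ← rot_rot, h.2]

/-- rotation by half a turn on chains -/
abbrev gE (M : Type) [MetricSpace M] : CE (Lp M) →ₗ[F2] CE (Lp M) :=
  N.map F2 (SS.SingMap (rot hf : C(Lp M, Lp M)))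

theorem gE_gE (c : CE (Lp M)) : gE M (gE M c) = c := by
  rw [← N_map_comp]
  have : SS.Hom.comp (SS.SingMap (rot hf : C(Lp M, Lp M))) (SS.SingMap (rot hf : C(Lp M, Lp M))) =
      SS.Hom.id _ := by
    refine SS.Hom.ext (funext fun n => funext fun σ => ?_)
    refine SingAct265.sing_ext fun t => ?_
    show rot hf (rot hf (SingAct265.ev σ t)) = SingAct265.ev σ t
    rw [rot_rot, hf_add_hf, GLugx576.rot_zero]
  rw [this]
  exact EZ271.map_idHom F2 c

theorem bd_gE (c : CE (Lp M)) : bdE (Lp M) (gE M c) = gE M (bdE (Lp M) c) :=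
  (LinearMap.congr_fun (N.map_bd (R := F2) (SS.SingMap (rot hf : C(Lp M, Lp M)))) c).symm

/-- `g = 1` on the chains of loops of period `1/2` -/
theorem gE_fix {t : ℝ} : ∀ c ∈ CS (YS M t), gE M c = c := by
  refine eq_on_CS (f := gE M) (g := LinearMap.id) fun n σ hσ => ?_
  rw [N.map_sx]
  exact congrArg _ (SingAct265.sing_ext fun t => (hσ t).2)

/-- degreewise acyclicity gives completed acyclicity for `d + 1 + g` -/
theorem ra_of_AcP {A B : Set (Lp M)} (hA : ∀ γ ∈ A, rot hf γ ∈ A) (hB : ∀ γ ∈ B, rot hf γ ∈ B)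
    (h : AcP B A) : RA (DD (bdE (Lp M)) (LinearMap.id + gE M))
      (PP (N.gr F2 (SS.Sing (Lp M))) (CS A)) (PP (N.gr F2 (SS.Sing (Lp M))) (CS B)) := by
  have hmem : ∀ {W : Set (Lp M)}, (∀ γ ∈ W, rot hf γ ∈ W) → ∀ c ∈ CS W, gE M c ∈ CS W := by
    intro W hW
    refine map_mem_of_CS fun n σ hσ => ?_
    rw [N.map_sx]
    exact Pairx877.sx_mem_CS fun t => hW _ (hσ t)
  refine ra_of_acyc ?_ ?_ ?_ ?_ ?_ ?_ ?_ h
  · intro x
    simp only [LinearMap.add_apply, LinearMap.id_apply, map_add, gE_gE]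
    have : x + gE M x + (gE M x + x) = (x + gE M x) + (x + gE M x) := by abel
    rw [this, SmAx609.add_self]
  · intro x
    simp only [LinearMap.add_apply, LinearMap.id_apply, map_add, bd_gE]
  · intro x hx
    exact bd_gr_zero hx
  · intro j x hx
    exact bd_mem_gr j hx
  · intro j x hx
    exact (N.gr F2 _ j).add_mem hx (map_mem_gr _ hx)
  · intro x hx
    exact (CS A).add_mem hx (hmem hA x hx)
  · intro x hx
    exact (CS B).add_mem hx (hmem hB x hx)

variable [CompactSpace M]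

/-- **Smith theorem for loops, `Z/2`-Tate form** -/
theorem smithZ (D : LUG M) (hD : D.SegLip) {t t' : ℝ} (ht : 0 ≤ t) (htt : t < t')
    (h1 : AcP (X M t') (X M t)) (h2 : AcP (X M (t' / 2)) (X M (t / 2))) :
    RA (DD (bdE (Lp M)) (LinearMap.id + gE M))
      (PP (N.gr F2 (SS.Sing (Lp M))) (CS (YS M t))) (PP (N.gr F2 (SS.Sing (Lp M))) (CS (X M t))) := by
  classical
  obtain ⟨δ, hδ, hH⟩ := exists_homotopy D hD ht htt
  obtain ⟨H, hH0, hH1, hHf, hHr, -⟩ := hH δ hδ le_rfl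
  obtain ⟨S, hS⟩ := exists_cover (M := M) (t := t) hδ
  have hVX : (V M t δ) ⊆ X M t := fun γ hγ => hγ.1
  have hYV : YS M t ⊆ (V M t δ) := by
    intro γ hγ
    refine ⟨hγ.1, fun x => ?_⟩
    have : γ (x + hf) = γ x := DFunLike.congr_fun hγ.2 x
    rw [this, dist_self]
    exact hδ
  have hinv : ∀ γ : Lp M, rot hf (rot hf γ) = γ := by
    intro γ
    rw [rot_rot, hf_add_hf, GLugx576.rot_zero]
  -- localisation
  have hra1 : RA (DD (bdE (Lp M)) (LinearMap.id + gE M))
      (PP (N.gr F2 (SS.Sing (Lp M))) (CS (V M t δ))) (PP (N.gr F2 (SS.Sing (Lp M))) (CS (X M t))) := by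
    rw [← cs_In, ← cs_In]
    refine smith_ra_sub (rot hf) (X M t) (V M t δ) (fun γ hγ => rot_mem hγ _) (fun γ _ => hinv γ) hVX
      ?_ (fun γ hγ => rot_mem_V hγ _) (S.image (fun q => U q.1 q.2 δ)) ?_ ?_ ?_
    · refine ⟨{γ : Lp M | ∀ x, dist (γ x) (γ (x + hf)) < δ}, ?_, ?_⟩
      · have e1 : {γ : Lp M | ∀ x, dist (γ x) (γ (x + hf)) < δ} =
            (Prod.fst '' {q : Lp M × Ci | δ ≤ dist (q.1 q.2) (q.1 (q.2 + hf))})ᶜ := by
          ext γ
          constructor
          · rintro h ⟨⟨γ', x⟩, hx, rfl⟩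
            exact absurd (h x) (not_lt.2 hx)
          · intro h x
            by_contra hx
            exact h ⟨(γ, x), not_lt.1 hx, rfl⟩
        rw [e1, isOpen_compl_iff]
        have hc : Continuous fun q : Lp M × Ci => dist (q.1 q.2) (q.1 (q.2 + hf)) := by fun_prop
        exact isClosedMap_fst_of_compactSpace _ (isClosed_le continuous_const hc)
      · rfl
    · intro W hW
      obtain ⟨q, _, rfl⟩ := Finset.mem_image.1 hW
      exact isOpen_U _ _ _
    · intro W hW γ _ hγW hγ'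
      obtain ⟨q, _, rfl⟩ := Finset.mem_image.1 hW
      exact Set.disjoint_left.1 (disjoint_U q.1 q.2 δ) hγW hγ'
    · intro γ hγ
      by_cases hγV : γ ∈ (V M t δ)
      · exact Or.inl hγV
      · obtain ⟨q, hq, hγq⟩ := hS γ hγ hγV
        exact Or.inr ⟨_, Finset.mem_image_of_mem _ hq, Or.inl hγq⟩
  -- levels
  have hra2 : RA (DD (bdE (Lp M)) (LinearMap.id + gE M))
      (PP (N.gr F2 (SS.Sing (Lp M))) (CS (X M t))) (PP (N.gr F2 (SS.Sing (Lp M))) (CS (X M t'))) :=
    ra_of_AcP (fun γ hγ => rot_mem hγ _) (fun γ hγ => rot_mem hγ _) h1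
  have hra3 : RA (DD (bdE (Lp M)) (LinearMap.id + gE M))
      (PP (N.gr F2 (SS.Sing (Lp M))) (CS (YS M t))) (PP (N.gr F2 (SS.Sing (Lp M))) (CS (YS M t'))) := by
    refine ra_of_AcP (fun γ hγ => rot_mem_YS hγ _) (fun γ hγ => rot_mem_YS hγ _) ?_
    rw [YS_eq, YS_eq]
    exact h2.image _ isEmbedding_dbl
  -- the homotopy
  let H' : C((V M t δ) × unitInterval, Lp M) := ⟨fun p => (H p : Lp M), continuous_subtype_val.comp H.continuous⟩
  let k : C((V M t δ), Lp M) := ⟨fun v => H' (v, 1), H'.continuous.comp (by fun_prop)⟩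
  have hγV : ∀ v ∈ (V M t δ), rot hf v ∈ (V M t δ) := fun v hv => rot_mem_V hv _
  have hHg : ∀ (v : (V M t δ)) (s : unitInterval), H' (⟨rot hf v, hγV v v.2⟩, s) = rot hf (H' (v, s)) :=
    fun v s => hHr v s hf
  have hk : ∀ v : (V M t δ), k v ∈ YS M t' := by
    intro v
    refine ⟨(H (v, 1)).2.1, ?_⟩
    exact hH1 v
  have hra4 : RA (DD (bdE (Lp M)) (LinearMap.id + gE M))
      (PP (N.gr F2 (SS.Sing (Lp M))) (CS (YS M t))) (PP (N.gr F2 (SS.Sing (Lp M))) (CS (V M t δ))) := by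
    refine ra_six (r := rV k) (K := KV H') (Y' := CS (YS M t')) (X' := CS (X M t'))
      N.bd_bd gE_gE bd_gE (fun x hx => bd_gr_zero hx) (CS_mono hYV) (CS_mono hVX)
      (CS_mono (YS_sub t')) (fun x _ => rV_mem k hk x) (rV_gr k) (rV_fix k hYV ?_) (rV_bd k)
      (rV_map k (rot hf) hγV fun v => hHg v 1) (fun x _ => KV_mem H' (fun p => (H p).2.1) x)
      (KV_gr H') (KV_map H' (rot hf) hγV hHg) (KV_bd H' k (fun v => hH0 v) fun _ => rfl)
      hra1 hra2 hra3
    intro v hv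
    exact hHf v 1 hv.2
  refine hra4.trans hra1 (PP_mono _ (CS_mono hYV)) (PP_mono _ (CS_mono hVX)) fun x _ => ?_
  have : DD (bdE (Lp M)) (LinearMap.id + gE M) (DD (bdE (Lp M)) (LinearMap.id + gE M) x) = 0 := by
    refine DD_DD N.bd_bd ?_ ?_ x
    · intro x
      simp only [LinearMap.add_apply, LinearMap.id_apply, map_add, gE_gE]
      have : x + gE M x + (gE M x + x) = (x + gE M x) + (x + gE M x) := by abel
      rw [this, SmAx609.add_self]
    · intro x
      simp only [LinearMap.add_apply, LinearMap.id_apply, map_add, bd_gE]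
  rw [this]
  exact Submodule.zero_mem _

end Crest.Agent.R231.SmEndx609
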