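import Crest.Agent.R231.Small_566
import Crest.Agent.R231.TSub_569
import Crest.Agent.R231.GSmith_651

/-!
# Row 231, block H (helper566): Smith localisation for `V M t δ ⊆ X M t`, in the T-complex `TL M`

* `acyZ_of_RA` : from the total-module form (`RA`, `DD`, `PP`) to the graded form in `A.sub W hW`
* `acyZ_V` : the pair `(V M t δ, X M t)` is `(d+1+g)`-acyclic in `TL M`
* `acyT_V` : the same for `DT = d + Δ`
-/

set_option autoImplicit false

noncomputable section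

open Crest.Agent.R204 Crest.Agent.R204.EZ271 Crest.Agent.R204.EZ847 Crest.Agent.R204.SingAct265
open Crest.Agent.R231.TCx569 Crest.Agent.R231.Pairx877 Crest.Agent.R231.TActx569
open Crest.Agent.R231.GLugx576 Crest.Agent.R231.GSmithx651

namespace Crest.Agent.R231.Smx566

section gen

variable {K : SS} (A : TAct K) {W : Submodule F2 (N F2 K)} (hW : A.Stb W)

theorem acyZ_of_RA {V B : Submodule F2 (N F2 K)} (hBW : B ≤ W)
    (h : RA (DD (N.bd F2 K) (LinearMap.id + A.gN)) (PP (N.gr F2 K) V) (PP (N.gr F2 K) B))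
    (v : (A.sub W hW).P) (hv : ∀ j, v j ∈ A.gs hW B j)
    (hDv : ∀ j, (A.sub W hW).DZ v j ∈ A.gs hW V j) :
    ∃ c : (A.sub W hW).P, (∀ j, c j ∈ A.gs hW B j) ∧
      ∀ j, (v + (A.sub W hW).DZ c) j ∈ A.gs hW V j := by
  have hsv : ∀ (c : (A.sub W hW).P) j, A.sval hW j ((A.sub W hW).DZ c j) =
      N.bd F2 K (A.sval hW (j + 1) (c (j + 1))) + (A.sval hW j (c j) + A.gN (A.sval hW j (c j))) := by
    intro c j
    rw [TC.DZ_apply]
    show A.sval hW j ((A.sub W hW).dP c j + c j + (A.sub W hW).gP c j) = _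
    rw [map_add, map_add, add_assoc]
    rfl
  have hD : DD (N.bd F2 K) (LinearMap.id + A.gN) (fun j => A.sval hW j (v j)) ∈
      PP (N.gr F2 K) V := by
    intro j
    constructor
    · have h1 := A.sval_mem hW ((A.sub W hW).DZ v j)
      rw [hsv] at h1
      exact h1
    · have h1 := hDv j
      rw [TAct.mem_gs, hsv] at h1
      exact h1
  obtain ⟨y, hy, hxy⟩ := h (fun j => A.sval hW j (v j)) (fun j => ⟨A.sval_mem hW _, hv j⟩) hD
  refine ⟨fun j => A.smk hW (y j) (hy j).1 (hBW (hy j).2), fun j => (hy j).2, fun j => ?_⟩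
  show A.sval hW j (v j + (A.sub W hW).DZ _ j) ∈ V
  rw [map_add, hsv]
  have := (hxy j).2
  rw [Pi.sub_apply, sub_eq_add'] at this
  exact this

/-- conjugation with `1 + h` -/
theorem acyT_of_acyZ {V B : Submodule F2 (N F2 K)} (hV : ∀ z ∈ V, A.hN z ∈ V)
    (hB : ∀ z ∈ B, A.hN z ∈ B)
    (h : ∀ v : (A.sub W hW).P, (∀ j, v j ∈ A.gs hW B j) →
      (∀ j, (A.sub W hW).DZ v j ∈ A.gs hW V j) → ∃ c : (A.sub W hW).P,
      (∀ j, c j ∈ A.gs hW B j) ∧ ∀ j, (v + (A.sub W hW).DZ c) j ∈ A.gs hW V j)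
    (v : (A.sub W hW).P) (hv : ∀ j, v j ∈ A.gs hW B j)
    (hDv : ∀ j, (A.sub W hW).DT v j ∈ A.gs hW V j) :
    ∃ c : (A.sub W hW).P, (∀ j, c j ∈ A.gs hW B j) ∧
      ∀ j, (v + (A.sub W hW).DT c) j ∈ A.gs hW V j := by
  have hcj : ∀ (S : Submodule F2 (N F2 K)), (∀ z ∈ S, A.hN z ∈ S) → ∀ c : (A.sub W hW).P,
      (∀ j, c j ∈ A.gs hW S j) → ∀ j, (A.sub W hW).cj c j ∈ A.gs hW S j := by
    intro S hS c hc j
    rw [TC.cj_apply]
    show c j + (A.sub W hW).hP c j ∈ A.gs hW S j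
    refine Submodule.add_mem _ (hc j) ?_
    rcases j with _ | j
    · exact Submodule.zero_mem _
    · exact hS _ (hc j)
  obtain ⟨c, hc, hvc⟩ := h ((A.sub W hW).cj v) (hcj B hB v hv) (by
    rw [← TC.cj_DT]
    exact hcj V hV _ hDv)
  refine ⟨(A.sub W hW).cj c, hcj B hB c hc, ?_⟩
  have e : v + (A.sub W hW).DT ((A.sub W hW).cj c) =
      (A.sub W hW).cj ((A.sub W hW).cj v + (A.sub W hW).DZ c) := by
    rw [map_add, TC.cj_cj, TC.cj_DZ]
  rw [e]
  exact hcj V hV _ hvc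

end gen

section loops

variable (M : Type) [MetricSpace M] [CompactSpace M]

omit [CompactSpace M] in
theorem gN_LA : (LA M).gN = N.map F2 (SS.SingMap (rotC (rho M) hf)) := by
  have e : (LA M).rot hf = SS.SingMap (rotC (rho M) hf) := TAct.rot_sing hf
  show N.map F2 ((LA M).rot hf) = _
  rw [e]

omit [CompactSpace M] in
theorem V_sub_X (t δ : ℝ) : V M t δ ⊆ X M t := fun _ h => h.1

theorem smith_V {t δ : ℝ} (hδ : 0 < δ) :
    RA (DD (N.bd F2 (SS.Sing (Lp M))) (LinearMap.id + (LA M).gN))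
      (PP (N.gr F2 (SS.Sing (Lp M))) (CS (V M t δ))) (PP (N.gr F2 (SS.Sing (Lp M))) (CS (X M t))) := by
  classical
  rw [gN_LA]
  obtain ⟨S, hS⟩ := exists_cover (M := M) (t := t) hδ
  have hrot : ∀ γ : Lp M, rotC (rho M) hf γ = rot hf γ := fun _ => rfl
  refine smith_CS (rotC (rho M) hf) (X M t) (V M t δ) ?_ ?_ (V_sub_X M t δ) ?_ ?_
    (S.image (fun q => U q.1 q.2 δ)) ?_ ?_ ?_
  · intro γ hγ
    exact rot_mem hγ hf
  · intro γ _
    rw [hrot, hrot, rot_rot, hf_add_hf, rot_zero]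
  · refine ⟨{γ : Lp M | ∀ x, dist (γ x) (γ (x + hf)) < δ}, ?_, ?_⟩
    · have e : {γ : Lp M | ∀ x, dist (γ x) (γ (x + hf)) < δ} =
          (Prod.fst '' {q : Lp M × Ci | δ ≤ dist (q.1 q.2) (q.1 (q.2 + hf))})ᶜ := by
        ext γ
        simp only [Set.mem_ofPred_eq, Set.mem_compl_iff, Set.mem_image, Prod.exists, not_exists,
          not_and]
        constructor
        · intro h γ' x hx hγ
          subst hγ
          exact absurd (h x) (not_lt.2 hx)
        · intro h x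
          by_contra hx
          exact h γ x (not_lt.1 hx) rfl
      rw [e, isOpen_compl_iff]
      have h1 : Continuous fun q : Lp M × Ci => dist (q.1 q.2) (q.1 (q.2 + hf)) := by fun_prop
      exact isClosedMap_fst_of_compactSpace _ (isClosed_le continuous_const h1)
    · ext γ
      rfl
  · intro γ hγ
    exact rot_mem_V hγ hf
  · intro U' hU'
    obtain ⟨q, _, rfl⟩ := Finset.mem_image.1 hU'
    exact isOpen_U _ _ _
  · intro U' hU' γ _ hγ
    obtain ⟨q, _, rfl⟩ := Finset.mem_image.1 hU'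
    exact Set.disjoint_left.1 (disjoint_U q.1 q.2 δ) hγ
  · intro γ hγ
    by_cases hV : γ ∈ V M t δ
    · exact Or.inl hV
    · obtain ⟨q, hq, h⟩ := hS γ hγ hV
      exact Or.inr ⟨_, Finset.mem_image_of_mem _ hq, Or.inl h⟩

omit [CompactSpace M] in
theorem CS_X_le_WL (t : ℝ) : CS (X M t) ≤ WL M := le_iSup (fun t : ℝ => CS (X M t)) t

/-- **`(V, X_t)` is `(d+1+g)`-acyclic** -/
theorem acyZ_V {t δ : ℝ} (hδ : 0 < δ) (v : (TL M).P) (hv : ∀ j, v j ∈ FL M t j)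
    (hDv : ∀ j, (TL M).DZ v j ∈ GSL M (CS (V M t δ)) j) :
    ∃ c : (TL M).P, (∀ j, c j ∈ FL M t j) ∧
      ∀ j, (v + (TL M).DZ c) j ∈ GSL M (CS (V M t δ)) j :=
  acyZ_of_RA (LA M) (stb_WL M) (CS_X_le_WL M t) (smith_V M hδ) v hv hDv

omit [CompactSpace M] in
theorem hN_V {t δ : ℝ} (z : CE (Lp M)) (hz : z ∈ CS (V M t δ)) : (LA M).hN z ∈ CS (V M t δ) :=
  TAct.op_mem_CS (fun v _ hx => rot_mem_V hx v) _ z hz

/-- **`(V, X_t)` is `(d+Δ)`-acyclic** -/
theorem acyT_V {t δ : ℝ} (hδ : 0 < δ) (v : (TL M).P) (hv : ∀ j, v j ∈ FL M t j)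
    (hDv : ∀ j, (TL M).DT v j ∈ GSL M (CS (V M t δ)) j) :
    ∃ c : (TL M).P, (∀ j, c j ∈ FL M t j) ∧
      ∀ j, (v + (TL M).DT c) j ∈ GSL M (CS (V M t δ)) j :=
  acyT_of_acyZ (LA M) (stb_WL M) (hN_V M) (stb_X M t).h (fun v hv hDv => acyZ_V M hδ v hv hDv) v hv hDv

end loops

end Crest.Agent.R231.Smx566
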