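import Crest.Agent.R231.Tate2_432
import Crest.Agent.R231.SmithV_566
import Crest.Agent.R231.Eqv_937
import Crest.Agent.R231.Halve_432

/-!
# Row 231 (helper432, shadow of leaf H7): the Smith isomorphism for Lipschitz loops

`smith_t` : for `0 ≤ t < t'` with `(X_t', X_t)` and `(X_{t'/2}, X_{t/2})` acyclic, the literal
`IfAx978.Smith (X := mix M) (psiC M) (FF M 0) (FF M t) (FF M 0) (FF M (t / 2))`.
-/

set_option autoImplicit false

noncomputable section

open Function Topology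
open Crest.Agent.R204

namespace Crest.Agent.R231.SmithFinx432

open SingAct265 EZ271 EZ847 Pairx877 GLugx576 TActx569 TCx569 IfAx978 GSmithx651 Instx895
  Tatex432 Halvex432 Eqvx937

variable {M : Type} [MetricSpace M] [CompactSpace M]

omit [CompactSpace M] in
theorem stD_gs (Y : Set (Lp M)) : StD (X := TL M) (GSL M (CS Y)) := fun _ _ hx => bd_mem_CS _ hx

omit [CompactSpace M] in
theorem stG_gs {Y : Set (Lp M)} (hY : RotInv Y) : StG (X := TL M) (GSL M (CS Y)) :=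
  fun _ _ hx => gN_mem_CS hY _ hx

omit [CompactSpace M] in
theorem stH_gs {Y : Set (Lp M)} (hY : RotInv Y) : StH (X := TL M) (GSL M (CS Y)) :=
  fun _ _ hx => hN_mem_CS hY _ hx

omit [CompactSpace M] in
theorem ptAct : PtAct (LA M) (fun a γ => rot a γ) := fun _ _ _ _ => rfl

/-- **Smith isomorphism at level `t`** -/
theorem smith_t (D : LUG M) (hD : SegLipM D) {t t' : ℝ} (ht : 0 ≤ t) (htt : t < t')
    (h1 : ∀ j, Zc (FF M (t / 2)) (FF M (t' / 2)) j ≤ Bd (FF M (t / 2)) (FF M (t' / 2)) j)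
    (h3 : ∀ j, Zc (FF M t) (FF M t') j ≤ Bd (FF M t) (FF M t') j) :
    Smith (X := Instx895.mix M) (psiC M) (FF M 0) (FF M t) (FF M 0) (FF M (t / 2)) := by
  obtain ⟨δ, hδ, H⟩ := exists_homotopyF D hD ht htt
  obtain ⟨F, hF, hFV, hF0, hF1, hFfix, hFrot, -⟩ := H δ hδ le_rfl
  have hVinv : ∀ a, ∀ γ ∈ V M t δ, rot a γ ∈ V M t δ := fun a γ h => rot_mem_V h a
  have c0 : ContinuousOn (fun γ => F γ 0) (V M t δ) := contAt ⟨le_rfl, zero_le_one⟩ hF
  have c1 : ContinuousOn (fun γ => F γ 1) (V M t δ) := contAt ⟨zero_le_one, le_rfl⟩ hF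
  have hI1 : (1 : ℝ) ∈ Set.Icc (0 : ℝ) 1 := ⟨zero_le_one, le_rfl⟩
  -- supports
  have hVX : ∀ γ ∈ V M t δ, ∀ r ∈ Set.Icc (0 : ℝ) 1, F γ r ∈ X M t' := fun γ h r hr =>
    (hFV γ h r hr).1
  have hVFx : ∀ γ ∈ V M t δ, F γ 1 ∈ Fx M ∩ X M t' := fun γ h => ⟨hF1 γ h, hVX γ h 1 hI1⟩
  -- the homotopy operator
  have hKX : ∀ c : CE (Lp M), prV (V M t δ) F hF c ∈ CS (X M t') := prV_mem_self hVX
  let K : ∀ j, (TL M).C j →ₗ[F2] (TL M).C (j + 1) := fun j =>
    (prV (V M t δ) F hF).restrict (fun x hx => ⟨prV_mem_gr hx.1, CS_le_CL t' (hKX x)⟩)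
  have hpX : ∀ c : CE (Lp M), push (V M t δ) (fun γ => F γ 1) c1 c ∈ CS (Fx M ∩ X M t') := by
    intro c
    have : ∀ c ∈ CS (Set.univ : Set (Lp M)), push (V M t δ) (fun γ => F γ 1) c1 c ∈
        CS (Fx M ∩ X M t') := by
      refine map_mem_of_CS fun n σ _ => ?_
      by_cases hx : ∀ y, ev σ y ∈ V M t δ
      · rw [push_sx hx]
        exact sx_mem_CS fun y => hVFx _ (hx y)
      · rw [push_sx_neg hx]; exact Submodule.zero_mem _
    exact this c (by rw [CS_univ]; trivial)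
  let ρ : ∀ j, (TL M).C j →ₗ[F2] (TL M).C j := fun j =>
    (push (V M t δ) (fun γ => F γ 1) c1).restrict (fun x hx => ⟨push_gr hx.1,
      CS_le_CL' (t := t') Set.inter_subset_right (hpX x)⟩)
  have vK : ∀ j x, vl (M := M) (j + 1) (K j x) = prV (V M t δ) F hF (vl j x) := fun _ _ => rfl
  have vρ : ∀ j x, vl (M := M) j (ρ j x) = push (V M t δ) (fun γ => F γ 1) c1 (vl j x) :=
    fun _ _ => rfl
  have hhtp : ∀ c ∈ CS (V M t δ), bdE (Lp M) (prV (V M t δ) F hF c) +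
      prV (V M t δ) F hF (bdE (Lp M) c) = c + push (V M t δ) (fun γ => F γ 1) c1 c := by
    intro c hc
    rw [bd_prV c0 c1 c hc, add_comm]
    congr 1
    rw [push_congr (g := fun γ => γ) (hg := continuousOn_id) (fun γ h => hF0 γ h)]
    exact push_id c hc
  have himB : ∀ j, im (X := TL M) (psiC M) (FL M (t / 2)) j = GSL M (CS (Fx M ∩ X M t)) j := im_psiC t
  have himE : ∀ j, im (X := TL M) (psiC M) (FL M (t' / 2)) j = GSL M (CS (Fx M ∩ X M t')) j :=
    im_psiC t'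
  have himB' : im (X := TL M) (psiC M) (FL M (t / 2)) = GSL M (CS (Fx M ∩ X M t)) := funext himB
  have himE' : im (X := TL M) (psiC M) (FL M (t' / 2)) = GSL M (CS (Fx M ∩ X M t')) := funext himE
  have hFxV : Fx M ∩ X M t ⊆ V M t δ := by
    rintro γ ⟨h, h'⟩
    refine ⟨h', fun x => ?_⟩
    have e : γ (x + hf) = γ x := by
      rw [← rot_apply, show rot hf γ = γ from h]
    rw [e, dist_self]
    exact hδ
  refine smith_sixZ_on (X := TL M) (K := K) (ρ := ρ) (V := GSL M (CS (V M t δ)))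
    (E := FL M t') (E' := FL M (t' / 2)) psiC_inj d_psiC ?_ ?_ (fun j x h => psiC_mem_zero h)
    ?_ ?_ ?_ ?_ ?_ (stD_gs _) (stG_gs (rotInv_X t)) (stH_gs (rotInv_X t)) (stD_gs _)
    (stG_gs (rotInv_X t')) ?_ ?_ ?_ ?_ ?_ (stD_gs _) (stG_gs hVinv) ?_ ?_ ?_ ?_ ?_ ?_ ?_ ?_ ?_
  · intro j x
    exact De_psiC j x
  · intro j
    rw [himB]
    exact fun x hx => CS_zero_le ht hx
  · intro j
    rw [himB]
    exact fun x hx => CS_mono hFxV hx
  · intro j
    exact fun x hx => CS_mono (fun γ h => h.1) hx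
  · intro j
    exact FL_mono M htt.le j
  · intro j
    exact FL_mono M (by linarith) j
  · intro j
    rw [himE]
    exact fun x hx => CS_mono Set.inter_subset_right hx
  · rw [himB']; exact stD_gs _
  · rw [himB']; exact stG_gs (rotInv_Fx t)
  · rw [himB']; exact stH_gs (rotInv_Fx t)
  · rw [himE']; exact stD_gs _
  · rw [himE']; exact stG_gs (rotInv_Fx t')
  · -- K g = g K
    intro j x hx
    apply vl_inj (j + 1)
    have h := prV_op (hF := hF) ptAct ptAct (fun a γ h => hVinv a γ h)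
      (fun a γ h r hr => hFrot γ h r hr a) (N.sx F2 (vx ((1 / 2 : ℝ) : UnitAddCircle))) (vl j x) hx
    rw [← TAct.gN_eq, ← TAct.gN_eq] at h
    exact h
  · intro x hx
    apply vl_inj 0
    have h0 : bdE (Lp M) (vl 0 x) = 0 := Exc406.bd_gr_zero (vl_mem_gr x)
    have h := hhtp (vl 0 x) hx
    rw [h0, map_zero, add_zero] at h
    exact h
  · intro j x hx
    apply vl_inj (j + 1)
    exact hhtp (vl (j + 1) x) hx
  · intro j x _
    rw [himE]
    exact hpX _
  · intro j x hx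
    rw [himB] at hx
    apply vl_inj j
    have key : ∀ c ∈ CS (Fx M ∩ X M t), push (V M t δ) (fun γ => F γ 1) c1 c = c := by
      intro c hc
      rw [push_subset hFxV (hfA := c1.mono hFxV) c hc,
        push_congr (g := fun γ => γ) (hg := continuousOn_id)
          (fun γ h => hFfix γ (hFxV h) 1 hI1 h.1)]
      exact push_id c hc
    exact key _ hx
  · intro j x _
    exact hKX _
  · exact acy_mix.2 h1
  · intro v hv hdv
    exact Smx566.acyZ_V M hδ v hv hdv
  · exact acy_mix.2 h3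

/-- **the field `smith` of `IfAx978.Core`** -/
theorem smith_field (D : LUG M) (hD : SegLipM D) (Crit : Set ℝ)
    (Crit_fin : ∀ T : ℝ, (Crit ∩ Set.Iic T).Finite) (Crit_two : ∀ s ∈ Crit, 2 * s ∈ Crit)
    (noncrit : ∀ a b : ℝ, 0 ≤ a → a ≤ b → (∀ s ∈ Crit, ¬ (a ≤ s ∧ s ≤ b)) →
      ∀ j, Zc (FF M a) (FF M b) j ≤ Bd (FF M a) (FF M b) j) :
    ∀ t : ℝ, 0 ≤ t → t ∉ Crit →
      Smith (X := Instx895.mix M) (psiC M) (FF M 0) (FF M t) (FF M 0) (FF M (t / 2)) := by
  intro t ht htC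
  have h1 : (Crit ∩ Set.Iic (t + 1))ᶜ ∈ nhds t :=
    (Crit_fin (t + 1)).isClosed.isOpen_compl.mem_nhds fun h => htC h.1
  obtain ⟨ε, hε, hb⟩ := Metric.mem_nhds_iff.1 h1
  have hfree : ∀ s ∈ Crit, ¬ (t ≤ s ∧ s ≤ t + min ε 1 / 2) := by
    rintro s hs ⟨h2, h3⟩
    have hm : min ε 1 ≤ 1 := min_le_right _ _
    have hm' : min ε 1 ≤ ε := min_le_left _ _
    have hm0 : 0 < min ε 1 := lt_min hε one_pos
    have h4 : s ∈ Metric.ball t ε := by
      rw [Metric.mem_ball, Real.dist_eq, abs_of_nonneg (by linarith)]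
      linarith
    exact hb h4 ⟨hs, by
      show s ≤ t + 1
      linarith⟩
  have hm0 : 0 < min ε 1 := lt_min hε one_pos
  refine smith_t D hD ht (t' := t + min ε 1 / 2) (by linarith) ?_ ?_
  · refine noncrit _ _ (by linarith) (by linarith) ?_
    rintro s hs ⟨h2, h3⟩
    exact hfree (2 * s) (Crit_two s hs) ⟨by linarith, by linarith⟩
  · exact noncrit _ _ ht (by linarith) hfree

end Crest.Agent.R231.SmithFinx432
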