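import Crest.Agent.R204.ExcE_406
import Crest.Agent.R204.Rel_683

/-!
# Row 231, block H, leaf H3 (helper566): Smith localisation for (X, V)

`RA D P Q` : relative acyclicity of `Q / P` for a square-zero `D` (everything inside one module).
`PP gr A` : completed product `∏_j (gr j ⊓ A)`, `DD d e x j = d (x (j+1)) + e (x j)`.

* `ra_of_acyc` : relatively `d`-acyclic ⟹ relatively `DD d e`-acyclic (solve from the lowest degree up)
* `ra_of_contr` : a contraction
* `smith_ra` : `X` a space with an involution `g`, `V` open invariant, `X = V ∪ ⋃ (U ∪ gU)` with finitely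
  many open `U`, `U ∩ gU = ∅`  ⟹  `RA (d + 1 + g)` for `P(C(V)) ≤ P(C(X))`.
-/

set_option autoImplicit false

noncomputable section

namespace Crest.Agent.R231.Smx566

open Crest.Agent.R204 Crest.Agent.R204.Exc406 Function Topology Finsupp

/-! ## relative acyclicity -/

section alg

variable {W : Type*} [AddCommGroup W] [Module F2 W]

/-- relative acyclicity of `Q / P` under `D` -/
def RA (D : W →ₗ[F2] W) (P Q : Submodule F2 W) : Prop :=
  ∀ x ∈ Q, D x ∈ P → ∃ y ∈ Q, x - D y ∈ P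

theorem RA.refl (D : W →ₗ[F2] W) (P : Submodule F2 W) : RA D P P := fun x hx _ =>
  ⟨0, P.zero_mem, by rwa [map_zero, sub_zero]⟩

theorem RA.trans {D : W →ₗ[F2] W} {P Q S : Submodule F2 W} (h1 : RA D P Q) (h2 : RA D Q S)
    (hPQ : P ≤ Q) (hQS : Q ≤ S) (hDD : ∀ x ∈ S, D (D x) ∈ P) : RA D P S := by
  intro x hx hDx
  obtain ⟨y, hy, hxy⟩ := h2 x hx (hPQ hDx)
  obtain ⟨z, hz, hxz⟩ := h1 (x - D y) hxy (by
    rw [map_sub]
    exact P.sub_mem hDx (hDD y hy))
  refine ⟨y + z, S.add_mem hy (hQS hz), ?_⟩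
  rw [map_add, ← sub_sub]
  exact hxz

/-- a contraction of `Q / P` -/
theorem ra_of_contr {D : W →ₗ[F2] W} {P Q : Submodule F2 W} (s : W → W) (hs : ∀ x ∈ Q, s x ∈ Q)
    (hsP : ∀ x ∈ P, s x ∈ P) (h : ∀ x ∈ Q, x - D (s x) - s (D x) ∈ P) : RA D P Q := by
  intro x hx hDx
  refine ⟨s x, hs x hx, ?_⟩
  have := P.add_mem (h x hx) (hsP _ hDx)
  rwa [sub_add_cancel] at this

/-- transport along an isomorphism -/
theorem RA.conj {W' : Type*} [AddCommGroup W'] [Module F2 W'] {D : W →ₗ[F2] W}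
    {P Q : Submodule F2 W} (h : RA D P Q) {D' : W' →ₗ[F2] W'} {P' Q' : Submodule F2 W'}
    (φ : W →ₗ[F2] W') (ψ : W' →ₗ[F2] W) (hψP : ∀ x ∈ P', ψ x ∈ P) (hψQ : ∀ x ∈ Q', ψ x ∈ Q)
    (hφP : ∀ x ∈ P, φ x ∈ P') (hφQ : ∀ x ∈ Q, φ x ∈ Q') (hφψ : ∀ x ∈ Q', φ (ψ x) = x)
    (hψ : ∀ x ∈ Q', ψ (D' x) = D (ψ x)) (hφ : ∀ x ∈ Q, φ (D x) = D' (φ x)) : RA D' P' Q' := by
  intro x hx hDx
  obtain ⟨y, hy, hxy⟩ := h (ψ x) (hψQ x hx) (by rw [← hψ x hx]; exact hψP _ hDx)
  refine ⟨φ y, hφQ y hy, ?_⟩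
  have := hφP _ hxy
  rwa [map_sub, hφψ x hx, hφ y hy] at this

/-- transport along an injective map with prescribed image -/
theorem RA.push {W' : Type*} [AddCommGroup W'] [Module F2 W'] {D : W →ₗ[F2] W}
    {P Q : Submodule F2 W} (h : RA D P Q) {D' : W' →ₗ[F2] W'} {P' Q' : Submodule F2 W'}
    (φ : W →ₗ[F2] W') (hφ : ∀ x ∈ Q, φ (D x) = D' (φ x)) (hφP : ∀ x ∈ P, φ x ∈ P')
    (hφQ : ∀ x ∈ Q, φ x ∈ Q') (hsur : ∀ x' ∈ Q', ∃ x ∈ Q, φ x = x')
    (hrefl : ∀ x, φ x ∈ P' → x ∈ P) : RA D' P' Q' := by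
  intro x' hx' hDx'
  obtain ⟨x, hx, rfl⟩ := hsur x' hx'
  obtain ⟨y, hy, hxy⟩ := h x hx (hrefl _ (by rwa [hφ x hx]))
  refine ⟨φ y, hφQ y hy, ?_⟩
  have := hφP _ hxy
  rwa [map_sub, hφ y hy] at this

end alg

/-! ## completed products -/

section prod

variable {C : Type*} [AddCommGroup C] [Module F2 C]

/-- the completed product `∏_j (gr j ⊓ A)` -/
def PP (gr : ℕ → Submodule F2 C) (A : Submodule F2 C) : Submodule F2 (ℕ → C) where
  carrier := {x | ∀ j, x j ∈ gr j ∧ x j ∈ A}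
  zero_mem' := fun j => ⟨(gr j).zero_mem, A.zero_mem⟩
  add_mem' := fun hx hy j => ⟨(gr j).add_mem (hx j).1 (hy j).1, A.add_mem (hx j).2 (hy j).2⟩
  smul_mem' := fun c _ hx j => ⟨(gr j).smul_mem c (hx j).1, A.smul_mem c (hx j).2⟩

theorem mem_PP {gr : ℕ → Submodule F2 C} {A : Submodule F2 C} {x : ℕ → C} :
    x ∈ PP gr A ↔ ∀ j, x j ∈ gr j ∧ x j ∈ A := Iff.rfl

theorem PP_mono (gr : ℕ → Submodule F2 C) {A B : Submodule F2 C} (h : A ≤ B) :
    PP gr A ≤ PP gr B := fun _ hx j => ⟨(hx j).1, h (hx j).2⟩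

/-- `(DD d e x)_j = d x_{j+1} + e x_j` -/
def DD (d e : C →ₗ[F2] C) : (ℕ → C) →ₗ[F2] (ℕ → C) where
  toFun x j := d (x (j + 1)) + e (x j)
  map_add' x y := by
    funext j
    simp only [Pi.add_apply, map_add]
    abel
  map_smul' c x := by
    funext j
    simp only [Pi.smul_apply, map_smul, smul_add, RingHom.id_apply]

@[simp] theorem DD_apply (d e : C →ₗ[F2] C) (x : ℕ → C) (j : ℕ) :
    DD d e x j = d (x (j + 1)) + e (x j) := rfl

theorem neg_eq_self' (x : C) : -x = x := by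
  have h : (2 : F2) • x = 0 := by
    rw [show (2 : F2) = 0 from rfl, zero_smul]
  rw [two_smul] at h
  exact neg_eq_of_add_eq_zero_left h

theorem sub_eq_add' (x y : C) : x - y = x + y := by
  rw [sub_eq_add_neg, neg_eq_self']

theorem add_self' (x : C) : x + x = 0 := by
  rw [← sub_eq_add', sub_self]

theorem DD_DD {d e : C →ₗ[F2] C} (hd : ∀ x, d (d x) = 0) (he : ∀ x, e (e x) = 0)
    (hde : ∀ x, d (e x) = e (d x)) (x : ℕ → C) : DD d e (DD d e x) = 0 := by
  funext j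
  simp only [DD_apply, map_add, hd, he, hde, zero_add, add_zero, Pi.zero_apply]
  exact add_self' _

/-- **relatively `d`-acyclic ⟹ relatively acyclic for `d + e`** on the completed product -/
theorem ra_of_acyc {d e : C →ₗ[F2] C} {gr : ℕ → Submodule F2 C} {A B : Submodule F2 C}
    (he : ∀ x, e (e x) = 0) (hde : ∀ x, d (e x) = e (d x))
    (hd0 : ∀ x ∈ gr 0, d x = 0) (hdg : ∀ j, ∀ x ∈ gr (j + 1), d x ∈ gr j)
    (heg : ∀ j, ∀ x ∈ gr j, e x ∈ gr j) (heA : ∀ x ∈ A, e x ∈ A) (heB : ∀ x ∈ B, e x ∈ B)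
    (hac : ∀ j, ∀ x ∈ gr j, x ∈ B → d x ∈ A → ∃ y ∈ gr (j + 1), y ∈ B ∧ x - d y ∈ A) :
    RA (DD d e) (PP gr A) (PP gr B) := by
  classical
  intro x hx hDx
  have hx0 : d (x 0) = 0 := hd0 _ (hx 0).1
  -- the states of the recursion
  let St : ℕ → Type _ := fun j => {y : C // y ∈ gr j ∧ y ∈ B ∧ d (x j - e y) ∈ A}
  have step : ∀ j (y : St j), ∃ y' : St (j + 1), x j - e y.1 - d y'.1 ∈ A := by
    rintro j ⟨y, hy1, hy2, hy3⟩
    obtain ⟨z, hz1, hz2, hz3⟩ := hac j (x j - e y) ((gr j).sub_mem (hx j).1 (heg j y hy1))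
      (B.sub_mem (hx j).2 (heB y hy2)) hy3
    refine ⟨⟨z, hz1, hz2, ?_⟩, hz3⟩
    have h1 : d (x (j + 1) - e z) = (d (x (j + 1)) + e (x j)) - e (x j - e y - d z) := by
      rw [map_sub, map_sub, map_sub, he, hde]
      simp only [sub_eq_add']
      have : e (x j) + e (x j) = 0 := add_self' _
      calc d (x (j + 1)) + e (d z) = d (x (j + 1)) + e (d z) + (e (x j) + e (x j)) := by
            rw [this, add_zero]
        _ = d (x (j + 1)) + e (x j) + (e (x j) + 0 + e (d z)) := by abel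
    rw [h1]
    exact A.sub_mem (hDx j).2 (heA _ hz3)
  choose f hf using step
  let y0 : St 0 := ⟨0, (gr 0).zero_mem, B.zero_mem, by
    rw [map_zero, sub_zero, hx0]; exact A.zero_mem⟩
  let y : ∀ j, St j := fun j => Nat.rec y0 (fun j z => f j z) j
  refine ⟨fun j => (y j).1, fun j => ⟨(y j).2.1, (y j).2.2.1⟩, fun j => ⟨?_, ?_⟩⟩
  · show x j - (d (y (j + 1)).1 + e (y j).1) ∈ gr j
    exact (gr j).sub_mem (hx j).1 ((gr j).add_mem (hdg j _ (y (j + 1)).2.1) (heg j _ (y j).2.1))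
  · show x j - (d (y (j + 1)).1 + e (y j).1) ∈ A
    have := hf j (y j)
    have h2 : x j - (d (y (j + 1)).1 + e (y j).1) = x j - e (y j).1 - d (f j (y j)).1 := by
      show x j - (d (f j (y j)).1 + e (y j).1) = _
      abel
    rw [h2]
    exact this

/-- a chain-level contraction of `B / A` gives a contraction on the completed products -/
theorem ra_of_contr_chain {d e s : C →ₗ[F2] C} {gr : ℕ → Submodule F2 C} {A B : Submodule F2 C}
    (hsg : ∀ j, ∀ x ∈ gr j, s x ∈ gr j) (hdg : ∀ j, ∀ x ∈ gr (j + 1), d x ∈ gr j)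
    (heg : ∀ j, ∀ x ∈ gr j, e x ∈ gr j) (hsA : ∀ x ∈ A, s x ∈ A) (hsB : ∀ x ∈ B, s x ∈ B)
    (h1 : ∀ x ∈ B, d (s x) + s (d x) ∈ A) (h2 : ∀ x ∈ B, x - e (s x) - s (e x) ∈ A) :
    RA (DD d e) (PP gr A) (PP gr B) := by
  refine ra_of_contr (fun x j => s (x j)) (fun x hx j => ⟨hsg j _ (hx j).1, hsB _ (hx j).2⟩)
    (fun x hx j => ⟨hsg j _ (hx j).1, hsA _ (hx j).2⟩) (fun x hx j => ⟨?_, ?_⟩)
  · show x j - (d (s (x (j + 1))) + e (s (x j))) - s (d (x (j + 1)) + e (x j)) ∈ gr j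
    refine (gr j).sub_mem ((gr j).sub_mem (hx j).1 ((gr j).add_mem ?_ ?_)) (hsg j _ ?_)
    · exact hdg j _ (hsg _ _ (hx (j + 1)).1)
    · exact heg j _ (hsg _ _ (hx j).1)
    · exact (gr j).add_mem (hdg j _ (hx (j + 1)).1) (heg j _ (hx j).1)
  · show x j - (d (s (x (j + 1))) + e (s (x j))) - s (d (x (j + 1)) + e (x j)) ∈ A
    have : x j - (d (s (x (j + 1))) + e (s (x j))) - s (d (x (j + 1)) + e (x j)) =
        (x j - e (s (x j)) - s (e (x j))) - (d (s (x (j + 1))) + s (d (x (j + 1)))) := by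
      rw [map_add]; abel
    rw [this]
    exact A.sub_mem (h2 _ (hx j).2) (h1 _ (hx (j + 1)).2)

end prod

/-! ## chains of a sub simplicial set -/

section simp

variable {K : SS}

/-- span of the simplices with property `Q` -/
def cs (Q : ∀ n, K.S n → Prop) : Submodule F2 (N F2 K) :=
  Submodule.span F2 {c | ∃ (n : ℕ) (x : K.S n), Q n x ∧ c = N.sx F2 x}

theorem sx_mem_cs {Q : ∀ n, K.S n → Prop} {n : ℕ} {x : K.S n} (h : Q n x) :
    N.sx F2 x ∈ cs Q := Submodule.subset_span ⟨n, x, h, rfl⟩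

theorem cs_le {Q : ∀ n, K.S n → Prop} {p : Submodule F2 (N F2 K)}
    (h : ∀ n (x : K.S n), Q n x → N.sx F2 x ∈ p) : cs Q ≤ p := by
  refine Submodule.span_le.2 ?_
  rintro _ ⟨n, x, hx, rfl⟩
  exact h n x hx

theorem cs_mono {Q Q' : ∀ n, K.S n → Prop} (h : ∀ n x, Q n x → Q' n x) : cs Q ≤ cs Q' :=
  cs_le fun n x hx => sx_mem_cs (h n x hx)

theorem cs_top : cs (fun n (_ : K.S n) => True) = ⊤ := by
  rw [Submodule.eq_top_iff']
  exact N_induction fun n x => sx_mem_cs trivial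

/-- predicates closed under the simplicial operators -/
def Cl (Q : ∀ n, K.S n → Prop) : Prop := ∀ (m n : ℕ) (f : Op m n) (x : K.S n), Q n x → Q m (K.act f x)

theorem bd_sx_succ {n : ℕ} (x : K.S (n + 1)) :
    N.bd F2 K (N.sx F2 x) = ∑ i : Fin (n + 2), ((-1 : F2) ^ (i : ℕ)) • N.sx F2 (K.act (Op.face i) x) := by
  rw [N.sx, N.bd_mk, Ch.bd_single_succ]
  rw [show (Submodule.Quotient.mk (∑ i : Fin (n + 2), single (⟨n, K.act (Op.face i) x⟩ : K.T)
      ((1 : F2) * (-1) ^ (i : ℕ))) : N F2 K) = (Ch.Dg F2 K).mkQ (∑ i : Fin (n + 2),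
      single (⟨n, K.act (Op.face i) x⟩ : K.T) ((1 : F2) * (-1) ^ (i : ℕ))) from rfl, map_sum]
  refine Finset.sum_congr rfl fun i _ => ?_
  rw [N.sx, ← Submodule.Quotient.mk_smul, Finsupp.smul_single, one_mul, smul_eq_mul, mul_one]
  rfl

theorem bd_sx_zero (x : K.S 0) : N.bd F2 K (N.sx F2 x) = 0 := by
  rw [N.sx, N.bd_mk, Ch.bd_single_zero]
  rfl

theorem bd_mem_cs {Q : ∀ n, K.S n → Prop} (hQ : Cl Q) {c : N F2 K} (hc : c ∈ cs Q) :
    N.bd F2 K c ∈ cs Q := by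
  have : cs Q ≤ (cs Q).comap (N.bd F2 K) := by
    refine cs_le fun n x hx => ?_
    rw [Submodule.mem_comap]
    rcases n with _ | n
    · rw [bd_sx_zero]; exact Submodule.zero_mem _
    · rw [bd_sx_succ]
      exact Submodule.sum_mem _ fun i _ => Submodule.smul_mem _ _ (sx_mem_cs (hQ _ _ _ _ hx))
  exact this hc

theorem map_mem_cs {L : SS} {Q : ∀ n, K.S n → Prop} {Q' : ∀ n, L.S n → Prop} (f : SS.Hom K L)
    (h : ∀ n x, Q n x → Q' n (f.app n x)) {c : N F2 K} (hc : c ∈ cs Q) :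
    N.map F2 f c ∈ cs Q' := by
  have : cs Q ≤ (cs Q').comap (N.map F2 f) := by
    refine cs_le fun n x hx => ?_
    rw [Submodule.mem_comap, N.map_sx]
    exact sx_mem_cs (h n x hx)
  exact this hc

open Classical in
/-- restriction to the simplices with property `Q`, unnormalised -/
noncomputable def chRes (Q : ∀ n, K.S n → Prop) : Ch F2 K →ₗ[F2] Ch F2 K :=
  Finsupp.linearCombination F2 (fun t : K.T => if Q t.1 t.2 then single t (1 : F2) else 0)

theorem chRes_mem_Dg (Q : ∀ n, K.S n → Prop) {c : Ch F2 K} (hc : c ∈ Ch.Dg F2 K) :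
    chRes Q c ∈ Ch.Dg F2 K := by
  have : Ch.Dg F2 K ≤ (Ch.Dg F2 K).comap (chRes Q) := by
    refine Submodule.span_le.2 ?_
    rintro _ ⟨t, ht, rfl⟩
    rw [SetLike.mem_coe, Submodule.mem_comap, chRes, Finsupp.linearCombination_single, one_smul]
    split_ifs
    · exact Submodule.subset_span ⟨t, ht, rfl⟩
    · exact Submodule.zero_mem _
  exact this hc

/-- restriction to the simplices with property `Q` -/
noncomputable def res (Q : ∀ n, K.S n → Prop) : N F2 K →ₗ[F2] N F2 K :=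
  Submodule.mapQ _ _ (chRes Q) (fun _ hc => chRes_mem_Dg Q hc)

open Classical in
theorem res_sx (Q : ∀ n, K.S n → Prop) {n : ℕ} (x : K.S n) :
    res Q (N.sx F2 x) = if Q n x then N.sx F2 x else 0 := by
  rw [res, N.sx, Submodule.mapQ_apply, chRes, Finsupp.linearCombination_single, one_smul]
  split_ifs <;> rfl

theorem res_of_mem {Q : ∀ n, K.S n → Prop} {c : N F2 K} (hc : c ∈ cs Q) : res Q c = c := by
  have : cs Q ≤ LinearMap.eqLocus (res Q) LinearMap.id := by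
    refine cs_le fun n x hx => ?_
    rw [LinearMap.mem_eqLocus, res_sx, if_pos hx]
    rfl
  exact this hc

theorem res_of_disj {Q Q' : ∀ n, K.S n → Prop} (h : ∀ n x, Q' n x → ¬ Q n x) {c : N F2 K}
    (hc : c ∈ cs Q') : res Q c = 0 := by
  have : cs Q' ≤ LinearMap.ker (res Q) := by
    refine cs_le fun n x hx => ?_
    rw [LinearMap.mem_ker, res_sx, if_neg (h n x hx)]
  exact this hc

theorem res_mem_cs (Q : ∀ n, K.S n → Prop) {P : ∀ n, K.S n → Prop} {c : N F2 K} (hc : c ∈ cs P) :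
    res Q c ∈ cs P := by
  have : cs P ≤ (cs P).comap (res Q) := by
    refine cs_le fun n x hx => ?_
    rw [Submodule.mem_comap, res_sx]
    split_ifs
    · exact sx_mem_cs hx
    · exact Submodule.zero_mem _
  exact this hc

theorem sx_mem_gr {n : ℕ} (x : K.S n) : N.sx F2 x ∈ N.gr F2 K n :=
  ⟨single ⟨n, x⟩ 1, Submodule.subset_span ⟨x, rfl⟩, rfl⟩

theorem gr_le {n : ℕ} {p : Submodule F2 (N F2 K)} (h : ∀ x : K.S n, N.sx F2 x ∈ p) :
    N.gr F2 K n ≤ p := by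
  rintro _ ⟨c, hc, rfl⟩
  have : Ch.gr F2 K n ≤ p.comap (Ch.Dg F2 K).mkQ := by
    refine Submodule.span_le.2 ?_
    rintro _ ⟨x, rfl⟩
    exact h x
  exact this hc

theorem res_mem_gr (Q : ∀ n, K.S n → Prop) {n : ℕ} {c : N F2 K} (hc : c ∈ N.gr F2 K n) :
    res Q c ∈ N.gr F2 K n := by
  have : N.gr F2 K n ≤ (N.gr F2 K n).comap (res Q) := by
    refine gr_le fun x => ?_
    rw [Submodule.mem_comap, res_sx]
    split_ifs
    · exact sx_mem_gr x
    · exact Submodule.zero_mem _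
  exact this hc

/-- **the filtration step**: adding the simplices in `U` and `γU`, `U ∩ γU = ∅` -/
theorem ra_step (γ : SS.Hom K K) (hγ : ∀ n x, γ.app n (γ.app n x) = x)
    {P U W : ∀ n, K.S n → Prop} (hP : Cl P) (hU : Cl U) (hW : Cl W)
    (hγP : ∀ n x, P n x → P n (γ.app n x)) (hγU : ∀ n x, U n x → W n (γ.app n x))
    (hγW : ∀ n x, W n x → U n (γ.app n x)) (hUW : ∀ n x, U n x → ¬ W n x) :
    RA (DD (N.bd F2 K) (LinearMap.id + N.map F2 γ)) (PP (N.gr F2 K) (cs P))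
      (PP (N.gr F2 K) (cs (fun n x => P n x ∨ U n x ∨ W n x))) := by
  have hbd : ∀ c, N.map F2 γ (N.bd F2 K c) = N.bd F2 K (N.map F2 γ c) :=
    fun c => LinearMap.congr_fun (N.map_bd (R := F2) γ) c
  have hgg : ∀ c, N.map F2 γ (N.map F2 γ c) = c := by
    intro c
    have : c ∈ LinearMap.eqLocus (N.map F2 γ ∘ₗ N.map F2 γ) LinearMap.id := by
      refine N_induction (fun n x => ?_) c
      rw [LinearMap.mem_eqLocus, LinearMap.comp_apply, N.map_sx, N.map_sx, hγ]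
      rfl
    exact this
  have hWU : ∀ n x, W n x → ¬ U n x := fun n x h h' => hUW n x h' h
  refine ra_of_contr_chain (s := N.map F2 γ ∘ₗ res W) ?_ ?_ ?_ ?_ ?_ ?_ ?_
  · intro j x hx
    exact map_mem_gr γ (res_mem_gr W hx)
  · intro j x hx
    exact bd_mem_gr j hx
  · intro j x hx
    exact (N.gr F2 K j).add_mem hx (map_mem_gr γ hx)
  · intro x hx
    exact map_mem_cs γ hγP (res_mem_cs W hx)
  · intro x hx
    refine map_mem_cs γ (fun n x h => ?_) (res_mem_cs W hx)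
    rcases h with h | h | h
    · exact Or.inl (hγP n x h)
    · exact Or.inr (Or.inr (hγU n x h))
    · exact Or.inr (Or.inl (hγW n x h))
  · intro c hc
    have : cs (fun n x => P n x ∨ U n x ∨ W n x) ≤ (cs P).comap
        (N.bd F2 K ∘ₗ (N.map F2 γ ∘ₗ res W) + (N.map F2 γ ∘ₗ res W) ∘ₗ N.bd F2 K) := by
      refine cs_le fun n x h => ?_
      rw [Submodule.mem_comap]
      simp only [LinearMap.add_apply, LinearMap.comp_apply]
      rcases h with h | h | h
      · exact (cs P).add_mem (bd_mem_cs hP (map_mem_cs γ hγP (res_mem_cs W (sx_mem_cs h))))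
          (map_mem_cs γ hγP (res_mem_cs W (bd_mem_cs hP (sx_mem_cs h))))
      · rw [res_of_disj hUW (sx_mem_cs h), res_of_disj hUW (bd_mem_cs hU (sx_mem_cs h))]
        simp
      · rw [res_of_mem (sx_mem_cs h), res_of_mem (bd_mem_cs hW (sx_mem_cs h)), hbd, add_self']
        exact Submodule.zero_mem _
    exact this hc
  · intro c hc
    have : cs (fun n x => P n x ∨ U n x ∨ W n x) ≤ (cs P).comap
        (LinearMap.id - (LinearMap.id + N.map F2 γ) ∘ₗ (N.map F2 γ ∘ₗ res W) -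
          (N.map F2 γ ∘ₗ res W) ∘ₗ (LinearMap.id + N.map F2 γ)) := by
      refine cs_le fun n x h => ?_
      rw [Submodule.mem_comap]
      simp only [LinearMap.sub_apply, LinearMap.comp_apply, LinearMap.add_apply,
        LinearMap.id_apply, map_add]
      rcases h with h | h | h
      · have h1 : N.sx F2 x ∈ cs P := sx_mem_cs h
        have h2 : ∀ c ∈ cs P, N.map F2 γ c ∈ cs P := fun c hc => map_mem_cs γ hγP hc
        have h3 : ∀ c ∈ cs P, res W c ∈ cs P := fun c hc => res_mem_cs W hc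
        exact (cs P).sub_mem ((cs P).sub_mem h1 ((cs P).add_mem (h2 _ (h3 _ h1))
          (h2 _ (h2 _ (h3 _ h1))))) ((cs P).add_mem (h2 _ (h3 _ h1)) (h2 _ (h3 _ (h2 _ h1))))
      · have h1 : N.map F2 γ (N.sx F2 x) ∈ cs W := map_mem_cs γ hγU (sx_mem_cs h)
        rw [res_of_disj hUW (sx_mem_cs h), res_of_mem h1]
        simp only [map_zero, add_zero, sub_zero, zero_add]
        rw [hgg, sub_self]
        exact Submodule.zero_mem _
      · have h1 : N.map F2 γ (N.sx F2 x) ∈ cs U := map_mem_cs γ hγW (sx_mem_cs h)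
        rw [res_of_mem (sx_mem_cs h), res_of_disj hUW h1, hgg, map_zero, add_zero]
        have : N.sx F2 x - (N.map F2 γ (N.sx F2 x) + N.sx F2 x) - N.map F2 γ (N.sx F2 x) =
            -(N.map F2 γ (N.sx F2 x) + N.map F2 γ (N.sx F2 x)) := by abel
        rw [this, add_self', neg_zero]
        exact Submodule.zero_mem _
    exact this hc

end simp

/-! ## topological spaces -/

section top

variable {X : Type} [TopologicalSpace X]

/-- simplices contained in `A` -/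
def In (A : Set X) : ∀ n, (SS.Sing X).S n → Prop := fun n σ =>
  ∀ t : D n, (show C(D n, X) from σ) t ∈ A

/-- simplices contained in a member of `𝒰` -/
def InC (𝒰 : Set (Set X)) : ∀ n, (SS.Sing X).S n → Prop := fun n σ => ∃ U ∈ 𝒰, In U n σ

theorem cl_In (A : Set X) : Cl (In A) := fun _ _ f _ h t => h (smap f t)

theorem cl_InC (𝒰 : Set (Set X)) : Cl (InC 𝒰) := fun m n f x ⟨U, hU, h⟩ =>
  ⟨U, hU, cl_In U m n f x h⟩

/-- the inclusion of the small simplices -/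
def covI (𝒰 : Set (Set X)) : SS.Hom (cov 𝒰).tk.K (SS.Sing X) := (cov 𝒰).incl.hom

theorem covI_app (𝒰 : Set (Set X)) (n : ℕ) (x : (cov 𝒰).tk.K.S n) :
    (covI 𝒰).app n x = x.1 := rfl

theorem covI_bij (𝒰 : Set (Set X)) (h : ∀ y, ∃ U ∈ 𝒰, U ∈ 𝓝 y) :
    Bijective (H.map F2 (covI 𝒰)) := small_cover 𝒰 F2 h

theorem covI_inj (𝒰 : Set (Set X)) : Injective (N.map F2 (covI 𝒰)) := (cov 𝒰).N_incl_inj F2

theorem range_cov (𝒰 : Set (Set X)) :
    LinearMap.range (N.map F2 (covI 𝒰)) = cs (InC 𝒰) := by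
  apply le_antisymm
  · rintro _ ⟨c, rfl⟩
    have : c ∈ (cs (InC 𝒰)).comap (N.map F2 (covI 𝒰)) := by
      refine N_induction (fun n x => ?_) c
      rw [Submodule.mem_comap, N.map_sx]
      exact sx_mem_cs x.2
    exact this
  · refine cs_le fun n x hx => ?_
    exact ⟨N.sx F2 (K := (cov 𝒰).tk.K) (⟨x, hx⟩ : (cov 𝒰).tk.K.S n), N.map_sx _ _⟩

/-- small simplices, degreewise relative acyclicity -/
theorem small_acyc (𝒰 : Set (Set X)) (h : ∀ y, ∃ U ∈ 𝒰, U ∈ 𝓝 y) (j : ℕ) (x : N F2 (SS.Sing X))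
    (hx : x ∈ N.gr F2 (SS.Sing X) j) (hdx : N.bd F2 _ x ∈ cs (InC 𝒰)) :
    ∃ y ∈ N.gr F2 (SS.Sing X) (j + 1), x - N.bd F2 _ y ∈ cs (InC 𝒰) := by
  have hb := covI_bij 𝒰 h
  rw [← range_cov] at hdx ⊢
  obtain ⟨z, hz⟩ := hdx
  have hmb : ∀ c, N.map F2 (covI 𝒰) (N.bd F2 _ c) = N.bd F2 _ (N.map F2 (covI 𝒰) c) :=
    fun c => LinearMap.congr_fun (N.map_bd (R := F2) (covI 𝒰)) c
  have hzc : N.bd F2 _ z = 0 := by
    apply covI_inj 𝒰
    rw [hmb, hz, map_zero, N.bd_bd]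
  obtain ⟨w, hw⟩ : ∃ w, N.bd F2 _ w = z := by
    have h0 : H.map F2 (covI 𝒰) (Hd.mk _ z hzc) = 0 := by
      rw [H.map, Hd.map_mk, Hd.mk_eq_zero]
      exact ⟨x, hz.symm⟩
    have := (injective_iff_map_eq_zero _).1 hb.1 _ h0
    rwa [Hd.mk_eq_zero] at this
  have hc : N.bd F2 _ (x - N.map F2 (covI 𝒰) w) = 0 := by
    rw [map_sub, ← hmb, hw, hz, sub_self]
  obtain ⟨u, hu⟩ := hb.2 (Hd.mk _ _ hc)
  obtain ⟨v, hv, rfl⟩ := Hd.mk_surj _ u
  rw [H.map, Hd.map_mk, Hd.mk_eq_mk] at hu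
  obtain ⟨y, hy⟩ := hu
  refine ⟨prN F2 _ (j + 1) (-y), prN_mem_gr _ _, prN F2 _ j (w + v), ?_⟩
  rw [← prN_map, ← prN_bd, map_neg, hy]
  have e : x = prN F2 _ j x := (prN_of_mem_gr j hx).symm
  rw [show x - (prN F2 (SS.Sing X) j) (-(N.map F2 (covI 𝒰) v - (x - N.map F2 (covI 𝒰) w))) =
    prN F2 _ j x - (prN F2 (SS.Sing X) j) (-(N.map F2 (covI 𝒰) v - (x - N.map F2 (covI 𝒰) w)))
    from by rw [← e], ← map_sub]
  congr 1
  rw [map_add]
  abel

/-- the family `{V} ∪ {U, γ⁻¹ U | U ∈ S}` -/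
def fam (γ : C(X, X)) (V : Set X) (S : Finset (Set X)) : Set (Set X) :=
  {A | A = V ∨ ∃ U ∈ S, A = U ∨ A = γ ⁻¹' U}

theorem inC_fam_empty (γ : C(X, X)) (V : Set X) (n : ℕ) (σ : (SS.Sing X).S n) :
    InC (fam γ V ∅) n σ ↔ In V n σ := by
  constructor
  · rintro ⟨A, hA | ⟨U, hU, _⟩, h⟩
    · subst hA; exact h
    · simp at hU
  · intro h
    exact ⟨V, Or.inl rfl, h⟩

open Classical in
theorem inC_fam_insert (γ : C(X, X)) (V : Set X) (S : Finset (Set X)) (U : Set X) (n : ℕ)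
    (σ : (SS.Sing X).S n) :
    InC (fam γ V (insert U S)) n σ ↔ InC (fam γ V S) n σ ∨ In U n σ ∨ In (γ ⁻¹' U) n σ := by
  constructor
  · rintro ⟨A, hA | ⟨U', hU', hA⟩, h⟩
    · exact Or.inl ⟨A, Or.inl hA, h⟩
    · rcases Finset.mem_insert.1 hU' with rfl | hU''
      · rcases hA with rfl | rfl
        · exact Or.inr (Or.inl h)
        · exact Or.inr (Or.inr h)
      · exact Or.inl ⟨A, Or.inr ⟨U', hU'', hA⟩, h⟩
  · rintro (⟨A, hA | ⟨U', hU', hA⟩, h⟩ | h | h)
    · exact ⟨A, Or.inl hA, h⟩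
    · exact ⟨A, Or.inr ⟨U', Finset.mem_insert_of_mem hU', hA⟩, h⟩
    · exact ⟨U, Or.inr ⟨U, Finset.mem_insert_self _ _, Or.inl rfl⟩, h⟩
    · exact ⟨_, Or.inr ⟨U, Finset.mem_insert_self _ _, Or.inr rfl⟩, h⟩

theorem cs_congr {K : SS} {Q Q' : ∀ n, K.S n → Prop} (h : ∀ n x, Q n x ↔ Q' n x) : cs Q = cs Q' :=
  le_antisymm (cs_mono fun n x => (h n x).1) (cs_mono fun n x => (h n x).2)

theorem inC_fam_inv (γ : C(X, X)) (hγ : ∀ x, γ (γ x) = x) (V : Set X) (hV : ∀ x ∈ V, γ x ∈ V)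
    (S : Finset (Set X)) (n : ℕ) (σ : (SS.Sing X).S n) (h : InC (fam γ V S) n σ) :
    InC (fam γ V S) n ((SS.SingMap γ).app n σ) := by
  obtain ⟨A, hA | ⟨U, hU, hA⟩, h⟩ := h
  · subst hA
    exact ⟨A, Or.inl rfl, fun t => hV _ (h t)⟩
  · rcases hA with rfl | rfl
    · refine ⟨γ ⁻¹' A, Or.inr ⟨A, hU, Or.inr rfl⟩, fun t => ?_⟩
      show γ (γ _) ∈ A
      rw [hγ]
      exact h t
    · exact ⟨U, Or.inr ⟨U, hU, Or.inl rfl⟩, fun t => h t⟩

/-- **Smith localisation, `Z/2`-Tate form** -/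
theorem smith_ra (γ : C(X, X)) (hγ : ∀ x, γ (γ x) = x) (V : Set X) (hVo : IsOpen V)
    (hV : ∀ x ∈ V, γ x ∈ V) (S : Finset (Set X)) (hSo : ∀ U ∈ S, IsOpen U)
    (hS : ∀ U ∈ S, ∀ x ∈ U, γ x ∉ U) (hcov : ∀ x, x ∈ V ∨ ∃ U ∈ S, x ∈ U ∨ γ x ∈ U) :
    RA (DD (N.bd F2 (SS.Sing X)) (LinearMap.id + N.map F2 (SS.SingMap γ)))
      (PP (N.gr F2 (SS.Sing X)) (cs (In V))) (PP (N.gr F2 (SS.Sing X)) ⊤) := by
  classical
  set K := SS.Sing X with hK
  set d := N.bd F2 K with hd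
  set e := (LinearMap.id + N.map F2 (SS.SingMap γ) : N F2 K →ₗ[F2] N F2 K) with he'
  have hbd : ∀ c, N.map F2 (SS.SingMap γ) (d c) = d (N.map F2 (SS.SingMap γ) c) :=
    fun c => LinearMap.congr_fun (N.map_bd (R := F2) (SS.SingMap γ)) c
  have hgg : ∀ c : N F2 K, N.map F2 (SS.SingMap γ) (N.map F2 (SS.SingMap γ) c) = c := by
    intro c
    have : c ∈ LinearMap.eqLocus (N.map F2 (SS.SingMap γ) ∘ₗ N.map F2 (SS.SingMap γ))
        LinearMap.id := by
      refine N_induction (fun n x => ?_) c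
      rw [LinearMap.mem_eqLocus, LinearMap.comp_apply, N.map_sx, N.map_sx]
      have : (SS.SingMap γ).app n ((SS.SingMap γ).app n x) = x := by
        show γ.comp (γ.comp (show C(D n, X) from x)) = x
        ext t
        exact hγ _
      rw [this]
      rfl
    exact this
  have hee : ∀ c, e (e c) = 0 := by
    intro c
    simp only [he', LinearMap.add_apply, LinearMap.id_apply, map_add, hgg]
    have : c + N.map F2 (SS.SingMap γ) c + (N.map F2 (SS.SingMap γ) c + c) =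
      (c + N.map F2 (SS.SingMap γ) c) + (c + N.map F2 (SS.SingMap γ) c) := by abel
    rw [this, add_self']
  have hde : ∀ c, d (e c) = e (d c) := by
    intro c
    simp only [he', LinearMap.add_apply, LinearMap.id_apply, map_add, hbd]
  have hdd : ∀ x, DD d e (DD d e x) = 0 := DD_DD N.bd_bd hee hde
  -- the filtration
  have step : ∀ T : Finset (Set X), (∀ U ∈ T, ∀ x ∈ U, γ x ∉ U) →
      RA (DD d e) (PP (N.gr F2 K) (cs (In V))) (PP (N.gr F2 K) (cs (InC (fam γ V T)))) := by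
    intro T
    induction T using Finset.induction_on with
    | empty =>
      intro _
      rw [cs_congr (inC_fam_empty γ V)]
      exact RA.refl _ _
    | insert U T _ ih =>
      intro hT
      have h1 := ih fun U' hU' => hT U' (Finset.mem_insert_of_mem hU')
      have hU := hT U (Finset.mem_insert_self _ _)
      have h2 := ra_step (K := K) (SS.SingMap γ) (fun n x => by
        show γ.comp (γ.comp (show C(D n, X) from x)) = x
        ext t
        exact hγ _) (P := InC (fam γ V T)) (U := In U) (W := In (γ ⁻¹' U)) (cl_InC _) (cl_In _)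
        (cl_In _) (inC_fam_inv γ hγ V hV T) (fun n x h t => by
          show γ (γ _) ∈ U
          rw [hγ]
          exact h t) (fun n x h t => h t) (fun n x h h' => by
          have t : D n := stdSimplex.vertex 0
          exact hU _ (h t) (h' t))
      rw [cs_congr (inC_fam_insert γ V T U)]
      refine h1.trans h2 (PP_mono _ ?_) (PP_mono _ ?_) (fun x _ => ?_)
      · exact cs_mono fun n x h => ⟨V, Or.inl rfl, h⟩
      · exact cs_mono fun n x h => Or.inl h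
      · rw [hdd]; exact Submodule.zero_mem _
  have h1 := step S hS
  have h2 : RA (DD d e) (PP (N.gr F2 K) (cs (InC (fam γ V S)))) (PP (N.gr F2 K) ⊤) := by
    refine ra_of_acyc hee hde ?_ ?_ ?_ ?_ ?_ ?_
    · intro x hx
      exact bd_gr_zero hx
    · intro j x hx
      exact bd_mem_gr j hx
    · intro j x hx
      exact (N.gr F2 K j).add_mem hx (map_mem_gr _ hx)
    · intro x hx
      exact (cs _).add_mem hx (map_mem_cs _ (inC_fam_inv γ hγ V hV S) hx)
    · intro x _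
      exact Submodule.mem_top
    · intro j x hx _ hdx
      obtain ⟨y, hy, h⟩ := small_acyc (fam γ V S) (fun y => by
        rcases hcov y with h | ⟨U, hU, h | h⟩
        · exact ⟨V, Or.inl rfl, hVo.mem_nhds h⟩
        · exact ⟨U, Or.inr ⟨U, hU, Or.inl rfl⟩, (hSo U hU).mem_nhds h⟩
        · exact ⟨γ ⁻¹' U, Or.inr ⟨U, hU, Or.inr rfl⟩,
            ((hSo U hU).preimage γ.continuous).mem_nhds h⟩) j x hx hdx
      exact ⟨y, hy, Submodule.mem_top, h⟩
  refine h1.trans h2 (PP_mono _ ?_) (PP_mono _ le_top) (fun x _ => ?_)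
  · exact cs_mono fun n x h => ⟨V, Or.inl rfl, h⟩
  · rw [hdd]; exact Submodule.zero_mem _

end top

/-! ## subsets of an ambient space -/

section sub

variable {E : Type} [TopologicalSpace E]

/-- the inclusion of a subset -/
def inc (X : Set E) : C(X, E) := ⟨Subtype.val, continuous_subtype_val⟩

theorem inc_app_inj (X : Set E) (n : ℕ) : Injective ((SS.SingMap (inc X)).app n) := by
  intro σ τ h
  have h' : ∀ t, inc X ((show C(D n, X) from σ) t) = inc X ((show C(D n, X) from τ) t) := fun t =>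
    congrArg (fun ρ : C(D n, E) => ρ t) h
  show (show C(D n, X) from σ) = (show C(D n, X) from τ)
  ext t
  exact h' t

theorem map_inc_inj (X : Set E) : Injective (N.map F2 (SS.SingMap (inc X))) :=
  map_inj _ (inc_app_inj X)

theorem exists_lift {X : Set E} {n : ℕ} (σ : (SS.Sing E).S n) (h : In X n σ) :
    ∃ τ : (SS.Sing X).S n, (SS.SingMap (inc X)).app n τ = σ := by
  refine ⟨(⟨fun t => ⟨(show C(D n, E) from σ) t, h t⟩,
    (show C(D n, E) from σ).continuous.subtype_mk _⟩ : C(D n, X)), ?_⟩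
  show (inc X).comp _ = (show C(D n, E) from σ)
  ext t
  rfl

theorem cs_eq_map {X V : Set E} (hVX : V ⊆ X) :
    cs (In V) = (cs (In (Subtype.val ⁻¹' V : Set X))).map (N.map F2 (SS.SingMap (inc X))) := by
  apply le_antisymm
  · refine cs_le fun n σ h => ?_
    obtain ⟨τ, rfl⟩ := exists_lift σ (fun t => hVX (h t))
    exact ⟨N.sx F2 τ, sx_mem_cs h, N.map_sx _ _⟩
  · rintro _ ⟨c, hc, rfl⟩
    exact map_mem_cs _ (fun n x h => h) hc

theorem cs_In_eq_range (X : Set E) :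
    cs (In X) = LinearMap.range (N.map F2 (SS.SingMap (inc X))) := by
  rw [cs_eq_map (Set.Subset.refl X), LinearMap.range_eq_map]
  congr 1
  rw [← cs_top]
  exact cs_congr fun n x => ⟨fun _ => trivial, fun _ t => ((show C(D n, X) from x) t).2⟩

theorem mem_of_map_mem {X V : Set E} (hVX : V ⊆ X) {c : N F2 (SS.Sing X)}
    (h : N.map F2 (SS.SingMap (inc X)) c ∈ cs (In V)) : c ∈ cs (In (Subtype.val ⁻¹' V : Set X)) := by
  rw [cs_eq_map hVX] at h
  obtain ⟨c', hc', e⟩ := h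
  rwa [map_inc_inj X e] at hc'

/-- **Smith localisation for a pair `V ⊆ X` of subsets of an ambient space**, `Z/2`-Tate form -/
theorem smith_ra_sub (γ : C(E, E)) (X V : Set E) (hγX : ∀ x ∈ X, γ x ∈ X)
    (hγ : ∀ x ∈ X, γ (γ x) = x) (hVX : V ⊆ X) (hVo : ∃ O : Set E, IsOpen O ∧ V = X ∩ O)
    (hV : ∀ x ∈ V, γ x ∈ V) (S : Finset (Set E)) (hSo : ∀ U ∈ S, IsOpen U)
    (hS : ∀ U ∈ S, ∀ x ∈ X, x ∈ U → γ x ∉ U)
    (hcov : ∀ x ∈ X, x ∈ V ∨ ∃ U ∈ S, x ∈ U ∨ γ x ∈ U) :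
    RA (DD (N.bd F2 (SS.Sing E)) (LinearMap.id + N.map F2 (SS.SingMap γ)))
      (PP (N.gr F2 (SS.Sing E)) (cs (In V))) (PP (N.gr F2 (SS.Sing E)) (cs (In X))) := by
  classical
  let γs : C(X, X) := ⟨fun x => ⟨γ x.1, hγX _ x.2⟩,
    (γ.continuous.comp continuous_subtype_val).subtype_mk _⟩
  have hs := smith_ra (X := X) γs (fun x => Subtype.ext (hγ _ x.2)) (Subtype.val ⁻¹' V) (by
      obtain ⟨O, hO, rfl⟩ := hVo
      have : (Subtype.val ⁻¹' (X ∩ O) : Set X) = Subtype.val ⁻¹' O := by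
        ext x; simp
      rw [this]
      exact hO.preimage continuous_subtype_val) (fun x hx => hV _ hx)
    (S.image (fun U => (Subtype.val ⁻¹' U : Set X))) (by
      intro U hU
      obtain ⟨U', hU', rfl⟩ := Finset.mem_image.1 hU
      exact (hSo U' hU').preimage continuous_subtype_val) (by
      intro U hU x hx
      obtain ⟨U', hU', rfl⟩ := Finset.mem_image.1 hU
      exact hS U' hU' _ x.2 hx) (by
      intro x
      rcases hcov x.1 x.2 with h | ⟨U, hU, h⟩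
      · exact Or.inl h
      · exact Or.inr ⟨_, Finset.mem_image_of_mem _ hU, h⟩)
  have hcomm : ∀ c, N.map F2 (SS.SingMap (inc X)) (N.map F2 (SS.SingMap γs) c) =
      N.map F2 (SS.SingMap γ) (N.map F2 (SS.SingMap (inc X)) c) := by
    intro c
    rw [← N_map_comp, ← N_map_comp]
    rfl
  have hbd : ∀ c, N.map F2 (SS.SingMap (inc X)) (N.bd F2 _ c) =
      N.bd F2 _ (N.map F2 (SS.SingMap (inc X)) c) :=
    fun c => LinearMap.congr_fun (N.map_bd (R := F2) (SS.SingMap (inc X))) c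
  let φ : (ℕ → N F2 (SS.Sing X)) →ₗ[F2] (ℕ → N F2 (SS.Sing E)) :=
    { toFun := fun x j => N.map F2 (SS.SingMap (inc X)) (x j)
      map_add' := fun x y => by funext j; simp
      map_smul' := fun c x => by funext j; simp }
  have hφ : ∀ x j, φ x j = N.map F2 (SS.SingMap (inc X)) (x j) := fun _ _ => rfl
  refine hs.push φ ?_ ?_ ?_ ?_ ?_
  · intro x _
    funext j
    rw [hφ, DD_apply, DD_apply, hφ, hφ, map_add, hbd]
    simp only [LinearMap.add_apply, LinearMap.id_apply, map_add, hcomm]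
  · intro x hx j
    refine ⟨map_mem_gr _ (hx j).1, ?_⟩
    rw [cs_eq_map hVX]
    exact ⟨_, (hx j).2, rfl⟩
  · intro x hx j
    refine ⟨map_mem_gr _ (hx j).1, ?_⟩
    rw [cs_In_eq_range]
    exact ⟨_, rfl⟩
  · intro x' hx'
    have : ∀ j, ∃ c : N F2 (SS.Sing X), N.map F2 (SS.SingMap (inc X)) c = x' j := by
      intro j
      have := (hx' j).2
      rw [cs_In_eq_range] at this
      exact this
    choose c hc using this
    refine ⟨c, fun j => ⟨mem_gr_of_map _ (map_inc_inj X) ?_, Submodule.mem_top⟩, funext hc⟩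
    rw [hc]
    exact (hx' j).1
  · intro x hx j
    exact ⟨mem_gr_of_map _ (map_inc_inj X) (hx j).1, mem_of_map_mem hVX (hx j).2⟩

end sub

end Crest.Agent.R231.Smx566
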