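import Crest.Agent.R231.SphH_543
import Crest.Agent.R231.Arc_218
import Crest.Agent.R231.CutM_725

/-!
# Row 231, block P, leaf Q7 (helper543): the sphere data on `(S^n, g)`

* `pp = e_0`, `qq = -e_0`, `zz` a point of the equator; `US = {x 0 > -1/2}`, `VS = {x 0 < 1/2}`
* `ch x y` : the normalised chord as a 1-Lipschitz Moore path of duration `L0 g = 8 CL g`
* `cT z` : chord `z → p`, then constant; `bT z` : chord `z → q`, chord `q → zz`, chord `zz → p`;
  tethers `Wc` (on `US`), `Wb` (on `VS`), both with `L = 3 * L0 g`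
* `cT_pp`, `cT_mem_US`, `bT_mem_VS` (`s ≤ 2 L0`), `bT_mem_US` (`2 L0 ≤ s`), `bT_mid`
* `v_zz` : `(b z)⁻¹.(c z) = e⁻¹.e` at `z = zz`, exactly
* `exists_hSph` : `US ∩ VS` has the homology of `S^(n-1)` (`n ≥ 2`), base point `zz`
-/

set_option autoImplicit false
set_option linter.unusedSectionVars false

noncomputable section

open Set Metric Topology
open scoped InnerProductSpace

namespace Crest.Agent.R231.SphQx543

open Crest.Agent.R231.GeoBasex724 Crest.Agent.R231.BiLipx218 Crest.Agent.R231.Arcx218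
open Crest.Agent.R231.Moorex725 Crest.Agent.R231.CutMx725

/-! ### the clamp -/

/-- clamp of `r / L` to `[0,1]` -/
def cl (L r : ℝ) : ℝ := max 0 (min 1 (r / L))

theorem cl_mem (L r : ℝ) : cl L r ∈ Icc (0 : ℝ) 1 :=
  ⟨le_max_left _ _, max_le zero_le_one (min_le_left _ _)⟩

theorem abs_cl_sub_le {L : ℝ} (hL : 0 < L) (r s : ℝ) : |cl L r - cl L s| ≤ |r - s| / L := by
  unfold cl
  calc |max 0 (min 1 (r / L)) - max 0 (min 1 (s / L))|
      ≤ |min 1 (r / L) - min 1 (s / L)| := by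
        simpa using abs_max_sub_max_le_max 0 (min 1 (r / L)) 0 (min 1 (s / L))
    _ ≤ |r / L - s / L| := by
        simpa using abs_min_sub_min_le_max 1 (r / L) 1 (s / L)
    _ = |r - s| / L := by rw [← sub_div, abs_div, abs_of_pos hL]

theorem cl_of_le {L r : ℝ} (hL : 0 < L) (hr : r ≤ 0) : cl L r = 0 := by
  unfold cl
  have h1 : r / L ≤ 0 := div_nonpos_of_nonpos_of_nonneg hr hL.le
  rw [max_eq_left]
  exact (min_le_right _ _).trans h1

theorem cl_of_ge {L r : ℝ} (hL : 0 < L) (hr : L ≤ r) : cl L r = 1 := by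
  unfold cl
  have h1 : 1 ≤ r / L := (one_le_div hL).2 hr
  rw [min_eq_left h1, max_eq_right zero_le_one]

section geom

variable {n : ℕ} [NeZero n] (g : Met n)

/-- duration of a chord -/
def L0 : ℝ := 8 * CL g

theorem L0_pos : 0 < L0 g := mul_pos (by norm_num) (CL_pos g)

variable {g}

/-- the chord as a Moore path -/
def ch (x y : SG g) : ℝ → SG g := fun r => arc x y (cl (L0 g) r)

theorem ch_apply (x y : SG g) (r : ℝ) : ch x y r = arc x y (cl (L0 g) r) := rfl

theorem ch_mem {x y : SG g} (h : 1 ≤ ‖vec x + vec y‖) : ch x y ∈ MP x y (L0 g) := by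
  refine ⟨fun r s => ?_, fun r hr => ?_, fun r hr => ?_⟩
  · refine (dist_arc_le' one_pos h (cl_mem _ _) (cl_mem _ _)).trans ?_
    have h1 := abs_cl_sub_le (L0_pos g) r s
    have h2 := CL_pos g
    calc CL g * (8 / 1) * |cl (L0 g) r - cl (L0 g) s| ≤ CL g * (8 / 1) * (|r - s| / L0 g) :=
          mul_le_mul_of_nonneg_left h1 (by positivity)
      _ = |r - s| := by
          unfold L0
          field_simp
  · rw [ch_apply, cl_of_le (L0_pos g) hr, arc_zero]
  · rw [ch_apply, cl_of_ge (L0_pos g) hr, arc_one]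

theorem ch_self (x : SG g) : ch x x = fun _ => x := by
  funext r; rw [ch_apply, arc_self]

theorem continuousOn_ch_apply (y : SG g) (t : ℝ) (ht : t ∈ Icc (0 : ℝ) 1) :
    ContinuousOn (fun x : SG g => arc x y t) {x | 1 ≤ ‖vec x + vec y‖} := by
  have h1 : ContinuousOn (fun x : SG g => ((x, y, t) : SG g × SG g × ℝ))
      {x | 1 ≤ ‖vec x + vec y‖} :=
    (continuous_id.prodMk (continuous_const.prodMk continuous_const)).continuousOn
  have h3 := (continuousOn_arc (g := g)).comp h1 (fun x hx => by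
    have hx' : 1 ≤ ‖vec x + vec y‖ := hx
    exact ⟨norm_pos_iff.1 (lt_of_lt_of_le one_pos hx'), ht⟩)
  simpa only [Function.comp_def] using h3

theorem continuousOn_ch (y : SG g) :
    ContinuousOn (fun x : SG g => ch x y) {x | 1 ≤ ‖vec x + vec y‖} :=
  continuousOn_pi.2 fun _ => continuousOn_ch_apply y _ (cl_mem _ _)

/-! ### heights -/

theorem sq_coord_le (x : SG g) : (vec x 0) ^ 2 ≤ 1 := by
  have h1 := norm_vec x
  have h2 : ‖vec x 0‖ ≤ ‖vec x‖ := PiLp.norm_apply_le _ _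
  rw [h1, Real.norm_eq_abs] at h2
  nlinarith [abs_nonneg (vec x 0), sq_abs (vec x 0)]

theorem coord_le (x : SG g) : vec x 0 ≤ 1 := by
  have := sq_coord_le x
  nlinarith

theorem neg_le_coord (x : SG g) : -1 ≤ vec x 0 := by
  have := sq_coord_le x
  nlinarith

/-- the elementary inequality -/
theorem key_ineq {c s ν : ℝ} (hc : -(1 / 2) < c) (hs : s ∈ Icc (0 : ℝ) 1)
    (hν : 0 < ν) (hν2 : ν ^ 2 = 1 - 2 * s * (1 - s) * (1 - c)) :
    -(1 / 2) < ν⁻¹ * ((1 - s) * c + s) := by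
  obtain ⟨hs0, hs1⟩ := hs
  rw [lt_inv_mul_iff₀ hν]
  by_cases h : 0 ≤ (1 - s) * c + s
  · nlinarith
  · rw [not_le] at h
    have hc0 : c < 0 := by
      by_contra hc'
      rw [not_lt] at hc'
      have := mul_nonneg (by linarith : 0 ≤ 1 - s) hc'
      linarith
    have ha : 0 < 1 - s := by
      by_contra ha'
      have : s = 1 := by linarith
      subst this
      linarith
    have h4 : (2 * ((1 - s) * c + s)) ^ 2 < ν ^ 2 := by
      rw [hν2]
      have e1 : 0 < (1 - s) ^ 2 * (1 - 4 * c ^ 2) := by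
        apply mul_pos (by positivity)
        nlinarith
      have e2 : 0 ≤ s * (-(6 * (1 - s) * c) - 3 * s) := by
        apply mul_nonneg hs0
        nlinarith
      nlinarith
    have h5 := abs_lt_of_sq_lt_sq h4 hν.le
    rw [abs_lt] at h5
    linarith [h5.1]

variable (g)

/-- the base point -/
def pp : SG g := ofUnit g (EuclideanSpace.single 0 1) (by simp)

/-- the opposite point -/
def qq : SG g := neg (pp g)

/-- a point of the equator -/
def zz : SG g := ofUnit g (EuclideanSpace.single (Fin.last n) 1) (by simp)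

/-- the upper part -/
def US : Set (SG g) := {x | -(1 / 2) < vec x 0}

/-- the lower part -/
def VS : Set (SG g) := {x | vec x 0 < 1 / 2}

variable {g}

theorem inner_pp (x : SG g) : ⟪vec x, vec (pp g)⟫_ℝ = vec x 0 := by
  show ⟪vec x, EuclideanSpace.single 0 (1 : ℝ)⟫_ℝ = vec x 0
  rw [EuclideanSpace.inner_single_right]; simp

theorem inner_qq (x : SG g) : ⟪vec x, vec (qq g)⟫_ℝ = -vec x 0 := by
  show ⟪vec x, -vec (pp g)⟫_ℝ = _
  rw [inner_neg_right, inner_pp]

@[simp] theorem vec_pp_zero : vec (pp g) 0 = 1 := by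
  show (EuclideanSpace.single (0 : Fin (n + 1)) (1 : ℝ)) 0 = 1
  simp

@[simp] theorem vec_qq_zero : vec (qq g) 0 = -1 := by
  show (-vec (pp g)) 0 = -1
  rw [PiLp.neg_apply, vec_pp_zero]

@[simp] theorem vec_zz_zero : vec (zz g) 0 = 0 := by
  show (EuclideanSpace.single (Fin.last n) (1 : ℝ)) 0 = 0
  rw [PiLp.single_apply, if_neg]
  intro h
  have := congrArg Fin.val h
  simp only [Fin.val_zero, Fin.val_last] at this
  exact NeZero.ne n this.symm

theorem continuous_coord : Continuous fun x : SG g => vec x 0 := by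
  have h : Continuous fun y : Amb n => y 0 := by fun_prop
  exact h.comp continuous_vec

theorem isOpen_US : IsOpen (US g) := isOpen_lt continuous_const continuous_coord

theorem isOpen_VS : IsOpen (VS g) := isOpen_lt continuous_coord continuous_const

theorem US_union_VS : US g ∪ VS g = univ := by
  rw [eq_univ_iff_forall]
  intro x
  rcases lt_or_ge (vec x 0) (1 / 2) with h | h
  · exact Or.inr h
  · left
    show -(1 / 2) < vec x 0
    linarith

theorem pp_mem_US : pp g ∈ US g := by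
  show -(1 / 2) < vec (pp g) 0
  rw [vec_pp_zero]; norm_num

theorem qq_mem_VS : qq g ∈ VS g := by
  show vec (qq g) 0 < 1 / 2
  rw [vec_qq_zero]; norm_num

theorem zz_mem : zz g ∈ US g ∩ VS g := by
  constructor
  · show -(1 / 2) < vec (zz g) 0
    rw [vec_zz_zero]; norm_num
  · show vec (zz g) 0 < 1 / 2
    rw [vec_zz_zero]; norm_num

theorem one_le_of_inner {x y : SG g} (h : -(1 / 2) ≤ ⟪vec x, vec y⟫_ℝ) : 1 ≤ ‖vec x + vec y‖ := by
  have h1 := norm_add_sq x y
  have h2 : (1 : ℝ) ^ 2 ≤ ‖vec x + vec y‖ ^ 2 := by rw [h1]; linarith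
  exact le_of_sq_le_sq h2 (norm_nonneg _)

theorem one_le_pp {x : SG g} (hx : x ∈ US g) : 1 ≤ ‖vec x + vec (pp g)‖ :=
  one_le_of_inner (by rw [inner_pp]; exact le_of_lt hx)

theorem one_le_qq {x : SG g} (hx : x ∈ VS g) : 1 ≤ ‖vec x + vec (qq g)‖ :=
  one_le_of_inner (by
    rw [inner_qq]
    have : vec x 0 < 1 / 2 := hx
    linarith)

theorem coord_arc {x y : SG g} (h : 1 ≤ ‖vec x + vec y‖) {s : ℝ} (hs : s ∈ Icc (0 : ℝ) 1) :
    vec (arc x y s) 0 = ‖comb x y s‖⁻¹ * ((1 - s) * vec x 0 + s * vec y 0) := by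
  rw [vec_arc (norm_pos_iff.1 (lt_of_lt_of_le one_pos h)) hs]
  simp [comb, mul_add]

theorem comb_pos {x y : SG g} (h : 1 ≤ ‖vec x + vec y‖) {s : ℝ} (hs : s ∈ Icc (0 : ℝ) 1) :
    0 < ‖comb x y s‖ :=
  norm_pos_iff.2 (comb_ne_zero (norm_pos_iff.1 (lt_of_lt_of_le one_pos h)) hs)

theorem arc_pp_mem {x : SG g} (hx : x ∈ US g) {s : ℝ} (hs : s ∈ Icc (0 : ℝ) 1) :
    arc x (pp g) s ∈ US g := by
  show -(1 / 2) < vec (arc x (pp g) s) 0
  rw [coord_arc (one_le_pp hx) hs, vec_pp_zero, mul_one]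
  refine key_ineq hx hs (comb_pos (one_le_pp hx) hs) ?_
  rw [norm_comb_sq, inner_pp]

theorem arc_qq_mem {x : SG g} (hx : x ∈ VS g) {s : ℝ} (hs : s ∈ Icc (0 : ℝ) 1) :
    arc x (qq g) s ∈ VS g := by
  have hx' : vec x 0 < 1 / 2 := hx
  show vec (arc x (qq g) s) 0 < 1 / 2
  rw [coord_arc (one_le_qq hx) hs, vec_qq_zero]
  have h := key_ineq (c := -vec x 0) (s := s) (ν := ‖comb x (qq g) s‖) (by linarith)
    hs (comb_pos (one_le_qq hx) hs)
    (by rw [norm_comb_sq, inner_qq])
  have e : ‖comb x (qq g) s‖⁻¹ * ((1 - s) * vec x 0 + s * -1) =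
      -(‖comb x (qq g) s‖⁻¹ * ((1 - s) * -vec x 0 + s)) := by ring
  rw [e]; linarith

theorem ch_pp_mem {x : SG g} (hx : x ∈ US g) (r : ℝ) : ch x (pp g) r ∈ US g :=
  arc_pp_mem hx (cl_mem _ _)

theorem ch_qq_mem {x : SG g} (hx : x ∈ VS g) (r : ℝ) : ch x (qq g) r ∈ VS g :=
  arc_qq_mem hx (cl_mem _ _)

/-! ### the tethers -/

variable (g)

/-- the fixed path from `q` to `p` through `zz` -/
def eT : ℝ → SG g := cc (L0 g) (rev (L0 g) (ch (zz g) (qq g))) (ch (zz g) (pp g))

variable {g}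

/-- the arc to `p` on `US` -/
def cT (z : SG g) : ℝ → SG g := ch z (pp g)

/-- the arc to `p` through `q` on `VS` -/
def bT (z : SG g) : ℝ → SG g := cc (L0 g) (ch z (qq g)) (eT g)

theorem chz_qq : ch (zz g) (qq g) ∈ MP (zz g) (qq g) (L0 g) := ch_mem (one_le_qq zz_mem.2)

theorem chz_pp : ch (zz g) (pp g) ∈ MP (zz g) (pp g) (L0 g) := ch_mem (one_le_pp zz_mem.1)

theorem eT_mem : eT g ∈ MP (qq g) (pp g) (L0 g + L0 g) :=
  cc_mem (rev_mem chz_qq) chz_pp (L0_pos g).le (L0_pos g).le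

theorem cT_mem' {z : SG g} (hz : z ∈ US g) : cT z ∈ MP z (pp g) (L0 g) := ch_mem (one_le_pp hz)

theorem cT_mem {z : SG g} (hz : z ∈ US g) : cT z ∈ MP z (pp g) (3 * L0 g) :=
  MP_mono _ _ (by linarith [L0_pos g]) (cT_mem' hz)

theorem bT_mem {z : SG g} (hz : z ∈ VS g) : bT z ∈ MP z (pp g) (3 * L0 g) := by
  have h := cc_mem (ch_mem (one_le_qq hz)) (eT_mem (g := g)) (L0_pos g).le
    (by linarith [L0_pos g])
  have e : L0 g + (L0 g + L0 g) = 3 * L0 g := by ring
  rwa [e] at h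

theorem continuousOn_cT : ContinuousOn (cT : SG g → ℝ → SG g) (US g) :=
  (continuousOn_ch (pp g)).mono fun _ hx => one_le_pp hx

theorem continuousOn_bT : ContinuousOn (bT : SG g → ℝ → SG g) (VS g) := by
  rw [continuousOn_pi]
  intro r
  rcases le_or_gt r (L0 g) with h | h
  · have h1 : ContinuousOn (fun z : SG g => ch z (qq g) r) (VS g) :=
      (continuousOn_pi.1 (continuousOn_ch (qq g)) r).mono fun _ hx => one_le_qq hx
    exact h1.congr fun z _ => cc_of_le _ _ h
  · have h1 : ContinuousOn (fun _ : SG g => eT g (r - L0 g)) (VS g) := continuousOn_const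
    exact h1.congr fun z _ => cc_of_lt _ _ h

variable (g)

/-- the tether on the upper part -/
def Wc : Tether (pp g) where
  V := US g
  isOpen := isOpen_US
  L := 3 * L0 g
  L_nonneg := by linarith [L0_pos g]
  T := cT
  mem := fun _ hz => cT_mem hz
  cont := continuousOn_cT

/-- the tether on the lower part -/
def Wb : Tether (pp g) where
  V := VS g
  isOpen := isOpen_VS
  L := 3 * L0 g
  L_nonneg := by linarith [L0_pos g]
  T := bT
  mem := fun _ hz => bT_mem hz
  cont := continuousOn_bT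

variable {g}

/-- the tether of the base point is constant -/
theorem cT_pp : cT (pp g) = fun _ => pp g := ch_self _

theorem cT_mem_US {z : SG g} (hz : z ∈ US g) (s : ℝ) : cT z s ∈ US g := ch_pp_mem hz s

theorem bT_mem_VS {z : SG g} (hz : z ∈ VS g) {s : ℝ} (hs : s ≤ 2 * L0 g) : bT z s ∈ VS g := by
  unfold bT eT
  rcases le_or_gt s (L0 g) with h | h
  · rw [cc_of_le _ _ h]; exact ch_qq_mem hz s
  · rw [cc_of_lt _ _ h, cc_of_le _ _ (by linarith)]
    exact ch_qq_mem zz_mem.2 _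

theorem bT_mid (z : SG g) : bT z (2 * L0 g) = zz g := by
  unfold bT eT
  have h := L0_pos g
  rw [cc_of_lt _ _ (by linarith), cc_of_le _ _ (by linarith), rev]
  have e : L0 g - (2 * L0 g - L0 g) = 0 := by ring
  rw [e, chz_qq.2.1 _ le_rfl]

theorem bT_mem_US (z : SG g) {s : ℝ} (hs : 2 * L0 g ≤ s) : bT z s ∈ US g := by
  rcases hs.eq_or_lt with h | h
  · rw [← h, bT_mid]; exact zz_mem.1
  · have h0 := L0_pos g
    unfold bT eT
    rw [cc_of_lt _ _ (by linarith), cc_of_lt _ _ (by linarith)]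
    exact ch_pp_mem zz_mem.1 _

/-- at the point `zz` the loop `(b z)⁻¹ . (c z)` is `e⁻¹ . e` -/
theorem v_zz : cc (3 * L0 g) (rev (3 * L0 g) (bT (zz g))) (cT (zz g)) =
    cc (2 * L0 g) (rev (2 * L0 g) (eT g)) (eT g) := by
  have h0 := L0_pos g
  have he : eT g ∈ MP (qq g) (pp g) (2 * L0 g) := by
    have := eT_mem (g := g)
    rwa [← two_mul] at this
  have h1 : rev (3 * L0 g) (bT (zz g)) =
      cc (2 * L0 g) (rev (2 * L0 g) (eT g)) (rev (L0 g) (ch (zz g) (qq g))) := by
    have := rev_cc (chz_qq (g := g)) he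
    rwa [show L0 g + 2 * L0 g = 3 * L0 g by ring] at this
  rw [h1]
  have h2 := cc_assoc (c := 2 * L0 g) (d := L0 g) (rev (2 * L0 g) (eT g))
    (rev (L0 g) (ch (zz g) (qq g))) (cT (zz g)) h0.le
  rw [show 2 * L0 g + L0 g = 3 * L0 g by ring] at h2
  exact h2

theorem eT_mem' : eT g ∈ MP (qq g) (pp g) (2 * L0 g) := by
  have := eT_mem (g := g)
  rwa [← two_mul] at this

end geom

/-! ### homology of the intersection -/

section hom

/-- a point of the standard sphere -/
def yy (m : ℕ) : Sp m :=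
  ⟨EuclideanSpace.single (Fin.last m) 1, mem_sphere_zero_iff_norm.2 (by simp)⟩

theorem cn_yy (m : ℕ) : cn 0 (yy m).1 = EuclideanSpace.single (Fin.last (m + 1)) (1 : ℝ) := by
  ext i
  refine Fin.cases ?_ (fun j => ?_) i
  · rw [cn_zero, PiLp.single_apply, if_neg]
    exact (Fin.last_pos).ne
  · rw [cn_succ]
    show (EuclideanSpace.single (Fin.last m) (1 : ℝ)) j = _
    rw [PiLp.single_apply, PiLp.single_apply, ← Fin.succ_last]
    simp only [Fin.succ_inj]

variable {m : ℕ} [NeZero (m + 2)] {g : Met (m + 2)}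

/-- the band as a subspace of the Riemannian sphere -/
def fB : C(Bd (m + 1), (US g ∩ VS g : Set (SG g))) where
  toFun x := ⟨toSG g x.1, x.2⟩
  continuous_toFun := Continuous.subtype_mk ((toSG g).continuous.comp continuous_subtype_val) _

/-- the inverse -/
def gB : C((US g ∩ VS g : Set (SG g)), Bd (m + 1)) where
  toFun x := ⟨(toSG g).symm x.1, x.2⟩
  continuous_toFun := Continuous.subtype_mk ((toSG g).symm.continuous.comp continuous_subtype_val) _

theorem gB_fB : (gB (g := g)).comp fB = ContinuousMap.id _ := rfl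

theorem fB_gB : (fB (g := g)).comp gB = ContinuousMap.id _ := rfl

end hom

/-- **`US ∩ VS` has the homology of `S^(n-1)`** -/
theorem exists_hSph {n : ℕ} [NeZero n] (hn : 2 ≤ n) (g : Met n) :
    ∃ h : HSph (US g ∩ VS g : Set (SG g)) (n - 1), (h.z0 : SG g) = zz g := by
  obtain ⟨m, rfl⟩ : ∃ m, n = m + 2 := ⟨n - 2, by omega⟩
  obtain ⟨h, hh⟩ := hSph_band m (yy (m + 1))
  refine ⟨h.tr (fB (g := g)) gB (by rw [gB_fB]) (by rw [fB_gB]), ?_⟩
  show toSG g (h.z0 : Sp (m + 2)) = zz g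
  rw [hh]
  apply vec_injective
  show cn 0 (yy (m + 1)).1 = EuclideanSpace.single (Fin.last (m + 2)) (1 : ℝ)
  exact cn_yy (m + 1)

end Crest.Agent.R231.SphQx543
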