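import Crest.Agent.R231.TC_569
import Crest.Agent.R231.IfA_978

/-!
# Row 231, block R (helper125): algebra of the splitting at a critical level

Ambient `T`-complex `X : TC`.  Graded submodules `A ≤ B` (chains of `X_a`, `X_b`), `S₂ ≤ S₁ ≤ B`
(chains of `X_a ∪ U_2`, `X_a ∪ U_1`), `Sp_i, Sm_i ≤ S_i` (chains of `X_a ∪ U_i^±`).  A chain map `r` and a
homotopy `K` from the identity to `r`, commuting with `g` ONLY, with `r B ⊆ S₂`, `K S₂ ⊆ S₁`.
Result: `P_± := (Sp_2 ⊓ Zc A B) ⊔ Bd A B` split the relative homology AND the leading term relation of the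
Tate cycles.
-/

set_option autoImplicit false

noncomputable section

namespace Crest.Agent.R231.SplitAlgx125

open Crest.Agent.R204 Crest.Agent.R231.TCx569 Crest.Agent.R231.IfAx978

/-- the mixed complex `(C, d, Δ = (1+g)h)` of a `T`-complex -/
def mix (X : TC) : Mix where
  C := X.C
  d := X.d
  De n := (LinearMap.id + X.g (n + 1)) ∘ₗ X.h n
  dd := X.dd
  DeDe n x := by
    have := congrFun (X.DelP_DelP (Pi.single n x)) (n + 2)
    simp only [TC.DelP, LinearMap.comp_apply, LinearMap.add_apply, LinearMap.id_apply, TC.hP, TC.gP,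
      Pi.add_apply, zrP_apply, upP_succ, Pi.zero_apply, Pi.single_eq_same] at this
    simpa only [LinearMap.comp_apply, LinearMap.add_apply, LinearMap.id_apply] using this
  dDe0 x := by
    have := congrFun (X.dP_DelP (Pi.single 0 x)) 0
    have h1 : X.dP (Pi.single 0 x) = 0 := by
      funext n
      change X.d n ((Pi.single 0 x : ∀ i, X.C i) (n + 1)) = 0
      rw [Pi.single_eq_of_ne (by omega), map_zero]
    rw [h1, map_zero] at this
    simpa only [TC.DelP, TC.dP, LinearMap.comp_apply, LinearMap.add_apply, LinearMap.id_apply, TC.hP, TC.gP,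
      Pi.add_apply, zrP_apply, upP_succ, Pi.zero_apply, Pi.single_eq_same, dnP_apply] using this
  dDe n x := by
    have := congrFun (X.dP_DelP (Pi.single (n + 1) x)) (n + 1)
    simpa only [TC.DelP, TC.dP, LinearMap.comp_apply, LinearMap.add_apply, LinearMap.id_apply, TC.hP, TC.gP,
      Pi.add_apply, zrP_apply, upP_succ, Pi.zero_apply, Pi.single_eq_same, dnP_apply] using this

variable {X : TC}

/-- graded submodules of a `T`-complex -/
abbrev GT (X : TC) : Type := ∀ j, Submodule F2 (X.C j)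

theorem DD_eq (c : X.P) : (DD (X := mix X) c : X.P) = X.DT c := by
  funext n
  cases n with
  | zero =>
    change X.d 0 (c 1) = X.d 0 (c 1) + (0 + X.g 0 0)
    rw [map_zero, add_zero, add_zero]
  | succ n => rfl

/-- the product of a graded submodule -/
def PS (A : GT X) : Submodule F2 X.P := Submodule.pi Set.univ A

theorem mem_PS {A : GT X} {c : X.P} : c ∈ PS A ↔ ∀ j, c j ∈ A j := by
  simp [PS, Submodule.mem_pi]

/-- truncated pair: `A` in degrees `< m`, `B` from degree `m` on -/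
def tr (A B : GT X) (m : ℕ) : GT X := fun j => if j < m then A j else B j

theorem tr_le {A B : GT X} (hAB : A ≤ B) (m : ℕ) : tr A B m ≤ B := by
  intro j x hx
  unfold tr at hx
  split_ifs at hx
  · exact hAB j hx
  · exact hx

theorem tr_lt {A B : GT X} {m j : ℕ} (h : j < m) : tr A B m j = A j := if_pos h

theorem tr_ge {A B : GT X} {m j : ℕ} (h : m ≤ j) : tr A B m j = B j := if_neg (by omega)

theorem PS_mono {A B : GT X} (h : A ≤ B) {c : X.P} (hc : c ∈ PS A) : c ∈ PS B :=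
  mem_PS.2 fun j => h j (mem_PS.1 hc j)

theorem tr_mono_right {A B B' : GT X} (h : B ≤ B') (m : ℕ) : tr A B m ≤ tr A B' m := by
  intro j x hx
  unfold tr at hx ⊢
  split_ifs at hx ⊢
  · exact hx
  · exact h j hx

theorem tr_succ {A B : GT X} (hAB : A ≤ B) (m : ℕ) : tr A B (m + 1) ≤ tr A B m := by
  intro j x hx
  unfold tr at hx ⊢
  by_cases h1 : j < m
  · rw [if_pos h1]; rwa [if_pos (by omega)] at hx
  · rw [if_neg h1]
    by_cases h2 : j < m + 1
    · rw [if_pos h2] at hx; exact hAB j hx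
    · rwa [if_neg h2] at hx

theorem mem_tr {A B : GT X} (hAB : A ≤ B) {m : ℕ} {v : X.P} :
    v ∈ PS (tr A B m) ↔ (∀ j, v j ∈ B j) ∧ ∀ j, j < m → v j ∈ A j := by
  rw [mem_PS]
  constructor
  · intro h
    refine ⟨fun j => tr_le hAB m j (h j), fun j hj => ?_⟩
    have := h j
    rwa [tr_lt hj] at this
  · rintro ⟨h1, h2⟩ j
    unfold tr
    split_ifs with hj
    · exact h2 j hj
    · exact h1 j

/-- stability under `d`, `g`, `h` -/
structure St (A : GT X) : Prop where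
  d : ∀ j x, x ∈ A (j + 1) → X.d j x ∈ A j
  g : ∀ j x, x ∈ A j → X.g j x ∈ A j
  h : ∀ j x, x ∈ A j → X.h j x ∈ A (j + 1)

section stab

variable {A B : GT X}

theorem St.dP (hA : St A) {c : X.P} (hc : c ∈ PS A) : X.dP c ∈ PS A :=
  mem_PS.2 fun j => hA.d j _ (mem_PS.1 hc (j + 1))

theorem St.gP (hA : St A) {c : X.P} (hc : c ∈ PS A) : X.gP c ∈ PS A :=
  mem_PS.2 fun j => hA.g j _ (mem_PS.1 hc j)

theorem St.hP (hA : St A) {c : X.P} (hc : c ∈ PS A) : X.hP c ∈ PS A :=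
  mem_PS.2 fun j => by
    cases j with
    | zero => exact (A 0).zero_mem
    | succ j => exact hA.h j _ (mem_PS.1 hc j)

theorem St.cj (hA : St A) {c : X.P} (hc : c ∈ PS A) : X.cj c ∈ PS A := by
  rw [TC.cj_apply]
  exact (PS A).add_mem hc (hA.hP hc)

theorem St.DelP (hA : St A) {c : X.P} (hc : c ∈ PS A) : X.DelP c ∈ PS A := by
  rw [TC.DelP_apply]
  exact (PS A).add_mem (hA.hP hc) (hA.gP (hA.hP hc))

theorem St.DT (hA : St A) {c : X.P} (hc : c ∈ PS A) : X.DT c ∈ PS A := by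
  rw [TC.DT_apply]
  exact (PS A).add_mem (hA.dP hc) ((PS A).add_mem (hA.hP hc) (hA.gP (hA.hP hc)))

theorem St.DZ (hA : St A) {c : X.P} (hc : c ∈ PS A) : X.DZ c ∈ PS A := by
  rw [TC.DZ_apply]
  exact (PS A).add_mem ((PS A).add_mem (hA.dP hc) hc) (hA.gP hc)

/-- `h` raises the filtration -/
theorem St.hP_tr (hA : St A) (hB : St B) {m : ℕ} {c : X.P} (hc : c ∈ PS (tr A B m)) :
    X.hP c ∈ PS (tr A B (m + 1)) :=
  mem_PS.2 fun j => by
    cases j with
    | zero =>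
      rw [tr_lt (by omega)]; exact (A 0).zero_mem
    | succ j =>
      have h1 := mem_PS.1 hc j
      unfold tr at h1 ⊢
      split_ifs at h1 ⊢ with h2 h3 h3
      · exact hA.h j _ h1
      · omega
      · omega
      · exact hB.h j _ h1

theorem St.cj_tr (hA : St A) (hB : St B) (hAB : A ≤ B) {m : ℕ} {c : X.P} (hc : c ∈ PS (tr A B m)) :
    X.cj c ∈ PS (tr A B m) := by
  rw [TC.cj_apply]
  exact (PS _).add_mem hc (PS_mono (tr_succ hAB m) (hA.hP_tr hB hc))

/-- sum of graded submodules -/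
theorem St.sup (hA : St A) (hB : St B) : St (A ⊔ B) where
  d j x hx := by
    obtain ⟨a, ha, b, hb, rfl⟩ := Submodule.mem_sup.1 (show x ∈ A (j + 1) ⊔ B (j + 1) from hx)
    rw [map_add]
    exact Submodule.add_mem_sup (hA.d j a ha) (hB.d j b hb)
  g j x hx := by
    obtain ⟨a, ha, b, hb, rfl⟩ := Submodule.mem_sup.1 (show x ∈ A j ⊔ B j from hx)
    rw [map_add]
    exact Submodule.add_mem_sup (hA.g j a ha) (hB.g j b hb)
  h j x hx := by
    obtain ⟨a, ha, b, hb, rfl⟩ := Submodule.mem_sup.1 (show x ∈ A j ⊔ B j from hx)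
    rw [map_add]
    exact Submodule.add_mem_sup (hA.h j a ha) (hB.h j b hb)

end stab

/-! ### relative cycles and boundaries, strict pairs -/

/-- relative cycles (same as `Zc` of `IfA_978`) -/
def Zt (A B : GT X) : GT X
  | 0 => B 0
  | (j + 1) => B (j + 1) ⊓ (A j).comap (X.d j)

/-- relative boundaries (same as `Bd` of `IfA_978`) -/
def Bt (A B : GT X) : GT X := fun j => (B (j + 1)).map (X.d j) ⊔ A j

theorem Zt_eq (A B : GT X) : (Zc (X := mix X) A B : GT X) = Zt A B := by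
  funext j
  cases j <;> rfl

theorem Bt_eq (A B : GT X) : (Bd (X := mix X) A B : GT X) = Bt A B := rfl

theorem mem_Zt_zero {A B : GT X} {x : X.C 0} : x ∈ Zt A B 0 ↔ x ∈ B 0 := Iff.rfl

theorem mem_Zt_succ {A B : GT X} {j : ℕ} {x : X.C (j + 1)} :
    x ∈ Zt A B (j + 1) ↔ x ∈ B (j + 1) ∧ X.d j x ∈ A j := Iff.rfl

theorem Zt_le {A B : GT X} {j : ℕ} {x : X.C j} (h : x ∈ Zt A B j) : x ∈ B j := by
  cases j with
  | zero => exact h
  | succ j => exact h.1

theorem mem_Bt {A B : GT X} {j : ℕ} {x : X.C j} :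
    x ∈ Bt A B j ↔ ∃ y ∈ B (j + 1), x + X.d j y ∈ A j := by
  constructor
  · intro h
    obtain ⟨b, ⟨y, hy, rfl⟩, a, ha, rfl⟩ := Submodule.mem_sup.1 h
    refine ⟨y, hy, ?_⟩
    have h3 : X.d j y + a + X.d j y = a := by
      rw [add_comm, ← add_assoc, TC.add_self, zero_add]
    rw [h3]; exact ha
  · rintro ⟨y, hy, h⟩
    refine Submodule.mem_sup.2 ⟨X.d j y, ⟨y, hy, rfl⟩, _, h, ?_⟩
    rw [add_comm x, ← add_assoc, TC.add_self, zero_add]

theorem A_le_Bt {A B : GT X} {j : ℕ} {x : X.C j} (h : x ∈ A j) : x ∈ Bt A B j :=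
  (le_sup_right : A j ≤ (B (j + 1)).map (X.d j) ⊔ A j) h

theorem Bt_le_Zt {A B : GT X} (hAB : A ≤ B) (hA : St A) (hB : St B) {j : ℕ} {x : X.C j}
    (h : x ∈ Bt A B j) : x ∈ Zt A B j := by
  obtain ⟨y, hy, hx⟩ := mem_Bt.1 h
  have e : x = X.d j y + (x + X.d j y) := by
    rw [add_comm, add_assoc, TC.add_self, add_zero]
  cases j with
  | zero =>
    rw [mem_Zt_zero, e]
    exact (B 0).add_mem (hB.d 0 y hy) (hAB 0 hx)
  | succ j =>
    rw [mem_Zt_succ]
    constructor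
    · rw [e]
      exact (B (j + 1)).add_mem (hB.d _ y hy) (hAB _ hx)
    · rw [e, map_add, X.dd, zero_add]
      exact hA.d j _ hx

/-- a pair with zero relative homology -/
def Acy (A B : GT X) : Prop := ∀ j x, x ∈ Zt A B j → x ∈ Bt A B j

/-- strictness: `Sp ⊓ Sm ≤ A ≤ Sp, Sm` -/
structure Strict (A Sp Sm : GT X) : Prop where
  p : A ≤ Sp
  m : A ≤ Sm
  inf : Sp ⊓ Sm ≤ A

theorem Strict.left {A Sp Sm : GT X} (hs : Strict A Sp Sm) {j : ℕ} {a b : X.C j} (ha : a ∈ Sp j)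
    (hb : b ∈ Sm j) (h : a + b ∈ A j) : a ∈ A j := by
  refine hs.inf j ⟨ha, ?_⟩
  have e : a = a + b + b := by rw [add_assoc, TC.add_self, add_zero]
  rw [e]
  exact (Sm j).add_mem (hs.m j h) hb

theorem Strict.right {A Sp Sm : GT X} (hs : Strict A Sp Sm) {j : ℕ} {a b : X.C j} (ha : a ∈ Sp j)
    (hb : b ∈ Sm j) (h : a + b ∈ A j) : b ∈ A j := by
  refine hs.inf j ⟨?_, hb⟩
  have e : b = a + b + a := by rw [add_comm a b, add_assoc, TC.add_self, add_zero]
  rw [e]
  exact (Sp j).add_mem (hs.p j h) ha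

theorem Strict.leftP {A Sp Sm : GT X} (hs : Strict A Sp Sm) {a b : X.P} (ha : a ∈ PS Sp)
    (hb : b ∈ PS Sm) (h : a + b ∈ PS A) : a ∈ PS A :=
  mem_PS.2 fun j => hs.left (mem_PS.1 ha j) (mem_PS.1 hb j) (mem_PS.1 h j)

theorem Strict.rightP {A Sp Sm : GT X} (hs : Strict A Sp Sm) {a b : X.P} (ha : a ∈ PS Sp)
    (hb : b ∈ PS Sm) (h : a + b ∈ PS A) : b ∈ PS A :=
  mem_PS.2 fun j => hs.right (mem_PS.1 ha j) (mem_PS.1 hb j) (mem_PS.1 h j)

/-! ### Tate version of acyclicity (with filtration) -/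

theorem DT_zero (c : X.P) : X.DT c 0 = X.d 0 (c 1) := by
  change X.d 0 (c 1) + (0 + X.g 0 0) = X.d 0 (c 1)
  rw [map_zero, add_zero, add_zero]

theorem DT_succ (c : X.P) (j : ℕ) :
    X.DT c (j + 1) = X.d (j + 1) (c (j + 2)) + (X.h j (c j) + X.g (j + 1) (X.h j (c j))) := rfl

/-- `DT` only sees neighbouring degrees -/
theorem DT_congr {c c' : X.P} {j : ℕ} (h1 : c (j + 1) = c' (j + 1))
    (h2 : ∀ i, j = i + 1 → c i = c' i) : X.DT c j = X.DT c' j := by
  cases j with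
  | zero => rw [DT_zero, DT_zero, h1]
  | succ j => rw [DT_succ, DT_succ, h1, h2 j rfl]

theorem DT_mem {A : GT X} (hA : St A) {c : X.P} {j : ℕ} (h1 : c (j + 1) ∈ A (j + 1))
    (h2 : ∀ i, j = i + 1 → c i ∈ A i) : X.DT c j ∈ A j := by
  cases j with
  | zero => rw [DT_zero]; exact hA.d 0 _ h1
  | succ j =>
    rw [DT_succ]
    have h3 := hA.h j _ (h2 j rfl)
    exact (A _).add_mem (hA.d _ _ h1) ((A _).add_mem h3 (hA.g _ _ h3))

section acy

variable {A0 A B : GT X}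

theorem acy_step (hac : Acy A B) (h0 : A0 ≤ A) (hAB : A ≤ B) (hA0 : St A0) (hA : St A) (hB : St B)
    {m : ℕ} {v : X.P} (hv : v ∈ PS (tr A0 B m)) (hDv : X.DT v ∈ PS A) (n : ℕ) (y : X.P)
    (hy : y ∈ PS (tr A0 B (m + 1))) (hyn : ∀ j < n, (v + X.DT y) j ∈ A j) :
    ∃ y' ∈ PS (tr A0 B (m + 1)), (∀ j ≤ n, y' j = y j) ∧ ∀ j < n + 1, (v + X.DT y') j ∈ A j := by
  obtain ⟨hv1, hv2⟩ := (mem_tr (h0.trans hAB)).1 hv
  obtain ⟨hy1, hy2⟩ := (mem_tr (h0.trans hAB)).1 hy
  by_cases hnm : n < m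
  · refine ⟨y, hy, fun _ _ => rfl, fun j hj => ?_⟩
    rcases Nat.lt_succ_iff_lt_or_eq.1 hj with h | rfl
    · exact hyn j h
    · refine h0 j ?_
      refine (A0 j).add_mem (hv2 j hnm) (DT_mem hA0 (hy2 _ (by omega)) (fun i hi => hy2 _ (by omega)))
  · have hw : (v + X.DT y) n ∈ Zt A B n := by
      cases n with
      | zero =>
        exact (B 0).add_mem (hv1 0) (DT_mem hB (hy1 _) (fun i _ => hy1 i))
      | succ i =>
        refine ⟨(B _).add_mem (hv1 _) (DT_mem hB (hy1 _) (fun i _ => hy1 i)), ?_⟩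
        have h1 : X.DT (v + X.DT y) i ∈ A i := by
          rw [map_add, TC.DT_DT, add_zero]
          exact mem_PS.1 hDv i
        cases i with
        | zero =>
          rw [DT_zero] at h1
          exact h1
        | succ i =>
          rw [DT_succ] at h1
          have h2 := hA.h i _ (hyn i (by omega))
          have h3 := (A _).add_mem h2 (hA.g _ _ h2)
          have h4 := (A _).add_mem h1 h3
          rwa [add_assoc, TC.add_self, add_zero] at h4
    obtain ⟨z, hz, hwz⟩ := mem_Bt.1 (hac n _ hw)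
    refine ⟨y + Pi.single (n + 1) z, ?_, ?_, ?_⟩
    · refine (PS _).add_mem hy (mem_PS.2 fun j => ?_)
      by_cases hj : j = n + 1
      · subst hj
        rw [Pi.single_eq_same, tr_ge (by omega)]
        exact hz
      · rw [Pi.single_eq_of_ne hj]
        exact Submodule.zero_mem _
    · intro j hj
      rw [Pi.add_apply, Pi.single_eq_of_ne (by omega), add_zero]
    · intro j hj
      rcases Nat.lt_succ_iff_lt_or_eq.1 hj with h | rfl
      · have e : X.DT (y + Pi.single (n + 1) z) j = X.DT y j := by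
          refine DT_congr ?_ ?_
          · rw [Pi.add_apply, Pi.single_eq_of_ne (by omega), add_zero]
          · intro i hi
            rw [Pi.add_apply, Pi.single_eq_of_ne (by omega), add_zero]
        rw [Pi.add_apply, e]
        exact hyn j h
      · have e : X.DT (Pi.single (j + 1) z : X.P) j = X.d j z := by
          have e2 : ∀ i, j = i + 1 → (Pi.single (j + 1) z : X.P) i = 0 := fun i hi =>
            Pi.single_eq_of_ne (by omega) _
          cases j with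
          | zero => rw [DT_zero, Pi.single_eq_same]
          | succ i =>
            rw [DT_succ, Pi.single_eq_same, e2 i rfl, map_zero, map_zero, add_zero, add_zero]
        rw [Pi.add_apply, map_add, Pi.add_apply, e, ← add_assoc]
        exact hwz

/-- **Tate acyclicity with filtration** -/
theorem acyT_tr (hac : Acy A B) (h0 : A0 ≤ A) (hAB : A ≤ B) (hA0 : St A0) (hA : St A) (hB : St B)
    {m : ℕ} {v : X.P} (hv : v ∈ PS (tr A0 B m)) (hDv : X.DT v ∈ PS A) :
    ∃ y ∈ PS (tr A0 B (m + 1)), v + X.DT y ∈ PS A := by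
  classical
  let Q : ℕ → Type := fun n => {y : X.P // y ∈ PS (tr A0 B (m + 1)) ∧ ∀ j < n, (v + X.DT y) j ∈ A j}
  let step : ∀ n, Q n → Q (n + 1) := fun n y =>
    ⟨(acy_step hac h0 hAB hA0 hA hB hv hDv n y.1 y.2.1 y.2.2).choose,
      (acy_step hac h0 hAB hA0 hA hB hv hDv n y.1 y.2.1 y.2.2).choose_spec.1,
      (acy_step hac h0 hAB hA0 hA hB hv hDv n y.1 y.2.1 y.2.2).choose_spec.2.2⟩
  have hstep : ∀ n (y : Q n) j, j ≤ n → (step n y).1 j = y.1 j := fun n y =>
    (acy_step hac h0 hAB hA0 hA hB hv hDv n y.1 y.2.1 y.2.2).choose_spec.2.1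
  let s : ∀ n, Q n := fun n => Nat.rec ⟨0, (PS _).zero_mem, fun j hj => absurd hj (Nat.not_lt_zero j)⟩ step n
  have hs : ∀ n, s (n + 1) = step n (s n) := fun n => rfl
  have hst : ∀ n k j, j ≤ n → (s (n + k)).1 j = (s n).1 j := by
    intro n k
    induction k with
    | zero => intro j _; rfl
    | succ k ih =>
      intro j hj
      rw [show n + (k + 1) = (n + k) + 1 from rfl, hs, hstep _ _ _ (by omega), ih j hj]
  have hst' : ∀ n j, j ≤ n → (s n).1 j = (s j).1 j := by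
    intro n j hj
    obtain ⟨k, rfl⟩ := Nat.exists_eq_add_of_le hj
    exact hst j k j le_rfl
  refine ⟨fun j => (s j).1 j, mem_PS.2 fun j => mem_PS.1 (s j).2.1 j, mem_PS.2 fun j => ?_⟩
  have h1 := (s (j + 1)).2.2 j (Nat.lt_succ_self j)
  have e : X.DT (fun j => (s j).1 j) j = X.DT (s (j + 1)).1 j := by
    refine DT_congr rfl ?_
    intro i hi
    exact (hst' (j + 1) i (by omega)).symm
  rw [Pi.add_apply, e]
  exact h1

end acy

/-! ### splitting of Tate cycles -/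

section split

variable {A S Sp Sm : GT X}

/-- a filtered Tate cycle of `(S, A)` splits -/
theorem splitT (hac : Acy (Sp ⊔ Sm) S) (hs : Strict A Sp Sm) (hpS : Sp ≤ S) (hmS : Sm ≤ S) (hA : St A)
    (hS : St S) (hp : St Sp) (hm : St Sm) {m : ℕ} {w : X.P} (hw : w ∈ PS (tr A S m))
    (hDw : X.DT w ∈ PS A) :
    ∃ wp ∈ PS (tr A Sp m), ∃ wm ∈ PS (tr A Sm m), ∃ t ∈ PS (tr A S (m + 1)),
      w + wp + wm + X.DT t = 0 ∧ X.DT wp ∈ PS A ∧ X.DT wm ∈ PS A := by
  have hAS : A ≤ S := hs.p.trans hpS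
  have hAU : A ≤ Sp ⊔ Sm := hs.p.trans le_sup_left
  obtain ⟨t, ht, h1⟩ := acyT_tr hac hAU (sup_le hpS hmS) hA (hp.sup hm) hS hw (PS_mono hAU hDw)
  obtain ⟨hw1, hw2⟩ := (mem_tr hAS).1 hw
  obtain ⟨ht1, ht2⟩ := (mem_tr hAS).1 ht
  have h2 : ∀ j, ∃ a b : X.C j, a ∈ tr A Sp m j ∧ b ∈ tr A Sm m j ∧ a + b = (w + X.DT t) j := by
    intro j
    by_cases hj : j < m
    · refine ⟨(w + X.DT t) j, 0, ?_, Submodule.zero_mem _, add_zero _⟩
      rw [tr_lt hj]
      exact (A j).add_mem (hw2 j hj) (DT_mem hA (ht2 _ (by omega)) (fun i hi => ht2 _ (by omega)))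
    · obtain ⟨a, ha, b, hb, hab⟩ := Submodule.mem_sup.1 (show (w + X.DT t) j ∈ Sp j ⊔ Sm j from mem_PS.1 h1 j)
      exact ⟨a, b, by rw [tr_ge (by omega)]; exact ha, by rw [tr_ge (by omega)]; exact hb, hab⟩
  choose wp wm hwp hwm hsum using h2
  have hsum' : (wp : X.P) + wm = w + X.DT t := funext hsum
  have hwp' : wp ∈ PS Sp := PS_mono (tr_le hs.p m) (mem_PS.2 hwp)
  have hwm' : wm ∈ PS Sm := PS_mono (tr_le hs.m m) (mem_PS.2 hwm)
  have hD : X.DT wp + X.DT wm ∈ PS A := by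
    rw [← map_add, hsum', map_add, TC.DT_DT, add_zero]
    exact hDw
  refine ⟨wp, mem_PS.2 hwp, wm, mem_PS.2 hwm, t, ht, ?_, hs.leftP (hp.DT hwp') (hm.DT hwm') hD,
    hs.rightP (hp.DT hwp') (hm.DT hwm') hD⟩
  have e : w + wp + wm + X.DT t = (wp + wm) + (w + X.DT t) := by abel
  rw [e, hsum', TC.add_self]

/-- if a strictly split family bounds in `(S, A)`, both parts bound in `(Sp, A)`, `(Sm, A)` -/
theorem splitBd (hac : Acy (Sp ⊔ Sm) S) (hs : Strict A Sp Sm) (hpS : Sp ≤ S) (hmS : Sm ≤ S)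
    (hS : St S) (hp : St Sp) (hm : St Sm) {wp wm c : X.P} (hwp : wp ∈ PS Sp) (hwm : wm ∈ PS Sm)
    (hc : c ∈ PS S) (h : wp + wm + X.DT c ∈ PS A) :
    (∃ cp ∈ PS Sp, wp + X.DT cp ∈ PS A) ∧ ∃ cm ∈ PS Sm, wm + X.DT cm ∈ PS A := by
  have hAU : A ≤ Sp ⊔ Sm := hs.p.trans le_sup_left
  have h1 : X.DT c ∈ PS (Sp ⊔ Sm) := by
    have e : X.DT c = (wp + wm) + (wp + wm + X.DT c) := by
      rw [← add_assoc, TC.add_self, zero_add]
    rw [e]
    exact (PS _).add_mem ((PS _).add_mem (PS_mono le_sup_left hwp) (PS_mono le_sup_right hwm))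
      (PS_mono hAU h)
  have hc0 : c ∈ PS (tr (Sp ⊔ Sm) S 0) := by
    rw [mem_tr (sup_le hpS hmS)]
    exact ⟨mem_PS.1 hc, fun j hj => absurd hj (Nat.not_lt_zero j)⟩
  obtain ⟨y, _, hy⟩ := acyT_tr hac le_rfl (sup_le hpS hmS) (hp.sup hm) (hp.sup hm) hS hc0 h1
  have h2 : ∀ j, ∃ a b : X.C j, a ∈ Sp j ∧ b ∈ Sm j ∧ a + b = (c + X.DT y) j := by
    intro j
    obtain ⟨a, ha, b, hb, hab⟩ := Submodule.mem_sup.1 (show (c + X.DT y) j ∈ Sp j ⊔ Sm j from mem_PS.1 hy j)
    exact ⟨a, b, ha, hb, hab⟩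
  choose cp cm hcp hcm hsum using h2
  have hsum' : (cp : X.P) + cm = c + X.DT y := funext hsum
  have hcp' : cp ∈ PS Sp := mem_PS.2 hcp
  have hcm' : cm ∈ PS Sm := mem_PS.2 hcm
  have h3 : (wp + X.DT cp) + (wm + X.DT cm) ∈ PS A := by
    have e : (wp + X.DT cp) + (wm + X.DT cm) = wp + wm + X.DT c := by
      have e1 : X.DT cp + X.DT cm = X.DT c := by
        rw [← map_add, hsum', map_add, TC.DT_DT, add_zero]
      rw [← e1]; abel
    rw [e]; exact h
  have h4 : wp + X.DT cp ∈ PS Sp := (PS _).add_mem hwp (hp.DT hcp')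
  have h5 : wm + X.DT cm ∈ PS Sm := (PS _).add_mem hwm (hm.DT hcm')
  exact ⟨⟨cp, hcp', hs.leftP h4 h5 h3⟩, ⟨cm, hcm', hs.rightP h4 h5 h3⟩⟩

end split

end Crest.Agent.R231.SplitAlgx125
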