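import Crest.Agent.R231.SplitAlg_125

/-!
# Row 231, block R (helper125): the splitting at a critical level, from a `g`-equivariant retraction

`RK A B S₂ S₁ r K`: a chain map `r` and a homotopy `K` on `B` (`dK + Kd = 1 + r`), commuting with `g`,
preserving `A`, with `r B ⊆ S₂`, `K B ⊆ B`, `K S₂ ⊆ S₁`.
-/

set_option autoImplicit false

noncomputable section

namespace Crest.Agent.R231.SplitAlgx125

open Crest.Agent.R204 Crest.Agent.R231.TCx569 Crest.Agent.R231.IfAx978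

variable {X : TC}

theorem cancel3 {M : Type*} [AddCommGroup M] [Module F2 M] (a b c : M) : a + (b + c) + c = a + b := by
  rw [add_assoc, add_assoc, TC.add_self, add_zero]

theorem eq_of_add {M : Type*} [AddCommGroup M] [Module F2 M] {a b c : M} (h : a + b = c) :
    a = c + b := by
  rw [← h, add_assoc, TC.add_self, add_zero]

/-- a `g`-equivariant deformation -/
structure RK (A B S2 S1 : GT X) (r : ∀ j, X.C j →ₗ[F2] X.C j) (K : ∀ j, X.C j →ₗ[F2] X.C (j + 1)) :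
    Prop where
  r_d : ∀ j x, x ∈ B (j + 1) → X.d j (r (j + 1) x) = r j (X.d j x)
  r_g : ∀ j x, x ∈ B j → X.g j (r j x) = r j (X.g j x)
  K_g : ∀ j x, x ∈ B j → X.g (j + 1) (K j x) = K j (X.g j x)
  hK0 : ∀ x, x ∈ B 0 → X.d 0 (K 0 x) = x + r 0 x
  hK : ∀ j x, x ∈ B (j + 1) → X.d (j + 1) (K (j + 1) x) + K j (X.d j x) = x + r (j + 1) x
  r_A : ∀ j x, x ∈ A j → r j x ∈ A j
  K_A : ∀ j x, x ∈ A j → K j x ∈ A (j + 1)
  r_B : ∀ j x, x ∈ B j → r j x ∈ S2 j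
  K_B : ∀ j x, x ∈ B j → K j x ∈ B (j + 1)
  K_S : ∀ j x, x ∈ S2 j → K j x ∈ S1 (j + 1)

namespace RK

variable {A B S2 S1 : GT X} {r : ∀ j, X.C j →ₗ[F2] X.C j} {K : ∀ j, X.C j →ₗ[F2] X.C (j + 1)}
  (H : RK A B S2 S1 r K)
include H

theorem rP_dP {c : X.P} (hc : c ∈ PS B) : X.dP (zrP r c) = zrP r (X.dP c) :=
  funext fun j => H.r_d j _ (mem_PS.1 hc (j + 1))

theorem rP_gP {c : X.P} (hc : c ∈ PS B) : X.gP (zrP r c) = zrP r (X.gP c) :=
  funext fun j => H.r_g j _ (mem_PS.1 hc j)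

theorem KP_gP {c : X.P} (hc : c ∈ PS B) : X.gP (upP K c) = upP K (X.gP c) :=
  funext fun j => by
    cases j with
    | zero => exact map_zero (X.g 0)
    | succ j => exact H.K_g j _ (mem_PS.1 hc j)

theorem KP_dP {c : X.P} (hc : c ∈ PS B) : X.dP (upP K c) + upP K (X.dP c) = c + zrP r c :=
  funext fun j => by
    cases j with
    | zero =>
      change X.d 0 (K 0 (c 0)) + 0 = c 0 + r 0 (c 0)
      rw [add_zero]; exact H.hK0 _ (mem_PS.1 hc 0)
    | succ j => exact H.hK j _ (mem_PS.1 hc (j + 1))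

theorem rP_DZ {c : X.P} (hc : c ∈ PS B) : X.DZ (zrP r c) = zrP r (X.DZ c) := by
  rw [TC.DZ_apply, TC.DZ_apply, map_add, map_add, H.rP_dP hc, H.rP_gP hc]

theorem KP_DZ {c : X.P} (hc : c ∈ PS B) :
    X.DZ (upP K c) + upP K (X.DZ c) = c + zrP r c := by
  rw [TC.DZ_apply, TC.DZ_apply, map_add, map_add, H.KP_gP hc, ← H.KP_dP hc]
  have e : X.dP (upP K c) + upP K c + upP K (X.gP c) + (upP K (X.dP c) + upP K c + upP K (X.gP c)) =
      X.dP (upP K c) + upP K (X.dP c) + (upP K c + upP K c) + (upP K (X.gP c) + upP K (X.gP c)) := by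
    abel
  rw [e, TC.add_self, TC.add_self, add_zero, add_zero]

theorem rP_A {c : X.P} (hc : c ∈ PS A) : zrP r c ∈ PS A := mem_PS.2 fun j => H.r_A j _ (mem_PS.1 hc j)

theorem rP_B {c : X.P} (hc : c ∈ PS B) : zrP r c ∈ PS S2 := mem_PS.2 fun j => H.r_B j _ (mem_PS.1 hc j)

theorem KP_A {c : X.P} (hc : c ∈ PS A) : upP K c ∈ PS A := mem_PS.2 fun j => by
  cases j with
  | zero => exact (A 0).zero_mem
  | succ j => exact H.K_A j _ (mem_PS.1 hc j)

theorem KP_S {c : X.P} (hc : c ∈ PS S2) : upP K c ∈ PS S1 := mem_PS.2 fun j => by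
  cases j with
  | zero => exact (S1 0).zero_mem
  | succ j => exact H.K_S j _ (mem_PS.1 hc j)

theorem rP_tr {m : ℕ} {c : X.P} (hc : c ∈ PS (tr A B m)) : zrP r c ∈ PS (tr A S2 m) :=
  mem_PS.2 fun j => by
    have h1 := mem_PS.1 hc j
    unfold tr at h1 ⊢
    split_ifs at h1 ⊢ with h
    · exact H.r_A j _ h1
    · exact H.r_B j _ h1

theorem KP_tr {m : ℕ} {c : X.P} (hc : c ∈ PS (tr A B m)) : upP K c ∈ PS (tr A B (m + 1)) :=
  mem_PS.2 fun j => by
    cases j with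
    | zero => rw [tr_lt (by omega)]; exact (A 0).zero_mem
    | succ j =>
      have h1 := mem_PS.1 hc j
      by_cases h : j < m
      · rw [tr_lt (by omega)]; rw [tr_lt h] at h1
        exact H.K_A j _ h1
      · rw [tr_ge (by omega)]; rw [tr_ge (by omega)] at h1
        exact H.K_B j _ h1

/-- (F1) every filtered Tate cycle of `(B, A)` comes from `(S₂, A)` -/
theorem lift_T (hA : St A) (hB : St B) (hAB : A ≤ B) (hS2 : St S2) (hAS : A ≤ S2) {m : ℕ} {v : X.P}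
    (hv : v ∈ PS (tr A B m)) (hDv : X.DT v ∈ PS A) :
    ∃ w ∈ PS (tr A S2 m), ∃ e ∈ PS (tr A B (m + 1)), v + w + X.DT e ∈ PS A := by
  have hv' : X.cj v ∈ PS (tr A B m) := hA.cj_tr hB hAB hv
  have hv'' : X.cj v ∈ PS B := PS_mono (tr_le hAB m) hv'
  refine ⟨X.cj (zrP r (X.cj v)), hA.cj_tr hS2 hAS (H.rP_tr hv'), X.cj (upP K (X.cj v)),
    hA.cj_tr hB hAB (H.KP_tr hv'), ?_⟩
  have e1 : v + X.cj (zrP r (X.cj v)) + X.DT (X.cj (upP K (X.cj v))) =
      X.cj (upP K (X.cj (X.DT v))) := by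
    rw [← TC.cj_DZ, TC.cj_DT]
    have h1 := H.KP_DZ hv''
    have e2 : upP K (X.DZ (X.cj v)) = X.cj v + zrP r (X.cj v) + X.DZ (upP K (X.cj v)) := by
      rw [← h1, add_comm (X.DZ (upP K (X.cj v))), add_assoc, TC.add_self, add_zero]
    rw [e2, map_add, map_add, TC.cj_cj]
  rw [e1]
  exact hA.cj (H.KP_A (hA.cj hDv))

/-- (F2) a Tate cycle of `(S₂, A)` which bounds in `(B, A)` bounds in `(S₁, A)` -/
theorem inj_T (hA : St A) (hB : St B) (_hAB : A ≤ B) (hS2 : St S2) (hS1 : St S1) (h21 : S2 ≤ S1)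
    (hSB : S2 ≤ B) {w c : X.P} (hw : w ∈ PS S2) (hc : c ∈ PS B) (h : w + X.DT c ∈ PS A) :
    ∃ c' ∈ PS S1, w + X.DT c' ∈ PS A := by
  have hw' : X.cj w ∈ PS S2 := hS2.cj hw
  have hwB : X.cj w ∈ PS B := PS_mono hSB hw'
  have hc' : X.cj c ∈ PS B := hB.cj hc
  have h' : X.cj w + X.DZ (X.cj c) ∈ PS A := by
    rw [← TC.cj_DT, ← map_add]; exact hA.cj h
  have hDw : X.DZ (X.cj w) ∈ PS A := by
    have := hA.DZ h'
    rwa [map_add, TC.DZ_DZ, add_zero] at this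
  refine ⟨X.cj (upP K (X.cj w) + zrP r (X.cj c)), hS1.cj ((PS _).add_mem (H.KP_S hw')
    (PS_mono h21 (H.rP_B hc'))), ?_⟩
  have h1 := H.KP_DZ hwB
  have e : w + X.DT (X.cj (upP K (X.cj w) + zrP r (X.cj c))) =
      X.cj (upP K (X.DZ (X.cj w)) + zrP r (X.cj w + X.DZ (X.cj c))) := by
    rw [← TC.cj_DZ, map_add X.DZ, H.rP_DZ hc', map_add (zrP r)]
    have e2 : upP K (X.DZ (X.cj w)) + zrP r (X.cj w) = X.cj w + X.DZ (upP K (X.cj w)) := by
      have e3 : upP K (X.DZ (X.cj w)) = X.cj w + zrP r (X.cj w) + X.DZ (upP K (X.cj w)) := by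
        rw [← h1, add_comm (X.DZ (upP K (X.cj w))), add_assoc, TC.add_self, add_zero]
      rw [e3]
      have e4 : X.cj w + zrP r (X.cj w) + X.DZ (upP K (X.cj w)) + zrP r (X.cj w) =
          X.cj w + X.DZ (upP K (X.cj w)) + (zrP r (X.cj w) + zrP r (X.cj w)) := by abel
      rw [e4, TC.add_self, add_zero]
    rw [← add_assoc, e2, map_add, map_add, map_add, TC.cj_cj]
    abel
  rw [e]
  exact hA.cj ((PS _).add_mem (H.KP_A hDw) (H.rP_A h'))

/-- plain version of (F1) -/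
theorem lift_pl (h2B : S2 ≤ B) {j : ℕ} {x : X.C j} (hx : x ∈ Zt A B j) :
    r j x ∈ S2 j ∧ r j x ∈ Zt A B j ∧ x + r j x + X.d j (K j x) ∈ A j := by
  cases j with
  | zero =>
    have hx' : x ∈ B 0 := hx
    refine ⟨H.r_B 0 x hx', h2B 0 (H.r_B 0 x hx'), ?_⟩
    rw [H.hK0 x hx', TC.add_self]
    exact (A 0).zero_mem
  | succ j =>
    obtain ⟨hx1, hx2⟩ := hx
    refine ⟨H.r_B _ x hx1, ⟨h2B _ (H.r_B _ x hx1), ?_⟩, ?_⟩
    · change X.d j (r (j + 1) x) ∈ A j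
      rw [H.r_d j x hx1]
      exact H.r_A j _ hx2
    · rw [← H.hK j x hx1]
      have e : X.d (j + 1) (K (j + 1) x) + K j (X.d j x) + X.d (j + 1) (K (j + 1) x) =
          K j (X.d j x) := by
        rw [add_comm (X.d (j + 1) (K (j + 1) x)), add_assoc, TC.add_self, add_zero]
      rw [e]
      exact H.K_A j _ hx2

/-- plain version of (F2) -/
theorem inj_pl (h21 : S2 ≤ S1) (h2B : S2 ≤ B) {j : ℕ} {w : X.C j} {c : X.C (j + 1)}
    (hw : w ∈ S2 j) (hwZ : w ∈ Zt A B j) (hc : c ∈ B (j + 1)) (h : w + X.d j c ∈ A j) :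
    ∃ c' ∈ S1 (j + 1), w + X.d j c' ∈ A j := by
  refine ⟨K j w + r (j + 1) c, (S1 _).add_mem (H.K_S j w hw) (h21 _ (H.r_B _ c hc)), ?_⟩
  rw [map_add, H.r_d j c hc]
  have hr := H.r_A j _ h
  rw [map_add] at hr
  cases j with
  | zero =>
    rw [H.hK0 w (h2B 0 hw)]
    have e : w + (w + r 0 w + r 0 (X.d 0 c)) = r 0 w + r 0 (X.d 0 c) := by
      rw [← add_assoc, ← add_assoc, TC.add_self, zero_add]
    rw [e]; exact hr
  | succ j =>
    have h1 := H.hK j w (h2B _ hw)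
    have e : w + (X.d (j + 1) (K (j + 1) w) + r (j + 1) (X.d (j + 1) c)) =
        K j (X.d j w) + (r (j + 1) w + r (j + 1) (X.d (j + 1) c)) := by
      have e1 : X.d (j + 1) (K (j + 1) w) = w + r (j + 1) w + K j (X.d j w) := eq_of_add h1
      rw [e1]
      have e2 : w + (w + r (j + 1) w + K j (X.d j w) + r (j + 1) (X.d (j + 1) c)) =
          (w + w) + (K j (X.d j w) + (r (j + 1) w + r (j + 1) (X.d (j + 1) c))) := by abel
      rw [e2, TC.add_self, zero_add]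
    rw [e]
    exact (A _).add_mem (H.K_A j _ hwZ.2) hr

end RK

/-! ### the splitting -/

/-- all the data at one critical level -/
structure SD (A B S1 S2 Sp1 Sm1 Sp2 Sm2 : GT X) (r : ∀ j, X.C j →ₗ[F2] X.C j)
    (K : ∀ j, X.C j →ₗ[F2] X.C (j + 1)) : Prop where
  stA : St A
  stB : St B
  stS1 : St S1
  stS2 : St S2
  stSp1 : St Sp1
  stSm1 : St Sm1
  stSp2 : St Sp2
  stSm2 : St Sm2
  S1B : S1 ≤ B
  S21 : S2 ≤ S1
  p1 : Sp1 ≤ S1
  m1 : Sm1 ≤ S1
  p2 : Sp2 ≤ S2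
  m2 : Sm2 ≤ S2
  p21 : Sp2 ≤ Sp1
  m21 : Sm2 ≤ Sm1
  strict1 : Strict A Sp1 Sm1
  strict2 : Strict A Sp2 Sm2
  acy1 : Acy (Sp1 ⊔ Sm1) S1
  acy2 : Acy (Sp2 ⊔ Sm2) S2
  rk : RK A B S2 S1 r K

/-- relative cycles carried by `S`, plus boundaries -/
def PP (A B S : GT X) : GT X := fun j => (S j ⊓ Zt A B j) ⊔ Bt A B j

theorem mem_PP {A B S : GT X} {j : ℕ} {x : X.C j} :
    x ∈ PP A B S j ↔ ∃ w, w ∈ S j ∧ w ∈ Zt A B j ∧ x + w ∈ Bt A B j := by
  constructor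
  · intro h
    obtain ⟨w, ⟨hw1, hw2⟩, b, hb, rfl⟩ := Submodule.mem_sup.1 h
    refine ⟨w, hw1, hw2, ?_⟩
    have e : w + b + w = b := by rw [add_comm, ← add_assoc, TC.add_self, zero_add]
    rw [e]; exact hb
  · rintro ⟨w, hw1, hw2, h⟩
    refine Submodule.mem_sup.2 ⟨w, ⟨hw1, hw2⟩, _, h, ?_⟩
    rw [add_comm x, ← add_assoc, TC.add_self, zero_add]

theorem Bt_le_PP (A B S : GT X) (j : ℕ) : Bt A B j ≤ PP A B S j := le_sup_right

namespace SD

variable {A B S1 S2 Sp1 Sm1 Sp2 Sm2 : GT X} {r : ∀ j, X.C j →ₗ[F2] X.C j}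
  {K : ∀ j, X.C j →ₗ[F2] X.C (j + 1)} (D : SD A B S1 S2 Sp1 Sm1 Sp2 Sm2 r K)
include D

theorem AS2 : A ≤ S2 := D.strict2.p.trans D.p2
theorem S2B : S2 ≤ B := D.S21.trans D.S1B
theorem AB : A ≤ B := D.AS2.trans D.S2B

theorem PP_le_Zt (S : GT X) (j : ℕ) : PP A B S j ≤ Zt A B j :=
  sup_le inf_le_right fun _ hx => Bt_le_Zt D.AB D.stA D.stB hx

/-- (2) -/
theorem Zt_le_sup (j : ℕ) {x : X.C j} (hx : x ∈ Zt A B j) :
    ∃ wp wm : X.C j, wp ∈ Sp2 j ∧ wp ∈ Zt A B j ∧ wm ∈ Sm2 j ∧ wm ∈ Zt A B j ∧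
      x + wp + wm ∈ Bt A B j := by
  obtain ⟨h1, h2, h3⟩ := D.rk.lift_pl D.S2B hx
  have hAU : A ≤ Sp2 ⊔ Sm2 := D.strict2.p.trans le_sup_left
  have h4 : r j x ∈ Zt (Sp2 ⊔ Sm2) S2 j := by
    cases j with
    | zero => exact h1
    | succ j => exact ⟨h1, hAU j h2.2⟩
  obtain ⟨y, hy, hy'⟩ := mem_Bt.1 (D.acy2 j _ h4)
  obtain ⟨wp, hwp, wm, hwm, hsum⟩ := Submodule.mem_sup.1 (show r j x + X.d j y ∈ Sp2 j ⊔ Sm2 j from hy')
  have hZ : wp ∈ Zt A B j ∧ wm ∈ Zt A B j := by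
    cases j with
    | zero => exact ⟨D.S2B 0 (D.p2 0 hwp), D.S2B 0 (D.m2 0 hwm)⟩
    | succ j =>
      have h5 : X.d j wp + X.d j wm ∈ A j := by
        rw [← map_add, hsum, map_add, X.dd, add_zero]
        exact h2.2
      exact ⟨⟨D.S2B _ (D.p2 _ hwp), D.strict2.left (D.stSp2.d j _ hwp) (D.stSm2.d j _ hwm) h5⟩,
        ⟨D.S2B _ (D.m2 _ hwm), D.strict2.right (D.stSp2.d j _ hwp) (D.stSm2.d j _ hwm) h5⟩⟩
  refine ⟨wp, wm, hwp, hZ.1, hwm, hZ.2, mem_Bt.2 ⟨K j x + y, ?_, ?_⟩⟩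
  · exact (B _).add_mem (D.rk.K_B j x (Zt_le hx)) (D.S2B _ hy)
  · have e : x + wp + wm + X.d j (K j x + y) = (x + r j x + X.d j (K j x)) +
        ((wp + wm) + (r j x + X.d j y)) := by
      rw [map_add]
      have e1 : (x + r j x + X.d j (K j x)) + ((wp + wm) + (r j x + X.d j y)) =
        x + wp + wm + (X.d j (K j x) + X.d j y) + (r j x + r j x) := by abel
      rw [e1, TC.add_self, add_zero]
    rw [e, hsum, TC.add_self, add_zero]
    exact h3

theorem Zt_le_PP (j : ℕ) : Zt A B j ≤ PP A B Sp2 j ⊔ PP A B Sm2 j := by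
  intro x hx
  obtain ⟨wp, wm, h1, h2, h3, h4, h5⟩ := D.Zt_le_sup j hx
  refine Submodule.mem_sup.2 ⟨wp, Submodule.mem_sup_left ⟨h1, h2⟩, x + wp, mem_PP.2 ⟨wm, h3, h4, h5⟩, ?_⟩
  rw [add_comm x, ← add_assoc, TC.add_self, zero_add]

/-- (3) -/
theorem sum_bd (j : ℕ) {wp wm : X.C j} (hp : wp ∈ Sp2 j) (hpZ : wp ∈ Zt A B j) (hm : wm ∈ Sm2 j)
    (hmZ : wm ∈ Zt A B j) (h : wp + wm ∈ Bt A B j) : wp ∈ Bt A B j ∧ wm ∈ Bt A B j := by
  obtain ⟨c, hc, hc'⟩ := mem_Bt.1 h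
  have hS : wp + wm ∈ S2 j := (S2 j).add_mem (D.p2 j hp) (D.m2 j hm)
  obtain ⟨e, he, he'⟩ := D.rk.inj_pl D.S21 D.S2B hS ((Zt A B j).add_mem hpZ hmZ) hc hc'
  have hAU : A ≤ Sp1 ⊔ Sm1 := D.strict1.p.trans le_sup_left
  have h1 : X.d j e ∈ (Sp1 ⊔ Sm1) j := by
    have e1 : X.d j e = (wp + wm) + (wp + wm + X.d j e) := by rw [← add_assoc, TC.add_self, zero_add]
    rw [e1]
    exact Submodule.add_mem _ (Submodule.add_mem_sup (D.p21 j hp) (D.m21 j hm)) (hAU j he')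
  obtain ⟨y, hy, hy'⟩ := mem_Bt.1 (D.acy1 (j + 1) e ⟨he, h1⟩)
  obtain ⟨ep, hep, em, hem, hsum⟩ := Submodule.mem_sup.1
    (show e + X.d (j + 1) y ∈ Sp1 (j + 1) ⊔ Sm1 (j + 1) from hy')
  have h2 : (wp + X.d j ep) + (wm + X.d j em) ∈ A j := by
    have e1 : X.d j ep + X.d j em = X.d j e := by rw [← map_add, hsum, map_add, X.dd, add_zero]
    have e2 : (wp + X.d j ep) + (wm + X.d j em) = wp + wm + (X.d j ep + X.d j em) := by abel
    rw [e2, e1]; exact he'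
  have h3 := (Sp1 j).add_mem (D.p21 j hp) (D.stSp1.d j _ hep)
  have h4 := (Sm1 j).add_mem (D.m21 j hm) (D.stSm1.d j _ hem)
  exact ⟨mem_Bt.2 ⟨ep, D.S1B _ (D.p1 _ hep), D.strict1.left h3 h4 h2⟩,
    mem_Bt.2 ⟨em, D.S1B _ (D.m1 _ hem), D.strict1.right h3 h4 h2⟩⟩

theorem PP_inf (j : ℕ) : PP A B Sp2 j ⊓ PP A B Sm2 j ≤ Bt A B j := by
  rintro x ⟨hx1, hx2⟩
  obtain ⟨wp, h1, h2, h3⟩ := mem_PP.1 hx1
  obtain ⟨wm, h4, h5, h6⟩ := mem_PP.1 hx2
  have h7 : wp + wm ∈ Bt A B j := by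
    have e : wp + wm = (x + wp) + (x + wm) := by
      have e1 : (x + wp) + (x + wm) = (x + x) + (wp + wm) := by abel
      rw [e1, TC.add_self, zero_add]
    rw [e]; exact Submodule.add_mem _ h3 h6
  have h8 := (D.sum_bd j h1 h2 h4 h5 h7).1
  have e : x = (x + wp) + wp := by rw [add_assoc, TC.add_self, add_zero]
  rw [e]
  exact Submodule.add_mem _ h3 h8

/-- (5) **compatibility with leading terms** -/
theorem lead {A' B' Sp' Sm' : GT X} (psi : ∀ j, X.C j →ₗ[F2] X.C j)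
    (psi_d : ∀ j x, X.d j (psi (j + 1) x) = psi j (X.d j x))
    (psi_De : ∀ j x, X.h j (psi j x) + X.g (j + 1) (X.h j (psi j x)) = 0)
    (psiA : ∀ j x, x ∈ A' j → psi j x ∈ A j) (psiB : ∀ j x, x ∈ B' j → psi j x ∈ B j)
    (psip : ∀ j x, x ∈ Sp' j → psi j x ∈ Sp2 j) (psim : ∀ j x, x ∈ Sm' j → psi j x ∈ Sm2 j)
    {m : ℕ} {v yp ym c : X.P} (hv : ∀ j, v j ∈ B j) (hvA : ∀ j, j < m → v j ∈ A j)
    (hyp : ∀ j, yp j ∈ PP A' B' Sp' j) (hym : ∀ j, ym j ∈ PP A' B' Sm' j) (hc : ∀ j, c j ∈ B j)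
    (h : ∀ j, v j + psi j (yp j + ym j) + X.DT c j ∈ A j) :
    ∃ vp vm cp cm : X.P, (∀ j, vp j ∈ B j) ∧ (∀ j, vm j ∈ B j) ∧ (∀ j, j < m → vp j ∈ A j) ∧
      (∀ j, j < m → vm j ∈ A j) ∧ (∀ j, cp j ∈ B j) ∧ (∀ j, cm j ∈ B j) ∧
      (∀ j, vp j + psi j (yp j) + X.DT cp j ∈ A j) ∧ (∀ j, vm j + psi j (ym j) + X.DT cm j ∈ A j) ∧
      vp m ∈ PP A B Sp2 m ∧ vm m ∈ PP A B Sm2 m ∧ v m + vp m + vm m ∈ Bt A B m := by
  have hAB := D.AB
  have hS2B := D.S2B
  -- choose representatives of `yp`, `ym`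
  have key : ∀ (S' S : GT X) (_ : ∀ j x, x ∈ S' j → psi j x ∈ S j) (y : X.P)
      (_ : ∀ j, y j ∈ PP A' B' S' j), ∃ w z : X.P, (w ∈ PS S ∧ z ∈ PS B ∧ X.DT w ∈ PS A ∧
        zrP psi y + w + X.DT z ∈ PS A) := by
    intro S' S hS y hy
    have h1 : ∀ j, ∃ w, w ∈ S' j ∧ w ∈ Zt A' B' j ∧ ∃ z, z ∈ B' (j + 1) ∧ y j + w + X.d j z ∈ A' j := by
      intro j
      obtain ⟨w, hw1, hw2, hw3⟩ := mem_PP.1 (hy j)
      obtain ⟨z, hz, hz'⟩ := mem_Bt.1 hw3
      exact ⟨w, hw1, hw2, z, hz, hz'⟩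
    choose w hw1 hw2 z hz hz' using h1
    have hDel : ∀ u : X.P, X.DelP (zrP psi u) = 0 := by
      intro u
      funext j
      cases j with
      | zero =>
        change (0 : X.C 0) + X.g 0 0 = 0
        rw [map_zero, add_zero]
      | succ j => exact psi_De j _
    have hDT : ∀ u : X.P, X.DT (zrP psi u) = zrP psi (X.dP u) := by
      intro u
      have e1 : X.DT (zrP psi u) = X.dP (zrP psi u) + X.DelP (zrP psi u) := rfl
      rw [e1, hDel, add_zero]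
      funext j
      exact psi_d j _
    let z' : X.P := fun j => Nat.casesOn (motive := fun j => X.C j) j 0 (fun i => z i)
    have hz'B : ∀ j, z' j ∈ B' j := by
      intro j
      cases j with
      | zero => exact (B' 0).zero_mem
      | succ j => exact hz j
    refine ⟨zrP psi w, zrP psi z', mem_PS.2 fun j => hS j _ (hw1 j), mem_PS.2 fun j => psiB j _ (hz'B j),
      ?_, ?_⟩
    · rw [hDT]
      refine mem_PS.2 fun j => psiA j _ ?_
      exact (hw2 (j + 1)).2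
    · rw [hDT, ← map_add, ← map_add]
      exact mem_PS.2 fun j => psiA j _ (hz' j)
  obtain ⟨wp, zp, hwp, hzp, hDwp, hyp'⟩ := key Sp' Sp2 psip yp hyp
  obtain ⟨wm, zm, hwm, hzm, hDwm, hym'⟩ := key Sm' Sm2 psim ym hym
  have hv' : v ∈ PS (tr A B m) := (mem_tr hAB).2 ⟨hv, hvA⟩
  have hc' : c ∈ PS B := mem_PS.2 hc
  -- `v + wp + wm` bounds
  have h1 : v + (wp + wm) + X.DT (c + zp + zm) ∈ PS A := by
    have h2 : v + zrP psi (yp + ym) + X.DT c ∈ PS A := mem_PS.2 h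
    have e : v + (wp + wm) + X.DT (c + zp + zm) = (v + zrP psi (yp + ym) + X.DT c) +
        (zrP psi yp + wp + X.DT zp) + (zrP psi ym + wm + X.DT zm) := by
      rw [map_add, map_add, map_add]
      have e1 : (v + (zrP psi yp + zrP psi ym) + X.DT c) +
        (zrP psi yp + wp + X.DT zp) + (zrP psi ym + wm + X.DT zm) =
        v + (wp + wm) + (X.DT c + X.DT zp + X.DT zm) + (zrP psi yp + zrP psi yp) +
        (zrP psi ym + zrP psi ym) := by abel
      rw [e1, TC.add_self, TC.add_self, add_zero, add_zero]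
    rw [e]
    exact (PS _).add_mem ((PS _).add_mem h2 hyp') hym'
  have hDv : X.DT v ∈ PS A := by
    have h2 := D.stA.DT h1
    rw [map_add, map_add, map_add, TC.DT_DT, add_zero] at h2
    have e : X.DT v = (X.DT v + (X.DT wp + X.DT wm)) + (X.DT wp + X.DT wm) := by
      rw [add_assoc, TC.add_self, add_zero]
    rw [e]
    exact (PS _).add_mem h2 ((PS _).add_mem hDwp hDwm)
  -- (F1)
  obtain ⟨w, hw, e, he, h3⟩ := D.rk.lift_T D.stA D.stB hAB D.stS2 D.AS2 hv' hDv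
  have hDw : X.DT w ∈ PS A := by
    have h4 := D.stA.DT h3
    rw [map_add, map_add, TC.DT_DT, add_zero] at h4
    have e1 : X.DT w = X.DT v + (X.DT v + X.DT w) := by rw [← add_assoc, TC.add_self, zero_add]
    rw [e1]
    exact (PS _).add_mem hDv h4
  -- split `w`
  obtain ⟨up, hup, um, hum, t, ht, hsum, hDup, hDum⟩ :=
    splitT D.acy2 D.strict2 D.p2 D.m2 D.stA D.stS2 D.stSp2 D.stSm2 hw hDw
  have hupS : up ∈ PS Sp2 := PS_mono (tr_le D.strict2.p m) hup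
  have humS : um ∈ PS Sm2 := PS_mono (tr_le D.strict2.m m) hum
  have heB : e ∈ PS B := PS_mono (tr_le hAB _) he
  have htB : t ∈ PS B := PS_mono hS2B (PS_mono (tr_le D.AS2 _) ht)
  -- the family `(up + wp) + (um + wm)` bounds in `B`
  have h5 : (up + wp) + (um + wm) + X.DT (c + zp + zm + e + t) ∈ PS A := by
    have e1 : (up + wp) + (um + wm) + X.DT (c + zp + zm + e + t) =
        (v + (wp + wm) + X.DT (c + zp + zm)) + (v + w + X.DT e) + (w + up + um + X.DT t) := by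
      rw [map_add X.DT (c + zp + zm + e) t, map_add X.DT (c + zp + zm) e]
      have e2 : (v + (wp + wm) + X.DT (c + zp + zm)) + (v + w + X.DT e) + (w + up + um + X.DT t) =
        (up + wp) + (um + wm) + (X.DT (c + zp + zm) + X.DT e + X.DT t) + (v + v) + (w + w) := by abel
      rw [e2, TC.add_self, TC.add_self, add_zero, add_zero]
    rw [e1, hsum, add_zero]
    exact (PS _).add_mem h1 h3
  have hpS : up + wp ∈ PS Sp2 := (PS _).add_mem hupS hwp
  have hmS : um + wm ∈ PS Sm2 := (PS _).add_mem humS hwm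
  obtain ⟨c3, hc3, h6⟩ := D.rk.inj_T D.stA D.stB hAB D.stS2 D.stS1 D.S21 hS2B
    ((PS _).add_mem (PS_mono D.p2 hpS) (PS_mono D.m2 hmS))
    ((PS _).add_mem ((PS _).add_mem ((PS _).add_mem ((PS _).add_mem hc' hzp) hzm) heB) htB) h5
  obtain ⟨⟨dp, hdp, h7⟩, ⟨dm, hdm, h8⟩⟩ := splitBd D.acy1 D.strict1 D.p1 D.m1 D.stS1 D.stSp1 D.stSm1
    (PS_mono D.p21 hpS) (PS_mono D.m21 hmS) hc3 h6
  have hdpB : dp ∈ PS B := PS_mono D.S1B (PS_mono D.p1 hdp)
  have hdmB : dm ∈ PS B := PS_mono D.S1B (PS_mono D.m1 hdm)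
  have hupB : up ∈ PS B := PS_mono hS2B (PS_mono D.p2 hupS)
  have humB : um ∈ PS B := PS_mono hS2B (PS_mono D.m2 humS)
  have hupA : ∀ j, j < m → up j ∈ A j := ((mem_tr D.strict2.p).1 hup).2
  have humA : ∀ j, j < m → um j ∈ A j := ((mem_tr D.strict2.m).1 hum).2
  have hlead : ∀ (S : GT X) (u : X.P), u ∈ PS S → (∀ j, j < m → u j ∈ A j) → u ∈ PS B →
      X.DT u ∈ PS A → u m ∈ PP A B S m := by
    intro S u hu huA huB hDu
    refine Submodule.mem_sup_left ⟨mem_PS.1 hu m, ?_⟩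
    cases m with
    | zero => exact mem_PS.1 huB 0
    | succ m =>
      refine ⟨mem_PS.1 huB _, ?_⟩
      have h9 := mem_PS.1 hDu m
      cases m with
      | zero => rw [DT_zero] at h9; exact h9
      | succ m =>
        rw [DT_succ] at h9
        have h10 := D.stA.h m _ (huA m (by omega))
        have h11 := (A _).add_mem h9 ((A _).add_mem h10 (D.stA.g _ _ h10))
        rwa [add_assoc, TC.add_self, add_zero] at h11
  refine ⟨up, um, dp + zp, dm + zm, mem_PS.1 hupB, mem_PS.1 humB, hupA, humA,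
    mem_PS.1 ((PS _).add_mem hdpB hzp), mem_PS.1 ((PS _).add_mem hdmB hzm), ?_, ?_,
    hlead Sp2 up hupS hupA hupB hDup, hlead Sm2 um humS humA humB hDum, ?_⟩
  · have h9 : up + zrP psi yp + X.DT (dp + zp) ∈ PS A := by
      have e1 : up + zrP psi yp + X.DT (dp + zp) = (up + wp + X.DT dp) + (zrP psi yp + wp + X.DT zp) := by
        rw [map_add]
        have e2 : (up + wp + X.DT dp) + (zrP psi yp + wp + X.DT zp) =
          up + zrP psi yp + (X.DT dp + X.DT zp) + (wp + wp) := by abel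
        rw [e2, TC.add_self, add_zero]
      rw [e1]
      exact (PS _).add_mem h7 hyp'
    exact mem_PS.1 h9
  · have h9 : um + zrP psi ym + X.DT (dm + zm) ∈ PS A := by
      have e1 : um + zrP psi ym + X.DT (dm + zm) = (um + wm + X.DT dm) + (zrP psi ym + wm + X.DT zm) := by
        rw [map_add]
        have e2 : (um + wm + X.DT dm) + (zrP psi ym + wm + X.DT zm) =
          um + zrP psi ym + (X.DT dm + X.DT zm) + (wm + wm) := by abel
        rw [e2, TC.add_self, add_zero]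
      rw [e1]
      exact (PS _).add_mem h8 hym'
    exact mem_PS.1 h9
  · -- `v m + up m + um m`
    have h9 : v + up + um + X.DT (e + t) ∈ PS A := by
      have e1 : v + up + um + X.DT (e + t) = (v + w + X.DT e) + (w + up + um + X.DT t) := by
        rw [map_add]
        have e2 : (v + w + X.DT e) + (w + up + um + X.DT t) =
          v + up + um + (X.DT e + X.DT t) + (w + w) := by abel
        rw [e2, TC.add_self, add_zero]
      rw [e1, hsum, add_zero]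
      exact h3
    have h10 := mem_PS.1 h9 m
    have het : e + t ∈ PS (tr A B (m + 1)) :=
      (PS _).add_mem he (PS_mono (tr_mono_right hS2B (m + 1)) ht)
    obtain ⟨het1, het2⟩ := (mem_tr hAB).1 het
    refine mem_Bt.2 ⟨(e + t) (m + 1), het1 _, ?_⟩
    cases m with
    | zero =>
      change v 0 + up 0 + um 0 + X.DT (e + t) 0 ∈ A 0 at h10
      rw [DT_zero] at h10
      exact h10
    | succ m =>
      change v (m + 1) + up (m + 1) + um (m + 1) + X.DT (e + t) (m + 1) ∈ A (m + 1) at h10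
      rw [DT_succ] at h10
      have h11 := D.stA.h m _ (het2 m (by omega))
      have h12 := (A _).add_mem h10 ((A _).add_mem h11 (D.stA.g _ _ h11))
      rwa [cancel3] at h12

end SD

end Crest.Agent.R231.SplitAlgx125
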