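import Crest.Agent.R231.If_P_797

/-!
# Row 231, block P (helper394, shadow of Q8, item (5) of 733's plan): the step `K → K + 2`

From 797's `POps`, `WOps`, `Strong`, `XpNe`:
* `js_inj` : `j_*` is injective in the limit;
* `step_of` : a class of degree `K d` of `H(La t)` which never dies gives a class of degree
  `(K + 2) d` of `H(Om (t + C))` whose image in `H(La)` never dies.
-/

set_option autoImplicit false

noncomputable section

namespace Crest.Agent.R231.StepWx394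

open Crest.Agent.R204 Crest.Agent.R231.IfPx797

variable {P : POps}

theorem xp_inc {K : ℕ} {c' T : ℝ} (h : (K : ℝ) * P.c ≤ T) (ha : 0 ≤ T) (hc : T + P.c ≤ c') :
    P.mul (a := T) (b := P.c) (c := c') ha P.hc.le hc (P.inc h (P.xp K)) P.x =
      P.inc (by push_cast; nlinarith [P.hc]) (P.xp (K + 1)) := by
  have hK : 0 ≤ (K : ℝ) * P.c := mul_nonneg (Nat.cast_nonneg K) P.hc.le
  have h1 := P.mul_inc (a := (K : ℝ) * P.c) (b := P.c) (c := c') (a' := T) (b' := P.c) hK P.hc.le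
    h le_rfl hc (P.xp K) P.x
  rw [P.inc_refl] at h1
  rw [h1, P.xp_succ, P.inc_mul]

/-- `x x^K = x^K x` -/
theorem x_comm_xp (K : ℕ) : ∀ (c' : ℝ) (h : P.c + (K : ℝ) * P.c ≤ c')
    (h' : (K : ℝ) * P.c + P.c ≤ c'),
    P.mul P.hc.le (mul_nonneg (Nat.cast_nonneg K) P.hc.le) h P.x (P.xp K) =
      P.mul (mul_nonneg (Nat.cast_nonneg K) P.hc.le) P.hc.le h' (P.xp K) P.x := by
  induction K with
  | zero =>
    intro c' h h'
    rw [P.xp_zero, P.mul_one, P.one_mul]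
  | succ K ih =>
    intro c' h h'
    have hK : 0 ≤ (K : ℝ) * P.c := mul_nonneg (Nat.cast_nonneg K) P.hc.le
    have e : ((K + 1 : ℕ) : ℝ) * P.c = (K : ℝ) * P.c + P.c := by push_cast; ring
    have hc0 := P.hc
    rw [P.xp_succ]
    have a1 := P.mul_assoc (a := P.c) (b := (K : ℝ) * P.c) (c := P.c)
      (e := P.c + (K : ℝ) * P.c) (f := ((K + 1 : ℕ) : ℝ) * P.c) (g := c') P.hc.le hK P.hc.le le_rfl
      (by rw [e]) (by rw [e] at h; linarith) h P.x (P.xp K) P.x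
    rw [← a1, ih (P.c + (K : ℝ) * P.c) le_rfl (by linarith)]
    have b1 := P.mul_inc (a := (K : ℝ) * P.c + P.c) (b := P.c) (c := c')
      (a' := P.c + (K : ℝ) * P.c) (b' := P.c) (by linarith) P.hc.le (by linarith) le_rfl
      (by rw [e] at h; linarith)
      (P.mul hK P.hc.le le_rfl (P.xp K) P.x) P.x
    rw [P.inc_refl, P.inc_mul] at b1
    rw [b1]
    have b2 := P.mul_inc (a := (K : ℝ) * P.c + P.c) (b := P.c) (c := c')
      (a' := ((K + 1 : ℕ) : ℝ) * P.c) (b' := P.c) (by linarith) P.hc.le (by rw [e]) le_rfl h'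
      (P.mul hK P.hc.le le_rfl (P.xp K) P.x) P.x
    rw [P.inc_refl, P.inc_mul] at b2
    exact b2.symm

theorem fin_mul_left {b a c' : ℝ} (ha : 0 ≤ a) (hb : 0 ≤ b) (hc : a + b ≤ c') (v : P.A a)
    {w : P.A b} (hw : P.Fin' w) : P.Fin' (P.mul ha hb hc v w) := by
  obtain ⟨T, hT, h0⟩ := hw
  refine ⟨max c' (a + T), le_max_left _ _, ?_⟩
  have h1 := P.mul_inc (a := a) (b := b) (c := max c' (a + T)) (a' := a) (b' := T) ha hb le_rfl hT
    (le_max_right _ _) v w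
  rw [P.inc_mul, ← h1, h0, LinearMap.map_zero]

theorem fin_mul_right {b a c' : ℝ} (ha : 0 ≤ a) (hb : 0 ≤ b) (hc : a + b ≤ c') {v : P.A a}
    (w : P.A b) (hv : P.Fin' v) : P.Fin' (P.mul ha hb hc v w) := by
  obtain ⟨T, hT, h0⟩ := hv
  refine ⟨max c' (T + b), le_max_left _ _, ?_⟩
  have h1 := P.mul_inc (a := a) (b := b) (c := max c' (T + b)) (a' := T) (b' := b) ha hb hT le_rfl
    (le_max_right _ _) v w
  rw [P.inc_mul, ← h1, h0, LinearMap.map_zero, LinearMap.zero_apply]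

theorem fin_add {t : ℝ} {y z : P.A t} (hy : P.Fin' y) (hz : P.Fin' z) : P.Fin' (y + z) := by
  obtain ⟨T, hT, h0⟩ := hy
  obtain ⟨S, hS, h1⟩ := hz
  refine ⟨max T S, hT.trans (le_max_left _ _), ?_⟩
  rw [map_add, ← P.inc_inc hT (le_max_left T S), ← P.inc_inc hS (le_max_right T S), h0, h1,
    map_zero, map_zero, add_zero]

theorem fin_of_inc {s t : ℝ} (h : s ≤ t) {y : P.A s} (hy : P.Fin' (P.inc h y)) : P.Fin' y := by
  obtain ⟨T, hT, h0⟩ := hy
  exact ⟨T, h.trans hT, by rw [← P.inc_inc h hT, h0]⟩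

/-- a class at level `b` is finite or becomes a power of `x` -/
theorem dich (hS : P.Strong) {t : ℝ} (ht : 0 ≤ t) {j : ℕ} {y : P.A t} (hy : y ∈ P.gr t j) :
    P.Fin' y ∨ ∃ K : ℕ, j = K * P.d ∧ P.IsXp K y := by
  obtain ⟨C, hC, h⟩ := hS
  rcases h t ht j y hy with h1 | h1
  · exact Or.inl ⟨t + C, by linarith, h1 _ _ le_rfl⟩
  · exact Or.inr h1

/-- `x w + w x` is finite -/
theorem comm_fin (hS : P.Strong) {b u : ℝ} (hb : 0 ≤ b) (hu : P.c + b ≤ u) (hu' : b + P.c ≤ u)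
    {i : ℕ} {w : P.A b} (hw : w ∈ P.gr b i) :
    P.Fin' (P.mul P.hc.le hb hu P.x w + P.mul hb P.hc.le hu' w P.x) := by
  rcases dich hS hb hw with h | ⟨K, -, T, hT, hT', e⟩
  · exact fin_add (fin_mul_left P.hc.le hb hu P.x h) (fin_mul_right hb P.hc.le hu' P.x h)
  · have hK : 0 ≤ (K : ℝ) * P.c := mul_nonneg (Nat.cast_nonneg K) P.hc.le
    have hT0 : 0 ≤ T := hK.trans hT'
    set S := max u (P.c + T) with hSdef
    have hS1 : P.c + T ≤ S := le_max_right _ _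
    refine ⟨S, le_max_left _ _, ?_⟩
    have h1 := P.mul_inc (a := P.c) (b := b) (c := S) (a' := P.c) (b' := T) P.hc.le hb le_rfl hT
      hS1 P.x w
    have h2 := P.mul_inc (a := b) (b := P.c) (c := S) (a' := T) (b' := P.c) hb P.hc.le hT le_rfl
      (by linarith) w P.x
    rw [map_add, P.inc_mul, P.inc_mul, ← h1, ← h2, e, P.inc_refl]
    have h3 := P.mul_inc (a := P.c) (b := (K : ℝ) * P.c) (c := S) (a' := P.c) (b' := T) P.hc.le hK
      le_rfl hT' hS1 P.x (P.xp K)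
    have h4 := P.mul_inc (a := (K : ℝ) * P.c) (b := P.c) (c := S) (a' := T) (b' := P.c) hK P.hc.le
      hT' le_rfl (by linarith) (P.xp K) P.x
    rw [P.inc_refl] at h3 h4
    rw [h3, h4, x_comm_xp K S (by linarith) (by linarith), ZModModule.add_self]

/-- **`j_*` is injective in the limit** -/
theorem js_inj (W : WOps P) (hS : P.Strong) {t : ℝ} (ht : 0 ≤ t) {j : ℕ} {y : P.A t}
    (hy : y ∈ P.gr t j) (h : ∃ (T : ℝ) (h : t ≤ T), W.inc h (W.js t y) = 0) : P.Fin' y := by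
  obtain ⟨b, u, hb, hu, htu, i, w, hw, e⟩ := W.w2 ht y hy h
  have h1 := comm_fin hS hb hu (by linarith) hw
  rw [← e] at h1
  exact fin_of_inc htu h1

/-- multiplication by `x` -/
def mx {t : ℝ} (ht : 0 ≤ t) (y : P.A t) : P.A (t + P.c) := P.mul ht P.hc.le le_rfl y P.x

theorem mx_gr {t : ℝ} (ht : 0 ≤ t) {j : ℕ} {y : P.A t} (hy : y ∈ P.gr t j) :
    mx ht y ∈ P.gr _ (j + P.d) := P.mul_gr _ _ _ hy P.x_gr

theorem mx_xp {t : ℝ} (ht : 0 ≤ t) {K : ℕ} {y : P.A t} (hy : P.IsXp K y) :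
    P.IsXp (K + 1) (mx ht y) := by
  obtain ⟨T, hT, hT', e⟩ := hy
  have hK : 0 ≤ (K : ℝ) * P.c := mul_nonneg (Nat.cast_nonneg K) P.hc.le
  have hT0 : 0 ≤ T := hK.trans hT'
  refine ⟨T + P.c, by linarith, by push_cast; nlinarith [P.hc], ?_⟩
  have h1 := P.mul_inc (a := t) (b := P.c) (c := T + P.c) (a' := T) (b' := P.c) ht P.hc.le hT le_rfl
    le_rfl y P.x
  unfold mx
  rw [P.inc_mul, ← h1, e, P.inc_refl]
  exact xp_inc hT' hT0 le_rfl

theorem xp_not_fin (hX : P.XpNe) {t : ℝ} {K : ℕ} {y : P.A t} (hy : P.IsXp K y) :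
    ¬ P.Fin' y := by
  rintro ⟨S, hS, h0⟩
  obtain ⟨T, hT, hT', e⟩ := hy
  refine hX K (max T S) (hT'.trans (le_max_left _ _)) ?_
  rw [← P.inc_inc hT' (le_max_left T S), ← e, P.inc_inc, ← P.inc_inc hS (le_max_right T S), h0,
    map_zero]

theorem isXp_inc {s t : ℝ} (h : s ≤ t) {K : ℕ} {y : P.A s} (hy : P.IsXp K y) :
    P.IsXp K (P.inc h y) := by
  obtain ⟨T, hT, hT', e⟩ := hy
  refine ⟨max T t, le_max_right _ _, hT'.trans (le_max_left _ _), ?_⟩
  rw [P.inc_inc, ← P.inc_inc hT (le_max_left T t), e, P.inc_inc]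

/-- a power of `x` at level `t` gives the next two (or any number of) powers -/
theorem pow_up (m : ℕ) : ∀ {t : ℝ} (_ : 0 ≤ t) {K j : ℕ} {y : P.A t}, y ∈ P.gr t j → P.IsXp K y →
    ∃ z ∈ P.gr (t + m * P.c) (j + m * P.d), P.IsXp (K + m) z := by
  induction m with
  | zero =>
    intro t ht K j y hy hK
    refine ⟨P.inc (by simp) y, ?_, isXp_inc _ hK⟩
    have := P.inc_gr (t := t + ((0 : ℕ) : ℝ) * P.c) (by simp) hy
    simpa using this
  | succ m ih =>
    intro t ht K j y hy hK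
    obtain ⟨z, hz, hz'⟩ := ih (t := t + P.c) (by linarith [P.hc]) (mx_gr ht hy) (mx_xp ht hK)
    have hle : t + P.c + m * P.c ≤ t + ((m + 1 : ℕ) : ℝ) * P.c := by push_cast; nlinarith [P.hc]
    refine ⟨P.inc hle z, ?_, ?_⟩
    · have h1 := P.inc_gr hle hz
      have e : j + P.d + m * P.d = j + (m + 1) * P.d := by ring
      rwa [e] at h1
    · have h2 := isXp_inc hle hz'
      have e : K + 1 + m = K + (m + 1) := by ring
      rwa [e] at h2

/-- **the step** `K → K + 2` -/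
theorem step_of (W : WOps P) (hS : P.Strong) (hX : P.XpNe) : ∃ C : ℝ, 0 ≤ C ∧
    ∀ (t : ℝ) (_ : 0 ≤ t) (K : ℕ) (_ : 1 ≤ K) (z : W.B t), z ∈ W.gr t (K * P.d) →
      (∀ (u : ℝ) (h : t ≤ u), W.inc h z ≠ 0) →
      ∃ y ∈ P.gr (t + C) ((K + 2) * P.d), P.IsXp (K + 2) y ∧
        ∀ (u : ℝ) (h : t + C ≤ u), W.inc h (W.js _ y) ≠ 0 := by
  obtain ⟨C1, hC1, hC1'⟩ := hS
  have hS : P.Strong := ⟨C1, hC1, hC1'⟩
  have hc := P.hc
  have hk := W.hk
  have hd := P.hd
  set C := W.k + C1 + W.k + 4 * P.c with hC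
  -- conclusion from a power of `x`
  have key : ∀ (t s : ℝ) (_ : 0 ≤ s) (j K m : ℕ) (y : P.A s), y ∈ P.gr s j → P.IsXp K y →
      s + m * P.c ≤ t + C → ∃ z ∈ P.gr (t + C) (j + m * P.d), P.IsXp (K + m) z ∧
        ∀ (u : ℝ) (h : t + C ≤ u), W.inc h (W.js _ z) ≠ 0 := by
    intro t s hs j K m y hy hK hle
    obtain ⟨z, hz, hz'⟩ := pow_up m hs hy hK
    have h0 : 0 ≤ t + C := by
      have : 0 ≤ (m : ℝ) * P.c := by positivity
      linarith
    refine ⟨P.inc hle z, P.inc_gr hle hz, isXp_inc hle hz', fun u hu h => ?_⟩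
    exact xp_not_fin hX (isXp_inc hle hz') (js_inj W hS h0 (P.inc_gr hle hz) ⟨u, hu, h⟩)
  refine ⟨C, by positivity, fun t ht K hK z hz hne => ?_⟩
  -- case 1: `j_! z` dies
  have case1 : ∀ u (hu : t + W.k ≤ u), u ≤ t + W.k + C1 → P.inc hu (W.jr t z) = 0 →
      ∃ y ∈ P.gr (t + C) ((K + 2) * P.d), P.IsXp (K + 2) y ∧
        ∀ (u : ℝ) (h : t + C ≤ u), W.inc h (W.js _ y) ≠ 0 := by
    intro u hu hu' h0
    obtain ⟨z', hz', e⟩ := W.w1 ht hu z hz h0
    have hu0 : 0 ≤ u + W.k := by linarith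
    have hnf : ¬ P.Fin' z' := by
      rintro ⟨T, hT, h1⟩
      refine hne T (by linarith) ?_
      have h2 := W.js_inc hT z'
      rw [h1, map_zero, e, W.inc_inc] at h2
      exact h2.symm
    rcases dich hS hu0 hz' with h1 | ⟨K', hK', h1⟩
    · exact absurd h1 hnf
    · have hKK : K' = K := (Nat.eq_of_mul_eq_mul_right (by omega) hK').symm
      subst hKK
      obtain ⟨y, hy, hy', hy''⟩ := key t (u + W.k) hu0 _ K' 2 z' hz' h1
        (by rw [hC]; push_cast; linarith)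
      refine ⟨y, ?_, hy', hy''⟩
      have e2 : K' * P.d + 2 * P.d = (K' + 2) * P.d := by ring
      rwa [e2] at hy
  rcases le_or_gt (P.d + 1) (K * P.d) with hle | hlt
  · obtain ⟨j, hj⟩ := Nat.exists_eq_add_of_le hle
    have hz2 : z ∈ W.gr t (j + P.d + 1) := by
      have : K * P.d = j + P.d + 1 := by omega
      rwa [this] at hz
    have hjr := W.jr_gr ht hz2
    rcases hC1' (t + W.k) (by linarith) j _ hjr with h1 | ⟨K', hK', h1⟩
    · exact case1 (t + W.k + C1) (by linarith) le_rfl (h1 _ _ le_rfl)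
    · -- `d = 1`, `K = K' + 2`
      have hd1 : P.d = 1 := by
        have h3 : K * P.d = K' * P.d + P.d + 1 := by omega
        have h4 : P.d ∣ K' * P.d + P.d + 1 := ⟨K, by rw [← h3, mul_comm]⟩
        have h5 : P.d ∣ K' * P.d + P.d := ⟨K' + 1, by ring⟩
        exact Nat.dvd_one.1 ((Nat.dvd_add_right h5).1 h4)
      have hKK : K = K' + 2 := by
        have h3 : K * P.d = K' * P.d + P.d + 1 := by omega
        rw [hd1] at h3; omega
      obtain ⟨y, hy, hy', hy''⟩ := key t (t + W.k) (by linarith) _ K' 4 _ hjr h1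
        (by rw [hC]; push_cast; linarith)
      refine ⟨y, ?_, ?_, hy''⟩
      · have e2 : j + 4 * P.d = (K + 2) * P.d := by rw [hK', hKK]; ring
        rwa [e2] at hy
      · have e2 : K' + 4 = K + 2 := by omega
        rwa [e2] at hy'
  · have h0 : W.jr t z = 0 := W.jr_low ht hlt hz
    exact case1 (t + W.k) le_rfl (by linarith) (by rw [h0, map_zero])

end Crest.Agent.R231.StepWx394
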