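import Crest.Agent.R231.CylQ_373

/-!
# Row 231, block P, leaf Q4d (helper373): the suspension family

For tethers `b`, `c` at `p`: `vz b c : C(c.V ∩ b.V, OmT p (ℓb + ℓc))`, `v_z = (b z)⁻¹ . (c z)`.
Under `SuspData` (the path `b z` runs in `b.V` up to the time `m`, from then on in `c.V`; the path `c z`
runs in `c.V`): `cut (v_* σ) = s_* σ + s'_* σ`, `s z = (v z, ℓb)`, `s' z = (v z, ℓb - m)`.
-/

set_option autoImplicit false

noncomputable section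

open Function Topology NNReal

namespace Crest.Agent.R231.SuspFamx373

open Set Crest.Agent.R204 Crest.Agent.R204.SpecA Crest.Agent.R231.FinDim315 Crest.Agent.R231.CutWx749
  Crest.Agent.R231.Moorex725 Crest.Agent.R231.CutMx725 Crest.Agent.R231.OmSpx725
  Crest.Agent.R231.CylQx373 Crest.Agent.R231.CutSuspx373

variable {M : Type} [PseudoMetricSpace M] {p : M}

/-! ### slices -/

section slice

variable {S : Type} [TopologicalSpace S] {t : ℝ≥0} {R : Set (Qt p t)}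

/-- the slice `z ↦ (v z, τ)` -/
def slice (v : C(S, OmT p t)) (τ : Icc (0 : ℝ) (t : ℝ)) (h : ∀ z, (v z, τ) ∈ R) : C(S, R) where
  toFun z := ⟨(v z, τ), h z⟩
  continuous_toFun := (v.continuous.prodMk continuous_const).subtype_mk _

@[simp] theorem slice_val (v : C(S, OmT p t)) (τ : Icc (0 : ℝ) (t : ℝ)) (h : ∀ z, (v z, τ) ∈ R)
    (z : S) : (slice v τ h z).1 = (v z, τ) := rfl

/-- affine combination of two times -/
def mix (τ₀ τ₁ : Icc (0 : ℝ) (t : ℝ)) (a : unitInterval) : Icc (0 : ℝ) (t : ℝ) :=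
  ⟨(1 - (a : ℝ)) * τ₀ + a * τ₁, by
    have h0 := a.2.1
    have h1 : 0 ≤ 1 - (a : ℝ) := sub_nonneg.2 a.2.2
    exact add_nonneg (mul_nonneg h1 τ₀.2.1) (mul_nonneg h0 τ₁.2.1), by
    have h0 := a.2.1
    have h1 : 0 ≤ 1 - (a : ℝ) := sub_nonneg.2 a.2.2
    have e1 := mul_le_mul_of_nonneg_left τ₀.2.2 h1
    have e2 := mul_le_mul_of_nonneg_left τ₁.2.2 h0
    nlinarith⟩

theorem continuous_mix (τ₀ τ₁ : Icc (0 : ℝ) (t : ℝ)) : Continuous (mix τ₀ τ₁) := by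
  refine Continuous.subtype_mk ?_ _
  exact ((continuous_const.sub continuous_subtype_val).mul continuous_const).add
    (continuous_subtype_val.mul continuous_const)

theorem mix_zero (τ₀ τ₁ : Icc (0 : ℝ) (t : ℝ)) : mix τ₀ τ₁ 0 = τ₀ := by
  refine Subtype.ext ?_
  change (1 - ((0 : unitInterval) : ℝ)) * (τ₀ : ℝ) + ((0 : unitInterval) : ℝ) * τ₁ = τ₀
  rw [Set.Icc.coe_zero]; ring

theorem mix_one (τ₀ τ₁ : Icc (0 : ℝ) (t : ℝ)) : mix τ₀ τ₁ 1 = τ₁ := by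
  refine Subtype.ext ?_
  change (1 - ((1 : unitInterval) : ℝ)) * (τ₀ : ℝ) + ((1 : unitInterval) : ℝ) * τ₁ = τ₁
  rw [Set.Icc.coe_one]; ring

theorem mix_mem {τ₀ τ₁ : Icc (0 : ℝ) (t : ℝ)} (h : (τ₀ : ℝ) ≤ τ₁) (a : unitInterval) :
    (τ₀ : ℝ) ≤ mix τ₀ τ₁ a ∧ (mix τ₀ τ₁ a : ℝ) ≤ τ₁ := by
  have h0 := a.2.1
  have h1 : 0 ≤ 1 - (a : ℝ) := sub_nonneg.2 a.2.2
  have e : (mix τ₀ τ₁ a : ℝ) = (1 - (a : ℝ)) * τ₀ + a * τ₁ := rfl
  rw [e]
  constructor <;> nlinarith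

/-- slices over an interval of admissible times are homotopic -/
theorem slice_homotopic (v : C(S, OmT p t)) {τ₀ τ₁ : Icc (0 : ℝ) (t : ℝ)} (hle : (τ₀ : ℝ) ≤ τ₁)
    (h : ∀ z, ∀ τ : Icc (0 : ℝ) (t : ℝ), (τ₀ : ℝ) ≤ τ → (τ : ℝ) ≤ τ₁ → (v z, τ) ∈ R) :
    (slice v τ₀ fun z => h z τ₀ le_rfl hle).Homotopic (slice v τ₁ fun z => h z τ₁ hle le_rfl) := by
  refine ⟨{
    toFun := fun x => ⟨(v x.2, mix τ₀ τ₁ x.1), h x.2 _ (mix_mem hle x.1).1 (mix_mem hle x.1).2⟩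
    continuous_toFun := ?_
    map_zero_left := ?_
    map_one_left := ?_ }⟩
  · exact ((v.continuous.comp continuous_snd).prodMk
      ((continuous_mix τ₀ τ₁).comp continuous_fst)).subtype_mk _
  · intro x
    refine Subtype.ext ?_
    change (v x, mix τ₀ τ₁ 0) = (v x, τ₀)
    rw [mix_zero]
  · intro x
    refine Subtype.ext ?_
    change (v x, mix τ₀ τ₁ 1) = (v x, τ₁)
    rw [mix_one]

end slice

/-! ### the family `v_z` -/

section fam

variable (b c : Tether p)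

theorem vz_mem (z : (c.V ∩ b.V : Set M)) :
    cc b.L (rev b.L (b.T z)) (c.T z) ∈ Om p ((ell b + ell c : ℝ≥0) : ℝ) :=
  cc_mem (rev_mem (b.mem _ z.2.2)) (c.mem _ z.2.1) b.L_nonneg c.L_nonneg

theorem continuous_T_sub (b : Tether p) {A : Set M} (hA : A ⊆ b.V) :
    Continuous fun z : A => b.T z :=
  b.cont.comp_continuous continuous_subtype_val fun z => hA z.2

/-- `v_z = (b z)⁻¹ . (c z)` -/
def vz : C((c.V ∩ b.V : Set M), OmT p (ell b + ell c)) where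
  toFun z := ⟨cc b.L (rev b.L (b.T z)) (c.T z), vz_mem b c z⟩
  continuous_toFun := by
    refine Continuous.subtype_mk ?_ _
    refine continuous_cc (c := fun _ => b.L) ?_ (continuous_T_sub c inter_subset_left)
      continuous_const (fun z => (c.mem _ z.2.1).1) fun z => ?_
    · exact continuous_rev (s := fun _ => b.L) (continuous_T_sub b inter_subset_right)
        (fun z => (b.mem _ z.2.2).1) continuous_const
    · rw [rev, sub_self, (b.mem _ z.2.2).2.1 _ le_rfl, (c.mem _ z.2.1).2.1 _ le_rfl]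

@[simp] theorem vz_val (z : (c.V ∩ b.V : Set M)) :
    (vz b c z).1 = cc b.L (rev b.L (b.T z)) (c.T z) := rfl

variable {b c}

theorem vz_le (z : (c.V ∩ b.V : Set M)) {s : ℝ} (h : s ≤ b.L) : (vz b c z).1 s = b.T z (b.L - s) :=
  cc_of_le _ _ h

theorem vz_ge (z : (c.V ∩ b.V : Set M)) {s : ℝ} (h : b.L ≤ s) : (vz b c z).1 s = c.T z (s - b.L) :=
  cc_of_ge (by rw [rev, sub_self, (b.mem _ z.2.2).2.1 _ le_rfl, (c.mem _ z.2.1).2.1 _ le_rfl]) h

end fam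

/-! ### the data -/

/-- What is needed for the cut of the family `v_z`: the path `b z` runs in `b.V` up to the time `m` and in
`c.V` from then on, the path `c z` runs in `c.V`. -/
structure SuspData (b c : Tether p) where
  m : ℝ
  m_nonneg : 0 ≤ m
  m_le : m ≤ b.L
  bV : ∀ z ∈ b.V, ∀ s, s ≤ m → b.T z s ∈ b.V
  bU : ∀ z ∈ b.V, ∀ s, m ≤ s → b.T z s ∈ c.V
  cU : ∀ z ∈ c.V, ∀ s, c.T z s ∈ c.V
  w₀ : M
  bw : ∀ z ∈ b.V, b.T z m = w₀

namespace SuspData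

variable {b c : Tether p} (K : SuspData b c)

/-- the time `ℓb` -/
def tb (b c : Tether p) : Icc (0 : ℝ) ((ell b + ell c : ℝ≥0) : ℝ) :=
  ⟨b.L, b.L_nonneg, by push_cast; rw [coe_ell, coe_ell]; linarith [c.L_nonneg]⟩

/-- the time `ℓb - m` -/
def tm : Icc (0 : ℝ) ((ell b + ell c : ℝ≥0) : ℝ) :=
  ⟨b.L - K.m, by linarith [K.m_le], by
    push_cast; rw [coe_ell, coe_ell]; linarith [c.L_nonneg, K.m_nonneg]⟩

@[simp] theorem tb_val : (tb b c : ℝ) = b.L := rfl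
@[simp] theorem tm_val : (K.tm : ℝ) = b.L - K.m := rfl

include K in
theorem mem_U_high (z : (c.V ∩ b.V : Set M)) (τ : Icc (0 : ℝ) ((ell b + ell c : ℝ≥0) : ℝ))
    (h : b.L ≤ τ) : (vz b c z, τ) ∈ QW c.V p (ell b + ell c) := by
  rw [mem_QW]
  change (vz b c z).1 (τ : ℝ) ∈ c.V
  rw [vz_ge z h]
  exact K.cU _ z.2.1 _

theorem mem_U_low (z : (c.V ∩ b.V : Set M)) (τ : Icc (0 : ℝ) ((ell b + ell c : ℝ≥0) : ℝ))
    (h : (τ : ℝ) ≤ b.L - K.m) : (vz b c z, τ) ∈ QW c.V p (ell b + ell c) := by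
  rw [mem_QW]
  change (vz b c z).1 (τ : ℝ) ∈ c.V
  rw [vz_le z (by linarith [K.m_nonneg])]
  exact K.bU _ z.2.2 _ (by linarith)

theorem mem_V_mid (z : (c.V ∩ b.V : Set M)) (τ : Icc (0 : ℝ) ((ell b + ell c : ℝ≥0) : ℝ))
    (h : b.L - K.m ≤ τ) (h' : (τ : ℝ) ≤ b.L) : (vz b c z, τ) ∈ QW b.V p (ell b + ell c) := by
  rw [mem_QW]
  change (vz b c z).1 (τ : ℝ) ∈ b.V
  rw [vz_le z h']
  exact K.bV _ z.2.2 _ (by linarith)

/-- the slice at the time `ℓb` (the point `z`) -/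
def s1 : C((c.V ∩ b.V : Set M), (QW c.V p (ell b + ell c) ∩ QW b.V p (ell b + ell c) : Set _)) :=
  slice (vz b c) (tb b c) fun z => ⟨K.mem_U_high z _ le_rfl,
    K.mem_V_mid z _ (by rw [tb_val]; linarith [K.m_nonneg]) le_rfl⟩

/-- the slice at the time `ℓb - m` -/
def s0 : C((c.V ∩ b.V : Set M), (QW c.V p (ell b + ell c) ∩ QW b.V p (ell b + ell c) : Set _)) :=
  slice (vz b c) K.tm fun z => ⟨K.mem_U_low z _ le_rfl,
    K.mem_V_mid z _ le_rfl (by rw [tm_val]; linarith [K.m_nonneg])⟩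

/-- **the cut of the suspension family** -/
theorem cut_vz (hp : p ∈ c.V) (hcov : ∀ y, y ∈ c.V ∨ y ∈ b.V) (σ : HS (c.V ∩ b.V : Set M)) :
    (cylQ c.isOpen b.isOpen hp hcov (ell b + ell c)).cut (Hm (vz b c) σ) =
      Hm K.s1 σ + Hm K.s0 σ := by
  refine cut_susp _ (vz b c) K.s1 K.s0 ?_ ?_ ?_ σ
  · have h := slice_homotopic (R := QW c.V p (ell b + ell c)) (vz b c) (τ₀ := tb b c)
      (τ₁ := ⟨((ell b + ell c : ℝ≥0) : ℝ), Icc_right _⟩) (tb b c).2.2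
      fun z τ h1 _ => K.mem_U_high z τ h1
    exact h
  · have h := slice_homotopic (R := QW c.V p (ell b + ell c)) (vz b c)
      (τ₀ := ⟨0, Icc_left _⟩) (τ₁ := K.tm) K.tm.2.1
      fun z τ _ h2 => K.mem_U_low z τ h2
    exact h.symm
  · have h := slice_homotopic (R := QW b.V p (ell b + ell c)) (vz b c) (τ₀ := K.tm)
      (τ₁ := tb b c) (by rw [tm_val, tb_val]; linarith [K.m_nonneg])
      fun z τ h1 h2 => K.mem_V_mid z τ h1 h2
    exact h.symm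

end SuspData

end Crest.Agent.R231.SuspFamx373
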