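import Crest.Agent.R231.TDegD_961
import Crest.Agent.R231.TFill_150
import Crest.Agent.R231.OmPow_871

/-!
# Row 231, block T (helper961): T-DEG for the chains `A_m(x)`, `v_m(x)` of helper150

* `vm_one_ne`  : `v_1(x)` is not a boundary modulo the loops with `γ 0 ≠ q`
* `vm_succ_ne` : if `A_m(x)` is not a boundary then `v_(m+1)(x)` is not a boundary modulo these loops
-/

set_option autoImplicit false

noncomputable section

namespace Crest.Agent.R231.TBasx961

open Crest.Agent.R204 Crest.Agent.R204.EZ271 Crest.Agent.R204.SingAct265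
open Crest.Agent.R204.Freu297 (Sph pt)
open GLugx576 (Lp)
open Concx150 CPowx150 AmChx150 TFillx150 TDegx961 Pairx877
open OmHomx871 (L0)
open unitInterval Set

section

variable {M : Type} [MetricSpace M] {p : M}

/-- add a loop at the beginning -/
def consC (p : M) (m : ℕ) : C(Om p × (Fin m → Om p), Fin (m + 1) → Om p) :=
  ⟨fun x => Fin.cons x.1 x.2, continuous_pi fun i => by
    refine Fin.cases ?_ (fun j => ?_) i
    · exact continuous_fst
    · exact (continuous_apply j).comp continuous_snd⟩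

/-- the concatenation with the first loop separated -/
def cons' (p : M) (m : ℕ) : C(Om p × (Fin m → Om p), Lp M) := (conc (m + 1)).comp (consC p m)

theorem exists_slot {m : ℕ} (hm : 0 < m) {t : ℝ} (ht : t ∈ Icc (0 : ℝ) 1) :
    ∃ i : Fin m, ∃ s : ℝ, 0 ≤ s ∧ s ≤ 1 ∧ t = (i + s) / m := by
  have hm0 : (0 : ℝ) < m := by exact_mod_cast hm
  rcases ht.2.eq_or_lt with h1 | h1
  · refine ⟨⟨m - 1, by omega⟩, 1, zero_le_one, le_rfl, ?_⟩
    rw [h1]
    show (1 : ℝ) = (((m - 1 : ℕ) : ℝ) + 1) / m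
    have : ((m - 1 : ℕ) : ℝ) + 1 = m := by
      have h2 : (m - 1) + 1 = m := by omega
      exact_mod_cast h2
    rw [this, div_self hm0.ne']
  · have h0 : 0 ≤ m * t := mul_nonneg hm0.le ht.1
    refine ⟨⟨⌊m * t⌋₊, ?_⟩, m * t - ⌊m * t⌋₊, ?_, ?_, ?_⟩
    · rw [Nat.floor_lt h0]
      nlinarith
    · linarith [Nat.floor_le h0]
    · linarith [Nat.lt_floor_add_one (m * t)]
    · show t = (((⌊m * t⌋₊ : ℕ) : ℝ) + (m * t - (⌊m * t⌋₊ : ℕ))) / m
      rw [add_sub_cancel, mul_div_cancel_left₀ _ hm0.ne']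

theorem consFam_succ (p : M) (m : ℕ) [NeZero m] :
    ConsFam (p := p) (1 / ((m + 1 : ℕ) : ℝ)) (cons' p m) (conc m) where
  pos := by positivity
  le := by
    rw [div_le_one (by positivity)]
    push_cast
    linarith [Nat.cast_nonneg (α := ℝ) m]
  left ω w t ht := by
    have h := conc_first (m + 1) (Fin.cons ω w : Fin (m + 1) → Om p) ht.1 ht.2
    have e : (1 / ((m + 1 : ℕ) : ℝ)) * t = t / ((m + 1 : ℕ) : ℝ) := by ring
    rw [e]
    exact h
  right ω w t ht := by
    obtain ⟨i, s, h0, h1, rfl⟩ := exists_slot (NeZero.pos m) ht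
    have h2 := conc_slot m w i h0 h1
    have h3 := conc_slot (m + 1) (Fin.cons ω w : Fin (m + 1) → Om p) i.succ h0 h1
    have hm : (m : ℝ) ≠ 0 := by exact_mod_cast NeZero.ne m
    have e : 1 / ((m + 1 : ℕ) : ℝ) + (1 - 1 / ((m + 1 : ℕ) : ℝ)) * ((i + s) / m) =
        (((i.succ : Fin (m + 1)) : ℕ) + s) / ((m + 1 : ℕ) : ℝ) := by
      rw [Fin.val_succ]
      push_cast
      field_simp
      ring
    rw [e]
    exact h3.trans h2.symm

theorem consFam_zero (p : M) :
    ConsFam (p := p) 1 (cons' p 0) (ContinuousMap.const (Fin 0 → Om p) (ContinuousMap.const _ p)) where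
  pos := one_pos
  le := le_rfl
  left ω w t ht := by
    have h := conc_first (0 + 1) (Fin.cons ω w : Fin (0 + 1) → Om p) ht.1 ht.2
    have e : (1 : ℝ) * t = t / ((0 + 1 : ℕ) : ℝ) := by push_cast; ring
    rw [e]
    exact h
  right ω w t ht := by
    have e : (1 : ℝ) + (1 - 1) * t = 1 := by ring
    rw [e, GLugx576.coe_one_circle]
    exact conc_zero (0 + 1) _

/-- the chain `x^m` on the space `(Fin m → Om p)` -/
def zet (x : CO p) (m : ℕ) : N F2 (SS.Sing (Fin m → Om p)) :=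
  N.map F2 (piH (Om p) m) (cpow x m)

theorem bd_zet {x : CO p} (hx : N.bd F2 _ x = 0) (m : ℕ) : N.bd F2 _ (zet x m) = 0 := by
  unfold zet
  rw [← map_bd', bd_cpow hx, map_zero]

theorem Am_eq_zet (x : CO p) (m : ℕ) [NeZero m] : N.map F2 (SS.SingMap (conc m)) (zet x m) = Am m x := by
  unfold zet Am
  rw [map_map]
  rfl

theorem Am_succ_eq (x : CO p) (m : ℕ) :
    N.map F2 ((SS.SingMap (cons' p m)).comp (singPair (Om p) (Fin m → Om p)))
      (cross F2 x (zet x m)) = Am (m + 1) x := by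
  unfold zet Am
  rw [cpow_cons, cross_map_right, map_map, map_map]
  congr 2
  refine SS.Hom.ext (funext fun n => funext fun y => sing_ext fun t => ?_)
  show conc (m + 1) (Fin.cons (ev y.1 t) (fun i => ev (y.2 i) t)) =
    conc (m + 1) (fun i => ev ((Fin.cons y.1 y.2 : Fin (m + 1) → (SS.Sing (Om p)).S n) i) t)
  congr 1
  funext i
  refine Fin.cases rfl (fun j => rfl) i

theorem seg_eq_pth (a : ℝ) : seg 0 a = pth a := by
  refine sing_ext fun u => ?_
  show (((0 * (u : Fin 2 → ℝ) 0 + a * (u : Fin 2 → ℝ) 1 : ℝ)) : UnitAddCircle) =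
    ((a * (u : Fin 2 → ℝ) 1 : ℝ) : UnitAddCircle)
  rw [zero_mul, zero_add]

theorem vm_eq (x : CO p) (m : ℕ) :
    vm (m + 1) x = (TActx569.LA M).op (N.sx F2 (pth (1 / ((m + 1 : ℕ) : ℝ))))
      (N.map F2 ((SS.SingMap (cons' p m)).comp (singPair (Om p) (Fin m → Om p)))
      (cross F2 x (zet x m))) := by
  rw [Am_succ_eq]
  unfold vm vv Sg
  rw [seg_eq_pth]

variable {k : ℕ} (hk : 1 ≤ k) (φ : M ≃ₜ Sph (k + 1)) (q : M) {x : CO p}
  (hx : x ∈ N.gr F2 (SS.Sing (Om p)) k) (hb : N.bd F2 _ x = 0)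
  (hne : x ∉ LinearMap.range (N.bd F2 (SS.Sing (Om p))))

include hk φ hx hb hne

/-- **T-DEG for `v_(m+1)`** -/
theorem vm_succ_ne (m : ℕ) [NeZero m]
    (hA : Am m x ∉ LinearMap.range (N.bd F2 (SS.Sing (Lp M)))) :
    vm (m + 1) x ∉ RelBd (SS.SingMap (inc (Uq q))) := by
  rw [vm_eq]
  refine tdegOp hk φ q (consFam_succ p m) hx hb hne (bd_zet hb m) ?_
  rw [Am_eq_zet]
  exact hA

theorem vm_one_ne : vm 1 x ∉ RelBd (SS.SingMap (inc (Uq q))) := by
  have h := tdegOp (W := Fin 0 → Om p) hk φ q (consFam_zero p) hx hb hne (bd_zet hb 0) (by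
    unfold zet
    rw [cpow_zero, N.map_sx, N.map_sx]
    exact OmPowx871.vertex_not_bd _)
  have e := vm_eq x 0
  have e2 : (1 / ((0 + 1 : ℕ) : ℝ)) = 1 := by norm_num
  rw [e2] at e
  have e3 : vm 1 x = (TActx569.LA M).op (N.sx F2 (pth 1))
      (N.map F2 ((SS.SingMap (cons' p 0)).comp (singPair (Om p) (Fin 0 → Om p)))
        (cross F2 x (zet x 0))) := e
  rw [e3]
  exact h

end

end Crest.Agent.R231.TBasx961
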