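import Crest.Agent.R231.TBasA_961

/-!
# Row 231, block T (helper961): the basis theorem, abstract form

`A → U → L` simplicial sets (based loops, loops with `γ 0 ≠ q`, all loops).
-/

set_option autoImplicit false

noncomputable section

namespace Crest.Agent.R231.TBasx961

open Crest.Agent.R204 Crest.Agent.R204.EZ271
open Crest.Agent.R204.Gr334 (prN)
open TDegx961

/-- relative boundaries in one degree -/
theorem bd_prN_eq {K : SS} {n : ℕ} {b : N F2 K} (h : N.bd F2 K b ∈ N.gr F2 K n) :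
    N.bd F2 K (prN F2 K (n + 1) b) = N.bd F2 K b := by
  rw [← Gr334.prN_bd, Gr334.prN_of_mem h]

theorem range_le_relBd {A K : SS} (i : SS.Hom A K) : LinearMap.range (N.bd F2 K) ≤ RelBd i :=
  le_sup_left

theorem add_self2 {K : SS} (x : N F2 K) : x + x = 0 := TCx569.TC.add_self x

theorem inj_of_H {K L : SS} {f : SS.Hom K L} (h : Function.Injective (H.map F2 f)) {y : N F2 K}
    (hy : N.bd F2 K y = 0) (h1 : N.map F2 f y ∈ LinearMap.range (N.bd F2 L)) :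
    y ∈ LinearMap.range (N.bd F2 K) := by
  have h2 : Hd.mk _ y hy = 0 := by
    refine h ?_
    rw [map_zero]
    unfold H.map
    rw [Hd.map_mk, Hd.mk_eq_zero]
    exact h1
  rwa [Hd.mk_eq_zero] at h2

theorem surj_of_H {K L : SS} {f : SS.Hom K L} (h : Function.Surjective (H.map F2 f)) {j : ℕ}
    {u : N F2 L} (hu : u ∈ N.gr F2 L j) (hb : N.bd F2 L u = 0) :
    ∃ y ∈ N.gr F2 K j, N.bd F2 K y = 0 ∧ u + N.map F2 f y ∈ LinearMap.range (N.bd F2 L) := by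
  obtain ⟨Y, hY⟩ := h (Hd.mk _ u hb)
  obtain ⟨y, hy, rfl⟩ := Hd.mk_surj _ Y
  unfold H.map at hY
  rw [Hd.map_mk, OmPowx871.mk_eq_iff] at hY
  have hy' : N.bd F2 _ (prN F2 K j y) = 0 := by
    rcases j with _ | j
    · exact Gr334.bd_gr_zero (Gr334.prN_mem _ _)
    · rw [← Gr334.prN_bd, hy, map_zero]
  refine ⟨prN F2 _ j y, Gr334.prN_mem _ _, hy', ?_⟩
  obtain ⟨w, hw⟩ := hY
  refine ⟨prN F2 _ (j + 1) w, ?_⟩
  rw [← Gr334.prN_bd, hw, map_add, Gr334.prN_of_mem hu, Gr334.prN_map, add_comm]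

/-- the data of the basis theorem -/
structure BTd (k : ℕ) (A U L : SS) where
  jA : SS.Hom A U
  i : SS.Hom U L
  hi : HA683.SInj i
  W1 : Function.Bijective (H.map F2 jA)
  a : ℕ → N F2 A
  a_gr : ∀ m, a m ∈ N.gr F2 A (m * k)
  a_cyc : ∀ m, N.bd F2 A (a m) = 0
  a_ne : ∀ m, a m ∉ LinearMap.range (N.bd F2 A)
  a_span : ∀ j, ∀ y ∈ N.gr F2 A j, N.bd F2 A y = 0 → y ∈ LinearMap.range (N.bd F2 A) ∨
    ∃ m, m * k = j ∧ y + a m ∈ LinearMap.range (N.bd F2 A)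
  v : ℕ → N F2 L
  v_gr : ∀ m, 1 ≤ m → v m ∈ N.gr F2 L (m * k + 1)
  v_cyc : ∀ m, 1 ≤ m → N.bd F2 L (v m) = 0
  v_one : v 1 ∉ RelBd i
  v_succ : ∀ m, 1 ≤ m → N.map F2 i (N.map F2 jA (a m)) ∉ LinearMap.range (N.bd F2 L) →
    v (m + 1) ∉ RelBd i
  HZ : ∀ (j : ℕ), ∀ c ∈ N.gr F2 L j, N.bd F2 L c ∈ LinearMap.range (N.map F2 i) → c ∉ RelBd i →
    ∃ m : ℕ, 1 ≤ m ∧ j = m * k + 1
  HU : ∀ (j : ℕ), ∀ c ∈ N.gr F2 L j, N.bd F2 L c ∈ LinearMap.range (N.map F2 i) → c ∉ RelBd i →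
    ∀ c' ∈ N.gr F2 L j, N.bd F2 L c' ∈ LinearMap.range (N.map F2 i) → c' ∉ RelBd i →
      c + c' ∈ RelBd i

namespace BTd

variable {k : ℕ} {A U L : SS} (D : BTd k A U L)

/-- the classes in `L` -/
def b (m : ℕ) : N F2 L := N.map F2 D.i (N.map F2 D.jA (D.a m))

/-- a non-trivial based cycle does not bound in `U` -/
theorem ne_map {y : N F2 A} (hy : N.bd F2 _ y = 0) (hy0 : y ∉ LinearMap.range (N.bd F2 _))
    (u : N F2 U) : N.map F2 D.i (N.map F2 D.jA y) ≠ N.map F2 D.i (N.bd F2 _ u) := by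
  intro h
  have h1 := HA683.N_map_injective F2 D.hi h
  exact hy0 (inj_of_H D.W1.1 hy ⟨u, h1.symm⟩)

/-- the induction step, first half -/
theorem b_ne_of {m : ℕ} (hm : 1 ≤ m) (hv : D.v m ∉ RelBd D.i) :
    D.b m ∉ LinearMap.range (N.bd F2 L) := by
  rintro ⟨c, hc1⟩
  have h2 : N.bd F2 _ (prN F2 _ (m * k + 1) c) = D.b m := by
    rw [bd_prN_eq (n := m * k) (by rw [hc1]; exact Exc406.map_mem_gr _ (Exc406.map_mem_gr _ (D.a_gr m))),
      hc1]
  have key : ∀ c ∈ RelBd D.i, N.bd F2 _ c ≠ D.b m := by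
    intro c hc h
    obtain ⟨w, u, rfl⟩ := mem_RelBd.1 hc
    rw [map_add, N.bd_bd, zero_add, ← map_bd'] at h
    exact D.ne_map (D.a_cyc m) (D.a_ne m) u h.symm
  by_cases hc : prN F2 _ (m * k + 1) c ∈ RelBd D.i
  · exact key _ hc h2
  · have h3 := D.HU (m * k + 1) _ (Gr334.prN_mem (m * k + 1) c) (by rw [h2]; exact ⟨_, rfl⟩) hc
      (D.v m) (D.v_gr m hm) (by rw [D.v_cyc m hm]; exact Submodule.zero_mem _) hv
    refine key _ h3 ?_
    rw [map_add, D.v_cyc m hm, add_zero, h2]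

theorem v_ne' : ∀ m : ℕ, D.v (m + 1) ∉ RelBd D.i := by
  intro m
  induction m with
  | zero => exact D.v_one
  | succ m ih => exact D.v_succ (m + 1) (by omega) (D.b_ne_of (by omega) ih)

theorem v_ne {m : ℕ} (hm : 1 ≤ m) : D.v m ∉ RelBd D.i := by
  obtain ⟨l, rfl⟩ : ∃ l, m = l + 1 := ⟨m - 1, by omega⟩
  exact D.v_ne' l

/-- **(BT), part 1** -/
theorem b_ne {m : ℕ} (hm : 1 ≤ m) : D.b m ∉ LinearMap.range (N.bd F2 L) :=
  D.b_ne_of hm (D.v_ne hm)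

theorem v_ne_bd {m : ℕ} (hm : 1 ≤ m) : D.v m ∉ LinearMap.range (N.bd F2 L) := fun h =>
  D.v_ne hm (range_le_relBd _ h)

/-- generators in degree `j` -/
def Gen (j : ℕ) : Set (N F2 L) :=
  {c | (∃ m, m * k = j ∧ c = D.b m) ∨ ∃ m, 1 ≤ m ∧ m * k + 1 = j ∧ c = D.v m}

/-- **(BT), part 2, relative boundaries** -/
theorem span_rel {j : ℕ} {c : N F2 L} (hc : c ∈ N.gr F2 _ j) (hcb : N.bd F2 _ c = 0)
    (hr : c ∈ RelBd D.i) : ∃ g ∈ Submodule.span F2 (D.Gen j),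
      c + g ∈ LinearMap.range (N.bd F2 L) := by
  obtain ⟨w, u, rfl⟩ := mem_RelBd.1 hr
  have h1 : N.bd F2 _ w + N.map F2 D.i u = N.bd F2 _ (prN F2 _ (j + 1) w) +
      N.map F2 D.i (prN F2 _ j u) := by
    have h2 := Gr334.prN_of_mem hc
    rw [map_add, Gr334.prN_bd, Gr334.prN_map] at h2
    exact h2.symm
  have h3 : N.bd F2 _ (prN F2 _ j u) = 0 := by
    refine HA683.N_map_injective F2 D.hi ?_
    rw [map_zero, map_bd']
    rw [h1, map_add, N.bd_bd, zero_add] at hcb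
    exact hcb
  obtain ⟨y, hy, hyb, w', hw'⟩ := surj_of_H D.W1.2 (Gr334.prN_mem j u) h3
  have h4 : N.bd F2 _ w + N.map F2 D.i u + N.map F2 D.i (N.map F2 D.jA y) ∈
      LinearMap.range (N.bd F2 L) := by
    refine ⟨prN F2 _ (j + 1) w + N.map F2 D.i w', ?_⟩
    rw [h1, map_add, ← map_bd', hw', map_add, add_assoc]
  have hmap : ∀ y' : N F2 A, y' ∈ LinearMap.range (N.bd F2 A) →
      N.map F2 D.i (N.map F2 D.jA y') ∈ LinearMap.range (N.bd F2 L) := by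
    rintro _ ⟨b, rfl⟩
    exact ⟨N.map F2 D.i (N.map F2 D.jA b), by rw [map_bd', map_bd']⟩
  have fin : ∀ y0 : N F2 A, y + y0 ∈ LinearMap.range (N.bd F2 A) →
      N.bd F2 _ w + N.map F2 D.i u + N.map F2 D.i (N.map F2 D.jA y0) ∈
      LinearMap.range (N.bd F2 L) := by
    intro y0 h0
    have h5 := Submodule.add_mem _ h4 (hmap _ h0)
    have e : N.bd F2 _ w + N.map F2 D.i u + N.map F2 D.i (N.map F2 D.jA y) +
        N.map F2 D.i (N.map F2 D.jA (y + y0)) =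
        N.bd F2 _ w + N.map F2 D.i u + N.map F2 D.i (N.map F2 D.jA y0) +
        (N.map F2 D.i (N.map F2 D.jA y) + N.map F2 D.i (N.map F2 D.jA y)) := by
      rw [map_add, map_add]; abel
    rwa [e, add_self2, add_zero] at h5
  rcases D.a_span j y hy hyb with h | ⟨m, hm, h⟩
  · refine ⟨0, Submodule.zero_mem _, ?_⟩
    have := fin 0 (by rwa [add_zero])
    rwa [map_zero, map_zero] at this
  · exact ⟨D.b m, Submodule.subset_span (Or.inl ⟨m, hm, rfl⟩), fin _ h⟩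

/-- **(BT), part 2** -/
theorem span_all {j : ℕ} {c : N F2 L} (hc : c ∈ N.gr F2 _ j) (hcb : N.bd F2 _ c = 0) :
    ∃ g ∈ Submodule.span F2 (D.Gen j), c + g ∈ LinearMap.range (N.bd F2 L) := by
  by_cases hr : c ∈ RelBd D.i
  · exact D.span_rel hc hcb hr
  · obtain ⟨m, hm, rfl⟩ := D.HZ j c hc (by rw [hcb]; exact Submodule.zero_mem _) hr
    have h1 := D.HU _ c hc (by rw [hcb]; exact Submodule.zero_mem _) hr _ (D.v_gr m hm)
      (by rw [D.v_cyc m hm]; exact Submodule.zero_mem _) (D.v_ne hm)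
    obtain ⟨g, hg, h2⟩ := D.span_rel (Submodule.add_mem _ hc (D.v_gr m hm))
      (by rw [map_add, hcb, D.v_cyc m hm, add_zero]) h1
    refine ⟨D.v m + g, Submodule.add_mem _ (Submodule.subset_span (Or.inr ⟨m, hm, rfl, rfl⟩)) hg, ?_⟩
    rwa [← add_assoc]

end BTd

end Crest.Agent.R231.TBasx961
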