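import Crest.Agent.R231.WU_566
import Crest.Agent.R231.WgS_667
import Crest.Agent.R204.OmS_94

/-!
# Row 231, block T (helper566): (W2), final form

`S = Sph (k+1)`, `k ≥ 1`, `p = -q`; `H_j(Lp S, UU q)` is `0` unless `j = m k + 1`, `m ≥ 1`, and has at most
one nonzero class.
-/

set_option autoImplicit false

noncomputable section

open Set Filter Topology Function
open Crest.Agent.R204 Crest.Agent.R204.SingAct265
open Crest.Agent.R231.Pairx877 Crest.Agent.R231.WgKx667 Crest.Agent.R231.OmHomx871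
open Crest.Agent.R231.GLugx576 (Lp)
open Crest.Agent.R204.OmS94 (OS)

namespace Crest.Agent.R231.WUx566

variable {k : ℕ}

/-! ### based loops -/

/-- based loops of the sphere, any base point, and the loop space of the archive -/
theorem exists_homeo (q : Sp (k + 1)) : Nonempty (L0 q ≃ₜ OS k) := by
  obtain ⟨φ, hφ⟩ := exists_sphere_homeo (n := k + 1) q (Freu297.pt (k + 1))
  exact ⟨(omHomeo q).trans (mapHomeo φ hφ)⟩

theorem pathConn_OS (hk : 1 ≤ k) : PathConnectedSpace (OS k) :=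
  Geo979.pathConn (OmS94.joined1 hk)

/-- elementwise form of `omS` -/
theorem exists_pows (hk : 1 ≤ k) : ∃ c : ℕ → H F2 (SS.Sing (OS k)),
    ∀ t, 1 ≤ t → ∀ y ∈ H.gr F2 (SS.Sing (OS k)) t, y = 0 ∨ ∃ j, j * k = t ∧ y = c j := by
  refine Exists.elim (OmS94.exists_gen k) fun x hx => ?_
  have hx1 : x ≠ 0 := fun h => hx.2 (by rw [h]; exact LinearMap.map_zero _)
  exact ⟨_, (OmS94.omS hk hx.1 hx1).1⟩


theorem exists_zero {Y : Type} [TopologicalSpace Y] [PathConnectedSpace Y] (y : Y) :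
    ∃ c : H F2 (SS.Sing Y), ∀ a ∈ H.gr F2 (SS.Sing Y) 0, a = 0 ∨ a = c := by
  refine ⟨Coalg847.vtx (K := SS.Sing Y) (HZ76.vtx y), fun a ha => ?_⟩
  obtain ⟨r, hr⟩ := OmS94.gr_zero y a ha
  have h2 : ∀ r : F2, r = 0 ∨ r = 1 := by decide
  rcases h2 r with h | h
  · left; rw [hr, h, zero_smul]
  · right; rw [hr, h, one_smul]

/-- at most one class in each degree -/
def AtMost {Y : Type} [TopologicalSpace Y] (k : ℕ) : Prop :=
  ∀ j, ((∀ m, j ≠ m * k) → ∀ a ∈ H.gr F2 (SS.Sing Y) j, a = 0) ∧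
    (∀ a ∈ H.gr F2 (SS.Sing Y) j, ∀ b ∈ H.gr F2 (SS.Sing Y) j, a ≠ 0 → b ≠ 0 → a = b)

theorem atMost_of {Y : Type} [TopologicalSpace Y] (hk : 1 ≤ k) (c : ℕ → H F2 (SS.Sing Y))
    (hc : ∀ t, 1 ≤ t → ∀ y ∈ H.gr F2 (SS.Sing Y) t, y = 0 ∨ ∃ j, j * k = t ∧ y = c j)
    (c0 : H F2 (SS.Sing Y)) (hc0 : ∀ a ∈ H.gr F2 (SS.Sing Y) 0, a = 0 ∨ a = c0) :
    AtMost (Y := Y) k := by
  intro j
  rcases Nat.eq_zero_or_pos j with h | hj
  · subst h
    refine ⟨fun h => absurd (Nat.zero_mul k).symm (h 0), ?_⟩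
    intro a ha b hb ha0 hb0
    rcases hc0 a ha with h | h
    · exact absurd h ha0
    · rcases hc0 b hb with h' | h'
      · exact absurd h' hb0
      · rw [h, h']
  · constructor
    · intro h a ha
      rcases hc j hj a ha with h' | ⟨m, hm, -⟩
      · exact h'
      · exact absurd hm.symm (h m)
    · intro a ha b hb ha0 hb0
      rcases hc j hj a ha with h' | ⟨m, hm, e⟩
      · exact absurd h' ha0
      rcases hc j hj b hb with h' | ⟨m', hm', e'⟩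
      · exact absurd h' hb0
      have : m = m' := Nat.eq_of_mul_eq_mul_right (by omega) (hm.trans hm'.symm)
      rw [e, e', this]

theorem AtMost.homeo {Y Z : Type} [TopologicalSpace Y] [TopologicalSpace Z] (h : AtMost (Y := Z) k)
    (e : Y ≃ₜ Z) : AtMost (Y := Y) k := by
  intro j
  have hb := FinDim315.Hm_bijective_of_homeo e
  have hg : ∀ a ∈ H.gr F2 (SS.Sing Y) j, H.map F2 (SS.SingMap (e : C(Y, Z))) a ∈
      H.gr F2 (SS.Sing Z) j := fun a ha => Exc406.H_map_mem_gr _ ha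
  have h0 : ∀ a, H.map F2 (SS.SingMap (e : C(Y, Z))) a = 0 → a = 0 := fun a ha =>
    (injective_iff_map_eq_zero _).1 hb.1 a ha
  constructor
  · intro h' a ha
    exact h0 a ((h j).1 h' _ (hg a ha))
  · intro a ha b hb' ha0 hb0
    exact hb.1 ((h j).2 _ (hg a ha) _ (hg b hb') (fun h => ha0 (h0 a h))
      fun h => hb0 (h0 b h))

theorem OS_classes (hk : 1 ≤ k) : AtMost (Y := OS k) k := by
  have : PathConnectedSpace (OS k) := pathConn_OS hk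
  have y : OS k := Classical.choice inferInstance
  refine Exists.elim (exists_pows hk) fun c hc => ?_
  refine Exists.elim (exists_zero y) fun c0 hc0 => ?_
  exact atMost_of hk c hc c0 hc0

/-- **based loops of the sphere: at most one class in each degree, none outside the multiples of `k`** -/
theorem L0_classes (hk : 1 ≤ k) (q : Sp (k + 1)) : AtMost (Y := L0 q) k :=
  (OS_classes hk).homeo (Classical.choice (exists_homeo q))

/-! ### cycles supported in `L0 q` -/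

theorem neg_eq_F2 {V : Type*} [AddCommGroup V] [Module F2 V] (x : V) : -x = x := by
  have h : (-1 : F2) = 1 := by decide
  rw [← neg_one_smul F2 x, h, one_smul]

theorem sub_eq_add_F2 {V : Type*} [AddCommGroup V] [Module F2 V] (x y : V) : x - y = x + y := by
  rw [sub_eq_add_neg, neg_eq_F2]

section cyc

variable {E : Type} [TopologicalSpace E] {O : Set E}

/-- a homogeneous cycle in `CS O` as a homogeneous cycle of the subspace -/
theorem exists_sub_cycle {j : ℕ} {y : CE E} (hy : y ∈ CS O) (hg : y ∈ N.gr F2 (SS.Sing E) j)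
    (hc : bdE E y = 0) : ∃ c ∈ N.gr F2 (SS.Sing O) j, N.bd F2 _ c = 0 ∧
      N.map F2 (SS.SingMap (SpecA.inc O)) c = y := by
  refine ⟨res O y, res_gr hg, ?_, map_inc_res y hy⟩
  have := bd_res y hy
  rw [hc, map_zero] at this
  exact this

theorem cycle_bdry {j : ℕ} (h : ∀ a ∈ H.gr F2 (SS.Sing O) j, a = 0) {y : CE E} (hy : y ∈ CS O)
    (hg : y ∈ N.gr F2 (SS.Sing E) j) (hc : bdE E y = 0) : ∃ v ∈ CS O, bdE E v = y := by
  obtain ⟨c, hc1, hc2, rfl⟩ := exists_sub_cycle hy hg hc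
  have := h _ (Gr334.mk_mem_gr hc1 hc2)
  rw [Hd.mk_eq_zero] at this
  obtain ⟨v, rfl⟩ := this
  refine ⟨N.map F2 (SS.SingMap (SpecA.inc O)) v, by rw [CS_eq_range]; exact ⟨v, rfl⟩, ?_⟩
  exact map_bd_inc O v

theorem cycle_unique {j : ℕ} (h : ∀ a ∈ H.gr F2 (SS.Sing O) j, ∀ b ∈ H.gr F2 (SS.Sing O) j,
    a ≠ 0 → b ≠ 0 → a = b) {y y' : CE E} (hy : y ∈ CS O) (hg : y ∈ N.gr F2 (SS.Sing E) j)
    (hc : bdE E y = 0) (hy' : y' ∈ CS O) (hg' : y' ∈ N.gr F2 (SS.Sing E) j)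
    (hc' : bdE E y' = 0) : (∃ v ∈ CS O, bdE E v = y) ∨ (∃ v ∈ CS O, bdE E v = y') ∨
      ∃ v ∈ CS O, bdE E v = y + y' := by
  obtain ⟨c, hc1, hc2, rfl⟩ := exists_sub_cycle hy hg hc
  obtain ⟨c', hc1', hc2', rfl⟩ := exists_sub_cycle hy' hg' hc'
  have key : ∀ (b : N F2 (SS.Sing O)), (∃ w, N.bd F2 _ w = b) →
      ∃ v ∈ CS O, bdE E v = N.map F2 (SS.SingMap (SpecA.inc O)) b := by
    rintro b ⟨w, rfl⟩
    exact ⟨N.map F2 (SS.SingMap (SpecA.inc O)) w, by rw [CS_eq_range]; exact ⟨w, rfl⟩,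
      map_bd_inc O w⟩
  by_cases h1 : Hd.mk (N.bd F2 (SS.Sing O)) c hc2 = 0
  · exact Or.inl (key c (Hd.mk_eq_zero.1 h1))
  by_cases h2 : Hd.mk (N.bd F2 (SS.Sing O)) c' hc2' = 0
  · exact Or.inr (Or.inl (key c' (Hd.mk_eq_zero.1 h2)))
  refine Or.inr (Or.inr ?_)
  have h3 := h _ (Gr334.mk_mem_gr hc1 hc2) _ (Gr334.mk_mem_gr hc1' hc2') h1 h2
  rw [Hd.mk_eq_mk] at h3
  obtain ⟨w, hw⟩ := h3
  have := key (c + c') ⟨w, by rw [hw, sub_eq_add_F2]⟩
  rwa [map_add] at this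

end cyc

/-! ### (W2) -/

section W2

variable {p q : Sp (k + 1)} (hpq : (p : Ev (k + 1)) = -q)

include hpq

theorem exists_oneS : ∃ u ∈ N.gr F2 (SS.Sing (Sp (k + 1))) (k + 1),
    OneS ({p}ᶜ : Set (Sp (k + 1))) ({p}ᶜ ∩ {q}ᶜ) u := by
  obtain ⟨u0, hg0, hb0, hne, htop, hmid⟩ := WgSx667.exists_fund k
  obtain ⟨u, hu, h1, -⟩ := WgSx667.oneS_compl (p_ne_q hpq) hg0
    (WgSx667.oneS_univ q hg0 hb0 hne htop hmid)
  exact ⟨u, hu, h1⟩

/-- `H_j(Lp S, UU q) = 0` unless `j = m k + 1`, `m ≥ 1` -/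
theorem rel_bdry (hk : 1 ≤ k) {j : ℕ} (hj : ∀ m, 1 ≤ m → j ≠ m * k + 1)
    {z : CE (Lp (Sp (k + 1)))} (hz : z ∈ N.gr F2 (SS.Sing (Lp (Sp (k + 1)))) j)
    (hd : bdE _ z ∈ CS (UU q)) : z ∈ Bp univ (UU q) := by
  obtain ⟨u, hu, h⟩ := exists_oneS hpq
  rcases lt_or_ge j (k + 1) with hlt | hge
  · exact bdry_lt hpq h hu hlt hz hd
  obtain ⟨m, rfl⟩ := Nat.exists_eq_add_of_le hge
  obtain ⟨y, hy, hym, hyc, hyb⟩ := exists_xp hpq h hu hz hd
  obtain ⟨v, hv, rfl⟩ := cycle_bdry ((L0_classes hk q m).1 (fun i hi => hj (i + 1) (by omega) (by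
    rw [hi, add_mul, one_mul]; omega))) hy hym hyc
  have h1 := Submodule.sub_mem _ hyb (push_xp_mem hpq h.mem h.cyc hv)
  rwa [add_sub_cancel_right] at h1

/-- two relative cycles of degree `j` -/
theorem rel_unique (hk : 1 ≤ k) {j : ℕ} {z z' : CE (Lp (Sp (k + 1)))}
    (hz : z ∈ N.gr F2 (SS.Sing (Lp (Sp (k + 1)))) j) (hd : bdE _ z ∈ CS (UU q))
    (hz' : z' ∈ N.gr F2 (SS.Sing (Lp (Sp (k + 1)))) j) (hd' : bdE _ z' ∈ CS (UU q)) :
    z ∈ Bp univ (UU q) ∨ z' ∈ Bp univ (UU q) ∨ z - z' ∈ Bp univ (UU q) := by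
  obtain ⟨u, hu, h⟩ := exists_oneS hpq
  rcases lt_or_ge j (k + 1) with hlt | hge
  · exact Or.inl (bdry_lt hpq h hu hlt hz hd)
  obtain ⟨m, rfl⟩ := Nat.exists_eq_add_of_le hge
  obtain ⟨y, hy, hym, hyc, hyb⟩ := exists_xp hpq h hu hz hd
  obtain ⟨y', hy', hym', hyc', hyb'⟩ := exists_xp hpq h hu hz' hd'
  rcases cycle_unique (L0_classes hk q m).2 hy hym hyc hy' hym' hyc' with
    ⟨v, hv, e⟩ | ⟨v, hv, e⟩ | ⟨v, hv, e⟩
  · left
    rw [← e] at hyb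
    have h1 := Submodule.sub_mem _ hyb (push_xp_mem hpq h.mem h.cyc hv)
    rwa [add_sub_cancel_right] at h1
  · right; left
    rw [← e] at hyb'
    have h1 := Submodule.sub_mem _ hyb' (push_xp_mem hpq h.mem h.cyc hv)
    rwa [add_sub_cancel_right] at h1
  · right; right
    have h0 := push_xp_mem hpq h.mem h.cyc hv
    rw [e, map_add, map_add] at h0
    have h1 := Submodule.sub_mem _ (Submodule.add_mem _ hyb hyb') h0
    rw [sub_eq_add_F2]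
    have : ∀ a b c d : CE (Lp (Sp (k + 1))), a + c + (b + d) - (c + d) = a + b := fun a b c d => by
      abel
    rwa [this] at h1

/-! ### literal forms -/

omit hpq in
theorem mem_Bp_iff_exact {z : CE (Lp (Sp (k + 1)))} {W : Set (Lp (Sp (k + 1)))} :
    z ∈ Bp univ W ↔ ∃ w, HA683.NRel.bd F2 (SS.SingMap (SpecA.inc W))
      (HA683.NRel.pi F2 (SS.SingMap (SpecA.inc W)) w) =
        HA683.NRel.pi F2 (SS.SingMap (SpecA.inc W)) z := by
  rw [mem_Bp]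
  constructor
  · rintro ⟨w, -, hw⟩
    refine ⟨w, ?_⟩
    rw [CS_eq_range] at hw
    have h1 := (HA683.NRel.pi_eq_zero F2 (SS.SingMap (SpecA.inc W))).2 hw
    rw [map_sub, sub_eq_zero] at h1
    rw [HA683.NRel.bd_pi]
    exact h1.symm
  · rintro ⟨w, hw⟩
    refine ⟨w, by rw [CS_univ]; trivial, ?_⟩
    rw [CS_eq_range]
    refine (HA683.NRel.pi_eq_zero F2 (SS.SingMap (SpecA.inc W))).1 ?_
    rw [map_sub, ← hw, HA683.NRel.bd_pi, sub_eq_zero]

/-- **(W2), vanishing** -/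
theorem W2_zero (hk : 1 ≤ k) {j : ℕ} (hj : ∀ m, 1 ≤ m → j ≠ m * k + 1) :
    ∀ a ∈ HA683.HRel.gr F2 (SS.SingMap (SpecA.inc (UU q))) j, a = 0 := by
  intro a ha
  obtain ⟨z, ⟨z, hz, rfl⟩, hz', rfl⟩ := HA498.mem_grHd.1 ha
  have hd : bdE _ z ∈ CS (UU q) := by
    rw [CS_eq_range]
    exact (HA683.NRel.pi_eq_zero F2 (SS.SingMap (SpecA.inc (UU q)))).1 hz'
  rw [Hd.mk_eq_zero]
  obtain ⟨w, hw⟩ := mem_Bp_iff_exact.1 (rel_bdry hpq hk hj hz hd)
  exact ⟨_, hw⟩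

/-- **(W2), at most one class** -/
theorem W2_unique (hk : 1 ≤ k) {j : ℕ} :
    ∀ a ∈ HA683.HRel.gr F2 (SS.SingMap (SpecA.inc (UU q))) j,
    ∀ b ∈ HA683.HRel.gr F2 (SS.SingMap (SpecA.inc (UU q))) j, a ≠ 0 → b ≠ 0 → a = b := by
  intro a ha b hb ha0 hb0
  obtain ⟨z, ⟨z, hz, rfl⟩, hz', rfl⟩ := HA498.mem_grHd.1 ha
  obtain ⟨y, ⟨y, hy, rfl⟩, hy', rfl⟩ := HA498.mem_grHd.1 hb
  have hd : bdE _ z ∈ CS (UU q) := by
    rw [CS_eq_range]
    exact (HA683.NRel.pi_eq_zero F2 (SS.SingMap (SpecA.inc (UU q)))).1 hz'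
  have hd' : bdE _ y ∈ CS (UU q) := by
    rw [CS_eq_range]
    exact (HA683.NRel.pi_eq_zero F2 (SS.SingMap (SpecA.inc (UU q)))).1 hy'
  rcases rel_unique hpq hk hz hd hy hd' with h | h | h
  · obtain ⟨w, hw⟩ := mem_Bp_iff_exact.1 h
    exact absurd (Hd.mk_eq_zero.2 ⟨_, hw⟩) ha0
  · obtain ⟨w, hw⟩ := mem_Bp_iff_exact.1 h
    exact absurd (Hd.mk_eq_zero.2 ⟨_, hw⟩) hb0
  · obtain ⟨w, hw⟩ := mem_Bp_iff_exact.1 h
    rw [Hd.mk_eq_mk]
    exact ⟨_, by rw [hw, map_sub]⟩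

end W2

end Crest.Agent.R231.WUx566
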