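import Crest.Agent.R231.TBasB_961
import Crest.Agent.R231.WU2_566

/-!
# Row 231, block T (helper961): the basis theorem (BT) for the free loop space of a sphere

`M` homeomorphic to the sphere of dimension `k + 1`, `k ≥ 1`, `z` a cycle of degree `k` of based loops
which is not a boundary, `A_m = Am m z`, `v_m = vm m z` (helper150).

* `Am_not_bd`, `vm_not_bd` : not boundaries, `m ≥ 1`
* `exists_span` : every cycle of degree `j` is homologous to a combination of the `A_m`, `m k = j`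
  (the constant loop for `j = 0`) and the `v_m`, `m k + 1 = j`
-/

set_option autoImplicit false

noncomputable section

namespace Crest.Agent.R231.TBasx961

open Crest.Agent.R204 Crest.Agent.R204.EZ271 Crest.Agent.R204.SingAct265
open Crest.Agent.R204.Freu297 (Sph pt)
open Crest.Agent.R204.Gr334 (prN)
open GLugx576 (Lp)
open Concx150 CPowx150 AmChx150 TFillx150 TDegx961 Pairx877
open OmHomx871 (L0)
open WUx566 (Ev Sp UU incU)
open Set

/-- maps of pairs preserve relative boundaries -/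
theorem relBd_map {U L U' L' : SS} {i : SS.Hom U L} {i' : SS.Hom U' L'} (F : SS.Hom L L')
    (G : SS.Hom U U') (h : F.comp i = i'.comp G) {c : N F2 L} (hc : c ∈ RelBd i) :
    N.map F2 F c ∈ RelBd i' := by
  obtain ⟨w, u, rfl⟩ := mem_RelBd.1 hc
  refine mem_RelBd.2 ⟨N.map F2 F w, N.map F2 G u, ?_⟩
  rw [map_add, map_bd', map_map, h, ← map_map]

theorem H_bij_comp {J K L : SS} {f : SS.Hom J K} {g : SS.Hom K L}
    (hf : Function.Bijective (H.map F2 f)) (hg : Function.Bijective (H.map F2 g)) :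
    Function.Bijective (H.map F2 (g.comp f)) := by
  have h2 : (H.map F2 (g.comp f) : H F2 J → H F2 L) = H.map F2 g ∘ H.map F2 f :=
    funext fun x => HZ76.H_map_comp F2 g f x
  rw [h2]
  exact hg.comp hf

theorem mem_relBd_iff {E : Type} [TopologicalSpace E] {S : Set E} {c : CE E} :
    c ∈ RelBd (SS.SingMap (SpecA.inc S)) ↔ c ∈ Bp univ S := by
  rw [mem_Bp, mem_RelBd]
  constructor
  · rintro ⟨w, u, rfl⟩
    refine ⟨w, by rw [CS_univ]; trivial, ?_⟩
    rw [add_sub_cancel_left, CS_eq_range]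
    exact ⟨u, rfl⟩
  · rintro ⟨w, -, h⟩
    rw [CS_eq_range] at h
    obtain ⟨u, hu⟩ := h
    refine ⟨w, u, ?_⟩
    rw [hu, add_sub_cancel]

section inst

variable {M : Type} [MetricSpace M] {k : ℕ} (φ : M ≃ₜ Sp (k + 1)) (p : M)

/-- postcomposition -/
def Ep : C(Lp M, Lp (Sp (k + 1))) :=
  ⟨fun γ => (φ : C(M, Sp (k + 1))).comp γ, ContinuousMap.continuous_postcomp _⟩

/-- inverse -/
def Em : C(Lp (Sp (k + 1)), Lp M) :=
  ⟨fun γ => (φ.symm : C(Sp (k + 1), M)).comp γ, ContinuousMap.continuous_postcomp _⟩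

theorem Em_Ep (γ : Lp M) : Em φ (Ep φ γ) = γ := ContinuousMap.ext fun _ => φ.symm_apply_apply _
theorem Ep_Em (γ : Lp (Sp (k + 1))) : Ep φ (Em φ γ) = γ :=
  ContinuousMap.ext fun _ => φ.apply_symm_apply _

theorem Ep_zero {γ : Lp M} (h : γ 0 = p) : (Ep φ γ) 0 = φ p := by
  show φ (γ 0) = φ p
  rw [h]

theorem Em_zero {γ : Lp (Sp (k + 1))} (h : γ 0 = φ p) : (Em φ γ) 0 = p := by
  show φ.symm (γ 0) = p
  rw [h, φ.symm_apply_apply]

/-- based loops -/
def EOf : C(Om p, L0 (φ p)) :=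
  ⟨fun γ => ⟨Ep φ γ.1, Ep_zero φ p γ.2⟩,
    ((Ep φ).continuous.comp continuous_subtype_val).subtype_mk _⟩

/-- inverse on based loops -/
def EOi : C(L0 (φ p), Om p) :=
  ⟨fun γ => ⟨Em φ γ.1, Em_zero φ p γ.2⟩,
    ((Em φ).continuous.comp continuous_subtype_val).subtype_mk _⟩

/-- based loops, homeomorphism -/
def EO : Om p ≃ₜ L0 (φ p) where
  toFun := EOf φ p
  invFun := EOi φ p
  left_inv γ := Subtype.ext (Em_Ep φ γ.1)
  right_inv γ := Subtype.ext (Ep_Em φ γ.1)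
  continuous_toFun := (EOf φ p).continuous
  continuous_invFun := (EOi φ p).continuous

/-- the opposite point -/
def qq : Sp (k + 1) := -(φ p)

theorem hpq : ((φ p : Sp (k + 1)) : Ev (k + 1)) = -(qq φ p : Ev (k + 1)) := by
  show _ = -(((-(φ p) : Sp (k + 1))) : Ev (k + 1))
  rw [coe_neg_sphere, neg_neg]

/-- the inclusion of the loops with `γ 0 ≠ -φ p` -/
def iQ : SS.Hom (SS.Sing (UU (qq φ p))) (SS.Sing (Lp (Sp (k + 1)))) :=
  SS.SingMap (SpecA.inc (UU (qq φ p)))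

theorem iQ_inj : HA683.SInj (iQ φ p) := inc_SInj (UU (qq φ p))

/-- based loops to `U` -/
def jQ : SS.Hom (SS.Sing (Om p)) (SS.Sing (UU (qq φ p))) :=
  SS.SingMap ((incU (hpq φ p)).comp (EO φ p : C(Om p, L0 (φ p))))

theorem iQ_jQ : (iQ φ p).comp (jQ φ p) = (SS.SingMap (Ep φ)).comp (SS.SingMap (ιO p)) := rfl

theorem jQ_bij : Function.Bijective (H.map F2 (jQ φ p)) :=
  H_bij_comp (f := SS.SingMap (EO φ p : C(Om p, L0 (φ p)))) (g := SS.SingMap (incU (hpq φ p)))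
    (FinDim315.Hm_bijective_of_homeo (EO φ p)) (WUx566.W1 (hpq φ p))

/-- vanishing of the relative homology -/
theorem hz (hk : 1 ≤ k) (j : ℕ) (c : CE (Lp (Sp (k + 1))))
    (hc : c ∈ N.gr F2 (SS.Sing (Lp (Sp (k + 1)))) j)
    (hb : N.bd F2 _ c ∈ LinearMap.range (N.map F2 (iQ φ p))) (hr : c ∉ RelBd (iQ φ p)) :
    ∃ m : ℕ, 1 ≤ m ∧ j = m * k + 1 := by
  by_contra hcon
  refine hr (mem_relBd_iff.2 (WUx566.rel_bdry (hpq φ p) hk (j := j) (fun m hm h => hcon ⟨m, hm, h⟩)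
    hc ?_))
  rw [CS_eq_range]
  exact hb

/-- at most one relative class -/
theorem hu (hk : 1 ≤ k) (j : ℕ) (c : CE (Lp (Sp (k + 1))))
    (hc : c ∈ N.gr F2 (SS.Sing (Lp (Sp (k + 1)))) j)
    (hb : N.bd F2 _ c ∈ LinearMap.range (N.map F2 (iQ φ p))) (hr : c ∉ RelBd (iQ φ p))
    (c' : CE (Lp (Sp (k + 1)))) (hc' : c' ∈ N.gr F2 (SS.Sing (Lp (Sp (k + 1)))) j)
    (hb' : N.bd F2 _ c' ∈ LinearMap.range (N.map F2 (iQ φ p))) (hr' : c' ∉ RelBd (iQ φ p)) :
    c + c' ∈ RelBd (iQ φ p) := by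
  rcases WUx566.rel_unique (hpq φ p) hk hc (by rw [CS_eq_range]; exact hb) hc'
    (by rw [CS_eq_range]; exact hb') with h | h | h
  · exact absurd (mem_relBd_iff.2 h) hr
  · exact absurd (mem_relBd_iff.2 h) hr'
  · rw [WUx566.sub_eq_add_F2] at h
    exact mem_relBd_iff.2 h

/-- pushing to the sphere -/
abbrev EpN : CE (Lp M) →ₗ[F2] CE (Lp (Sp (k + 1))) := N.map F2 (SS.SingMap (Ep φ))
/-- and back -/
abbrev EmN : CE (Lp (Sp (k + 1))) →ₗ[F2] CE (Lp M) := N.map F2 (SS.SingMap (Em φ))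

theorem EmN_EpN (c : CE (Lp M)) : EmN φ (EpN φ c) = c := by
  rw [map_map]
  have h : (SS.SingMap (Em φ)).comp (SS.SingMap (Ep φ)) = SS.Hom.id (SS.Sing (Lp M)) :=
    SS.Hom.ext (funext fun n => funext fun σ => sing_ext fun t => Em_Ep φ (ev σ t))
  rw [h, map_idHom]

theorem EpN_EmN (c : CE (Lp (Sp (k + 1)))) : EpN φ (EmN φ c) = c := by
  rw [map_map]
  have h : (SS.SingMap (Ep φ)).comp (SS.SingMap (Em φ)) = SS.Hom.id (SS.Sing (Lp (Sp (k + 1)))) :=
    SS.Hom.ext (funext fun n => funext fun σ => sing_ext fun t => Ep_Em φ (ev σ t))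
  rw [h, map_idHom]

/-- restriction of `Em` to the pair -/
def EmU : C(UU (qq φ p), Uq (φ.symm (qq φ p))) :=
  ⟨fun γ => ⟨Em φ γ.1, fun h => γ.2 (φ.symm.injective h)⟩,
    ((Em φ).continuous.comp continuous_subtype_val).subtype_mk _⟩

theorem relBd_back {c : CE (Lp M)} (h : EpN φ c ∈ RelBd (iQ φ p)) :
    c ∈ RelBd (SS.SingMap (inc (Uq (φ.symm (qq φ p))))) := by
  have h1 := relBd_map (i := iQ φ p) (i' := SS.SingMap (inc (Uq (φ.symm (qq φ p)))))
    (SS.SingMap (Em φ)) (SS.SingMap (EmU φ p)) rfl h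
  rwa [EmN_EpN φ c] at h1

variable {p}

/-- the based classes -/
def aO (z : CO p) : ℕ → CO p
  | 0 => N.sx F2 (HspSS696.ptS (cO p))
  | (m + 1) => AmO (m + 1) z

/-- the classes `v_m` -/
def vO (z : CO p) : ℕ → CE (Lp M)
  | 0 => 0
  | (m + 1) => vm (m + 1) z

/-- the classes `A_m`, `A_0` the constant loop -/
def bO (z : CO p) : ℕ → CE (Lp M)
  | 0 => N.sx F2 (HspSS696.ptS (ContinuousMap.const _ p : Lp M))
  | (m + 1) => Am (m + 1) z

theorem aO_eq (z : CO p) {m : ℕ} [NeZero m] : aO z m = AmO m z := by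
  obtain ⟨l, rfl⟩ : ∃ l, m = l + 1 := ⟨m - 1, by have := NeZero.pos m; omega⟩
  rfl

theorem bO_eq (z : CO p) {m : ℕ} [NeZero m] : bO z m = Am m z := by
  obtain ⟨l, rfl⟩ : ∃ l, m = l + 1 := ⟨m - 1, by have := NeZero.pos m; omega⟩
  rfl

theorem vO_eq (z : CO p) {m : ℕ} [NeZero m] : vO z m = vm m z := by
  obtain ⟨l, rfl⟩ : ∃ l, m = l + 1 := ⟨m - 1, by have := NeZero.pos m; omega⟩
  rfl

theorem jN_aO (z : CO p) : ∀ m, jN p (aO z m) = bO z m
  | 0 => by
    unfold jN aO bO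
    rw [N.map_sx]
    rfl
  | (m + 1) => (Am_eq_AmO (m + 1) z).symm

theorem iQ_aO (z : CO p) (m : ℕ) :
    N.map F2 (iQ φ p) (N.map F2 (jQ φ p) (aO z m)) = EpN φ (bO z m) := by
  rw [← jN_aO]
  unfold jN
  rw [map_map, map_map, iQ_jQ]

variable (hk : 1 ≤ k) {z : CO p} (hz1 : z ∈ N.gr F2 (SS.Sing (Om p)) k)
  (hb : N.bd F2 _ z = 0) (hn : z ∉ LinearMap.range (N.bd F2 (SS.Sing (Om p))))

/-- **the data of the basis theorem for `M`** -/
def btd : BTd k (SS.Sing (Om p)) (SS.Sing (UU (qq φ p))) (SS.Sing (Lp (Sp (k + 1)))) where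
  jA := jQ φ p
  i := iQ φ p
  hi := iQ_inj φ p
  W1 := jQ_bij φ p
  a := aO z
  a_gr
    | 0 => by
      rw [Nat.zero_mul]
      exact Gr334.sx_mem_gr _
    | (m + 1) => AmO_mem_gr (m + 1) hz1
  a_cyc
    | 0 => Coalg847.bd_vertex _
    | (m + 1) => bd_AmO (m + 1) hb
  a_ne
    | 0 => OmPowx871.vertex_not_bd _
    | (m + 1) => OmPowx871.AmO_not_bd hk φ hz1 hb hn (m + 1)
  a_span j y hy hyb := by
    rcases Nat.eq_zero_or_pos j with rfl | hj
    · rcases OmPowx871.span_zero hk φ (HspSS696.ptS (cO p)) hy with h | h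
      · exact Or.inl h
      · exact Or.inr ⟨0, Nat.zero_mul k, h⟩
    · rcases OmPowx871.AmO_span hk φ hz1 hb hn hj hy hyb with h | ⟨m, hm0, hm, h⟩
      · exact Or.inl h
      · exact Or.inr ⟨m, hm, by rwa [aO_eq]⟩
  v m := EpN φ (vO z m)
  v_gr := by
    rintro (_ | m) hm
    · omega
    · exact Exc406.map_mem_gr _ (vm_mem_gr (m + 1) hz1)
  v_cyc := by
    rintro (_ | m) hm
    · omega
    · have h5 : N.bd F2 _ (vm (m + 1) z) = 0 := bd_vm (m + 1) hb
      show N.bd F2 _ (EpN φ (vm (m + 1) z)) = 0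
      rw [← map_bd', h5, map_zero]
  v_one h := vm_one_ne hk φ (φ.symm (qq φ p)) hz1 hb hn (relBd_back φ p h)
  v_succ := by
    rintro (_ | m) hm hA h
    · omega
    · refine vm_succ_ne hk φ (φ.symm (qq φ p)) hz1 hb hn (m + 1) ?_ (relBd_back φ p h)
      rw [iQ_aO] at hA
      exact not_bd_of_map _ hA
  HZ := hz φ p hk
  HU j c hc hcb hr c' hc' hcb' hr' := hu φ p hk j c hc hcb hr c' hc' hcb' hr'

end inst

section final

variable {M : Type} [MetricSpace M] {k : ℕ} (hk : 1 ≤ k) (φ : M ≃ₜ Sph (k + 1)) {p : M}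
  {z : CO p} (hz1 : z ∈ N.gr F2 (SS.Sing (Om p)) k)
  (hb : N.bd F2 _ z = 0) (hn : z ∉ LinearMap.range (N.bd F2 (SS.Sing (Om p))))

include hk φ hz1 hb hn

/-- **`A_m` is not a boundary** -/
theorem Am_not_bd (m : ℕ) [NeZero m] : Am m z ∉ LinearMap.range (N.bd F2 (SS.Sing (Lp M))) := by
  have h := (btd φ hk hz1 hb hn).b_ne (NeZero.pos m)
  have e : (btd φ hk hz1 hb hn).b m = EpN φ (Am m z) := by
    rw [← bO_eq]
    exact iQ_aO φ z m
  rw [e] at h
  exact not_bd_of_map _ h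

/-- `v_m` is not a boundary, even modulo the loops with `γ 0 ≠ q` -/
theorem vm_not_bd (m : ℕ) [NeZero m] : vm m z ∉ LinearMap.range (N.bd F2 (SS.Sing (Lp M))) := by
  have h := (btd φ hk hz1 hb hn).v_ne_bd (NeZero.pos m)
  have e : (btd φ hk hz1 hb hn).v m = EpN φ (vm m z) := by
    rw [← vO_eq]
    rfl
  rw [e] at h
  exact not_bd_of_map _ h

omit hk φ hz1 hb hn in
/-- generators in degree `j` -/
def GenL (z : CO p) (k j : ℕ) : Set (CE (Lp M)) :=
  {c | (∃ (m : ℕ) (_ : NeZero m), m * k = j ∧ c = Am m z) ∨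
    (∃ (m : ℕ) (_ : NeZero m), m * k + 1 = j ∧ c = vm m z) ∨
    (j = 0 ∧ c = N.sx F2 (HspSS696.ptS (ContinuousMap.const _ p : Lp M)))}

omit hk φ hz1 hb hn in
theorem bO_mem_GenL (z : CO p) (k m : ℕ) : bO z m ∈ GenL z k (m * k) := by
  cases m with
  | zero => exact Or.inr (Or.inr ⟨Nat.zero_mul k, rfl⟩)
  | succ m => exact Or.inl ⟨m + 1, inferInstance, rfl, rfl⟩

/-- **every cycle is homologous to a combination of generators** -/
theorem exists_span {j : ℕ} {c : CE (Lp M)} (hc : c ∈ N.gr F2 (SS.Sing (Lp M)) j)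
    (hcb : N.bd F2 _ c = 0) : ∃ g ∈ Submodule.span F2 (GenL z k j),
      c + g ∈ LinearMap.range (N.bd F2 (SS.Sing (Lp M))) := by
  obtain ⟨g, hg, b, hgb⟩ := (btd φ hk hz1 hb hn).span_all (c := EpN φ c) (Exc406.map_mem_gr _ hc)
    (by rw [← map_bd', hcb, map_zero])
  have hg' : EmN φ g ∈ Submodule.span F2 (GenL z k j) := by
    have h1 : EmN φ g ∈ (Submodule.span F2 ((btd φ hk hz1 hb hn).Gen j)).map (EmN φ) := ⟨g, hg, rfl⟩
    rw [Submodule.map_span] at h1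
    refine Submodule.span_mono ?_ h1
    rintro _ ⟨d, hd | hd, rfl⟩
    · obtain ⟨m, rfl, rfl⟩ := hd
      have e : (btd φ hk hz1 hb hn).b m = EpN φ (bO z m) := iQ_aO φ z m
      rw [e, EmN_EpN φ]
      exact bO_mem_GenL z k m
    · obtain ⟨m, hm, rfl, rfl⟩ := hd
      have hm0 : NeZero m := ⟨by omega⟩
      have e : (btd φ hk hz1 hb hn).v m = EpN φ (vm m z) := by
        rw [← vO_eq]
        rfl
      rw [e, EmN_EpN φ]
      exact Or.inr (Or.inl ⟨m, hm0, rfl, rfl⟩)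
  refine ⟨EmN φ g, hg', EmN φ b, ?_⟩
  rw [← map_bd', hgb, map_add, EmN_EpN φ]

/-- the same as membership in a sum -/
theorem mem_span_sup {j : ℕ} {c : CE (Lp M)} (hc : c ∈ N.gr F2 (SS.Sing (Lp M)) j)
    (hcb : N.bd F2 _ c = 0) :
    c ∈ Submodule.span F2 (GenL z k j) ⊔ LinearMap.range (N.bd F2 (SS.Sing (Lp M))) := by
  obtain ⟨g, hg, h⟩ := exists_span hk φ hz1 hb hn hc hcb
  have e : c = g + (c + g) := by
    have h2 := add_self2 g
    rw [add_comm c g, ← add_assoc, h2, zero_add]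
  rw [e]
  exact Submodule.add_mem_sup hg h

end final

end Crest.Agent.R231.TBasx961
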