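import Crest.Agent.R231.Cap_226
import Crest.Agent.R204.EZHtp_271

/-!
# Row 231, leaf T-DEG (helper961), part A: the strict cup lemma

`K, Z` simplicial sets, `F : K × Z → Lam`, `e : Lam → S`, `eps : K → S` with `e ∘ F = eps ∘ fst`.
For a chain `w` of degree `n` of `K`, a chain `ζ` of `Z`, a cochain `α` of `S` which sees only degree
`n` and a cochain `β` of `Lam` such that `β (F (v, ·)_# ζ) = c` for all vertices `v` of `K`:

`(e^* α ∪ β) (F_# (w × ζ)) = α (eps_# w) * c`.
-/

set_option autoImplicit false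

noncomputable section

namespace Crest.Agent.R231.TDegx961

open Crest.Agent.R204 Crest.Agent.R204.EZ271 Crest.Agent.R231.Capx226 TensorProduct

variable {K Z Lam S : SS}

theorem pull_comp {J K L : SS} (g : SS.Hom K L) (f : SS.Hom J K) (u : Co L) :
    pull (g.comp f) u = pull f (pull g u) := by
  refine LinearMap.ext fun z => ?_
  rw [pull_apply, pull_apply, pull_apply, ← map_map]

theorem pull_aug {J K : SS} (f : SS.Hom J K) : pull f (aug F2 : Co K) = (aug F2 : Co J) := by
  refine LinearMap.ext fun z => ?_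
  rw [pull_apply]
  exact aug_map F2 f z

theorem pull_fst_eq (u : Co K) : pull (SS.fst K Z) u = crs u (aug F2 : Co Z) := by
  rw [crs_eq_cup, pull_aug, cup_aug_right]

theorem cup_cross (F : SS.Hom (K.prod Z) Lam) (e : SS.Hom Lam S) (eps : SS.Hom K S)
    (h : e.comp F = eps.comp (SS.fst K Z)) (α : Co S) (β : Co Lam) (w : N F2 K) (ζ : N F2 Z) :
    cup (pull e α) β (N.map F2 F (cross F2 w ζ)) =
      β (N.map F2 F (cross F2 (cap (pull eps α) w) ζ)) := by
  rw [cup_apply, ← map_cap, ← pull_comp, h, pull_comp, pull_fst_eq, cap_crs_cross, cap_aug]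

/-- evaluation on a chain of degree `0` -/
theorem eval_deg_zero (F : SS.Hom (K.prod Z) Lam) (β : Co Lam) (ζ : N F2 Z) (c : F2)
    (hc : ∀ v : K.S 0, β (N.map F2 F (cross F2 (N.sx F2 v) ζ)) = c) {a : N F2 K}
    (ha : a ∈ N.gr F2 K 0) : β (N.map F2 F (cross F2 a ζ)) = aug F2 a * c := by
  obtain ⟨b, hb, rfl⟩ := ha
  refine Submodule.span_induction
    (p := fun b _ => β (N.map F2 F (cross F2 (Submodule.mkQ _ b) ζ)) = aug F2 (Submodule.mkQ _ b) * c)
    ?_ ?_ ?_ ?_ hb
  · rintro _ ⟨x, rfl⟩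
    have h1 := hc x
    have h2 : (aug F2 (N.sx F2 x) : F2) = 1 := aug_sx_zero F2 x
    change β (N.map F2 F (cross F2 (N.sx F2 x) ζ)) = aug F2 (N.sx F2 x) * c
    rw [h1, h2, one_mul]
  · simp
  · intro x y _ _ hx hy
    simp only [map_add, LinearMap.add_apply, hx, hy, add_mul]
  · intro r x _ hx
    simp only [map_smul, LinearMap.smul_apply, hx, smul_eq_mul, mul_assoc]

/-- `u` only sees degree `n` -/
def Dg (n : ℕ) (u : Co K) : Prop := ∀ j, j ≠ n → ∀ x : K.S j, u (N.sx F2 x) = 0

theorem Dg.pull {J : SS} {n : ℕ} {u : Co K} (h : Dg n u) (f : SS.Hom J K) : Dg n (pull f u) := by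
  intro j hj x
  rw [pull_apply, N.map_sx]
  exact h j hj _

theorem sx_mem_gr {n : ℕ} (x : K.S n) : N.sx F2 x ∈ N.gr F2 K n :=
  ⟨Finsupp.single ⟨_, x⟩ 1, Submodule.subset_span ⟨x, rfl⟩, rfl⟩

theorem cap_mem_gr_zero {n : ℕ} {u : Co K} (hu : Dg n u) {w : N F2 K} (hw : w ∈ N.gr F2 K n) :
    cap u w ∈ N.gr F2 K 0 := by
  obtain ⟨b, hb, rfl⟩ := hw
  refine Submodule.span_induction (p := fun b _ => cap u (Submodule.mkQ _ b) ∈ N.gr F2 K 0)
    ?_ ?_ ?_ ?_ hb
  · rintro _ ⟨x, rfl⟩
    change cap u (N.sx F2 x) ∈ _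
    rw [cap_sx]
    refine Submodule.sum_mem _ fun a ha => ?_
    by_cases h : a = n
    · subst h
      refine Submodule.smul_mem _ _ ?_
      have h0 : a - a = 0 := Nat.sub_self a
      rw [h0]
      exact sx_mem_gr _
    · rw [hu a h, zero_smul]
      exact Submodule.zero_mem _
  · simp
  · intro x y _ _ hx hy
    simp only [map_add]
    exact Submodule.add_mem _ hx hy
  · intro r x _ hx
    simp only [map_smul]
    exact Submodule.smul_mem _ _ hx

theorem aug_cap (u : Co K) (z : N F2 K) : aug F2 (cap u z) = u z := by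
  rw [← cup_apply, cup_aug_right]

/-- **the strict cup lemma** -/
theorem cup_eval (F : SS.Hom (K.prod Z) Lam) (e : SS.Hom Lam S) (eps : SS.Hom K S)
    (h : e.comp F = eps.comp (SS.fst K Z)) {n : ℕ} {α : Co S} (hα : Dg n α) (β : Co Lam)
    {w : N F2 K} (hw : w ∈ N.gr F2 K n) (ζ : N F2 Z) (c : F2)
    (hc : ∀ v : K.S 0, β (N.map F2 F (cross F2 (N.sx F2 v) ζ)) = c) :
    cup (pull e α) β (N.map F2 F (cross F2 w ζ)) = α (N.map F2 eps w) * c := by
  rw [cup_cross F e eps h, eval_deg_zero F β ζ c hc (cap_mem_gr_zero (hα.pull eps) hw), aug_cap,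
    pull_apply]

/-- a cup product with first factor pulled back from `S` and zero on the chains of `B → S`
vanishes on the chains of every `A → Lam` lying over `B` -/
theorem cup_zero {A B : SS} (i : SS.Hom A Lam) (j : SS.Hom B S) (e : SS.Hom Lam S)
    (g : SS.Hom A B) (h : e.comp i = j.comp g) {α : Co S} (hα : pull j α = 0) (β : Co Lam)
    (z : N F2 A) : cup (pull e α) β (N.map F2 i z) = 0 := by
  rw [cup_apply, ← map_cap, ← pull_comp, h, pull_comp, hα]
  have h0 : pull g (0 : Co B) = 0 := LinearMap.ext fun z => rfl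
  rw [h0, cap_zero_left, map_zero, map_zero]

/-- cup products of cocycles are cocycles -/
theorem cobd_cup_zero {u v : Co K} (hu : cobd u = 0) (hv : cobd v = 0) : cobd (cup u v) = 0 := by
  rw [cobd_cup, hu, hv]
  refine LinearMap.ext fun z => ?_
  rw [LinearMap.add_apply, cup_apply, cup_apply, cap_zero_left, map_zero]
  simp

theorem cobd_pull_zero {J : SS} (f : SS.Hom J K) {u : Co K} (hu : cobd u = 0) :
    cobd (pull f u) = 0 := by
  rw [← pull_cobd, hu]; rfl

end Crest.Agent.R231.TDegx961
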