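import Crest.Agent.R231.TDegA_961
import Crest.Agent.R204.ExcD_406
import Crest.Agent.R204.Sigma_88
import Crest.Agent.R204.Gr_334

/-!
# Row 231, leaf T-DEG (helper961), part B: detection of `F_# ((ι × z) × ζ)` modulo a subspace

`exists_cochain` : a chain which is not a boundary modulo a subcomplex is detected by a cocycle which
vanishes on the subcomplex and sees only one degree.

`tdeg` : if `e ∘ F = ev ∘ fst`, the suspension `ev_# (ι × z)` is not a boundary in `S` modulo `B`, and all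
the slices `F (v, ·)_# ζ` are homologous to a cycle `ζ₀` which is not a boundary in `Lam`, then
`F_# ((ι × z) × ζ)` is not a boundary in `Lam` modulo any `U` lying over `B`.
-/

set_option autoImplicit false

noncomputable section

namespace Crest.Agent.R231.TDegx961

open Crest.Agent.R204 Crest.Agent.R204.EZ271 Crest.Agent.R231.Capx226 TensorProduct
open Crest.Agent.R204.Sigma88 (io sgN)
open Crest.Agent.R204.Gr334 (prN)

variable {K Z Lam S : SS}

/-- chains which are boundaries modulo the subcomplex `A` -/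
def RelBd {A K : SS} (i : SS.Hom A K) : Submodule F2 (N F2 K) :=
  LinearMap.range (N.bd F2 K) ⊔ LinearMap.range (N.map F2 i)

theorem mem_RelBd {A K : SS} {i : SS.Hom A K} {z : N F2 K} :
    z ∈ RelBd i ↔ ∃ c u, z = N.bd F2 K c + N.map F2 i u := by
  unfold RelBd
  rw [Submodule.mem_sup]
  constructor
  · rintro ⟨_, ⟨c, rfl⟩, _, ⟨u, rfl⟩, rfl⟩
    exact ⟨c, u, rfl⟩
  · rintro ⟨c, u, rfl⟩
    exact ⟨_, ⟨c, rfl⟩, _, ⟨u, rfl⟩, rfl⟩

/-- a functional seeing only degree `n` -/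
theorem Dg_comp_prN (n : ℕ) (u : Co K) : Dg n (u ∘ₗ prN F2 K n) := by
  intro j hj x
  rw [LinearMap.comp_apply, Gr334.prN_sx_ne hj, map_zero]

theorem f2_eq_one {a : F2} (h : a ≠ 0) : a = 1 := by
  revert a; decide

/-- **detection by a cocycle** -/
theorem exists_cochain {A K : SS} (i : SS.Hom A K) {n : ℕ} {z : N F2 K} (hz : z ∈ N.gr F2 K n)
    (h : z ∉ RelBd i) : ∃ α : Co K, cobd α = 0 ∧ pull i α = 0 ∧ Dg n α ∧ α z = 1 := by
  obtain ⟨f, hf, hB⟩ := Submodule.exists_le_ker_of_notMem (K := F2) h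
  refine ⟨f ∘ₗ prN F2 K n, ?_, ?_, Dg_comp_prN n f, ?_⟩
  · refine LinearMap.ext fun c => ?_
    rw [cobd_apply, LinearMap.comp_apply, Gr334.prN_bd]
    exact hB (Submodule.mem_sup_left ⟨_, rfl⟩)
  · refine LinearMap.ext fun c => ?_
    rw [pull_apply, LinearMap.comp_apply, Gr334.prN_map]
    exact hB (Submodule.mem_sup_right ⟨_, rfl⟩)
  · rw [LinearMap.comp_apply, Gr334.prN_of_mem hz]
    exact f2_eq_one hf

/-- detection of a cycle which is not a boundary (no degree) -/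
theorem exists_cocycle {K : SS} {z : N F2 K} (h : z ∉ LinearMap.range (N.bd F2 K)) :
    ∃ β : Co K, cobd β = 0 ∧ β z = 1 := by
  obtain ⟨f, hf, hB⟩ := Submodule.exists_le_ker_of_notMem (K := F2) h
  refine ⟨f, LinearMap.ext fun c => hB ⟨c, rfl⟩, f2_eq_one hf⟩

/-- `sgN ev z` has degree `k + 1` -/
theorem io_cross_mem {P : SS} {k : ℕ} {z : N F2 P} (hz : z ∈ N.gr F2 P k) :
    cross F2 (io F2 1) z ∈ N.gr F2 ((SS.std 1).prod P) (k + 1) := by
  rw [add_comm]
  exact EZ847.cross_mem_gr F2 (sx_mem_gr _) hz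

/-- **T-DEG, abstract form** -/
theorem tdeg {P Z Lam S U B : SS}
    (F : SS.Hom (((SS.std 1).prod P).prod Z) Lam) (e : SS.Hom Lam S)
    (ev : SS.Hom ((SS.std 1).prod P) S) (h : e.comp F = ev.comp (SS.fst _ Z))
    (i : SS.Hom U Lam) (j : SS.Hom B S) (g : SS.Hom U B) (hU : e.comp i = j.comp g)
    {k : ℕ} {z : N F2 P} (hz : z ∈ N.gr F2 P k) (hs : sgN ev z ∉ RelBd j)
    (ζ : N F2 Z) (ζ₀ : N F2 Lam) (hne : ζ₀ ∉ LinearMap.range (N.bd F2 Lam))
    (hF : ∀ v : ((SS.std 1).prod P).S 0, ∃ b, N.map F2 F (cross F2 (N.sx F2 v) ζ) =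
      ζ₀ + N.bd F2 Lam b) :
    N.map F2 F (cross F2 (cross F2 (io F2 1) z) ζ) ∉ RelBd i := by
  obtain ⟨α, hα1, hα2, hα3, hα4⟩ := exists_cochain (n := k + 1) j
    (z := sgN ev z) (Exc406.map_mem_gr ev (io_cross_mem hz)) hs
  obtain ⟨β, hβ1, hβ2⟩ := exists_cocycle hne
  intro hmem
  obtain ⟨c, u, hcu⟩ := mem_RelBd.1 hmem
  have h1 : cup (pull e α) β (N.map F2 F (cross F2 (cross F2 (io F2 1) z) ζ)) =
      α (N.map F2 ev (cross F2 (io F2 1) z)) * 1 := by
    refine cup_eval F e ev h hα3 β (io_cross_mem hz) ζ 1 fun v => ?_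
    obtain ⟨b, hb⟩ := hF v
    have h2 : β (N.bd F2 Lam b) = 0 := LinearMap.congr_fun hβ1 b
    rw [hb, map_add, hβ2, h2, add_zero]
  have h2 : α (N.map F2 ev (cross F2 (io F2 1) z)) = 1 := hα4
  have h3 : cobd (cup (pull e α) β) = 0 := cobd_cup_zero (cobd_pull_zero e hα1) hβ1
  rw [h2, hcu, map_add, cup_zero i j e g hU hα2 β u] at h1
  have h4 : cup (pull e α) β (N.bd F2 Lam c) = 0 := LinearMap.congr_fun h3 c
  rw [h4] at h1
  exact absurd h1 (by decide)

end Crest.Agent.R231.TDegx961
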