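import Crest.Agent.R231.TDegC_961
import Crest.Agent.R231.InstA_895

/-!
# Row 231, leaf T-DEG (helper961), part D: concrete T-DEG in the continuous model

* `mkL` : a loop from a function on `[0,1]`
* `joined_const` : based loops of a sphere are path connected
-/

set_option autoImplicit false

noncomputable section

namespace Crest.Agent.R231.TDegx961

open Crest.Agent.R204 Crest.Agent.R204.EZ271 Crest.Agent.R231.Capx226
open Crest.Agent.R204.Sigma88 (io sgN)
open Crest.Agent.R204.Gr334 (prN)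
open Crest.Agent.R204.Freu297 (Sph pt)
open GLugx576 (Lp)
open OmHomx871 (L0 omHomeo mapHomeo)
open unitInterval Set

variable {M : Type} [MetricSpace M]

/-- a loop from a function -/
def mkL (f : ℝ → M) (h : Continuous f) (h0 : f 0 = f 1) : Lp M :=
  ⟨AddCircle.liftIco 1 0 f, by
    refine AddCircle.liftIco_continuous ?_ h.continuousOn
    rw [zero_add, h0]⟩

theorem mkL_coe {f : ℝ → M} {h : Continuous f} {h0 : f 0 = f 1} {s : ℝ} (hs : s ∈ Icc (0 : ℝ) 1) :
    mkL f h h0 (s : UnitAddCircle) = f s := by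
  have key : ∀ r : ℝ, 0 ≤ r → r < 1 → mkL f h h0 (r : UnitAddCircle) = f r := fun r h h' =>
    AddCircle.liftIco_coe_apply (p := (1 : ℝ)) (a := (0 : ℝ)) (f := f) ⟨h, by simpa using h'⟩
  rcases hs.2.eq_or_lt with rfl | h1
  · have h2 := key 0 le_rfl zero_lt_one
    rw [GLugx576.coe_one_circle, ← h0]
    exact h2
  · exact key s hs.1 h1

/-- the constant based loop -/
def c0 (p : M) : L0 p := ⟨ContinuousMap.const _ p, rfl⟩

theorem joined_const {k : ℕ} (hk : 1 ≤ k) (φ : M ≃ₜ Sph (k + 1)) (p : M) (ω : L0 p) :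
    Joined ω (c0 p) := by
  obtain ⟨ψ, hψ⟩ := OmHomx871.exists_sphere_homeo (n := k + 1) (φ p) (pt (k + 1))
  have h : (φ.trans ψ) p = pt (k + 1) := hψ
  set E := toOS (φ.trans ψ) p h with hE
  have h1 := OmS94.joined1 hk (E ω)
  have h2 := h1.map E.symm.continuous
  rw [E.symm_apply_apply] at h2
  have h3 : E.symm GenLoop.const = c0 p := by
    rw [Homeomorph.symm_apply_eq]
    refine GenLoop.ext _ _ fun t => ?_
    exact h.symm
  rwa [h3] at h2

/-- concatenation data: `C' (ω, w)` is `ω` on `[0,a]` and `C w` on `[a,1]` -/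
structure ConsFam {p : M} {W : Type} [TopologicalSpace W] (a : ℝ) (C' : C(L0 p × W, Lp M))
    (C : C(W, Lp M)) : Prop where
  pos : 0 < a
  le : a ≤ 1
  left : ∀ ω w (t : ℝ), t ∈ Icc (0 : ℝ) 1 →
    C' (ω, w) ((a * t : ℝ) : UnitAddCircle) = ω.1 (t : UnitAddCircle)
  right : ∀ ω w (t : ℝ), t ∈ Icc (0 : ℝ) 1 →
    C' (ω, w) ((a + (1 - a) * t : ℝ) : UnitAddCircle) = C w (t : UnitAddCircle)

namespace ConsFam

variable {p : M} {W : Type} [TopologicalSpace W] {a : ℝ} {C' : C(L0 p × W, Lp M)}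
  {C : C(W, Lp M)} (hc : ConsFam a C' C)

include hc

/-- the family of reparametrised loops -/
def rep (r : I) (w : W) : Lp M :=
  mkL (fun t : ℝ => C' (c0 p, w) (((1 - r) * t + r * (a + (1 - a) * t) : ℝ) : UnitAddCircle)) (by
    refine (C' (c0 p, w)).continuous.comp ((AddCircle.continuous_mk' 1).comp ?_)
    fun_prop) (by
    have h1 : ((1 - (r : ℝ)) * 0 + r * (a + (1 - a) * 0) : ℝ) = a * r := by ring
    have h2 : ((1 - (r : ℝ)) * 1 + r * (a + (1 - a) * 1) : ℝ) = 1 := by ring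
    rw [h1, h2, hc.left _ _ _ r.2, GLugx576.coe_one_circle]
    have h3 := hc.left (c0 p) w 0 ⟨le_rfl, zero_le_one⟩
    rw [mul_zero] at h3
    exact h3.symm)

theorem rep_coe (r : I) (w : W) {t : ℝ} (ht : t ∈ Icc (0 : ℝ) 1) :
    hc.rep r w (t : UnitAddCircle) =
      C' (c0 p, w) (((1 - r) * t + r * (a + (1 - a) * t) : ℝ) : UnitAddCircle) :=
  mkL_coe ht

theorem continuous_rep : Continuous fun x : I × W => hc.rep x.1 x.2 := by
  refine GLugx576.cont_to_loop ?_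
  have h : (fun q : (I × W) × Icc (0 : ℝ) 1 => hc.rep q.1.1 q.1.2 ((q.2 : ℝ) : UnitAddCircle)) =
      fun q => C' (c0 p, q.1.2) (((1 - (q.1.1 : ℝ)) * q.2 + q.1.1 * (a + (1 - a) * q.2) : ℝ) :
        UnitAddCircle) := funext fun q => hc.rep_coe _ _ q.2.2
  rw [h]
  have h2 : Continuous fun q : (I × W) × Icc (0 : ℝ) 1 =>
      (C' (c0 p, q.1.2), ((1 - (q.1.1 : ℝ)) * q.2 + q.1.1 * (a + (1 - a) * q.2) : ℝ)) := by
    fun_prop
  exact GLugx576.continuous_evalR.comp h2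

theorem homotopic : (C'.comp ((ContinuousMap.const W (c0 p)).prodMk (ContinuousMap.id W))).Homotopic
    C := by
  refine ⟨⟨⟨fun x => hc.rep x.1 x.2, hc.continuous_rep⟩, fun w => ?_, fun w => ?_⟩⟩
  · show hc.rep 0 w = C' (c0 p, w)
    refine ContinuousMap.ext fun x => ?_
    obtain ⟨t, ht, rfl⟩ := GLugx576.exists_Icc x
    rw [hc.rep_coe _ _ ht]
    have : (1 - ((0 : I) : ℝ)) * t + ((0 : I) : ℝ) * (a + (1 - a) * t) = t := by
      rw [show ((0 : I) : ℝ) = 0 from rfl]; ring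
    rw [this]
  · show hc.rep 1 w = C w
    refine ContinuousMap.ext fun x => ?_
    obtain ⟨t, ht, rfl⟩ := GLugx576.exists_Icc x
    rw [hc.rep_coe _ _ ht, ← hc.right (c0 p) w t ht]
    have : (1 - ((1 : I) : ℝ)) * t + ((1 : I) : ℝ) * (a + (1 - a) * t) = a + (1 - a) * t := by
      rw [show ((1 : I) : ℝ) = 1 from rfl]; ring
    rw [this]

end ConsFam

/-! ### families over `Δ¹ × Q × W` -/

section fam

variable {Q W L : Type} [TopologicalSpace Q] [TopologicalSpace W] [TopologicalSpace L]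

/-- the coordinate of a simplex of `std 1` -/
def crd {n : ℕ} (θ : Op n 1) : C(Sus330.Dl n, I) :=
  Sus330.lam1.comp ⟨stdSimplex.map θ, stdSimplex.continuous_map θ⟩

theorem crd_apply {n : ℕ} (θ : Op n 1) (u : Sus330.Dl n) :
    crd θ u = Sus330.lam1 (stdSimplex.map θ u) := rfl

/-- `(Δ¹ × Sing Q) × Sing W → Sing L` -/
def famW (Φ : C((I × Q) × W, L)) :
    SS.Hom (((SS.std 1).prod (SS.Sing Q)).prod (SS.Sing W)) (SS.Sing L) where
  app n x := Φ.comp (((crd (Sus330.so x.1.1)).prodMk (Sus330.sg x.1.2)).prodMk (Sus330.sg x.2))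
  nat f x := by
    refine ContinuousMap.ext fun u => ?_
    show Φ ((Sus330.lam1 (stdSimplex.map ((Sus330.so x.1.1).comp f) u), _), _) =
      Φ ((Sus330.lam1 (stdSimplex.map (Sus330.so x.1.1) (stdSimplex.map f u)), _), _)
    rw [stdSimplex.map_comp_apply]
    rfl

theorem famW_app (Φ : C((I × Q) × W, L)) {n : ℕ} (θ : Op n 1) (ω : (SS.Sing Q).S n)
    (w : (SS.Sing W).S n) (u : Sus330.Dl n) :
    Sus330.sg ((famW Φ).app n ((θ, ω), w)) u = Φ ((crd θ u, Sus330.sg ω u), Sus330.sg w u) := rfl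

/-- the point of `Δ⁰` -/
def d0 : Sus330.Dl 0 := ⟨fun _ => 1, fun _ => zero_le_one, by simp⟩

theorem eq_d0 (u : Sus330.Dl 0) : u = d0 := Subsingleton.elim _ _

/-- the vertices of `Δ¹ × Sing Q` as points -/
def vpt (v : ((SS.std 1).prod (SS.Sing Q)).S 0) : I × Q :=
  (crd (Sus330.so v.1) d0, Sus330.sg v.2 d0)

theorem crd_comp {m n : ℕ} (θ : Op n 1) (f : Op m n) (u : Sus330.Dl m) :
    crd (θ.comp f) u = crd θ (stdSimplex.map f u) := by
  rw [crd_apply, crd_apply]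
  exact congrArg Sus330.lam1 (stdSimplex.map_comp_apply f θ u).symm

theorem famW_vertex_hom (Φ : C((I × Q) × W, L)) (v : ((SS.std 1).prod (SS.Sing Q)).S 0) :
    (famW Φ).comp (SS.pair (SS.constHom (SS.Sing W) ((SS.std 1).prod (SS.Sing Q)) v)
      (SS.Hom.id (SS.Sing W))) = SS.SingMap (slice Φ (vpt v)) := by
  refine SS.Hom.ext (funext fun n => funext fun x => ContinuousMap.ext fun u => ?_)
  have h1 : crd ((Sus330.so v.1).comp (Sigma88.c0 n)) u = crd (Sus330.so v.1) d0 := by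
    rw [crd_comp, eq_d0 (stdSimplex.map (Sigma88.c0 n) u)]
  have h2 : Sus330.sg v.2 (stdSimplex.map (Sigma88.c0 n) u) = Sus330.sg v.2 d0 := by
    rw [eq_d0 (stdSimplex.map (Sigma88.c0 n) u)]
  exact congrArg₂ (fun s y => Φ ((s, y), Sus330.sg x u)) h1 h2

theorem famW_vertex (Φ : C((I × Q) × W, L)) (v : ((SS.std 1).prod (SS.Sing Q)).S 0)
    (ζ : N F2 (SS.Sing W)) : N.map F2 (famW Φ) (cross F2 (N.sx F2 v) ζ) =
      N.map F2 (SS.SingMap (slice Φ (vpt v))) ζ := by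
  rw [Sigma88.cross_vertex, map_map, famW_vertex_hom]

end fam

/-! ### T-DEG -/

/-- evaluation at `0` -/
def ev0 (M : Type) [MetricSpace M] : C(Lp M, M) :=
  ⟨fun γ => γ 0, continuous_eval_const _⟩

/-- loops with `γ 0 ≠ q` -/
def Uq (q : M) : Set (Lp M) := {γ | γ 0 ≠ q}

variable {p : M} {W : Type} [TopologicalSpace W]

/-- `((s, ω), w) ↦ rot (a s) (C' (ω, w))` -/
def rotFam (a : ℝ) (C' : C(L0 p × W, Lp M)) : C((I × L0 p) × W, Lp M) :=
  ⟨fun x => GLugx576.rot (((a * x.1.1 : ℝ)) : UnitAddCircle) (C' (x.1.2, x.2)), by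
    have h : Continuous fun x : (I × L0 p) × W =>
        ((((a * x.1.1 : ℝ)) : UnitAddCircle), C' (x.1.2, x.2)) := by
      refine Continuous.prodMk ?_ ?_
      · exact (AddCircle.continuous_mk' 1).comp (by fun_prop)
      · fun_prop
    exact GLugx576.continuous_rot.comp h⟩

theorem rotFam_apply (a : ℝ) (C' : C(L0 p × W, Lp M)) (s : I) (ω : L0 p) (w : W) :
    rotFam a C' ((s, ω), w) = GLugx576.rot (((a * s : ℝ)) : UnitAddCircle) (C' (ω, w)) := rfl

theorem ev0_rotFam {a : ℝ} {C' : C(L0 p × W, Lp M)} {C : C(W, Lp M)} (hc : ConsFam a C' C) :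
    (SS.SingMap (ev0 M)).comp (famW (rotFam a C')) = (evS p).comp (SS.fst _ (SS.Sing W)) := by
  refine SS.Hom.ext (funext fun n => funext fun x => ContinuousMap.ext fun u => ?_)
  obtain ⟨⟨θ, ω⟩, w⟩ := x
  show (GLugx576.rot (((a * (crd θ u : I) : ℝ)) : UnitAddCircle)
    (C' (Sus330.sg ω u, Sus330.sg w u))) 0 = (Sus330.sg ω u).1 (((crd θ u : I) : ℝ) : UnitAddCircle)
  rw [GLugx576.rot_apply, zero_add]
  exact hc.left _ _ _ (crd θ u).2

/-- **T-DEG, family form** -/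
theorem tdegW {k : ℕ} (hk : 1 ≤ k) (φ : M ≃ₜ Sph (k + 1)) (q : M) {a : ℝ}
    {C' : C(L0 p × W, Lp M)} {C : C(W, Lp M)} (hc : ConsFam a C' C)
    {z : N F2 (SS.Sing (L0 p))} (hz : z ∈ N.gr F2 (SS.Sing (L0 p)) k) (hb : N.bd F2 _ z = 0)
    (hne : z ∉ LinearMap.range (N.bd F2 (SS.Sing (L0 p))))
    {ζ : N F2 (SS.Sing W)} (hζ : N.bd F2 _ ζ = 0)
    (h0 : N.map F2 (SS.SingMap C) ζ ∉ LinearMap.range (N.bd F2 (SS.Sing (Lp M)))) :
    N.map F2 (famW (rotFam a C')) (cross F2 (cross F2 (io F2 1) z) ζ) ∉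
      RelBd (SS.SingMap (inc (Uq q))) := by
  refine tdeg (famW (rotFam a C')) (SS.SingMap (ev0 M)) (evS p) (ev0_rotFam hc)
    (SS.SingMap (inc (Uq q))) (SS.SingMap (inc {x : M | x ≠ q}))
    (SS.SingMap ⟨fun γ : Uq q => (⟨γ.1 0, γ.2⟩ : {x : M | x ≠ q}), by
      refine Continuous.subtype_mk ?_ _
      exact (continuous_eval_const _).comp continuous_subtype_val⟩) rfl hz
    (sus_rel_ne hk φ p q hz hb hne) ζ (N.map F2 (SS.SingMap C) ζ) h0 fun v => ?_
  rw [famW_vertex]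
  refine map_htpy ?_ hζ
  refine (slice_homotopic (rotFam a C') (b := ((0 : I), c0 p)) ?_).trans ?_
  · exact (PathConnectedSpace.joined _ _).prod (joined_const hk φ p _)
  · have h1 : slice (rotFam a C') ((0 : I), c0 p) =
        C'.comp ((ContinuousMap.const W (c0 p)).prodMk (ContinuousMap.id W)) := by
      refine ContinuousMap.ext fun w => ?_
      show GLugx576.rot (((a * ((0 : I) : ℝ) : ℝ)) : UnitAddCircle) (C' (c0 p, w)) = C' (c0 p, w)
      rw [show ((0 : I) : ℝ) = 0 from rfl, mul_zero]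
      exact GLugx576.rot_zero _
    rw [h1]
    exact hc.homotopic

/-! ### the operator form -/

/-- the path `t ↦ a t` of the circle -/
def pth (a : ℝ) : TActx569.ST.S 1 :=
  (⟨fun x => (((a * (x : Fin 2 → ℝ) 1 : ℝ)) : UnitAddCircle), by
    refine (AddCircle.continuous_mk' (1 : ℝ)).comp ?_
    exact continuous_const.mul ((continuous_apply (1 : Fin 2)).comp continuous_subtype_val)⟩ :
    TActx569.CT 1)

theorem op_pth_hom (a : ℝ) (C' : C(L0 p × W, Lp M)) :
    ((TActx569.LA M).a.comp (SS.prodMap (TActx569.ST.yo (pth a))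
      ((SS.SingMap C').comp (SingAct265.singPair (L0 p) W)))).comp (Coalg847.asc _ _ _) =
      famW (rotFam a C') := by
  refine SS.Hom.ext (funext fun n => funext fun x => ContinuousMap.ext fun u => ?_)
  rfl

theorem op_pth (a : ℝ) (C' : C(L0 p × W, Lp M)) (z : N F2 (SS.Sing (L0 p)))
    (ζ : N F2 (SS.Sing W)) :
    (TActx569.LA M).op (N.sx F2 (pth a))
      (N.map F2 ((SS.SingMap C').comp (SingAct265.singPair (L0 p) W)) (cross F2 z ζ)) =
      N.map F2 (famW (rotFam a C')) (cross F2 (cross F2 (io F2 1) z) ζ) := by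
  rw [TActx569.TAct.op_apply, sx_eq_map_iota F2 (pth a), ← map_cross, map_map, ← op_pth_hom,
    ← EZ847.cross_assoc, map_map]
  rfl

/-- **T-DEG**: `ι_a · (C'_# (z × ζ))` is not a boundary modulo the loops with `γ 0 ≠ q` -/
theorem tdegOp {k : ℕ} (hk : 1 ≤ k) (φ : M ≃ₜ Sph (k + 1)) (q : M) {a : ℝ}
    {C' : C(L0 p × W, Lp M)} {C : C(W, Lp M)} (hc : ConsFam a C' C)
    {z : N F2 (SS.Sing (L0 p))} (hz : z ∈ N.gr F2 (SS.Sing (L0 p)) k) (hb : N.bd F2 _ z = 0)
    (hne : z ∉ LinearMap.range (N.bd F2 (SS.Sing (L0 p))))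
    {ζ : N F2 (SS.Sing W)} (hζ : N.bd F2 _ ζ = 0)
    (h0 : N.map F2 (SS.SingMap C) ζ ∉ LinearMap.range (N.bd F2 (SS.Sing (Lp M)))) :
    (TActx569.LA M).op (N.sx F2 (pth a))
      (N.map F2 ((SS.SingMap C').comp (SingAct265.singPair (L0 p) W)) (cross F2 z ζ)) ∉
      RelBd (SS.SingMap (inc (Uq q))) := by
  rw [op_pth]
  exact tdegW hk φ q hc hz hb hne hζ h0

end Crest.Agent.R231.TDegx961
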