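import Crest.Agent.R231.TopBase_220
import Crest.Agent.R231.GPolyF_943

/-!
# Row 231 (S0357): `BaseHyp (SG g)` without hypotheses (helper220)

* `finite_HS_of_enr` : a compact ENR has finite dimensional homology
* `finStep_of_enr`, `finStep_sphere` : leaf G4
* `baseHyp_sphere'` : `BaseHyp (SG g)` for every finite prime system
-/

set_option autoImplicit false
set_option linter.unusedSectionVars false

noncomputable section

open Bundle Set Filter Function
open scoped Manifold ContDiff Bundle ENNReal Topology
open Crest.GeometryTopology.MTW Crest.GeometryTopology.Geodesic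
open Crest.Agent.R226 Crest.Agent.R226.GeoBasic616 Crest.Agent.R226.TB616
open Crest.Agent.R204

namespace Crest.Agent.R231.TopBasex220

open Pairx877 GLugx576 TActx569 TCx569 IfAx978 Gr334 Instx895 GFinx315 GFinBx315 FinDim315
open PrimeGeox893 CritPMx893 GeoLugx724 GeoBasex724 Frontx893 Asmx895 GPolyx943

section metric

variable {M : Type} [MetricSpace M] [CompactSpace M] {E : Type} [NormedAddCommGroup E]
  [NormedSpace ℝ E]

/-- a compact ENR has finite dimensional homology -/
theorem finite_HS_of_enr (D : ENR M E) : Module.Finite F2 (HS M) := by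
  refine finite_of_retract D.isOpen_U (⟨fun x => ⟨D.ι x, D.ι_mem x⟩, ?_⟩ : C(M, D.U))
    (⟨fun x => D.ρ x, ?_⟩ : C(D.U, M)) fun y => D.ρ_ι y
  · exact D.ι.continuous.subtype_mk _
  · exact continuousOn_iff_continuous_domRestrict.1 D.contOn

/-- leaf G4 -/
theorem finStep_of_enr (D : ENR M E) (L : LUG M) : FinStep M := fun _ _ ha hab =>
  G4_iff.2 (frk_X ha hab.le (finite_HS_of_enr D) (finRk_X D L hab))

end metric

section sphere

variable {n : ℕ} [NeZero n] (g : Met n) (G : GeoData n (SG g))

/-- `(S^n, g)` is an ENR -/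
theorem nonempty_enr : Nonempty (ENR (SG g) (EuclideanSpace ℝ (Fin (n + 1)))) := by
  have hne : Nonempty (SG g) := inferInstance
  obtain ⟨v0⟩ := hne
  exact ⟨(enrSphere (EuclideanSpace ℝ (Fin (n + 1))) v0).congr (toSG g)⟩

theorem finStep_sphere : FinStep (SG g) := by
  obtain ⟨D⟩ := nonempty_enr g
  obtain ⟨G⟩ := nonempty_geoData g
  exact finStep_of_enr D (lug G)

/-- **`BaseHyp (SG g)`** -/
theorem baseHyp_sphere' {ι : Type} [Finite ι] (S : PrimeSys (SG g) G.r₀ ι) : BaseHyp (SG g) :=
  baseHyp_of G S (finStep_sphere g)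

end sphere

end Crest.Agent.R231.TopBasex220
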