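import Crest.Agent.R231.KapOps_482
import Crest.Agent.R231.TOutB_482
import Crest.Agent.R231.TBtc_961
import Crest.Agent.R231.TopFin_220

/-!
# Row 231, block T on `(S^n, g)` (helper482)

`nonempty_tin : Nonempty (TIn (SG g) (n - 1))`, `tout_SG : TOut n (SG g)` and the four outputs in
the form of `Asmx895` (`NeOdd`, `A1sP`, `A3opP`, `A3tauP`), `n ≥ 2`, no hypotheses.
-/

set_option autoImplicit false
set_option linter.unusedSectionVars false

noncomputable section

open Bundle Set Filter Function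
open scoped Manifold ContDiff Bundle ENNReal Topology
open Crest.Agent.R226 Crest.Agent.R226.GeoBasic616 Crest.Agent.R226.TB616
open Crest.Agent.R204

namespace Crest.Agent.R231.TFinx482

open Pairx877 GLugx576 TActx569 TCx569 IfAx978 Gr334 Instx895
open PrimeGeox893 CritPMx893 GeoLugx724 GeoBasex724 Frontx893 Asmx895 BDAx969
open TOutx482 KapOpsx482

variable {n : ℕ} [NeZero n] (g : Met n) (hn : 2 ≤ n)
include hn

theorem nonempty_tin : Nonempty (TIn (SG g) (n - 1)) := by
  obtain ⟨k, rfl⟩ : ∃ k, n = k + 1 := ⟨n - 1, by omega⟩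
  obtain ⟨G⟩ := nonempty_geoData g
  have hne : Nonempty (SG g) := inferInstance
  obtain ⟨p⟩ := hne
  exact TBasx961.tinIn (lug G) (k := k) (by omega) (toSG g).symm p

/-- **block T, the record of helper200** -/
theorem tout_SG : IfPTx200.TOut n (SG g) := by
  obtain ⟨T⟩ := nonempty_tin g hn
  exact tout hn T (kapOps _)

theorem neOdd_SG : NeOdd (SG g) (n - 1) := by
  obtain ⟨T⟩ := nonempty_tin g hn
  exact T.neOdd

theorem A1s_SG : A1sP (SG g) (n - 1) := by
  obtain ⟨T⟩ := nonempty_tin g hn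
  exact T.A1s

theorem A3op_SG (a : ℕ) : A3opP (SG g) (e3 (n - 1) a) := by
  obtain ⟨T⟩ := nonempty_tin g hn
  exact T.A3op_e3 (kapOps _) a

theorem A3tau_SG (a : ℕ) : A3tauP (SG g) (e3 (n - 1) a) := by
  obtain ⟨T⟩ := nonempty_tin g hn
  exact T.A3tau_e3 (kapOps _) a

end Crest.Agent.R231.TFinx482
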