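import Crest.Agent.R231.IfA_978

/-!
# Row 231, block T (helper362): `A1`, `A3op`, `A3tau` of `IfAx978.Core` from strict generators

Abstract part.  `Mix` complex, involution `tau`, base `F0`.

* `TauGen`: every relative cycle is homologous (mod base) to a STRICTLY `tau`-invariant chain;
* `DelGen σ`: in degrees `j ≡ σ + 1` every relative cycle is homologous (mod base) to `z + Δ y` with
  `d z = 0`, `Δ z = 0`, `d y = 0` STRICTLY.

Conclusions: `A3tau`, `A3op` (in every degree), `A1`.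
-/

set_option autoImplicit false

namespace Crest.Agent.R231.TStrictx362

open Crest.Agent.R231.IfAx978

variable {X : Mix}

theorem two_eq {M : Type*} [AddCommGroup M] [Module (ZMod 2) M] (x : M) : x + x = 0 := by
  rw [← two_smul (ZMod 2) x, show (2 : ZMod 2) = 0 from rfl, zero_smul]

theorem mem_Zc_succ {A B : GS X} {j : ℕ} {x : X.C (j + 1)} :
    x ∈ Zc A B (j + 1) ↔ x ∈ B (j + 1) ∧ X.d j x ∈ A j := Iff.rfl

theorem mem_Bd {A B : GS X} {j : ℕ} {x : X.C j} :
    x ∈ Bd A B j ↔ ∃ b ∈ B (j + 1), ∃ f ∈ A j, X.d j b + f = x := by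
  unfold Bd
  rw [Submodule.mem_sup]
  constructor
  · rintro ⟨u, ⟨b, hb, rfl⟩, f, hf, h⟩
    exact ⟨b, hb, f, hf, h⟩
  · rintro ⟨b, hb, f, hf, h⟩
    exact ⟨_, ⟨b, hb, rfl⟩, f, hf, h⟩

/-- absolute cycle -/
def IsCyc : ∀ {j : ℕ}, X.C j → Prop
  | 0, _ => True
  | (j + 1), x => X.d j x = 0

theorem IsCyc.add {j : ℕ} {x y : X.C j} (hx : IsCyc x) (hy : IsCyc y) : IsCyc (x + y) := by
  cases j with
  | zero => trivial
  | succ j => simp only [IsCyc] at *; rw [map_add, hx, hy, add_zero]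

theorem isCyc_zero {j : ℕ} : IsCyc (0 : X.C j) := by
  cases j with
  | zero => trivial
  | succ j => simp [IsCyc]

theorem IsCyc.mem_Zc {A : GS X} {j : ℕ} {x : X.C j} (hx : IsCyc x) : x ∈ Zc A ⊤ j := by
  cases j with
  | zero => exact trivial
  | succ j =>
    refine ⟨trivial, ?_⟩
    simp only [IsCyc] at hx
    rw [SetLike.mem_coe, Submodule.mem_comap, hx]
    exact zero_mem _

/-- every relative cycle is homologous to a strictly `tau`-invariant chain -/
def TauGen (tau : ∀ j, X.C j →ₗ[ZMod 2] X.C j) (F0 : GS X) : Prop :=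
  ∀ j, ∀ x ∈ Zc F0 ⊤ j, ∃ z : X.C j, tau j z = z ∧ x + z ∈ Bd F0 ⊤ j

/-- `z + Δ y` generators in the degrees `≡ σ + 1` -/
def DelGen (F0 : GS X) (σ : ℕ) : Prop :=
  (0 % 2 = (σ + 1) % 2 → ∀ x : X.C 0, ∃ z : X.C 0, X.De 0 z = 0 ∧ x + z ∈ Bd F0 ⊤ 0) ∧
  ∀ j, (j + 1) % 2 = (σ + 1) % 2 → ∀ x ∈ Zc F0 ⊤ (j + 1), ∃ (z : X.C (j + 1)) (y : X.C j),
    IsCyc z ∧ X.De (j + 1) z = 0 ∧ IsCyc y ∧ x + z + X.De j y ∈ Bd F0 ⊤ (j + 1)

section tau

variable {tau : ∀ j, X.C j →ₗ[ZMod 2] X.C j} {F0 : GS X}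
  (tt : ∀ j x, tau j (tau j x) = x) (dt : ∀ j x, X.d j (tau (j + 1) x) = tau j (X.d j x))
  (ft : ∀ j x, x ∈ F0 j → tau j x ∈ F0 j)

include dt ft in
theorem tau_Bd {j : ℕ} {x : X.C j} (hx : x ∈ Bd F0 ⊤ j) : tau j x ∈ Bd F0 ⊤ j := by
  obtain ⟨b, -, f, hf, rfl⟩ := mem_Bd.1 hx
  exact mem_Bd.2 ⟨tau _ b, trivial, tau _ f, ft _ _ hf, by rw [map_add, dt]⟩

include dt ft in
/-- `tau` is trivial on the relative homology -/
theorem a3tau (G : TauGen tau F0) (j : ℕ) (x : X.C j) (hx : x ∈ Zc F0 ⊤ j) :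
    x + tau j x ∈ Bd F0 ⊤ j := by
  obtain ⟨z, hz, h⟩ := G j x hx
  have h2 := add_mem h (tau_Bd dt ft h)
  have e : x + z + tau j (x + z) = x + tau j x := by
    rw [map_add, hz]
    have : x + z + (tau j x + z) = x + tau j x + (z + z) := by abel
    rw [this, two_eq, add_zero]
  rwa [e] at h2

include tt dt ft in
/-- the transfer of a two term `tau`-Borel cycle is a boundary -/
theorem a3op (G : TauGen tau F0) (e : ℕ) (m0 : X.C (e + 1)) (m1 : X.C e)
    (h1 : m1 ∈ Zc F0 ⊤ e) (h0 : X.d e m0 + (m1 + tau _ m1) ∈ F0 e) :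
    m0 + tau _ m0 ∈ Bd F0 ⊤ (e + 1) := by
  obtain ⟨z, hz, hb⟩ := G e m1 h1
  obtain ⟨c, -, f, hf, hcf⟩ := mem_Bd.1 hb
  -- the corrected chain
  have hm : m0 + (c + tau _ c) ∈ Zc F0 ⊤ (e + 1) := by
    refine ⟨trivial, ?_⟩
    change X.d e (m0 + (c + tau _ c)) ∈ F0 e
    rw [map_add, map_add, dt]
    have hc : X.d e c = m1 + z + f := by
      rw [← hcf, add_assoc, two_eq, add_zero]
    rw [hc, map_add, map_add, hz]
    have e1 : X.d e m0 + (m1 + z + f + (tau e m1 + z + tau e f))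
        = (X.d e m0 + (m1 + tau e m1)) + (f + tau e f) + (z + z) := by abel
    rw [e1, two_eq, add_zero]
    exact add_mem h0 (add_mem hf (ft _ _ hf))
  have h2 := a3tau dt ft G (e + 1) _ hm
  have e2 : m0 + (c + tau _ c) + tau (e + 1) (m0 + (c + tau _ c)) = m0 + tau _ m0 := by
    rw [map_add, map_add, tt]
    have : m0 + (c + tau (e + 1) c) + (tau (e + 1) m0 + (tau (e + 1) c + c))
        = m0 + tau (e + 1) m0 + (c + c) + (tau (e + 1) c + tau (e + 1) c) := by abel
    rw [this, two_eq, two_eq, add_zero, add_zero]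
  rwa [e2] at h2

end tau

/-! ### `A1` -/

section A1

/-- one chain in one degree -/
noncomputable def sg (j : ℕ) (x : X.C j) : ∀ i, X.C i := Pi.single j x

theorem sg_same (j : ℕ) (x : X.C j) : sg j x j = x := Pi.single_eq_same _ _
theorem sg_ne {i j : ℕ} (h : i ≠ j) (x : X.C j) : sg j x i = 0 := Pi.single_eq_of_ne h _

theorem DD_DD (c : ∀ j, X.C j) : DD (DD c) = 0 := by
  funext j
  match j with
  | 0 =>
    rw [DD_zero', DD_succ', map_add, X.dd, X.dDe0, add_zero]; rfl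
  | 1 =>
    have h : X.d 1 (X.d 2 (c 3) + X.De 1 (c 1)) + X.De 0 (X.d 0 (c 1)) = 0 := by
      rw [map_add, X.dd, X.dDe, zero_add (X.De 0 (X.d 0 (c 1)))]
      exact two_eq _
    exact h
  | (j + 2) =>
    have h : X.d (j + 2) (X.d (j + 3) (c (j + 4)) + X.De (j + 2) (c (j + 2))) +
        X.De (j + 1) (X.d (j + 1) (c (j + 2)) + X.De j (c j)) = 0 := by
      rw [map_add, map_add, X.dd, X.dDe, X.DeDe, zero_add, add_zero]
      exact two_eq _
    exact h

variable {F0 : GS X}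

/-- `DD` of one chain, membership in the base -/
theorem DD_sg_mem {l : ℕ} {x : X.C l} (h1 : ∀ i, l = i + 1 → ∀ y : X.C (i + 1), HEq x y → X.d i y ∈ F0 i)
    (h2 : X.De l x ∈ F0 (l + 1)) (i : ℕ) : DD (sg l x) i ∈ F0 i := by
  cases i with
  | zero =>
    rw [DD_zero']
    by_cases h : l = 1
    · subst h
      rw [sg_same]
      exact h1 0 rfl x HEq.rfl
    · rw [sg_ne (Ne.symm h), map_zero]; exact zero_mem _
  | succ i =>
    rw [DD_succ']
    refine add_mem ?_ ?_
    · by_cases h : l = i + 2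
      · subst h
        rw [sg_same]
        exact h1 (i + 1) rfl x HEq.rfl
      · rw [sg_ne (Ne.symm h), map_zero]; exact zero_mem _
    · by_cases h : l = i
      · subst h
        rw [sg_same]
        exact h2
      · rw [sg_ne (Ne.symm h), map_zero]; exact zero_mem _

theorem DD_sg_cyc {l : ℕ} {x : X.C l} (h1 : IsCyc x) (h2 : X.De l x = 0) : DD (sg l x) = 0 := by
  have := fun i => DD_sg_mem (F0 := (⊥ : GS X)) (l := l) (x := x) (by
    rintro i rfl y hy
    cases hy
    have h1' : X.d i x = 0 := h1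
    rw [h1']; exact zero_mem _) (by rw [h2]; exact zero_mem _) i
  funext i
  exact (Submodule.mem_bot _).1 (this i)

theorem DD_sg_base (hF : Stab F0) {l : ℕ} {x : X.C l} (hx : x ∈ F0 l) (i : ℕ) :
    DD (sg l x) i ∈ F0 i :=
  DD_sg_mem (by rintro i rfl y hy; cases hy; exact hF.d _ _ hx) (hF.De _ _ hx) i

/-- value of `DD (sg l x)` in degree `k` with `l = k + 1` -/
theorem DD_sg_down {k : ℕ} (x : X.C (k + 1)) : DD (sg (k + 1) x) k = X.d k x := by
  cases k with
  | zero => rw [DD_zero', sg_same]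
  | succ k =>
    rw [DD_succ', sg_same, sg_ne (by omega), map_zero, add_zero]

theorem DD_sg_up {k : ℕ} (x : X.C k) : DD (sg k x) (k + 1) = X.De k x := by
  rw [DD_succ', sg_same, sg_ne (by omega), map_zero, zero_add]

theorem DD_sg_far {k i : ℕ} (x : X.C k) (h1 : i ≠ k + 1) (h2 : i + 1 ≠ k) : DD (sg k x) i = 0 := by
  cases i with
  | zero => rw [DD_zero', sg_ne (by omega), map_zero]
  | succ i => rw [DD_succ', sg_ne (by omega), sg_ne (by omega), map_zero, map_zero, add_zero]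

theorem DD_sg_low {k i : ℕ} (x : X.C k) (hx : IsCyc x) (h1 : i ≠ k + 1) : DD (sg k x) i = 0 := by
  by_cases h2 : i + 1 = k
  · subst h2
    rw [DD_sg_down]; exact hx
  · exact DD_sg_far x h1 h2

/-- one step of the reduction -/
theorem step (hF : Stab F0) {σ : ℕ} (G : DelGen F0 σ) {j l : ℕ} (hl : l % 2 = (σ + 1) % 2)
    (hlj : l < j) (c : ∀ i, X.C i) (hc : ∀ i, i < j → DD c i ∈ F0 i)
    (h0 : ∀ i, i < l → i % 2 = l % 2 → c i = 0) :
    ∃ c' : ∀ i, X.C i, (∀ i, DD c i + DD c' i ∈ F0 i) ∧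
      ∀ i, i < l + 2 → i % 2 = l % 2 → c' i = 0 := by
  cases l with
  | zero =>
    obtain ⟨z, hz, hb⟩ := G.1 hl (c 0)
    obtain ⟨b, -, f, hf, hbf⟩ := mem_Bd.1 hb
    refine ⟨c + (sg 0 z + (sg 0 f + DD (sg 1 b))), fun i => ?_, ?_⟩
    · rw [map_add, map_add, map_add, DD_DD, DD_sg_cyc (x := z) trivial hz, zero_add, add_zero]
      rw [Pi.add_apply, ← add_assoc, two_eq, zero_add]
      exact DD_sg_base hF hf i
    · intro i hi h2
      obtain rfl : i = 0 := by omega
      simp only [Pi.add_apply, sg_same]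
      rw [DD_sg_down (k := 0) b]
      have : c 0 + (z + (f + X.d 0 b)) = (c 0 + z) + (X.d 0 b + f) := by abel
      rw [this, hbf, two_eq]
  | succ l =>
    have hcl : c (l + 1) ∈ Zc F0 ⊤ (l + 1) := by
      refine ⟨trivial, ?_⟩
      change X.d l (c (l + 1)) ∈ F0 l
      have h1 := hc l (by omega)
      cases l with
      | zero => exact h1
      | succ l =>
        rw [DD_succ', h0 l (by omega) (by omega), map_zero, add_zero] at h1
        exact h1
    obtain ⟨z, y, hzc, hz, hy, hb⟩ := G.2 l hl _ hcl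
    obtain ⟨b, -, f, hf, hbf⟩ := mem_Bd.1 hb
    refine ⟨c + (sg (l + 1) z + (sg (l + 1) f + DD (sg (l + 2) b + sg l y))), fun i => ?_, ?_⟩
    · rw [map_add, map_add, map_add, DD_DD, DD_sg_cyc hzc hz, zero_add, add_zero]
      rw [Pi.add_apply, ← add_assoc, two_eq, zero_add]
      exact DD_sg_base hF hf i
    · intro i hi h2
      rw [map_add]
      simp only [Pi.add_apply]
      rcases lt_or_eq_of_le (show i ≤ l + 1 by omega) with h | rfl
      · rw [h0 i h h2, sg_ne (by omega), sg_ne (by omega), DD_sg_far b (by omega) (by omega),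
          DD_sg_low y hy (by omega)]
        simp
      · rw [sg_same, sg_same, DD_sg_down (k := l + 1) b, DD_sg_up]
        have : c (l + 1) + (z + (f + (X.d (l + 1) b + X.De l y)))
            = (c (l + 1) + z + X.De l y) + (X.d (l + 1) b + f) := by abel
        rw [this, hbf, two_eq]

/-- iteration: make all components of the relevant parity below `l` zero -/
theorem steps (hF : Stab F0) {σ : ℕ} (G : DelGen F0 σ) {j : ℕ} (hj : j % 2 = σ % 2)
    (c : ∀ i, X.C i) (hc : ∀ i, i < j → DD c i ∈ F0 i) (l : ℕ) (hl : l ≤ j + 1)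
    (hp : l % 2 = (j + 1) % 2) :
    ∃ c' : ∀ i, X.C i, (∀ i, DD c i + DD c' i ∈ F0 i) ∧ ∀ i, i < l → i % 2 = l % 2 → c' i = 0 := by
  induction l using Nat.strong_induction_on with
  | _ l ih =>
    by_cases h2 : l < 2
    · refine ⟨c, fun i => by rw [two_eq]; exact zero_mem _, fun i hi hi2 => ?_⟩
      omega
    · obtain ⟨c', h1, h3⟩ := ih (l - 2) (by omega) (by omega) (by omega)
      have hc' : ∀ i, i < j → DD c' i ∈ F0 i := fun i hi => by
        have := add_mem (h1 i) (hc i hi)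
        have e : DD c i + DD c' i + DD c i = DD c' i + (DD c i + DD c i) := by abel
        rwa [e, two_eq, add_zero] at this
      obtain ⟨c'', h4, h5⟩ := step hF G (j := j) (l := l - 2) (by omega) (by omega) c' hc' h3
      refine ⟨c'', fun i => ?_, fun i hi hi2 => h5 i (by omega) (by omega)⟩
      have := add_mem (h1 i) (h4 i)
      have e : DD c i + DD c' i + (DD c' i + DD c'' i) = DD c i + DD c'' i + (DD c' i + DD c' i) := by
        abel
      rwa [e, two_eq, add_zero] at this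

/-- `Core.A1` -/
theorem a1 (hF : Stab F0) {σ : ℕ} (G : DelGen F0 σ) (j : ℕ) (hj : j % 2 = σ % 2)
    (c : ∀ i, X.C i) (hc : ∀ i, i < j → DD c i ∈ F0 i) : DD c j ∈ Bd F0 ⊤ j := by
  obtain ⟨c', h1, h2⟩ := steps hF G hj c hc (j + 1) le_rfl rfl
  have h3 : DD c' j = X.d j (c' (j + 1)) := by
    cases j with
    | zero => rfl
    | succ j => rw [DD_succ', h2 j (by omega) (by omega), map_zero, add_zero]
  have h4 := h1 j
  refine mem_Bd.2 ⟨c' (j + 1), trivial, DD c j + DD c' j, h4, ?_⟩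
  rw [← h3]
  have : DD c' j + (DD c j + DD c' j) = DD c j + (DD c' j + DD c' j) := by abel
  rw [this, two_eq, add_zero]

end A1

end Crest.Agent.R231.TStrictx362
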