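import Crest.Agent.R231.Tate_432

/-!
# Row 231, block H, leaf H2, second part (helper432): homotopies given on a graded submodule

`K` and `φ`, `ψ` are linear maps everywhere, but the identities `K g = g K`, `K h = h K`,
`dK + Kd = φ + ψ` hold only on a graded submodule `B`.

* `KP_DT_on`, `KP_DZ_on` : homotopy identities on `PB B`
* `acyS_six` (abstract two out of six), `acyT_six_on`, `acyZ_six_on`
* `smith_six_on` (K commutes with `g`, `h`), `smith_sixZ_on` (K commutes with `g` only)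
-/

set_option autoImplicit false

namespace Crest.Agent.R231.Tatex432

open Crest.Agent.R204 TCx569 Function

section Abs

variable {R P : Type*} [CommRing R] [AddCommGroup P] [Module R P]

/-- **abstract two out of six**: `Y ≤ V ≤ W ≤ W'`, `Y' ≤ W'`; `ρ : V → Y'`, `ρ = 1` on `Y`,
`1 - ρ = DK + KD` on `V` with values of `K` in `W'`. -/
theorem acyS_six {D K ρ : P →ₗ[R] P} (sq : ∀ x, D (D x) = 0) {Y V W Y' W' : Submodule R P}
    (hYV : Y ≤ V) (hVW : V ≤ W) (hWW : W ≤ W') (hYW : Y' ≤ W') (hDV : ∀ x ∈ V, D x ∈ V)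
    (hρ : ∀ x ∈ V, ρ x ∈ Y') (hρY : ∀ x ∈ Y, ρ x = x) (hK : ∀ x ∈ V, K x ∈ W')
    (hDK : ∀ x ∈ V, D (K x) + K (D x) = x - ρ x)
    (h1 : AcyS D Y Y') (h2 : AcyS D V W) (h3 : AcyS D W W') : AcyS D Y W := by
  have h23 : AcyS D V W' := AcyS.trans sq hVW hWW h2 h3
  refine AcyS.trans sq hYV hVW ?_ h2
  intro v hv hdv
  -- `ρ` commutes with `D` on `V`
  have hcomm : ∀ x ∈ V, D (ρ x) = ρ (D x) := by
    intro x hx
    have e1 : ρ x = x - (D (K x) + K (D x)) := by rw [hDK x hx]; abel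
    have e2 : ρ (D x) = D x - (D (K (D x)) + K (D (D x))) := by rw [hDK _ (hDV x hx)]; abel
    rw [e2, e1, sq, map_zero, add_zero, map_sub, map_add, sq, zero_add]
  have hdρ : D (ρ v) = D v := by rw [hcomm v hv, hρY _ hdv]
  obtain ⟨c, hc, h4⟩ := h1 (ρ v) (hρ v hv) (by rw [hdρ]; exact hdv)
  -- `u = v - (ρ v + D c)` is a cycle in `V`
  have hyV : ρ v + D c ∈ V := hYV h4
  have hu : v - (ρ v + D c) ∈ V := V.sub_mem hv hyV
  have hDu : D (v - (ρ v + D c)) = 0 := by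
    rw [map_sub, map_add, sq, add_zero, hdρ, sub_self]
  have hρu : ρ (v - (ρ v + D c)) = -(D c) := by
    rw [map_sub, hρY _ h4]
    abel
  have hb : v - (ρ v + D c) = D (K (v - (ρ v + D c)) - c) := by
    have := hDK _ hu
    rw [hDu, map_zero, add_zero, hρu, sub_neg_eq_add] at this
    rw [map_sub, this]
    abel
  obtain ⟨e, -, he⟩ := h23 (K (v - (ρ v + D c)) - c) (W'.sub_mem (hK _ hu) (hYW hc))
    (by rw [← hb]; exact hu)
  refine ⟨-(K (v - (ρ v + D c)) - c + D e), V.neg_mem he, ?_⟩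
  rw [map_neg, map_add, sq, add_zero, ← hb]
  have : v + -(v - (ρ v + D c)) = ρ v + D c := by abel
  rw [this]
  exact h4

end Abs

section On

variable {X Y : TC} (K : ∀ j, X.C j →ₗ[F2] Y.C (j + 1)) (φ ψ : ∀ j, X.C j →ₗ[F2] Y.C j)

/-- degree one operator between the products -/
def upX : X.P →ₗ[F2] Y.P where
  toFun c n := match n with
    | 0 => 0
    | n + 1 => K n (c n)
  map_add' a b := by
    funext n
    rcases n with _ | n
    · exact (add_zero (0 : Y.C 0)).symm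
    · exact map_add (K n) _ _
  map_smul' r a := by
    funext n
    rcases n with _ | n
    · exact (smul_zero r).symm
    · exact map_smul (K n) _ _

/-- degree zero operator between the products -/
def zrX : X.P →ₗ[F2] Y.P where
  toFun c n := φ n (c n)
  map_add' _ _ := funext fun n => map_add (φ n) _ _
  map_smul' _ _ := funext fun n => map_smul (φ n) _ _

@[simp] theorem upX_zero (c : X.P) : upX K c 0 = 0 := rfl
@[simp] theorem upX_succ (c : X.P) (n : ℕ) : upX K c (n + 1) = K n (c n) := rfl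
@[simp] theorem zrX_apply (c : X.P) (n : ℕ) : zrX φ c n = φ n (c n) := rfl

variable {K φ ψ} {B : GS X}

theorem upX_g (hg : ∀ j, ∀ x ∈ B j, K j (X.g j x) = Y.g (j + 1) (K j x)) {c : X.P} (hc : c ∈ PB B) :
    upX K (X.gP c) = Y.gP (upX K c) := by
  funext n
  rcases n with _ | n
  · exact (map_zero (Y.g 0)).symm
  · exact hg n _ (hc n)

theorem upX_h (hh : ∀ j, ∀ x ∈ B j, K (j + 1) (X.h j x) = Y.h (j + 1) (K j x)) {c : X.P}
    (hc : c ∈ PB B) : upX K (X.hP c) = Y.hP (upX K c) := by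
  funext n
  rcases n with _ | _ | n
  · rfl
  · show K 0 0 = Y.h 0 0
    rw [map_zero, map_zero]
  · exact hh n _ (hc n)

theorem upX_d (h0 : ∀ x ∈ B 0, Y.d 0 (K 0 x) = φ 0 x + ψ 0 x)
    (hs : ∀ j, ∀ x ∈ B (j + 1), Y.d (j + 1) (K (j + 1) x) + K j (X.d j x) =
      φ (j + 1) x + ψ (j + 1) x) {c : X.P} (hc : c ∈ PB B) :
    Y.dP (upX K c) + upX K (X.dP c) = zrX φ c + zrX ψ c := by
  funext n
  rcases n with _ | n
  · show Y.d 0 (K 0 (c 0)) + 0 = φ 0 (c 0) + ψ 0 (c 0)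
    rw [add_zero, h0 _ (hc 0)]
  · exact hs n _ (hc _)

/-- homotopy identity for `d + Δ` on `PB B` -/
theorem KP_DT_on (hg : ∀ j, ∀ x ∈ B j, K j (X.g j x) = Y.g (j + 1) (K j x))
    (hh : ∀ j, ∀ x ∈ B j, K (j + 1) (X.h j x) = Y.h (j + 1) (K j x))
    (h0 : ∀ x ∈ B 0, Y.d 0 (K 0 x) = φ 0 x + ψ 0 x)
    (hs : ∀ j, ∀ x ∈ B (j + 1), Y.d (j + 1) (K (j + 1) x) + K j (X.d j x) =
      φ (j + 1) x + ψ (j + 1) x) (hB : StH B) {c : X.P} (hc : c ∈ PB B) :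
    Y.DT (upX K c) + upX K (X.DT c) = zrX φ c + zrX ψ c := by
  rw [TC.DT_apply, TC.DT_apply, map_add, map_add, upX_g hg (hP_mem hB hc), upX_h hh hc,
    ← upX_d h0 hs hc]
  have : Y.dP (upX K c) + (Y.hP (upX K c) + Y.gP (Y.hP (upX K c))) +
      (upX K (X.dP c) + (Y.hP (upX K c) + Y.gP (Y.hP (upX K c)))) =
      Y.dP (upX K c) + upX K (X.dP c) + ((Y.hP (upX K c) + Y.gP (Y.hP (upX K c))) +
      (Y.hP (upX K c) + Y.gP (Y.hP (upX K c)))) := by abel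
  rw [this, TC.add_self, add_zero]

/-- homotopy identity for `d + 1 + g` on `PB B` -/
theorem KP_DZ_on (hg : ∀ j, ∀ x ∈ B j, K j (X.g j x) = Y.g (j + 1) (K j x))
    (h0 : ∀ x ∈ B 0, Y.d 0 (K 0 x) = φ 0 x + ψ 0 x)
    (hs : ∀ j, ∀ x ∈ B (j + 1), Y.d (j + 1) (K (j + 1) x) + K j (X.d j x) =
      φ (j + 1) x + ψ (j + 1) x) {c : X.P} (hc : c ∈ PB B) :
    Y.DZ (upX K c) + upX K (X.DZ c) = zrX φ c + zrX ψ c := by
  rw [TC.DZ_apply, TC.DZ_apply, map_add, map_add, upX_g hg hc, ← upX_d h0 hs hc]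
  have : Y.dP (upX K c) + upX K c + Y.gP (upX K c) +
      (upX K (X.dP c) + upX K c + Y.gP (upX K c)) =
      Y.dP (upX K c) + upX K (X.dP c) + (upX K c + upX K c) +
      (Y.gP (upX K c) + Y.gP (upX K c)) := by abel
  rw [this, TC.add_self, TC.add_self, add_zero, add_zero]

theorem upX_mem {B' : GS Y} (h : ∀ j, ∀ x ∈ B j, K j x ∈ B' (j + 1)) {c : X.P} (hc : c ∈ PB B) :
    upX K c ∈ PB B' := by
  intro j
  rcases j with _ | j
  · exact (B' 0).zero_mem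
  · exact h j _ (hc j)

theorem zrX_mem {B' : GS Y} (h : ∀ j, ∀ x ∈ B j, φ j x ∈ B' j) {c : X.P} (hc : c ∈ PB B) :
    zrX φ c ∈ PB B' := fun j => h j _ (hc j)

end On

section Six

variable {X : TC} {K : ∀ j, X.C j →ₗ[F2] X.C (j + 1)} {ρ : ∀ j, X.C j →ₗ[F2] X.C j}
  {Y V W Y' W' : GS X}

theorem sub_eq_add' {M : Type*} [AddCommGroup M] [Module F2 M] (x y : M) : x - y = x + y := by
  rw [sub_eq_iff_eq_add, add_assoc, TC.add_self, add_zero]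

theorem zrX_one (c : X.P) : zrX (fun j => (LinearMap.id : X.C j →ₗ[F2] X.C j)) c = c := rfl

/-- two out of six for `d + Δ`, data given on `V` -/
theorem acyT_six_on
    (hYV : ∀ j, Y j ≤ V j) (hVW : ∀ j, V j ≤ W j) (hWW : ∀ j, W j ≤ W' j)
    (hYW : ∀ j, Y' j ≤ W' j) (hVd : StD V) (hVg : StG V) (hVh : StH V)
    (hg : ∀ j, ∀ x ∈ V j, K j (X.g j x) = X.g (j + 1) (K j x))
    (hh : ∀ j, ∀ x ∈ V j, K (j + 1) (X.h j x) = X.h (j + 1) (K j x))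
    (h0 : ∀ x ∈ V 0, X.d 0 (K 0 x) = x + ρ 0 x)
    (hs : ∀ j, ∀ x ∈ V (j + 1), X.d (j + 1) (K (j + 1) x) + K j (X.d j x) = x + ρ (j + 1) x)
    (hρ : ∀ j, ∀ x ∈ V j, ρ j x ∈ Y' j) (hρY : ∀ j, ∀ x ∈ Y j, ρ j x = x)
    (hK : ∀ j, ∀ x ∈ V j, K j x ∈ W' (j + 1))
    (h1 : AcyT Y Y') (h2 : AcyT V W) (h3 : AcyT W W') : AcyT Y W := by
  refine acyS_six (K := upX K) (ρ := zrX ρ) X.DT_DT (PB_mono hYV) (PB_mono hVW) (PB_mono hWW)
    (PB_mono hYW) (fun _ => DT_mem hVd hVg hVh) (fun _ => zrX_mem hρ)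
    (fun x hx => funext fun j => hρY j _ (hx j)) (fun _ => upX_mem hK) ?_ h1 h2 h3
  intro x hx
  rw [sub_eq_add', KP_DT_on (φ := fun j => LinearMap.id) (ψ := ρ) hg hh h0 hs hVh hx, zrX_one]

/-- two out of six for `d + 1 + g`, data given on `V` -/
theorem acyZ_six_on
    (hYV : ∀ j, Y j ≤ V j) (hVW : ∀ j, V j ≤ W j) (hWW : ∀ j, W j ≤ W' j)
    (hYW : ∀ j, Y' j ≤ W' j) (hVd : StD V) (hVg : StG V)
    (hg : ∀ j, ∀ x ∈ V j, K j (X.g j x) = X.g (j + 1) (K j x))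
    (h0 : ∀ x ∈ V 0, X.d 0 (K 0 x) = x + ρ 0 x)
    (hs : ∀ j, ∀ x ∈ V (j + 1), X.d (j + 1) (K (j + 1) x) + K j (X.d j x) = x + ρ (j + 1) x)
    (hρ : ∀ j, ∀ x ∈ V j, ρ j x ∈ Y' j) (hρY : ∀ j, ∀ x ∈ Y j, ρ j x = x)
    (hK : ∀ j, ∀ x ∈ V j, K j x ∈ W' (j + 1))
    (h1 : AcyZ Y Y') (h2 : AcyZ V W) (h3 : AcyZ W W') : AcyZ Y W := by
  refine acyS_six (K := upX K) (ρ := zrX ρ) X.DZ_DZ (PB_mono hYV) (PB_mono hVW) (PB_mono hWW)
    (PB_mono hYW) (fun _ => DZ_mem hVd hVg) (fun _ => zrX_mem hρ)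
    (fun x hx => funext fun j => hρY j _ (hx j)) (fun _ => upX_mem hK) ?_ h1 h2 h3
  intro x hx
  rw [sub_eq_add', KP_DZ_on (φ := fun j => LinearMap.id) (ψ := ρ) hg h0 hs hx, zrX_one]

variable {ψ : ∀ j, X.C j →ₗ[F2] X.C j} {A B B' E E' : GS X}

/-- **Smith isomorphism**, `K` commutes with `g` and `h` on `V`
(`A = F 0`, `B = F t`, `E = F t'`, `B' = F (t/2)`, `E' = F (t'/2)`) -/
theorem smith_six_on (hi : ∀ j, Injective (ψ j)) (hd : ∀ j x, X.d j (ψ (j + 1) x) = ψ j (X.d j x))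
    (hDe : ∀ j x, X.h j (ψ j x) + X.g (j + 1) (X.h j (ψ j x)) = 0)
    (hAB' : ∀ j, A j ≤ im ψ B' j) (hA : ∀ j x, ψ j x ∈ A j → x ∈ A j)
    (hBV : ∀ j, im ψ B' j ≤ V j) (hVB : ∀ j, V j ≤ B j) (hBE : ∀ j, B j ≤ E j)
    (hBE' : ∀ j, B' j ≤ E' j) (hEE : ∀ j, im ψ E' j ≤ E j)
    (hBd : StD B) (hBg : StG B) (hBh : StH B) (hEd : StD E) (hEg : StG E) (hEh : StH E)
    (hB'd : StD (im ψ B')) (hB'g : StG (im ψ B')) (hB'h : StH (im ψ B'))
    (hE'd : StD (im ψ E')) (hE'g : StG (im ψ E')) (hE'h : StH (im ψ E'))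
    (hVd : StD V) (hVg : StG V) (hVh : StH V)
    (hg : ∀ j, ∀ x ∈ V j, K j (X.g j x) = X.g (j + 1) (K j x))
    (hh : ∀ j, ∀ x ∈ V j, K (j + 1) (X.h j x) = X.h (j + 1) (K j x))
    (h0 : ∀ x ∈ V 0, X.d 0 (K 0 x) = x + ρ 0 x)
    (hs : ∀ j, ∀ x ∈ V (j + 1), X.d (j + 1) (K (j + 1) x) + K j (X.d j x) = x + ρ (j + 1) x)
    (hρ : ∀ j, ∀ x ∈ V j, ρ j x ∈ im ψ E' j) (hρY : ∀ j, ∀ x ∈ im ψ B' j, ρ j x = x)
    (hK : ∀ j, ∀ x ∈ V j, K j x ∈ E (j + 1))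
    (h1 : Acy B' E') (h2 : AcyT V B) (h3 : Acy B E) :
    IfAx978.Smith (X := mix X) ψ A B A B' := by
  refine smith_of_acyT hd hDe hAB' hA ?_
  refine acyT_six_on hBV hVB hBE hEE hVd hVg hVh hg hh h0 hs hρ hρY hK ?_ h2 ?_
  · exact acyT_of_acy (fun j => Submodule.map_mono (hBE' j)) hB'd hB'g hB'h hE'd hE'g hE'h
      (acy_im hi hd h1)
  · exact acyT_of_acy hBE hBd hBg hBh hEd hEg hEh h3

/-- **Smith isomorphism**, `K` commutes with `g` on `V` (`Z/2`-form); `h` is only used for the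
stability of `B = F t` and `im ψ B'` -/
theorem smith_sixZ_on (hi : ∀ j, Injective (ψ j)) (hd : ∀ j x, X.d j (ψ (j + 1) x) = ψ j (X.d j x))
    (hDe : ∀ j x, X.h j (ψ j x) + X.g (j + 1) (X.h j (ψ j x)) = 0)
    (hAB' : ∀ j, A j ≤ im ψ B' j) (hA : ∀ j x, ψ j x ∈ A j → x ∈ A j)
    (hBV : ∀ j, im ψ B' j ≤ V j) (hVB : ∀ j, V j ≤ B j) (hBE : ∀ j, B j ≤ E j)
    (hBE' : ∀ j, B' j ≤ E' j) (hEE : ∀ j, im ψ E' j ≤ E j)
    (hBd : StD B) (hBg : StG B) (hBh : StH B) (hEd : StD E) (hEg : StG E)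
    (hB'd : StD (im ψ B')) (hB'g : StG (im ψ B')) (hB'h : StH (im ψ B'))
    (hE'd : StD (im ψ E')) (hE'g : StG (im ψ E'))
    (hVd : StD V) (hVg : StG V)
    (hg : ∀ j, ∀ x ∈ V j, K j (X.g j x) = X.g (j + 1) (K j x))
    (h0 : ∀ x ∈ V 0, X.d 0 (K 0 x) = x + ρ 0 x)
    (hs : ∀ j, ∀ x ∈ V (j + 1), X.d (j + 1) (K (j + 1) x) + K j (X.d j x) = x + ρ (j + 1) x)
    (hρ : ∀ j, ∀ x ∈ V j, ρ j x ∈ im ψ E' j) (hρY : ∀ j, ∀ x ∈ im ψ B' j, ρ j x = x)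
    (hK : ∀ j, ∀ x ∈ V j, K j x ∈ E (j + 1))
    (h1 : Acy B' E') (h2 : AcyZ V B) (h3 : Acy B E) :
    IfAx978.Smith (X := mix X) ψ A B A B' := by
  refine smith_of_acyT hd hDe hAB' hA ((acyZ_iff_acyT hB'h hBh).1 ?_)
  refine acyZ_six_on hBV hVB hBE hEE hVd hVg hg h0 hs hρ hρY hK ?_ h2 ?_
  · exact acyZ_of_acy (fun j => Submodule.map_mono (hBE' j)) hB'd hB'g hE'd hE'g (acy_im hi hd h1)
  · exact acyZ_of_acy hBE hBd hBg hEd hEg h3

end Six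

end Crest.Agent.R231.Tatex432
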