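import Crest.Agent.R231.CXb_780
import Crest.Agent.R231.PairGr_877
import Crest.Agent.R231.CapCS_780
import Crest.Agent.R204.CopH_847

/-!
# Row 231, block P, leaf (V), hedge (helper530): localised cap product

`Y = U ∪ V` open, `ψ` a cocycle on `Y` which vanishes on the chains of `U`.
`lc : HS Y →ₗ HS V`, `lc [z] = [cap ψ z]` for every cycle `z ∈ CS U ⊔ CS V`.
-/

set_option autoImplicit false

noncomputable section

namespace Crest.Agent.R231.Thx530

open Set Topology Function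
open Crest.Agent.R204 FinDim315 CXx780 Capx226 CapCSx780 Pairx877 CrossCSx780
open Crest.Agent.R204.SpecA (Hm)

/-! ## general facts -/

section gen

variable {X Y : Type} [TopologicalSpace X] [TopologicalSpace Y]

/-- class of a cycle -/
def cl (z : CE X) (hz : bdE X z = 0) : HS X := Hd.mk _ z hz

theorem cl_surj (a : HS X) : ∃ z, ∃ hz : bdE X z = 0, a = cl z hz := by
  obtain ⟨z, hz, h⟩ := Hd.mk_surj _ a
  exact ⟨z, hz, h⟩

theorem cl_eq {z z' : CE X} {hz : bdE X z = 0} {hz' : bdE X z' = 0} :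
    cl z hz = cl z' hz' ↔ ∃ w, bdE X w = z - z' := Hd.mk_eq_mk

theorem cl_congr {z z' : CE X} {hz : bdE X z = 0} {hz' : bdE X z' = 0} (h : z = z') :
    cl z hz = cl z' hz' := by subst h; rfl

theorem cl_zero {z : CE X} {hz : bdE X z = 0} (h : z = 0) : cl z hz = 0 := by
  subst h
  exact Hd.mk_eq_zero.2 ⟨0, map_zero _⟩

theorem cl_add {z z' : CE X} {hz : bdE X z = 0} {hz' : bdE X z' = 0} {h : bdE X (z + z') = 0} :
    cl (z + z') h = cl z hz + cl z' hz' := rfl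

theorem cl_smul {r : F2} {z : CE X} {hz : bdE X z = 0} {h : bdE X (r • z) = 0} :
    cl (r • z) h = r • cl z hz := rfl

/-- chain map of a continuous map -/
abbrev mp (f : C(X, Y)) : CE X →ₗ[F2] CE Y := N.map F2 (SS.SingMap f)

theorem bd_mp (f : C(X, Y)) (z : CE X) : bdE Y (mp f z) = mp f (bdE X z) :=
  (LinearMap.congr_fun (N.map_bd (R := F2) (SS.SingMap f)) z).symm

theorem mp_cyc (f : C(X, Y)) {z : CE X} (hz : bdE X z = 0) : bdE Y (mp f z) = 0 := by
  rw [bd_mp, hz, map_zero]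

theorem Hm_cl (f : C(X, Y)) (z : CE X) (hz : bdE X z = 0) :
    Hm f (cl z hz) = cl (mp f z) (mp_cyc f hz) := rfl

theorem cx_cl (a : CE X) (ha : bdE X a = 0) (b : CE Y) (hb : bdE Y b = 0) :
    cx (cl a ha) (cl b hb) = cl (crE a b) (crE_cyc ha hb) := cx_crE a ha b hb

theorem mp_mp {Z : Type} [TopologicalSpace Z] (g : C(Y, Z)) (f : C(X, Y)) (z : CE X) :
    mp g (mp f z) = mp (g.comp f) z := by
  rw [mp, mp, EZ271.map_map]; rfl

theorem mp_mem {f : C(X, Y)} {A : Set X} {B : Set Y} (h : MapsTo f A B) {z : CE X} (hz : z ∈ CS A) :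
    mp f z ∈ CS B := by
  rw [CS_eq_range] at hz
  obtain ⟨z, rfl⟩ := hz
  rw [EZ271.map_map]
  exact map_mem_CS _ (fun n x t => h (SingAct265.ev (Y := A) x t).2) _

end gen

/-! ## the localised cap product -/

section loc

variable {Y : Type} [TopologicalSpace Y]

/-- data: an open cover and a cocycle which vanishes on `U` -/
structure Loc (U V : Set Y) (ψ : Co (SS.Sing Y)) : Prop where
  hU : IsOpen U
  hV : IsOpen V
  cov : U ∪ V = univ
  cyc : cobd ψ = 0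
  van : ∀ z ∈ CS U, ψ z = 0

variable {U V : Set Y} {ψ : Co (SS.Sing Y)}

/-- small representative -/
theorem exists_small (hU : IsOpen U) (hV : IsOpen V) (cov : U ∪ V = univ) (a : HS Y) :
    ∃ z, ∃ hz : bdE Y z = 0, z ∈ CS U ⊔ CS V ∧ a = cl z hz := by
  obtain ⟨z, hz, rfl⟩ := cl_surj a
  obtain ⟨b, hb, c, hc, w, -, e⟩ := small2 (cov_of_open hU hV) (z := z)
    (by rw [cov, CS_univ]; trivial) (by rw [hz]; exact Submodule.zero_mem _)
  have hbc : bdE Y (b + c) = 0 := by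
    have := congrArg (bdE Y) e
    rw [hz, map_add, bd_bdE, add_zero] at this
    exact this.symm
  exact ⟨b + c, hbc, Submodule.add_mem_sup hb hc, cl_eq.2 ⟨w, by rw [e]; abel⟩⟩

/-- homogeneous small representative -/
theorem exists_small_gr (hU : IsOpen U) (hV : IsOpen V) (cov : U ∪ V = univ) {j : ℕ} {a : HS Y}
    (ha : a ∈ hg Y j) :
    ∃ z, ∃ hz : bdE Y z = 0, z ∈ CS U ⊔ CS V ∧ z ∈ gE Y j ∧ a = cl z hz := by
  obtain ⟨z, hj, hz, rfl⟩ : ∃ z ∈ gE Y j, ∃ hz : bdE Y z = 0, a = cl z hz := by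
    obtain ⟨⟨z, hz⟩, hj, rfl⟩ := ha
    exact ⟨z, hj, hz, rfl⟩
  obtain ⟨b, hbj, hb, c, hcj, hc, w, -, -, e⟩ := small2_gr (cov_of_open hU hV) hj
    (by rw [cov, CS_univ]; trivial) (by rw [hz]; exact Submodule.zero_mem _)
  have hbc : bdE Y (b + c) = 0 := by
    have := congrArg (bdE Y) e
    rw [hz, map_add, bd_bdE, add_zero] at this
    exact this.symm
  exact ⟨b + c, hbc, Submodule.add_mem_sup hb hc, Submodule.add_mem _ hbj hcj,
    cl_eq.2 ⟨w, by rw [e]; abel⟩⟩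

/-- small boundaries bound small chains -/
theorem small_bd (hU : IsOpen U) (hV : IsOpen V) (cov : U ∪ V = univ) {w : CE Y}
    (h : bdE Y w ∈ CS U ⊔ CS V) : ∃ w' ∈ CS U ⊔ CS V, bdE Y w = bdE Y w' := by
  obtain ⟨b, hb, c, hc, v, -, e⟩ := small2 (cov_of_open hU hV) (z := w)
    (by rw [cov, CS_univ]; trivial) h
  refine ⟨b + c, Submodule.add_mem_sup hb hc, ?_⟩
  rw [e, map_add, bd_bdE, add_zero]

namespace Loc

variable (L : Loc U V ψ)

include L

theorem cap_mem {z : CE Y} (hz : z ∈ CS U ⊔ CS V) : cap ψ z ∈ CS V := by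
  obtain ⟨a, ha, b, hb, rfl⟩ := Submodule.mem_sup.1 hz
  rw [map_add, cap_eq_zero_CS L.van a ha, zero_add]
  exact cap_mem_CS ψ b hb

theorem bd_cap (z : CE Y) : bdE Y (cap ψ z) = cap ψ (bdE Y z) := bd_cap_cocycle L.cyc z

theorem bd_res_cap {z : CE Y} (hz : z ∈ CS U ⊔ CS V) :
    bdE V (res V (cap ψ z)) = res V (cap ψ (bdE Y z)) := by
  rw [bd_res _ (L.cap_mem hz), L.bd_cap]

theorem cyc_of {z : CE Y} (hz : z ∈ CS U ⊔ CS V) (h : bdE Y z = 0) :
    bdE V (res V (cap ψ z)) = 0 := by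
  rw [L.bd_res_cap hz, h, map_zero, map_zero]

theorem wd {z z' : CE Y} (hz : z ∈ CS U ⊔ CS V) (hz' : z' ∈ CS U ⊔ CS V) (h : bdE Y z = 0)
    (h' : bdE Y z' = 0) (e : cl z h = cl z' h') :
    cl (res V (cap ψ z)) (L.cyc_of hz h) = cl (res V (cap ψ z')) (L.cyc_of hz' h') := by
  obtain ⟨w, hw⟩ := cl_eq.1 e
  obtain ⟨w', hw', e'⟩ := small_bd L.hU L.hV L.cov (w := w) (by rw [hw]; exact Submodule.sub_mem _ hz hz')
  refine cl_eq.2 ⟨res V (cap ψ w'), ?_⟩
  rw [L.bd_res_cap hw', ← e', hw, map_sub, map_sub]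

/-- the localised cap product -/
def lc : HS Y →ₗ[F2] HS V where
  toFun a := cl (res V (cap ψ (exists_small L.hU L.hV L.cov a).choose))
    (L.cyc_of (exists_small L.hU L.hV L.cov a).choose_spec.choose_spec.1
      (exists_small L.hU L.hV L.cov a).choose_spec.choose)
  map_add' a b := by
    have h1 := (exists_small L.hU L.hV L.cov a).choose_spec.choose_spec
    have h2 := (exists_small L.hU L.hV L.cov b).choose_spec.choose_spec
    have h3 := (exists_small L.hU L.hV L.cov (a + b)).choose_spec.choose_spec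
    have k1 := (exists_small L.hU L.hV L.cov a).choose_spec.choose
    have k2 := (exists_small L.hU L.hV L.cov b).choose_spec.choose
    have k12 : bdE Y ((exists_small L.hU L.hV L.cov a).choose +
        (exists_small L.hU L.hV L.cov b).choose) = 0 := by rw [map_add, k1, k2, add_zero]
    have := L.wd h3.1 (Submodule.add_mem _ h1.1 h2.1) _ k12 (by
      rw [← h3.2, cl_add (hz := k1) (hz' := k2), ← h1.2, ← h2.2])
    refine this.trans ?_
    rw [← cl_add (hz := L.cyc_of h1.1 k1) (hz' := L.cyc_of h2.1 k2)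
      (h := by rw [map_add, L.cyc_of h1.1 k1, L.cyc_of h2.1 k2, add_zero])]
    exact cl_congr (by rw [map_add, map_add])
  map_smul' r a := by
    have h1 := (exists_small L.hU L.hV L.cov a).choose_spec.choose_spec
    have h3 := (exists_small L.hU L.hV L.cov (r • a)).choose_spec.choose_spec
    have k1 := (exists_small L.hU L.hV L.cov a).choose_spec.choose
    have k12 : bdE Y (r • (exists_small L.hU L.hV L.cov a).choose) = 0 := by
      rw [map_smul, k1, smul_zero]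
    have := L.wd h3.1 (Submodule.smul_mem _ r h1.1) _ k12 (by
      rw [← h3.2, cl_smul (hz := k1), ← h1.2])
    refine this.trans ?_
    rw [RingHom.id_apply, ← cl_smul (hz := L.cyc_of h1.1 k1)
      (h := by rw [map_smul, L.cyc_of h1.1 k1, smul_zero])]
    exact cl_congr (by rw [map_smul, map_smul])

theorem lc_cl {z : CE Y} (hz : z ∈ CS U ⊔ CS V) (h : bdE Y z = 0) :
    L.lc (cl z h) = cl (res V (cap ψ z)) (L.cyc_of hz h) :=
  (L.wd hz (exists_small L.hU L.hV L.cov (cl z h)).choose_spec.choose_spec.1 h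
    (exists_small L.hU L.hV L.cov (cl z h)).choose_spec.choose
    (exists_small L.hU L.hV L.cov (cl z h)).choose_spec.choose_spec.2).symm

end Loc

end loc

/-! ## properties -/

section props

variable {Y Y' B Z : Type} [TopologicalSpace Y] [TopologicalSpace Y'] [TopologicalSpace B]
  [TopologicalSpace Z] {U V : Set Y} {ψ : Co (SS.Sing Y)} {U' V' : Set Y'} {ψ' : Co (SS.Sing Y')}

theorem res_inc_mp {X A : Type} [TopologicalSpace X] [TopologicalSpace A] {W : Set X} {f : C(A, X)}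
    {g : C(A, W)} (h : ∀ a, (g a : X) = f a) (z : CE A) : res W (mp f z) = mp g z := by
  have e : f = (SpecA.inc W).comp g := ContinuousMap.ext fun a => (h a).symm
  rw [e, ← mp_mp, res_map_inc]

theorem mp_id {X : Type} [TopologicalSpace X] (z : CE X) : mp (ContinuousMap.id X) z = z :=
  EZ271.map_idHom F2 z

/-- naturality -/
theorem lc_nat (L : Loc U V ψ) (L' : Loc U' V' ψ') (g : C(Y, Y')) (hU : MapsTo g U U')
    (hV : MapsTo g V V') (hψ : pull (SS.SingMap g) ψ' = ψ) (g' : C(V, V'))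
    (hg : ∀ x, (g' x : Y') = g x) (w : HS Y) : L'.lc (Hm g w) = Hm g' (L.lc w) := by
  obtain ⟨z, hz, hs, rfl⟩ := exists_small L.hU L.hV L.cov w
  have hs' : mp g z ∈ CS U' ⊔ CS V' := by
    obtain ⟨a, ha, b, hb, rfl⟩ := Submodule.mem_sup.1 hs
    rw [map_add]
    exact Submodule.add_mem_sup (mp_mem hU ha) (mp_mem hV hb)
  rw [Hm_cl, L'.lc_cl hs', L.lc_cl hs, Hm_cl]
  refine cl_congr ?_
  have hη : mp (SpecA.inc V) (res V (cap ψ z)) = cap ψ z := map_inc_res _ (L.cap_mem hs)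
  rw [← map_cap, hψ, ← hη, mp_mp]
  rw [res_inc_mp (g := g') hg]
  rw [hη]

/-- naturality with a parameter -/
theorem lc_par (L : Loc U V ψ) (L' : Loc U' V' ψ') (g : C(Y × B, Y'))
    (hU : ∀ y b, y ∈ U → g (y, b) ∈ U') (hV : ∀ y b, y ∈ V → g (y, b) ∈ V')
    (hψ : pull (SS.SingMap g) ψ' = pull (SS.SingMap ⟨Prod.fst, continuous_fst⟩) ψ)
    (g' : C(V × B, V')) (hg : ∀ x b, (g' (x, b) : Y') = g (x, b)) (w : HS Y) (b : HS B) :
    L'.lc (Hm g (cx w b)) = Hm g' (cx (L.lc w) b) := by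
  obtain ⟨z, hz, hs, rfl⟩ := exists_small L.hU L.hV L.cov w
  obtain ⟨β, hβ, rfl⟩ := cl_surj b
  have hs' : mp g (crE z β) ∈ CS U' ⊔ CS V' := by
    obtain ⟨c, hc, d, hd, rfl⟩ := Submodule.mem_sup.1 hs
    have hβ' : β ∈ CS (univ : Set B) := by rw [CS_univ]; trivial
    rw [map_add, LinearMap.add_apply, map_add]
    refine Submodule.add_mem_sup (mp_mem ?_ (crE_mem hc hβ')) (mp_mem ?_ (crE_mem hd hβ'))
    · rintro ⟨y, b⟩ ⟨h, -⟩; exact hU y b h
    · rintro ⟨y, b⟩ ⟨h, -⟩; exact hV y b h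
  rw [cx_cl, Hm_cl, L'.lc_cl hs', L.lc_cl hs, cx_cl, Hm_cl]
  refine cl_congr ?_
  have hη : mp (SpecA.inc V) (res V (cap ψ z)) = cap ψ z := map_inc_res _ (L.cap_mem hs)
  rw [← map_cap, hψ, cap_crE_fst]
  have e : crE (cap ψ z) β =
      mp ((SpecA.inc V).prodMap (ContinuousMap.id B)) (crE (res V (cap ψ z)) β) := by
    rw [mp, crE_map, hη]
    congr 1
    exact (mp_id β).symm
  rw [e, mp_mp]
  exact res_inc_mp (fun a => hg a.1 a.2) _

/-- vanishing : the second projection does not see the factor of degree `> q` -/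
theorem lc_van (L' : Loc U' V' ψ') {U0 V0 : Set Y} (hU0 : IsOpen U0) (hV0 : IsOpen V0)
    (cov : U0 ∪ V0 = univ) (g : C(Y × B, Y'))
    (hU : ∀ y b, y ∈ U0 → g (y, b) ∈ U') (hV : ∀ y b, y ∈ V0 → g (y, b) ∈ V') {q : ℕ}
    (hq : Deg q ψ') (s : C(V', Z)) (s0 : C(V0, Z))
    (hs : ∀ (y : V0) (b : B) (h : g (y, b) ∈ V'), s ⟨g (y, b), h⟩ = s0 y)
    (w : HS Y) {i : ℕ} (hi : q < i) {b : HS B} (hb : b ∈ hg B i) :
    Hm s (L'.lc (Hm g (cx w b))) = 0 := by
  obtain ⟨z, hz, hsm, rfl⟩ := exists_small hU0 hV0 cov w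
  obtain ⟨β, hβ, hβi, rfl⟩ := Coalg847.mem_gr_iff.1 hb
  change Hm s (L'.lc (Hm g (cx (cl z hz) (cl β hβ)))) = 0
  have hβ' : β ∈ CS (univ : Set B) := by rw [CS_univ]; trivial
  obtain ⟨c, hc, d, hd, hcd⟩ := Submodule.mem_sup.1 hsm
  have hc' : mp g (crE c β) ∈ CS U' := mp_mem (by
    rintro ⟨y, b⟩ ⟨h, -⟩; exact hU y b h) (crE_mem hc hβ')
  have hs' : mp g (crE z β) ∈ CS U' ⊔ CS V' := by
    rw [← hcd, map_add, LinearMap.add_apply, map_add]
    refine Submodule.add_mem_sup hc' (mp_mem ?_ (crE_mem hd hβ'))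
    rintro ⟨y, b⟩ ⟨h, -⟩; exact hV y b h
  rw [cx_cl, Hm_cl, L'.lc_cl hs', Hm_cl]
  refine cl_zero ?_
  rw [← map_cap]
  set ψ'' := pull (SS.SingMap g) ψ' with hψ''
  have hθ : cap ψ'' (crE z β) ∈ CS (V0 ×ˢ (univ : Set B)) := by
    rw [← hcd, map_add, LinearMap.add_apply, map_add]
    rw [cap_eq_zero_CS (A := U0 ×ˢ (univ : Set B)) (fun x hx => ?_) _ (crE_mem hc hβ'), zero_add]
    · exact cap_mem_CS _ _ (crE_mem hd hβ')
    · rw [hψ'', pull_apply]
      exact L'.van _ (mp_mem (by rintro ⟨y, b⟩ ⟨h, -⟩; exact hU y b h) hx)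
  have hf : mp (⟨Prod.fst, continuous_fst⟩ : C(Y × B, Y)) (cap ψ'' (crE z β)) = 0 :=
    fst_cap_crE_eq_zero hi (hq.pull _) z hβi
  rw [CS_eq_range] at hθ
  obtain ⟨θ, hθ⟩ := hθ
  rw [← hθ] at hf ⊢
  let g2 : C((V0 ×ˢ (univ : Set B) : Set (Y × B)), V') :=
    ⟨fun x => ⟨g x.1, hV _ _ x.2.1⟩, by fun_prop⟩
  let f2 : C((V0 ×ˢ (univ : Set B) : Set (Y × B)), V0) :=
    ⟨fun x => ⟨x.1.1, x.2.1⟩, by fun_prop⟩
  have e1 : res V' (mp g (mp (SpecA.inc (V0 ×ˢ (univ : Set B))) θ)) = mp g2 θ := by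
    rw [mp_mp]
    exact res_inc_mp (fun _ => rfl) θ
  have e2 : s.comp g2 = s0.comp f2 := ContinuousMap.ext fun x => hs ⟨x.1.1, x.2.1⟩ x.1.2 _
  have e3 : mp f2 θ = 0 := by
    have : mp (SpecA.inc V0) (mp f2 θ) = 0 := by
      rw [mp_mp]
      rw [mp_mp] at hf
      exact hf
    rw [← res_map_inc (X := V0) (mp f2 θ)]
    change res V0 (mp (SpecA.inc V0) (mp f2 θ)) = 0
    rw [this, map_zero]
  change mp s (res V' (mp g (mp (SpecA.inc (V0 ×ˢ (univ : Set B))) θ))) = 0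
  rw [e1, mp_mp, e2, ← mp_mp, e3, map_zero]

theorem lc_zero (L : Loc U V ψ) (h : ψ = 0) (w : HS Y) : L.lc w = 0 := by
  obtain ⟨z, hz, hs, rfl⟩ := exists_small L.hU L.hV L.cov w
  rw [L.lc_cl hs]
  exact cl_zero (by rw [h, cap_zero_left, map_zero])

theorem ep_cl (z : CE Y) (hz : bdE Y z = 0) : ep (cl z hz) = EZ271.aug F2 z :=
  (Coalg847.eps_mk z hz).trans (EZ847.nAug_eq z)

theorem ep_lc (L : Loc U V ψ) {z : CE Y} (hz : bdE Y z = 0) : ep (L.lc (cl z hz)) = ψ z := by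
  obtain ⟨z', hz', hs, e⟩ := exists_small L.hU L.hV L.cov (cl z hz)
  have h1 : ψ z = ψ z' := by
    obtain ⟨w, hw⟩ := cl_eq.1 e
    have h2 : ψ (bdE Y w) = 0 := LinearMap.congr_fun L.cyc w
    rw [hw, map_sub] at h2
    exact sub_eq_zero.1 h2
  rw [e, L.lc_cl hs, ep_cl, h1]
  have h3 := EZ271.aug_map F2 (SS.SingMap (SpecA.inc V)) (res V (cap ψ z'))
  rw [map_inc_res _ (L.cap_mem hs)] at h3
  rw [← h3, ← cup_apply, cup_aug_right]

theorem lc_gr (L : Loc U V ψ) {q : ℕ} (hq : Deg q ψ) {j : ℕ} {w : HS Y} (hw : w ∈ hg Y (j + q)) :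
    L.lc w ∈ hg V j := by
  obtain ⟨z, hz, hs, hj, rfl⟩ := exists_small_gr L.hU L.hV L.cov hw
  rw [L.lc_cl hs]
  rw [add_comm] at hj
  exact Coalg847.mem_gr_iff.2 ⟨_, L.cyc_of hs hz, res_gr (cap_mem_gr hq hj), rfl⟩

theorem lc_lt (L : Loc U V ψ) {q : ℕ} (hq : Deg q ψ) {j : ℕ} (hj : j < q) {w : HS Y}
    (hw : w ∈ hg Y j) : L.lc w = 0 := by
  obtain ⟨z, hz, hs, hj', rfl⟩ := exists_small_gr L.hU L.hV L.cov hw
  rw [L.lc_cl hs]
  exact cl_zero (by rw [cap_gr_eq_zero hq hj hj', map_zero])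

end props

end Crest.Agent.R231.Thx530
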