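import Crest.Agent.R231.LocSl_682
import Crest.Agent.R231.OmHt_725

/-!
# Row 231, block P, leaf Q3 (helper682): `Th w = S_*(w ∩ F^*ω)` on marked loops

`Cw p s' q` : cochains `ω` of degree `q` on `Sing (ℝ → M)`, cocycles on every `Om p T`, zero on `Om p s'`.
`Cw.Th : HS (Om2T p T) →ₗ HS (OmT p u)` for `T + 1 ≤ u + s'`.
-/

set_option autoImplicit false
set_option linter.unusedVariables false

noncomputable section

namespace Crest.Agent.R231.Thx682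

open Crest.Agent.R204 Crest.Agent.R231.Capx226 SingAct265 EZ271 FinDim315 CapCSx780 CrossCSx780
  Pairx877 CXx780 Topology Set NNReal OmSpx725 Moorex725 LocSlx682 LocSlx682.LD

open Crest.Agent.R204.SpecA (Hm)

variable {M : Type} [PseudoMetricSpace M] {p : M}

/-- the underlying curve -/
def valO (p : M) (t : ℝ≥0) : C(OmT p t, ℝ → M) := ⟨Subtype.val, continuous_subtype_val⟩

/-- the first curve of a marked loop -/
def FO (p : M) (T : ℝ≥0) : C(Om2T p T, ℝ → M) := ⟨fun x => x.1.1, continuous_F⟩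

/-- chains which come from a map with values in a set -/
theorem map_mem {Y E : Type} [TopologicalSpace Y] [TopologicalSpace E] (f : C(Y, E)) {X : Set E}
    (h : ∀ y, f y ∈ X) (z : CE Y) : N.map F2 (SS.SingMap f) z ∈ CS X :=
  map_CS (V := univ) (fun y _ => h y) (by rw [CS_univ]; trivial)

theorem Hm_cx_cr {X Y Y' Z : Type} [TopologicalSpace X] [TopologicalSpace Y] [TopologicalSpace Y']
    [TopologicalSpace Z] (g : C(Y, Y')) (m : C(X × Y', Z)) (x : HS X) (y : HS Y) :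
    Hm m (cx x (Hm g y)) = Hm (m.comp ((ContinuousMap.id X).prodMap g)) (cx x y) := by
  rw [← Hm_cx_right, ← Hm_comp_apply]

theorem Hm_cx_cl {X Y Y' Z : Type} [TopologicalSpace X] [TopologicalSpace Y] [TopologicalSpace Y']
    [TopologicalSpace Z] (g : C(Y, Y')) (m : C(Y' × X, Z)) (x : HS X) (y : HS Y) :
    Hm m (cx (Hm g y) x) = Hm (m.comp (g.prodMap (ContinuousMap.id X))) (cx y x) := by
  rw [← Hm_cx_left, ← Hm_comp_apply]

theorem Hm_eq_of {X Y : Type} [TopologicalSpace X] [TopologicalSpace Y] {f g : C(X, Y)}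
    (h : f.Homotopic g) (x : HS X) : Hm f x = Hm g x := LinearMap.congr_fun (Hm_homotopic h) x

/-- cochain data -/
structure Cw (p : M) (s' : ℝ≥0) (q : ℕ) where
  c : Co (SS.Sing (ℝ → M))
  deg : Deg q c
  cyc : ∀ T : ℝ≥0, ∀ z ∈ CS (Om p (T : ℝ)), c (bdE _ z) = 0
  van : ∀ z ∈ CS (Om p (s' : ℝ)), c z = 0

namespace Cw

variable {s' : ℝ≥0} {q : ℕ} (C : Cw p s' q)

/-- the cocycle on `OmT p t` -/
def cO (t : ℝ≥0) : Co (SS.Sing (OmT p t)) := pull (SS.SingMap (valO p t)) C.c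

theorem cobd_cO (t : ℝ≥0) : cobd (C.cO t) = 0 := by
  refine LinearMap.ext fun z => ?_
  rw [cobd_apply, cO, pull_apply, map_bd']
  exact C.cyc t _ (map_mem _ (fun y => y.2) z)

/-- the functional on the homology of `OmT p t` -/
def om (t : ℝ≥0) : HS (OmT p t) →ₗ[F2] F2 := evH (C.cO t) (C.cobd_cO t)

theorem om_inc {t t' : ℝ≥0} (h : t ≤ t') (x : HS (OmT p t)) :
    C.om t' (Hm (inc h) x) = C.om t x := by
  obtain ⟨z, hz, rfl⟩ := Hd.mk_surj _ x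
  show C.c (N.map F2 (SS.SingMap (valO p t')) (N.map F2 (SS.SingMap (inc h)) z)) =
    C.c (N.map F2 (SS.SingMap (valO p t)) z)
  rw [map_map]
  rfl

/-- the cocycle on `Om2T p T` -/
def cF (T : ℝ≥0) : Co (SS.Sing (Om2T p T)) := pull (SS.SingMap (FO p T)) C.c

theorem deg_cF (T : ℝ≥0) : Deg q (C.cF T) := C.deg.pull _

theorem cobd_cF (T : ℝ≥0) : cobd (C.cF T) = 0 := by
  refine LinearMap.ext fun z => ?_
  rw [cobd_apply, cF, pull_apply, map_bd']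
  exact C.cyc T _ (map_mem _ (fun y => Om_mono p y.2.2.2.2 y.2.1) z)

/-- localisation data on `Om2T p T` -/
def ld (T : ℝ≥0) : LD (Om2T p T) where
  W := {x | x.1.2.2 ≤ (s' : ℝ)}
  V := {x | (s' : ℝ) - 1 < x.1.2.2}
  hc x := by
    rcases lt_or_ge x.1.2.2 (s' : ℝ) with h | h
    · exact Or.inl (Filter.mem_of_superset
        ((isOpen_lt continuous_r continuous_const).mem_nhds h)
        fun (y : Om2T p T) (hy : y.1.2.2 < (s' : ℝ)) => hy.le)
    · exact Or.inr ((isOpen_lt continuous_const continuous_r).mem_nhds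
        (show (s' : ℝ) - 1 < x.1.2.2 by linarith))
  u := C.cF T
  hu := C.cobd_cF T
  hW z hz := C.van _ (map_CS (f := FO p T) (fun y hy => Om_mono p hy y.2.1) hz)

@[simp] theorem mem_ldW {T : ℝ≥0} {x : Om2T p T} : x ∈ (C.ld T).W ↔ x.1.2.2 ≤ (s' : ℝ) := Iff.rfl

@[simp] theorem mem_ldV {T : ℝ≥0} {x : Om2T p T} : x ∈ (C.ld T).V ↔ (s' : ℝ) - 1 < x.1.2.2 := Iff.rfl

/-- the second loop -/
def gS {T u : ℝ≥0} (h : T + 1 ≤ u + s') : C((C.ld T).V, OmT p u) where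
  toFun x := ⟨x.1.1.2.1, Om_mono p (by
    have h1 : (T : ℝ) + 1 ≤ u + s' := by exact_mod_cast h
    have h2 := (C.mem_ldV).1 x.2
    linarith) x.1.2.2.1⟩
  continuous_toFun := (continuous_S.comp continuous_subtype_val).subtype_mk _

@[simp] theorem gS_val {T u : ℝ≥0} (h : T + 1 ≤ u + s') (x : (C.ld T).V) :
    (C.gS h x).1 = x.1.1.2.1 := rfl

/-- **the operator** `Th w = S_*(w ∩ F^*ω)` -/
def Th {T u : ℝ≥0} (h : T + 1 ≤ u + s') : HS (Om2T p T) →ₗ[F2] HS (OmT p u) :=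
  Hm (C.gS h) ∘ₗ (C.ld T).lc

theorem Th_apply {T u : ℝ≥0} (h : T + 1 ≤ u + s') (w : HS (Om2T p T)) :
    C.Th h w = Hm (C.gS h) ((C.ld T).lc w) := rfl

theorem Th_gr {T u : ℝ≥0} (h : T + 1 ≤ u + s') (j : ℕ) {w : HS (Om2T p T)}
    (hw : w ∈ hg (Om2T p T) (j + q)) : C.Th h w ∈ hg (OmT p u) j :=
  Hm_mem_hg _ ((C.ld T).lc_mem (C.deg_cF T) (by rwa [add_comm]))

theorem Th_lt {T u : ℝ≥0} (h : T + 1 ≤ u + s') {j : ℕ} {w : HS (Om2T p T)}
    (hw : w ∈ hg (Om2T p T) j) (hj : j < q) : C.Th h w = 0 := by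
  rw [Th_apply, (C.ld T).lc_eq_zero (C.deg_cF T) hj hw, map_zero]

theorem Th_inc {T u v : ℝ≥0} (h : T + 1 ≤ u + s') (h1 : u ≤ v) (h2 : T + 1 ≤ v + s')
    (w : HS (Om2T p T)) : Hm (inc h1) (C.Th h w) = C.Th h2 w := by
  rw [Th_apply, Th_apply, ← Hm_comp_apply]
  rfl

/-- naturality of the localised cap product for maps into `Om2T` which do not change `F`
and the side of the mark -/
theorem Th_nat {Y : Type} [TopologicalSpace Y] (D : LD Y) {T u : ℝ≥0} (h : T + 1 ≤ u + s')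
    (f : C(Y, Om2T p T)) (hW : MapsTo f D.W (C.ld T).W) (hV : MapsTo f D.V (C.ld T).V)
    (hu : D.u = pull (SS.SingMap f) (C.cF T)) (x : HS Y) :
    C.Th h (Hm f x) = Hm ((C.gS h).comp (cr f hV)) (D.lc x) := by
  rw [Th_apply, lc_nat (D := D) (D' := C.ld T) f hW hV hu, ← Hm_comp_apply]

theorem Th_inc2 {T T' u : ℝ≥0} (h1 : T ≤ T') (h : T' + 1 ≤ u + s') (h2 : T + 1 ≤ u + s')
    (w : HS (Om2T p T)) : C.Th h (Hm (inc2 h1) w) = C.Th h2 w := by
  rw [C.Th_nat (C.ld T) h (inc2 h1) (fun x hx => hx) (fun x hx => hx) (by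
    refine LinearMap.ext fun z => ?_
    show C.c (N.map F2 (SS.SingMap (FO p T)) z) =
      C.c (N.map F2 (SS.SingMap (FO p T')) (N.map F2 (SS.SingMap (inc2 h1)) z))
    rw [map_map]
    rfl)]
  rfl

/-- everything is in `W` -/
theorem Th_small {Y : Type} [TopologicalSpace Y] {T u : ℝ≥0} (h : T + 1 ≤ u + s')
    (f : C(Y, Om2T p T)) (hf : ∀ y, (f y).1.2.2 ≤ (s' : ℝ)) (x : HS Y) :
    C.Th h (Hm f x) = 0 := by
  let D : LD Y :=
    { W := univ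
      V := ∅
      hc := fun y => Or.inl Filter.univ_mem
      u := pull (SS.SingMap f) (C.cF T)
      hu := by rw [← pull_cobd, C.cobd_cF]; rfl
      hW := fun z hz => (C.ld T).hW _ (map_CS (f := f) (V := univ) (fun y _ => hf y) hz) }
  rw [C.Th_nat D h f (fun y _ => hf y) (fun y hy => hy.elim) rfl, D.lc_univ rfl, map_zero]

/-- **`B = 0`**, the forgotten factor on the right -/
theorem Th_B' {Y Z : Type} [TopologicalSpace Y] [TopologicalSpace Z] {T u : ℝ≥0}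
    (h : T + 1 ≤ u + s') (f : C(Y × Z, Om2T p T)) (ρ : Y → ℝ) (hρ : Continuous ρ)
    (hr : ∀ y a, (f (y, a)).1.2.2 = ρ y) (z₀ : Z)
    (hS : ∀ y a, (f (y, a)).1.2.1 = (f (y, z₀)).1.2.1) (x : HS Y) {i : ℕ} {a : HS Z}
    (ha : a ∈ hg Z i) (hqi : q < i) : C.Th h (Hm f (cx x a)) = 0 := by
  rw [Th_apply]
  refine lc_B' (D' := C.ld T) {y | ρ y ≤ (s' : ℝ)} {y | (s' : ℝ) - 1 < ρ y} (fun y => ?_)
    (C.deg_cF T) hqi f (fun a y hy => ?_) (fun a y hy => ?_) (C.gS h)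
    ((C.gS h).comp ⟨fun y => ⟨f (y.1, z₀), ?_⟩, ?_⟩) (fun a y => ?_) x ha
  · rcases lt_or_ge (ρ y) (s' : ℝ) with h | h
    · exact Or.inl (Filter.mem_of_superset
        ((isOpen_lt hρ continuous_const).mem_nhds h)
        fun (y : Y) (hy : ρ y < (s' : ℝ)) => hy.le)
    · exact Or.inr ((isOpen_lt continuous_const hρ).mem_nhds
        (show (s' : ℝ) - 1 < ρ y by linarith))
  · show (f (y, a)).1.2.2 ≤ (s' : ℝ)
    rw [hr]; exact hy
  · show (s' : ℝ) - 1 < (f (y, a)).1.2.2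
    rw [hr]; exact hy
  · show (s' : ℝ) - 1 < (f (y.1, z₀)).1.2.2
    rw [hr]; exact y.2
  · exact Continuous.subtype_mk (f.continuous.comp
      ((continuous_subtype_val).prodMk continuous_const)) _
  · exact OmT_ext (hS y.1 a)

/-- **`B = 0`**, the forgotten factor on the left -/
theorem Th_B {Y Z : Type} [TopologicalSpace Y] [TopologicalSpace Z] {T u : ℝ≥0}
    (h : T + 1 ≤ u + s') (f : C(Z × Y, Om2T p T)) (ρ : Y → ℝ) (hρ : Continuous ρ)
    (hr : ∀ y a, (f (a, y)).1.2.2 = ρ y) (z₀ : Z)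
    (hS : ∀ y a, (f (a, y)).1.2.1 = (f (z₀, y)).1.2.1) {i : ℕ} {a : HS Z}
    (ha : a ∈ hg Z i) (hqi : q < i) (x : HS Y) : C.Th h (Hm f (cx a x)) = 0 := by
  have h2 := C.Th_B' h (f.comp (swC Y Z)) ρ hρ (fun y a => hr y a) z₀ (fun y a => hS y a) x ha hqi
  rwa [Hm_comp_apply, cx_swap] at h2

/-- `ε (Th w) = ω (F_* w)` -/
theorem ep_Th {T u T' : ℝ≥0} (h : T + 1 ≤ u + s') (h' : T ≤ T') (w : HS (Om2T p T)) :
    ep (C.Th h w) = C.om T' (Hm (inc h') (Hm (fsF p T) w)) := by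
  rw [Th_apply, ep_Hm, ep_lc, C.om_inc]
  obtain ⟨z, hz, rfl⟩ := Hd.mk_surj _ w
  show C.c (N.map F2 (SS.SingMap (FO p T)) z) =
    C.c (N.map F2 (SS.SingMap (valO p T)) (N.map F2 (SS.SingMap (fsF p T)) z))
  rw [map_map]
  rfl

/-! ### the maps of `OmSp_725` in homology -/

end Cw

/-- `(y, 1)` -/
def i1H (p : M) {t t' : ℝ≥0} (h : t ≤ t') : HS (OmT p t) →ₗ[F2] HS (Om2T p t') :=
  Hm ((inc2 h).comp (i1 p t))

/-- `(1, y)` -/
def i2H (p : M) {t t' : ℝ≥0} (h : t ≤ t') : HS (OmT p t) →ₗ[F2] HS (Om2T p t') :=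
  Hm ((inc2 h).comp (i2 p t))

/-- composition at the mark -/
def oH (p : M) {s t u : ℝ≥0} (h : s + t ≤ u) :
    HS (Om2T p s) →ₗ[F2] HS (Om2T p t) →ₗ[F2] HS (Om2T p u) :=
  cx.compr₂ (Hm ((inc2 h).comp (cmp p s t)))

/-- concatenation -/
def mH (p : M) {s t u : ℝ≥0} (h : s + t ≤ u) :
    HS (OmT p s) →ₗ[F2] HS (OmT p t) →ₗ[F2] HS (OmT p u) :=
  cx.compr₂ (Hm ((inc h).comp (mul p s t)))

theorem oH_apply {s t u : ℝ≥0} (h : s + t ≤ u) (a : HS (Om2T p s)) (b : HS (Om2T p t)) :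
    oH p h a b = Hm ((inc2 h).comp (cmp p s t)) (cx a b) := rfl

theorem mH_apply {s t u : ℝ≥0} (h : s + t ≤ u) (a : HS (OmT p s)) (b : HS (OmT p t)) :
    mH p h a b = Hm ((inc h).comp (mul p s t)) (cx a b) := rfl

theorem oH_right {s t t' u : ℝ≥0} (h : s + t' ≤ u) (ζ : C(OmT p t, Om2T p t'))
    (a : HS (Om2T p s)) (b : HS (OmT p t)) : oH p h a (Hm ζ b) =
      Hm (((inc2 h).comp (cmp p s t')).comp ((ContinuousMap.id _).prodMap ζ)) (cx a b) := by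
  rw [oH_apply, ← Hm_cx_right, ← Hm_comp_apply]

theorem oH_left {s t t' u : ℝ≥0} (h : t' + s ≤ u) (ζ : C(OmT p t, Om2T p t'))
    (a : HS (Om2T p s)) (b : HS (OmT p t)) : oH p h (Hm ζ b) a =
      Hm (((inc2 h).comp (cmp p t' s)).comp (ζ.prodMap (ContinuousMap.id _))) (cx b a) := by
  rw [oH_apply, ← Hm_cx_left, ← Hm_comp_apply]

namespace Cw

variable {s' : ℝ≥0} {q : ℕ} (C : Cw p s' q)

/-- `Th (F z, S) = 0` if `deg z > q` -/
theorem Th_o_i1 {s t t' T u : ℝ≥0} (h1 : t ≤ t') (h : s + t' ≤ T) (h2 : T + 1 ≤ u + s') {i : ℕ}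
    (w : HS (Om2T p s)) {z : HS (OmT p t)} (hz : z ∈ hg (OmT p t) i) (hi : q < i) :
    C.Th h2 (oH p h w (i1H p h1 z)) = 0 := by
  rw [i1H, oH_right]
  exact C.Th_B' h2 _ (fun y : Om2T p s => y.1.2.2 + (t : ℝ)) (continuous_r.add continuous_const)
    (fun y a => rfl) (one p t) (fun y a => rfl) w hz hi

/-- `Th (y F, S) = 0` if `deg y > q` -/
theorem Th_i1_o {s t t' T u : ℝ≥0} (h1 : t ≤ t') (h : t' + s ≤ T) (h2 : T + 1 ≤ u + s') {i : ℕ}
    (w : HS (Om2T p s)) {y : HS (OmT p t)} (hy : y ∈ hg (OmT p t) i) (hi : q < i) :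
    C.Th h2 (oH p h (i1H p h1 y) w) = 0 := by
  rw [i1H, oH_left]
  exact C.Th_B h2 _ (fun y : Om2T p s => (t : ℝ) + y.1.2.2) (continuous_const.add continuous_r)
    (fun y a => rfl) (one p t) (fun y a => rfl) hy hi w

/-- `(z, (F, S, r)) ↦ (F, z S, r)` -/
def fo2 (p : M) {s t t' T : ℝ≥0} (h1 : t ≤ t') (h : s + t' ≤ T) :
    C(OmT p t × Om2T p s, Om2T p T) :=
  (((inc2 h).comp (cmp p s t')).comp
    ((ContinuousMap.id (Om2T p s)).prodMap ((inc2 h1).comp (i2 p t)))).comp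
      (swC (OmT p t) (Om2T p s))

theorem fo2_F {s t t' T : ℝ≥0} (h1 : t ≤ t') (h : s + t' ≤ T) (y : OmT p t × Om2T p s) :
    (fo2 p h1 h y).1.1 = y.2.1.1 := cc_const_right y.2.2.1

theorem fo2_S {s t t' T : ℝ≥0} (h1 : t ≤ t') (h : s + t' ≤ T) (y : OmT p t × Om2T p s) :
    (fo2 p h1 h y).1.2.1 = cc (t' : ℝ) y.1.1 y.2.1.2.1 := by
  rw [← sub_zero (t' : ℝ)]; rfl

theorem fo2_r {s t t' T : ℝ≥0} (h1 : t ≤ t') (h : s + t' ≤ T) (y : OmT p t × Om2T p s) :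
    (fo2 p h1 h y).1.2.2 = y.2.1.2.2 := add_zero _

theorem oH_i2 {s t t' T : ℝ≥0} (h1 : t ≤ t') (h : s + t' ≤ T) (w : HS (Om2T p s))
    (z : HS (OmT p t)) : oH p h w (i2H p h1 z) = Hm (fo2 p h1 h) (cx z w) := by
  rw [i2H, oH_right, ← cx_swap, ← Hm_comp_apply, fo2]

/-- `((F, S, r), y) ↦ (F, S y, r)` -/
def f2o (p : M) {s t t' T : ℝ≥0} (h1 : t ≤ t') (h : t' + s ≤ T) :
    C(Om2T p s × OmT p t, Om2T p T) :=
  (((inc2 h).comp (cmp p t' s)).comp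
    (((inc2 h1).comp (i2 p t)).prodMap (ContinuousMap.id (Om2T p s)))).comp
      (swC (Om2T p s) (OmT p t))

theorem f2o_F {s t t' T : ℝ≥0} (h1 : t ≤ t') (h : t' + s ≤ T) (y : Om2T p s × OmT p t) :
    (f2o p h1 h y).1.1 = y.1.1.1 := cc_const_left y.1.2.1

theorem f2o_S {s t t' T : ℝ≥0} (h1 : t ≤ t') (h : t' + s ≤ T) (y : Om2T p s × OmT p t) :
    (f2o p h1 h y).1.2.1 = cc ((s : ℝ) - y.1.1.2.2) y.1.1.2.1 y.2.1 := rfl

theorem f2o_r {s t t' T : ℝ≥0} (h1 : t ≤ t') (h : t' + s ≤ T) (y : Om2T p s × OmT p t) :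
    (f2o p h1 h y).1.2.2 = y.1.1.2.2 := zero_add _

theorem i2_oH {s t t' T : ℝ≥0} (h1 : t ≤ t') (h : t' + s ≤ T) (w : HS (Om2T p s))
    (y : HS (OmT p t)) : oH p h (i2H p h1 y) w = Hm (f2o p h1 h) (cx w y) := by
  rw [i2H, oH_left, ← cx_swap, ← Hm_comp_apply, f2o]

/-- a map into `Om2T` which keeps the first loop of one factor pulls back the cocycle -/
theorem pull_cF {Y : Type} [TopologicalSpace Y] {s T : ℝ≥0} (f : C(Y, Om2T p T))
    (g : C(Y, Om2T p s)) (h : ∀ y, (f y).1.1 = (g y).1.1) :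
    pull (SS.SingMap g) (C.cF s) = pull (SS.SingMap f) (C.cF T) := by
  refine LinearMap.ext fun z => ?_
  have e1 : pull (SS.SingMap g) (C.cF s) z =
      C.c (N.map F2 (SS.SingMap ((FO p s).comp g)) z) := by
    rw [SingMap_comp, ← map_map]; rfl
  have e2 : pull (SS.SingMap f) (C.cF T) z =
      C.c (N.map F2 (SS.SingMap ((FO p T).comp f)) z) := by
    rw [SingMap_comp, ← map_map]; rfl
  have e3 : (FO p T).comp f = (FO p s).comp g := ContinuousMap.ext fun y => h y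
  rw [e1, e2, e3]

/-- `Th (F, z S) = z · Th (F, S)` -/
theorem Th_fo2 {s t t' T u v : ℝ≥0} (h1 : t ≤ t') (h : s + t' ≤ T) (h2 : T + 1 ≤ u + s')
    (h3 : s + 1 ≤ v + s') (h4 : t + v ≤ u) (w : HS (Om2T p s)) (z : HS (OmT p t)) :
    C.Th h2 (Hm (fo2 p h1 h) (cx z w)) = mH p h4 z (C.Th h3 w) := by
  have k1 : (t : ℝ) ≤ t' := by exact_mod_cast h1
  have k2 : (s : ℝ) + t' ≤ T := by exact_mod_cast h
  have k3 : (T : ℝ) + 1 ≤ u + s' := by exact_mod_cast h2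
  have hW : MapsTo (fo2 p h1 h) ((C.ld s).prodL (OmT p t)).W (C.ld T).W := fun y hy => by
    rw [C.mem_ldW, fo2_r]; exact hy
  have hV : MapsTo (fo2 p h1 h) ((C.ld s).prodL (OmT p t)).V (C.ld T).V := fun y hy => by
    rw [C.mem_ldV, fo2_r]; exact hy
  have key := C.Th_nat ((C.ld s).prodL (OmT p t)) h2 (fo2 p h1 h) hW hV
    (C.pull_cF (fo2 p h1 h) (sndC (OmT p t) (Om2T p s)) (fo2_F h1 h)) (cx z w)
  have e1 := congrArg (Hm ((C.gS h2).comp (cr (fo2 p h1 h) hV))) ((C.ld s).lc_prodL z w)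
  have e2 := Hm_comp_apply ((C.gS h2).comp (cr (fo2 p h1 h) hV)) ((C.ld s).jL (OmT p t))
    (cx z ((C.ld s).lc w))
  have e3 := Hm_cx_cr (C.gS h3) ((inc h4).comp (mul p t v)) z ((C.ld s).lc w)
  refine key.trans (e1.trans (e2.symm.trans ((Hm_eq_of ?_ _).trans e3.symm)))
  have kV : ∀ x : (C.ld s).V, (s' : ℝ) - 1 < x.1.1.2.2 := fun x => x.2
  refine htpO (fun l x => cc (mix l t' t) x.1.1 x.2.1.1.2.1) (fun l x => ?_) ?_ (fun x => ?_)
    (fun x => ?_)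
  · refine cc_mem_of_le x.1.2 x.2.1.2.2.1 (le_mix k1 le_rfl) (le_mix t'.2 t.2)
      (by linarith [x.2.1.2.2.2.2]) ?_
    have h5 := mix_le (u := l) (le_refl (t' : ℝ)) k1
    linarith [kV x.2]
  · refine continuous_cc (continuous_subtype_val.comp (continuous_fst.comp continuous_snd))
      (continuous_S.comp (continuous_subtype_val.comp (continuous_snd.comp continuous_snd)))
      (continuous_mixc _ _) (fun x => x.2.2.1.2.2.1.1) fun x => ?_
    exact (x.2.1.2.2.2 _ (le_mix k1 le_rfl)).trans (x.2.2.1.2.2.1.2.1 _ le_rfl).symm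
  · rw [mix_zero]
    exact (fo2_S h1 h (x.1, x.2.1)).symm
  · rw [mix_one]; rfl

theorem Th_o_i2 {s t t' T u v : ℝ≥0} (h1 : t ≤ t') (h : s + t' ≤ T) (h2 : T + 1 ≤ u + s')
    (h3 : s + 1 ≤ v + s') (h4 : t + v ≤ u) (w : HS (Om2T p s)) (z : HS (OmT p t)) :
    C.Th h2 (oH p h w (i2H p h1 z)) = mH p h4 z (C.Th h3 w) := by
  rw [oH_i2, C.Th_fo2 h1 h h2 h3 h4]

/-- `Th (F, S y) = Th (F, S) · y` -/
theorem Th_f2o {s t t' T u v : ℝ≥0} (h1 : t ≤ t') (h : t' + s ≤ T) (h2 : T + 1 ≤ u + s')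
    (h3 : s + 1 ≤ v + s') (h4 : v + t ≤ u) (w : HS (Om2T p s)) (y : HS (OmT p t)) :
    C.Th h2 (Hm (f2o p h1 h) (cx w y)) = mH p h4 (C.Th h3 w) y := by
  have k1 : (t : ℝ) ≤ t' := by exact_mod_cast h1
  have k2 : (t' : ℝ) + s ≤ T := by exact_mod_cast h
  have k3 : (T : ℝ) + 1 ≤ u + s' := by exact_mod_cast h2
  have k4 : (s : ℝ) + 1 ≤ v + s' := by exact_mod_cast h3
  have k5 : (v : ℝ) + t ≤ u := by exact_mod_cast h4
  have hW : MapsTo (f2o p h1 h) ((C.ld s).prodR (OmT p t)).W (C.ld T).W := fun y hy => by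
    rw [C.mem_ldW, f2o_r]; exact hy
  have hV : MapsTo (f2o p h1 h) ((C.ld s).prodR (OmT p t)).V (C.ld T).V := fun y hy => by
    rw [C.mem_ldV, f2o_r]; exact hy
  have key := C.Th_nat ((C.ld s).prodR (OmT p t)) h2 (f2o p h1 h) hW hV
    (C.pull_cF (f2o p h1 h) (fstC (Om2T p s) (OmT p t)) (f2o_F h1 h)) (cx w y)
  have e1 := congrArg (Hm ((C.gS h2).comp (cr (f2o p h1 h) hV))) ((C.ld s).lc_prodR w y)
  have e2 := Hm_comp_apply ((C.gS h2).comp (cr (f2o p h1 h) hV)) ((C.ld s).jR (OmT p t))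
    (cx ((C.ld s).lc w) y)
  have e3 := Hm_cx_cl (C.gS h3) ((inc h4).comp (mul p v t)) y ((C.ld s).lc w)
  refine key.trans (e1.trans (e2.symm.trans ((Hm_eq_of ?_ _).trans e3.symm)))
  have kV : ∀ x : (C.ld s).V, (s' : ℝ) - 1 < x.1.1.2.2 := fun x => x.2
  have kv : ∀ x : (C.ld s).V, (s : ℝ) - x.1.1.2.2 ≤ v := fun x => by linarith [kV x]
  refine htpO (fun l x => cc (mix l ((s : ℝ) - x.1.1.1.2.2) v) x.1.1.1.2.1 x.2.1) (fun l x => ?_) ?_
    (fun x => ?_) (fun x => ?_)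
  · have h0 : 0 ≤ (s : ℝ) - x.1.1.1.2.2 := by linarith [x.1.1.2.2.2.2]
    refine cc_mem_of_le x.1.1.2.2.1 x.2.2 (le_mix le_rfl (kv x.1)) (le_mix h0 v.2) t.2 ?_
    have h5 := mix_le (u := l) (kv x.1) (le_refl (v : ℝ))
    linarith
  · refine continuous_cc
      (continuous_S.comp (continuous_subtype_val.comp (continuous_fst.comp continuous_snd)))
      (continuous_subtype_val.comp (continuous_snd.comp continuous_snd))
      (continuous_mix (continuous_const.sub (continuous_r.comp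
        (continuous_subtype_val.comp continuous_fst))) continuous_const) (fun x => x.2.2.2.1)
      fun x => ?_
    exact (x.2.1.1.2.2.1.2.2 _ (le_mix le_rfl (kv x.2.1))).trans (x.2.2.2.2.1 _ le_rfl).symm
  · rw [mix_zero]
    exact (f2o_S h1 h (x.1.1, x.2)).symm
  · rw [mix_one]; rfl

theorem Th_i2_o {s t t' T u v : ℝ≥0} (h1 : t ≤ t') (h : t' + s ≤ T) (h2 : T + 1 ≤ u + s')
    (h3 : s + 1 ≤ v + s') (h4 : v + t ≤ u) (w : HS (Om2T p s)) (y : HS (OmT p t)) :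
    C.Th h2 (oH p h (i2H p h1 y) w) = mH p h4 (C.Th h3 w) y := by
  rw [i2_oH, C.Th_f2o h1 h h2 h3 h4]

/-- `Th (F, z S) = 0` if the level of `(F, S)` is at most `s'` -/
theorem Th_o_i2_small {s t t' T u : ℝ≥0} (h1 : t ≤ t') (h : s + t' ≤ T) (h2 : T + 1 ≤ u + s')
    (hs : s ≤ s') (w : HS (Om2T p s)) (z : HS (OmT p t)) :
    C.Th h2 (oH p h w (i2H p h1 z)) = 0 := by
  rw [i2H, oH_right]
  refine C.Th_small h2 _ (fun y => ?_) _
  have k1 : (s : ℝ) ≤ s' := by exact_mod_cast hs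
  show y.1.1.2.2 + 0 ≤ (s' : ℝ)
  linarith [y.1.2.2.2.2]

end Cw

end Crest.Agent.R231.Thx682
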