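import Mathlib
import Crest.Agent.R204.Sph_94d
import Crest.Agent.R204.HZ_76
import Crest.Agent.R204.Gr_334
import Crest.Agent.R204.Rel_683

/-!
# Row 231, block P (helper935): the Thom cochain of the diagonal of the sphere

`S n = Metric.sphere (0 : EuclideanSpace ℝ (Fin (n+1))) 1`, `n ≥ 1`, R204 normalised chains mod 2.
`exists_thomU` : a normalised cocycle `U` of degree `n` on `S × S`, zero on every simplex which misses the
diagonal, with value `1` on `S × p₀` and on `p₀ × S`.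
-/

set_option autoImplicit false

noncomputable section

open Function

namespace Crest.Agent.R231.ThomUx935

open Crest.Agent.R204

/-- the sphere -/
abbrev S (n : ℕ) : Type := Metric.sphere (0 : EuclideanSpace ℝ (Fin (n + 1))) 1

/-- cochains -/
abbrev Co (K : SS) : Type := N F2 K →ₗ[F2] F2

/-! ## linear algebra over `F_2` -/

theorem f2_ne_zero {a : F2} (h : a ≠ 0) : a = 1 := by
  revert a; decide

theorem exists_functional {V : Type} [AddCommGroup V] [Module F2 V] (P : Submodule F2 V) (a : V)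
    (ha : a ∉ P) : ∃ f : V →ₗ[F2] F2, (∀ x ∈ P, f x = 0) ∧ f a = 1 := by
  obtain ⟨f, h1, h2⟩ := Submodule.exists_le_ker_of_notMem ha
  exact ⟨f, fun x hx => h2 hx, f2_ne_zero h1⟩

theorem add_self {V : Type} [AddCommGroup V] [Module F2 V] (x : V) : x + x = 0 := by
  rw [← two_smul F2 x]
  have : (2 : F2) = 0 := rfl
  rw [this, zero_smul]

theorem exists_functional₂ {V : Type} [AddCommGroup V] [Module F2 V] (P : Submodule F2 V) (a b : V)
    (ha : a ∉ P) (hb : b ∉ P) : ∃ f : V →ₗ[F2] F2, (∀ x ∈ P, f x = 0) ∧ f a = 1 ∧ f b = 1 := by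
  have key : ∀ x y : V, x = x + y + y := fun x y => by rw [add_assoc, add_self, add_zero]
  by_cases hab : a + b ∈ P
  · obtain ⟨f, h1, h2⟩ := exists_functional P a ha
    refine ⟨f, h1, h2, ?_⟩
    have h3 := h1 _ hab
    rw [map_add, h2] at h3
    have : f b = 1 + (1 + f b) := by rw [← add_assoc]; have : (1 + 1 : F2) = 0 := rfl; rw [this, zero_add]
    rw [this, h3, add_zero]
  · have ha' : a ∉ P ⊔ Submodule.span F2 {a + b} := by
      intro h
      obtain ⟨p, hp, q, hq, hpq⟩ := Submodule.mem_sup.1 h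
      obtain ⟨r, rfl⟩ := Submodule.mem_span_singleton.1 hq
      rcases eq_or_ne r 0 with rfl | hr
      · rw [zero_smul, add_zero] at hpq
        exact ha (hpq ▸ hp)
      · rw [f2_ne_zero hr, one_smul] at hpq
        apply hb
        have h1 : a + (p + b) = a + 0 := by rw [add_zero, ← add_assoc, add_comm a p, add_assoc]; exact hpq
        have h2 : p + b = 0 := add_left_cancel h1
        have h3 : b = -p := by rw [eq_neg_iff_add_eq_zero, add_comm]; exact h2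
        rw [h3]; exact P.neg_mem hp
    obtain ⟨f, h1, h2⟩ := exists_functional _ a ha'
    refine ⟨f, fun x hx => h1 x (Submodule.mem_sup_left hx), h2, ?_⟩
    have h3 := h1 (a + b) (Submodule.mem_sup_right (Submodule.mem_span_singleton_self _))
    rw [map_add, h2] at h3
    have : f b = 1 + (1 + f b) := by rw [← add_assoc]; have : (1 + 1 : F2) = 0 := rfl; rw [this, zero_add]
    rw [this, h3, add_zero]

/-! ## topology -/

variable {m : ℕ}

/-- the complement of the diagonal -/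
def D (m : ℕ) : Set (S m × S m) := {p | p.1 ≠ p.2}

theorem nrm (x : S m) : ‖(x : EuclideanSpace ℝ (Fin (m + 1)))‖ = 1 := by simp

/-- the segment from `y` away from `x` -/
def seg (t : ℝ) (x y : S m) : EuclideanSpace ℝ (Fin (m + 1)) := (1 - t) • y.1 - t • x.1

theorem seg_eq_smul {t c : ℝ} (h0 : 0 ≤ t) (h1 : t ≤ 1) (hc : 0 ≤ c) {x y : S m}
    (h : seg t x y = c • x.1) : x = y := by
  have e : (1 - t) • y.1 = (c + t) • x.1 := by
    unfold seg at h
    rw [sub_eq_iff_eq_add] at h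
    rw [h, add_smul]
  have e2 := congrArg norm e
  rw [norm_smul, norm_smul, nrm, nrm, mul_one, mul_one, Real.norm_eq_abs, Real.norm_eq_abs,
    abs_of_nonneg (by linarith), abs_of_nonneg (by linarith)] at e2
  rw [e2] at e
  have h3 : c + t ≠ 0 := by
    intro h3
    have : t = 0 := by linarith
    have : (1 : ℝ) - t = 1 := by linarith
    linarith
  exact Subtype.ext (smul_right_injective _ h3 e.symm)

theorem seg_ne_zero {t : ℝ} (h0 : 0 ≤ t) (h1 : t ≤ 1) {x y : S m} (h : x ≠ y) : seg t x y ≠ 0 := by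
  intro h'
  exact h (seg_eq_smul h0 h1 le_rfl (by rw [h', zero_smul]))

/-- normalisation -/
def nz (v : EuclideanSpace ℝ (Fin (m + 1))) (h : v ≠ 0) : S m :=
  ⟨‖v‖⁻¹ • v, by
    rw [mem_sphere_zero_iff_norm, norm_smul, norm_inv, norm_norm, inv_mul_cancel₀ (norm_ne_zero_iff.2 h)]⟩

/-- the homotopy of the complement of the diagonal -/
def htp : C(unitInterval × D m, D m) where
  toFun p := ⟨(p.2.1.1, nz (seg p.1 p.2.1.1 p.2.1.2) (seg_ne_zero p.1.2.1 p.1.2.2 p.2.2)), by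
    show p.2.1.1 ≠ _
    intro h
    refine p.2.2 (seg_eq_smul (t := p.1) (c := ‖seg p.1 p.2.1.1 p.2.1.2‖) p.1.2.1 p.1.2.2 (norm_nonneg _) ?_)
    have h1 := congrArg Subtype.val h
    rw [h1]
    show _ = ‖seg _ _ _‖ • ‖seg _ _ _‖⁻¹ • seg _ _ _
    rw [smul_smul, mul_inv_cancel₀ (norm_ne_zero_iff.2 (seg_ne_zero p.1.2.1 p.1.2.2 p.2.2)), one_smul]⟩
  continuous_toFun := by
    have hs : Continuous fun p : unitInterval × D m => seg (p.1 : ℝ) p.2.1.1 p.2.1.2 := by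
      unfold seg; fun_prop
    refine Continuous.subtype_mk (Continuous.prodMk (by fun_prop) (Continuous.subtype_mk ?_ _)) _
    refine Continuous.smul (Continuous.inv₀ hs.norm ?_) hs
    intro p
    exact norm_ne_zero_iff.2 (seg_ne_zero p.1.2.1 p.1.2.2 p.2.2)

/-- the antipodal graph -/
def gr (m : ℕ) : C(S m, D m) where
  toFun x := ⟨(x, -x), by
    show x ≠ -x
    intro h
    have h1 := congrArg Subtype.val h
    have h2 : (x : EuclideanSpace ℝ (Fin (m + 1))) = -x := h1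
    have h3 : (x : EuclideanSpace ℝ (Fin (m + 1))) = 0 := by
      have h5 : (2 : ℝ) • (x : EuclideanSpace ℝ (Fin (m + 1))) = 0 := by
        rw [two_smul]; nth_rewrite 2 [h2]; rw [add_neg_cancel]
      exact (smul_eq_zero.1 h5).resolve_left two_ne_zero
    have h4 := nrm x
    rw [h3, norm_zero] at h4
    exact zero_ne_one h4⟩
  continuous_toFun := by fun_prop

/-- first projection -/
def pr (m : ℕ) : C(D m, S m) := ⟨fun p => p.1.1, by fun_prop⟩

theorem htpy : (ContinuousMap.id (D m)).Homotopic ((gr m).comp (pr m)) := by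
  refine ⟨⟨htp, fun p => ?_, fun p => ?_⟩⟩
  · apply Subtype.ext
    refine Prod.ext rfl (Subtype.ext ?_)
    show ‖seg ((0 : unitInterval) : ℝ) _ _‖⁻¹ • seg ((0 : unitInterval) : ℝ) _ _ = _
    have : seg ((0 : unitInterval) : ℝ) p.1.1 p.1.2 = p.1.2.1 := by
      unfold seg; simp
    rw [this, nrm, inv_one, one_smul]; rfl
  · apply Subtype.ext
    refine Prod.ext rfl (Subtype.ext ?_)
    show ‖seg ((1 : unitInterval) : ℝ) _ _‖⁻¹ • seg ((1 : unitInterval) : ℝ) _ _ = _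
    have : seg ((1 : unitInterval) : ℝ) p.1.1 p.1.2 = -p.1.1.1 := by
      unfold seg; simp
    rw [this, norm_neg, nrm, inv_one, one_smul]; rfl

/-! ## homology -/

open Gr334 HZ76

variable {X Y Z : Type} [TopologicalSpace X] [TopologicalSpace Y] [TopologicalSpace Z]

/-- chain map of a continuous map -/
abbrev Nm (f : C(X, Y)) : N F2 (SS.Sing X) →ₗ[F2] N F2 (SS.Sing Y) := N.map F2 (SS.SingMap f)

/-- homology map of a continuous map -/
abbrev Hm (f : C(X, Y)) : H F2 (SS.Sing X) →ₗ[F2] H F2 (SS.Sing Y) := H.map F2 (SS.SingMap f)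

theorem Hm_comp (g : C(Y, Z)) (f : C(X, Y)) (x : H F2 (SS.Sing X)) : Hm (g.comp f) x = Hm g (Hm f x) :=
  H_map_comp F2 (SS.SingMap g) (SS.SingMap f) x

theorem Hm_id (x : H F2 (SS.Sing X)) : Hm (ContinuousMap.id X) x = x := by
  have : SS.SingMap (ContinuousMap.id X) = SS.Hom.id (SS.Sing X) := by
    ext n σ; rfl
  unfold Hm
  rw [this]; exact H_map_id F2 x

theorem Hm_congr {f g : C(X, Y)} (h : f.Homotopic g) (x : H F2 (SS.Sing X)) : Hm f x = Hm g x :=
  LinearMap.congr_fun (topHomotopyInv F2 X Y f g h) x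

theorem Nm_const (y : Y) (k : ℕ) {z : N F2 (SS.Sing X)} (hz : z ∈ N.gr F2 (SS.Sing X) (k + 1)) :
    Nm (ContinuousMap.const X y) z = 0 := by
  refine gr_induction (p := fun z => Nm (ContinuousMap.const X y) z = 0) hz (map_zero _) ?_ ?_ ?_
  · intro a b ha hb; rw [map_add, ha, hb, add_zero]
  · intro r a ha; rw [map_smul, ha, smul_zero]
  · intro x
    rw [N.map_sx]
    exact N.sx_dgn (R := F2) (K := SS.Sing Y) (n := k) 0 (ContinuousMap.const _ y)

theorem Hm_const (y : Y) (k : ℕ) {x : H F2 (SS.Sing X)} (hx : x ∈ H.gr F2 (SS.Sing X) (k + 1)) :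
    Hm (ContinuousMap.const X y) x = 0 := by
  obtain ⟨z, h, hz, rfl⟩ := mem_H_gr.1 hx
  exact Hd.mk_eq_zero.2 ⟨0, by rw [map_zero]; exact (Nm_const y k h).symm⟩

theorem Hm_mk (f : C(X, Y)) (z : N F2 (SS.Sing X)) (hz : N.bd F2 _ z = 0) :
    Hm f (Hd.mk _ z hz) = Hd.mk (N.bd F2 _) (Nm f z)
      ((LinearMap.congr_fun (N.map_bd (R := F2) (SS.SingMap f)) z).symm.trans (by
        rw [LinearMap.comp_apply, hz, map_zero])) := rfl

theorem Nm_bd (f : C(X, Y)) (z : N F2 (SS.Sing X)) : Nm f (N.bd F2 _ z) = N.bd F2 _ (Nm f z) :=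
  LinearMap.congr_fun (N.map_bd (R := F2) (SS.SingMap f)) z

/-- inclusion of a subspace -/
abbrev inc (A : Set X) : C(A, X) := ⟨Subtype.val, continuous_subtype_val⟩

theorem sinj_inc (A : Set X) : HA683.SInj (SS.SingMap (inc A)) := by
  intro n σ τ h
  apply ContinuousMap.ext
  intro x
  exact Subtype.ext (DFunLike.congr_fun (show (inc A).comp σ = (inc A).comp τ from h) x)

/-- the submodule which `U` has to kill -/
def P (A : Set X) : Submodule F2 (N F2 (SS.Sing X)) :=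
  LinearMap.range (N.bd F2 (SS.Sing X)) ⊔ LinearMap.range (Nm (inc A))

theorem exists_class {A : Set X} {k : ℕ} {z : N F2 (SS.Sing X)} (h : z ∈ N.gr F2 (SS.Sing X) k)
    (hz : N.bd F2 _ z = 0) (hP : z ∈ P A) :
    ∃ x ∈ H.gr F2 (SS.Sing A) k, Hd.mk (N.bd F2 _) z hz = Hm (inc A) x := by
  obtain ⟨_, ⟨b, rfl⟩, _, ⟨w, rfl⟩, hw⟩ := Submodule.mem_sup.1 hP
  have h1 : N.bd F2 _ (prN F2 _ (k + 1) b) + Nm (inc A) (prN F2 _ k w) = z := by
    rw [← prN_bd, ← prN_map, ← map_add, hw, prN_of_mem h]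
  have h2 : N.bd F2 _ (prN F2 _ k w) = 0 := by
    apply HA683.N_map_injective F2 (sinj_inc A)
    have h3 := congrArg (N.bd F2 (SS.Sing X)) h1
    rw [map_add, N.bd_bd, zero_add, hz, ← Nm_bd] at h3
    rw [map_zero]; exact h3
  refine ⟨Hd.mk _ (prN F2 _ k w) h2, mk_mem_gr (prN_mem _ _) _, ?_⟩
  rw [Hm_mk, Hd.mk_eq_mk]
  exact ⟨prN F2 _ (k + 1) b, by rw [← h1, add_sub_cancel_right]⟩

/-! ## the sphere -/

/-- `x ↦ (x, p)` -/
def i1 (p : S m) : C(S m, S m × S m) := ⟨fun x => (x, p), by fun_prop⟩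

/-- `x ↦ (p, x)` -/
def i2 (p : S m) : C(S m, S m × S m) := ⟨fun x => (p, x), by fun_prop⟩

/-- the antipode -/
def an (m : ℕ) : C(S m, S m) := ⟨fun x => -x, by fun_prop⟩

theorem exists_gen (k : ℕ) : ∃ z ∈ N.gr F2 (SS.Sing (S (k + 1))) (k + 1), ∃ hz : N.bd F2 _ z = 0,
    Hd.mk (N.bd F2 _) z hz ≠ 0 ∧ ∀ x ∈ H.gr F2 (SS.Sing (S (k + 1))) (k + 1),
      ∃ r : F2, x = r • Hd.mk (N.bd F2 _) z hz := by
  have y : S (k + 1) := ⟨EuclideanSpace.single 0 1, by simp⟩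
  obtain ⟨x, hx, h1, -⟩ := Sph94.spheres k y
  have hz : N.bd F2 (SS.Sing (S (k + 1))) (N.sx F2 x) = 0 := by
    rw [bd_sx_succ]
    rcases k with _ | k
    · simp only [hx]
      rw [Fin.sum_univ_two]
      simp [add_self]
    · refine Finset.sum_eq_zero fun i _ => ?_
      rw [hx]
      have : N.sx F2 (SpecA.cst y (k + 1)) = 0 := N.sx_dgn (R := F2) (K := SS.Sing _) (n := k) 0 (SpecA.cst y k)
      rw [this, smul_zero]
  obtain ⟨h2, h3⟩ := h1 hz
  refine ⟨N.sx F2 x, sx_mem_gr x, hz, h2, fun w hw => ?_⟩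
  rw [h3, Submodule.mem_span_singleton] at hw
  obtain ⟨r, hr⟩ := hw
  exact ⟨r, hr.symm⟩

theorem not_mem_P {k : ℕ} {z : N F2 (SS.Sing (S (k + 1)))} (h : z ∈ N.gr F2 _ (k + 1))
    (hz : N.bd F2 _ z = 0) (h0 : Hd.mk (N.bd F2 _) z hz ≠ 0)
    (hg : ∀ x ∈ H.gr F2 (SS.Sing (S (k + 1))) (k + 1), ∃ r : F2, x = r • Hd.mk (N.bd F2 _) z hz)
    (p : S (k + 1)) : Nm (i1 p) z ∉ P (D (k + 1)) ∧ Nm (i2 p) z ∉ P (D (k + 1)) := by
  have key : ∀ i : C(S (k + 1), S (k + 1) × S (k + 1)), Nm i z ∈ P (D (k + 1)) →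
      ∃ r : F2, Hm i (Hd.mk _ z hz) = r • Hm ((inc (D (k + 1))).comp (gr (k + 1))) (Hd.mk _ z hz) := by
    intro i hi
    obtain ⟨x, hx, hx'⟩ := exists_class (map_mem_gr _ h) (by rw [← Nm_bd, hz, map_zero]) hi
    have h1 : x = Hm (gr (k + 1)) (Hm (pr (k + 1)) x) := by
      rw [← Hm_comp, ← Hm_congr htpy, Hm_id]
    have h2 : Hm (pr (k + 1)) x ∈ H.gr F2 (SS.Sing (S (k + 1))) (k + 1) := by
      obtain ⟨w, hw, hw', rfl⟩ := mem_H_gr.1 hx
      exact mk_mem_gr (map_mem_gr _ hw) _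
    obtain ⟨r, hr⟩ := hg _ h2
    refine ⟨r, ?_⟩
    rw [Hm_mk, hx', h1, hr, Hm_comp, map_smul, map_smul]
  have hneg : Hm (an (k + 1)) (Hd.mk _ z hz) ≠ 0 := by
    intro h1
    apply h0
    have h2 : (an (k + 1)).comp (an (k + 1)) = ContinuousMap.id _ := by
      ext x; simp [an]
    rw [← Hm_id (Hd.mk _ z hz), ← h2, Hm_comp, h1, map_zero]
  have hcl : Hd.mk (N.bd F2 _) z hz ∈ H.gr F2 (SS.Sing (S (k + 1))) (k + 1) := mk_mem_gr h hz
  have e1 : (ContinuousMap.fst : C(S (k + 1) × S (k + 1), S (k + 1))).comp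
      ((inc (D (k + 1))).comp (gr (k + 1))) = ContinuousMap.id _ := by ext x; rfl
  have e2 : (ContinuousMap.snd : C(S (k + 1) × S (k + 1), S (k + 1))).comp
      ((inc (D (k + 1))).comp (gr (k + 1))) = an (k + 1) := by ext x; rfl
  constructor
  · intro h1
    obtain ⟨r, hr⟩ := key _ h1
    have h2 := congrArg (Hm ContinuousMap.fst) hr
    have h3 := congrArg (Hm ContinuousMap.snd) hr
    rw [map_smul, ← Hm_comp, ← Hm_comp] at h2 h3
    rw [e1, show (ContinuousMap.fst : C(S (k + 1) × S (k + 1), S (k + 1))).comp (i1 p) =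
      ContinuousMap.id _ from rfl, Hm_id] at h2
    rw [e2, show (ContinuousMap.snd : C(S (k + 1) × S (k + 1), S (k + 1))).comp (i1 p) =
      ContinuousMap.const _ p from rfl, Hm_const p k hcl] at h3
    rcases smul_eq_zero.1 h3.symm with h4 | h4
    · rw [h4, zero_smul] at h2; exact h0 h2
    · exact hneg h4
  · intro h1
    obtain ⟨r, hr⟩ := key _ h1
    have h2 := congrArg (Hm ContinuousMap.fst) hr
    have h3 := congrArg (Hm ContinuousMap.snd) hr
    rw [map_smul, ← Hm_comp, ← Hm_comp] at h2 h3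
    rw [e1, show (ContinuousMap.fst : C(S (k + 1) × S (k + 1), S (k + 1))).comp (i2 p) =
      ContinuousMap.const _ p from rfl, Hm_const p k hcl, Hm_id] at h2
    rw [e2, show (ContinuousMap.snd : C(S (k + 1) × S (k + 1), S (k + 1))).comp (i2 p) =
      ContinuousMap.id _ from rfl, Hm_id] at h3
    rcases smul_eq_zero.1 h2.symm with h4 | h4
    · rw [h4, zero_smul] at h3; exact h0 h3
    · exact h0 h4

theorem pathConn (k : ℕ) : PathConnectedSpace (S (k + 1)) := by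
  have h := isPathConnected_sphere (E := EuclideanSpace ℝ (Fin (k + 2))) (by
    rw [← Module.finrank_eq_rank, finrank_euclideanSpace_fin]; exact_mod_cast (by omega)) 0 (zero_le_one)
  exact isPathConnected_iff_pathConnectedSpace.1 h

/-- THE THOM COCHAIN OF THE DIAGONAL -/
theorem exists_thomU' (k : ℕ) : ∃ U : Co (SS.Sing (S (k + 1) × S (k + 1))),
    (∀ c, U (N.bd F2 _ c) = 0) ∧
    (∀ j, j ≠ k + 1 → ∀ c ∈ N.gr F2 (SS.Sing (S (k + 1) × S (k + 1))) j, U c = 0) ∧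
    (∀ c ∈ LinearMap.range (Nm (inc (D (k + 1)))), U c = 0) ∧
    (∀ (p : S (k + 1)), ∀ z ∈ N.gr F2 (SS.Sing (S (k + 1))) (k + 1), N.bd F2 _ z = 0 →
      (¬ ∃ b, N.bd F2 _ b = z) → U (Nm (i1 p) z) = 1 ∧ U (Nm (i2 p) z) = 1) := by
  obtain ⟨z0, h, hz, h0, hg⟩ := exists_gen k
  obtain p0 : S (k + 1) := ⟨EuclideanSpace.single 0 1, by simp⟩
  obtain ⟨g1, g2⟩ := not_mem_P h hz h0 hg p0
  obtain ⟨f, hf, hf1, hf2⟩ := exists_functional₂ _ _ _ g1 g2
  have hbd : ∀ c, f (prN F2 _ (k + 1) (N.bd F2 _ c)) = 0 := fun c => by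
    rw [prN_bd]; exact hf _ (Submodule.mem_sup_left ⟨_, rfl⟩)
  refine ⟨f ∘ₗ prN F2 _ (k + 1), hbd, ?_, ?_, ?_⟩
  · intro j hj c hc
    rw [LinearMap.comp_apply, prN_of_mem_ne hj hc, map_zero]
  · rintro _ ⟨w, rfl⟩
    rw [LinearMap.comp_apply, prN_map]
    exact hf _ (Submodule.mem_sup_right ⟨_, rfl⟩)
  · intro p z hz1 hz2 hz3
    have hz4 : Hd.mk (N.bd F2 _) z hz2 = Hd.mk (N.bd F2 _) z0 hz := by
      obtain ⟨r, hr⟩ := hg _ (mk_mem_gr hz1 hz2)
      rcases eq_or_ne r 0 with rfl | hr0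
      · exfalso
        rw [zero_smul, Hd.mk_eq_zero] at hr
        exact hz3 hr
      · rw [hr, f2_ne_zero hr0, one_smul]
    have := pathConn k
    obtain ⟨γ⟩ := PathConnectedSpace.joined p p0
    have key : ∀ i i0 : C(S (k + 1), S (k + 1) × S (k + 1)), i.Homotopic i0 →
        (f ∘ₗ prN F2 _ (k + 1)) (Nm i z) = (f ∘ₗ prN F2 _ (k + 1)) (Nm i0 z0) := by
      intro i i0 hi
      have h1 : Hm i (Hd.mk _ z hz2) = Hm i0 (Hd.mk _ z0 hz) := by rw [hz4, Hm_congr hi]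
      rw [Hm_mk, Hm_mk, Hd.mk_eq_mk] at h1
      obtain ⟨w, hw⟩ := h1
      have h2 : Nm i z = Nm i0 z0 + N.bd F2 _ w := by rw [hw]; abel
      rw [h2, map_add, LinearMap.comp_apply, LinearMap.comp_apply, hbd, add_zero]
    have e1 : (i1 p).Homotopic (i1 p0) :=
      ⟨⟨⟨fun q => (q.2, γ q.1), by fun_prop⟩, fun x => by simp [i1], fun x => by simp [i1]⟩⟩
    have e2 : (i2 p).Homotopic (i2 p0) :=
      ⟨⟨⟨fun q => (γ q.1, q.2), by fun_prop⟩, fun x => by simp [i2], fun x => by simp [i2]⟩⟩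
    rw [key _ _ e1, key _ _ e2, LinearMap.comp_apply, LinearMap.comp_apply, prN_of_mem (map_mem_gr _ h),
      prN_of_mem (map_mem_gr _ h)]
    exact ⟨hf1, hf2⟩

/-- Thom cochain of the diagonal of the sphere `S n` (interface) -/
structure Thom (n : ℕ) where
  /-- the cochain -/
  U : N F2 (SS.Sing (S n × S n)) →ₗ[F2] F2
  /-- cocycle -/
  cocycle : ∀ c, U (N.bd F2 _ c) = 0
  /-- degree `n` -/
  homog : ∀ j, j ≠ n → ∀ c ∈ N.gr F2 (SS.Sing (S n × S n)) j, U c = 0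
  /-- zero on simplices which miss the diagonal -/
  supp : ∀ (q : ℕ) (σ : (SS.Sing (S n × S n)).S q),
    (∀ x, ((show C(stdSimplex ℝ (Fin (q + 1)), S n × S n) from σ) x).1 ≠
      ((show C(stdSimplex ℝ (Fin (q + 1)), S n × S n) from σ) x).2) → U (N.sx F2 σ) = 0
  /-- value on `S × p` -/
  val1 : ∀ (p : S n), ∀ z ∈ N.gr F2 (SS.Sing (S n)) n, N.bd F2 _ z = 0 →
    (¬ ∃ b, N.bd F2 _ b = z) → U (N.map F2 (SS.SingMap (i1 p)) z) = 1
  /-- value on `p × S` -/
  val2 : ∀ (p : S n), ∀ z ∈ N.gr F2 (SS.Sing (S n)) n, N.bd F2 _ z = 0 →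
    (¬ ∃ b, N.bd F2 _ b = z) → U (N.map F2 (SS.SingMap (i2 p)) z) = 1

theorem exists_lift {A : Set X} {q : ℕ} (σ : C(stdSimplex ℝ (Fin (q + 1)), X)) (h : ∀ x, σ x ∈ A) :
    N.sx F2 (K := SS.Sing X) (n := q) σ ∈ LinearMap.range (Nm (inc A)) := by
  refine ⟨N.sx F2 (K := SS.Sing A) (n := q) (⟨fun x => ⟨σ x, h x⟩, by fun_prop⟩ : C(stdSimplex ℝ (Fin (q + 1)), A)), ?_⟩
  rw [N.map_sx]
  rfl

/-- the Thom cochain exists -/
theorem nonempty_thom (n : ℕ) (hn : 1 ≤ n) : Nonempty (Thom n) := by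
  obtain ⟨k, rfl⟩ := Nat.exists_eq_add_of_le' hn
  obtain ⟨U, h1, h2, h3, h4⟩ := exists_thomU' k
  exact ⟨⟨U, h1, h2, fun q σ h => h3 _ (exists_lift σ h),
    fun p z a b c => (h4 p z a b c).1, fun p z a b c => (h4 p z a b c).2⟩⟩

/-- a chosen Thom cochain -/
def thom (n : ℕ) (hn : 1 ≤ n) : Thom n := (nonempty_thom n hn).some

namespace Thom

variable {n : ℕ} (T : Thom n)

/-- the point cochain (first variable) -/
def Up (p : S n) : N F2 (SS.Sing (S n)) →ₗ[F2] F2 := T.U ∘ₗ N.map F2 (SS.SingMap (i1 p))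

theorem Up_bd (p : S n) (c : N F2 (SS.Sing (S n))) : T.Up p (N.bd F2 _ c) = 0 := by
  show T.U (Nm (i1 p) _) = 0
  rw [Nm_bd]; exact T.cocycle _

theorem Up_homog (p : S n) (j : ℕ) (hj : j ≠ n) (c : N F2 (SS.Sing (S n))) (hc : c ∈ N.gr F2 (SS.Sing (S n)) j) :
    T.Up p c = 0 := T.homog j hj _ (map_mem_gr _ hc)

theorem Up_supp (p : S n) (q : ℕ) (σ : C(stdSimplex ℝ (Fin (q + 1)), S n)) (h : ∀ x, σ x ≠ p) :
    T.Up p (N.sx F2 (K := SS.Sing (S n)) (n := q) σ) = 0 := by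
  show T.U (Nm (i1 p) _) = 0
  rw [N.map_sx]
  exact T.supp q _ h

theorem Up_val (p : S n) (z : N F2 (SS.Sing (S n))) (hz : z ∈ N.gr F2 (SS.Sing (S n)) n)
    (h : N.bd F2 _ z = 0) (h0 : ¬ ∃ b, N.bd F2 _ b = z) : T.Up p z = 1 := T.val1 p z hz h h0

end Thom

end Crest.Agent.R231.ThomUx935
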