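import Crest.Agent.R231.TimePoly_644
import Crest.Agent.R231.GArc_576

/-!
# Row 231 (S0357), block GM-GEO (b), part 2 (helper644)

* `plen`, `arcT`, `AL` : length, arclength times, arclength polygon
* `G1` : simultaneous replacement of the arcs `[i/K, (i+r)/K]` (homotopy of a loop to its polygon)
* `bt` : moving the vertices along the edges
* `exists_hom` : the homotopy from the identity to `γ ↦ AL K (points on the edges)`, preserving all
  Lipschitz levels
-/

set_option autoImplicit false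
set_option linter.unusedSectionVars false

open Set Filter Topology

namespace Crest.Agent.R231.TimePolyx644

open Crest.Agent.R231.GLugx576

section len

variable {M : Type*} [MetricSpace M] (L : LUG M)

/-- length of the first `j` edges -/
noncomputable def plen (b : ℕ → M) (j : ℕ) : ℝ := ∑ i ∈ Finset.range j, dist (b i) (b (i + 1))

/-- arclength times -/
noncomputable def arcT (K : ℕ) (b : ℕ → M) (j : ℕ) : ℝ := plen b j / plen b K

/-- the closed polygon parametrised proportionally to arclength -/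
noncomputable def AL (K : ℕ) (b : ℕ → M) : Lp M := PL L K b (arcT K b)

/-- closed polygons with short nondegenerate edges -/
structure Good (K : ℕ) (b : ℕ → M) : Prop where
  pos : 0 < K
  closed : b K = b 0
  short : ∀ i < K, dist (b i) (b (i + 1)) < L.r0
  edge : ∀ i < K, 0 < dist (b i) (b (i + 1))

theorem plen_zero (b : ℕ → M) : plen b 0 = 0 := by simp [plen]

theorem plen_succ (b : ℕ → M) (j : ℕ) : plen b (j + 1) = plen b j + dist (b j) (b (j + 1)) := by
  simp [plen, Finset.sum_range_succ]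

theorem plen_nonneg (b : ℕ → M) (j : ℕ) : 0 ≤ plen b j := Finset.sum_nonneg fun _ _ => dist_nonneg

variable {L} {K : ℕ} {b : ℕ → M}

theorem Good.plen_pos (h : Good L K b) : 0 < plen b K := by
  refine Finset.sum_pos (fun i hi => h.edge i (Finset.mem_range.1 hi)) ?_
  exact ⟨0, Finset.mem_range.2 h.pos⟩

theorem arcT_zero (K : ℕ) (b : ℕ → M) : arcT K b 0 = 0 := by simp [arcT, plen_zero]

theorem arcT_self (h : 0 < plen b K) : arcT K b K = 1 := div_self h.ne'

theorem arcT_sub (K : ℕ) (b : ℕ → M) (i : ℕ) :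
    arcT K b (i + 1) - arcT K b i = dist (b i) (b (i + 1)) / plen b K := by
  rw [arcT, arcT, plen_succ]; ring

theorem Good.adm (h : Good L K b) : Adm L K b (arcT K b) where
  zero := arcT_zero K b
  one := arcT_self h.plen_pos
  lt i hi := by
    have h1 := arcT_sub K b i
    have h2 : 0 < dist (b i) (b (i + 1)) / plen b K := div_pos (h.edge i hi) h.plen_pos
    linarith
  closed := h.closed
  short := h.short

theorem Good.edge_le (h : Good L K b) {t : ℝ} (ht : plen b K ≤ t) (i : ℕ) :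
    dist (b i) (b (i + 1)) ≤ t * (arcT K b (i + 1) - arcT K b i) := by
  have hp := h.plen_pos
  rw [arcT_sub, ← mul_div_assoc, le_div_iff₀ hp, mul_comm]
  exact mul_le_mul_of_nonneg_right ht dist_nonneg

theorem Good.AL_mem [CompactSpace M] (h : Good L K b) {t : ℝ} (ht : plen b K ≤ t) :
    AL L K b ∈ X M t :=
  h.adm.mem_X (h.plen_pos.le.trans ht) fun i _ => h.edge_le ht i

/-- the length of an inscribed polygon -/
theorem plen_le {t : ℝ} {θ : ℕ → ℝ} (h0 : θ 0 = 0) (h1 : θ K = 1)
    (hl : ∀ i < K, dist (b i) (b (i + 1)) ≤ t * (θ (i + 1) - θ i)) : plen b K ≤ t := by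
  calc plen b K ≤ ∑ i ∈ Finset.range K, t * (θ (i + 1) - θ i) :=
        Finset.sum_le_sum fun i hi => hl i (Finset.mem_range.1 hi)
    _ = t * (θ K - θ 0) := by rw [← Finset.mul_sum, Finset.sum_range_sub]
    _ = t := by rw [h0, h1, sub_zero, mul_one]

/-- convex combinations of admissible times -/
theorem Adm.convex {θ θ' : ℕ → ℝ} (h : Adm L K b θ) (h' : Adm L K b θ') {r : ℝ}
    (hr : r ∈ Icc (0 : ℝ) 1) : Adm L K b (fun i => (1 - r) * θ i + r * θ' i) where
  zero := by rw [h.zero, h'.zero]; ring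
  one := by rw [h.one, h'.one]; ring
  lt i hi := by
    have h1 := h.lt i hi
    have h2 := h'.lt i hi
    rcases hr.1.eq_or_lt with h3 | h3
    · rw [← h3]; linarith
    · have := mul_lt_mul_of_pos_left h2 h3
      have := mul_le_mul_of_nonneg_left h1.le (by linarith [hr.2] : 0 ≤ 1 - r)
      linarith
  closed := h.closed
  short := h.short

theorem continuousOn_plen {α : Type*} [TopologicalSpace α] {S : Set α} {b : α → ℕ → M} {j : ℕ}
    (cb : ∀ i ≤ j, ContinuousOn (fun a => b a i) S) : ContinuousOn (fun a => plen (b a) j) S := by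
  unfold plen
  refine continuousOn_finsetSum _ fun i hi => ?_
  have hi' := Finset.mem_range.1 hi
  exact continuous_dist.comp_continuousOn ((cb i hi'.le).prodMk (cb (i + 1) hi'))

theorem continuousOn_arcT {α : Type*} [TopologicalSpace α] {S : Set α} {b : α → ℕ → M} {j : ℕ}
    (hj : j ≤ K) (cb : ∀ i ≤ K, ContinuousOn (fun a => b a i) S) (h : ∀ a ∈ S, Good L K (b a)) :
    ContinuousOn (fun a => arcT K (b a) j) S :=
  (continuousOn_plen fun i hi => cb i (hi.trans hj)).div (continuousOn_plen cb)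
    fun a ha => (h a ha).plen_pos.ne'

theorem continuousOn_AL [CompactSpace M] {α : Type*} [TopologicalSpace α] {S : Set α}
    {b : α → ℕ → M} (cb : ∀ i ≤ K, ContinuousOn (fun a => b a i) S)
    (h : ∀ a ∈ S, Good L K (b a)) : ContinuousOn (fun a => AL L K (b a)) S :=
  continuousOn_PL cb (fun _ hi => continuousOn_arcT hi cb h) fun a ha => (h a ha).adm

end len

/-! ### moving the vertices along the edges -/

section bt

variable {M : Type*} [MetricSpace M] (L : LUG M)

/-- the point of parameter `τ λ_i` on the `i`-th edge -/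
noncomputable def bt (a : ℕ → M) (lam : ℕ → ℝ) (τ : ℝ) (i : ℕ) : M :=
  L.seg (a i) (a (i + 1)) (τ * lam i)

variable {L} {K : ℕ} {a : ℕ → M} {lam : ℕ → ℝ} {τ : ℝ}

theorem mul_mem_Icc {x y : ℝ} (hx : x ∈ Icc (0 : ℝ) 1) (hy : y ∈ Icc (0 : ℝ) 1) :
    x * y ∈ Icc (0 : ℝ) 1 :=
  ⟨mul_nonneg hx.1 hy.1, mul_le_one₀ hx.2 hy.1 hy.2⟩

theorem bt_zero (hs : ∀ i, dist (a i) (a (i + 1)) < L.r0) : bt L a lam 0 = a := by
  funext i
  rw [bt, zero_mul, L.seg_zero (hs i)]

/-- the length of a polygon inscribed in a closed polygon -/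
theorem plen_bt_le (ha : ∀ i, a (i + K) = a i) (hl : ∀ i, lam (i + K) = lam i)
    (h01 : ∀ i, lam i ∈ Icc (0 : ℝ) 1) (hs : ∀ i, dist (a i) (a (i + 1)) < L.r0)
    (hτ : τ ∈ Icc (0 : ℝ) 1) : plen (bt L a lam τ) K ≤ plen a K := by
  set f : ℕ → ℝ := fun i => τ * lam i * dist (a i) (a (i + 1)) with hf
  have h1 : ∀ i, dist (bt L a lam τ i) (bt L a lam τ (i + 1)) ≤
      dist (a i) (a (i + 1)) + (f (i + 1) - f i) := by
    intro i
    refine (dist_triangle _ (a (i + 1)) _).trans (le_of_eq ?_)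
    rw [bt, bt, L.dist_right (hs i) (mul_mem_Icc hτ (h01 i)),
      L.dist_left (hs (i + 1)) (mul_mem_Icc hτ (h01 (i + 1)))]
    simp only [hf]
    ring
  have h2 : f K = f 0 := by
    simp only [hf]
    have e1 := ha 0
    have e2 := ha 1
    have e3 := hl 0
    rw [zero_add] at e1 e3
    rw [add_comm 1 K] at e2
    rw [e1, e2, e3, zero_add]
  calc plen (bt L a lam τ) K
      ≤ ∑ i ∈ Finset.range K, (dist (a i) (a (i + 1)) + (f (i + 1) - f i)) :=
        Finset.sum_le_sum fun i _ => h1 i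
    _ = plen a K + (f K - f 0) := by
        rw [Finset.sum_add_distrib, Finset.sum_range_sub]; rfl
    _ = plen a K := by rw [h2]; ring

theorem bt_period (ha : ∀ i, a (i + K) = a i) (hl : ∀ i, lam (i + K) = lam i) (i : ℕ) :
    bt L a lam τ (i + K) = bt L a lam τ i := by
  rw [bt, bt, ha, hl]
  have := ha (i + 1)
  rw [show i + 1 + K = i + K + 1 by ring] at this
  rw [this]

theorem dist_bt_lt {ρ : ℝ} (h01 : ∀ i, lam i ∈ Icc (0 : ℝ) 1)
    (hs : ∀ i, dist (a i) (a (i + 1)) < L.r0) (hρ : ∀ i, dist (a i) (a (i + 1)) ≤ ρ)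
    (hτ : τ ∈ Icc (0 : ℝ) 1) (i : ℕ) :
    dist (bt L a lam τ i) (bt L a lam τ (i + 1)) ≤ 2 * ρ := by
  have h1 := mul_mem_Icc hτ (h01 i)
  have h2 := mul_mem_Icc hτ (h01 (i + 1))
  refine (dist_triangle _ (a (i + 1)) _).trans ?_
  rw [bt, bt, L.dist_right (hs i) h1, L.dist_left (hs (i + 1)) h2]
  have h3 : (1 - τ * lam i) * dist (a i) (a (i + 1)) ≤ ρ :=
    (mul_le_of_le_one_left dist_nonneg (by linarith [h1.1])).trans (hρ i)
  have h4 : τ * lam (i + 1) * dist (a (i + 1)) (a (i + 1 + 1)) ≤ ρ :=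
    (mul_le_of_le_one_left dist_nonneg h2.2).trans (hρ (i + 1))
  linarith

end bt

/-! ### replacement of all arcs of a uniform partition -/

section G1

variable {M : Type*} [MetricSpace M] [CompactSpace M] (L : LUG M)

/-- the arcs `[i/K, (i+r)/K]`, `i < j`, are replaced by segments -/
noncomputable def G1 (K : ℕ) : ℕ → ℝ → Lp M → Lp M
  | 0, _, γ => γ
  | j + 1, r, γ => repA L (j / K : ℝ) (r / K) (G1 K j r γ)

variable {L} {K : ℕ} {t : ℝ} {γ : Lp M}

theorem rK_mem {K : ℕ} (hK : 0 < K) {r : ℝ} (hr : r ∈ Icc (0 : ℝ) 1) : r / K ∈ Icc (0 : ℝ) 1 := by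
  have : (1 : ℝ) ≤ K := by exact_mod_cast hK
  exact ⟨div_nonneg hr.1 (by linarith), (div_le_one (by linarith)).2 (hr.2.trans this)⟩

theorem rK_lt {K : ℕ} (hK : 0 < K) {r t ρ : ℝ} (ht : 0 ≤ t) (htK : t < K * ρ)
    (hr : r ∈ Icc (0 : ℝ) 1) : t * (r / K) < ρ := by
  have hK' : (0 : ℝ) < K := by exact_mod_cast hK
  rw [← mul_div_assoc, div_lt_iff₀ hK']
  have : t * r ≤ t := mul_le_of_le_one_right ht hr.2
  nlinarith

theorem G1_mem (hK : 0 < K) (htK : t < K * L.r0) (hγ : γ ∈ X M t) (j : ℕ) {r : ℝ}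
    (hr : r ∈ Icc (0 : ℝ) 1) : G1 L K j r γ ∈ X M t := by
  induction j with
  | zero => exact hγ
  | succ j ih =>
    exact repA_mem L ih (rK_mem hK hr).1 (rK_mem hK hr).2 (rK_lt hK (nonneg_of_mem hγ) htK hr)

theorem G1_zero (j : ℕ) : G1 L K j 0 γ = γ := by
  induction j with
  | zero => rfl
  | succ j ih =>
    rw [G1, zero_div, repA_zero, ih]

theorem contOn_repA (a : ℝ) : ContinuousOn (fun p : ℝ × Lp M => repA L a p.1 p.2)
    {p | (p.1, rot (a : UnitAddCircle) p.2) ∈ RepDom L} := by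
  have h1 : Continuous (fun p : ℝ × Lp M => (p.1, rot (a : UnitAddCircle) p.2)) :=
    continuous_fst.prodMk ((rot (a : UnitAddCircle)).continuous.comp continuous_snd)
  have h2 := (contOn_rep L).comp h1.continuousOn (fun p hp => hp)
  exact ((rot ((-a : ℝ) : UnitAddCircle) : C(Lp M, Lp M)).continuous.comp_continuousOn h2)

theorem continuousOn_G1 (hK : 0 < K) (htK : t < K * L.r0) (j : ℕ) :
    ContinuousOn (fun p : Lp M × ℝ => G1 L K j p.2 p.1) (X M t ×ˢ Icc (0 : ℝ) 1) := by
  induction j with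
  | zero => exact continuous_fst.continuousOn
  | succ j ih =>
    have h1 : ContinuousOn (fun p : Lp M × ℝ => ((p.2 / K : ℝ), G1 L K j p.2 p.1))
        (X M t ×ˢ Icc (0 : ℝ) 1) :=
      ((continuous_snd.div_const (K : ℝ)).continuousOn).prodMk ih
    refine (contOn_repA (L := L) (j / K : ℝ)).comp h1 ?_
    intro p hp
    have h2 := G1_mem hK htK hp.1 j hp.2
    exact mem_domA h2 (rK_mem hK hp.2).1 (rK_mem hK hp.2).2
      (rK_lt hK (nonneg_of_mem h2) htK hp.2) _

/-- tight arcs are not changed -/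
theorem G1_eq_self (hK : 0 < K) (htK : t < K * L.r0) (hγ : γ ∈ X M t)
    (hc : ∀ x y : ℝ, |x - y| ≤ 1 / K → dist (γ x) (γ y) = t * |x - y|) (j : ℕ) {r : ℝ}
    (hr : r ∈ Icc (0 : ℝ) 1) : G1 L K j r γ = γ := by
  induction j with
  | zero => rfl
  | succ j ih =>
    rw [G1, ih]
    have hrK := rK_mem hK hr
    refine repA_eq_self L hγ hrK.1 hrK.2 (rK_lt hK (nonneg_of_mem hγ) htK hr) ?_
    have e : |(j / K : ℝ) - (j / K + r / K : ℝ)| = r / K := by
      rw [sub_add_cancel_left, abs_neg, abs_of_nonneg hrK.1]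
    rw [hc _ _ (by rw [e]; gcongr; exact hr.2), e]

/-- the polygon obtained at `r = 1` -/
theorem G1_one_aux (hK : 0 < K) (htK : t < K * L.r0) (hγ : γ ∈ X M t) (j : ℕ) (hj : j ≤ K) :
    (∀ x : ℝ, x ∈ Icc (j / K : ℝ) 1 → G1 L K j 1 γ (x : UnitAddCircle) = γ (x : UnitAddCircle)) ∧
    (∀ i < j, ∀ x : ℝ, x ∈ Icc (i / K : ℝ) ((i + 1 : ℕ) / K : ℝ) → G1 L K j 1 γ (x : UnitAddCircle) =
      L.seg (γ ((i / K : ℝ) : UnitAddCircle)) (γ (((i + 1 : ℕ) / K : ℝ) : UnitAddCircle))
        ((x - i / K) / (((i + 1 : ℕ) : ℝ) / K - i / K))) := by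
  have hK' : (0 : ℝ) < K := by exact_mod_cast hK
  have h1m : (1 : ℝ) ∈ Icc (0 : ℝ) 1 := ⟨zero_le_one, le_rfl⟩
  induction j with
  | zero => exact ⟨fun x _ => rfl, fun i hi => absurd hi (Nat.not_lt_zero i)⟩
  | succ j ih =>
    obtain ⟨ih1, ih2⟩ := ih (by omega)
    have hm := G1_mem hK htK hγ j h1m
    have hrK := rK_mem hK h1m
    have hlt := rK_lt hK (nonneg_of_mem hγ) htK h1m
    have hd := mem_domA hm hrK.1 hrK.2 hlt (j / K : ℝ)
    have hjK : ((j : ℝ) + 1) / K ≤ 1 := by
      rw [div_le_one hK']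
      exact_mod_cast hj
    have hj0 : 0 ≤ (j : ℝ) / K := by positivity
    have hj1 : (j : ℝ) / K ≤ 1 := le_trans (by gcongr; linarith) hjK
    have hsum : (j / K : ℝ) + 1 / K = ((j : ℝ) + 1) / K := by ring
    -- values outside the arc
    have hout : ∀ x : ℝ, x ∈ Icc (((j : ℝ) + 1) / K) (j / K + 1) →
        G1 L K (j + 1) 1 γ (x : UnitAddCircle) = G1 L K j 1 γ (x : UnitAddCircle) := by
      intro x hx
      rw [G1]
      refine repA_out L hd ?_
      rw [hsum]
      exact hx
    -- end points of the arc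
    have e0 : G1 L K j 1 γ ((j / K : ℝ) : UnitAddCircle) = γ ((j / K : ℝ) : UnitAddCircle) :=
      ih1 _ ⟨le_rfl, hj1⟩
    have e1 : G1 L K j 1 γ ((((j : ℝ) + 1) / K : ℝ) : UnitAddCircle) =
        γ ((((j : ℝ) + 1) / K : ℝ) : UnitAddCircle) := by
      refine ih1 _ ⟨?_, hjK⟩
      gcongr; linarith
    have hin : ∀ x : ℝ, x ∈ Icc (j / K : ℝ) (((j : ℝ) + 1) / K) →
        G1 L K (j + 1) 1 γ (x : UnitAddCircle) =
          L.seg (γ ((j / K : ℝ) : UnitAddCircle)) (γ ((((j : ℝ) + 1) / K : ℝ) : UnitAddCircle))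
            ((x - j / K) / (1 / K)) := by
      intro x hx
      have hxa : x - j / K ∈ Icc (0 : ℝ) (1 / K) := ⟨by linarith [hx.1], by
        have := hx.2; rw [← hsum] at this; linarith⟩
      rw [G1, repA_coe, rep_apply L hd ⟨hxa.1, hxa.2.trans hrK.2⟩, repF, if_pos hxa.2, rot_coe,
        rot_coe, add_zero, e0, hsum, e1]
    constructor
    · intro x hx
      have hx1 : ((j : ℝ) + 1) / K ≤ x := by
        have := hx.1; push_cast at this; exact this
      rw [hout x ⟨hx1, hx.2.trans (by linarith)⟩]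
      exact ih1 x ⟨le_trans (by gcongr; linarith) hx1, hx.2⟩
    · intro i hi x hx
      rcases (Nat.lt_succ_iff.1 hi).eq_or_lt with he | hlt'
      · subst he
        have hx' : x ∈ Icc (i / K : ℝ) (((i : ℝ) + 1) / K) := by
          have := hx.2; push_cast at this; exact ⟨hx.1, this⟩
        rw [hin x hx']
        push_cast
        congr 2
        ring
      · -- an earlier edge
        rw [← ih2 i hlt' x hx]
        have hx2 : x ≤ (j : ℝ) / K := hx.2.trans (by gcongr; exact_mod_cast hlt')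
        have hx0 : 0 ≤ x := le_trans (by positivity) hx.1
        -- shift by one
        rcases hx2.eq_or_lt with he | hlt2
        · rw [he]
          have hj' : (j : ℝ) / K ∈ Icc (j / K : ℝ) (((j : ℝ) + 1) / K) :=
            ⟨le_rfl, by gcongr; linarith⟩
          rw [hin _ hj', sub_self, zero_div, e0]
          refine L.seg_zero ?_
          have := hγ (j / K : ℝ) (((j : ℝ) + 1) / K)
          refine this.trans_lt ?_
          have e : |(j / K : ℝ) - ((j : ℝ) + 1) / K| = 1 / K := by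
            rw [show (j / K : ℝ) - ((j : ℝ) + 1) / K = -(1 / K) by ring, abs_neg,
              abs_of_nonneg (by positivity)]
          rw [e]
          exact hlt
        · have e2 : (x : UnitAddCircle) = ((x + 1 : ℝ) : UnitAddCircle) := by
            have := coe_add_int x 1
            rw [Int.cast_one] at this
            exact this.symm
          rw [e2]
          exact hout (x + 1) ⟨by linarith, by linarith⟩

theorem unif_adm (hK : 0 < K) (htK : t < K * L.r0) (hγ : γ ∈ X M t) :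
    Adm L K (fun i => γ ((i / K : ℝ) : UnitAddCircle)) (fun i => (i : ℝ) / K) where
  zero := by simp
  one := div_self (by exact_mod_cast hK.ne')
  lt i _ := by
    have hK' : (0 : ℝ) < K := by exact_mod_cast hK
    gcongr
    linarith
  closed := by
    show γ ((K / K : ℝ) : UnitAddCircle) = γ (((0 : ℕ) / K : ℝ) : UnitAddCircle)
    rw [div_self (by exact_mod_cast hK.ne')]
    simp [coe_one_circle]
  short i _ := by
    have hK' : (0 : ℝ) < K := by exact_mod_cast hK
    have h := hγ (i / K : ℝ) (((i + 1 : ℕ) : ℝ) / K)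
    refine h.trans_lt ?_
    have e : |(i / K : ℝ) - ((i + 1 : ℕ) : ℝ) / K| = 1 / K := by
      push_cast
      rw [show (i / K : ℝ) - ((i : ℝ) + 1) / K = -(1 / K) by ring, abs_neg,
        abs_of_nonneg (by positivity)]
    rw [e]
    exact rK_lt hK (nonneg_of_mem hγ) htK ⟨zero_le_one, le_rfl⟩

/-- **the polygon** -/
theorem G1_one (hK : 0 < K) (htK : t < K * L.r0) (hγ : γ ∈ X M t) :
    G1 L K K 1 γ = PL L K (fun i => γ ((i / K : ℝ) : UnitAddCircle)) (fun i => (i : ℝ) / K) :=
  ((unif_adm hK htK hγ).ext fun i hi x hx => (G1_one_aux hK htK hγ K le_rfl).2 i hi x hx).symm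

end G1

end Crest.Agent.R231.TimePolyx644
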