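import Crest.Agent.R231.TimePolyB_644

/-!
# Row 231 (S0357), block GM-GEO (b), part 3 (helper644)

`exists_hom` : near a closed geodesic `c` the identity is homotopic, inside every Lipschitz level, to
`g ↦ AL K (points λ_i(g) on the edges of the polygon g((i-1/2)/K))`; `c` is fixed.
-/

set_option autoImplicit false
set_option linter.unusedSectionVars false

open Set Filter Topology

namespace Crest.Agent.R231.TimePolyx644

open Crest.Agent.R231.GLugx576

/-! ### gluing homotopies -/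

section glue

variable {α β : Type*}

/-- first `F`, then `G` -/
noncomputable def glue (F G : α → ℝ → β) (a : α) (r : ℝ) : β :=
  if r ≤ 1 / 2 then F a (cl (2 * r)) else G a (cl (2 * r - 1))

theorem glue_zero (F G : α → ℝ → β) (a : α) : glue F G a 0 = F a 0 := by
  rw [glue, if_pos (by norm_num), mul_zero, cl_of_le le_rfl]

theorem glue_one (F G : α → ℝ → β) (a : α) : glue F G a 1 = G a 1 := by
  rw [glue, if_neg (by norm_num), cl_of_ge (by norm_num)]

theorem glue_prop {F G : α → ℝ → β} {P : β → Prop} {a : α}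
    (hF : ∀ r ∈ Icc (0 : ℝ) 1, P (F a r)) (hG : ∀ r ∈ Icc (0 : ℝ) 1, P (G a r)) (r : ℝ) :
    P (glue F G a r) := by
  unfold glue
  split_ifs
  · exact hF _ (cl_mem _)
  · exact hG _ (cl_mem _)

theorem contOn_glue [TopologicalSpace α] [TopologicalSpace β] {S : Set α} {F G : α → ℝ → β}
    (hF : ContinuousOn (fun p : α × ℝ => F p.1 p.2) (S ×ˢ Icc (0 : ℝ) 1))
    (hG : ContinuousOn (fun p : α × ℝ => G p.1 p.2) (S ×ˢ Icc (0 : ℝ) 1))
    (h : ∀ a ∈ S, F a 1 = G a 0) :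
    ContinuousOn (fun p : α × ℝ => glue F G p.1 p.2) (S ×ˢ Icc (0 : ℝ) 1) := by
  rw [continuousOn_iff_continuous_domRestrict]
  have e : (S ×ˢ Icc (0 : ℝ) 1).domRestrict (fun p : α × ℝ => glue F G p.1 p.2) =
      fun q : (S ×ˢ Icc (0 : ℝ) 1 : Set (α × ℝ)) =>
        if q.1.2 ≤ 1 / 2 then F q.1.1 (cl (2 * q.1.2)) else G q.1.1 (cl (2 * q.1.2 - 1)) := rfl
  rw [e]
  refine Continuous.if_le ?_ ?_ (continuous_subtype_val.snd) continuous_const ?_
  · have h1 : Continuous (fun q : (S ×ˢ Icc (0 : ℝ) 1 : Set (α × ℝ)) =>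
        ((q.1.1, cl (2 * q.1.2)) : α × ℝ)) :=
      (continuous_subtype_val.fst).prodMk
        (continuous_cl.comp (continuous_const.mul continuous_subtype_val.snd))
    exact hF.comp_continuous h1 fun q => ⟨q.2.1, cl_mem _⟩
  · have h1 : Continuous (fun q : (S ×ˢ Icc (0 : ℝ) 1 : Set (α × ℝ)) =>
        ((q.1.1, cl (2 * q.1.2 - 1)) : α × ℝ)) :=
      (continuous_subtype_val.fst).prodMk
        (continuous_cl.comp ((continuous_const.mul continuous_subtype_val.snd).sub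
          continuous_const))
    exact hG.comp_continuous h1 fun q => ⟨q.2.1, cl_mem _⟩
  · intro q hq
    have hq' : q.1.2 = 1 / 2 := hq
    rw [hq', cl_of_ge (by norm_num), cl_of_le (by norm_num)]
    exact h _ q.2.1

end glue

/-! ### the three stages -/

section stages

variable {M : Type*} [MetricSpace M] [CompactSpace M] (L : LUG M)

/-- the vertices `g ((i - 1/2) / K)` -/
noncomputable def av (K : ℕ) (g : Lp M) (i : ℕ) : M := g ((((i : ℝ) - 1 / 2) / K : ℝ) : UnitAddCircle)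

/-- replacing the arcs by segments -/
noncomputable def h1 (K : ℕ) (g : Lp M) (r : ℝ) : Lp M :=
  rot ((1 / (2 * K) : ℝ) : UnitAddCircle)
    (G1 L K K r (rot ((-(1 / (2 * K)) : ℝ) : UnitAddCircle) g))

/-- changing the times -/
noncomputable def h2 (K : ℕ) (g : Lp M) (r : ℝ) : Lp M :=
  rot ((1 / (2 * K) : ℝ) : UnitAddCircle)
    (PL L K (av K g) (fun i => (1 - r) * ((i : ℝ) / K) + r * arcT K (av K g) i))

/-- moving the vertices -/
noncomputable def h3 (K : ℕ) (lam : ℕ → Lp M → ℝ) (g : Lp M) (r : ℝ) : Lp M :=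
  rot (((1 - r) / (2 * K) : ℝ) : UnitAddCircle)
    (AL L K (bt L (av K g) (fun i => lam i g) r))

variable {L} {K : ℕ} {g : Lp M} {t b s : ℝ}

theorem continuous_av (K i : ℕ) : Continuous fun g : Lp M => av K g i :=
  continuous_eval_const _

theorem av_eq (K : ℕ) (g : Lp M) :
    av K g = fun i : ℕ => rot ((-(1 / (2 * K)) : ℝ) : UnitAddCircle) g ((i / K : ℝ) : UnitAddCircle) := by
  funext i
  rw [rot_coe, av]
  congr 2
  ring

theorem av_period (hK : 0 < K) (g : Lp M) (i : ℕ) : av K g (i + K) = av K g i := by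
  have hK' : (K : ℝ) ≠ 0 := by exact_mod_cast hK.ne'
  unfold av
  have e : ((((i + K : ℕ) : ℝ) - 1 / 2) / K : ℝ) = (((i : ℝ) - 1 / 2) / K : ℝ) + ((1 : ℤ) : ℝ) := by
    push_cast
    field_simp
    ring
  rw [e, coe_add_int]

theorem dist_av (g : Lp M) (hg : g ∈ X M t) (i : ℕ) :
    dist (av K g i) (av K g (i + 1)) ≤ t * (1 / K) := by
  refine (hg _ _).trans (le_of_eq ?_)
  congr 1
  push_cast
  have e : (((i : ℝ) - 1 / 2) / K - ((i : ℝ) + 1 - 1 / 2) / K : ℝ) = -(1 / K) := by ring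
  rw [e, abs_neg, abs_of_nonneg (by positivity)]

theorem unif_adm' (hK : 0 < K) (htK : t < K * L.r0) (hg : g ∈ X M t) :
    Adm L K (av K g) (fun i => (i : ℝ) / K) := by
  have h := unif_adm hK htK (rot_mem hg ((-(1 / (2 * K)) : ℝ) : UnitAddCircle))
  rw [av_eq]
  exact h

theorem rot_half_inv (K : ℕ) (g : Lp M) : rot ((1 / (2 * K) : ℝ) : UnitAddCircle)
    (rot ((-(1 / (2 * K)) : ℝ) : UnitAddCircle) g) = g := by
  have h := rot_inv g (-(1 / (2 * K)) : ℝ)
  rwa [neg_neg] at h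

/-! stage 1 -/

theorem h1_zero (K : ℕ) (g : Lp M) : h1 L K g 0 = g := by
  rw [h1, G1_zero, rot_half_inv]

theorem h1_mem (hK : 0 < K) (htK : t < K * L.r0) (hg : g ∈ X M t) {r : ℝ}
    (hr : r ∈ Icc (0 : ℝ) 1) : h1 L K g r ∈ X M t :=
  rot_mem (G1_mem hK htK (rot_mem hg _) K hr) _

theorem h1_one (hK : 0 < K) (htK : t < K * L.r0) (hg : g ∈ X M t) :
    h1 L K g 1 = h2 L K g 0 := by
  rw [h1, G1_one hK htK (rot_mem hg _), h2, ← av_eq]
  congr 2
  funext i
  ring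

theorem continuousOn_h1 (hK : 0 < K) (htK : t < K * L.r0) :
    ContinuousOn (fun p : Lp M × ℝ => h1 L K p.1 p.2) (X M t ×ˢ Icc (0 : ℝ) 1) := by
  have c1 : Continuous (fun p : Lp M × ℝ =>
      ((rot ((-(1 / (2 * K)) : ℝ) : UnitAddCircle) p.1, p.2) : Lp M × ℝ)) :=
    ((rot _).continuous.comp continuous_fst).prodMk continuous_snd
  have c2 := (continuousOn_G1 (L := L) hK htK K).comp (c1.continuousOn (s := X M t ×ˢ Icc (0 : ℝ) 1))
    (fun p hp => ⟨rot_mem hp.1 _, hp.2⟩)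
  exact (rot ((1 / (2 * K) : ℝ) : UnitAddCircle) : C(Lp M, Lp M)).continuous.comp_continuousOn c2

/-! stage 2 -/

theorem h2_adm (hK : 0 < K) (htK : t < K * L.r0) (hg : g ∈ X M t) (hgood : Good L K (av K g))
    {r : ℝ} (hr : r ∈ Icc (0 : ℝ) 1) :
    Adm L K (av K g) (fun i => (1 - r) * ((i : ℝ) / K) + r * arcT K (av K g) i) :=
  (unif_adm' hK htK hg).convex hgood.adm hr

theorem unif_sub (K i : ℕ) : (((i + 1 : ℕ) : ℝ) / K - (i : ℝ) / K) = 1 / K := by
  push_cast; ring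

theorem plen_av_le (hK : 0 < K) (hg : g ∈ X M t) : plen (av K g) K ≤ t := by
  refine plen_le (θ := fun i => (i : ℝ) / K) (by simp) ?_ fun i _ => ?_
  · exact div_self (by exact_mod_cast hK.ne')
  · rw [unif_sub]; exact dist_av g hg i

theorem h2_mem (hK : 0 < K) (htK : t < K * L.r0) (hg : g ∈ X M t) (hgood : Good L K (av K g))
    {r : ℝ} (hr : r ∈ Icc (0 : ℝ) 1) : h2 L K g r ∈ X M t := by
  refine rot_mem ((h2_adm hK htK hg hgood hr).mem_X (nonneg_of_mem hg) fun i _ => ?_) _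
  have h1 := dist_av (K := K) g hg i
  have h2 := hgood.edge_le (plen_av_le hK hg) i
  have h3 := unif_sub K i
  have e : t * ((1 - r) * (((i + 1 : ℕ) : ℝ) / K) + r * arcT K (av K g) (i + 1) -
      ((1 - r) * ((i : ℝ) / K) + r * arcT K (av K g) i)) =
      (1 - r) * (t * (1 / K)) + r * (t * (arcT K (av K g) (i + 1) - arcT K (av K g) i)) := by
    rw [← h3]; ring
  rw [e]
  have h4 := mul_le_mul_of_nonneg_left h1 (by linarith [hr.2] : 0 ≤ 1 - r)
  have h5 := mul_le_mul_of_nonneg_left h2 hr.1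
  linarith

theorem h2_one (hs : ∀ i, dist (av K g i) (av K g (i + 1)) < L.r0) (lam : ℕ → Lp M → ℝ) :
    h2 L K g 1 = h3 L K lam g 0 := by
  rw [h2, h3, bt_zero hs, sub_zero, AL]
  congr 2
  funext i
  ring

theorem continuousOn_h2 (hK : 0 < K) (htK : t < K * L.r0) {S : Set (Lp M)} (hS : S ⊆ X M t)
    (hgood : ∀ g ∈ S, Good L K (av K g)) :
    ContinuousOn (fun p : Lp M × ℝ => h2 L K p.1 p.2) (S ×ˢ Icc (0 : ℝ) 1) := by
  refine (rot ((1 / (2 * K) : ℝ) : UnitAddCircle) : C(Lp M, Lp M)).continuous.comp_continuousOn ?_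
  refine continuousOn_PL (L := L) (K := K) (S := S ×ˢ Icc (0 : ℝ) 1)
    (b := fun p : Lp M × ℝ => av K p.1)
    (θ := fun p : Lp M × ℝ => fun i => (1 - p.2) * ((i : ℝ) / K) + p.2 * arcT K (av K p.1) i)
    ?_ ?_ ?_
  · intro i _
    exact ((continuous_av K i).comp continuous_fst).continuousOn
  · intro i hi
    have h1 : ContinuousOn (fun p : Lp M × ℝ => arcT K (av K p.1) i) (S ×ˢ Icc (0 : ℝ) 1) :=
      continuousOn_arcT (L := L) (b := fun p : Lp M × ℝ => av K p.1) hi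
        (fun k _ => ((continuous_av K k).comp continuous_fst).continuousOn)
        fun p hp => hgood p.1 hp.1
    exact ((continuous_const.sub continuous_snd).mul continuous_const).continuousOn.add
      (continuous_snd.continuousOn.mul h1)
  · intro p hp
    exact h2_adm hK htK (hS hp.1) (hgood p.1 hp.1) hp.2

/-! stage 3 -/

theorem h3_one (K : ℕ) (lam : ℕ → Lp M → ℝ) (g : Lp M) :
    h3 L K lam g 1 = AL L K (fun i => L.seg (av K g i) (av K g (i + 1)) (lam i g)) := by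
  rw [h3, sub_self, zero_div, AddCircle.coe_zero, rot_zero]
  congr 1
  funext i
  rw [bt, one_mul]

theorem h3_mem (hK : 0 < K) (hg : g ∈ X M t) (hs : ∀ i, dist (av K g i) (av K g (i + 1)) < L.r0)
    {lam : ℕ → Lp M → ℝ} (hl : ∀ i, lam (i + K) g = lam i g) (h01 : ∀ i, lam i g ∈ Icc (0 : ℝ) 1)
    {r : ℝ} (hr : r ∈ Icc (0 : ℝ) 1)
    (hgood : Good L K (bt L (av K g) (fun i => lam i g) r)) : h3 L K lam g r ∈ X M t := by
  refine rot_mem (hgood.AL_mem ?_) _
  exact (plen_bt_le (av_period hK g) hl h01 hs hr).trans (plen_av_le hK hg)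

theorem continuousOn_bt {S : Set (Lp M)} {lam : ℕ → Lp M → ℝ}
    (hs : ∀ g ∈ S, ∀ i, dist (av K g i) (av K g (i + 1)) < L.r0)
    (hlam : ∀ i, ContinuousOn (lam i) S) (h01 : ∀ g ∈ S, ∀ i, lam i g ∈ Icc (0 : ℝ) 1) (i : ℕ) :
    ContinuousOn (fun p : Lp M × ℝ => bt L (av K p.1) (fun i => lam i p.1) p.2 i)
      (S ×ˢ Icc (0 : ℝ) 1) := by
  unfold bt
  refine L.continuousOn_seg' ?_ ?_ ?_ ?_ ?_
  · exact ((continuous_av K i).comp continuous_fst).continuousOn
  · exact ((continuous_av K (i + 1)).comp continuous_fst).continuousOn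
  · exact continuous_snd.continuousOn.mul ((hlam i).comp continuous_fst.continuousOn
      fun p hp => hp.1)
  · intro p hp
    exact hs p.1 hp.1 i
  · intro p hp
    exact mul_mem_Icc hp.2 (h01 p.1 hp.1 i)

theorem continuousOn_h3 {S : Set (Lp M)} {lam : ℕ → Lp M → ℝ}
    (hs : ∀ g ∈ S, ∀ i, dist (av K g i) (av K g (i + 1)) < L.r0)
    (hlam : ∀ i, ContinuousOn (lam i) S) (h01 : ∀ g ∈ S, ∀ i, lam i g ∈ Icc (0 : ℝ) 1)
    (hgood : ∀ g ∈ S, ∀ r ∈ Icc (0 : ℝ) 1, Good L K (bt L (av K g) (fun i => lam i g) r)) :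
    ContinuousOn (fun p : Lp M × ℝ => h3 L K lam p.1 p.2) (S ×ˢ Icc (0 : ℝ) 1) := by
  have c1 : ContinuousOn (fun p : Lp M × ℝ =>
      AL L K (bt L (av K p.1) (fun i => lam i p.1) p.2)) (S ×ˢ Icc (0 : ℝ) 1) :=
    continuousOn_AL (L := L) (K := K)
      (b := fun p : Lp M × ℝ => bt L (av K p.1) (fun i => lam i p.1) p.2)
      (fun i _ => continuousOn_bt hs hlam h01 i) fun p hp => hgood p.1 hp.1 p.2 hp.2
  have c2 : Continuous (fun p : Lp M × ℝ => (((1 - p.2) / (2 * K) : ℝ) : UnitAddCircle)) :=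
    (AddCircle.continuous_mk' 1).comp ((continuous_const.sub continuous_snd).div_const _)
  exact continuous_rot.comp_continuousOn (c2.continuousOn.prodMk c1)

end stages

/-! ### the closed geodesic -/

section tight

variable {M : Type*} [MetricSpace M] [CompactSpace M] {L : LUG M} {K : ℕ} {c : Lp M} {s : ℝ}

theorem dist_tight (hK : 0 < K)
    (hc : ∀ x y : ℝ, |x - y| ≤ 1 / K → dist (c x) (c y) = s * |x - y|) (x0 : ℝ) (i : ℕ) :
    dist (c ((x0 + i / K : ℝ) : UnitAddCircle)) (c ((x0 + ((i + 1 : ℕ) : ℝ) / K : ℝ) : UnitAddCircle))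
      = s * (1 / K) := by
  have hK' : (0 : ℝ) < K := by exact_mod_cast hK
  have e : |(x0 + i / K : ℝ) - (x0 + ((i + 1 : ℕ) : ℝ) / K : ℝ)| = 1 / K := by
    push_cast
    rw [show (x0 + i / K : ℝ) - (x0 + ((i : ℝ) + 1) / K : ℝ) = -(1 / K) by ring, abs_neg,
      abs_of_nonneg (by positivity)]
  rw [hc _ _ (by rw [e]), e]

theorem arcT_tight (hK : 0 < K) (hs : 0 < s)
    (hc : ∀ x y : ℝ, |x - y| ≤ 1 / K → dist (c x) (c y) = s * |x - y|) (x0 : ℝ) :
    arcT K (fun i : ℕ => c ((x0 + i / K : ℝ) : UnitAddCircle)) = fun i : ℕ => (i : ℝ) / K := by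
  have hK' : (0 : ℝ) < K := by exact_mod_cast hK
  have h1 : ∀ j : ℕ, plen (fun i : ℕ => c ((x0 + i / K : ℝ) : UnitAddCircle)) j =
      j * (s * (1 / K)) := by
    intro j
    unfold plen
    rw [Finset.sum_congr rfl (fun i _ => dist_tight hK hc x0 i), Finset.sum_const,
      Finset.card_range, nsmul_eq_mul]
  funext i
  rw [arcT, h1, h1]
  field_simp

theorem good_tight (hK : 0 < K) (hs : 0 < s) (hsK : s < K * L.r0)
    (hc : ∀ x y : ℝ, |x - y| ≤ 1 / K → dist (c x) (c y) = s * |x - y|) (x0 : ℝ) :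
    Good L K (fun i : ℕ => c ((x0 + i / K : ℝ) : UnitAddCircle)) where
  pos := hK
  closed := by
    have hK' : (K : ℝ) ≠ 0 := by exact_mod_cast hK.ne'
    show c ((x0 + (K : ℝ) / K : ℝ) : UnitAddCircle) = c ((x0 + ((0 : ℕ) : ℝ) / K : ℝ) : UnitAddCircle)
    rw [div_self hK', Nat.cast_zero, zero_div, add_zero]
    have := coe_add_int x0 1
    rw [Int.cast_one] at this
    rw [this]
  short i _ := by
    have hK' : (0 : ℝ) < K := by exact_mod_cast hK
    rw [dist_tight hK hc x0 i, mul_one_div, div_lt_iff₀ hK', mul_comm]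
    exact hsK
  edge i _ := by
    have hK' : (0 : ℝ) < K := by exact_mod_cast hK
    rw [dist_tight hK hc x0 i]
    positivity

/-- a tight arc is a segment -/
theorem seg_tight (hK : 0 < K) (hsK : s < K * L.r0)
    (hc : ∀ x y : ℝ, |x - y| ≤ 1 / K → dist (c x) (c y) = s * |x - y|) (x0 : ℝ) {u : ℝ}
    (hu : u ∈ Icc (0 : ℝ) 1) : L.seg (c (x0 : UnitAddCircle)) (c ((x0 + 1 / K : ℝ) : UnitAddCircle)) u =
      c ((x0 + u / K : ℝ) : UnitAddCircle) := by
  have hK' : (0 : ℝ) < K := by exact_mod_cast hK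
  have e0 : |x0 - (x0 + 1 / K)| = 1 / K := by
    rw [sub_add_cancel_left, abs_neg, abs_of_nonneg (by positivity)]
  have h0 : dist (c (x0 : UnitAddCircle)) (c ((x0 + 1 / K : ℝ) : UnitAddCircle)) = s * (1 / K) := by
    rw [hc _ _ (by rw [e0]), e0]
  have hlt : dist (c (x0 : UnitAddCircle)) (c ((x0 + 1 / K : ℝ) : UnitAddCircle)) < L.r0 := by
    rw [h0, mul_one_div, div_lt_iff₀ hK', mul_comm]
    exact hsK
  have huK : u / K ≤ 1 / K := by gcongr; exact hu.2
  have e1 : |x0 - (x0 + u / K)| = u / K := by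
    rw [sub_add_cancel_left, abs_neg, abs_of_nonneg (div_nonneg hu.1 hK'.le)]
  have e2 : |x0 + u / K - (x0 + 1 / K)| = (1 - u) / K := by
    rw [show x0 + u / K - (x0 + 1 / K) = -((1 - u) / K) by ring, abs_neg,
      abs_of_nonneg (div_nonneg (by linarith [hu.2]) hK'.le)]
  have h3 : (1 - u) / K ≤ 1 / K := by gcongr; linarith [hu.1]
  refine (L.uniq hlt hu ?_ ?_).symm
  · rw [h0, hc _ _ (by rw [e1]; exact huK), e1]; ring
  · rw [h0, hc _ _ (by rw [e2]; exact h3), e2]; ring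

/-- the arclength polygon inscribed in a closed geodesic is the geodesic -/
theorem AL_tight (hK : 0 < K) (hs : 0 < s) (hsK : s < K * L.r0)
    (hc : ∀ x y : ℝ, |x - y| ≤ 1 / K → dist (c x) (c y) = s * |x - y|) (x0 : ℝ) :
    AL L K (fun i : ℕ => c ((x0 + i / K : ℝ) : UnitAddCircle)) = rot (x0 : UnitAddCircle) c := by
  have hK' : (0 : ℝ) < K := by exact_mod_cast hK
  rw [AL]
  have hadm := (good_tight (L := L) hK hs hsK hc x0).adm
  have harc := arcT_tight hK hs hc x0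
  refine hadm.ext fun i hi x hx => ?_
  rw [harc] at hx ⊢
  simp only at hx ⊢
  have e1 : ((i + 1 : ℕ) : ℝ) / K - (i : ℝ) / K = 1 / K := unif_sub K i
  have hxi : x - i / K ≤ 1 / K := by
    have := hx.2; linarith
  have hu : (x - i / K) / (1 / K) ∈ Icc (0 : ℝ) 1 := by
    constructor
    · exact div_nonneg (by linarith [hx.1]) (by positivity)
    · rw [div_le_one (by positivity)]; exact hxi
  have h1 := seg_tight (L := L) hK hsK hc (x0 + i / K) hu
  rw [rot_coe, e1]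
  have e2 : (x0 + ((i + 1 : ℕ) : ℝ) / K : ℝ) = x0 + i / K + 1 / K := by rw [← e1]; ring
  rw [e2, h1]
  congr 2
  field_simp
  ring

theorem abs_le_of_mem {x y a b : ℝ} (hx : x ∈ Icc a b) (hy : y ∈ Icc a b) : |x - y| ≤ b - a := by
  rw [abs_le]; constructor <;> linarith [hx.1, hx.2, hy.1, hy.2]

variable (hK : 0 < K) (hs : 0 < s) (hsK : s < K * L.r0)
  (hc : ∀ x y : ℝ, |x - y| ≤ 1 / K → dist (c x) (c y) = s * |x - y|)

include hc in
theorem tight_rot (a : ℝ) (x y : ℝ) (h : |x - y| ≤ 1 / K) :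
    dist (rot (a : UnitAddCircle) c x) (rot (a : UnitAddCircle) c y) = s * |x - y| := by
  rw [rot_coe, rot_coe]
  have e : |a + x - (a + y)| = |x - y| := by congr 1; ring
  rw [hc _ _ (by rw [e]; exact h), e]

theorem av_tight (K : ℕ) (c : Lp M) :
    av K c = fun i : ℕ => c ((-(1 / (2 * K)) + i / K : ℝ) : UnitAddCircle) := by
  rw [av_eq]
  funext i
  rw [rot_coe]

include hK hsK hc in
theorem h1_tight (hX : c ∈ X M s) {r : ℝ} (hr : r ∈ Icc (0 : ℝ) 1) : h1 L K c r = c := by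
  rw [h1, G1_eq_self hK hsK (rot_mem hX _) (tight_rot hc _) K hr, rot_half_inv]

include hK hs hsK hc in
theorem h2_tight (r : ℝ) : h2 L K c r = c := by
  have h1 := AL_tight (L := L) hK hs hsK hc (-(1 / (2 * K)))
  have h2' := arcT_tight hK hs hc (-(1 / (2 * K)))
  rw [AL, h2'] at h1
  rw [h2, av_tight, h2']
  have e : (fun i : ℕ => (1 - r) * ((i : ℝ) / K) + r * ((i : ℝ) / K)) = fun i : ℕ => (i : ℝ) / K := by
    funext i; ring
  rw [e, h1, rot_half_inv]

include hK hsK hc in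
theorem bt_tight {lam : ℕ → ℝ} (hl : ∀ i, lam i = 1 / 2) {r : ℝ} (hr : r ∈ Icc (0 : ℝ) 1) :
    bt L (av K c) lam r =
      fun i : ℕ => c (((-((1 - r) / (2 * K))) + i / K : ℝ) : UnitAddCircle) := by
  have hK' : (0 : ℝ) < K := by exact_mod_cast hK
  funext i
  rw [bt, hl i, av_tight]
  simp only
  have e : ((-(1 / (2 * K)) + ((i + 1 : ℕ) : ℝ) / K : ℝ)) = (-(1 / (2 * K)) + i / K : ℝ) + 1 / K := by
    push_cast; ring
  rw [e, seg_tight hK hsK hc _ (u := r * (1 / 2)) ⟨by linarith [hr.1], by linarith [hr.2]⟩]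
  congr 2
  field_simp
  ring

include hK hs hsK hc in
theorem h3_tight {lam : ℕ → Lp M → ℝ} (hl : ∀ i, lam i c = 1 / 2) {r : ℝ}
    (hr : r ∈ Icc (0 : ℝ) 1) : h3 L K lam c r = c := by
  rw [h3, bt_tight hK hsK hc hl hr, AL_tight hK hs hsK hc]
  have h := rot_inv c (-((1 - r) / (2 * K)) : ℝ)
  rwa [neg_neg] at h

include hK hs hsK hc in
theorem bt_good {lam : ℕ → ℝ} (hl : ∀ i, lam i = 1 / 2) {r : ℝ} (hr : r ∈ Icc (0 : ℝ) 1) :
    Good L K (bt L (av K c) lam r) := by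
  rw [bt_tight hK hsK hc hl hr]
  exact good_tight hK hs hsK hc _

end tight

/-! ### the homotopy -/

section main

variable {M : Type*} [MetricSpace M] [CompactSpace M] {L : LUG M} {K : ℕ} {c : Lp M} {s b : ℝ}

/-- relative tube lemma -/
theorem exists_open_pos {α : Type*} [TopologicalSpace α] {S : Set α} {c : α} (hcS : c ∈ S)
    {f : α × ℝ → ℝ} (hf : ContinuousOn f (S ×ˢ Icc (0 : ℝ) 1))
    (hpos : ∀ r ∈ Icc (0 : ℝ) 1, 0 < f (c, r)) :
    ∃ U : Set α, IsOpen U ∧ c ∈ U ∧ ∀ a ∈ U ∩ S, ∀ r ∈ Icc (0 : ℝ) 1, 0 < f (a, r) := by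
  obtain ⟨u, hu, he⟩ := (continuousOn_iff'.1 hf) (Ioi 0) isOpen_Ioi
  have hsub : ({c} : Set α) ×ˢ Icc (0 : ℝ) 1 ⊆ u := by
    rintro ⟨a, r⟩ ⟨ha, hr⟩
    obtain rfl : a = c := ha
    have : ((a, r) : α × ℝ) ∈ u ∩ S ×ˢ Icc (0 : ℝ) 1 := by
      rw [← he]; exact ⟨hpos r hr, hcS, hr⟩
    exact this.1
  obtain ⟨v, w, hv, -, hcv, hw, hvw⟩ :=
    generalized_tube_lemma isCompact_singleton isCompact_Icc hu hsub
  refine ⟨v, hv, hcv rfl, fun a ha r hr => ?_⟩
  have : ((a, r) : α × ℝ) ∈ f ⁻¹' Ioi 0 ∩ S ×ˢ Icc (0 : ℝ) 1 := by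
    rw [he]; exact ⟨hvw ⟨ha.1, hw hr⟩, ha.2, hr⟩
  exact this.1

/-- **the homotopy** -/
theorem exists_hom (hK : 0 < K) (hs : 0 < s) (hbK : 2 * b < K * L.r0)
    (hc : ∀ x y : ℝ, |x - y| ≤ 1 / K → dist (c x) (c y) = s * |x - y|) (hX : c ∈ X M s)
    (hsb : s ≤ b) {V : Set (Lp M)} (hV : IsOpen V) (hcV : c ∈ V) {lam : ℕ → Lp M → ℝ}
    (hlam : ∀ i, ContinuousOn (lam i) (V ∩ X M b))
    (hper : ∀ i, ∀ g, lam (i + K) g = lam i g)
    (h01 : ∀ g ∈ V ∩ X M b, ∀ i, lam i g ∈ Icc (0 : ℝ) 1) (hlc : ∀ i, lam i c = 1 / 2) :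
    ∃ (U : Set (Lp M)) (h : Lp M → ℝ → Lp M), IsOpen U ∧ c ∈ U ∧ U ⊆ V ∧
      ContinuousOn (fun q : Lp M × ℝ => h q.1 q.2) ((U ∩ X M b) ×ˢ Icc (0 : ℝ) 1) ∧
      (∀ g, h g 0 = g) ∧
      (∀ g, h g 1 = AL L K (fun i => L.seg (av K g i) (av K g (i + 1)) (lam i g))) ∧
      (∀ r ∈ Icc (0 : ℝ) 1, h c r = c) ∧
      (∀ g ∈ U ∩ X M b, ∀ t ≤ b, g ∈ X M t → ∀ r ∈ Icc (0 : ℝ) 1, h g r ∈ X M t) ∧
      (∀ g ∈ U ∩ X M b,
        Good L K (fun i => L.seg (av K g i) (av K g (i + 1)) (lam i g))) ∧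
      (∀ g ∈ U ∩ X M b, ∀ t ≤ b, g ∈ X M t →
        plen (fun i => L.seg (av K g i) (av K g (i + 1)) (lam i g)) K ≤ t) := by
  have hK' : (0 : ℝ) < K := by exact_mod_cast hK
  have hb0 : 0 < b := hs.trans_le hsb
  have hbK1 : b < K * L.r0 := by linarith
  have hsK : s < K * L.r0 := by linarith
  have hcb : c ∈ X M b := X_mono hsb hX
  -- short edges
  have hρ : ∀ g ∈ X M b, ∀ i, dist (av K g i) (av K g (i + 1)) ≤ b * (1 / K) :=
    fun g hg i => dist_av g hg i
  have hbK2 : 2 * (b * (1 / K)) < L.r0 := by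
    rw [mul_one_div, ← mul_div_assoc, div_lt_iff₀ hK', mul_comm L.r0]
    exact hbK
  have hshort : ∀ g ∈ X M b, ∀ i, dist (av K g i) (av K g (i + 1)) < L.r0 := fun g hg i => by
    have := hρ g hg i
    have : 0 ≤ b * (1 / K) := by positivity
    linarith
  set S := V ∩ X M b with hS
  have hcS : c ∈ S := ⟨hcV, hcb⟩
  -- positivity of the edges of `bt`
  have hpos : ∀ i : ℕ, ∃ U : Set (Lp M), IsOpen U ∧ c ∈ U ∧ ∀ g ∈ U ∩ S, ∀ r ∈ Icc (0 : ℝ) 1,
      0 < dist (bt L (av K g) (fun i => lam i g) r i)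
        (bt L (av K g) (fun i => lam i g) r (i + 1)) := by
    intro i
    have hf : ContinuousOn (fun p : Lp M × ℝ => dist (bt L (av K p.1) (fun i => lam i p.1) p.2 i)
        (bt L (av K p.1) (fun i => lam i p.1) p.2 (i + 1))) (S ×ˢ Icc (0 : ℝ) 1) :=
      continuous_dist.comp_continuousOn
        ((continuousOn_bt (fun g hg => hshort g hg.2) hlam h01 i).prodMk
          (continuousOn_bt (fun g hg => hshort g hg.2) hlam h01 (i + 1)))
    refine exists_open_pos hcS hf fun r hr => ?_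
    show 0 < dist (bt L (av K c) (fun i => lam i c) r i) (bt L (av K c) (fun i => lam i c) r (i + 1))
    rw [bt_tight hK hsK hc hlc hr]
    simp only
    rw [dist_tight hK hc]
    positivity
  choose U0 hU0 hcU0 hU0p using hpos
  set U : Set (Lp M) := V ∩ ⋂ i ∈ Finset.range K, U0 i with hU
  have hUo : IsOpen U := hV.inter (isOpen_biInter_finset fun i _ => hU0 i)
  have hcU : c ∈ U := ⟨hcV, mem_iInter₂.2 fun i _ => hcU0 i⟩
  have hUS : ∀ g ∈ U ∩ X M b, g ∈ S := fun g hg => ⟨hg.1.1, hg.2⟩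
  have hgood : ∀ g ∈ U ∩ X M b, ∀ r ∈ Icc (0 : ℝ) 1,
      Good L K (bt L (av K g) (fun i => lam i g) r) := by
    intro g hg r hr
    refine ⟨hK, ?_, fun i hi => ?_, fun i hi => ?_⟩
    · have := bt_period (L := L) (lam := fun i => lam i g) (τ := r) (av_period hK g)
        (fun i => hper i g) 0
      rwa [zero_add] at this
    · exact (dist_bt_lt (h01 g (hUS g hg)) (hshort g hg.2) (hρ g hg.2) hr i).trans_lt hbK2
    · exact hU0p i g ⟨(mem_iInter₂.1 hg.1.2) i (Finset.mem_range.2 hi), hUS g hg⟩ r hr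
  have hgood0 : ∀ g ∈ U ∩ X M b, Good L K (av K g) := by
    intro g hg
    have := hgood g hg 0 ⟨le_rfl, zero_le_one⟩
    rwa [bt_zero (hshort g hg.2)] at this
  have hgood1 : ∀ g ∈ U ∩ X M b,
      Good L K (fun i => L.seg (av K g i) (av K g (i + 1)) (lam i g)) := by
    intro g hg
    have := hgood g hg 1 ⟨zero_le_one, le_rfl⟩
    have e : bt L (av K g) (fun i => lam i g) 1 =
        fun i => L.seg (av K g i) (av K g (i + 1)) (lam i g) := by
      funext i; rw [bt, one_mul]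
    rwa [e] at this
  refine ⟨U, glue (h1 L K) (glue (h2 L K) (h3 L K lam)), hUo, hcU, fun g hg => hg.1, ?_, ?_, ?_,
    ?_, ?_, hgood1, ?_⟩
  · refine contOn_glue ?_ (contOn_glue ?_ ?_ ?_) ?_
    · exact (continuousOn_h1 hK hbK1).mono (prod_mono_left fun g hg => hg.2)
    · exact continuousOn_h2 hK hbK1 (fun g hg => hg.2) hgood0
    · exact continuousOn_h3 (fun g hg => hshort g hg.2)
        (fun i => (hlam i).mono fun g hg => hUS g hg) (fun g hg => h01 g (hUS g hg)) hgood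
    · intro g hg
      exact h2_one (hshort g hg.2) lam
    · intro g hg
      rw [glue_zero]
      exact h1_one hK hbK1 hg.2
  · intro g
    rw [glue_zero, h1_zero]
  · intro g
    rw [glue_one, glue_one, h3_one]
  · intro r _
    refine glue_prop (P := fun γ => γ = c) (fun r hr => h1_tight hK hsK hc hX hr)
      (fun r _ => glue_prop (P := fun γ => γ = c) (fun r _ => h2_tight hK hs hsK hc r)
        (fun r hr => h3_tight hK hs hsK hc hlc hr) r) r
  · intro g hg t htb hgt r _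
    have htK : t < K * L.r0 := by linarith
    refine glue_prop (P := fun γ => γ ∈ X M t) (fun r hr => h1_mem hK htK hgt hr)
      (fun r _ => glue_prop (P := fun γ => γ ∈ X M t)
        (fun r hr => h2_mem hK htK hgt (hgood0 g hg) hr)
        (fun r hr => h3_mem hK hgt (hshort g hg.2) (fun i => hper i g) (h01 g (hUS g hg)) hr
          (hgood g hg r hr)) r) r
  · intro g hg t _ hgt
    have h1 := plen_bt_le (L := L) (lam := fun i => lam i g) (τ := 1) (av_period hK g)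
      (fun i => hper i g) (h01 g (hUS g hg)) (hshort g hg.2) ⟨zero_le_one, le_rfl⟩
    have e : bt L (av K g) (fun i => lam i g) 1 =
        fun i => L.seg (av K g i) (av K g (i + 1)) (lam i g) := by
      funext i; rw [bt, one_mul]
    rw [e] at h1
    exact h1.trans (plen_av_le hK hgt)

end main

end Crest.Agent.R231.TimePolyx644
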