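import Crest.Agent.R231.GLoop_576

/-!
# Row 231 (S0357), block GM-GEO (b): closed polygons with prescribed times (helper644)

* `pth L b θ K : ℝ → M` : the broken geodesic with vertex `b j` at time `θ j`, `j ≤ K`
* `PL L K b θ : Lp M` : the closed polygon (`θ 0 = 0`, `θ K = 1`, `b K = b 0`)
* continuity in the parameters, Lipschitz bound
* `plen`, `arcT`, `AL` : length, arclength times, arclength polygon
-/

set_option autoImplicit false
set_option linter.unusedSectionVars false

open Set Filter Topology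

namespace Crest.Agent.R231.TimePolyx644

open Crest.Agent.R231.GLugx576

/-! ### the clamp -/

/-- clamp to `[0,1]` -/
noncomputable def cl (u : ℝ) : ℝ := max 0 (min 1 u)

theorem cl_mem (u : ℝ) : cl u ∈ Icc (0 : ℝ) 1 :=
  ⟨le_max_left _ _, max_le zero_le_one (min_le_left _ _)⟩

theorem cl_of_mem {u : ℝ} (h : u ∈ Icc (0 : ℝ) 1) : cl u = u := by
  unfold cl
  rw [min_eq_right h.2, max_eq_right h.1]

theorem cl_of_ge {u : ℝ} (h : 1 ≤ u) : cl u = 1 := by
  unfold cl
  rw [min_eq_left h, max_eq_right zero_le_one]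

theorem cl_of_le {u : ℝ} (h : u ≤ 0) : cl u = 0 := by
  unfold cl
  rw [min_eq_right (h.trans zero_le_one), max_eq_left h]

theorem continuous_cl : Continuous cl := continuous_const.max (continuous_const.min continuous_id)

theorem abs_cl_sub_le (u v : ℝ) : |cl u - cl v| ≤ |u - v| := by
  unfold cl
  rw [max_comm 0 (min 1 u), max_comm 0 (min 1 v)]
  refine (abs_max_sub_max_le_abs (min 1 u) (min 1 v) (0 : ℝ)).trans ?_
  rw [min_comm 1 u, min_comm 1 v]
  exact (abs_min_sub_min_le_max u 1 v 1).trans (by simp)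

/-! ### broken geodesics -/

section pth

variable {M : Type*} [MetricSpace M] (L : LUG M)

/-- the broken geodesic with vertices `b i` at the times `θ i`, `i ≤ j`; constant outside. -/
noncomputable def pth (b : ℕ → M) (θ : ℕ → ℝ) : ℕ → ℝ → M
  | 0, _ => b 0
  | j + 1, x => if x ≤ θ j then pth b θ j x
      else L.seg (b j) (b (j + 1)) (cl ((x - θ j) / (θ (j + 1) - θ j)))

variable {b : ℕ → M} {θ : ℕ → ℝ} {j : ℕ}

theorem pth_of_ge (hθ : ∀ i < j, θ i < θ (i + 1)) (hb : ∀ i < j, dist (b i) (b (i + 1)) < L.r0)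
    {x : ℝ} (hx : θ j ≤ x) : pth L b θ j x = b j := by
  cases j with
  | zero => rfl
  | succ j =>
    have h1 := hθ j (Nat.lt_succ_self j)
    have h2 : ¬ x ≤ θ j := by linarith
    simp only [pth, if_neg h2]
    rw [cl_of_ge, L.seg_one (hb j (Nat.lt_succ_self j))]
    rw [le_div_iff₀ (by linarith)]
    linarith

theorem pth_succ_of_ge (hθ : ∀ i < j + 1, θ i < θ (i + 1))
    (hb : ∀ i < j + 1, dist (b i) (b (i + 1)) < L.r0)
    {x : ℝ} (hx : θ j ≤ x) : pth L b θ (j + 1) x =
      L.seg (b j) (b (j + 1)) (cl ((x - θ j) / (θ (j + 1) - θ j))) := by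
  rcases hx.eq_or_lt with h | h
  · subst h
    simp only [pth, if_pos le_rfl]
    rw [pth_of_ge L (fun i hi => hθ i (hi.trans (Nat.lt_succ_self j)))
      (fun i hi => hb i (hi.trans (Nat.lt_succ_self j))) le_rfl, sub_self, zero_div,
      cl_of_le le_rfl, L.seg_zero (hb j (Nat.lt_succ_self j))]
  · simp only [pth, if_neg (not_le.2 h)]

theorem pth_succ_of_le {x : ℝ} (hx : x ≤ θ j) : pth L b θ (j + 1) x = pth L b θ j x := by
  simp only [pth, if_pos hx]

theorem theta_mono (hθ : ∀ i < j, θ i < θ (i + 1)) {i k : ℕ} (hik : i ≤ k) (hk : k ≤ j) :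
    θ i ≤ θ k := by
  induction k, hik using Nat.le_induction with
  | base => exact le_rfl
  | succ k hik ih =>
    exact (ih (by omega)).trans (hθ k (by omega)).le

theorem pth_of_le (hθ : ∀ i < j, θ i < θ (i + 1)) {i : ℕ} (hi : i ≤ j) {x : ℝ} (hx : x ≤ θ i) :
    pth L b θ j x = pth L b θ i x := by
  induction j, hi using Nat.le_induction with
  | base => rfl
  | succ k hik ih =>
    have h1 : θ i ≤ θ k := theta_mono hθ hik (Nat.le_succ k)
    rw [pth_succ_of_le L (hx.trans h1)]
    exact ih (fun i hi => hθ i (by omega))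

/-- the value on the `i`-th edge -/
theorem pth_edge (hθ : ∀ i < j, θ i < θ (i + 1)) (hb : ∀ i < j, dist (b i) (b (i + 1)) < L.r0)
    {i : ℕ} (hi : i < j) {x : ℝ} (hx : x ∈ Icc (θ i) (θ (i + 1))) :
    pth L b θ j x = L.seg (b i) (b (i + 1)) ((x - θ i) / (θ (i + 1) - θ i)) := by
  have h0 := hθ i hi
  rw [pth_of_le L hθ (i := i + 1) hi hx.2, pth_succ_of_ge L (fun k hk => hθ k (by omega))
    (fun k hk => hb k (by omega)) hx.1, cl_of_mem]
  constructor
  · exact div_nonneg (by linarith [hx.1]) (by linarith)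
  · rw [div_le_one (by linarith)]
    linarith [hx.2]

/-- the value at the vertices -/
theorem pth_vertex (hθ : ∀ i < j, θ i < θ (i + 1)) (hb : ∀ i < j, dist (b i) (b (i + 1)) < L.r0)
    {i : ℕ} (hi : i ≤ j) : pth L b θ j (θ i) = b i := by
  rw [pth_of_le L hθ hi le_rfl]
  exact pth_of_ge L (fun k hk => hθ k (by omega)) (fun k hk => hb k (by omega)) le_rfl

/-- **joint continuity in the parameters and the time** -/
theorem continuous_pth [CompactSpace M] {α : Type*} [TopologicalSpace α] {b : α → ℕ → M}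
    {θ : α → ℕ → ℝ} {j : ℕ} (cb : ∀ i ≤ j, Continuous fun a => b a i)
    (cθ : ∀ i ≤ j, Continuous fun a => θ a i) (hθ : ∀ a, ∀ i < j, θ a i < θ a (i + 1))
    (hb : ∀ a, ∀ i < j, dist (b a i) (b a (i + 1)) < L.r0) :
    Continuous (fun p : α × ℝ => pth L (b p.1) (θ p.1) j p.2) := by
  induction j with
  | zero => exact (cb 0 le_rfl).comp continuous_fst
  | succ j ih =>
    have h1 := ih (fun i hi => cb i (by omega)) (fun i hi => cθ i (by omega))
      (fun a i hi => hθ a i (by omega)) (fun a i hi => hb a i (by omega))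
    have h2 : Continuous (fun p : α × ℝ => L.seg (b p.1 j) (b p.1 (j + 1))
        (cl ((p.2 - θ p.1 j) / (θ p.1 (j + 1) - θ p.1 j)))) := by
      rw [← continuousOn_univ]
      refine L.continuousOn_seg' ?_ ?_ ?_ ?_ ?_
      · exact ((cb j (by omega)).comp continuous_fst).continuousOn
      · exact ((cb (j + 1) le_rfl).comp continuous_fst).continuousOn
      · refine (continuous_cl.comp (Continuous.div ?_ ?_ ?_)).continuousOn
        · exact continuous_snd.sub ((cθ j (by omega)).comp continuous_fst)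
        · exact ((cθ (j + 1) le_rfl).comp continuous_fst).sub
            ((cθ j (by omega)).comp continuous_fst)
        · intro p
          have := hθ p.1 j (by omega)
          exact (sub_pos.2 this).ne'
      · intro p _
        exact hb p.1 j (by omega)
      · intro p _
        exact cl_mem _
    refine (Continuous.if_le h1 h2 continuous_snd ((cθ j (by omega)).comp continuous_fst) ?_)
    intro p hp
    have hp' : p.2 = θ p.1 j := hp
    rw [hp', pth_of_ge L (fun i hi => hθ p.1 i (by omega)) (fun i hi => hb p.1 i (by omega))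
      le_rfl, sub_self, zero_div, cl_of_le le_rfl, L.seg_zero (hb p.1 j (by omega))]

theorem continuousOn_pth [CompactSpace M] {α : Type*} [TopologicalSpace α] {S : Set α}
    {b : α → ℕ → M} {θ : α → ℕ → ℝ} {j : ℕ} (cb : ∀ i ≤ j, ContinuousOn (fun a => b a i) S)
    (cθ : ∀ i ≤ j, ContinuousOn (fun a => θ a i) S) (hθ : ∀ a ∈ S, ∀ i < j, θ a i < θ a (i + 1))
    (hb : ∀ a ∈ S, ∀ i < j, dist (b a i) (b a (i + 1)) < L.r0) (T : Set ℝ) :
    ContinuousOn (fun p : α × ℝ => pth L (b p.1) (θ p.1) j p.2) (S ×ˢ T) := by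
  have h := continuous_pth L (α := S) (b := fun a => b a) (θ := fun a => θ a) (j := j)
    (fun i hi => (cb i hi).domRestrict) (fun i hi => (cθ i hi).domRestrict)
    (fun a i hi => hθ a a.2 i hi) (fun a i hi => hb a a.2 i hi)
  intro p hp
  have h1 : ContinuousOn (fun p : α × ℝ => pth L (b p.1) (θ p.1) j p.2) (S ×ˢ univ) := by
    rw [continuousOn_iff_continuous_domRestrict]
    have h2 : Continuous (fun q : (S ×ˢ (univ : Set ℝ) : Set (α × ℝ)) =>
        ((⟨q.1.1, q.2.1⟩ : S), q.1.2)) := by fun_prop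
    exact h.comp h2
  exact (h1 p ⟨hp.1, trivial⟩).mono (prod_mono_right (subset_univ T))

/-- **Lipschitz bound** -/
theorem pth_lip {t : ℝ} (ht : 0 ≤ t) (hθ : ∀ i < j, θ i < θ (i + 1))
    (hb : ∀ i < j, dist (b i) (b (i + 1)) < L.r0)
    (hl : ∀ i < j, dist (b i) (b (i + 1)) ≤ t * (θ (i + 1) - θ i)) (x y : ℝ) :
    dist (pth L b θ j x) (pth L b θ j y) ≤ t * |x - y| := by
  induction j generalizing x y with
  | zero =>
    simp only [pth, dist_self]
    exact mul_nonneg ht (abs_nonneg _)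
  | succ j ih =>
    have ih' := ih (fun i hi => hθ i (by omega)) (fun i hi => hb i (by omega))
      (fun i hi => hl i (by omega))
    have h0 := hθ j (by omega)
    have h0' : 0 < θ (j + 1) - θ j := by linarith
    -- both on the last edge
    have hR : ∀ x y, θ j ≤ x → θ j ≤ y →
        dist (pth L b θ (j + 1) x) (pth L b θ (j + 1) y) ≤ t * |x - y| := by
      intro x y hx hy
      rw [pth_succ_of_ge L hθ hb hx, pth_succ_of_ge L hθ hb hy,
        L.dist_seg (hb j (by omega)) (cl_mem _) (cl_mem _)]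
      have h1 := abs_cl_sub_le ((x - θ j) / (θ (j + 1) - θ j)) ((y - θ j) / (θ (j + 1) - θ j))
      have h2 : (x - θ j) / (θ (j + 1) - θ j) - (y - θ j) / (θ (j + 1) - θ j) =
          (x - y) / (θ (j + 1) - θ j) := by ring
      rw [h2, abs_div, abs_of_pos h0'] at h1
      refine (mul_le_mul h1 (hl j (by omega)) dist_nonneg (by positivity)).trans (le_of_eq ?_)
      field_simp
    have hL : ∀ x y, x ≤ θ j → y ≤ θ j →
        dist (pth L b θ (j + 1) x) (pth L b θ (j + 1) y) ≤ t * |x - y| := by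
      intro x y hx hy
      rw [pth_succ_of_le L hx, pth_succ_of_le L hy]
      exact ih' x y
    have hM : ∀ x y, x ≤ θ j → θ j ≤ y →
        dist (pth L b θ (j + 1) x) (pth L b θ (j + 1) y) ≤ t * |x - y| := by
      intro x y hx hy
      refine (dist_triangle _ (pth L b θ (j + 1) (θ j)) _).trans
        ((add_le_add (hL x _ hx le_rfl) (hR _ y le_rfl hy)).trans (le_of_eq ?_))
      rw [abs_of_nonpos (by linarith : x - θ j ≤ 0), abs_of_nonpos (by linarith : θ j - y ≤ 0),
        abs_of_nonpos (by linarith : x - y ≤ 0)]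
      ring
    rcases le_total x (θ j) with hx | hx <;> rcases le_total y (θ j) with hy | hy
    · exact hL x y hx hy
    · exact hM x y hx hy
    · rw [dist_comm, abs_sub_comm]
      exact hM y x hy hx
    · exact hR x y hx hy

theorem continuous_pth' [CompactSpace M] (hθ : ∀ i < j, θ i < θ (i + 1))
    (hb : ∀ i < j, dist (b i) (b (i + 1)) < L.r0) : Continuous (pth L b θ j) := by
  have h := continuous_pth L (α := Unit) (b := fun _ => b) (θ := fun _ => θ) (j := j)
    (fun i _ => continuous_const) (fun i _ => continuous_const) (fun _ => hθ) (fun _ => hb)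
  exact h.comp (continuous_const (y := ()) |>.prodMk continuous_id)

end pth

/-! ### loops from paths -/

section toLp

variable {M : Type*} [TopologicalSpace M]

open Classical in
/-- the loop given by a path on `[0,1]` -/
noncomputable def toLp (f : ℝ → M) : Lp M :=
  if h : ContinuousOn f (Icc 0 1) ∧ f 0 = f 1 then
    ⟨AddCircle.liftIco 1 0 f, AddCircle.liftIco_continuous (by rw [zero_add]; exact h.2)
      (by rw [zero_add]; exact h.1)⟩
  else ContinuousMap.const _ (f 0)

theorem toLp_apply {f : ℝ → M} (h : ContinuousOn f (Icc 0 1)) (h01 : f 0 = f 1) {x : ℝ}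
    (hx : x ∈ Icc (0 : ℝ) 1) : toLp f (x : UnitAddCircle) = f x := by
  unfold toLp
  rw [dif_pos ⟨h, h01⟩]
  show AddCircle.liftIco 1 0 f (x : UnitAddCircle) = f x
  rcases hx.2.eq_or_lt with h1 | h1
  · subst h1
    have e : ((1 : ℝ) : UnitAddCircle) = ((0 : ℝ) : UnitAddCircle) := by
      rw [coe_one_circle]; rfl
    rw [e, AddCircle.liftIco_coe_apply (by simp), h01]
  · rw [AddCircle.liftIco_coe_apply (by rw [zero_add]; exact ⟨hx.1, h1⟩)]

end toLp

section PL

variable {M : Type*} [MetricSpace M] (L : LUG M)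

/-- admissible data of a closed polygon -/
structure Adm (K : ℕ) (b : ℕ → M) (θ : ℕ → ℝ) : Prop where
  zero : θ 0 = 0
  one : θ K = 1
  lt : ∀ i < K, θ i < θ (i + 1)
  closed : b K = b 0
  short : ∀ i < K, dist (b i) (b (i + 1)) < L.r0

/-- the closed polygon with vertices `b i` at the times `θ i` -/
noncomputable def PL (K : ℕ) (b : ℕ → M) (θ : ℕ → ℝ) : Lp M := toLp (pth L b θ K)

variable {L}
variable {K : ℕ} {b : ℕ → M} {θ : ℕ → ℝ}

theorem Adm.pth_zero (h : Adm L K b θ) : pth L b θ K 0 = b 0 := by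
  rw [← h.zero]
  exact pth_vertex L h.lt h.short (Nat.zero_le K)

theorem Adm.pth_one (h : Adm L K b θ) : pth L b θ K 1 = b 0 := by
  rw [← h.one, ← h.closed]
  exact pth_vertex L h.lt h.short le_rfl

theorem Adm.apply [CompactSpace M] (h : Adm L K b θ) {x : ℝ} (hx : x ∈ Icc (0 : ℝ) 1) :
    PL L K b θ (x : UnitAddCircle) = pth L b θ K x :=
  toLp_apply (continuous_pth' L h.lt h.short).continuousOn (by rw [h.pth_zero, h.pth_one]) hx

theorem Adm.mem_Icc (h : Adm L K b θ) {i : ℕ} (hi : i ≤ K) : θ i ∈ Icc (0 : ℝ) 1 := by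
  constructor
  · rw [← h.zero]; exact theta_mono h.lt (Nat.zero_le i) hi
  · rw [← h.one]; exact theta_mono h.lt hi le_rfl

theorem Adm.vertex [CompactSpace M] (h : Adm L K b θ) {i : ℕ} (hi : i ≤ K) :
    PL L K b θ ((θ i : ℝ) : UnitAddCircle) = b i := by
  rw [h.apply (h.mem_Icc hi), pth_vertex L h.lt h.short hi]

theorem Adm.edge [CompactSpace M] (h : Adm L K b θ) {i : ℕ} (hi : i < K) {x : ℝ}
    (hx : x ∈ Icc (θ i) (θ (i + 1))) :
    PL L K b θ (x : UnitAddCircle) =
      L.seg (b i) (b (i + 1)) ((x - θ i) / (θ (i + 1) - θ i)) := by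
  have h1 := h.mem_Icc hi.le
  have h2 := h.mem_Icc (i := i + 1) hi
  rw [h.apply ⟨h1.1.trans hx.1, hx.2.trans h2.2⟩, pth_edge L h.lt h.short hi hx]

/-- every time lies on an edge -/
theorem Adm.exists_edge (h : Adm L K b θ) {x : ℝ} (hx : x ∈ Icc (0 : ℝ) 1) :
    ∃ i < K, x ∈ Icc (θ i) (θ (i + 1)) := by
  have hK : 0 < K := by
    rcases Nat.eq_zero_or_pos K with h0 | h0
    · exfalso
      have h1 := h.zero
      have h2 := h.one
      rw [h0] at h2
      linarith
    · exact h0
  have key : ∀ k, k < K → x ≤ θ (k + 1) → ∃ i < K, x ∈ Icc (θ i) (θ (i + 1)) := by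
    intro k
    induction k with
    | zero =>
      intro hk hxk
      exact ⟨0, hk, by rw [h.zero]; exact hx.1, hxk⟩
    | succ k ih =>
      intro hk hxk
      rcases le_total x (θ (k + 1)) with h1 | h1
      · exact ih (by omega) h1
      · exact ⟨k + 1, hk, h1, hxk⟩
  refine key (K - 1) (by omega) ?_
  rw [Nat.sub_add_cancel hK, h.one]
  exact hx.2

/-- two loops which agree on every edge -/
theorem Adm.ext [CompactSpace M] (h : Adm L K b θ) {γ : Lp M}
    (hγ : ∀ i < K, ∀ x ∈ Icc (θ i) (θ (i + 1)),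
      γ (x : UnitAddCircle) = L.seg (b i) (b (i + 1)) ((x - θ i) / (θ (i + 1) - θ i))) :
    PL L K b θ = γ := by
  ext x
  obtain ⟨u, hu, rfl⟩ := exists_Icc x
  obtain ⟨i, hi, hx⟩ := h.exists_edge hu
  rw [h.edge hi hx, hγ i hi u hx]

theorem Adm.mem_X [CompactSpace M] (h : Adm L K b θ) {t : ℝ} (ht : 0 ≤ t)
    (hl : ∀ i < K, dist (b i) (b (i + 1)) ≤ t * (θ (i + 1) - θ i)) : PL L K b θ ∈ X M t := by
  refine mem_X_of_Icc fun x y hx hxy hy => ?_
  rw [h.apply ⟨hx, hxy.trans hy⟩, h.apply ⟨hx.trans hxy, hy⟩]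
  refine (pth_lip L ht h.lt h.short hl x y).trans (le_of_eq ?_)
  rw [abs_sub_comm, abs_of_nonneg (by linarith)]

/-- **continuity of the closed polygon in the vertices and the times** -/
theorem continuousOn_PL [CompactSpace M] {α : Type*} [TopologicalSpace α] {S : Set α}
    {b : α → ℕ → M} {θ : α → ℕ → ℝ} (cb : ∀ i ≤ K, ContinuousOn (fun a => b a i) S)
    (cθ : ∀ i ≤ K, ContinuousOn (fun a => θ a i) S) (h : ∀ a ∈ S, Adm L K (b a) (θ a)) :
    ContinuousOn (fun a => PL L K (b a) (θ a)) S := by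
  refine contOn_to_loop ?_
  have h1 := continuousOn_pth L cb cθ (fun a ha => (h a ha).lt) (fun a ha => (h a ha).short)
    (Icc 0 1)
  refine h1.congr ?_
  intro p hp
  exact (h p.1 hp.1).apply hp.2

end PL

end Crest.Agent.R231.TimePolyx644
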