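import Crest.Agent.R231.Top_220
import Crest.Agent.R231.CoreFalse_978
import Crest.Agent.R231.GMW_160
import Crest.Agent.R231.SDFam_737
import Crest.Agent.R231.TOutB_482
import Crest.Agent.R231.KapOps_482

/-!
# Row 231 (S0357): the top statement, second version (helper220)

Everything except the blocks T (`TIn`) and P (`POut`) is plugged in.
-/

set_option autoImplicit false
set_option linter.unusedSectionVars false

noncomputable section

open Bundle Set Filter Function
open scoped Manifold ContDiff Bundle ENNReal Topology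
open Crest.GeometryTopology.MTW Crest.GeometryTopology.Geodesic
open Crest.Agent.R226 Crest.Agent.R226.GeoBasic616 Crest.Agent.R226.TB616
open Crest.Agent.R204

namespace Crest.Agent.R231.TopBasex220

open Pairx877 GLugx576 TActx569 TCx569 IfAx978 Gr334 Instx895
open PrimeGeox893 CritPMx893 GeoLugx724 GeoBasex724 Frontx893 Asmx895 BDAx969

/-- hole (8) on `(S^n, g)` -/
theorem a4_sphere (n : ℕ) [NeZero n] (g : Met n) (G : GeoData n (SG g)) (N : ℕ)
    (S : PrimeSys (SG g) G.r₀ (Fin N)) : A4P (SG g) :=
  SDexx737.A4P_of_prime (lug G) (locMin G) (nonBr G) S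

/-- **S0357** from the literal outputs `TIn` of block T and `POut` of block P -/
theorem infinite_of_TP (n : ℕ) (hn : 2 ≤ n)
    (T : ∀ [NeZero n] (g : Met n), Nonempty (TOutx482.TIn (SG g) (n - 1)))
    (P : ∀ [NeZero n] (g : Met n), IfPTx200.POut n (SG g)) (g : Met n) :
    {S : Set (Metric.sphere (0 : EuclideanSpace ℝ (Fin (n + 1))) 1) |
      ∃ γ : ℝ → Metric.sphere (0 : EuclideanSpace ℝ (Fin (n + 1))) 1,
      IsClosedGeodesic (𝓡 n) g γ ∧ (∃ s t, γ s ≠ γ t) ∧ Set.range γ = S}.Infinite :=
  infinite_of_outs CoreFalsex978.core_false n hn (fun g G N S => by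
    obtain ⟨T⟩ := T g
    exact TOutx482.outs_PT hn T (KapOpsx482.kapOps (SG g)) (baseHyp_sphere' g G S)
      (window_of' G S) (GMWx160.gmw_sphere n g G N S) (P g) (a4_sphere n g G N S)) g

end Crest.Agent.R231.TopBasex220
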