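import Crest.Agent.R231.TopFin_220

/-!
# Row 231 (S0357): the top statement from the outputs of the blocks (helper220)

`infinite_of_blocks` : the literal conclusion of S0357 from the outputs that are still open
(`core`, `GMW`, `BDLam`, `StepOdd`, `NeOdd`, `A1sP`, `A3opP`, `A3tauP`, `A4P`).
-/

set_option autoImplicit false
set_option linter.unusedSectionVars false

noncomputable section

open Bundle Set Filter Function
open scoped Manifold ContDiff Bundle ENNReal Topology
open Crest.GeometryTopology.MTW Crest.GeometryTopology.Geodesic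
open Crest.Agent.R226 Crest.Agent.R226.GeoBasic616 Crest.Agent.R226.TB616
open Crest.Agent.R204

namespace Crest.Agent.R231.TopBasex220

open Pairx877 GLugx576 TActx569 TCx569 IfAx978 Gr334 Instx895
open PrimeGeox893 CritPMx893 GeoLugx724 GeoBasex724 Frontx893 Asmx895 BDAx969

theorem infinite_of_blocks (core : Core → False) (n : ℕ) (hn : 2 ≤ n)
    (gm : ∀ [NeZero n] (g : Met n) (G : GeoData n (SG g)) (N : ℕ)
      (_ : PrimeSys (SG g) G.r₀ (Fin N)), GMW (SG g))
    (A4 : ∀ [NeZero n] (g : Met n) (G : GeoData n (SG g)) (N : ℕ)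
      (_ : PrimeSys (SG g) G.r₀ (Fin N)), A4P (SG g))
    (bd : ∀ [NeZero n] (g : Met n), BDLam (mix (SG g)) (FF (SG g)))
    (step : ∀ [NeZero n] (g : Met n), StepOdd (SG g) (n - 1))
    (ne : ∀ [NeZero n] (g : Met n), NeOdd (SG g) (n - 1))
    (A1s : ∀ [NeZero n] (g : Met n), A1sP (SG g) (n - 1))
    (A3op : ∀ [NeZero n] (g : Met n) (a : ℕ), A3opP (SG g) (e3 (n - 1) a))
    (A3tau : ∀ [NeZero n] (g : Met n) (a : ℕ), A3tauP (SG g) (e3 (n - 1) a)) (g : Met n) :
    {S : Set (Metric.sphere (0 : EuclideanSpace ℝ (Fin (n + 1))) 1) |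
      ∃ γ : ℝ → Metric.sphere (0 : EuclideanSpace ℝ (Fin (n + 1))) 1,
      IsClosedGeodesic (𝓡 n) g γ ∧ (∃ s t, γ s ≠ γ t) ∧ Set.range γ = S}.Infinite :=
  infinite_of_outs core n hn (fun g G N S => outs_of_odd (by omega) (baseHyp_sphere' g G S)
    (window_of' G S) (gm g G N S) (bd g) (step g) (ne g) (A1s g) (A3op g) (A3tau g)
    (A4 g G N S)) g

end Crest.Agent.R231.TopBasex220
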