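import Crest.Agent.R231.TFin_482
import Crest.Agent.R231.Top_220
import Crest.Agent.R231.GMW_160
import Crest.Agent.R231.SDFam_737
import Crest.Agent.R231.CoreFalse_978

/-!
# Row 231 (S0357): the conclusion from the single remaining block P (helper482)

`infinite_of_POut` : from `∀ g, POut n (SG g)`;
`infinite_of_BS` : from `∀ g, BDLam`, `∀ g, StepOdd`.
Blocks A (978, 796, 807), BaseHyp/W (220, 895), GM (160), R (737, 125), T (482, 952, 961, 617) plugged.
-/

set_option autoImplicit false
set_option linter.unusedSectionVars false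

noncomputable section

open Bundle Set Filter Function
open scoped Manifold ContDiff Bundle ENNReal Topology
open Crest.GeometryTopology.MTW Crest.GeometryTopology.Geodesic
open Crest.Agent.R226 Crest.Agent.R226.GeoBasic616 Crest.Agent.R226.TB616
open Crest.Agent.R204

namespace Crest.Agent.R231.TopAllx482

open Pairx877 GLugx576 TActx569 TCx569 IfAx978 Gr334 Instx895
open PrimeGeox893 CritPMx893 GeoLugx724 GeoBasex724 Frontx893 Asmx895 BDAx969 TopBasex220
open TFinx482

theorem a4 {n : ℕ} [NeZero n] (g : Met n) (G : GeoData n (SG g)) (N : ℕ)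
    (S : PrimeSys (SG g) G.r₀ (Fin N)) : A4P (SG g) :=
  SDexx737.A4P_of_prime (lug G) (locMin G) (nonBr G) S

/-- **S0357 from `POut n (SG g)`** -/
theorem infinite_of_POut (n : ℕ) (hn : 2 ≤ n)
    (P : ∀ [NeZero n] (g : Met n), IfPTx200.POut n (SG g)) (g : Met n) :
    {S : Set (Metric.sphere (0 : EuclideanSpace ℝ (Fin (n + 1))) 1) |
      ∃ γ : ℝ → Metric.sphere (0 : EuclideanSpace ℝ (Fin (n + 1))) 1,
      IsClosedGeodesic (𝓡 n) g γ ∧ (∃ s t, γ s ≠ γ t) ∧ Set.range γ = S}.Infinite :=
  infinite_of_outs CoreFalsex978.core_false n hn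
    (fun g G N S => outs_of_PT hn (baseHyp_sphere' g G S) (window_of' G S)
      (GMWx160.gmw_sphere n g G N S) (tout_SG g hn) (P g) (a4 g G N S)) g

/-- **S0357 from `BDLam` and `StepOdd`** -/
theorem infinite_of_BS (n : ℕ) (hn : 2 ≤ n)
    (bd : ∀ [NeZero n] (g : Met n), BDLam (mix (SG g)) (FF (SG g)))
    (step : ∀ [NeZero n] (g : Met n), StepOdd (SG g) (n - 1)) (g : Met n) :
    {S : Set (Metric.sphere (0 : EuclideanSpace ℝ (Fin (n + 1))) 1) |
      ∃ γ : ℝ → Metric.sphere (0 : EuclideanSpace ℝ (Fin (n + 1))) 1,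
      IsClosedGeodesic (𝓡 n) g γ ∧ (∃ s t, γ s ≠ γ t) ∧ Set.range γ = S}.Infinite :=
  infinite_of_blocks CoreFalsex978.core_false n hn (fun g G N S => GMWx160.gmw_sphere n g G N S)
    (fun g G N S => a4 g G N S) bd step (fun g => neOdd_SG g hn) (fun g => A1s_SG g hn)
    (fun g a => A3op_SG g hn a) (fun g a => A3tau_SG g hn a) g

end Crest.Agent.R231.TopAllx482
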