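import Crest.Agent.R231.IfA_978

/-!
# Row 231, block T: the consumer side (helper482), part 1: (A1) from permanent extensions

`perm_A1`: if every relative cycle (mod base) of parity `σ + 1` of `Λ` is, up to a relative boundary,
the lowest term of a `(d + Δ)`-cycle (mod base), then (A1) of `IfAx978.Core` holds.
-/

set_option autoImplicit false

namespace Crest.Agent.R231.TopTx482

open Crest.Agent.R231.IfAx978

variable {X : Mix}

theorem add_self_eq {V : Type*} [AddCommGroup V] [Module (ZMod 2) V] (x : V) : x + x = 0 := by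
  have h : ((1 : ZMod 2) + 1) • x = 0 := by
    have : ((1 : ZMod 2) + 1) = 0 := by decide
    rw [this, zero_smul]
  simpa [add_smul] using h

/-- `DD` of a sequence supported in the base is in the base -/
theorem DD_mem_base {F0 : GS X} (hs : Stab F0) (c : ∀ i, X.C i) (hc : ∀ i, c i ∈ F0 i) (k : ℕ) :
    DD c k ∈ F0 k := by
  cases k with
  | zero => exact hs.d 0 _ (hc 1)
  | succ i => exact (F0 (i + 1)).add_mem (hs.d _ _ (hc _)) (hs.De _ _ (hc _))

/-- `DD ∘ DD = 0` -/
theorem DD_DD (c : ∀ i, X.C i) (k : ℕ) : DD (DD c) k = 0 := by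
  rcases k with _ | _ | i
  · change X.d 0 (DD c 1) = 0
    change X.d 0 (X.d 1 (c 2) + X.De 0 (c 0)) = 0
    rw [map_add, X.dd, X.dDe0, add_zero]
  · change X.d 1 (DD c 2) + X.De 0 (DD c 0) = 0
    change X.d 1 (X.d 2 (c 3) + X.De 1 (c 1)) + X.De 0 (X.d 0 (c 1)) = 0
    have h1 : X.d 1 (X.d 2 (c 3) + X.De 1 (c 1)) = X.De 0 (X.d 0 (c 1)) := by
      rw [map_add, X.dd, zero_add]; exact X.dDe 0 (c 1)
    rw [h1]; exact add_self_eq _
  · change X.d (i + 2) (DD c (i + 3)) + X.De (i + 1) (DD c (i + 1)) = 0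
    change X.d (i + 2) (X.d (i + 3) (c (i + 4)) + X.De (i + 2) (c (i + 2)))
      + X.De (i + 1) (X.d (i + 1) (c (i + 2)) + X.De i (c i)) = 0
    rw [map_add, map_add, X.dd, X.DeDe, X.dDe, zero_add, add_zero, add_self_eq]

/-- the sequence with one entry -/
def single (i : ℕ) (x : X.C i) : ∀ k, X.C k := fun k => if h : i = k then h ▸ x else 0

theorem single_self (i : ℕ) (x : X.C i) : single (X := X) i x i = x := by simp [single]

theorem single_ne (i : ℕ) (x : X.C i) {k : ℕ} (h : i ≠ k) : single (X := X) i x k = 0 := by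
  simp [single, h]

/-- `x` (degree `i`) has a permanent extension relative to `F0` -/
def Perm (F0 : GS X) (i : ℕ) (x : X.C i) : Prop :=
  ∃ e : (∀ k, X.C k), (∀ k, k < i → e k ∈ F0 k) ∧ x + e i ∈ Bd F0 ⊤ i ∧ ∀ k, DD e k ∈ F0 k

/-- main step: if `c_k` (k ≡ i mod 2) is in the base for `k < i`, and `DD c` is in the base below
`i`, the entry `c_i` can be moved to the base without changing `DD c` modulo the base -/
theorem step {F0 : GS X} (hs : Stab F0) {p : ℕ}
    (hp : ∀ i, i % 2 = p % 2 → ∀ x ∈ Zc F0 ⊤ i, Perm F0 i x)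
    (i : ℕ) (hi : i % 2 = p % 2) (c : ∀ k, X.C k)
    (hlow : ∀ k, k < i → k % 2 = p % 2 → c k ∈ F0 k)
    (hD : ∀ k, k < i → DD c k ∈ F0 k) :
    ∃ c' : (∀ k, X.C k), (∀ k, k < i + 1 → k % 2 = p % 2 → c' k ∈ F0 k) ∧
      ∀ k, DD c' k + DD c k ∈ F0 k := by
  have hcyc : c i ∈ Zc F0 ⊤ i := by
    rcases i with _ | _ | i
    · exact Submodule.mem_top
    · refine ⟨Submodule.mem_top, ?_⟩
      exact hD 0 (by omega)
    · refine ⟨Submodule.mem_top, ?_⟩
      have h1 : DD c (i + 1) ∈ F0 (i + 1) := hD (i + 1) (by omega)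
      have h2 : X.De i (c i) ∈ F0 (i + 1) := hs.De _ _ (hlow i (by omega) (by omega))
      have h3 := (F0 (i + 1)).sub_mem h1 h2
      rw [DD_succ', add_sub_cancel_right] at h3
      exact h3
  obtain ⟨e, he1, he2, he3⟩ := hp i hi (c i) hcyc
  obtain ⟨y, hy, f, hf, hyf⟩ := Submodule.mem_sup.1 he2
  obtain ⟨b, -, rfl⟩ := hy
  -- `c i + e i = d b + f`
  refine ⟨c + e + DD (single (i + 1) b), ?_, ?_⟩
  · intro k hk hkp
    have hsingle : DD (single (X := X) (i + 1) b) i = X.d i b := by
      rcases i with _ | i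
      · change X.d 0 (single 1 b 1) = _
        rw [single_self]
      · rw [DD_succ', single_self, single_ne (i + 1 + 1) b (by omega), map_zero, add_zero]
    rcases Nat.lt_succ_iff_lt_or_eq.1 hk with hlt | rfl
    · have h0 : DD (single (X := X) (i + 1) b) k = 0 := by
        rcases k with _ | k
        · change X.d 0 (single (i + 1) b 1) = 0
          rw [single_ne (i + 1) b (by omega), map_zero]
        · rw [DD_succ', single_ne (i + 1) b (by omega), single_ne (i + 1) b (by omega), map_zero,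
            map_zero, add_zero]
      simp only [Pi.add_apply, h0, add_zero]
      exact (F0 k).add_mem (hlow k hlt hkp) (he1 k hlt)
    · simp only [Pi.add_apply, hsingle]
      have : c k + e k + X.d k b = f := by
        rw [← hyf, add_right_comm, add_self_eq, zero_add]
      rw [this]; exact hf
  · intro k
    have h1 : DD (c + e + DD (single (X := X) (i + 1) b)) k = DD c k + DD e k := by
      rw [map_add, map_add]
      simp only [Pi.add_apply, DD_DD, add_zero]
    rw [h1, add_right_comm, add_self_eq, zero_add]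
    exact he3 k

/-- (A1) from permanent extensions in the other parity -/
theorem perm_A1 {F0 : GS X} (hs : Stab F0) (σ : ℕ)
    (hp : ∀ i, i % 2 ≠ σ % 2 → ∀ x ∈ Zc F0 ⊤ i, Perm F0 i x) :
    ∀ j : ℕ, j % 2 = σ % 2 → ∀ c : (∀ i, X.C i), (∀ i, i < j → DD c i ∈ F0 i) →
      DD c j ∈ Bd F0 ⊤ j := by
  intro j hj c hc
  have hp' : ∀ i, i % 2 = (σ + 1) % 2 → ∀ x ∈ Zc F0 ⊤ i, Perm F0 i x := by
    intro i hi; exact hp i (by omega)
  -- clear the entries below `i`
  have key : ∀ i, i ≤ j → ∃ c' : (∀ k, X.C k), (∀ k, k < i → k % 2 = (σ + 1) % 2 → c' k ∈ F0 k) ∧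
      ∀ k, DD c' k + DD c k ∈ F0 k := by
    intro i
    induction i with
    | zero =>
      intro _
      refine ⟨c, fun k hk => absurd hk (by omega), fun k => ?_⟩
      rw [add_self_eq]; exact (F0 k).zero_mem
    | succ i ih =>
      intro hi
      obtain ⟨c', h1, h2⟩ := ih (by omega)
      by_cases hpar : i % 2 = (σ + 1) % 2
      · have hD : ∀ k, k < i → DD c' k ∈ F0 k := by
          intro k hk
          have := (F0 k).sub_mem (h2 k) (hc k (by omega))
          rwa [add_sub_cancel_right] at this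
        obtain ⟨c'', h3, h4⟩ := step hs hp' i hpar c' h1 hD
        refine ⟨c'', h3, fun k => ?_⟩
        have := (F0 k).add_mem (h4 k) (h2 k)
        have e : DD c'' k + DD c' k + (DD c' k + DD c k) = DD c'' k + DD c k := by
          rw [add_assoc, ← add_assoc (DD c' k) (DD c' k), add_self_eq, zero_add]
        rwa [e] at this
      · refine ⟨c', fun k hk hkp => h1 k ?_ hkp, h2⟩
        rcases Nat.lt_succ_iff_lt_or_eq.1 hk with h | rfl
        · exact h
        · exact absurd hkp hpar
  obtain ⟨c', h1, h2⟩ := key j le_rfl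
  have h3 : DD c' j ∈ Bd F0 ⊤ j := by
    rcases j with _ | j
    · exact Submodule.mem_sup_left ⟨c' 1, Submodule.mem_top, rfl⟩
    · rw [DD_succ']
      exact (Bd F0 ⊤ (j + 1)).add_mem (Submodule.mem_sup_left ⟨c' (j + 2), Submodule.mem_top, rfl⟩)
        (Submodule.mem_sup_right (hs.De _ _ (h1 j (by omega) (by omega))))
  have h4 := (Bd F0 ⊤ j).sub_mem (Submodule.mem_sup_right (h2 j) : DD c' j + DD c j ∈ Bd F0 ⊤ j) h3
  rwa [add_sub_cancel_left] at h4

end Crest.Agent.R231.TopTx482
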