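import Crest.Agent.R226.GeoBasic_616
import Crest.Agent.R226.RadialSmooth_542

/-!
# Row 231 (S0357), energy of curves and its first variation (helper67)

General compact Riemannian manifold `M`, `G : GeoData n M`.

* `dist_sq_le` : `d(c a, c b)² ≤ (b - a) ∫_a^b ‖c'‖²`
* `contDiff_speed` : smoothness of `‖∂ₜΓ(s,t)‖²`;  `exists_deriv_energy` : the energy is
  differentiable along smooth variations
* `hasDerivAt_cost_curve` : first variation of the cost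
-/

set_option autoImplicit false
set_option linter.unusedSectionVars false

open MeasureTheory Set Filter Topology Bundle
open scoped Manifold ContDiff Bundle ENNReal
open Manifold
open Crest.GeometryTopology.MTW

noncomputable section

namespace Crest.Agent.R231

open Crest.Agent.R226

variable {n : ℕ} {M : Type*} [MetricSpace M] [ChartedSpace (EuclideanSpace ℝ (Fin n)) M]
  [IsManifold (𝓡 n) ∞ M]
  [RiemannianBundle (fun p : M => TangentSpace (𝓡 n) p)]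
  [IsContMDiffRiemannianBundle (𝓡 n) ∞ (EuclideanSpace ℝ (Fin n))
    (fun p : M => TangentSpace (𝓡 n) p)]

/-! ### speed -/

/-- the tangent map of a smooth curve is smooth -/
theorem contMDiff_curveVel {c : ℝ → M} (hc : ContMDiff 𝓘(ℝ, ℝ) (𝓡 n) ∞ c) :
    ContMDiff 𝓘(ℝ, ℝ) (𝓡 n).tangent ∞
      (fun t : ℝ => (⟨c t, curveVel n c t⟩ : TangentBundle (𝓡 n) M)) := by
  have h1 : ContMDiff 𝓘(ℝ, ℝ) (𝓘(ℝ, ℝ)).tangent ∞
      (fun s : ℝ => (⟨s, (1 : ℝ)⟩ : TangentBundle 𝓘(ℝ, ℝ) ℝ)) :=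
    (contMDiff_vectorSpace_iff_contDiff (𝕜 := ℝ) (E := ℝ) (n := ∞) (V := fun _ => (1 : ℝ))).2
      contDiff_const
  exact (hc.contMDiff_tangentMap (m := ∞) (by simp)).comp h1

/-- speed of a smooth curve, squared -/
theorem contDiff_speed_curve {c : ℝ → M} (hc : ContMDiff 𝓘(ℝ, ℝ) (𝓡 n) ∞ c) :
    ContDiff ℝ ∞ (fun t : ℝ => ‖curveVel n c t‖ ^ 2) := by
  have h := contMDiff_curveVel hc
  have h2 : ContMDiff 𝓘(ℝ, ℝ) 𝓘(ℝ, ℝ) ∞
      (fun t : ℝ => inner ℝ (curveVel n c t) (curveVel n c t)) :=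
    ContMDiff.inner_bundle (IM := 𝓘(ℝ, ℝ)) (IB := 𝓡 n) (F := EuclideanSpace ℝ (Fin n))
      (E := fun p : M => TangentSpace (𝓡 n) p) (b := c) (v := fun t => curveVel n c t)
      (w := fun t => curveVel n c t) h h
  have h3 := h2.contDiff
  simpa only [real_inner_self_eq_norm_sq] using h3

/-- the partial velocity of a smooth map of the plane -/
theorem curveVel_slice {Γ : ℝ × ℝ → M} (hΓ : ContMDiff 𝓘(ℝ, ℝ × ℝ) (𝓡 n) ∞ Γ) (s t : ℝ) :
    curveVel n (fun t => Γ (s, t)) t = mfderiv 𝓘(ℝ, ℝ × ℝ) (𝓡 n) Γ (s, t) ((0 : ℝ), (1 : ℝ)) := by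
  have h1 : HasMFDerivAt 𝓘(ℝ, ℝ) 𝓘(ℝ, ℝ × ℝ) (fun t : ℝ => (s, t)) t
      (ContinuousLinearMap.inr ℝ ℝ ℝ) :=
    (hasFDerivAt_prodMk_right s t).hasMFDerivAt
  have h2 := ((hΓ.mdifferentiableAt (by simp)).hasMFDerivAt (x := (s, t))).comp t h1
  have h3 := h2.mfderiv
  unfold curveVel
  rw [show (fun t => Γ (s, t)) = Γ ∘ fun t : ℝ => (s, t) from rfl, h3]
  rfl

/-- **the integrand of the energy is smooth** -/
theorem contDiff_speed {Γ : ℝ × ℝ → M} (hΓ : ContMDiff 𝓘(ℝ, ℝ × ℝ) (𝓡 n) ∞ Γ) :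
    ContDiff ℝ ∞ (fun q : ℝ × ℝ => ‖curveVel n (fun t => Γ (q.1, t)) q.2‖ ^ 2) := by
  have h1 : ContMDiff 𝓘(ℝ, ℝ × ℝ) (𝓘(ℝ, ℝ × ℝ)).tangent ∞
      (fun q : ℝ × ℝ => (⟨q, ((0 : ℝ), (1 : ℝ))⟩ : TangentBundle 𝓘(ℝ, ℝ × ℝ) (ℝ × ℝ))) :=
    (contMDiff_vectorSpace_iff_contDiff (𝕜 := ℝ) (E := ℝ × ℝ) (n := ∞)
      (V := fun _ => ((0 : ℝ), (1 : ℝ)))).2 contDiff_const
  have h := (hΓ.contMDiff_tangentMap (m := ∞) (by simp)).comp h1
  have h2 : ContMDiff 𝓘(ℝ, ℝ × ℝ) 𝓘(ℝ, ℝ) ∞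
      (fun q : ℝ × ℝ => inner ℝ (mfderiv 𝓘(ℝ, ℝ × ℝ) (𝓡 n) Γ q ((0 : ℝ), (1 : ℝ)))
        (mfderiv 𝓘(ℝ, ℝ × ℝ) (𝓡 n) Γ q ((0 : ℝ), (1 : ℝ)))) :=
    ContMDiff.inner_bundle (IM := 𝓘(ℝ, ℝ × ℝ)) (IB := 𝓡 n) (F := EuclideanSpace ℝ (Fin n))
      (E := fun p : M => TangentSpace (𝓡 n) p) (b := Γ)
      (v := fun q => mfderiv 𝓘(ℝ, ℝ × ℝ) (𝓡 n) Γ q ((0 : ℝ), (1 : ℝ)))
      (w := fun q => mfderiv 𝓘(ℝ, ℝ × ℝ) (𝓡 n) Γ q ((0 : ℝ), (1 : ℝ))) h h
  have h3 := h2.contDiff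
  have h4 : (fun q : ℝ × ℝ => ‖curveVel n (fun t => Γ (q.1, t)) q.2‖ ^ 2) =
      fun q : ℝ × ℝ => inner ℝ (mfderiv 𝓘(ℝ, ℝ × ℝ) (𝓡 n) Γ q ((0 : ℝ), (1 : ℝ)))
        (mfderiv 𝓘(ℝ, ℝ × ℝ) (𝓡 n) Γ q ((0 : ℝ), (1 : ℝ))) := by
    funext q
    rw [real_inner_self_eq_norm_sq, curveVel_slice hΓ]
  rw [h4]
  exact h3

/-- the energy of a family of curves is differentiable -/
theorem exists_deriv_integral {e : ℝ × ℝ → ℝ} (he : ContDiff ℝ ∞ e) (a b : ℝ) :
    ∃ e' : ℝ, HasDerivAt (fun s : ℝ => ∫ t in a..b, e (s, t)) e' 0 := by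
  have hd : ∀ s t : ℝ, HasDerivAt (fun s => e (s, t)) (fderiv ℝ e (s, t) ((1 : ℝ), (0 : ℝ))) s := by
    intro s t
    have h1 := (he.differentiable (by simp) (s, t)).hasFDerivAt
    have h2 : HasDerivAt (fun s : ℝ => (s, t)) ((1 : ℝ), (0 : ℝ)) s :=
      (hasDerivAt_id s).prodMk (hasDerivAt_const s t)
    exact h1.comp_hasDerivAt s h2
  have hc : Continuous fun q : ℝ × ℝ => fderiv ℝ e q ((1 : ℝ), (0 : ℝ)) :=
    (he.continuous_fderiv (by simp)).clm_apply continuous_const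
  obtain ⟨C, hC⟩ := ((isCompact_Icc (a := (-1 : ℝ)) (b := 1)).prod
    (isCompact_uIcc (a := a) (b := b))).exists_bound_of_continuousOn hc.continuousOn
  refine ⟨_, (intervalIntegral.hasDerivAt_integral_of_dominated_loc_of_deriv_le (μ := volume)
    (F := fun s t => e (s, t)) (F' := fun s t => fderiv ℝ e (s, t) ((1 : ℝ), (0 : ℝ)))
    (x₀ := 0) (s := Set.Icc (-1) 1) (bound := fun _ => C)
    (Icc_mem_nhds (by norm_num) (by norm_num)) ?_ ?_ ?_ ?_ ?_ ?_).2⟩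
  · exact Eventually.of_forall fun s =>
      (he.continuous.comp (by fun_prop : Continuous fun t : ℝ => (s, t))).aestronglyMeasurable
  · exact (he.continuous.comp (by fun_prop : Continuous fun t : ℝ => ((0 : ℝ), t))).intervalIntegrable _ _
  · exact (hc.comp (by fun_prop : Continuous fun t : ℝ => ((0 : ℝ), t))).aestronglyMeasurable
  · refine Eventually.of_forall fun t ht s hs => hC (s, t) ⟨hs, ?_⟩
    exact Set.uIoc_subset_uIcc ht
  · exact intervalIntegrable_const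
  · exact Eventually.of_forall fun t _ s _ => hd s t

/-- **the energy is differentiable along smooth variations** -/
theorem exists_deriv_energy {Γ : ℝ × ℝ → M} (hΓ : ContMDiff 𝓘(ℝ, ℝ × ℝ) (𝓡 n) ∞ Γ) (a b : ℝ) :
    ∃ e' : ℝ, HasDerivAt (fun s : ℝ => ∫ t in a..b, ‖curveVel n (fun t => Γ (s, t)) t‖ ^ 2) e' 0 :=
  exists_deriv_integral (contDiff_speed hΓ) a b

/-! ### length and energy -/

theorem dist_le_length [IsRiemannianManifold (𝓡 n) M] {c : ℝ → M}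
    (hc : ContMDiff 𝓘(ℝ, ℝ) (𝓡 n) ∞ c) {a b : ℝ} (hab : a ≤ b) :
    dist (c a) (c b) ≤ ∫ t in a..b, ‖curveVel n c t‖ := by
  have hcont : Continuous fun t => ‖curveVel n c t‖ :=
    continuous_normT.comp (contMDiff_curveVel hc).continuous
  have h1 : edist (c a) (c b) ≤ pathELength (𝓡 n) c a b := by
    rw [IsRiemannianManifold.out (I := 𝓡 n) (c a) (c b)]
    exact riemannianEDist_le_pathELength ((hc.of_le (by simp)).contMDiffOn) rfl rfl hab
  have h2 : pathELength (𝓡 n) c a b = ENNReal.ofReal (∫ t in a..b, ‖curveVel n c t‖) := by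
    rw [pathELength_eq_lintegral_mfderiv_Icc, intervalIntegral.integral_of_le hab,
      ← integral_Icc_eq_integral_Ioc,
      ofReal_integral_eq_lintegral_ofReal hcont.integrableOn_Icc
        (Eventually.of_forall fun _ => norm_nonneg _)]
    refine lintegral_congr fun t => ?_
    rw [ofReal_norm]
    rfl
  rw [h2, edist_dist] at h1
  exact (ENNReal.ofReal_le_ofReal_iff (intervalIntegral.integral_nonneg hab
    fun t _ => norm_nonneg _)).1 h1

/-- Cauchy–Schwarz -/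
theorem sq_integral_le {f : ℝ → ℝ} (hf : Continuous f) {a b : ℝ} (hab : a ≤ b) :
    (∫ t in a..b, f t) ^ 2 ≤ (b - a) * ∫ t in a..b, f t ^ 2 := by
  set I := ∫ t in a..b, f t with hI
  rcases hab.eq_or_lt with rfl | hlt
  · simp [hI]
  · have h0 : 0 < b - a := sub_pos.2 hlt
    set m := I / (b - a) with hm
    have h1 : 0 ≤ ∫ t in a..b, (f t - m) ^ 2 :=
      intervalIntegral.integral_nonneg hab fun t _ => sq_nonneg _
    have h2 : ∫ t in a..b, (f t - m) ^ 2 = (∫ t in a..b, f t ^ 2) - 2 * m * I + m ^ 2 * (b - a) := by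
      have e1 : (fun t => (f t - m) ^ 2) = fun t => f t ^ 2 - 2 * m * f t + m ^ 2 := by
        funext t; ring
      rw [e1, intervalIntegral.integral_add, intervalIntegral.integral_sub,
        intervalIntegral.integral_const_mul, intervalIntegral.integral_const]
      · simp only [smul_eq_mul]; ring
      · exact (hf.pow 2).intervalIntegrable _ _
      · exact (hf.const_mul _).intervalIntegrable _ _
      · exact ((hf.pow 2).sub (hf.const_mul _)).intervalIntegrable _ _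
      · exact intervalIntegrable_const
    rw [h2] at h1
    have h3 : m * (b - a) = I := by rw [hm]; field_simp
    have h4 : m ^ 2 * (b - a) = m * I := by rw [← h3]; ring
    rw [h4] at h1
    have h5 : m * I ≤ ∫ t in a..b, f t ^ 2 := by linarith
    calc I ^ 2 = (b - a) * (m * I) := by rw [← h3]; ring
      _ ≤ _ := mul_le_mul_of_nonneg_left h5 h0.le

/-- **distance and energy** -/
theorem dist_sq_le [IsRiemannianManifold (𝓡 n) M] {c : ℝ → M}
    (hc : ContMDiff 𝓘(ℝ, ℝ) (𝓡 n) ∞ c) {a b : ℝ} (hab : a ≤ b) :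
    dist (c a) (c b) ^ 2 ≤ (b - a) * ∫ t in a..b, ‖curveVel n c t‖ ^ 2 := by
  have hcont : Continuous fun t => ‖curveVel n c t‖ :=
    continuous_normT.comp (contMDiff_curveVel hc).continuous
  exact (pow_le_pow_left₀ dist_nonneg (dist_le_length hc hab) 2).trans (sq_integral_le hcont hab)

end Crest.Agent.R231
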