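import Crest.Agent.R231.VarA_67

/-!
# Row 231 (S0357): closed orbits of the geodesic flow are critical points of the energy (helper67)

* `hasDerivAt_cost_left`, `hasDerivAt_cost_joint` : first variation of `d²/2`
* `hasDerivAt_energy` : **closed geodesics are critical for the energy**
-/

set_option autoImplicit false
set_option linter.unusedSectionVars false

open MeasureTheory Set Filter Topology Bundle
open scoped Manifold ContDiff Bundle ENNReal
open Manifold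
open Crest.GeometryTopology.MTW

noncomputable section

namespace Crest.Agent.R231

open Crest.Agent.R226

variable {n : ℕ} {M : Type*} [MetricSpace M] [ChartedSpace (EuclideanSpace ℝ (Fin n)) M]
  [IsManifold (𝓡 n) ∞ M]
  [RiemannianBundle (fun p : M => TangentSpace (𝓡 n) p)]

/-- the cost is smooth near close pairs -/
theorem contMDiffAt_cost (G : GeoData n M) {x y : M} (h : dist x y < G.r₀) :
    ContMDiffAt ((𝓡 n).prod (𝓡 n)) 𝓘(ℝ) ∞ (fun q : M × M => halfDistSq q.1 q.2) (x, y) :=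
  G.smooth_cost.contMDiffAt
    ((isOpen_lt (continuous_fst.dist continuous_snd) continuous_const).mem_nhds h)

/-- **first variation of the cost**, first variable -/
theorem hasDerivAt_cost_left (G : GeoData n M) {p : ℝ → M} (hp : MDifferentiableAt 𝓘(ℝ, ℝ) (𝓡 n) p 0)
    {x : M} (hx : p 0 = x) {v : TangentSpace (𝓡 n) x} (hv : ‖v‖ < G.r₀) :
    HasDerivAt (fun s => halfDistSq (p s) (G.ex x v)) (-inner ℝ v (curveVel n p 0)) 0 := by
  subst hx
  set y := G.ex (p 0) v with hy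
  have hd : dist (p 0) y < G.r₀ := by rw [hy, GeoBasic616.dist_ex_of_norm_lt G hv]; exact hv
  have h1 : MDifferentiableAt (𝓡 n) 𝓘(ℝ, ℝ) (fun x' : M => halfDistSq x' y) (p 0) := by
    have h2 := contMDiffAt_cost G hd
    have h3 : ContMDiffAt (𝓡 n) ((𝓡 n).prod (𝓡 n)) ∞ (fun x' : M => (x', y)) (p 0) :=
      contMDiffAt_id.prodMk contMDiffAt_const
    exact (ContMDiffAt.comp (p 0) h2 h3).mdifferentiableAt (by simp)
  set L : EuclideanSpace ℝ (Fin n) →L[ℝ] ℝ :=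
    mfderiv (𝓡 n) 𝓘(ℝ, ℝ) (fun x' : M => halfDistSq x' y) (p 0) with hL
  have hLz : ∀ z : M, z = p 0 →
      HasMFDerivAt (𝓡 n) 𝓘(ℝ, ℝ) (fun x' : M => halfDistSq x' y) z L := by
    rintro z rfl
    exact h1.hasMFDerivAt
  have key : ∀ c : ℝ → M, MDifferentiableAt 𝓘(ℝ, ℝ) (𝓡 n) c 0 → c 0 = p 0 →
      HasDerivAt (fun s => halfDistSq (c s) y) (L (curveVel n c 0)) 0 := by
    intro c hc hc0
    set D : ℝ →L[ℝ] EuclideanSpace ℝ (Fin n) := mfderiv 𝓘(ℝ, ℝ) (𝓡 n) c 0 with hD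
    have h4 : HasMFDerivAt 𝓘(ℝ, ℝ) 𝓘(ℝ, ℝ) (fun s => halfDistSq (c s) y) 0 (L.comp D) :=
      (hLz _ hc0).comp 0 hc.hasMFDerivAt
    have h5 : HasFDerivAt (fun s => halfDistSq (c s) y) (L.comp D) 0 :=
      hasMFDerivAt_iff_hasFDerivAt.1 h4
    exact h5.hasDerivAt
  have hray : MDifferentiableAt 𝓘(ℝ, ℝ) (𝓡 n) (fun t : ℝ => G.ex (p 0) (t • curveVel n p 0)) 0 :=
    GeoBasic616.mdifferentiableAt_ray G (p 0) (curveVel n p 0) 0
  have h5 := key _ hray (by simp only [zero_smul]; exact G.ex_zero _)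
  have h6 := G.hasDerivAt_cost (p 0) v (curveVel n p 0) hv
  have h7 := h5.unique h6
  have h8 := key p hp rfl
  have h9 : curveVel n (fun t : ℝ => G.ex (p 0) (t • curveVel n p 0)) 0 = curveVel n p 0 :=
    G.vel_zero (p 0) (curveVel n p 0)
  have h10 : L (curveVel n p 0) = -inner ℝ v (curveVel n p 0) := by
    rw [← h7]
    exact congrArg L h9.symm
  rw [← h10]
  exact h8

/-- **first variation of the cost**, both variables -/
theorem hasDerivAt_cost_joint (G : GeoData n M) {p q : ℝ → M}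
    (hp : ContMDiff 𝓘(ℝ, ℝ) (𝓡 n) ∞ p) (hq : ContMDiff 𝓘(ℝ, ℝ) (𝓡 n) ∞ q) {x y : M} (hx : p 0 = x)
    (hy : q 0 = y) {v : TangentSpace (𝓡 n) x} {w : TangentSpace (𝓡 n) y} (hv : ‖v‖ < G.r₀)
    (hw : ‖w‖ < G.r₀) (hxy : G.ex x v = y) (hyx : G.ex y w = x) :
    HasDerivAt (fun s => halfDistSq (p s) (q s))
      (-inner ℝ v (curveVel n p 0) - inner ℝ w (curveVel n q 0)) 0 := by
  have hd : dist (p 0) (q 0) < G.r₀ := by
    rw [hx, hy, ← hxy, GeoBasic616.dist_ex_of_norm_lt G hv]; exact hv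
  have h1 : ContMDiffAt 𝓘(ℝ, ℝ × ℝ) 𝓘(ℝ, ℝ) ∞
      (fun s : ℝ × ℝ => halfDistSq (p s.1) (q s.2)) (0, 0) := by
    have f1 : ContMDiff 𝓘(ℝ, ℝ × ℝ) 𝓘(ℝ, ℝ) ∞ (fun s : ℝ × ℝ => s.1) := contDiff_fst.contMDiff
    have f2 : ContMDiff 𝓘(ℝ, ℝ × ℝ) 𝓘(ℝ, ℝ) ∞ (fun s : ℝ × ℝ => s.2) := contDiff_snd.contMDiff
    have h3 : ContMDiff 𝓘(ℝ, ℝ × ℝ) ((𝓡 n).prod (𝓡 n)) ∞ (fun s : ℝ × ℝ => (p s.1, q s.2)) :=
      (hp.comp f1).prodMk (hq.comp f2)
    exact ContMDiffAt.comp (g := fun q : M × M => halfDistSq q.1 q.2) (0, 0)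
      (contMDiffAt_cost G hd) h3.contMDiffAt
  have h2 : DifferentiableAt ℝ (fun s : ℝ × ℝ => halfDistSq (p s.1) (q s.2)) (0, 0) :=
    h1.contDiffAt.differentiableAt (by simp)
  obtain ⟨Φ, hΦ⟩ := h2
  have a1 : HasDerivAt (fun s : ℝ => (s, (0 : ℝ))) ((1 : ℝ), (0 : ℝ)) 0 :=
    (hasDerivAt_id 0).prodMk (hasDerivAt_const 0 0)
  have a2 : HasDerivAt (fun s : ℝ => ((0 : ℝ), s)) ((0 : ℝ), (1 : ℝ)) 0 :=
    (hasDerivAt_const 0 0).prodMk (hasDerivAt_id 0)
  have a3 : HasDerivAt (fun s : ℝ => (s, s)) ((1 : ℝ), (1 : ℝ)) 0 :=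
    (hasDerivAt_id 0).prodMk (hasDerivAt_id 0)
  have b1 := HasFDerivAt.comp_hasDerivAt (0 : ℝ) (l := fun s : ℝ × ℝ => halfDistSq (p s.1) (q s.2))
    (f := fun s : ℝ => (s, (0 : ℝ))) hΦ a1
  have b2 := HasFDerivAt.comp_hasDerivAt (0 : ℝ) (l := fun s : ℝ × ℝ => halfDistSq (p s.1) (q s.2))
    (f := fun s : ℝ => ((0 : ℝ), s)) hΦ a2
  have b3 := HasFDerivAt.comp_hasDerivAt (0 : ℝ) (l := fun s : ℝ × ℝ => halfDistSq (p s.1) (q s.2))
    (f := fun s : ℝ => (s, s)) hΦ a3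
  have c1 : HasDerivAt (fun s => halfDistSq (p s) (q 0)) (-inner ℝ v (curveVel n p 0)) 0 := by
    have := hasDerivAt_cost_left G (hp.mdifferentiable (by simp) 0) hx hv
    rwa [hxy, ← hy] at this
  have c2 : HasDerivAt (fun s => halfDistSq (p 0) (q s)) (-inner ℝ w (curveVel n q 0)) 0 := by
    have := hasDerivAt_cost_left G (hq.mdifferentiable (by simp) 0) hy hw
    rw [hyx, ← hx] at this
    refine this.congr_of_eventuallyEq (Eventually.of_forall fun s => ?_)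
    simp only [halfDistSq, dist_comm]
  have e1 : Φ ((1 : ℝ), (0 : ℝ)) = -inner ℝ v (curveVel n p 0) := b1.unique c1
  have e2 : Φ ((0 : ℝ), (1 : ℝ)) = -inner ℝ w (curveVel n q 0) := b2.unique c2
  have e3 : Φ ((1 : ℝ), (1 : ℝ)) = -inner ℝ v (curveVel n p 0) - inner ℝ w (curveVel n q 0) := by
    have : ((1 : ℝ), (1 : ℝ)) = ((1 : ℝ), (0 : ℝ)) + ((0 : ℝ), (1 : ℝ)) := by simp
    rw [this, map_add, e1, e2]
    ring
  rw [← e3]
  exact b3

/-! ### closed geodesics are critical -/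

variable [IsContMDiffRiemannianBundle (𝓡 n) ∞ (EuclideanSpace ℝ (Fin n))
    (fun p : M => TangentSpace (𝓡 n) p)] [IsRiemannianManifold (𝓡 n) M]

/-- slices of smooth maps of the plane -/
theorem contMDiff_slice_fst {Γ : ℝ × ℝ → M} (hΓ : ContMDiff 𝓘(ℝ, ℝ × ℝ) (𝓡 n) ∞ Γ) (t : ℝ) :
    ContMDiff 𝓘(ℝ, ℝ) (𝓡 n) ∞ (fun s => Γ (s, t)) := by
  have f1 : ContMDiff 𝓘(ℝ, ℝ) 𝓘(ℝ, ℝ × ℝ) ∞ (fun s : ℝ => (s, t)) :=
    (contDiff_id.prodMk contDiff_const).contMDiff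
  exact hΓ.comp f1

theorem contMDiff_slice_snd {Γ : ℝ × ℝ → M} (hΓ : ContMDiff 𝓘(ℝ, ℝ × ℝ) (𝓡 n) ∞ Γ) (s : ℝ) :
    ContMDiff 𝓘(ℝ, ℝ) (𝓡 n) ∞ (fun t => Γ (s, t)) := by
  have f1 : ContMDiff 𝓘(ℝ, ℝ) 𝓘(ℝ, ℝ × ℝ) ∞ (fun t : ℝ => (s, t)) :=
    (contDiff_const.prodMk contDiff_id).contMDiff
  exact hΓ.comp f1

/-- partition points -/
def tp (N i : ℕ) : ℝ := (i : ℝ) / N

theorem tp_succ {N : ℕ} (i : ℕ) : tp N (i + 1) = tp N i + 1 / N := by
  unfold tp; push_cast; ring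

/-- the polygonal energy is at most the energy -/
theorem sum_le_energy {c : ℝ → M} (hc : ContMDiff 𝓘(ℝ, ℝ) (𝓡 n) ∞ c) {N : ℕ} (hN : 0 < N) :
    ∑ i ∈ Finset.range N, 2 * N * halfDistSq (c (tp N i)) (c (tp N (i + 1))) ≤
      ∫ t in (0 : ℝ)..1, ‖curveVel n c t‖ ^ 2 := by
  have hN' : (0 : ℝ) < N := by exact_mod_cast hN
  have hcont : Continuous fun t => ‖curveVel n c t‖ ^ 2 := (contDiff_speed_curve hc).continuous
  have h1 : ∑ i ∈ Finset.range N, ∫ t in (tp N i)..(tp N (i + 1)), ‖curveVel n c t‖ ^ 2 =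
      ∫ t in (tp N 0)..(tp N N), ‖curveVel n c t‖ ^ 2 :=
    intervalIntegral.sum_integral_adjacent_intervals fun k _ => hcont.intervalIntegrable _ _
  have h2 : tp N 0 = 0 := by simp [tp]
  have h3 : tp N N = 1 := by unfold tp; field_simp
  rw [h2, h3] at h1
  rw [← h1]
  refine Finset.sum_le_sum fun i _ => ?_
  have h4 : tp N i ≤ tp N (i + 1) := by rw [tp_succ]; have := one_div_pos.2 hN'; linarith
  have h5 := dist_sq_le hc h4
  have h6 : tp N (i + 1) - tp N i = 1 / N := by rw [tp_succ]; ring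
  rw [h6] at h5
  unfold halfDistSq
  calc 2 * (N : ℝ) * (dist (c (tp N i)) (c (tp N (i + 1))) ^ 2 / 2) =
        N * dist (c (tp N i)) (c (tp N (i + 1))) ^ 2 := by ring
    _ ≤ N * (1 / N * ∫ t in (tp N i)..(tp N (i + 1)), ‖curveVel n c t‖ ^ 2) :=
        mul_le_mul_of_nonneg_left h5 hN'.le
    _ = _ := by field_simp

/-- **closed orbits of the geodesic flow are critical points of the energy** -/
theorem hasDerivAt_energy (G : GeoData n M) {p : TangentBundle (𝓡 n) M} (hp : G.Flow 1 p = p)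
    {Γ : ℝ × ℝ → M} (hΓ : ContMDiff 𝓘(ℝ, ℝ × ℝ) (𝓡 n) ∞ Γ)
    (h0 : ∀ t, Γ (0, t) = G.ex p.1 (t • p.2)) (hper : ∀ s, Function.Periodic (fun t => Γ (s, t)) 1) :
    HasDerivAt (fun s => ∫ t in (0 : ℝ)..1, ‖curveVel n (fun t => Γ (s, t)) t‖ ^ 2) 0 0 := by
  obtain ⟨e', he'⟩ := exists_deriv_energy hΓ 0 1
  set E : ℝ → ℝ := fun s => ∫ t in (0 : ℝ)..1, ‖curveVel n (fun t => Γ (s, t)) t‖ ^ 2 with hE
  -- the number of vertices
  obtain ⟨N, hN⟩ := exists_nat_gt (‖p.2‖ / G.r₀)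
  have hr := G.r₀_pos
  have hN' : (0 : ℝ) < N := (div_nonneg (norm_nonneg _) hr.le).trans_lt hN
  have hN0 : 0 < N := by exact_mod_cast hN'
  have hsm : 1 / N * ‖p.2‖ < G.r₀ := by
    rw [div_lt_iff₀ hr] at hN
    rw [one_div, inv_mul_lt_iff₀ hN']
    linarith
  -- the orbit
  set c : ℝ → M := fun t => G.ex p.1 (t • p.2) with hc
  have hnv : ∀ t, ‖G.vel p.1 p.2 t‖ = ‖p.2‖ := fun t => G.norm_vel p.1 p.2 t
  have hfl : ∀ t s : ℝ, G.ex (c t) (s • G.vel p.1 p.2 t) = c (t + s) := fun t s => G.flow p.1 p.2 t s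
  set P : ℝ → ℝ := fun s => ∑ i ∈ Finset.range N,
    2 * N * halfDistSq (Γ (s, tp N i)) (Γ (s, tp N (i + 1))) with hP
  -- `P` is below the energy, with equality at `0`
  have hle : ∀ s, P s ≤ E s := fun s => sum_le_energy (contMDiff_slice_snd hΓ s) hN0
  have hΓ0 : (fun t => Γ (0, t)) = c := funext h0
  have hE0 : E 0 = ‖p.2‖ ^ 2 := by
    have h1 : ∀ γ : ℝ → M, γ = c → ∫ t in (0 : ℝ)..1, ‖curveVel n γ t‖ ^ 2 =
        ∫ t in (0 : ℝ)..1, ‖curveVel n c t‖ ^ 2 := by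
      rintro γ rfl
      rfl
    rw [show E 0 = _ from h1 _ hΓ0]
    have h2 : (fun t => ‖curveVel n c t‖ ^ 2) = fun _ => ‖p.2‖ ^ 2 := by
      funext t
      have : ‖curveVel n c t‖ = ‖p.2‖ := G.norm_vel p.1 p.2 t
      rw [this]
    rw [h2]
    simp
  have hdist : ∀ i, dist (c (tp N i)) (c (tp N (i + 1))) = 1 / N * ‖p.2‖ := by
    intro i
    have h1 : |tp N i - tp N (i + 1)| = 1 / N := by
      rw [tp_succ, abs_sub_comm, add_sub_cancel_left, abs_of_pos (one_div_pos.2 hN')]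
    have h2 := G.dist_eq p.1 p.2 (tp N i) (tp N (i + 1)) (by rw [h1]; exact hsm)
    rw [h1] at h2
    exact h2
  have hP0 : P 0 = ‖p.2‖ ^ 2 := by
    simp only [hP, h0]
    have h1 : ∀ i ∈ Finset.range N, 2 * (N : ℝ) * halfDistSq (G.ex p.1 (tp N i • p.2))
        (G.ex p.1 (tp N (i + 1) • p.2)) = 1 / N * ‖p.2‖ ^ 2 := by
      intro i _
      have := hdist i
      simp only [hc] at this
      unfold halfDistSq
      rw [this]
      field_simp
    rw [Finset.sum_congr rfl h1, Finset.sum_const, Finset.card_range, nsmul_eq_mul]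
    field_simp
  -- the derivative of `P`
  set F : TangentBundle (𝓡 n) M → EuclideanSpace ℝ (Fin n) → ℝ := fun q ξ =>
    inner ℝ q.2 (ξ : TangentSpace (𝓡 n) q.1) with hF
  set ξ : ℝ → EuclideanSpace ℝ (Fin n) := fun t => curveVel n (fun s => Γ (s, t)) 0 with hξ
  have hterm : ∀ i : ℕ, HasDerivAt
      (fun s => 2 * N * halfDistSq (Γ (s, tp N i)) (Γ (s, tp N (i + 1))))
      (2 * (F (G.Flow (tp N (i + 1)) p) (ξ (tp N (i + 1))) - F (G.Flow (tp N i) p) (ξ (tp N i))))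
      0 := by
    intro i
    have h1 := hasDerivAt_cost_joint G (contMDiff_slice_fst hΓ (tp N i))
      (contMDiff_slice_fst hΓ (tp N (i + 1))) (h0 (tp N i)) (h0 (tp N (i + 1)))
      (v := (1 / (N : ℝ)) • G.vel p.1 p.2 (tp N i))
      (w := (-(1 / (N : ℝ))) • G.vel p.1 p.2 (tp N (i + 1)))
      (by rw [norm_smul, hnv, Real.norm_eq_abs, abs_of_pos (one_div_pos.2 hN')]; exact hsm)
      (by rw [norm_smul, hnv, norm_neg, Real.norm_eq_abs, abs_of_pos (one_div_pos.2 hN')]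
          exact hsm)
      (by
        have := hfl (tp N i) (1 / N)
        rw [← tp_succ] at this
        exact this)
      (by
        have := hfl (tp N (i + 1)) (-(1 / N))
        rw [show tp N (i + 1) + -(1 / (N : ℝ)) = tp N i by rw [tp_succ]; ring] at this
        exact this)
    have h2 := h1.const_mul (2 * (N : ℝ))
    refine h2.congr_deriv ?_
    have e1 : inner ℝ ((1 / (N : ℝ)) • G.vel p.1 p.2 (tp N i))
        (curveVel n (fun s => Γ (s, tp N i)) 0) =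
        1 / N * F (G.Flow (tp N i) p) (ξ (tp N i)) :=
      real_inner_smul_left (F := TangentSpace (𝓡 n) (G.ex p.1 (tp N i • p.2)))
        (G.vel p.1 p.2 (tp N i)) (curveVel n (fun s => Γ (s, tp N i)) 0) _
    have e2 : inner ℝ ((-(1 / (N : ℝ))) • G.vel p.1 p.2 (tp N (i + 1)))
        (curveVel n (fun s => Γ (s, tp N (i + 1))) 0) =
        -(1 / N) * F (G.Flow (tp N (i + 1)) p) (ξ (tp N (i + 1))) :=
      real_inner_smul_left (F := TangentSpace (𝓡 n) (G.ex p.1 (tp N (i + 1) • p.2)))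
        (G.vel p.1 p.2 (tp N (i + 1))) (curveVel n (fun s => Γ (s, tp N (i + 1))) 0) _
    rw [e1, e2]
    field_simp
    ring
  have hPd : HasDerivAt P 0 0 := by
    have h1 := HasDerivAt.fun_sum (u := Finset.range N) fun i _ => hterm i
    refine h1.congr_deriv ?_
    rw [← Finset.mul_sum, Finset.sum_range_sub
      (fun i => F (G.Flow (tp N i) p) (ξ (tp N i)))]
    have h2 : tp N 0 = 0 := by simp [tp]
    have h3 : tp N N = 1 := by unfold tp; field_simp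
    rw [h2, h3, GeoBasic616.Flow_zero, hp]
    have h4 : ξ 1 = ξ 0 := by
      simp only [hξ]
      have : (fun s => Γ (s, (1 : ℝ))) = fun s => Γ (s, (0 : ℝ)) := by
        funext s
        have := hper s 0
        simpa using this
      rw [this]
    rw [h4, sub_self, mul_zero]
  -- conclusion
  have hmin : IsLocalMin (fun s => E s - P s) 0 := by
    refine Eventually.of_forall fun s => ?_
    have h1 := hle s
    simp only [hE0, hP0, sub_self]
    linarith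
  have h5 := hmin.hasDerivAt_eq_zero (he'.sub hPd)
  rw [sub_zero] at h5
  rw [h5] at he'
  exact he'

end Crest.Agent.R231
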