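import Crest.Agent.R231.WgK_667
import Crest.Agent.R231.PairExc_877
import Crest.Agent.R231.OmHom_871
import Crest.Agent.R231.FinDim_315

/-!
# Row 231, block T (helper566): (W1) and (W2) for the free loop space of a sphere, by half turns

`S = Sph n`, `Lp S` = continuous loops, `UU q = {g | g 0 ≠ q}`, `L0 p = {g | g 0 = p}`, `p = -q`.
The half turn `ht (z + q)` exchanges `z` and `q`; `g ↦ (g 0, ht (g 0 + q) ∘ g)` is a homeomorphism
`{g 0 ≠ p} ≃ {p}ᶜ × L0 q`.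

* `W1` : `L0 p → UU q` is a homology isomorphism
* `exists_xp` : relative cycles of `(Lp S, UU q)` are images of external products
* `W2_bdry`, `W2_unique` : `dim H_j(Lp S, UU q) ≤ 1` for `j = m (n-1) + 1`, `= 0` otherwise
-/

set_option autoImplicit false

noncomputable section

open Set Filter Topology Function
open Crest.Agent.R204 Crest.Agent.R204.SingAct265
open Crest.Agent.R231.Pairx877 Crest.Agent.R231.WgKx667 Crest.Agent.R231.OmHomx871
open Crest.Agent.R231.GLugx576 (Lp)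

namespace Crest.Agent.R231.WUx566

/-- Euclidean space -/
abbrev Ev (n : ℕ) : Type := EuclideanSpace ℝ (Fin (n + 1))
/-- the sphere -/
abbrev Sp (n : ℕ) : Type := Metric.sphere (0 : EuclideanSpace ℝ (Fin (n + 1))) 1

variable {n : ℕ}

/-! ### half turns -/

/-- half turn about the line of `v` -/
def rf (v x : Ev n) : Ev n := Submodule.reflection (Submodule.span ℝ {v}) x

theorem rf_eq (v x : Ev n) : rf v x = (2 : ℝ) • (inner ℝ v x / ‖v‖ ^ 2) • v - x := by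
  have := Submodule.reflection_singleton_apply (𝕜 := ℝ) v x
  unfold rf
  rw [this]
  simp [two_smul]

theorem norm_rf (v x : Ev n) : ‖rf v x‖ = ‖x‖ := LinearIsometryEquiv.norm_map _ x

theorem rf_rf (v x : Ev n) : rf v (rf v x) = x := Submodule.reflection_reflection _ x

theorem norm_sp (x : Sp n) : ‖(x : Ev n)‖ = 1 := by
  have := x.2
  rwa [mem_sphere_zero_iff_norm] at this

/-- half turn of the sphere -/
def ht (v : Ev n) (x : Sp n) : Sp n := ⟨rf v x, by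
  rw [mem_sphere_zero_iff_norm, norm_rf, norm_sp]⟩

@[simp] theorem coe_ht (v : Ev n) (x : Sp n) : ((ht v x : Sp n) : Ev n) = rf v x := rfl

theorem ht_ht (v : Ev n) (x : Sp n) : ht v (ht v x) = x := Subtype.ext (rf_rf v x)

theorem add_ne_zero' {z q : Sp n} (h : (z : Ev n) ≠ -q) : (z : Ev n) + (q : Ev n) ≠ 0 :=
  fun h' => h (eq_neg_of_add_eq_zero_left h')

theorem rf_add {z q : Sp n} (h : (z : Ev n) ≠ -q) : rf ((z : Ev n) + (q : Ev n)) q = z := by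
  have h0 : ‖(z : Ev n) + (q : Ev n)‖ ^ 2 ≠ 0 := pow_ne_zero 2 (norm_ne_zero_iff.2 (add_ne_zero' h))
  have h1 : ‖(z : Ev n) + (q : Ev n)‖ ^ 2 = 2 * inner ℝ ((z : Ev n) + (q : Ev n)) (q : Ev n) := by
    rw [norm_add_sq_real, norm_sp, norm_sp, inner_add_left, real_inner_self_eq_norm_sq, norm_sp]
    ring
  rw [rf_eq, smul_smul]
  have h2 : (2 : ℝ) * (inner ℝ ((z : Ev n) + (q : Ev n)) (q : Ev n) / ‖(z : Ev n) + (q : Ev n)‖ ^ 2) = 1 := by
    rw [← mul_div_assoc, ← h1, div_self h0]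
  rw [h2, one_smul, add_sub_cancel_right]

theorem ht_add {z q : Sp n} (h : (z : Ev n) ≠ -q) : ht ((z : Ev n) + (q : Ev n)) q = z :=
  Subtype.ext (rf_add h)

theorem ht_add' {z q : Sp n} (h : (z : Ev n) ≠ -q) : ht ((z : Ev n) + (q : Ev n)) z = q := by
  have := ht_ht ((z : Ev n) + (q : Ev n)) q
  rwa [ht_add h] at this

theorem continuous_ht' {X : Type*} [TopologicalSpace X] {f : X → Ev n} {g : X → Sp n}
    (hf : Continuous f) (hg : Continuous g) (h : ∀ x, f x ≠ 0) :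
    Continuous fun x => ht (f x) (g x) := by
  refine Continuous.subtype_mk ?_ _
  have e : (fun x => rf (f x) (g x : Ev n)) = fun x =>
      ((2 : ℝ) * (inner ℝ (f x) (g x : Ev n) / ‖f x‖ ^ 2)) • f x - (g x : Ev n) := by
    funext x
    rw [rf_eq, smul_smul]
  rw [e]
  have h2 : Continuous fun x => (g x : Ev n) := continuous_subtype_val.comp hg
  have h3 : Continuous fun x => inner ℝ (f x) (g x : Ev n) / ‖f x‖ ^ 2 :=
    (hf.inner h2).div (hf.norm.pow 2) fun x => pow_ne_zero 2 (norm_ne_zero_iff.2 (h x))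
  exact ((continuous_const.mul h3).smul hf).sub h2

theorem continuous_ht (v : Ev n) : Continuous (ht v : Sp n → Sp n) :=
  Continuous.subtype_mk ((LinearIsometryEquiv.continuous _).comp continuous_subtype_val) _

/-- half turn of a loop -/
def act (v : Ev n) (g : Lp (Sp n)) : Lp (Sp n) := ⟨fun t => ht v (g t), (continuous_ht v).comp g.continuous⟩

@[simp] theorem act_apply (v : Ev n) (g : Lp (Sp n)) (t : UnitAddCircle) : act v g t = ht v (g t) := rfl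

theorem act_act (v : Ev n) (g : Lp (Sp n)) : act v (act v g) = g := by
  ext t : 1
  exact ht_ht v _

/-- continuity of families of half turns -/
theorem continuous_act {X : Type*} [TopologicalSpace X] {f : X → Ev n} {g : X → Lp (Sp n)}
    (hf : Continuous f) (hg : Continuous g) (h : ∀ x, f x ≠ 0) :
    Continuous fun x => act (f x) (g x) := by
  refine ContinuousMap.continuous_of_continuous_uncurry _ ?_
  have h1 : Continuous fun p : X × UnitAddCircle => (g p.1) p.2 := by fun_prop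
  exact continuous_ht' (hf.comp continuous_fst) h1 fun p => h p.1

/-! ### the sets -/

/-- loops which do not start at `q` -/
def UU (q : Sp n) : Set (Lp (Sp n)) := {g | g 0 ≠ q}

theorem isOpen_UU (q : Sp n) : IsOpen (UU q) := by
  have h : Continuous fun g : Lp (Sp n) => g 0 := continuous_eval_const 0
  have e : UU q = (fun g : Lp (Sp n) => g 0) ⁻¹' {q}ᶜ := rfl
  rw [e]
  exact isOpen_compl_singleton.preimage h

/-! ### (W1) -/

section W1

variable {p q : Sp n} (hpq : (p : Ev n) = -q)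

include hpq

theorem ne_neg_of_ne {z : Sp n} (h : z ≠ q) : (z : Ev n) ≠ -p := by
  rw [hpq, neg_neg]
  exact fun h' => h (Subtype.ext h')

theorem ne_neg_of_ne' {z : Sp n} (h : z ≠ p) : (z : Ev n) ≠ -q := by
  rw [← hpq]
  exact fun h' => h (Subtype.ext h')

theorem p_ne_q : p ≠ q := by
  intro h
  rw [h] at hpq
  have h1 := norm_sp q
  have h3 : (2 : ℝ) • (q : Ev n) = 0 := by
    rw [two_smul]
    nth_rewrite 1 [hpq]
    exact neg_add_cancel _
  have h2 : (q : Ev n) = 0 := (smul_eq_zero.1 h3).resolve_left two_ne_zero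
  rw [h2, norm_zero] at h1
  exact zero_ne_one h1

/-- the segment from `z` to `p` avoids the half line of `q` -/
theorem seg_ne {z : Sp n} (h : z ≠ q) {s : ℝ} (hs : 0 ≤ s) (hs1 : s ≤ 1) {r : ℝ} (hr : 0 ≤ r) :
    (1 - s) • (z : Ev n) + s • (p : Ev n) ≠ r • (q : Ev n) := by
  intro e
  have hz := norm_sp z
  have hq := norm_sp q
  rw [hpq, smul_neg, ← sub_eq_add_neg, sub_eq_iff_eq_add, ← add_smul] at e
  have h1 : |1 - s| = |r + s| := by
    have := congrArg norm e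
    rwa [norm_smul, norm_smul, hz, hq, mul_one, mul_one, Real.norm_eq_abs, Real.norm_eq_abs] at this
  rw [abs_of_nonneg (by linarith), abs_of_nonneg (by linarith)] at h1
  rw [← h1] at e
  rcases (sub_nonneg.2 hs1).eq_or_lt with h2 | h2
  · linarith
  · exact h (Subtype.ext (smul_right_injective _ h2.ne' e))

/-- the contraction of `S - q` to `p` -/
def cz (p : Sp n) (z : Sp n) (s : ℝ) : Ev n := (1 - s) • (z : Ev n) + s • (p : Ev n)

theorem cz_ne_zero {z : Sp n} (h : z ≠ q) {s : ℝ} (hs : 0 ≤ s) (hs1 : s ≤ 1) : cz p z s ≠ 0 := by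
  have := seg_ne hpq h hs hs1 le_rfl
  rwa [zero_smul] at this

/-- direction of the half turn -/
def dir' (p z : Sp n) (s : ℝ) : Ev n := ‖cz p z s‖⁻¹ • cz p z s + (p : Ev n)

theorem dir_ne_zero {z : Sp n} (h : z ≠ q) {s : ℝ} (hs : 0 ≤ s) (hs1 : s ≤ 1) :
    dir' p z s ≠ 0 := by
  intro e
  have hc := cz_ne_zero hpq h hs hs1
  have hc' : 0 < ‖cz p z s‖ := norm_pos_iff.2 hc
  have h1 : ‖cz p z s‖⁻¹ • cz p z s = (q : Ev n) := by
    have := eq_neg_of_add_eq_zero_left e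
    rw [this, hpq, neg_neg]
  refine seg_ne hpq h hs hs1 hc'.le (r := ‖cz p z s‖) ?_
  rw [← h1, smul_smul, mul_inv_cancel₀ hc'.ne', one_smul]
  rfl

/-- the end of the half turn -/
theorem norm_end {z : Sp n} (h : z ≠ q) {s : ℝ} (hs : 0 ≤ s) (hs1 : s ≤ 1) :
    ‖‖cz p z s‖⁻¹ • cz p z s‖ = 1 := by
  rw [norm_smul, norm_inv, norm_norm,
    inv_mul_cancel₀ (norm_ne_zero_iff.2 (cz_ne_zero hpq h hs hs1))]

/-- the point `cz / |cz|` -/
def pz (p z : Sp n) (s : ℝ) (h : ‖‖cz p z s‖⁻¹ • cz p z s‖ = 1) : Sp n :=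
  ⟨‖cz p z s‖⁻¹ • cz p z s, mem_sphere_zero_iff_norm.2 h⟩

theorem pz_ne {z : Sp n} (h : z ≠ q) {s : ℝ} (hs : 0 ≤ s) (hs1 : s ≤ 1) :
    pz p z s (norm_end hpq h hs hs1) ≠ q := by
  intro e
  have h1 : ‖cz p z s‖⁻¹ • cz p z s = (q : Ev n) := congrArg Subtype.val e
  have hc' : 0 < ‖cz p z s‖ := norm_pos_iff.2 (cz_ne_zero hpq h hs hs1)
  refine seg_ne hpq h hs hs1 hc'.le (r := ‖cz p z s‖) ?_
  rw [← h1, smul_smul, mul_inv_cancel₀ hc'.ne', one_smul]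
  rfl

omit hpq in
theorem cz_zero (z : Sp n) : cz p z 0 = z := by simp [cz]
omit hpq in
theorem cz_one (z : Sp n) : cz p z 1 = p := by simp [cz]
omit hpq in
theorem dir_zero (z : Sp n) : dir' p z 0 = (z : Ev n) + (p : Ev n) := by
  rw [dir', cz_zero, norm_sp, inv_one, one_smul]
omit hpq in
theorem dir_one (z : Sp n) : dir' p z 1 = (p : Ev n) + (p : Ev n) := by
  rw [dir', cz_one, norm_sp, inv_one, one_smul]

/-- the homotopy -/
def Fh (p : Sp n) (g : Lp (Sp n)) (s : ℝ) : Lp (Sp n) :=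
  act (dir' p (g 0) s) (act (((g 0 : Sp n) : Ev n) + (p : Ev n)) g)

theorem Fh_mem {g : Lp (Sp n)} (h : g ∈ UU q) {s : ℝ} (hs : 0 ≤ s) (hs1 : s ≤ 1) :
    Fh p g s ∈ UU q := by
  show ht (dir' p (g 0) s) (ht (((g 0 : Sp n) : Ev n) + (p : Ev n)) (g 0)) ≠ q
  rw [ht_add' (ne_neg_of_ne hpq h)]
  have h1 := pz_ne hpq h hs hs1
  have h2 := ht_add (z := pz p (g 0) s (norm_end hpq h hs hs1)) (q := p)
    (ne_neg_of_ne hpq h1)
  intro e
  apply h1
  rw [← h2]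
  exact e

omit hpq in
theorem Fh_zero (g : Lp (Sp n)) : Fh p g 0 = g := by
  rw [Fh, dir_zero, act_act]

theorem Fh_one_mem {g : Lp (Sp n)} (h : g ∈ UU q) : Fh p g 1 ∈ L0 p := by
  show ht (dir' p (g 0) 1) (ht (((g 0 : Sp n) : Ev n) + (p : Ev n)) (g 0)) = p
  rw [ht_add' (ne_neg_of_ne hpq h), dir_one]
  refine ht_add (ne_neg_of_ne hpq (p_ne_q hpq))

omit hpq in
theorem Fh_one_L0 {g : Lp (Sp n)} (h : g ∈ L0 p) : Fh p g 1 = g := by
  have h' : g 0 = p := h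
  rw [Fh, dir_one, h', act_act]

theorem L0_sub_UU : L0 p ⊆ UU q := by
  intro g hg
  have h' : g 0 = p := hg
  show g 0 ≠ q
  rw [h']
  exact p_ne_q hpq

theorem continuous_Fh {X : Type*} [TopologicalSpace X] {g : X → Lp (Sp n)} {s : X → ℝ}
    (hg : Continuous g) (hs : Continuous s) (h : ∀ x, g x ∈ UU q) (h0 : ∀ x, 0 ≤ s x)
    (h1 : ∀ x, s x ≤ 1) : Continuous fun x => Fh p (g x) (s x) := by
  have e0 : Continuous fun x => (g x) 0 := by fun_prop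
  have e0' : Continuous fun x => (((g x) 0 : Sp n) : Ev n) := continuous_subtype_val.comp e0
  have ec : Continuous fun x => cz p ((g x) 0) (s x) := by
    unfold cz
    exact ((continuous_const.sub hs).smul e0').add (hs.smul continuous_const)
  refine continuous_act ?_ (continuous_act (e0'.add continuous_const) hg fun x =>
    add_ne_zero' (ne_neg_of_ne hpq (h x))) fun x => dir_ne_zero hpq (h x) (h0 x) (h1 x)
  unfold dir'
  refine ((ec.norm.inv₀ fun x => ?_).smul ec).add continuous_const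
  exact norm_ne_zero_iff.2 (cz_ne_zero hpq (h x) (h0 x) (h1 x))

/-- the inclusion `L0 p → UU q` -/
def incU : C(L0 p, UU q) := ⟨fun g => ⟨g.1, L0_sub_UU hpq g.2⟩, by fun_prop⟩

/-- the retraction -/
def retU : C(UU q, L0 p) := ⟨fun g => ⟨Fh p g.1 1, Fh_one_mem hpq g.2⟩,
  (continuous_Fh hpq continuous_subtype_val continuous_const (fun x => x.2) (fun _ => zero_le_one)
    fun _ => le_rfl).subtype_mk _⟩

/-- **(W1)** -/
theorem W1 : Bijective (H.map F2 (SS.SingMap (incU hpq))) := by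
  refine FinDim315.Hm_bijective_of_inv (g := retU hpq) ?_ ?_
  · have e : (retU hpq).comp (incU hpq) = ContinuousMap.id _ := by
      ext g : 2
      exact Fh_one_L0 g.2
    rw [e]
  · refine ContinuousMap.Homotopic.symm ⟨⟨⟨fun x => ⟨Fh p x.2.1 x.1, Fh_mem hpq x.2.2 x.1.2.1 x.1.2.2⟩,
      ?_⟩, ?_, ?_⟩⟩
    · exact (continuous_Fh hpq (by fun_prop) (by fun_prop) (fun x => x.2.2) (fun x => x.1.2.1)
        fun x => x.1.2.2).subtype_mk _
    · intro g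
      exact Subtype.ext (Fh_zero g.1)
    · intro g
      rfl

end W1

/-! ### (W2), reduction to based loops -/

section W2

/-- `g ↦ (g 0, half turn of g)` -/
def Φm (q : Sp n) (g : Lp (Sp n)) : Sp n × Lp (Sp n) :=
  (g 0, act (((g 0 : Sp n) : Ev n) + (q : Ev n)) g)

/-- `(z, w) ↦ half turn of w` -/
def Ψm (q : Sp n) (x : Sp n × Lp (Sp n)) : Lp (Sp n) := act ((x.1 : Ev n) + (q : Ev n)) x.2

variable {p q : Sp n} (hpq : (p : Ev n) = -q)

include hpq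

theorem contOn_Φ : ContinuousOn (Φm q) (UU p) := by
  rw [continuousOn_iff_continuous_domRestrict]
  have e0 : Continuous fun g : UU p => (g.1 : Lp (Sp n)) 0 :=
    (continuous_eval_const (F := Lp (Sp n)) 0).comp continuous_subtype_val
  refine e0.prodMk (continuous_act ((continuous_subtype_val.comp e0).add continuous_const)
    continuous_subtype_val fun g => add_ne_zero' (ne_neg_of_ne' hpq g.2))

theorem contOn_Ψ : ContinuousOn (Ψm q) (({p}ᶜ : Set (Sp n)) ×ˢ L0 q) := by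
  rw [continuousOn_iff_continuous_domRestrict]
  refine continuous_act ((continuous_subtype_val.comp
    (continuous_fst.comp continuous_subtype_val)).add continuous_const)
    (continuous_snd.comp continuous_subtype_val) fun x => add_ne_zero' (ne_neg_of_ne' hpq ?_)
  exact x.2.1

theorem Φ_mem {g : Lp (Sp n)} (h : g ∈ UU p) : Φm q g ∈ ({p}ᶜ : Set (Sp n)) ×ˢ L0 q := by
  refine ⟨h, ?_⟩
  show ht (((g 0 : Sp n) : Ev n) + (q : Ev n)) (g 0) = q
  exact ht_add' (ne_neg_of_ne' hpq h)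

theorem Ψ_zero {x : Sp n × Lp (Sp n)} (h : x ∈ ({p}ᶜ : Set (Sp n)) ×ˢ L0 q) :
    (Ψm q x) 0 = x.1 := by
  have h2 : x.2 0 = q := h.2
  show ht ((x.1 : Ev n) + (q : Ev n)) (x.2 0) = x.1
  rw [h2]
  exact ht_add (ne_neg_of_ne' hpq h.1)

omit hpq in
theorem Ψ_Φ (g : Lp (Sp n)) : Ψm q (Φm q g) = g := act_act _ _

/-- excision to `{g 0 ≠ p}` and the homeomorphism -/
theorem exists_xp' {z : CE (Lp (Sp n))} (hd : bdE _ z ∈ CS (UU q)) :
    ∃ b ∈ CS (UU p), z - b ∈ Bp univ (UU q) ∧ bdE _ b ∈ CS (UU q) ∧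
      push (UU p) (Φm q) (contOn_Φ hpq) b ∈ CS (({p}ᶜ : Set (Sp n)) ×ˢ L0 q) ∧
      bdE _ (push (UU p) (Φm q) (contOn_Φ hpq) b) ∈ CS (({p}ᶜ ∩ {q}ᶜ : Set (Sp n)) ×ˢ L0 q) := by
  have huv : UU q ∪ UU p = (univ : Set (Lp (Sp n))) := by
    ext g
    simp only [mem_union, mem_univ, iff_true]
    by_cases hg : g 0 = q
    · right
      show g 0 ≠ p
      rw [hg]
      exact (p_ne_q hpq).symm
    · exact Or.inl hg
  obtain ⟨a, ha, b, hb, w, hw, e⟩ := small2 (U := UU q) (V := UU p) (fun y hy => by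
    rcases hy with hy | hy
    · exact Or.inl (mem_nhdsWithin_of_mem_nhds ((isOpen_UU q).mem_nhds hy))
    · exact Or.inr (mem_nhdsWithin_of_mem_nhds ((isOpen_UU p).mem_nhds hy))) (z := z)
    (by rw [huv, CS_univ]; exact Submodule.mem_top) (Submodule.mem_sup_left hd)
  have hbd : bdE _ b ∈ CS (UU q) := by
    have : bdE _ b = bdE _ z - bdE _ a := by
      rw [e, map_add, map_add, bd_bdE, add_zero, add_sub_cancel_left]
    rw [this]
    exact Submodule.sub_mem _ hd (bd_mem_CS a ha)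
  refine ⟨b, hb, ?_, hbd, push_mem (fun g hg => Φ_mem hpq hg) b hb, ?_⟩
  · rw [mem_Bp]
    refine ⟨w, by rw [CS_univ]; exact Submodule.mem_top, ?_⟩
    rw [e]
    have : a + b + bdE _ w - b - bdE _ w = a := by abel
    rw [this]
    exact ha
  · rw [bd_push b hb]
    have h1 : bdE _ b ∈ CS (UU p ∩ UU q) := by
      rw [CS_inter]
      exact ⟨bd_mem_CS b hb, hbd⟩
    have hm : MapsTo (Φm q) (UU p ∩ UU q) (({p}ᶜ ∩ {q}ᶜ : Set (Sp n)) ×ˢ L0 q) :=
      fun g hg => ⟨⟨hg.1, hg.2⟩, (Φ_mem hpq hg.1).2⟩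
    exact push_mem hm _ h1

/-- back -/
theorem back {b : CE (Lp (Sp n))} (hb : b ∈ CS (UU p)) {x : CE (Sp n × Lp (Sp n))}
    (hx : push (UU p) (Φm q) (contOn_Φ hpq) b + x ∈
      Bp (({p}ᶜ : Set (Sp n)) ×ˢ L0 q) (({p}ᶜ ∩ {q}ᶜ : Set (Sp n)) ×ˢ L0 q)) :
    b + push (({p}ᶜ : Set (Sp n)) ×ˢ L0 q) (Ψm q) (contOn_Ψ hpq) x ∈ Bp univ (UU q) := by
  rw [mem_Bp] at hx ⊢
  obtain ⟨w, hw, hw'⟩ := hx
  refine ⟨push (({p}ᶜ : Set (Sp n)) ×ˢ L0 q) (Ψm q) (contOn_Ψ hpq) w,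
    by rw [CS_univ]; exact Submodule.mem_top, ?_⟩
  rw [bd_push w hw]
  have e1 : push (({p}ᶜ : Set (Sp n)) ×ˢ L0 q) (Ψm q) (contOn_Ψ hpq)
      (push (UU p) (Φm q) (contOn_Φ hpq) b) = b := by
    rw [push_push (X := UU p) (l := fun x => x) (hl := continuousOn_id)
      (fun g hg => Φ_mem hpq hg) (fun g _ => Ψ_Φ g) b hb]
    exact push_id b hb
  have e2 : b + push (({p}ᶜ : Set (Sp n)) ×ˢ L0 q) (Ψm q) (contOn_Ψ hpq) x -
      push (({p}ᶜ : Set (Sp n)) ×ˢ L0 q) (Ψm q) (contOn_Ψ hpq) (bdE _ w) =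
      push (({p}ᶜ : Set (Sp n)) ×ˢ L0 q) (Ψm q) (contOn_Ψ hpq)
        (push (UU p) (Φm q) (contOn_Φ hpq) b + x - bdE _ w) := by
    rw [map_sub, map_add, e1]
  rw [e2]
  refine push_mem (A := ({p}ᶜ ∩ {q}ᶜ : Set (Sp n)) ×ˢ L0 q) (fun y hy => ?_) _ hw'
  show (Ψm q y) 0 ≠ q
  rw [Ψ_zero hpq ⟨hy.1.1, hy.2⟩]
  exact hy.1.2

variable {u : CE (Sp n)} (h : OneS ({p}ᶜ : Set (Sp n)) ({p}ᶜ ∩ {q}ᶜ) u)

omit hpq in
theorem prN_sub_mem_Bp {X Y : Set (Lp (Sp n))} {j : ℕ} {z b : CE (Lp (Sp n))}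
    (hz : z ∈ N.gr F2 (SS.Sing (Lp (Sp n))) j) (h : z - b ∈ Bp X Y) :
    z - Gr334.prN F2 (SS.Sing (Lp (Sp n))) j b ∈ Bp X Y := by
  have := prN_mem_Bp j h
  rwa [map_sub, Gr334.prN_of_mem hz] at this

omit hpq in
theorem bd_prN_mem {Y : Set (Lp (Sp n))} {j : ℕ} {b : CE (Lp (Sp n))} (h : bdE _ b ∈ CS Y) :
    bdE _ (Gr334.prN F2 (SS.Sing (Lp (Sp n))) j b) ∈ CS Y := by
  rcases j with _ | j
  · have : bdE _ (Gr334.prN F2 (SS.Sing (Lp (Sp n))) 0 b) = 0 :=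
      Gr334.bd_gr_zero (Gr334.prN_mem _ _)
    rw [this]
    exact Submodule.zero_mem _
  · have : bdE _ (Gr334.prN F2 (SS.Sing (Lp (Sp n))) (j + 1) b) =
        Gr334.prN F2 _ j (bdE _ b) := (Gr334.prN_bd j b).symm
    rw [this]
    exact WgKx667.prN_mem_CS _ _ h

include h

/-- graded version -/
theorem exists_xp {d m : ℕ} (hu : u ∈ N.gr F2 (SS.Sing (Sp n)) d) {z : CE (Lp (Sp n))}
    (hz : z ∈ N.gr F2 _ (d + m)) (hd : bdE _ z ∈ CS (UU q)) :
    ∃ y ∈ CS (L0 q), y ∈ N.gr F2 (SS.Sing (Lp (Sp n))) m ∧ bdE _ y = 0 ∧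
      z + push (({p}ᶜ : Set (Sp n)) ×ˢ L0 q) (Ψm q) (contOn_Ψ hpq) (xp u y) ∈ Bp univ (UU q) := by
  obtain ⟨b0, hb0, hzb0, hbd0, -, -⟩ := exists_xp' hpq hd
  set b := Gr334.prN F2 (SS.Sing (Lp (Sp n))) (d + m) b0 with hb'
  have hb : b ∈ CS (UU p) := WgKx667.prN_mem_CS _ b0 hb0
  have hzb : z - b ∈ Bp univ (UU q) := prN_sub_mem_Bp hz hzb0
  have hbd : bdE _ b ∈ CS (UU q) := bd_prN_mem hbd0
  have hP : push (UU p) (Φm q) (contOn_Φ hpq) b ∈ CS (({p}ᶜ : Set (Sp n)) ×ˢ L0 q) :=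
    push_mem (fun g hg => Φ_mem hpq hg) b hb
  have hP' : bdE _ (push (UU p) (Φm q) (contOn_Φ hpq) b) ∈
      CS (({p}ᶜ ∩ {q}ᶜ : Set (Sp n)) ×ˢ L0 q) := by
    rw [bd_push b hb]
    have h1 : bdE _ b ∈ CS (UU p ∩ UU q) := by
      rw [CS_inter]
      exact ⟨bd_mem_CS b hb, hbd⟩
    have hm : MapsTo (Φm q) (UU p ∩ UU q) (({p}ᶜ ∩ {q}ᶜ : Set (Sp n)) ×ˢ L0 q) :=
      fun g hg => ⟨⟨hg.1, hg.2⟩, (Φ_mem hpq hg.1).2⟩
    exact push_mem hm _ h1
  obtain ⟨y, hy, hym, hyc, hyb⟩ := xp_surj_gr h hu _ hP hP' (push_gr (Gr334.prN_mem _ _))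
  refine ⟨y, hy, hym, hyc, ?_⟩
  have h1 := back hpq hb hyb
  have h2 := Submodule.add_mem _ hzb h1
  rwa [show z - b + (b + push (({p}ᶜ : Set (Sp n)) ×ˢ L0 q) (Ψm q) (contOn_Ψ hpq) (xp u y)) =
    z + push (({p}ᶜ : Set (Sp n)) ×ˢ L0 q) (Ψm q) (contOn_Ψ hpq) (xp u y) by abel] at h2

/-- vanishing below the dimension of the sphere -/
theorem bdry_lt {d j : ℕ} (hu : u ∈ N.gr F2 (SS.Sing (Sp n)) d) (hj : j < d)
    {z : CE (Lp (Sp n))} (hz : z ∈ N.gr F2 _ j) (hd : bdE _ z ∈ CS (UU q)) :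
    z ∈ Bp univ (UU q) := by
  obtain ⟨b0, hb0, hzb0, hbd0, -, -⟩ := exists_xp' hpq hd
  set b := Gr334.prN F2 (SS.Sing (Lp (Sp n))) j b0 with hb'
  have hb : b ∈ CS (UU p) := WgKx667.prN_mem_CS _ b0 hb0
  have hzb : z - b ∈ Bp univ (UU q) := prN_sub_mem_Bp hz hzb0
  have hbd : bdE _ b ∈ CS (UU q) := bd_prN_mem hbd0
  have hP : push (UU p) (Φm q) (contOn_Φ hpq) b ∈ CS (({p}ᶜ : Set (Sp n)) ×ˢ L0 q) :=
    push_mem (fun g hg => Φ_mem hpq hg) b hb
  have hP' : bdE _ (push (UU p) (Φm q) (contOn_Φ hpq) b) ∈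
      CS (({p}ᶜ ∩ {q}ᶜ : Set (Sp n)) ×ˢ L0 q) := by
    rw [bd_push b hb]
    have h1 : bdE _ b ∈ CS (UU p ∩ UU q) := by
      rw [CS_inter]
      exact ⟨bd_mem_CS b hb, hbd⟩
    have hm : MapsTo (Φm q) (UU p ∩ UU q) (({p}ᶜ ∩ {q}ᶜ : Set (Sp n)) ×ˢ L0 q) :=
      fun g hg => ⟨⟨hg.1, hg.2⟩, (Φ_mem hpq hg.1).2⟩
    exact push_mem hm _ h1
  have hyb := xp_surj_lt h hu hj _ hP hP' (push_gr (Gr334.prN_mem _ _))
  have h1 := back hpq hb (x := 0) (by rwa [add_zero])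
  rw [map_zero, add_zero] at h1
  have h2 := Submodule.add_mem _ hzb h1
  rwa [sub_add_cancel] at h2

omit h in
/-- external products with boundaries of based loops are relative boundaries -/
theorem push_xp_mem (hu : u ∈ CS ({p}ᶜ : Set (Sp n))) (hu' : bdE _ u ∈ CS ({p}ᶜ ∩ {q}ᶜ : Set (Sp n)))
    {v : CE (Lp (Sp n))} (hv : v ∈ CS (L0 q)) :
    push (({p}ᶜ : Set (Sp n)) ×ˢ L0 q) (Ψm q) (contOn_Ψ hpq) (xp u (bdE _ v)) ∈
      Bp univ (UU q) := by
  have hx := xp_mem hu hv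
  have e : xp u (bdE _ v) = bdE _ (xp u v) - xp (bdE _ u) v := by
    rw [bd_xp, add_sub_cancel_left]
  rw [e, map_sub, ← bd_push _ hx, mem_Bp]
  refine ⟨push (({p}ᶜ : Set (Sp n)) ×ˢ L0 q) (Ψm q) (contOn_Ψ hpq) (xp u v),
    by rw [CS_univ]; exact Submodule.mem_top, ?_⟩
  rw [sub_sub_cancel_left]
  refine Submodule.neg_mem _ (push_mem (A := ({p}ᶜ ∩ {q}ᶜ : Set (Sp n)) ×ˢ L0 q)
    (fun y hy => ?_) _ (xp_mem hu' hv))
  show (Ψm q y) 0 ≠ q
  rw [Ψ_zero hpq ⟨hy.1.1, hy.2⟩]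
  exact hy.1.2

end W2

end Crest.Agent.R231.WUx566
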