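import Crest.Agent.R231.IfWang_525
import Crest.Agent.R231.SmallCS_226

/-!
# Row 231 (S0357), Wang package: excision, localised cap, `j_!`, coarse Wang sequence (helper525)

* `CS_inf`, `exc_exists`, `exc_unique`, `exc` : excision for two sets `W`, `V` which are neighbourhoods
* `lcap` : `HP X (X ∩ W) → HP (X ∩ V) ∅`, `[z₁ + z₂ + bd w] ↦ [cap u z₂]`; `lcap_mk`
* `WangGeo.jsh` : `HP (X t) (X t ∩ e⁻¹ D) → HP (O (t + c)) ∅`; `jsh_mk`, `jsh_inc` (levels)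
* `wang_one` (W1), `to_based` (W1'), `inj_of_onto` (W3)
-/

set_option autoImplicit false

noncomputable section

open Set Topology Function
open Crest.Agent.R204

namespace Crest.Agent.R231.WangAbsx525

open Pairx877 Capx226 CapCSx780 SmallCSx226 SingAct265 EZ271 IfWangx525

variable {E E' B : Type} [TopologicalSpace E] [TopologicalSpace E'] [TopologicalSpace B]

/-! ## supports -/

theorem CS_inf {A C : Set E} {c : CE E} (hA : c ∈ CS A) (hC : c ∈ CS C) : c ∈ CS (A ∩ C) := by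
  rw [← map_inc_res c hA]
  refine map_mem_of_CS (X := C) (f := N.map F2 (SS.SingMap (SpecA.inc A)) ∘ₗ res A)
    (P := CS (A ∩ C)) ?_ c hC
  intro n σ hσ
  rw [LinearMap.comp_apply]
  by_cases h : ∀ t, ev σ t ∈ A
  · rw [res_sx h, N.map_sx, map_rs]
    exact sx_mem_CS fun t => ⟨h t, hσ t⟩
  · rw [res_sx_neg h, map_zero]
    exact Submodule.zero_mem _

theorem add_self (c : CE E) : c + c = 0 := ZModModule.add_self c

theorem eq_of_add {a b : CE E} (h : a + b = 0) : a = b := by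
  rw [← ZModModule.sub_eq_add] at h; exact sub_eq_zero.1 h

theorem mem_Bp' {X A : Set E} {c : CE E} : c ∈ Bp X A ↔ ∃ r ∈ CS A, ∃ w ∈ CS X, c = r + bdE E w := by
  rw [mem_Bp]
  constructor
  · rintro ⟨w, hw, h⟩
    exact ⟨_, h, w, hw, (sub_add_cancel _ _).symm⟩
  · rintro ⟨r, hr, w, hw, rfl⟩
    exact ⟨w, hw, by rwa [add_sub_cancel_right]⟩

theorem mem_Bp_empty {X : Set E} {c : CE E} : c ∈ Bp X ∅ ↔ ∃ w ∈ CS X, c = bdE E w := by
  rw [mem_Bp']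
  constructor
  · rintro ⟨r, hr, w, hw, rfl⟩
    rw [CS_empty, Submodule.mem_bot] at hr
    exact ⟨w, hw, by rw [hr, zero_add]⟩
  · rintro ⟨w, hw, rfl⟩
    exact ⟨0, Submodule.zero_mem _, w, hw, by rw [zero_add]⟩

/-! ## excision -/

section exc

variable {X W V : Set E} (h : ∀ x ∈ X, W ∈ 𝓝[X] x ∨ V ∈ 𝓝[X] x)

include h in
/-- a relative cycle is the sum of a chain in `W`, a chain in `V` and a boundary -/
theorem exc_exists {z : CE E} (hz : z ∈ CS X) (hb : bdE E z ∈ CS (X ∩ W)) :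
    ∃ z₁ ∈ CS (X ∩ W), ∃ z₂ ∈ CS (X ∩ V), ∃ w ∈ CS X, z = z₁ + z₂ + bdE E w := by
  obtain ⟨O, c₁, h₁, c₂, h₂, h₃⟩ := exists_op_two h hz
  refine ⟨c₁ + O.T (bdE E z), Submodule.add_mem _ h₁ (O.T_mem _ _ hb), c₂, h₂, O.T z,
    O.T_mem _ _ hz, ?_⟩
  have h4 := O.htp z
  rw [h₃] at h4
  have h5 : z = z + (c₁ + c₂) + (c₁ + c₂) := by rw [add_assoc, add_self, add_zero]
  refine h5.trans ?_
  rw [h4]
  abel

theorem bd_mem_inf {z z₁ z₂ w : CE E} (hb : bdE E z ∈ CS (X ∩ W)) (h₁ : z₁ ∈ CS (X ∩ W))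
    (h₂ : z₂ ∈ CS (X ∩ V)) (e : z = z₁ + z₂ + bdE E w) : bdE E z₂ ∈ CS (X ∩ V ∩ W) := by
  have h3 : bdE E z₂ = bdE E z + bdE E z₁ := by
    rw [e, map_add, map_add, bd_bdE, add_zero]
    rw [add_comm (bdE E z₁), add_assoc, add_self, add_zero]
  have h4 : bdE E z₂ ∈ CS (X ∩ W) := by
    rw [h3]; exact Submodule.add_mem _ hb (bd_mem_CS _ h₁)
  have h5 := CS_inf (bd_mem_CS _ h₂) h4
  refine CS_mono ?_ h5
  rintro x ⟨⟨h1, h2⟩, h3, h4⟩
  exact ⟨⟨h1, h2⟩, h4⟩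

include h in
theorem exc_unique {z₁ z₂ w : CE E} (h₁ : z₁ ∈ CS (X ∩ W)) (h₂ : z₂ ∈ CS (X ∩ V)) (hw : w ∈ CS X)
    (e : z₂ = z₁ + bdE E w) : z₂ ∈ Bp (X ∩ V) (X ∩ V ∩ W) := by
  have hI : ∀ c : CE E, c ∈ CS (X ∩ V) → c ∈ CS (X ∩ W) → c ∈ CS (X ∩ V ∩ W) := by
    intro c h1 h2
    refine CS_mono ?_ (CS_inf h1 h2)
    rintro x ⟨⟨h1, h2⟩, h3, h4⟩
    exact ⟨⟨h1, h2⟩, h4⟩
  have hbz : bdE E z₂ = bdE E z₁ := by rw [e, map_add, bd_bdE, add_zero]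
  have hbI : bdE E z₂ ∈ CS (X ∩ V ∩ W) :=
    hI _ (bd_mem_CS _ h₂) (by rw [hbz]; exact bd_mem_CS _ h₁)
  obtain ⟨O, a, ha, b, hb, hab⟩ := exists_op_two h hw
  have hS : O.S z₂ = (O.S z₁ + bdE E a) + bdE E b := by
    rw [e, map_add, ← O.bd_S, hab, map_add, add_assoc]
  have hz : z₂ = O.S z₂ + (bdE E (O.T z₂) + O.T (bdE E z₂)) := by
    rw [← O.htp, ← add_assoc, add_comm (O.S z₂), add_assoc, add_self, add_zero]
  have hr : O.S z₁ + bdE E a ∈ CS (X ∩ V ∩ W) := by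
    refine hI _ ?_ (Submodule.add_mem _ (O.S_mem _ _ h₁) (bd_mem_CS _ ha))
    have : O.S z₁ + bdE E a = O.S z₂ + bdE E b := by
      rw [hS, add_assoc, add_self, add_zero]
    rw [this]
    exact Submodule.add_mem _ (O.S_mem _ _ h₂) (bd_mem_CS _ hb)
  rw [mem_Bp']
  refine ⟨(O.S z₁ + bdE E a) + O.T (bdE E z₂), Submodule.add_mem _ hr (O.T_mem _ _ hbI),
    b + O.T z₂, Submodule.add_mem _ hb (O.T_mem _ _ h₂), ?_⟩
  rw [map_add]
  nth_rewrite 1 [hz]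
  rw [hS]
  abel

omit [TopologicalSpace E] in
theorem sub1 : X ∩ V ⊆ X := inter_subset_left

omit [TopologicalSpace E] in
theorem sub2 : X ∩ V ∩ W ⊆ X ∩ W := fun _ h => ⟨h.1.1, h.2⟩

/-- the excision map -/
def exMap (X W V : Set E) : HP (X ∩ V) (X ∩ V ∩ W) →ₗ[F2] HP X (X ∩ W) :=
  Hr.inc (CS_mono sub1) (CS_mono sub2)

include h in
theorem exMap_bijective : Bijective (exMap X W V) := by
  constructor
  · rw [injective_iff_map_eq_zero]
    intro x hx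
    obtain ⟨c, h1, h2, rfl⟩ := Hr.mk_surj x
    rw [exMap, Hr.inc_mk, HP_mk_eq_zero, mem_Bp'] at hx
    obtain ⟨r, hr, w, hw, e⟩ := hx
    rw [HP_mk_eq_zero]
    exact exc_unique h hr h1 hw e
  · intro x
    obtain ⟨c, h1, h2, rfl⟩ := Hr.mk_surj x
    obtain ⟨z₁, hz₁, z₂, hz₂, w, hw, e⟩ := exc_exists h h1 h2
    refine ⟨Hr.mk _ _ _ z₂ hz₂ (bd_mem_inf h2 hz₁ hz₂ e), ?_⟩
    rw [exMap, Hr.inc_mk, Hr.mk_eq_mk]
    refine ⟨w, hw, ?_⟩
    have : z₂ - c - bdE E w = z₁ := by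
      rw [e]; simp only [ZModModule.sub_eq_add]
      have : z₂ + (z₁ + z₂ + bdE E w) + bdE E w = (z₂ + z₂) + (bdE E w + bdE E w) + z₁ := by abel
      rw [this, add_self, add_self, zero_add, zero_add]
    rw [this]; exact hz₁

/-- excision -/
def exc : HP (X ∩ V) (X ∩ V ∩ W) ≃ₗ[F2] HP X (X ∩ W) :=
  LinearEquiv.ofBijective _ (exMap_bijective h)

/-! ## localised cap product -/

variable {u : Co (SS.Sing E)} (hu0 : ∀ z ∈ CS W, u z = 0) (huc : ∀ z : CE E, u (bdE E z) = 0)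

/-- cap on `V` -/
def capV (u : Co (SS.Sing E)) (hu0 : ∀ z ∈ CS W, u z = 0) (huc : ∀ z : CE E, u (bdE E z) = 0) :
    HP (X ∩ V) (X ∩ V ∩ W) →ₗ[F2] HP (X ∩ V) ∅ :=
  Hr.map (cap u) (cap_mem_CS u)
    (fun z hz => by
      rw [cap_eq_zero_CS (A := X ∩ V ∩ W) (fun y hy => hu0 y (CS_mono inter_subset_right hy)) z hz]
      exact Submodule.zero_mem _)
    (fun z hz => bd_cap_CS (X := X ∩ V) (fun y _ => huc y) z hz)

/-- localised cap product `[z₁ + z₂ + bd w] ↦ [cap u z₂]` -/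
def lcap : HP X (X ∩ W) →ₗ[F2] HP (X ∩ V) ∅ :=
  capV u hu0 huc ∘ₗ ((exc h).symm : HP X (X ∩ W) →ₗ[F2] HP (X ∩ V) (X ∩ V ∩ W))

include hu0 huc in
theorem cap_cyc {z₂ : CE E} (hz₂ : z₂ ∈ CS (X ∩ V)) (hb : bdE E z₂ ∈ CS (X ∩ V ∩ W)) :
    bdE E (cap u z₂) ∈ CS (∅ : Set E) := by
  rw [bd_cap_CS (X := X ∩ V) (fun y _ => huc y) z₂ hz₂,
    cap_eq_zero_CS (A := X ∩ V ∩ W) (fun y hy => hu0 y (CS_mono inter_subset_right hy)) _ hb]
  exact Submodule.zero_mem _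

theorem lcap_mk {z z₁ z₂ w : CE E} (hz : z ∈ CS X) (hb : bdE E z ∈ CS (X ∩ W))
    (h₁ : z₁ ∈ CS (X ∩ W)) (h₂ : z₂ ∈ CS (X ∩ V)) (hw : w ∈ CS X) (e : z = z₁ + z₂ + bdE E w) :
    lcap h hu0 huc (Hr.mk _ _ _ z hz hb) = Hr.mk _ _ _ (cap u z₂) (cap_mem_CS u z₂ h₂)
      (cap_cyc hu0 huc h₂ (bd_mem_inf hb h₁ h₂ e)) := by
  have h3 : Hr.mk (bdE E) (CS X) (CS (X ∩ W)) z hz hb =
      exc h (Hr.mk _ _ _ z₂ h₂ (bd_mem_inf hb h₁ h₂ e)) := by
    show _ = exMap X W V _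
    rw [exMap, Hr.inc_mk, Hr.mk_eq_mk]
    refine ⟨w, hw, ?_⟩
    have : z - z₂ - bdE E w = z₁ := by rw [e]; abel
    rw [this]; exact h₁
  rw [h3, lcap, LinearMap.comp_apply, LinearEquiv.coe_coe, LinearEquiv.symm_apply_apply]
  rfl

end exc

/-! ## continuous maps -/

theorem push_eq_mp (f : C(E, E')) {X : Set E} {hf : ContinuousOn f X} : ∀ c ∈ CS X,
    push X f hf c = mp f c := by
  refine eq_on_CS fun n σ h => ?_
  rw [push_sx h, N.map_sx]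
  rfl

theorem mp_mem (f : C(E, E')) {A : Set E} {A' : Set E'} (h : MapsTo f A A') : ∀ c ∈ CS A,
    mp f c ∈ CS A' := by
  refine map_mem_of_CS fun n σ hσ => ?_
  rw [N.map_sx]
  exact sx_mem_CS fun t => h (hσ t)

theorem mp_bd (f : C(E, E')) (c : CE E) : bdE E' (mp f c) = mp f (bdE E c) :=
  (LinearMap.congr_fun (N.map_bd (R := F2) (SS.SingMap f)) c).symm

theorem pb_apply (f : C(E, E')) (U : Co (SS.Sing E')) (c : CE E) : pb f U c = U (mp f c) := rfl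

theorem pb_zero (f : C(E, B)) {D : Set B} {U : Co (SS.Sing B)} (hU : PtCo D U) :
    ∀ z ∈ CS (f ⁻¹' D), pb f U z = 0 := fun z hz => hU.zero _ (mp_mem f (fun _ h => h) z hz)

theorem pb_cocycle (f : C(E, B)) {D : Set B} {U : Co (SS.Sing B)} (hU : PtCo D U) (z : CE E) :
    pb f U (bdE E z) = 0 := by
  rw [pb_apply, ← mp_bd]; exact hU.cocycle _

end Crest.Agent.R231.WangAbsx525

namespace Crest.Agent.R231.IfWangx525.WangGeo

open Pairx877 Capx226 CapCSx780 SmallCSx226 SingAct265 EZ271 IfWangx525 WangAbsx525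

variable {E B : Type} [TopologicalSpace E] [TopologicalSpace B]
variable (G : WangGeo B E)

/-- loops of level `t` over `D` -/
abbrev W (t : ℝ) : Set E := G.X t ∩ G.e ⁻¹' G.D

/-- loops of level `t` over `D'` -/
abbrev V (t : ℝ) : Set E := G.X t ∩ G.e ⁻¹' G.D'

theorem cover (t : ℝ) : ∀ x ∈ G.X t, G.e ⁻¹' G.D ∈ 𝓝[G.X t] x ∨ G.e ⁻¹' G.D' ∈ 𝓝[G.X t] x := by
  intro x _
  rcases G.cov (G.e x) with h | h
  · exact Or.inl (mem_nhdsWithin_of_mem_nhds ((G.isOpen_D.preimage G.e.continuous).mem_nhds h))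
  · exact Or.inr (mem_nhdsWithin_of_mem_nhds ((G.isOpen_D'.preimage G.e.continuous).mem_nhds h))

theorem X_add (t : ℝ) : G.X t ⊆ G.X (t + G.c) := G.X_mono (by linarith [G.c_nonneg])

variable {G}
variable {U : Co (SS.Sing B)} (hU : PtCo G.D U)

/-- **`j_!`** -/
def jsh {t : ℝ} (ht : 0 ≤ t) : HP (G.X t) (G.W t) →ₗ[F2] HP (G.O (t + G.c)) ∅ :=
  HP.map (G.cn t) (G.cn_cont t ht) (G.cn_mem t ht) (mapsTo_empty _ _) ∘ₗ
    lcap (G.cover t) (pb_zero G.e hU) (pb_cocycle G.e hU)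

theorem jsh_mk {t : ℝ} (ht : 0 ≤ t) {z z₁ z₂ w : CE E} (hz : z ∈ CS (G.X t))
    (hb : bdE E z ∈ CS (G.W t)) (h₁ : z₁ ∈ CS (G.W t)) (h₂ : z₂ ∈ CS (G.V t))
    (hw : w ∈ CS (G.X t)) (e : z = z₁ + z₂ + bdE E w) :
    jsh hU ht (Hr.mk _ _ _ z hz hb) =
      Hr.mk _ _ _ (push (G.V t) (G.cn t) (G.cn_cont t ht) (cap (pb G.e U) z₂))
        (push_mem (G.cn_mem t ht) _ (cap_mem_CS _ _ h₂))
        (by
          rw [bd_push _ (cap_mem_CS _ _ h₂)]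
          exact push_mem (mapsTo_empty _ _) _
            (cap_cyc (pb_zero G.e hU) (pb_cocycle G.e hU) h₂ (bd_mem_inf hb h₁ h₂ e))) := by
  rw [jsh, LinearMap.comp_apply, lcap_mk (G.cover t) (pb_zero G.e hU) (pb_cocycle G.e hU) hz hb
    h₁ h₂ hw e]
  rfl

/-- every relative cycle has a decomposition -/
theorem exists_dec {t : ℝ} {z : CE E} (hz : z ∈ CS (G.X t)) (hb : bdE E z ∈ CS (G.W t)) :
    ∃ z₁ ∈ CS (G.W t), ∃ z₂ ∈ CS (G.V t), ∃ w ∈ CS (G.X t), z = z₁ + z₂ + bdE E w :=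
  exc_exists (G.cover t) hz hb

/-- `j_!` is natural in the level -/
theorem jsh_inc {s t : ℝ} (hs : 0 ≤ s) (hst : s ≤ t) (x : HP (G.X s) (G.W s)) :
    jsh hU (hs.trans hst) (Hr.inc (CS_mono (G.X_mono hst))
      (CS_mono (inter_subset_inter_left _ (G.X_mono hst))) x) =
      Hr.inc (CS_mono (G.O_mono (by linarith))) le_rfl (jsh hU hs x) := by
  obtain ⟨z, hz, hb, rfl⟩ := Hr.mk_surj x
  obtain ⟨z₁, h₁, z₂, h₂, w, hw, e⟩ := exists_dec hz hb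
  have hWW : G.W s ⊆ G.W t := inter_subset_inter_left _ (G.X_mono hst)
  have hVV : G.V s ⊆ G.V t := inter_subset_inter_left _ (G.X_mono hst)
  rw [Hr.inc_mk, jsh_mk hU hs hz hb h₁ h₂ hw e, jsh_mk hU (hs.trans hst)
    (CS_mono (G.X_mono hst) hz) (CS_mono hWW hb) (CS_mono hWW h₁) (CS_mono hVV h₂)
    (CS_mono (G.X_mono hst) hw) e, Hr.inc_mk]
  set y := cap (pb G.e U) z₂ with hy
  have hyV : y ∈ CS (G.V s) := cap_mem_CS _ _ h₂
  have hyb : bdE E y = 0 := by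
    have := cap_cyc (X := G.X s) (V := G.e ⁻¹' G.D') (pb_zero G.e hU) (pb_cocycle G.e hU) h₂
      (bd_mem_inf hb h₁ h₂ e)
    rwa [CS_empty, Submodule.mem_bot] at this
  rw [Hr.mk_eq_mk]
  refine ⟨prismP (G.V s) (G.rc s t) (G.rc_cont s t hs hst) y,
    prismP_mem (G.rc_mem s t hs hst) y hyV, ?_⟩
  have hc' : ContinuousOn (G.cn t) (G.V s) := (G.cn_cont t (hs.trans hst)).mono hVV
  rw [bd_prismP (h0 := G.cn_cont s hs) (h1 := hc') (G.rc_zero s t hs hst) (G.rc_one s t hs hst) y hyV,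
    hyb, map_zero, add_zero, push_subset hVV (hfA := hc') y hyV]
  simp only [ZModModule.sub_eq_add]
  have : ∀ a b : CE E, a + b + (b + a) = (a + a) + (b + b) := fun a b => by abel
  rw [this, ZModModule.add_self, ZModModule.add_self, add_zero]
  exact Submodule.zero_mem _

/-- **(W1)** `j_! z = 0` implies that `z` dies in the pair `(X, X|D)` -/
theorem wang_one (hK : ∀ O : Set E, Kun G.D G.D' U O) {t : ℝ} (ht : 0 ≤ t) {z : CE E}
    (hz : z ∈ CS (G.X t)) (hb : bdE E z ∈ CS (G.W t))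
    (h0 : jsh hU ht (Hr.mk _ _ _ z hz hb) = 0) :
    z ∈ Bp (G.X (t + G.c + G.c)) (G.W (t + G.c + G.c)) := by
  obtain ⟨z₁, h₁, z₂, h₂, w, hw, e⟩ := exists_dec hz hb
  have htc : 0 ≤ t + G.c := by linarith [G.c_nonneg]
  have hX2 : G.X t ⊆ G.X (t + G.c + G.c) := (G.X_add t).trans (G.X_add _)
  have hW2 : G.W t ⊆ G.W (t + G.c + G.c) := inter_subset_inter_left _ hX2
  have hV2 : G.V t ⊆ G.V (t + G.c + G.c) := inter_subset_inter_left _ hX2
  have hbI : bdE E z₂ ∈ CS (G.V t ∩ G.e ⁻¹' G.D) := bd_mem_inf hb h₁ h₂ e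
  rw [jsh_mk hU ht hz hb h₁ h₂ hw e, HP_mk_eq_zero] at h0
  -- the map to the product
  let θ : E → B × E := fun γ => (G.e γ, G.cn t γ)
  have hθ : ContinuousOn θ (G.V t) := G.e.continuous.continuousOn.prodMk (G.cn_cont t ht)
  have θm : MapsTo θ (G.V t) (G.D' ×ˢ G.O (t + G.c)) := fun γ hγ => ⟨hγ.2, G.cn_mem t ht γ hγ⟩
  have θm' : MapsTo θ (G.V t ∩ G.e ⁻¹' G.D) ((G.D' ∩ G.D) ×ˢ G.O (t + G.c)) :=
    fun γ hγ => ⟨⟨hγ.1.2, hγ.2⟩, G.cn_mem t ht γ hγ.1⟩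
  set y := push (G.V t) θ hθ z₂ with hy
  have hyZ : y ∈ Zp (G.D' ×ˢ G.O (t + G.c)) ((G.D' ∩ G.D) ×ˢ G.O (t + G.c)) := by
    refine ⟨push_mem θm _ h₂, ?_⟩
    show bdE (B × E) y ∈ CS ((G.D' ∩ G.D) ×ˢ G.O (t + G.c))
    rw [hy, bd_push _ h₂]
    exact push_mem θm' _ hbI
  have key : mp (pr2 B E) (cap (pb (pr1 B E) U) y) =
      push (G.V t) (G.cn t) (G.cn_cont t ht) (cap (pb G.e U) z₂) := by
    rw [hy, ← push_cap _ _ h₂]
    have hc : cap (pb (pr1 B E) U ∘ₗ push (G.V t) θ hθ) z₂ = cap (pb G.e U) z₂ := by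
      refine cap_congr_CS (X := G.V t) (fun v hv => ?_) z₂ h₂
      rw [LinearMap.comp_apply, pb_apply, pb_apply,
        ← push_eq_mp (pr1 B E) (X := G.D' ×ˢ G.O (t + G.c)) (hf := continuousOn_fst) _
          (push_mem θm v hv), ← push_eq_mp G.e (X := G.V t)
          (hf := G.e.continuous.continuousOn) v hv]
      congr 1
      exact push_push θm (fun _ _ => rfl) v hv
    rw [hc, ← push_eq_mp (pr2 B E) (X := G.D' ×ˢ G.O (t + G.c)) (hf := continuousOn_snd) _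
      (push_mem θm _ (cap_mem_CS _ _ h₂))]
    exact push_push θm (fun _ _ => rfl) _ (cap_mem_CS _ _ h₂)
  rw [← key] at h0
  have hyB := hK _ y hyZ h0
  rw [mem_Bp'] at hyB
  obtain ⟨r, hr, v, hv, hrv⟩ := hyB
  -- back by `un`
  have huc := G.un_cont (t + G.c) htc
  have um : MapsTo (G.un (t + G.c)) (G.D' ×ˢ G.O (t + G.c)) (G.X (t + G.c + G.c)) :=
    fun x hx => G.un_mem _ htc x.1 hx.1 x.2 hx.2
  have um' : MapsTo (G.un (t + G.c)) ((G.D' ∩ G.D) ×ˢ G.O (t + G.c)) (G.W (t + G.c + G.c)) :=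
    fun x hx => ⟨G.un_mem _ htc x.1 hx.1.1 x.2 hx.2, by
      show G.e _ ∈ G.D
      have := G.un_e _ htc x.1 hx.1.1 x.2 hx.2
      rw [show x = (x.1, x.2) from rfl, this]
      exact hx.1.2⟩
  have hsub : (G.D' ∩ G.D) ×ˢ G.O (t + G.c) ⊆ G.D' ×ˢ G.O (t + G.c) :=
    prod_mono inter_subset_left Subset.rfl
  -- the homotopy
  have hP := bd_prismP (X := G.V t) (F := G.hn' t) (hF := G.hn'_cont t ht)
    (f0 := fun γ => γ) (f1 := fun γ => G.un (t + G.c) (θ γ)) (h0 := continuousOn_id)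
    (h1 := huc.comp hθ θm) (G.hn'_zero t ht) (G.hn'_one t ht) z₂ h₂
  rw [push_id z₂ h₂] at hP
  have hu1 : push (G.V t) (fun γ => G.un (t + G.c) (θ γ)) (huc.comp hθ θm) z₂ =
      push (G.D' ×ˢ G.O (t + G.c)) (G.un (t + G.c)) huc y := by
    rw [hy]
    exact (push_push θm (fun _ _ => rfl) z₂ h₂).symm
  have hPW : prismP (G.V t) (G.hn' t) (G.hn'_cont t ht) (bdE E z₂) ∈ CS (G.W (t + G.c + G.c)) := by
    refine prismP_mem (B := G.V t ∩ G.e ⁻¹' G.D) (B' := G.W (t + G.c + G.c))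
      (fun γ hγ u hu => ⟨G.hn'_mem t ht γ hγ.1 u hu, ?_⟩) _ hbI
    show G.e _ ∈ G.D
    rw [G.hn'_e t ht γ hγ.1 u hu]
    exact hγ.2
  have hPX : prismP (G.V t) (G.hn' t) (G.hn'_cont t ht) z₂ ∈ CS (G.X (t + G.c + G.c)) :=
    prismP_mem (G.hn'_mem t ht) _ h₂
  have hz2 : z₂ = (push (G.D' ×ˢ G.O (t + G.c)) (G.un (t + G.c)) huc r +
      prismP (G.V t) (G.hn' t) (G.hn'_cont t ht) (bdE E z₂)) +
      bdE E (push (G.D' ×ˢ G.O (t + G.c)) (G.un (t + G.c)) huc v +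
        prismP (G.V t) (G.hn' t) (G.hn'_cont t ht) z₂) := by
    rw [map_add, hP, bd_push v hv, hu1, hrv, map_add]
    generalize push (G.D' ×ˢ G.O (t + G.c)) (G.un (t + G.c)) huc r = a
    generalize prismP (G.V t) (G.hn' t) (G.hn'_cont t ht) (bdE E z₂) = b
    generalize push (G.D' ×ˢ G.O (t + G.c)) (G.un (t + G.c)) huc (bdE (B × E) v) = d
    have : a + b + (d + (z₂ + (a + d) + b)) = z₂ + (a + a) + (b + b) + (d + d) := by abel
    rw [this, WangAbsx525.add_self, WangAbsx525.add_self, WangAbsx525.add_self, add_zero, add_zero,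
      add_zero]
  rw [mem_Bp']
  refine ⟨z₁ + (push (G.D' ×ˢ G.O (t + G.c)) (G.un (t + G.c)) huc r +
      prismP (G.V t) (G.hn' t) (G.hn'_cont t ht) (bdE E z₂)),
    Submodule.add_mem _ (CS_mono hW2 h₁) (Submodule.add_mem _ ?_ hPW),
    (push (G.D' ×ˢ G.O (t + G.c)) (G.un (t + G.c)) huc v +
        prismP (G.V t) (G.hn' t) (G.hn'_cont t ht) z₂) + w,
    Submodule.add_mem _ (Submodule.add_mem _ (push_mem um _ hv) hPX) (CS_mono hX2 hw), ?_⟩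
  · exact push_mem um' _ hr
  · rw [map_add _ _ w, e]
    nth_rewrite 1 [hz2]
    abel

/-- a chain over `D` deforms into a based chain -/
theorem over_D {t : ℝ} (ht : 0 ≤ t) {r : CE E} (hr : r ∈ CS (G.W t)) :
    ∃ y ∈ CS (G.O (t + G.c)), ∃ y' ∈ CS (G.O (t + G.c)), ∃ v ∈ CS (G.X (t + G.c)),
      ∃ v' ∈ CS (G.X (t + G.c)), bdE E y = y' ∧ bdE E v = r + y + v' ∧
        (bdE E r = 0 → y' = 0 ∧ v' = 0) := by
  have hc1 : ContinuousOn (fun γ => G.hn t γ 1) (G.W t) :=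
    contOn_end (G.hn_cont t ht) ⟨zero_le_one, le_rfl⟩
  have hm : MapsTo (fun γ => G.hn t γ 1) (G.W t) (G.O (t + G.c)) := G.hn_one t ht
  have hb := bd_prismP (hF := G.hn_cont t ht) (f0 := fun γ => γ) (f1 := fun γ => G.hn t γ 1)
    (h0 := continuousOn_id) (h1 := hc1) (G.hn_zero t ht) (fun _ _ => rfl) r hr
  rw [push_id r hr] at hb
  refine ⟨push (G.W t) (fun γ => G.hn t γ 1) hc1 r, push_mem hm _ hr,
    push (G.W t) (fun γ => G.hn t γ 1) hc1 (bdE E r), push_mem hm _ (bd_mem_CS _ hr),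
    prismP (G.W t) (G.hn t) (G.hn_cont t ht) r, prismP_mem (G.hn_mem t ht) _ hr,
    prismP (G.W t) (G.hn t) (G.hn_cont t ht) (bdE E r), prismP_mem (G.hn_mem t ht) _ (bd_mem_CS _ hr),
    bd_push _ hr, hb, fun h => by rw [h, map_zero, map_zero]; exact ⟨rfl, rfl⟩⟩

/-- **(W1')** a cycle which dies in the pair `(X, X|D)` is homologous to a based cycle -/
theorem to_based {s : ℝ} (hs : 0 ≤ s) {z : CE E} (hz : bdE E z = 0) (h : z ∈ Bp (G.X s) (G.W s)) :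
    ∃ y ∈ CS (G.O (s + G.c)), bdE E y = 0 ∧ ∃ v ∈ CS (G.X (s + G.c)), z = y + bdE E v := by
  rw [mem_Bp'] at h
  obtain ⟨r, hr, w, hw, e⟩ := h
  have hbr : bdE E r = 0 := by
    have : bdE E z = bdE E r := by rw [e, map_add, bd_bdE, add_zero]
    rw [← this, hz]
  obtain ⟨y, hy, y', hy', v, hv, v', hv', h1, h2, h3⟩ := over_D hs hr
  obtain ⟨h4, h5⟩ := h3 hbr
  rw [h4] at h1
  rw [h5, add_zero] at h2
  refine ⟨y, hy, h1, w + v, Submodule.add_mem _ (CS_mono (G.X_add s) hw) hv, ?_⟩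
  rw [map_add, h2, e]
  have : y + (bdE E w + (r + y)) = (y + y) + (r + bdE E w) := by abel
  rw [this, WangAbsx525.add_self, zero_add]

/-- `j_! j_* = 0` -/
theorem jsh_based {t : ℝ} (ht : 0 ≤ t) {z : CE E} (hz : z ∈ CS (G.W t))
    (hz' : z ∈ CS (G.X t)) (hb : bdE E z ∈ CS (G.W t)) :
    jsh hU ht (Hr.mk _ _ _ z hz' hb) = 0 := by
  have : Hr.mk (bdE E) (CS (G.X t)) (CS (G.W t)) z hz' hb = 0 := by
    rw [HP_mk_eq_zero, mem_Bp']
    exact ⟨z, hz, 0, Submodule.zero_mem _, by rw [map_zero, add_zero]⟩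
  rw [this, map_zero]

/-- **coarse Wang** : if `j_! z` dies at level `s + c` then `z` is homologous to a based cycle -/
theorem coarse_wang (hK : ∀ O : Set E, Kun G.D G.D' U O) {t s : ℝ} (ht : 0 ≤ t) (hts : t ≤ s)
    {z : CE E} (hz : z ∈ CS (G.X t)) (hb : bdE E z = 0)
    (h0 : Hr.inc (CS_mono (G.O_mono (by linarith))) le_rfl
      (jsh hU ht (Hr.mk _ _ _ z hz (by rw [hb]; exact Submodule.zero_mem _))) =
        (0 : HP (G.O (s + G.c)) ∅)) :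
    ∃ y ∈ CS (G.O (s + G.c + G.c + G.c)), bdE E y = 0 ∧
      ∃ v ∈ CS (G.X (s + G.c + G.c + G.c)), z = y + bdE E v := by
  have h1 := jsh_inc hU ht hts (Hr.mk _ _ _ z hz (by rw [hb]; exact Submodule.zero_mem _))
  rw [h0, Hr.inc_mk] at h1
  have h2 := wang_one hU hK (ht.trans hts) (CS_mono (G.X_mono hts) hz)
    (by rw [hb]; exact Submodule.zero_mem _) h1
  exact to_based (by linarith [G.c_nonneg]) hb h2

/-- **(W3)** injectivity of `j_*` from surjectivity of `j_!` -/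
theorem inj_of_onto (hK : ∀ O : Set E, Kun G.D G.D' U O) {t s : ℝ} (ht : 0 ≤ t) (hts : t ≤ s)
    {a w : CE E} (ha : a ∈ CS (G.O t)) (hw : w ∈ CS (G.X s)) (haw : a = bdE E w)
    (hv : ∃ s₁, ∃ h1 : s ≤ s₁, ∃ v, ∃ hv : v ∈ CS (G.X s₁), ∃ hb : bdE E v = 0,
      jsh hU ((ht.trans hts).trans h1) (Hr.mk _ _ _ v hv (by rw [hb]; exact Submodule.zero_mem _)) =
        jsh hU ((ht.trans hts).trans h1) (Hr.mk _ _ _ w (CS_mono (G.X_mono h1) hw)
          (by rw [← haw]; exact CS_mono (G.X_mono (hts.trans h1) |> fun h =>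
            (G.O_sub t).trans (inter_subset_inter_left _ h)) ha))) :
    ∃ s' b, t ≤ s' ∧ b ∈ CS (G.O s') ∧ a = bdE E b := by
  obtain ⟨s₁, h1, v, hv, hb, e⟩ := hv
  have hs1 : 0 ≤ s₁ := (ht.trans hts).trans h1
  have hOW : G.O t ⊆ G.W s₁ :=
    (G.O_sub t).trans (inter_subset_inter_left _ (G.X_mono (hts.trans h1)))
  have haW : a ∈ CS (G.W s₁) := CS_mono hOW ha
  have hvw : v + w ∈ CS (G.X s₁) := Submodule.add_mem _ hv (CS_mono (G.X_mono h1) hw)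
  have hbvw : bdE E (v + w) = a := by rw [map_add, hb, zero_add, haw]
  have h2 : jsh hU hs1 (Hr.mk _ _ _ (v + w) hvw (by rw [hbvw]; exact haW)) = 0 := by
    have h3 : Hr.mk (bdE E) (CS (G.X s₁)) (CS (G.W s₁)) (v + w) hvw (by rw [hbvw]; exact haW) =
        Hr.mk (bdE E) (CS (G.X s₁)) (CS (G.W s₁)) v hv (by rw [hb]; exact Submodule.zero_mem _) +
        Hr.mk (bdE E) (CS (G.X s₁)) (CS (G.W s₁)) w (CS_mono (G.X_mono h1) hw)
          (by rw [← haw]; exact haW) := rfl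
    rw [h3, map_add, e]
    exact ZModModule.add_self _
  have h4 := wang_one hU hK hs1 hvw (by rw [hbvw]; exact haW) h2
  rw [mem_Bp'] at h4
  obtain ⟨r, hr, u, hu, h5⟩ := h4
  have hbr : bdE E r = a := by
    rw [← hbvw, h5, map_add, bd_bdE, add_zero]
  set s₃ := s₁ + G.c + G.c with hs₃
  have hs3 : 0 ≤ s₃ := by rw [hs₃]; linarith [G.c_nonneg]
  have hts3 : t ≤ s₃ := by rw [hs₃]; linarith [G.c_nonneg]
  have haO : a ∈ CS (G.O s₃) := CS_mono (G.O_mono hts3) ha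
  have hab : bdE E a = 0 := by rw [haw, bd_bdE]
  have hc1 : ContinuousOn (fun γ => G.hn s₃ γ 1) (G.W s₃) :=
    contOn_end (G.hn_cont s₃ hs3) ⟨zero_le_one, le_rfl⟩
  have hOW3 : G.O s₃ ⊆ G.W s₃ := G.O_sub s₃
  have hc2 : ContinuousOn (fun γ => G.hn s₃ γ 1) (G.O s₃) := hc1.mono hOW3
  have hm : MapsTo (fun γ => G.hn s₃ γ 1) (G.W s₃) (G.O (s₃ + G.c)) := G.hn_one s₃ hs3
  have h6 := bd_prismP (hF := G.ho_cont s₃ hs3) (f0 := fun γ => γ) (f1 := fun γ => G.hn s₃ γ 1)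
    (h0 := continuousOn_id) (h1 := hc2) (G.ho_zero s₃ hs3) (G.ho_one s₃ hs3) a haO
  rw [push_id a haO, hab, map_zero, add_zero, ← push_subset hOW3 (hf := hc1) a haO, ← hbr,
    ← bd_push r hr] at h6
  refine ⟨s₃ + G.c, push (G.W s₃) (fun γ => G.hn s₃ γ 1) hc1 r +
    prismP (G.O s₃) (G.ho s₃) (G.ho_cont s₃ hs3) (bdE E r), by linarith [G.c_nonneg],
    Submodule.add_mem _ (push_mem hm _ hr)
      (prismP_mem (G.ho_mem s₃ hs3) _ (by rw [hbr]; exact haO)), ?_⟩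
  rw [map_add, h6, hbr]
  have : ∀ x : CE E, x + (a + x) = (x + x) + a := fun x => by abel
  rw [this, WangAbsx525.add_self, zero_add]

end Crest.Agent.R231.IfWangx525.WangGeo
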