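import Crest.Agent.R231.Pair_877
import Crest.Agent.R231.Cap_226
import Crest.Agent.R204.EZF2_271
import Crest.Agent.R204.Rel_683

/-!
# Row 231, block T / Wang (helper667): relative Künneth theorem with a one dimensional pair

Simplicial sets: `i : A → K`, `u ∈ N K` a relative cycle whose class spans the homology of `(K, A)`:
* `relK_surj` : every relative cycle of `(K × L, A × L)` is `cross u y` up to a relative boundary
* `snd_cap_fst` : `snd_* (cap (fst^* c) (cross u y)) = c u • y`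

Subsets: `xp u y` = external product of chains of two spaces, `OneDim D A u`:
* `xp_surj` : every relative cycle of `(D ×ˢ O, A ×ˢ O)` is `xp u y` up to a relative boundary
* `exists_cocycle` : cocycle `c` of the pair `(D, A)` with `c u = 1`
* `xp_inj` : `xp u y` is a relative boundary iff `y` is a boundary in `O`
-/

set_option autoImplicit false

noncomputable section

open Function
open Crest.Agent.R204

namespace Crest.Agent.R231.WgKx667

open EZ271 Capx226 TensorProduct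

/-! ## simplicial sets -/

section ss

variable {A K L : SS} (i : SS.Hom A K)

/-- the relative chain complex `N K / N A` -/
abbrev NR : Type := HA683.NRel F2 i

/-- `u` spans the relative homology of `i` (elementwise) -/
structure One (u : N F2 K) : Prop where
  cyc : ∃ a, N.bd F2 K u = N.map F2 i a
  surj : ∀ z a, N.bd F2 K z = N.map F2 i a → ∃ (r : F2) (w : N F2 K) (b : N F2 A),
    z + r • u = N.bd F2 K w + N.map F2 i b
  ne : ∀ (w : N F2 K) (b : N F2 A), u ≠ N.bd F2 K w + N.map F2 i b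

variable {i} {u : N F2 K}

theorem One.qi (h : One i u) :
    QC134.QI (0 : F2 →ₗ[F2] F2) (HA683.NRel.bd F2 i)
      (LinearMap.toSpanSingleton F2 (NR i) (HA683.NRel.pi F2 i u)) where
  comm x := by
    obtain ⟨a, ha⟩ := h.cyc
    rw [LinearMap.toSpanSingleton_apply, LinearMap.toSpanSingleton_apply, LinearMap.zero_apply,
      zero_smul, map_smul, HA683.NRel.bd_pi, ha, (HA683.NRel.pi_eq_zero F2 i).2 ⟨a, rfl⟩, smul_zero]
  surj z' hz' := by
    obtain ⟨z, rfl⟩ := HA683.NRel.pi_surj F2 i z'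
    rw [HA683.NRel.bd_pi, HA683.NRel.pi_eq_zero] at hz'
    obtain ⟨a, ha⟩ := hz'
    obtain ⟨r, w, b, hw⟩ := h.surj z a ha.symm
    refine ⟨r, HA683.NRel.pi F2 i w, rfl, ?_⟩
    have e : z = r • u + N.bd F2 K w + N.map F2 i b := by
      have h1 : z = (z + r • u) + r • u := by rw [add_assoc, add_self, add_zero]
      rw [h1, hw]; abel
    rw [LinearMap.toSpanSingleton_apply, HA683.NRel.bd_pi, ← map_smul, ← map_add, e,
      map_add (HA683.NRel.pi F2 i) _ (N.map F2 i b), (HA683.NRel.pi_eq_zero F2 i).2 ⟨b, rfl⟩,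
      add_zero]
  inj z _ hw := by
    obtain ⟨w', hw'⟩ := hw
    obtain ⟨w, rfl⟩ := HA683.NRel.pi_surj F2 i w'
    rw [LinearMap.toSpanSingleton_apply, HA683.NRel.bd_pi, ← map_smul] at hw'
    have h1 : HA683.NRel.pi F2 i (z • u + N.bd F2 K w) = 0 := by
      rw [map_add, hw', add_self]
    rw [HA683.NRel.pi_eq_zero] at h1
    obtain ⟨b, hb⟩ := h1
    refine ⟨0, ?_⟩
    rw [map_zero]
    have hz : ∀ z : F2, z = 0 ∨ z = 1 := by decide
    rcases hz z with rfl | rfl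
    · rfl
    · exfalso
      refine h.ne w b ?_
      rw [hb, one_smul, add_comm u, ← add_assoc, add_self, zero_add]

/-- right exactness in the form needed -/
theorem ker_pi_tensor (t : N F2 K ⊗[F2] N F2 L)
    (ht : TensorProduct.map (HA683.NRel.pi F2 i) (LinearMap.id (M := N F2 L)) t = 0) :
    ∃ c : N F2 A ⊗[F2] N F2 L, TensorProduct.map (N.map F2 i) LinearMap.id c = t := by
  have hex : Exact (N.map F2 i) (HA683.NRel.pi F2 i) := fun x =>
    HA683.NRel.pi_eq_zero F2 i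
  have h := rTensor_exact (N F2 L) hex (HA683.NRel.pi_surj F2 i)
  exact (h t).1 ht

/-- **relative Künneth**, surjectivity -/
theorem relK_surj (h : One i u) (z : N F2 (K.prod L)) (a : N F2 (A.prod L))
    (hz : N.bd F2 _ z = N.map F2 (SS.prodMap i (SS.Hom.id L)) a) :
    ∃ y : N F2 L, N.bd F2 L y = 0 ∧ ∃ (w : N F2 (K.prod L)) (b : N F2 (A.prod L)),
      z + cross F2 u y = N.bd F2 _ w + N.map F2 (SS.prodMap i (SS.Hom.id L)) b := by
  have hmid : N.map F2 (SS.Hom.id L) = LinearMap.id := by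
    refine hom_ext fun n x => ?_
    rw [N.map_sx]; rfl
  have hq := h.qi.tensor_left (L := N F2 L) (fun x => rfl) (HA683.NRel.bd_bd F2 i) (N.bd F2 L)
  set t := aw F2 z with ht
  set T := TensorProduct.map (HA683.NRel.pi F2 i) (LinearMap.id (M := N F2 L)) t with hT
  have hcomm : ∀ s : N F2 K ⊗[F2] N F2 L,
      QC134.dT (HA683.NRel.bd F2 i) (N.bd F2 L)
        (TensorProduct.map (HA683.NRel.pi F2 i) LinearMap.id s) =
      TensorProduct.map (HA683.NRel.pi F2 i) LinearMap.id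
        (QC134.dT (N.bd F2 K) (N.bd F2 L) s) := by
    intro s
    induction s using TensorProduct.induction_on with
    | zero => simp
    | add x y hx hy => simp only [map_add, hx, hy]
    | tmul x y =>
      simp only [TensorProduct.map_tmul, QC134.dT_tmul, LinearMap.id_apply, map_add,
        HA683.NRel.bd_pi]
  have hkill : ∀ s : N F2 A ⊗[F2] N F2 L,
      TensorProduct.map (HA683.NRel.pi F2 i) (LinearMap.id (M := N F2 L))
        (TensorProduct.map (N.map F2 i) LinearMap.id s) = 0 := by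
    intro s
    induction s using TensorProduct.induction_on with
    | zero => simp
    | add x y hx hy => simp only [map_add, hx, hy, add_zero]
    | tmul x y =>
      simp only [TensorProduct.map_tmul, LinearMap.id_apply]
      rw [(HA683.NRel.pi_eq_zero F2 i).2 ⟨x, rfl⟩, TensorProduct.zero_tmul]
  have hTc : QC134.dT (HA683.NRel.bd F2 i) (N.bd F2 L) T = 0 := by
    rw [hT, hcomm, ← tbd_F2, ht, bd_aw, hz, aw_map, hmid, hkill]
  obtain ⟨s, W, hs, hsW⟩ := hq.surj T hTc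
  -- `s = 1 ⊗ y`
  set y : N F2 L := TensorProduct.lid F2 (N F2 L) s with hy
  have hsy : s = (1 : F2) ⊗ₜ[F2] y := by
    rw [hy, ← TensorProduct.lid_symm_apply, LinearEquiv.symm_apply_apply]
  have hyc : N.bd F2 L y = 0 := by
    rw [hsy, QC134.dT_tmul, LinearMap.zero_apply, TensorProduct.zero_tmul, zero_add] at hs
    have := congrArg (TensorProduct.lid F2 (N F2 L)) hs
    rwa [TensorProduct.lid_tmul, one_smul, map_zero] at this
  have hsur : Surjective (TensorProduct.map (HA683.NRel.pi F2 i)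
      (LinearMap.id (R := F2) (M := N F2 L))) :=
    TensorProduct.map_surjective (HA683.NRel.pi_surj F2 i) (fun v => ⟨v, rfl⟩)
  obtain ⟨W', rfl⟩ := hsur W
  have e1 : TensorProduct.map (HA683.NRel.pi F2 i) (LinearMap.id (M := N F2 L))
      (t + u ⊗ₜ[F2] y + QC134.dT (N.bd F2 K) (N.bd F2 L) W') = 0 := by
    rw [map_add, map_add, ← hcomm, ← hT, hsW, hsy, TensorProduct.map_tmul, TensorProduct.map_tmul,
      LinearMap.toSpanSingleton_apply, one_smul]
    have : ∀ p q : NR i ⊗[F2] N F2 L, p + q + p + q = 0 := by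
      intro p q
      rw [add_assoc p q p, add_comm q p, ← add_assoc, add_self, zero_add, add_self]
    exact this _ _
  obtain ⟨c, hc⟩ := ker_pi_tensor _ e1
  refine ⟨y, hyc, hEZ F2 z + crossT F2 W', hEZ F2 a + crossT F2 c, ?_⟩
  have e2 := hEZ_homotopy_F2 z
  have e3 : crossT F2 (t + u ⊗ₜ[F2] y + QC134.dT (N.bd F2 K) (N.bd F2 L) W') =
      N.map F2 (SS.prodMap i (SS.Hom.id L)) (crossT F2 c) := by
    rw [map_crossT, hmid, hc]
  rw [map_add, map_add, crossT_tmul, ← tbd_F2, ← bd_crossT] at e3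
  rw [hz, hEZ_map] at e2
  rw [← ht] at e2
  rw [map_add, map_add, ← e3]
  conv_lhs => rw [← e2]
  have : ∀ p q r v x : N F2 (K.prod L), p + q + r + v = p + x + (r + (q + v + x)) := by
    intro p q r v x
    have h0 : p + x + (r + (q + v + x)) = p + q + r + v + (x + x) := by abel
    rw [h0, add_self, add_zero]
  exact this _ _ _ _ _

/-- the cap with a class of the first factor -/
theorem snd_cap_fst (c : Co K) (v : N F2 K) (y : N F2 L) :
    N.map F2 (SS.snd K L) (cap (pull (SS.fst K L) c) (cross F2 v y)) = c v • y := by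
  rw [snd_cap_cross]
  have h : slant (pull (SS.fst K L) c) v = c v • aug F2 (K := L) := by
    refine LinearMap.ext fun b => ?_
    rw [slant_apply, pull_apply, fst_cross, map_smul, LinearMap.smul_apply, smul_eq_mul,
      smul_eq_mul, mul_comm]
  rw [h]
  show capL (c v • aug F2) y = _
  rw [map_smul, LinearMap.smul_apply]
  congr 1
  exact cap_aug y

/-- a functional which detects `u` -/
theorem One.exists_co (h : One i u) : ∃ c : Co K, cobd c = 0 ∧ pull i c = 0 ∧ c u = 1 := by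
  have hu : u ∉ LinearMap.range (N.bd F2 K) ⊔ LinearMap.range (N.map F2 i) := by
    intro hu
    obtain ⟨_, ⟨w, rfl⟩, _, ⟨b, rfl⟩, e⟩ := Submodule.mem_sup.1 hu
    exact h.ne w b e.symm
  obtain ⟨c, hc, hk⟩ := Submodule.exists_le_ker_of_notMem hu
  refine ⟨c, ?_, ?_, ?_⟩
  · refine LinearMap.ext fun z => ?_
    have h1 : N.bd F2 K z ∈ LinearMap.range (N.bd F2 K) ⊔ LinearMap.range (N.map F2 i) :=
      Submodule.mem_sup_left ⟨z, rfl⟩
    exact LinearMap.mem_ker.1 (hk h1)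
  · refine LinearMap.ext fun z => ?_
    have h1 : N.map F2 i z ∈ LinearMap.range (N.bd F2 K) ⊔ LinearMap.range (N.map F2 i) :=
      Submodule.mem_sup_right ⟨z, rfl⟩
    exact LinearMap.mem_ker.1 (hk h1)
  · have h2 : ∀ r : F2, r ≠ 0 → r = 1 := by decide
    exact h2 _ hc

/-- **relative Künneth**, injectivity -/
theorem relK_inj (h : One i u) {y : N F2 L} (hy : ∃ (w : N F2 (K.prod L)) (b : N F2 (A.prod L)),
    cross F2 u y = N.bd F2 _ w + N.map F2 (SS.prodMap i (SS.Hom.id L)) b) :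
    ∃ v : N F2 L, N.bd F2 L v = y := by
  obtain ⟨c, hc1, hc2, hc3⟩ := h.exists_co
  obtain ⟨w, b, e⟩ := hy
  refine ⟨N.map F2 (SS.snd K L) (cap (pull (SS.fst K L) c) w), ?_⟩
  have h1 := snd_cap_fst (L := L) c u y
  rw [hc3, one_smul] at h1
  have h2 : cobd (pull (SS.fst K L) c) = 0 := by
    rw [← pull_cobd, hc1]; rfl
  have h3 : cap (pull (SS.fst K L) c) (N.map F2 (SS.prodMap i (SS.Hom.id L)) b) = 0 := by
    rw [← map_cap]
    have : pull (SS.prodMap i (SS.Hom.id L)) (pull (SS.fst K L) c) = 0 := by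
      have e1 : pull (SS.prodMap i (SS.Hom.id L)) (pull (SS.fst K L) c) =
          pull (SS.fst A L) (pull i c) := by
        refine LinearMap.ext fun z => ?_
        rw [pull_apply, pull_apply, pull_apply, pull_apply, ← Exc406.N_map_comp,
          ← Exc406.N_map_comp]
        rfl
      rw [e1, hc2]; rfl
    rw [this, cap_zero_left, map_zero]
  have h4 : N.bd F2 L (N.map F2 (SS.snd K L) (cap (pull (SS.fst K L) c) w)) =
      N.map F2 (SS.snd K L) (N.bd F2 _ (cap (pull (SS.fst K L) c) w)) :=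
    (LinearMap.congr_fun (N.map_bd (R := F2) (SS.snd K L)) _).symm
  rw [h4, bd_cap_cocycle h2]
  rw [e, map_add, map_add, h3, map_zero, add_zero] at h1
  exact h1

end ss

/-! ## subsets of spaces -/

section top

open Pairx877 SingAct265

variable {B E : Type} [TopologicalSpace B] [TopologicalSpace E]

/-- external product of chains of two spaces -/
def xp : CE B →ₗ[F2] CE E →ₗ[F2] CE (B × E) :=
  (cross F2 (K := SS.Sing B) (L := SS.Sing E)).compr₂ (N.map F2 (singPair B E))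

theorem xp_apply (u : CE B) (y : CE E) : xp u y = N.map F2 (singPair B E) (cross F2 u y) := rfl

theorem bd_xp (u : CE B) (y : CE E) :
    bdE (B × E) (xp u y) = xp (bdE B u) y + xp u (bdE E y) := by
  rw [xp_apply, xp_apply, xp_apply, ← map_add, ← bd_cross_F2]
  exact (LinearMap.congr_fun (N.map_bd (R := F2) (singPair B E)) _).symm

/-- the simplices of `D ×ˢ O` as pairs of simplices -/
def jP (D : Set B) (O : Set E) : SS.Hom ((SS.Sing D).prod (SS.Sing O)) (SS.Sing (B × E)) :=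
  (singPair B E).comp (SS.prodMap (SS.SingMap (SpecA.inc D)) (SS.SingMap (SpecA.inc O)))

variable {D A : Set B} {O : Set E}

theorem ev_jP {n : ℕ} (p : ((SS.Sing D).prod (SS.Sing O)).S n)
    (t : stdSimplex ℝ (Fin (n + 1))) :
    ev ((jP D O).app n p) t = (((ev p.1 t : D) : B), ((ev p.2 t : O) : E)) := rfl

theorem jP_inj : HA683.SInj (jP D O) := by
  intro n p p' h
  have h' : ∀ t, (((ev p.1 t : D) : B), ((ev p.2 t : O) : E)) =
      (((ev p'.1 t : D) : B), ((ev p'.2 t : O) : E)) := fun t =>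
    congrArg (fun σ : (SS.Sing (B × E)).S n => ev σ t) h
  refine Prod.ext (sing_ext fun t => Subtype.ext ?_) (sing_ext fun t => Subtype.ext ?_)
  · exact congrArg Prod.fst (h' t)
  · exact congrArg Prod.snd (h' t)

theorem exists_jP {n : ℕ} (σ : (SS.Sing (B × E)).S n) (hσ : ∀ t, ev σ t ∈ D ×ˢ O) :
    ∃ p : ((SS.Sing D).prod (SS.Sing O)).S n, (jP D O).app n p = σ := by
  have h1 : ∀ t, (ev σ t).1 ∈ D := fun t => (hσ t).1
  have h2 : ∀ t, (ev σ t).2 ∈ O := fun t => (hσ t).2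
  exact ⟨(mkS (fun t => (⟨(ev σ t).1, h1 t⟩ : D))
          (Continuous.subtype_mk (continuous_fst.comp (continuous_ev σ)) _),
        mkS (fun t => (⟨(ev σ t).2, h2 t⟩ : O))
          (Continuous.subtype_mk (continuous_snd.comp (continuous_ev σ)) _)), rfl⟩

theorem CS_prod_eq_range : CS (D ×ˢ O) = LinearMap.range (N.map F2 (jP D O)) := by
  refine le_antisymm (CS_le fun n σ hσ => ?_) ?_
  · obtain ⟨p, rfl⟩ := exists_jP σ hσ
    exact ⟨N.sx F2 p, N.map_sx _ _⟩
  · rintro _ ⟨c, rfl⟩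
    refine map_mem_CS _ (fun n x t => ?_) c
    exact ⟨(ev x.1 t).2, (ev x.2 t).2⟩

theorem map_jP_cross (a : N F2 (SS.Sing D)) (b : N F2 (SS.Sing O)) :
    N.map F2 (jP D O) (cross F2 a b) =
      xp (N.map F2 (SS.SingMap (SpecA.inc D)) a) (N.map F2 (SS.SingMap (SpecA.inc O)) b) := by
  rw [jP, Exc406.N_map_comp, map_cross, xp_apply]

theorem xp_mem {u : CE B} {y : CE E} (hu : u ∈ CS D) (hy : y ∈ CS O) : xp u y ∈ CS (D ×ˢ O) := by
  rw [CS_eq_range] at hu hy
  obtain ⟨a, rfl⟩ := hu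
  obtain ⟨b, rfl⟩ := hy
  rw [← map_jP_cross, CS_prod_eq_range]
  exact ⟨_, rfl⟩

theorem xp_mem_gr {u : CE B} {y : CE E} {m n : ℕ} (hu : u ∈ N.gr F2 _ m) (hy : y ∈ N.gr F2 _ n) :
    xp u y ∈ N.gr F2 (SS.Sing (B × E)) (m + n) :=
  Gr334.map_mem_gr _ (EZ847.cross_mem_gr F2 hu hy)

/-- the class of `u` spans the homology of the pair `(D, A)`, and it is not zero -/
structure OneS (D A : Set B) (u : CE B) : Prop where
  sub : A ⊆ D
  mem : u ∈ CS D
  cyc : bdE B u ∈ CS A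
  surj : ∀ z ∈ CS D, bdE B z ∈ CS A → ∃ r : F2, z + r • u ∈ Bp D A
  ne : u ∉ Bp D A

theorem inc_inc₂ (h : A ⊆ D) (c : N F2 (SS.Sing A)) :
    N.map F2 (SS.SingMap (SpecA.inc D)) (N.map F2 (SS.SingMap (SpecA.inc₂ h)) c) =
      N.map F2 (SS.SingMap (SpecA.inc A)) c := by
  rw [← Exc406.N_map_comp]; rfl

theorem inc_injective (D : Set B) : Injective (N.map F2 (SS.SingMap (SpecA.inc D))) := by
  intro x y h
  have := congrArg (res D) h
  rwa [res_map_inc, res_map_inc] at this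

theorem map_bd_inc (D : Set B) (c : N F2 (SS.Sing D)) :
    bdE B (N.map F2 (SS.SingMap (SpecA.inc D)) c) =
      N.map F2 (SS.SingMap (SpecA.inc D)) (N.bd F2 _ c) :=
  (LinearMap.congr_fun (N.map_bd (R := F2) (SS.SingMap (SpecA.inc D))) c).symm

/-- relative boundaries in terms of the subspaces -/
theorem inc_mem_Bp (h : A ⊆ D) {c : N F2 (SS.Sing D)} :
    N.map F2 (SS.SingMap (SpecA.inc D)) c ∈ Bp D A ↔
      ∃ (w : N F2 (SS.Sing D)) (b : N F2 (SS.Sing A)),
        c = N.bd F2 _ w + N.map F2 (SS.SingMap (SpecA.inc₂ h)) b := by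
  rw [mem_Bp]
  constructor
  · rintro ⟨w, hw, hw'⟩
    rw [CS_eq_range] at hw hw'
    obtain ⟨w, rfl⟩ := hw
    obtain ⟨b, hb⟩ := hw'
    refine ⟨w, b, inc_injective D ?_⟩
    rw [map_add, inc_inc₂, hb, ← map_bd_inc]
    abel
  · rintro ⟨w, b, rfl⟩
    refine ⟨N.map F2 (SS.SingMap (SpecA.inc D)) w, ?_, ?_⟩
    · rw [CS_eq_range]; exact ⟨w, rfl⟩
    · rw [map_add, map_bd_inc, add_sub_cancel_left, inc_inc₂, CS_eq_range]; exact ⟨b, rfl⟩

theorem OneS.one {u : CE B} (h : OneS D A u) : One (SS.SingMap (SpecA.inc₂ h.sub)) (res D u) where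
  cyc := by
    have h1 := h.cyc
    rw [CS_eq_range] at h1
    obtain ⟨a, ha⟩ := h1
    refine ⟨a, inc_injective D ?_⟩
    rw [inc_inc₂, ha, ← map_bd_inc, map_inc_res u h.mem]
  surj z a hz := by
    obtain ⟨r, hr⟩ := h.surj (N.map F2 (SS.SingMap (SpecA.inc D)) z)
      (by rw [CS_eq_range]; exact ⟨z, rfl⟩)
      (by rw [map_bd_inc, hz, inc_inc₂, CS_eq_range]; exact ⟨a, rfl⟩)
    have e : N.map F2 (SS.SingMap (SpecA.inc D)) z + r • u =
        N.map F2 (SS.SingMap (SpecA.inc D)) (z + r • res D u) := by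
      rw [map_add, map_smul, map_inc_res u h.mem]
    rw [e, inc_mem_Bp h.sub] at hr
    obtain ⟨w, b, hw⟩ := hr
    exact ⟨r, w, b, hw⟩
  ne w b e := by
    refine h.ne ?_
    rw [← map_inc_res u h.mem, inc_mem_Bp h.sub]
    exact ⟨w, b, e⟩

theorem jP_inc₂ (h : A ⊆ D) (b : N F2 ((SS.Sing A).prod (SS.Sing O))) :
    N.map F2 (jP D O) (N.map F2 (SS.prodMap (SS.SingMap (SpecA.inc₂ h)) (SS.Hom.id _)) b) =
      N.map F2 (jP A O) b := by
  rw [← Exc406.N_map_comp]; rfl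

theorem map_bd_jP (c : N F2 ((SS.Sing D).prod (SS.Sing O))) :
    bdE (B × E) (N.map F2 (jP D O) c) = N.map F2 (jP D O) (N.bd F2 _ c) :=
  (LinearMap.congr_fun (N.map_bd (R := F2) (jP D O)) c).symm

/-- **relative Künneth for subsets, surjectivity** -/
theorem xp_surj {u : CE B} (h : OneS D A u) (z : CE (B × E)) (hz : z ∈ CS (D ×ˢ O))
    (hz' : bdE _ z ∈ CS (A ×ˢ O)) :
    ∃ y ∈ CS O, bdE E y = 0 ∧ z + xp u y ∈ Bp (D ×ˢ O) (A ×ˢ O) := by
  rw [CS_prod_eq_range] at hz hz'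
  obtain ⟨z, rfl⟩ := hz
  obtain ⟨a, ha⟩ := hz'
  have e1 : N.bd F2 _ z = N.map F2 (SS.prodMap (SS.SingMap (SpecA.inc₂ h.sub)) (SS.Hom.id _)) a := by
    refine HA683.N_map_injective F2 (jP_inj (D := D) (O := O)) ?_
    rw [← map_bd_jP, ← ha, jP_inc₂]
  obtain ⟨y, hy, w, b, hw⟩ := relK_surj h.one z a e1
  refine ⟨N.map F2 (SS.SingMap (SpecA.inc O)) y, by rw [CS_eq_range]; exact ⟨y, rfl⟩,
    by rw [map_bd_inc, hy, map_zero], ?_⟩
  have e2 : N.map F2 (jP D O) z + xp u (N.map F2 (SS.SingMap (SpecA.inc O)) y) =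
      N.map F2 (jP D O) (z + cross F2 (res D u) y) := by
    rw [map_add, map_jP_cross, map_inc_res u h.mem]
  rw [e2, hw, map_add, ← map_bd_jP, jP_inc₂, mem_Bp]
  refine ⟨N.map F2 (jP D O) w, ?_, ?_⟩
  · rw [CS_prod_eq_range]; exact ⟨w, rfl⟩
  · rw [add_sub_cancel_left, CS_prod_eq_range]; exact ⟨b, rfl⟩

/-- **relative Künneth for subsets, injectivity** -/
theorem xp_inj {u : CE B} (h : OneS D A u) (y : CE E) (hy : y ∈ CS O)
    (hb : xp u y ∈ Bp (D ×ˢ O) (A ×ˢ O)) : ∃ v ∈ CS O, bdE E v = y := by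
  rw [CS_eq_range] at hy
  obtain ⟨y, rfl⟩ := hy
  rw [mem_Bp] at hb
  obtain ⟨w, hw, hb⟩ := hb
  rw [CS_prod_eq_range] at hw hb
  obtain ⟨w, rfl⟩ := hw
  obtain ⟨b, hb⟩ := hb
  have e : cross F2 (res D u) y =
      N.bd F2 _ w + N.map F2 (SS.prodMap (SS.SingMap (SpecA.inc₂ h.sub)) (SS.Hom.id _)) b := by
    refine HA683.N_map_injective F2 (jP_inj (D := D) (O := O)) ?_
    rw [map_jP_cross, map_inc_res u h.mem, map_add, jP_inc₂, hb, ← map_bd_jP]
    abel
  obtain ⟨v, hv⟩ := relK_inj h.one ⟨w, b, e⟩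
  exact ⟨N.map F2 (SS.SingMap (SpecA.inc O)) v, by rw [CS_eq_range]; exact ⟨v, rfl⟩,
    by rw [map_bd_inc, hv]⟩

/-! ### degrees -/

theorem prN_mem_CS {X : Set E} (n : ℕ) : ∀ c ∈ CS X, Gr334.prN F2 (SS.Sing E) n c ∈ CS X := by
  refine map_mem_of_CS fun m σ hσ => ?_
  rw [Gr334.prN_sx]
  split_ifs
  · exact sx_mem_CS hσ
  · exact Submodule.zero_mem _

theorem prN_mem_Bp {X Y : Set E} (n : ℕ) {c : CE E} (hc : c ∈ Bp X Y) :
    Gr334.prN F2 (SS.Sing E) n c ∈ Bp X Y := by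
  rw [mem_Bp] at hc ⊢
  obtain ⟨w, hw, h⟩ := hc
  refine ⟨Gr334.prN F2 _ (n + 1) w, prN_mem_CS _ w hw, ?_⟩
  have h1 : bdE E (Gr334.prN F2 _ (n + 1) w) = Gr334.prN F2 _ n (bdE E w) :=
    (Gr334.prN_bd n w).symm
  rw [h1, ← map_sub]
  exact prN_mem_CS _ _ h

theorem prN_xp {u : CE B} {n : ℕ} (hu : u ∈ N.gr F2 (SS.Sing B) n) (m : ℕ) (y : CE E) :
    Gr334.prN F2 (SS.Sing (B × E)) (n + m) (xp u y) = xp u (Gr334.prN F2 (SS.Sing E) m y) := by
  have h : Gr334.prN F2 (SS.Sing (B × E)) (n + m) ∘ₗ (xp u) =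
      (xp u) ∘ₗ Gr334.prN F2 (SS.Sing E) m := by
    refine hom_ext fun i σ => ?_
    rw [LinearMap.comp_apply, LinearMap.comp_apply, Gr334.prN_sx]
    have h1 : xp u (N.sx F2 σ) ∈ N.gr F2 (SS.Sing (B × E)) (n + i) :=
      xp_mem_gr hu (Gr334.sx_mem_gr σ)
    split_ifs with e
    · subst e; exact Gr334.prN_of_mem h1
    · rw [map_zero]; exact Gr334.prN_of_mem_ne (by omega) h1
  exact LinearMap.congr_fun h y

theorem prN_xp_lt {u : CE B} {n j : ℕ} (hu : u ∈ N.gr F2 (SS.Sing B) n) (hj : j < n) (y : CE E) :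
    Gr334.prN F2 (SS.Sing (B × E)) j (xp u y) = 0 := by
  have h : Gr334.prN F2 (SS.Sing (B × E)) j ∘ₗ (xp u) = 0 := by
    refine hom_ext fun i σ => ?_
    rw [LinearMap.comp_apply, LinearMap.zero_apply]
    have h1 : xp u (N.sx F2 σ) ∈ N.gr F2 (SS.Sing (B × E)) (n + i) :=
      xp_mem_gr hu (Gr334.sx_mem_gr σ)
    exact Gr334.prN_of_mem_ne (by omega) h1
  exact LinearMap.congr_fun h y

/-- surjectivity with degrees -/
theorem xp_surj_gr {u : CE B} (h : OneS D A u) {n m : ℕ} (hu : u ∈ N.gr F2 (SS.Sing B) n)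
    (z : CE (B × E)) (hz : z ∈ CS (D ×ˢ O)) (hz' : bdE _ z ∈ CS (A ×ˢ O))
    (hg : z ∈ N.gr F2 (SS.Sing (B × E)) (n + m)) :
    ∃ y ∈ CS O, y ∈ N.gr F2 (SS.Sing E) m ∧ bdE E y = 0 ∧
      z + xp u y ∈ Bp (D ×ˢ O) (A ×ˢ O) := by
  obtain ⟨y, hy, hy', hb⟩ := xp_surj h z hz hz'
  refine ⟨Gr334.prN F2 _ m y, prN_mem_CS _ y hy, Gr334.prN_mem _ _, ?_, ?_⟩
  · rcases m with _ | m
    · exact Gr334.bd_gr_zero (Gr334.prN_mem _ _)
    · have h1 : bdE E (Gr334.prN F2 _ (m + 1) y) = Gr334.prN F2 _ m (bdE E y) :=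
        (Gr334.prN_bd m y).symm
      rw [h1, hy', map_zero]
  · have h1 := prN_mem_Bp (n + m) hb
    rwa [map_add, Gr334.prN_of_mem hg, prN_xp hu] at h1

/-- vanishing below the degree of `u` -/
theorem xp_surj_lt {u : CE B} (h : OneS D A u) {n j : ℕ} (hu : u ∈ N.gr F2 (SS.Sing B) n)
    (hj : j < n) (z : CE (B × E)) (hz : z ∈ CS (D ×ˢ O)) (hz' : bdE _ z ∈ CS (A ×ˢ O))
    (hg : z ∈ N.gr F2 (SS.Sing (B × E)) j) : z ∈ Bp (D ×ˢ O) (A ×ˢ O) := by
  obtain ⟨y, hy, hy', hb⟩ := xp_surj h z hz hz'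
  have h1 := prN_mem_Bp j hb
  rwa [map_add, Gr334.prN_of_mem hg, prN_xp_lt hu hj, add_zero] at h1

/-- a cochain which vanishes on relative boundaries and is `1` on `u` -/
theorem OneS.exists_co {u : CE B} (h : OneS D A u) :
    ∃ c : CE B →ₗ[F2] F2, (∀ z ∈ Bp D A, c z = 0) ∧ c u = 1 := by
  obtain ⟨c, hc, hk⟩ := Submodule.exists_le_ker_of_notMem h.ne
  have h2 : ∀ r : F2, r ≠ 0 → r = 1 := by decide
  exact ⟨c, fun z hz => LinearMap.mem_ker.1 (hk hz), h2 _ hc⟩

end top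

end Crest.Agent.R231.WgKx667
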