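import Crest.Agent.R231.WangAbs_525
import Crest.Agent.R231.WgK_667

/-!
# Row 231 (S0357), Wang package: the Kuenneth input `Kun` from 667's relative Kuenneth theorem (helper525)

`kun_of_one` : `OneS D' (D' ∩ D) u`, `PtCo D U`, `U u = 1` imply `Kun D D' U O` for every `O`.
`P2 U` : the umkehr operator `y ↦ pr₂_* (cap (pr₁^* U) y)`; `P2_xp : P2 U (xp v y) = U v • y`.
-/

set_option autoImplicit false

noncomputable section

open Set Topology Function
open Crest.Agent.R204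

namespace Crest.Agent.R231.WgKunx525

open Pairx877 Capx226 CapCSx780 SmallCSx226 SingAct265 EZ271 IfWangx525 WangAbsx525 WgKx667

variable {E B : Type} [TopologicalSpace E] [TopologicalSpace B]

/-- the umkehr operator `y ↦ pr₂_* (cap (pr₁^* U) y)` -/
def P2 (U : Co (SS.Sing B)) : CE (B × E) →ₗ[F2] CE E := mp (pr2 B E) ∘ₗ cap (pb (pr1 B E) U)

theorem P2_apply (U : Co (SS.Sing B)) (y : CE (B × E)) :
    P2 U y = mp (pr2 B E) (cap (pb (pr1 B E) U) y) := rfl

theorem P2_xp (U : Co (SS.Sing B)) (v : CE B) (y : CE E) : P2 U (xp v y) = U v • y := by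
  rw [P2_apply, xp_apply, ← map_cap, ← Exc406.N_map_comp]
  have h1 : pull (singPair B E) (pb (pr1 B E) U) = pull (SS.fst _ _) U := by
    refine LinearMap.ext fun z => ?_
    rw [pull_apply, pull_apply, pull_apply, ← Exc406.N_map_comp]
    rfl
  rw [h1]
  exact snd_cap_fst U v y

theorem P2_mem (U : Co (SS.Sing B)) {D' : Set B} {O : Set E} : ∀ y ∈ CS (D' ×ˢ O), P2 U y ∈ CS O :=
  fun y hy => mp_mem (pr2 B E) (fun _ h => h.2) _ (cap_mem_CS _ y hy)

variable {D D' : Set B} {U : Co (SS.Sing B)} (hU : PtCo D U)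

include hU in
theorem P2_bd (y : CE (B × E)) : bdE E (P2 U y) = P2 U (bdE _ y) := by
  rw [P2_apply, P2_apply, mp_bd, bd_cap_cocycle]
  exact LinearMap.ext fun z => pb_cocycle (pr1 B E) hU z

include hU in
theorem P2_zero {O : Set E} : ∀ y ∈ CS ((D' ∩ D) ×ˢ O), P2 U y = 0 := by
  intro y hy
  rw [P2_apply, cap_eq_zero_CS (A := (D' ∩ D) ×ˢ O) ?_ y hy, map_zero]
  exact fun z hz => hU.zero _ (mp_mem (pr1 B E) (fun _ h => h.1.2) z hz)

include hU in
/-- **the Kuenneth input** -/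
theorem kun_of_one {u : CE B} (h : OneS D' (D' ∩ D) u) (h1 : U u = 1) (O : Set E) : Kun D D' U O := by
  intro y hy hP
  obtain ⟨y0, hy0, hb0, hB⟩ := xp_surj h y hy.1 hy.2
  rw [mem_Bp_empty] at hP
  obtain ⟨v, hv, hvP⟩ := hP
  obtain ⟨r, hr, w, hw, e⟩ := mem_Bp'.1 hB
  have h2 : P2 U (y + xp u y0) = bdE E (P2 U w) := by
    rw [e, map_add, P2_zero hU r hr, zero_add, P2_bd hU]
  rw [map_add, P2_xp, h1, one_smul, P2_apply, hvP] at h2
  have h3 : y0 = bdE E (v + P2 U w) := by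
    rw [map_add, ← h2, ← add_assoc, WangAbsx525.add_self, zero_add]
  have hvw : v + P2 U w ∈ CS O := Submodule.add_mem _ hv (P2_mem U w hw)
  set a := v + P2 U w
  have h4 : xp u y0 = xp (bdE B u) a + bdE _ (xp u a) := by
    rw [bd_xp, ← add_assoc, WangAbsx525.add_self, zero_add, h3]
  have h5 : xp u y0 ∈ Bp (D' ×ˢ O) ((D' ∩ D) ×ˢ O) := by
    rw [mem_Bp']
    exact ⟨_, xp_mem h.cyc hvw, _, xp_mem h.mem hvw, h4⟩
  have h6 : y = (y + xp u y0) + xp u y0 := by rw [add_assoc, WangAbsx525.add_self, add_zero]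
  rw [h6]
  exact Submodule.add_mem _ hB h5

end Crest.Agent.R231.WgKunx525
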