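import Crest.Agent.R231.WgOnto_525
import Crest.Agent.R231.WgOut_525
import Crest.Agent.R231.TBas_961
import Crest.Agent.R231.TEv_952

/-!
# Row 231 (S0357), Wang package: the inputs of `Onto` for Lipschitz loops of a sphere (helper525)

`ontoIn`, `wangOut_sphere`.
-/

set_option autoImplicit false

noncomputable section

open Set Topology Function
open Crest.Agent.R204

namespace Crest.Agent.R231.WgOntox525

open Pairx877 Capx226 CapCSx780 SingAct265 EZ271 Gr334 IfWangx525 WangAbsx525 WgLvx525 WgGeox525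
open GLugx576 YLcx475 BDAx969 IfAx978 Instx895 TActx569 TCx569 WgOutx525
open Crest.Agent.R204.Freu297 (Sph pt)
open CPowx150 AmChx150 TFillx150 TTransx952 Cmpx952 TBasx961
open TDegx961 (RelBd mem_RelBd)
open OmHomx871 (L0)

variable {M : Type} [MetricSpace M] [CompactSpace M] {D D' : Set M} {p : M}

omit [CompactSpace M] in
theorem OmA_eq (t : ℝ) : ArcSysx694.Om (M := M) p t = L0 p ∩ X M t :=
  Set.ext fun _ => and_comm

theorem CS_Om_iff {c : CE (Lp M)} :
    c ∈ CS (L0 p) ⊓ WL M ↔ ∃ t, c ∈ CS (ArcSysx694.Om (M := M) p t) := by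
  rw [mem_CS_inf_WL]
  exact exists_congr fun t => by rw [OmA_eq]

variable (L : LUG M)

include L in
theorem fin_of {c : CE (Lp M)} (h1 : c ∈ CS (L0 p) ⊓ WL M)
    (h : rO p c ∈ LinearMap.range (N.bd F2 (SS.Sing (Concx150.Om p)))) :
    ∃ t', ∃ w ∈ CS (ArcSysx694.Om (M := M) p t'), bdE (Lp M) w = c := by
  obtain ⟨w, hw⟩ := h
  obtain ⟨w', a1, a2, -⟩ := C2_abs L (good_L0 L p) (c := c) (w := jN p w) h1 (jN_mem_L0 w)
    (by rw [bd_jN, hw, jN_rO h1.1])
  obtain ⟨t, ht⟩ := CS_Om_iff.1 a1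
  exact ⟨t, w', ht, a2⟩

variable {k : ℕ} (hk : 1 ≤ k) (φ : M ≃ₜ Sph (k + 1))

omit [CompactSpace M] in
include hk φ in
/-- `dim H_l(Ω) ≤ 1` -/
theorem dimO {l : ℕ} {y r : CO p} (hy : y ∈ N.gr F2 (SS.Sing (Concx150.Om p)) l)
    (hyb : N.bd F2 _ y = 0) (hr : r ∈ N.gr F2 (SS.Sing (Concx150.Om p)) l)
    (hrb : N.bd F2 _ r = 0) : y ∈ LinearMap.range (N.bd F2 (SS.Sing (Concx150.Om p))) ∨
      r ∈ LinearMap.range (N.bd F2 (SS.Sing (Concx150.Om p))) ∨
      r + y ∈ LinearMap.range (N.bd F2 (SS.Sing (Concx150.Om p))) := by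
  have key : ∀ a : CO p, y + a ∈ LinearMap.range (N.bd F2 (SS.Sing (Concx150.Om p))) →
      r + a ∈ LinearMap.range (N.bd F2 (SS.Sing (Concx150.Om p))) →
      r + y ∈ LinearMap.range (N.bd F2 (SS.Sing (Concx150.Om p))) := by
    intro a h1 h2
    have h3 := Submodule.add_mem _ h2 h1
    have e : r + a + (y + a) = r + y + (a + a) := by abel
    rwa [e, ZModModule.add_self, add_zero] at h3
  obtain ⟨z, hz, hb, hn⟩ := OmPowx871.exists_cycle φ p
  rcases Nat.eq_zero_or_pos l with rfl | hl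
  · rcases OmPowx871.span_zero hk φ (HspSS696.ptS (Concx150.cO p)) hy with h | h
    · exact Or.inl h
    rcases OmPowx871.span_zero hk φ (HspSS696.ptS (Concx150.cO p)) hr with h' | h'
    · exact Or.inr (Or.inl h')
    exact Or.inr (Or.inr (key _ h h'))
  · rcases OmPowx871.AmO_span hk φ hz hb hn hl hy hyb with h | ⟨m, i1, hm, h⟩
    · exact Or.inl h
    rcases OmPowx871.AmO_span hk φ hz hb hn hl hr hrb with h' | ⟨m', i2, hm', h'⟩
    · exact Or.inr (Or.inl h')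
    have e : m = m' := Nat.eq_of_mul_eq_mul_right hk (hm.trans hm'.symm)
    subst e
    exact Or.inr (Or.inr (key _ h h'))

omit [CompactSpace M] in
include hk φ in
theorem vm_rel_ne (q : M) {z : CO p} (hz : z ∈ N.gr F2 (SS.Sing (Concx150.Om p)) k)
    (hb : N.bd F2 _ z = 0) (hn : z ∉ LinearMap.range (N.bd F2 (SS.Sing (Concx150.Om p)))) (m : ℕ) :
    vm (m + 1) z ∉ RelBd (SS.SingMap (TDegx961.inc (TDegx961.Uq q))) := by
  rcases m with _ | m
  · exact vm_one_ne hk φ q hz hb hn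
  · exact vm_succ_ne hk φ q hz hb hn (m + 1) (Am_not_bd hk φ hz hb hn (m + 1))

include L hk φ in
/-- **the inputs of `Onto`** -/
theorem ontoIn {q : M} {G : WangGeo M (Lp M)} (hX : G.X = X M) (hOm : G.O = ArcSysx694.Om p)
    (he : ∀ γ, G.e γ = γ 0) (hq : q ∉ G.D) : OntoIn G (k + 1) := by
  obtain ⟨z0, hz0, hb0, hn0⟩ := OmPowx871.exists_cycle φ p
  obtain ⟨t0, z, w, h1, h2, h3, h4⟩ := lip_rep L hz0 hb0
  have hn : z ∉ LinearMap.range (N.bd F2 (SS.Sing (Concx150.Om p))) := by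
    rintro ⟨u, hu⟩
    refine hn0 ⟨u + w, ?_⟩
    rw [map_add, hu, ← h4]
  constructor
  · intro t l y hy hyl hyb r hr hrl hrb
    rw [hOm] at hy hr ⊢
    have hy' := CS_Om_iff.2 ⟨t, hy⟩
    have hr' := CS_Om_iff.2 ⟨t, hr⟩
    rcases dimO hk φ (rO_gr (p := p) hyl) (by rw [bd_rO hy'.1, hyb, map_zero])
      (rO_gr (p := p) hrl) (by rw [bd_rO hr'.1, hrb, map_zero]) with h | h | h
    · exact Or.inl (fin_of L hy' h)
    · exact Or.inr (Or.inl (fin_of L hr' h))
    · rw [← map_add] at h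
      exact Or.inr (Or.inr (fin_of L (Submodule.add_mem _ hr' hy') h))
  · intro t l y hy hyl hyb
    rw [hOm] at hy ⊢
    have hy' := CS_Om_iff.2 ⟨t, hy⟩
    by_cases hfin : rO p y ∈ LinearMap.range (N.bd F2 (SS.Sing (Concx150.Om p)))
    · exact Or.inl (fin_of L hy' hfin)
    have hl : ∃ m, m * k = l := by
      rcases Nat.eq_zero_or_pos l with rfl | hl
      · exact ⟨0, Nat.zero_mul k⟩
      · rcases OmPowx871.AmO_span hk φ h2 h3 hn hl (rO_gr (p := p) hyl)
          (by rw [bd_rO hy'.1, hyb, map_zero]) with h | ⟨m, -, hm, -⟩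
        · exact absurd h hfin
        · exact ⟨m, hm⟩
    obtain ⟨m, rfl⟩ := hl
    refine Or.inr ?_
    have hv := vm_mem_CS (m + 1) h1
    refine ⟨_, vm (m + 1) z, by rw [hX]; exact hv, ?_, bd_vm (m + 1) h3, fun s' hs' => ?_⟩
    · have := vm_mem_gr (m + 1) h2
      have e : (m + 1) * k + 1 = m * k + (k + 1) := by ring
      rwa [e] at this
    · refine vm_rel_ne hk φ q h2 h3 hn m ?_
      rw [mem_Bp'] at hs'
      obtain ⟨r, hr, u, hu, e⟩ := hs'
      have hr' : r ∈ CS (TDegx961.Uq q) := by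
        refine CS_mono (fun γ hγ => ?_) hr
        have h5 : G.e γ ∈ G.D := hγ.2
        rw [he] at h5
        exact fun h6 => hq (h6 ▸ h5)
      rw [CS_eq_range] at hr'
      obtain ⟨r', rfl⟩ := hr'
      exact mem_RelBd.2 ⟨u, r', by rw [e, add_comm]; rfl⟩

include L hk φ in
/-- **the output of the Wang package for a sphere** -/
theorem wangOut_sphere (A : ArcSysx694.ArcSys M D p) (A' : ArcSysx694.ArcSys M D' p)
    (oD : IsOpen D) (oD' : IsOpen D') (cov : ∀ b, b ∈ D ∨ b ∈ D') (hp : p ∈ D)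
    (hcst : ∀ u ∈ Icc (0 : ℝ) 1, A.arc p u = p) {q : M} (hq : q ∉ D)
    {U : Co (SS.Sing M)} (hU : PtCo D U) (hK : ∀ O : Set (Lp M), Kun D D' U O)
    (hn : Deg (k + 1) U) : WangOut (YO (M := M) p) (mix M) (FF M) (k + 1) (iO p) :=
  wangOut A A' oD oD' cov hp hcst hU hK hn
    (onto_of hU hK hn (ontoIn L hk φ (G := wangGeo A A' oD oD' cov hp hcst) rfl rfl
      (fun _ => rfl) hq))

end Crest.Agent.R231.WgOntox525
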