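import Crest.Agent.R231.WgLv_525

/-!
# Row 231 (S0357), Wang package: `j_!` is onto in the limit (helper525)

`onto_of` : `Onto G hU` from
* `dim` : two based cycles of the same degree are linearly dependent in `H(Ω_∞)`
* `gen` : if a based cycle of degree `l` is not a boundary, there is an absolute cycle of degree `l + n`
  which is not trivial modulo the loops over `D`
-/

set_option autoImplicit false

noncomputable section

open Set Topology Function
open Crest.Agent.R204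

namespace Crest.Agent.R231.WgLvx525

open Pairx877 Capx226 CapCSx780 SmallCSx226 SingAct265 EZ271 Gr334 IfWangx525 WangAbsx525
open IfWangx525.WangGeo

variable {E B : Type} [TopologicalSpace E] [TopologicalSpace B]
variable {G : WangGeo B E} {U : Co (SS.Sing B)} (hU : PtCo G.D U)

/-- `j_! [v] = [y]` at level `s` -/
def HitAt (s : ℝ) (v y : CE E) : Prop :=
  ∃ hs : 0 ≤ s, ∃ hv : v ∈ CS (G.X s), ∃ hb : bdE E v = 0,
    ∃ hy : y ∈ CS (G.O (s + G.c)), ∃ hy' : bdE E y = 0,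
      jsh hU hs (Hr.mk _ _ _ v hv (by rw [hb]; exact Submodule.zero_mem _)) =
        Hr.mk _ _ _ y hy (by rw [hy']; exact Submodule.zero_mem _)

variable {hU} in
theorem HitAt.up {s s' : ℝ} (h : s ≤ s') {v y : CE E} (H : HitAt hU s v y) : HitAt hU s' v y := by
  obtain ⟨hs, hv, hb, hy, hy', e⟩ := H
  refine ⟨hs.trans h, CS_mono (G.X_mono h) hv, hb, CS_mono (G.O_mono (by linarith)) hy, hy', ?_⟩
  have h1 := jsh_inc hU hs h (Hr.mk _ _ _ v hv (by rw [hb]; exact Submodule.zero_mem _))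
  rw [e, Hr.inc_mk, Hr.inc_mk] at h1
  exact h1

variable {hU} in
theorem HitAt.add {s : ℝ} {v y v' y' : CE E} (H : HitAt hU s v y) (H' : HitAt hU s v' y') :
    HitAt hU s (v + v') (y + y') := by
  obtain ⟨hs, hv, hb, hy, hy', e⟩ := H
  obtain ⟨_, gv, gb, gy, gy', e'⟩ := H'
  refine ⟨hs, Submodule.add_mem _ hv gv, by rw [map_add, hb, gb, add_zero],
    Submodule.add_mem _ hy gy, by rw [map_add, hy', gy', add_zero], ?_⟩
  have h1 := Hr.mk_add (d := bdE E) (X := CS (G.X s)) (A := CS (G.W s)) hv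
    (by rw [hb]; exact Submodule.zero_mem _) gv (by rw [gb]; exact Submodule.zero_mem _)
  have h2 := Hr.mk_add (d := bdE E) (X := CS (G.O (s + G.c))) (A := CS (∅ : Set E)) hy
    (by rw [hy']; exact Submodule.zero_mem _) gy (by rw [gy']; exact Submodule.zero_mem _)
  rw [h1, h2, map_add, e, e']

/-- `y` is in the image of `j_!` of the absolute cycles -/
def Hit (y : CE E) : Prop := ∃ s v, HitAt hU s v y

variable {hU} in
theorem Hit.add {y y' : CE E} (H : Hit hU y) (H' : Hit hU y') : Hit hU (y + y') := by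
  obtain ⟨s, v, h⟩ := H
  obtain ⟨s', v', h'⟩ := H'
  exact ⟨max s s', v + v', (h.up (le_max_left _ _)).add (h'.up (le_max_right _ _))⟩

/-- boundaries are hit -/
theorem hit_bd {t : ℝ} {y : CE E} (h : ∃ w ∈ CS (G.O t), bdE E w = y) : Hit hU y := by
  obtain ⟨w, hw, rfl⟩ := h
  have hc := G.c_nonneg
  have hle : t ≤ max t 0 + G.c := (le_max_left t 0).trans (by linarith)
  have hw' : w ∈ CS (G.O (max t 0 + G.c)) := CS_mono (G.O_mono hle) hw
  refine ⟨max t 0, 0, le_max_right _ _, Submodule.zero_mem _, map_zero _, bd_mem_CS _ hw',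
    bd_bdE w, ?_⟩
  have h1 : Hr.mk (bdE E) (CS (G.X (max t 0))) (CS (G.W (max t 0))) 0 (Submodule.zero_mem _)
      (by rw [map_zero]; exact Submodule.zero_mem _) = 0 := by
    rw [HP_mk_eq_zero]; exact Submodule.zero_mem _
  rw [h1, map_zero]
  refine Eq.symm ?_
  rw [HP_mk_eq_zero, mem_Bp_empty]
  exact ⟨w, hw', rfl⟩

variable {hU} in
theorem Hit.add_bd {y y' : CE E} (H : Hit hU y) {t : ℝ} (h : ∃ w ∈ CS (G.O t), bdE E w = y + y') :
    Hit hU y' := by
  have := H.add (hit_bd hU h)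
  rwa [← add_assoc, WangAbsx525.add_self, zero_add] at this

theorem hit_of_gr {t : ℝ} (h : ∀ l, ∀ y ∈ CS (G.O t), y ∈ N.gr F2 (SS.Sing E) l → bdE E y = 0 →
    Hit hU y) {y : CE E} (hy : y ∈ CS (G.O t)) (hb : bdE E y = 0) : Hit hU y := by
  obtain ⟨M, -, hM⟩ := exists_sum_prN y
  rw [hM]
  refine Finset.sum_induction _ (Hit hU) (fun a b => Hit.add) ?_ ?_
  · exact hit_bd hU ⟨0, Submodule.zero_mem (CS (G.O t)), map_zero _⟩
  · intro l _
    refine h l _ (prN_mem_CS _ _ hy) (prN_mem _ _) ?_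
    rcases l with _ | l
    · exact bd_pE_zero y
    · exact (pE_bd l y).symm.trans (by rw [hb, map_zero])

/-- **the inputs of the surjectivity** -/
structure OntoIn (G : WangGeo B E) (n : ℕ) : Prop where
  dim : ∀ t l, ∀ y ∈ CS (G.O t), y ∈ N.gr F2 (SS.Sing E) l → bdE E y = 0 →
    ∀ r ∈ CS (G.O t), r ∈ N.gr F2 (SS.Sing E) l → bdE E r = 0 →
    (∃ t', ∃ w ∈ CS (G.O t'), bdE E w = y) ∨ (∃ t', ∃ w ∈ CS (G.O t'), bdE E w = r) ∨
      ∃ t', ∃ w ∈ CS (G.O t'), bdE E w = r + y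
  gen : ∀ t l, ∀ y ∈ CS (G.O t), y ∈ N.gr F2 (SS.Sing E) l → bdE E y = 0 →
    (∃ t', ∃ w ∈ CS (G.O t'), bdE E w = y) ∨ ∃ s, ∃ v ∈ CS (G.X s),
      v ∈ N.gr F2 (SS.Sing E) (l + n) ∧ bdE E v = 0 ∧ ∀ s', v ∉ Bp (G.X s') (G.W s')

/-- **`j_!` is onto in the limit** -/
theorem onto_of (hK : ∀ O : Set E, Kun G.D G.D' U O) {n : ℕ} (hn : Deg n U) (I : OntoIn G n) :
    Onto G hU := by
  have hc := G.c_nonneg
  have key : ∀ t, ∀ l, ∀ y ∈ CS (G.O t), y ∈ N.gr F2 (SS.Sing E) l → bdE E y = 0 →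
      Hit hU y := by
    intro t l y hy hl hb
    rcases I.gen t l y hy hl hb with h | ⟨s0, v, hv, hvj, hvb, hvne⟩
    · obtain ⟨t', h⟩ := h
      exact hit_bd hU h
    set s := max (max s0 t) 0 with hs
    have hs0 : 0 ≤ s := le_max_right _ _
    have hss : s0 ≤ s := (le_max_left _ _).trans (le_max_left _ _)
    have hts : t ≤ s := (le_max_right _ _).trans (le_max_left _ _)
    have hvX : v ∈ CS (G.X s) := CS_mono (G.X_mono hss) hv
    have hvW : bdE E v ∈ CS (G.W s) := by rw [hvb]; exact Submodule.zero_mem _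
    obtain ⟨z₁, h₁, z₂, h₂, h₂j, w, hw, e⟩ := exists_dec_gr hvj hvX hvW
    have hjm := jsh_mk hU hs0 hvX hvW h₁ h₂ hw e
    set r := push (G.V s) (G.cn s) (G.cn_cont s hs0) (cap (pb G.e U) z₂) with hr
    have hrO : r ∈ CS (G.O (s + G.c)) := push_mem (G.cn_mem s hs0) _ (cap_mem_CS _ _ h₂)
    have hrb : bdE E r = 0 := by
      have h3 : bdE E r ∈ CS (∅ : Set E) := by
        rw [hr, bd_push _ (cap_mem_CS _ _ h₂)]
        exact push_mem (mapsTo_empty _ _) _
            (cap_cyc (pb_zero G.e hU) (pb_cocycle G.e hU) h₂ (bd_mem_inf hvW h₁ h₂ e))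
      rwa [CS_empty, Submodule.mem_bot] at h3
    have hrl : r ∈ N.gr F2 (SS.Sing E) l :=
      push_mem_gr (cap_mem_gr (q := n) (n := l) (hn.pull _) (by rwa [add_comm n l]))
    have hit : Hit hU r := ⟨s, v, hs0, hvX, hvb, hrO, hrb, hjm⟩
    have hyO : y ∈ CS (G.O (s + G.c)) := CS_mono (G.O_mono (by linarith)) hy
    rcases I.dim (s + G.c) l y hyO hl hb r hrO hrl hrb with h | h | h
    · obtain ⟨t', h⟩ := h
      exact hit_bd hU h
    · exfalso
      obtain ⟨t', q, hq, eq⟩ := h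
      set s' := max s t' with hs'
      have h1 := jsh_inc hU hs0 (le_max_left s t') (Hr.mk _ _ _ v hvX hvW)
      rw [hjm, Hr.inc_mk, Hr.inc_mk] at h1
      have h2 : Hr.mk (bdE E) (CS (G.O (max s t' + G.c))) (CS (∅ : Set E)) r
          (CS_mono (G.O_mono (by linarith [le_max_left s t'])) hrO)
          (by rw [hrb]; exact Submodule.zero_mem _) = 0 := by
        rw [HP_mk_eq_zero, mem_Bp_empty]
        exact ⟨q, CS_mono (G.O_mono (by linarith [le_max_right s t'])) hq, eq.symm⟩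
      rw [h2] at h1
      exact hvne _ (wang_one hU hK (hs0.trans (le_max_left s t'))
        (CS_mono (G.X_mono (le_max_left s t')) hvX) (by rw [hvb]; exact Submodule.zero_mem _) h1)
    · obtain ⟨t', h⟩ := h
      exact hit.add_bd h
  intro t ht y hy hb
  obtain ⟨s, v, H⟩ := hit_of_gr hU (fun l y hy hl hb => key t l y hy hl hb) hy hb
  obtain ⟨hs, hv, hb', hy', hyb, e⟩ := H.up (le_max_left s t)
  exact ⟨max s t, hs, le_max_right _ _, v, hv, hb', hy', hyb, e⟩

end Crest.Agent.R231.WgLvx525
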