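import Crest.Agent.R231.WgOnto_961
import Crest.Agent.R231.WgOut_525
import Crest.Agent.R231.WgKun_667
import Crest.Agent.R231.ArcInst_694
import Crest.Agent.R231.GeoLug_724

/-!
# Row 231 (S0357), Wang package on `(S^n, g)` (helper961)

* `exists_U` : the point cocycle on `SG g` and `Kun` for every space
* `wangSG` : the Wang data of `slerp p`, `slerpN p`
* `onto_SG` : `j_!` is onto
* `wangOut_SG` : `WangOut (YO p) (mix (SG g)) (FF (SG g)) n (iO p)`, `n ≥ 2`, no hypotheses
-/

set_option autoImplicit false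
set_option linter.unusedSectionVars false

noncomputable section

open Bundle Set Filter
open scoped Manifold ContDiff Bundle ENNReal Topology
open Crest.Agent.R226 Crest.Agent.R226.GeoBasic616 Crest.Agent.R226.TB616
open Crest.Agent.R204

namespace Crest.Agent.R231.WgSGx961

open Pairx877 Capx226 CapCSx780 SingAct265 EZ271 Gr334 IfWangx525 WangAbsx525 WgLvx525 WgGeox525
open GLugx576 ArcSysx694 YLcx475 BDAx969 IfAx978 Instx895 TActx569 TCx569 WgOutx525
open ArcInstx694 GeoBasex724 GeoLugx724 WgKunx667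

/-- **the point cocycle of `SG g`**, `Kun` for every complement of another point -/
theorem exists_U {k : ℕ} (g : Met (k + 1)) (q : SG g) :
    ∃ U : Co (SS.Sing (SG g)), PtCo ({q}ᶜ : Set (SG g)) U ∧
      (∃ z, bdE (SG g) z = 0 ∧ U z = 1) ∧ Deg (k + 1) U ∧
      ∀ (p : SG g), p ≠ q → ∀ (E : Type) [TopologicalSpace E] (O : Set E),
        Kun ({q}ᶜ : Set (SG g)) {p}ᶜ U O := by
  obtain ⟨U, hU, h1, hd⟩ := exists_ptCo (n := k) ((toSG g).symm q)
  exact ⟨U, hU, h1, hd, fun p hpq E _ O =>
    kun_sphere (n := k) (p := (toSG g).symm p) (q := (toSG g).symm q) hpq hU h1 O⟩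

section

variable {n : ℕ} [NeZero n] {g : Met n} (p : SG g)

/-- the Wang data of `(S^n, g)`, based at `p`: `D` = complement of the antipode, `D'` = complement
of `p` -/
def wangSG : WangGeo (SG g) (Lp (SG g)) :=
  wangGeo (slerp p) (slerpN p) isClosed_singleton.isOpen_compl isClosed_singleton.isOpen_compl
    (fun b => by
      by_cases h : b = p
      · left; rw [h]; exact fun h' => neg_ne p h'.symm
      · right; exact h)
    (fun h => neg_ne p h.symm) (fun u _ => slerp_self p u)

theorem wangSG_D : (wangSG p).D = ({neg p}ᶜ : Set (SG g)) := rfl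

theorem wangSG_D' : (wangSG p).D' = ({p}ᶜ : Set (SG g)) := rfl

theorem wangSG_X : (wangSG p).X = X (SG g) := rfl

theorem wangSG_O : (wangSG p).O = Om p := rfl

end

section

variable {n : ℕ} [NeZero n] (g : Met n) (hn : 2 ≤ n) (p : SG g)
include hn

theorem onto_SG : ∃ (U : Co (SS.Sing (SG g))) (hU : PtCo (wangSG p).D U),
    (∃ z, bdE (SG g) z = 0 ∧ U z = 1) ∧ Deg n U ∧
    (∀ (E : Type) [TopologicalSpace E] (O : Set E),
      Kun (wangSG p).D (wangSG p).D' U O) ∧ Onto (wangSG p) hU := by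
  obtain ⟨k, rfl⟩ : ∃ k, n = k + 1 := ⟨n - 1, by omega⟩
  obtain ⟨G⟩ := nonempty_geoData g
  obtain ⟨U, hU, h1, hd, hK⟩ := exists_U g (neg p)
  have hpq : p ≠ neg p := fun h => neg_ne p h.symm
  refine ⟨U, hU, h1, hd, fun E _ O => hK p hpq E O, ?_⟩
  exact WgOntox961.onto (k := k) (G := wangSG p) (p := p) (lug G) rfl rfl hU
    (fun O => hK p hpq (Lp (SG g)) O) hd (by omega) (toSG g).symm hpq

/-- **the output of the Wang package on `(S^n, g)`** -/
theorem wangOut_SG : WangOut (YO (M := SG g) p) (mix (SG g)) (FF (SG g)) n (iO p) := by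
  obtain ⟨U, hU, -, hd, hK, hO⟩ := onto_SG g hn p
  exact wangOut (slerp p) (slerpN p) isClosed_singleton.isOpen_compl
    isClosed_singleton.isOpen_compl _ _ _ hU (fun O => hK (Lp (SG g)) O) hd hO

end

end Crest.Agent.R231.WgSGx961
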