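import Crest.Agent.R231.WgOntoM_525
import Crest.Agent.R231.WgKun_667
import Crest.Agent.R231.ArcInst_694

/-!
# Row 231 (S0357), Wang package: the sphere with any metric (helper525)

* `kun_homeo` : transport of `Kun` along a homeomorphism of the base
* `exists_U` : point cocycle of `SG g` with the Künneth input
* `wangOut_SG` : `WangOut (YO p) (mix (SG g)) (FF (SG g)) (k + 1) (iO p)`, no hypothesis left
-/

set_option autoImplicit false

noncomputable section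

open Set Topology Function
open Crest.Agent.R204

namespace Crest.Agent.R231.WgSphx525

open Pairx877 Capx226 CapCSx780 SingAct265 EZ271 Gr334 IfWangx525 WangAbsx525 WgLvx525 WgGeox525
open GLugx576 YLcx475 BDAx969 IfAx978 Instx895 TActx569 TCx569 WgOutx525 WgOntox525
open GeoBasex724 ArcInstx694 ArcSysx694

section homeo

variable {B B' E : Type} [TopologicalSpace B] [TopologicalSpace B'] [TopologicalSpace E]

theorem ptCo_homeo (φ : B ≃ₜ B') {D : Set B'} {U : Co (SS.Sing B')} (hU : PtCo D U) :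
    PtCo (φ ⁻¹' D) (pb (φ : C(B, B')) U) where
  zero z hz := hU.zero _ (mp_mem (φ : C(B, B')) (fun _ h => h) z hz)
  cocycle z := by
    rw [pb_apply, ← mp_bd]
    exact hU.cocycle _

/-- the product homeomorphism -/
def prH (φ : B ≃ₜ B') (E : Type) [TopologicalSpace E] : C(B × E, B' × E) :=
  ⟨fun x => (φ x.1, x.2), by fun_prop⟩

theorem mp_comp {X Y Z : Type} [TopologicalSpace X] [TopologicalSpace Y] [TopologicalSpace Z]
    (f : C(X, Y)) (g : C(Y, Z)) (c : CE X) : mp g (mp f c) = mp (g.comp f) c := by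
  rw [mp, mp, mp, ← Exc406.N_map_comp]
  rfl

theorem pb_comp {X Y Z : Type} [TopologicalSpace X] [TopologicalSpace Y] [TopologicalSpace Z]
    (f : C(X, Y)) (g : C(Y, Z)) (u : Co (SS.Sing Z)) : pb f (pb g u) = pb (g.comp f) u :=
  LinearMap.ext fun z => by rw [pb_apply, pb_apply, pb_apply, mp_comp]

theorem mp_id {X : Type} [TopologicalSpace X] (c : CE X) : mp (ContinuousMap.id X) c = c :=
  map_idHom F2 c

theorem mp_cap {X Y : Type} [TopologicalSpace X] [TopologicalSpace Y]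
    (f : C(X, Y)) (u : Co (SS.Sing Y)) (c : CE X) : mp f (cap (pb f u) c) = cap u (mp f c) :=
  map_cap _ _ _

theorem pr1_prH (φ : B ≃ₜ B') : (pr1 B' E).comp (prH φ E) = (φ : C(B, B')).comp (pr1 B E) := rfl
theorem pr2_prH (φ : B ≃ₜ B') : (pr2 B' E).comp (prH φ E) = pr2 B E := rfl

theorem prH_symm (φ : B ≃ₜ B') : (prH φ.symm E).comp (prH φ E) = ContinuousMap.id _ :=
  ContinuousMap.ext fun x => Prod.ext (φ.symm_apply_apply x.1) rfl

theorem prH_mem (φ : B ≃ₜ B') (A : Set B') (O : Set E) (c : CE (B × E))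
    (hc : c ∈ CS ((φ ⁻¹' A) ×ˢ O)) : mp (prH φ E) c ∈ CS (A ×ˢ O) :=
  mp_mem (A := (φ ⁻¹' A) ×ˢ O) (A' := A ×ˢ O) (prH φ E) (fun _ hx => ⟨hx.1, hx.2⟩) c hc

theorem prH_mem' (φ : B ≃ₜ B') (A : Set B') (O : Set E) (c : CE (B' × E))
    (hc : c ∈ CS (A ×ˢ O)) : mp (prH φ.symm E) c ∈ CS ((φ ⁻¹' A) ×ˢ O) :=
  mp_mem (A := A ×ˢ O) (A' := (φ ⁻¹' A) ×ˢ O) (prH φ.symm E) (fun x hx => ⟨by
    show φ (φ.symm x.1) ∈ A
    rw [φ.apply_symm_apply]; exact hx.1, hx.2⟩) c hc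

theorem kun_key (φ : B ≃ₜ B') (U : Co (SS.Sing B')) (y : CE (B × E)) :
    mp (pr2 B' E) (cap (pb (pr1 B' E) U) (mp (prH φ E) y)) =
      mp (pr2 B E) (cap (pb (pr1 B E) (pb (φ : C(B, B')) U)) y) := by
  rw [← mp_cap, mp_comp, pb_comp, pb_comp, pr1_prH, pr2_prH]

theorem kun_homeo (φ : B ≃ₜ B') {D D' : Set B'} {U : Co (SS.Sing B')} {O : Set E}
    (h : Kun D D' U O) : Kun (φ ⁻¹' D) (φ ⁻¹' D') (pb (φ : C(B, B')) U) O := by
  intro y hy hc
  have hy1 : y ∈ CS ((φ ⁻¹' D') ×ˢ O) := (Submodule.mem_inf.1 hy).1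
  have hy2 : bdE (B × E) y ∈ CS ((φ ⁻¹' (D' ∩ D)) ×ˢ O) := (Submodule.mem_inf.1 hy).2
  rw [← kun_key] at hc
  have h2 : bdE (B' × E) (mp (prH φ E) y) ∈ CS ((D' ∩ D) ×ˢ O) := by
    rw [mp_bd]
    exact prH_mem φ (D' ∩ D) O _ hy2
  have h3 := h _ (Submodule.mem_inf.2 ⟨prH_mem φ D' O _ hy1, h2⟩) hc
  have h4 : mp (prH φ.symm E) (mp (prH φ E) y) = y := by
    rw [mp_comp, prH_symm, mp_id]
  rw [mem_Bp'] at h3
  obtain ⟨r, hr, w, hw, e⟩ := h3
  have h5 : y = mp (prH φ.symm E) r + bdE (B × E) (mp (prH φ.symm E) w) := by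
    rw [← h4, e, map_add, mp_bd]
  exact mem_Bp'.2 ⟨_, prH_mem' φ (D' ∩ D) O r hr, _, prH_mem' φ D' O w hw, h5⟩

end homeo

section sphere

variable {k : ℕ}

theorem exists_U (g : Met (k + 1)) (p : SG g) : ∃ U : Co (SS.Sing (SG g)),
    PtCo ({neg p}ᶜ : Set (SG g)) U ∧
      (∀ (E : Type) [TopologicalSpace E] (O : Set E), Kun ({neg p}ᶜ : Set (SG g)) {p}ᶜ U O) ∧
      Deg (k + 1) U := by
  set φ : SG g ≃ₜ SpecA.Sph (k + 1) := (toSG g).symm with hφ
  obtain ⟨U, hU, h1, hdeg⟩ := WgKunx667.exists_ptCo (n := k) (φ (neg p))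
  have e : ∀ x : SG g, φ ⁻¹' ({φ x}ᶜ : Set (SpecA.Sph (k + 1))) = {x}ᶜ := fun x =>
    Set.ext fun y => (φ.injective.ne_iff : φ y ≠ φ x ↔ y ≠ x)
  have hne : φ p ≠ φ (neg p) := fun h => neg_ne p (φ.injective h).symm
  refine ⟨pb (φ : C(SG g, SpecA.Sph (k + 1))) U, ?_, fun E _ O => ?_, Deg.pull hdeg _⟩
  · have := ptCo_homeo φ hU
    rwa [e] at this
  · have := kun_homeo φ (WgKunx667.kun_sphere hne hU h1 O)
    rwa [e, e] at this

/-- **the output of the Wang package** for the sphere `(S^(k+1), g)`, `k ≥ 1` -/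
theorem wangOut_SG (hk : 1 ≤ k) (g : Met (k + 1)) (L : LUG (SG g)) (p : SG g) :
    WangOut (YO (M := SG g) p) (mix (SG g)) (FF (SG g)) (k + 1) (iO p) := by
  obtain ⟨U, hU, hK, hdeg⟩ := exists_U g p
  refine wangOut_sphere L hk (toSG g).symm (slerp p) (slerpN p) isOpen_compl_singleton
    isOpen_compl_singleton (fun b => ?_) (fun h => neg_ne p h.symm) (fun u _ => slerp_self p u)
    (q := neg p) (fun h => h rfl) hU (hK _) hdeg
  by_cases h : b = p
  · exact Or.inl (by rw [h]; exact fun h' => neg_ne p h'.symm)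
  · exact Or.inr h

end sphere

end Crest.Agent.R231.WgSphx525
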