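import Crest.Agent.R231.SgAdd_475
import Crest.Agent.R231.YLc_475
import Crest.Agent.R231.LvAlg_969

/-!
# Row 231 (S0357), block P: from the levelled algebra `LevA` to chains of based loops (helper475)

`Cmp K O` : comparison of the levelled algebra `K : LevA D` (Lev_969) with the cycles of a monotone
family `O : ℝ → Set E`: `θ t c ∈ K.A t` is the class of the cycle `c ∈ CS (O t)`.
* `bd_of : Cmp K O → K.HasTh → (yLC O hO).BD`
* `pw_of : Cmp K O → K.HasTh → PwData (yLC O hO) D (Pw ..) (τ = sg K)`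
-/

set_option autoImplicit false
set_option linter.unusedSectionVars false

noncomputable section

open Set Topology
open scoped NNReal
open Crest.Agent.R204

namespace Crest.Agent.R231.YOutx475

open Pairx877 SingAct265 EZ271 BDAx969 Levx969 SgAddx475 YLcx475

variable {E : Type} [TopologicalSpace E]

/-- comparison of the algebra `K` with the cycles of the family `O` -/
structure Cmp {D : ℕ} (K : LevA D) (O : ℝ → Set E) where
  mono : Monotone O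
  neg : ∀ t : ℝ, t < 0 → O t = ∅
  /-- simplices of positive degree of `O 0` are degenerate -/
  zero : ∀ (j : ℕ) (c : CE E), c ∈ CS (O 0) → c ∈ N.gr F2 (SS.Sing E) (j + 1) → c = 0
  θ : ∀ (t : ℝ≥0) (c : CE E), c ∈ CS (O (t : ℝ)) → bdE E c = 0 → K.A t
  θ_add : ∀ (t : ℝ≥0) (c c' : CE E) (hc : c ∈ CS (O (t : ℝ))) (hb : bdE E c = 0)
    (hc' : c' ∈ CS (O (t : ℝ))) (hb' : bdE E c' = 0) (h1 : c + c' ∈ CS (O (t : ℝ)))
    (h2 : bdE E (c + c') = 0), θ t (c + c') h1 h2 = θ t c hc hb + θ t c' hc' hb'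
  θ_zero : ∀ (t : ℝ≥0) (c : CE E) (hc : c ∈ CS (O (t : ℝ))) (hb : bdE E c = 0),
    θ t c hc hb = 0 ↔ ∃ w ∈ CS (O (t : ℝ)), bdE E w = c
  θ_gr : ∀ (t : ℝ≥0) (c : CE E) (hc : c ∈ CS (O (t : ℝ))) (hb : bdE E c = 0) (j : ℕ),
    c ∈ N.gr F2 (SS.Sing E) j → θ t c hc hb ∈ K.gr t j
  θ_surj : ∀ (t : ℝ≥0) (j : ℕ) (y : K.A t), y ∈ K.gr t j → ∃ (c : CE E) (hc : c ∈ CS (O (t : ℝ)))
    (hb : bdE E c = 0), c ∈ N.gr F2 (SS.Sing E) j ∧ θ t c hc hb = y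
  θ_inc : ∀ {s t : ℝ≥0} (h : s ≤ t) (c : CE E) (hc : c ∈ CS (O (s : ℝ))) (hc' : c ∈ CS (O (t : ℝ)))
    (hb : bdE E c = 0), θ t c hc' hb = K.inc h (θ s c hc hb)

variable {D : ℕ} {K : LevA D} {O : ℝ → Set E} (C : Cmp K O)

namespace Cmp

include C in
theorem nonneg {t : ℝ} {c : CE E} (hc : c ∈ CS (O t)) (h0 : c ≠ 0) : 0 ≤ t := by
  by_contra h
  push Not at h
  rw [C.neg t h, CS_empty, Submodule.mem_bot] at hc
  exact h0 hc

/-- the class of a finite cycle is finite -/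
theorem fin_θ {t : ℝ≥0} {c : CE E} (hc : c ∈ CS (O (t : ℝ))) (hb : bdE E c = 0) :
    K.Fin (C.θ t c hc hb) ↔ ∃ u : ℝ, ∃ w ∈ CS (O u), bdE E w = c := by
  constructor
  · rintro ⟨u, h1, h2⟩
    have hcu : c ∈ CS (O (u : ℝ)) := CS_mono (C.mono (NNReal.coe_le_coe.2 h1)) hc
    rw [← C.θ_inc h1 c hc hcu hb, C.θ_zero] at h2
    exact ⟨u, h2⟩
  · rintro ⟨u, w, hw, h⟩
    obtain ⟨v, hv1, hv2⟩ : ∃ v : ℝ≥0, t ≤ v ∧ u ≤ v :=
      ⟨max t u.toNNReal, le_max_left _ _, (Real.le_coe_toNNReal u).trans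
        (NNReal.coe_le_coe.2 (le_max_right _ _))⟩
    have hcv : c ∈ CS (O (v : ℝ)) := CS_mono (C.mono (NNReal.coe_le_coe.2 hv1)) hc
    refine ⟨v, hv1, ?_⟩
    rw [← C.θ_inc hv1 c hc hcv hb, C.θ_zero]
    exact ⟨w, CS_mono (C.mono hv2) hw, h⟩

theorem θ_eqv {s t : ℝ≥0} {c : CE E} (hc : c ∈ CS (O (s : ℝ))) (hc' : c ∈ CS (O (t : ℝ)))
    (hb : bdE E c = 0) : K.Eqv (C.θ s c hc hb) (C.θ t c hc' hb) := by
  have h1 : c ∈ CS (O ((max s t : ℝ≥0) : ℝ)) :=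
    CS_mono (C.mono (NNReal.coe_le_coe.2 (le_max_left s t))) hc
  exact ⟨max s t, le_max_left _ _, le_max_right _ _, by
    rw [← C.θ_inc (le_max_left s t) c hc h1 hb, ← C.θ_inc (le_max_right s t) c hc' h1 hb]⟩

/-- **bounded bars for the chains of the based loops** -/
theorem bd_of (hD : 1 ≤ D) (hT : K.HasTh) : (yLC O C.mono).BD := by
  obtain ⟨c, hc⟩ := bd hD hT
  refine ⟨c, c.2, fun j t x ht hx hfin => ?_⟩
  obtain ⟨u, w, hw, hwx⟩ := fin_iff.1 hfin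
  have hb : bdE E (yv C.mono j x) = 0 := by rw [← hwx, bd_bdE]
  rw [bnd_iff]
  lift t to ℝ≥0 using ht
  have h1 : yv C.mono j x ∈ CS (O (t : ℝ)) := hx
  have h2 : yv C.mono j x ∈ CS (O ((t + c : ℝ≥0) : ℝ)) :=
    CS_mono (C.mono (NNReal.coe_le_coe.2 le_self_add)) h1
  have h3 := hc j t (t + c) le_self_add _ le_rfl (C.θ_gr t _ h1 hb j (yv_gr x))
    ((C.fin_θ h1 hb).2 ⟨u, w, hw, hwx⟩)
  rw [← C.θ_inc le_self_add _ h1 h2 hb, C.θ_zero] at h3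
  exact h3

/-- `z` is a cycle of degree `m D` whose class is `x^m` -/
def Pw (m j : ℕ) (z : (yLC O C.mono).C j) : Prop :=
  j = m * D ∧ ∃ (hb : bdE E (yv C.mono j z) = 0) (t : ℝ≥0) (h : yv C.mono j z ∈ CS (O (t : ℝ))),
    K.Eqv (C.θ t (yv C.mono j z) h hb) (xp K m)

theorem Pw.gr {m j : ℕ} {z : (yLC O C.mono).C j} (h : C.Pw m j z) {t : ℝ≥0}
    (ht : yv C.mono j z ∈ CS (O (t : ℝ))) (hb : bdE E (yv C.mono j z) = 0) :
    C.θ t (yv C.mono j z) ht hb ∈ K.gr t (m * D) ∧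
      K.Eqv (C.θ t (yv C.mono j z) ht hb) (xp K m) := by
  obtain ⟨rfl, hb', s, hs, h1⟩ := h
  exact ⟨C.θ_gr _ _ _ _ _ (yv_gr z), (C.θ_eqv ht hs hb).trans h1⟩

theorem exists_level {j : ℕ} (z : (yLC O C.mono).C j) :
    ∃ t : ℝ≥0, yv C.mono j z ∈ CS (O (t : ℝ)) := by
  obtain ⟨t, ht⟩ := (mem_WU C.mono).1 (yv_WU z)
  exact ⟨t.toNNReal, CS_mono (C.mono (Real.le_coe_toNNReal t)) ht⟩

/-- **the additive structure of `H(Ω)` on chains** -/
theorem pw_of (hD : 1 ≤ D) (hT : K.HasTh) :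
    PwData (yLC O C.mono) D C.Pw (fun m => (sg K m : ℝ)) where
  deg m j z h := h.1
  cyc m j z h := by
    obtain ⟨_, hb, _⟩ := h
    exact cyc_iff.2 hb
  ne m j z h hfin := by
    obtain ⟨_, hb, t, ht, h1⟩ := h
    obtain ⟨u, w, hw, hwx⟩ := fin_iff.1 hfin
    exact xp_ne hD m (h1.symm.fin ((C.fin_θ ht hb).2 ⟨u, w, hw, hwx⟩))
  basis j z hj hcyc := by
    have hb := cyc_iff.1 hcyc
    obtain ⟨t, ht⟩ := C.exists_level z
    rcases basis hD hT j hj t _ (C.θ_gr t _ ht hb j (yv_gr z)) with h | ⟨k, hk, h⟩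
    · exact Or.inl (fin_iff.2 ((C.fin_θ ht hb).1 h))
    · exact Or.inr ⟨k, hk, hb, t, ht, h⟩
  τ_nonneg m := (sg K m).2
  above m t ht := by
    have ht0 : 0 ≤ t := (sg K m).2.trans ht.le
    lift t to ℝ≥0 using ht0
    have ht' : sg K m < t := NNReal.coe_lt_coe.1 ht
    obtain ⟨s, hs, y, hy, hy'⟩ := exists_near (K := K) m (tsub_pos_of_lt ht')
    rw [add_tsub_cancel_of_le ht'.le] at hs
    obtain ⟨c, hc, hb, hg, rfl⟩ := C.θ_surj s (m * D) y hy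
    refine ⟨ymk c hg (CS_le_WU O _ hc), CS_mono (C.mono (NNReal.coe_le_coe.2 hs.le)) hc, rfl, hb, s,
      hc, hy'⟩
  below m t j ht z hz hP := by
    obtain ⟨hj, hb, s, hs, h1⟩ := hP
    by_cases h0 : yv C.mono j z = 0
    · have h2 : K.Fin (C.θ s (yv C.mono j z) hs hb) :=
        (C.fin_θ hs hb).2 ⟨0, 0, Submodule.zero_mem _, by rw [map_zero, h0]⟩
      exact xp_ne hD m (h1.symm.fin h2)
    · have ht0 : 0 ≤ t := C.nonneg (mem_F.1 hz) h0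
      lift t to ℝ≥0 using ht0
      have h2 := Pw.gr C ⟨hj, hb, s, hs, h1⟩ (mem_F.1 hz) hb
      exact absurd (sg_le h2.1 h2.2) (not_le.2 (NNReal.coe_lt_coe.1 ht))
  sub m l := by
    have := sg_add hD hT m l
    exact_mod_cast this
  base j y hy := fin_iff.2 ⟨0, 0, Submodule.zero_mem _, by
    rw [map_zero, C.zero j _ (mem_F.1 hy) (yv_gr y)]⟩

end Cmp

end Crest.Agent.R231.YOutx475
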